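import Crest.Agent.R014.Ms4_667

/-!
Row 14, leaf MODSPACE (helper667), part 5: Mahler's compactness criterion on `ModSpace n`:
the set `thick ε` of lattices without nonzero vectors shorter than `ε` is compact, and every
compact set lies in some `thick ε`.
-/

set_option autoImplicit false

open MeasureTheory Filter Topology Matrix
open Crest.NumberTheoryR.Packets
open scoped ENNReal

namespace Crest.Agent.R014.Ms_667

variable {n : ℕ}

/-- the real matrix of an integer matrix. -/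
def rm (N : Matrix (Fin n) (Fin n) ℤ) : Matrix (Fin n) (Fin n) ℝ := N.map (Int.castRingHom ℝ)

lemma rm_mul (M N : Matrix (Fin n) (Fin n) ℤ) : rm (M * N) = rm M * rm N := by
  unfold rm
  exact Matrix.map_mul

lemma rm_det (N : Matrix (Fin n) (Fin n) ℤ) : (rm N).det = (N.det : ℝ) :=
  (RingHom.map_det (Int.castRingHom ℝ) N).symm

lemma rm_mul_apply (N : Matrix (Fin n) (Fin n) ℤ) (G : Matrix (Fin n) (Fin n) ℝ) (i : Fin n) :
    (rm N * G) i = rv (N i) ᵥ* G := by
  rfl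

/-- finitely many integer matrices of bounded nonzero determinant modulo right multiplication
by `SL_n(ℤ)`. -/
lemma finite_classes (n : ℕ) (B : ℤ) : ∃ F : Finset (Matrix (Fin n) (Fin n) ℤ),
    (∀ H ∈ F, H.det ≠ 0) ∧ ∀ N : Matrix (Fin n) (Fin n) ℤ, N.det ≠ 0 → |N.det| ≤ B →
      ∃ H ∈ F, ∃ γ : Matrix (Fin n) (Fin n) ℤ, γ.det = 1 ∧ N = H * γ := by
  classical
  set S : Set (Matrix (Fin n) (Fin n) ℤ) := {N | N.det ≠ 0 ∧ |N.det| ≤ B} with hS
  set T : Matrix (Fin n) (Fin n) ℤ → ℤ × (Fin n → Fin n → ℤ) :=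
    fun N => (N.det, fun i j => N i j % N.det) with hT
  have hfin : (T '' S).Finite := by
    have h1 : T '' S ⊆ (Set.Icc (-B) B) ×ˢ
        (Set.univ.pi fun _ : Fin n => Set.univ.pi fun _ : Fin n => Set.Icc (-B) B) := by
      rintro _ ⟨N, hN, rfl⟩
      refine Set.mem_prod.2 ⟨?_, ?_⟩
      · exact abs_le.1 hN.2
      · refine Set.mem_univ_pi.2 fun i => Set.mem_univ_pi.2 fun j => ?_
        have h2 := Int.emod_nonneg (N i j) hN.1
        have h3 := Int.emod_lt_abs (N i j) hN.1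
        refine Set.mem_Icc.2 ⟨?_, ?_⟩
        · have h4 : 0 ≤ B := le_trans (abs_nonneg _) hN.2
          exact le_trans (by linarith) h2
        · exact (h3.le).trans hN.2
    refine Set.Finite.subset ?_ h1
    exact (Set.finite_Icc _ _).prod
      (Set.Finite.pi fun _ => Set.Finite.pi fun _ => Set.finite_Icc _ _)
  have hch : ∀ t : ℤ × (Fin n → Fin n → ℤ), ∃ N : Matrix (Fin n) (Fin n) ℤ,
      t ∈ T '' S → N ∈ S ∧ T N = t := by
    intro t
    by_cases ht : t ∈ T '' S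
    · obtain ⟨N, hN, rfl⟩ := ht
      exact ⟨N, fun _ => ⟨hN, rfl⟩⟩
    · exact ⟨0, fun h => absurd h ht⟩
  choose rep hrep using hch
  refine ⟨hfin.toFinset.image rep, ?_, ?_⟩
  · intro H hH
    obtain ⟨t, ht, rfl⟩ := Finset.mem_image.1 hH
    exact ((hrep t (hfin.mem_toFinset.1 ht)).1).1
  · intro N hN0 hNB
    have ht : T N ∈ T '' S := ⟨N, ⟨hN0, hNB⟩, rfl⟩
    obtain ⟨hHS, hHT⟩ := hrep _ ht
    refine ⟨rep (T N), Finset.mem_image.2 ⟨_, hfin.mem_toFinset.2 ht, rfl⟩, ?_⟩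
    generalize rep (T N) = H at hHS hHT
    have hdet : H.det = N.det := congrArg Prod.fst hHT
    have hmod : ∀ i j, H i j % H.det = N i j % N.det := fun i j =>
      congrFun (congrFun (congrArg Prod.snd hHT) i) j
    have hM : ∀ i j, ∃ m : ℤ, N i j = H i j + H.det * m := by
      intro i j
      have h1 : H.det ∣ N i j - H i j := by
        have h2 := hmod i j
        rw [← hdet] at h2
        exact (Int.ModEq.dvd (h2 : H i j ≡ N i j [ZMOD H.det]))
      obtain ⟨m, hm⟩ := h1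
      exact ⟨m, by linarith⟩
    choose M hM using hM
    have hNM : N = H + H.det • (Matrix.of M) := by
      ext i j
      rw [hM i j]
      simp [smul_eq_mul]
    have hNγ : N = H * (1 + H.adjugate * Matrix.of M) := by
      rw [Matrix.mul_add, Matrix.mul_one, ← Matrix.mul_assoc, Matrix.mul_adjugate,
        Matrix.smul_mul, Matrix.one_mul]
      exact hNM
    refine ⟨1 + H.adjugate * Matrix.of M, ?_, hNγ⟩
    have h1 : N.det = H.det * (1 + H.adjugate * Matrix.of M).det := by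
      conv_lhs => rw [hNγ]
      rw [Matrix.det_mul]
    rw [← hdet] at h1
    have h2 : H.det * (1 + H.adjugate * Matrix.of M).det = H.det * 1 := by
      rw [mul_one]; exact h1.symm
    exact mul_left_cancel₀ hHS.1 h2

/-- the reduction step: a lattice without vectors shorter than `ε` has a basis with bounded
coordinates. -/
lemma exists_bounded_rep (n : ℕ) (ε : ℝ) (hε : 0 < ε) : ∃ R : ℝ, 0 < R ∧
    ∀ g : SLR n, (∀ v : Fin n → ℤ, v ≠ 0 → ε ≤ ‖rv v ᵥ* g.1‖) →
      ∃ γ ∈ intPoints n, ∀ i j, |(γ * g).1 i j| ≤ R := by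
  classical
  obtain ⟨R, hR, hvec⟩ := exists_indep_vecs n ε hε
  -- the bound on the determinant
  set B : ℤ := ⌈(n.factorial : ℝ) * R ^ n⌉ with hB
  obtain ⟨F, hF0, hF⟩ := finite_classes n B
  -- bound for the inverses
  set C : ℝ := 1 + ∑ H ∈ F, ∑ i, ∑ j, |(rm H)⁻¹ i j| with hC
  have hCpos : 0 < C := by
    have : 0 ≤ ∑ H ∈ F, ∑ i, ∑ j, |(rm H)⁻¹ i j| :=
      Finset.sum_nonneg fun H _ => Finset.sum_nonneg fun i _ => Finset.sum_nonneg fun j _ =>
        abs_nonneg _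
    linarith
  have hCle : ∀ H ∈ F, ∀ i j, |(rm H)⁻¹ i j| ≤ C := by
    intro H hH i j
    have h1 : |(rm H)⁻¹ i j| ≤ ∑ j, |(rm H)⁻¹ i j| :=
      Finset.single_le_sum (f := fun j => |(rm H)⁻¹ i j|) (fun _ _ => abs_nonneg _)
        (Finset.mem_univ j)
    have h2 : ∑ j, |(rm H)⁻¹ i j| ≤ ∑ i, ∑ j, |(rm H)⁻¹ i j| :=
      Finset.single_le_sum (f := fun i => ∑ j, |(rm H)⁻¹ i j|)
        (fun _ _ => Finset.sum_nonneg fun _ _ => abs_nonneg _) (Finset.mem_univ i)
    have h3 : ∑ i, ∑ j, |(rm H)⁻¹ i j| ≤ ∑ H ∈ F, ∑ i, ∑ j, |(rm H)⁻¹ i j| :=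
      Finset.single_le_sum (f := fun H => ∑ i, ∑ j, |(rm H)⁻¹ i j|)
        (fun _ _ => Finset.sum_nonneg fun _ _ => Finset.sum_nonneg fun _ _ => abs_nonneg _) hH
    linarith
  refine ⟨(n + 1) * C * R, by positivity, ?_⟩
  intro g hg
  have hgdet : |g.1.det| = 1 := by rw [g.2, abs_one]
  obtain ⟨N, hN0, hNR⟩ := hvec g.1 hgdet hg
  set A : Matrix (Fin n) (Fin n) ℝ := rm N * g.1 with hA
  have hAR : ∀ i j, |A i j| ≤ R := by
    intro i j
    have h1 : A i = rv (N i) ᵥ* g.1 := rfl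
    have h2 : ‖A i j‖ ≤ ‖A i‖ := norm_le_pi_norm (A i) j
    rw [h1] at h2
    rw [← Real.norm_eq_abs]
    exact h2.trans (hNR i)
  have hNB : |N.det| ≤ B := by
    have h1 : (|N.det| : ℝ) = |A.det| := by
      rw [hA, Matrix.det_mul, rm_det, abs_mul, hgdet, mul_one]
    have h2 : |A.det| ≤ (n.factorial : ℝ) * R ^ n := by
      have := Matrix.det_le (A := A) (abv := AbsoluteValue.abs) (x := R) (fun i j => hAR i j)
      simpa [nsmul_eq_mul] using this
    have h3 : (|N.det| : ℝ) ≤ (B : ℝ) := by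
      rw [h1]
      exact h2.trans (Int.le_ceil _)
    exact_mod_cast h3
  obtain ⟨H, hHF, γ, hγ, hNH⟩ := hF N hN0 hNB
  have hHdet : (rm H).det ≠ 0 := by
    rw [rm_det]
    exact_mod_cast hF0 H hHF
  have hγg : rm γ * g.1 = (rm H)⁻¹ * A := by
    rw [hA, hNH, rm_mul, ← Matrix.mul_assoc, ← Matrix.mul_assoc,
      Matrix.nonsing_inv_mul _ (isUnit_iff_ne_zero.2 hHdet), Matrix.one_mul]
  refine ⟨Matrix.SpecialLinearGroup.map (Int.castRingHom ℝ) ⟨γ, hγ⟩, ⟨_, rfl⟩, ?_⟩
  intro i j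
  have h1 : (Matrix.SpecialLinearGroup.map (Int.castRingHom ℝ) ⟨γ, hγ⟩ * g).1 =
      rm γ * g.1 := rfl
  rw [h1, hγg, Matrix.mul_apply]
  refine (Finset.abs_sum_le_sum_abs _ _).trans ?_
  calc ∑ k, |(rm H)⁻¹ i k * A k j| ≤ ∑ _k : Fin n, C * R := by
        refine Finset.sum_le_sum fun k _ => ?_
        rw [abs_mul]
        exact mul_le_mul (hCle H hHF i k) (hAR k j) (abs_nonneg _) hCpos.le
    _ = n * (C * R) := by
        rw [Finset.sum_const, Finset.card_univ, Fintype.card_fin, nsmul_eq_mul]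
    _ ≤ (n + 1) * C * R := by nlinarith [mul_pos hCpos hR]

/-- the lattice points without nonzero vectors shorter than `ε`. -/
def thick (n : ℕ) (ε : ℝ) : Set (ModSpace n) :=
  {x | ∀ g : SLR n, q g = x → ∀ v : Fin n → ℤ, v ≠ 0 → ε ≤ ‖rv v ᵥ* g.1‖}

/-- `γ ∈ SL_n(ℤ)` permutes the nonzero integer vectors. -/
lemma rv_vecMul_intPoints {γ : SLR n} (hγ : γ ∈ intPoints n) (v : Fin n → ℤ) (hv : v ≠ 0) :
    ∃ w : Fin n → ℤ, w ≠ 0 ∧ rv w = rv v ᵥ* γ.1 := by
  obtain ⟨c, rfl⟩ := hγ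
  have h1 : rv (v ᵥ* c.1) =
      rv v ᵥ* (Matrix.SpecialLinearGroup.map (Int.castRingHom ℝ) c).1 := by
    funext i
    show (((v ᵥ* c.1) i : ℤ) : ℝ) = _
    simp only [Matrix.vecMul, dotProduct]
    push_cast
    rfl
  refine ⟨v ᵥ* c.1, ?_, h1⟩
  intro h0
  rw [h0, rv_zero] at h1
  have h2 : rv v = 0 := by
    have h3 := congrArg (fun w => w ᵥ* (Matrix.SpecialLinearGroup.map (Int.castRingHom ℝ) c)⁻¹.1) h1
    simp only [Matrix.zero_vecMul, Matrix.vecMul_vecMul] at h3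
    have h4 : (Matrix.SpecialLinearGroup.map (Int.castRingHom ℝ) c).1 *
        ((Matrix.SpecialLinearGroup.map (Int.castRingHom ℝ) c)⁻¹).1 = 1 := by
      have h5 := congrArg Subtype.val
        (mul_inv_cancel (Matrix.SpecialLinearGroup.map (n := Fin n) (Int.castRingHom ℝ) c))
      exact h5
    rw [h4, Matrix.vecMul_one] at h3
    exact h3.symm
  exact rv_ne_zero hv h2

lemma q_mem_thick {g : SLR n} {ε : ℝ} :
    q g ∈ thick n ε ↔ ∀ v : Fin n → ℤ, v ≠ 0 → ε ≤ ‖rv v ᵥ* g.1‖ := by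
  constructor
  · intro h v hv
    exact h g rfl v hv
  · intro h g' hg' v hv
    obtain ⟨γ, hγ, rfl⟩ := q_eq_iff'.1 hg'.symm
    obtain ⟨w, hw0, hw⟩ := rv_vecMul_intPoints hγ v hv
    have h1 : rv v ᵥ* (γ * g).1 = rv w ᵥ* g.1 := by
      rw [hw, Matrix.vecMul_vecMul]
      rfl
    rw [h1]
    exact h w hw0

lemma thick_anti {ε ε' : ℝ} (h : ε ≤ ε') : thick n ε' ⊆ thick n ε := fun _ hx g hg v hv =>
  h.trans (hx g hg v hv)

lemma isClosed_thick (n : ℕ) (ε : ℝ) : IsClosed (thick n ε) := by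
  rw [← isOpenQuotientMap_q.isQuotientMap.isClosed_preimage]
  have h : q ⁻¹' (thick n ε) =
      ⋂ v : Fin n → ℤ, ⋂ _ : v ≠ 0, {g : SLR n | ε ≤ ‖rv v ᵥ* g.1‖} := by
    ext g
    simp only [Set.mem_preimage, q_mem_thick, Set.mem_iInter, Set.mem_ofPred_eq]
  rw [h]
  refine isClosed_iInter fun v => isClosed_iInter fun _ => isClosed_le continuous_const ?_
  refine Continuous.norm ?_
  exact (continuous_const (y := rv v)).matrix_vecMul continuous_subtype_val

/-- the set of matrices in `SL_n(ℝ)` with bounded entries is compact. -/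
lemma isCompact_bounded (n : ℕ) (R : ℝ) : IsCompact {g : SLR n | ∀ i j, |g.1 i j| ≤ R} := by
  have h1 : IsCompact (Set.univ.pi fun _ : Fin n => Set.univ.pi fun _ : Fin n => Set.Icc (-R) R) :=
    isCompact_univ_pi fun _ => isCompact_univ_pi fun _ => isCompact_Icc
  have h2 := (Matrix.SpecialLinearGroup.isClosedEmbedding_val (n := Fin n) (R := ℝ)).isCompact_preimage
    (K := (Set.univ.pi fun _ : Fin n => Set.univ.pi fun _ : Fin n => Set.Icc (-R) R)) h1
  have h3 : {g : SLR n | ∀ i j, |g.1 i j| ≤ R} = Subtype.val ⁻¹'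
      (Set.univ.pi fun _ : Fin n => Set.univ.pi fun _ : Fin n => Set.Icc (-R) R) := by
    refine Set.ext fun g => ⟨fun h => ?_, fun h i j => ?_⟩
    · exact fun i _ j _ => abs_le.1 (h i j)
    · exact abs_le.2 (h i (Set.mem_univ _) j (Set.mem_univ _))
  rw [h3]
  exact h2

/-- **Mahler's compactness criterion.** -/
theorem isCompact_thick (n : ℕ) {ε : ℝ} (hε : 0 < ε) : IsCompact (thick n ε) := by
  obtain ⟨R, -, hR⟩ := exists_bounded_rep n ε hε
  refine ((isCompact_bounded n R).image continuous_q).of_isClosed_subset (isClosed_thick n ε) ?_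
  intro x hx
  obtain ⟨g, rfl⟩ := q_surjective x
  obtain ⟨γ, hγ, hb⟩ := hR g (q_mem_thick.1 hx)
  exact ⟨γ * g, hb, q_mul_left hγ g⟩

/-- points with bounded coordinates lie in the thick part. -/
lemma q_mem_thick_of_bounded {R : ℝ} (hR : 0 < R) {g : SLR n} (hg : ∀ i j, |g⁻¹.1 i j| ≤ R)
    (hn : 0 < n) : q g ∈ thick n (1 / (n * R)) := by
  rw [q_mem_thick]
  intro v hv
  have h1 : 1 ≤ ‖rv v‖ := by
    obtain ⟨i, hi⟩ := Function.ne_iff.1 hv
    have h2 : (1 : ℝ) ≤ |(v i : ℝ)| := by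
      have : (1 : ℤ) ≤ |v i| := Int.one_le_abs hi
      exact_mod_cast this
    exact h2.trans (norm_le_pi_norm (rv v) i)
  have h2 : rv v = (rv v ᵥ* g.1) ᵥ* g⁻¹.1 := by
    rw [Matrix.vecMul_vecMul]
    have h5 : g.1 * (g⁻¹).1 = 1 := congrArg Subtype.val (mul_inv_cancel g)
    rw [h5, Matrix.vecMul_one]
  have h3 : ‖rv v‖ ≤ n * R * ‖rv v ᵥ* g.1‖ := by
    generalize rv v ᵥ* g.1 = y at h2
    rw [pi_norm_le_iff_of_nonneg (by positivity)]
    intro i
    rw [h2]
    simp only [Matrix.vecMul, dotProduct]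
    rw [Real.norm_eq_abs]
    refine (Finset.abs_sum_le_sum_abs _ _).trans ?_
    calc ∑ k, |y k * g⁻¹.1 k i| ≤ ∑ _k : Fin n, ‖y‖ * R := by
          refine Finset.sum_le_sum fun k _ => ?_
          rw [abs_mul]
          exact mul_le_mul (norm_le_pi_norm y k) (hg k i) (abs_nonneg _) (norm_nonneg _)
      _ = n * R * ‖y‖ := by
          rw [Finset.sum_const, Finset.card_univ, Fintype.card_fin, nsmul_eq_mul]
          ring
  have hn' : (0 : ℝ) < n := by exact_mod_cast hn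
  rw [div_le_iff₀ (by positivity)]
  linarith

/-- every compact subset of `ModSpace n` lies in a thick part. -/
theorem exists_thick_of_isCompact {K : Set (ModSpace n)} (hK : IsCompact K) :
    ∃ ε : ℝ, 0 < ε ∧ K ⊆ thick n ε := by
  rcases Nat.eq_zero_or_pos n with hn | hn
  · subst hn
    refine ⟨1, one_pos, ?_⟩
    intro x _ g _ v hv
    exact absurd (Subsingleton.elim _ _) hv
  · have hn' : (0 : ℝ) < n := by exact_mod_cast hn
    have hopen : ∀ m : ℕ, IsOpen (q '' {g : SLR n | ∀ i j, |g⁻¹.1 i j| < (m : ℝ) + 1}) := by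
      intro m
      refine isOpenMap_q _ ?_
      have h : {g : SLR n | ∀ i j, |g⁻¹.1 i j| < (m : ℝ) + 1} =
          ⋂ i, ⋂ j, {g : SLR n | |g⁻¹.1 i j| < (m : ℝ) + 1} := by
        ext g
        simp only [Set.mem_iInter, Set.mem_ofPred_eq]
      rw [h]
      refine isOpen_iInter_of_finite fun i => isOpen_iInter_of_finite fun j =>
        isOpen_lt ?_ continuous_const
      refine Continuous.abs ?_
      have : Continuous fun g : SLR n => (g⁻¹ : SLR n).1 :=
        continuous_subtype_val.comp continuous_inv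
      exact (continuous_apply j).comp ((continuous_apply i).comp this)
    have hcov : K ⊆ ⋃ m : ℕ, q '' {g : SLR n | ∀ i j, |g⁻¹.1 i j| < (m : ℝ) + 1} := by
      intro x _
      obtain ⟨g, rfl⟩ := q_surjective x
      set s : ℝ := ∑ i, ∑ j, |g⁻¹.1 i j| with hs
      obtain ⟨m, hm⟩ := exists_nat_ge s
      refine Set.mem_iUnion.2 ⟨m, g, ?_, rfl⟩
      intro i j
      have h1 : |g⁻¹.1 i j| ≤ ∑ j, |g⁻¹.1 i j| :=
        Finset.single_le_sum (f := fun j => |g⁻¹.1 i j|) (fun _ _ => abs_nonneg _)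
          (Finset.mem_univ j)
      have h2 : ∑ j, |g⁻¹.1 i j| ≤ ∑ i, ∑ j, |g⁻¹.1 i j| :=
        Finset.single_le_sum (f := fun i => ∑ j, |g⁻¹.1 i j|)
          (fun _ _ => Finset.sum_nonneg fun _ _ => abs_nonneg _) (Finset.mem_univ i)
      linarith
    obtain ⟨t, ht⟩ := hK.elim_finite_subcover _ hopen hcov
    set M : ℝ := ∑ m ∈ t, ((m : ℝ) + 1) + 1 with hM
    have hM0 : 0 < M := by positivity
    refine ⟨1 / (n * M), by positivity, ?_⟩
    intro x hx
    obtain ⟨m, hm, g, hg, rfl⟩ := by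
      have := ht hx
      simp only [Set.mem_iUnion, exists_prop] at this
      exact this
    refine q_mem_thick_of_bounded hM0 ?_ hn
    intro i j
    have h1 : ((m : ℝ) + 1) ≤ ∑ m ∈ t, ((m : ℝ) + 1) :=
      Finset.single_le_sum (f := fun m : ℕ => (m : ℝ) + 1) (fun _ _ => by positivity) hm
    have h2 := (hg i j).le
    linarith

end Crest.Agent.R014.Ms_667
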