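import Crest.Agent.R014.Ms1_667

/-!
Row 14, leaf MODSPACE (helper667), part 6: `SL_n(ℝ)` is generated by the elementary
unipotents `u_ij(t) = 1 + t E_ij`; a probability measure on `ModSpace n` invariant under all of
them is right invariant under `SL_n(ℝ)`.
-/

set_option autoImplicit false

open MeasureTheory Matrix
open Crest.NumberTheoryR.Packets

namespace Crest.Agent.R014.Ms_667

variable {n : ℕ}

/-- the elementary unipotent `u_ij(t) = 1 + t E_ij`. -/
def uu {i j : Fin n} (hij : i ≠ j) (t : ℝ) : SLR n := Matrix.SpecialLinearGroup.transvection hij t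

lemma uu_val {i j : Fin n} (hij : i ≠ j) (t : ℝ) :
    (uu hij t).1 = 1 + Matrix.single i j t := rfl

lemma uu_val' {i j : Fin n} (hij : i ≠ j) (t : ℝ) :
    (uu hij t).1 = Matrix.transvection i j t := rfl

lemma uu_zero {i j : Fin n} (hij : i ≠ j) : uu hij 0 = 1 := by
  apply Subtype.ext
  rw [uu_val, Matrix.single_zero, add_zero]
  rfl

lemma uu_add {i j : Fin n} (hij : i ≠ j) (s t : ℝ) : uu hij (s + t) = uu hij s * uu hij t := by
  apply Subtype.ext
  show _ = (uu hij s).1 * (uu hij t).1
  rw [uu_val', uu_val', uu_val', Matrix.transvection_mul_transvection_same i j hij]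

lemma uu_neg {i j : Fin n} (hij : i ≠ j) (t : ℝ) : uu hij (-t) = (uu hij t)⁻¹ := by
  rw [eq_inv_iff_mul_eq_one, ← uu_add, neg_add_cancel, uu_zero]

/-- the subgroup generated by the elementary unipotents. -/
def elem (n : ℕ) : Subgroup (SLR n) :=
  Subgroup.closure {g | ∃ (i j : Fin n) (hij : i ≠ j) (t : ℝ), g = uu hij t}

lemma uu_mem_elem {i j : Fin n} (hij : i ≠ j) (t : ℝ) : uu hij t ∈ elem n :=
  Subgroup.subset_closure ⟨i, j, hij, t, rfl⟩

/-- matrices coming from the elementary subgroup. -/
def InElem (M : Matrix (Fin n) (Fin n) ℝ) : Prop := ∃ g ∈ elem n, g.1 = M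

lemma InElem.mul {M N : Matrix (Fin n) (Fin n) ℝ} (hM : InElem M) (hN : InElem N) :
    InElem (M * N) := by
  obtain ⟨g, hg, rfl⟩ := hM
  obtain ⟨h, hh, rfl⟩ := hN
  exact ⟨g * h, (elem n).mul_mem hg hh, rfl⟩

lemma inElem_one : InElem (1 : Matrix (Fin n) (Fin n) ℝ) := ⟨1, (elem n).one_mem, rfl⟩

lemma inElem_transvection {i j : Fin n} (hij : i ≠ j) (t : ℝ) :
    InElem (Matrix.transvection i j t) := ⟨uu hij t, uu_mem_elem hij t, rfl⟩

lemma inElem_list (L : List (Matrix.TransvectionStruct (Fin n) ℝ)) :
    InElem (L.map Matrix.TransvectionStruct.toMatrix).prod := by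
  induction L with
  | nil => simpa using inElem_one
  | cons t L ih =>
    rw [List.map_cons, List.prod_cons]
    exact InElem.mul (inElem_transvection t.hij t.c) ih

/-- the identity `x(a) y(-1/a) x(a-1) y(1) x(-1) = diag(a, 1/a)`. -/
lemma torus_identity {i j : Fin n} (hij : i ≠ j) {a : ℝ} (ha : a ≠ 0) :
    Matrix.transvection i j a * Matrix.transvection j i (-a⁻¹) * Matrix.transvection i j (a - 1) *
      Matrix.transvection j i (1 : ℝ) * Matrix.transvection i j (-1 : ℝ) =
      1 + (a - 1) • Matrix.single i i (1 : ℝ) + (a⁻¹ - 1) • Matrix.single j j (1 : ℝ) := by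
  set e := Matrix.single i j (1 : ℝ) with he
  set f := Matrix.single j i (1 : ℝ) with hf
  set p := Matrix.single i i (1 : ℝ) with hp
  set r := Matrix.single j j (1 : ℝ) with hr
  have ee : e * e = 0 := Matrix.single_mul_single_of_ne _ _ _ _ hij.symm _
  have ff : f * f = 0 := Matrix.single_mul_single_of_ne _ _ _ _ hij _
  have ef : e * f = p := by rw [he, hf, Matrix.single_mul_single_same, mul_one]
  have fe : f * e = r := by rw [he, hf, Matrix.single_mul_single_same, mul_one]
  have pe : p * e = e := by rw [hp, he, Matrix.single_mul_single_same, mul_one]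
  have rf : r * f = f := by rw [hr, hf, Matrix.single_mul_single_same, mul_one]
  have pf : p * f = 0 := Matrix.single_mul_single_of_ne _ _ _ _ hij _
  have re : r * e = 0 := Matrix.single_mul_single_of_ne _ _ _ _ hij.symm _
  have t1 : ∀ c : ℝ, Matrix.transvection i j c = 1 + c • e := by
    intro c
    rw [he, Matrix.smul_single, smul_eq_mul, mul_one]
    rfl
  have t2 : ∀ c : ℝ, Matrix.transvection j i c = 1 + c • f := by
    intro c
    rw [hf, Matrix.smul_single, smul_eq_mul, mul_one]
    rfl
  rw [t1, t2, t1, t2, t1]
  have haa : a⁻¹ * a = 1 := inv_mul_cancel₀ ha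
  simp only [mul_add, add_mul, mul_one, one_mul, Matrix.smul_mul, Matrix.mul_smul, smul_add,
    smul_smul, ee, ff, ef, fe, pe, rf, pf, re, smul_zero, add_zero]
  match_scalars <;> field_simp <;> ring

lemma inElem_torus {i j : Fin n} (hij : i ≠ j) {a : ℝ} (ha : a ≠ 0) :
    InElem (Matrix.diagonal fun k => if k = i then a else if k = j then a⁻¹ else 1) := by
  have h1 : (Matrix.diagonal fun k => if k = i then a else if k = j then a⁻¹ else 1) =
      1 + (a - 1) • Matrix.single i i (1 : ℝ) + (a⁻¹ - 1) • Matrix.single j j (1 : ℝ) := by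
    ext k l
    by_cases hkl : k = l
    · subst hkl
      simp only [Matrix.diagonal_apply_eq, Matrix.add_apply, Matrix.one_apply_eq,
        Matrix.smul_apply, Matrix.single_apply, smul_eq_mul]
      by_cases hki : k = i
      · subst hki
        simp [hij.symm]
      · by_cases hkj : k = j
        · subst hkj
          simp [hki, Ne.symm hki]
        · simp [hki, hkj, Ne.symm hki, Ne.symm hkj]
    · simp only [Matrix.diagonal_apply_ne _ hkl, Matrix.add_apply, Matrix.one_apply_ne hkl,
        Matrix.smul_apply, Matrix.single_apply, smul_eq_mul]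
      have h2 : ¬ (i = k ∧ i = l) := fun h => hkl (h.1.symm.trans h.2)
      have h3 : ¬ (j = k ∧ j = l) := fun h => hkl (h.1.symm.trans h.2)
      rw [if_neg h2, if_neg h3]
      simp
  rw [h1, ← torus_identity hij ha]
  exact ((((inElem_transvection hij _).mul (inElem_transvection hij.symm _)).mul
    (inElem_transvection hij _)).mul (inElem_transvection hij.symm _)).mul
    (inElem_transvection hij _)

lemma inElem_diagonal (D : Fin n → ℝ) (hD : ∏ i, D i = 1) : InElem (Matrix.diagonal D) := by
  classical
  rcases isEmpty_or_nonempty (Fin n) with hE | ⟨⟨i₀⟩⟩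
  · have : Matrix.diagonal D = 1 := Subsingleton.elim _ _
    rw [this]
    exact inElem_one
  have hD0 : ∀ i, D i ≠ 0 := by
    intro i h0
    have : ∏ i, D i = 0 := Finset.prod_eq_zero (Finset.mem_univ i) h0
    rw [hD] at this
    exact one_ne_zero this
  have key : ∀ s : Finset (Fin n), i₀ ∉ s →
      InElem (Matrix.diagonal fun k => if k ∈ s then D k else if k = i₀ then (∏ i ∈ s, D i)⁻¹
        else 1) := by
    intro s
    induction s using Finset.induction_on with
    | empty =>
      intro _
      have : (Matrix.diagonal fun k => if k ∈ (∅ : Finset (Fin n)) then D k else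
          if k = i₀ then (∏ i ∈ (∅ : Finset (Fin n)), D i)⁻¹ else 1) =
          (1 : Matrix (Fin n) (Fin n) ℝ) := by
        rw [← Matrix.diagonal_one]
        congr 1
        funext k
        simp
      rw [this]
      exact inElem_one
    | insert a s has ih =>
      intro hi₀
      have hi₀a : i₀ ≠ a := fun h => hi₀ (h ▸ Finset.mem_insert_self _ _)
      have hi₀s : i₀ ∉ s := fun h => hi₀ (Finset.mem_insert_of_mem h)
      have h1 := (inElem_torus (hi₀a.symm) (hD0 a)).mul (ih hi₀s)
      rw [Matrix.diagonal_mul_diagonal] at h1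
      refine Eq.mp (congrArg (fun D' => InElem (Matrix.diagonal D')) (funext fun k => ?_)) h1
      symm
      rw [Finset.prod_insert has, mul_inv]
      by_cases hka : k = a
      · subst hka
        simp [has, hi₀a.symm]
      · by_cases hk0 : k = i₀
        · subst hk0
          simp [hka, hi₀s]
        · by_cases hks : k ∈ s
          · simp [hka, hk0, hks]
          · simp [hka, hk0, hks]
  have h := key (Finset.univ.erase i₀) (Finset.notMem_erase _ _)
  refine Eq.mp (congrArg (fun D' => InElem (Matrix.diagonal D')) (funext fun k => ?_)) h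
  symm
  by_cases hk : k = i₀
  · subst hk
    rw [if_neg (Finset.notMem_erase _ _), if_pos rfl]
    rw [← Finset.mul_prod_erase Finset.univ D (Finset.mem_univ k)] at hD
    exact eq_inv_of_mul_eq_one_left hD
  · rw [if_pos (Finset.mem_erase.2 ⟨hk, Finset.mem_univ _⟩)]

/-- **`SL_n(ℝ)` is generated by the elementary unipotents.** -/
theorem elem_eq_top (n : ℕ) : elem n = ⊤ := by
  rw [eq_top_iff]
  intro g _
  obtain ⟨L, L', D, h⟩ := Matrix.Pivot.exists_list_transvec_mul_diagonal_mul_list_transvec g.1
  have hdet : ∏ i, D i = 1 := by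
    have h1 := congrArg Matrix.det h
    rw [g.2, Matrix.det_mul, Matrix.det_mul, Matrix.TransvectionStruct.det_toMatrix_prod,
      Matrix.TransvectionStruct.det_toMatrix_prod, Matrix.det_diagonal, one_mul, mul_one] at h1
    exact h1.symm
  have h2 : InElem g.1 := by
    rw [h]
    exact ((inElem_list L).mul (inElem_diagonal D hdet)).mul (inElem_list L')
  obtain ⟨g', hg', he⟩ := h2
  have : g' = g := Subtype.ext he
  rw [← this]
  exact hg'

/-- the stabiliser of a measure under the right action. -/
def stab (ν : Measure (ModSpace n)) : Subgroup (SLR n) where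
  carrier := {g | Measure.map (fun x => act x g) ν = ν}
  one_mem' := by
    show Measure.map (fun x => act x 1) ν = ν
    have : (fun x : ModSpace n => act x 1) = id := by
      funext x
      exact act_one x
    rw [this, Measure.map_id]
  mul_mem' := by
    intro g h hg hh
    show Measure.map (fun x => act x (g * h)) ν = ν
    have h1 : (fun x : ModSpace n => act x (g * h)) = (fun x => act x h) ∘ (fun x => act x g) := by
      funext x
      exact (act_act x g h).symm
    rw [h1, ← Measure.map_map (measurable_act h) (measurable_act g)]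
    rw [show Measure.map (fun x => act x g) ν = ν from hg]
    exact hh
  inv_mem' := by
    intro g hg
    show Measure.map (fun x => act x g⁻¹) ν = ν
    have h1 : Measure.map (fun x => act x g) ν = ν := hg
    conv_lhs => rw [← h1]
    rw [Measure.map_map (measurable_act _) (measurable_act g)]
    have h2 : (fun x : ModSpace n => act x g⁻¹) ∘ (fun x => act x g) = id := by
      funext x
      show act (act x g) g⁻¹ = x
      rw [act_act, mul_inv_cancel, act_one]
    rw [h2, Measure.map_id]

lemma mem_stab {ν : Measure (ModSpace n)} {g : SLR n} :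
    g ∈ stab ν ↔ Measure.map (fun x => act x g) ν = ν := Iff.rfl

/-- **a probability measure invariant under all elementary unipotents is the Haar probability.** -/
theorem isHaarProbability_of_unipotents {ν : Measure (ModSpace n)} [IsProbabilityMeasure ν]
    (h : ∀ (i j : Fin n) (hij : i ≠ j) (t : ℝ),
      Measure.map (fun x => act x (uu hij t)) ν = ν) : IsHaarProbability ν := by
  refine ⟨inferInstance, fun g => ?_⟩
  have h1 : elem n ≤ stab ν := by
    refine (Subgroup.closure_le _).2 ?_
    rintro g ⟨i, j, hij, t, rfl⟩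
    exact h i j hij t
  rw [elem_eq_top] at h1
  exact h1 (Subgroup.mem_top g)

end Crest.Agent.R014.Ms_667
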