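import Crest.Agent.R014.Asm_792
import Crest.Agent.R014.Ms5_667
import Crest.Agent.R014.Ms6_667

/-!
# Row 14: generation, Mahler and the final assembly  (helper792)
-/

set_option autoImplicit false

open MeasureTheory Filter Topology
open Crest.NumberTheoryR.Packets
open Crest.Agent.R014.Iface_792 Crest.Agent.R014.Asm_792

universe u

namespace Crest.Agent.R014.Asm2_792

theorem gen (n : ℕ) : Gen n := by
  intro ν hν h
  have := hν
  exact (Ms_667.isHaarProbability_of_unipotents (ν := ν) (fun i j hij t => h i j hij t)).2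

/-- `Thick` is 667's `thick`. -/
theorem thick_iff {n : ℕ} (x : ModSpace n) (r : ℝ) : x ∈ Ms_667.thick n r ↔ Thick x r := by
  constructor
  · rintro hx v ⟨g, hg, z, rfl⟩ hv
    refine hx g hg z ?_
    rintro rfl
    apply hv
    have : (fun i : Fin n => (((0 : Fin n → ℤ) i : ℤ) : ℝ)) = 0 := by
      funext i; simp
    rw [this, Matrix.zero_vecMul]
  · intro hx g hg z hz
    refine hx _ ⟨g, hg, z, rfl⟩ ?_
    intro h0
    have h0' : Matrix.vecMul (Ms_667.rv z) g.1 = 0 := h0
    have h1 : Matrix.vecMul (Matrix.vecMul (Ms_667.rv z) g.1) (g⁻¹).1 = 0 := by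
      rw [h0', Matrix.zero_vecMul]
    have h2 : g.1 * (g⁻¹).1 = 1 := congrArg Subtype.val (mul_inv_cancel g)
    rw [Matrix.vecMul_vecMul, h2, Matrix.vecMul_one] at h1
    exact Ms_667.rv_ne_zero hz h1

theorem setOf_thick (n : ℕ) (r : ℝ) : {x : ModSpace n | Thick x r} = Ms_667.thick n r := by
  ext x
  exact (thick_iff x r).symm

theorem isCompact_thick (n : ℕ) {r : ℝ} (hr : 0 < r) : IsCompact {x : ModSpace n | Thick x r} := by
  rw [setOf_thick]
  exact Ms_667.isCompact_thick n hr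

theorem measurableSet_thick (n : ℕ) {r : ℝ} (hr : 0 < r) :
    MeasurableSet {x : ModSpace n | Thick x r} :=
  haveI := Top1_458.instT2Mod (n := n)
  (isCompact_thick n hr).measurableSet

/-- no mass in the thin part ⇒ tight. -/
theorem tight_of_esc {n : ℕ} (μ : ℕ → Measure (ModSpace n))
    (hprob : ∀ i, IsProbabilityMeasure (μ i))
    (h : ∀ e : ℝ, 0 < e → ∃ r : ℝ, 0 < r ∧ ∀ᶠ k in atTop,
      (μ k) {x | ¬ Thick x r} ≤ ENNReal.ofReal e) : Tight μ := by
  intro ε hε
  obtain ⟨r, hr, hev⟩ := h ε hε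
  refine ⟨{x | Thick x r}, isCompact_thick n hr, hev.mono fun k hk => ?_⟩
  have := hprob k
  have hm : MeasurableSet {x : ModSpace n | Thick x r} := measurableSet_thick n hr
  have h1 : (μ k).real {x | Thick x r} + (μ k).real {x | Thick x r}ᶜ = 1 := by
    rw [measureReal_add_measureReal_compl hm]
    simp
  have h2 : (μ k).real {x | Thick x r}ᶜ ≤ ε := by
    have h3 : {x : ModSpace n | Thick x r}ᶜ = {x | ¬ Thick x r} := rfl
    rw [h3]
    exact ENNReal.toReal_le_of_le_ofReal hε.le hk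
  have h4 : ((μ k) {x | Thick x r}).toReal = (μ k).real {x | Thick x r} := rfl
  rw [h4]
  linarith

/-- the final assembly from the four inputs. -/
theorem main {d : ℕ} (hA : ThmA.{u} d) (hB : ThmB d) (hE : NoEsc d) (hP : Pack.{u} d)
    (K : ℕ → Type u) [∀ i, Field (K i)] [∀ i, NumberField (K i)] [∀ i, NumberField.IsTotallyReal (K i)]
    (hdeg : ∀ i, Module.finrank ℚ (K i) = d + 1) (hprim : ∀ i, IsPrimitiveField (K i))
    (m : ∀ i, LatticeBasis (d + 1) (K i)) (σ : ∀ i, Fin (d + 1) ≃ (K i →+* ℝ))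
    (hdisc : Tendsto (fun i => latticeDisc (m i)) atTop atTop) :
    ∃ ν : Measure (ModSpace (d + 1)), IsHaarProbability ν ∧
      (∀ i, ∃ μ : Measure (ModSpace (d + 1)), IsPacketMeasure (m i) (σ i) μ) ∧
      ∀ μ : ℕ → Measure (ModSpace (d + 1)), (∀ i, IsPacketMeasure (m i) (σ i) (μ i)) →
        (∀ f : ModSpace (d + 1) → ℝ, Continuous f → HasCompactSupport f →
          Tendsto (fun i => ∫ x, f x ∂(μ i)) atTop (𝓝 (∫ x, f x ∂ν))) ∧
        (∀ ε : ℝ, 0 < ε → ∃ C : Set (ModSpace (d + 1)), IsCompact C ∧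
          ∀ᶠ i in atTop, 1 - ε ≤ ((μ i) C).toReal) :=
  Asm_792.main (gen _) hA hB hE hP K hdeg hprim m σ hdisc

end Crest.Agent.R014.Asm2_792
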