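import Crest.Agent.R014.Comb_583

/-!
# Row 14, block D: abstract top assembly (helper891, task 1021 D-CHAIN)

`chain` derives from near invariance `P1`, the commutator step `P2` and the slab density `P3` for a
nested family `Fr 0 ⊆ Fr 1 ⊆ …` of free sets that for most points some depth in `[0, G)` is free.
-/

set_option autoImplicit false

noncomputable section

open MeasureTheory Finset
open scoped BigOperators Classical

namespace Crest.Agent.R014.Chain_891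

universe u

open Crest.Agent.R014.Comb_583 (cnt badPairs comb)

/-- a measure preserving action of `ℤ^n` -/
structure Sys (n : ℕ) {Ω : Type u} [MeasurableSpace Ω] (μ : Measure Ω) where
  τ : (Fin n → ℤ) → Ω → Ω
  mp : ∀ z, MeasurePreserving (τ z) μ μ
  add : ∀ z w x, τ (z + w) x = τ z (τ w x)

/-- the unit vector `r e_i` -/
def ev {n : ℕ} (i : Fin n) (r : ℤ) : Fin n → ℤ := Pi.single i r

variable {n : ℕ} {Ω : Type u} [MeasurableSpace Ω] {μ : Measure Ω}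

/-- (P0)-(P3) -/
structure Hyp (n : ℕ) {Ω : Type u} [MeasurableSpace Ω] (μ : Measure Ω) (T : Sys n μ)
    (Fr : ℕ → Fin n → Fin n → Set Ω) (M L : ℕ) (c δ ε : ℝ) : Prop where
  meas : ∀ m i j, MeasurableSet (Fr m i j)
  P0 : ∀ m < M, ∀ i j, i ≠ j → μ.real (Fr m i j \ Fr (m + 1) i j) ≤ ε
  P1 : ∀ m < M, ∀ i j, i ≠ j → ∀ z : Fin n → ℤ, z i = z j → (∀ l, |z l| ≤ 3 * L) →
    μ.real (Fr m i j \ T.τ z ⁻¹' Fr (m + 1) i j) ≤ ε
  P2 : ∀ m < M, ∀ i j k, i ≠ j → j ≠ k → i ≠ k →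
    μ.real ((Fr m i j ∩ Fr m j k) \ Fr (m + 1) i k) ≤ ε
  P3 : ∃ B : Set Ω, MeasurableSet B ∧ μ.real B ≤ ε ∧ ∀ x, x ∉ B → ∀ a b : ℤ, -(L : ℤ) ≤ a →
    b ≤ L → δ * L ≤ ((b - a : ℤ) : ℝ) → ∀ S : Finset (Fin n), S.Nonempty → S ≠ univ →
      c * ((b - a : ℤ) : ℝ) ≤ ∑ i ∈ S, ∑ j ∈ Sᶜ, cnt {r | T.τ (ev i r) x ∈ Fr 0 i j} a b

/-! ### Markov for counting functions -/

omit [MeasurableSpace Ω] in
theorem card_filter_eq {ι : Type*} (I : Finset ι) (E : ι → Set Ω) (x : Ω) :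
    ((I.filter (fun a => x ∈ E a)).card : ℝ) = ∑ a ∈ I, (E a).indicator (fun _ => (1 : ℝ)) x := by
  rw [Finset.card_filter]
  push_cast
  refine Finset.sum_congr rfl fun a _ => ?_
  by_cases h : x ∈ E a <;> simp [h]

theorem integral_card [IsProbabilityMeasure μ] {ι : Type*} (I : Finset ι) (E : ι → Set Ω)
    (hE : ∀ a, MeasurableSet (E a)) :
    Integrable (fun x => ((I.filter (fun a => x ∈ E a)).card : ℝ)) μ ∧
      ∫ x, ((I.filter (fun a => x ∈ E a)).card : ℝ) ∂μ = ∑ a ∈ I, μ.real (E a) := by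
  have h1 : (fun x => ((I.filter (fun a => x ∈ E a)).card : ℝ)) =
      fun x => ∑ a ∈ I, (E a).indicator (fun _ => (1 : ℝ)) x := by
    funext x; exact card_filter_eq I E x
  have h2 : ∀ a ∈ I, Integrable ((E a).indicator (fun _ => (1 : ℝ))) μ := fun a _ =>
    (integrable_const (1 : ℝ)).indicator (hE a)
  rw [h1]
  refine ⟨integrable_finsetSum I h2, ?_⟩
  rw [integral_finsetSum I h2]
  refine Finset.sum_congr rfl fun a _ => ?_
  rw [integral_indicator (hE a)]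
  simp

theorem meas_card {ι : Type*} (I : Finset ι) (E : ι → Set Ω)
    (hE : ∀ a, MeasurableSet (E a)) (t : ℝ) :
    MeasurableSet {x | t < ((I.filter (fun a => x ∈ E a)).card : ℝ)} := by
  have h1 : (fun x => ((I.filter (fun a => x ∈ E a)).card : ℝ)) =
      fun x => ∑ a ∈ I, (E a).indicator (fun _ => (1 : ℝ)) x := by
    funext x; exact card_filter_eq I E x
  have h2 : Measurable (fun x => ((I.filter (fun a => x ∈ E a)).card : ℝ)) := by
    rw [h1]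
    exact Finset.measurable_sum _ fun a _ => measurable_const.indicator (hE a)
  exact measurableSet_lt measurable_const h2

theorem markov [IsProbabilityMeasure μ] {ι : Type*} (I : Finset ι) (E : ι → Set Ω)
    (hE : ∀ a, MeasurableSet (E a)) {t b : ℝ} (ht : 0 < t) (hb : ∑ a ∈ I, μ.real (E a) ≤ t * b) :
    μ.real {x | t < ((I.filter (fun a => x ∈ E a)).card : ℝ)} ≤ b := by
  obtain ⟨h1, h2⟩ := integral_card (μ := μ) I E hE
  have h3 := mul_meas_ge_le_integral_of_nonneg (μ := μ)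
    (f := fun x => ((I.filter (fun a => x ∈ E a)).card : ℝ))
    (Filter.Eventually.of_forall fun x => by positivity) h1 t
  have h4 : μ.real {x | t < ((I.filter (fun a => x ∈ E a)).card : ℝ)} ≤
      μ.real {x | t ≤ ((I.filter (fun a => x ∈ E a)).card : ℝ)} :=
    measureReal_mono (fun x (hx : t < _) => show t ≤ _ from le_of_lt hx) (measure_ne_top _ _)
  rw [h2] at h3
  have h5 : t * μ.real {x | t < ((I.filter (fun a => x ∈ E a)).card : ℝ)} ≤ t * b :=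
    (mul_le_mul_of_nonneg_left h4 ht.le).trans (h3.trans hb)
  exact le_of_mul_le_mul_left h5 ht

/-! ### consequences of (P0) -/

theorem chain_step [IsProbabilityMeasure μ] {T : Sys n μ} {Fr : ℕ → Fin n → Fin n → Set Ω}
    {M L : ℕ} {c δ ε : ℝ} (h : Hyp n μ T Fr M L c δ ε) {i j : Fin n} (hij : i ≠ j) :
    ∀ (q m : ℕ), m + q ≤ M → μ.real (Fr m i j \ Fr (m + q) i j) ≤ q * ε := by
  intro q
  induction q with
  | zero => intro m _; simp
  | succ q ih =>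
    intro m hm
    have h1 := ih m (by omega)
    have h2 := h.P0 (m + q) (by omega) i j hij
    have h3 : Fr m i j \ Fr (m + (q + 1)) i j ⊆
        (Fr m i j \ Fr (m + q) i j) ∪ (Fr (m + q) i j \ Fr (m + q + 1) i j) := by
      intro x hx
      by_cases hx2 : x ∈ Fr (m + q) i j
      · right; exact ⟨hx2, by have := hx.2; rwa [← add_assoc] at this⟩
      · left; exact ⟨hx.1, hx2⟩
    calc μ.real (Fr m i j \ Fr (m + (q + 1)) i j)
        ≤ μ.real ((Fr m i j \ Fr (m + q) i j) ∪ (Fr (m + q) i j \ Fr (m + q + 1) i j)) :=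
          measureReal_mono h3 (measure_ne_top _ _)
      _ ≤ μ.real (Fr m i j \ Fr (m + q) i j) + μ.real (Fr (m + q) i j \ Fr (m + q + 1) i j) :=
          measureReal_union_le _ _
      _ ≤ q * ε + ε := add_le_add h1 h2
      _ = ((q + 1 : ℕ) : ℝ) * ε := by push_cast; ring

/-- the exceptional mass between index `m` and `m + 3` -/
theorem diff_back [IsProbabilityMeasure μ] {T : Sys n μ} {Fr : ℕ → Fin n → Fin n → Set Ω}
    {M L : ℕ} {c δ ε : ℝ} (h : Hyp n μ T Fr M L c δ ε) {i j : Fin n} (hij : i ≠ j)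
    {m : ℕ} (hm : m + 3 ≤ M) :
    μ.real (Fr (m + 3) i j \ Fr m i j) ≤ μ.real (Fr (m + 3) i j) - μ.real (Fr m i j) + 3 * ε := by
  have h1 := chain_step h hij 3 m hm
  have h2 : μ.real (Fr (m + 3) i j) =
      μ.real (Fr (m + 3) i j ∩ Fr m i j) + μ.real (Fr (m + 3) i j \ Fr m i j) :=
    (measureReal_inter_add_sdiff (h.meas m i j)).symm
  have h3 : μ.real (Fr m i j) =
      μ.real (Fr m i j ∩ Fr (m + 3) i j) + μ.real (Fr m i j \ Fr (m + 3) i j) :=
    (measureReal_inter_add_sdiff (h.meas (m + 3) i j)).symm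
  rw [Set.inter_comm] at h3
  push_cast at h1
  linarith

/-- the pairs `i ≠ j` -/
def prs (n : ℕ) : Finset (Fin n × Fin n) := Finset.univ.filter (fun p => p.1 ≠ p.2)

theorem prs_card (n : ℕ) : ((prs n).card : ℝ) ≤ (n : ℝ) ^ 2 := by
  have : (prs n).card ≤ n * n := by
    refine (Finset.card_filter_le _ _).trans ?_
    simp
  calc ((prs n).card : ℝ) ≤ ((n * n : ℕ) : ℝ) := by exact_mod_cast this
    _ = (n : ℝ) ^ 2 := by push_cast; ring

/-- pigeonhole on the index -/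
theorem pigeon [IsProbabilityMeasure μ] {T : Sys n μ} {Fr : ℕ → Fin n → Fin n → Set Ω}
    {Q L : ℕ} (hQ : 0 < Q) {c δ ε : ℝ} (hε : 0 ≤ ε) (h : Hyp n μ T Fr (3 * Q) L c δ ε) :
    ∃ m, m + 3 ≤ 3 * Q ∧ ∀ i j, i ≠ j →
      μ.real (Fr (m + 3) i j \ Fr m i j) ≤ (n : ℝ) ^ 2 / Q + 3 * n ^ 2 * ε := by
  set g : ℕ → ℝ := fun m => ∑ p ∈ prs n, μ.real (Fr m p.1 p.2) with hg
  have hg0 : ∀ m, 0 ≤ g m := fun m => Finset.sum_nonneg fun p _ => measureReal_nonneg
  have hg1 : ∀ m, g m ≤ (n : ℝ) ^ 2 := by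
    intro m
    calc g m ≤ ∑ p ∈ prs n, (1 : ℝ) := Finset.sum_le_sum fun p _ => measureReal_le_one
      _ = (prs n).card := by simp
      _ ≤ (n : ℝ) ^ 2 := prs_card n
  have hsum : ∑ q ∈ Finset.range Q, (g (3 * (q + 1)) - g (3 * q)) = g (3 * Q) - g (3 * 0) :=
    Finset.sum_range_sub (fun q => g (3 * q)) Q
  have hex : ∃ q ∈ Finset.range Q, g (3 * (q + 1)) - g (3 * q) ≤ (n : ℝ) ^ 2 / Q := by
    by_contra hcon
    push Not at hcon
    have h1 : ∑ q ∈ Finset.range Q, (n : ℝ) ^ 2 / Q <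
        ∑ q ∈ Finset.range Q, (g (3 * (q + 1)) - g (3 * q)) :=
      Finset.sum_lt_sum_of_nonempty (Finset.nonempty_range_iff.2 hQ.ne') hcon
    rw [hsum, Finset.sum_const, Finset.card_range, nsmul_eq_mul] at h1
    have hQ' : (Q : ℝ) ≠ 0 := by exact_mod_cast hQ.ne'
    rw [mul_div_cancel₀ _ hQ'] at h1
    have h2 := hg1 (3 * Q)
    have h3 := hg0 (3 * 0)
    linarith
  obtain ⟨q, hq, hle⟩ := hex
  have hq' : q < Q := Finset.mem_range.1 hq
  refine ⟨3 * q, by omega, fun i j hij => ?_⟩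
  have h3 : 3 * q + 3 ≤ 3 * Q := by omega
  have hd : ∀ p ∈ prs n, μ.real (Fr (3 * q + 3) p.1 p.2 \ Fr (3 * q) p.1 p.2) ≤
      μ.real (Fr (3 * q + 3) p.1 p.2) - μ.real (Fr (3 * q) p.1 p.2) + 3 * ε := fun p hp =>
    diff_back h (Finset.mem_filter.1 hp).2 h3
  have hmem : (i, j) ∈ prs n := by simp [prs, hij]
  have h4 : μ.real (Fr (3 * q + 3) i j \ Fr (3 * q) i j) ≤
      ∑ p ∈ prs n, μ.real (Fr (3 * q + 3) p.1 p.2 \ Fr (3 * q) p.1 p.2) :=
    Finset.single_le_sum (f := fun p : Fin n × Fin n =>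
      μ.real (Fr (3 * q + 3) p.1 p.2 \ Fr (3 * q) p.1 p.2)) (fun p _ => measureReal_nonneg) hmem
  have h5 : ∑ p ∈ prs n, μ.real (Fr (3 * q + 3) p.1 p.2 \ Fr (3 * q) p.1 p.2) ≤
      (g (3 * (q + 1)) - g (3 * q)) + (prs n).card * (3 * ε) := by
    refine (Finset.sum_le_sum hd).trans (le_of_eq ?_)
    rw [Finset.sum_add_distrib, Finset.sum_sub_distrib, Finset.sum_const, nsmul_eq_mul]
    have : 3 * (q + 1) = 3 * q + 3 := by ring
    rw [this]
  have h6 : ((prs n).card : ℝ) * (3 * ε) ≤ (n : ℝ) ^ 2 * (3 * ε) :=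
    mul_le_mul_of_nonneg_right (prs_card n) (by linarith)
  calc μ.real (Fr (3 * q + 3) i j \ Fr (3 * q) i j)
      ≤ (g (3 * (q + 1)) - g (3 * q)) + (prs n).card * (3 * ε) := h4.trans h5
    _ ≤ (n : ℝ) ^ 2 / Q + (n : ℝ) ^ 2 * (3 * ε) := add_le_add hle h6
    _ = (n : ℝ) ^ 2 / Q + 3 * n ^ 2 * ε := by ring

/-! ### one pair of depths -/

theorem real_pre (T : Sys n μ) (z : Fin n → ℤ) {E : Set Ω} (hE : MeasurableSet E) :
    μ.real (T.τ z ⁻¹' E) = μ.real E := by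
  unfold Measure.real
  rw [(T.mp z).measure_preimage hE.nullMeasurableSet]

theorem ev_abs {i j : Fin n} {r s : ℤ} {L : ℕ} (hr : |r| ≤ L) (hs : |s| ≤ L) (l : Fin n) :
    |(ev i r + ev j s : Fin n → ℤ) l| ≤ 3 * L := by
  have h1 : |(ev i r : Fin n → ℤ) l| ≤ L := by
    unfold ev
    by_cases h : l = i
    · subst h; simpa using hr
    · rw [Pi.single_eq_of_ne h]; simp
  have h2 : |(ev j s : Fin n → ℤ) l| ≤ L := by
    unfold ev
    by_cases h : l = j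
    · subst h; simpa using hs
    · rw [Pi.single_eq_of_ne h]; simp
  calc |(ev i r + ev j s : Fin n → ℤ) l| ≤ |(ev i r : Fin n → ℤ) l| + |(ev j s : Fin n → ℤ) l| :=
        abs_add_le _ _
    _ ≤ 3 * L := by omega

theorem ev_add (i : Fin n) (r s : ℤ) : (ev i (r + s) : Fin n → ℤ) = ev i r + ev i s := by
  unfold ev; rw [Pi.single_add]

theorem ev_neg (i : Fin n) (r : ℤ) : (ev i (-r) : Fin n → ℤ) = -ev i r := by
  unfold ev; rw [Pi.single_neg]

theorem ev_zero (i : Fin n) : (ev i 0 : Fin n → ℤ) = 0 := by unfold ev; simp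

theorem pair_bd [IsProbabilityMeasure μ] {T : Sys n μ} {Fr : ℕ → Fin n → Fin n → Set Ω}
    {M L : ℕ} {c δ ε κ : ℝ} (h : Hyp n μ T Fr M L c δ ε) {m : ℕ} (hm : m + 3 ≤ M)
    (hκ : ∀ i j, i ≠ j → μ.real (Fr (m + 3) i j \ Fr m i j) ≤ κ)
    {i j k : Fin n} (hij : i ≠ j) (hjk : j ≠ k) (hik : i ≠ k) {r s : ℤ}
    (hs : |s| ≤ L) (hrs : |r + s| ≤ L) :
    μ.real {x | T.τ (ev i r) x ∈ Fr m i j ∧ T.τ (ev j s) x ∈ Fr m j k ∧
      T.τ (ev i (r + s)) x ∉ Fr m i k} ≤ 4 * ε + κ := by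
  set z : Fin n → ℤ := ev i (r + s) + ev j s with hz
  set w1 : Fin n → ℤ := ev i s + ev j s with hw1
  set w2 : Fin n → ℤ := ev i (r + s) with hw2
  set w3 : Fin n → ℤ := ev j (-s) with hw3
  have e1 : z = w1 + ev i r := by
    rw [hz, hw1, hw2, ev_add]
    abel
  have e2 : z = w2 + ev j s := by rw [hz, hw2]
  have e3 : w3 + z = ev i (r + s) := by
    rw [hz, hw3, hw2, ev_neg]
    abel
  set E1 : Set Ω := T.τ (ev i r) ⁻¹' (Fr m i j \ T.τ w1 ⁻¹' Fr (m + 1) i j) with hE1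
  set E2 : Set Ω := T.τ (ev j s) ⁻¹' (Fr m j k \ T.τ w2 ⁻¹' Fr (m + 1) j k) with hE2
  set E3 : Set Ω := T.τ z ⁻¹' ((Fr (m + 1) i j ∩ Fr (m + 1) j k) \ Fr (m + 2) i k) with hE3
  set E4 : Set Ω := T.τ z ⁻¹' (Fr (m + 2) i k \ T.τ w3 ⁻¹' Fr (m + 3) i k) with hE4
  set E5 : Set Ω := T.τ (ev i (r + s)) ⁻¹' (Fr (m + 3) i k \ Fr m i k) with hE5
  have hsub : {x | T.τ (ev i r) x ∈ Fr m i j ∧ T.τ (ev j s) x ∈ Fr m j k ∧
      T.τ (ev i (r + s)) x ∉ Fr m i k} ⊆ ((((E1 ∪ E2) ∪ E3) ∪ E4) ∪ E5) := by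
    rintro x ⟨hx1, hx2, hx3⟩
    by_cases g1 : x ∈ E1
    · exact Or.inl (Or.inl (Or.inl (Or.inl g1)))
    by_cases g2 : x ∈ E2
    · exact Or.inl (Or.inl (Or.inl (Or.inr g2)))
    by_cases g3 : x ∈ E3
    · exact Or.inl (Or.inl (Or.inr g3))
    by_cases g4 : x ∈ E4
    · exact Or.inl (Or.inr g4)
    right
    have p1 : T.τ z x ∈ Fr (m + 1) i j := by
      by_contra hcon
      apply g1
      refine ⟨hx1, fun hmem => hcon ?_⟩
      have : T.τ w1 (T.τ (ev i r) x) ∈ Fr (m + 1) i j := hmem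
      rwa [← T.add, ← e1] at this
    have p2 : T.τ z x ∈ Fr (m + 1) j k := by
      by_contra hcon
      apply g2
      refine ⟨hx2, fun hmem => hcon ?_⟩
      have : T.τ w2 (T.τ (ev j s) x) ∈ Fr (m + 1) j k := hmem
      rwa [← T.add, ← e2] at this
    have p3 : T.τ z x ∈ Fr (m + 2) i k := by
      by_contra hcon
      exact g3 ⟨⟨p1, p2⟩, hcon⟩
    have p4 : T.τ (ev i (r + s)) x ∈ Fr (m + 3) i k := by
      by_contra hcon
      apply g4
      refine ⟨p3, fun hmem => hcon ?_⟩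
      have : T.τ w3 (T.τ z x) ∈ Fr (m + 3) i k := hmem
      rwa [← T.add, e3] at this
    exact ⟨p4, hx3⟩
  have hmeas1 : MeasurableSet (Fr m i j \ T.τ w1 ⁻¹' Fr (m + 1) i j) :=
    (h.meas _ _ _).diff ((T.mp w1).measurable (h.meas _ _ _))
  have hmeas2 : MeasurableSet (Fr m j k \ T.τ w2 ⁻¹' Fr (m + 1) j k) :=
    (h.meas _ _ _).diff ((T.mp w2).measurable (h.meas _ _ _))
  have hmeas3 : MeasurableSet ((Fr (m + 1) i j ∩ Fr (m + 1) j k) \ Fr (m + 2) i k) :=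
    ((h.meas _ _ _).inter (h.meas _ _ _)).diff (h.meas _ _ _)
  have hmeas4 : MeasurableSet (Fr (m + 2) i k \ T.τ w3 ⁻¹' Fr (m + 3) i k) :=
    (h.meas _ _ _).diff ((T.mp w3).measurable (h.meas _ _ _))
  have hmeas5 : MeasurableSet (Fr (m + 3) i k \ Fr m i k) := (h.meas _ _ _).diff (h.meas _ _ _)
  have b1 : μ.real E1 ≤ ε := by
    rw [hE1, real_pre T _ hmeas1]
    refine h.P1 m (by omega) i j hij w1 ?_ (fun l => ev_abs hs hs l)
    rw [hw1]; unfold ev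
    simp [hij, hij.symm]
  have b2 : μ.real E2 ≤ ε := by
    rw [hE2, real_pre T _ hmeas2]
    refine h.P1 m (by omega) j k hjk w2 ?_ ?_
    · rw [hw2]; unfold ev
      simp [hij.symm, hik.symm]
    · intro l
      have := ev_abs (n := n) (i := i) (j := j) (r := r + s) (s := 0) (L := L) hrs (by simp) l
      rw [ev_zero, add_zero] at this
      exact this
  have b3 : μ.real E3 ≤ ε := by
    rw [hE3, real_pre T _ hmeas3]
    exact h.P2 (m + 1) (by omega) i j k hij hjk hik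
  have b4 : μ.real E4 ≤ ε := by
    rw [hE4, real_pre T _ hmeas4]
    refine h.P1 (m + 2) (by omega) i k hik w3 ?_ ?_
    · rw [hw3]; unfold ev
      simp [hij, hjk.symm]
    · intro l
      have := ev_abs (n := n) (i := i) (j := j) (r := 0) (s := -s) (L := L) (by simp)
        (by rw [abs_neg]; exact hs) l
      rw [ev_zero, zero_add] at this
      exact this
  have b5 : μ.real E5 ≤ κ := by
    rw [hE5, real_pre T _ hmeas5]
    exact hκ i k hik
  calc μ.real {x | T.τ (ev i r) x ∈ Fr m i j ∧ T.τ (ev j s) x ∈ Fr m j k ∧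
      T.τ (ev i (r + s)) x ∉ Fr m i k} ≤ μ.real ((((E1 ∪ E2) ∪ E3) ∪ E4) ∪ E5) :=
        measureReal_mono hsub (measure_ne_top _ _)
    _ ≤ (((μ.real E1 + μ.real E2) + μ.real E3) + μ.real E4) + μ.real E5 := by
        have u1 := measureReal_union_le (μ := μ) (((E1 ∪ E2) ∪ E3) ∪ E4) E5
        have u2 := measureReal_union_le (μ := μ) ((E1 ∪ E2) ∪ E3) E4
        have u3 := measureReal_union_le (μ := μ) (E1 ∪ E2) E3
        have u4 := measureReal_union_le (μ := μ) E1 E2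
        linarith
    _ ≤ 4 * ε + κ := by linarith

/-! ### the main theorem -/

/-- a counting function that is small off a bad set: the mean of the measures is small -/
theorem mean_bd [IsProbabilityMeasure μ] {ι : Type*} (I : Finset ι) (E : ι → Set Ω)
    (hE : ∀ a, MeasurableSet (E a)) {B : Set Ω} (hB : MeasurableSet B) {t : ℝ} (ht : 0 ≤ t)
    (h : ∀ x, x ∉ B → ((I.filter (fun a => x ∈ E a)).card : ℝ) ≤ t) :
    ∑ a ∈ I, μ.real (E a) ≤ t + I.card * μ.real B := by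
  obtain ⟨h1, h2⟩ := integral_card (μ := μ) I E hE
  rw [← h2]
  have h3 : Integrable (fun x => t + (I.card : ℝ) * B.indicator (fun _ => (1 : ℝ)) x) μ :=
    (integrable_const t).add (((integrable_const (1 : ℝ)).indicator hB).const_mul _)
  have h4 : ∫ x, (t + (I.card : ℝ) * B.indicator (fun _ => (1 : ℝ)) x) ∂μ =
      t + I.card * μ.real B := by
    rw [integral_add (integrable_const t) (((integrable_const (1 : ℝ)).indicator hB).const_mul _),
      integral_const_mul, integral_indicator hB]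
    simp
  rw [← h4]
  refine integral_mono h1 h3 fun x => ?_
  by_cases hx : x ∈ B
  · have : ((I.filter (fun a => x ∈ E a)).card : ℝ) ≤ I.card := by
      exact_mod_cast Finset.card_filter_le _ _
    simp only [Set.indicator_of_mem hx]
    linarith
  · simp only [Set.indicator_of_notMem hx]
    have := h x hx
    linarith

/-- density of the free depths in windows -/
theorem windows {S : Finset (Fin n)} {A0 A : Fin n → Fin n → Set ℤ} {L : ℕ} {c δ : ℝ}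
    (hn : 0 < n)
    (hD : ∀ i j, i ≠ j → (((Finset.Icc (-(L : ℤ)) L).filter
      (fun r => r ∈ A0 i j \ A i j)).card : ℝ) ≤ c * δ / (2 * n ^ 2) * L)
    {a b : ℤ} (ha : -(L : ℤ) ≤ a) (hb : b ≤ L) (hab : δ * L ≤ ((b - a : ℤ) : ℝ)) (hc : 0 < c)
    (h : c * ((b - a : ℤ) : ℝ) ≤ ∑ i ∈ S, ∑ j ∈ Sᶜ, cnt (A0 i j) a b) (hδ : 0 < δ) :
    c / 2 * ((b - a : ℤ) : ℝ) ≤ ∑ i ∈ S, ∑ j ∈ Sᶜ, cnt (A i j) a b := by
  have hn' : (0 : ℝ) < n := by exact_mod_cast hn
  have h1 : ∀ i ∈ S, ∀ j ∈ Sᶜ, cnt (A0 i j) a b ≤ cnt (A i j) a b + c * δ / (2 * n ^ 2) * L := by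
    intro i hi j hj
    have hij : i ≠ j := by
      rintro rfl
      exact (Finset.mem_compl.1 hj) hi
    refine le_trans ?_ (add_le_add_right (hD i j hij) _)
    unfold cnt
    have : ((Finset.Ico a b).filter (fun x => x ∈ A0 i j)).card ≤
        ((Finset.Ico a b).filter (fun x => x ∈ A i j)).card +
        ((Finset.Icc (-(L : ℤ)) L).filter (fun r => r ∈ A0 i j \ A i j)).card := by
      refine le_trans (Finset.card_le_card ?_) (Finset.card_union_le _ _)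
      intro x hx
      rw [Finset.mem_filter, Finset.mem_Ico] at hx
      rw [Finset.mem_union, Finset.mem_filter, Finset.mem_filter, Finset.mem_Ico, Finset.mem_Icc]
      by_cases hxA : x ∈ A i j
      · exact Or.inl ⟨hx.1, hxA⟩
      · exact Or.inr ⟨⟨by omega, by omega⟩, hx.2, hxA⟩
    exact_mod_cast this
  have h2 : ∑ i ∈ S, ∑ j ∈ Sᶜ, cnt (A0 i j) a b ≤
      ∑ i ∈ S, ∑ j ∈ Sᶜ, (cnt (A i j) a b + c * δ / (2 * n ^ 2) * L) :=
    Finset.sum_le_sum fun i hi => Finset.sum_le_sum fun j hj => h1 i hi j hj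
  have h3 : ∑ i ∈ S, ∑ j ∈ Sᶜ, (cnt (A i j) a b + c * δ / (2 * n ^ 2) * L) =
      ∑ i ∈ S, ∑ j ∈ Sᶜ, cnt (A i j) a b + (S.card * Sᶜ.card : ℝ) * (c * δ / (2 * n ^ 2) * L) := by
    simp only [Finset.sum_add_distrib, Finset.sum_const, nsmul_eq_mul]
    ring
  have h4 : (S.card * Sᶜ.card : ℝ) ≤ (n : ℝ) ^ 2 := by
    have e1 : (S.card : ℝ) ≤ n := by
      have := Finset.card_le_univ S
      rw [Fintype.card_fin] at this
      exact_mod_cast this
    have e2 : (Sᶜ.card : ℝ) ≤ n := by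
      have := Finset.card_le_univ Sᶜ
      rw [Fintype.card_fin] at this
      exact_mod_cast this
    calc (S.card * Sᶜ.card : ℝ) ≤ n * n := mul_le_mul e1 e2 (by positivity) (by positivity)
      _ = (n : ℝ) ^ 2 := by ring
  have h5 : (S.card * Sᶜ.card : ℝ) * (c * δ / (2 * n ^ 2) * L) ≤
      (n : ℝ) ^ 2 * (c * δ / (2 * n ^ 2) * L) :=
    mul_le_mul_of_nonneg_right h4 (by positivity)
  have h6 : (n : ℝ) ^ 2 * (c * δ / (2 * n ^ 2) * L) = c / 2 * (δ * L) := by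
    field_simp
  have h7 : c / 2 * (δ * L) ≤ c / 2 * ((b - a : ℤ) : ℝ) :=
    mul_le_mul_of_nonneg_left hab (by positivity)
  rw [h3] at h2
  linarith

/-- the depths `r` at which `x` is free -/
def dep (T : Sys n μ) (F : Fin n → Fin n → Set Ω) (x : Ω) (i j : Fin n) : Set ℤ :=
  {r | T.τ (ev i r) x ∈ F i j}

theorem meas_pre (T : Sys n μ) (z : Fin n → ℤ) {E : Set Ω} (hE : MeasurableSet E) :
    MeasurableSet (T.τ z ⁻¹' E) := (T.mp z).measurable hE

theorem card_IL (L : ℕ) : ((Finset.Icc (-(L : ℤ)) L).card : ℝ) = 2 * L + 1 := by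
  rw [Int.card_Icc]
  have : ((L : ℤ) + 1 - -(L : ℤ)).toNat = 2 * L + 1 := by omega
  rw [this]; push_cast; ring

/-- the exceptional set for (H1) -/
theorem bad_pairs [IsProbabilityMeasure μ] {T : Sys n μ} {Fr : ℕ → Fin n → Fin n → Set Ω}
    {M L : ℕ} {c δ ε κ η : ℝ} (h : Hyp n μ T Fr M L c δ ε) {m : ℕ} (hm : m + 3 ≤ M) (hL : 1 ≤ L)
    (hε : 0 ≤ ε) (hη : 0 < η) (hκ0 : 0 ≤ κ)
    (hκ : ∀ i j, i ≠ j → μ.real (Fr (m + 3) i j \ Fr m i j) ≤ κ)
    {i j k : Fin n} (hij : i ≠ j) (hjk : j ≠ k) (hik : i ≠ k) :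
    ∃ B : Set Ω, MeasurableSet B ∧ μ.real B ≤ 9 * (4 * ε + κ) / η ∧ ∀ x, x ∉ B →
      ((badPairs (dep T (Fr m) x i j) (dep T (Fr m) x j k) (dep T (Fr m) x i k) L).card : ℝ) ≤
        η * (L : ℝ) ^ 2 := by
  set E : ℤ × ℤ → Set Ω := fun p => if |p.1 + p.2| ≤ (L : ℤ) then
    {x | T.τ (ev i p.1) x ∈ Fr m i j ∧ T.τ (ev j p.2) x ∈ Fr m j k ∧
      T.τ (ev i (p.1 + p.2)) x ∉ Fr m i k} else ∅ with hE
  have hEm : ∀ p, MeasurableSet (E p) := by
    intro p
    simp only [hE]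
    split_ifs
    · exact (meas_pre T _ (h.meas _ _ _)).inter ((meas_pre T _ (h.meas _ _ _)).inter
        (meas_pre T _ (h.meas _ _ _)).compl)
    · exact MeasurableSet.empty
  have hEb : ∀ p ∈ Finset.Icc (-(L : ℤ)) L ×ˢ Finset.Icc (-(L : ℤ)) L,
      μ.real (E p) ≤ 4 * ε + κ := by
    intro p hp
    rw [Finset.mem_product, Finset.mem_Icc, Finset.mem_Icc] at hp
    simp only [hE]
    split_ifs with hpp
    · exact pair_bd h hm hκ hij hjk hik (abs_le.2 hp.2) hpp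
    · simp; positivity
  have hLr : (1 : ℝ) ≤ L := by exact_mod_cast hL
  have hsum : ∑ p ∈ Finset.Icc (-(L : ℤ)) L ×ˢ Finset.Icc (-(L : ℤ)) L, μ.real (E p) ≤
      η * (L : ℝ) ^ 2 * (9 * (4 * ε + κ) / η) := by
    refine (Finset.sum_le_card_nsmul _ _ _ hEb).trans ?_
    rw [nsmul_eq_mul, Finset.card_product, Nat.cast_mul, card_IL]
    have e1 : η * (L : ℝ) ^ 2 * (9 * (4 * ε + κ) / η) = (3 * L) * (3 * L) * (4 * ε + κ) := by
      field_simp
      ring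
    rw [e1]
    have e2 : (2 * (L : ℝ) + 1) ≤ 3 * L := by linarith
    exact mul_le_mul_of_nonneg_right (mul_le_mul e2 e2 (by positivity) (by positivity))
      (by positivity)
  refine ⟨{x | η * (L : ℝ) ^ 2 < (((Finset.Icc (-(L : ℤ)) L ×ˢ Finset.Icc (-(L : ℤ)) L).filter
    (fun p => x ∈ E p)).card : ℝ)}, meas_card _ E hEm _, markov _ E hEm (by positivity) hsum, ?_⟩
  intro x hx
  rw [Set.mem_ofPred_eq, not_lt] at hx
  refine le_trans ?_ hx
  have : (badPairs (dep T (Fr m) x i j) (dep T (Fr m) x j k) (dep T (Fr m) x i k) L) ⊆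
      ((Finset.Icc (-(L : ℤ)) L ×ˢ Finset.Icc (-(L : ℤ)) L).filter (fun p => x ∈ E p)) := by
    intro p hp
    unfold badPairs at hp
    rw [Finset.mem_filter] at hp ⊢
    refine ⟨hp.1, ?_⟩
    simp only [hE]
    rw [if_pos hp.2.2.2.1]
    exact ⟨hp.2.1, hp.2.2.1, hp.2.2.2.2⟩
  exact_mod_cast Finset.card_le_card this

/-- the exceptional set for (H2) -/
theorem bad_dep [IsProbabilityMeasure μ] {T : Sys n μ} {Fr : ℕ → Fin n → Fin n → Set Ω}
    {M L : ℕ} {c δ ε : ℝ} (h : Hyp n μ T Fr M L c δ ε) {m : ℕ} (hm : m ≤ M) (hL : 1 ≤ L)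
    (hn : 0 < n) (hc : 0 < c) (hδ : 0 < δ) (hε : 0 ≤ ε) {i j : Fin n} (hij : i ≠ j) :
    ∃ B : Set Ω, MeasurableSet B ∧ μ.real B ≤ 6 * n ^ 2 * M * ε / (c * δ) ∧ ∀ x, x ∉ B →
      (((Finset.Icc (-(L : ℤ)) L).filter
        (fun r => r ∈ dep T (Fr 0) x i j \ dep T (Fr m) x i j)).card : ℝ) ≤
          c * δ / (2 * n ^ 2) * L := by
  have hn' : (0 : ℝ) < n := by exact_mod_cast hn
  set E : ℤ → Set Ω := fun r => T.τ (ev i r) ⁻¹' (Fr 0 i j \ Fr m i j) with hE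
  have hEm : ∀ p, MeasurableSet (E p) := fun p =>
    meas_pre T _ ((h.meas _ _ _).diff (h.meas _ _ _))
  have hEb : ∀ p ∈ Finset.Icc (-(L : ℤ)) L, μ.real (E p) ≤ M * ε := by
    intro p _
    simp only [hE]
    rw [real_pre T _ ((h.meas _ _ _).diff (h.meas _ _ _))]
    have h1 := chain_step h hij m 0 (by omega)
    rw [Nat.zero_add] at h1
    refine h1.trans (mul_le_mul_of_nonneg_right ?_ hε)
    exact_mod_cast hm
  have hLr : (1 : ℝ) ≤ L := by exact_mod_cast hL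
  have hsum : ∑ p ∈ Finset.Icc (-(L : ℤ)) L, μ.real (E p) ≤
      c * δ / (2 * n ^ 2) * L * (6 * n ^ 2 * M * ε / (c * δ)) := by
    refine (Finset.sum_le_card_nsmul _ _ _ hEb).trans ?_
    rw [nsmul_eq_mul, card_IL]
    have e1 : c * δ / (2 * n ^ 2) * L * (6 * n ^ 2 * M * ε / (c * δ)) = 3 * L * (M * ε) := by
      field_simp
      ring
    rw [e1]
    exact mul_le_mul_of_nonneg_right (by linarith) (by positivity)
  refine ⟨{x | c * δ / (2 * n ^ 2) * L < (((Finset.Icc (-(L : ℤ)) L).filter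
    (fun p => x ∈ E p)).card : ℝ)}, meas_card _ E hEm _, markov _ E hEm (by positivity) hsum, ?_⟩
  intro x hx
  rw [Set.mem_ofPred_eq, not_lt] at hx
  refine le_trans ?_ hx
  have : (Finset.Icc (-(L : ℤ)) L).filter (fun r => r ∈ dep T (Fr 0) x i j \ dep T (Fr m) x i j) ⊆
      (Finset.Icc (-(L : ℤ)) L).filter (fun p => x ∈ E p) := by
    intro r hr
    rw [Finset.mem_filter] at hr ⊢
    exact hr
  exact_mod_cast Finset.card_le_card this

/-- **D-CHAIN**. -/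
theorem chain (n : ℕ) (hn : 3 ≤ n) (c ε' : ℝ) (hc : 0 < c) (hε' : 0 < ε') :
    ∃ (G M : ℕ) (δ ε : ℝ) (L0 : ℕ), 0 < δ ∧ 0 < ε ∧ ∀ L : ℕ, L0 ≤ L →
      ∀ {Ω : Type u} [MeasurableSpace Ω] (μ : Measure Ω) [IsProbabilityMeasure μ] (T : Sys n μ)
        (Fr : ℕ → Fin n → Fin n → Set Ω), Hyp n μ T Fr M L c δ ε →
        ∀ i j, i ≠ j → μ.real {x | ∀ s : ℕ, s < G → T.τ (ev i s) x ∉ Fr M i j} ≤ ε' := by
  obtain ⟨G, δ, η, L1, hδ, hη, hcomb⟩ := comb n hn (c / 2) (ε' / 4) (by positivity) (by positivity)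
  obtain ⟨Q0, hQ0⟩ := exists_nat_gt (9 * (n : ℝ) ^ 5 * 16 / (η * ε'))
  set Q : ℕ := Q0 + 1 with hQ
  have hQpos : 0 < Q := by omega
  have hQr : (0 : ℝ) < Q := by exact_mod_cast hQpos
  have hQb : 9 * (n : ℝ) ^ 5 / (Q * η) ≤ ε' / 16 := by
    have h1 : 9 * (n : ℝ) ^ 5 * 16 / (η * ε') ≤ Q := by
      refine hQ0.le.trans ?_
      rw [hQ]; push_cast; linarith
    rw [div_le_iff₀ (by positivity)] at h1 ⊢
    nlinarith
  set K : ℝ := 1 + G * (3 * Q : ℕ) + (n : ℝ) ^ 2 * (6 * n ^ 2 * (3 * Q : ℕ) / (c * δ)) +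
    (n : ℝ) ^ 3 * (9 * (4 + 3 * n ^ 2) / η) with hK
  have hK1 : 1 ≤ K := by
    have : 0 ≤ (G : ℝ) * (3 * Q : ℕ) + (n : ℝ) ^ 2 * (6 * n ^ 2 * (3 * Q : ℕ) / (c * δ)) +
      (n : ℝ) ^ 3 * (9 * (4 + 3 * n ^ 2) / η) := by positivity
    rw [hK]; linarith
  set ε : ℝ := ε' / (16 * K) with hε
  have hεpos : 0 < ε := by positivity
  have hεK : K * ε = ε' / 16 := by rw [hε]; field_simp
  refine ⟨G, 3 * Q, δ, ε, max L1 1, hδ, hεpos, ?_⟩
  intro L hL Ω _ μ _ T Fr h i0 j0 hij0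
  have hL1 : L1 ≤ L := le_trans (le_max_left _ _) hL
  have hL2 : 1 ≤ L := le_trans (le_max_right _ _) hL
  have hLr : (1 : ℝ) ≤ L := by exact_mod_cast hL2
  have hnr : (0 : ℝ) < n := by
    have : 0 < n := by omega
    exact_mod_cast this
  obtain ⟨m, hm, hκ⟩ := pigeon hQpos hεpos.le h
  set κ : ℝ := (n : ℝ) ^ 2 / Q + 3 * n ^ 2 * ε with hκdef
  have hκ0 : 0 ≤ κ := by positivity
  -- the exceptional sets
  obtain ⟨B1, hB1m, hB1, hP3⟩ := h.P3
  have h2 : ∀ p : Fin n × Fin n, ∃ B : Set Ω, MeasurableSet B ∧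
      μ.real B ≤ 6 * n ^ 2 * (3 * Q : ℕ) * ε / (c * δ) ∧ (p.1 ≠ p.2 → ∀ x, x ∉ B →
      (((Finset.Icc (-(L : ℤ)) L).filter
        (fun r => r ∈ dep T (Fr 0) x p.1 p.2 \ dep T (Fr m) x p.1 p.2)).card : ℝ) ≤
          c * δ / (2 * n ^ 2) * L) := by
    intro p
    by_cases hp : p.1 ≠ p.2
    · obtain ⟨B, e1, e2, e3⟩ := bad_dep h (m := m) (by omega) hL2 (by omega) hc hδ hεpos.le hp
      exact ⟨B, e1, e2, fun _ => e3⟩
    · exact ⟨∅, MeasurableSet.empty, by simp; positivity, fun h => absurd h hp⟩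
  choose B2 hB2m hB2 hB2p using h2
  have h3 : ∀ p : Fin n × Fin n × Fin n, ∃ B : Set Ω, MeasurableSet B ∧
      μ.real B ≤ 9 * (4 * ε + κ) / η ∧ (p.1 ≠ p.2.1 → p.2.1 ≠ p.2.2 → p.1 ≠ p.2.2 → ∀ x, x ∉ B →
      ((badPairs (dep T (Fr m) x p.1 p.2.1) (dep T (Fr m) x p.2.1 p.2.2)
        (dep T (Fr m) x p.1 p.2.2) L).card : ℝ) ≤ η * (L : ℝ) ^ 2) := by
    intro p
    by_cases hp : p.1 ≠ p.2.1 ∧ p.2.1 ≠ p.2.2 ∧ p.1 ≠ p.2.2
    · obtain ⟨B, e1, e2, e3⟩ := bad_pairs h hm hL2 hεpos.le hη hκ0 hκ hp.1 hp.2.1 hp.2.2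
      exact ⟨B, e1, e2, fun _ _ _ => e3⟩
    · exact ⟨∅, MeasurableSet.empty, by simp; positivity, fun h1 h2 h3 => absurd ⟨h1, h2, h3⟩ hp⟩
  choose B3 hB3m hB3 hB3p using h3
  set B : Set Ω := B1 ∪ (⋃ p ∈ (Finset.univ : Finset (Fin n × Fin n)), B2 p) ∪
    (⋃ p ∈ (Finset.univ : Finset (Fin n × Fin n × Fin n)), B3 p) with hB
  have hBm : MeasurableSet B := by
    refine (hB1m.union ?_).union ?_
    · exact Finset.measurableSet_biUnion _ fun p _ => hB2m p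
    · exact Finset.measurableSet_biUnion _ fun p _ => hB3m p
  have hBb : μ.real B ≤ ε + (n : ℝ) ^ 2 * (6 * n ^ 2 * (3 * Q : ℕ) * ε / (c * δ)) +
      (n : ℝ) ^ 3 * (9 * (4 * ε + κ) / η) := by
    have e1 : μ.real (⋃ p ∈ (Finset.univ : Finset (Fin n × Fin n)), B2 p) ≤
        (n : ℝ) ^ 2 * (6 * n ^ 2 * (3 * Q : ℕ) * ε / (c * δ)) := by
      refine (measureReal_biUnion_finset_le _ _).trans ?_
      refine (Finset.sum_le_card_nsmul _ _ _ fun p _ => hB2 p).trans ?_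
      rw [nsmul_eq_mul, Finset.card_univ, Fintype.card_prod, Fintype.card_fin]
      push_cast
      exact le_of_eq (by ring)
    have e2 : μ.real (⋃ p ∈ (Finset.univ : Finset (Fin n × Fin n × Fin n)), B3 p) ≤
        (n : ℝ) ^ 3 * (9 * (4 * ε + κ) / η) := by
      refine (measureReal_biUnion_finset_le _ _).trans ?_
      refine (Finset.sum_le_card_nsmul _ _ _ fun p _ => hB3 p).trans ?_
      rw [nsmul_eq_mul, Finset.card_univ, Fintype.card_prod, Fintype.card_prod, Fintype.card_fin]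
      push_cast
      exact le_of_eq (by ring)
    have u1 := measureReal_union_le (μ := μ) (B1 ∪ (⋃ p ∈ (Finset.univ : Finset (Fin n × Fin n)), B2 p))
      (⋃ p ∈ (Finset.univ : Finset (Fin n × Fin n × Fin n)), B3 p)
    have u2 := measureReal_union_le (μ := μ) B1 (⋃ p ∈ (Finset.univ : Finset (Fin n × Fin n)), B2 p)
    rw [hB]
    linarith
  have hBb2 : μ.real B + G * ((3 * Q : ℕ) * ε) ≤ ε' / 8 := by
    have e0 : K * ε = ε + G * ((3 * Q : ℕ) * ε) + (n : ℝ) ^ 2 * (6 * n ^ 2 * (3 * Q : ℕ) * ε / (c * δ))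
        + (n : ℝ) ^ 3 * (9 * (4 + 3 * n ^ 2) * ε / η) := by
      rw [hK]; ring
    have e1 : (n : ℝ) ^ 3 * (9 * (4 * ε + κ) / η) =
        (n : ℝ) ^ 3 * (9 * (4 + 3 * n ^ 2) * ε / η) + 9 * (n : ℝ) ^ 5 / (Q * η) := by
      rw [hκdef]
      field_simp
      ring
    rw [e1] at hBb
    linarith
  -- comb off the exceptional set
  have hgood : ∀ x, x ∉ B → ∀ i j, i ≠ j →
      (((Finset.Icc (-(L : ℤ)) L).filter
        (fun r => ∀ s : ℤ, r ≤ s → s < r + G → s ∉ dep T (Fr m) x i j)).card : ℝ) ≤ ε' / 4 * L := by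
    intro x hx
    rw [hB, Set.mem_union, Set.mem_union, not_or, not_or] at hx
    obtain ⟨⟨hx1, hx2⟩, hx3⟩ := hx
    simp only [Finset.mem_univ, Set.iUnion_true, Set.mem_iUnion, not_exists] at hx2 hx3
    refine hcomb L hL1 (fun i j => dep T (Fr m) x i j) ?_ ?_
    · intro i j k hij hjk hik
      exact hB3p (i, j, k) hij hjk hik x (hx3 _)
    · intro a b ha hb hab S hS1 hS2
      exact windows (A0 := fun i j => dep T (Fr 0) x i j) (by omega)
        (fun i j hij => hB2p (i, j) hij x (hx2 _)) ha hb hab hc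
        (hP3 x hx1 a b ha hb hab S hS1 hS2) hδ
  -- mean over the depths
  set F : ℤ → Set Ω := fun r => {x | ∀ s : ℤ, r ≤ s → s < r + G → s ∉ dep T (Fr m) x i0 j0} with hF
  set F0 : Set Ω := {x | ∀ s : ℕ, s < G → T.τ (ev i0 s) x ∉ Fr m i0 j0} with hF0
  have hF0m : MeasurableSet F0 := by
    have : F0 = ⋂ s : ℕ, ⋂ (_ : s < G), (T.τ (ev i0 s) ⁻¹' Fr m i0 j0)ᶜ := by
      ext x; simp [hF0]
    rw [this]
    exact MeasurableSet.iInter fun s => MeasurableSet.iInter fun _ =>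
      (meas_pre T _ (h.meas _ _ _)).compl
  have hFF : ∀ r, F r = T.τ (ev i0 r) ⁻¹' F0 := by
    intro r
    ext x
    simp only [hF, hF0, dep, Set.mem_ofPred_eq, Set.mem_preimage]
    constructor
    · intro hx s hs
      have := hx (r + s) (by omega) (by omega)
      rw [add_comm, ev_add, T.add] at this
      exact this
    · intro hx s hs1 hs2
      obtain ⟨t, rfl⟩ : ∃ t : ℕ, s = r + t := ⟨(s - r).toNat, by omega⟩
      have := hx t (by omega)
      rw [← T.add, ← ev_add, add_comm] at this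
      exact this
  have hFm : ∀ r, MeasurableSet (F r) := fun r => by rw [hFF]; exact meas_pre T _ hF0m
  have hFr : ∀ r, μ.real (F r) = μ.real F0 := fun r => by rw [hFF]; exact real_pre T _ hF0m
  have hmean := mean_bd (μ := μ) (Finset.Icc (-(L : ℤ)) L) F hFm hBm (t := ε' / 4 * L)
    (by positivity) (fun x hx => by
      convert hgood x hx i0 j0 hij0
      exact Iff.rfl)
  simp only [hFr, Finset.sum_const, nsmul_eq_mul, card_IL] at hmean
  have hF0b : μ.real F0 ≤ ε' / 4 + μ.real B := by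
    have e1 : (2 * (L : ℝ) + 1) * μ.real F0 ≤ (2 * (L : ℝ) + 1) * (ε' / 4 + μ.real B) := by
      have : ε' / 4 * L ≤ (2 * (L : ℝ) + 1) * (ε' / 4) := by nlinarith
      linarith
    exact le_of_mul_le_mul_left e1 (by positivity)
  -- conclusion
  have hlast : ∀ s ∈ Finset.range G, μ.real (T.τ (ev i0 (s : ℤ)) ⁻¹' (Fr m i0 j0 \ Fr (3 * Q) i0 j0)) ≤
      (3 * Q : ℕ) * ε := by
    intro s _
    rw [real_pre T _ ((h.meas _ _ _).diff (h.meas _ _ _))]
    have e1 := chain_step h hij0 (3 * Q - m) m (by omega)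
    have e2 : m + (3 * Q - m) = 3 * Q := by omega
    rw [e2] at e1
    refine e1.trans (mul_le_mul_of_nonneg_right ?_ hεpos.le)
    exact_mod_cast Nat.sub_le _ _
  have hsub : {x | ∀ s : ℕ, s < G → T.τ (ev i0 s) x ∉ Fr (3 * Q) i0 j0} ⊆
      F0 ∪ ⋃ s ∈ Finset.range G, T.τ (ev i0 (s : ℤ)) ⁻¹' (Fr m i0 j0 \ Fr (3 * Q) i0 j0) := by
    intro x hx
    by_cases hx0 : x ∈ F0
    · exact Or.inl hx0
    · right
      simp only [hF0, Set.mem_ofPred_eq, not_forall, not_not] at hx0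
      obtain ⟨s, hs, hmem⟩ := hx0
      simp only [Set.mem_iUnion, Finset.mem_range]
      exact ⟨s, hs, hmem, hx s hs⟩
  calc μ.real {x | ∀ s : ℕ, s < G → T.τ (ev i0 s) x ∉ Fr (3 * Q) i0 j0}
      ≤ μ.real (F0 ∪ ⋃ s ∈ Finset.range G,
          T.τ (ev i0 (s : ℤ)) ⁻¹' (Fr m i0 j0 \ Fr (3 * Q) i0 j0)) :=
        measureReal_mono hsub (measure_ne_top _ _)
    _ ≤ μ.real F0 + μ.real (⋃ s ∈ Finset.range G,
          T.τ (ev i0 (s : ℤ)) ⁻¹' (Fr m i0 j0 \ Fr (3 * Q) i0 j0)) := measureReal_union_le _ _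
    _ ≤ μ.real F0 + G * ((3 * Q : ℕ) * ε) := by
        have := (measureReal_biUnion_finset_le (μ := μ) (Finset.range G) fun s : ℕ =>
          T.τ (ev i0 (s : ℤ)) ⁻¹' (Fr m i0 j0 \ Fr (3 * Q) i0 j0)).trans
            (Finset.sum_le_card_nsmul _ _ _ hlast)
        rw [nsmul_eq_mul, Finset.card_range] at this
        linarith
    _ ≤ ε' := by linarith

end Crest.Agent.R014.Chain_891
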