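import Crest.Agent.R014.Ms2_667
import Crest.Agent.R014.Ms6_667

set_option autoImplicit false

/-!
Row 14, block D, noise formalism (text #3844 of helper548): definitions and elementary facts.
Closeness of measures on all events (`TVle`), mixtures, convolution on `SLR n`, the random walk
step `stp μ κ` on `ModSpace n`.
-/

open MeasureTheory Crest.NumberTheoryR.Packets
open scoped ENNReal

namespace Crest.Agent.R014.Nd_837

open Ms_667

section TV

variable {Y Z W : Type*} [MeasurableSpace Y] [MeasurableSpace Z] [MeasurableSpace W]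

/-- The two measures differ by at most `e` on every event. -/
def TVle (μ ν : Measure Y) (e : ℝ) : Prop :=
  ∀ A : Set Y, MeasurableSet A → |μ.real A - ν.real A| ≤ e

variable {μ ν ρ : Measure Y} {e e' : ℝ}

theorem TVle.refl (μ : Measure Y) : TVle μ μ 0 := fun A _ => by simp

theorem TVle.symm (h : TVle μ ν e) : TVle ν μ e := fun A hA => by
  rw [abs_sub_comm]; exact h A hA

theorem TVle.trans (h : TVle μ ν e) (h' : TVle ν ρ e') : TVle μ ρ (e + e') := fun A hA =>
  (abs_sub_le _ (ν.real A) _).trans (add_le_add (h A hA) (h' A hA))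

theorem TVle.mono (h : TVle μ ν e) (he : e ≤ e') : TVle μ ν e' := fun A hA => (h A hA).trans he

theorem TVle.nonneg (h : TVle μ ν e) : 0 ≤ e := by
  have := h ∅ MeasurableSet.empty
  simpa using this

theorem TVle.map {f : Y → Z} (hf : Measurable f) (h : TVle μ ν e) :
    TVle (μ.map f) (ν.map f) e := fun A hA => by
  rw [map_measureReal_apply hf hA, map_measureReal_apply hf hA]
  exact h _ (hf hA)

theorem TVle.smul (h : TVle μ ν e) (c : ℝ≥0∞) :
    TVle (c • μ) (c • ν) (c.toReal * e) := fun A hA => by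
  rw [measureReal_def, measureReal_def, Measure.smul_apply, Measure.smul_apply, smul_eq_mul,
    smul_eq_mul, ENNReal.toReal_mul, ENNReal.toReal_mul, ← mul_sub, abs_mul,
    abs_of_nonneg ENNReal.toReal_nonneg]
  exact mul_le_mul_of_nonneg_left (h A hA) ENNReal.toReal_nonneg

theorem measurable_slice {F : W × Y → Z} (hF : Measurable F) (q : W) :
    Measurable fun y => F (q, y) := hF.comp measurable_prodMk_left

/-- A mixture as an integral. -/
theorem real_map_prod {κ : Measure W} [IsFiniteMeasure κ] {ν : Measure Y} [IsFiniteMeasure ν]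
    {F : W × Y → Z} (hF : Measurable F) {A : Set Z} (hA : MeasurableSet A) :
    ((κ.prod ν).map F).real A = ∫ q, (ν.map fun y => F (q, y)).real A ∂κ := by
  rw [map_measureReal_apply hF hA, measureReal_def, Measure.prod_apply (hF hA),
    ← integral_toReal]
  · refine integral_congr_ae (Filter.Eventually.of_forall fun q => ?_)
    simp only
    rw [map_measureReal_apply (measurable_slice hF q) hA, measureReal_def]
    rfl
  · exact (measurable_measure_prodMk_left (hF hA)).aemeasurable
  · exact Filter.Eventually.of_forall fun q => measure_lt_top _ _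

theorem measurable_real_map_prod {ν : Measure Y} [IsFiniteMeasure ν]
    {F : W × Y → Z} (hF : Measurable F) {A : Set Z} (hA : MeasurableSet A) :
    Measurable fun q : W => (ν.map fun y => F (q, y)).real A := by
  have h : (fun q : W => (ν.map fun y => F (q, y)).real A)
      = fun q => (ν (Prod.mk q ⁻¹' (F ⁻¹' A))).toReal := by
    funext q
    rw [map_measureReal_apply (measurable_slice hF q) hA, measureReal_def]
    rfl
  rw [h]
  exact (measurable_measure_prodMk_left (hF hA)).ennreal_toReal

/-- **Mixtures.** -/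
theorem TVle.mix {κ : Measure W} [IsProbabilityMeasure κ] {ν ν' : Measure Y} [IsFiniteMeasure ν]
    [IsFiniteMeasure ν'] {F F' : W × Y → Z} (hF : Measurable F) (hF' : Measurable F')
    (h : ∀ᵐ q ∂κ, TVle (ν.map fun y => F (q, y)) (ν'.map fun y => F' (q, y)) e) :
    TVle ((κ.prod ν).map F) ((κ.prod ν').map F') e := by
  intro A hA
  rw [real_map_prod hF hA, real_map_prod hF' hA, ← integral_sub]
  · have h1 := norm_integral_le_of_norm_le_const (μ := κ) (C := e)
      (f := fun q => (ν.map fun y => F (q, y)).real A - (ν'.map fun y => F' (q, y)).real A) (by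
        filter_upwards [h] with q hq
        exact hq A hA)
    simpa using h1
  · refine Integrable.of_bound (measurable_real_map_prod hF hA).aestronglyMeasurable
      (ν.real Set.univ) (Filter.Eventually.of_forall fun q => ?_)
    rw [Real.norm_eq_abs, abs_of_nonneg measureReal_nonneg,
      map_measureReal_apply (measurable_slice hF q) hA]
    exact measureReal_mono (Set.subset_univ _)
  · refine Integrable.of_bound (measurable_real_map_prod hF' hA).aestronglyMeasurable
      (ν'.real Set.univ) (Filter.Eventually.of_forall fun q => ?_)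
    rw [Real.norm_eq_abs, abs_of_nonneg measureReal_nonneg,
      map_measureReal_apply (measurable_slice hF' q) hA]
    exact measureReal_mono (Set.subset_univ _)

theorem TVle.prod_right {κ : Measure W} [IsProbabilityMeasure κ] {ν ν' : Measure Y}
    [IsFiniteMeasure ν] [IsFiniteMeasure ν'] (h : TVle ν ν' e) :
    TVle (κ.prod ν) (κ.prod ν') e := by
  have := TVle.mix (κ := κ) (F := (id : W × Y → W × Y)) (F' := id) measurable_id measurable_id
    (Filter.Eventually.of_forall fun q => h.map (f := fun y => (q, y)) measurable_prodMk_left)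
  simpa using this

theorem TVle.prod_left {κ : Measure W} [IsProbabilityMeasure κ] {ν ν' : Measure Y}
    [IsFiniteMeasure ν] [IsFiniteMeasure ν'] (h : TVle ν ν' e) :
    TVle (ν.prod κ) (ν'.prod κ) e := by
  rw [← Measure.prod_swap (μ := κ) (ν := ν), ← Measure.prod_swap (μ := κ) (ν := ν')]
  exact h.prod_right.map measurable_swap

end TV

section Walk

variable {n : ℕ}

instance instMeasurableMul₂ : MeasurableMul₂ (SLR n) := by infer_instance

/-- Convolution on `SLR n`. -/
noncomputable def cv (κ κ' : Measure (SLR n)) : Measure (SLR n) :=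
  (κ.prod κ').map fun p => p.1 * p.2

/-- One step of the random walk: the law of `x · g`, `x ~ μ`, `g ~ κ` independent. -/
noncomputable def stp (μ : Measure (ModSpace n)) (κ : Measure (SLR n)) : Measure (ModSpace n) :=
  (μ.prod κ).map fun p => act p.1 p.2

theorem measurable_act₂ : Measurable fun p : ModSpace n × SLR n => act p.1 p.2 :=
  continuous_act.measurable

theorem measurable_mul₂ : Measurable fun p : SLR n × SLR n => p.1 * p.2 := measurable_mul

instance (κ κ' : Measure (SLR n)) [IsProbabilityMeasure κ] [IsProbabilityMeasure κ'] :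
    IsProbabilityMeasure (cv κ κ') :=
  Measure.isProbabilityMeasure_map measurable_mul₂.aemeasurable

instance (μ : Measure (ModSpace n)) (κ : Measure (SLR n)) [IsProbabilityMeasure μ]
    [IsProbabilityMeasure κ] : IsProbabilityMeasure (stp μ κ) :=
  Measure.isProbabilityMeasure_map measurable_act₂.aemeasurable

theorem stp_stp (μ : Measure (ModSpace n)) (κ κ' : Measure (SLR n)) [SFinite μ] [SFinite κ]
    [SFinite κ'] : stp (stp μ κ) κ' = stp μ (cv κ κ') := by
  unfold stp cv
  have h1 : ((μ.prod κ).map fun p => act p.1 p.2).prod κ'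
      = ((μ.prod κ).prod κ').map (Prod.map (fun p : ModSpace n × SLR n => act p.1 p.2) id) := by
    conv_lhs => rw [← Measure.map_id (μ := κ')]
    exact Measure.map_prod_map (μ.prod κ) κ' measurable_act₂ measurable_id
  have h2 : μ.prod ((κ.prod κ').map fun p => p.1 * p.2)
      = (μ.prod (κ.prod κ')).map (Prod.map id (fun p : SLR n × SLR n => p.1 * p.2)) := by
    conv_lhs => rw [← Measure.map_id (μ := μ)]
    exact Measure.map_prod_map μ (κ.prod κ') measurable_id measurable_mul₂
  rw [h1, h2, Measure.map_map measurable_act₂ (measurable_act₂.prodMap measurable_id),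
    Measure.map_map measurable_act₂ (measurable_id.prodMap measurable_mul₂)]
  rw [← Measure.prodAssoc_prod, Measure.map_map (measurable_act₂.comp
    (measurable_id.prodMap measurable_mul₂)) MeasurableEquiv.prodAssoc.measurable]
  congr 1
  funext p
  exact act_act p.1.1 p.1.2 p.2

theorem cv_assoc (κ κ' κ'' : Measure (SLR n)) [SFinite κ] [SFinite κ'] [SFinite κ''] :
    cv (cv κ κ') κ'' = cv κ (cv κ' κ'') := by
  have := Measure.mconv_assoc κ κ' κ''
  exact this

theorem cv_dirac (κ : Measure (SLR n)) [SFinite κ] (g : SLR n) :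
    cv κ (Measure.dirac g) = κ.map fun h => h * g := Measure.mconv_dirac κ g

theorem dirac_cv (κ : Measure (SLR n)) [SFinite κ] (g : SLR n) :
    cv (Measure.dirac g) κ = κ.map fun h => g * h := Measure.dirac_mconv g κ

theorem stp_dirac (μ : Measure (ModSpace n)) [SFinite μ] (g : SLR n) :
    stp μ (Measure.dirac g) = μ.map fun x => act x g := by
  unfold stp
  rw [Measure.prod_dirac, Measure.map_map measurable_act₂ measurable_prodMk_right]
  rfl

variable {κ κ' κ₁ κ₂ : Measure (SLR n)} {μ ν : Measure (ModSpace n)} {e : ℝ}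

theorem TVle.stp_right [IsProbabilityMeasure μ] [IsFiniteMeasure κ] [IsFiniteMeasure κ']
    (h : TVle κ κ' e) : TVle (stp μ κ) (stp μ κ') e :=
  h.prod_right.map measurable_act₂

theorem TVle.stp_left [IsProbabilityMeasure κ] [IsFiniteMeasure μ] [IsFiniteMeasure ν]
    (h : TVle μ ν e) : TVle (stp μ κ) (stp ν κ) e :=
  h.prod_left.map measurable_act₂

theorem TVle.cv_right [IsProbabilityMeasure κ] [IsFiniteMeasure κ₁] [IsFiniteMeasure κ₂]
    (h : TVle κ₁ κ₂ e) : TVle (cv κ κ₁) (cv κ κ₂) e :=
  h.prod_right.map measurable_mul₂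

theorem TVle.cv_left [IsProbabilityMeasure κ] [IsFiniteMeasure κ₁] [IsFiniteMeasure κ₂]
    (h : TVle κ₁ κ₂ e) : TVle (cv κ₁ κ) (cv κ₂ κ) e :=
  h.prod_left.map measurable_mul₂

/-- Conjugation of a noise by `a`: the law of `a⁻¹ g a`. -/
noncomputable def cj (a : SLR n) (κ : Measure (SLR n)) : Measure (SLR n) :=
  κ.map fun g => a⁻¹ * g * a

theorem measurable_cj (a : SLR n) : Measurable fun g : SLR n => a⁻¹ * g * a := by fun_prop

instance (a : SLR n) [IsProbabilityMeasure κ] : IsProbabilityMeasure (cj a κ) :=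
  Measure.isProbabilityMeasure_map (measurable_cj a).aemeasurable

theorem cj_cv (a : SLR n) (κ κ' : Measure (SLR n)) [SFinite κ] [SFinite κ'] :
    cj a (cv κ κ') = cv (cj a κ) (cj a κ') := by
  unfold cj cv
  rw [Measure.map_prod_map _ _ (measurable_cj a) (measurable_cj a),
    Measure.map_map (measurable_cj a) measurable_mul₂,
    Measure.map_map measurable_mul₂ ((measurable_cj a).prodMap (measurable_cj a))]
  congr 1
  funext p
  simp only [Function.comp_apply, Prod.map_fst, Prod.map_snd]
  group

theorem cj_cj (a b : SLR n) (κ : Measure (SLR n)) : cj b (cj a κ) = cj (a * b) κ := by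
  unfold cj
  rw [Measure.map_map (measurable_cj b) (measurable_cj a)]
  congr 1
  funext g
  simp only [Function.comp_apply]
  group

theorem TVle.cj (a : SLR n) (h : TVle κ₁ κ₂ e) : TVle (cj a κ₁) (cj a κ₂) e :=
  h.map (measurable_cj a)

theorem map_act_stp (a : SLR n) (μ : Measure (ModSpace n)) (κ : Measure (SLR n)) [SFinite μ]
    [SFinite κ] :
    (stp μ κ).map (fun x => act x a) = stp (μ.map fun x => act x a) (Nd_837.cj a κ) := by
  unfold stp Nd_837.cj
  rw [Measure.map_prod_map _ _ (measurable_act a) (measurable_cj a),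
    Measure.map_map (measurable_act a) measurable_act₂,
    Measure.map_map measurable_act₂ ((measurable_act a).prodMap (measurable_cj a))]
  congr 1
  funext p
  simp only [Function.comp_apply, Prod.map_fst, Prod.map_snd, act_act]
  congr 1
  group

end Walk

section ToSL

variable {n : ℕ}

/-- `n × n` real matrices. -/
abbrev Mt (n : ℕ) : Type := Matrix (Fin n) (Fin n) ℝ

theorem det_toSL_aux {g : Mt n} (h : 0 < g.det) : ((g.det ^ (-(1 : ℝ) / n)) • g).det = 1 := by
  rw [Matrix.det_smul, Fintype.card_fin]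
  rcases Nat.eq_zero_or_pos n with hn | hn
  · subst hn
    simp
  · have hn' : (n : ℝ) ≠ 0 := by exact_mod_cast hn.ne'
    rw [← Real.rpow_natCast, ← Real.rpow_mul h.le, div_mul_cancel₀ _ hn', Real.rpow_neg_one,
      inv_mul_cancel₀ h.ne']

/-- Auxiliary matrix valued version of `toSL`. -/
noncomputable def toSLM (g : Mt n) : Mt n :=
  if 0 < g.det then (g.det ^ (-(1 : ℝ) / n)) • g else 1

theorem det_toSLM (g : Mt n) : (toSLM g).det = 1 := by
  unfold toSLM
  split_ifs with h
  · exact det_toSL_aux h
  · exact Matrix.det_one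

/-- The homomorphism `g ↦ g / det g ^ (1 / n)` from `GL_n^+` to `SL_n` (value `1` if `det g ≤ 0`). -/
noncomputable def toSL (g : Mt n) : SLR n := ⟨toSLM g, det_toSLM g⟩

theorem toSL_val {g : Mt n} (h : 0 < g.det) : (toSL g).1 = (g.det ^ (-(1 : ℝ) / n)) • g := by
  change toSLM g = _
  unfold toSLM
  rw [if_pos h]

theorem toSL_of_det_one {g : Mt n} (h : g.det = 1) : toSL g = ⟨g, h⟩ := by
  apply Subtype.ext
  rw [toSL_val (by rw [h]; exact one_pos), h, Real.one_rpow, one_smul]

theorem toSL_coe (g : SLR n) : toSL g.1 = g := toSL_of_det_one g.2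

theorem toSL_mul {g h : Mt n} (hg : 0 < g.det) (hh : 0 < h.det) :
    toSL (g * h) = toSL g * toSL h := by
  apply Subtype.ext
  have hgh : 0 < (g * h).det := by rw [Matrix.det_mul]; exact mul_pos hg hh
  rw [toSL_val hgh, Matrix.det_mul, Real.mul_rpow hg.le hh.le]
  change _ = (toSL g).1 * (toSL h).1
  rw [toSL_val hg, toSL_val hh, Matrix.smul_mul, Matrix.mul_smul, smul_smul]

theorem toSL_one : toSL (1 : Mt n) = 1 := toSL_coe (1 : SLR n)

/-- The diagonal matrix `diag(2 ^ t_i)`. -/
noncomputable def dm (t : Fin n → ℝ) : Mt n := Matrix.diagonal fun i => (2 : ℝ) ^ (t i)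

theorem det_dm (t : Fin n → ℝ) : 0 < (dm t).det := by
  rw [dm, Matrix.det_diagonal]
  exact Finset.prod_pos fun i _ => Real.rpow_pos_of_pos two_pos _

theorem dm_add (s t : Fin n → ℝ) : dm (s + t) = dm s * dm t := by
  rw [dm, dm, dm, Matrix.diagonal_mul_diagonal]
  congr 1
  funext i
  rw [Pi.add_apply, Real.rpow_add two_pos]

theorem dm_zero : dm (0 : Fin n → ℝ) = 1 := by
  rw [dm]
  simp

/-- The diagonal element `diag(2 ^ t_i)` normalised to determinant one. -/
noncomputable def aT (t : Fin n → ℝ) : SLR n := toSL (dm t)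

theorem aT_add (s t : Fin n → ℝ) : aT (s + t) = aT s * aT t := by
  rw [aT, dm_add, toSL_mul (det_dm s) (det_dm t)]
  rfl

theorem aT_zero : aT (0 : Fin n → ℝ) = 1 := by
  rw [aT, dm_zero, toSL_one]

theorem aT_neg (t : Fin n → ℝ) : aT (-t) = (aT t)⁻¹ := by
  rw [eq_inv_iff_mul_eq_one, ← aT_add, neg_add_cancel, aT_zero]

/-- `(dt)_ij = t_i - t_j`. -/
def sh (t : Fin n → ℝ) : Fin n → Fin n → ℝ := fun i j => t i - t j

/-- Conjugation of the elementary unipotents by the diagonal group. -/
theorem aT_conj_uu {i j : Fin n} (hij : i ≠ j) (t : Fin n → ℝ) (s : ℝ) :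
    (aT t)⁻¹ * uu hij s * aT t = uu hij ((2 : ℝ) ^ (-(t i - t j)) * s) := by
  have h1 : (aT t)⁻¹ * uu hij s * aT t = toSL (dm (-t) * (uu hij s).1 * dm t) := by
    rw [toSL_mul _ (det_dm t), toSL_mul (det_dm _), toSL_coe, ← aT_neg]
    · rfl
    · rw [(uu hij s).2]; exact one_pos
    · rw [Matrix.det_mul, (uu hij s).2, mul_one]; exact det_dm _
  rw [h1]
  have h2 : dm (-t) * (uu hij s).1 * dm t = (uu hij ((2 : ℝ) ^ (-(t i - t j)) * s)).1 := by
    rw [uu_val, uu_val, mul_add, add_mul, mul_one, ← dm_add, neg_add_cancel, dm_zero]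
    congr 1
    rw [dm, dm]
    ext a b
    rw [Matrix.mul_diagonal, Matrix.diagonal_mul]
    by_cases hab : i = a ∧ j = b
    · obtain ⟨rfl, rfl⟩ := hab
      rw [Matrix.single_apply_same, Matrix.single_apply_same, Pi.neg_apply, neg_sub,
        sub_eq_neg_add, Real.rpow_add two_pos]
      ring
    · rw [Matrix.single_apply_of_ne _ _ _ _ _ hab, Matrix.single_apply_of_ne _ _ _ _ _ hab]
      ring
  rw [h2, toSL_coe]

/-- Invariance under the diagonal group. -/
def AInv (μ : Measure (ModSpace n)) : Prop :=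
  ∀ t : Fin n → ℝ, (μ.map fun x => act x (aT t)) = μ

end ToSL

section Digits

variable {n : ℕ}

/-- The uniform probability on `[-1, 1]`. -/
noncomputable def uni : Measure ℝ := (2 : ℝ≥0∞)⁻¹ • volume.restrict (Set.Icc (-1 : ℝ) 1)

instance : IsProbabilityMeasure uni := by
  refine ⟨?_⟩
  rw [uni, Measure.smul_apply, Measure.restrict_apply MeasurableSet.univ, Set.univ_inter,
    Real.volume_Icc, smul_eq_mul]
  norm_num
  exact ENNReal.inv_mul_cancel (by norm_num) (by norm_num)

/-- The centre of the `d`-th of the `b` equal cells of `[-1, 1]`. -/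
noncomputable def cen (b : ℕ) (d : Fin b) : ℝ := -1 + (2 * (d : ℝ) + 1) / b

/-- The law of `u_ij (2 ^ (-r) θ)`, `θ` uniform in the `d`-th of the `b` cells of `[-1, 1]`. -/
noncomputable def dlaw {i j : Fin n} (hij : i ≠ j) (r : ℝ) (b : ℕ) (d : Fin b) : Measure (SLR n) :=
  uni.map fun θ => uu hij ((2 : ℝ) ^ (-r) * (cen b d + θ / b))

theorem continuous_uu {i j : Fin n} (hij : i ≠ j) : Continuous (uu hij : ℝ → SLR n) := by
  refine Continuous.subtype_mk ?_ _
  change Continuous fun t : ℝ => (1 : Matrix (Fin n) (Fin n) ℝ) + Matrix.single i j t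
  refine continuous_const.add ?_
  refine continuous_matrix fun a b => ?_
  simp only [Matrix.single_apply]
  split_ifs
  · exact continuous_id
  · exact continuous_const

theorem measurable_dlaw {i j : Fin n} (hij : i ≠ j) (r : ℝ) (b : ℕ) (d : Fin b) :
    Measurable fun θ : ℝ => (uu hij ((2 : ℝ) ^ (-r) * (cen b d + θ / b)) : SLR n) := by
  refine ((continuous_uu hij).comp ?_).measurable
  fun_prop

instance {i j : Fin n} (hij : i ≠ j) (r : ℝ) (b : ℕ) (d : Fin b) :
    IsProbabilityMeasure (dlaw hij r b d) :=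
  Measure.isProbabilityMeasure_map (measurable_dlaw hij r b d).aemeasurable

theorem cj_dlaw {i j : Fin n} (hij : i ≠ j) (t : Fin n → ℝ) (r : ℝ) (b : ℕ) (d : Fin b) :
    cj (aT t) (dlaw hij r b d) = dlaw hij (r + (t i - t j)) b d := by
  unfold cj dlaw
  rw [Measure.map_map (measurable_cj _) (measurable_dlaw hij r b d)]
  congr 1
  funext θ
  simp only [Function.comp_apply]
  rw [aT_conj_uu hij]
  congr 1
  rw [← mul_assoc, ← Real.rpow_add two_pos]
  congr 2
  ring

/-- The joint law of the digit and the observation: `lab d = P(digit = d, x ζ u_ij(2^{-r} θ) ∈ ·)`,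
`x ~ μ`, `ζ ~ κ`. -/
noncomputable def lab (μ : Measure (ModSpace n)) (κ : Measure (SLR n)) {i j : Fin n} (hij : i ≠ j)
    (r : ℝ) (b : ℕ) : Fin b → Measure (ModSpace n) :=
  fun d => (b : ℝ≥0∞)⁻¹ • stp (stp μ κ) (dlaw hij r b d)

instance (μ : Measure (ModSpace n)) (κ : Measure (SLR n)) [IsProbabilityMeasure μ]
    [IsProbabilityMeasure κ] {i j : Fin n} (hij : i ≠ j) (r : ℝ) (b : ℕ) (d : Fin b) :
    IsFiniteMeasure (lab μ κ hij r b d) := by
  unfold lab
  have hb : (b : ℝ≥0∞)⁻¹ ≠ ∞ := by
    have : 0 < b := d.pos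
    simp [this.ne']
  exact Measure.smul_finite _ hb

theorem tot_lab (μ : Measure (ModSpace n)) (κ : Measure (SLR n)) [IsProbabilityMeasure μ]
    [IsProbabilityMeasure κ] {i j : Fin n} (hij : i ≠ j) (r : ℝ) {b : ℕ} (hb : 0 < b) :
    (∑ d, lab μ κ hij r b d) Set.univ = 1 := by
  simp only [lab, Measure.finsetSum_apply, Measure.smul_apply, measure_univ, smul_eq_mul, mul_one,
    Finset.sum_const, Finset.card_univ, Fintype.card_fin, nsmul_eq_mul]
  exact ENNReal.mul_inv_cancel (by exact_mod_cast hb.ne') (ENNReal.natCast_ne_top b)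

/-- Exact equivariance of the joint law. -/
theorem lab_act {μ : Measure (ModSpace n)} [IsProbabilityMeasure μ] (hμ : AInv μ)
    (κ : Measure (SLR n)) [IsProbabilityMeasure κ] {i j : Fin n} (hij : i ≠ j) (t : Fin n → ℝ)
    (r : ℝ) (b : ℕ) (d : Fin b) :
    (lab μ κ hij r b d).map (fun x => act x (aT t))
      = lab μ (cj (aT t) κ) hij (r + (t i - t j)) b d := by
  unfold lab
  rw [Measure.map_smul, map_act_stp, map_act_stp, hμ t, cj_dlaw]

end Digits

end Crest.Agent.R014.Nd_837
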