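import Crest.Prelude.Def_TorusPacket

/-!
R014 / Top1_458: topology of `ModSpace n = SL_n(ℤ)\SL_n(ℝ)`.

`pr g` is the coset of `g`; `pr` is an open quotient map; `intPoints n` is discrete and closed;
`ModSpace n` is Hausdorff, locally compact, second countable; `act` is a jointly continuous right
action.
-/

set_option autoImplicit false

open MeasureTheory Topology Filter Set
open Crest.NumberTheoryR.Packets

noncomputable section

namespace Crest.Agent.R014.Top1_458

variable {n : ℕ}

/-! ### `SL_n(ℝ)` -/

instance instT2 : T2Space (SLR n) :=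
  (Matrix.SpecialLinearGroup.isClosedEmbedding_val (n := Fin n) (R := ℝ)).isEmbedding.t2Space

instance instSC : SecondCountableTopology (SLR n) :=
  haveI : SecondCountableTopology (Matrix (Fin n) (Fin n) ℝ) :=
    inferInstanceAs (SecondCountableTopology (Fin n → Fin n → ℝ))
  (Matrix.SpecialLinearGroup.isClosedEmbedding_val (n := Fin n) (R := ℝ)).isEmbedding.secondCountableTopology

instance instLC : LocallyCompactSpace (SLR n) :=
  haveI : LocallyCompactSpace (Matrix (Fin n) (Fin n) ℝ) :=
    inferInstanceAs (LocallyCompactSpace (Fin n → Fin n → ℝ))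
  (Matrix.SpecialLinearGroup.isClosedEmbedding_val (n := Fin n) (R := ℝ)).locallyCompactSpace

instance instSigma : SigmaCompactSpace (SLR n) := inferInstance

/-! ### the integral points -/

theorem isClosedEmbedding_int :
    IsClosedEmbedding (Matrix.SpecialLinearGroup.map (n := Fin n) (Int.castRingHom ℝ)) :=
  IsClosedEmbedding.specialLinearGroup_map (f := Int.castRingHom ℝ) Int.isClosedEmbedding_coe_real

instance instDisc : DiscreteTopology (intPoints n) := by
  have h := (isClosedEmbedding_int (n := n)).isEmbedding.toHomeomorph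
  exact h.symm.isEmbedding.discreteTopology

theorem isClosed_int : IsClosed ((intPoints n : Subgroup (SLR n)) : Set (SLR n)) := by
  have h := (isClosedEmbedding_int (n := n)).isClosed_range
  simpa [intPoints] using h

instance instPD : ProperlyDiscontinuousSMul (intPoints n) (SLR n) :=
  Subgroup.properlyDiscontinuousSMul_of_tendsto_cofinite _
    ((intPoints n).tendsto_coe_cofinite_of_discrete ⟨(instDisc : DiscreteTopology (intPoints n))⟩)

instance instCountable : Countable (intPoints n) := by
  have : Countable (Matrix (Fin n) (Fin n) ℤ) := inferInstanceAs (Countable (Fin n → Fin n → ℤ))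
  have : Countable (Matrix.SpecialLinearGroup (Fin n) ℤ) := Subtype.countable
  exact (Set.countable_range (Matrix.SpecialLinearGroup.map (n := Fin n) (Int.castRingHom ℝ))).to_subtype

/-! ### the quotient -/

/-- the coset of `g` -/
def pr (g : SLR n) : ModSpace n := Quotient.mk _ g

theorem isOpenQuotientMap_pr : IsOpenQuotientMap (pr : SLR n → ModSpace n) :=
  MulAction.isOpenQuotientMap_quotientMk (Γ := intPoints n) (T := SLR n)

theorem continuous_pr : Continuous (pr : SLR n → ModSpace n) := isOpenQuotientMap_pr.continuous

theorem isOpenMap_pr : IsOpenMap (pr : SLR n → ModSpace n) := isOpenQuotientMap_pr.isOpenMap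

theorem surjective_pr : Function.Surjective (pr : SLR n → ModSpace n) :=
  isOpenQuotientMap_pr.surjective

theorem measurable_pr : Measurable[borel (SLR n)] (pr : SLR n → ModSpace n) := by
  borelize (SLR n)
  exact continuous_pr.measurable

instance instT2Mod : T2Space (ModSpace n) :=
  t2Space_of_properlyDiscontinuousSMul_of_t2Space (Γ := intPoints n) (T := SLR n)

instance instLCMod : LocallyCompactSpace (ModSpace n) := isOpenQuotientMap_pr.locallyCompactSpace

instance instSCMod : SecondCountableTopology (ModSpace n) :=
  ContinuousConstSMul.secondCountableTopology (Γ := intPoints n) (T := SLR n)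

instance instSigmaMod : SigmaCompactSpace (ModSpace n) := inferInstance

theorem pr_eq_iff {g h : SLR n} : pr g = pr h ↔ ∃ γ ∈ intPoints n, h = γ * g := by
  unfold pr
  rw [Quotient.eq]
  rw [QuotientGroup.rightRel_apply]
  constructor
  · intro hh
    exact ⟨h * g⁻¹, hh, by group⟩
  · rintro ⟨γ, hγ, rfl⟩
    simpa using hγ

theorem pr_mul_left {γ : SLR n} (hγ : γ ∈ intPoints n) (g : SLR n) : pr (γ * g) = pr g :=
  (pr_eq_iff.2 ⟨γ, hγ, rfl⟩).symm

@[simp] theorem act_pr (g h : SLR n) : act (pr g) h = pr (g * h) := rfl

theorem act_one (x : ModSpace n) : act x 1 = x := by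
  obtain ⟨g, rfl⟩ := surjective_pr x
  rw [act_pr, mul_one]

theorem act_mul (x : ModSpace n) (g h : SLR n) : act x (g * h) = act (act x g) h := by
  obtain ⟨k, rfl⟩ := surjective_pr x
  rw [act_pr, act_pr, act_pr, mul_assoc]

theorem continuous_act : Continuous fun p : ModSpace n × SLR n => act p.1 p.2 := by
  have h1 : IsOpenQuotientMap (Prod.map (pr : SLR n → ModSpace n) (id : SLR n → SLR n)) :=
    isOpenQuotientMap_pr.prodMap .id
  rw [← h1.continuous_comp_iff]
  change Continuous fun p : SLR n × SLR n => pr (p.1 * p.2)
  exact continuous_pr.comp continuous_mul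

theorem continuous_act_left (g : SLR n) : Continuous fun x : ModSpace n => act x g :=
  continuous_act.comp (Continuous.prodMk_left g)

theorem continuous_act_right (x : ModSpace n) : Continuous fun g : SLR n => act x g :=
  continuous_act.comp (Continuous.prodMk_right x)

/-- the right translation by `g` as a homeomorphism -/
def actH (g : SLR n) : ModSpace n ≃ₜ ModSpace n where
  toFun x := act x g
  invFun x := act x g⁻¹
  left_inv x := by
    show act (act x g) g⁻¹ = x
    rw [← act_mul, mul_inv_cancel, act_one]
  right_inv x := by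
    show act (act x g⁻¹) g = x
    rw [← act_mul, inv_mul_cancel, act_one]
  continuous_toFun := continuous_act_left g
  continuous_invFun := continuous_act_left g⁻¹

@[simp] theorem actH_apply (g : SLR n) (x : ModSpace n) : actH g x = act x g := rfl

theorem measurable_act (g : SLR n) : Measurable fun x : ModSpace n => act x g :=
  (continuous_act_left g).measurable

/-- every compact set of `ModSpace n` is the image of a compact set of `SL_n(ℝ)` -/
theorem exists_compact_lift {C : Set (ModSpace n)} (hC : IsCompact C) :
    ∃ K : Set (SLR n), IsCompact K ∧ C ⊆ pr '' K := by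
  have h : ∀ x ∈ C, ∃ K : Set (SLR n), IsCompact K ∧ pr '' K ∈ 𝓝 x := by
    intro x _
    obtain ⟨g, rfl⟩ := surjective_pr x
    obtain ⟨K, hK, hgK⟩ := exists_compact_mem_nhds g
    exact ⟨K, hK, isOpenMap_pr.image_mem_nhds hgK⟩
  refine hC.induction_on (p := fun S => ∃ K : Set (SLR n), IsCompact K ∧ S ⊆ pr '' K)
    ⟨∅, isCompact_empty, by simp⟩ ?_ ?_ ?_
  · rintro s t hst ⟨K, hK, hK'⟩
    exact ⟨K, hK, hst.trans hK'⟩
  · rintro s t ⟨K, hK, hK'⟩ ⟨L, hL, hL'⟩
    refine ⟨K ∪ L, hK.union hL, ?_⟩
    rw [image_union]
    exact union_subset_union hK' hL'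
  · intro x hx
    obtain ⟨K, hK, hK'⟩ := h x hx
    exact ⟨pr '' K, mem_nhdsWithin_of_mem_nhds hK', K, hK, Subset.rfl⟩

end Crest.Agent.R014.Top1_458
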