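import Crest.Agent.R014.Iface_792
import Crest.Agent.R014.Nd1_837
import Crest.Agent.R014.Top1_458
import Crest.Agent.R014.Chain_891

/-!
# Row 14, block D: order of constants, Theorem B from the block D output for ONE measure (helper792)

`tz z x = x a^{-z}`: the root `(i, j)` at depth `z i - z j` of `x` is at depth `0` at `tz z x`.
`P1`, `P2`, `P3`, `Fin`: the four outputs of the noise formalism (#3844) for a single measure `μ`,
with the functions `Psi i j` existentially quantified.  The abstract top theorem is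
`Chain_891.chain`.  `main : 2 ≤ d → MainStmt (d + 1) → ThmB d`.
-/

set_option autoImplicit false

open MeasureTheory Filter Topology
open Crest.NumberTheoryR.Packets
open Crest.Agent.R014.Iface_792
open Crest.Agent.R014.Nd_837

universe u

namespace Crest.Agent.R014.DSkel_792

section Shift

variable {n : ℕ}

/-- the shift `x ↦ x a^{-z}`. -/
noncomputable def tz (z : Fin n → ℤ) (x : ModSpace n) : ModSpace n :=
  act x (aT fun i => -(z i : ℝ))

theorem tz_add (z w : Fin n → ℤ) (x : ModSpace n) : tz (z + w) x = tz z (tz w x) := by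
  unfold tz
  rw [← Top1_458.act_mul, ← aT_add]
  congr 2
  funext i
  simp only [Pi.add_apply, Int.cast_add]
  ring

theorem tz_zero (x : ModSpace n) : tz 0 x = x := by
  unfold tz
  have : (fun i : Fin n => -(((0 : Fin n → ℤ) i : ℤ) : ℝ)) = 0 := by
    funext i; simp
  rw [this, aT_zero, Top1_458.act_one]

theorem measurable_tz (z : Fin n → ℤ) : Measurable (tz z : ModSpace n → ModSpace n) :=
  Top1_458.measurable_act _

theorem measurePreserving_tz {μ : Measure (ModSpace n)} (h : AInv μ) (z : Fin n → ℤ) :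
    MeasurePreserving (tz z) μ μ := ⟨measurable_tz z, h _⟩

end Shift

/-- invariance under `diagFlow` gives `AInv`. -/
theorem aInv_of_orbitMap {d : ℕ} {μ : Measure (ModSpace (d + 1))}
    (h : ∀ u : Fin d → ℝ, Measure.map (fun x => orbitMap x u) μ = μ) : AInv μ := by
  intro t
  set m : ℝ := (∑ i, t i) / (d + 1) with hm
  have key : aT t = diagFlow (fun i : Fin d => (t i.castSucc - m) * Real.log 2) := by
    apply Subtype.ext
    have h2 : (0 : ℝ) < 2 := two_pos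
    unfold aT
    rw [toSL_val (det_dm t)]
    show _ = Matrix.diagonal _
    have hdet : (dm t).det = (2 : ℝ) ^ (∑ i, t i) := by
      rw [dm, Matrix.det_diagonal, Real.rpow_sum_of_pos h2]
    rw [hdet, dm, ← Matrix.diagonal_smul, ← Real.rpow_mul h2.le]
    congr 1
    funext i
    rw [Pi.smul_apply, smul_eq_mul, ← Real.rpow_add h2]
    have hexp : (∑ i, t i) * (-(1 : ℝ) / ((d + 1 : ℕ) : ℝ)) = -m := by
      rw [hm]; push_cast; ring
    rw [hexp]
    refine Fin.lastCases ?_ (fun k => ?_) i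
    · rw [Fin.snoc_last, Real.rpow_def_of_pos h2]
      congr 1
      have hs : ∑ i : Fin d, t i.castSucc = (∑ i, t i) - t (Fin.last d) := by
        rw [Fin.sum_univ_castSucc]; ring
      rw [← Finset.sum_mul, Finset.sum_sub_distrib, hs]
      simp only [Finset.sum_const, Finset.card_univ, Fintype.card_fin, nsmul_eq_mul]
      have hd : ((d : ℝ) + 1) * m = ∑ i, t i := by
        rw [hm]; field_simp
      linear_combination (-(Real.log 2)) * hd
    · rw [Fin.snoc_castSucc, Real.rpow_def_of_pos h2]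
      congr 1
      ring
  rw [key]
  exact h _

section Stmts

variable {n : ℕ}

/-- near invariance under `ker (ij)`. -/
def P1 (μ : Measure (ModSpace n)) (Psi : Fin n → Fin n → ModSpace n → ℝ) (L : ℕ) (ε : ℝ) : Prop :=
  ∀ i j : Fin n, i ≠ j → ∀ z : Fin n → ℤ, z i = z j → (∀ l, |z l| ≤ 4 * (L : ℤ)) →
    μ.real {x | Psi i j (tz z x) < Psi i j x - ε} ≤ ε

/-- commutator step at one point. -/
def P2 (μ : Measure (ModSpace n)) (Psi : Fin n → Fin n → ModSpace n → ℝ) (c₂ ε : ℝ) : Prop :=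
  ∀ i j k : Fin n, i ≠ j → j ≠ k → i ≠ k →
    μ.real {x | Psi i k x < c₂ * Psi i j x * Psi j k x - ε} ≤ ε

/-- number of free depths in the window `[a, b)` for the roots crossing `S | Sᶜ`. -/
noncomputable def cross (Psi : Fin n → Fin n → ModSpace n → ℝ) (τ₀ : ℝ) (S : Finset (Fin n))
    (a b : ℤ) (x : ModSpace n) : ℝ :=
  ∑ i ∈ S, ∑ j ∈ Sᶜ, (((Finset.Ico a b).filter fun r => τ₀ ≤ Psi i j (tz (Pi.single i r) x)).card : ℝ)

/-- positive density of free depths in every window of length `≥ δ L`. -/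
def P3 (μ : Measure (ModSpace n)) (Psi : Fin n → Fin n → ModSpace n → ℝ) (L : ℕ)
    (δ c τ₀ ε : ℝ) : Prop :=
  ∃ B : Set (ModSpace n), MeasurableSet B ∧ μ.real B ≤ ε ∧ ∀ x, x ∉ B → ∀ a b : ℤ,
    -(L : ℤ) ≤ a → b ≤ L → δ * L ≤ ((b - a : ℤ) : ℝ) →
    ∀ S : Finset (Fin n), S.Nonempty → S ≠ Finset.univ →
      c * ((b - a : ℤ) : ℝ) ≤ cross Psi τ₀ S a b x

/-- the end: free depths for most points give near invariance. -/
def Fin' (μ : Measure (ModSpace n)) (Psi : Fin n → Fin n → ModSpace n → ℝ) (G : ℕ)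
    (τ ε' ε'' : ℝ) (f : ModSpace n → ℝ) (i j : Fin n) (hij : i ≠ j) (v : ℝ) : Prop :=
  (∀ i j : Fin n, i ≠ j →
    μ.real {x | ∀ r : ℕ, r < G → Psi i j (tz (Pi.single i (r : ℤ)) x) < τ} ≤ ε') →
  |∫ x, f (act x (elem i j hij v)) ∂μ - ∫ x, f x ∂μ| ≤ ε''

end Stmts

/-- The output of block D for one measure: order of the constants. -/
def MainStmt (n : ℕ) : Prop :=
  ∀ κ C : ℝ, 0 < κ → 0 < C →
  ∃ c c₂ : ℝ, 0 < c ∧ 0 < c₂ ∧ c₂ ≤ 1 ∧
  ∀ (f : ModSpace n → ℝ), RUC f → ∀ (i j : Fin n) (hij : i ≠ j) (v : ℝ) (ε'' : ℝ), 0 < ε'' →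
  ∃ ε' : ℝ, 0 < ε' ∧
  ∀ (ε δ : ℝ), 0 < ε → 0 < δ →
  ∃ τ₀ : ℝ, 0 < τ₀ ∧ τ₀ ≤ 1 ∧
  ∀ (G : ℕ) (τ : ℝ), 0 < τ → ∀ ε₁ : ℝ, 0 < ε₁ → ∀ L₀ : ℕ,
  ∃ e : ℝ, 0 < e ∧ ∀ η : ℝ, 0 < η → ∃ D₀ : ℝ, ∀ D : ℝ, D₀ ≤ D →
  ∀ μ : Measure (ModSpace n), IsProbabilityMeasure μ → AInv μ → SlabBd μ D κ C e η →
  ∃ L : ℕ, L₀ ≤ L ∧ ∃ Psi : Fin n → Fin n → ModSpace n → ℝ, (∀ i j, Measurable (Psi i j)) ∧
    P1 μ Psi L ε₁ ∧ P2 μ Psi c₂ ε₁ ∧ P3 μ Psi L δ c τ₀ ε ∧ Fin' μ Psi G τ ε' ε'' f i j hij v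

/-- thresholds. -/
noncomputable def th (c₂ τ₀ : ℝ) : ℕ → ℝ
  | 0 => τ₀
  | m + 1 => c₂ * th c₂ τ₀ m ^ 2 / 2

theorem th_pos {c₂ τ₀ : ℝ} (hc : 0 < c₂) (ht : 0 < τ₀) (m : ℕ) : 0 < th c₂ τ₀ m := by
  induction m with
  | zero => exact ht
  | succ m ih => simp only [th]; positivity

theorem th_le_one {c₂ τ₀ : ℝ} (hc : 0 < c₂) (hc1 : c₂ ≤ 1) (ht : 0 < τ₀) (ht1 : τ₀ ≤ 1) (m : ℕ) :
    th c₂ τ₀ m ≤ 1 := by
  induction m with
  | zero => exact ht1
  | succ m ih =>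
    simp only [th]
    have h0 := th_pos hc ht m
    nlinarith [mul_le_mul hc1 (pow_le_one₀ (n := 2) h0.le ih) (by positivity) (by norm_num)]

theorem th_succ_le {c₂ τ₀ : ℝ} (hc : 0 < c₂) (hc1 : c₂ ≤ 1) (ht : 0 < τ₀) (ht1 : τ₀ ≤ 1) (m : ℕ) :
    th c₂ τ₀ (m + 1) ≤ th c₂ τ₀ m / 2 := by
  simp only [th]
  have h0 := th_pos hc ht m
  have h1 := th_le_one hc hc1 ht ht1 m
  have h2 : c₂ * th c₂ τ₀ m ^ 2 ≤ 1 * th c₂ τ₀ m := by
    refine mul_le_mul hc1 ?_ (by positivity) (by norm_num)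
    nlinarith
  linarith

theorem th_anti {c₂ τ₀ : ℝ} (hc : 0 < c₂) (hc1 : c₂ ≤ 1) (ht : 0 < τ₀) (ht1 : τ₀ ≤ 1) {m k : ℕ}
    (h : m ≤ k) : th c₂ τ₀ k ≤ th c₂ τ₀ m := by
  induction k, h using Nat.le_induction with
  | base => exact le_rfl
  | succ k _ ih =>
    have := th_succ_le hc hc1 ht ht1 k
    have := th_pos hc ht k
    linarith

/-- the shift system. -/
noncomputable def sys {n : ℕ} {μ : Measure (ModSpace n)} (h : AInv μ) : Chain_891.Sys n μ where
  τ := tz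
  mp := measurePreserving_tz h
  add := tz_add

theorem main {d : ℕ} (hd : 2 ≤ d) (hM : MainStmt (d + 1)) : ThmB d := by
  rintro μ ⟨hprob, hinv, D, hD, κ, C, hκ, hC0, hslab⟩ f hf i j hij v
  obtain ⟨c, c₂, hc, hc₂, hc₂1, hM1⟩ := hM κ C hκ hC0
  rw [Metric.tendsto_nhds]
  intro ρ hρ
  obtain ⟨ε', hε', hM2⟩ := hM1 f hf i j hij v (ρ / 2) (by positivity)
  obtain ⟨G, M, δ, ε, L₀, hδ, hε, hch⟩ := Chain_891.chain (d + 1) (by omega) c ε' hc hε'
  obtain ⟨τ₀, hτ₀, hτ₀1, hM3⟩ := hM2 ε δ hε hδ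
  have hthM : 0 < th c₂ τ₀ M := th_pos hc₂ hτ₀ M
  obtain ⟨e, he, hM4⟩ := hM3 G (th c₂ τ₀ M) hthM (min ε (th c₂ τ₀ M / 2))
    (lt_min hε (by positivity)) L₀
  obtain ⟨η, hη, hev⟩ := hslab e he
  obtain ⟨D₀, hM5⟩ := hM4 η hη
  filter_upwards [hev, hD.eventually_ge_atTop D₀] with k hk hDk
  have := hprob k
  have hA : AInv (μ k) := aInv_of_orbitMap (hinv k)
  obtain ⟨L, hL, Psi, hPsi, h1, h2, ⟨B, hB, hBm, h3⟩, h4⟩ := hM5 (D k) hDk (μ k) (hprob k) hA hk
  have hfin := hch L hL (μ k) (sys hA) (fun m i j => {x | th c₂ τ₀ m ≤ Psi i j x})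
    { meas := fun m i j => measurableSet_le measurable_const (hPsi i j)
      P0 := by
        intro m hm i j _
        have : {x | th c₂ τ₀ m ≤ Psi i j x} \ {x | th c₂ τ₀ (m + 1) ≤ Psi i j x} = ∅ := by
          rw [Set.sdiff_eq_empty]
          intro x hx
          exact (th_anti hc₂ hc₂1 hτ₀ hτ₀1 (Nat.le_succ m)).trans hx
        rw [this]
        simpa using hε.le
      P1 := by
        intro m hm i j hij z hz hzl
        refine le_trans (measureReal_mono ?_ (measure_ne_top _ _))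
          ((h1 i j hij z hz (fun l => (hzl l).trans (by omega))).trans (min_le_left _ _))
        rintro x ⟨hx1, hx2⟩
        have hx1' : th c₂ τ₀ m ≤ Psi i j x := hx1
        have hx2' : Psi i j (tz z x) < th c₂ τ₀ (m + 1) := lt_of_not_ge hx2
        have e1 := th_succ_le hc₂ hc₂1 hτ₀ hτ₀1 m
        have e2 := th_anti hc₂ hc₂1 hτ₀ hτ₀1 hm.le
        have e3 := min_le_right ε (th c₂ τ₀ M / 2)
        show Psi i j (tz z x) < Psi i j x - _
        linarith
      P2 := by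
        intro m hm i j k' hij hjk hik
        refine le_trans (measureReal_mono ?_ (measure_ne_top _ _))
          ((h2 i j k' hij hjk hik).trans (min_le_left _ _))
        rintro x ⟨⟨hx1, hx2⟩, hx3⟩
        have hx1' : th c₂ τ₀ m ≤ Psi i j x := hx1
        have hx2' : th c₂ τ₀ m ≤ Psi j k' x := hx2
        have hx3' : Psi i k' x < th c₂ τ₀ (m + 1) := lt_of_not_ge hx3
        have e2 := th_anti hc₂ hc₂1 hτ₀ hτ₀1 (Nat.succ_le_of_lt hm)
        have e3 := min_le_right ε (th c₂ τ₀ M / 2)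
        have e0 := th_pos hc₂ hτ₀ m
        have e4 : th c₂ τ₀ (m + 1) = c₂ * th c₂ τ₀ m ^ 2 / 2 := rfl
        have e5 : c₂ * th c₂ τ₀ m ^ 2 ≤ c₂ * Psi i j x * Psi j k' x := by
          rw [mul_assoc, pow_two]
          exact mul_le_mul_of_nonneg_left (mul_le_mul hx1' hx2' e0.le (e0.le.trans hx1')) hc₂.le
        show Psi i k' x < c₂ * Psi i j x * Psi j k' x - _
        have e6 : th c₂ τ₀ M ≤ th c₂ τ₀ (m + 1) := e2
        linarith
      P3 := by
        refine ⟨B, hB, hBm, fun x hx a b ha hb hab S hS hS' => ?_⟩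
        refine (h3 x hx a b ha hb hab S hS hS').trans (le_of_eq ?_)
        unfold cross
        refine Finset.sum_congr rfl fun i _ => Finset.sum_congr rfl fun j _ => ?_
        unfold Comb_583.cnt
        congr 2 }
  have h5 := h4 (by
    intro i j hij
    refine le_trans (le_of_eq ?_) (hfin i j hij)
    congr 1
    ext x
    exact forall_congr' fun r => imp_congr_right fun _ => (not_le (α := ℝ)).symm)
  rw [Real.dist_eq, sub_zero]
  linarith

end Crest.Agent.R014.DSkel_792
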