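import Crest.Agent.R014.Nz2_323

set_option autoImplicit false

open MeasureTheory Set Matrix
open scoped ENNReal

namespace Crest.Agent.R014.Nz_323

variable {n : ℕ}

/-! ### Exact equivariance under the diagonal group -/

theorem dg_mul_dg (s t : Fin n → ℝ) : dg s * dg t = dg (s + t) := by
  unfold dg
  rw [Matrix.diagonal_mul_diagonal]
  congr 1
  funext i
  rw [Pi.add_apply, Real.rpow_add (by norm_num)]

theorem dg_zero : dg (0 : Fin n → ℝ) = 1 := by
  unfold dg
  simp

theorem dg_mul_dg_neg (t : Fin n → ℝ) : dg t * dg (-t) = 1 := by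
  rw [dg_mul_dg, add_neg_cancel, dg_zero]

theorem dg_neg_mul_dg (t : Fin n → ℝ) : dg (-t) * dg t = 1 := by
  rw [dg_mul_dg, neg_add_cancel, dg_zero]

theorem det_dg_pos (t : Fin n → ℝ) : 0 < (dg t).det := by
  unfold dg
  rw [Matrix.det_diagonal]
  exact Finset.prod_pos fun i _ => by positivity

theorem conj_dg_entry (t : Fin n → ℝ) (m : Mt n) (i j : Fin n) :
    (dg (-t) * m * dg t) i j = 2 ^ (-(sh t i j)) * m i j := by
  unfold dg sh
  rw [Matrix.mul_diagonal, Matrix.diagonal_mul]
  rw [show -(t i - t j) = -t i + t j by ring, Real.rpow_add (by norm_num)]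
  simp only [Pi.neg_apply]
  ring

theorem conj_mem_bx {t : Fin n → ℝ} {R : Fin n → Fin n → ℝ} {g : Mt n} :
    dg (-t) * g * dg t ∈ bx (R + sh t) ↔ g ∈ bx R := by
  have h1 : dg (-t) * g * dg t - 1 = dg (-t) * (g - 1) * dg t := by
    rw [mul_sub, sub_mul, mul_one, dg_neg_mul_dg]
  unfold bx
  simp only [Set.mem_ofPred_eq]
  refine forall_congr' fun i => forall_congr' fun j => ?_
  rw [h1, conj_dg_entry, abs_mul, abs_of_pos (by positivity : (0:ℝ) < 2 ^ (-(sh t i j)))]
  have h2 : (2:ℝ) ^ (-((R + sh t) i j)) = 2 ^ (-(sh t i j)) * 2 ^ (-(R i j)) := by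
    rw [← Real.rpow_add (by norm_num)]
    congr 1
    simp only [Pi.add_apply]
    ring
  rw [h2]
  exact mul_le_mul_iff_right₀ (by positivity)

theorem det_conj_dg (t : Fin n → ℝ) (g : Mt n) : (dg (-t) * g * dg t).det = g.det := by
  rw [Matrix.det_mul, Matrix.det_mul]
  have h : (dg (-t)).det * (dg t).det = 1 := by rw [← Matrix.det_mul, dg_neg_mul_dg, Matrix.det_one]
  calc (dg (-t)).det * g.det * (dg t).det = ((dg (-t)).det * (dg t).det) * g.det := by ring
    _ = g.det := by rw [h, one_mul]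

theorem adm_sh_aux {t : Fin n → ℝ} {R : Fin n → Fin n → ℝ} (h : Adm (R + sh t)) : Adm R := by
  intro g hg
  have h1 := h _ (conj_mem_bx (t := t).2 hg)
  rwa [det_conj_dg] at h1

theorem sh_neg (t : Fin n → ℝ) : sh (-t) = -sh t := by
  funext i j
  simp only [sh, Pi.neg_apply]
  ring

theorem adm_sh {t : Fin n → ℝ} {R : Fin n → Fin n → ℝ} : Adm (R + sh t) ↔ Adm R := by
  refine ⟨adm_sh_aux, fun h => ?_⟩
  refine adm_sh_aux (t := -t) ?_
  rwa [sh_neg, add_neg_cancel_right]

theorem neg_sh {w : ℝ} {t : Fin n → ℝ} {R R' : Fin n → Fin n → ℝ} :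
    Neg w (R' + sh t) (R + sh t) ↔ Neg w R' R := by
  unfold Neg sh
  simp only [Pi.add_apply]
  constructor
  · rintro ⟨h1, h2⟩
    exact ⟨fun i j => by linarith [h1 i j], fun i k j =>
      ⟨by linarith [(h2 i k j).1], by linarith [(h2 i k j).2]⟩⟩
  · rintro ⟨h1, h2⟩
    exact ⟨fun i j => by linarith [h1 i j], fun i k j =>
      ⟨by linarith [(h2 i k j).1], by linarith [(h2 i k j).2]⟩⟩

theorem clean_sh {i j : Fin n} {r w : ℝ} {t : Fin n → ℝ} {R : Fin n → Fin n → ℝ} :
    Clean i j (r + (t i - t j)) w (R + sh t) ↔ Clean i j r w R := by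
  unfold Clean sh
  simp only [Pi.add_apply]
  constructor
  · rintro ⟨h1, h2, h3⟩
    exact ⟨fun k => by linarith [h1 k], fun l => by linarith [h2 l], by linarith⟩
  · rintro ⟨h1, h2, h3⟩
    exact ⟨fun k => by linarith [h1 k], fun l => by linarith [h2 l], by linarith⟩

/-- **exact equivariance of the noise**. -/
theorem un_conj_dg' (t : Fin n → ℝ) (R : Fin n → Fin n → ℝ) :
    (un R).map (fun g => dg (-t) * g * dg t) = un (R + sh t) := by
  have hcont : Measurable fun g : Mt n => dg (-t) * g * dg t :=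
    (by fun_prop : Continuous fun g : Mt n => dg (-t) * g * dg t).measurable
  have hT : (haar n).map (fun g => dg (-t) * g * dg t) = haar n :=
    haar_lr (det_dg_pos _) (det_dg_pos _)
  have hpre : ∀ E : Set (Mt n), MeasurableSet E →
      haar n ((fun g => dg (-t) * g * dg t) ⁻¹' E) = haar n E := by
    intro E hE
    rw [← Measure.map_apply hcont hE, hT]
  have hB : (fun g => dg (-t) * g * dg t) ⁻¹' (bx (R + sh t)) = bx R := by
    ext g
    exact conj_mem_bx
  ext A hA
  rw [Measure.map_apply hcont hA, un_apply _ (hcont hA), un_apply _ hA]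
  have h1 : haar n (bx R) = haar n (bx (R + sh t)) := by
    rw [← hB, hpre _ (measurableSet_bx _)]
  have h2 : haar n ((fun g => dg (-t) * g * dg t) ⁻¹' A ∩ bx R)
      = haar n (A ∩ bx (R + sh t)) := by
    rw [← hB, ← preimage_inter, hpre _ (hA.inter (measurableSet_bx _))]
  rw [h1, h2]

theorem un_conj_dg (t : Fin n → ℝ) {R : Fin n → Fin n → ℝ} (_hR : Adm R) :
    (un R).map (fun g => dg (-t) * g * dg t) = un (R + sh t) := un_conj_dg' t R

/-! ### A criterion for admissibility -/

/-- **cycle criterion**: all cycle sums (loops included) large. -/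
theorem adm_of_cycle {R : Fin n → Fin n → ℝ} {c : ℝ}
    (hc : ((n.factorial : ℝ) + 1) * 2 ^ (n + 1) ≤ 2 ^ c)
    (h1 : ∀ i, c ≤ R i i)
    (h2 : ∀ σ : Equiv.Perm (Fin n), σ ≠ 1 → c ≤ ∑ i with σ i ≠ i, R i (σ i)) : Adm R := by
  intro g hg
  have hc0 : (0:ℝ) < 2 ^ c := by positivity
  have hinv : (2:ℝ) ^ (-c) = (2 ^ c)⁻¹ := Real.rpow_neg (by norm_num) c
  have hcs : ((n.factorial : ℝ) + 1) * 2 ^ (n + 1) * 2 ^ (-c) ≤ 1 := by
    rw [hinv, ← div_eq_mul_inv, div_le_one hc0]
    exact hc
  have hge1 : (1:ℝ) ≤ ((n.factorial : ℝ) + 1) * 2 ^ (n + 1) := by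
    have : (1:ℝ) ≤ (n.factorial : ℝ) + 1 := by
      have := Nat.cast_nonneg (α := ℝ) n.factorial
      linarith
    exact one_le_mul_of_one_le_of_one_le this (one_le_pow₀ (by norm_num))
  have hcle1 : (2:ℝ) ^ (-c) ≤ 1 := by
    have h0 : (0:ℝ) < 2 ^ (-c) := by positivity
    nlinarith
  have hcpos : (0:ℝ) < 2 ^ (-c) := by positivity
  -- diagonal entries
  have hd : ∀ i, |g i i - 1| ≤ 2 ^ (-c) := by
    intro i
    have h3 := hg i i
    rw [Matrix.sub_apply, Matrix.one_apply_eq] at h3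
    refine h3.trans (Real.rpow_le_rpow_of_exponent_le (by norm_num) (by linarith [h1 i]))
  have ho : ∀ i j, i ≠ j → |g i j| ≤ 2 ^ (-(R i j)) := by
    intro i j hij
    have h3 := hg i j
    rwa [Matrix.sub_apply, Matrix.one_apply_ne hij, sub_zero] at h3
  have hd2 : ∀ i, |g i i| ≤ 2 := by
    intro i
    have h3 := abs_le.1 (hd i)
    rw [abs_le]
    constructor <;> linarith [h3.1, h3.2]
  -- product of the diagonal
  have hprod : ∀ s : Finset (Fin n), |∏ i ∈ s, g i i - 1| ≤ (2 ^ s.card - 1) * 2 ^ (-c) := by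
    intro s
    induction s using Finset.induction_on with
    | empty => simp
    | insert a s ha ih =>
      rw [Finset.prod_insert ha, Finset.card_insert_of_notMem ha]
      have h4 : g a a * ∏ i ∈ s, g i i - 1 = (g a a - 1) * (∏ i ∈ s, g i i - 1)
          + (g a a - 1) + (∏ i ∈ s, g i i - 1) := by ring
      rw [h4]
      have h5 : (1:ℝ) ≤ 2 ^ s.card := one_le_pow₀ (by norm_num)
      have h6 : |(g a a - 1) * (∏ i ∈ s, g i i - 1)| ≤ 1 * ((2 ^ s.card - 1) * 2 ^ (-c)) := by
        rw [abs_mul]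
        gcongr
        exact (hd a).trans hcle1
      calc |(g a a - 1) * (∏ i ∈ s, g i i - 1) + (g a a - 1) + (∏ i ∈ s, g i i - 1)|
          ≤ |(g a a - 1) * (∏ i ∈ s, g i i - 1)| + |g a a - 1| + |∏ i ∈ s, g i i - 1| :=
            abs_add_three _ _ _
        _ ≤ 1 * ((2 ^ s.card - 1) * 2 ^ (-c)) + 2 ^ (-c) + (2 ^ s.card - 1) * 2 ^ (-c) := by
            have := hd a
            gcongr
        _ = (2 ^ (s.card + 1) - 1) * 2 ^ (-c) := by rw [pow_succ]; ring
  have hoff : ∀ σ : Equiv.Perm (Fin n), σ ≠ 1 → |∏ i, g i (σ i)| ≤ 2 ^ n * 2 ^ (-c) := by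
    intro σ hσ
    rw [Finset.abs_prod]
    have h3 : ∏ i, |g i (σ i)| = (∏ i with σ i ≠ i, |g i (σ i)|)
        * ∏ i with ¬ σ i ≠ i, |g i (σ i)| := by
      rw [Finset.prod_filter_mul_prod_filter_not]
    rw [h3]
    have h4 : ∏ i with σ i ≠ i, |g i (σ i)| ≤ 2 ^ (-c) := by
      calc ∏ i with σ i ≠ i, |g i (σ i)| ≤ ∏ i with σ i ≠ i, (2:ℝ) ^ (-(R i (σ i))) := by
            refine Finset.prod_le_prod (fun i _ => abs_nonneg _) fun i hi => ?_
            rw [Finset.mem_filter] at hi
            exact ho i (σ i) (Ne.symm hi.2)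
        _ = (2:ℝ) ^ (∑ i with σ i ≠ i, -(R i (σ i))) := by
            rw [Real.rpow_sum_of_pos (by norm_num)]
        _ ≤ 2 ^ (-c) := by
            refine Real.rpow_le_rpow_of_exponent_le (by norm_num) ?_
            rw [Finset.sum_neg_distrib]
            linarith [h2 σ hσ]
    have h5 : ∏ i with ¬ σ i ≠ i, |g i (σ i)| ≤ 2 ^ n := by
      calc ∏ i with ¬ σ i ≠ i, |g i (σ i)| ≤ ∏ i with ¬ σ i ≠ i, (2:ℝ) := by
            refine Finset.prod_le_prod (fun i _ => abs_nonneg _) fun i hi => ?_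
            rw [Finset.mem_filter, not_not] at hi
            rw [hi.2]
            exact hd2 i
        _ = 2 ^ (Finset.univ.filter fun i => ¬ σ i ≠ i).card := by simp
        _ ≤ 2 ^ n := by
            refine pow_le_pow_right₀ (by norm_num) ?_
            exact (Finset.card_le_univ _).trans (by simp)
    calc (∏ i with σ i ≠ i, |g i (σ i)|) * ∏ i with ¬ σ i ≠ i, |g i (σ i)|
        ≤ 2 ^ (-c) * 2 ^ n := by
          gcongr
      _ = 2 ^ n * 2 ^ (-c) := mul_comm _ _
  have hdet : g.det - 1 = (∏ i, g i i - 1)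
      + ∑ σ ∈ Finset.univ.erase (1 : Equiv.Perm (Fin n)), (Equiv.Perm.sign σ : ℝ) * ∏ i, g i (σ i) := by
    rw [← Matrix.det_transpose, Matrix.det_apply']
    rw [← Finset.add_sum_erase _ _ (Finset.mem_univ (1 : Equiv.Perm (Fin n)))]
    simp only [Matrix.transpose_apply, Equiv.Perm.sign_one, Equiv.Perm.one_apply]
    push_cast
    ring
  have hbound : |g.det - 1| ≤ 1 / 2 := by
    rw [hdet]
    have h6 := hprod Finset.univ
    rw [Finset.card_univ, Fintype.card_fin] at h6
    have h7 : |∑ σ ∈ Finset.univ.erase (1 : Equiv.Perm (Fin n)),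
        (Equiv.Perm.sign σ : ℝ) * ∏ i, g i (σ i)| ≤ n.factorial * (2 ^ n * 2 ^ (-c)) := by
      refine (Finset.abs_sum_le_sum_abs _ _).trans ?_
      calc ∑ σ ∈ Finset.univ.erase (1 : Equiv.Perm (Fin n)),
            |(Equiv.Perm.sign σ : ℝ) * ∏ i, g i (σ i)|
          ≤ ∑ _σ ∈ Finset.univ.erase (1 : Equiv.Perm (Fin n)), (2 ^ n * (2:ℝ) ^ (-c)) := by
            refine Finset.sum_le_sum fun σ hσ => ?_
            rw [abs_mul]
            have h8 : |((Equiv.Perm.sign σ : ℤ) : ℝ)| = 1 := by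
              rcases Int.units_eq_one_or (Equiv.Perm.sign σ) with h | h <;> simp [h]
            rw [h8, one_mul]
            exact hoff σ (Finset.ne_of_mem_erase hσ)
        _ = (Finset.univ.erase (1 : Equiv.Perm (Fin n))).card * (2 ^ n * (2:ℝ) ^ (-c)) := by
            rw [Finset.sum_const, nsmul_eq_mul]
        _ ≤ n.factorial * (2 ^ n * 2 ^ (-c)) := by
            gcongr
            refine (Finset.card_le_card (Finset.erase_subset _ _)).trans ?_
            rw [Finset.card_univ, Fintype.card_perm, Fintype.card_fin]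
    calc |(∏ i, g i i - 1) + ∑ σ ∈ Finset.univ.erase (1 : Equiv.Perm (Fin n)),
          (Equiv.Perm.sign σ : ℝ) * ∏ i, g i (σ i)|
        ≤ (2 ^ n - 1) * 2 ^ (-c) + n.factorial * (2 ^ n * 2 ^ (-c)) :=
          (abs_add_le _ _).trans (add_le_add h6 h7)
      _ ≤ ((n.factorial : ℝ) + 1) * 2 ^ (n + 1) * 2 ^ (-c) / 2 := by
          rw [pow_succ]
          nlinarith
      _ ≤ 1 / 2 := by linarith
  have := abs_le.1 hbound
  constructor <;> linarith [this.1, this.2]

/-- all entries large implies admissible. -/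
theorem adm_of_entries {R : Fin n → Fin n → ℝ} {c : ℝ}
    (hc : ((n.factorial : ℝ) + 1) * 2 ^ (n + 1) ≤ 2 ^ c)
    (h1 : ∀ i j, c ≤ R i j) : Adm R := by
  have hc0 : 0 ≤ c := by
    by_contra hneg
    push Not at hneg
    have h2 : (2:ℝ) ^ c < 1 := Real.rpow_lt_one_of_one_lt_of_neg (by norm_num) hneg
    have h3 : (1:ℝ) ≤ ((n.factorial : ℝ) + 1) * 2 ^ (n + 1) := by
      have : (1:ℝ) ≤ (n.factorial : ℝ) + 1 := by
        have := Nat.cast_nonneg (α := ℝ) n.factorial
        linarith
      exact one_le_mul_of_one_le_of_one_le this (one_le_pow₀ (by norm_num))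
    linarith
  refine adm_of_cycle hc (fun i => h1 i i) fun σ hσ => ?_
  obtain ⟨i, hi⟩ : ∃ i, σ i ≠ i := by
    by_contra hcon
    push Not at hcon
    exact hσ (Equiv.ext hcon)
  calc c ≤ R i (σ i) := h1 _ _
    _ ≤ ∑ i with σ i ≠ i, R i (σ i) :=
      Finset.single_le_sum (f := fun i => R i (σ i)) (fun k _ => hc0.trans (h1 _ _))
        (by simpa using hi)

/-! ### total variation and integrals -/

/-- total variation controls integrals of `[0,M]`-valued functions. -/
theorem abs_integral_sub_le_nonneg {X : Type*} [MeasurableSpace X] {μ ν : Measure X}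
    [IsProbabilityMeasure μ] [IsProbabilityMeasure ν] {e M : ℝ}
    (h : ∀ A, MeasurableSet A → |μ.real A - ν.real A| ≤ e) {f : X → ℝ} (hf : Measurable f)
    (h0 : ∀ x, 0 ≤ f x) (hM0 : 0 ≤ M) (hM : ∀ x, f x ≤ M) :
    |∫ x, f x ∂μ - ∫ x, f x ∂ν| ≤ M * e := by
  have hint : ∀ (ρ : Measure X) [IsProbabilityMeasure ρ], Integrable f ρ := by
    intro ρ _
    refine Integrable.of_bound hf.aestronglyMeasurable M (Filter.Eventually.of_forall fun x => ?_)
    rw [Real.norm_eq_abs, abs_of_nonneg (h0 x)]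
    exact hM x
  have hlc : ∀ (ρ : Measure X) [IsProbabilityMeasure ρ],
      ∫ x, f x ∂ρ = ∫ t in Ioc 0 M, ρ.real {a : X | t ≤ f a} := by
    intro ρ _
    exact (hint ρ).integral_eq_integral_Ioc_meas_le (Filter.Eventually.of_forall h0)
      (Filter.Eventually.of_forall hM)
  have hti : ∀ (ρ : Measure X) [IsProbabilityMeasure ρ],
      IntegrableOn (fun t => ρ.real {a : X | t ≤ f a}) (Ioc 0 M) := by
    intro ρ _
    have hanti : Antitone fun t => ρ.real {a : X | t ≤ f a} := by
      intro s t hst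
      exact measureReal_mono fun a ha => hst.trans ha
    refine IntegrableOn.of_bound (by simp) hanti.measurable.aestronglyMeasurable 1
      (Filter.Eventually.of_forall fun t => ?_)
    rw [Real.norm_eq_abs, abs_of_nonneg measureReal_nonneg]
    exact measureReal_le_one
  rw [hlc μ, hlc ν, ← integral_sub (hti μ) (hti ν), ← Real.norm_eq_abs]
  have := norm_setIntegral_le_of_norm_le_const (μ := (volume : Measure ℝ)) (s := Ioc 0 M) (C := e)
    (f := fun t => μ.real {a : X | t ≤ f a} - ν.real {a : X | t ≤ f a}) (by simp)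
    (fun t _ => by
      rw [Real.norm_eq_abs]
      exact h _ (measurableSet_le measurable_const hf))
  refine this.trans ?_
  rw [Real.volume_real_Ioc_of_le hM0, sub_zero, mul_comm]

/-- total variation controls integrals. -/
theorem abs_integral_sub_le {X : Type*} [MeasurableSpace X] {μ ν : Measure X}
    [IsProbabilityMeasure μ] [IsProbabilityMeasure ν] {e M : ℝ}
    (h : ∀ A, MeasurableSet A → |μ.real A - ν.real A| ≤ e) {f : X → ℝ} (hf : Measurable f)
    (hM : ∀ x, |f x| ≤ M) : |∫ x, f x ∂μ - ∫ x, f x ∂ν| ≤ 2 * M * e := by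
  have hne : Nonempty X := by
    by_contra hcon
    rw [not_nonempty_iff] at hcon
    have h1 : μ univ = 1 := measure_univ
    rw [Set.eq_empty_of_isEmpty (univ : Set X)] at h1
    simp at h1
  obtain ⟨x0⟩ := hne
  have hM0 : 0 ≤ M := (abs_nonneg _).trans (hM x0)
  have h1 := abs_integral_sub_le_nonneg (μ := μ) (ν := ν) (M := 2 * M) h (f := fun x => f x + M)
    (hf.add_const M) (fun x => by linarith [(abs_le.1 (hM x)).1]) (by linarith)
    (fun x => by linarith [(abs_le.1 (hM x)).2])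
  have hint : ∀ (ρ : Measure X) [IsProbabilityMeasure ρ], Integrable f ρ := by
    intro ρ _
    exact Integrable.of_bound hf.aestronglyMeasurable M (Filter.Eventually.of_forall fun x => by
      rw [Real.norm_eq_abs]; exact hM x)
  rw [integral_add (hint μ) (integrable_const M), integral_add (hint ν) (integrable_const M)] at h1
  simp only [integral_const, probReal_univ, smul_eq_mul, one_mul] at h1
  rwa [add_sub_add_right_eq_sub] at h1

end Crest.Agent.R014.Nz_323
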