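import Crest.Agent.R014.Nd3_837
import Crest.Agent.R014.Nz3_323

set_option autoImplicit false

/-!
Row 14, block D, noise formalism (text #3844 of helper548, sections 1 and 2): the uniform noise
`zt R` of a metric `R` on `SLR n`, absorption (L1) and commutation (L2) for laws on `SLR n`,
and the digit entropy `fD μ hij b r R` with (2.1), (2.2), (2.3).
-/

open MeasureTheory Crest.NumberTheoryR.Packets
open scoped ENNReal

namespace Crest.Agent.R014.Nd_837

open Ms_667 Ne1_567 Ne3_567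
open Nz_323 (bx Adm un Neg Clean CN dg isProb_un un_compl)

variable {n : ℕ}

/-! ### Mixtures of translations -/

section Mix

variable {κ κ' κ₁ κ₂ : Measure (SLR n)} {e e₁ e₂ : ℝ}

theorem TVle.cv_absorb_left [IsProbabilityMeasure κ'] [IsProbabilityMeasure κ₁]
    [IsProbabilityMeasure κ₂] (h : ∀ᵐ q ∂κ', TVle (κ₁.map fun g => q * g) κ₂ e) :
    TVle (cv κ' κ₁) κ₂ e := by
  have h1 := TVle.mix (κ := κ') (ν := κ₁) (ν' := κ₂) (F := fun p : SLR n × SLR n => p.1 * p.2)
    (F' := Prod.snd) measurable_mul₂ measurable_snd (by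
      filter_upwards [h] with q hq
      simpa using hq)
  have h2 : (κ'.prod κ₂).map Prod.snd = κ₂ := by
    rw [Measure.map_snd_prod]
    simp
  rw [h2] at h1
  exact h1

theorem cv_comm_swap (κ κ' : Measure (SLR n)) [SFinite κ] [SFinite κ'] :
    cv κ κ' = (κ'.prod κ).map fun p => p.2 * p.1 := by
  unfold cv
  rw [← Measure.prod_swap, Measure.map_map measurable_mul₂ measurable_swap]
  rfl

theorem TVle.cv_absorb_right [IsProbabilityMeasure κ'] [IsProbabilityMeasure κ₁]
    [IsProbabilityMeasure κ₂] (h : ∀ᵐ q ∂κ', TVle (κ₁.map fun g => g * q) κ₂ e) :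
    TVle (cv κ₁ κ') κ₂ e := by
  have h1 := TVle.mix (κ := κ') (ν := κ₁) (ν' := κ₂) (F := fun p : SLR n × SLR n => p.2 * p.1)
    (F' := Prod.snd) (measurable_mul₂.comp measurable_swap) measurable_snd (by
      filter_upwards [h] with q hq
      simpa using hq)
  have h2 : (κ'.prod κ₂).map Prod.snd = κ₂ := by
    rw [Measure.map_snd_prod]
    simp
  rw [h2, ← cv_comm_swap] at h1
  exact h1

theorem TVle.cv_commute [IsProbabilityMeasure κ'] [IsProbabilityMeasure κ]
    (h : ∀ᵐ q ∂κ', TVle (κ.map fun g => q * g) (κ.map fun g => g * q) e) :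
    TVle (cv κ' κ) (cv κ κ') e := by
  rw [cv_comm_swap κ κ']
  exact TVle.mix (κ := κ') (ν := κ) (ν' := κ) (F := fun p : SLR n × SLR n => p.1 * p.2)
    (F' := fun p : SLR n × SLR n => p.2 * p.1) measurable_mul₂
    (measurable_mul₂.comp measurable_swap) h

/-- From conjugation to commutation. -/
theorem TVle.commute_of_cj {q : SLR n} (h : TVle (Nd_837.cj q κ) κ e) :
    TVle (κ.map fun g => q * g) (κ.map fun g => g * q) e := by
  have h1 := (h.symm).map (f := fun g => q * g) (measurable_const_mul q)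
  have h2 : (Nd_837.cj q κ).map (fun g => q * g) = κ.map fun g => g * q := by
    unfold Nd_837.cj
    rw [Measure.map_map (measurable_const_mul q) (measurable_cj q)]
    congr 1
    funext g
    simp only [Function.comp_apply]
    group
  rw [h2] at h1
  exact h1

variable [IsProbabilityMeasure κ] [IsProbabilityMeasure κ'] [IsProbabilityMeasure κ₁]
  [IsProbabilityMeasure κ₂]

/-- Commutation with a product. -/
theorem TVle.comm_cv {D : Measure (SLR n)} [IsProbabilityMeasure D]
    (h1 : TVle (cv D κ₁) (cv κ₁ D) e₁) (h2 : TVle (cv D κ₂) (cv κ₂ D) e₂) :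
    TVle (cv D (cv κ₁ κ₂)) (cv (cv κ₁ κ₂) D) (e₁ + e₂) := by
  have a1 : TVle (cv (cv D κ₁) κ₂) (cv (cv κ₁ D) κ₂) e₁ := h1.cv_left
  have a2 : TVle (cv κ₁ (cv D κ₂)) (cv κ₁ (cv κ₂ D)) e₂ := h2.cv_right
  rw [cv_assoc, cv_assoc] at a1
  rw [← cv_assoc κ₁ κ₂ D] at a2
  exact a1.trans a2

/-- Left absorption concerns the leftmost factor. -/
theorem TVle.abs_cv (h : TVle (cv κ' κ₁) κ₁ e) : TVle (cv κ' (cv κ₁ κ₂)) (cv κ₁ κ₂) e := by
  rw [← cv_assoc]
  exact h.cv_left

/-- Left absorption of a product. -/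
theorem TVle.abs_mul (h1 : TVle (cv κ₁ κ) κ e₁) (h2 : TVle (cv κ₂ κ) κ e₂) :
    TVle (cv (cv κ₁ κ₂) κ) κ (e₁ + e₂) := by
  rw [cv_assoc, add_comm]
  exact (h2.cv_right (κ := κ₁)).trans h1

/-- Right absorption concerns the rightmost factor. -/
theorem TVle.abs_cv' (h : TVle (cv κ₂ κ') κ₂ e) : TVle (cv (cv κ₁ κ₂) κ') (cv κ₁ κ₂) e := by
  rw [cv_assoc]
  exact h.cv_right

/-- Right absorption of a product. -/
theorem TVle.abs_mul' (h1 : TVle (cv κ κ₁) κ e₁) (h2 : TVle (cv κ κ₂) κ e₂) :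
    TVle (cv κ (cv κ₁ κ₂)) κ (e₁ + e₂) := by
  rw [← cv_assoc]
  exact (h1.cv_left (κ := κ₂)).trans h2

/-- The hypothesis of (2.2) from commutation and absorption. -/
theorem TVle.hyp {D : Measure (SLR n)} [IsProbabilityMeasure D]
    (h1 : TVle (cv D κ) (cv κ D) e₁) (h2 : TVle (cv κ' κ) κ e₂) :
    TVle (cv (cv κ' D) κ) (cv κ D) (e₁ + e₂) := by
  have a1 : TVle (cv κ' (cv D κ)) (cv κ' (cv κ D)) e₁ := h1.cv_right
  have a2 : TVle (cv (cv κ' κ) D) (cv κ D) e₂ := h2.cv_left
  rw [← cv_assoc] at a1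
  rw [cv_assoc] at a2
  exact a1.trans a2

end Mix

/-! ### From matrices to `SLR n` -/

theorem measurable_toSLM : Measurable (toSLM : Mt n → Mt n) := by
  unfold toSLM
  refine Measurable.ite (measurableSet_lt measurable_const Nz_323.measurable_det) ?_
    measurable_const
  refine measurable_pi_iff.2 fun i => measurable_pi_iff.2 fun j => ?_
  have h1 : Measurable fun g : Mt n => g.det ^ (-(1 : ℝ) / n) * g i j :=
    (Nz_323.measurable_det.pow_const _).mul (Nz_323.measurable_entry i j)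
  exact h1

theorem measurable_toSL : Measurable (toSL : Mt n → SLR n) := by
  refine measurable_of_isOpen fun U hU => ?_
  obtain ⟨V, hV, rfl⟩ := isOpen_induced_iff.1 hU
  exact measurable_toSLM hV.measurableSet

theorem continuousOn_toSLM : ContinuousOn (toSLM : Mt n → Mt n) {g | 0 < g.det} := by
  have hd : Continuous fun g : Mt n => g.det := continuous_id.matrix_det
  have h : ContinuousOn (fun g : Mt n => (g.det ^ (-(1 : ℝ) / n)) • g) {g | 0 < g.det} := by
    have h1 : ContinuousOn (fun g : Mt n => g.det ^ (-(1 : ℝ) / n)) {g | 0 < g.det} :=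
      ContinuousOn.rpow_const hd.continuousOn fun g hg => Or.inl (ne_of_gt hg)
    exact h1.smul continuousOn_id
  exact h.congr fun g hg => if_pos hg

theorem continuousOn_toSL : ContinuousOn (toSL : Mt n → SLR n) {g | 0 < g.det} := by
  rw [continuousOn_iff_continuous_domRestrict]
  refine Continuous.subtype_mk ?_ _
  exact continuousOn_iff_continuous_domRestrict.1 continuousOn_toSLM

theorem isCompact_bx (R : Fin n → Fin n → ℝ) : IsCompact (bx R) := by
  rw [Nz_323.bx_eq_bxc, Nz_323.bxc_eq_pi]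
  exact isCompact_univ_pi fun i => isCompact_univ_pi fun j => isCompact_Icc

/-- The box of a metric in `SLR n`. -/
def bxG (R : Fin n → Fin n → ℝ) : Set (SLR n) := toSL '' bx R

theorem det_pos_of_adm {R : Fin n → Fin n → ℝ} (hR : Adm R) {g : Mt n} (hg : g ∈ bx R) :
    0 < g.det := lt_of_lt_of_le (by norm_num) (hR g hg).1

theorem isCompact_bxG {R : Fin n → Fin n → ℝ} (hR : Adm R) : IsCompact (bxG R) :=
  (isCompact_bx R).image_of_continuousOn
    (continuousOn_toSL.mono fun _ hg => det_pos_of_adm hR hg)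

theorem measurableSet_bxG {R : Fin n → Fin n → ℝ} (hR : Adm R) : MeasurableSet (bxG R) :=
  (isCompact_bxG hR).isClosed.measurableSet

/-- The uniform noise of the metric `R`, as a law on `SLR n`. -/
noncomputable def zt (R : Fin n → Fin n → ℝ) : Measure (SLR n) := (un R).map toSL

theorem isProb_zt {R : Fin n → Fin n → ℝ} (hR : Adm R) : IsProbabilityMeasure (zt R) := by
  have := isProb_un hR
  exact Measure.isProbabilityMeasure_map measurable_toSL.aemeasurable

theorem un_ae {R : Fin n → Fin n → ℝ} : ∀ᵐ g ∂(un R), g ∈ bx R := un_compl R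

theorem zt_ae {R : Fin n → Fin n → ℝ} (hR : Adm R) : ∀ᵐ g ∂(zt R), g ∈ bxG R := by
  refine (ae_map_iff (p := fun g => g ∈ bxG R) measurable_toSL.aemeasurable
    (measurableSet_bxG hR)).2 ?_
  filter_upwards [un_ae] with g hg
  exact ⟨g, hg, rfl⟩

theorem sh_eq (t : Fin n → ℝ) : Nz_323.sh t = sh t := rfl

theorem dm_eq (t : Fin n → ℝ) : dm t = dg t := rfl

/-- Exact equivariance of the noise. -/
theorem zt_sh {R : Fin n → Fin n → ℝ} (hR : Adm R) (t : Fin n → ℝ) :
    cj (aT t) (zt R) = zt (R + sh t) := by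
  have hm : Measurable fun g : Mt n => dg (-t) * g * dg t :=
    (by fun_prop : Continuous fun g : Mt n => dg (-t) * g * dg t).measurable
  have h1 : zt (R + sh t) = (un R).map fun g => toSL (dg (-t) * g * dg t) := by
    unfold zt
    rw [← sh_eq, ← Nz_323.un_conj_dg' t R, Measure.map_map measurable_toSL hm]
    rfl
  rw [h1]
  unfold cj zt
  rw [Measure.map_map (measurable_cj _) measurable_toSL]
  refine Measure.map_congr ?_
  filter_upwards [un_ae] with g hg
  have hd := det_pos_of_adm hR hg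
  simp only [Function.comp_apply]
  rw [toSL_mul _ (Nz_323.det_dg_pos t), toSL_mul (Nz_323.det_dg_pos _) hd, ← aT_neg]
  · rfl
  · rw [Matrix.det_mul]
    exact mul_pos (Nz_323.det_dg_pos _) hd

theorem zt_map_left {R : Fin n → Fin n → ℝ} (hR : Adm R) {q : Mt n} (hq : 0 < q.det) :
    (zt R).map (fun g => toSL q * g) = ((un R).map fun g => q * g).map toSL := by
  unfold zt
  rw [Measure.map_map (measurable_const_mul _) measurable_toSL,
    Measure.map_map measurable_toSL (Nz_323.measurable_mul_left q)]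
  refine Measure.map_congr ?_
  filter_upwards [un_ae] with g hg
  simp only [Function.comp_apply]
  rw [toSL_mul hq (det_pos_of_adm hR hg)]

theorem zt_map_right {R : Fin n → Fin n → ℝ} (hR : Adm R) {q : Mt n} (hq : 0 < q.det) :
    (zt R).map (fun g => g * toSL q) = ((un R).map fun g => g * q).map toSL := by
  unfold zt
  rw [Measure.map_map (measurable_mul_const _) measurable_toSL,
    Measure.map_map measurable_toSL (Nz_323.measurable_mul_right q)]
  refine Measure.map_congr ?_
  filter_upwards [un_ae] with g hg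
  simp only [Function.comp_apply]
  rw [toSL_mul (det_pos_of_adm hR hg) hq]

section L

variable {R R' : Fin n → Fin n → ℝ} {w r : ℝ} {κ' : Measure (SLR n)}

/-- **(L1)** in the group, left. -/
theorem L1G_left (hw : 0 ≤ w) (hR : Adm R) (hN : Neg w R' R) {g : SLR n} (hg : g ∈ bxG R') :
    TVle ((zt R).map fun h => g * h) (zt R) (CN n * 2 ^ (-w)) := by
  obtain ⟨q, hq, rfl⟩ := hg
  have hle : ∀ i j, R i j ≤ R' i j := fun i j => by linarith [hN.1 i j]
  rw [zt_map_left hR (det_pos_of_adm (Nz_323.adm_of_le hR hle) hq)]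
  exact TVle.map measurable_toSL fun A hA => Nz_323.L1_left hw hR hN hq hA

/-- **(L1)** in the group, right. -/
theorem L1G_right (hw : 0 ≤ w) (hR : Adm R) (hN : Neg w R' R) {g : SLR n} (hg : g ∈ bxG R') :
    TVle ((zt R).map fun h => h * g) (zt R) (CN n * 2 ^ (-w)) := by
  obtain ⟨q, hq, rfl⟩ := hg
  have hle : ∀ i j, R i j ≤ R' i j := fun i j => by linarith [hN.1 i j]
  rw [zt_map_right hR (det_pos_of_adm (Nz_323.adm_of_le hR hle) hq)]
  exact TVle.map measurable_toSL fun A hA => Nz_323.L1_right hw hR hN hq hA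

/-- **(L1)** for laws, left. -/
theorem cv_zt_left [IsProbabilityMeasure κ'] (hw : 0 ≤ w) (hR : Adm R) (hN : Neg w R' R)
    (h : ∀ᵐ g ∂κ', g ∈ bxG R') : TVle (cv κ' (zt R)) (zt R) (CN n * 2 ^ (-w)) := by
  have := isProb_zt hR
  refine TVle.cv_absorb_left ?_
  filter_upwards [h] with g hg
  exact L1G_left hw hR hN hg

/-- **(L1)** for laws, right. -/
theorem cv_zt_right [IsProbabilityMeasure κ'] (hw : 0 ≤ w) (hR : Adm R) (hN : Neg w R' R)
    (h : ∀ᵐ g ∂κ', g ∈ bxG R') : TVle (cv (zt R) κ') (zt R) (CN n * 2 ^ (-w)) := by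
  have := isProb_zt hR
  refine TVle.cv_absorb_right ?_
  filter_upwards [h] with g hg
  exact L1G_right hw hR hN hg

variable {i j : Fin n} (hij : i ≠ j)

/-- **(L2)** in the group. -/
theorem L2G (hR : Adm R) (hC : Clean i j r w R) {s : ℝ} (hs : |s| ≤ 2 ^ (-r)) :
    TVle (cj (uu hij s) (zt R)) (zt R) (CN n * 2 ^ (-w)) := by
  have h1 : cj (uu hij s) (zt R) = ((un R).map fun g =>
      Matrix.transvection i j (-s) * g * Matrix.transvection i j s).map toSL := by
    unfold cj zt
    have hm : Measurable fun g : Mt n =>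
        Matrix.transvection i j (-s) * g * Matrix.transvection i j s :=
      (by fun_prop : Continuous fun g : Mt n =>
        Matrix.transvection i j (-s) * g * Matrix.transvection i j s).measurable
    rw [Measure.map_map (measurable_cj _) measurable_toSL, Measure.map_map measurable_toSL hm]
    refine Measure.map_congr ?_
    filter_upwards [un_ae] with g hg
    have hd := det_pos_of_adm hR hg
    have hd1 : 0 < (Matrix.transvection i j s).det := by
      rw [Matrix.det_transvection_of_ne _ _ hij]; exact one_pos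
    have hd2 : 0 < (Matrix.transvection i j (-s)).det := by
      rw [Matrix.det_transvection_of_ne _ _ hij]; exact one_pos
    have hu : ∀ s : ℝ, toSL (Matrix.transvection i j s) = uu hij s := fun s => by
      rw [← uu_val' hij s]
      exact toSL_coe _
    simp only [Function.comp_apply]
    rw [toSL_mul _ hd1, toSL_mul hd2 hd, hu, hu, uu_neg]
    rw [Matrix.det_mul]
    exact mul_pos hd2 hd
  rw [h1]
  exact TVle.map measurable_toSL fun A hA => Nz_323.L2 hij hR hC hs hA

/-- The elements `u_ij(s)`, `|s| ≤ 2 ^ (-r)`. -/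
def rtG (r : ℝ) : Set (SLR n) := uu hij '' Set.Icc (-(2 : ℝ) ^ (-r)) ((2 : ℝ) ^ (-r))

theorem measurableSet_rtG (r : ℝ) : MeasurableSet (rtG hij r : Set (SLR n)) :=
  (isCompact_Icc.image (continuous_uu hij)).isClosed.measurableSet

theorem uu_mem_rtG {s : ℝ} (hs : |s| ≤ 2 ^ (-r)) : uu hij s ∈ (rtG hij r : Set (SLR n)) :=
  ⟨s, abs_le.1 hs, rfl⟩

theorem rtG_mono {r r' : ℝ} (h : r' ≤ r) : (rtG hij r : Set (SLR n)) ⊆ rtG hij r' := by
  rintro _ ⟨s, hs, rfl⟩
  refine uu_mem_rtG hij ((abs_le.2 hs).trans ?_)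
  exact Real.rpow_le_rpow_of_exponent_le one_le_two (by linarith)

/-- **(L2)** for laws on the root group. -/
theorem cv_zt_comm [IsProbabilityMeasure κ'] (hR : Adm R) (hC : Clean i j r w R)
    (h : ∀ᵐ g ∂κ', g ∈ rtG hij r) : TVle (cv κ' (zt R)) (cv (zt R) κ') (CN n * 2 ^ (-w)) := by
  have := isProb_zt hR
  refine TVle.cv_commute ?_
  filter_upwards [h] with g hg
  obtain ⟨s, hs, rfl⟩ := hg
  exact TVle.commute_of_cj (L2G hij hR hC (abs_le.2 hs))

theorem abs_cen_le {b : ℕ} (d : Fin b) {θ : ℝ} (hθ : |θ| ≤ 1) : |cen b d + θ / b| ≤ 1 := by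
  have hb : (0 : ℝ) < b := by exact_mod_cast d.pos
  have hd : ((d : ℕ) : ℝ) + 1 ≤ b := by exact_mod_cast d.2
  have hd0 : (0 : ℝ) ≤ ((d : ℕ) : ℝ) := Nat.cast_nonneg _
  obtain ⟨h1, h2⟩ := abs_le.1 hθ
  have h3 : cen b d + θ / b = (-b + (2 * (d : ℝ) + 1) + θ) / b := by
    unfold cen
    field_simp
  rw [h3, abs_div, abs_of_pos hb, div_le_one hb, abs_le]
  constructor <;> linarith

theorem uni_ae : ∀ᵐ θ ∂uni, |θ| ≤ 1 := by
  unfold uni
  refine Measure.ae_smul_measure ?_ _
  filter_upwards [ae_restrict_mem measurableSet_Icc] with θ hθ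
  exact abs_le.2 hθ

theorem dlaw_ae (r : ℝ) (b : ℕ) (d : Fin b) : ∀ᵐ g ∂(dlaw hij r b d), g ∈ rtG hij r := by
  refine (ae_map_iff (p := fun g => g ∈ rtG hij r) (measurable_dlaw hij r b d).aemeasurable
    (measurableSet_rtG hij r)).2 ?_
  filter_upwards [uni_ae] with θ hθ
  refine uu_mem_rtG hij ?_
  rw [abs_mul, abs_of_pos (Real.rpow_pos_of_pos two_pos _)]
  exact mul_le_of_le_one_right (Real.rpow_nonneg two_pos.le _) (abs_cen_le d hθ)

/-- A root element is contained in a negligible box. -/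
theorem exists_neg_box (hN1 : R i j + w ≤ r) (hN2 : ∀ l, R i l + w ≤ r + R j l)
    (hN3 : ∀ k, R k j + w ≤ r + R k i) :
    ∃ R' : Fin n → Fin n → ℝ, Neg w R' R ∧ (rtG hij r : Set (SLR n)) ⊆ bxG R' := by
  classical
  obtain ⟨M, hM⟩ : ∃ M : ℝ, ∀ p q : Fin n, |R p q| ≤ M := by
    obtain ⟨M, hM⟩ := (Set.finite_range fun p : Fin n × Fin n => |R p.1 p.2|).bddAbove
    exact ⟨M, fun p q => hM ⟨(p, q), rfl⟩⟩
  have hM' : ∀ p q : Fin n, -M ≤ R p q ∧ R p q ≤ M := fun p q => abs_le.1 (hM p q)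
  have hlow : ∀ p q : Fin n, R p q + w ≤ M + |w| := fun p q => by
    linarith [(hM' p q).2, le_abs_self w]
  refine ⟨fun p q => if p = i ∧ q = j then r else 2 * M + |w|, ⟨fun p q => ?_, fun p k q => ?_⟩, ?_⟩
  · simp only
    split_ifs with h
    · rw [h.1, h.2]; exact hN1
    · have := hlow p q
      have h0 := hM i j
      have h1 := abs_nonneg (R i j)
      linarith
  · constructor
    · simp only
      split_ifs with h
      · rw [h.1, h.2]; exact hN2 q
      · linarith [hlow p q, (hM' k q).1]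
    · simp only
      split_ifs with h
      · rw [h.1, h.2]; linarith [hN3 p]
      · linarith [hlow p q, (hM' p k).1]
  · rintro _ ⟨s, hs, rfl⟩
    refine ⟨(uu hij s).1, ?_, toSL_coe _⟩
    intro p q
    have he : (uu hij s).1 - 1 = Matrix.single i j s := by rw [uu_val, add_sub_cancel_left]
    rw [he]
    by_cases h : p = i ∧ q = j
    · obtain ⟨rfl, rfl⟩ := h
      rw [Matrix.single_apply_same]
      simp only [and_self, if_true]
      exact abs_le.2 hs
    · have h' : ¬ (i = p ∧ j = q) := fun h2 => h ⟨h2.1.symm, h2.2.symm⟩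
      rw [Matrix.single_apply_of_ne _ _ _ _ _ h', abs_zero]
      exact Real.rpow_nonneg two_pos.le _

/-- A root element is absorbed on the left. -/
theorem cv_zt_left_rt [IsProbabilityMeasure κ'] (hw : 0 ≤ w) (hR : Adm R) (hN1 : R i j + w ≤ r)
    (hN2 : ∀ l, R i l + w ≤ r + R j l) (hN3 : ∀ k, R k j + w ≤ r + R k i)
    (h : ∀ᵐ g ∂κ', g ∈ rtG hij r) : TVle (cv κ' (zt R)) (zt R) (CN n * 2 ^ (-w)) := by
  obtain ⟨R', h1, h2⟩ := exists_neg_box hij hN1 hN2 hN3
  exact cv_zt_left hw hR h1 (h.mono fun g hg => h2 hg)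

/-- A root element is absorbed on the right. -/
theorem cv_zt_right_rt [IsProbabilityMeasure κ'] (hw : 0 ≤ w) (hR : Adm R) (hN1 : R i j + w ≤ r)
    (hN2 : ∀ l, R i l + w ≤ r + R j l) (hN3 : ∀ k, R k j + w ≤ r + R k i)
    (h : ∀ᵐ g ∂κ', g ∈ rtG hij r) : TVle (cv (zt R) κ') (zt R) (CN n * 2 ^ (-w)) := by
  obtain ⟨R', h1, h2⟩ := exists_neg_box hij hN1 hN2 hN3
  exact cv_zt_right hw hR h1 (h.mono fun g hg => h2 hg)

/-- The hypothesis of (2.2) for the uniform noise: `κ'` absorbed by `zt R`, `R` clean. -/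
theorem hyp_zt [IsProbabilityMeasure κ'] (hR : Adm R) (hC : Clean i j r w R) {e : ℝ}
    (he : TVle (cv κ' (zt R)) (zt R) e) (b : ℕ) (d : Fin b) :
    TVle (cv (cv κ' (dlaw hij r b d)) (zt R)) (cv (zt R) (dlaw hij r b d))
      (CN n * 2 ^ (-w) + e) := by
  have := isProb_zt hR
  exact TVle.hyp (cv_zt_comm hij hR hC (dlaw_ae hij r b d)) he

end L

end Crest.Agent.R014.Nd_837
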