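import Crest.Agent.R014.NScG_395
import Crest.Agent.R014.Nd4_837
import Crest.Agent.R014.DSkel_792

/-!
# Row 14, block D, noise formalism, section 3 of post 3844 (helper395), part H

The box noises `zt R` of helper837 form a `NoiseFam`; literal forms of Scale and (Q1).
-/

set_option autoImplicit false

open MeasureTheory Finset Filter Topology Crest.NumberTheoryR.Packets
open Crest.Agent.R014.Nd_837 Crest.Agent.R014.Ne1_567
open Crest.Agent.R014.NScD_395 Crest.Agent.R014.NScE_395 Crest.Agent.R014.NScG_395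
open Crest.Agent.R014.Ms_667
open Crest.Agent.R014.NScA_395 (Met rho Dig Good)
open scoped ENNReal

noncomputable section

namespace Crest.Agent.R014.NScH_395

variable {n : ℕ}

theorem neg_iff {w : ℝ} {R' R : Met n} : Nz_323.Neg w R' R ↔ NScA_395.Neg w R' R :=
  ⟨fun h => ⟨h.1, fun i k j => (h.2 i k j).1, fun i k j => (h.2 i k j).2⟩,
    fun h => ⟨h.1, fun i k j => ⟨h.2.1 i k j, h.2.2 i k j⟩⟩⟩

theorem clean_iff {i j : Fin n} {r w : ℝ} {R : Met n} :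
    Nz_323.Clean i j r w R ↔ NScA_395.Clean i j r w R := Iff.rfl

/-- lower bound for the entries of an admissible metric -/
def c1N (n : ℕ) : ℝ := Real.logb 2 (((n.factorial : ℝ) + 1) * 2 ^ (n + 1))

theorem noiseFam (n : ℕ) : NoiseFam (n := n) zt Nz_323.Adm (Nz_323.CN n) (c1N n) where
  C0 := by unfold Nz_323.CN; positivity
  prob := fun R hR => isProb_zt hR
  cj_zt := fun R t hR => zt_sh hR t
  adm_sh := fun R t hR => (Nz_323.adm_sh (t := t)).2 hR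
  adm_of := fun R h => Nz_323.adm_of_entries (c := c1N n) (by
    unfold c1N
    rw [Real.rpow_logb two_pos (by norm_num) (by positivity)]) h
  com := by
    intro i j hij r w R b d hR hC
    exact cv_zt_comm hij hR hC (dlaw_ae hij r b d)
  absl := by
    intro R R' w hw hR hR' hN
    have := isProb_zt hR'
    exact cv_zt_left hw hR (neg_iff.2 hN) (zt_ae hR')

/-- near constancy for the box noises -/
abbrev NC (μ : Measure (ModSpace n)) (u1 u2 : ℝ) (B : Finset ℕ) (η : ℝ) : Prop :=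
  NCst zt μ u1 u2 B η

/-- the reference spread function for the box noises -/
abbrev PZ (μ : Measure (ModSpace n)) (u1 : ℝ) (b : ℕ) (i j : Fin n) : ModSpace n → ℝ :=
  PS zt μ u1 b i j

theorem PZ_eq {μ : Measure (ModSpace n)} {u1 : ℝ} {b : ℕ} {i j : Fin n} (hij : i ≠ j) :
    PZ μ u1 b i j = Psi μ (zt (u1 • rho i j)) hij 0 b := by
  funext x; simp [PZ, PS, hij]

theorem measurable_PZ {μ : Measure (ModSpace n)} {u1 : ℝ} (hu : 20 * c1N n ≤ u1) (hu0 : 0 ≤ u1)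
    (b : ℕ) [NeZero b] (i j : Fin n) : Measurable (PZ μ u1 b i j) := by
  by_cases hij : i = j
  · have : PZ μ u1 b i j = fun _ => 0 := by funext x; simp [PZ, PS, hij]
    rw [this]; exact measurable_const
  · rw [PZ_eq hij]
    have hadm : Nz_323.Adm (u1 • rho i j) := (noiseFam n).adm_of _ fun p q => by
      have := NScA_395.smul_ge hu0 i j p q
      linarith
    have := isProb_zt hadm
    exact measurable_Psi hij

theorem adm_rho {u1 : ℝ} (hu : 20 * c1N n ≤ u1) (hu0 : 0 ≤ u1) (i j : Fin n) :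
    Nz_323.Adm (u1 • rho i j) := (noiseFam n).adm_of _ fun p q => by
      have := NScA_395.smul_ge hu0 i j p q
      linarith

theorem PZ_nonneg {μ : Measure (ModSpace n)} {u1 : ℝ} (hu : 20 * c1N n ≤ u1) (hu0 : 0 ≤ u1)
    (b : ℕ) [NeZero b] (i j : Fin n) (x : ModSpace n) : 0 ≤ PZ μ u1 b i j x := by
  by_cases hij : i = j
  · simp [PZ, PS, hij]
  · rw [PZ_eq hij]
    have := isProb_zt (adm_rho hu hu0 i j)
    exact Psi_nonneg hij x

theorem PZ_le {μ : Measure (ModSpace n)} {u1 : ℝ} (hu : 20 * c1N n ≤ u1) (hu0 : 0 ≤ u1)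
    (b : ℕ) [NeZero b] (i j : Fin n) (x : ModSpace n) : PZ μ u1 b i j x ≤ 2 := by
  by_cases hij : i = j
  · simp [PZ, PS, hij]
  · rw [PZ_eq hij]
    have := isProb_zt (adm_rho hu hu0 i j)
    exact Psi_le hij x

/-- **Scale** -/
theorem scaleZ (B : Finset ℕ) {d0 η : ℝ} (hd0 : 0 < d0) (hη : 0 < η) :
    ∃ Rr A0 : ℝ, 0 < Rr ∧ ∀ A, A0 ≤ A → ∀ μ : Measure (ModSpace n), IsProbabilityMeasure μ →
      AInv μ → ∃ u1 u2 : ℝ, A ≤ u1 ∧ u2 ≤ Rr * A ∧ u1 ≤ d0 * u2 ∧ NC μ u1 u2 B η :=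
  scale (noiseFam n) B hd0 hη

/-- **(Q1)**, `L¹` form, real shifts -/
theorem q1Z {b : ℕ} (hb : 0 < b) {e1 : ℝ} (he1 : 0 < e1) :
    ∃ η U : ℝ, 0 < η ∧ 0 < U ∧ ∀ μ : Measure (ModSpace n), IsProbabilityMeasure μ → AInv μ →
      ∀ u1 u2 : ℝ, U ≤ u1 → u1 ≤ 1 / 100000 * u2 → NC μ u1 u2 {b} η →
      ∀ i j : Fin n, i ≠ j → ∀ t : Fin n → ℝ, t i = t j → (∀ l, |t l| ≤ u2 / 3000) →
      ∫ x, |PZ μ u1 b i j (act x (aT t)) - PZ μ u1 b i j x| ∂μ ≤ e1 := by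
  obtain ⟨η, U, hη, hU, h⟩ := q1 (noiseFam n) hb he1
  refine ⟨η, U, hη, hU, fun μ hμp hμ u1 u2 h1 h2 hnc i j hij t ht htb => ?_⟩
  have h3 := h μ hμp hμ u1 u2 h1 h2 i j hij (hnc i j hij b (mem_singleton_self b) hb) t ht htb
  refine le_trans (le_of_eq ?_) h3
  exact integral_congr_ae (Eventually.of_forall fun x => abs_sub_comm _ _)

/-- **(Q1)**, `L¹` form, integer shifts -/
theorem q1Z_tz {b : ℕ} (hb : 0 < b) {e1 : ℝ} (he1 : 0 < e1) :
    ∃ η U : ℝ, 0 < η ∧ 0 < U ∧ ∀ μ : Measure (ModSpace n), IsProbabilityMeasure μ → AInv μ →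
      ∀ u1 u2 : ℝ, U ≤ u1 → u1 ≤ 1 / 100000 * u2 → NC μ u1 u2 {b} η →
      ∀ i j : Fin n, i ≠ j → ∀ z : Fin n → ℤ, z i = z j → (∀ l, |(z l : ℝ)| ≤ u2 / 3000) →
      ∫ x, |PZ μ u1 b i j (DSkel_792.tz z x) - PZ μ u1 b i j x| ∂μ ≤ e1 := by
  obtain ⟨η, U, hη, hU, h⟩ := q1Z (n := n) hb he1
  refine ⟨η, U, hη, hU, fun μ hμp hμ u1 u2 h1 h2 hnc i j hij z hz hzb => ?_⟩
  exact h μ hμp hμ u1 u2 h1 h2 hnc i j hij (fun l => -(z l : ℝ)) (by rw [hz])
    (fun l => by rw [abs_neg]; exact hzb l)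

/-- **(Q1)**, the form `P1` of `DSkel_792` -/
theorem p1Z {b : ℕ} (hb : 0 < b) {ε : ℝ} (hε : 0 < ε) :
    ∃ η U : ℝ, 0 < η ∧ 0 < U ∧ ∀ μ : Measure (ModSpace n), IsProbabilityMeasure μ → AInv μ →
      ∀ u1 u2 : ℝ, U ≤ u1 → u1 ≤ 1 / 100000 * u2 → NC μ u1 u2 {b} η →
      ∀ L : ℕ, (L : ℝ) ≤ u2 / 12000 → DSkel_792.P1 μ (PZ μ u1 b) L ε := by
  have hne : NeZero b := ⟨hb.ne'⟩
  obtain ⟨η, U, hη, hU, h⟩ := q1Z_tz (n := n) hb (e1 := ε ^ 2) (by positivity)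
  refine ⟨η, max U (20 * c1N n), hη, lt_of_lt_of_le hU (le_max_left _ _), ?_⟩
  intro μ hμp hμ u1 u2 h1 h2 hnc L hL i j hij z hz hzb
  have hU1 : U ≤ u1 := le_trans (le_max_left _ _) h1
  have hc1 : 20 * c1N n ≤ u1 := le_trans (le_max_right _ _) h1
  have hu0 : 0 ≤ u1 := by linarith
  have h3 := h μ hμp hμ u1 u2 hU1 h2 hnc i j hij z hz (fun l => by
    have h4 : (|z l| : ℤ) ≤ 4 * (L : ℤ) := hzb l
    have h5 : |(z l : ℝ)| ≤ 4 * (L : ℝ) := by exact_mod_cast h4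
    linarith)
  have hm := measurable_PZ (μ := μ) hc1 hu0 b i j
  have hmt := hm.comp (DSkel_792.measurable_tz z)
  have hint : Integrable (fun x => |PZ μ u1 b i j (DSkel_792.tz z x) - PZ μ u1 b i j x|) μ := by
    refine bdd_integrable (hmt.sub hm).abs (M := 2) fun x => ?_
    rw [abs_abs, abs_le]
    constructor <;> linarith [PZ_nonneg (μ := μ) hc1 hu0 b i j x, PZ_le (μ := μ) hc1 hu0 b i j x,
      PZ_nonneg (μ := μ) hc1 hu0 b i j (DSkel_792.tz z x),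
      PZ_le (μ := μ) hc1 hu0 b i j (DSkel_792.tz z x)]
  have hmk := mul_meas_ge_le_integral_of_nonneg
    (Eventually.of_forall fun x => abs_nonneg
      (PZ μ u1 b i j (DSkel_792.tz z x) - PZ μ u1 b i j x)) hint ε
  have hsub : {x | PZ μ u1 b i j (DSkel_792.tz z x) < PZ μ u1 b i j x - ε} ⊆
      {x | ε ≤ |PZ μ u1 b i j (DSkel_792.tz z x) - PZ μ u1 b i j x|} := by
    intro x hx
    simp only [Set.mem_ofPred_eq] at hx ⊢
    rw [abs_sub_comm]
    exact le_trans (by linarith) (le_abs_self _)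
  have h6 := measureReal_mono (μ := μ) hsub
  have h7 : ε * μ.real {x | ε ≤ |PZ μ u1 b i j (DSkel_792.tz z x) - PZ μ u1 b i j x|} ≤ ε ^ 2 :=
    hmk.trans h3
  have h8 : μ.real {x | ε ≤ |PZ μ u1 b i j (DSkel_792.tz z x) - PZ μ u1 b i j x|} ≤ ε := by
    by_contra hcon
    push Not at hcon
    nlinarith
  exact h6.trans h8

end Crest.Agent.R014.NScH_395
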