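import Crest.Agent.R014.AsmB_460
import Crest.Agent.R014.NScH_395

/-!
# Row 14, block D, level 2 with the real names (helper460)

`Fr`: the digit entropies of the model metrics, `PSr`: the spread functions `PZ` of helper395 with
a guard (zero below the admissibility threshold), so that it is measurable with values in `[0, 2]`
for all arguments; `Scale` and `Q1` in the shape of `AsmB_460.level2`; transfer of the leaves
`Q2`, `End'` from `PZ` to `PSr`.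
-/

set_option autoImplicit false

open MeasureTheory Filter Topology
open Crest.NumberTheoryR.Packets
open Crest.Agent.R014.Iface_792
open Crest.Agent.R014.Nd_837
open Crest.Agent.R014.DSkel_792
open Crest.Agent.R014.AsmB_460
open Crest.Agent.R014.NScG_395 (NoiseFam fdig PS)
open Crest.Agent.R014.NScH_395 (PZ NC c1N noiseFam)

namespace Crest.Agent.R014.AsmB2_460

variable {n : ℕ}

/-- the digit entropies of the model metrics. -/
noncomputable def Fr (μ : Measure (ModSpace n)) (u : ℝ) (b : ℕ) (i j : Fin n) : ℝ :=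
  if 0 < b then fdig zt μ b i j 0 (u • NScA_395.rho i j) else 0

/-- the spread functions, guarded. -/
noncomputable def PSr (μ : Measure (ModSpace n)) (u : ℝ) (b : ℕ) (i j : Fin n)
    (x : ModSpace n) : ℝ := if 20 * c1N n ≤ u ∧ 0 ≤ u ∧ 0 < b then PZ μ u b i j x else 0

/-- the threshold for `u`. -/
noncomputable def U0 (n : ℕ) : ℝ := max (20 * c1N n) 0

theorem psr_eq {μ : Measure (ModSpace n)} {u : ℝ} (hu : U0 n ≤ u) {b : ℕ} (hb : 0 < b)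
    (i j : Fin n) : PSr μ u b i j = PZ μ u b i j := by
  funext x
  unfold PSr
  rw [if_pos ⟨(le_max_left _ _).trans hu, (le_max_right _ _).trans hu, hb⟩]

theorem psr_eq' {μ : Measure (ModSpace n)} {u : ℝ} (hu : U0 n ≤ u) {b : ℕ} (hb : 0 < b) :
    PSr μ u b = PZ μ u b := by
  funext i j
  exact psr_eq hu hb i j

theorem measurable_psr (μ : Measure (ModSpace n)) (u : ℝ) (b : ℕ) (i j : Fin n) :
    Measurable (PSr μ u b i j) := by
  by_cases h : 20 * c1N n ≤ u ∧ 0 ≤ u ∧ 0 < b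
  · have : PSr μ u b i j = PZ μ u b i j := by
      funext x; unfold PSr; rw [if_pos h]
    rw [this]
    have : NeZero b := ⟨h.2.2.ne'⟩
    exact NScH_395.measurable_PZ h.1 h.2.1 b i j
  · have : PSr μ u b i j = fun _ => 0 := by
      funext x; unfold PSr; rw [if_neg h]
    rw [this]
    exact measurable_const

theorem psr_nonneg (μ : Measure (ModSpace n)) (u : ℝ) (b : ℕ) (i j : Fin n) (x : ModSpace n) :
    0 ≤ PSr μ u b i j x := by
  unfold PSr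
  split_ifs with h
  · have : NeZero b := ⟨h.2.2.ne'⟩
    exact NScH_395.PZ_nonneg h.1 h.2.1 b i j x
  · exact le_rfl

theorem psr_le (μ : Measure (ModSpace n)) (u : ℝ) (b : ℕ) (i j : Fin n) (x : ModSpace n) :
    PSr μ u b i j x ≤ 2 := by
  unfold PSr
  split_ifs with h
  · have : NeZero b := ⟨h.2.2.ne'⟩
    exact NScH_395.PZ_le h.1 h.2.1 b i j x
  · norm_num

/-! ### near constancy -/

theorem nCst_of {μ : Measure (ModSpace n)} {u₁ u₂ : ℝ} {B : Finset ℕ} {η : ℝ} (hη : 0 ≤ η)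
    (h : NC μ u₁ u₂ B η) : NCst Fr μ u₁ u₂ B η := by
  intro b hb i j hij
  unfold Fr
  split_ifs with h0
  · exact h i j hij b hb h0
  · simpa using hη

theorem nCst_to {μ : Measure (ModSpace n)} {u₁ u₂ : ℝ} {B : Finset ℕ} {η : ℝ}
    (h : NCst Fr μ u₁ u₂ B η) : NC μ u₁ u₂ B η := by
  intro i j hij b hb h0
  have := h b hb i j hij
  unfold Fr at this
  rwa [if_pos h0, if_pos h0] at this

/-! ### properties holding along nearly constant scales -/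

theorem Ev.mono {F : Measure (ModSpace n) → ℝ → ℕ → Fin n → Fin n → ℝ}
    {Φ Φ' : Measure (ModSpace n) → ℝ → ℝ → Prop} (h : Ev F Φ) (U : ℝ)
    (hi : ∀ μ : Measure (ModSpace n), IsProbabilityMeasure μ → AInv μ → ∀ u₁ u₂ : ℝ, U ≤ u₁ →
      Φ μ u₁ u₂ → Φ' μ u₁ u₂) : Ev F Φ' := by
  obtain ⟨B, η, d₀, U', hη, hd, h⟩ := h
  refine ⟨B, η, d₀, max U' U, hη, hd, fun μ hp hA u₁ u₂ hR => ?_⟩
  obtain ⟨h1, h2, h3⟩ := hR
  exact hi μ hp hA u₁ u₂ ((le_max_right _ _).trans h1)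
    (h μ hp hA u₁ u₂ ⟨(le_max_left _ _).trans h1, h2, h3⟩)

theorem Ev.and {F : Measure (ModSpace n) → ℝ → ℕ → Fin n → Fin n → ℝ}
    {Φ Φ' : Measure (ModSpace n) → ℝ → ℝ → Prop} (h : Ev F Φ) (h' : Ev F Φ') :
    Ev F fun μ u₁ u₂ => Φ μ u₁ u₂ ∧ Φ' μ u₁ u₂ := by
  obtain ⟨B, η, d₀, U, hη, hd, h⟩ := h
  obtain ⟨B', η', d₀', U', hη', hd', h'⟩ := h'
  refine ⟨B ∪ B', min η η', min d₀ d₀', max (max U U') 0, lt_min hη hη', lt_min hd hd',
    fun μ hp hA u₁ u₂ hR => ⟨?_, ?_⟩⟩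
  · exact h μ hp hA u₁ u₂ (hR.mono Finset.subset_union_left (min_le_left _ _) (min_le_left _ _)
      ((le_max_left _ _).trans (le_max_left _ _)) (le_max_right _ _) (lt_min hd hd'))
  · exact h' μ hp hA u₁ u₂ (hR.mono Finset.subset_union_right (min_le_right _ _)
      (min_le_right _ _) ((le_max_right _ _).trans (le_max_left _ _)) (le_max_right _ _)
      (lt_min hd hd'))

/-- an `Ev` statement from its form over helper395's names. -/
theorem ev_of {Φ : Measure (ModSpace n) → ℝ → ℝ → Prop}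
    (h : ∃ (B : Finset ℕ) (η d₀ U : ℝ), 0 < η ∧ 0 < d₀ ∧ ∀ μ : Measure (ModSpace n),
      IsProbabilityMeasure μ → AInv μ → ∀ u₁ u₂ : ℝ, U ≤ u₁ → u₁ ≤ d₀ * u₂ → NC μ u₁ u₂ B η →
      Φ μ u₁ u₂) : Ev Fr Φ := by
  obtain ⟨B, η, d₀, U, hη, hd, h⟩ := h
  exact ⟨B, η, d₀, U, hη, hd, fun μ hp hA u₁ u₂ hR => h μ hp hA u₁ u₂ hR.1 hR.2.1 (nCst_to hR.2.2)⟩

/-! ### the leaves of helper395 -/

/-- **Scale**. -/
theorem scaleR (n : ℕ) : Scale (n := n) Fr := by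
  intro B η d₀ hη hd₀
  obtain ⟨R, A₀, _, h⟩ := NScH_395.scaleZ (n := n) B hd₀ hη
  refine ⟨R, A₀, fun A hA μ hp hA' => ?_⟩
  obtain ⟨u₁, u₂, h1, h2, h3, h4⟩ := h A hA μ hp hA'
  exact ⟨u₁, u₂, h1, h2, h3, nCst_of hη.le h4⟩

/-- **(Q1)**, for any base. -/
theorem q1_ev {b : ℕ} (hb : 0 < b) {e₁ : ℝ} (he₁ : 0 < e₁) : Ev (n := n) Fr fun μ u₁ u₂ =>
    ∀ i j : Fin n, i ≠ j → ∀ z : Fin n → ℤ, z i = z j → (∀ l, |(z l : ℝ)| ≤ u₂ / 3000) →
      ∫ x, |PSr μ u₁ b i j (tz z x) - PSr μ u₁ b i j x| ∂μ ≤ e₁ := by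
  obtain ⟨η, U, hη, hU, h⟩ := NScH_395.q1Z_tz (n := n) hb he₁
  refine ⟨{b}, η, 1 / 100000, max U (U0 n), hη, by norm_num, ?_⟩
  rintro μ hp hA u₁ u₂ ⟨h1, h2, h3⟩ i j hij z hz hzl
  rw [psr_eq ((le_max_right _ _).trans h1) hb]
  exact h μ hp hA u₁ u₂ ((le_max_left _ _).trans h1) h2 (nCst_to h3) i j hij z hz hzl

/-- **(Q1)**. -/
theorem q1R (n : ℕ) : Q1 (n := n) PSr Fr 3000 := fun K _ he₁ => q1_ev (b := 2 ^ K) (by positivity) he₁

/-! ### transfer from `PZ` to `PSr` -/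

theorem q2_of {c₂ : ℝ} {q₀ : ℕ} (h : Q2 (n := n) PZ Fr c₂ q₀) : Q2 (n := n) PSr Fr c₂ q₀ := by
  intro e₁ he₁
  obtain ⟨K₀, h⟩ := h e₁ he₁
  refine ⟨K₀, fun K hK => Ev.mono (h K hK) (U0 n) ?_⟩
  intro μ _ _ u₁ u₂ hu h1
  rw [psr_eq' hu (by positivity)]
  exact h1

theorem end_of (h : End' (n := n) PZ Fr) : End' (n := n) PSr Fr := by
  intro f hf i j hij v ε'' hε''
  obtain ⟨ε', hε', h⟩ := h f hf i j hij v ε'' hε''
  refine ⟨ε', hε', fun G τ hτ => ?_⟩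
  obtain ⟨K₀, h⟩ := h G τ hτ
  refine ⟨K₀, fun K hK => Ev.mono (h K hK) (U0 n) ?_⟩
  intro μ _ _ u₁ u₂ hu h1
  rw [psr_eq' hu (by positivity)]
  exact h1

/-! ### level 2 -/

/-- **level 2 with the real names**. -/
theorem mainStmt_of {c₂ : ℝ} (hc₂ : 0 < c₂) {q₀ : ℕ} (hQ2 : Q2 (n := n) PSr Fr c₂ q₀)
    {k₁ : ℝ} (hk₁ : 0 < k₁) (hQ3 : Q3 (n := n) PSr Fr k₁)
    (hE : End' (n := n) PSr Fr) : MainStmt n :=
  level2 PSr (U₀ := 0) (fun μ _ u _ K i j => ⟨measurable_psr μ u _ i j, fun x =>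
    ⟨psr_nonneg μ u _ i j x, psr_le μ u _ i j x⟩⟩) (scaleR n) (by norm_num) (q1R n) hc₂ hQ2 hk₁
    hQ3 hE

/-- **Theorem B from the three open leaves**. -/
theorem thmB_of {d : ℕ} (hd : 2 ≤ d) {c₂ : ℝ} (hc₂ : 0 < c₂) {q₀ : ℕ}
    (hQ2 : Q2 (n := d + 1) PSr Fr c₂ q₀) {k₁ : ℝ} (hk₁ : 0 < k₁)
    (hQ3 : Q3 (n := d + 1) PSr Fr k₁) (hE : End' (n := d + 1) PSr Fr) : ThmB d :=
  DSkel_792.main hd (mainStmt_of hc₂ hQ2 hk₁ hQ3 hE)

end Crest.Agent.R014.AsmB2_460
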