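import Crest.Agent.R014.DSkel_792

/-!
# Row 14, block D, level 2: `MainStmt` from the leaves, order of the constants (helper460)

Abstract in the functions `PS μ u₁ b i j : ModSpace n → ℝ` (real object: helper870's / helper395's
`Psi μ (zt (u₁ • rho i j)) hij 0 b`) and in the digit entropies `F μ u b i j` (real object:
`Hc (lab μ (zt (u • rho i j)) hij 0 b)`).  `NCst`: near constancy between the scales `u₁ < u₂`.
`Ev F Φ`: the property `Φ μ u₁ u₂` holds as soon as `u₁` is large, `u₂ / u₁` is large and the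
entropies of finitely many digit sizes are nearly constant between `u₁` and `u₂`.
-/

set_option autoImplicit false

open MeasureTheory Filter Topology
open Crest.NumberTheoryR.Packets
open Crest.Agent.R014.Iface_792
open Crest.Agent.R014.Nd_837
open Crest.Agent.R014.DSkel_792

namespace Crest.Agent.R014.AsmB_460

variable {n : ℕ}

/-- near constancy of the digit entropies `F μ u b i j` between `u₁` and `u₂`, `b ∈ B`. -/
def NCst (F : Measure (ModSpace n) → ℝ → ℕ → Fin n → Fin n → ℝ) (μ : Measure (ModSpace n))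
    (u₁ u₂ : ℝ) (B : Finset ℕ) (η : ℝ) : Prop :=
  ∀ b ∈ B, ∀ i j : Fin n, i ≠ j → F μ u₁ b i j - F μ u₂ b i j ≤ η

theorem NCst.mono {F : Measure (ModSpace n) → ℝ → ℕ → Fin n → Fin n → ℝ}
    {μ : Measure (ModSpace n)} {u₁ u₂ : ℝ} {B B' : Finset ℕ} {η η' : ℝ}
    (h : NCst F μ u₁ u₂ B η) (hB : B' ⊆ B) (hη : η ≤ η') : NCst F μ u₁ u₂ B' η' :=
  fun b hb i j hij => (h b (hB hb) i j hij).trans hη

/-- the regime `(B, η, d₀, U)`. -/
def Reg (F : Measure (ModSpace n) → ℝ → ℕ → Fin n → Fin n → ℝ) (B : Finset ℕ) (η d₀ U : ℝ)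
    (μ : Measure (ModSpace n)) (u₁ u₂ : ℝ) : Prop :=
  U ≤ u₁ ∧ u₁ ≤ d₀ * u₂ ∧ NCst F μ u₁ u₂ B η

/-- `Φ` holds along all nearly constant pairs of scales. -/
def Ev (F : Measure (ModSpace n) → ℝ → ℕ → Fin n → Fin n → ℝ)
    (Φ : Measure (ModSpace n) → ℝ → ℝ → Prop) : Prop :=
  ∃ (B : Finset ℕ) (η d₀ U : ℝ), 0 < η ∧ 0 < d₀ ∧ ∀ μ : Measure (ModSpace n),
    IsProbabilityMeasure μ → AInv μ → ∀ u₁ u₂ : ℝ, Reg F B η d₀ U μ u₁ u₂ → Φ μ u₁ u₂

variable {F : Measure (ModSpace n) → ℝ → ℕ → Fin n → Fin n → ℝ}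

theorem Reg.mono {B B' : Finset ℕ} {η η' d₀ d₀' U U' : ℝ} {μ : Measure (ModSpace n)} {u₁ u₂ : ℝ}
    (h : Reg F B η d₀ U μ u₁ u₂) (hB : B' ⊆ B) (hη : η ≤ η') (hd : d₀ ≤ d₀') (hU : U' ≤ U)
    (hU0 : 0 ≤ U) (hd0 : 0 < d₀) : Reg F B' η' d₀' U' μ u₁ u₂ := by
  obtain ⟨h1, h2, h3⟩ := h
  refine ⟨hU.trans h1, h2.trans ?_, h3.mono hB hη⟩
  have hu : 0 ≤ u₂ := by
    have h4 : 0 ≤ d₀ * u₂ := hU0.trans (h1.trans h2)
    exact nonneg_of_mul_nonneg_right h4 hd0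
  exact mul_le_mul_of_nonneg_right hd hu

/-- **SCALE** (helper395): every range of scales contains a nearly constant pair. -/
def Scale (F : Measure (ModSpace n) → ℝ → ℕ → Fin n → Fin n → ℝ) : Prop :=
  ∀ (B : Finset ℕ) (η d₀ : ℝ), 0 < η → 0 < d₀ → ∃ R A₀ : ℝ, ∀ A : ℝ, A₀ ≤ A →
    ∀ μ : Measure (ModSpace n), IsProbabilityMeasure μ → AInv μ →
      ∃ u₁ u₂ : ℝ, A ≤ u₁ ∧ u₂ ≤ R * A ∧ u₁ ≤ d₀ * u₂ ∧ NCst F μ u₁ u₂ B η

/-- `Psi` at depth `q₀`. -/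
noncomputable def atq (q₀ : ℕ) (Psi : Fin n → Fin n → ModSpace n → ℝ) :
    Fin n → Fin n → ModSpace n → ℝ :=
  fun i j x => Psi i j (tz (Pi.single i (q₀ : ℤ)) x)

/-- **(Q1)** near invariance under `ker (ij)`, in `L¹`. -/
def Q1 (PS : Measure (ModSpace n) → ℝ → ℕ → Fin n → Fin n → ModSpace n → ℝ)
    (F : Measure (ModSpace n) → ℝ → ℕ → Fin n → Fin n → ℝ) (k₀ : ℝ) : Prop :=
  ∀ (K : ℕ) (e₁ : ℝ), 0 < e₁ → Ev F fun μ u₁ u₂ =>
    ∀ i j : Fin n, i ≠ j → ∀ z : Fin n → ℤ, z i = z j → (∀ l, |(z l : ℝ)| ≤ u₂ / k₀) →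
      ∫ x, |PS μ u₁ (2 ^ K) i j (tz z x) - PS μ u₁ (2 ^ K) i j x| ∂μ ≤ e₁

/-- **(Q2)** = (R), linear form, all three functions at depth `q₀`. -/
def Q2 (PS : Measure (ModSpace n) → ℝ → ℕ → Fin n → Fin n → ModSpace n → ℝ)
    (F : Measure (ModSpace n) → ℝ → ℕ → Fin n → Fin n → ℝ) (c₂ : ℝ) (q₀ : ℕ) : Prop :=
  ∀ e₁ : ℝ, 0 < e₁ → ∃ K₀ : ℕ, ∀ K : ℕ, K₀ ≤ K → Ev F fun μ u₁ _ =>
    ∀ i j k : Fin n, i ≠ j → j ≠ k → i ≠ k →
      ∫ x, max 0 (c₂ * atq q₀ (PS μ u₁ (2 ^ K)) i j x * atq q₀ (PS μ u₁ (2 ^ K)) j k x -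
        atq q₀ (PS μ u₁ (2 ^ K)) i k x) ∂μ ≤ e₁

/-- **(Q3)** slab bound gives positive density of free depths. -/
def Q3 (PS : Measure (ModSpace n) → ℝ → ℕ → Fin n → Fin n → ModSpace n → ℝ)
    (F : Measure (ModSpace n) → ℝ → ℕ → Fin n → Fin n → ℝ) (k₁ : ℝ) : Prop :=
  ∀ κ C : ℝ, 0 < κ → 0 < C → ∃ c : ℝ, 0 < c ∧ ∀ ε δ : ℝ, 0 < ε → 0 < δ →
    ∃ (τ₀ : ℝ) (K₀ : ℕ), 0 < τ₀ ∧ τ₀ ≤ 1 ∧ ∀ K : ℕ, K₀ ≤ K →
    ∃ (B : Finset ℕ) (η d₀ U C' c' : ℝ) (D₀ : ℝ → ℝ → ℝ), 0 < η ∧ 0 < d₀ ∧ 0 < C' ∧ 0 < c' ∧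
    ∀ μ : Measure (ModSpace n), IsProbabilityMeasure μ → AInv μ →
    ∀ u₁ u₂ : ℝ, Reg F B η d₀ U μ u₁ u₂ → ∀ e η' D : ℝ, 0 < e → 0 < η' → D₀ e η' ≤ D →
      SlabBd μ D κ C e η' → C' * e * Real.log D ≤ u₁ → u₂ ≤ c' * Real.log D →
      P3 μ (PS μ u₁ (2 ^ K)) ⌊u₂ / k₁⌋₊ δ c τ₀ ε

/-- **END**. -/
def End' (PS : Measure (ModSpace n) → ℝ → ℕ → Fin n → Fin n → ModSpace n → ℝ)
    (F : Measure (ModSpace n) → ℝ → ℕ → Fin n → Fin n → ℝ) : Prop :=
  ∀ (f : ModSpace n → ℝ), RUC f → ∀ (i j : Fin n) (hij : i ≠ j) (v : ℝ) (ε'' : ℝ), 0 < ε'' →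
  ∃ ε' : ℝ, 0 < ε' ∧ ∀ (G : ℕ) (τ : ℝ), 0 < τ → ∃ K₀ : ℕ, ∀ K : ℕ, K₀ ≤ K →
    Ev F fun μ u₁ _ => Fin' μ (PS μ u₁ (2 ^ K)) G τ ε' ε'' f i j hij v

section Lemmas

variable {μ : Measure (ModSpace n)}

theorem tz_comm (z w : Fin n → ℤ) (x : ModSpace n) : tz z (tz w x) = tz w (tz z x) := by
  rw [← tz_add, ← tz_add, add_comm]

theorem measurable_atq {q₀ : ℕ} {Psi : Fin n → Fin n → ModSpace n → ℝ}
    (h : ∀ i j, Measurable (Psi i j)) (i j : Fin n) : Measurable (atq q₀ Psi i j) :=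
  (h i j).comp (measurable_tz _)

/-- (Q1) at depth `q₀`. -/
theorem p1_of [IsProbabilityMeasure μ] (hA : AInv μ) {q₀ L : ℕ}
    {Psi : Fin n → Fin n → ModSpace n → ℝ} (hm : ∀ i j, Measurable (Psi i j))
    (hb : ∀ i j x, |Psi i j x| ≤ 2) {ε : ℝ} (hε : 0 < ε)
    (h : ∀ i j : Fin n, i ≠ j → ∀ z : Fin n → ℤ, z i = z j → (∀ l, |z l| ≤ 4 * (L : ℤ)) →
      ∫ x, |Psi i j (tz z x) - Psi i j x| ∂μ ≤ ε * ε) :
    P1 μ (atq q₀ Psi) L ε := by
  intro i j hij z hz hzl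
  have hmeas : Measurable fun x => |Psi i j (tz z x) - Psi i j x| :=
    (((hm i j).comp (measurable_tz z)).sub (hm i j)).abs
  have hI : Integrable (fun x => |Psi i j (tz z x) - Psi i j x|) μ := by
    refine Integrable.of_bound hmeas.aestronglyMeasurable 4 (Eventually.of_forall fun x => ?_)
    rw [Real.norm_eq_abs, abs_abs]
    have h1 := hb i j (tz z x)
    have h2 := hb i j x
    rw [abs_le] at h1 h2 ⊢
    constructor <;> linarith
  have hmark : ε * μ.real {x | ε ≤ |Psi i j (tz z x) - Psi i j x|} ≤ ε * ε :=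
    (mul_meas_ge_le_integral_of_nonneg (Eventually.of_forall fun x => abs_nonneg _) hI ε).trans
      (h i j hij z hz hzl)
  have h1 : μ.real {x | ε ≤ |Psi i j (tz z x) - Psi i j x|} ≤ ε := le_of_mul_le_mul_left hmark hε
  have hS : MeasurableSet {x | ε ≤ |Psi i j (tz z x) - Psi i j x|} :=
    measurableSet_le measurable_const hmeas
  have hpre := (measurePreserving_tz hA (Pi.single i (q₀ : ℤ))).measureReal_preimage
    hS.nullMeasurableSet
  refine le_trans (measureReal_mono ?_ (measure_ne_top _ _)) (hpre.le.trans h1)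
  intro x hx
  have hx' : Psi i j (tz (Pi.single i (q₀ : ℤ)) (tz z x)) < Psi i j (tz (Pi.single i (q₀ : ℤ)) x)
    - ε := hx
  show ε ≤ |Psi i j (tz z (tz (Pi.single i (q₀ : ℤ)) x)) - Psi i j (tz (Pi.single i (q₀ : ℤ)) x)|
  rw [tz_comm z, abs_sub_comm]
  exact le_trans (by linarith) (le_abs_self _)

/-- (Q2) by Markov. -/
theorem p2_of [IsProbabilityMeasure μ] {Psi : Fin n → Fin n → ModSpace n → ℝ}
    (hm : ∀ i j, Measurable (Psi i j)) (h0 : ∀ i j x, 0 ≤ Psi i j x) (hb : ∀ i j x, |Psi i j x| ≤ 2)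
    {c₂ c₂' ε : ℝ} (hc : 0 ≤ c₂) (hcc : c₂' ≤ c₂) (hε : 0 < ε)
    (h : ∀ i j k : Fin n, i ≠ j → j ≠ k → i ≠ k →
      ∫ x, max 0 (c₂ * Psi i j x * Psi j k x - Psi i k x) ∂μ ≤ ε * ε) :
    P2 μ Psi c₂' ε := by
  intro i j k hij hjk hik
  have hmeas : Measurable fun x => max 0 (c₂ * Psi i j x * Psi j k x - Psi i k x) :=
    measurable_const.max (((measurable_const.mul (hm i j)).mul (hm j k)).sub (hm i k))
  have hI : Integrable (fun x => max 0 (c₂ * Psi i j x * Psi j k x - Psi i k x)) μ := by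
    refine Integrable.of_bound hmeas.aestronglyMeasurable (c₂ * 4 + 2)
      (Eventually.of_forall fun x => ?_)
    rw [Real.norm_eq_abs, abs_of_nonneg (le_max_left _ _)]
    have h1 := (abs_le.1 (hb i j x)).2
    have h2 := (abs_le.1 (hb j k x)).2
    have h3 := h0 i k x
    have h4 := h0 i j x
    have h5 := h0 j k x
    refine max_le (by positivity) ?_
    have h6 : c₂ * Psi i j x * Psi j k x ≤ c₂ * 4 := by
      rw [mul_assoc]
      refine mul_le_mul_of_nonneg_left ?_ hc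
      nlinarith
    linarith
  have hmark : ε * μ.real {x | ε ≤ max 0 (c₂ * Psi i j x * Psi j k x - Psi i k x)} ≤ ε * ε :=
    (mul_meas_ge_le_integral_of_nonneg (Eventually.of_forall fun x => le_max_left _ _) hI ε).trans
      (h i j k hij hjk hik)
  refine le_trans (measureReal_mono ?_ (measure_ne_top _ _)) (le_of_mul_le_mul_left hmark hε)
  intro x hx
  have hx' : Psi i k x < c₂' * Psi i j x * Psi j k x - ε := hx
  show ε ≤ max 0 _
  have h4 : c₂' * Psi i j x * Psi j k x ≤ c₂ * Psi i j x * Psi j k x := by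
    rw [mul_assoc, mul_assoc]
    exact mul_le_mul_of_nonneg_right hcc (mul_nonneg (h0 i j x) (h0 j k x))
  exact le_trans (by linarith) (le_max_right _ _)

/-- (P3) at depth `q₀`: shift of the windows. -/
theorem p3_of [IsProbabilityMeasure μ] {q₀ L L' : ℕ} {Psi : Fin n → Fin n → ModSpace n → ℝ}
    {δ δ' c τ₀ ε : ℝ} (hL : L + q₀ ≤ L') (hδ : δ' * L' ≤ δ * L) (h : P3 μ Psi L' δ' c τ₀ ε) :
    P3 μ (atq q₀ Psi) L δ c τ₀ ε := by
  obtain ⟨B, hB, hBε, h⟩ := h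
  refine ⟨B, hB, hBε, ?_⟩
  intro x hx a b ha hb hab S hS hS'
  have e1 : ((b + (q₀ : ℤ) - (a + q₀) : ℤ) : ℝ) = ((b - a : ℤ) : ℝ) := by push_cast; ring
  have h2 : ((L : ℕ) : ℤ) + q₀ ≤ L' := by exact_mod_cast hL
  have h3 : (0 : ℤ) ≤ q₀ := Int.natCast_nonneg _
  have h1 := h x hx (a + q₀) (b + q₀) (by linarith) (by linarith) (by rw [e1]; exact hδ.trans hab)
    S hS hS'
  rw [e1] at h1
  refine h1.trans (le_of_eq ?_)
  unfold cross
  refine Finset.sum_congr rfl fun i _ => Finset.sum_congr rfl fun j _ => ?_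
  congr 1
  refine (Finset.card_bij (fun (r : ℤ) _ => r + q₀) ?_ ?_ ?_).symm
  · intro r hr
    rw [Finset.mem_filter, Finset.mem_Ico] at hr ⊢
    refine ⟨⟨by linarith [hr.1.1], by linarith [hr.1.2]⟩, ?_⟩
    have h2 := hr.2
    unfold atq at h2
    rwa [← tz_add, ← Pi.single_add, add_comm] at h2
  · intro r _ r' _ hrr
    simpa using hrr
  · intro r hr
    rw [Finset.mem_filter, Finset.mem_Ico] at hr
    refine ⟨r - q₀, ?_, by ring⟩
    rw [Finset.mem_filter, Finset.mem_Ico]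
    refine ⟨⟨by linarith [hr.1.1], by linarith [hr.1.2]⟩, ?_⟩
    unfold atq
    rw [← tz_add, ← Pi.single_add]
    have : (q₀ : ℤ) + (r - q₀) = r := by ring
    rw [this]
    exact hr.2

/-- the end at depth `q₀`. -/
theorem fin_of [IsProbabilityMeasure μ] (hA : AInv μ) {q₀ G : ℕ}
    {Psi : Fin n → Fin n → ModSpace n → ℝ} (hm : ∀ i j, Measurable (Psi i j))
    {τ ε' ε'' v : ℝ} {f : ModSpace n → ℝ} {i j : Fin n} {hij : i ≠ j}
    (h : Fin' μ Psi G τ ε' ε'' f i j hij v) :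
    Fin' μ (atq q₀ Psi) G τ ε' ε'' f i j hij v := by
  intro h1
  apply h
  intro i j hij
  have hAm : MeasurableSet {x | ∀ r : ℕ, r < G → Psi i j (tz (Pi.single i (r : ℤ)) x) < τ} := by
    have : {x | ∀ r : ℕ, r < G → Psi i j (tz (Pi.single i (r : ℤ)) x) < τ} =
        ⋂ r ∈ Finset.range G, {x | Psi i j (tz (Pi.single i (r : ℤ)) x) < τ} := by
      ext x
      simp
    rw [this]
    exact Finset.measurableSet_biInter _ fun r _ =>
      measurableSet_lt ((hm _ _).comp (measurable_tz _)) measurable_const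
  have hpre := (measurePreserving_tz hA (Pi.single i (q₀ : ℤ))).measureReal_preimage
    hAm.nullMeasurableSet
  rw [← hpre]
  refine le_trans (measureReal_mono ?_ (measure_ne_top _ _)) (h1 i j hij)
  intro x hx r hr
  have h2 : Psi i j (tz (Pi.single i (r : ℤ)) (tz (Pi.single i (q₀ : ℤ)) x)) < τ := hx r hr
  unfold atq
  rwa [tz_comm]

end Lemmas

set_option maxHeartbeats 1000000 in
/-- **level 2**: the leaves give `MainStmt`. -/
theorem level2 (PS : Measure (ModSpace n) → ℝ → ℕ → Fin n → Fin n → ModSpace n → ℝ) {U₀ : ℝ}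
    (hm : ∀ μ : Measure (ModSpace n), IsProbabilityMeasure μ → ∀ u, U₀ ≤ u → ∀ (K : ℕ) i j,
      Measurable (PS μ u (2 ^ K) i j) ∧ ∀ x, 0 ≤ PS μ u (2 ^ K) i j x ∧ PS μ u (2 ^ K) i j x ≤ 2)
    (hS : Scale F) {k₀ : ℝ} (hk₀ : 0 < k₀) (hQ1 : Q1 PS F k₀)
    {c₂ : ℝ} (hc₂ : 0 < c₂) {q₀ : ℕ} (hQ2 : Q2 PS F c₂ q₀)
    {k₁ : ℝ} (hk₁ : 0 < k₁) (hQ3 : Q3 PS F k₁) (hE : End' PS F) : MainStmt n := by
  intro κ C hκ hC
  obtain ⟨c, hc, hQ3⟩ := hQ3 κ C hκ hC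
  refine ⟨c, min c₂ 1, hc, lt_min hc₂ one_pos, min_le_right _ _, ?_⟩
  intro f hf i j hij v ε'' hε''
  obtain ⟨ε', hε', hE⟩ := hE f hf i j hij v ε'' hε''
  refine ⟨ε', hε', ?_⟩
  intro ε δ hε hδ
  -- ratio of the two depth units
  set k : ℝ := 4 * k₀ + 4 * k₁ with hk
  have hkpos : 0 < k := by positivity
  set δ' : ℝ := δ * k₁ / (4 * k) with hδ'
  have hδ'pos : 0 < δ' := by positivity
  obtain ⟨τ₀, K₃, hτ₀, hτ₀1, hQ3⟩ := hQ3 ε δ' hε hδ'pos
  refine ⟨τ₀, hτ₀, hτ₀1, ?_⟩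
  intro G τ hτ ε₁ hε₁ L₀
  obtain ⟨KE, hE⟩ := hE G τ hτ
  obtain ⟨K₂, hQ2⟩ := hQ2 (ε₁ * ε₁) (by positivity)
  set K : ℕ := max K₃ (max KE K₂) with hK
  obtain ⟨B₁, η₁, d₁, U₁, hη₁, hd₁, hQ1⟩ := hQ1 K (ε₁ * ε₁) (by positivity)
  obtain ⟨B₂, η₂, d₂, U₂, hη₂, hd₂, hQ2⟩ :=
    hQ2 K ((le_max_right KE K₂).trans (le_max_right K₃ _))
  obtain ⟨BE, ηE, dE, UE, hηE, hdE, hE⟩ := hE K ((le_max_left KE K₂).trans (le_max_right K₃ _))
  obtain ⟨B₃, η₃, d₃, U₃, C', c', D₀, hη₃, hd₃, hC', hc', hQ3⟩ := hQ3 K (le_max_left _ _)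
  set B : Finset ℕ := B₁ ∪ (B₂ ∪ (BE ∪ B₃)) with hB
  set η : ℝ := min η₁ (min η₂ (min ηE η₃)) with hη
  set d₀ : ℝ := min d₁ (min d₂ (min dE d₃)) with hd
  have hηpos : 0 < η := lt_min hη₁ (lt_min hη₂ (lt_min hηE hη₃))
  have hdpos : 0 < d₀ := lt_min hd₁ (lt_min hd₂ (lt_min hdE hd₃))
  obtain ⟨R, A₀, hS⟩ := hS B η (min d₀ 1) hηpos (lt_min hdpos one_pos)
  set R' : ℝ := max R 1 with hR'
  have hR'1 : 1 ≤ R' := le_max_right _ _
  -- minimal size of `A`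
  set U : ℝ := max (max A₀ U₀) (max 1 (max (max U₁ (max U₂ (max UE U₃))) (k * (L₀ + q₀ + 1))))
    with hU
  refine ⟨c' / (C' * R'), by positivity, ?_⟩
  set e : ℝ := c' / (C' * R') with he
  have hepos : 0 < e := by positivity
  intro η' hη'
  refine ⟨max (D₀ e η') (Real.exp (U / (C' * e))), ?_⟩
  intro D hD μ hprob hA hslab
  have hD0 : D₀ e η' ≤ D := (le_max_left _ _).trans hD
  have hDe : Real.exp (U / (C' * e)) ≤ D := (le_max_right _ _).trans hD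
  have hDpos : 0 < D := (Real.exp_pos _).trans_le hDe
  have hlog : U / (C' * e) ≤ Real.log D := (Real.le_log_iff_exp_le hDpos).2 hDe
  set A : ℝ := C' * e * Real.log D with hAdef
  have hUA : U ≤ A := by
    rw [div_le_iff₀ (by positivity)] at hlog
    rw [hAdef]; linarith
  have hA₀ : A₀ ≤ A := ((le_max_left _ _).trans (le_max_left _ _)).trans hUA
  have hAU₀ : U₀ ≤ A := ((le_max_right _ _).trans (le_max_left _ _)).trans hUA
  have hA1 : 1 ≤ A := ((le_max_left _ _).trans (le_max_right _ _)).trans hUA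
  have hAU : max U₁ (max U₂ (max UE U₃)) ≤ A :=
    (((le_max_left _ _).trans (le_max_right _ _)).trans (le_max_right _ _)).trans hUA
  have hAL : k * (L₀ + q₀ + 1) ≤ A :=
    (((le_max_right _ _).trans (le_max_right _ _)).trans (le_max_right _ _)).trans hUA
  obtain ⟨u₁, u₂, hAu, hu₂, hu12, hNC⟩ := hS A hA₀ μ hprob hA
  have hu₁0 : 0 < u₁ := by linarith
  have hu₂0 : 0 < u₂ := by
    by_contra hcon
    have : min d₀ 1 * u₂ ≤ 0 :=
      mul_nonpos_of_nonneg_of_nonpos (lt_min hdpos one_pos).le (not_lt.1 hcon)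
    linarith
  have hu12' : u₁ ≤ d₀ * u₂ := hu12.trans (mul_le_mul_of_nonneg_right (min_le_left _ _) hu₂0.le)
  have hu12'' : u₁ ≤ u₂ := by
    have := hu12.trans (mul_le_mul_of_nonneg_right (min_le_right _ _) hu₂0.le)
    linarith
  have hu₂c : u₂ ≤ c' * Real.log D := by
    have h3 : u₂ ≤ R' * A := hu₂.trans (mul_le_mul_of_nonneg_right (le_max_left _ _) (by linarith))
    refine h3.trans (le_of_eq ?_)
    rw [hAdef, he]
    field_simp
  -- the four regimes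
  have hReg : Reg F B η d₀ A μ u₁ u₂ := ⟨hAu, hu12', hNC⟩
  have hA0 : 0 ≤ A := by linarith
  have hReg₁ : Reg F B₁ η₁ d₁ U₁ μ u₁ u₂ :=
    hReg.mono Finset.subset_union_left (min_le_left _ _) (min_le_left _ _)
      ((le_max_left _ _).trans hAU) hA0 hdpos
  have hReg₂ : Reg F B₂ η₂ d₂ U₂ μ u₁ u₂ :=
    hReg.mono (Finset.subset_union_left.trans Finset.subset_union_right)
      ((min_le_right _ _).trans (min_le_left _ _)) ((min_le_right _ _).trans (min_le_left _ _))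
      (((le_max_left _ _).trans (le_max_right _ _)).trans hAU) hA0 hdpos
  have hRegE : Reg F BE ηE dE UE μ u₁ u₂ :=
    hReg.mono ((Finset.subset_union_left.trans Finset.subset_union_right).trans
      Finset.subset_union_right)
      (((min_le_right _ _).trans (min_le_right _ _)).trans (min_le_left _ _))
      (((min_le_right _ _).trans (min_le_right _ _)).trans (min_le_left _ _))
      ((((le_max_left _ _).trans (le_max_right _ _)).trans (le_max_right _ _)).trans hAU) hA0 hdpos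
  have hReg₃ : Reg F B₃ η₃ d₃ U₃ μ u₁ u₂ :=
    hReg.mono ((Finset.subset_union_right.trans Finset.subset_union_right).trans
      Finset.subset_union_right)
      (((min_le_right _ _).trans (min_le_right _ _)).trans (min_le_right _ _))
      (((min_le_right _ _).trans (min_le_right _ _)).trans (min_le_right _ _))
      ((((le_max_right _ _).trans (le_max_right _ _)).trans (le_max_right _ _)).trans hAU) hA0 hdpos
  -- the depth unit
  set L : ℕ := ⌊u₂ / k⌋₊ with hL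
  have hLle : (L : ℝ) ≤ u₂ / k := Nat.floor_le (by positivity)
  have hLgt : u₂ / k < L + 1 := Nat.lt_floor_add_one _
  have huk : (L₀ : ℝ) + q₀ + 1 ≤ u₂ / k := by
    rw [le_div_iff₀ hkpos]
    linarith
  have hL2 : (L₀ : ℝ) + q₀ ≤ L := by linarith
  have hL₀L : L₀ ≤ L := by
    have : (L₀ : ℝ) ≤ L := by linarith [(Nat.cast_nonneg q₀ : (0 : ℝ) ≤ q₀)]
    exact_mod_cast this
  have hu0 : U₀ ≤ u₁ := hAU₀.trans hAu
  have hPm : ∀ i j, Measurable (PS μ u₁ (2 ^ K) i j) := fun i j => (hm μ hprob _ hu0 K i j).1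
  have hP0 : ∀ i j x, 0 ≤ PS μ u₁ (2 ^ K) i j x := fun i j x =>
    ((hm μ hprob _ hu0 K i j).2 x).1
  have hPb : ∀ i j x, |PS μ u₁ (2 ^ K) i j x| ≤ 2 := fun i j x => by
    rw [abs_of_nonneg (hP0 _ _ _)]; exact ((hm μ hprob _ hu0 K i j).2 x).2
  refine ⟨L, hL₀L, atq q₀ (PS μ u₁ (2 ^ K)), measurable_atq hPm, ?_, ?_, ?_, ?_⟩
  · refine p1_of hA hPm hPb hε₁ ?_
    intro i j hij z hz hzl
    refine hQ1 μ hprob hA u₁ u₂ hReg₁ i j hij z hz fun l => ?_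
    have h3 : |(z l : ℝ)| ≤ 4 * L := by
      have := hzl l
      have h4 : ((|z l| : ℤ) : ℝ) ≤ ((4 * (L : ℤ) : ℤ) : ℝ) := by exact_mod_cast this
      push_cast at h4
      exact h4
    refine h3.trans ?_
    have h5 : 4 * (L : ℝ) ≤ 4 * (u₂ / k) := by linarith
    refine h5.trans ?_
    rw [mul_div_assoc', div_le_div_iff₀ hkpos hk₀]
    have h6 : 4 * k₀ ≤ k := by rw [hk]; linarith
    have h7 := mul_le_mul_of_nonneg_right h6 hu₂0.le
    linarith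
  · have hPm' : ∀ i j, Measurable (atq q₀ (PS μ u₁ (2 ^ K)) i j) := measurable_atq hPm
    refine p2_of hPm' (fun i j x => hP0 _ _ _) (fun i j x => hPb _ _ _) hc₂.le
      (min_le_left _ _) hε₁ ?_
    exact hQ2 μ hprob hA u₁ u₂ hReg₂
  · have h3 := hQ3 μ hprob hA u₁ u₂ hReg₃ e η' D hepos hη' hD0 hslab hAu hu₂c
    refine p3_of ?_ ?_ h3
    · -- `L + q₀ ≤ ⌊u₂ / k₁⌋₊`
      refine Nat.le_floor ?_
      push_cast
      have h4 : u₂ / k * 2 ≤ u₂ / k₁ := by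
        rw [div_mul_eq_mul_div, div_le_div_iff₀ hkpos hk₁]
        have h6 : 2 * k₁ ≤ k := by rw [hk]; linarith
        have h7 := mul_le_mul_of_nonneg_right h6 hu₂0.le
        linarith
      have h5 : (q₀ : ℝ) ≤ u₂ / k := by linarith [(Nat.cast_nonneg L₀ : (0 : ℝ) ≤ L₀)]
      linarith
    · -- `δ' * ⌊u₂ / k₁⌋₊ ≤ δ * L`
      have h4 : ((⌊u₂ / k₁⌋₊ : ℕ) : ℝ) ≤ u₂ / k₁ := Nat.floor_le (by positivity)
      have h5 : (1 : ℝ) ≤ u₂ / k := by
        linarith [(Nat.cast_nonneg L₀ : (0 : ℝ) ≤ L₀), (Nat.cast_nonneg q₀ : (0 : ℝ) ≤ q₀)]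
      have h6 : u₂ / k / 4 ≤ L := by
        by_cases hcase : u₂ / k < 2
        · have : (1 : ℝ) ≤ L := by
            have h7 : 1 ≤ L := Nat.le_floor (by push_cast; exact h5)
            exact_mod_cast h7
          linarith
        · linarith
      calc δ' * (⌊u₂ / k₁⌋₊ : ℕ) ≤ δ' * (u₂ / k₁) := mul_le_mul_of_nonneg_left h4 hδ'pos.le
        _ = δ * (u₂ / k / 4) := by rw [hδ']; field_simp
        _ ≤ δ * L := mul_le_mul_of_nonneg_left h6 hδ.le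
  · exact fin_of hA hPm (hE μ hprob hA u₁ u₂ hRegE)

end Crest.Agent.R014.AsmB_460
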