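import Crest.Prelude.Def_TorusPacket

/-!
# R014/Uniq_983 : uniqueness of the invariant probability measure on SL_n(ℤ)\SL_n(ℝ)

* `unique_invariant` : for a jointly measurable, transitive right action of a measurable group `G`
  carrying a non-zero s-finite left-invariant measure, two invariant probability measures agree.
* `isHaarProbability_unique` : `IsHaarProbability ν → IsHaarProbability ν' → ν = ν'` on `ModSpace n`.
* `isOpenMap_mk`, `continuous_act₂`, `continuous_act`, `act_mul`, `act_one`, `exists_act`.
-/

set_option autoImplicit false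
set_option linter.style.haveILetI false

open MeasureTheory Crest.NumberTheoryR.Packets

namespace Crest.Agent.R014.Uniq_983

section General

variable {G X : Type*} [Group G] [MeasurableSpace G] [MeasurableSpace X]

/-- Uniqueness of the invariant probability for a transitive measurable right action. -/
theorem unique_invariant [MeasurableMul G]
    (m : Measure G) [SFinite m] (hm0 : m ≠ 0)
    (hm : ∀ h : G, Measure.map (fun g => h * g) m = m)
    (a : X → G → X) (ha : Measurable (fun p : X × G => a p.1 p.2))
    (hinv : ∀ (g : G) (x : X), a (a x g) g⁻¹ = x)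
    (htr : ∀ x y : X, ∃ h : G, ∀ g : G, a y g = a x (h * g))
    (ν₁ ν₂ : Measure X) [IsProbabilityMeasure ν₁] [IsProbabilityMeasure ν₂]
    (h₁ : ∀ g : G, Measure.map (fun x => a x g) ν₁ = ν₁)
    (h₂ : ∀ g : G, Measure.map (fun x => a x g) ν₂ = ν₂) : ν₁ = ν₂ := by
  classical
  have hag : ∀ g : G, Measurable (fun x : X => a x g) := fun g =>
    ha.comp (measurable_id.prodMk measurable_const)
  have hax : ∀ x : X, Measurable (fun g : G => a x g) := fun x =>
    ha.comp (measurable_const.prodMk measurable_id)
  set ν : Measure X := ν₁ + ν₂ with hν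
  have hνinv : ∀ g : G, Measure.map (fun x => a x g) ν = ν := by
    intro g
    rw [hν, Measure.map_add _ _ (hag g), h₁ g, h₂ g]
  have hac : ν₁ ≪ ν := Measure.absolutelyContinuous_of_le (Measure.le_add_right le_rfl)
  set f : X → ENNReal := ν₁.rnDeriv ν with hf
  have hfm : Measurable f := Measure.measurable_rnDeriv _ _
  have hwd : ν.withDensity f = ν₁ := Measure.withDensity_rnDeriv_eq _ _ hac
  -- invariance of the density
  have hfinv : ∀ g : G, (fun x => f (a x g)) =ᵐ[ν] f := by
    intro g
    have hmeas : Measurable (fun x => f (a x g)) := hfm.comp (hag g)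
    refine (withDensity_eq_iff_of_sigmaFinite hmeas.aemeasurable hfm.aemeasurable).1 ?_
    ext s hs
    rw [withDensity_apply _ hs, hwd]
    have hpre : MeasurableSet ((fun x => a x g⁻¹) ⁻¹' s) := hag g⁻¹ hs
    have key : (∫⁻ x in s, f (a x g) ∂ν) = ∫⁻ y in (fun x => a x g⁻¹) ⁻¹' s, f y ∂ν := by
      rw [← lintegral_indicator hs, ← lintegral_indicator hpre]
      have : (fun x => s.indicator (fun x => f (a x g)) x)
          = (fun x => (((fun x => a x g⁻¹) ⁻¹' s).indicator (fun y => f y)) (a x g)) := by
        funext x
        by_cases hx : x ∈ s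
        · have : a x g ∈ (fun x => a x g⁻¹) ⁻¹' s := by
            simpa [Set.mem_preimage, hinv g x] using hx
          rw [Set.indicator_of_mem hx, Set.indicator_of_mem this]
        · have : a x g ∉ (fun x => a x g⁻¹) ⁻¹' s := by
            simpa [Set.mem_preimage, hinv g x] using hx
          rw [Set.indicator_of_notMem hx, Set.indicator_of_notMem this]
      rw [this]
      have hm1 : Measurable (((fun x => a x g⁻¹) ⁻¹' s).indicator (fun y => f y)) :=
        hfm.indicator hpre
      rw [← lintegral_map (μ := ν) hm1 (hag g), hνinv g]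
    rw [key, ← withDensity_apply _ hpre, hwd]
    have h3 : (Measure.map (fun x => a x g⁻¹) ν₁) s = ν₁ s := by rw [h₁ g⁻¹]
    rwa [Measure.map_apply (hag g⁻¹) hs] at h3
  -- first Fubini
  have hset : MeasurableSet {p : X × G | f (a p.1 p.2) ≠ f p.1} :=
    (measurableSet_eq_fun (hfm.comp ha) (hfm.comp measurable_fst)).compl
  have hnull : (ν.prod m) {p : X × G | f (a p.1 p.2) ≠ f p.1} = 0 := by
    rw [Measure.prod_apply_symm hset, lintegral_eq_zero_iff (measurable_measure_prodMk_right hset)]
    refine Filter.Eventually.of_forall (fun g => ?_)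
    exact hfinv g
  have hae : ∀ᵐ x ∂ν, m {g : G | f (a x g) ≠ f x} = 0 := by
    rw [Measure.prod_apply hset, lintegral_eq_zero_iff (measurable_measure_prodMk_left hset)] at hnull
    filter_upwards [hnull] with x hx
    exact hx
  have hν0 : ν ≠ 0 := by
    intro h0
    have : ν Set.univ = 0 := by rw [h0]; rfl
    rw [hν] at this
    simp at this
  haveI : (ae ν).NeBot := ae_neBot.2 hν0
  obtain ⟨x₀, hx₀⟩ := hae.exists
  set c := f x₀ with hc
  -- the density is `c` along every orbit map, for almost every group element
  have hall : ∀ y : X, m {g : G | f (a y g) ≠ c} = 0 := by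
    intro y
    obtain ⟨h, hh⟩ := htr x₀ y
    have hms : MeasurableSet {g : G | f (a x₀ g) ≠ c} :=
      (measurableSet_eq_fun (hfm.comp (hax x₀)) measurable_const).compl
    have h1 : {g : G | f (a y g) ≠ c} = (fun g => h * g) ⁻¹' {g : G | f (a x₀ g) ≠ c} := by
      ext g
      simp [hh g]
    rw [h1, ← Measure.map_apply (measurable_const_mul h) hms, hm h]
    exact hx₀
  have hset2 : MeasurableSet {p : X × G | f (a p.1 p.2) ≠ c} :=
    (measurableSet_eq_fun (hfm.comp ha) measurable_const).compl
  have hnull2 : (ν.prod m) {p : X × G | f (a p.1 p.2) ≠ c} = 0 := by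
    rw [Measure.prod_apply hset2, lintegral_eq_zero_iff (measurable_measure_prodMk_left hset2)]
    exact Filter.Eventually.of_forall (fun x => hall x)
  have hae2 : ∀ᵐ g ∂m, ν {x : X | f (a x g) ≠ c} = 0 := by
    rw [Measure.prod_apply_symm hset2, lintegral_eq_zero_iff (measurable_measure_prodMk_right hset2)]
      at hnull2
    filter_upwards [hnull2] with g hg
    exact hg
  haveI : (ae m).NeBot := ae_neBot.2 hm0
  obtain ⟨g₀, hg₀⟩ := hae2.exists
  have hfc : f =ᵐ[ν] fun _ => c := by
    have hms : MeasurableSet {x : X | f x ≠ c} :=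
      (measurableSet_eq_fun hfm measurable_const).compl
    have h1 : ν {x : X | f x ≠ c} = 0 := by
      calc ν {x : X | f x ≠ c} = (Measure.map (fun x => a x g₀) ν) {x : X | f x ≠ c} := by
            rw [hνinv g₀]
        _ = ν {x : X | f (a x g₀) ≠ c} := by rw [Measure.map_apply (hag g₀) hms]; rfl
        _ = 0 := hg₀
    exact h1
  have hν1 : ν₁ = c • ν := by
    rw [← hwd, withDensity_congr_ae hfc, withDensity_const]
  have huniv : c * 2 = 1 := by
    have := congrArg (fun μ : Measure X => μ Set.univ) hν1
    simp only [measure_univ, Measure.smul_apply, hν, Measure.add_apply, smul_eq_mul] at this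
    rw [one_add_one_eq_two] at this
    exact this.symm
  ext s hs
  have hs1 : ν₁ s = c * (ν₁ s + ν₂ s) := by
    have h4 : ν₁ s = (c • ν) s := by rw [← hν1]
    have h5 : (c • ν) s = c * (ν₁ s + ν₂ s) := by
      rw [Measure.smul_apply, hν, Measure.add_apply, smul_eq_mul]
    exact h4.trans h5
  have hfin1 : ν₁ s ≠ ⊤ := measure_ne_top _ _
  have hfin2 : ν₂ s ≠ ⊤ := measure_ne_top _ _
  have h2 : ν₁ s + ν₁ s = ν₁ s + ν₂ s := by
    calc ν₁ s + ν₁ s = 2 * ν₁ s := by rw [two_mul]
      _ = 2 * (c * (ν₁ s + ν₂ s)) := by rw [← hs1]
      _ = (c * 2) * (ν₁ s + ν₂ s) := by ring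
      _ = ν₁ s + ν₂ s := by rw [huniv, one_mul]
  exact (ENNReal.add_right_inj hfin1).1 h2

end General

section ModSpace

variable {n : ℕ}

theorem act_mk (h g : SLR n) :
    act (Quotient.mk (QuotientGroup.rightRel (intPoints n)) h) g
      = Quotient.mk (QuotientGroup.rightRel (intPoints n)) (h * g) := rfl

theorem act_act (x : ModSpace n) (g h : SLR n) : act (act x g) h = act x (g * h) := by
  induction x using Quotient.inductionOn with
  | h a => exact congrArg (Quotient.mk _) (mul_assoc a g h)

theorem act_one (x : ModSpace n) : act x 1 = x := by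
  induction x using Quotient.inductionOn with
  | h a => exact congrArg (Quotient.mk _) (mul_one a)

/-- transitivity -/
theorem exists_act (x y : ModSpace n) : ∃ h : SLR n, y = act x h := by
  induction x using Quotient.inductionOn with
  | h a =>
    induction y using Quotient.inductionOn with
    | h b =>
      refine ⟨a⁻¹ * b, ?_⟩
      rw [act_mk, mul_inv_cancel_left]

theorem isOpenMap_mk :
    IsOpenMap (Quotient.mk (QuotientGroup.rightRel (intPoints n)) : SLR n → ModSpace n) :=
  isOpenMap_quotient_mk'_mul (Γ := intPoints n) (T := SLR n)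

theorem isOpenQuotientMap_mk :
    IsOpenQuotientMap (Quotient.mk (QuotientGroup.rightRel (intPoints n)) : SLR n → ModSpace n) where
  surjective := Quotient.mk_surjective
  continuous := continuous_quotient_mk'
  isOpenMap := isOpenMap_mk

/-- joint continuity of the action -/
theorem continuous_act₂ : Continuous (fun p : ModSpace n × SLR n => act p.1 p.2) := by
  have hq : IsOpenQuotientMap (Prod.map
      (Quotient.mk (QuotientGroup.rightRel (intPoints n)) : SLR n → ModSpace n)
      (id : SLR n → SLR n)) := isOpenQuotientMap_mk.prodMap IsOpenQuotientMap.id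
  refine (hq.isQuotientMap.continuous_iff).2 ?_
  have : (fun p : ModSpace n × SLR n => act p.1 p.2) ∘ (Prod.map
      (Quotient.mk (QuotientGroup.rightRel (intPoints n)) : SLR n → ModSpace n)
      (id : SLR n → SLR n))
      = fun p : SLR n × SLR n =>
        (Quotient.mk (QuotientGroup.rightRel (intPoints n)) (p.1 * p.2) : ModSpace n) := by
    funext p
    rfl
  rw [this]
  exact continuous_quotient_mk'.comp continuous_mul

theorem continuous_act (g : SLR n) : Continuous (fun x : ModSpace n => act x g) :=
  continuous_act₂.comp (continuous_id.prodMk continuous_const)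

theorem continuous_act_left (x : ModSpace n) : Continuous (fun g : SLR n => act x g) :=
  continuous_act₂.comp (continuous_const.prodMk continuous_id)

instance : SecondCountableTopology (Matrix (Fin n) (Fin n) ℝ) :=
  inferInstanceAs (SecondCountableTopology (Fin n → Fin n → ℝ))

instance : SecondCountableTopology (SLR n) :=
  TopologicalSpace.Subtype.secondCountableTopology {A : Matrix (Fin n) (Fin n) ℝ | A.det = 1}

instance : SecondCountableTopology (ModSpace n) :=
  isOpenQuotientMap_mk.isQuotientMap.secondCountableTopology isOpenMap_mk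

theorem isClosed_det : IsClosed {A : Matrix (Fin n) (Fin n) ℝ | A.det = 1} :=
  isClosed_eq (continuous_id.matrix_det) continuous_const

instance : LocallyCompactSpace (SLR n) := by
  haveI : LocallyCompactSpace (Matrix (Fin n) (Fin n) ℝ) :=
    inferInstanceAs (LocallyCompactSpace (Fin n → Fin n → ℝ))
  exact (isClosed_det (n := n)).isClosedEmbedding_subtypeVal.locallyCompactSpace

theorem isHaarProbability_unique {ν ν' : Measure (ModSpace n)} (h : IsHaarProbability ν)
    (h' : IsHaarProbability ν') : ν = ν' := by
  letI : MeasurableSpace (SLR n) := borel (SLR n)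
  haveI : BorelSpace (SLR n) := ⟨rfl⟩
  haveI := h.1
  haveI := h'.1
  refine unique_invariant (G := SLR n) (Measure.haar : Measure (SLR n)) ?_ ?_
    (fun x g => act x g) ?_ ?_ ?_ ν ν' h.2 h'.2
  · exact NeZero.ne _
  · intro g
    exact map_mul_left_eq_self _ g
  · exact continuous_act₂.measurable
  · intro g x
    simp only [act_act, mul_inv_cancel, act_one]
  · intro x y
    obtain ⟨h, rfl⟩ := exists_act x y
    exact ⟨h, fun g => act_act x h g⟩

end ModSpace

end Crest.Agent.R014.Uniq_983
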