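import Mathlib

/-!
Vague limits along ultrafilters (row 14, helper792).

`X` locally compact Hausdorff.  For probability measures `μ i` and an ultrafilter `U` there is a
regular measure `ν` of mass `≤ 1` with `∫ f dμ i → ∫ f dν` along `U` for all compactly supported
continuous `f`; tightness gives mass one; asymptotic invariance gives invariance; a uniqueness
hypothesis upgrades to convergence of the whole sequence.
-/

set_option autoImplicit false
set_option linter.unusedSectionVars false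

open MeasureTheory Filter Topology
open scoped CompactlySupported ENNReal

namespace Crest.Agent.R014.Vague_792

variable {X : Type*} [TopologicalSpace X]

theorem bounded_of_cc (f : C_c(X, ℝ)) : ∃ C : ℝ, 0 ≤ C ∧ ∀ x, |f x| ≤ C := by
  obtain ⟨C, hC⟩ := f.hasCompactSupport.exists_bound_of_continuous f.continuous
  refine ⟨max C 0, le_max_right _ _, fun x => ?_⟩
  exact (hC x).trans (le_max_left _ _)

variable [T2Space X] [MeasurableSpace X] [BorelSpace X]

theorem integrable_cc (f : C_c(X, ℝ)) (μ : Measure X) [IsFiniteMeasure μ] :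
    Integrable (fun x => f x) μ :=
  f.continuous.integrable_of_hasCompactSupport f.hasCompactSupport

/-- the limit functional along an ultrafilter. -/
theorem exists_functional {ι : Type*} (U : Ultrafilter ι) (μ : ι → Measure X)
    [∀ i, IsProbabilityMeasure (μ i)] :
    ∃ Λ : C_c(X, ℝ) →ₚ[ℝ] ℝ,
      ∀ f : C_c(X, ℝ), Tendsto (fun i => ∫ x, f x ∂(μ i)) U (𝓝 (Λ f)) := by
  have key : ∀ f : C_c(X, ℝ), ∃ a : ℝ, Tendsto (fun i => ∫ x, f x ∂(μ i)) U (𝓝 a) := by
    intro f
    obtain ⟨C, hC0, hC⟩ := bounded_of_cc f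
    have hmem : ∀ i, (∫ x, f x ∂(μ i)) ∈ Set.Icc (-C) C := by
      intro i
      have h1 : |∫ x, f x ∂(μ i)| ≤ C := by
        have h := norm_integral_le_of_norm_le_const (μ := μ i) (f := fun x => f x) (C := C)
          (Eventually.of_forall fun x => by simpa [Real.norm_eq_abs] using hC x)
        simpa [Real.norm_eq_abs] using h
      exact abs_le.1 h1
    have hle : (U.map (fun i => ∫ x, f x ∂(μ i)) : Filter ℝ) ≤ 𝓟 (Set.Icc (-C) C) := by
      rw [le_principal_iff]
      exact mem_map.2 (Filter.mem_of_superset univ_mem (fun i _ => hmem i))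
    obtain ⟨a, -, ha⟩ := (isCompact_Icc (a := -C) (b := C)).ultrafilter_le_nhds _ hle
    exact ⟨a, ha⟩
  choose L hL using key
  have hadd : ∀ f g : C_c(X, ℝ), L (f + g) = L f + L g := by
    intro f g
    refine tendsto_nhds_unique (hL (f + g)) ?_
    refine ((hL f).add (hL g)).congr fun i => ?_
    rw [← integral_add (integrable_cc f _) (integrable_cc g _)]
    rfl
  have hsmul : ∀ (c : ℝ) (f : C_c(X, ℝ)), L (c • f) = c * L f := by
    intro c f
    refine tendsto_nhds_unique (hL (c • f)) ?_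
    refine ((hL f).const_mul c).congr fun i => ?_
    rw [← integral_const_mul]
    rfl
  refine ⟨PositiveLinearMap.mk₀
    { toFun := L, map_add' := hadd, map_smul' := fun c f => by simpa using hsmul c f } ?_, fun f => hL f⟩
  intro f hf
  refine ge_of_tendsto' (hL f) fun i => ?_
  exact integral_nonneg fun x => hf x

variable [LocallyCompactSpace X]

theorem exists_cutoff {K : Set X} (hK : IsCompact K) :
    ∃ f : C_c(X, ℝ), (∀ x ∈ K, f x = 1) ∧ (∀ x, 0 ≤ f x) ∧ ∀ x, f x ≤ 1 := by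
  obtain ⟨f, hf1, hf2, hf3⟩ :=
    exists_continuousMap_one_of_isCompact_subset_isOpen hK isOpen_univ (Set.subset_univ _)
  exact ⟨⟨f, hasCompactSupport_def.mpr hf2⟩, fun x hx => hf1 hx, fun x => (hf3.2 x).1,
    fun x => (hf3.2 x).2⟩

/-- vague limits along ultrafilters. -/
theorem exists_vague {ι : Type*} (U : Ultrafilter ι) (μ : ι → Measure X)
    [∀ i, IsProbabilityMeasure (μ i)] :
    ∃ ν : Measure X, ν.Regular ∧ ν Set.univ ≤ 1 ∧
      ∀ f : C_c(X, ℝ), Tendsto (fun i => ∫ x, f x ∂(μ i)) U (𝓝 (∫ x, f x ∂ν)) := by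
  obtain ⟨Λ, hΛ⟩ := exists_functional U μ
  refine ⟨RealRMK.rieszMeasure Λ, inferInstance, ?_, fun f => ?_⟩
  · have hreg : (RealRMK.rieszMeasure Λ).Regular := inferInstance
    rw [isOpen_univ.measure_eq_iSup_isCompact (RealRMK.rieszMeasure Λ)]
    refine iSup_le fun K => iSup_le fun _ => iSup_le fun hK => ?_
    obtain ⟨f, hf1, hf0, hf2⟩ := exists_cutoff hK
    refine (RealRMK.rieszMeasure_le_of_eq_one Λ hf0 hK hf1).trans ?_
    have h1 : Λ f ≤ 1 := by
      refine le_of_tendsto' (hΛ f) fun i => ?_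
      calc ∫ x, f x ∂(μ i) ≤ ∫ _x, (1 : ℝ) ∂(μ i) :=
            integral_mono (integrable_cc f _) (integrable_const _) hf2
        _ = 1 := by simp
    simpa using ENNReal.ofReal_le_ofReal h1
  · simpa using hΛ f

/-- tightness along the ultrafilter gives total mass one. -/
theorem mass_one {ι : Type*} (U : Ultrafilter ι) (μ : ι → Measure X)
    [∀ i, IsProbabilityMeasure (μ i)] (ν : Measure X) (hν1 : ν Set.univ ≤ 1)
    (hν : ∀ f : C_c(X, ℝ), Tendsto (fun i => ∫ x, f x ∂(μ i)) U (𝓝 (∫ x, f x ∂ν)))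
    (htight : ∀ ε : ℝ, 0 < ε → ∃ C : Set X, IsCompact C ∧
      ∀ᶠ i in (U : Filter ι), 1 - ε ≤ ((μ i) C).toReal) :
    IsProbabilityMeasure ν := by
  have hfin : IsFiniteMeasure ν := ⟨hν1.trans_lt ENNReal.one_lt_top⟩
  have hge : ∀ ε : ℝ, 0 < ε → 1 - ε ≤ (ν Set.univ).toReal := by
    intro ε hε
    obtain ⟨C, hC, hev⟩ := htight ε hε
    obtain ⟨f, hf1, hf0, hf2⟩ := exists_cutoff hC
    have h1 : 1 - ε ≤ ∫ x, f x ∂ν := by
      refine ge_of_tendsto (hν f) (hev.mono fun i hi => hi.trans ?_)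
      have h2 : ∫ x, C.indicator (1 : X → ℝ) x ∂(μ i) ≤ ∫ x, f x ∂(μ i) := by
        refine integral_mono ((integrable_const (1 : ℝ)).indicator hC.measurableSet)
          (integrable_cc f _) fun x => ?_
        by_cases hx : x ∈ C
        · simp [hx, hf1 x hx]
        · simpa [hx] using hf0 x
      rw [integral_indicator_one hC.measurableSet] at h2
      exact h2
    have h3 : ∫ x, f x ∂ν ≤ ∫ _x, (1 : ℝ) ∂ν :=
      integral_mono (integrable_cc f _) (integrable_const _) hf2
    have h4 : ∫ _x, (1 : ℝ) ∂ν = (ν Set.univ).toReal := by simp [Measure.real]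
    linarith
  have h5 : (1 : ℝ) ≤ (ν Set.univ).toReal := by
    refine le_of_forall_pos_sub_le fun ε hε => hge ε hε
  refine ⟨le_antisymm hν1 ?_⟩
  have h6 : ν Set.univ ≠ ⊤ := measure_ne_top _ _
  rw [← ENNReal.ofReal_toReal h6, ← ENNReal.ofReal_one]
  exact ENNReal.ofReal_le_ofReal h5

/-- a homeomorphism preserving all limits of `C_c`-integrals preserves the limit measure. -/
theorem map_eq {ι : Type*} (U : Ultrafilter ι) (μ : ι → Measure X)
    (ν : Measure X) [ν.Regular]
    (hν : ∀ f : C_c(X, ℝ), Tendsto (fun i => ∫ x, f x ∂(μ i)) U (𝓝 (∫ x, f x ∂ν)))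
    (T : X ≃ₜ X)
    (hT : ∀ f : X → ℝ, Continuous f → HasCompactSupport f →
      Tendsto (fun i => ∫ x, f (T x) ∂(μ i) - ∫ x, f x ∂(μ i)) U (𝓝 0)) :
    Measure.map T ν = ν := by
  have : (Measure.map T ν).Regular := Measure.Regular.map T
  refine Measure.ext_of_integral_eq_on_compactlySupported fun f => ?_
  have hmap : ∫ x, f x ∂(Measure.map T ν) = ∫ x, f (T x) ∂ν :=
    integral_map T.continuous.measurable.aemeasurable
      (f.continuous.stronglyMeasurable_of_hasCompactSupport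
        f.hasCompactSupport).aestronglyMeasurable
  rw [hmap]
  have hg : HasCompactSupport (fun x => f (T x)) :=
    f.hasCompactSupport.comp_homeomorph T
  let g : C_c(X, ℝ) := ⟨⟨fun x => f (T x), f.continuous.comp T.continuous⟩, hg⟩
  have h1 : Tendsto (fun i => ∫ x, f (T x) ∂(μ i)) U (𝓝 (∫ x, f (T x) ∂ν)) := hν g
  have h2 := h1.sub (hν f)
  have h3 := tendsto_nhds_unique h2 (hT f f.continuous f.hasCompactSupport)
  linarith

/-- **Conclusion**: tightness + asymptotic invariance under `T g`, `g ∈ S`, + uniqueness. -/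
theorem conclude {G : Type*} (T : G → X ≃ₜ X) (S : Set G) (μ : ℕ → Measure X)
    [∀ i, IsProbabilityMeasure (μ i)]
    (htight : ∀ ε : ℝ, 0 < ε → ∃ C : Set X, IsCompact C ∧
      ∀ᶠ i in atTop, 1 - ε ≤ ((μ i) C).toReal)
    (hinv : ∀ g ∈ S, ∀ f : X → ℝ, Continuous f → HasCompactSupport f →
      Tendsto (fun i => ∫ x, f (T g x) ∂(μ i) - ∫ x, f x ∂(μ i)) atTop (𝓝 0))
    (hgen : ∀ ν : Measure X, IsProbabilityMeasure ν → (∀ g ∈ S, Measure.map (T g) ν = ν) →
      ∀ g, Measure.map (T g) ν = ν)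
    (huniq : ∀ ν ν' : Measure X, IsProbabilityMeasure ν → IsProbabilityMeasure ν' →
      (∀ g, Measure.map (T g) ν = ν) → (∀ g, Measure.map (T g) ν' = ν') → ν = ν') :
    ∃ ν : Measure X, IsProbabilityMeasure ν ∧ (∀ g, Measure.map (T g) ν = ν) ∧
      ∀ f : X → ℝ, Continuous f → HasCompactSupport f →
        Tendsto (fun i => ∫ x, f x ∂(μ i)) atTop (𝓝 (∫ x, f x ∂ν)) := by
  have key : ∀ U : Ultrafilter ℕ, (U : Filter ℕ) ≤ atTop →
      ∃ ν : Measure X, IsProbabilityMeasure ν ∧ (∀ g, Measure.map (T g) ν = ν) ∧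
      ∀ f : X → ℝ, Continuous f → HasCompactSupport f →
        Tendsto (fun i => ∫ x, f x ∂(μ i)) U (𝓝 (∫ x, f x ∂ν)) := by
    intro U hU
    obtain ⟨ν, hreg, hν1, hν⟩ := exists_vague U μ
    have hprob : IsProbabilityMeasure ν := mass_one U μ ν hν1 hν fun ε hε => by
      obtain ⟨C, hC, hev⟩ := htight ε hε
      exact ⟨C, hC, hU hev⟩
    refine ⟨ν, hprob, hgen ν hprob fun g hg => map_eq U μ ν hν (T g) fun f hf hf' =>
      (hinv g hg f hf hf').mono_left hU, fun f hf hf' => hν ⟨⟨f, hf⟩, hf'⟩⟩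
  obtain ⟨ν, hp, hi, hconv⟩ := key (Filter.hyperfilter ℕ)
    (Nat.hyperfilter_le_atTop)
  refine ⟨ν, hp, hi, fun f hf hf' => ?_⟩
  refine (tendsto_iff_ultrafilter _ _ _).2 fun U hU => ?_
  obtain ⟨ν', hp', hi', hconv'⟩ := key U hU
  rw [huniq ν ν' hp hp' hi hi']
  exact hconv' f hf hf'

end Crest.Agent.R014.Vague_792
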