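import Crest.Agent.R014.Iface_792
import Crest.Agent.R014.Vague_792
import Crest.Agent.R014.Top1_458
import Crest.Agent.R014.Uniq_983

/-!
# Row 14: assembly of S0017, S0018, S0019 from Theorem A, Theorem B, PACK and NOESC (helper792)
-/

set_option autoImplicit false

open MeasureTheory Filter Topology
open Crest.NumberTheoryR.Packets
open Crest.Agent.R014.Iface_792

universe u

namespace Crest.Agent.R014.Asm_792

open Crest.Agent.R014.Top1_458 in
/-- a continuous function with compact support is bounded and right uniformly continuous. -/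
theorem ruc_of_cc {n : ℕ} {f : ModSpace n → ℝ} (hf : Continuous f) (hc : HasCompactSupport f) :
    RUC f := by
  obtain ⟨B, hB⟩ := hc.exists_bound_of_continuous hf
  refine ⟨⟨B, fun x => by simpa [Real.norm_eq_abs] using hB x⟩, fun e he => ?_⟩
  -- a compact neighbourhood of 1
  obtain ⟨V, hV, hV1⟩ := exists_compact_mem_nhds (1 : SLR n)
  -- the compact set of all x with x v in the support for some v in V
  set K : Set (ModSpace n) := (fun p : ModSpace n × SLR n => act p.1 p.2) ''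
    (tsupport f ×ˢ (V⁻¹ ∪ {1})) with hK
  have hKc : IsCompact K :=
    ((hc : IsCompact (tsupport f)).prod (hV.inv.union isCompact_singleton)).image continuous_act
  have hout : ∀ x, x ∉ K → ∀ h ∈ V, f (act x h) = 0 ∧ f x = 0 := by
    intro x hx h hh
    constructor
    · by_contra hne
      apply hx
      refine ⟨(act x h, h⁻¹), ⟨subset_tsupport f hne, Or.inl ?_⟩, ?_⟩
      · simpa using hh
      · show act (act x h) h⁻¹ = x
        rw [← act_mul, mul_inv_cancel, act_one]
    · by_contra hne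
      apply hx
      exact ⟨(x, 1), ⟨subset_tsupport f hne, Or.inr rfl⟩, act_one x⟩
  -- uniformity on the compact set K
  set F : ModSpace n × SLR n → ℝ := fun p => f (act p.1 p.2) - f p.1 with hF
  have hFc : Continuous F := (hf.comp continuous_act).sub (hf.comp continuous_fst)
  have hopen : IsOpen {p : ModSpace n × SLR n | |F p| < e} :=
    isOpen_lt hFc.abs continuous_const
  have hsub : K ×ˢ ({1} : Set (SLR n)) ⊆ {p : ModSpace n × SLR n | |F p| < e} := by
    rintro ⟨x, h⟩ ⟨_, hh⟩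
    have hh1 : h = 1 := hh
    subst hh1
    simpa [hF, act_one] using he
  obtain ⟨U, W, hU, hW, hKU, h1W, hUW⟩ := generalized_tube_lemma hKc isCompact_singleton hopen hsub
  refine ⟨W ∩ V, inter_mem (hW.mem_nhds (h1W rfl)) hV1, fun x h hh => ?_⟩
  by_cases hx : x ∈ K
  · have h2 : (x, h) ∈ {p : ModSpace n × SLR n | |F p| < e} := hUW ⟨hKU hx, hh.1⟩
    exact le_of_lt h2
  · obtain ⟨h1, h2⟩ := hout x hx h hh.2
    rw [h1, h2, sub_self, abs_zero]
    exact he.le

/-- the generation input: a probability invariant under all elementary matrices is invariant. -/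
def Gen (n : ℕ) : Prop :=
  ∀ ν : Measure (ModSpace n), IsProbabilityMeasure ν →
    (∀ (i j : Fin n) (hij : i ≠ j) (s : ℝ), Measure.map (fun x => act x (elem i j hij s)) ν = ν) →
    ∀ g : SLR n, Measure.map (fun x => act x g) ν = ν

/-- tight + nearly invariant ⇒ convergence to the Haar probability. -/
theorem conv {n : ℕ} (hgen : Gen n) (μ : ℕ → Measure (ModSpace n))
    (hprob : ∀ i, IsProbabilityMeasure (μ i)) (hinv : NearInv μ) (htight : Tight μ) :
    ∃ ν : Measure (ModSpace n), IsHaarProbability ν ∧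
      ∀ f : ModSpace n → ℝ, Continuous f → HasCompactSupport f →
        Tendsto (fun i => ∫ x, f x ∂(μ i)) atTop (𝓝 (∫ x, f x ∂ν)) := by
  obtain ⟨ν, h1, h2, h3⟩ := Vague_792.conclude (X := ModSpace n) (fun g : SLR n => Top1_458.actH g)
    {g | ∃ (i j : Fin n) (hij : i ≠ j) (s : ℝ), g = elem i j hij s} μ htight
    (by
      rintro g ⟨i, j, hij, s, rfl⟩ f hf hc
      exact hinv f (ruc_of_cc hf hc) i j hij s)
    (by
      intro ν hν hS g
      exact hgen ν hν (fun i j hij s => hS _ ⟨i, j, hij, s, rfl⟩) g)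
    (by
      intro ν ν' hν hν' h h'
      exact Uniq_983.isHaarProbability_unique ⟨hν, h⟩ ⟨hν', h'⟩)
  exact ⟨ν, ⟨h1, h2⟩, h3⟩

/-- the assembly. -/
theorem main {d : ℕ} (hgen : Gen (d + 1)) (hA : ThmA.{u} d) (hB : ThmB d) (hE : NoEsc d)
    (hP : Pack.{u} d)
    (K : ℕ → Type u) [∀ i, Field (K i)] [∀ i, NumberField (K i)] [∀ i, NumberField.IsTotallyReal (K i)]
    (hdeg : ∀ i, Module.finrank ℚ (K i) = d + 1) (hprim : ∀ i, IsPrimitiveField (K i))
    (m : ∀ i, LatticeBasis (d + 1) (K i)) (σ : ∀ i, Fin (d + 1) ≃ (K i →+* ℝ))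
    (hdisc : Tendsto (fun i => latticeDisc (m i)) atTop atTop) :
    ∃ ν : Measure (ModSpace (d + 1)), IsHaarProbability ν ∧
      (∀ i, ∃ μ : Measure (ModSpace (d + 1)), IsPacketMeasure (m i) (σ i) μ) ∧
      ∀ μ : ℕ → Measure (ModSpace (d + 1)), (∀ i, IsPacketMeasure (m i) (σ i) (μ i)) →
        (∀ f : ModSpace (d + 1) → ℝ, Continuous f → HasCompactSupport f →
          Tendsto (fun i => ∫ x, f x ∂(μ i)) atTop (𝓝 (∫ x, f x ∂ν))) ∧
        (∀ ε : ℝ, 0 < ε → ∃ C : Set (ModSpace (d + 1)), IsCompact C ∧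
          ∀ᶠ i in atTop, 1 - ε ≤ ((μ i) C).toReal) := by
  have key : ∀ μ : ℕ → Measure (ModSpace (d + 1)), (∀ i, IsPacketMeasure (m i) (σ i) (μ i)) →
      (∃ ν : Measure (ModSpace (d + 1)), IsHaarProbability ν ∧
        ∀ f : ModSpace (d + 1) → ℝ, Continuous f → HasCompactSupport f →
          Tendsto (fun i => ∫ x, f x ∂(μ i)) atTop (𝓝 (∫ x, f x ∂ν))) ∧ Tight μ := by
    intro μ hμ
    have hprob : ∀ i, IsProbabilityMeasure (μ i) := fun i =>
      ((hP (K i) (hdeg i) (m i) (σ i)).2 (μ i) (hμ i)).1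
    have hAinv : ∀ i (u : Fin d → ℝ), Measure.map (fun x => orbitMap x u) (μ i) = μ i := fun i =>
      ((hP (K i) (hdeg i) (m i) (σ i)).2 (μ i) (hμ i)).2
    have hBH : BHyp μ := by
      refine ⟨hprob, hAinv, fun i => latticeDisc (m i), hdisc, ?_⟩
      obtain ⟨κ, C, hκ, hC, hA'⟩ := hA
      refine ⟨κ, C, hκ, hC, fun e he => ?_⟩
      obtain ⟨D₀, η, _, hη, hA''⟩ := hA' e he
      refine ⟨η, hη, ?_⟩
      filter_upwards [hdisc.eventually_ge_atTop D₀] with i hi
      exact hA'' (K i) (hdeg i) (hprim i) (m i) (σ i) hi (μ i) (hμ i)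
    have hNI : NearInv μ := hB μ hBH
    have hT : Tight μ := hE μ hprob hAinv hNI
    exact ⟨conv hgen μ hprob hNI hT, hT⟩
  choose μ₀ hμ₀ using fun i => (hP (K i) (hdeg i) (m i) (σ i)).1
  obtain ⟨⟨ν, hν, hconv⟩, _⟩ := key μ₀ hμ₀
  refine ⟨ν, hν, fun i => (hP (K i) (hdeg i) (m i) (σ i)).1, fun μ hμ => ?_⟩
  obtain ⟨⟨ν', hν', hconv'⟩, hT⟩ := key μ hμ
  have : ν' = ν := Uniq_983.isHaarProbability_unique hν' hν
  subst this
  exact ⟨hconv', hT⟩

/-- a number field of prime degree is primitive. -/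
theorem primitive_of_prime {K : Type*} [Field K] [NumberField K]
    (hp : (Module.finrank ℚ K).Prime) : IsPrimitiveField K := by
  intro F
  have h := Module.finrank_mul_finrank ℚ F K
  have hF0 : 0 < Module.finrank ℚ F := Module.finrank_pos
  rcases (Nat.Prime.eq_one_or_self_of_dvd hp (Module.finrank ℚ F) ⟨_, h.symm⟩) with h1 | h1
  · left
    exact IntermediateField.finrank_eq_one_iff.1 h1
  · right
    rw [h1] at h
    have h2 : Module.finrank F K = 1 := by
      have h3 : 0 < Module.finrank ℚ K := Module.finrank_pos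
      nlinarith
    exact IntermediateField.finrank_eq_one_iff_eq_top.1 h2

/-- for the maximal order the lattice discriminant is the absolute discriminant. -/
theorem latticeDisc_max {n : ℕ} {K : Type*} [Field K] [NumberField K] (m : LatticeBasis n K)
    (hm : m.IsMaximalOrder) : latticeDisc m = |(NumberField.discr K : ℝ)| := by
  have h1 : (integralClosure ℤ K).toSubring.toAddSubgroup ≤ multiplierOrder m := by
    intro a ha x hx
    have ha' : IsIntegral ℤ a := ha
    have hx' : IsIntegral ℤ x := (hm x).1 hx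
    exact (hm _).2 (ha'.mul hx')
  have h2 : (multiplierOrder m).relIndex (integralClosure ℤ K).toSubring.toAddSubgroup = 1 :=
    AddSubgroup.relIndex_eq_one.2 h1
  unfold latticeDisc
  rw [h2]
  simp

theorem s17 (d : ℕ) (hprime : (d + 1).Prime)
    (hgen : Gen (d + 1)) (hA : ThmA.{u} d) (hB : ThmB d) (hE : NoEsc d) (hP : Pack.{u} d)
    (K : ℕ → Type u) [∀ i, Field (K i)] [∀ i, NumberField (K i)] [∀ i, NumberField.IsTotallyReal (K i)]
    (hdeg : ∀ i, Module.finrank ℚ (K i) = d + 1)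
    (m : ∀ i, LatticeBasis (d + 1) (K i)) (σ : ∀ i, Fin (d + 1) ≃ (K i →+* ℝ))
    (hdisc : Tendsto (fun i => latticeDisc (m i)) atTop atTop) :
    ∃ ν : Measure (ModSpace (d + 1)), IsHaarProbability ν ∧
      (∀ i, ∃ μ : Measure (ModSpace (d + 1)), IsPacketMeasure (m i) (σ i) μ) ∧
      ∀ μ : ℕ → Measure (ModSpace (d + 1)), (∀ i, IsPacketMeasure (m i) (σ i) (μ i)) →
        (∀ f : ModSpace (d + 1) → ℝ, Continuous f → HasCompactSupport f →
          Tendsto (fun i => ∫ x, f x ∂(μ i)) atTop (𝓝 (∫ x, f x ∂ν))) ∧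
        (∀ ε : ℝ, 0 < ε → ∃ C : Set (ModSpace (d + 1)), IsCompact C ∧
          ∀ᶠ i in atTop, 1 - ε ≤ ((μ i) C).toReal) :=
  main hgen hA hB hE hP K hdeg
    (fun i => primitive_of_prime (by rw [hdeg i]; exact hprime)) m σ hdisc

theorem s19 (hgen : Gen (5 + 1)) (hA : ThmA.{u} 5) (hB : ThmB 5) (hE : NoEsc 5) (hP : Pack.{u} 5)
    (K : ℕ → Type u) [∀ i, Field (K i)] [∀ i, NumberField (K i)] [∀ i, NumberField.IsTotallyReal (K i)]
    (hdeg : ∀ i, Module.finrank ℚ (K i) = 6) (hprim : ∀ i, IsPrimitiveField (K i))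
    (m : ∀ i, LatticeBasis (5 + 1) (K i)) (hmax : ∀ i, (m i).IsMaximalOrder)
    (σ : ∀ i, Fin (5 + 1) ≃ (K i →+* ℝ))
    (hdisc : Tendsto (fun i => |(NumberField.discr (K i) : ℝ)|) atTop atTop) :
    ∃ ν : Measure (ModSpace (5 + 1)), IsHaarProbability ν ∧
      (∀ i, ∃ μ : Measure (ModSpace (5 + 1)), IsPacketMeasure (m i) (σ i) μ) ∧
      ∀ μ : ℕ → Measure (ModSpace (5 + 1)), (∀ i, IsPacketMeasure (m i) (σ i) (μ i)) →
        (∀ f : ModSpace (5 + 1) → ℝ, Continuous f → HasCompactSupport f →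
          Tendsto (fun i => ∫ x, f x ∂(μ i)) atTop (𝓝 (∫ x, f x ∂ν))) ∧
        (∀ ε : ℝ, 0 < ε → ∃ C : Set (ModSpace (5 + 1)), IsCompact C ∧
          ∀ᶠ i in atTop, 1 - ε ≤ ((μ i) C).toReal) := by
  refine main hgen hA hB hE hP K hdeg hprim m σ ?_
  have : (fun i => latticeDisc (m i)) = fun i => |(NumberField.discr (K i) : ℝ)| :=
    funext fun i => latticeDisc_max (m i) (hmax i)
  rw [this]
  exact hdisc

end Crest.Agent.R014.Asm_792
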