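import Crest.Agent.R014.Nd1_837

/-!
Row 14, block D, noise formalism (#3844), section SLAB (helper373, task 1063): definitions.
For `S ⊂ Fin n` the abelian group `V_S = {1 + s}`, `s` supported on the crossing roots `S × Sᶜ`,
its digits in base `b` read level by level, and the joint law of the digit word and the noisy point.
-/

set_option autoImplicit false

open MeasureTheory Crest.NumberTheoryR.Packets
open scoped ENNReal

noncomputable section

namespace Crest.Agent.R014.NS_373

open Ms_667 Nd_837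

variable {n : ℕ}

/-- the crossing roots `S × Sᶜ`. -/
abbrev CC (S : Finset (Fin n)) : Type := {p : Fin n × Fin n // p.1 ∈ S ∧ p.2 ∉ S}

lemma CC.ne {S : Finset (Fin n)} (c : CC S) : c.1.1 ≠ c.1.2 := fun h => c.2.2 (h ▸ c.2.1)

/-- the crossing matrix with entries `s`. -/
def nn (S : Finset (Fin n)) (s : CC S → ℝ) : Mt n :=
  Matrix.of fun i j => if h : i ∈ S ∧ j ∉ S then s ⟨(i, j), h⟩ else 0

lemma nn_apply (S : Finset (Fin n)) (s : CC S → ℝ) (i j : Fin n) :
    nn S s i j = if h : i ∈ S ∧ j ∉ S then s ⟨(i, j), h⟩ else 0 := rfl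

lemma nn_cross (S : Finset (Fin n)) (s : CC S → ℝ) (c : CC S) : nn S s c.1.1 c.1.2 = s c := by
  rw [nn_apply, dif_pos c.2]

lemma nn_of_notMem {S : Finset (Fin n)} (s : CC S → ℝ) {i : Fin n} (h : i ∉ S) (j : Fin n) :
    nn S s i j = 0 := by
  rw [nn_apply, dif_neg (fun h' => h h'.1)]

lemma nn_of_mem {S : Finset (Fin n)} (s : CC S → ℝ) (i : Fin n) {j : Fin n} (h : j ∈ S) :
    nn S s i j = 0 := by
  rw [nn_apply, dif_neg (fun h' => h'.2 h)]

lemma nn_add (S : Finset (Fin n)) (s s' : CC S → ℝ) : nn S (s + s') = nn S s + nn S s' := by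
  ext i j
  simp only [nn_apply, Matrix.add_apply, Pi.add_apply]
  split_ifs <;> simp

lemma nn_mul (S : Finset (Fin n)) (s s' : CC S → ℝ) : nn S s * nn S s' = 0 := by
  ext i j
  rw [Matrix.mul_apply, Matrix.zero_apply]
  refine Finset.sum_eq_zero fun k _ => ?_
  by_cases hk : k ∈ S
  · rw [nn_of_mem s i hk, zero_mul]
  · rw [nn_of_notMem s' hk, mul_zero]

lemma nn_zero (S : Finset (Fin n)) : nn S 0 = 0 := by
  ext i j
  simp [nn_apply]

lemma one_add_mul (S : Finset (Fin n)) (s s' : CC S → ℝ) :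
    (1 + nn S s) * (1 + nn S s') = 1 + nn S (s + s') := by
  rw [add_mul, mul_add, mul_add, nn_mul, nn_add]
  simp [add_comm, add_left_comm]

lemma nn_single (S : Finset (Fin n)) (c : CC S) (t : ℝ) :
    nn S (Pi.single c t) = Matrix.single c.1.1 c.1.2 t := by
  ext i j
  rw [nn_apply, Matrix.single_apply]
  split_ifs with h h' h'
  · have : (⟨(i, j), h⟩ : CC S) = c := Subtype.ext (Prod.ext h'.1.symm h'.2.symm)
    rw [this, Pi.single_eq_same]
  · have : (⟨(i, j), h⟩ : CC S) ≠ c := by
      rintro rfl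
      exact h' ⟨rfl, rfl⟩
    rw [Pi.single_eq_of_ne this]
  · exact absurd ⟨h'.1 ▸ c.2.1, h'.2 ▸ c.2.2⟩ h
  · rfl

lemma det_one_add_nn (S : Finset (Fin n)) (s : CC S → ℝ) : (1 + nn S s).det = 1 := by
  have key : ∀ A : Finset (CC S), (1 + nn S (∑ c ∈ A, Pi.single c (s c))).det = 1 := by
    intro A
    classical
    induction A using Finset.induction_on with
    | empty => simp [nn_zero]
    | insert a A ha ih =>
      rw [Finset.sum_insert ha, ← one_add_mul, Matrix.det_mul, ih, mul_one, nn_single]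
      exact Matrix.det_transvection_of_ne _ _ a.ne _
  have := key Finset.univ
  rwa [Finset.univ_sum_single] at this

/-- the abelian unipotent group of the crossing roots. -/
def vv (S : Finset (Fin n)) (s : CC S → ℝ) : SLR n := ⟨1 + nn S s, det_one_add_nn S s⟩

lemma vv_val (S : Finset (Fin n)) (s : CC S → ℝ) : (vv S s).1 = 1 + nn S s := rfl

lemma vv_add (S : Finset (Fin n)) (s s' : CC S → ℝ) : vv S (s + s') = vv S s * vv S s' :=
  Subtype.ext (one_add_mul S s s').symm

lemma vv_zero (S : Finset (Fin n)) : vv S 0 = 1 := by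
  apply Subtype.ext
  rw [vv_val, nn_zero, add_zero]
  rfl

lemma vv_neg (S : Finset (Fin n)) (s : CC S → ℝ) : vv S (-s) = (vv S s)⁻¹ := by
  rw [eq_inv_iff_mul_eq_one, ← vv_add, neg_add_cancel, vv_zero]

lemma vv_comm (S : Finset (Fin n)) (s s' : CC S → ℝ) : vv S s * vv S s' = vv S s' * vv S s := by
  rw [← vv_add, ← vv_add, add_comm]

lemma vv_single (S : Finset (Fin n)) (c : CC S) (t : ℝ) :
    vv S (Pi.single c t) = uu c.ne t := by
  apply Subtype.ext
  rw [vv_val, nn_single, uu_val]

lemma continuous_vv (S : Finset (Fin n)) : Continuous (vv S) := by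
  refine Continuous.subtype_mk ?_ _
  refine continuous_const.add ?_
  refine continuous_matrix fun a b => ?_
  simp only [nn_apply]
  split_ifs with h
  · exact continuous_apply _
  · exact continuous_const

lemma measurable_vv (S : Finset (Fin n)) : Measurable (vv S) := by
  have h : Continuous (vv S) := continuous_vv S
  exact h.measurable

/-- the uniform probability on `[-1,1]^(S × Sᶜ)`. -/
def uniC (S : Finset (Fin n)) : Measure (CC S → ℝ) := Measure.pi fun _ => uni

instance (S : Finset (Fin n)) : IsProbabilityMeasure (uniC S) := by unfold uniC; infer_instance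

/-- the centre of the cell of the word `w` (levels `0, …, T-1`) in base `b`. -/
def rep {S : Finset (Fin n)} {b : ℕ} {T : ℕ} (w : Fin T → CC S → Fin b) : CC S → ℝ :=
  fun c => ∑ i : Fin T, ((b : ℝ)⁻¹) ^ (i : ℕ) * cen b (w i c)

/-- the law of `v(x + b^{-T} θ)`, `θ` uniform in `[-1,1]^C`. -/
def vlaw (S : Finset (Fin n)) (b T : ℕ) (x : CC S → ℝ) : Measure (SLR n) :=
  (uniC S).map fun θ => vv S (x + ((b : ℝ)⁻¹) ^ T • θ)

lemma measurable_vlaw (S : Finset (Fin n)) (b T : ℕ) (x : CC S → ℝ) :
    Measurable fun θ : CC S → ℝ => vv S (x + ((b : ℝ)⁻¹) ^ T • θ) := by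
  refine (measurable_vv S).comp ?_
  fun_prop

instance (S : Finset (Fin n)) (b T : ℕ) (x : CC S → ℝ) : IsProbabilityMeasure (vlaw S b T x) :=
  Measure.isProbabilityMeasure_map (measurable_vlaw S b T x).aemeasurable

/-- the joint law of the digit word and the noisy point: `rho w = P(digits = w, x ζ v(s) ∈ ·)`,
`x ~ μ`, `ζ ~ κ`, `s` uniform in `[-1,1]^C`. -/
def rho (μ : Measure (ModSpace n)) (κ : Measure (SLR n)) (S : Finset (Fin n)) (b T : ℕ)
    (w : Fin T → CC S → Fin b) : Measure (ModSpace n) :=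
  ((Fintype.card (CC S → Fin b) : ℝ≥0∞)⁻¹) ^ T • stp (stp μ κ) (vlaw S b T (rep w))

end Crest.Agent.R014.NS_373
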