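import Crest.Agent.R014.Q3c_433
import Crest.Agent.R014.NS0_373

/-!
# Row 14, block D, leaf BASE, part A (helper433)

From the slab lower bound (373: `slab_avg`) and STEP q (870: `stepq_kapc`) to the measure of the
set of points where the base window sum is small.
-/

set_option autoImplicit false

open MeasureTheory Filter Topology
open Crest.NumberTheoryR.Packets
open Crest.Agent.R014.Nd_837
open Crest.Agent.R014.DSkel_792
open Crest.Agent.R014.NS_373 (CC CC.ne)
open Crest.Agent.R014.Q3c_433 (blk crS measurable_blk)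

namespace Crest.Agent.R014.Base_433

variable {n : ℕ}

theorem sum_CC (S : Finset (Fin n)) (f : Fin n → Fin n → ℝ) :
    ∑ c : CC S, f c.1.1 c.1.2 = ∑ i ∈ S, ∑ j ∈ Sᶜ, f i j := by
  rw [← Finset.sum_product', ← Finset.sum_subtype (p := fun p : Fin n × Fin n => p.1 ∈ S ∧ p.2 ∉ S)
    (S ×ˢ Sᶜ) (by intro x; simp) (fun p : Fin n × Fin n => f p.1 p.2)]

theorem card_CC_le (S : Finset (Fin n)) : Fintype.card (CC S) ≤ n ^ 2 := by
  refine (Fintype.card_subtype_le _).trans ?_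
  rw [Fintype.card_prod, Fintype.card_fin, sq]

theorem setIntegral_blk {μ : Measure (ModSpace n)} [IsProbabilityMeasure μ]
    {P : Fin n → Fin n → ModSpace n → ℝ} (hm : ∀ i j, Measurable (P i j))
    (h0 : ∀ i j x, 0 ≤ P i j x) (h2 : ∀ i j x, P i j x ≤ 2) (S : Finset (Fin n)) (T : ℕ)
    (A : Set (ModSpace n)) :
    ∑ i : Fin T, ∑ c : CC S, ∫ x in A, P c.1.1 c.1.2 (tz (Pi.single c.1.1 ((i : ℕ) : ℤ)) x) ∂μ
      = ∫ x in A, blk tz P S 0 T x ∂μ := by
  have hint : ∀ (i : ℕ) (p q : Fin n), Integrable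
      (fun x => P p q (tz (Pi.single p ((i : ℕ) : ℤ)) x)) (μ.restrict A) := by
    intro i p q
    refine Integrable.of_bound ((hm p q).comp (measurable_tz _)).aestronglyMeasurable 2
      (Eventually.of_forall fun x => ?_)
    rw [Real.norm_eq_abs, abs_of_nonneg (h0 _ _ _)]
    exact h2 _ _ _
  have h1 : ∀ i : ℕ, ∑ c : CC S, ∫ x in A, P c.1.1 c.1.2 (tz (Pi.single c.1.1 (i : ℤ)) x) ∂μ
      = ∫ x in A, crS tz P S ((0 : ℤ) + i) x ∂μ := by
    intro i
    rw [sum_CC S fun p q => ∫ x in A, P p q (tz (Pi.single p (i : ℤ)) x) ∂μ]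
    unfold crS
    rw [zero_add]
    rw [integral_finsetSum _ fun p _ => integrable_finsetSum _ fun q _ => hint i p q]
    refine Finset.sum_congr rfl fun p _ => ?_
    rw [integral_finsetSum _ fun q _ => hint i p q]
  rw [Finset.sum_congr rfl fun (i : Fin T) _ => h1 i,
    Fin.sum_univ_eq_sum_range (fun i : ℕ => ∫ x in A, crS tz P S ((0 : ℤ) + i) x ∂μ) T]
  unfold blk
  rw [integral_finsetSum _ fun i _ => ?_]
  unfold crS
  simp only [zero_add]
  exact integrable_finsetSum _ fun p _ => integrable_finsetSum _ fun q _ => hint _ p q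

/-- **one measure**: the set of small base window sums. -/
theorem key_one {μ : Measure (ModSpace n)} [IsProbabilityMeasure μ]
    {P : Fin n → Fin n → ModSpace n → ℝ} (hm : ∀ i j, Measurable (P i j))
    (h0 : ∀ i j x, 0 ≤ P i j x) (h2 : ∀ i j x, P i j x ≤ 2) {T : ℕ} (hT : 0 < T)
    (S : Finset (Fin n)) {G : Set (ModSpace n)} (hG : MeasurableSet G) {B c₁ e : ℝ} (hc : 0 < c₁)
    (he : 0 ≤ e) (Ac : Fin T → CC S → ModSpace n → ℝ) (hAi : ∀ i c, Integrable (Ac i c) μ)
    (hclose : ∀ (i : Fin T) (c : CC S), ∫ x, |Ac i c x -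
      P c.1.1 c.1.2 (tz (Pi.single c.1.1 ((i : ℕ) : ℤ)) x)| ∂μ ≤ e)
    (hlow : c₁ * T * (μ.real ({x | blk tz P S 0 T x < c₁ / 2 * T} ∩ G) - B) ≤
      ∑ i : Fin T, ∑ c : CC S, (∫ x in {x | blk tz P S 0 T x < c₁ / 2 * T}, Ac i c x ∂μ +
        16 * μ.real Gᶜ)) :
    μ.real {x | blk tz P S 0 T x < c₁ / 2 * T} ≤
      2 * (μ.real Gᶜ + B) + 2 * (n : ℝ) ^ 2 / c₁ * (e + 16 * μ.real Gᶜ) := by
  set A : Set (ModSpace n) := {x | blk tz P S 0 T x < c₁ / 2 * T} with hA
  have hTr : (0 : ℝ) < T := by exact_mod_cast hT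
  have hPi : ∀ (i : ℕ) (p q : Fin n), Integrable
      (fun x => P p q (tz (Pi.single p ((i : ℕ) : ℤ)) x)) μ := by
    intro i p q
    refine Integrable.of_bound ((hm p q).comp (measurable_tz _)).aestronglyMeasurable 2
      (Eventually.of_forall fun x => ?_)
    rw [Real.norm_eq_abs, abs_of_nonneg (h0 _ _ _)]
    exact h2 _ _ _
  -- one term
  have h3 : ∀ (i : Fin T) (c : CC S), ∫ x in A, Ac i c x ∂μ ≤
      ∫ x in A, P c.1.1 c.1.2 (tz (Pi.single c.1.1 ((i : ℕ) : ℤ)) x) ∂μ + e := by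
    intro i c
    have hd : Integrable (fun x => |Ac i c x -
        P c.1.1 c.1.2 (tz (Pi.single c.1.1 ((i : ℕ) : ℤ)) x)|) μ := ((hAi i c).sub (hPi i _ _)).abs
    have h4 : ∫ x in A, |Ac i c x - P c.1.1 c.1.2 (tz (Pi.single c.1.1 ((i : ℕ) : ℤ)) x)| ∂μ ≤ e :=
      (setIntegral_le_integral hd (Eventually.of_forall fun x => abs_nonneg _)).trans (hclose i c)
    have h5 : ∫ x in A, Ac i c x ∂μ ≤ ∫ x in A,
        (P c.1.1 c.1.2 (tz (Pi.single c.1.1 ((i : ℕ) : ℤ)) x) +
        |Ac i c x - P c.1.1 c.1.2 (tz (Pi.single c.1.1 ((i : ℕ) : ℤ)) x)|) ∂μ := by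
      refine integral_mono (hAi i c).integrableOn
        ((hPi i _ _).integrableOn.add hd.integrableOn) fun x => ?_
      have := le_abs_self (Ac i c x - P c.1.1 c.1.2 (tz (Pi.single c.1.1 ((i : ℕ) : ℤ)) x))
      simp only
      linarith
    rw [integral_add (hPi i _ _).integrableOn hd.integrableOn] at h5
    linarith
  -- the sum
  have h6 : ∑ i : Fin T, ∑ c : CC S, (∫ x in A, Ac i c x ∂μ + 16 * μ.real Gᶜ) ≤
      ∫ x in A, blk tz P S 0 T x ∂μ + T * ((n : ℝ) ^ 2 * (e + 16 * μ.real Gᶜ)) := by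
    rw [← setIntegral_blk hm h0 h2 S T A]
    have h7 : ∑ i : Fin T, ∑ c : CC S, (∫ x in A, Ac i c x ∂μ + 16 * μ.real Gᶜ) ≤
        ∑ i : Fin T, ∑ c : CC S, (∫ x in A, P c.1.1 c.1.2 (tz (Pi.single c.1.1 ((i : ℕ) : ℤ)) x) ∂μ
          + (e + 16 * μ.real Gᶜ)) :=
      Finset.sum_le_sum fun i _ => Finset.sum_le_sum fun c _ => by
        have := h3 i c
        linarith
    refine h7.trans ?_
    simp only [Finset.sum_add_distrib]
    refine add_le_add le_rfl ?_
    simp only [Finset.sum_const, Finset.card_univ, Fintype.card_fin, nsmul_eq_mul]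
    have h8 : (Fintype.card (CC S) : ℝ) ≤ (n : ℝ) ^ 2 := by exact_mod_cast card_CC_le S
    have h9 : 0 ≤ e + 16 * μ.real Gᶜ := by positivity
    have h10 := mul_le_mul_of_nonneg_right h8 h9
    have h11 := mul_le_mul_of_nonneg_left h10 hTr.le
    nlinarith
  -- on `A`
  have hAm : MeasurableSet A := by
    refine measurableSet_lt ?_ measurable_const
    unfold blk crS
    exact Finset.measurable_fun_sum _ fun i _ => Finset.measurable_fun_sum _ fun p _ =>
      Finset.measurable_fun_sum _ fun q _ => (hm p q).comp (measurable_tz _)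
  have hblki : IntegrableOn (blk tz P S 0 T) A μ := by
    unfold blk crS
    simp only [zero_add]
    exact integrable_finsetSum _ fun i _ => integrable_finsetSum _ fun p _ =>
      integrable_finsetSum _ fun q _ => (hPi i p q).integrableOn
  have h12 : ∫ x in A, blk tz P S 0 T x ∂μ ≤ c₁ / 2 * T * μ.real A := by
    have h13 : ∫ x in A, blk tz P S 0 T x ∂μ ≤ ∫ x in A, c₁ / 2 * T ∂μ := by
      refine setIntegral_mono_on hblki integrableOn_const hAm fun x hx => ?_
      exact le_of_lt hx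
    rw [setIntegral_const, smul_eq_mul] at h13
    linarith
  have h14 : μ.real A ≤ μ.real (A ∩ G) + μ.real Gᶜ := by
    have h15 : μ.real A ≤ μ.real ((A ∩ G) ∪ Gᶜ) := by
      refine measureReal_mono ?_ (measure_ne_top _ _)
      intro x hx
      by_cases h : x ∈ G
      · exact Or.inl ⟨hx, h⟩
      · exact Or.inr h
    exact h15.trans (measureReal_union_le _ _)
  have h16 := hlow.trans (h6.trans (add_le_add h12 le_rfl))
  have h17 : T * (c₁ * (μ.real (A ∩ G) - B)) ≤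
      T * (c₁ / 2 * μ.real A + (n : ℝ) ^ 2 * (e + 16 * μ.real Gᶜ)) := by
    linarith
  have h18 := le_of_mul_le_mul_left h17 hTr
  have h19 : c₁ * μ.real A ≤ c₁ * (2 * (μ.real Gᶜ + B) +
      2 * (n : ℝ) ^ 2 / c₁ * (e + 16 * μ.real Gᶜ)) := by
    have h20 : c₁ * (2 * (μ.real Gᶜ + B) + 2 * (n : ℝ) ^ 2 / c₁ * (e + 16 * μ.real Gᶜ)) =
        2 * (c₁ * μ.real Gᶜ + c₁ * B + (n : ℝ) ^ 2 * (e + 16 * μ.real Gᶜ)) := by
      field_simp
    rw [h20]
    have h21 := mul_le_mul_of_nonneg_left h14 hc.le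
    linarith
  exact le_of_mul_le_mul_left h19 hc

end Crest.Agent.R014.Base_433
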