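import Crest.Agent.R014.Nm5_884

/-!
# Row 14, block D, leaf BASE, part B (helper433)

The constants in 884's mass bound.
-/

set_option autoImplicit false

open MeasureTheory Filter Topology
open Crest.NumberTheoryR.Packets
open Crest.Agent.R014.Nm_884 (B0 KB lamM lamM_univ_le isFiniteMeasure_lamM)

namespace Crest.Agent.R014.Base_433

variable {n : ℕ}

/-- the constant of the mass bound -/
noncomputable def Kn (n : ℕ) : ℝ :=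
  (2 ^ n * (8 + 32 * n)) *
    (2 ^ n * (2 * (24 * (n : ℝ) ^ 3 * 2 ^ (n * (n - 1)) + 1)) ^ (n ^ 2))

theorem Kn_pos (n : ℕ) : 0 < Kn n := by
  unfold Kn
  positivity

theorem KB_le {X : ℝ} (hX : 1 ≤ X) :
    2 * KB n X⁻¹ + 1 ≤ (24 * (n : ℝ) ^ 3 * 2 ^ (n * (n - 1)) + 1) * X ^ (n - 1) := by
  have h1 : 2 * KB n X⁻¹ = 24 * (n : ℝ) ^ 3 * 2 ^ (n * (n - 1)) * X ^ (n - 1) := by
    unfold KB B0
    rw [div_inv_eq_mul, mul_pow, ← pow_mul]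
    ring
  have h2 : (1 : ℝ) ≤ X ^ (n - 1) := one_le_pow₀ hX
  rw [h1, add_mul]
  linarith

theorem KB_nonneg {X : ℝ} (hX : 1 ≤ X) : 0 ≤ KB n X⁻¹ := by
  unfold KB B0
  have : 0 < X := by linarith
  positivity

theorem lam_real_le (hn : 0 < n) {X : ℝ} (hX : 1 ≤ X) :
    (lamM n X⁻¹).real Set.univ ≤
      (2 ^ n * (2 * (24 * (n : ℝ) ^ 3 * 2 ^ (n * (n - 1)) + 1)) ^ (n ^ 2)) * X ^ (n ^ 3) := by
  have hX0 : 0 < X := by linarith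
  have hKB := KB_nonneg (n := n) hX
  have h1 := lamM_univ_le hn (r := X⁻¹) (inv_pos.2 hX0)
  have h2 : (lamM n X⁻¹).real Set.univ ≤ 2 ^ n * (2 * (2 * KB n X⁻¹ + 1)) ^ (n ^ 2) :=
    ENNReal.toReal_le_of_le_ofReal (by positivity) h1
  refine h2.trans ?_
  have h3 := KB_le (n := n) hX
  have h4 : (2 * (2 * KB n X⁻¹ + 1)) ^ (n ^ 2) ≤
      (2 * (24 * (n : ℝ) ^ 3 * 2 ^ (n * (n - 1)) + 1)) ^ (n ^ 2) * (X ^ (n - 1)) ^ (n ^ 2) := by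
    rw [← mul_pow (2 * (24 * (n : ℝ) ^ 3 * 2 ^ (n * (n - 1)) + 1))]
    exact pow_le_pow_left₀ (by positivity) (by linarith) _
  have h5 : (X ^ (n - 1)) ^ (n ^ 2) ≤ X ^ (n ^ 3) := by
    rw [← pow_mul]
    refine pow_le_pow_right₀ hX ?_
    calc (n - 1) * n ^ 2 ≤ n * n ^ 2 := Nat.mul_le_mul_right _ (Nat.sub_le _ _)
      _ = n ^ 3 := by ring
  calc 2 ^ n * (2 * (2 * KB n X⁻¹ + 1)) ^ (n ^ 2)
      ≤ 2 ^ n * ((2 * (24 * (n : ℝ) ^ 3 * 2 ^ (n * (n - 1)) + 1)) ^ (n ^ 2) *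
        (X ^ (n - 1)) ^ (n ^ 2)) := mul_le_mul_of_nonneg_left h4 (by positivity)
    _ ≤ 2 ^ n * ((2 * (24 * (n : ℝ) ^ 3 * 2 ^ (n * (n - 1)) + 1)) ^ (n ^ 2) *
        X ^ (n ^ 3)) := by gcongr
    _ = _ := by ring

/-- **the mass**: `M · lam (univ)`. -/
theorem mass_le (hn : 0 < n) {D C e u T : ℝ} (hD : 1 ≤ D) (he : 0 ≤ e) (hu : 0 ≤ u)
    (hDu : (C + (n : ℝ) ^ 3) * e * Real.log D ≤ u) :
    ((2 ^ n * (8 + 32 * n)) * 2 ^ ((n : ℝ) ^ 2 * (30 * u)) * D ^ (C * e) * 2 ^ (-(T / 2))) *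
      (lamM n (D ^ (-e))).real Set.univ ≤
      Kn n * Real.exp ((30 * (n : ℝ) ^ 2 + 1) * u - Real.log 2 / 2 * T) := by
  have hD0 : 0 < D := by linarith
  have hX : 1 ≤ D ^ e := Real.one_le_rpow hD he
  have h1 := lam_real_le hn hX
  rw [← Real.rpow_neg hD0.le] at h1
  have hX0 : 0 < D ^ e := by linarith
  set c0 : ℝ := 2 ^ n * (8 + 32 * n) with hc0
  set c1 : ℝ := (2 ^ n * (2 * (24 * (n : ℝ) ^ 3 * 2 ^ (n * (n - 1)) + 1)) ^ (n ^ 2)) with hc1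
  have h2 : D ^ (C * e) * (D ^ e) ^ (n ^ 3) ≤ Real.exp u := by
    rw [← Real.rpow_natCast (D ^ e), ← Real.rpow_mul hD0.le, ← Real.rpow_add hD0,
      Real.rpow_def_of_pos hD0]
    refine Real.exp_le_exp.2 (le_trans (le_of_eq ?_) hDu)
    push_cast
    ring
  have h3 : (2 : ℝ) ^ ((n : ℝ) ^ 2 * (30 * u)) ≤ Real.exp (30 * (n : ℝ) ^ 2 * u) := by
    rw [Real.rpow_def_of_pos two_pos]
    refine Real.exp_le_exp.2 ?_
    have h4 : Real.log 2 ≤ 1 := by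
      have := Real.log_two_lt_d9
      linarith
    have h5 : 0 ≤ 30 * (n : ℝ) ^ 2 * u := by positivity
    nlinarith
  have h6 : (2 : ℝ) ^ (-(T / 2)) = Real.exp (-(Real.log 2 / 2 * T)) := by
    rw [Real.rpow_def_of_pos two_pos]
    congr 1
    ring
  have h7 : Real.exp ((30 * (n : ℝ) ^ 2 + 1) * u - Real.log 2 / 2 * T) =
      Real.exp (30 * (n : ℝ) ^ 2 * u) * Real.exp u * Real.exp (-(Real.log 2 / 2 * T)) := by
    rw [← Real.exp_add, ← Real.exp_add]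
    congr 1
    ring
  have hKn : Kn n = c0 * c1 := rfl
  rw [h6, h7, hKn]
  calc c0 * 2 ^ ((n : ℝ) ^ 2 * (30 * u)) * D ^ (C * e) * Real.exp (-(Real.log 2 / 2 * T)) *
        (lamM n (D ^ (-e))).real Set.univ
      ≤ c0 * 2 ^ ((n : ℝ) ^ 2 * (30 * u)) * D ^ (C * e) * Real.exp (-(Real.log 2 / 2 * T)) *
        (c1 * (D ^ e) ^ (n ^ 3)) := by
        gcongr
    _ = c0 * c1 * (2 ^ ((n : ℝ) ^ 2 * (30 * u)) * (D ^ (C * e) * (D ^ e) ^ (n ^ 3)) *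
        Real.exp (-(Real.log 2 / 2 * T))) := by ring
    _ ≤ c0 * c1 * (Real.exp (30 * (n : ℝ) ^ 2 * u) * Real.exp u *
        Real.exp (-(Real.log 2 / 2 * T))) := by gcongr

/-- `K e^{-x}` is small -/
theorem exp_small {K x ε : ℝ} (hε : 0 < ε) (h : K / ε ≤ x) :
    K * Real.exp (-x) ≤ ε := by
  rw [Real.exp_neg, ← div_eq_mul_inv, div_le_iff₀ (Real.exp_pos _)]
  rw [div_le_iff₀ hε] at h
  have h1 := Real.add_one_le_exp x
  nlinarith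

/-- large `D` -/
theorem exists_D0 {γ : ℝ} (hγ : 0 < γ) (e η' : ℝ) : ∃ D₀ : ℝ, 0 < e → 0 < η' → ∀ D : ℝ, D₀ ≤ D →
    1 ≤ D ∧ 16 ≤ D ^ e ∧ D ^ (-η') ≤ γ / 2 ∧ D ^ (-e) ≤ γ / 4 := by
  by_cases h : 0 < e ∧ 0 < η'
  · have h1 := (tendsto_rpow_atTop h.1).eventually_ge_atTop 16
    have h2 := (tendsto_rpow_neg_atTop h.2).eventually_le_const (show (0 : ℝ) < γ / 2 by positivity)
    have h3 := (tendsto_rpow_neg_atTop h.1).eventually_le_const (show (0 : ℝ) < γ / 4 by positivity)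
    obtain ⟨D₀, hD₀⟩ := eventually_atTop.1
      ((eventually_ge_atTop (1 : ℝ)).and (h1.and (h2.and h3)))
    exact ⟨D₀, fun _ _ D hD => hD₀ D hD⟩
  · exact ⟨0, fun h1 h2 => absurd ⟨h1, h2⟩ h⟩

/-- the complement of the good set -/
theorem real_compl_le (hn : 2 ≤ n) {μ : Measure (ModSpace n)} [IsProbabilityMeasure μ]
    {G : Set (ModSpace n)} {D e η' γ : ℝ} (he : 0 ≤ e) (hD : 1 ≤ D)
    (h1 : D ^ (-η') ≤ γ / 2) (h2 : D ^ (-e) ≤ γ / 4)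
    (hG : μ Gᶜ ≤ ENNReal.ofReal (D ^ (-η')) + 2 * ENNReal.ofReal (D ^ e * (D ^ (-e)) ^ n)) :
    μ.real Gᶜ ≤ γ := by
  have hD0 : 0 < D := by linarith
  have h3 : D ^ e * (D ^ (-e)) ^ n ≤ D ^ (-e) := by
    have h4 : D ^ (-e) ≤ 1 := Real.rpow_le_one_of_one_le_of_nonpos hD (by linarith)
    have h5 : 0 ≤ D ^ (-e) := Real.rpow_nonneg hD0.le _
    have h6 : (D ^ (-e)) ^ n ≤ (D ^ (-e)) ^ 2 := pow_le_pow_of_le_one h5 h4 hn
    have h7 : D ^ e * D ^ (-e) = 1 := by rw [← Real.rpow_add hD0, add_neg_cancel, Real.rpow_zero]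
    calc D ^ e * (D ^ (-e)) ^ n ≤ D ^ e * (D ^ (-e)) ^ 2 :=
          mul_le_mul_of_nonneg_left h6 (Real.rpow_nonneg hD0.le _)
      _ = D ^ (-e) := by rw [sq, ← mul_assoc, h7, one_mul]
  have h8 : ENNReal.ofReal (D ^ (-η')) + 2 * ENNReal.ofReal (D ^ e * (D ^ (-e)) ^ n) =
      ENNReal.ofReal (D ^ (-η') + 2 * (D ^ e * (D ^ (-e)) ^ n)) := by
    rw [ENNReal.ofReal_add (by positivity) (by positivity),
      ENNReal.ofReal_mul (by norm_num : (0 : ℝ) ≤ 2)]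
    norm_num
  rw [h8] at hG
  have h9 := ENNReal.toReal_le_of_le_ofReal (by positivity) hG
  rw [measureReal_def]
  linarith

end Crest.Agent.R014.Base_433
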