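import Crest.Agent.R014.StepQ2_870
import Crest.Agent.R014.NScH_395

/-!
# Row 14, block D, noise formalism (#3844), STEP q, part 3 (helper870)

STEP q for the box noises `zt R` of helper837, `ε`-form, shifts `tz` of helper792; (L3) as an
explicit hypothesis `L3St n C3`.
-/

set_option autoImplicit false

open MeasureTheory Finset Filter Topology Crest.NumberTheoryR.Packets
open Crest.Agent.R014.Nd_837 Crest.Agent.R014.Ne1_567 Crest.Agent.R014.NScB_395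
open Crest.Agent.R014.NScC_395 Crest.Agent.R014.NScD_395 Crest.Agent.R014.NScE_395
open Crest.Agent.R014.Ms_667
open Crest.Agent.R014.NScA_395 (Met Clean rho)
open Crest.Agent.R014.NScG_395 (NoiseFam ew fdig tendsto_ew tendsto_pow)
open Crest.Agent.R014.NScH_395 (c1N noiseFam NC PZ PZ_eq)
open Crest.Agent.R014.NS_373 (CC CC.ne vv uniC)
open scoped ENNReal

noncomputable section

namespace Crest.Agent.R014.StepQ_870

variable {n : ℕ}

/-- (L3): the crossing noise `v(2^-r_c θ_c)` together with `zt R` is the box noise of the metric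
with crossing entries `r_c` -/
def L3St (n : ℕ) (C3 : ℝ) : Prop :=
  ∀ (S : Finset (Fin n)) (R : Met n) (r : CC S → ℝ) (w : ℝ), 0 ≤ w → Nz_323.Adm R →
    Nz_323.Adm (ovr S R r) → (∀ c : CC S, r c + w ≤ R c.1.1 c.1.2) →
    (∀ (k i j : Fin n) (hk : k ∈ S) (hi : i ∈ S) (hj : j ∉ S),
      r ⟨(k, j), hk, hj⟩ + w ≤ R k i + r ⟨(i, j), hi, hj⟩) →
    (∀ (k i j : Fin n) (_ : k ∉ S) (hi : i ∈ S) (hj : j ∉ S),
      R k j + w ≤ R k i + r ⟨(i, j), hi, hj⟩) →
    TVle (cv (zt R) (vl S r)) (zt (ovr S R r)) (C3 * (2:ℝ) ^ (-w))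

/-- the overlap noise of level `i` in base `b` -/
theorem vl0_level (S : Finset (Fin n)) (c : CC S) {b : ℕ} (hb : 0 < b) (i : ℕ) :
    ((uniC S).map fun θ => vv S (((b : ℝ)⁻¹) ^ i • Function.update θ c 0)) =
      vl0 S c (i * Real.logb 2 b) := by
  unfold vl0
  have h : (2:ℝ) ^ (-((i:ℝ) * Real.logb 2 b)) = ((b : ℝ)⁻¹) ^ i := by
    have hb' : (0:ℝ) < b := by exact_mod_cast hb
    rw [Real.rpow_neg two_pos.le, mul_comm, Real.rpow_mul two_pos.le,
      Real.rpow_logb two_pos (by norm_num) hb', Real.rpow_natCast, inv_pow]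
  rw [h]

theorem vl0_two (S : Finset (Fin n)) (c : CC S) (i : ℕ) :
    ((uniC S).map fun θ => vv S ((((2:ℕ) : ℝ)⁻¹) ^ i • Function.update θ c 0)) =
      vl0 S c (i : ℝ) := by
  rw [vl0_level S c two_pos i]
  congr 1
  simp [Real.logb_self_eq_one]

/-- **STEP q**, real shifts -/
theorem stepq_ev {C3 : ℝ} (hC3 : 0 ≤ C3) (hL3 : L3St n C3) {b : ℕ} (hb : 0 < b) {e : ℝ}
    (he : 0 < e) :
    ∃ η U : ℝ, 0 < η ∧ 0 < U ∧ 20 * c1N n ≤ U ∧ ∀ μ : Measure (ModSpace n),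
      IsProbabilityMeasure μ → AInv μ →
      ∀ u1 u2 : ℝ, U ≤ u1 → u1 ≤ 1 / 100000 * u2 → NC μ u1 u2 {b} η →
      ∀ (S : Finset (Fin n)) (c : CC S) (T ℓ : ℝ), 0 ≤ ℓ → ℓ ≤ T → 2 * T + 4 * u1 ≤ u2 / 3000 →
      ∀ t : Fin n → ℝ, t c.1.1 - t c.1.2 = -ℓ → (∀ l, |t l| ≤ T) →
      ∫ x, |Acv μ (cv (zt (Rs S u1 T)) (vl0 S c ℓ)) c.ne ℓ b x -
        PZ μ u1 b c.1.1 c.1.2 (act x (aT t))| ∂μ ≤ e := by
  have hbne : NeZero b := ⟨hb.ne'⟩
  set C := Nz_323.CN n with hC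
  have hC0 : 0 ≤ C := (noiseFam n).C0
  -- constants
  set η : ℝ := (e / 72) ^ 2 / 3 with hη
  have hη0 : 0 < η := by positivity
  set K : ℝ := (8 * b + 12) * (b / 2 + C3 + 6 * C + 1) with hK
  have hK0 : 0 < K := by positivity
  have ht1 := (tendsto_ew b C).eventually (eventually_lt_nhds hη0)
  have ht2 : Tendsto (fun w : ℝ => (2:ℝ) ^ (-w)) atTop (𝓝 0) := by
    have := tendsto_pow (1 / 2)
    simpa using this
  have hκ : 0 < min (1 / (2 * C + 1)) (e / (2 * K)) := lt_min (by positivity) (by positivity)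
  have ht3 := ht2.eventually (eventually_lt_nhds hκ)
  obtain ⟨W, hW⟩ := eventually_atTop.1 (ht1.and ht3)
  refine ⟨η, max 20 (max (20 * c1N n) (20 * W)), hη0, lt_of_lt_of_le (by norm_num)
    (le_max_left _ _), le_trans (le_max_left _ _) (le_max_right _ _), ?_⟩
  intro μ hμp hμ u1 u2 hU hu12 hnc S c T ℓ hℓ hℓT hT t ht htb
  have hu20 : 20 ≤ u1 := le_trans (le_max_left _ _) hU
  have huc : 20 * c1N n ≤ u1 := le_trans (le_trans (le_max_left _ _) (le_max_right _ _)) hU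
  have huW : 20 * W ≤ u1 := le_trans (le_trans (le_max_right _ _) (le_max_right _ _)) hU
  obtain ⟨hw1, hw2⟩ := hW (u1 / 20) (by linarith)
  have hu0 : 0 ≤ u1 := by linarith
  set q : ℝ := (2:ℝ) ^ (-(u1 / 20)) with hq
  have hq0 : 0 < q := by rw [hq]; positivity
  have hqa : q ≤ 1 / (2 * C + 1) := hw2.le.trans (min_le_left _ _)
  have hqb : q ≤ e / (2 * K) := hw2.le.trans (min_le_right _ _)
  have hq1 : 2 * C * q ≤ 1 := by
    rw [le_div_iff₀ (by positivity)] at hqa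
    nlinarith
  have hqK : K * q ≤ e / 2 := by
    rw [le_div_iff₀ (by positivity)] at hqb
    linarith
  have hc5 : c1N n ≤ 5 * u1 := by
    rcases le_total 0 (c1N n) with h | h <;> linarith
  have hc4 : c1N n ≤ 4 * u1 := by
    rcases le_total 0 (c1N n) with h | h <;> linarith
  have hw : u1 / 20 ≤ u1 := by linarith
  have hL := hL3 S (Rs S u1 T) (rq S c ℓ (4 * u1)) (u1 / 20) (by linarith)
    (adm_Rs (noiseFam n) S hu0 (hℓ.trans hℓT) hc5)
    (adm_Rc (T := T) (noiseFam n) c hu0 hℓ hc4)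
    (fun c' => l3_h1 hu0 hw hℓT c')
    (fun k i j hk hi hj => l3_h2 hu0 hw hk hi hj)
    (fun k i j hk hi hj => l3_h3 hu0 hw hℓ hk hi hj)
  have h := stepq (noiseFam n) hμ (b := b) c hu20 huc (by linarith)
    (hnc c.1.1 c.1.2 c.ne b (mem_singleton_self b) hb) hq1 hℓ hℓT hT hL ht htb
  rw [PZ_eq c.ne]
  refine h.trans ?_
  unfold errq
  have h5 : √(η + ew b C (u1 / 20) + ew b C (u1 / 20)) ≤ e / 72 := by
    rw [Real.sqrt_le_left (by positivity)]
    have : (e / 72) ^ 2 = 3 * η := by rw [hη]; ring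
    linarith
  have h6 : (2:ℝ) ^ (-(4 * u1)) ≤ q := by
    rw [hq]
    exact Real.rpow_le_rpow_of_exponent_le (by norm_num) (by linarith)
  have h7 : (8 * (b:ℝ) + 12) * ((b : ℝ) * (2 : ℝ) ^ (-(4 * u1)) / 2 + C3 * q) ≤
      (8 * (b:ℝ) + 12) * ((b : ℝ) * q / 2 + C3 * q) := by
    refine mul_le_mul_of_nonneg_left ?_ (by positivity)
    have : (b:ℝ) * (2 : ℝ) ^ (-(4 * u1)) ≤ b * q := mul_le_mul_of_nonneg_left h6 (by positivity)
    linarith
  have h8 : (8 * (b:ℝ) + 12) * ((b : ℝ) * q / 2 + C3 * q) +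
      3 * ((8 * b + 12) * (2 * C * q)) ≤ K * q := by
    rw [hK]
    have : 0 ≤ (8 * (b:ℝ) + 12) * q := by positivity
    nlinarith
  linarith

/-- **STEP q**, the form consumed by helper373: the digit of level `i` (base 2) in the crossing
root `c`. -/
theorem stepq_tz {C3 : ℝ} (hC3 : 0 ≤ C3) (hL3 : L3St n C3) {e : ℝ} (he : 0 < e) :
    ∃ η U : ℝ, 0 < η ∧ 0 < U ∧ 20 * c1N n ≤ U ∧ ∀ μ : Measure (ModSpace n),
      IsProbabilityMeasure μ → AInv μ →
      ∀ u1 u2 : ℝ, U ≤ u1 → u1 ≤ 1 / 100000 * u2 → NC μ u1 u2 {2} η →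
      ∀ (S : Finset (Fin n)) (c : CC S) (T i : ℕ), i ≤ T → 2 * (T : ℝ) + 4 * u1 ≤ u2 / 3000 →
      ∫ x, |Acv μ (cv (zt (Rs S u1 T))
          ((uniC S).map fun θ => vv S ((((2:ℕ) : ℝ)⁻¹) ^ i • Function.update θ c 0)))
          c.ne (i : ℝ) 2 x -
        PZ μ u1 2 c.1.1 c.1.2 (DSkel_792.tz (Pi.single c.1.1 (i : ℤ)) x)| ∂μ ≤ e := by
  obtain ⟨η, U, hη, hU, hUc, h⟩ := stepq_ev hC3 hL3 two_pos he
  refine ⟨η, U, hη, hU, hUc, fun μ hμp hμ u1 u2 h1 h2 hnc S c T i hi hT => ?_⟩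
  have h3 := h μ hμp hμ u1 u2 h1 h2 hnc S c T i (Nat.cast_nonneg i) (by exact_mod_cast hi) hT
    (fun l => -((Pi.single c.1.1 (i : ℤ) : Fin n → ℤ) l : ℝ))
    (by
      rw [Pi.single_eq_same, Pi.single_eq_of_ne c.ne.symm]
      push_cast
      ring)
    (fun l => by
      rw [abs_neg]
      by_cases hl : l = c.1.1
      · subst hl
        rw [Pi.single_eq_same]
        push_cast
        rw [abs_of_nonneg (Nat.cast_nonneg i)]
        exact_mod_cast hi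
      · rw [Pi.single_eq_of_ne hl]
        simp)
  rw [vl0_two]
  exact h3

end Crest.Agent.R014.StepQ_870
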