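import Crest.Agent.R014.L3_884
import Crest.Agent.R014.StepQ3_870

/-!
Row 14, block D: (L3) in the literal form `StepQ_870.L3St` (helper884).
-/

set_option autoImplicit false

noncomputable section

namespace Crest.Agent.R014.L3_884

theorem C3_nonneg (n : ℕ) : 0 ≤ C3 n := by
  unfold C3
  positivity

/-- **(L3)** in the form consumed by `StepQ`. -/
theorem l3st (n : ℕ) : StepQ_870.L3St n (C3 n) := by
  intro S R r w hw hR hR' h1 h2 h3
  exact L3 hw hR hR' h1 h2 fun i k j hi hk hj => h3 k i j hk hi hj

end Crest.Agent.R014.L3_884
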