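import Crest.Agent.R014.Nd1_837

set_option autoImplicit false

/-!
Row 14, block D, noise formalism (text #3844 of helper548, split #4103 of helper849): calculus of noise
laws on `SLR n`.

* `Cm e κ κ'`  : `κ` and `κ'` commute up to `e` in total variation, `κ κ' ≈ κ' κ`;
* `Ab e κ' κ`  : `κ` absorbs `κ'` on the left, `κ' κ ≈ κ`;
* `wn hij r`   : the law of `u_ij (2^(-r) θ)`, `θ` uniform in `[-1, 1]`;
* the Heisenberg relations for the noises `wn` and the digit laws `dlaw`.
-/

open MeasureTheory Crest.NumberTheoryR.Packets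
open scoped ENNReal

namespace Crest.Agent.R014.Sw1_640

open Ms_667 Nd_837

variable {n : ℕ}

section Calculus

/-- The noises `κ` and `κ'` commute up to `e`. -/
def Cm (e : ℝ) (κ κ' : Measure (SLR n)) : Prop := TVle (cv κ κ') (cv κ' κ) e

/-- The noise `κ` absorbs `κ'` on the left up to `e`. -/
def Ab (e : ℝ) (κ' κ : Measure (SLR n)) : Prop := TVle (cv κ' κ) κ e

variable {κ κ' κ₁ κ₂ κ₃ : Measure (SLR n)} {e e' e₁ e₂ : ℝ}

theorem Cm.mono (h : Cm e κ κ') (he : e ≤ e') : Cm e' κ κ' := TVle.mono h he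

theorem Ab.mono (h : Ab e κ' κ) (he : e ≤ e') : Ab e' κ' κ := TVle.mono h he

theorem Cm.symm (h : Cm e κ κ') : Cm e κ' κ := TVle.symm h

theorem Cm.nonneg (h : Cm e κ κ') : 0 ≤ e := TVle.nonneg h

theorem Ab.nonneg (h : Ab e κ' κ) : 0 ≤ e := TVle.nonneg h

/-- Commutation with a product. -/
theorem Cm.cv_right [IsProbabilityMeasure κ] [IsProbabilityMeasure κ₁] [IsProbabilityMeasure κ₂]
    (h₁ : Cm e₁ κ κ₁) (h₂ : Cm e₂ κ κ₂) : Cm (e₁ + e₂) κ (cv κ₁ κ₂) := by
  unfold Cm at *
  have a1 : TVle (cv κ (cv κ₁ κ₂)) (cv (cv κ₁ κ) κ₂) e₁ := by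
    rw [← cv_assoc]
    exact h₁.cv_left
  have a2 : TVle (cv (cv κ₁ κ) κ₂) (cv (cv κ₁ κ₂) κ) e₂ := by
    rw [cv_assoc, cv_assoc]
    exact h₂.cv_right
  exact a1.trans a2

/-- Commutation of a product. -/
theorem Cm.cv_left [IsProbabilityMeasure κ] [IsProbabilityMeasure κ₁] [IsProbabilityMeasure κ₂]
    (h₁ : Cm e₁ κ₁ κ) (h₂ : Cm e₂ κ₂ κ) : Cm (e₁ + e₂) (cv κ₁ κ₂) κ :=
  (Cm.cv_right h₁.symm h₂.symm).symm

/-- Only the leftmost factor has to absorb. -/
theorem Ab.cv_right [IsProbabilityMeasure κ'] [IsProbabilityMeasure κ₁] [IsProbabilityMeasure κ₂]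
    (h : Ab e κ' κ₁) : Ab e κ' (cv κ₁ κ₂) := by
  unfold Ab at *
  rw [← cv_assoc]
  exact TVle.cv_left h

/-- Absorption of a product. -/
theorem Ab.cv_left [IsProbabilityMeasure κ] [IsProbabilityMeasure κ₁] [IsProbabilityMeasure κ₂]
    (h₁ : Ab e₁ κ₁ κ) (h₂ : Ab e₂ κ₂ κ) : Ab (e₁ + e₂) (cv κ₁ κ₂) κ := by
  unfold Ab at *
  have a1 : TVle (cv (cv κ₁ κ₂) κ) (cv κ₁ κ) e₂ := by
    rw [cv_assoc]
    exact h₂.cv_right
  exact (a1.trans h₁).mono (by linarith)

/-- Conjugation. -/
theorem Cm.conj (a : SLR n) [IsProbabilityMeasure κ] [IsProbabilityMeasure κ'] (h : Cm e κ κ') :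
    Cm e (cj a κ) (cj a κ') := by
  unfold Cm at *
  rw [← cj_cv, ← cj_cv]
  exact TVle.cj a h

theorem Ab.conj (a : SLR n) [IsProbabilityMeasure κ] [IsProbabilityMeasure κ'] (h : Ab e κ' κ) :
    Ab e (cj a κ') (cj a κ) := by
  unfold Ab at *
  rw [← cj_cv]
  exact TVle.cj a h

/-- **The basic exchange**: if `κ` absorbs `κ'` and commutes with `l`, then `κ' l κ ≈ κ l`. -/
theorem exch {l : Measure (SLR n)} [IsProbabilityMeasure κ] [IsProbabilityMeasure κ']
    [IsProbabilityMeasure l] (h₁ : Cm e₁ l κ) (h₂ : Ab e₂ κ' κ) :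
    TVle (cv (cv κ' l) κ) (cv κ l) (e₁ + e₂) := by
  have a1 : TVle (cv (cv κ' l) κ) (cv (cv κ' κ) l) e₁ := by
    rw [cv_assoc, cv_assoc]
    exact TVle.cv_right h₁
  exact a1.trans (TVle.cv_left h₂)

/-- The exchange with a further noise on the right which is absorbed as well:
`κ' l κ'' κ ≈ κ l`. -/
theorem exch₂ {l κ'' : Measure (SLR n)} [IsProbabilityMeasure κ] [IsProbabilityMeasure κ']
    [IsProbabilityMeasure κ''] [IsProbabilityMeasure l] (h₁ : Cm e₁ l κ) (h₂ : Ab e₂ κ' κ)
    {e₃ : ℝ} (h₃ : Ab e₃ κ'' κ) :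
    TVle (cv (cv (cv κ' l) κ'') κ) (cv κ l) (e₁ + e₂ + e₃) := by
  have a1 : TVle (cv (cv (cv κ' l) κ'') κ) (cv (cv κ' l) κ) e₃ := by
    rw [cv_assoc (cv κ' l)]
    exact TVle.cv_right h₃
  exact (a1.trans (exch h₁ h₂)).mono (by linarith)

section Mix

variable {W : Type*} [MeasurableSpace W] {ρ : Measure W} [IsProbabilityMeasure ρ] {F : W → SLR n}

theorem isProb_map (hF : Measurable F) : IsProbabilityMeasure (ρ.map F) :=
  Measure.isProbabilityMeasure_map hF.aemeasurable

theorem map_prod_eq (hF : Measurable F) [SFinite κ'] :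
    cv (ρ.map F) κ' = (ρ.prod κ').map fun p => F p.1 * p.2 := by
  have h1 : (ρ.map F).prod κ' = (ρ.prod κ').map (Prod.map F id) := by
    conv_lhs => rw [← Measure.map_id (μ := κ')]
    exact Measure.map_prod_map ρ κ' hF measurable_id
  unfold cv
  rw [h1, Measure.map_map measurable_mul₂ (hF.prodMap measurable_id)]
  rfl

theorem map_prod_eq' (hF : Measurable F) [SFinite κ'] :
    cv κ' (ρ.map F) = (ρ.prod κ').map fun p => p.2 * F p.1 := by
  have h1 : κ'.prod (ρ.map F) = (ρ.prod κ').map (fun p => (p.2, F p.1)) := by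
    have h2 : κ'.prod (ρ.map F) = (κ'.prod ρ).map (Prod.map id F) := by
      conv_lhs => rw [← Measure.map_id (μ := κ')]
      exact Measure.map_prod_map κ' ρ measurable_id hF
    rw [h2, ← Measure.prod_swap (μ := ρ) (ν := κ'),
      Measure.map_map (measurable_id.prodMap hF) measurable_swap]
    rfl
  unfold cv
  have h3 : Measurable fun p : W × SLR n => (p.2, F p.1) :=
    measurable_snd.prodMk (hF.comp measurable_fst)
  rw [h1, Measure.map_map measurable_mul₂ h3]
  rfl

/-- Commutation from commutation with every element. -/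
theorem Cm.of_map (hF : Measurable F) [IsProbabilityMeasure κ']
    (h : ∀ᵐ w ∂ρ, TVle (κ'.map fun x => F w * x) (κ'.map fun x => x * F w) e) :
    Cm e (ρ.map F) κ' := by
  unfold Cm
  rw [map_prod_eq hF, map_prod_eq' hF]
  exact TVle.mix (F := fun p : W × SLR n => F p.1 * p.2) (F' := fun p : W × SLR n => p.2 * F p.1)
    ((hF.comp measurable_fst).mul measurable_snd) (measurable_snd.mul (hF.comp measurable_fst)) h

/-- Absorption from absorption of every element. -/
theorem Ab.of_map (hF : Measurable F) [IsProbabilityMeasure κ]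
    (h : ∀ᵐ w ∂ρ, TVle (κ.map fun x => F w * x) κ e) : Ab e (ρ.map F) κ := by
  have h1 : (ρ.prod κ).map (fun p => p.2) = κ := by
    rw [Measure.map_snd_prod, measure_univ, one_smul]
  unfold Ab
  rw [map_prod_eq hF]
  have h2 : TVle ((ρ.prod κ).map fun p => F p.1 * p.2) ((ρ.prod κ).map fun p => p.2) e := by
    refine TVle.mix (F := fun p : W × SLR n => F p.1 * p.2) (F' := fun p : W × SLR n => p.2)
      ((hF.comp measurable_fst).mul measurable_snd) measurable_snd ?_
    filter_upwards [h] with w hw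
    have h3 : (κ.map fun x : SLR n => x) = κ := Measure.map_id
    rw [h3]
    exact hw
  rwa [h1] at h2

theorem cj_map_mul (g : SLR n) (κ : Measure (SLR n)) :
    (cj g κ).map (fun x => g * x) = κ.map fun x => x * g := by
  unfold Nd_837.cj
  have h1 : Measurable fun x : SLR n => g * x := measurable_const.mul measurable_id
  rw [Measure.map_map h1 (measurable_cj g)]
  congr 1
  funext x
  simp only [Function.comp_apply]
  group

/-- Commutation in terms of conjugations. -/
theorem Cm.of_cj (hF : Measurable F) [IsProbabilityMeasure κ']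
    (h : ∀ᵐ w ∂ρ, TVle (cj (F w) κ') κ' e) : Cm e (ρ.map F) κ' := by
  refine Cm.of_map hF ?_
  filter_upwards [h] with w hw
  have h1 := (hw.map (f := fun x => F w * x) (measurable_const.mul measurable_id)).symm
  rwa [cj_map_mul] at h1

end Mix

end Calculus

section Unipotent

variable {i j k l : Fin n}

/-- The uniform noise on `u_ij [-2^(-r), 2^(-r)]`. -/
noncomputable def wn (hij : i ≠ j) (r : ℝ) : Measure (SLR n) :=
  uni.map fun θ => uu hij ((2 : ℝ) ^ (-r) * θ)

theorem measurable_uu (hij : i ≠ j) : Measurable (uu hij : ℝ → SLR n) := (continuous_uu hij).measurable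

theorem measurable_wn (hij : i ≠ j) (r : ℝ) :
    Measurable fun θ : ℝ => (uu hij ((2 : ℝ) ^ (-r) * θ) : SLR n) :=
  (measurable_uu hij).comp (measurable_const.mul measurable_id)

instance (hij : i ≠ j) (r : ℝ) : IsProbabilityMeasure (wn hij r) :=
  Measure.isProbabilityMeasure_map (measurable_wn hij r).aemeasurable

theorem uni_ae : ∀ᵐ θ ∂uni, |θ| ≤ 1 := by
  unfold uni
  refine Measure.ae_smul_measure ?_ _
  rw [ae_restrict_iff' measurableSet_Icc]
  exact Filter.Eventually.of_forall fun θ hθ => abs_le.2 hθ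

theorem cj_wn (hij : i ≠ j) (t : Fin n → ℝ) (r : ℝ) :
    cj (aT t) (wn hij r) = wn hij (r + (t i - t j)) := by
  unfold cj wn
  rw [Measure.map_map (measurable_cj _) (measurable_wn hij r)]
  congr 1
  funext θ
  simp only [Function.comp_apply]
  rw [aT_conj_uu hij]
  congr 1
  rw [← mul_assoc, ← Real.rpow_add two_pos]
  congr 2
  ring

/-- Shifts of the uniform law. -/
theorem uni_shift (h : ℝ) : TVle (uni.map fun θ => θ + h) uni (|h| / 2) := by
  intro A hA
  have hm : Measurable fun θ : ℝ => θ + h := measurable_id.add measurable_const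
  rw [map_measureReal_apply hm hA]
  have key : ∀ B : Set ℝ, MeasurableSet B → uni.real B = (volume (B ∩ Set.Icc (-1) 1)).toReal / 2 := by
    intro B hB
    unfold uni
    rw [measureReal_def, Measure.smul_apply, Measure.restrict_apply hB, smul_eq_mul,
      ENNReal.toReal_mul, ENNReal.toReal_inv]
    norm_num
    ring
  rw [key _ (hm hA), key _ hA]
  have h1 : volume (((fun θ : ℝ => θ + h) ⁻¹' A) ∩ Set.Icc (-1) 1)
      = volume (A ∩ Set.Icc (-1 + h) (1 + h)) := by
    rw [← measure_preimage_add_right volume h (A ∩ Set.Icc (-1 + h) (1 + h))]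
    congr 1
    ext θ
    simp only [Set.mem_inter_iff, Set.mem_preimage, Set.mem_Icc]
    constructor
    · rintro ⟨h1, h2, h3⟩
      exact ⟨h1, by linarith, by linarith⟩
    · rintro ⟨h1, h2, h3⟩
      exact ⟨h1, by linarith, by linarith⟩
  rw [h1]
  have hfin : ∀ (B : Set ℝ) (a b : ℝ), volume (B ∩ Set.Icc a b) ≠ ∞ := fun B a b =>
    ((measure_mono Set.inter_subset_right).trans_lt measure_Icc_lt_top).ne
  -- one sided bound
  have one : ∀ (a b a' b' : ℝ), (volume (A ∩ Set.Icc a b)).toReal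
      ≤ (volume (A ∩ Set.Icc a' b')).toReal + (volume (Set.Icc a b \ Set.Icc a' b')).toReal := by
    intro a b a' b'
    have h2 : volume (Set.Icc a b \ Set.Icc a' b') ≠ ∞ :=
      ((measure_mono Set.diff_subset).trans_lt measure_Icc_lt_top).ne
    rw [← ENNReal.toReal_add (hfin _ _ _) h2]
    refine ENNReal.toReal_mono (ENNReal.add_ne_top.2 ⟨hfin _ _ _, h2⟩) ?_
    refine (measure_mono ?_).trans (measure_union_le _ _)
    rintro x ⟨hx1, hx2⟩
    by_cases hx : x ∈ Set.Icc a' b'
    · exact Or.inl ⟨hx1, hx⟩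
    · exact Or.inr ⟨hx2, hx⟩
  have d1 : (volume (Set.Icc (-1 + h) (1 + h) \ Set.Icc (-1) 1)).toReal ≤ |h| := by
    rcases le_total 0 h with hh | hh
    · have : Set.Icc (-1 + h) (1 + h) \ Set.Icc (-1) 1 ⊆ Set.Ioc 1 (1 + h) := by
        rintro x ⟨⟨h2, h3⟩, h4⟩
        refine ⟨?_, h3⟩
        by_contra h5
        exact h4 ⟨by linarith, not_lt.1 h5⟩
      have h6 := measure_mono (μ := volume) this
      rw [Real.volume_Ioc] at h6
      refine (ENNReal.toReal_mono ENNReal.ofReal_ne_top h6).trans ?_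
      rw [ENNReal.toReal_ofReal (by linarith), abs_of_nonneg hh]
      linarith
    · have : Set.Icc (-1 + h) (1 + h) \ Set.Icc (-1) 1 ⊆ Set.Ico (-1 + h) (-1) := by
        rintro x ⟨⟨h2, h3⟩, h4⟩
        refine ⟨h2, ?_⟩
        by_contra h5
        exact h4 ⟨not_lt.1 h5, by linarith⟩
      have h6 := measure_mono (μ := volume) this
      rw [Real.volume_Ico] at h6
      refine (ENNReal.toReal_mono ENNReal.ofReal_ne_top h6).trans ?_
      rw [ENNReal.toReal_ofReal (by linarith), abs_of_nonpos hh]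
      linarith
  have d2 : (volume (Set.Icc (-1 : ℝ) 1 \ Set.Icc (-1 + h) (1 + h))).toReal ≤ |h| := by
    rcases le_total 0 h with hh | hh
    · have : Set.Icc (-1 : ℝ) 1 \ Set.Icc (-1 + h) (1 + h) ⊆ Set.Ico (-1) (-1 + h) := by
        rintro x ⟨⟨h2, h3⟩, h4⟩
        refine ⟨h2, ?_⟩
        by_contra h5
        exact h4 ⟨not_lt.1 h5, by linarith⟩
      have h6 := measure_mono (μ := volume) this
      rw [Real.volume_Ico] at h6
      refine (ENNReal.toReal_mono ENNReal.ofReal_ne_top h6).trans ?_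
      rw [ENNReal.toReal_ofReal (by linarith), abs_of_nonneg hh]
      linarith
    · have : Set.Icc (-1 : ℝ) 1 \ Set.Icc (-1 + h) (1 + h) ⊆ Set.Ioc (1 + h) 1 := by
        rintro x ⟨⟨h2, h3⟩, h4⟩
        refine ⟨?_, h3⟩
        by_contra h5
        exact h4 ⟨by linarith, not_lt.1 h5⟩
      have h6 := measure_mono (μ := volume) this
      rw [Real.volume_Ioc] at h6
      refine (ENNReal.toReal_mono ENNReal.ofReal_ne_top h6).trans ?_
      rw [ENNReal.toReal_ofReal (by linarith), abs_of_nonpos hh]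
      linarith
  have e1 := one (-1 + h) (1 + h) (-1) 1
  have e2 := one (-1) 1 (-1 + h) (1 + h)
  rw [abs_le]
  constructor <;> linarith

/-- Right or left shifts of the unipotent noise. -/
theorem wn_shift (hij : i ≠ j) (r s : ℝ) :
    TVle ((wn hij r).map fun x => uu hij s * x) (wn hij r) ((2 : ℝ) ^ r * |s| / 2) := by
  unfold wn
  have h1 : Measurable fun x : SLR n => uu hij s * x := measurable_const.mul measurable_id
  have h2 : (uni.map fun θ => uu hij ((2 : ℝ) ^ (-r) * θ)).map (fun x => uu hij s * x)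
      = (uni.map fun θ => θ + (2 : ℝ) ^ r * s).map fun θ => (uu hij ((2 : ℝ) ^ (-r) * θ) : SLR n) := by
    have h3 : Measurable fun θ : ℝ => θ + (2 : ℝ) ^ r * s := measurable_id.add measurable_const
    rw [Measure.map_map h1 (measurable_wn hij r), Measure.map_map (measurable_wn hij r) h3]
    congr 1
    funext θ
    simp only [Function.comp_apply]
    rw [← uu_add]
    congr 1
    rw [mul_add, ← mul_assoc, ← Real.rpow_add two_pos, neg_add_cancel, Real.rpow_zero, one_mul,
      add_comm]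
  rw [h2]
  refine ((uni_shift ((2 : ℝ) ^ r * s)).map (measurable_wn hij r)).mono (le_of_eq ?_)
  rw [abs_mul, abs_of_pos (Real.rpow_pos_of_pos two_pos _)]

theorem wn_shift' (hij : i ≠ j) (r s : ℝ) :
    TVle ((wn hij r).map fun x => x * uu hij s) (wn hij r) ((2 : ℝ) ^ r * |s| / 2) := by
  have h : ((wn hij r).map fun x => x * uu hij s) = (wn hij r).map fun x => uu hij s * x := by
    unfold wn
    have h1 : Measurable fun x : SLR n => uu hij s * x := measurable_const.mul measurable_id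
    have h2 : Measurable fun x : SLR n => x * uu hij s := measurable_id.mul measurable_const
    rw [Measure.map_map h1 (measurable_wn hij r), Measure.map_map h2 (measurable_wn hij r)]
    congr 1
    funext θ
    simp only [Function.comp_apply]
    rw [← uu_add, ← uu_add, add_comm]
  rw [h]
  exact wn_shift hij r s

/-! ### Heisenberg relations -/

theorem comm_kl_jl (hkl : k ≠ l) (hjl : j ≠ l) (s t : ℝ) :
    (uu hkl s : SLR n) * uu hjl t = uu hjl t * uu hkl s := by
  apply Subtype.ext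
  change (uu hkl s).1 * (uu hjl t).1 = (uu hjl t).1 * (uu hkl s).1
  rw [uu_val, uu_val, Matrix.add_mul, Matrix.mul_add, Matrix.mul_add, Matrix.add_mul,
    Matrix.mul_add, Matrix.mul_add, Matrix.single_mul_single_of_ne _ _ _ _ hjl.symm,
    Matrix.single_mul_single_of_ne _ _ _ _ hkl.symm]
  simp only [Matrix.mul_one, Matrix.one_mul]
  abel

theorem comm_jk_jl (hjk : j ≠ k) (hjl : j ≠ l) (s t : ℝ) :
    (uu hjk s : SLR n) * uu hjl t = uu hjl t * uu hjk s := by
  apply Subtype.ext
  change (uu hjk s).1 * (uu hjl t).1 = (uu hjl t).1 * (uu hjk s).1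
  rw [uu_val, uu_val, Matrix.add_mul, Matrix.mul_add, Matrix.mul_add, Matrix.add_mul,
    Matrix.mul_add, Matrix.mul_add, Matrix.single_mul_single_of_ne _ _ _ _ hjk.symm,
    Matrix.single_mul_single_of_ne _ _ _ _ hjl.symm]
  simp only [Matrix.mul_one, Matrix.one_mul]
  abel

theorem comm_jk_kl (hjk : j ≠ k) (hkl : k ≠ l) (hjl : j ≠ l) (s t : ℝ) :
    (uu hjk s : SLR n) * uu hkl t = uu hkl t * uu hjk s * uu hjl (s * t) := by
  apply Subtype.ext
  change (uu hjk s).1 * (uu hkl t).1 = (uu hkl t).1 * (uu hjk s).1 * (uu hjl (s * t)).1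
  rw [uu_val, uu_val, uu_val]
  have h1 : (Matrix.single j k s : Matrix (Fin n) (Fin n) ℝ) * Matrix.single k l t
      = Matrix.single j l (s * t) := Matrix.single_mul_single_same _ _ _ _ _
  have h2 : (Matrix.single k l t : Matrix (Fin n) (Fin n) ℝ) * Matrix.single j k s = 0 :=
    Matrix.single_mul_single_of_ne _ _ _ _ hjl.symm _
  have h3 : (Matrix.single k l t : Matrix (Fin n) (Fin n) ℝ) * Matrix.single j l (s * t) = 0 :=
    Matrix.single_mul_single_of_ne _ _ _ _ hjl.symm _
  have h4 : (Matrix.single j k s : Matrix (Fin n) (Fin n) ℝ) * Matrix.single j l (s * t) = 0 :=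
    Matrix.single_mul_single_of_ne _ _ _ _ hjk.symm _
  simp only [Matrix.add_mul, Matrix.mul_add, Matrix.mul_one, Matrix.one_mul, h1, h2, h3, h4,
    zero_mul, add_zero]
  abel

section Digit

variable {W : Type*} [MeasurableSpace W] {ρ : Measure W} [IsProbabilityMeasure ρ] {σ : W → ℝ}

/-- A `kl`-law commutes exactly with the `jl`-noise. -/
theorem Cm_kl_jl (hkl : k ≠ l) (hjl : j ≠ l) (hσ : Measurable σ) (c : ℝ) :
    Cm 0 (ρ.map fun w => (uu hkl (σ w) : SLR n)) (wn hjl c) := by
  refine Cm.of_map ((measurable_uu hkl).comp hσ) (Filter.Eventually.of_forall fun w => ?_)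
  unfold wn
  have h1 : Measurable fun x : SLR n => uu hkl (σ w) * x := measurable_const.mul measurable_id
  have h2 : Measurable fun x : SLR n => x * uu hkl (σ w) := measurable_id.mul measurable_const
  rw [Measure.map_map h1 (measurable_wn hjl c), Measure.map_map h2 (measurable_wn hjl c)]
  have h3 : ((fun x : SLR n => uu hkl (σ w) * x) ∘ fun θ => uu hjl ((2 : ℝ) ^ (-c) * θ))
      = (fun x : SLR n => x * uu hkl (σ w)) ∘ fun θ => uu hjl ((2 : ℝ) ^ (-c) * θ) := by
    funext θ
    exact comm_kl_jl hkl hjl _ _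
  rw [h3]
  exact TVle.refl _

/-- A `jk`-law commutes exactly with the `jl`-noise. -/
theorem Cm_jk_jl (hjk : j ≠ k) (hjl : j ≠ l) (hσ : Measurable σ) (c : ℝ) :
    Cm 0 (ρ.map fun w => (uu hjk (σ w) : SLR n)) (wn hjl c) := by
  refine Cm.of_map ((measurable_uu hjk).comp hσ) (Filter.Eventually.of_forall fun w => ?_)
  unfold wn
  have h1 : Measurable fun x : SLR n => uu hjk (σ w) * x := measurable_const.mul measurable_id
  have h2 : Measurable fun x : SLR n => x * uu hjk (σ w) := measurable_id.mul measurable_const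
  rw [Measure.map_map h1 (measurable_wn hjl c), Measure.map_map h2 (measurable_wn hjl c)]
  have h3 : ((fun x : SLR n => uu hjk (σ w) * x) ∘ fun θ => uu hjl ((2 : ℝ) ^ (-c) * θ))
      = (fun x : SLR n => x * uu hjk (σ w)) ∘ fun θ => uu hjl ((2 : ℝ) ^ (-c) * θ) := by
    funext θ
    exact comm_jk_jl hjk hjl _ _
  rw [h3]
  exact TVle.refl _

/-- A `jl`-law commutes exactly with the `jk`-noise. -/
theorem Cm_jl_jk (hjk : j ≠ k) (hjl : j ≠ l) (hσ : Measurable σ) (a : ℝ) :
    Cm 0 (ρ.map fun w => (uu hjl (σ w) : SLR n)) (wn hjk a) := by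
  refine Cm.of_map ((measurable_uu hjl).comp hσ) (Filter.Eventually.of_forall fun w => ?_)
  unfold wn
  have h1 : Measurable fun x : SLR n => uu hjl (σ w) * x := measurable_const.mul measurable_id
  have h2 : Measurable fun x : SLR n => x * uu hjl (σ w) := measurable_id.mul measurable_const
  rw [Measure.map_map h1 (measurable_wn hjk a), Measure.map_map h2 (measurable_wn hjk a)]
  have h3 : ((fun x : SLR n => uu hjl (σ w) * x) ∘ fun θ => uu hjk ((2 : ℝ) ^ (-a) * θ))
      = (fun x : SLR n => x * uu hjl (σ w)) ∘ fun θ => uu hjk ((2 : ℝ) ^ (-a) * θ) := by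
    funext θ
    exact (comm_jk_jl hjk hjl _ _).symm
  rw [h3]
  exact TVle.refl _

/-- A `jl`-law commutes exactly with the `kl`-noise. -/
theorem Cm_jl_kl (hkl : k ≠ l) (hjl : j ≠ l) (hσ : Measurable σ) (b : ℝ) :
    Cm 0 (ρ.map fun w => (uu hjl (σ w) : SLR n)) (wn hkl b) := by
  refine Cm.of_map ((measurable_uu hjl).comp hσ) (Filter.Eventually.of_forall fun w => ?_)
  unfold wn
  have h1 : Measurable fun x : SLR n => uu hjl (σ w) * x := measurable_const.mul measurable_id
  have h2 : Measurable fun x : SLR n => x * uu hjl (σ w) := measurable_id.mul measurable_const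
  rw [Measure.map_map h1 (measurable_wn hkl b), Measure.map_map h2 (measurable_wn hkl b)]
  have h3 : ((fun x : SLR n => uu hjl (σ w) * x) ∘ fun θ => uu hkl ((2 : ℝ) ^ (-b) * θ))
      = (fun x : SLR n => x * uu hjl (σ w)) ∘ fun θ => uu hkl ((2 : ℝ) ^ (-b) * θ) := by
    funext θ
    exact (comm_kl_jl hkl hjl _ _).symm
  rw [h3]
  exact TVle.refl _

/-- The product of the `kl`- and `jl`-noises as the law of a function of two variables. -/
theorem cv_wn_wn (hkl : k ≠ l) (hjl : j ≠ l) (b c : ℝ) :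
    cv (wn hkl b) (wn hjl c) = (uni.prod (wn hjl c)).map
      fun p => (uu hkl ((2 : ℝ) ^ (-b) * p.1) : SLR n) * p.2 := by
  rw [wn, map_prod_eq (measurable_wn hkl b)]

/-- **Heisenberg commutation.** A `jk`-law at depth `a` commutes with the product of the `kl`-noise at
depth `b` and the `jl`-noise at depth `c` up to `2^(c-a-b)/2`. -/
theorem Cm_jk (hjk : j ≠ k) (hkl : k ≠ l) (hjl : j ≠ l) (hσ : Measurable σ) {a : ℝ}
    (ha : ∀ᵐ w ∂ρ, |σ w| ≤ (2 : ℝ) ^ (-a)) (b c : ℝ) :
    Cm ((2 : ℝ) ^ (c - a - b) / 2) (ρ.map fun w => (uu hjk (σ w) : SLR n))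
      (cv (wn hkl b) (wn hjl c)) := by
  refine Cm.of_map ((measurable_uu hjk).comp hσ) ?_
  filter_upwards [ha] with w hw
  have h1 : Measurable fun x : SLR n => uu hjk (σ w) * x := measurable_const.mul measurable_id
  have h2 : Measurable fun x : SLR n => x * uu hjk (σ w) := measurable_id.mul measurable_const
  have h0 : Measurable fun p : ℝ × SLR n => (uu hkl ((2 : ℝ) ^ (-b) * p.1) : SLR n) * p.2 :=
    ((measurable_wn hkl b).comp measurable_fst).mul measurable_snd
  rw [cv_wn_wn hkl hjl, Measure.map_map h1 h0, Measure.map_map h2 h0]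
  refine TVle.mix (κ := uni)
    (F := (fun x : SLR n => uu hjk (σ w) * x) ∘ fun p : ℝ × SLR n =>
      (uu hkl ((2 : ℝ) ^ (-b) * p.1) : SLR n) * p.2)
    (F' := (fun x : SLR n => x * uu hjk (σ w)) ∘ fun p : ℝ × SLR n =>
      (uu hkl ((2 : ℝ) ^ (-b) * p.1) : SLR n) * p.2) (h1.comp h0) (h2.comp h0) ?_
  filter_upwards [uni_ae] with θ hθ
  simp only [Function.comp_apply]
  -- `u_jk(s) u_kl(t) x = u_kl(t) u_jl(s t) x u_jk(s)` for `x` in the support of the `jl`-noise
  have e1 : (wn hjl c).map (fun x => uu hjk (σ w) * (uu hkl ((2 : ℝ) ^ (-b) * θ) * x))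
      = ((wn hjl c).map (fun x => uu hjl (σ w * ((2 : ℝ) ^ (-b) * θ)) * x)).map
        fun x => uu hkl ((2 : ℝ) ^ (-b) * θ) * x * uu hjk (σ w) := by
    unfold wn
    have m1 : Measurable fun x : SLR n => uu hjk (σ w) * (uu hkl ((2 : ℝ) ^ (-b) * θ) * x) :=
      measurable_const.mul (measurable_const.mul measurable_id)
    have m2 : Measurable fun x : SLR n => uu hjl (σ w * ((2 : ℝ) ^ (-b) * θ)) * x :=
      measurable_const.mul measurable_id
    have m3 : Measurable fun x : SLR n => uu hkl ((2 : ℝ) ^ (-b) * θ) * x * uu hjk (σ w) :=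
      (measurable_const.mul measurable_id).mul measurable_const
    rw [Measure.map_map m1 (measurable_wn hjl c), Measure.map_map m2 (measurable_wn hjl c),
      Measure.map_map m3 (m2.comp (measurable_wn hjl c))]
    congr 1
    funext x
    simp only [Function.comp_apply]
    rw [← mul_assoc, comm_jk_kl hjk hkl hjl, mul_assoc _ (uu hjl (σ w * ((2 : ℝ) ^ (-b) * θ))),
      ← uu_add, mul_assoc, comm_jk_jl hjk hjl, ← mul_assoc]
  rw [e1]
  have e2 : (wn hjl c).map (fun x => uu hkl ((2 : ℝ) ^ (-b) * θ) * x * uu hjk (σ w))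
      = ((wn hjl c).map (fun x => x)).map
        fun x => uu hkl ((2 : ℝ) ^ (-b) * θ) * x * uu hjk (σ w) := by
    rw [Measure.map_id']
  rw [e2]
  refine TVle.map (((measurable_const.mul measurable_id).mul measurable_const)) ?_
  rw [Measure.map_id']
  refine (wn_shift hjl c _).mono ?_
  rw [abs_mul, abs_mul, abs_of_pos (Real.rpow_pos_of_pos two_pos _)]
  have h5 : |σ w| * ((2 : ℝ) ^ (-b) * |θ|) ≤ (2 : ℝ) ^ (-a) * ((2 : ℝ) ^ (-b) * 1) :=
    mul_le_mul hw (mul_le_mul_of_nonneg_left hθ (Real.rpow_pos_of_pos two_pos _).le)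
      (by positivity) (by positivity)
  have h6 : (2 : ℝ) ^ c * ((2 : ℝ) ^ (-a) * ((2 : ℝ) ^ (-b) * 1)) = (2 : ℝ) ^ (c - a - b) := by
    rw [mul_one, ← Real.rpow_add two_pos, ← Real.rpow_add two_pos]
    congr 1
    ring
  have h7 := mul_le_mul_of_nonneg_left h5 (Real.rpow_pos_of_pos two_pos c).le
  linarith

/-- **Heisenberg commutation.** A `kl`-law at depth `b` commutes with the product of the `jk`-noise at
depth `a` and the `jl`-noise at depth `c` up to `2^(c-a-b)/2`. -/
theorem Cm_kl (hjk : j ≠ k) (hkl : k ≠ l) (hjl : j ≠ l) (hσ : Measurable σ) {b : ℝ}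
    (hb : ∀ᵐ w ∂ρ, |σ w| ≤ (2 : ℝ) ^ (-b)) (a c : ℝ) :
    Cm ((2 : ℝ) ^ (c - a - b) / 2) (ρ.map fun w => (uu hkl (σ w) : SLR n))
      (cv (wn hjk a) (wn hjl c)) := by
  refine Cm.of_map ((measurable_uu hkl).comp hσ) ?_
  filter_upwards [hb] with w hw
  have h1 : Measurable fun x : SLR n => uu hkl (σ w) * x := measurable_const.mul measurable_id
  have h2 : Measurable fun x : SLR n => x * uu hkl (σ w) := measurable_id.mul measurable_const
  have h0 : Measurable fun p : ℝ × SLR n => (uu hjk ((2 : ℝ) ^ (-a) * p.1) : SLR n) * p.2 :=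
    ((measurable_wn hjk a).comp measurable_fst).mul measurable_snd
  have h00 : cv (wn hjk a) (wn hjl c) = (uni.prod (wn hjl c)).map
      fun p => (uu hjk ((2 : ℝ) ^ (-a) * p.1) : SLR n) * p.2 := by
    rw [wn, map_prod_eq (measurable_wn hjk a)]
  rw [h00, Measure.map_map h1 h0, Measure.map_map h2 h0]
  refine TVle.symm (TVle.mix (κ := uni)
    (F := (fun x : SLR n => x * uu hkl (σ w)) ∘ fun p : ℝ × SLR n =>
      (uu hjk ((2 : ℝ) ^ (-a) * p.1) : SLR n) * p.2)
    (F' := (fun x : SLR n => uu hkl (σ w) * x) ∘ fun p : ℝ × SLR n =>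
      (uu hjk ((2 : ℝ) ^ (-a) * p.1) : SLR n) * p.2) (h2.comp h0) (h1.comp h0) ?_)
  filter_upwards [uni_ae] with θ hθ
  simp only [Function.comp_apply]
  have e1 : (wn hjl c).map (fun x => uu hjk ((2 : ℝ) ^ (-a) * θ) * x * uu hkl (σ w))
      = ((wn hjl c).map (fun x => uu hjl ((2 : ℝ) ^ (-a) * θ * σ w) * x)).map
        fun x => uu hkl (σ w) * (uu hjk ((2 : ℝ) ^ (-a) * θ) * x) := by
    unfold wn
    have m1 : Measurable fun x : SLR n => uu hjk ((2 : ℝ) ^ (-a) * θ) * x * uu hkl (σ w) :=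
      (measurable_const.mul measurable_id).mul measurable_const
    have m2 : Measurable fun x : SLR n => uu hjl ((2 : ℝ) ^ (-a) * θ * σ w) * x :=
      measurable_const.mul measurable_id
    have m3 : Measurable fun x : SLR n => uu hkl (σ w) * (uu hjk ((2 : ℝ) ^ (-a) * θ) * x) :=
      measurable_const.mul (measurable_const.mul measurable_id)
    rw [Measure.map_map m1 (measurable_wn hjl c), Measure.map_map m2 (measurable_wn hjl c),
      Measure.map_map m3 (m2.comp (measurable_wn hjl c))]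
    congr 1
    funext x
    simp only [Function.comp_apply]
    rw [mul_assoc, ← comm_kl_jl hkl hjl, ← mul_assoc, comm_jk_kl hjk hkl hjl, mul_assoc, mul_assoc,
      mul_assoc]
  have e2 : (wn hjl c).map (fun x => uu hkl (σ w) * (uu hjk ((2 : ℝ) ^ (-a) * θ) * x))
      = ((wn hjl c).map (fun x => x)).map
        fun x => uu hkl (σ w) * (uu hjk ((2 : ℝ) ^ (-a) * θ) * x) := by
    rw [Measure.map_id']
  rw [e1, e2]
  refine TVle.map (measurable_const.mul (measurable_const.mul measurable_id)) ?_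
  rw [Measure.map_id']
  refine (wn_shift hjl c _).mono ?_
  rw [abs_mul, abs_mul, abs_of_pos (Real.rpow_pos_of_pos two_pos _)]
  have h5 : (2 : ℝ) ^ (-a) * |θ| * |σ w| ≤ (2 : ℝ) ^ (-a) * 1 * (2 : ℝ) ^ (-b) :=
    mul_le_mul (mul_le_mul_of_nonneg_left hθ (Real.rpow_pos_of_pos two_pos _).le) hw
      (abs_nonneg _) (by positivity)
  have h6 : (2 : ℝ) ^ c * ((2 : ℝ) ^ (-a) * 1 * (2 : ℝ) ^ (-b)) = (2 : ℝ) ^ (c - a - b) := by
    rw [mul_one, ← Real.rpow_add two_pos, ← Real.rpow_add two_pos]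
    congr 1
    ring
  have h7 := mul_le_mul_of_nonneg_left h5 (Real.rpow_pos_of_pos two_pos c).le
  linarith

end Digit

end Unipotent

end Crest.Agent.R014.Sw1_640
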