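import Crest.Agent.R014.NScF_395
import Crest.Agent.R014.NS0_373
import Crest.Agent.R014.Sw1_640
import Crest.Agent.R014.Nz3_323

/-!
# Row 14, block D, noise formalism (#3844), STEP q (helper870)

One digit `(i, c)` of the word seen through the noise `κ = ζ_R * v(2^-r θ, θ_c = 0)`: the averaged
posterior spread (joint with `x`) is `Psi_c (x a^t)`, `t_i - t_j = -r`.
-/

set_option autoImplicit false

open MeasureTheory Finset Crest.NumberTheoryR.Packets
open Crest.Agent.R014.Nd_837 Crest.Agent.R014.Ne1_567 Crest.Agent.R014.NScB_395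
open Crest.Agent.R014.NScC_395 Crest.Agent.R014.NScD_395 Crest.Agent.R014.NScE_395
open Crest.Agent.R014.NScF_395 Crest.Agent.R014.Ms_667
open Crest.Agent.R014.Ne3_567 (pv measurable_pv pv_nonneg sum_pv pv_le_one)
open Crest.Agent.R014.NS_373 (CC CC.ne vv vv_add vv_comm vv_single measurable_vv uniC)
open scoped ENNReal

noncomputable section

namespace Crest.Agent.R014.StepQ_870

variable {n : ℕ}

/-! ### the observation from a restricted start -/

theorem tot_lab_fin (μ : Measure (ModSpace n)) (κ : Measure (SLR n)) [IsFiniteMeasure μ]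
    [IsProbabilityMeasure κ] {i j : Fin n} (hij : i ≠ j) (r : ℝ) {b : ℕ} (hb : 0 < b) :
    tot (lab μ κ hij r b) = stp μ (cv κ (dl hij r)) := by
  rw [← stp_stp]
  refine Measure.ext fun A hA => ?_
  rw [tot_apply, stp_apply _ _ hA, dl_eq hij r hb]
  simp only [lab, Measure.smul_apply, Measure.finsetSum_apply, smul_eq_mul]
  have hm : ∀ d : Fin b, Measurable fun x : ModSpace n => dlaw hij r b d {g | act x g ∈ A} :=
    fun d => measurable_stp_aux _ hA
  rw [lintegral_const_mul _ (Finset.measurable_sum _ fun d _ => hm d),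
    lintegral_finsetSum _ fun d _ => hm d, mul_sum]
  exact sum_congr rfl fun d _ => by rw [stp_apply _ _ hA]

/-- the averaged posterior spread, joint with the start -/
theorem integral_ps_restrict (μ : Measure (ModSpace n)) (κ : Measure (SLR n))
    [IsProbabilityMeasure μ] [IsProbabilityMeasure κ] {i j : Fin n} (hij : i ≠ j) (r : ℝ) {b : ℕ}
    [NeZero b] (A : Set (ModSpace n)) :
    ∫ y, ps (lab μ κ hij r b) y ∂(tot (lab (μ.restrict A) κ hij r b)) =
      ∫ x in A, Acv μ κ hij r b x ∂μ := by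
  rw [tot_lab_fin _ κ hij r (Nat.pos_of_ne_zero (NeZero.ne b)),
    integral_stp _ _ (measurable_ps _) (M := 2) fun y => abs_ps_le _ y]
  rfl

theorem tot_restrict_ac (μ : Measure (ModSpace n)) (κ : Measure (SLR n))
    [IsProbabilityMeasure μ] [IsProbabilityMeasure κ] {i j : Fin n} (hij : i ≠ j) (r : ℝ) {b : ℕ}
    [NeZero b] (A : Set (ModSpace n)) :
    tot (lab (μ.restrict A) κ hij r b) ≪ tot (lab μ κ hij r b) := by
  have hb := Nat.pos_of_ne_zero (NeZero.ne b)
  rw [tot_lab_fin _ κ hij r hb, tot_lab_fin _ κ hij r hb]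
  unfold stp
  refine Measure.AbsolutelyContinuous.map ?_ measurable_act₂
  exact Measure.AbsolutelyContinuous.prod Measure.absolutelyContinuous_restrict
    Measure.AbsolutelyContinuous.rfl

/-- the same with the densities instead of the normalised version -/
theorem integral_pr_restrict (μ : Measure (ModSpace n)) (κ : Measure (SLR n))
    [IsProbabilityMeasure μ] [IsProbabilityMeasure κ] {i j : Fin n} (hij : i ≠ j) (r : ℝ) {b : ℕ}
    [NeZero b] (A : Set (ModSpace n)) :
    ∫ y, spr (cen b) (fun d => pr (lab μ κ hij r b) d y) ∂(tot (lab (μ.restrict A) κ hij r b)) =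
      ∫ y, ps (lab μ κ hij r b) y ∂(tot (lab (μ.restrict A) κ hij r b)) := by
  refine integral_congr_ae ?_
  filter_upwards [(tot_restrict_ac μ κ hij r A).ae_le (pv_ae (lab μ κ hij r b))] with y hy
  unfold ps
  congr 1
  funext d
  exact (hy d).symm

/-! ### continuity of `Acv` in the noise -/

section Cont
variable {μ : Measure (ModSpace n)} [IsProbabilityMeasure μ] {κ κ' : Measure (SLR n)}
  [IsProbabilityMeasure κ] [IsProbabilityMeasure κ'] {i j : Fin n} {hij : i ≠ j} {r : ℝ} {b : ℕ}
  [NeZero b] {e : ℝ}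

omit [NeZero b] in
theorem lab_tv (h : ∀ d, TVle (cv κ (dlaw hij r b d)) (cv κ' (dlaw hij r b d)) e) (d : Fin b) :
    TVle (lab μ κ hij r b d) (lab μ κ' hij r b d) (e / b) := by
  unfold lab
  rw [stp_stp, stp_stp]
  have h1 := ((h d).stp_right (μ := μ)).smul (b : ℝ≥0∞)⁻¹
  refine TVle.mono h1 (le_of_eq ?_)
  rw [ENNReal.toReal_inv, ENNReal.toReal_natCast]; ring

theorem cv_dl_tv (h : ∀ d, TVle (cv κ (dlaw hij r b d)) (cv κ' (dlaw hij r b d)) e) :
    TVle (cv κ (dl hij r)) (cv κ' (dl hij r)) e := by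
  have hb : 0 < b := Nat.pos_of_ne_zero (NeZero.ne b)
  rw [dl_eq hij r hb, cv_smul, cv_smul, cv_sum, cv_sum]
  exact TVle.avg hb h

theorem acv_tv (h : ∀ d, TVle (cv κ (dlaw hij r b d)) (cv κ' (dlaw hij r b d)) e) :
    ∫ x, |Acv μ κ hij r b x - Acv μ κ' hij r b x| ∂μ ≤ (8 * b + 12) * e := by
  have hb : 0 < b := Nat.pos_of_ne_zero (NeZero.ne b)
  have hb' : (b:ℝ) ≠ 0 := by exact_mod_cast NeZero.ne b
  set ρ := lab μ κ hij r b with hρ
  set ρ' := lab μ κ' hij r b with hρ'
  have hm := measurable_ps ρ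
  have hm' := measurable_ps ρ'
  -- the pointwise difference of the spreads
  set F : ModSpace n → ℝ := fun y => |ps ρ y - ps ρ' y| with hF
  have hFm : Measurable F := (hm.sub hm').abs
  have hFb : ∀ y, |F y| ≤ 2 := by
    intro y
    rw [hF]
    simp only [abs_abs]
    rw [abs_le]
    constructor <;> linarith [ps_nonneg ρ y, ps_nonneg ρ' y, ps_le ρ y, ps_le ρ' y]
  have h1 : ∫ y, F y ∂(tot ρ) ≤ 4 * (2 * b * (1 + b) * (e / b)) := by
    have h2 := post_compare ρ' ρ (e := e / b) fun d => (lab_tv (μ := μ) h d).symm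
    set G : ModSpace n → ℝ := fun y => ∑ c, |pr ρ c y - pv ρ' c y| with hG
    have hGm : Measurable G := Finset.measurable_sum _ fun d _ =>
      ((measurable_pr ρ d).sub (measurable_pv ρ' d)).abs
    have ae2 : ∀ᵐ y ∂(tot ρ), ∀ c, pr ρ c y ≤ 1 := ae_all_iff.2 fun c => pr_le_one ρ c
    have hGi : Integrable G (tot ρ) := by
      have hPf : IsFiniteMeasure (tot ρ) := by
        rw [hρ, tot_lab_eq μ κ hij r hb]; infer_instance
      refine Integrable.of_bound hGm.aestronglyMeasurable b ?_
      filter_upwards [ae2] with y hy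
      rw [Real.norm_eq_abs, abs_of_nonneg (sum_nonneg fun d _ => abs_nonneg _)]
      have : G y ≤ ∑ _d : Fin b, (1:ℝ) := sum_le_sum fun d _ => by
        rw [abs_le]
        constructor
        · linarith [pr_nonneg ρ d y, pv_le_one ρ' d y]
        · linarith [pv_nonneg ρ' d y, hy d]
      simpa using this
    have hPf : IsFiniteMeasure (tot ρ) := by
      rw [hρ, tot_lab_eq μ κ hij r hb]; infer_instance
    have h3 : ∫ y, F y ∂(tot ρ) ≤ ∫ y, 4 * G y ∂(tot ρ) := by
      refine integral_mono_ae (bdd_integrable hFm hFb) (hGi.const_mul 4) ?_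
      filter_upwards [pv_ae ρ] with y hy
      refine (ps_lip ρ ρ' y y).trans (mul_le_mul_of_nonneg_left ?_ (by norm_num))
      exact sum_le_sum fun c _ => by rw [hy c]
    rw [integral_const_mul] at h3
    simp only [Fintype.card_fin] at h2
    linarith
  have htot : tot ρ = stp μ (cv κ (dl hij r)) := tot_lab_eq μ κ hij r hb
  rw [htot, integral_stp μ _ hFm hFb] at h1
  -- pointwise
  have h4 : ∀ x, |Acv μ κ hij r b x - Acv μ κ' hij r b x| ≤
      (∫ g, F (act x g) ∂(cv κ (dl hij r))) + 4 * e := by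
    intro x
    have i1 : Integrable (fun g => ps ρ (act x g)) (cv κ (dl hij r)) :=
      bdd_integrable (hm.comp (measurable_act₂.comp measurable_prodMk_left)) (M := 2)
        fun g => abs_ps_le ρ _
    have i2 : Integrable (fun g => ps ρ' (act x g)) (cv κ (dl hij r)) :=
      bdd_integrable (hm'.comp (measurable_act₂.comp measurable_prodMk_left)) (M := 2)
        fun g => abs_ps_le ρ' _
    have e1 : Acv μ κ hij r b x - ∫ g, ps ρ' (act x g) ∂(cv κ (dl hij r)) =
        ∫ g, (ps ρ (act x g) - ps ρ' (act x g)) ∂(cv κ (dl hij r)) := by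
      rw [integral_sub i1 i2]; rfl
    have e2 : |Acv μ κ hij r b x - ∫ g, ps ρ' (act x g) ∂(cv κ (dl hij r))| ≤
        ∫ g, F (act x g) ∂(cv κ (dl hij r)) := by
      rw [e1]; exact abs_integral_le_integral_abs
    have e3 := integral_le (cv_dl_tv h) (f := fun g => ps ρ' (act x g))
      (hm'.comp (measurable_act₂.comp measurable_prodMk_left)) (M := 2) fun g => abs_ps_le ρ' _
    have e4 := abs_sub_le (Acv μ κ hij r b x) (∫ g, ps ρ' (act x g) ∂(cv κ (dl hij r)))
      (Acv μ κ' hij r b x)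
    have e5 : |∫ g, ps ρ' (act x g) ∂(cv κ (dl hij r)) - Acv μ κ' hij r b x| ≤ 4 * e :=
      le_trans e3 (le_of_eq (by ring))
    linarith
  have i3 : Integrable (fun x => |Acv μ κ hij r b x - Acv μ κ' hij r b x|) μ := by
    refine bdd_integrable ((measurable_Acv hij κ r).sub (measurable_Acv hij κ' r)).abs
      (M := 2) fun x => ?_
    rw [abs_abs, abs_le]
    constructor <;> linarith [Av_nonneg ρ (cv κ (dl hij r)) x, Av_le ρ (cv κ (dl hij r)) x,
      Av_nonneg ρ' (cv κ' (dl hij r)) x, Av_le ρ' (cv κ' (dl hij r)) x,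
      show Acv μ κ hij r b x = Av ρ (cv κ (dl hij r)) x from rfl,
      show Acv μ κ' hij r b x = Av ρ' (cv κ' (dl hij r)) x from rfl]
  have i4 : Integrable (fun x => ∫ g, F (act x g) ∂(cv κ (dl hij r))) μ := by
    refine bdd_integrable
      ((hFm.comp measurable_act₂).stronglyMeasurable.integral_prod_right').measurable
      (M := 2) fun x => ?_
    have h := norm_integral_le_of_norm_le_const (μ := cv κ (dl hij r)) (C := 2)
      (f := fun g => F (act x g)) (Filter.Eventually.of_forall fun g => by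
        rw [Real.norm_eq_abs]; exact hFb _)
    simpa using h
  have h5 := integral_mono i3 (i4.add (integrable_const (4 * e))) h4
  simp only [Pi.add_apply] at h5
  rw [integral_add i4 (integrable_const _)] at h5
  simp only [integral_const, probReal_univ, smul_eq_mul, one_mul] at h5
  have h6 : 4 * (2 * b * (1 + b) * (e / b)) = 8 * (1 + (b:ℝ)) * e := by field_simp; ring
  rw [h6] at h1
  linarith

end Cont

/-! ### the combined statement for general noises -/

section Main
variable {μ : Measure (ModSpace n)} [IsProbabilityMeasure μ] (hμ : AInv μ)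
  {κ κ' κ1 : Measure (SLR n)} [IsProbabilityMeasure κ] [IsProbabilityMeasure κ']
  [IsProbabilityMeasure κ1] {i j : Fin n} {hij : i ≠ j} {r r0 : ℝ} {b : ℕ} [NeZero b] {e E : ℝ}

include hμ in
theorem stepq_gen (h : ∀ d, TVle (cv κ (dlaw hij r b d)) (cv κ' (dlaw hij r b d)) e)
    (t : Fin n → ℝ) (hr : r + (t i - t j) = r0)
    (hE : ∫ x, |Acv μ (cj (aT t) κ') hij r0 b x - Psi μ κ1 hij r0 b x| ∂μ ≤ E)
    (A : Set (ModSpace n)) :
    |∫ y, spr (cen b) (fun d => pr (lab μ κ hij r b) d y)
        ∂(tot (lab (μ.restrict A) κ hij r b)) -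
      ∫ x in A, Psi μ κ1 hij r0 b (act x (aT t)) ∂μ| ≤ (8 * b + 12) * e + E := by
  rw [integral_pr_restrict, integral_ps_restrict]
  have h1 := acv_tv (μ := μ) h
  have h2 := kern_shift (κ := κ') hμ hij t hr hE
  have m0 : Measurable (Acv μ κ hij r b) := measurable_Acv hij κ r
  have m1 : Measurable (Acv μ κ' hij r b) := measurable_Acv hij κ' r
  have m2 : Measurable fun x => Psi μ κ1 hij r0 b (act x (aT t)) :=
    (measurable_Psi hij).comp (measurable_act _)
  have bA : ∀ x, 0 ≤ Acv μ κ hij r b x ∧ Acv μ κ hij r b x ≤ 2 := fun x =>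
    ⟨Av_nonneg _ _ x, Av_le _ _ x⟩
  have bB : ∀ x, 0 ≤ Acv μ κ' hij r b x ∧ Acv μ κ' hij r b x ≤ 2 := fun x =>
    ⟨Av_nonneg _ _ x, Av_le _ _ x⟩
  have bC : ∀ x, 0 ≤ Psi μ κ1 hij r0 b (act x (aT t)) ∧ Psi μ κ1 hij r0 b (act x (aT t)) ≤ 2 :=
    fun x => ⟨Psi_nonneg hij _, Psi_le hij _⟩
  have i0 : Integrable (Acv μ κ hij r b) μ := bdd_integrable m0 (M := 2) fun x => by
    rw [abs_of_nonneg (bA x).1]; exact (bA x).2
  have i1 : Integrable (Acv μ κ' hij r b) μ := bdd_integrable m1 (M := 2) fun x => by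
    rw [abs_of_nonneg (bB x).1]; exact (bB x).2
  have i2 : Integrable (fun x => Psi μ κ1 hij r0 b (act x (aT t))) μ :=
    bdd_integrable m2 (M := 2) fun x => by
      rw [abs_of_nonneg (bC x).1]; exact (bC x).2
  rw [← integral_sub i0.integrableOn i2.integrableOn]
  refine abs_integral_le_integral_abs.trans ?_
  have h3 : ∫ x in A, |Acv μ κ hij r b x - Psi μ κ1 hij r0 b (act x (aT t))| ∂μ ≤
      ∫ x, |Acv μ κ hij r b x - Psi μ κ1 hij r0 b (act x (aT t))| ∂μ :=
    setIntegral_le_integral (i0.sub i2).abs (Filter.Eventually.of_forall fun x => abs_nonneg _)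
  refine h3.trans ?_
  have ia : Integrable (fun x => |Acv μ κ hij r b x - Acv μ κ' hij r b x|) μ := (i0.sub i1).abs
  have ib : Integrable
      (fun x => |Acv μ κ' hij r b x - Psi μ κ1 hij r0 b (act x (aT t))|) μ := (i1.sub i2).abs
  have h4 : ∫ x, |Acv μ κ hij r b x - Psi μ κ1 hij r0 b (act x (aT t))| ∂μ ≤
      ∫ x, (|Acv μ κ hij r b x - Acv μ κ' hij r b x| +
        |Acv μ κ' hij r b x - Psi μ κ1 hij r0 b (act x (aT t))|) ∂μ :=
    integral_mono (i0.sub i2).abs (ia.add ib) fun x => abs_sub_le _ _ _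
  rw [integral_add ia ib] at h4
  linarith

end Main

/-! ### the window absorbs a finer uniform noise in the same root -/

theorem dlaw_absorb {i j : Fin n} (hij : i ≠ j) (r τ : ℝ) {b : ℕ} (d : Fin b) :
    TVle (cv (dl hij (r + τ)) (dlaw hij r b d)) (dlaw hij r b d)
      ((b : ℝ) * (2 : ℝ) ^ (-τ) / 2) := by
  have hb : (0:ℝ) < b := by exact_mod_cast d.pos
  have hF : Measurable fun p : ℝ × ℝ =>
      (uu hij ((2 : ℝ) ^ (-(r + τ)) * p.1) * uu hij ((2 : ℝ) ^ (-r) * (cen b d + p.2 / b)) :
        SLR n) := by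
    refine Measurable.mul ?_ ?_
    · exact (continuous_uu hij).measurable.comp (by fun_prop)
    · exact (continuous_uu hij).measurable.comp (by fun_prop)
  have hF' : Measurable fun p : ℝ × ℝ =>
      (uu hij ((2 : ℝ) ^ (-r) * (cen b d + p.2 / b)) : SLR n) :=
    (continuous_uu hij).measurable.comp (by fun_prop)
  have h1 : cv (dl hij (r + τ)) (dlaw hij r b d) = (uni.prod uni).map fun p : ℝ × ℝ =>
      (uu hij ((2 : ℝ) ^ (-(r + τ)) * p.1) * uu hij ((2 : ℝ) ^ (-r) * (cen b d + p.2 / b)) :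
        SLR n) := by
    unfold cv dl dlaw
    rw [Measure.map_prod_map _ _ (measurable_uuw hij _) (measurable_dlaw hij r b d),
      Measure.map_map measurable_mul₂
        ((measurable_uuw hij _).prodMap (measurable_dlaw hij r b d))]
    rfl
  have h2 : dlaw hij r b d = (uni.prod uni).map fun p : ℝ × ℝ =>
      (uu hij ((2 : ℝ) ^ (-r) * (cen b d + p.2 / b)) : SLR n) := by
    have : (fun p : ℝ × ℝ => (uu hij ((2 : ℝ) ^ (-r) * (cen b d + p.2 / b)) : SLR n)) =
        (fun θ : ℝ => (uu hij ((2 : ℝ) ^ (-r) * (cen b d + θ / b)) : SLR n)) ∘ Prod.snd := rfl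
    rw [this, ← Measure.map_map (measurable_dlaw hij r b d) measurable_snd, Measure.map_snd_prod,
      measure_univ, one_smul]
    rfl
  rw [h1]
  conv in (dlaw hij r b d) => rw [h2]
  refine TVle.mix hF hF' ?_
  filter_upwards [Sw1_640.uni_ae] with θ' hθ'
  have h3 : (uni.map fun y : ℝ =>
      (uu hij ((2 : ℝ) ^ (-(r + τ)) * θ') * uu hij ((2 : ℝ) ^ (-r) * (cen b d + y / b)) :
        SLR n)) = (uni.map fun θ => θ + (b : ℝ) * (2:ℝ) ^ (-τ) * θ').map fun θ =>
          (uu hij ((2 : ℝ) ^ (-r) * (cen b d + θ / b)) : SLR n) := by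
    rw [Measure.map_map (measurable_dlaw hij r b d) (by fun_prop)]
    congr 1
    funext y
    simp only [Function.comp_apply]
    rw [← uu_add]
    congr 1
    rw [show -(r + τ) = -r + -τ by ring, Real.rpow_add two_pos]
    field_simp
    ring
  refine TVle.mono (?_ : TVle _ _ (|(b : ℝ) * (2:ℝ) ^ (-τ) * θ'| / 2)) ?_
  · rw [h3]
    exact (Sw1_640.uni_shift _).map (measurable_dlaw hij r b d)
  · rw [abs_mul, abs_mul, abs_of_pos hb, abs_of_pos (Real.rpow_pos_of_pos two_pos _)]
    have : (b : ℝ) * (2:ℝ) ^ (-τ) * |θ'| ≤ (b : ℝ) * (2:ℝ) ^ (-τ) * 1 :=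
      mul_le_mul_of_nonneg_left hθ' (by positivity)
    linarith

/-! ### the level noise -/

/-- the law of `v(2^-r_c θ_c)` -/
def vl (S : Finset (Fin n)) (r : CC S → ℝ) : Measure (SLR n) :=
  (uniC S).map fun θ => vv S fun c => (2 : ℝ) ^ (-r c) * θ c

theorem measurable_vl (S : Finset (Fin n)) (r : CC S → ℝ) :
    Measurable fun θ : CC S → ℝ => (vv S fun c => (2 : ℝ) ^ (-r c) * θ c) := by
  refine (measurable_vv S).comp ?_
  fun_prop

instance (S : Finset (Fin n)) (r : CC S → ℝ) : IsProbabilityMeasure (vl S r) :=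
  Measure.isProbabilityMeasure_map (measurable_vl S r).aemeasurable

/-- the law of `v(2^-r θ)` with `θ_c` replaced by `0` -/
def vl0 (S : Finset (Fin n)) (c : CC S) (r : ℝ) : Measure (SLR n) :=
  (uniC S).map fun θ => vv S ((2 : ℝ) ^ (-r) • Function.update θ c 0)

theorem measurable_vl0 (S : Finset (Fin n)) (c : CC S) (r : ℝ) :
    Measurable fun θ : CC S → ℝ => (vv S ((2 : ℝ) ^ (-r) • Function.update θ c 0)) := by
  refine (measurable_vv S).comp ?_
  have h : Measurable fun θ : CC S → ℝ => Function.update θ c 0 := measurable_update_left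
  exact h.const_smul ((2 : ℝ) ^ (-r))

instance (S : Finset (Fin n)) (c : CC S) (r : ℝ) : IsProbabilityMeasure (vl0 S c r) :=
  Measure.isProbabilityMeasure_map (measurable_vl0 S c r).aemeasurable

/-- replacing one coordinate by an independent copy -/
theorem uniC_update (S : Finset (Fin n)) (c : CC S) :
    ((uniC S).prod uni).map (fun p : (CC S → ℝ) × ℝ => Function.update p.1 c p.2) = uniC S := by
  have hm : Measurable fun p : (CC S → ℝ) × ℝ => Function.update p.1 c p.2 :=
    measurable_update'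
  unfold uniC
  symm
  refine Measure.pi_eq fun s hs => ?_
  rw [Measure.map_apply hm (MeasurableSet.univ_pi hs)]
  have h1 : (fun p : (CC S → ℝ) × ℝ => Function.update p.1 c p.2) ⁻¹' Set.univ.pi s =
      (Set.univ.pi (Function.update s c Set.univ)) ×ˢ (s c) := by
    ext ⟨θ, θ'⟩
    simp only [Set.mem_preimage, Set.mem_pi, Set.mem_univ, true_imp_iff, Set.mem_prod]
    constructor
    · intro h
      refine ⟨fun c' => ?_, ?_⟩
      · by_cases hc : c' = c
        · subst hc; simp
        · have := h c'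
          rw [Function.update_of_ne hc] at this ⊢
          exact this
      · have := h c
        rwa [Function.update_self] at this
    · rintro ⟨h, h'⟩ c'
      by_cases hc : c' = c
      · subst hc; rw [Function.update_self]; exact h'
      · have := h c'
        rw [Function.update_of_ne hc] at this ⊢
        exact this
  rw [h1, Measure.prod_prod, Measure.pi_pi, ← Finset.mul_prod_erase univ _ (mem_univ c),
    ← Finset.mul_prod_erase univ (fun i => uni (s i)) (mem_univ c), Function.update_self,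
    measure_univ, one_mul, mul_comm]
  congr 1
  refine prod_congr rfl fun c' hc' => ?_
  rw [Function.update_of_ne (ne_of_mem_erase hc')]

/-- the level noise together with a finer noise in the root `c` -/
theorem vl0_dl (S : Finset (Fin n)) (c : CC S) (r ρ : ℝ) :
    cv (vl0 S c r) (dl c.ne ρ) = vl S (Function.update (fun _ => r) c ρ) := by
  have hm : Measurable fun p : (CC S → ℝ) × ℝ => Function.update p.1 c p.2 :=
    measurable_update'
  unfold cv vl0 dl vl
  rw [Measure.map_prod_map _ _ (measurable_vl0 S c r) (measurable_uuw c.ne ρ),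
    Measure.map_map measurable_mul₂ ((measurable_vl0 S c r).prodMap (measurable_uuw c.ne ρ))]
  conv_rhs => rw [← uniC_update S c]
  rw [Measure.map_map (measurable_vl S _) hm]
  congr 1
  funext p
  simp only [Function.comp_apply]
  change vv S ((2:ℝ) ^ (-r) • Function.update p.1 c 0) * uu c.ne ((2:ℝ) ^ (-ρ) * p.2) = _
  rw [← vv_single, ← vv_add]
  congr 1
  funext c'
  simp only [Pi.add_apply, Pi.smul_apply, smul_eq_mul]
  by_cases hc : c' = c
  · subst hc
    simp
  · simp [Function.update_of_ne hc, Pi.single_eq_of_ne hc]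

section Level
variable {S : Finset (Fin n)} {c : CC S} {r τ : ℝ} {b : ℕ} {κR κ' : Measure (SLR n)}
  [IsProbabilityMeasure κR] [IsProbabilityMeasure κ'] {e3 : ℝ}

/-- the noise seen by the digit `(r, c)` is, up to the window, a box noise -/
theorem level_tv
    (h3 : TVle (cv κR (vl S (Function.update (fun _ => r) c (r + τ)))) κ' e3) (d : Fin b) :
    TVle (cv (cv κR (vl0 S c r)) (dlaw c.ne r b d)) (cv κ' (dlaw c.ne r b d))
      ((b : ℝ) * (2 : ℝ) ^ (-τ) / 2 + e3) := by
  have h1 : TVle (cv (cv κR (vl0 S c r)) (dlaw c.ne r b d))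
      (cv (cv κR (vl0 S c r)) (cv (dl c.ne (r + τ)) (dlaw c.ne r b d)))
      ((b : ℝ) * (2 : ℝ) ^ (-τ) / 2) :=
    ((dlaw_absorb c.ne r τ d).cv_right (κ := cv κR (vl0 S c r))).symm
  refine h1.trans ?_
  rw [← cv_assoc, cv_assoc κR (vl0 S c r), vl0_dl]
  exact h3.cv_left

end Level

end Crest.Agent.R014.StepQ_870
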