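import Crest.Agent.R014.NSlab5_373
import Crest.Agent.R014.StepQ_870

/-!
Row 14, block D, noise formalism (#3844), section SLAB (helper373, task 1063), part 6:
conditioning on the good set `G` and the lower bound for `Acv` (**slab_avg**).
-/

set_option autoImplicit false

open MeasureTheory Crest.NumberTheoryR.Packets Finset
open scoped ENNReal

noncomputable section

namespace Crest.Agent.R014.NS_373

open Ms_667 Nd_837 Ne1_567 NSlab_373 NScC_395 NScD_395

variable {n : ℕ} {S : Finset (Fin n)} {b : ℕ}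

theorem stp_add (μ ν : Measure (ModSpace n)) [SFinite μ] [SFinite ν] (κ : Measure (SLR n))
    [SFinite κ] : stp (μ + ν) κ = stp μ κ + stp ν κ := by
  unfold stp
  rw [Measure.add_prod, Measure.map_add _ _ measurable_act₂]

theorem lab_add (μ ν : Measure (ModSpace n)) [IsFiniteMeasure μ] [IsFiniteMeasure ν]
    (κ : Measure (SLR n)) [IsFiniteMeasure κ] {i j : Fin n} (hij : i ≠ j) (r : ℝ) (b : ℕ)
    (d : Fin b) : lab (μ + ν) κ hij r b d = lab μ κ hij r b d + lab ν κ hij r b d := by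
  unfold lab
  rw [stp_add, stp_add, smul_add]

theorem tot_lab_real_univ (ν : Measure (ModSpace n)) [IsFiniteMeasure ν] (κ : Measure (SLR n))
    [IsProbabilityMeasure κ] {i j : Fin n} (hij : i ≠ j) (r : ℝ) [NeZero b] :
    ∑ d, (lab ν κ hij r b d).real Set.univ = ν.real Set.univ := by
  rw [← tot_real_univ, StepQ_870.tot_lab_fin ν κ hij r (Nat.pos_of_ne_zero (NeZero.ne b)),
    Measure.real, stp_univ, Measure.real]

theorem lab_mono {ν νA : Measure (ModSpace n)} [SFinite ν] [SFinite νA] (h : νA ≤ ν)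
    (κ : Measure (SLR n)) [SFinite κ] {i j : Fin n} (hij : i ≠ j) (r : ℝ) (d : Fin b) :
    lab νA κ hij r b d ≤ lab ν κ hij r b d := by
  unfold lab
  refine Measure.le_iff.2 fun A _ => ?_
  rw [Measure.smul_apply, Measure.smul_apply]
  exact mul_le_mul_right (stp_mono (stp_mono h κ) _ A) _

/-- **G-conditioning.** -/
theorem cond_G (μ : Measure (ModSpace n)) [IsProbabilityMeasure μ] (κ : Measure (SLR n))
    [IsProbabilityMeasure κ] {i j : Fin n} (hij : i ≠ j) (r : ℝ) [NeZero b]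
    {G : Set (ModSpace n)} (hG : MeasurableSet G) (A : Set (ModSpace n)) :
    ∫ y, ps (lab (μ.restrict G) κ hij r b) y ∂(tot (lab (μ.restrict (A ∩ G)) κ hij r b)) ≤
      ∫ x in A, Acv μ κ hij r b x ∂μ + 16 * μ.real Gᶜ := by
  set ρG := lab (μ.restrict G) κ hij r b with hρG
  set ρ := lab μ κ hij r b with hρ
  set ρA := lab (μ.restrict (A ∩ G)) κ hij r b with hρA
  have hne : Nonempty (Fin b) := ⟨⟨0, Nat.pos_of_ne_zero (NeZero.ne b)⟩⟩
  have hle : tot ρA ≤ tot ρG := tot_mono fun d => lab_mono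
    (Measure.restrict_mono Set.inter_subset_right le_rfl) κ hij r d
  have hb1 : ∀ y, |ps ρG y - ps ρ y| ≤ 2 := fun y => by
    rw [abs_le]
    constructor <;> linarith [ps_nonneg ρ y, ps_nonneg ρG y, ps_le ρ y, ps_le ρG y]
  have hm1 : Measurable fun y => |ps ρG y - ps ρ y| := ((measurable_ps ρG).sub (measurable_ps ρ)).abs
  have hi1 : ∀ (θ : Measure (ModSpace n)) [IsFiniteMeasure θ],
      Integrable (fun y => |ps ρG y - ps ρ y|) θ := fun θ _ =>
    bdd_integrable hm1 fun y => by rw [abs_abs]; exact hb1 y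
  -- the difference
  have hsplit : ∀ d, ρ d = ρG d + lab (μ.restrict Gᶜ) κ hij r b d := by
    intro d
    rw [hρ, hρG, ← lab_add, Measure.restrict_add_restrict_compl hG]
  have h1 : ∫ y, ∑ d, |Ne3_567.pv ρG d y - Ne3_567.pv ρ d y| ∂(tot ρG) ≤
      4 * ∑ d, (lab (μ.restrict Gᶜ) κ hij r b d).real Set.univ := by
    refine Ne3_567.integral_abs_pv_le ρG ρ (fun d B _ => ?_) fun d B _ => ?_
    · have h2 : (ρG d).real B ≤ (ρ d).real B := by
        rw [hsplit d]
        exact ENNReal.toReal_mono (measure_ne_top _ _) (by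
          rw [Measure.add_apply]; exact le_self_add)
      linarith [measureReal_nonneg (μ := lab (μ.restrict Gᶜ) κ hij r b d) (s := Set.univ)]
    · rw [hsplit d, measureReal_add_apply]
      exact add_le_add le_rfl (measureReal_mono (Set.subset_univ _))
  rw [tot_lab_real_univ] at h1
  have hGc : (μ.restrict Gᶜ).real Set.univ = μ.real Gᶜ := by
    simp [Measure.real]
  rw [hGc] at h1
  have h2 : ∫ y, |ps ρG y - ps ρ y| ∂(tot ρG) ≤ 4 * (4 * μ.real Gᶜ) := by
    calc ∫ y, |ps ρG y - ps ρ y| ∂(tot ρG)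
        ≤ ∫ y, 4 * ∑ d, |Ne3_567.pv ρG d y - Ne3_567.pv ρ d y| ∂(tot ρG) := by
          refine integral_mono (hi1 _) ?_ fun y => ps_lip ρG ρ y y
          refine Integrable.const_mul ?_ 4
          refine Integrable.of_bound (Finset.measurable_sum _ fun d _ =>
            ((Ne3_567.measurable_pv ρG d).sub (Ne3_567.measurable_pv ρ d)).abs).aestronglyMeasurable 2
            (Filter.Eventually.of_forall fun y => ?_)
          rw [Real.norm_eq_abs, abs_of_nonneg (Finset.sum_nonneg fun d _ => abs_nonneg _)]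
          exact Ne3_567.sum_abs_pv_le_two ρG ρ y y
      _ = 4 * ∫ y, ∑ d, |Ne3_567.pv ρG d y - Ne3_567.pv ρ d y| ∂(tot ρG) := integral_const_mul _ _
      _ ≤ _ := mul_le_mul_of_nonneg_left h1 (by norm_num)
  have h3 : ∫ y, |ps ρG y - ps ρ y| ∂(tot ρA) ≤ ∫ y, |ps ρG y - ps ρ y| ∂(tot ρG) :=
    integral_mono_measure hle (Filter.Eventually.of_forall fun y => abs_nonneg _) (hi1 _)
  have h4 : ∫ y, ps ρG y ∂(tot ρA) ≤ ∫ y, ps ρ y ∂(tot ρA) + ∫ y, |ps ρG y - ps ρ y| ∂(tot ρA) := by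
    rw [← integral_add (bdd_integrable (measurable_ps _) (abs_ps_le _)) (hi1 _)]
    refine integral_mono (bdd_integrable (measurable_ps _) (abs_ps_le _))
      ((bdd_integrable (measurable_ps _) (abs_ps_le _)).add (hi1 _)) fun y => ?_
    simp only
    linarith [le_abs_self (ps ρG y - ps ρ y)]
  have h5 : ∫ y, ps ρ y ∂(tot ρA) = ∫ x in A ∩ G, Acv μ κ hij r b x ∂μ :=
    StepQ_870.integral_ps_restrict μ κ hij r (A ∩ G)
  have h6 : ∫ x in A ∩ G, Acv μ κ hij r b x ∂μ ≤ ∫ x in A, Acv μ κ hij r b x ∂μ := by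
    refine setIntegral_mono_set ?_ ?_ (Filter.Eventually.of_forall fun x hx => hx.1)
    · exact (bdd_integrable (measurable_Av _ _) (M := 2) fun x => by
        rw [abs_of_nonneg (Av_nonneg _ _ _)]; exact Av_le _ _ _).integrableOn
    · exact Filter.Eventually.of_forall fun x => Av_nonneg _ _ _
  linarith

/-- **The slab lower bound for the averaged posterior spreads.** -/
theorem slab_avg (hb : 0 < b) (S : Finset (Fin n)) (μ : Measure (ModSpace n))
    [IsProbabilityMeasure μ] (κ : Measure (SLR n)) [IsProbabilityMeasure κ] (T : ℕ)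
    {G : Set (ModSpace n)} (hG : MeasurableSet G) (A : Set (ModSpace n))
    (lam : Measure (ModSpace n)) [IsFiniteMeasure lam] {M : ℝ} (hM : 0 ≤ M)
    (h : ∀ w, rho (μ.restrict G) κ S b T w ≤ ENNReal.ofReal M • lam) {τ : ℝ} (hτ : 0 < τ)
    {c₁ : ℝ} (hc : 0 ≤ c₁) :
    c₁ * T * (μ.real (A ∩ G) - (τ⁻¹ * (M * lam.real Set.univ) +
        √τ * Real.exp (KS S b * √(T * (c₁ * T))))) ≤
      ∑ i : Fin T, ∑ c : CC S, (∫ x in A, Acv μ (cv κ (ovl S b i c)) c.ne (i * Real.logb 2 b) b x ∂μ +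
        16 * μ.real Gᶜ) := by
  have : NeZero b := ⟨hb.ne'⟩
  have h1 := LBr hb S (ν := μ.restrict G) (νA := μ.restrict (A ∩ G))
    (Measure.restrict_mono Set.inter_subset_right le_rfl) κ T lam hM h hτ hc
  have h2 : ∑ i : Fin T, ∑ c : CC S, ∫ y, ps (labc (μ.restrict G) κ S b i c) y
      ∂(tot (labc (μ.restrict (A ∩ G)) κ S b i c)) ≤
      ∑ i : Fin T, ∑ c : CC S, (∫ x in A, Acv μ (cv κ (ovl S b i c)) c.ne (i * Real.logb 2 b) b x ∂μ +
        16 * μ.real Gᶜ) :=
    Finset.sum_le_sum fun i _ => Finset.sum_le_sum fun c _ => cond_G μ _ c.ne _ hG A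
  refine le_trans (mul_le_mul_of_nonneg_left ?_ (mul_nonneg hc (Nat.cast_nonneg _))) (h1.trans h2)
  have h3 : (μ.restrict (A ∩ G)).real Set.univ = μ.real (A ∩ G) := by simp [Measure.real]
  have h4 : (μ.restrict G).real Set.univ ≤ 1 := by
    have : (μ.restrict G).real Set.univ = μ.real G := by simp [Measure.real]
    rw [this]; exact measureReal_le_one
  have h5 : 0 ≤ √τ * Real.exp (KS S b * √(T * (c₁ * T))) := by positivity
  rw [h3]
  nlinarith [mul_le_mul_of_nonneg_left h4 h5]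

end Crest.Agent.R014.NS_373
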