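import Crest.Agent.R014.Top1_458

/-!
R014 / Cell1_433: short bases and the injectivity radius of `SL_n(ℤ)\SL_n(ℝ)`.

* `nrm A = ∑ |A i j|` (submultiplicative);
* `mm g = min (1, shortest nonzero vector of ℤⁿ g)` (sup norm), `rad g = (mm g)^n`;
* `exists_short`: some `γ * g` has all entries `≤ n (2^n / mm g)^(n-1)`;
* `eq_one_of_small`: `nrm (g⁻¹ γ g - 1) * KK n ≤ rad g → γ = 1`.
-/

set_option autoImplicit false

open MeasureTheory Topology Filter Set
open Crest.NumberTheoryR.Packets Crest.Agent.R014.Top1_458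
open scoped Matrix InnerProductSpace

noncomputable section

namespace Crest.Agent.R014.Cell_433

variable {n : ℕ}

/-! ### the norm -/

/-- the entrywise `ℓ¹` norm of a matrix -/
def nrm (A : Matrix (Fin n) (Fin n) ℝ) : ℝ := ∑ i, ∑ j, |A i j|

theorem nrm_nonneg (A : Matrix (Fin n) (Fin n) ℝ) : 0 ≤ nrm A :=
  Finset.sum_nonneg fun _ _ => Finset.sum_nonneg fun _ _ => abs_nonneg _

theorem abs_le_nrm (A : Matrix (Fin n) (Fin n) ℝ) (i j : Fin n) : |A i j| ≤ nrm A :=
  (Finset.single_le_sum (f := fun j => |A i j|) (fun _ _ => abs_nonneg _)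
    (Finset.mem_univ j)).trans
    (Finset.single_le_sum (f := fun i => ∑ j, |A i j|)
      (fun _ _ => Finset.sum_nonneg fun _ _ => abs_nonneg _) (Finset.mem_univ i))

theorem nrm_zero : nrm (0 : Matrix (Fin n) (Fin n) ℝ) = 0 := by simp [nrm]

theorem nrm_one : nrm (1 : Matrix (Fin n) (Fin n) ℝ) = n := by
  have : ∀ i : Fin n, ∑ j, |(1 : Matrix (Fin n) (Fin n) ℝ) i j| = 1 := by
    intro i
    rw [Finset.sum_eq_single i]
    · simp
    · intro j _ hj
      simp [Matrix.one_apply_ne' hj]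
    · simp
  simp [nrm, this]

theorem nrm_neg (A : Matrix (Fin n) (Fin n) ℝ) : nrm (-A) = nrm A := by simp [nrm]

theorem nrm_sub_comm (A B : Matrix (Fin n) (Fin n) ℝ) : nrm (A - B) = nrm (B - A) := by
  rw [← nrm_neg, neg_sub]

theorem nrm_add_le (A B : Matrix (Fin n) (Fin n) ℝ) : nrm (A + B) ≤ nrm A + nrm B := by
  unfold nrm
  rw [← Finset.sum_add_distrib]
  refine Finset.sum_le_sum fun i _ => ?_
  rw [← Finset.sum_add_distrib]
  exact Finset.sum_le_sum fun j _ => abs_add_le _ _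

theorem nrm_sub_le (A B : Matrix (Fin n) (Fin n) ℝ) : nrm (A - B) ≤ nrm A + nrm B := by
  rw [sub_eq_add_neg]
  exact (nrm_add_le _ _).trans (by rw [nrm_neg])

theorem nrm_mul_le (A B : Matrix (Fin n) (Fin n) ℝ) : nrm (A * B) ≤ nrm A * nrm B := by
  have h1 : ∀ i j, |(A * B) i j| ≤ ∑ k, |A i k| * |B k j| := by
    intro i j
    rw [Matrix.mul_apply]
    exact (Finset.abs_sum_le_sum_abs _ _).trans (Finset.sum_le_sum fun k _ => (abs_mul _ _).le)
  have h2 : ∀ k, ∑ j, |B k j| ≤ nrm B := fun k =>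
    Finset.single_le_sum (f := fun i => ∑ j, |B i j|)
      (fun _ _ => Finset.sum_nonneg fun _ _ => abs_nonneg _) (Finset.mem_univ k)
  calc nrm (A * B) ≤ ∑ i, ∑ j, ∑ k, |A i k| * |B k j| :=
        Finset.sum_le_sum fun i _ => Finset.sum_le_sum fun j _ => h1 i j
    _ = ∑ i, ∑ k, |A i k| * ∑ j, |B k j| := by
        refine Finset.sum_congr rfl fun i _ => ?_
        rw [Finset.sum_comm]
        exact Finset.sum_congr rfl fun k _ => (Finset.mul_sum _ _ _).symm
    _ ≤ ∑ i, ∑ k, |A i k| * nrm B :=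
        Finset.sum_le_sum fun i _ => Finset.sum_le_sum fun k _ =>
          mul_le_mul_of_nonneg_left (h2 k) (abs_nonneg _)
    _ = nrm A * nrm B := by
        simp only [nrm, Finset.sum_mul]

theorem nrm_le_of_forall {A : Matrix (Fin n) (Fin n) ℝ} {r : ℝ} (h : ∀ i j, |A i j| ≤ r) :
    nrm A ≤ n ^ 2 * r := by
  calc nrm A ≤ ∑ _i : Fin n, ∑ _j : Fin n, r :=
        Finset.sum_le_sum fun i _ => Finset.sum_le_sum fun j _ => h i j
    _ = n ^ 2 * r := by simp; ring

theorem nrm_smul (t : ℝ) (A : Matrix (Fin n) (Fin n) ℝ) : nrm (t • A) = |t| * nrm A := by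
  simp only [nrm, Matrix.smul_apply, smul_eq_mul, abs_mul, Finset.mul_sum]

theorem continuous_nrm : Continuous (nrm : Matrix (Fin n) (Fin n) ℝ → ℝ) := by
  unfold nrm
  refine continuous_finsetSum _ fun i _ => continuous_finsetSum _ fun j _ => ?_
  exact ((continuous_apply j).comp (continuous_apply i)).abs

theorem eq_of_nrm_sub_le_zero {A B : Matrix (Fin n) (Fin n) ℝ} (h : nrm (A - B) ≤ 0) :
    A = B := by
  ext i j
  have := abs_le_nrm (A - B) i j
  have h2 : |(A - B) i j| = 0 := le_antisymm (this.trans h) (abs_nonneg _)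
  rw [abs_eq_zero, Matrix.sub_apply, sub_eq_zero] at h2
  exact h2

theorem norm_vecMul_le (v : Fin n → ℝ) (A : Matrix (Fin n) (Fin n) ℝ) :
    ‖v ᵥ* A‖ ≤ ‖v‖ * nrm A := by
  rw [pi_norm_le_iff_of_nonneg (mul_nonneg (norm_nonneg _) (nrm_nonneg _))]
  intro j
  rw [Real.norm_eq_abs, Matrix.vecMul, dotProduct]
  calc |∑ i, v i * A i j| ≤ ∑ i, |v i * A i j| := Finset.abs_sum_le_sum_abs _ _
    _ ≤ ∑ i, ‖v‖ * |A i j| := by
        refine Finset.sum_le_sum fun i _ => ?_
        rw [abs_mul]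
        exact mul_le_mul_of_nonneg_right (by simpa using norm_le_pi_norm v i) (abs_nonneg _)
    _ ≤ ∑ i, ∑ j, ‖v‖ * |A i j| :=
        Finset.sum_le_sum fun i _ => Finset.single_le_sum (f := fun j => ‖v‖ * |A i j|)
          (fun _ _ => mul_nonneg (norm_nonneg _) (abs_nonneg _)) (Finset.mem_univ j)
    _ = ‖v‖ * nrm A := by simp only [nrm, Finset.mul_sum]

theorem coe_mul_inv (g : SLR n) : g.1 * (g⁻¹).1 = 1 := by
  have h : (g * g⁻¹).1 = (1 : SLR n).1 := by rw [mul_inv_cancel]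
  exact h

theorem coe_inv_mul (g : SLR n) : (g⁻¹).1 * g.1 = 1 := by
  have h : (g⁻¹ * g).1 = (1 : SLR n).1 := by rw [inv_mul_cancel]
  exact h

/-- inverse of a matrix close to `1` -/
theorem nrm_inv_sub_one_le {h : SLR n} {r : ℝ} (hr : nrm (h.1 - 1) ≤ r) (hr2 : r ≤ 1 / 2) :
    nrm ((h⁻¹).1 - 1) ≤ 2 * r := by
  have e : (h⁻¹).1 - 1 = -(h.1 - 1) - ((h⁻¹).1 - 1) * (h.1 - 1) := by
    have h1 : (h⁻¹).1 * h.1 = 1 := coe_inv_mul h
    rw [sub_mul, mul_sub, h1, one_mul, mul_one]
    abel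
  have h2 : nrm ((h⁻¹).1 - 1) ≤ nrm (h.1 - 1) + nrm ((h⁻¹).1 - 1) * nrm (h.1 - 1) := by
    conv_lhs => rw [e]
    refine (nrm_sub_le _ _).trans ?_
    rw [nrm_neg]
    exact add_le_add le_rfl (nrm_mul_le _ _)
  have h3 := nrm_nonneg ((h⁻¹).1 - 1)
  have h4 : nrm ((h⁻¹).1 - 1) * nrm (h.1 - 1) ≤ nrm ((h⁻¹).1 - 1) * (1 / 2) :=
    mul_le_mul_of_nonneg_left (hr.trans hr2) h3
  linarith

theorem nrm_mul_sub_one_le {A B : Matrix (Fin n) (Fin n) ℝ} {r s : ℝ} (hr : nrm (A - 1) ≤ r)
    (hs : nrm (B - 1) ≤ s) : nrm (A * B - 1) ≤ r + s + r * s := by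
  have e : A * B - 1 = (A - 1) + (B - 1) + (A - 1) * (B - 1) := by
    rw [sub_mul, mul_sub]; simp
  rw [e]
  have h0 := nrm_nonneg (A - 1)
  have h1 := nrm_nonneg (B - 1)
  refine (nrm_add_le _ _).trans (add_le_add ((nrm_add_le _ _).trans (add_le_add hr hs)) ?_)
  exact (nrm_mul_le _ _).trans (mul_le_mul hr hs h1 (h0.trans hr))

/-! ### the shortest vector -/

/-- an integer vector as a real vector -/
def rv (z : Fin n → ℤ) : Fin n → ℝ := fun i => (z i : ℝ)

/-- `min (1, shortest nonzero vector of ℤⁿ g)` -/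
def mm (g : SLR n) : ℝ :=
  sInf (insert 1 (range fun z : {z : Fin n → ℤ // z ≠ 0} => ‖rv z.1 ᵥ* g.1‖))

theorem le_mm_iff {g : SLR n} {t : ℝ} :
    t ≤ mm g ↔ t ≤ 1 ∧ ∀ z : Fin n → ℤ, z ≠ 0 → t ≤ ‖rv z ᵥ* g.1‖ := by
  unfold mm
  rw [le_csInf_iff ⟨0, by
    rintro x (rfl | ⟨z, rfl⟩)
    · exact zero_le_one
    · exact norm_nonneg _⟩ ⟨1, mem_insert _ _⟩]
  constructor
  · intro h
    exact ⟨h 1 (mem_insert _ _), fun z hz => h _ (mem_insert_of_mem _ ⟨⟨z, hz⟩, rfl⟩)⟩
  · rintro ⟨h1, h2⟩ x (rfl | ⟨z, rfl⟩)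
    · exact h1
    · exact h2 z.1 z.2

theorem mm_le_one (g : SLR n) : mm g ≤ 1 := (le_mm_iff.1 le_rfl).1

theorem mm_le (g : SLR n) {z : Fin n → ℤ} (hz : z ≠ 0) : mm g ≤ ‖rv z ᵥ* g.1‖ :=
  (le_mm_iff.1 le_rfl).2 z hz

theorem mm_nonneg (g : SLR n) : 0 ≤ mm g :=
  le_mm_iff.2 ⟨zero_le_one, fun _ _ => norm_nonneg _⟩

theorem one_le_norm_rv {z : Fin n → ℤ} (hz : z ≠ 0) : 1 ≤ ‖rv z‖ := by
  obtain ⟨i, hi⟩ : ∃ i, z i ≠ 0 := by
    by_contra h
    push Not at h
    exact hz (funext h)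
  have h1 : (1 : ℝ) ≤ |(z i : ℝ)| := by
    have : (1 : ℤ) ≤ |z i| := Int.one_le_abs hi
    exact_mod_cast this
  exact h1.trans (by simpa [rv] using norm_le_pi_norm (rv z) i)

theorem mm_pos (g : SLR n) : 0 < mm g := by
  have h0 : 0 ≤ nrm (g⁻¹).1 := nrm_nonneg _
  have h1 : 0 < 1 / (1 + nrm (g⁻¹).1) := by positivity
  refine h1.trans_le (le_mm_iff.2 ⟨?_, fun z hz => ?_⟩)
  · rw [div_le_one (by positivity)]
    linarith
  · have h2 : ‖rv z‖ ≤ ‖rv z ᵥ* g.1‖ * nrm (g⁻¹).1 := by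
      have := norm_vecMul_le (rv z ᵥ* g.1) (g⁻¹).1
      rwa [Matrix.vecMul_vecMul, coe_mul_inv, Matrix.vecMul_one] at this
    have h3 := one_le_norm_rv hz
    rw [div_le_iff₀ (by positivity)]
    have h4 := norm_nonneg (rv z ᵥ* g.1)
    nlinarith

theorem mem_intPoints_iff {γ : SLR n} :
    γ ∈ intPoints n ↔ ∃ δ : Matrix.SpecialLinearGroup (Fin n) ℤ, ∀ i j, γ.1 i j = (δ.1 i j : ℝ) := by
  constructor
  · rintro ⟨δ, rfl⟩
    exact ⟨δ, fun i j => rfl⟩
  · rintro ⟨δ, hδ⟩
    refine ⟨δ, Subtype.ext (Matrix.ext fun i j => ?_)⟩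
    rw [hδ]
    rfl

/-- rows of the lattice transform by integral matrices -/
theorem exists_rv_vecMul {γ : SLR n} (hγ : γ ∈ intPoints n) (z : Fin n → ℤ) :
    ∃ w : Fin n → ℤ, rv z ᵥ* γ.1 = rv w := by
  obtain ⟨δ, hδ⟩ := mem_intPoints_iff.1 hγ
  refine ⟨z ᵥ* δ.1, funext fun j => ?_⟩
  simp only [Matrix.vecMul, dotProduct, rv, hδ]
  push_cast
  rfl

theorem rv_eq_zero_iff {z : Fin n → ℤ} : rv z = 0 ↔ z = 0 := by
  constructor
  · intro h
    funext i
    have := congrFun h i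
    simpa [rv] using this
  · rintro rfl
    funext i
    simp [rv]

theorem mm_mul_left_le {γ : SLR n} (hγ : γ ∈ intPoints n) (g : SLR n) : mm g ≤ mm (γ * g) := by
  refine le_mm_iff.2 ⟨mm_le_one g, fun z hz => ?_⟩
  obtain ⟨w, hw⟩ := exists_rv_vecMul hγ z
  have e : rv z ᵥ* (γ * g).1 = rv w ᵥ* g.1 := by
    rw [← hw, Matrix.vecMul_vecMul]
    rfl
  rw [e]
  refine mm_le g ?_
  rintro rfl
  rw [rv_eq_zero_iff.2 rfl] at hw
  have : rv z = 0 := by
    have h2 : (rv z ᵥ* γ.1) ᵥ* (γ⁻¹).1 = 0 ᵥ* (γ⁻¹).1 := by rw [hw]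
    rwa [Matrix.vecMul_vecMul, coe_mul_inv, Matrix.vecMul_one, Matrix.zero_vecMul] at h2
  exact hz (rv_eq_zero_iff.1 this)

theorem mm_mul_left {γ : SLR n} (hγ : γ ∈ intPoints n) (g : SLR n) : mm (γ * g) = mm g := by
  refine le_antisymm ?_ (mm_mul_left_le hγ g)
  have := mm_mul_left_le (inv_mem hγ) (γ * g)
  rwa [inv_mul_cancel_left] at this

theorem mm_mul_le_of {g h : SLR n} {R : ℝ} (hR : 1 ≤ R) (hh : ∀ v : Fin n → ℝ, ‖v ᵥ* h.1‖ ≤ R * ‖v‖) :
    mm (g * h) ≤ R * mm g := by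
  have hR0 : 0 < R := by linarith
  rw [← div_le_iff₀' hR0]
  refine le_mm_iff.2 ⟨?_, fun z hz => ?_⟩
  · rw [div_le_one hR0]
    exact (mm_le_one _).trans hR
  · rw [div_le_iff₀' hR0]
    refine (mm_le (g * h) hz).trans ?_
    have := hh (rv z ᵥ* g.1)
    rwa [Matrix.vecMul_vecMul] at this

theorem mm_mul_le {g h : SLR n} {R : ℝ} (hR : 1 ≤ R) (hh : nrm h.1 ≤ R) :
    mm (g * h) ≤ R * mm g :=
  mm_mul_le_of hR fun v => (norm_vecMul_le v _).trans (by
    rw [mul_comm]
    exact mul_le_mul_of_nonneg_right hh (norm_nonneg _))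

theorem mm_mul_le_near {g h : SLR n} {r : ℝ} (hh : nrm (h.1 - 1) ≤ r) :
    mm (g * h) ≤ (1 + r) * mm g := by
  have hr : 0 ≤ r := (nrm_nonneg _).trans hh
  refine mm_mul_le_of (by linarith) fun v => ?_
  have e : v ᵥ* h.1 = v + v ᵥ* (h.1 - 1) := by
    rw [Matrix.vecMul_sub, Matrix.vecMul_one]
    abel
  rw [e]
  refine (norm_add_le _ _).trans ?_
  have := norm_vecMul_le v (h.1 - 1)
  have h2 : ‖v‖ * nrm (h.1 - 1) ≤ ‖v‖ * r := mul_le_mul_of_nonneg_left hh (norm_nonneg _)
  linarith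

/-- the injectivity radius scale -/
def rad (g : SLR n) : ℝ := mm g ^ n

theorem rad_pos (g : SLR n) : 0 < rad g := pow_pos (mm_pos g) n

theorem rad_le_one (g : SLR n) : rad g ≤ 1 := pow_le_one₀ (mm_nonneg g) (mm_le_one g)

theorem rad_mul_left {γ : SLR n} (hγ : γ ∈ intPoints n) (g : SLR n) : rad (γ * g) = rad g := by
  rw [rad, rad, mm_mul_left hγ]

theorem rad_mul_le {g h : SLR n} {R : ℝ} (hR : 1 ≤ R) (hh : nrm h.1 ≤ R) :
    rad (g * h) ≤ R ^ n * rad g := by
  rw [rad, rad, ← mul_pow]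
  exact pow_le_pow_left₀ (mm_nonneg _) (mm_mul_le hR hh) n

theorem rad_mul_le_near {g h : SLR n} {r : ℝ} (hh : nrm (h.1 - 1) ≤ r) (hr : n * r ≤ 1 / 2) :
    rad (g * h) ≤ 2 * rad g := by
  have hr0 : 0 ≤ r := (nrm_nonneg _).trans hh
  have h1 : rad (g * h) ≤ (1 + r) ^ n * rad g := by
    rw [rad, rad, ← mul_pow]
    exact pow_le_pow_left₀ (mm_nonneg _) (mm_mul_le_near hh) n
  have h2 : (1 + r) ^ n ≤ 2 := by
    calc (1 + r) ^ n ≤ (Real.exp r) ^ n :=
          pow_le_pow_left₀ (by linarith) (by linarith [Real.add_one_le_exp r]) n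
      _ = Real.exp (n * r) := (Real.exp_nat_mul r n).symm
      _ ≤ Real.exp (1 / 2) := Real.exp_le_exp.2 hr
      _ ≤ 2 := by
          have h3 : Real.exp (1 / 2) ^ 2 ≤ 2 ^ 2 := by
            rw [← Real.exp_nat_mul]
            have : ((2 : ℕ) : ℝ) * (1 / 2) = 1 := by norm_num
            rw [this]
            linarith [Real.exp_one_lt_d9]
          exact le_of_sq_le_sq h3 (by norm_num) 
  exact h1.trans (mul_le_mul_of_nonneg_right h2 (rad_pos g).le)

/-! ### reduced bases of discrete subgroups -/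

section HKZ

variable {E : Type*} [NormedAddCommGroup E] [InnerProductSpace ℝ E] [FiniteDimensional ℝ E]

omit [InnerProductSpace ℝ E] [FiniteDimensional ℝ E] in
theorem exists_almost_min {L : AddSubgroup E} {η : ℝ} (hη : 0 < η)
    (hL : ∀ v ∈ L, v ≠ 0 → η ≤ ‖v‖) (h0 : ∃ v ∈ L, v ≠ 0) :
    ∃ v ∈ L, v ≠ 0 ∧ ∀ w ∈ L, w ≠ 0 → 9 / 10 * ‖v‖ ^ 2 ≤ ‖w‖ ^ 2 := by
  obtain ⟨v₀, hv₀, hv₀'⟩ := h0
  set S : Set ℝ := {x | ∃ w ∈ L, w ≠ 0 ∧ x = ‖w‖ ^ 2} with hS
  have hne : S.Nonempty := ⟨_, v₀, hv₀, hv₀', rfl⟩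
  have hbdd : BddBelow S := ⟨0, by rintro x ⟨w, _, _, rfl⟩; positivity⟩
  have hpos : η ^ 2 ≤ sInf S := le_csInf hne (by
    rintro x ⟨w, hw, hw0, rfl⟩
    exact pow_le_pow_left₀ hη.le (hL w hw hw0) 2)
  have hpos' : 0 < sInf S := lt_of_lt_of_le (by positivity) hpos
  obtain ⟨x, ⟨v, hv, hv0, rfl⟩, hx⟩ :=
    exists_lt_of_csInf_lt hne (show sInf S < 10 / 9 * sInf S by linarith)
  refine ⟨v, hv, hv0, fun w hw hw0 => ?_⟩
  have := csInf_le hbdd (show ‖w‖ ^ 2 ∈ S from ⟨w, hw, hw0, rfl⟩)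
  linarith

/-- coefficient of `w` along `v` -/
def cf (v w : E) : ℝ := ⟪v, w⟫_ℝ / ‖v‖ ^ 2

/-- projection along `v` -/
def pj (v : E) : E →ₗ[ℝ] E where
  toFun w := w - cf v w • v
  map_add' x y := by
    simp only [cf, inner_add_right, add_div, add_smul]
    abel
  map_smul' t x := by
    simp only [cf, inner_smul_right, RingHom.id_apply, smul_sub, smul_smul, mul_div_assoc]

omit [FiniteDimensional ℝ E] in
theorem pj_add (v w : E) : pj v w + cf v w • v = w := by
  simp [pj]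

omit [FiniteDimensional ℝ E] in
theorem inner_pj {v : E} (hv : v ≠ 0) (w : E) : ⟪v, pj v w⟫_ℝ = 0 := by
  have h : ‖v‖ ^ 2 ≠ 0 := pow_ne_zero 2 (norm_ne_zero_iff.2 hv)
  simp only [pj, cf, LinearMap.coe_mk, AddHom.coe_mk, inner_sub_right, inner_smul_right,
    real_inner_self_eq_norm_sq]
  field_simp
  ring

omit [FiniteDimensional ℝ E] in
theorem norm_sq_eq {v : E} (hv : v ≠ 0) (w : E) :
    ‖w‖ ^ 2 = ‖pj v w‖ ^ 2 + cf v w ^ 2 * ‖v‖ ^ 2 := by
  conv_lhs => rw [← pj_add v w, norm_add_sq_real, inner_smul_right, real_inner_comm,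
    inner_pj hv, norm_smul, mul_pow, Real.norm_eq_abs, sq_abs]
  ring

omit [FiniteDimensional ℝ E] in
theorem cf_self {v : E} (hv : v ≠ 0) : cf v v = 1 := by
  have h : ‖v‖ ^ 2 ≠ 0 := pow_ne_zero 2 (norm_ne_zero_iff.2 hv)
  rw [cf, real_inner_self_eq_norm_sq, div_self h]

omit [FiniteDimensional ℝ E] in
theorem pj_self {v : E} (hv : v ≠ 0) : pj v v = 0 := by
  simp [pj, cf_self hv]

omit [FiniteDimensional ℝ E] in
theorem cf_sub_zsmul {v : E} (hv : v ≠ 0) (w : E) (k : ℤ) : cf v (w - k • v) = cf v w - k := by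
  have h : ‖v‖ ^ 2 ≠ 0 := pow_ne_zero 2 (norm_ne_zero_iff.2 hv)
  rw [← Int.cast_smul_eq_zsmul ℝ k v, cf, cf, inner_sub_right, inner_smul_right,
    real_inner_self_eq_norm_sq]
  field_simp

omit [FiniteDimensional ℝ E] in
theorem pj_sub_zsmul {v : E} (hv : v ≠ 0) (w : E) (k : ℤ) : pj v (w - k • v) = pj v w := by
  rw [map_sub, map_zsmul, pj_self hv, smul_zero, sub_zero]

theorem hkz : ∀ (d : ℕ) (L : AddSubgroup E) (η : ℝ), 0 < η → (∀ v ∈ L, v ≠ 0 → η ≤ ‖v‖) →
    Module.finrank ℝ (Submodule.span ℝ (L : Set E)) ≤ d →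
    ∃ (k : ℕ) (b e : Fin k → E) (μ : Fin k → Fin k → ℝ),
      (∀ i, b i ∈ L) ∧ (∀ i j, i ≠ j → ⟪e i, e j⟫_ℝ = 0) ∧ (∀ i, η / 2 ^ d ≤ ‖e i‖) ∧
      (∀ i, e i ∈ Submodule.span ℝ (L : Set E)) ∧
      (∀ i, b i = ∑ j, μ i j • e j) ∧ (∀ i, μ i i = 1) ∧ (∀ i j, i < j → μ i j = 0) ∧
      (∀ i j, |μ i j| ≤ 1) ∧ L ≤ AddSubgroup.closure (range b) := by
  intro d
  induction d with
  | zero =>
    intro L η hη hL hd
    have h1 : Submodule.span ℝ (L : Set E) = ⊥ := by
      rw [← Submodule.finrank_eq_zero (R := ℝ)]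
      omega
    refine ⟨0, Fin.elim0, Fin.elim0, Fin.elim0, fun i => i.elim0, fun i => i.elim0,
      fun i => i.elim0, fun i => i.elim0, fun i => i.elim0, fun i => i.elim0, fun i => i.elim0,
      fun i => i.elim0, fun x hx => ?_⟩
    have h2 : x ∈ Submodule.span ℝ (L : Set E) := Submodule.subset_span hx
    rw [h1, Submodule.mem_bot] at h2
    rw [h2]
    exact zero_mem _
  | succ d ih =>
    intro L η hη hL hd
    by_cases h0 : ∃ v ∈ L, v ≠ 0
    · obtain ⟨v, hvL, hv0, hvmin⟩ := exists_almost_min hη hL h0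
      have hvpos : 0 < ‖v‖ := norm_pos_iff.2 hv0
      have hvη : η ≤ ‖v‖ := hL v hvL hv0
      -- rounding
      have hround : ∀ w ∈ L, ∃ w' ∈ L, pj v w' = pj v w ∧ |cf v w'| ≤ 1 / 2 := by
        intro w hw
        refine ⟨w - round (cf v w) • v, L.sub_mem hw (L.zsmul_mem hvL _), pj_sub_zsmul hv0 _ _, ?_⟩
        rw [cf_sub_zsmul hv0]
        exact abs_sub_round _
      -- the projected lattice
      set L' : AddSubgroup E := L.map (pj v).toAddMonoidHom with hL'def
      have hmem' : ∀ {x : E}, x ∈ L' ↔ ∃ w ∈ L, pj v w = x := by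
        intro x
        rw [hL'def, AddSubgroup.mem_map]
        rfl
      have hL' : ∀ x ∈ L', x ≠ 0 → η / 2 ≤ ‖x‖ := by
        intro x hx hx0
        obtain ⟨w, hw, rfl⟩ := hmem'.1 hx
        obtain ⟨w', hw', hpw, hcw⟩ := hround w hw
        rw [← hpw] at hx0 ⊢
        have hw'0 : w' ≠ 0 := by
          rintro rfl
          exact hx0 (map_zero _)
        have h1 := hvmin w' hw' hw'0
        have h2 := norm_sq_eq hv0 w'
        have h3 : cf v w' ^ 2 ≤ 1 / 4 := by
          have := sq_le_sq' (by linarith [abs_nonneg (cf v w')]) hcw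
          rw [sq_abs] at this
          linarith
        have h4 : cf v w' ^ 2 * ‖v‖ ^ 2 ≤ 1 / 4 * ‖v‖ ^ 2 :=
          mul_le_mul_of_nonneg_right h3 (by positivity)
        have h5 : η ^ 2 ≤ ‖v‖ ^ 2 := pow_le_pow_left₀ hη.le hvη 2
        refine le_of_sq_le_sq (a := η / 2) ?_ (norm_nonneg _)
        nlinarith
      have hperp : ∀ x ∈ Submodule.span ℝ (L' : Set E), ⟪v, x⟫_ℝ = 0 := by
        intro x hx
        induction hx using Submodule.span_induction with
        | mem x hx =>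
          obtain ⟨w, hw, rfl⟩ := hmem'.1 hx
          exact inner_pj hv0 w
        | zero => simp
        | add x y _ _ hx hy => rw [inner_add_right, hx, hy, add_zero]
        | smul t x _ hx => rw [inner_smul_right, hx, mul_zero]
      have hvspan : v ∈ Submodule.span ℝ (L : Set E) := Submodule.subset_span hvL
      have hle : Submodule.span ℝ (L' : Set E) ≤ Submodule.span ℝ (L : Set E) := by
        rw [Submodule.span_le]
        intro x hx
        obtain ⟨w, hw, rfl⟩ := hmem'.1 hx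
        have : pj v w = w - cf v w • v := rfl
        rw [this]
        exact Submodule.sub_mem _ (Submodule.subset_span hw) (Submodule.smul_mem _ _ hvspan)
      have hlt : Submodule.span ℝ (L' : Set E) < Submodule.span ℝ (L : Set E) := by
        refine lt_of_le_of_ne hle fun heq => ?_
        have := hperp v (heq ▸ hvspan)
        rw [real_inner_self_eq_norm_sq] at this
        exact hv0 (norm_eq_zero.1 (by simpa using this))
      have hfin : Module.finrank ℝ (Submodule.span ℝ (L' : Set E)) ≤ d := by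
        have := Submodule.finrank_lt_finrank_of_lt hlt
        omega
      obtain ⟨k, b', e', μ', hb', horth, hlow, hspan, hbe, hdiag, htri, hμ, hcl⟩ :=
        ih L' (η / 2) (by positivity) hL' hfin
      have hlift : ∀ i, ∃ w ∈ L, pj v w = b' i ∧ |cf v w| ≤ 1 / 2 := by
        intro i
        obtain ⟨w, hw, hwb⟩ := hmem'.1 (hb' i)
        obtain ⟨w', hw', h1, h2⟩ := hround w hw
        exact ⟨w', hw', h1.trans hwb, h2⟩
      choose w hwL hwb hwc using hlift
      refine ⟨k + 1, Fin.cons v w, Fin.cons v e',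
        Fin.cons (Fin.cons 1 0) (fun i => Fin.cons (cf v (w i)) (μ' i)), ?_, ?_, ?_, ?_, ?_, ?_,
        ?_, ?_, ?_⟩
      · intro i
        refine Fin.cases ?_ (fun i => ?_) i
        · exact hvL
        · exact hwL i
      · intro i j
        refine Fin.cases ?_ (fun i => ?_) i
        · refine Fin.cases ?_ (fun j => ?_) j
          · intro h; exact absurd rfl h
          · intro _
            exact hperp _ (hspan j)
        · refine Fin.cases ?_ (fun j => ?_) j
          · intro _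
            rw [real_inner_comm]
            exact hperp _ (hspan i)
          · intro h
            exact horth i j (fun h' => h (by rw [h']))
      · intro i
        refine Fin.cases ?_ (fun i => ?_) i
        · change η / 2 ^ (d + 1) ≤ ‖v‖
          exact (div_le_self hη.le (one_le_pow₀ (by norm_num))).trans hvη
        · change η / 2 ^ (d + 1) ≤ ‖e' i‖
          have := hlow i
          rwa [div_div, ← pow_succ'] at this
      · intro i
        refine Fin.cases ?_ (fun i => ?_) i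
        · exact hvspan
        · exact hle (hspan i)
      · intro i
        rw [Fin.sum_univ_succ]
        refine Fin.cases ?_ (fun i => ?_) i
        · simp
        · simp only [Fin.cons_succ, Fin.cons_zero]
          rw [← hbe i, ← hwb i, add_comm, pj_add]
      · intro i
        refine Fin.cases ?_ (fun i => ?_) i
        · simp
        · simpa using hdiag i
      · intro i j
        refine Fin.cases ?_ (fun i => ?_) i
        · refine Fin.cases ?_ (fun j => ?_) j
          · intro h; exact absurd h (lt_irrefl _)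
          · intro _
            simp
        · refine Fin.cases ?_ (fun j => ?_) j
          · intro h; exact absurd h (not_lt.2 (Fin.zero_le _))
          · intro h
            simpa using htri i j (Fin.succ_lt_succ_iff.1 h)
      · intro i j
        refine Fin.cases ?_ (fun i => ?_) i
        · refine Fin.cases ?_ (fun j => ?_) j
          · simp
          · simp
        · refine Fin.cases ?_ (fun j => ?_) j
          · simp only [Fin.cons_succ, Fin.cons_zero]
            exact (hwc i).trans (by norm_num)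
          · simpa using hμ i j
      · -- generation
        intro x hx
        have hlift2 : ∀ y ∈ AddSubgroup.closure (range b'), ∃ z ∈ AddSubgroup.closure
            (range (Fin.cons v w : Fin (k + 1) → E)), pj v z = y := by
          intro y hy
          induction hy using AddSubgroup.closure_induction with
          | mem y hy =>
            obtain ⟨i, rfl⟩ := hy
            exact ⟨w i, AddSubgroup.subset_closure ⟨i.succ, rfl⟩, hwb i⟩
          | zero => exact ⟨0, zero_mem _, map_zero _⟩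
          | add y₁ y₂ _ _ h₁ h₂ =>
            obtain ⟨z₁, hz₁, e₁⟩ := h₁
            obtain ⟨z₂, hz₂, e₂⟩ := h₂
            exact ⟨z₁ + z₂, add_mem hz₁ hz₂, by rw [map_add, e₁, e₂]⟩
          | neg y _ h =>
            obtain ⟨z, hz, e⟩ := h
            exact ⟨-z, neg_mem hz, by rw [map_neg, e]⟩
        have hclL : AddSubgroup.closure (range (Fin.cons v w : Fin (k + 1) → E)) ≤ L := by
          rw [AddSubgroup.closure_le]
          rintro _ ⟨i, rfl⟩
          refine Fin.cases ?_ (fun i => ?_) i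
          · exact hvL
          · exact hwL i
        obtain ⟨z, hz, hzx⟩ := hlift2 (pj v x) (hcl (hmem'.2 ⟨x, hx, rfl⟩))
        -- `x - z` is an integer multiple of `v`
        have hxz : x - z ∈ L := L.sub_mem hx (hclL hz)
        have hpj0 : pj v (x - z) = 0 := by rw [map_sub, hzx, sub_self]
        have hvcl : v ∈ AddSubgroup.closure (range (Fin.cons v w : Fin (k + 1) → E)) :=
          AddSubgroup.subset_closure ⟨0, rfl⟩
        set t : ℤ := round (cf v (x - z)) with ht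
        have hy : x - z - t • v ∈ L := L.sub_mem hxz (L.zsmul_mem hvL _)
        have hy0 : x - z - t • v = 0 := by
          by_contra hne
          have h1 := hvmin _ hy hne
          have h2 := norm_sq_eq hv0 (x - z - t • v)
          rw [pj_sub_zsmul hv0, hpj0, norm_zero, cf_sub_zsmul hv0] at h2
          have h3 : |cf v (x - z) - t| ≤ 1 / 2 := abs_sub_round _
          have h4 : (cf v (x - z) - t) ^ 2 ≤ 1 / 4 := by
            have := sq_le_sq' (by linarith [abs_nonneg (cf v (x - z) - t)]) h3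
            rw [sq_abs] at this
            linarith
          have h5 : 0 < ‖v‖ ^ 2 := by positivity
          nlinarith
        have : x = z + t • v := by
          rw [sub_eq_zero] at hy0
          rw [← hy0]
          abel
        rw [this]
        exact add_mem hz (AddSubgroup.zsmul_mem _ hvcl _)
    · push Not at h0
      refine ⟨0, Fin.elim0, Fin.elim0, Fin.elim0, fun i => i.elim0, fun i => i.elim0,
        fun i => i.elim0, fun i => i.elim0, fun i => i.elim0, fun i => i.elim0, fun i => i.elim0,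
        fun i => i.elim0, fun x hx => ?_⟩
      rw [h0 x hx]
      exact zero_mem _

end HKZ

/-! ### short bases -/

/-- the lattice `ℤⁿ g` in Euclidean space -/
def latHom (g : SLR n) : (Fin n → ℤ) →+ EuclideanSpace ℝ (Fin n) where
  toFun z := WithLp.toLp 2 (rv z ᵥ* g.1)
  map_zero' := by
    rw [rv_eq_zero_iff.2 rfl, Matrix.zero_vecMul]
    rfl
  map_add' x y := by
    have : rv (x + y) = rv x + rv y := by
      funext i
      simp [rv]
    rw [this, Matrix.add_vecMul]
    rfl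

theorem latHom_apply (g : SLR n) (z : Fin n → ℤ) (j : Fin n) :
    latHom g z j = ∑ i, (z i : ℝ) * g.1 i j := rfl

theorem mem_closure_range {k : ℕ} {E : Type*} [AddCommGroup E] {b : Fin k → E} {x : E}
    (hx : x ∈ AddSubgroup.closure (range b)) : ∃ w : Fin k → ℤ, x = ∑ j, w j • b j := by
  induction hx using AddSubgroup.closure_induction with
  | mem x hx =>
    obtain ⟨i, rfl⟩ := hx
    refine ⟨Pi.single i 1, ?_⟩
    rw [Finset.sum_eq_single i]
    · simp
    · intro j _ hj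
      simp [Pi.single_eq_of_ne hj]
    · simp
  | zero => exact ⟨0, by simp⟩
  | add x y _ _ hx hy =>
    obtain ⟨w, rfl⟩ := hx
    obtain ⟨w', rfl⟩ := hy
    exact ⟨w + w', by simp [add_smul, Finset.sum_add_distrib]⟩
  | neg x _ hx =>
    obtain ⟨w, rfl⟩ := hx
    exact ⟨-w, by simp [Finset.sum_neg_distrib]⟩

/-- **short basis**: every `SL_n(ℤ)`-orbit has a representative with polynomially bounded
entries -/
theorem exists_short (g : SLR n) :
    ∃ γ ∈ intPoints n, ∀ i j, |(γ * g).1 i j| ≤ n * (2 ^ n / mm g) ^ (n - 1) := by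
  classical
  set L : AddSubgroup (EuclideanSpace ℝ (Fin n)) := (latHom g).range with hLdef
  have hmm := mm_pos g
  have hL : ∀ v ∈ L, v ≠ 0 → mm g ≤ ‖v‖ := by
    rintro _ ⟨z, rfl⟩ hz
    have hz0 : z ≠ 0 := by
      rintro rfl
      exact hz (map_zero _)
    refine (mm_le g hz0).trans ?_
    rw [pi_norm_le_iff_of_nonneg (norm_nonneg _)]
    intro i
    exact PiLp.norm_apply_le (latHom g z) i
  have hfin : Module.finrank ℝ (Submodule.span ℝ (L : Set (EuclideanSpace ℝ (Fin n)))) ≤ n := by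
    have := Submodule.finrank_le (Submodule.span ℝ (L : Set (EuclideanSpace ℝ (Fin n))))
    rwa [finrank_euclideanSpace_fin] at this
  obtain ⟨k, b, e, μ, hbL, horth, hlow, hspan, hbe, hdiag, htri, hμ, hcl⟩ :=
    hkz n L (mm g) hmm hL hfin
  have hepos : ∀ i, 0 < ‖e i‖ := fun i => lt_of_lt_of_le (by positivity) (hlow i)
  -- rows of `g`
  have hrow : ∀ i, latHom g (Pi.single i 1) ∈ AddSubgroup.closure (range b) :=
    fun i => hcl ⟨_, rfl⟩
  have hrow' : ∀ i j, latHom g (Pi.single i 1) j = g.1 i j := by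
    intro i j
    rw [latHom_apply, Finset.sum_eq_single i]
    · simp
    · intro l _ hl
      simp [Pi.single_eq_of_ne hl]
    · simp
  -- `k = n`
  have hk : k = n := by
    have hli : LinearIndependent ℝ e :=
      linearIndependent_of_ne_zero_of_inner_eq_zero (fun i => norm_pos_iff.1 (hepos i))
        (fun i j hij => horth i j hij)
    have h1 : k ≤ n := by
      have := hli.fintype_card_le_finrank
      rwa [Fintype.card_fin, finrank_euclideanSpace_fin] at this
    have hbspan : ∀ i, b i ∈ Submodule.span ℝ (range e) := by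
      intro i
      rw [hbe i]
      exact Submodule.sum_mem _ fun j _ => Submodule.smul_mem _ _ (Submodule.subset_span ⟨j, rfl⟩)
    have hclspan : ∀ x ∈ AddSubgroup.closure (range b), x ∈ Submodule.span ℝ (range e) := by
      intro x hx
      have : AddSubgroup.closure (range b) ≤ (Submodule.span ℝ (range e)).toAddSubgroup := by
        rw [AddSubgroup.closure_le]
        rintro _ ⟨i, rfl⟩
        exact hbspan i
      exact this hx
    have htop : Submodule.span ℝ (range e) = ⊤ := by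
      rw [Submodule.eq_top_iff']
      intro x
      have hx : x = ∑ i, ((WithLp.ofLp x) ᵥ* (g⁻¹).1) i • latHom g (Pi.single i 1) := by
        have h2 : ((WithLp.ofLp x) ᵥ* (g⁻¹).1) ᵥ* g.1 = WithLp.ofLp x := by
          rw [Matrix.vecMul_vecMul, coe_inv_mul, Matrix.vecMul_one]
        ext j
        have h3 := congrFun h2 j
        rw [← h3]
        simp only [WithLp.ofLp_sum, WithLp.ofLp_smul, Finset.sum_apply, Pi.smul_apply,
          smul_eq_mul, Matrix.vecMul, dotProduct]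
        refine Finset.sum_congr rfl fun i _ => ?_
        have := hrow' i j
        rw [this]
      rw [hx]
      exact Submodule.sum_mem _ fun i _ => Submodule.smul_mem _ _ (hclspan _ (hrow i))
    have h2 : n ≤ k := by
      have h3 := finrank_range_le_card (R := ℝ) e
      rw [Set.finrank, htop, finrank_top, finrank_euclideanSpace_fin, Fintype.card_fin] at h3
      exact h3
    omega
  subst hk
  -- matrices
  set B : Matrix (Fin k) (Fin k) ℝ := fun i j => b i j with hB
  set Em : Matrix (Fin k) (Fin k) ℝ := fun i j => e i j with hEm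
  set M : Matrix (Fin k) (Fin k) ℝ := μ with hM
  have hBME : B = M * Em := by
    ext i j
    rw [hB, Matrix.mul_apply]
    show b i j = ∑ l, μ i l * e l j
    rw [hbe i]
    simp only [WithLp.ofLp_sum, WithLp.ofLp_smul, Finset.sum_apply, Pi.smul_apply, smul_eq_mul]
    rfl
  have hMdet : M.det = 1 := by
    rw [Matrix.det_of_isLowerTriangular M (fun i j hij => htri i j hij)]
    exact Finset.prod_eq_one fun i _ => hdiag i
  have hEE : Em * Emᵀ = Matrix.diagonal (fun i => ‖e i‖ ^ 2) := by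
    ext i j
    have h1 : (Em * Emᵀ) i j = ⟪e i, e j⟫_ℝ := by
      rw [Matrix.mul_apply, PiLp.inner_apply]
      refine Finset.sum_congr rfl fun l _ => ?_
      show e i l * e j l = ⟪(e i) l, (e j) l⟫_ℝ
      simp [mul_comm]
    rw [h1]
    by_cases hij : i = j
    · subst hij
      rw [Matrix.diagonal_apply_eq, real_inner_self_eq_norm_sq]
    · rw [Matrix.diagonal_apply_ne _ hij, horth i j hij]
  have hEdet : Em.det ^ 2 = ∏ i, ‖e i‖ ^ 2 := by
    have := congrArg Matrix.det hEE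
    rwa [Matrix.det_mul, Matrix.det_transpose, Matrix.det_diagonal, ← sq] at this
  -- integrality
  choose z hz using hbL
  have hBZ : B = (Matrix.of z).map (Int.cast : ℤ → ℝ) * g.1 := by
    ext i j
    rw [Matrix.mul_apply]
    show b i j = _
    rw [← hz i, latHom_apply]
    rfl
  have hW : ∀ i, ∃ w : Fin k → ℤ, latHom g (Pi.single i 1) = ∑ j, w j • b j :=
    fun i => mem_closure_range (hrow i)
  choose w hw using hW
  have hgW : g.1 = (Matrix.of w).map (Int.cast : ℤ → ℝ) * B := by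
    ext i j
    rw [Matrix.mul_apply, ← hrow' i j, hw i]
    simp [WithLp.ofLp_sum, hB]
  have hWZ : (Matrix.of w).map (Int.cast : ℤ → ℝ) * (Matrix.of z).map (Int.cast : ℤ → ℝ) = 1 := by
    have h1 : (Matrix.of w).map (Int.cast : ℤ → ℝ) * (Matrix.of z).map (Int.cast : ℤ → ℝ) * g.1
        = g.1 := by
      conv_rhs => rw [hgW, hBZ]
      rw [mul_assoc]
    calc _ = (Matrix.of w).map (Int.cast : ℤ → ℝ) * (Matrix.of z).map (Int.cast : ℤ → ℝ) *
          (g.1 * (g⁻¹).1) := by rw [coe_mul_inv, mul_one]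
      _ = 1 := by rw [← mul_assoc, h1, coe_mul_inv]
  have hdet : (Matrix.of w).det * (Matrix.of z).det = 1 := by
    have h1 := congrArg Matrix.det hWZ
    rw [Matrix.det_mul, Matrix.det_one] at h1
    have h2 : ∀ A : Matrix (Fin k) (Fin k) ℤ, (A.map (Int.cast : ℤ → ℝ)).det = (A.det : ℝ) := by
      intro A
      have := (Int.castRingHom ℝ).map_det A
      rw [RingHom.mapMatrix_apply] at this
      exact this.symm
    rw [h2, h2] at h1
    exact_mod_cast h1
  have hzdet : (Matrix.of z).det = 1 ∨ (Matrix.of z).det = -1 := by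
    rcases Int.eq_one_or_neg_one_of_mul_eq_one' hdet with h | h
    · exact Or.inl h.2
    · exact Or.inr h.2
  have hBdet : B.det ^ 2 = 1 := by
    have h2 : ((Matrix.of z).map (Int.cast : ℤ → ℝ)).det = ((Matrix.of z).det : ℝ) := by
      have := (Int.castRingHom ℝ).map_det (Matrix.of z)
      rw [RingHom.mapMatrix_apply] at this
      exact this.symm
    rw [hBZ, Matrix.det_mul, g.2, mul_one, h2]
    rcases hzdet with h | h <;> rw [h] <;> norm_num
  have hprod : ∏ i, ‖e i‖ ^ 2 = 1 := by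
    rw [← hEdet, ← hBdet, hBME, Matrix.det_mul, hMdet, one_mul]
  have hprod1 : ∏ i, ‖e i‖ = 1 := by
    rw [Finset.prod_pow] at hprod
    have h0 : 0 ≤ ∏ i, ‖e i‖ := Finset.prod_nonneg fun i _ => norm_nonneg _
    exact (pow_eq_one_iff_of_nonneg h0 two_ne_zero).1 hprod
  have hebd : ∀ i, ‖e i‖ ≤ (2 ^ k / mm g) ^ (k - 1) := by
    intro i
    have h1 : ‖e i‖ * ∏ j ∈ Finset.univ.erase i, ‖e j‖ = 1 := by
      rw [← hprod1]
      exact Finset.mul_prod_erase Finset.univ (fun j => ‖e j‖) (Finset.mem_univ i)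
    have h2 : (mm g / 2 ^ k) ^ (k - 1) ≤ ∏ j ∈ Finset.univ.erase i, ‖e j‖ := by
      have h3 : (Finset.univ.erase i).card = k - 1 := by
        rw [Finset.card_erase_of_mem (Finset.mem_univ i), Finset.card_univ, Fintype.card_fin]
      rw [← h3, ← Finset.prod_const]
      exact Finset.prod_le_prod (fun _ _ => by positivity) fun j _ => hlow j
    have h4 : 0 < (mm g / 2 ^ k) ^ (k - 1) := by positivity
    have h5 : (2 ^ k / mm g) ^ (k - 1) = ((mm g / 2 ^ k) ^ (k - 1))⁻¹ := by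
      rw [← inv_pow, inv_div]
    rw [h5, ← one_div, le_div_iff₀ h4]
    calc ‖e i‖ * (mm g / 2 ^ k) ^ (k - 1) ≤ ‖e i‖ * ∏ j ∈ Finset.univ.erase i, ‖e j‖ :=
          mul_le_mul_of_nonneg_left h2 (norm_nonneg _)
      _ = 1 := h1
  have hbbd : ∀ i j, |B i j| ≤ k * (2 ^ k / mm g) ^ (k - 1) := by
    intro i j
    have h1 : |b i j| ≤ ‖b i‖ := PiLp.norm_apply_le (b i) j
    refine h1.trans ?_
    rw [hbe i]
    refine (norm_sum_le _ _).trans ?_
    calc ∑ l, ‖μ i l • e l‖ ≤ ∑ _l : Fin k, (2 ^ k / mm g) ^ (k - 1) := by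
          refine Finset.sum_le_sum fun l _ => ?_
          rw [norm_smul, Real.norm_eq_abs]
          calc |μ i l| * ‖e l‖ ≤ 1 * ‖e l‖ := mul_le_mul_of_nonneg_right (hμ i l) (norm_nonneg _)
            _ ≤ _ := by rw [one_mul]; exact hebd l
      _ = k * (2 ^ k / mm g) ^ (k - 1) := by simp
  rcases hzdet with h | h
  · refine ⟨(Matrix.SpecialLinearGroup.map (n := Fin k) (Int.castRingHom ℝ)) ⟨Matrix.of z, h⟩,
      ⟨_, rfl⟩, fun i j => ?_⟩
    have : ((Matrix.SpecialLinearGroup.map (n := Fin k) (Int.castRingHom ℝ)) ⟨Matrix.of z, h⟩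
        * g).1 = B := by
      rw [hBZ]
      rfl
    rw [this]
    exact hbbd i j
  · have hk0 : 0 < k := by
      rcases Nat.eq_zero_or_pos k with hk | hk
      · subst hk
        rw [Matrix.det_isEmpty] at h
        norm_num at h
      · exact hk
    set D : Matrix (Fin k) (Fin k) ℤ :=
      Matrix.diagonal (fun i => if i = ⟨0, hk0⟩ then -1 else 1) with hD
    have hDdet : D.det = -1 := by
      rw [hD, Matrix.det_diagonal, Finset.prod_ite_eq']
      simp
    have hDZ : (D * Matrix.of z).det = 1 := by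
      rw [Matrix.det_mul, hDdet, h]
      norm_num
    refine ⟨(Matrix.SpecialLinearGroup.map (n := Fin k) (Int.castRingHom ℝ)) ⟨D * Matrix.of z, hDZ⟩,
      ⟨_, rfl⟩, fun i j => ?_⟩
    have h1 : ((Matrix.SpecialLinearGroup.map (n := Fin k) (Int.castRingHom ℝ))
        ⟨D * Matrix.of z, hDZ⟩ * g).1 = D.map (Int.cast : ℤ → ℝ) * B := by
      have h2 : (D * Matrix.of z).map (Int.cast : ℤ → ℝ)
          = D.map (Int.cast : ℤ → ℝ) * (Matrix.of z).map (Int.cast : ℤ → ℝ) := by
        have := Matrix.map_mul (L := D) (M := Matrix.of z) (f := Int.castRingHom ℝ)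
        exact this
      rw [hBZ, ← mul_assoc, ← h2]
      rfl
    rw [h1, hD, Matrix.diagonal_map Int.cast_zero, Matrix.diagonal_mul, abs_mul]
    have h3 : |((if i = ⟨0, hk0⟩ then (-1 : ℤ) else 1 : ℤ) : ℝ)| = 1 := by
      split_ifs <;> simp
    rw [h3, one_mul]
    exact hbbd i j

/-- the constant of the injectivity radius -/
def KK (n : ℕ) : ℝ := (n + 1) ^ 3 * 2 ^ (n * n)

theorem one_le_KK (n : ℕ) : 1 ≤ KK n := by
  unfold KK
  have h1 : (1 : ℝ) ≤ (n + 1) ^ 3 := one_le_pow₀ (by simp)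
  have h2 : (1 : ℝ) ≤ 2 ^ (n * n) := one_le_pow₀ (by norm_num)
  exact one_le_mul_of_one_le_of_one_le h1 h2

/-- a representative with `nrm (γ * g) * mm g ^ (n-1) ≤ n³ 2^(n(n-1))` -/
theorem exists_short_nrm (g : SLR n) :
    ∃ γ ∈ intPoints n, nrm (γ * g).1 * mm g ^ (n - 1) ≤ n ^ 3 * 2 ^ (n * (n - 1)) := by
  obtain ⟨γ, hγ, h⟩ := exists_short g
  refine ⟨γ, hγ, ?_⟩
  have h1 := nrm_le_of_forall h
  have h2 : 0 < mm g ^ (n - 1) := pow_pos (mm_pos g) _
  calc nrm (γ * g).1 * mm g ^ (n - 1)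
      ≤ n ^ 2 * (n * (2 ^ n / mm g) ^ (n - 1)) * mm g ^ (n - 1) :=
        mul_le_mul_of_nonneg_right h1 h2.le
    _ = n ^ 3 * 2 ^ (n * (n - 1)) := by
        rw [div_pow, pow_mul]
        field_simp

/-- **injectivity radius**: a conjugate of an integral matrix close to `1` is `1` -/
theorem eq_one_of_small {g γ : SLR n} (hγ : γ ∈ intPoints n)
    (h : KK n * nrm ((g⁻¹ * γ * g).1 - 1) ≤ rad g) : γ = 1 := by
  rcases Nat.eq_zero_or_pos n with hn | hn
  · subst hn
    exact Subtype.ext (Matrix.ext fun i => i.elim0)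
  obtain ⟨δ, hδ, hs⟩ := exists_short_nrm g
  set g₁ := δ * g with hg₁
  set γ' := δ * γ * δ⁻¹ with hγ'
  have hγ'mem : γ' ∈ intPoints n := mul_mem (mul_mem hδ hγ) (inv_mem hδ)
  have hcomm : γ' * g₁ = g₁ * (g⁻¹ * γ * g) := by
    rw [hγ', hg₁]
    group
  have hmat : (γ'.1 - 1) * g₁.1 = g₁.1 * ((g⁻¹ * γ * g).1 - 1) := by
    have h1 : γ'.1 * g₁.1 = g₁.1 * (g⁻¹ * γ * g).1 := congrArg Subtype.val hcomm
    rw [sub_mul, mul_sub, h1, one_mul, mul_one]
  obtain ⟨D, hD⟩ := mem_intPoints_iff.1 hγ'mem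
  have hmm : mm g₁ = mm g := mm_mul_left hδ g
  have hmpos := mm_pos g
  -- the size
  have hsize : nrm (g₁.1 * ((g⁻¹ * γ * g).1 - 1)) < mm g := by
    set x := nrm ((g⁻¹ * γ * g).1 - 1) with hx
    have hx0 : 0 ≤ x := nrm_nonneg _
    have h1 := nrm_mul_le g₁.1 ((g⁻¹ * γ * g).1 - 1)
    refine h1.trans_lt ?_
    have h2 : 0 < mm g ^ (n - 1) := pow_pos hmpos _
    have h3 : rad g = mm g ^ (n - 1) * mm g := by
      rw [rad, ← pow_succ, Nat.sub_add_cancel hn]
    rw [h3] at h
    have h4 : (n : ℝ) ^ 3 * 2 ^ (n * (n - 1)) < KK n := by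
      unfold KK
      have h5 : (n : ℝ) ^ 3 < (n + 1) ^ 3 := by
        have : (0 : ℝ) ≤ n := Nat.cast_nonneg n
        exact pow_lt_pow_left₀ (by linarith) this (by norm_num)
      have h6 : (2 : ℝ) ^ (n * (n - 1)) ≤ 2 ^ (n * n) :=
        pow_le_pow_right₀ (by norm_num) (Nat.mul_le_mul_left _ (Nat.sub_le _ _))
      calc (n : ℝ) ^ 3 * 2 ^ (n * (n - 1)) < (n + 1) ^ 3 * 2 ^ (n * (n - 1)) :=
            mul_lt_mul_of_pos_right h5 (by positivity)
        _ ≤ (n + 1) ^ 3 * 2 ^ (n * n) := mul_le_mul_of_nonneg_left h6 (by positivity)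
    have hK : 0 < KK n := lt_of_lt_of_le one_pos (one_le_KK n)
    rcases hx0.eq_or_lt with hx1 | hx1
    · have h8 : nrm g₁.1 * x < mm g := by
        rw [← hx1, mul_zero]
        exact hmpos
      exact h8
    · -- `N * mm^(n-1) ≤ c < K`, `K x ≤ mm^(n-1) mm`
      have h7 : nrm g₁.1 * x * mm g ^ (n - 1) < mm g * mm g ^ (n - 1) := by
        calc nrm g₁.1 * x * mm g ^ (n - 1) = (nrm g₁.1 * mm g ^ (n - 1)) * x := by ring
          _ ≤ (n ^ 3 * 2 ^ (n * (n - 1))) * x := mul_le_mul_of_nonneg_right hs hx0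
          _ < KK n * x := mul_lt_mul_of_pos_right h4 hx1
          _ ≤ mm g ^ (n - 1) * mm g := h
          _ = mm g * mm g ^ (n - 1) := mul_comm _ _
      exact lt_of_mul_lt_mul_right h7 h2.le
  have hrows : ∀ i, (fun j => D.1 i j - (1 : Matrix (Fin n) (Fin n) ℤ) i j) = 0 := by
    intro i
    by_contra hne
    have h1 := mm_le g₁ hne
    rw [hmm] at h1
    have h2 : ‖rv (fun j => D.1 i j - (1 : Matrix (Fin n) (Fin n) ℤ) i j) ᵥ* g₁.1‖
        ≤ nrm (g₁.1 * ((g⁻¹ * γ * g).1 - 1)) := by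
      rw [pi_norm_le_iff_of_nonneg (nrm_nonneg _)]
      intro j
      have h3 : (rv (fun j => D.1 i j - (1 : Matrix (Fin n) (Fin n) ℤ) i j) ᵥ* g₁.1) j
          = ((γ'.1 - 1) * g₁.1) i j := by
        rw [Matrix.mul_apply, Matrix.vecMul, dotProduct]
        refine Finset.sum_congr rfl fun l _ => ?_
        rw [Matrix.sub_apply, hD]
        simp only [rv]
        push_cast
        congr 2
        by_cases hil : i = l
        · subst hil; simp
        · simp [Matrix.one_apply_ne hil]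
      rw [h3, hmat]
      exact abs_le_nrm _ i j
    linarith
  have hγ1 : γ' = 1 := by
    refine Subtype.ext (Matrix.ext fun i j => ?_)
    rw [hD]
    have h1 := congrFun (hrows i) j
    simp only [Pi.zero_apply, sub_eq_zero] at h1
    rw [h1]
    by_cases hij : i = j
    · subst hij; simp
    · simp [Matrix.one_apply_ne hij]
  have : γ = δ⁻¹ * γ' * δ := by
    rw [hγ']
    group
  rw [this, hγ1]
  group

end Crest.Agent.R014.Cell_433
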