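import Crest.Prelude.Def_TorusPacket

/-!
# Row 14: the interface statements (Theorem A, Theorem B) as `def : Prop`  (helper792)

`n = d + 1`.  `IsVec x v`: `v` is a vector of the lattice of `x`; `Thick x r`: `λ₁(x) ≥ r` (sup norm).
`Box S R δ`: matrices with all entries (of `h` and `h⁻¹`) at most `R` and the entries across `S | Sᶜ`
at most `δ`.  `SlabBd μ D κ C e η`: Theorem A for one measure with parameter `D`, exponent losses
`D ^ (C e)` (final form of #3693).  `RUC`, `NearInv`: verbatim #3628 (helper296).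
-/

set_option autoImplicit false

open MeasureTheory Filter Topology
open Crest.NumberTheoryR.Packets

universe u

namespace Crest.Agent.R014.Iface_792

/-- `v` is a vector of the unimodular lattice `ℤⁿ g`, `x = Γ g`. -/
def IsVec {n : ℕ} (x : ModSpace n) (v : Fin n → ℝ) : Prop :=
  ∃ g : SLR n, (Quotient.mk _ g : ModSpace n) = x ∧
    ∃ z : Fin n → ℤ, v = Matrix.vecMul (fun i => (z i : ℝ)) g.1

/-- `λ₁(x) ≥ r`, sup norm. -/
def Thick {n : ℕ} (x : ModSpace n) (r : ℝ) : Prop :=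
  ∀ v : Fin n → ℝ, IsVec x v → v ≠ 0 → r ≤ ‖v‖

/-- `h` and `h⁻¹` have all entries at most `R` and the entries across `S | Sᶜ` at most `δ`. -/
def Box {n : ℕ} (S : Finset (Fin n)) (R δ : ℝ) : Set (SLR n) :=
  {h | (∀ i j, |h.1 i j| ≤ R ∧ |(h⁻¹).1 i j| ≤ R) ∧
    ∀ i j, (i ∈ S ↔ j ∉ S) → |h.1 i j| ≤ δ ∧ |(h⁻¹).1 i j| ≤ δ}

/-- the slab bound with parameter `D` (range of scales `D ^ (-κ) ≤ δ ≤ 1`, loss `D ^ (C * e)`,
exceptional set of mass `D ^ (-η)`) together with the cusp bound. -/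
def SlabBd {n : ℕ} (μ : Measure (ModSpace n)) (D κ C e η : ℝ) : Prop :=
  (∃ X' : Set (ModSpace n), MeasurableSet X' ∧ μ X'ᶜ ≤ ENNReal.ofReal (D ^ (-η)) ∧
    ∀ x : ModSpace n, Thick x (D ^ (-e)) → ∀ S : Finset (Fin n), S.Nonempty → S ≠ Finset.univ →
      ∀ δ : ℝ, D ^ (-κ) ≤ δ → δ ≤ 1 →
        μ (X' ∩ (act x) '' Box S (D ^ e) δ) ≤ ENNReal.ofReal (D ^ (C * e) * δ)) ∧
  ∀ r : ℝ, 0 < r → μ {x | ¬ Thick x r} ≤ ENNReal.ofReal (D ^ e * r ^ n)

/-- **Theorem A** in degree `d + 1`, all lattices, primitive totally real fields, universe `u`. -/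
def ThmA (d : ℕ) : Prop :=
  ∃ κ C : ℝ, 0 < κ ∧ 0 < C ∧ ∀ e : ℝ, 0 < e → ∃ D₀ η : ℝ, 1 < D₀ ∧ 0 < η ∧
    ∀ (K : Type u) [Field K] [NumberField K] [NumberField.IsTotallyReal K],
      Module.finrank ℚ K = d + 1 → IsPrimitiveField K →
      ∀ (m : LatticeBasis (d + 1) K) (σ : Fin (d + 1) ≃ (K →+* ℝ)), D₀ ≤ latticeDisc m →
      ∀ μ : Measure (ModSpace (d + 1)), IsPacketMeasure m σ μ → SlabBd μ (latticeDisc m) κ C e η

/-- the packet side: existence, mass one, invariance under the positive diagonal group. -/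
def Pack (d : ℕ) : Prop :=
  ∀ (K : Type u) [Field K] [NumberField K] [NumberField.IsTotallyReal K],
    Module.finrank ℚ K = d + 1 →
    ∀ (m : LatticeBasis (d + 1) K) (σ : Fin (d + 1) ≃ (K →+* ℝ)),
      (∃ μ : Measure (ModSpace (d + 1)), IsPacketMeasure m σ μ) ∧
      ∀ μ : Measure (ModSpace (d + 1)), IsPacketMeasure m σ μ →
        IsProbabilityMeasure μ ∧ ∀ u : Fin d → ℝ, Measure.map (fun x => orbitMap x u) μ = μ

/-- the elementary matrix `1 + s E_ij`. -/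
def elem {n : ℕ} (i j : Fin n) (hij : i ≠ j) (s : ℝ) : SLR n :=
  ⟨Matrix.transvection i j s, Matrix.det_transvection_of_ne i j hij s⟩

/-- hypothesis of Theorem B for a sequence of measures. -/
def BHyp {d : ℕ} (μ : ℕ → Measure (ModSpace (d + 1))) : Prop :=
  (∀ i, IsProbabilityMeasure (μ i)) ∧
  (∀ i (u : Fin d → ℝ), Measure.map (fun x => orbitMap x u) (μ i) = μ i) ∧
  ∃ D : ℕ → ℝ, Tendsto D atTop atTop ∧ ∃ κ C : ℝ, 0 < κ ∧ 0 < C ∧
    ∀ e : ℝ, 0 < e → ∃ η : ℝ, 0 < η ∧ ∀ᶠ i in atTop, SlabBd (μ i) (D i) κ C e η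

/-- bounded right uniformly continuous functions (automatically continuous). -/
def RUC {n : ℕ} (f : ModSpace n → ℝ) : Prop :=
  (∃ B : ℝ, ∀ x, |f x| ≤ B) ∧
    ∀ e : ℝ, 0 < e → ∃ U ∈ 𝓝 (1 : SLR n), ∀ x, ∀ h ∈ U, |f (act x h) - f x| ≤ e

/-- near invariance under the elementary one-parameter groups. -/
def NearInv {n : ℕ} (μ : ℕ → Measure (ModSpace n)) : Prop :=
  ∀ f : ModSpace n → ℝ, RUC f → ∀ (i j : Fin n) (hij : i ≠ j) (s : ℝ),
    Tendsto (fun k => ∫ x, f (act x (elem i j hij s)) ∂(μ k) - ∫ x, f x ∂(μ k)) atTop (𝓝 0)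

/-- tightness (the last clause of the statements). -/
def Tight {n : ℕ} (μ : ℕ → Measure (ModSpace n)) : Prop :=
  ∀ ε : ℝ, 0 < ε → ∃ C : Set (ModSpace n), IsCompact C ∧ ∀ᶠ i in atTop, 1 - ε ≤ ((μ i) C).toReal

/-- **Theorem B** (dynamics, steps (1)-(5)), degree `d + 1`. -/
def ThmB (d : ℕ) : Prop :=
  ∀ μ : ℕ → Measure (ModSpace (d + 1)), BHyp μ → NearInv μ

/-- step (6): no escape of mass (measures invariant under the positive diagonal group). -/
def NoEsc (d : ℕ) : Prop :=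
  ∀ μ : ℕ → Measure (ModSpace (d + 1)), (∀ i, IsProbabilityMeasure (μ i)) →
    (∀ i (u : Fin d → ℝ), Measure.map (fun x => orbitMap x u) (μ i) = μ i) →
    NearInv μ → Tight μ

end Crest.Agent.R014.Iface_792
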