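import Crest.Agent.R014.Ms1_667

/-!
Row 14, leaf MODSPACE (helper667), part 2: Borel section `sec` of `q : SL_n(ℝ) → ModSpace n`,
the Γ-periodisation `per f x = ∑_{γ} f (γ · sec x)`, and the lift `lift ν` of a measure `ν` on
`ModSpace n` to a left `SL_n(ℤ)`-invariant measure on `SL_n(ℝ)`; equivariance, local finiteness,
recovery of `ν` from `lift ν`; uniqueness of the invariant probability.
-/

set_option autoImplicit false

open MeasureTheory Filter Topology
open Crest.NumberTheoryR.Packets
open scoped ENNReal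

namespace Crest.Agent.R014.Ms_667

variable {n : ℕ}

instance instMeasurableSpaceSLR : MeasurableSpace (SLR n) := borel (SLR n)

instance instBorelSpaceSLR : BorelSpace (SLR n) := ⟨rfl⟩

/-- an integral matrix close to `1` is `1`. -/
lemma eq_one_of_close {γ : SLR n} (hγ : γ ∈ intPoints n)
    (h : ∀ i j, |γ.1 i j - (1 : Matrix (Fin n) (Fin n) ℝ) i j| < 1) : γ = 1 := by
  apply Subtype.ext
  ext i j
  obtain ⟨z, hz⟩ := mem_intPoints.1 hγ i j
  have h1 := h i j
  rw [← hz] at h1
  show γ.1 i j = (1 : Matrix (Fin n) (Fin n) ℝ) i j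
  rw [← hz]
  rw [Matrix.one_apply] at h1 ⊢
  split_ifs at h1 ⊢
  · have h2 : |((z - 1 : ℤ) : ℝ)| < 1 := by push_cast; exact h1
    have h3 : |z - 1| < 1 := by exact_mod_cast h2
    have h4 : z - 1 = 0 := Int.abs_lt_one_iff.1 h3
    have : z = 1 := by omega
    rw [this]; norm_num
  · have h2 : |((z : ℤ) : ℝ)| < 1 := by simpa using h1
    have h3 : |z| < 1 := by exact_mod_cast h2
    rw [Int.abs_lt_one_iff.1 h3]; norm_num

/-- `q` is locally injective. -/
lemma exists_inj_nhds (g : SLR n) : ∃ U : Set (SLR n), IsOpen U ∧ g ∈ U ∧ Set.InjOn q U := by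
  set W : Set (SLR n) :=
    ⋂ i, ⋂ j, {h : SLR n | |h.1 i j - (1 : Matrix (Fin n) (Fin n) ℝ) i j| < 1} with hW
  have hWo : IsOpen W := by
    refine isOpen_iInter_of_finite fun i => isOpen_iInter_of_finite fun j => ?_
    refine isOpen_lt ?_ continuous_const
    have hc : Continuous fun h : SLR n => h.1 i j :=
      (continuous_apply j).comp ((continuous_apply i).comp continuous_subtype_val)
    exact (hc.sub continuous_const).abs
  have h1W : (1 : SLR n) ∈ W := by
    simp [hW, Set.mem_iInter]
  have hc : Continuous fun p : SLR n × SLR n => p.2 * p.1⁻¹ := by fun_prop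
  have hnh : (fun p : SLR n × SLR n => p.2 * p.1⁻¹) ⁻¹' W ∈ 𝓝 (g, g) := by
    apply hc.continuousAt.preimage_mem_nhds
    apply hWo.mem_nhds
    simpa using h1W
  rw [nhds_prod_eq, mem_prod_same_iff] at hnh
  obtain ⟨t, ht, hsub⟩ := hnh
  obtain ⟨U, hUt, hUo, hgU⟩ := mem_nhds_iff.1 ht
  refine ⟨U, hUo, hgU, ?_⟩
  intro a ha b hb hab
  have hmem := q_eq_iff.1 hab
  have hw : b * a⁻¹ ∈ W := hsub (Set.mk_mem_prod (hUt ha) (hUt hb))
  have h1 : b * a⁻¹ = 1 := by
    apply eq_one_of_close hmem
    intro i j
    have := Set.mem_iInter.1 (Set.mem_iInter.1 hw i) j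
    exact this
  exact (mul_inv_eq_one.1 h1).symm

/-- a countable cover of `SL_n(ℝ)` by open sets on which `q` is injective. -/
lemma exists_cover : ∃ U : ℕ → Set (SLR n), (∀ k, IsOpen (U k)) ∧ (∀ k, Set.InjOn q (U k)) ∧
    (⋃ k, U k) = Set.univ := by
  choose V hVo hgV hVi using fun g : SLR n => exists_inj_nhds g
  obtain ⟨s, hs, hcov⟩ := TopologicalSpace.countable_cover_nhds
    (fun g : SLR n => (hVo g).mem_nhds (hgV g))
  have hne : s.Nonempty := by
    by_contra hcon
    rw [Set.not_nonempty_iff_eq_empty] at hcon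
    rw [hcon] at hcov
    simp at hcov
    have : (1 : SLR n) ∈ (Set.univ : Set (SLR n)) := Set.mem_univ _
    rw [← hcov] at this
    exact this.elim
  obtain ⟨e, he⟩ := hs.exists_eq_range hne
  refine ⟨fun k => V (e k), fun k => hVo _, fun k => hVi _, ?_⟩
  rw [he, Set.biUnion_range] at hcov
  exact hcov

/-- the chosen cover. -/
def cov (n : ℕ) : ℕ → Set (SLR n) := (exists_cover (n := n)).choose

lemma isOpen_cov (k : ℕ) : IsOpen (cov n k) := (exists_cover (n := n)).choose_spec.1 k
lemma injOn_cov (k : ℕ) : Set.InjOn q (cov n k) := (exists_cover (n := n)).choose_spec.2.1 k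
lemma iUnion_cov : (⋃ k, cov n k) = Set.univ := (exists_cover (n := n)).choose_spec.2.2

/-- restriction of `q` to a member of the cover: an open embedding. -/
lemma isOpenEmbedding_cov (k : ℕ) : IsOpenEmbedding (fun u : cov n k => q (u : SLR n)) := by
  refine IsOpenEmbedding.of_continuous_injective_isOpenMap
    (continuous_q.comp continuous_subtype_val) ?_ ?_
  · intro a b hab
    exact Subtype.ext (injOn_cov k a.2 b.2 hab)
  · exact isOpenMap_q.comp (isOpen_cov k).isOpenMap_subtype_val

/-- local inverse of `q`. -/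
noncomputable def locInv (k : ℕ) : ModSpace n → SLR n :=
  Function.extend (fun u : cov n k => q (u : SLR n)) Subtype.val (fun _ => 1)

lemma measurable_locInv (k : ℕ) : Measurable (locInv (n := n) k) :=
  (isOpenEmbedding_cov k).measurableEmbedding.measurable_extend
    measurable_subtype_coe measurable_const

lemma locInv_q {k : ℕ} {g : SLR n} (hg : g ∈ cov n k) : locInv k (q g) = g := by
  unfold locInv
  exact (isOpenEmbedding_cov (n := n) k).injective.extend_apply Subtype.val (fun _ => 1) ⟨g, hg⟩

lemma exists_mem_image_cov (x : ModSpace n) : ∃ k, x ∈ q '' cov n k := by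
  obtain ⟨g, rfl⟩ := q_surjective x
  have : g ∈ ⋃ k, cov n k := by rw [iUnion_cov]; trivial
  obtain ⟨k, hk⟩ := Set.mem_iUnion.1 this
  exact ⟨k, g, hk, rfl⟩

open Classical in
/-- Borel section of `q`. -/
noncomputable def sec (x : ModSpace n) : SLR n := locInv (Nat.find (exists_mem_image_cov x)) x

lemma measurable_sec : Measurable (sec (n := n)) := by
  classical
  unfold sec
  exact Measurable.find (fun k => measurable_locInv k)
    (fun k => (isOpenMap_q _ (isOpen_cov k)).measurableSet) exists_mem_image_cov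

@[simp] lemma q_sec (x : ModSpace n) : q (sec x) = x := by
  classical
  unfold sec
  obtain ⟨g, hg, hx⟩ := Nat.find_spec (exists_mem_image_cov x)
  conv_lhs => rw [← hx]
  conv_rhs => rw [← hx]
  rw [show locInv (Nat.find (exists_mem_image_cov (q g))) (q g) = g from ?_]
  apply locInv_q
  have : Nat.find (exists_mem_image_cov (q g)) = Nat.find (exists_mem_image_cov x) := by
    congr 1
    ext k
    rw [hx]
  rw [this]
  exact hg

lemma sec_injective : Function.Injective (sec (n := n)) :=
  Function.LeftInverse.injective (g := q) q_sec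

/-- the fundamental set `{g | sec (q g) = g}`. -/
def fund (n : ℕ) : Set (SLR n) := {g | sec (q g) = g}

lemma measurableSet_fund : MeasurableSet (fund n) :=
  measurableSet_eq_fun (measurable_sec.comp continuous_q.measurable) measurable_id

lemma sec_mem_fund (x : ModSpace n) : sec x ∈ fund n := by
  show sec (q (sec x)) = sec x
  rw [q_sec]

lemma mul_sec_mem_fund_iff {γ : SLR n} (hγ : γ ∈ intPoints n) (x : ModSpace n) :
    γ * sec x ∈ fund n ↔ γ = 1 := by
  constructor
  · intro h
    have h1 : sec (q (γ * sec x)) = γ * sec x := h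
    rw [q_mul_left hγ, q_sec] at h1
    have h2 : γ * sec x = 1 * sec x := by rw [one_mul]; exact h1.symm
    exact mul_right_cancel h2
  · rintro rfl
    rw [one_mul]
    exact sec_mem_fund x

/-- every `g` is `γ * sec (q g)` for a unique `γ ∈ Γ`. -/
lemma exists_coset (g : SLR n) : ∃ γ : intPoints n, g = (γ : SLR n) * sec (q g) := by
  have h : q (sec (q g)) = q g := q_sec _
  obtain ⟨γ, hγ, h⟩ := q_eq_iff'.1 h
  exact ⟨⟨γ, hγ⟩, h⟩

/-! ### periodisation -/

/-- `per f x = ∑_{γ ∈ Γ} f (γ g)` for any `g` over `x`. -/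
noncomputable def per (f : SLR n → ℝ≥0∞) (x : ModSpace n) : ℝ≥0∞ :=
  ∑' γ : intPoints n, f ((γ : SLR n) * sec x)

lemma per_q (f : SLR n → ℝ≥0∞) (g : SLR n) :
    per f (q g) = ∑' γ : intPoints n, f ((γ : SLR n) * g) := by
  obtain ⟨γ₀, hγ₀⟩ := exists_coset g
  unfold per
  conv_rhs => rw [hγ₀]
  rw [← (Equiv.mulRight γ₀).tsum_eq (fun γ : intPoints n => f ((γ : SLR n) * sec (q g)))]
  refine tsum_congr fun γ => ?_
  simp [mul_assoc]

lemma measurable_per {f : SLR n → ℝ≥0∞} (hf : Measurable f) : Measurable (per f) := by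
  unfold per
  refine Measurable.tsum fun γ => ?_
  exact hf.comp ((continuous_const.mul continuous_id).measurable.comp measurable_sec)

lemma per_mul_right (f : SLR n → ℝ≥0∞) (h : SLR n) (x : ModSpace n) :
    per (fun g => f (g * h)) x = per f (act x h) := by
  obtain ⟨g, rfl⟩ := q_surjective x
  rw [act_q, per_q, per_q]
  refine tsum_congr fun γ => ?_
  rw [mul_assoc]

/-! ### the lift of a measure -/

/-- the lift of a measure on `ModSpace n` to a left `Γ`-invariant measure on `SL_n(ℝ)`. -/
noncomputable def lift (ν : Measure (ModSpace n)) : Measure (SLR n) :=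
  Measure.sum fun γ : intPoints n => ν.map fun x => (γ : SLR n) * sec x

lemma measurable_mul_sec (γ : SLR n) : Measurable fun x : ModSpace n => γ * sec x :=
  (continuous_const.mul continuous_id).measurable.comp measurable_sec

lemma lintegral_lift (ν : Measure (ModSpace n)) {f : SLR n → ℝ≥0∞} (hf : Measurable f) :
    ∫⁻ g, f g ∂(lift ν) = ∫⁻ x, per f x ∂ν := by
  unfold lift per
  rw [lintegral_sum_measure, lintegral_tsum]
  · refine tsum_congr fun γ => ?_
    rw [lintegral_map hf (measurable_mul_sec _)]
  · intro γ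
    exact (hf.comp (measurable_mul_sec _)).aemeasurable

lemma lift_apply (ν : Measure (ModSpace n)) {A : Set (SLR n)} (hA : MeasurableSet A) :
    lift ν A = ∫⁻ x, per (A.indicator 1) x ∂ν := by
  rw [← lintegral_lift ν (measurable_one.indicator hA), lintegral_indicator_one hA]

lemma lift_map_act (ν : Measure (ModSpace n)) (h : SLR n) :
    lift (ν.map fun x => act x h) = (lift ν).map fun g => g * h := by
  have hm : Measurable fun g : SLR n => g * h := (continuous_mul_const h).measurable
  refine Measure.ext_of_lintegral _ fun f hf => ?_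
  rw [lintegral_map hf hm, lintegral_lift _ hf,
    lintegral_lift ν (f := fun g => f (g * h)) (hf.comp hm),
    lintegral_map (measurable_per hf) (measurable_act h)]
  refine lintegral_congr fun x => ?_
  rw [← per_mul_right]

lemma lift_map_left (ν : Measure (ModSpace n)) {γ₀ : SLR n} (hγ : γ₀ ∈ intPoints n) :
    (lift ν).map (fun g => γ₀ * g) = lift ν := by
  have hm : Measurable fun g : SLR n => γ₀ * g := (continuous_const_mul γ₀).measurable
  refine Measure.ext_of_lintegral _ fun f hf => ?_
  rw [lintegral_map hf hm, lintegral_lift ν (f := fun g => f (γ₀ * g)) (hf.comp hm),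
    lintegral_lift _ hf]
  refine lintegral_congr fun x => ?_
  unfold per
  rw [← (Equiv.mulLeft (⟨γ₀, hγ⟩ : intPoints n)).tsum_eq
    (fun γ : intPoints n => f ((γ : SLR n) * sec x))]
  refine tsum_congr fun γ => ?_
  simp [mul_assoc]

/-- `ν` is recovered from its lift. -/
lemma lift_fund (ν : Measure (ModSpace n)) {E : Set (ModSpace n)} (hE : MeasurableSet E) :
    lift ν (fund n ∩ q ⁻¹' E) = ν E := by
  have hA : MeasurableSet (fund n ∩ q ⁻¹' E) :=
    measurableSet_fund.inter (continuous_q.measurable hE)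
  rw [lift_apply ν hA, ← lintegral_indicator_one hE]
  refine lintegral_congr fun x => ?_
  unfold per
  rw [tsum_eq_single (1 : intPoints n)]
  · by_cases hx : x ∈ E
    · rw [Set.indicator_of_mem hx, Set.indicator_of_mem]
      · rfl
      · refine ⟨?_, ?_⟩
        · simpa using sec_mem_fund x
        · simpa using hx
    · rw [Set.indicator_of_notMem hx, Set.indicator_of_notMem]
      rintro ⟨_, h⟩
      apply hx
      simpa using h
  · intro γ hγ
    apply Set.indicator_of_notMem
    rintro ⟨h, _⟩
    rw [mul_sec_mem_fund_iff γ.2] at h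
    exact hγ (Subtype.ext h)

lemma lift_injective : Function.Injective (lift (n := n)) := by
  intro ν₁ ν₂ h
  ext E hE
  rw [← lift_fund ν₁ hE, ← lift_fund ν₂ hE, h]

/-- multiplicity bound: a set covered by `m` sets on which `q` is injective meets every
`Γ`-orbit in at most `m` points. -/
lemma per_indicator_le {A : Set (SLR n)} {t : Finset ℕ} (hA : A ⊆ ⋃ k ∈ t, cov n k)
    (x : ModSpace n) : per (A.indicator 1) x ≤ t.card := by
  classical
  unfold per
  have h1 : ∀ γ : intPoints n, A.indicator (1 : SLR n → ℝ≥0∞) ((γ : SLR n) * sec x) ≤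
      ∑ k ∈ t, (cov n k).indicator (1 : SLR n → ℝ≥0∞) ((γ : SLR n) * sec x) := by
    intro γ
    by_cases hg : (γ : SLR n) * sec x ∈ A
    · obtain ⟨k, hk, hk'⟩ := Set.mem_iUnion₂.1 (hA hg)
      rw [Set.indicator_of_mem hg]
      refine le_trans ?_ (Finset.single_le_sum (f := fun k =>
        (cov n k).indicator (1 : SLR n → ℝ≥0∞) ((γ : SLR n) * sec x)) (fun _ _ => bot_le) hk)
      rw [Set.indicator_of_mem hk']
    · rw [Set.indicator_of_notMem hg]
      exact bot_le
  refine le_trans (ENNReal.tsum_le_tsum h1) ?_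
  rw [Summable.tsum_finsetSum (fun _ _ => ENNReal.summable)]
  have h2 : ∀ k ∈ t, ∑' γ : intPoints n,
      (cov n k).indicator (1 : SLR n → ℝ≥0∞) ((γ : SLR n) * sec x) ≤ 1 := by
    intro k _
    by_cases hex : ∃ γ₀ : intPoints n, (γ₀ : SLR n) * sec x ∈ cov n k
    · obtain ⟨γ₀, hγ₀⟩ := hex
      rw [tsum_eq_single γ₀]
      · rw [Set.indicator_of_mem hγ₀]
        exact le_refl _
      · intro γ hne
        apply Set.indicator_of_notMem
        intro hmem
        apply hne
        have h3 := injOn_cov k hmem hγ₀ (by rw [q_mul_left γ.2, q_mul_left γ₀.2])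
        exact Subtype.ext (mul_right_cancel h3)
    · push Not at hex
      have : ∑' γ : intPoints n,
          (cov n k).indicator (1 : SLR n → ℝ≥0∞) ((γ : SLR n) * sec x) = 0 := by
        rw [ENNReal.tsum_eq_zero]
        intro γ
        exact Set.indicator_of_notMem (hex γ) _
      rw [this]
      exact bot_le
  refine le_trans (Finset.sum_le_sum h2) ?_
  simp

lemma exists_finset_cov {K : Set (SLR n)} (hK : IsCompact K) :
    ∃ t : Finset ℕ, K ⊆ ⋃ k ∈ t, cov n k :=
  hK.elim_finite_subcover _ isOpen_cov (by rw [iUnion_cov]; exact Set.subset_univ _)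

instance instFiniteOnCompacts (ν : Measure (ModSpace n)) [IsFiniteMeasure ν] :
    IsFiniteMeasureOnCompacts (lift ν) where
  lt_top_of_isCompact := by
    intro K hK
    obtain ⟨t, ht⟩ := exists_finset_cov hK
    rw [lift_apply ν hK.measurableSet]
    refine lt_of_le_of_lt (lintegral_mono fun x => per_indicator_le ht x) ?_
    rw [lintegral_const]
    exact ENNReal.mul_lt_top (ENNReal.natCast_lt_top _) (measure_lt_top ν _)

end Crest.Agent.R014.Ms_667
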