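import Mathlib
import Crest.Agent.R014.Ms2_667
import Crest.Agent.R014.Iface_792

/-!
R014, block D, leaf NOISE-SLAB MASS (helper884), part 1: bounded Borel section (SEC) and the
Fubini inequality (FUB).
-/

set_option autoImplicit false

open MeasureTheory Filter Topology
open Crest.NumberTheoryR.Packets
open scoped ENNReal

namespace Crest.Agent.R014.Nm_884

open Crest.Agent.R014.Ms_667

variable {n : ℕ}

/-- matrices in `SL_n(ℝ)` with all entries at most `B` -/
def Ent (n : ℕ) (B : ℝ) : Set (SLR n) := {g | ∀ i j, |g.1 i j| ≤ B}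

lemma continuous_entry (i j : Fin n) : Continuous fun g : SLR n => g.1 i j :=
  (continuous_apply j).comp ((continuous_apply i).comp continuous_subtype_val)

lemma isClosed_Ent (B : ℝ) : IsClosed (Ent n B) := by
  have : Ent n B = ⋂ i, ⋂ j, {g : SLR n | |g.1 i j| ≤ B} := by
    ext g; simp [Ent]
  rw [this]
  refine isClosed_iInter fun i => isClosed_iInter fun j => ?_
  exact isClosed_le (continuous_entry i j).abs continuous_const

lemma measurableSet_Ent (B : ℝ) : MeasurableSet (Ent n B) := (isClosed_Ent B).measurableSet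

/-- **bounded Borel section.** -/
theorem exists_bdd_section (B : ℝ) : ∃ s : ModSpace n → SLR n, Measurable s ∧ (∀ x, q (s x) = x) ∧
    ∀ x, (∃ g ∈ Ent n B, q g = x) → s x ∈ Ent n B := by
  classical
  obtain ⟨e, he⟩ := exists_surjective_nat (intPoints n)
  -- the set where the k-th translate is bounded
  let A : ℕ → Set (ModSpace n) := fun k => {x | (e k : SLR n) * sec x ∈ Ent n B}
  have hA : ∀ k, MeasurableSet (A k) := fun k =>
    (measurable_mul_sec (e k : SLR n)) (measurableSet_Ent B)
  let good : ModSpace n → Prop := fun x => ∃ k, x ∈ A k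
  let s : ModSpace n → SLR n := fun x =>
    if h : ∃ k, x ∈ A k then (e (Nat.find h) : SLR n) * sec x else sec x
  refine ⟨s, ?_, ?_, ?_⟩
  · -- measurability
    have hU : MeasurableSet (⋃ k, A k) := MeasurableSet.iUnion hA
    intro T hT
    have : s ⁻¹' T = ((⋃ k, A k)ᶜ ∩ sec ⁻¹' T) ∪
        ⋃ k, ((A k ∩ ⋂ l ∈ Finset.range k, (A l)ᶜ) ∩ (fun x => (e k : SLR n) * sec x) ⁻¹' T) := by
      ext x
      by_cases h : ∃ k, x ∈ A k
      · have hs : s x = (e (Nat.find h) : SLR n) * sec x := dif_pos h
        simp only [Set.mem_preimage, hs, Set.mem_union, Set.mem_inter_iff, Set.mem_compl_iff,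
          Set.mem_iUnion, h, not_true_eq_false, false_and, false_or, Set.mem_iInter,
          Finset.mem_range]
        constructor
        · intro hx
          exact ⟨Nat.find h, ⟨Nat.find_spec h, fun l hl => Nat.find_min h hl⟩, hx⟩
        · rintro ⟨k, ⟨hk1, hk2⟩, hk3⟩
          have : Nat.find h = k := by
            apply le_antisymm (Nat.find_min' h hk1)
            by_contra hlt
            exact hk2 _ (not_le.1 hlt) (Nat.find_spec h)
          rw [this]
          exact hk3
      · have hs : s x = sec x := dif_neg h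
        simp only [Set.mem_preimage, hs, Set.mem_union, Set.mem_inter_iff, Set.mem_compl_iff,
          Set.mem_iUnion, h, not_false_eq_true, true_and]
        constructor
        · intro hx; exact Or.inl hx
        · rintro (hx | ⟨k, ⟨hk1, _⟩, _⟩)
          · exact hx
          · exact absurd ⟨k, hk1⟩ h
    rw [this]
    refine (hU.compl.inter (measurable_sec hT)).union (MeasurableSet.iUnion fun k => ?_)
    refine ((hA k).inter ?_).inter ((measurable_mul_sec _) hT)
    exact Finset.measurableSet_biInter _ fun l _ => (hA l).compl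
  · intro x
    by_cases h : ∃ k, x ∈ A k
    · have hs : s x = (e (Nat.find h) : SLR n) * sec x := dif_pos h
      rw [hs, q_mul_left (e _).2, q_sec]
    · have hs : s x = sec x := dif_neg h
      rw [hs, q_sec]
  · rintro x ⟨g, hg, rfl⟩
    have h : ∃ k, q g ∈ A k := by
      obtain ⟨γ, hγ⟩ := exists_coset g
      obtain ⟨k, hk⟩ := he γ
      refine ⟨k, ?_⟩
      show (e k : SLR n) * sec (q g) ∈ Ent n B
      rw [hk, ← hγ]
      exact hg
    have hs : s (q g) = (e (Nat.find h) : SLR n) * sec (q g) := dif_pos h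
    rw [hs]
    exact Nat.find_spec h

/-- **Fubini inequality (FUB).** `Hs` left invariant on `SL_n(ℝ)`, `κ ≤ A Hs|V`, `s` a Borel section
with `s(x) V ⊆ K` for `x ∈ E0`. -/
theorem fubini_ineq (Hs : Measure (SLR n)) [SFinite Hs]
    (hinv : ∀ g : SLR n, Measure.map (fun h => g * h) Hs = Hs)
    (μ : Measure (ModSpace n)) [IsFiniteMeasure μ]
    (κ : Measure (SLR n)) (A : ℝ≥0∞) (V : Set (SLR n)) (hV : MeasurableSet V)
    (hκ : κ ≤ A • Hs.restrict V)
    (s : ModSpace n → SLR n) (hs : Measurable s) (hqs : ∀ x, q (s x) = x)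
    (E0 : Set (ModSpace n)) (hE0 : MeasurableSet E0)
    (K : Set (SLR n)) (hK : MeasurableSet K) (hsK : ∀ x ∈ E0, ∀ v ∈ V, s x * v ∈ K)
    (σ : ℝ≥0∞) (hσ : ∀ h : SLR n, μ {x | x ∈ E0 ∧ (s x)⁻¹ * h ∈ V} ≤ σ)
    (B : Set (ModSpace n)) (hB : MeasurableSet B) :
    ∫⁻ x in E0, κ {g | act x g ∈ B} ∂μ ≤ A * σ * Hs {h | h ∈ K ∧ q h ∈ B} := by
  have hmq : Measurable (q (n := n)) := continuous_q.measurable
  have hqB : MeasurableSet {h : SLR n | q h ∈ B} := hmq hB
  -- step 1: bound κ
  have h1 : ∀ x ∈ E0, κ {g | act x g ∈ B}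
      ≤ A * ∫⁻ h, Set.indicator {h | h ∈ K ∧ q h ∈ B} (fun h => Set.indicator V 1 ((s x)⁻¹ * h)) h
          ∂Hs := by
    intro x hx
    have hmeas : MeasurableSet {g | act x g ∈ B} :=
      (continuous_act.comp (Continuous.prodMk_right x)).measurable hB
    calc κ {g | act x g ∈ B} ≤ (A • Hs.restrict V) {g | act x g ∈ B} := hκ _
      _ = A * Hs ({g | act x g ∈ B} ∩ V) := by
          rw [Measure.smul_apply, Measure.restrict_apply hmeas, smul_eq_mul]
      _ = A * ∫⁻ g, Set.indicator ({g | act x g ∈ B} ∩ V) 1 g ∂Hs := by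
          rw [lintegral_indicator_one (hmeas.inter hV)]
      _ ≤ A * ∫⁻ g, (fun h => Set.indicator {h | h ∈ K ∧ q h ∈ B}
            (fun h => Set.indicator V 1 ((s x)⁻¹ * h)) h) (s x * g) ∂Hs := by
          gcongr with g
          by_cases hg : g ∈ {g | act x g ∈ B} ∩ V
          · rw [Set.indicator_of_mem hg]
            have hg1 : act x g ∈ B := hg.1
            have hmem : s x * g ∈ {h | h ∈ K ∧ q h ∈ B} := by
              refine ⟨hsK x hx g hg.2, ?_⟩
              rw [← act_q, hqs]
              exact hg1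
            show (1 : SLR n → ℝ≥0∞) g ≤ Set.indicator {h | h ∈ K ∧ q h ∈ B}
              (fun h => Set.indicator V 1 ((s x)⁻¹ * h)) (s x * g)
            rw [Set.indicator_of_mem hmem, inv_mul_cancel_left, Set.indicator_of_mem hg.2]
          · rw [Set.indicator_of_notMem hg]
            exact zero_le
      _ = A * ∫⁻ h, Set.indicator {h | h ∈ K ∧ q h ∈ B}
            (fun h => Set.indicator V 1 ((s x)⁻¹ * h)) h ∂Hs := by
          congr 1
          conv_rhs => rw [← hinv (s x)]
          rw [lintegral_map]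
          · refine Measurable.indicator ?_ (hK.inter hqB)
            exact (measurable_one.indicator hV).comp (continuous_const_mul _).measurable
          · exact (continuous_const_mul _).measurable
  have hjm : Measurable (fun p : ModSpace n × SLR n => (s p.1)⁻¹ * p.2) :=
    ((hs.comp measurable_fst).inv).mul measurable_snd
  have hjoint : Measurable (fun p : ModSpace n × SLR n =>
      Set.indicator {h | h ∈ K ∧ q h ∈ B} (fun h => Set.indicator V (1 : SLR n → ℝ≥0∞)
        ((s p.1)⁻¹ * h)) p.2) := by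
    have : (fun p : ModSpace n × SLR n =>
      Set.indicator {h | h ∈ K ∧ q h ∈ B} (fun h => Set.indicator V (1 : SLR n → ℝ≥0∞)
        ((s p.1)⁻¹ * h)) p.2)
      = Set.indicator {p : ModSpace n × SLR n | p.2 ∈ K ∧ q p.2 ∈ B}
        (fun p => Set.indicator V (1 : SLR n → ℝ≥0∞) ((s p.1)⁻¹ * p.2)) := by
      funext p
      by_cases h : p.2 ∈ {h | h ∈ K ∧ q h ∈ B}
      · rw [Set.indicator_of_mem h, Set.indicator_of_mem (show p ∈ _ from h)]
      · rw [Set.indicator_of_notMem h, Set.indicator_of_notMem (show p ∉ _ from h)]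
    rw [this]
    exact ((measurable_one.indicator hV).comp hjm).indicator (measurable_snd (hK.inter hqB))
  calc ∫⁻ x in E0, κ {g | act x g ∈ B} ∂μ
      ≤ ∫⁻ x in E0, A * ∫⁻ h, Set.indicator {h | h ∈ K ∧ q h ∈ B}
          (fun h => Set.indicator V 1 ((s x)⁻¹ * h)) h ∂Hs ∂μ := setLIntegral_mono' hE0 h1
    _ = A * ∫⁻ x in E0, ∫⁻ h, Set.indicator {h | h ∈ K ∧ q h ∈ B}
          (fun h => Set.indicator V 1 ((s x)⁻¹ * h)) h ∂Hs ∂μ := by
        rw [lintegral_const_mul _ hjoint.lintegral_prod_right]
    _ = A * ∫⁻ h, ∫⁻ x in E0, Set.indicator {h | h ∈ K ∧ q h ∈ B}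
          (fun h => Set.indicator V 1 ((s x)⁻¹ * h)) h ∂μ ∂Hs := by
        rw [lintegral_lintegral_swap hjoint.aemeasurable]
    _ ≤ A * ∫⁻ h, Set.indicator {h | h ∈ K ∧ q h ∈ B} (fun _ => σ) h ∂Hs := by
        gcongr with h
        by_cases hh : h ∈ {h | h ∈ K ∧ q h ∈ B}
        · simp only [Set.indicator_of_mem hh]
          have e1 : (fun x => Set.indicator V (1 : SLR n → ℝ≥0∞) ((s x)⁻¹ * h))
              = Set.indicator {x | (s x)⁻¹ * h ∈ V} 1 := by
            funext x
            by_cases hx : (s x)⁻¹ * h ∈ V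
            · rw [Set.indicator_of_mem hx, Set.indicator_of_mem (show x ∈ _ from hx)]; rfl
            · rw [Set.indicator_of_notMem hx, Set.indicator_of_notMem (show x ∉ _ from hx)]
          have hm1 : MeasurableSet {x | (s x)⁻¹ * h ∈ V} :=
            (hs.inv.mul_const h) hV
          rw [e1, lintegral_indicator_one hm1, Measure.restrict_apply hm1]
          refine le_trans (measure_mono ?_) (hσ h)
          rintro x ⟨hx1, hx2⟩
          exact ⟨hx2, hx1⟩
        · simp only [Set.indicator_of_notMem hh, lintegral_zero]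
          exact le_rfl
    _ = A * (σ * Hs {h | h ∈ K ∧ q h ∈ B}) := by
        have hKB : MeasurableSet {h | h ∈ K ∧ q h ∈ B} := hK.inter hqB
        rw [lintegral_indicator hKB, setLIntegral_const]
    _ = A * σ * Hs {h | h ∈ K ∧ q h ∈ B} := by ring

end Crest.Agent.R014.Nm_884
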