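import Mathlib
import Crest.Agent.R014.Nm1_884
import Crest.Agent.R014.Nd1_837

/-!
R014, block D, leaf NOISE-SLAB MASS (helper884), part 2: the numerator (NUM): the slab bound of
Theorem A bounds the mass of the points `x` with `s(x)⁻¹ h v⁻¹` in a noise box.
-/

set_option autoImplicit false

open MeasureTheory Filter Topology
open Crest.NumberTheoryR.Packets
open scoped ENNReal

namespace Crest.Agent.R014.Nm_884

open Crest.Agent.R014.Ms_667 Crest.Agent.R014.Nd_837 Crest.Agent.R014.Iface_792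

variable {n : ℕ}

/-- the image in `SL_n(ℝ)` of the noise box: some multiple `c g`, `1/2 ≤ c ≤ 2`, is in the box. -/
def VB (R : Fin n → Fin n → ℝ) : Set (SLR n) :=
  {g | ∃ c ∈ Set.Icc (1 / 2 : ℝ) 2, ∀ i j, |(c • g.1 - 1) i j| ≤ (2 : ℝ) ^ (-(R i j))}

lemma aT_val (t : Fin n → ℝ) : (aT t).1 = ((dm t).det ^ (-(1 : ℝ) / n)) • dm t :=
  toSL_val (det_dm t)

/-- conjugation by the torus -/
lemma conj_entry (t : Fin n → ℝ) (g : SLR n) (i j : Fin n) :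
    ((aT t)⁻¹ * g * aT t).1 i j = (2 : ℝ) ^ (-(t i - t j)) * g.1 i j := by
  set X : SLR n := (aT t)⁻¹ * g * aT t with hX
  have h1 : aT t * X = g * aT t := by rw [hX]; group
  have h2 : (aT t).1 * X.1 = g.1 * (aT t).1 := by
    have := congrArg Subtype.val h1
    simpa using this
  have h3 := congrFun (congrFun h2 i) j
  rw [aT_val] at h3
  set lam := (dm t).det ^ (-(1 : ℝ) / n) with hlam
  have hlam0 : 0 < lam := Real.rpow_pos_of_pos (det_dm t) _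
  have e1 : ((lam • dm t) * X.1) i j = lam * (2 : ℝ) ^ (t i) * X.1 i j := by
    rw [Matrix.smul_mul, Matrix.smul_apply, dm, Matrix.diagonal_mul, smul_eq_mul]
    ring
  have e2 : (g.1 * (lam • dm t)) i j = g.1 i j * (lam * (2 : ℝ) ^ (t j)) := by
    rw [Matrix.mul_smul, Matrix.smul_apply, dm, Matrix.mul_diagonal, smul_eq_mul]
    ring
  rw [e1, e2] at h3
  have h2i : (0 : ℝ) < 2 ^ (t i) := by positivity
  have e3 : (2 : ℝ) ^ (-(t i - t j)) = (2 : ℝ) ^ (t j) / (2 : ℝ) ^ (t i) := by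
    rw [neg_sub, Real.rpow_sub (by norm_num)]
  rw [e3]
  field_simp
  have h5 : lam * ((2 : ℝ) ^ (t i) * X.1 i j) = lam * (g.1 i j * (2 : ℝ) ^ (t j)) := by
    rw [← mul_assoc, h3]; ring
  have h6 := mul_left_cancel₀ hlam0.ne' h5
  linarith

lemma conj_mem_VB {R : Fin n → Fin n → ℝ} (t : Fin n → ℝ) {g : SLR n} (hg : g ∈ VB R) :
    (aT t)⁻¹ * g * aT t ∈ VB (R + sh t) := by
  obtain ⟨c, hc, h⟩ := hg
  refine ⟨c, hc, fun i j => ?_⟩
  have h1 := h i j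
  rw [Matrix.sub_apply, Matrix.smul_apply, conj_entry]
  rw [Matrix.sub_apply, Matrix.smul_apply] at h1
  have e1 : (2 : ℝ) ^ (-((R + sh t) i j)) = (2 : ℝ) ^ (-(t i - t j)) * (2 : ℝ) ^ (-(R i j)) := by
    rw [← Real.rpow_add (by norm_num)]
    congr 1
    simp only [Pi.add_apply, sh]
    ring
  rw [e1]
  have hp : (0 : ℝ) < (2 : ℝ) ^ (-(t i - t j)) := by positivity
  by_cases hij : i = j
  · subst hij
    simp only [sub_self, neg_zero, Real.rpow_zero, one_mul] at *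
    exact h1
  · rw [Matrix.one_apply_ne hij, sub_zero] at h1 ⊢
    rw [smul_eq_mul] at h1 ⊢
    have : c * ((2 : ℝ) ^ (-(t i - t j)) * g.1 i j) = (2 : ℝ) ^ (-(t i - t j)) * (c * g.1 i j) := by
      ring
    rw [this, abs_mul, abs_of_pos hp]
    gcongr

/-- division of two elements of a box whose cross entries are small -/
lemma div_bound (S : Finset (Fin n)) (R : Fin n → Fin n → ℝ) (c1 W : ℝ)
    (hc1 : (n : ℝ) * 2 ^ (-c1) ≤ 1 / 2) (hR : ∀ i j, c1 ≤ R i j)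
    (hW : ∀ i j, (i ∈ S ↔ j ∉ S) → W ≤ R i j) {g g₀ : SLR n} (hg : g ∈ VB R) (hg₀ : g₀ ∈ VB R) :
    (∀ i j, |(g₀ * g⁻¹).1 i j| ≤ 16) ∧
      ∀ i j, (i ∈ S ↔ j ∉ S) → |(g₀ * g⁻¹).1 i j| ≤ (8 + 32 * n) * 2 ^ (-W) := by
  classical
  obtain ⟨c, hc, h⟩ := hg
  obtain ⟨c₀, hc₀, h₀⟩ := hg₀
  rcases Nat.eq_zero_or_pos n with hn0 | hn0
  · subst hn0
    exact ⟨fun i => i.elim0, fun i => i.elim0⟩
  have hn : Nonempty (Fin n) := ⟨⟨0, hn0⟩⟩
  have hn1 : (1 : ℝ) ≤ n := by exact_mod_cast hn0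
  set p : SLR n := g₀ * g⁻¹ with hp
  set m : Matrix (Fin n) (Fin n) ℝ := c • g.1 - 1 with hm
  set m₀ : Matrix (Fin n) (Fin n) ℝ := c₀ • g₀.1 - 1 with hm₀
  have hcpos : 0 < c := lt_of_lt_of_le (by norm_num) hc.1
  have hc₀pos : 0 < c₀ := lt_of_lt_of_le (by norm_num) hc₀.1
  set r : ℝ := c / c₀ with hr
  have hrpos : 0 < r := by positivity
  have hr4 : r ≤ 4 := by
    rw [hr, div_le_iff₀ hc₀pos]
    nlinarith [hc.2, hc₀.1]
  have hpg : p.1 * g.1 = g₀.1 := by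
    have : p * g = g₀ := by rw [hp]; group
    have := congrArg Subtype.val this
    simpa using this
  -- p + p m = r (1 + m₀)
  have heq : p.1 + p.1 * m = r • (1 + m₀) := by
    have h1 : p.1 + p.1 * m = c • (p.1 * g.1) := by
      rw [hm, Matrix.mul_sub, Matrix.mul_smul, Matrix.mul_one]
      abel
    have h2 : r • (1 + m₀) = c • g₀.1 := by
      rw [hm₀, add_sub_cancel, smul_smul, hr, div_mul_cancel₀ _ hc₀pos.ne']
    rw [h1, h2, hpg]
  have hent : ∀ i j, p.1 i j = r * ((1 : Matrix (Fin n) (Fin n) ℝ) i j + m₀ i j)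
      - ∑ k, p.1 i k * m k j := by
    intro i j
    have := congrFun (congrFun heq i) j
    rw [Matrix.add_apply, Matrix.mul_apply, Matrix.smul_apply, Matrix.add_apply, smul_eq_mul]
      at this
    linarith
  have h2c1 : (2 : ℝ) ^ (-c1) ≤ 1 := by
    have : (0 : ℝ) < 2 ^ (-c1) := by positivity
    nlinarith
  have hmb : ∀ i j, |m i j| ≤ 2 ^ (-c1) := fun i j =>
    (h i j).trans (Real.rpow_le_rpow_of_exponent_le (by norm_num) (neg_le_neg (hR i j)))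
  have hm₀b : ∀ i j, |m₀ i j| ≤ 2 ^ (-c1) := fun i j =>
    (h₀ i j).trans (Real.rpow_le_rpow_of_exponent_le (by norm_num) (neg_le_neg (hR i j)))
  have hone : ∀ i j, |(1 : Matrix (Fin n) (Fin n) ℝ) i j| ≤ 1 := by
    intro i j
    by_cases hij : i = j
    · subst hij; simp
    · rw [Matrix.one_apply_ne hij]; simp
  -- the maximal entry
  obtain ⟨⟨i₁, j₁⟩, -, hmax⟩ := Finset.exists_max_image (Finset.univ : Finset (Fin n × Fin n))
    (fun q => |p.1 q.1 q.2|) ⟨(hn.some, hn.some), Finset.mem_univ _⟩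
  set P : ℝ := |p.1 i₁ j₁| with hP
  have hPle : ∀ i j, |p.1 i j| ≤ P := fun i j => hmax (i, j) (Finset.mem_univ _)
  have hP0 : 0 ≤ P := abs_nonneg _
  have hP16 : P ≤ 16 := by
    have e0 : P = |r * ((1 : Matrix (Fin n) (Fin n) ℝ) i₁ j₁ + m₀ i₁ j₁)
        - ∑ k, p.1 i₁ k * m k j₁| := congrArg abs (hent i₁ j₁)
    have h1 : P ≤ 4 * (1 + 1) + n * (P * 2 ^ (-c1)) := by
      refine e0.le.trans ((abs_sub _ _).trans (add_le_add ?_ ?_))
      · rw [abs_mul, abs_of_pos hrpos]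
        gcongr
        refine (abs_add_le _ _).trans (add_le_add (hone _ _) ((hm₀b _ _).trans h2c1))
      · refine (Finset.abs_sum_le_sum_abs _ _).trans ?_
        calc ∑ k, |p.1 i₁ k * m k j₁| ≤ ∑ _k : Fin n, P * 2 ^ (-c1) := by
              apply Finset.sum_le_sum
              intro k _
              rw [abs_mul]
              exact mul_le_mul (hPle i₁ k) (hmb k j₁) (abs_nonneg _) hP0
          _ = n * (P * 2 ^ (-c1)) := by
              rw [Finset.sum_const, Finset.card_univ, Fintype.card_fin, nsmul_eq_mul]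
    have h2 : n * (P * (2 : ℝ) ^ (-c1)) ≤ 1 / 2 * P := by
      calc n * (P * (2 : ℝ) ^ (-c1)) = (n * 2 ^ (-c1)) * P := by ring
        _ ≤ 1 / 2 * P := by gcongr
    linarith
  refine ⟨fun i j => (hPle i j).trans hP16, ?_⟩
  -- cross entries
  by_cases hne : ((Finset.univ : Finset (Fin n × Fin n)).filter
      (fun q => (q.1 ∈ S ↔ q.2 ∉ S))).Nonempty
  swap
  · intro i j hij
    exact absurd ⟨(i, j), Finset.mem_filter.2 ⟨Finset.mem_univ _, hij⟩⟩ hne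
  obtain ⟨⟨i₂, j₂⟩, h₂, hmax₂⟩ := Finset.exists_max_image _ (fun q => |p.1 q.1 q.2|) hne
  rw [Finset.mem_filter] at h₂
  have hcross : i₂ ∈ S ↔ j₂ ∉ S := h₂.2
  set Q : ℝ := |p.1 i₂ j₂| with hQ
  have hQle : ∀ i j, (i ∈ S ↔ j ∉ S) → |p.1 i j| ≤ Q := fun i j hij =>
    hmax₂ (i, j) (Finset.mem_filter.2 ⟨Finset.mem_univ _, hij⟩)
  have hQ0 : 0 ≤ Q := abs_nonneg _
  have hWb : ∀ i j, (i ∈ S ↔ j ∉ S) → |m i j| ≤ 2 ^ (-W) := fun i j hij =>
    (h i j).trans (Real.rpow_le_rpow_of_exponent_le (by norm_num) (neg_le_neg (hW i j hij)))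
  have hWb₀ : ∀ i j, (i ∈ S ↔ j ∉ S) → |m₀ i j| ≤ 2 ^ (-W) := fun i j hij =>
    (h₀ i j).trans (Real.rpow_le_rpow_of_exponent_le (by norm_num) (neg_le_neg (hW i j hij)))
  have e0 : Q = |r * ((1 : Matrix (Fin n) (Fin n) ℝ) i₂ j₂ + m₀ i₂ j₂)
      - ∑ k, p.1 i₂ k * m k j₂| := congrArg abs (hent i₂ j₂)
  have h1 : Q ≤ 4 * 2 ^ (-W) + n * (16 * 2 ^ (-W) + Q * 2 ^ (-c1)) := by
    refine e0.le.trans ((abs_sub _ _).trans (add_le_add ?_ ?_))
    · have hne : i₂ ≠ j₂ := by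
        intro h; subst h; tauto
      rw [Matrix.one_apply_ne hne, zero_add, abs_mul, abs_of_pos hrpos]
      gcongr
      exact hWb₀ _ _ hcross
    · refine (Finset.abs_sum_le_sum_abs _ _).trans ?_
      calc ∑ k, |p.1 i₂ k * m k j₂| ≤ ∑ _k : Fin n, (16 * 2 ^ (-W) + Q * 2 ^ (-c1)) := by
            apply Finset.sum_le_sum
            intro k _
            rw [abs_mul]
            by_cases hk : (k ∈ S ↔ j₂ ∉ S)
            · have h5 : |p.1 i₂ k| * |m k j₂| ≤ 16 * 2 ^ (-W) :=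
                mul_le_mul ((hPle i₂ k).trans hP16) (hWb k j₂ hk) (abs_nonneg _) (by norm_num)
              have h6 : 0 ≤ Q * (2 : ℝ) ^ (-c1) := by positivity
              linarith
            · have hk' : (i₂ ∈ S ↔ k ∉ S) := by tauto
              have h5 : |p.1 i₂ k| * |m k j₂| ≤ Q * 2 ^ (-c1) :=
                mul_le_mul (hQle i₂ k hk') (hmb k j₂) (abs_nonneg _) hQ0
              have h6 : (0 : ℝ) ≤ 16 * 2 ^ (-W) := by positivity
              linarith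
        _ = n * (16 * 2 ^ (-W) + Q * 2 ^ (-c1)) := by
            rw [Finset.sum_const, Finset.card_univ, Fintype.card_fin, nsmul_eq_mul]
  have h2 : n * (Q * (2 : ℝ) ^ (-c1)) ≤ 1 / 2 * Q := by
    calc n * (Q * (2 : ℝ) ^ (-c1)) = (n * 2 ^ (-c1)) * Q := by ring
      _ ≤ 1 / 2 * Q := by gcongr
  intro i j hij
  refine (hQle i j hij).trans ?_
  nlinarith [h1, h2]

/-- **NUM.** -/
theorem num_bound (μ : Measure (ModSpace n)) (hμ : AInv μ) (X' : Set (ModSpace n))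
    (D C e κ : ℝ) (S : Finset (Fin n))
    (hX' : ∀ x : ModSpace n, Thick x (D ^ (-e)) → ∀ δ : ℝ, D ^ (-κ) ≤ δ → δ ≤ 1 →
      μ (X' ∩ (act x) '' Box S (D ^ e) δ) ≤ ENNReal.ofReal (D ^ (C * e) * δ))
    (hD : 16 ≤ D ^ e) (R : Fin n → Fin n → ℝ) (t : Fin n → ℝ) (c1 W : ℝ)
    (hc1 : (n : ℝ) * 2 ^ (-c1) ≤ 1 / 2) (hR : ∀ i j, c1 ≤ (R + sh t) i j)
    (hW : ∀ i j, (i ∈ S ↔ j ∉ S) → W ≤ (R + sh t) i j)
    (hδ0 : D ^ (-κ) ≤ (8 + 32 * n) * 2 ^ (-W)) (hδ1 : (8 + 32 * n) * (2 : ℝ) ^ (-W) ≤ 1)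
    (G : Set (ModSpace n))
    (hG : ∀ x ∈ G, act x (aT t) ∈ X' ∧ Thick (act x (aT t)) (D ^ (-e)))
    (s : ModSpace n → SLR n) (hqs : ∀ x, q (s x) = x) (h v : SLR n) :
    μ {x | x ∈ G ∧ (s x)⁻¹ * h * v⁻¹ ∈ VB R}
      ≤ ENNReal.ofReal (D ^ (C * e) * ((8 + 32 * n) * 2 ^ (-W))) := by
  by_cases hne : ({x | x ∈ G ∧ (s x)⁻¹ * h * v⁻¹ ∈ VB R} : Set (ModSpace n)).Nonempty
  swap
  · rw [Set.not_nonempty_iff_eq_empty.1 hne, measure_empty]
    exact zero_le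
  obtain ⟨x₀, hx₀G, hx₀⟩ := hne
  set a : SLR n := aT t with ha
  set T : Set (ModSpace n) := X' ∩ (act (act x₀ a)) '' Box S (D ^ e) ((8 + 32 * n) * 2 ^ (-W))
    with hT
  have hsub : {x | x ∈ G ∧ (s x)⁻¹ * h * v⁻¹ ∈ VB R} ⊆ (fun x => act x a) ⁻¹' T := by
    rintro x ⟨hxG, hx⟩
    refine ⟨(hG x hxG).1, ?_⟩
    set g₀ : SLR n := (s x₀)⁻¹ * h * v⁻¹ with hg₀
    set g : SLR n := (s x)⁻¹ * h * v⁻¹ with hg
    have hsx : s x = s x₀ * (g₀ * g⁻¹) := by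
      rw [hg₀, hg]; group
    have hx1 : x = act x₀ (g₀ * g⁻¹) := by
      conv_lhs => rw [← hqs x, hsx]
      rw [← act_q, hqs]
    have hc₀ := conj_mem_VB t hx₀
    have hc := conj_mem_VB t hx
    have hd1 := div_bound S (R + sh t) c1 W hc1 hR hW hc hc₀
    have hd2 := div_bound S (R + sh t) c1 W hc1 hR hW hc₀ hc
    refine ⟨(a⁻¹ * g₀ * a) * (a⁻¹ * g * a)⁻¹, ?_, ?_⟩
    · have hinv : ((a⁻¹ * g₀ * a) * (a⁻¹ * g * a)⁻¹)⁻¹ = (a⁻¹ * g * a) * (a⁻¹ * g₀ * a)⁻¹ := by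
        group
      refine ⟨fun i j => ⟨(hd1.1 i j).trans hD, ?_⟩, fun i j hij => ⟨hd1.2 i j hij, ?_⟩⟩
      · rw [hinv]; exact (hd2.1 i j).trans hD
      · rw [hinv]; exact hd2.2 i j hij
    · show act (act x₀ a) ((a⁻¹ * g₀ * a) * (a⁻¹ * g * a)⁻¹) = act x a
      rw [act_act]
      conv_rhs => rw [hx1]
      rw [act_act]
      congr 1
      group
  have hmap : μ ((fun x => act x a) ⁻¹' T) = μ T := by
    have h1 : μ.map (fun x => act x a) = μ := hμ t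
    have h2 : (μ.map ((actHomeo a).toMeasurableEquiv)) T
        = μ ((actHomeo a).toMeasurableEquiv ⁻¹' T) := MeasurableEquiv.map_apply _ _
    have h3 : ((actHomeo a).toMeasurableEquiv : ModSpace n → ModSpace n)
        = fun x => act x a := rfl
    rw [h3, h1] at h2
    exact h2.symm
  calc μ {x | x ∈ G ∧ (s x)⁻¹ * h * v⁻¹ ∈ VB R} ≤ μ ((fun x => act x a) ⁻¹' T) :=
        measure_mono hsub
    _ = μ T := hmap
    _ ≤ _ := hX' (act x₀ a) (hG x₀ hx₀G).2 _ hδ0 hδ1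

end Crest.Agent.R014.Nm_884
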