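import Mathlib
import Crest.Agent.R014.Nm2_884

/-!
R014, block D, leaf NOISE-SLAB MASS (helper884), part 3: the mass bound for a random last factor.
-/

set_option autoImplicit false

open MeasureTheory Filter Topology
open Crest.NumberTheoryR.Packets
open scoped ENNReal

namespace Crest.Agent.R014.Nm_884

open Crest.Agent.R014.Ms_667 Crest.Agent.R014.Nd_837 Crest.Agent.R014.Iface_792

variable {n : ℕ}

/-- **Mass bound, abstract form.** `Hs` bi-invariant, `Z ≤ A Hs|V0`, `π` any probability law. -/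
theorem mass_of (Hs : Measure (SLR n)) [SFinite Hs]
    (hL : ∀ g : SLR n, Measure.map (fun h => g * h) Hs = Hs)
    (hR : ∀ g : SLR n, Measure.map (fun h => h * g) Hs = Hs)
    (μ : Measure (ModSpace n)) [IsFiniteMeasure μ]
    (Z : Measure (SLR n)) [IsProbabilityMeasure Z] (A : ℝ≥0∞) (V0 : Set (SLR n)) (hV0 : MeasurableSet V0)
    (hZ : Z ≤ A • Hs.restrict V0)
    (s : ModSpace n → SLR n) (hs : Measurable s) (hqs : ∀ x, q (s x) = x)
    (G : Set (ModSpace n)) (hG : MeasurableSet G)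
    (P0 : Set (SLR n)) (π : Measure (SLR n)) [IsProbabilityMeasure π] (hπ : ∀ᵐ v ∂π, v ∈ P0)
    (K : Set (SLR n)) (hK : MeasurableSet K)
    (hsK : ∀ x ∈ G, ∀ g ∈ V0, ∀ v ∈ P0, s x * g * v ∈ K)
    (σ : ℝ≥0∞) (hσ : ∀ h v : SLR n, μ {x | x ∈ G ∧ (s x)⁻¹ * h * v⁻¹ ∈ V0} ≤ σ)
    (B : Set (ModSpace n)) (hB : MeasurableSet B) :
    stp (μ.restrict G) (cv Z π) B ≤ A * σ * Hs {h | h ∈ K ∧ q h ∈ B} := by
  -- for fixed v
  have hfix : ∀ v ∈ P0, ∫⁻ x in G, (Z.map fun g => g * v) {g | act x g ∈ B} ∂μ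
      ≤ A * σ * Hs {h | h ∈ K ∧ q h ∈ B} := by
    intro v hv
    set V : Set (SLR n) := {g | g * v⁻¹ ∈ V0} with hVdef
    have hmv : Measurable fun g : SLR n => g * v := (continuous_mul_const v).measurable
    have hmv' : Measurable fun g : SLR n => g * v⁻¹ := (continuous_mul_const v⁻¹).measurable
    have hV : MeasurableSet V := hmv' hV0
    apply fubini_ineq Hs hL μ (Z.map fun g => g * v) A V hV ?_ s hs hqs G hG K hK ?_ σ ?_ B hB
    · refine Measure.le_iff.2 fun T hT => ?_
      rw [Measure.map_apply hmv hT, Measure.smul_apply, Measure.restrict_apply hT, smul_eq_mul]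
      refine (hZ _).trans ?_
      rw [Measure.smul_apply, Measure.restrict_apply (hmv hT), smul_eq_mul]
      have e1 : Hs (T ∩ V) = Hs (((fun g => g * v) ⁻¹' T) ∩ V0) := by
        conv_lhs => rw [← hR v]
        rw [Measure.map_apply hmv (hT.inter hV)]
        congr 1
        ext g
        simp [hVdef]
      rw [e1]
    · intro x hx g hg
      have h1 := hsK x hx (g * v⁻¹) hg v hv
      have h2 : s x * (g * v⁻¹) * v = s x * g := by group
      rwa [h2] at h1
    · intro h
      exact hσ h v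
  -- unfold the left side
  have h3 : Measurable fun p : (ModSpace n × SLR n) × SLR n => act p.1.1 (p.2 * p.1.2) :=
    measurable_act₂.comp ((measurable_fst.comp measurable_fst).prodMk
      (measurable_snd.mul (measurable_snd.comp measurable_fst)))
  have hjm : Measurable fun p : ModSpace n × SLR n => Z {g | act p.1 (g * p.2) ∈ B} :=
    measurable_measure_prodMk_left (h3 hB)
  have e1 : stp (μ.restrict G) (cv Z π) B
      = ∫⁻ x in G, ∫⁻ v, Z {g | act x (g * v) ∈ B} ∂π ∂μ := by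
    unfold stp
    rw [Measure.map_apply measurable_act₂ hB, Measure.prod_apply (measurable_act₂ hB)]
    congr 1
    funext x
    have hx : MeasurableSet {g : SLR n | act x g ∈ B} :=
      (continuous_act.comp (Continuous.prodMk_right x)).measurable hB
    show (cv Z π) {g | act x g ∈ B} = _
    unfold cv
    rw [Measure.map_apply measurable_mul₂ hx]
    have hm2 : MeasurableSet ((fun p : SLR n × SLR n => p.1 * p.2) ⁻¹' {g | act x g ∈ B}) :=
      measurable_mul₂ hx
    rw [Measure.prod_apply_symm hm2]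
    rfl
  rw [e1, lintegral_lintegral_swap hjm.aemeasurable]
  calc ∫⁻ v, ∫⁻ x in G, Z {g | act x (g * v) ∈ B} ∂μ ∂π
      ≤ ∫⁻ _v, A * σ * Hs {h | h ∈ K ∧ q h ∈ B} ∂π := by
        apply lintegral_mono_ae
        filter_upwards [hπ] with v hv
        refine le_trans (le_of_eq ?_) (hfix v hv)
        congr 1
        funext x
        have hx : MeasurableSet {g : SLR n | act x g ∈ B} :=
          (continuous_act.comp (Continuous.prodMk_right x)).measurable hB
        rw [Measure.map_apply (continuous_mul_const v).measurable hx]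
        rfl
    _ = A * σ * Hs {h | h ∈ K ∧ q h ∈ B} := by
        rw [lintegral_const, measure_univ, mul_one]

/-! ### the noise box in `SL_n(ℝ)` -/

lemma isClosed_VB (R : Fin n → Fin n → ℝ) : IsClosed (VB R) := by
  have hcl : IsClosed {p : Set.Icc (1 / 2 : ℝ) 2 × SLR n |
      ∀ i j, |((p.1 : ℝ) • p.2.1 - 1) i j| ≤ (2 : ℝ) ^ (-(R i j))} := by
    have : {p : Set.Icc (1 / 2 : ℝ) 2 × SLR n |
        ∀ i j, |((p.1 : ℝ) • p.2.1 - 1) i j| ≤ (2 : ℝ) ^ (-(R i j))}
        = ⋂ i, ⋂ j, {p | |((p.1 : ℝ) • p.2.1 - 1) i j| ≤ (2 : ℝ) ^ (-(R i j))} := by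
      ext p; simp
    rw [this]
    refine isClosed_iInter fun i => isClosed_iInter fun j => isClosed_le ?_ continuous_const
    refine Continuous.abs ?_
    have h1 : (fun p : Set.Icc (1 / 2 : ℝ) 2 × SLR n => ((p.1 : ℝ) • p.2.1 - 1) i j)
        = fun p => (p.1 : ℝ) * p.2.1 i j - (1 : Matrix (Fin n) (Fin n) ℝ) i j := by
      funext p
      rw [Matrix.sub_apply, Matrix.smul_apply, smul_eq_mul]
    rw [h1]
    exact ((continuous_subtype_val.comp continuous_fst).mul
      ((continuous_entry i j).comp continuous_snd)).sub continuous_const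
  have himg : VB R = Prod.snd '' {p : Set.Icc (1 / 2 : ℝ) 2 × SLR n |
      ∀ i j, |((p.1 : ℝ) • p.2.1 - 1) i j| ≤ (2 : ℝ) ^ (-(R i j))} := by
    ext g
    constructor
    · rintro ⟨c, hc, h⟩
      exact ⟨(⟨c, hc⟩, g), h, rfl⟩
    · rintro ⟨⟨c, g'⟩, h, rfl⟩
      exact ⟨c, c.2, h⟩
  rw [himg]
  exact isClosedMap_snd_of_compactSpace _ hcl

lemma measurableSet_VB (R : Fin n → Fin n → ℝ) : MeasurableSet (VB R) :=
  (isClosed_VB R).measurableSet

/-- entries of an element of a noise box -/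
lemma VB_subset_Ent {R : Fin n → Fin n → ℝ} (hR : ∀ i j, 0 ≤ R i j) : VB R ⊆ Ent n 4 := by
  rintro g ⟨c, hc, h⟩ i j
  have hcpos : (0 : ℝ) < c := lt_of_lt_of_le (by norm_num) hc.1
  have h1 := h i j
  rw [Matrix.sub_apply, Matrix.smul_apply, smul_eq_mul] at h1
  have h2 : (2 : ℝ) ^ (-(R i j)) ≤ 1 := by
    have := Real.rpow_le_rpow_of_exponent_le (show (1 : ℝ) ≤ 2 by norm_num)
      (neg_nonpos.2 (hR i j))
    simpa using this
  have h3 : |(1 : Matrix (Fin n) (Fin n) ℝ) i j| ≤ 1 := by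
    by_cases hij : i = j
    · subst hij; simp
    · rw [Matrix.one_apply_ne hij]; simp
  have h4 : |c * g.1 i j| ≤ 2 := by
    calc |c * g.1 i j| = |(c * g.1 i j - (1 : Matrix (Fin n) (Fin n) ℝ) i j)
          + (1 : Matrix (Fin n) (Fin n) ℝ) i j| := by ring_nf
      _ ≤ _ := (abs_add_le _ _).trans (add_le_add (h1.trans h2) h3)
      _ = 2 := by norm_num
  rw [abs_mul, abs_of_pos hcpos] at h4
  have h5 : (1 / 2 : ℝ) * |g.1 i j| ≤ c * |g.1 i j| :=
    mul_le_mul_of_nonneg_right hc.1 (abs_nonneg _)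
  linarith

lemma Ent_mul {B C : ℝ} (_hB : 0 ≤ B) {g h : SLR n} (hg : g ∈ Ent n B) (hh : h ∈ Ent n C) :
    g * h ∈ Ent n (n * (B * C)) := by
  intro i j
  show |(g.1 * h.1) i j| ≤ _
  rw [Matrix.mul_apply]
  refine (Finset.abs_sum_le_sum_abs _ _).trans ?_
  calc ∑ k, |g.1 i k * h.1 k j| ≤ ∑ _k : Fin n, B * C := by
        apply Finset.sum_le_sum
        intro k _
        rw [abs_mul]
        exact mul_le_mul (hg i k) (hh k j) (abs_nonneg _) _hB
    _ = n * (B * C) := by
        rw [Finset.sum_const, Finset.card_univ, Fintype.card_fin, nsmul_eq_mul]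

end Crest.Agent.R014.Nm_884
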