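import Mathlib

set_option autoImplicit false

open MeasureTheory Set Matrix
open scoped ENNReal

namespace Crest.Agent.R014.Nz_323

variable {n : ℕ}

/-- real `n × n` matrices. -/
abbrev Mt (n : ℕ) := Matrix (Fin n) (Fin n) ℝ

instance instMeasurableSpaceMt : MeasurableSpace (Mt n) :=
  inferInstanceAs (MeasurableSpace (Fin n → Fin n → ℝ))

instance instBorelSpaceMt : BorelSpace (Mt n) :=
  inferInstanceAs (BorelSpace (Fin n → Fin n → ℝ))

noncomputable instance instMeasureSpaceMt : MeasureSpace (Mt n) :=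
  inferInstanceAs (MeasureSpace (Fin n → Fin n → ℝ))

instance instSFMt : SigmaFinite (volume : Measure (Mt n)) :=
  inferInstanceAs (SigmaFinite (volume : Measure (Fin n → Fin n → ℝ)))

instance instHaarMt : (volume : Measure (Mt n)).IsAddHaarMeasure := by
  have h0 : (volume : Measure (Fin n → ℝ)).IsAddHaarMeasure := by infer_instance
  have : (Measure.pi fun _ : Fin n => (volume : Measure (Fin n → ℝ))).IsAddHaarMeasure :=
    Measure.pi.isAddHaarMeasure _
  exact this

/-! ### Lebesgue measure and right/left multiplication -/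

theorem measurable_entry (i j : Fin n) : Measurable fun g : Mt n => g i j :=
  (measurable_pi_apply j).comp (measurable_pi_apply i)

theorem measurable_mul_right (q : Mt n) : Measurable fun g : Mt n => g * q :=
  (by fun_prop : Continuous fun g : Mt n => g * q).measurable

theorem measurable_mul_left (q : Mt n) : Measurable fun g : Mt n => q * g :=
  (by fun_prop : Continuous fun g : Mt n => q * g).measurable

theorem map_mul_right_volume (q : Mt n) (hq : q.det ≠ 0) :
    (volume : Measure (Mt n)).map (fun g => g * q)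
      = (ENNReal.ofReal (|(q.det)⁻¹|)) ^ n • (volume : Measure (Mt n)) := by
  have hdet : (qᵀ).det ≠ 0 := by rwa [Matrix.det_transpose]
  have h1 := Real.map_matrix_volume_pi_eq_smul_volume_pi (M := qᵀ) hdet
  rw [Matrix.det_transpose] at h1
  set c : ℝ≥0∞ := ENNReal.ofReal |(q.det)⁻¹| with hc
  have hcfin : c ≠ ⊤ := ENNReal.ofReal_ne_top
  have hmeas : Measurable (Matrix.toLin' qᵀ) := by
    have : Continuous (Matrix.toLin' qᵀ) := LinearMap.continuous_of_finiteDimensional _
    exact this.measurable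
  have hsf : SigmaFinite ((volume : Measure (Fin n → ℝ)).map (Matrix.toLin' qᵀ)) := by
    rw [h1, ← ENNReal.coe_toNNReal hcfin]
    have : SigmaFinite (c.toNNReal • (volume : Measure (Fin n → ℝ))) := by infer_instance
    exact this
  have h2 : (volume : Measure (Fin n → Fin n → ℝ)).map
      (fun g i => (Matrix.toLin' qᵀ) (g i)) = c ^ n • (volume : Measure (Fin n → Fin n → ℝ)) := by
    have h3 : (volume : Measure (Fin n → Fin n → ℝ))
        = Measure.pi fun _ : Fin n => (volume : Measure (Fin n → ℝ)) := rfl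
    rw [h3, Measure.pi_map_pi (fun i => hmeas.aemeasurable)]
    refine Measure.pi_eq fun s hs => ?_
    rw [Measure.smul_apply, Measure.pi_pi]
    simp_rw [h1, Measure.smul_apply]
    rw [smul_eq_mul]
    simp_rw [smul_eq_mul]
    rw [Finset.prod_mul_distrib]
    simp
  have h4 : (fun g : Mt n => g * q) = (fun g i => (Matrix.toLin' qᵀ) (g i)) := by
    funext g
    ext i j
    rw [Matrix.toLin'_apply, Matrix.mul_apply, Matrix.mulVec]
    simp [dotProduct, mul_comm]
  rw [h4]
  exact h2

theorem map_transpose_volume :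
    (volume : Measure (Mt n)).map (fun g => gᵀ) = (volume : Measure (Mt n)) := by
  set T : (Fin n → Fin n → ℝ) →ₗ[ℝ] (Fin n → Fin n → ℝ) :=
    { toFun := fun g i j => g j i
      map_add' := fun _ _ => rfl
      map_smul' := fun _ _ => rfl } with hT
  have hTT : T ∘ₗ T = LinearMap.id := LinearMap.ext fun g => rfl
  have hdet : LinearMap.det T * LinearMap.det T = 1 := by
    rw [← LinearMap.det_comp, hTT, LinearMap.det_id]
  have h1 : |LinearMap.det T| = 1 := by
    have h2 : |LinearMap.det T| * |LinearMap.det T| = 1 := by rw [← abs_mul, hdet, abs_one]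
    nlinarith [abs_nonneg (LinearMap.det T)]
  have hne : LinearMap.det T ≠ 0 := by
    intro h0; rw [h0] at hdet; simp at hdet
  have := Measure.map_linearMap_addHaar_eq_smul_addHaar
    (volume : Measure (Fin n → Fin n → ℝ)) hne
  rw [abs_inv, h1] at this
  simp only [inv_one, ENNReal.ofReal_one, one_smul] at this
  exact this

theorem map_mul_left_volume (q : Mt n) (hq : q.det ≠ 0) :
    (volume : Measure (Mt n)).map (fun g => q * g)
      = (ENNReal.ofReal (|(q.det)⁻¹|)) ^ n • (volume : Measure (Mt n)) := by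
  have hdet : (qᵀ).det ≠ 0 := by rwa [Matrix.det_transpose]
  have hmt : Measurable fun g : Mt n => gᵀ := (by fun_prop : Continuous fun g : Mt n => gᵀ).measurable
  have h1 : (fun g : Mt n => q * g) = (fun g => gᵀ) ∘ ((fun g => g * qᵀ) ∘ (fun g => gᵀ)) := by
    funext g
    simp [Matrix.transpose_mul]
  rw [h1, ← Measure.map_map hmt ((measurable_mul_right _).comp hmt),
    ← Measure.map_map (measurable_mul_right _) hmt, map_transpose_volume,
    map_mul_right_volume _ hdet, Measure.map_smul, map_transpose_volume, Matrix.det_transpose]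

/-! ### Haar measure of `GL_n^+` -/

/-- density of Haar measure of `GL_n^+` with respect to Lebesgue measure. -/
noncomputable def rho (g : Mt n) : ℝ≥0∞ := if 0 < g.det then ENNReal.ofReal ((g.det)⁻¹ ^ n) else 0

/-- Haar measure of `GL_n^+(ℝ)`, as a measure on matrices. -/
noncomputable def haar (n : ℕ) : Measure (Mt n) := volume.withDensity rho

theorem measurable_det : Measurable fun g : Mt n => g.det :=
  (by fun_prop : Continuous fun g : Mt n => g.det).measurable

theorem measurable_rho : Measurable (rho : Mt n → ℝ≥0∞) := by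
  unfold rho
  refine Measurable.ite (measurableSet_lt measurable_const measurable_det) ?_ measurable_const
  exact (measurable_det.inv.pow_const n).ennreal_ofReal

theorem map_withDensity_eq {T : Mt n → Mt n} (hT : Measurable T) {c d : ℝ≥0∞}
    (h1 : (volume : Measure (Mt n)).map T = c • volume) {ρ : Mt n → ℝ≥0∞} (hρ : Measurable ρ)
    (h2 : ∀ g, ρ g = d * ρ (T g)) (hcd : c * d = 1) :
    ((volume : Measure (Mt n)).withDensity ρ).map T = volume.withDensity ρ := by
  ext A hA
  rw [Measure.map_apply hT hA, withDensity_apply _ (hT hA), withDensity_apply _ hA]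
  calc ∫⁻ g in T ⁻¹' A, ρ g = ∫⁻ g in T ⁻¹' A, (fun h => d * ρ h) (T g) := by
        refine lintegral_congr fun g => ?_
        rw [h2 g]
    _ = ∫⁻ h in A, d * ρ h ∂((volume : Measure (Mt n)).map T) := by
        exact (setLIntegral_map (f := fun h => d * ρ h) hA (hρ.const_mul d) hT).symm
    _ = c * (d * ∫⁻ h in A, ρ h) := by
        rw [h1, Measure.restrict_smul, lintegral_smul_measure, lintegral_const_mul _ hρ, smul_eq_mul]
    _ = ∫⁻ h in A, ρ h := by rw [← mul_assoc, hcd, one_mul]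

theorem rho_mul {q g : Mt n} (hq : 0 < q.det) {h : Mt n} (hh : h.det = g.det * q.det) :
    rho g = ENNReal.ofReal (q.det) ^ n * rho h := by
  unfold rho
  rw [hh]
  by_cases hg : 0 < g.det
  · rw [if_pos hg, if_pos (mul_pos hg hq), ← ENNReal.ofReal_pow hq.le,
      ← ENNReal.ofReal_mul (by positivity)]
    congr 1
    rw [mul_inv, mul_pow, ← mul_assoc, mul_comm (q.det ^ n), mul_assoc, ← mul_pow,
      mul_inv_cancel₀ hq.ne', one_pow, mul_one]
  · rw [if_neg hg, if_neg, mul_zero]
    intro h1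
    exact hg ((mul_pos_iff_of_pos_right hq).1 h1)

theorem cd_eq {q : Mt n} (hq : 0 < q.det) :
    (ENNReal.ofReal (|(q.det)⁻¹|)) ^ n * ENNReal.ofReal (q.det) ^ n = 1 := by
  rw [← mul_pow, ← ENNReal.ofReal_mul (abs_nonneg _), abs_of_pos (inv_pos.2 hq),
    inv_mul_cancel₀ hq.ne']
  simp

theorem haar_mul_right {q : Mt n} (hq : 0 < q.det) : (haar n).map (fun g => g * q) = haar n := by
  refine map_withDensity_eq (measurable_mul_right q) (map_mul_right_volume q hq.ne') measurable_rho
    (d := ENNReal.ofReal (q.det) ^ n) (fun g => ?_) (cd_eq hq)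
  exact rho_mul hq (Matrix.det_mul _ _)

theorem haar_mul_left {q : Mt n} (hq : 0 < q.det) : (haar n).map (fun g => q * g) = haar n := by
  refine map_withDensity_eq (measurable_mul_left q) (map_mul_left_volume q hq.ne') measurable_rho
    (d := ENNReal.ofReal (q.det) ^ n) (fun g => ?_) (cd_eq hq)
  exact rho_mul hq (by rw [Matrix.det_mul, mul_comm])


/-! ### Boxes -/

/-- the box around `1` with radii `2^(-R i j)`. -/
def bx (R : Fin n → Fin n → ℝ) : Set (Mt n) := {g | ∀ i j, |(g - 1) i j| ≤ (2:ℝ) ^ (-(R i j))}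

/-- the dilated box. -/
def bxc (c : ℝ) (R : Fin n → Fin n → ℝ) : Set (Mt n) :=
  {g | ∀ i j, |(g - 1) i j| ≤ c * (2:ℝ) ^ (-(R i j))}

/-- admissible metrics. -/
def Adm (R : Fin n → Fin n → ℝ) : Prop := ∀ g ∈ bx R, 1 / 2 ≤ g.det ∧ g.det ≤ 2

/-- the noise `ζ_R`. -/
noncomputable def un (R : Fin n → Fin n → ℝ) : Measure (Mt n) :=
  ((haar n) (bx R))⁻¹ • (haar n).restrict (bx R)

/-- `R'` is `w`-negligible for `R`. -/
def Neg (w : ℝ) (R' R : Fin n → Fin n → ℝ) : Prop :=
  (∀ i j, R i j + w ≤ R' i j) ∧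
    ∀ i k j, R i j + w ≤ R' i k + R k j ∧ R i j + w ≤ R i k + R' k j

/-- `R` is `(i,j)`-clean at depth `r` with margin `w`. -/
def Clean (i j : Fin n) (r w : ℝ) (R : Fin n → Fin n → ℝ) : Prop :=
  (∀ k, R k j + w ≤ r + R k i) ∧ (∀ l, R i l + w ≤ r + R j l) ∧ R i j + w ≤ 2 * r + R j i

/-- the constant of L1 and L2. -/
noncomputable def CN (n : ℕ) : ℝ := 8 ^ n * 2 ^ (n ^ 2) * (n + 4)

/-- the shift of metrics by `t`. -/
def sh (t : Fin n → ℝ) : Fin n → Fin n → ℝ := fun i j => t i - t j

/-- diagonal matrix with entries `2^(t i)`. -/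
noncomputable def dg (t : Fin n → ℝ) : Mt n := Matrix.diagonal fun i => (2:ℝ) ^ (t i)

theorem bx_eq_bxc (R : Fin n → Fin n → ℝ) : bx R = bxc 1 R := by
  ext g; simp [bx, bxc]

theorem bxc_eq_pi (c : ℝ) (R : Fin n → Fin n → ℝ) :
    bxc c R = (Set.pi univ fun i => Set.pi univ fun j =>
      Icc ((1 : Mt n) i j - c * (2:ℝ) ^ (-(R i j))) ((1 : Mt n) i j + c * (2:ℝ) ^ (-(R i j))) :
        Set (Fin n → Fin n → ℝ)) := by
  ext g
  constructor
  · intro h i _ j _
    have h1 : |g i j - (1 : Mt n) i j| ≤ c * (2:ℝ) ^ (-(R i j)) := h i j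
    rw [abs_le] at h1
    exact ⟨by linarith [h1.1], by linarith [h1.2]⟩
  · intro h i j
    have h1 := h i (Set.mem_univ i) j (Set.mem_univ j)
    have h2 : (1 : Mt n) i j - c * (2:ℝ) ^ (-(R i j)) ≤ g i j := h1.1
    have h3 : g i j ≤ (1 : Mt n) i j + c * (2:ℝ) ^ (-(R i j)) := h1.2
    show |g i j - (1 : Mt n) i j| ≤ c * (2:ℝ) ^ (-(R i j))
    rw [abs_le]
    exact ⟨by linarith, by linarith⟩

theorem measurableSet_bxc (c : ℝ) (R : Fin n → Fin n → ℝ) : MeasurableSet (bxc c R) := by
  rw [bxc_eq_pi]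
  exact MeasurableSet.univ_pi fun i => MeasurableSet.univ_pi fun j => measurableSet_Icc

theorem measurableSet_bx (R : Fin n → Fin n → ℝ) : MeasurableSet (bx R) := by
  rw [bx_eq_bxc]; exact measurableSet_bxc 1 R

/-- Lebesgue volume of the box. -/
noncomputable def vb (R : Fin n → Fin n → ℝ) : ℝ := ∏ i, ∏ j, (2 * (2:ℝ) ^ (-(R i j)))

theorem vb_pos (R : Fin n → Fin n → ℝ) : 0 < vb R :=
  Finset.prod_pos fun i _ => Finset.prod_pos fun j _ => by positivity

theorem volume_bxc {c : ℝ} (hc : 0 ≤ c) (R : Fin n → Fin n → ℝ) :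
    (volume : Measure (Mt n)) (bxc c R) = ENNReal.ofReal (c ^ (n ^ 2) * vb R) := by
  rw [bxc_eq_pi]
  have h0 : (volume : Measure (Fin n → Fin n → ℝ)) (Set.pi univ fun i => Set.pi univ fun j =>
      Icc ((1 : Mt n) i j - c * (2:ℝ) ^ (-(R i j))) ((1 : Mt n) i j + c * (2:ℝ) ^ (-(R i j)))) =
      ∏ i : Fin n, ∏ j : Fin n, ENNReal.ofReal ((1 : Mt n) i j + c * (2:ℝ) ^ (-(R i j))
      - ((1 : Mt n) i j - c * (2:ℝ) ^ (-(R i j)))) := by
    rw [volume_pi_pi]
    refine Finset.prod_congr rfl fun i _ => ?_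
    rw [volume_pi_pi]
    refine Finset.prod_congr rfl fun j _ => ?_
    rw [Real.volume_Icc]
  refine Eq.trans h0 ?_
  have h1 : ∀ i j : Fin n, ENNReal.ofReal ((1 : Mt n) i j + c * (2:ℝ) ^ (-(R i j))
      - ((1 : Mt n) i j - c * (2:ℝ) ^ (-(R i j)))) = ENNReal.ofReal (c * (2 * (2:ℝ) ^ (-(R i j)))) := by
    intro i j; congr 1; ring
  simp_rw [h1]
  rw [show (∏ i : Fin n, ∏ j : Fin n, ENNReal.ofReal (c * (2 * (2:ℝ) ^ (-(R i j)))))
      = ENNReal.ofReal (∏ i : Fin n, ∏ j : Fin n, (c * (2 * (2:ℝ) ^ (-(R i j))))) by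
    rw [ENNReal.ofReal_prod_of_nonneg (fun i _ => Finset.prod_nonneg fun j _ => by positivity)]
    refine Finset.prod_congr rfl fun i _ => ?_
    rw [ENNReal.ofReal_prod_of_nonneg (fun j _ => by positivity)]]
  congr 1
  simp_rw [Finset.prod_mul_distrib]
  unfold vb
  simp_rw [Finset.prod_mul_distrib]
  simp only [Finset.prod_const, Finset.card_univ, Fintype.card_fin]
  ring

theorem one_add_pow_le {e : ℝ} (h0 : 0 ≤ e) (h1 : e ≤ 1) (N : ℕ) :
    (1 + e) ^ N ≤ 1 + (2 ^ N - 1) * e := by
  induction N with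
  | zero => simp
  | succ N ih =>
    have h2 : (1:ℝ) ≤ 2 ^ N := one_le_pow₀ (by norm_num)
    rw [pow_succ]
    calc (1 + e) ^ N * (1 + e) ≤ (1 + (2 ^ N - 1) * e) * (1 + e) := by gcongr
      _ = 1 + e + (2 ^ N - 1) * e + (2 ^ N - 1) * (e * e) := by ring
      _ ≤ 1 + e + (2 ^ N - 1) * e + (2 ^ N - 1) * (1 * e) := by
          have : (0:ℝ) ≤ 2 ^ N - 1 := by linarith
          gcongr
      _ = 1 + (2 ^ (N + 1) - 1) * e := by rw [pow_succ]; ring

theorem rho_le_of_det {g : Mt n} {c : ℝ} (hc : 0 < c) (h : c ≤ g.det) :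
    rho g ≤ ENNReal.ofReal (c⁻¹ ^ n) := by
  unfold rho
  rw [if_pos (hc.trans_le h)]
  apply ENNReal.ofReal_le_ofReal
  have : (0:ℝ) ≤ (g.det)⁻¹ := inv_nonneg.2 (hc.le.trans h)
  gcongr

theorem le_rho_of_det {g : Mt n} {c : ℝ} (h0 : 0 < g.det) (h : g.det ≤ c) :
    ENNReal.ofReal (c⁻¹ ^ n) ≤ rho g := by
  unfold rho
  rw [if_pos h0]
  apply ENNReal.ofReal_le_ofReal
  have : (0:ℝ) ≤ c⁻¹ := inv_nonneg.2 (h0.le.trans h)
  gcongr

theorem le_haar_bx {R : Fin n → Fin n → ℝ} (hR : Adm R) :
    ENNReal.ofReal ((2:ℝ)⁻¹ ^ n * vb R) ≤ haar n (bx R) := by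
  unfold haar
  rw [withDensity_apply _ (measurableSet_bx R)]
  calc ENNReal.ofReal ((2:ℝ)⁻¹ ^ n * vb R) = ∫⁻ _ in bx R, ENNReal.ofReal ((2:ℝ)⁻¹ ^ n) := by
        rw [setLIntegral_const, bx_eq_bxc, volume_bxc (by norm_num), ← ENNReal.ofReal_mul (by positivity)]
        simp
    _ ≤ ∫⁻ g in bx R, rho g := by
        refine setLIntegral_mono measurable_rho fun g hg => ?_
        obtain ⟨h1, h2⟩ := hR g hg
        exact le_rho_of_det (by linarith) h2

theorem haar_bx_le {R : Fin n → Fin n → ℝ} (hR : Adm R) :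
    haar n (bx R) ≤ ENNReal.ofReal ((2:ℝ) ^ n * vb R) := by
  unfold haar
  rw [withDensity_apply _ (measurableSet_bx R)]
  calc ∫⁻ g in bx R, rho g ≤ ∫⁻ _ in bx R, ENNReal.ofReal ((2:ℝ) ^ n) := by
        refine setLIntegral_mono measurable_const fun g hg => ?_
        obtain ⟨h1, h2⟩ := hR g hg
        have := rho_le_of_det (by norm_num : (0:ℝ) < 1 / 2) h1
        simpa using this
    _ = ENNReal.ofReal ((2:ℝ) ^ n * vb R) := by
        rw [setLIntegral_const, bx_eq_bxc, volume_bxc (by norm_num), ← ENNReal.ofReal_mul (by positivity)]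
        simp

theorem haar_bx_pos {R : Fin n → Fin n → ℝ} (hR : Adm R) : 0 < haar n (bx R) := by
  refine lt_of_lt_of_le ?_ (le_haar_bx hR)
  rw [ENNReal.ofReal_pos]
  have := vb_pos R
  positivity

theorem haar_bx_lt_top {R : Fin n → Fin n → ℝ} (hR : Adm R) : haar n (bx R) < ⊤ :=
  lt_of_le_of_lt (haar_bx_le hR) ENNReal.ofReal_lt_top

theorem isProb_un {R : Fin n → Fin n → ℝ} (hR : Adm R) : IsProbabilityMeasure (un R) := by
  refine ⟨?_⟩
  unfold un
  rw [Measure.smul_apply, Measure.restrict_apply MeasurableSet.univ, univ_inter, smul_eq_mul]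
  exact ENNReal.inv_mul_cancel (haar_bx_pos hR).ne' (haar_bx_lt_top hR).ne

theorem un_compl (R : Fin n → Fin n → ℝ) : un R (bx R)ᶜ = 0 := by
  unfold un
  rw [Measure.smul_apply, Measure.restrict_apply (measurableSet_bx R).compl]
  simp

theorem un_apply (R : Fin n → Fin n → ℝ) {A : Set (Mt n)} (hA : MeasurableSet A) :
    un R A = (haar n (bx R))⁻¹ * haar n (A ∩ bx R) := by
  unfold un
  rw [Measure.smul_apply, Measure.restrict_apply hA, smul_eq_mul]

theorem un_real (R : Fin n → Fin n → ℝ) {A : Set (Mt n)} (hA : MeasurableSet A) :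
    (un R).real A = (haar n).real (A ∩ bx R) / (haar n).real (bx R) := by
  rw [Measure.real, un_apply R hA, ENNReal.toReal_mul, ENNReal.toReal_inv]
  simp only [Measure.real]
  rw [div_eq_inv_mul]

/-- the main estimate. -/
theorem tv_of_box {R : Fin n → Fin n → ℝ} (hR : Adm R) (T : Mt n ≃ᵐ Mt n)
    (hT : (haar n).map T = haar n) {e : ℝ} (he0 : 0 ≤ e) (he1 : e ≤ 1)
    (hbox : ∀ g ∈ bx R, T g ∈ bxc (1 + e) R) (hdet : ∀ g ∈ bx R, 1 / 4 ≤ (T g).det)
    {A : Set (Mt n)} (hA : MeasurableSet A) :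
    |((un R).map T).real A - (un R).real A| ≤ 8 ^ n * 2 ^ (n ^ 2) * e := by
  set B := bx R with hB
  have hBm : MeasurableSet B := measurableSet_bx R
  set D : Set (Mt n) := T.symm ⁻¹' B with hD
  have hDm : MeasurableSet D := T.symm.measurable hBm
  have hpre : ∀ E : Set (Mt n), MeasurableSet E → haar n (T ⁻¹' E) = haar n E := by
    intro E hE
    rw [← Measure.map_apply T.measurable hE, hT]
  have hTD : T ⁻¹' D = B := by
    ext g; simp [hD]
  have hDB : haar n D = haar n B := by rw [← hpre D hDm, hTD]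
  have hBfin : haar n B ≠ ⊤ := (haar_bx_lt_top hR).ne
  have hBpos : 0 < (haar n).real B := ENNReal.toReal_pos (haar_bx_pos hR).ne' hBfin
  have hDfin : haar n D ≠ ⊤ := by rw [hDB]; exact hBfin
  have hfin : ∀ E : Set (Mt n), E ⊆ B ∪ D → haar n E ≠ ⊤ := by
    intro E hE
    refine ne_top_of_le_ne_top ?_ (measure_mono hE)
    exact ((measure_union_le _ _).trans_lt (ENNReal.add_lt_top.2 ⟨hBfin.lt_top, hDfin.lt_top⟩)).ne
  -- the two masses
  have h1 : ((un R).map T).real A = (haar n).real (A ∩ D) / (haar n).real B := by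
    rw [Measure.real, Measure.map_apply T.measurable hA, ← Measure.real,
      un_real R (T.measurable hA)]
    congr 1
    rw [Measure.real, Measure.real]
    congr 1
    have : T ⁻¹' A ∩ bx R = T ⁻¹' (A ∩ D) := by
      rw [preimage_inter, hTD]
    rw [this, hpre _ (hA.inter hDm)]
  have h2 : (un R).real A = (haar n).real (A ∩ B) / (haar n).real B := un_real R hA
  -- symmetric difference
  have hsd : (haar n).real (D \ B) = (haar n).real (B \ D) := by
    have e1 : (haar n).real (D \ B) + (haar n).real (D ∩ B) = (haar n).real D :=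
      measureReal_sdiff_add_inter hBm (h := hDfin)
    have e2 : (haar n).real (B \ D) + (haar n).real (B ∩ D) = (haar n).real B :=
      measureReal_sdiff_add_inter hDm (h := hBfin)
    have e3 : (haar n).real D = (haar n).real B := by rw [Measure.real, Measure.real, hDB]
    rw [inter_comm B D] at e2
    linarith
  have h3 : (haar n).real (A ∩ D) ≤ (haar n).real (A ∩ B) + (haar n).real (D \ B) := by
    refine le_trans (measureReal_mono ?_ ?_) (measureReal_union_le _ _)
    · intro x hx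
      by_cases hxB : x ∈ B
      · exact Or.inl ⟨hx.1, hxB⟩
      · exact Or.inr ⟨hx.2, hxB⟩
    · refine hfin _ ?_
      intro x hx
      rcases hx with hx | hx
      · exact Or.inl hx.2
      · exact Or.inr hx.1
  have h4 : (haar n).real (A ∩ B) ≤ (haar n).real (A ∩ D) + (haar n).real (B \ D) := by
    refine le_trans (measureReal_mono ?_ ?_) (measureReal_union_le _ _)
    · intro x hx
      by_cases hxB : x ∈ D
      · exact Or.inl ⟨hx.1, hxB⟩
      · exact Or.inr ⟨hx.2, hxB⟩
    · refine hfin _ ?_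
      intro x hx
      rcases hx with hx | hx
      · exact Or.inr hx.2
      · exact Or.inl hx.1
  have h5 : |((un R).map T).real A - (un R).real A| ≤ (haar n).real (D \ B) / (haar n).real B := by
    rw [h1, h2, ← sub_div, abs_div, abs_of_pos hBpos]
    gcongr
    rw [abs_le]
    constructor <;> linarith
  refine h5.trans ?_
  rw [div_le_iff₀ hBpos]
  -- lower bound of haar B
  have h6 : (2:ℝ)⁻¹ ^ n * vb R ≤ (haar n).real B := by
    have := ENNReal.toReal_mono hBfin (le_haar_bx hR)
    rwa [ENNReal.toReal_ofReal (by have := vb_pos R; positivity)] at this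
  -- upper bound of haar (D \ B)
  have h7 : haar n (D \ B) ≤ ENNReal.ofReal ((4:ℝ) ^ n * (((1 + e) ^ (n ^ 2) - 1) * vb R)) := by
    unfold haar
    rw [withDensity_apply _ (hDm.diff hBm)]
    calc ∫⁻ g in D \ B, rho g ≤ ∫⁻ _ in D \ B, ENNReal.ofReal ((4:ℝ) ^ n) := by
          refine setLIntegral_mono measurable_const fun g hg => ?_
          have hg1 : T.symm g ∈ bx R := hg.1
          have hg2 := hdet _ hg1
          rw [T.apply_symm_apply] at hg2
          have := rho_le_of_det (by norm_num : (0:ℝ) < 1 / 4) hg2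
          simpa using this
      _ ≤ ENNReal.ofReal ((4:ℝ) ^ n) * volume (bxc (1 + e) R \ bx R) := by
          rw [setLIntegral_const]
          gcongr
          intro g hg
          have hg1 : T.symm g ∈ bx R := hg
          have hg2 := hbox _ hg1
          rwa [T.apply_symm_apply] at hg2
      _ = ENNReal.ofReal ((4:ℝ) ^ n * (((1 + e) ^ (n ^ 2) - 1) * vb R)) := by
          rw [measure_sdiff ?_ (measurableSet_bx R).nullMeasurableSet ?_, bx_eq_bxc,
            volume_bxc (by linarith), volume_bxc (by norm_num), ← ENNReal.ofReal_sub,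
            ← ENNReal.ofReal_mul (by positivity)]
          · congr 1
            ring
          · have := vb_pos R
            positivity
          · intro g hg i j
            refine (hg i j).trans ?_
            have : (0:ℝ) < (2:ℝ) ^ (-(R i j)) := by positivity
            nlinarith
          · rw [bx_eq_bxc, volume_bxc (by norm_num)]
            exact ENNReal.ofReal_ne_top
  have hpw : (1:ℝ) ≤ (1 + e) ^ (n ^ 2) := one_le_pow₀ (by linarith)
  have h8 : (haar n).real (D \ B) ≤ (4:ℝ) ^ n * (((1 + e) ^ (n ^ 2) - 1) * vb R) := by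
    have := ENNReal.toReal_mono ENNReal.ofReal_ne_top h7
    rwa [ENNReal.toReal_ofReal] at this
    have := vb_pos R
    have h9 : (0:ℝ) ≤ (1 + e) ^ (n ^ 2) - 1 := by linarith
    positivity
  have h10 := one_add_pow_le he0 he1 (n ^ 2)
  have hv := vb_pos R
  calc (haar n).real (D \ B) ≤ (4:ℝ) ^ n * (((1 + e) ^ (n ^ 2) - 1) * vb R) := h8
    _ ≤ (4:ℝ) ^ n * ((2 ^ (n ^ 2) * e) * vb R) := by
        gcongr
        nlinarith
    _ = 8 ^ n * 2 ^ (n ^ 2) * e * ((2:ℝ)⁻¹ ^ n * vb R) := by
        have : (8:ℝ) ^ n = 4 ^ n * 2 ^ n := by rw [← mul_pow]; norm_num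
        rw [this]
        have h2n : (2:ℝ) ^ n * (2:ℝ)⁻¹ ^ n = 1 := by rw [← mul_pow]; simp
        linear_combination - (4 ^ n * 2 ^ n ^ 2 * e * vb R) * h2n
    _ ≤ 8 ^ n * 2 ^ (n ^ 2) * e * (haar n).real B := by gcongr

end Crest.Agent.R014.Nz_323
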