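import Mathlib
import Crest.Agent.R014.Nm3_884
import Crest.Agent.R014.Nz1_323

/-!
R014, block D, leaf NOISE-SLAB MASS (helper884), part 4 (HS): the measure `Hs` on `SL_n(ℝ)`, image
of the Haar measure of `GL_n^+` on `1/2 ≤ det ≤ 2`; bi-invariance, mass of boxes, noise ≤ `Hs`.
-/

set_option autoImplicit false

open MeasureTheory Filter Topology
open Crest.NumberTheoryR.Packets
open scoped ENNReal

namespace Crest.Agent.R014.Nm_884

open Crest.Agent.R014.Ms_667 Crest.Agent.R014.Nd_837 Crest.Agent.R014.Iface_792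
open Crest.Agent.R014.Nz_323 (haar bx bxc Adm un vb rho)

variable {n : ℕ}

/-- matrices with determinant between `1/2` and `2` -/
def Dt (n : ℕ) : Set (Nd_837.Mt n) := {g | 1 / 2 ≤ g.det ∧ g.det ≤ 2}

lemma measurableSet_Dt : MeasurableSet (Dt n) :=
  (measurableSet_le measurable_const Nz_323.measurable_det).inter
    (measurableSet_le Nz_323.measurable_det measurable_const)

/-- inclusion of `SL_n(ℝ)` into the matrices -/
def vl (g : SLR n) : Nd_837.Mt n := g.1

lemma isClosedEmbedding_vl : IsClosedEmbedding (vl (n := n)) := by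
  refine ⟨⟨⟨rfl⟩, Subtype.val_injective⟩, ?_⟩
  have : Set.range (vl (n := n)) = {A : Nd_837.Mt n | A.det = 1} := by
    ext A
    constructor
    · rintro ⟨g, rfl⟩
      exact g.2
    · intro h
      exact ⟨⟨A, h⟩, rfl⟩
  rw [this]
  exact isClosed_eq (by fun_prop) continuous_const

lemma measurable_toSL' : Measurable (toSL : Nd_837.Mt n → SLR n) := by
  have hme : MeasurableEmbedding (vl (n := n)) := isClosedEmbedding_vl.measurableEmbedding
  rw [← hme.measurable_comp_iff]
  have : (vl ∘ (toSL : Nd_837.Mt n → SLR n)) = toSLM := rfl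
  rw [this]
  unfold toSLM
  refine Measurable.ite (measurableSet_lt measurable_const Nz_323.measurable_det) ?_
    measurable_const
  have h1 : Measurable fun g : Nd_837.Mt n => g.det ^ (-(1 : ℝ) / n) :=
    Nz_323.measurable_det.pow_const _
  refine measurable_pi_lambda _ fun i => measurable_pi_lambda _ fun j => ?_
  have : (fun g : Nd_837.Mt n => ((g.det ^ (-(1 : ℝ) / n)) • g) i j)
      = fun g => g.det ^ (-(1 : ℝ) / n) * g i j := by
    funext g; rw [Matrix.smul_apply, smul_eq_mul]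
  rw [this]
  exact h1.mul (Nz_323.measurable_entry i j)

/-- The bi-invariant measure on `SL_n(ℝ)`. -/
noncomputable def Hs (n : ℕ) : Measure (SLR n) := ((haar n).restrict (Dt n)).map toSL

lemma Hs_apply {T : Set (SLR n)} (hT : MeasurableSet T) :
    Hs n T = haar n (toSL ⁻¹' T ∩ Dt n) := by
  unfold Hs
  rw [Measure.map_apply measurable_toSL' hT, Measure.restrict_apply (measurable_toSL' hT)]

/-- a finite measure on bounded sets; in particular `Hs` is s-finite -/
instance : SFinite (haar n) := by unfold haar; infer_instance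

instance : SFinite (Hs n) := by unfold Hs; infer_instance

theorem Hs_mul_left (g : SLR n) : Measure.map (fun h => g * h) (Hs n) = Hs n := by
  ext T hT
  have hm : Measurable fun h : SLR n => g * h := (continuous_const_mul g).measurable
  have hM : Measurable fun m : Nd_837.Mt n => g.1 * m := Nz_323.measurable_mul_left g.1
  have hdet : 0 < g.1.det := by rw [g.2]; norm_num
  rw [Measure.map_apply hm hT, Hs_apply (hm hT), Hs_apply hT]
  conv_rhs => rw [← Nz_323.haar_mul_left hdet]
  rw [Measure.map_apply hM ((measurable_toSL' hT).inter measurableSet_Dt)]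
  congr 1
  ext m
  simp only [Set.mem_inter_iff, Set.mem_preimage, Dt, Set.mem_ofPred_eq, Matrix.det_mul]
  have hd : g.1.det * m.det = m.det := by rw [g.2, one_mul]
  rw [hd]
  constructor
  · rintro ⟨h1, h2⟩
    refine ⟨?_, h2⟩
    have hmpos : 0 < m.det := lt_of_lt_of_le (by norm_num) h2.1
    rw [toSL_mul hdet hmpos, toSL_coe]
    exact h1
  · rintro ⟨h1, h2⟩
    refine ⟨?_, h2⟩
    have hmpos : 0 < m.det := lt_of_lt_of_le (by norm_num) h2.1
    rw [toSL_mul hdet hmpos, toSL_coe] at h1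
    exact h1

theorem Hs_mul_right (g : SLR n) : Measure.map (fun h => h * g) (Hs n) = Hs n := by
  ext T hT
  have hm : Measurable fun h : SLR n => h * g := (continuous_mul_const g).measurable
  have hM : Measurable fun m : Nd_837.Mt n => m * g.1 := Nz_323.measurable_mul_right g.1
  have hdet : 0 < g.1.det := by rw [g.2]; norm_num
  rw [Measure.map_apply hm hT, Hs_apply (hm hT), Hs_apply hT]
  conv_rhs => rw [← Nz_323.haar_mul_right hdet]
  rw [Measure.map_apply hM ((measurable_toSL' hT).inter measurableSet_Dt)]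
  congr 1
  ext m
  simp only [Set.mem_inter_iff, Set.mem_preimage, Dt, Set.mem_ofPred_eq, Matrix.det_mul]
  have hd : m.det * g.1.det = m.det := by rw [g.2, mul_one]
  rw [hd]
  constructor
  · rintro ⟨h1, h2⟩
    refine ⟨?_, h2⟩
    have hmpos : 0 < m.det := lt_of_lt_of_le (by norm_num) h2.1
    rw [toSL_mul hmpos hdet, toSL_coe]
    exact h1
  · rintro ⟨h1, h2⟩
    refine ⟨?_, h2⟩
    have hmpos : 0 < m.det := lt_of_lt_of_le (by norm_num) h2.1
    rw [toSL_mul hmpos hdet, toSL_coe] at h1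
    exact h1

/-- `c = det^{1/n}` lies in `[1/2, 2]`. -/
lemma det_root_mem (hn : 0 < n) {g : Nd_837.Mt n} (hg : g ∈ Dt n) :
    g.det ^ ((1 : ℝ) / n) ∈ Set.Icc (1 / 2 : ℝ) 2 := by
  have hn1 : (1 : ℝ) ≤ n := by exact_mod_cast hn
  have hinv : (1 : ℝ) / n ≤ 1 := by
    rw [div_le_one (by linarith)]; exact hn1
  have hinv0 : (0 : ℝ) ≤ 1 / n := by positivity
  constructor
  · calc (1 / 2 : ℝ) = (1 / 2 : ℝ) ^ (1 : ℝ) := (Real.rpow_one _).symm
      _ ≤ (1 / 2 : ℝ) ^ ((1 : ℝ) / n) :=
          Real.rpow_le_rpow_of_exponent_ge (by norm_num) (by norm_num) hinv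
      _ ≤ g.det ^ ((1 : ℝ) / n) := Real.rpow_le_rpow (by norm_num) hg.1 hinv0
  · calc g.det ^ ((1 : ℝ) / n) ≤ (2 : ℝ) ^ ((1 : ℝ) / n) :=
          Real.rpow_le_rpow (by linarith [hg.1]) hg.2 hinv0
      _ ≤ (2 : ℝ) ^ (1 : ℝ) := Real.rpow_le_rpow_of_exponent_le (by norm_num) hinv
      _ = 2 := Real.rpow_one _

lemma root_smul_toSL {g : Nd_837.Mt n} (hg : 0 < g.det) :
    (g.det ^ ((1 : ℝ) / n)) • (toSL g).1 = g := by
  rw [toSL_val hg, smul_smul, ← Real.rpow_add hg]
  have : (1 : ℝ) / n + -(1 : ℝ) / n = 0 := by ring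
  rw [this, Real.rpow_zero, one_smul]

/-- volume of `Hs` of a bounded set -/
theorem Hs_Ent_le (hn : 0 < n) {B : ℝ} (hB : 0 ≤ B) :
    Hs n (Ent n B) ≤ ENNReal.ofReal (2 ^ n * (2 * (2 * B + 1)) ^ (n ^ 2)) := by
  rw [Hs_apply (measurableSet_Ent B)]
  have hsub : toSL ⁻¹' (Ent n B) ∩ Dt n ⊆ bxc (2 * B + 1) 0 ∩ Dt n := by
    rintro g ⟨h1, h2⟩
    refine ⟨fun i j => ?_, h2⟩
    have hpos : 0 < g.det := lt_of_lt_of_le (by norm_num) h2.1
    have hroot := det_root_mem hn h2
    have e1 : g i j = g.det ^ ((1 : ℝ) / n) * (toSL g).1 i j := by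
      conv_lhs => rw [← root_smul_toSL hpos]
      rw [Matrix.smul_apply, smul_eq_mul]
    have h3 : |g i j| ≤ 2 * B := by
      rw [e1, abs_mul, abs_of_nonneg (by linarith [hroot.1])]
      exact mul_le_mul hroot.2 (h1 i j) (abs_nonneg _) (by norm_num)
    have h4 : |(1 : Matrix (Fin n) (Fin n) ℝ) i j| ≤ 1 := by
      by_cases hij : i = j
      · subst hij; simp
      · rw [Matrix.one_apply_ne hij]; simp
    rw [Matrix.sub_apply]
    have : (2 * B + 1) * (2 : ℝ) ^ (-((0 : Fin n → Fin n → ℝ) i j)) = 2 * B + 1 := by simp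
    rw [this]
    exact (abs_sub _ _).trans (add_le_add h3 h4)
  refine (measure_mono hsub).trans ?_
  unfold haar
  rw [withDensity_apply _ ((Nz_323.measurableSet_bxc _ _).inter measurableSet_Dt)]
  calc ∫⁻ g in bxc (2 * B + 1) 0 ∩ Dt n, rho g
      ≤ ∫⁻ _ in bxc (2 * B + 1) 0 ∩ Dt n, ENNReal.ofReal ((2 : ℝ) ^ n) := by
        refine setLIntegral_mono measurable_const fun g hg => ?_
        have := Nz_323.rho_le_of_det (by norm_num : (0 : ℝ) < 1 / 2) hg.2.1
        simpa using this
    _ ≤ ENNReal.ofReal ((2 : ℝ) ^ n) * volume (bxc (2 * B + 1) (0 : Fin n → Fin n → ℝ)) := by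
        rw [setLIntegral_const]
        gcongr
        exact Set.inter_subset_left
    _ = ENNReal.ofReal (2 ^ n * (2 * (2 * B + 1)) ^ (n ^ 2)) := by
        rw [Nz_323.volume_bxc (by linarith), ← ENNReal.ofReal_mul (by positivity)]
        congr 1
        have : vb (0 : Fin n → Fin n → ℝ) = 2 ^ (n ^ 2) := by
          unfold vb
          simp only [Pi.zero_apply, neg_zero, Real.rpow_zero, mul_one, Finset.prod_const,
            Finset.card_univ, Fintype.card_fin]
          rw [← pow_mul, sq]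
        rw [this, mul_pow 2 (2 * B + 1)]
        ring

/-- the noise law in `SL_n(ℝ)` is at most a multiple of `Hs` on the box. -/
theorem map_un_le (hn : 0 < n) {R : Fin n → Fin n → ℝ} (hR : Adm R) :
    (un R).map toSL ≤ ENNReal.ofReal (2 ^ n * (vb R)⁻¹) • (Hs n).restrict (VB R) := by
  refine Measure.le_iff.2 fun T hT => ?_
  rw [Measure.map_apply measurable_toSL' hT, Measure.smul_apply, Measure.restrict_apply hT,
    smul_eq_mul, Nz_323.un_apply R (measurable_toSL' hT), Hs_apply (hT.inter (measurableSet_VB R))]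
  have h1 : (haar n (bx R))⁻¹ ≤ ENNReal.ofReal (2 ^ n * (vb R)⁻¹) := by
    have h2 := Nz_323.le_haar_bx hR
    have h3 : (haar n (bx R))⁻¹ ≤ (ENNReal.ofReal ((2 : ℝ)⁻¹ ^ n * vb R))⁻¹ :=
      ENNReal.inv_le_inv.2 h2
    refine h3.trans (le_of_eq ?_)
    have hv := Nz_323.vb_pos R
    rw [← ENNReal.ofReal_inv_of_pos (by positivity)]
    congr 1
    rw [mul_inv, inv_pow, inv_inv]
  refine mul_le_mul' h1 (measure_mono ?_)
  rintro g ⟨hgT, hgR⟩
  have hdet := hR g hgR
  have hpos : 0 < g.det := lt_of_lt_of_le (by norm_num) hdet.1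
  refine ⟨⟨hgT, ?_⟩, hdet⟩
  refine ⟨g.det ^ ((1 : ℝ) / n), det_root_mem hn hdet, fun i j => ?_⟩
  rw [root_smul_toSL hpos]
  exact hgR i j

end Crest.Agent.R014.Nm_884
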