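import Mathlib
import Crest.Agent.R014.Nm4_884
import Crest.Agent.R014.Asm2_792
import Crest.Agent.R014.Cell1_433
import Crest.Agent.R014.NS0_373

/-!
R014, block D, leaf NOISE-SLAB MASS (helper884), part 5: the final mass bound for digit words.
-/

set_option autoImplicit false

open MeasureTheory Filter Topology
open Crest.NumberTheoryR.Packets
open scoped ENNReal

namespace Crest.Agent.R014.Nm_884

open Crest.Agent.R014.Ms_667 Crest.Agent.R014.Nd_837 Crest.Agent.R014.Iface_792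
open Crest.Agent.R014.Nz_323 (haar bx bxc Adm un vb)
open Crest.Agent.R014.NS_373 (CC nn vv vlaw rep rho uniC)

variable {n : ℕ}

/-- the bound for the entries of a reduced representative of a point of thickness `r ≤ 1` -/
noncomputable def B0 (n : ℕ) (r : ℝ) : ℝ := n * (2 ^ n / r) ^ (n - 1)

lemma B0_nonneg {r : ℝ} (hr : 0 < r) : 0 ≤ B0 n r := by unfold B0; positivity

/-- thick points have reduced representatives. -/
lemma exists_rep_of_thick {r : ℝ} (hr : 0 < r) (hr1 : r ≤ 1) {x : ModSpace n} (hx : Thick x r) :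
    ∃ g ∈ Ent n (B0 n r), q g = x := by
  obtain ⟨g, rfl⟩ := q_surjective x
  obtain ⟨γ, hγ, h⟩ := Cell_433.exists_short g
  refine ⟨γ * g, fun i j => (h i j).trans ?_, q_mul_left hγ g⟩
  have hmm : r ≤ Cell_433.mm g := by
    rw [Cell_433.le_mm_iff]
    refine ⟨hr1, fun z hz => ?_⟩
    have h1 : q g ∈ thick n r := (Asm2_792.thick_iff _ _).2 hx
    exact h1 g rfl z hz
  have hmp := Cell_433.mm_pos g
  have h3 : (2 : ℝ) ^ n / Cell_433.mm g ≤ 2 ^ n / r := by gcongr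
  unfold B0
  exact mul_le_mul_of_nonneg_left (pow_le_pow_left₀ (by positivity) h3 _) (Nat.cast_nonneg n)

lemma vv_mem_Ent {S : Finset (Fin n)} {s : CC S → ℝ} {B : ℝ} (hB : 1 ≤ B) (hs : ∀ c, |s c| ≤ B) :
    vv S s ∈ Ent n B := by
  intro i j
  rw [NS_373.vv_val, Matrix.add_apply, NS_373.nn_apply]
  split_ifs with h
  · have hne : i ≠ j := fun hij => h.2 (hij ▸ h.1)
    rw [Matrix.one_apply_ne hne, zero_add]
    exact hs _
  · rw [add_zero]
    by_cases hij : i = j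
    · subst hij
      rw [Matrix.one_apply_eq, abs_one]
      exact hB
    · rw [Matrix.one_apply_ne hij, abs_zero]
      linarith

lemma abs_cen_le {b : ℕ} (d : Fin b) : |cen b d| ≤ 1 := by
  have hb : 0 < b := d.pos
  have hbr : (0 : ℝ) < b := by exact_mod_cast hb
  have h1 : ((d : ℕ) : ℝ) + 1 ≤ b := by exact_mod_cast d.isLt
  have h0 : (0 : ℝ) ≤ (d : ℕ) := Nat.cast_nonneg _
  unfold cen
  rw [abs_le]
  constructor
  · have : 0 ≤ (2 * ((d : ℕ) : ℝ) + 1) / b := by positivity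
    linarith
  · have : (2 * ((d : ℕ) : ℝ) + 1) / b ≤ 2 := by
      rw [div_le_iff₀ hbr]
      linarith
    linarith

lemma abs_rep_le {S : Finset (Fin n)} {b : ℕ} (hb : 2 ≤ b) {T : ℕ} (w : Fin T → CC S → Fin b)
    (c : CC S) : |rep w c| ≤ 2 := by
  have hbr : (2 : ℝ) ≤ b := by exact_mod_cast hb
  have hb0 : (0 : ℝ) < b := by linarith
  have hinv : (b : ℝ)⁻¹ ≤ 1 / 2 := by
    rw [inv_eq_one_div]
    exact one_div_le_one_div_of_le (by norm_num) hbr
  unfold rep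
  calc |∑ i : Fin T, ((b : ℝ)⁻¹) ^ (i : ℕ) * cen b (w i c)|
      ≤ ∑ i : Fin T, |((b : ℝ)⁻¹) ^ (i : ℕ) * cen b (w i c)| := Finset.abs_sum_le_sum_abs _ _
    _ ≤ ∑ i : Fin T, (1 / 2 : ℝ) ^ (i : ℕ) := by
        apply Finset.sum_le_sum
        intro i _
        rw [abs_mul, abs_of_nonneg (by positivity)]
        calc ((b : ℝ)⁻¹) ^ (i : ℕ) * |cen b (w i c)| ≤ (1 / 2 : ℝ) ^ (i : ℕ) * 1 := by
              gcongr
              exact abs_cen_le _
          _ = _ := mul_one _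
    _ = ∑ i ∈ Finset.range T, (1 / 2 : ℝ) ^ i := Fin.sum_univ_eq_sum_range (fun i => (1/2 : ℝ) ^ i) T
    _ ≤ 2 := by
        have h := geom_sum_eq (show (1 / 2 : ℝ) ≠ 1 by norm_num) T
        rw [h]
        have : (0 : ℝ) < (1 / 2) ^ T := by positivity
        rw [div_le_iff_of_neg (by norm_num)]
        linarith

lemma vlaw_ae {S : Finset (Fin n)} {b : ℕ} (hb : 2 ≤ b) {T : ℕ} (w : Fin T → CC S → Fin b) :
    ∀ᵐ v ∂(vlaw S b T (rep w)), v ∈ Ent n 3 := by
  have hbr : (2 : ℝ) ≤ b := by exact_mod_cast hb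
  unfold vlaw
  have hm : MeasurableSet {v : SLR n | v ∈ Ent n 3} := measurableSet_Ent 3
  rw [ae_map_iff (NS_373.measurable_vlaw S b T (rep w)).aemeasurable hm]
  have huni : ∀ᵐ x ∂uni, |x| ≤ 1 := by
    unfold uni
    apply Measure.ae_smul_measure
    rw [ae_restrict_iff' measurableSet_Icc]
    exact Filter.Eventually.of_forall fun x hx => abs_le.2 hx
  have hC : ∀ᵐ θ ∂(uniC S), ∀ c, |θ c| ≤ 1 := by
    rw [ae_all_iff]
    intro c
    unfold uniC
    exact (Measure.quasiMeasurePreserving_eval (fun _ : CC S => uni) c).ae huni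
  filter_upwards [hC] with θ hθ
  apply vv_mem_Ent (by norm_num)
  intro c
  have h1 := abs_rep_le hb w c
  have h2 : |(((b : ℝ)⁻¹) ^ T • θ) c| ≤ 1 := by
    rw [Pi.smul_apply, smul_eq_mul, abs_mul, abs_of_nonneg (by positivity)]
    have h3 : ((b : ℝ)⁻¹) ^ T ≤ 1 := by
      apply pow_le_one₀ (by positivity)
      exact inv_le_one_of_one_le₀ (by linarith)
    calc ((b : ℝ)⁻¹) ^ T * |θ c| ≤ 1 * 1 := by
          gcongr
          exact hθ c
      _ = 1 := by norm_num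
  rw [Pi.add_apply]
  refine (abs_add_le _ _).trans ?_
  linarith

/-- the entry bound for `K` -/
noncomputable def KB (n : ℕ) (r : ℝ) : ℝ := n * (n * (B0 n r * 4) * 3)

/-- the reference measure `lam` on the space of lattices -/
noncomputable def lamM (n : ℕ) (r : ℝ) : Measure (ModSpace n) :=
  ((Hs n).restrict (Ent n (KB n r))).map q

lemma lamM_univ_le (hn : 0 < n) {r : ℝ} (hr : 0 < r) :
    lamM n r Set.univ ≤ ENNReal.ofReal (2 ^ n * (2 * (2 * KB n r + 1)) ^ (n ^ 2)) := by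
  unfold lamM
  rw [Measure.map_apply continuous_q.measurable MeasurableSet.univ, Set.preimage_univ,
    Measure.restrict_apply MeasurableSet.univ, Set.univ_inter]
  exact Hs_Ent_le hn (by have := B0_nonneg (n := n) hr; unfold KB; positivity)

lemma isFiniteMeasure_lamM (hn : 0 < n) {r : ℝ} (hr : 0 < r) : IsFiniteMeasure (lamM n r) :=
  ⟨lt_of_le_of_lt (lamM_univ_le hn hr) ENNReal.ofReal_lt_top⟩

/-- **MASS, general form.** -/
theorem mass (hn : 0 < n) (μ : Measure (ModSpace n)) [IsProbabilityMeasure μ] (hμ : AInv μ)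
    {D κ C e η : ℝ} (hD : 1 ≤ D) (he : 0 ≤ e) (hSl : SlabBd μ D κ C e η) (hD16 : 16 ≤ D ^ e) :
    ∃ X' : Set (ModSpace n), MeasurableSet X' ∧ μ X'ᶜ ≤ ENNReal.ofReal (D ^ (-η)) ∧
    ∀ t : Fin n → ℝ, ∀ G : Set (ModSpace n), G = {x | act x (aT t) ∈ X'} ∩
        ({x | Thick (act x (aT t)) (D ^ (-e))} ∩ {x | Thick x (D ^ (-e))}) →
      MeasurableSet G ∧
      μ Gᶜ ≤ ENNReal.ofReal (D ^ (-η)) + 2 * ENNReal.ofReal (D ^ e * (D ^ (-e)) ^ n) ∧
      ∀ S : Finset (Fin n), S.Nonempty → S ≠ Finset.univ →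
      ∀ (R : Fin n → Fin n → ℝ) (c1 W : ℝ), Adm R → (∀ i j, 0 ≤ R i j) →
        (n : ℝ) * 2 ^ (-c1) ≤ 1 / 2 → (∀ i j, c1 ≤ (R + Nd_837.sh t) i j) →
        (∀ i j, (i ∈ S ↔ j ∉ S) → W ≤ (R + Nd_837.sh t) i j) →
        D ^ (-κ) ≤ (8 + 32 * n) * 2 ^ (-W) → (8 + 32 * n) * (2 : ℝ) ^ (-W) ≤ 1 →
      ∀ (b : ℕ), 2 ≤ b → ∀ (T : ℕ) (w : Fin T → CC S → Fin b),
        rho (μ.restrict G) ((un R).map toSL) S b T w ≤
          (((Fintype.card (CC S → Fin b) : ℝ≥0∞)⁻¹) ^ T *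
            (ENNReal.ofReal (2 ^ n * (vb R)⁻¹) *
              ENNReal.ofReal (D ^ (C * e) * ((8 + 32 * n) * 2 ^ (-W))))) • lamM n (D ^ (-e)) := by
  obtain ⟨⟨X', hX'm, hX'μ, hX'⟩, hcusp⟩ := hSl
  have hr0 : 0 < D ^ (-e) := Real.rpow_pos_of_pos (by linarith) _
  have hr1 : D ^ (-e) ≤ 1 := Real.rpow_le_one_of_one_le_of_nonpos hD (by linarith)
  have hmact : ∀ t : Fin n → ℝ, Measurable fun x : ModSpace n => act x (aT t) :=
    fun t => measurable_act (aT t)
  have hth : MeasurableSet {x : ModSpace n | Thick x (D ^ (-e))} :=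
    Asm2_792.measurableSet_thick n hr0
  refine ⟨X', hX'm, hX'μ, ?_⟩
  rintro t G rfl
  have hGm : MeasurableSet ({x | act x (aT t) ∈ X'} ∩
        ({x : ModSpace n | Thick (act x (aT t)) (D ^ (-e))} ∩ {x | Thick x (D ^ (-e))})) :=
    ((hmact t) hX'm).inter (((hmact t) hth).inter hth)
  have hinv : ∀ T : Set (ModSpace n), MeasurableSet T → μ {x | act x (aT t) ∈ T} = μ T := by
    intro T hT
    have h1 := hμ t
    conv_rhs => rw [← h1]
    rw [Measure.map_apply (hmact t) hT]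
    rfl
  refine ⟨hGm, ?_, ?_⟩
  · have hsub : ({x | act x (aT t) ∈ X'} ∩
        ({x : ModSpace n | Thick (act x (aT t)) (D ^ (-e))} ∩ {x | Thick x (D ^ (-e))}))ᶜ
        ⊆ {x | act x (aT t) ∈ X'ᶜ} ∪
          ({x | act x (aT t) ∈ {y : ModSpace n | ¬ Thick y (D ^ (-e))}} ∪
            {x | ¬ Thick x (D ^ (-e))}) := by
      intro x hx
      by_cases h1 : act x (aT t) ∈ X'
      · by_cases h2 : Thick (act x (aT t)) (D ^ (-e))
        · by_cases h3 : Thick x (D ^ (-e))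
          · exact absurd ⟨h1, h2, h3⟩ hx
          · exact Or.inr (Or.inr h3)
        · exact Or.inr (Or.inl h2)
      · exact Or.inl h1
    refine (measure_mono hsub).trans ((measure_union_le _ _).trans ?_)
    rw [hinv X'ᶜ hX'm.compl]
    refine add_le_add hX'μ ((measure_union_le _ _).trans ?_)
    have hthc : MeasurableSet {y : ModSpace n | ¬ Thick y (D ^ (-e))} := hth.compl
    rw [hinv _ hthc, two_mul]
    exact add_le_add (hcusp _ hr0) (hcusp _ hr0)
  · intro S hS hS' R c1 W hAdm hR0 hc1 hR hW hδ0 hδ1 b hb T w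
    set G : Set (ModSpace n) := {x | act x (aT t) ∈ X'} ∩
        ({x : ModSpace n | Thick (act x (aT t)) (D ^ (-e))} ∩ {x | Thick x (D ^ (-e))}) with hG
    have hprobZ : IsProbabilityMeasure ((un R).map toSL) := by
      have := Nz_323.isProb_un hAdm
      exact Measure.isProbabilityMeasure_map measurable_toSL'.aemeasurable
    obtain ⟨s, hs, hqs, hsB⟩ := exists_bdd_section (n := n) (B0 n (D ^ (-e)))
    have hB0 := B0_nonneg (n := n) hr0
    have hmain := fun (B : Set (ModSpace n)) (hB : MeasurableSet B) =>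
      mass_of (Hs n) Hs_mul_left Hs_mul_right μ ((un R).map toSL)
        (ENNReal.ofReal (2 ^ n * (vb R)⁻¹)) (VB R) (measurableSet_VB R) (map_un_le hn hAdm)
        s hs hqs G hGm (Ent n 3) (vlaw S b T (rep w)) (vlaw_ae hb w)
        (Ent n (KB n (D ^ (-e)))) (measurableSet_Ent _)
        (by
          intro x hx g hg v hv
          have h1 : s x ∈ Ent n (B0 n (D ^ (-e))) := hsB x (exists_rep_of_thick hr0 hr1 hx.2.2)
          have h2 := Ent_mul hB0 h1 (VB_subset_Ent hR0 hg)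
          have h3 : (0 : ℝ) ≤ n * (B0 n (D ^ (-e)) * 4) := by positivity
          exact Ent_mul h3 h2 hv)
        (ENNReal.ofReal (D ^ (C * e) * ((8 + 32 * n) * 2 ^ (-W))))
        (fun h v => num_bound μ hμ X' D C e κ S (fun x hx δ h0 h1 => hX' x hx S hS hS' δ h0 h1)
          hD16 R t c1 W hc1 hR hW hδ0 hδ1 G (fun x hx => ⟨hx.1, hx.2.1⟩) s hqs h v) B hB
    unfold rho
    rw [stp_stp, mul_smul]
    refine Measure.le_iff.2 fun B hB => ?_
    rw [Measure.smul_apply, Measure.smul_apply, smul_eq_mul, smul_eq_mul]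
    refine mul_le_mul' le_rfl ?_
    rw [Measure.smul_apply, smul_eq_mul]
    refine (hmain B hB).trans (le_of_eq ?_)
    congr 1
    unfold lamM
    rw [Measure.map_apply continuous_q.measurable hB,
      Measure.restrict_apply (continuous_q.measurable hB)]
    congr 1
    ext h
    simp [and_comm]

/-- the torus element used for the one-sided slab -/
noncomputable def tS (S : Finset (Fin n)) (Tr : ℝ) : Fin n → ℝ :=
  open Classical in fun i => if i ∈ S then -(Tr / 2) else 0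

lemma sh_tS {S : Finset (Fin n)} {R : Fin n → Fin n → ℝ} {c1 Tr : ℝ} (hTr : 0 ≤ Tr)
    (hcr : ∀ c : CC S, Tr + c1 ≤ R c.1.1 c.1.2) (hall : ∀ i j, c1 ≤ R i j) :
    (∀ i j, c1 ≤ (R + Nd_837.sh (tS S Tr)) i j) ∧
      ∀ i j, (i ∈ S ↔ j ∉ S) → Tr / 2 + c1 ≤ (R + Nd_837.sh (tS S Tr)) i j := by
  classical
  have key : ∀ i j, (R + Nd_837.sh (tS S Tr)) i j
      = R i j + ((if i ∈ S then -(Tr / 2) else 0) - (if j ∈ S then -(Tr / 2) else 0)) := by
    intro i j
    simp only [Pi.add_apply, Nd_837.sh, tS]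
  have hcr' : ∀ i j, i ∈ S → j ∉ S → Tr + c1 ≤ R i j := fun i j hi hj => hcr ⟨(i, j), hi, hj⟩
  constructor
  · intro i j
    rw [key]
    have h1 := hall i j
    by_cases hi : i ∈ S <;> by_cases hj : j ∈ S <;> simp only [hi, hj, if_true, if_false]
    · linarith
    · have := hcr' i j hi hj; linarith
    · linarith
    · linarith
  · intro i j hij
    rw [key]
    have h1 := hall i j
    by_cases hi : i ∈ S
    · have hj : j ∉ S := hij.1 hi
      simp only [hi, hj, if_true, if_false]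
      have := hcr' i j hi hj; linarith
    · have hj : j ∈ S := by
        by_contra hj; exact hi (hij.2 hj)
      simp only [hi, hj, if_true, if_false]
      linarith

/-- `(vb R)⁻¹` for a metric which is at most `Tr + U` on the crossing roots and `U` elsewhere. -/
lemma inv_vb_le {S : Finset (Fin n)} {R : Fin n → Fin n → ℝ} {Tr U : ℝ} 
    (hcr : ∀ c : CC S, R c.1.1 c.1.2 ≤ Tr + U)
    (hall : ∀ i j, ¬ (i ∈ S ∧ j ∉ S) → R i j ≤ U) :
    (vb R)⁻¹ ≤ 2 ^ ((n : ℝ) ^ 2 * U) * 2 ^ ((Fintype.card (CC S) : ℝ) * Tr) := by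
  classical
  have e1 : (vb R)⁻¹ = ∏ p : Fin n × Fin n, (2 * (2 : ℝ) ^ (-(R p.1 p.2)))⁻¹ := by
    unfold vb
    rw [← Finset.univ_product_univ, Finset.prod_product, ← Finset.prod_inv_distrib]
    refine Finset.prod_congr rfl fun i _ => ?_
    rw [Finset.prod_inv_distrib]
  have e2 : ∏ p : Fin n × Fin n, (2 * (2 : ℝ) ^ (-(R p.1 p.2)))⁻¹
      ≤ ∏ p : Fin n × Fin n, (2 : ℝ) ^ (U + (if p.1 ∈ S ∧ p.2 ∉ S then Tr else 0)) := by
    refine Finset.prod_le_prod (fun p _ => by positivity) fun p _ => ?_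
    rw [mul_inv, ← Real.rpow_neg (by norm_num), neg_neg]
    have h1 : R p.1 p.2 ≤ U + (if p.1 ∈ S ∧ p.2 ∉ S then Tr else 0) := by
      split_ifs with h
      · have := hcr ⟨p, h⟩
        linarith
      · have := hall p.1 p.2 h
        linarith
    have h2 : (2 : ℝ) ^ (R p.1 p.2) ≤ 2 ^ (U + (if p.1 ∈ S ∧ p.2 ∉ S then Tr else 0)) :=
      Real.rpow_le_rpow_of_exponent_le (by norm_num) h1
    have h3 : (0 : ℝ) < 2 ^ (R p.1 p.2) := by positivity
    linarith
  rw [e1]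
  refine e2.trans (le_of_eq ?_)
  rw [← Real.rpow_sum_of_pos (by norm_num : (0 : ℝ) < 2), ← Real.rpow_add (by norm_num)]
  congr 1
  rw [Finset.sum_add_distrib, Finset.sum_const, Finset.card_univ, Fintype.card_prod,
    Fintype.card_fin, nsmul_eq_mul]
  have e3 : ∑ p : Fin n × Fin n, (if p.1 ∈ S ∧ p.2 ∉ S then Tr else 0)
      = (Fintype.card (CC S) : ℝ) * Tr := by
    rw [Finset.sum_ite, Finset.sum_const, Finset.sum_const_zero, add_zero, nsmul_eq_mul,
      Fintype.card_subtype]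
  rw [e3]
  push_cast
  ring

/-- **MASS, final form.**  `Tr = T log₂ b` is the depth of the words. -/
theorem mass_final (hn : 0 < n) (μ : Measure (ModSpace n)) [IsProbabilityMeasure μ]
    (hμ : AInv μ) {D κ C e η : ℝ} (hD : 1 ≤ D) (he : 0 ≤ e) (hSl : SlabBd μ D κ C e η)
    (hD16 : 16 ≤ D ^ e) {b : ℕ} (hb : 2 ≤ b) {T : ℕ} {Tr : ℝ} (hTr : Tr = T * Real.logb 2 b)
    (S : Finset (Fin n)) (hS : S.Nonempty) (hS' : S ≠ Finset.univ)
    (hδ0 : D ^ (-κ) ≤ (8 + 32 * n) * 2 ^ (-(Tr / 2)))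
    (hδ1 : (8 + 32 * n) * (2 : ℝ) ^ (-(Tr / 2)) ≤ 1) :
    ∃ G : Set (ModSpace n), MeasurableSet G ∧
      μ Gᶜ ≤ ENNReal.ofReal (D ^ (-η)) + 2 * ENNReal.ofReal (D ^ e * (D ^ (-e)) ^ n) ∧
      ∀ (R : Fin n → Fin n → ℝ) (c1 U : ℝ), Adm R → 0 ≤ c1 → (n : ℝ) * 2 ^ (-c1) ≤ 1 / 2 →
        (∀ i j, c1 ≤ R i j) → (∀ c : CC S, Tr + c1 ≤ R c.1.1 c.1.2) →
        (∀ c : CC S, R c.1.1 c.1.2 ≤ Tr + U) → (∀ i j, ¬ (i ∈ S ∧ j ∉ S) → R i j ≤ U) →
      ∀ w : Fin T → CC S → Fin b,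
        rho (μ.restrict G) ((un R).map toSL) S b T w ≤
          ENNReal.ofReal ((2 ^ n * (8 + 32 * n)) * 2 ^ ((n : ℝ) ^ 2 * U) * D ^ (C * e)
            * 2 ^ (-(Tr / 2))) • lamM n (D ^ (-e)) := by
  have hb2 : (2 : ℝ) ≤ b := by exact_mod_cast hb
  have hb0 : (0 : ℝ) < b := by linarith
  have hTr0 : 0 ≤ Tr := by
    rw [hTr]
    exact mul_nonneg (Nat.cast_nonneg _) (Real.logb_nonneg (by norm_num) (by linarith))
  have hbT : (b : ℝ) ^ T = 2 ^ Tr := by
    rw [hTr, mul_comm, Real.rpow_mul (by norm_num), Real.rpow_logb (by norm_num) (by norm_num) hb0,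
      Real.rpow_natCast]
  obtain ⟨X', hX'm, hX'μ, hall⟩ := mass hn μ hμ hD he hSl hD16
  obtain ⟨hGm, hGμ, h⟩ := hall (tS S Tr) _ rfl
  refine ⟨_, hGm, hGμ, ?_⟩
  intro R c1 U hAdm hc10 hc1 hR1 hRcr hRcr' hRall w
  obtain ⟨hs1, hs2⟩ := sh_tS hTr0 hRcr hR1
  have hmain := h S hS hS' R c1 (Tr / 2) hAdm (fun i j => hc10.trans (hR1 i j)) hc1 hs1
    (fun i j hij => by have := hs2 i j hij; linarith) hδ0 hδ1 b hb T w
  refine hmain.trans ?_
  refine Measure.le_iff.2 fun B _ => ?_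
  rw [Measure.smul_apply, Measure.smul_apply, smul_eq_mul, smul_eq_mul]
  refine mul_le_mul' ?_ le_rfl
  have hcard : (Fintype.card (CC S → Fin b) : ℝ≥0∞)
      = ENNReal.ofReal ((b : ℝ) ^ (Fintype.card (CC S))) := by
    rw [Fintype.card_fun, Fintype.card_fin, ENNReal.ofReal_pow hb0.le, ENNReal.ofReal_natCast]
    push_cast
    rfl
  have hDC : 0 ≤ D ^ (C * e) := Real.rpow_nonneg (by linarith) _
  have hvb := Nz_323.vb_pos R
  rw [hcard, ← ENNReal.ofReal_inv_of_pos (by positivity), ← ENNReal.ofReal_pow (by positivity),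
    ← ENNReal.ofReal_mul (by positivity), ← ENNReal.ofReal_mul (by positivity)]
  apply ENNReal.ofReal_le_ofReal
  have hv := inv_vb_le hRcr' hRall
  have hpow : (((b : ℝ) ^ (Fintype.card (CC S)))⁻¹) ^ T
      = (2 ^ ((Fintype.card (CC S) : ℝ) * Tr))⁻¹ := by
    rw [inv_pow, ← pow_mul, mul_comm (Fintype.card (CC S)) T, pow_mul, hbT, ← Real.rpow_natCast,
      ← Real.rpow_mul (by norm_num), mul_comm Tr]
  rw [hpow]
  have hp0 : (0 : ℝ) < 2 ^ ((Fintype.card (CC S) : ℝ) * Tr) := by positivity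
  calc (2 ^ ((Fintype.card (CC S) : ℝ) * Tr))⁻¹ * (2 ^ n * (vb R)⁻¹ *
        (D ^ (C * e) * ((8 + 32 * n) * 2 ^ (-(Tr / 2)))))
      ≤ (2 ^ ((Fintype.card (CC S) : ℝ) * Tr))⁻¹ * (2 ^ n *
        (2 ^ ((n : ℝ) ^ 2 * U) * 2 ^ ((Fintype.card (CC S) : ℝ) * Tr)) *
        (D ^ (C * e) * ((8 + 32 * n) * 2 ^ (-(Tr / 2))))) := by gcongr
    _ = 2 ^ n * (8 + 32 * n) * 2 ^ ((n : ℝ) ^ 2 * U) * D ^ (C * e) * 2 ^ (-(Tr / 2)) := by
        field_simp

end Crest.Agent.R014.Nm_884
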