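import Crest.Agent.R014.StepQ4_870
import Crest.Agent.R014.Nm5_884
import Crest.Agent.R014.NSlab6_373
import Crest.Agent.R014.AsmB2_460
import Crest.Agent.R014.L3b_884

/-!
# Row 14, block D: the base windows (helper373)

`core`: slab_avg + comparison with the spread functions; `base_of`: `Q3f_433.Base` for
`PSr`, `Fr`, window constant `12000`, from (L3).
-/

set_option autoImplicit false

open MeasureTheory Filter Topology
open Crest.NumberTheoryR.Packets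
open Crest.Agent.R014.Iface_792
open Crest.Agent.R014.Nd_837
open Crest.Agent.R014.DSkel_792
open Crest.Agent.R014.NScD_395 Crest.Agent.R014.NScE_395
open Crest.Agent.R014.Ms_667
open Crest.Agent.R014.AsmB_460
open Crest.Agent.R014.AsmB2_460
open Crest.Agent.R014.NScH_395 (c1N noiseFam NC PZ PZ_eq)
open Crest.Agent.R014.NS_373
open Crest.Agent.R014.StepQ_870 (L3St Rs stepq_kapc adm_Rs Rs_ge Rs_cross Rs_le)
open scoped ENNReal

noncomputable section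

namespace Crest.Agent.R014.Base_373

variable {n : ℕ}

/-- sum over the crossing roots -/
theorem sum_CC (S : Finset (Fin n)) (f : Fin n → Fin n → ℝ) :
    ∑ c : CC S, f c.1.1 c.1.2 = ∑ i ∈ S, ∑ j ∈ Sᶜ, f i j := by
  classical
  rw [← Finset.sum_product' S Sᶜ f]
  refine (Finset.sum_subtype (S ×ˢ Sᶜ) (fun p => ?_) (fun p : Fin n × Fin n => f p.1 p.2)).symm
  simp [Finset.mem_product, Finset.mem_compl]

theorem card_CC_le (S : Finset (Fin n)) : (Fintype.card (CC S) : ℝ) ≤ (n : ℝ) ^ 2 := by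
  have h : Fintype.card (CC S) ≤ Fintype.card (Fin n × Fin n) := Fintype.card_subtype_le _
  rw [Fintype.card_prod, Fintype.card_fin] at h
  have : (Fintype.card (CC S) : ℝ) ≤ ((n * n : ℕ) : ℝ) := by exact_mod_cast h
  rw [pow_two]
  exact_mod_cast h

theorem KS_two_le (S : Finset (Fin n)) : KS S 2 ≤ 2 ^ (n ^ 2) := by
  have h : Fintype.card (CC S) ≤ n ^ 2 := by
    have := card_CC_le S
    exact_mod_cast this
  unfold KS
  have h1 : (((2 : ℕ) : ℝ) / 2) = 1 := by norm_num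
  rw [h1, Real.sqrt_one, mul_one, Fintype.card_fun, Fintype.card_fin]
  push_cast
  exact pow_le_pow_right₀ (by norm_num) h

section Core

variable (S : Finset (Fin n)) (μ : Measure (ModSpace n)) [IsProbabilityMeasure μ]
  (κ : Measure (SLR n)) [IsProbabilityMeasure κ]

/-- the bad set of one window. -/
theorem core {T : ℕ} (hT : 0 < T) {G : Set (ModSpace n)} (hG : MeasurableSet G)
    (lam : Measure (ModSpace n)) [IsFiniteMeasure lam] {M : ℝ} (hM : 0 ≤ M)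
    (h : ∀ w, rho (μ.restrict G) κ S 2 T w ≤ ENNReal.ofReal M • lam) {τ : ℝ} (hτ : 0 < τ)
    {c₁ : ℝ} (hc : 0 < c₁) {P : Fin n → Fin n → ℕ → ModSpace n → ℝ}
    (hPm : ∀ i j r, Measurable (P i j r)) (hP0 : ∀ i j r x, 0 ≤ P i j r x)
    (hP2 : ∀ i j r x, P i j r x ≤ 2) {es : ℝ}
    (hq : ∀ (c : CC S) (i : ℕ), i ≤ T →
      ∫ x, |Acv μ (kapc κ S 2 i c) c.ne ((i : ℝ) * Real.logb 2 ((2:ℕ):ℝ)) 2 x -
        P c.1.1 c.1.2 i x| ∂μ ≤ es) {E g : ℝ}
    (hE : τ⁻¹ * (M * lam.real Set.univ) + √τ * Real.exp (KS S 2 * √(T * (c₁ * T))) ≤ E)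
    (hg : μ.real Gᶜ ≤ g) :
    μ.real {x | ∑ r ∈ Finset.range T, ∑ i ∈ S, ∑ j ∈ Sᶜ, P i j r x < c₁ / 2 * T} ≤
      2 * g + 2 * E + 2 * (Fintype.card (CC S) : ℝ) / c₁ * (es + 16 * g) := by
  set A : Set (ModSpace n) :=
    {x | ∑ r ∈ Finset.range T, ∑ i ∈ S, ∑ j ∈ Sᶜ, P i j r x < c₁ / 2 * T} with hA
  have hAm : MeasurableSet A := by
    refine measurableSet_lt ?_ measurable_const
    exact Finset.measurable_fun_sum _ fun r _ => Finset.measurable_fun_sum _ fun i _ =>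
      Finset.measurable_fun_sum _ fun j _ => hPm i j r
  have hTr : (0 : ℝ) < T := by exact_mod_cast hT
  have h1 := slab_avg (b := 2) (by norm_num) S μ κ T hG A lam hM h hτ hc.le
  have hPi : ∀ i j r, Integrable (P i j r) μ := fun i j r =>
    bdd_integrable (hPm i j r) (M := 2) fun x => by
      rw [abs_of_nonneg (hP0 i j r x)]; exact hP2 i j r x
  have hAi : ∀ (c : CC S) (i : ℕ), Integrable (Acv μ (kapc κ S 2 i c) c.ne
      ((i : ℝ) * Real.logb 2 ((2:ℕ):ℝ)) 2) μ := fun c i =>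
    bdd_integrable (measurable_Av _ _) (M := 2) fun x =>
      abs_le.2 ⟨le_trans (by norm_num) (Av_nonneg _ _ _), Av_le _ _ _⟩
  have h2 : ∀ (i : Fin T) (c : CC S),
      ∫ x in A, Acv μ (cv κ (ovl S 2 i c)) c.ne (i * Real.logb 2 ((2:ℕ):ℝ)) 2 x ∂μ ≤
      ∫ x in A, P c.1.1 c.1.2 i x ∂μ + es := by
    intro i c
    have h3 := hq c i i.isLt.le
    have h4 : ∫ x in A, (Acv μ (kapc κ S 2 i c) c.ne ((i : ℝ) * Real.logb 2 ((2:ℕ):ℝ)) 2 x -
        P c.1.1 c.1.2 i x) ∂μ ≤ es := by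
      refine le_trans ?_ (le_trans (setIntegral_le_integral (s := A)
        ((hAi c i).sub (hPi c.1.1 c.1.2 i)).abs
        (Filter.Eventually.of_forall fun x => abs_nonneg _)) h3)
      refine integral_mono ((hAi c i).sub (hPi c.1.1 c.1.2 i)).integrableOn
        ((hAi c i).sub (hPi c.1.1 c.1.2 i)).abs.integrableOn fun x => le_abs_self _
    rw [integral_sub (hAi c i).integrableOn (hPi c.1.1 c.1.2 i).integrableOn] at h4
    linarith
  have h5 : ∑ i : Fin T, ∑ c : CC S, ∫ x in A, P c.1.1 c.1.2 i x ∂μ ≤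
      c₁ / 2 * T * μ.real A := by
    have h6 : ∑ i : Fin T, ∑ c : CC S, ∫ x in A, P c.1.1 c.1.2 i x ∂μ =
        ∫ x in A, ∑ r ∈ Finset.range T, ∑ i ∈ S, ∑ j ∈ Sᶜ, P i j r x ∂μ := by
      rw [integral_finsetSum _ fun r _ => integrable_finsetSum _ fun i _ =>
        integrable_finsetSum _ fun j _ => (hPi i j r).integrableOn]
      rw [Fin.sum_univ_eq_sum_range (fun r => ∑ c : CC S, ∫ x in A, P c.1.1 c.1.2 r x ∂μ) T]
      refine Finset.sum_congr rfl fun r _ => ?_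
      rw [integral_finsetSum _ fun i _ => integrable_finsetSum _ fun j _ =>
        (hPi i j r).integrableOn]
      rw [sum_CC S fun i j => ∫ x in A, P i j r x ∂μ]
      refine Finset.sum_congr rfl fun i _ => ?_
      rw [integral_finsetSum _ fun j _ => (hPi i j r).integrableOn]
    rw [h6]
    have h7 : ∫ x in A, ∑ r ∈ Finset.range T, ∑ i ∈ S, ∑ j ∈ Sᶜ, P i j r x ∂μ ≤
        ∫ x in A, (c₁ / 2 * T) ∂μ := by
      refine setIntegral_mono_on ?_ (integrableOn_const) hAm fun x hx => ?_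
      · exact (integrable_finsetSum _ fun r _ => integrable_finsetSum _ fun i _ =>
          integrable_finsetSum _ fun j _ => (hPi i j r)).integrableOn
      · exact (show _ < _ from hx).le
    refine h7.trans (le_of_eq ?_)
    rw [setIntegral_const, smul_eq_mul, mul_comm]
  have h8 : ∑ i : Fin T, ∑ c : CC S, (∫ x in A, Acv μ (cv κ (ovl S 2 i c)) c.ne
      (i * Real.logb 2 ((2:ℕ):ℝ)) 2 x ∂μ + 16 * μ.real Gᶜ) ≤
      c₁ / 2 * T * μ.real A + T * (Fintype.card (CC S) * (es + 16 * g)) := by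
    calc _ ≤ ∑ i : Fin T, ∑ c : CC S, (∫ x in A, P c.1.1 c.1.2 i x ∂μ + (es + 16 * g)) := by
          refine Finset.sum_le_sum fun i _ => Finset.sum_le_sum fun c _ => ?_
          have := h2 i c
          linarith
      _ = ∑ i : Fin T, ∑ c : CC S, ∫ x in A, P c.1.1 c.1.2 i x ∂μ +
          T * (Fintype.card (CC S) * (es + 16 * g)) := by
          simp only [Finset.sum_add_distrib, Finset.sum_const, Finset.card_univ,
            Fintype.card_fin, nsmul_eq_mul]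
          ring
      _ ≤ _ := by linarith
  have h9 : μ.real A ≤ μ.real (A ∩ G) + g := by
    have : μ.real A ≤ μ.real (A ∩ G) + μ.real Gᶜ := by
      refine le_trans (measureReal_mono (fun x hx => ?_) (measure_ne_top _ _))
        (measureReal_union_le _ _)
      by_cases hxG : x ∈ G
      · exact Or.inl ⟨hx, hxG⟩
      · exact Or.inr hxG
    linarith
  have h10 : c₁ * T * (μ.real (A ∩ G) - E) ≤
      c₁ / 2 * T * μ.real A + T * (Fintype.card (CC S) * (es + 16 * g)) := by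
    refine le_trans ?_ (h1.trans h8)
    refine mul_le_mul_of_nonneg_left ?_ (by positivity)
    linarith
  have h11 : c₁ * (μ.real (A ∩ G) - E) ≤
      c₁ / 2 * μ.real A + (Fintype.card (CC S) * (es + 16 * g)) := by
    have : (T : ℝ) * (c₁ * (μ.real (A ∩ G) - E)) ≤
        T * (c₁ / 2 * μ.real A + (Fintype.card (CC S) * (es + 16 * g))) := by
      linarith
    exact le_of_mul_le_mul_left this hTr
  have h12 : c₁ * μ.real A ≤ c₁ * (2 * g + 2 * E +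
      2 * (Fintype.card (CC S) : ℝ) / c₁ * (es + 16 * g)) := by
    have h13 : c₁ * (2 * (Fintype.card (CC S) : ℝ) / c₁ * (es + 16 * g)) =
        2 * (Fintype.card (CC S) * (es + 16 * g)) := by field_simp
    have h14 : c₁ * μ.real A ≤ c₁ * (μ.real (A ∩ G) + g) := mul_le_mul_of_nonneg_left h9 hc.le
    rw [mul_add, h13]
    nlinarith
  exact le_of_mul_le_mul_left h12 hc

end Core

/-! ### the constants -/

/-- the constant of the mass bound -/
def A0 (n : ℕ) : ℝ :=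
  2 ^ n * (8 + 32 * n) * (2 ^ n * ((50 * (n : ℝ) ^ 3) * 2 ^ (n ^ 2)) ^ (n ^ 2))

theorem A0_nonneg (n : ℕ) : 0 ≤ A0 n := by unfold A0; positivity

theorem lam_real_le (hn : 0 < n) {X : ℝ} (hX : 1 ≤ X) :
    (Nm_884.lamM n X⁻¹).real Set.univ ≤
      2 ^ n * (((50 * (n : ℝ) ^ 3) * 2 ^ (n ^ 2)) ^ (n ^ 2) * X ^ (n ^ 3)) := by
  have hX0 : 0 < X := by linarith
  have hn1 : (1 : ℝ) ≤ n := by exact_mod_cast hn
  have h1 : (Nm_884.lamM n X⁻¹).real Set.univ ≤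
      2 ^ n * (2 * (2 * Nm_884.KB n X⁻¹ + 1)) ^ (n ^ 2) := by
    have h2 : 0 ≤ Nm_884.KB n X⁻¹ := by
      have := Nm_884.B0_nonneg (n := n) (inv_pos.2 hX0)
      unfold Nm_884.KB; positivity
    exact ENNReal.toReal_le_of_le_ofReal (by positivity) (Nm_884.lamM_univ_le hn (inv_pos.2 hX0))
  refine h1.trans (mul_le_mul_of_nonneg_left ?_ (by positivity))
  set Y : ℝ := 2 ^ n * X with hY
  have hY1 : 1 ≤ Y := by
    have : (1 : ℝ) ≤ 2 ^ n := one_le_pow₀ (by norm_num)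
    nlinarith
  have h3 : Nm_884.KB n X⁻¹ = 12 * (n : ℝ) ^ 3 * Y ^ (n - 1) := by
    unfold Nm_884.KB Nm_884.B0
    rw [div_inv_eq_mul]
    ring
  have h4 : Y ^ (n - 1) ≤ Y ^ n := pow_le_pow_right₀ hY1 (Nat.sub_le _ _)
  have h5 : 1 ≤ Y ^ n := one_le_pow₀ hY1
  have hn3 : (1 : ℝ) ≤ (n : ℝ) ^ 3 := one_le_pow₀ hn1
  have h6 : 2 * (2 * Nm_884.KB n X⁻¹ + 1) ≤ 50 * (n : ℝ) ^ 3 * Y ^ n := by
    rw [h3]
    have h7 : (n : ℝ) ^ 3 * Y ^ (n - 1) ≤ (n : ℝ) ^ 3 * Y ^ n :=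
      mul_le_mul_of_nonneg_left h4 (by positivity)
    have h8 : 1 ≤ (n : ℝ) ^ 3 * Y ^ n := by nlinarith
    linarith
  have h9 : 0 ≤ 2 * (2 * Nm_884.KB n X⁻¹ + 1) := by
    rw [h3]; positivity
  refine (pow_le_pow_left₀ h9 h6 (n ^ 2)).trans (le_of_eq ?_)
  rw [hY, mul_pow, mul_pow, mul_pow, mul_pow, mul_pow, mul_pow, ← pow_mul, ← pow_mul, ← pow_mul,
    ← pow_mul, ← pow_mul]
  have e1 : n * (n * n ^ 2) = n ^ 2 * n ^ 2 := by ring
  have e2 : n * n ^ 2 = n ^ 3 := by ring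
  rw [e1, e2]
  ring

theorem mass_le (hn : 0 < n) {D C e u : ℝ} (hD : 1 ≤ D) (he : 0 < e) (hC : 0 ≤ C) (hu : 0 ≤ u)
    (heu : e * Real.log D ≤ u) (T : ℝ) :
    (2 ^ n * (8 + 32 * n)) * 2 ^ ((n : ℝ) ^ 2 * (30 * u)) * D ^ (C * e) * 2 ^ (-(T / 2)) *
      (Nm_884.lamM n (D ^ (-e))).real Set.univ ≤
      A0 n * (Real.exp ((30 * (n : ℝ) ^ 2 + C + (n : ℝ) ^ 3) * u) *
        Real.exp (-(Real.log 2 * (T / 2)))) := by
  have hD0 : 0 < D := by linarith
  have hlog : 0 ≤ Real.log D := Real.log_nonneg hD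
  have hX : 1 ≤ D ^ e := Real.one_le_rpow hD he.le
  have h1 := lam_real_le hn hX
  rw [← Real.rpow_neg hD0.le] at h1
  have h2 : (D ^ e) ^ (n ^ 3) ≤ Real.exp ((n : ℝ) ^ 3 * u) := by
    rw [← Real.rpow_natCast, ← Real.rpow_mul hD0.le, Real.rpow_def_of_pos hD0]
    refine Real.exp_le_exp.2 ?_
    push_cast
    have : (n : ℝ) ^ 3 * (e * Real.log D) ≤ (n : ℝ) ^ 3 * u :=
      mul_le_mul_of_nonneg_left heu (by positivity)
    linarith
  have h3 : D ^ (C * e) ≤ Real.exp (C * u) := by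
    rw [Real.rpow_def_of_pos hD0]
    refine Real.exp_le_exp.2 ?_
    have : C * (e * Real.log D) ≤ C * u := mul_le_mul_of_nonneg_left heu hC
    linarith
  have h4 : (2 : ℝ) ^ ((n : ℝ) ^ 2 * (30 * u)) ≤ Real.exp (30 * (n : ℝ) ^ 2 * u) := by
    rw [Real.rpow_def_of_pos two_pos]
    refine Real.exp_le_exp.2 ?_
    have hl : Real.log 2 ≤ 1 := by
      have := Real.log_two_lt_d9; linarith
    have : Real.log 2 * ((n : ℝ) ^ 2 * (30 * u)) ≤ 1 * ((n : ℝ) ^ 2 * (30 * u)) :=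
      mul_le_mul_of_nonneg_right hl (by positivity)
    linarith
  have h5 : (2 : ℝ) ^ (-(T / 2)) = Real.exp (-(Real.log 2 * (T / 2))) := by
    rw [Real.rpow_def_of_pos two_pos]
    congr 1; ring
  rw [h5]
  calc _ ≤ (2 ^ n * (8 + 32 * n)) * Real.exp (30 * (n : ℝ) ^ 2 * u) * Real.exp (C * u) *
        Real.exp (-(Real.log 2 * (T / 2))) *
        (2 ^ n * (((50 * (n : ℝ) ^ 3) * 2 ^ (n ^ 2)) ^ (n ^ 2) * Real.exp ((n : ℝ) ^ 3 * u))) := by
        have h6 : (Nm_884.lamM n (D ^ (-e))).real Set.univ ≤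
            2 ^ n * (((50 * (n : ℝ) ^ 3) * 2 ^ (n ^ 2)) ^ (n ^ 2) * Real.exp ((n : ℝ) ^ 3 * u)) :=
          h1.trans (by gcongr)
        gcongr
    _ = _ := by
        have : (30 * (n : ℝ) ^ 2 + C + (n : ℝ) ^ 3) * u =
            30 * (n : ℝ) ^ 2 * u + C * u + (n : ℝ) ^ 3 * u := by ring
        rw [this, Real.exp_add, Real.exp_add, A0]
        ring

/-- the error term of `slab_avg`. -/
theorem err_le (hn : 0 < n) (S : Finset (Fin n)) {D C e u K : ℝ} (hD : 1 ≤ D) (he : 0 < e)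
    (hC : 0 ≤ C) (hu : 0 ≤ u) (heu : e * Real.log D ≤ u) (hK : 0 < K) (hKS : KS S 2 ≤ K) {T : ℕ}
    (hT : (30 * (n : ℝ) ^ 2 + C + (n : ℝ) ^ 3) * u ≤ T / 16) :
    (Real.exp (-(Real.log 2 * (T / 8))))⁻¹ *
      ((2 ^ n * (8 + 32 * n)) * 2 ^ ((n : ℝ) ^ 2 * (30 * u)) * D ^ (C * e) * 2 ^ (-((T : ℝ) / 2)) *
        (Nm_884.lamM n (D ^ (-e))).real Set.univ) +
      √(Real.exp (-(Real.log 2 * (T / 8)))) *
        Real.exp (KS S 2 * √(T * ((Real.log 2 / (32 * K)) ^ 2 * T))) ≤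
      (A0 n + 1) * Real.exp (-(Real.log 2 * (T / 32))) := by
  have hT0 : (0 : ℝ) ≤ T := Nat.cast_nonneg _
  have hl : 0 < Real.log 2 := Real.log_pos (by norm_num)
  have hl2 : 1 / 2 ≤ Real.log 2 := by
    have := Real.log_two_gt_d9; linarith
  have h1 := mass_le hn hD he hC hu heu (T : ℝ)
  have h2 : (Real.exp (-(Real.log 2 * (T / 8))))⁻¹ *
      ((2 ^ n * (8 + 32 * n)) * 2 ^ ((n : ℝ) ^ 2 * (30 * u)) * D ^ (C * e) * 2 ^ (-((T : ℝ) / 2)) *
        (Nm_884.lamM n (D ^ (-e))).real Set.univ) ≤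
      A0 n * Real.exp (-(Real.log 2 * (T / 32))) := by
    rw [← Real.exp_neg]
    refine (mul_le_mul_of_nonneg_left h1 (Real.exp_pos _).le).trans ?_
    rw [mul_left_comm, ← Real.exp_add, ← Real.exp_add]
    refine mul_le_mul_of_nonneg_left (Real.exp_le_exp.2 ?_) (A0_nonneg n)
    nlinarith
  have h3 : √(Real.exp (-(Real.log 2 * (T / 8)))) *
      Real.exp (KS S 2 * √(T * ((Real.log 2 / (32 * K)) ^ 2 * T))) ≤
      Real.exp (-(Real.log 2 * (T / 32))) := by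
    rw [← Real.exp_half, ← Real.exp_add]
    refine Real.exp_le_exp.2 ?_
    have h4 : √(T * ((Real.log 2 / (32 * K)) ^ 2 * T)) = Real.log 2 / (32 * K) * T := by
      rw [show (T : ℝ) * ((Real.log 2 / (32 * K)) ^ 2 * T) = (Real.log 2 / (32 * K) * T) ^ 2 by ring]
      exact Real.sqrt_sq (by positivity)
    rw [h4]
    have h5 : KS S 2 * (Real.log 2 / (32 * K) * T) ≤ K * (Real.log 2 / (32 * K) * T) :=
      mul_le_mul_of_nonneg_right hKS (by positivity)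
    have h6 : K * (Real.log 2 / (32 * K) * T) = Real.log 2 * (T / 32) := by
      field_simp
    linarith
  linarith

/-- `Gᶜ` is small. -/
theorem gc_le (hn : 2 ≤ n) {D e η g : ℝ} (he : 0 < e) (hη : 0 < η) (hg : 0 < g)
    (h1 : (3 / g) ^ (1 / η) ≤ D) (h2 : (3 / g) ^ (1 / e) ≤ D) (hD : 1 ≤ D) {μ : Measure (ModSpace n)}
    {G : Set (ModSpace n)}
    (h : μ Gᶜ ≤ ENNReal.ofReal (D ^ (-η)) + 2 * ENNReal.ofReal (D ^ e * (D ^ (-e)) ^ n)) :
    μ.real Gᶜ ≤ g := by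
  have hD0 : 0 < D := by linarith
  have key : ∀ s : ℝ, 0 < s → (3 / g) ^ (1 / s) ≤ D → D ^ (-s) ≤ g / 3 := by
    intro s hs h3
    have h4 : 3 / g ≤ D ^ s := by
      have := Real.rpow_le_rpow (by positivity) h3 hs.le
      rwa [← Real.rpow_mul (by positivity), one_div_mul_cancel hs.ne', Real.rpow_one] at this
    rw [Real.rpow_neg hD0.le]
    calc (D ^ s)⁻¹ ≤ (3 / g)⁻¹ := inv_anti₀ (by positivity) h4
      _ = g / 3 := by rw [inv_div]
  have h3 := key η hη h1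
  have h4 := key e he h2
  have h5 : D ^ e * (D ^ (-e)) ^ n ≤ D ^ (-e) := by
    have h6 : D ^ (-e) ≤ 1 := Real.rpow_le_one_of_one_le_of_nonpos hD (by linarith)
    have h7 : 0 < D ^ (-e) := Real.rpow_pos_of_pos hD0 _
    have h8 : (D ^ (-e)) ^ n ≤ (D ^ (-e)) ^ 2 := pow_le_pow_of_le_one h7.le h6 hn
    have h9 : D ^ e * (D ^ (-e)) ^ 2 = D ^ (-e) := by
      rw [pow_two, ← mul_assoc, ← Real.rpow_add hD0]
      simp
    calc _ ≤ D ^ e * (D ^ (-e)) ^ 2 :=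
          mul_le_mul_of_nonneg_left h8 (Real.rpow_pos_of_pos hD0 _).le
      _ = _ := h9
  have h6 : ENNReal.ofReal (D ^ (-η)) + 2 * ENNReal.ofReal (D ^ e * (D ^ (-e)) ^ n) ≤
      ENNReal.ofReal g := by
    have h7 : (2 : ℝ≥0∞) = ENNReal.ofReal 2 := by simp
    rw [h7, ← ENNReal.ofReal_mul (by norm_num), ← ENNReal.ofReal_add (by positivity) (by positivity)]
    refine ENNReal.ofReal_le_ofReal ?_
    linarith
  exact ENNReal.toReal_le_of_le_ofReal hg.le (h.trans h6)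

theorem two_le_of_proper {S : Finset (Fin n)} (hS : S.Nonempty) (hS' : S ≠ Finset.univ) : 2 ≤ n := by
  obtain ⟨i, hi⟩ := hS
  have h : ∃ j, j ∉ S := by
    by_contra h
    push Not at h
    exact hS' (Finset.eq_univ_iff_forall.2 h)
  obtain ⟨j, hj⟩ := h
  have hij : i ≠ j := fun h => hj (h ▸ hi)
  have h1 := i.isLt
  have h2 := j.isLt
  have h3 : (i : ℕ) ≠ j := fun h => hij (Fin.ext h)
  omega

set_option maxHeartbeats 1000000 in
/-- **BASE WINDOWS**: `Q3f_433.Base` for `PSr`, `Fr`, window constant `12000`. -/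
theorem base_of {C3 : ℝ} (hC3 : 0 ≤ C3) (hL3 : L3St n C3) :
    ∀ κ C : ℝ, 0 < κ → 0 < C → ∃ c₃ : ℝ, 0 < c₃ ∧ ∀ ε₀ δ' : ℝ, 0 < ε₀ → 0 < δ' →
    ∃ (B : Finset ℕ) (η d₀ U C' c' : ℝ) (D₀ : ℝ → ℝ → ℝ), 0 < η ∧ 0 < d₀ ∧ 0 < C' ∧ 0 < c' ∧
    ∀ μ : Measure (ModSpace n), IsProbabilityMeasure μ → AInv μ →
    ∀ u₁ u₂ : ℝ, Reg Fr B η d₀ U μ u₁ u₂ → ∀ e η' D : ℝ, 0 < e → 0 < η' → D₀ e η' ≤ D →
      SlabBd μ D κ C e η' → C' * e * Real.log D ≤ u₁ → u₂ ≤ c' * Real.log D →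
      ∀ w : ℕ, δ' * u₂ ≤ w → (w : ℝ) ≤ u₂ / 12000 →
      ∀ S : Finset (Fin n), S.Nonempty → S ≠ Finset.univ →
        μ.real {x | ∑ r ∈ Finset.range w, ∑ i ∈ S, ∑ j ∈ Sᶜ,
          PSr μ u₁ 2 i j (tz (Pi.single i (r : ℤ)) x) < c₃ * w} ≤ ε₀ := by
  intro κ C hκ hC
  have hlog2 : 0 < Real.log 2 := Real.log_pos (by norm_num)
  have hlog2' : 1 / 2 ≤ Real.log 2 := by
    have := Real.log_two_gt_d9; linarith
  have hlog2'' : Real.log 2 ≤ 1 := by
    have := Real.log_two_lt_d9; linarith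
  set K : ℝ := 2 ^ (n ^ 2) with hK
  have hK0 : 0 < K := by positivity
  set c₁ : ℝ := (Real.log 2 / (32 * K)) ^ 2 with hc₁
  have hc₁0 : 0 < c₁ := by positivity
  refine ⟨c₁ / 2, by positivity, fun ε₀ δ' hε₀ hδ' => ?_⟩
  set N₀ : ℝ := (n : ℝ) ^ 2 with hN₀
  have hN₀0 : 0 ≤ N₀ := by positivity
  set es : ℝ := c₁ * ε₀ / (8 * (N₀ + 1)) with hes
  have hes0 : 0 < es := by positivity
  set g : ℝ := ε₀ / (8 * (1 + 16 * N₀ / c₁)) with hg
  have hg0 : 0 < g := by positivity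
  obtain ⟨η, U, hη, hU, hUc, hq⟩ := stepq_kapc (n := n) hC3 hL3 hes0
  set E₁ : ℝ := 30 * (n : ℝ) ^ 2 + C + (n : ℝ) ^ 3 with hE₁
  have hE₁0 : 0 < E₁ := by positivity
  set m : ℝ := min (ε₀ / (8 * (A0 n + 1))) (1 / (8 + 32 * n)) with hm
  have hA0 := A0_nonneg n
  have hm0 : 0 < m := lt_min (by positivity) (by positivity)
  set W₀ : ℝ := 32 / (Real.log 2 * m) with hW₀
  have hW₀0 : 0 < W₀ := by positivity
  have hW : ∀ W : ℝ, W₀ ≤ W → Real.exp (-(Real.log 2 * (W / 32))) ≤ m := by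
    intro W hW
    have h1 : 1 / m ≤ Real.log 2 * (W / 32) := by
      rw [hW₀, div_le_iff₀ (by positivity)] at hW
      rw [div_le_iff₀ hm0]
      linarith
    have h2 : 1 / m ≤ Real.exp (Real.log 2 * (W / 32)) := by
      have := Real.add_one_le_exp (Real.log 2 * (W / 32)); linarith
    rw [Real.exp_neg]
    calc _ ≤ (1 / m)⁻¹ := inv_anti₀ (by positivity) h2
      _ = m := by rw [one_div, inv_inv]
  refine ⟨{2}, η, min (1 / 100000) (δ' / (16 * E₁)), max U (max (W₀ / δ') n), 1, κ * 12000,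
    fun e η' => max (16 ^ (1 / e)) (max ((3 / g) ^ (1 / η')) ((3 / g) ^ (1 / e))), hη,
    lt_min (by norm_num) (by positivity), one_pos, by positivity, ?_⟩
  intro μ hμp hμ u₁ u₂ hReg e η' D he hη' hD hSl hu₁ hu₂ w hw1 hw2 S hS hS'
  have hn2 : 2 ≤ n := two_le_of_proper hS hS'
  have hn : 0 < n := by omega
  have hn1 : (1 : ℝ) ≤ n := by exact_mod_cast hn
  obtain ⟨hR1, hR2, hR3⟩ := hReg
  have hUu : U ≤ u₁ := (le_max_left _ _).trans hR1
  have hWu : W₀ / δ' ≤ u₁ := ((le_max_left _ _).trans (le_max_right _ _)).trans hR1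
  have hnu : (n : ℝ) ≤ u₁ := ((le_max_right _ _).trans (le_max_right _ _)).trans hR1
  have hu0 : 0 < u₁ := hU.trans_le hUu
  have hu2 : 0 < u₂ := by
    by_contra h
    push Not at h
    have h1 : 0 < min (1 / 100000 : ℝ) (δ' / (16 * E₁)) := lt_min (by norm_num) (by positivity)
    have := mul_nonpos_of_nonneg_of_nonpos h1.le h
    linarith
  have hd1 : u₁ ≤ 1 / 100000 * u₂ :=
    hR2.trans (mul_le_mul_of_nonneg_right (min_le_left _ _) hu2.le)
  have hd2 : u₁ ≤ δ' / (16 * E₁) * u₂ :=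
    hR2.trans (mul_le_mul_of_nonneg_right (min_le_right _ _) hu2.le)
  have hwW : W₀ ≤ w := by
    rw [div_le_iff₀ hδ'] at hWu
    have : δ' * u₁ ≤ δ' * u₂ := mul_le_mul_of_nonneg_left (by linarith) hδ'.le
    linarith
  have hw0 : 0 < w := by
    have : (0 : ℝ) < w := hW₀0.trans_le hwW
    exact_mod_cast this
  have hT : E₁ * u₁ ≤ w / 16 := by
    have h1 : E₁ * u₁ ≤ E₁ * (δ' / (16 * E₁) * u₂) := mul_le_mul_of_nonneg_left hd2 hE₁0.le
    have h2 : E₁ * (δ' / (16 * E₁) * u₂) = δ' * u₂ / 16 := by field_simp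
    linarith
  have h16 : (16 : ℝ) ^ (1 / e) ≤ D := (le_max_left _ _).trans hD
  have hD1 : 1 ≤ D := (Real.one_le_rpow (by norm_num) (by positivity)).trans h16
  have hD0 : 0 < D := by linarith
  have hD16 : 16 ≤ D ^ e := by
    have := Real.rpow_le_rpow (by positivity) h16 he.le
    rwa [← Real.rpow_mul (by norm_num), one_div_mul_cancel he.ne', Real.rpow_one] at this
  have heu : e * Real.log D ≤ u₁ := by linarith
  have hTr : (w : ℝ) = w * Real.logb 2 ((2 : ℕ) : ℝ) := by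
    simp [Real.logb_self_eq_one]
  have h2w : (2 : ℝ) ^ (-((w : ℝ) / 2)) = Real.exp (-(Real.log 2 * (w / 2))) := by
    rw [Real.rpow_def_of_pos two_pos]
    congr 1; ring
  have hδ0 : D ^ (-κ) ≤ (8 + 32 * n) * 2 ^ (-((w : ℝ) / 2)) := by
    have h1 : (w : ℝ) ≤ κ * Real.log D := by
      have : u₂ / 12000 ≤ κ * Real.log D := by
        rw [div_le_iff₀ (by norm_num)]; linarith
      linarith
    have h2 : D ^ (-κ) ≤ Real.exp (-(Real.log 2 * (w / 2))) := by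
      rw [Real.rpow_def_of_pos hD0]
      refine Real.exp_le_exp.2 ?_
      have : Real.log 2 * (w / 2) ≤ 1 * (w : ℝ) := by
        refine mul_le_mul hlog2'' (by linarith [(Nat.cast_nonneg w : (0 : ℝ) ≤ w)]) (by positivity)
          one_pos.le
      linarith
    rw [h2w]
    have h3 := Real.exp_pos (-(Real.log 2 * ((w : ℝ) / 2)))
    nlinarith
  have hδ1 : (8 + 32 * n) * (2 : ℝ) ^ (-((w : ℝ) / 2)) ≤ 1 := by
    rw [h2w]
    have h1 : Real.exp (-(Real.log 2 * ((w : ℝ) / 2))) ≤ 1 / (8 + 32 * n) := by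
      refine le_trans (Real.exp_le_exp.2 ?_) ((hW w hwW).trans (min_le_right _ _))
      have h2 : (w : ℝ) / 32 ≤ w / 2 := by linarith [(Nat.cast_nonneg w : (0 : ℝ) ≤ w)]
      linarith [mul_le_mul_of_nonneg_left h2 hlog2.le]
    rw [le_div_iff₀ (by positivity)] at h1
    linarith
  obtain ⟨G, hGm, hGμ, hGr⟩ := Nm_884.mass_final hn μ hμ hD1 he.le hSl hD16 (le_refl 2) hTr S hS hS'
    hδ0 hδ1
  have hgr : μ.real Gᶜ ≤ g := gc_le hn2 he hη' hg0
    (((le_max_left _ _).trans (le_max_right _ _)).trans hD)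
    (((le_max_right _ _).trans (le_max_right _ _)).trans hD) hD1 hGμ
  have hc1u : c1N n ≤ 5 * u₁ := by linarith
  have hadm : Nz_323.Adm (Rs S u₁ w) := adm_Rs (noiseFam n) S hu0.le (Nat.cast_nonneg w) hc1u
  have hn5 : (n : ℝ) * 2 ^ (-(5 * u₁)) ≤ 1 / 2 := by
    have h1 : 2 * (n : ℝ) ≤ 2 ^ (5 * u₁) := by
      rw [Real.rpow_def_of_pos two_pos]
      have h2 := Real.add_one_le_exp (Real.log 2 * (5 * u₁))
      have h3 : 1 / 2 * (5 * u₁) ≤ Real.log 2 * (5 * u₁) :=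
        mul_le_mul_of_nonneg_right hlog2' (by positivity)
      linarith
    rw [Real.rpow_neg two_pos.le, ← div_eq_mul_inv, div_le_iff₀ (by positivity)]
    linarith
  have hrho := hGr (Rs S u₁ w) (5 * u₁) (30 * u₁) hadm (by linarith) hn5
    (fun i j => Rs_ge hu0.le (Nat.cast_nonneg w) i j) (fun c => (Rs_cross c).ge)
    (fun c => by rw [Rs_cross c]; linarith) (fun i j h => Rs_le hu0.le i j h)
  have hprob : IsProbabilityMeasure (zt (Rs S u₁ (w : ℝ))) := isProb_zt hadm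
  have hfin : IsFiniteMeasure (Nm_884.lamM n (D ^ (-e))) :=
    Nm_884.isFiniteMeasure_lamM hn (Real.rpow_pos_of_pos hD0 _)
  have hU0 : U0 n ≤ u₁ := max_le (by linarith) hu0.le
  have hwin : 2 * (w : ℝ) + 4 * u₁ ≤ u₂ / 3000 := by linarith
  have hcore := core S μ (zt (Rs S u₁ (w : ℝ))) hw0 hGm (Nm_884.lamM n (D ^ (-e)))
    (M := (2 ^ n * (8 + 32 * n)) * 2 ^ ((n : ℝ) ^ 2 * (30 * u₁)) * D ^ (C * e) *
      2 ^ (-((w : ℝ) / 2))) (by positivity) hrho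
    (Real.exp_pos (-(Real.log 2 * ((w : ℝ) / 8)))) hc₁0
    (P := fun i j r x => PSr μ u₁ 2 i j (tz (Pi.single i (r : ℤ)) x))
    (fun i j r => (measurable_psr μ u₁ 2 i j).comp (measurable_tz _))
    (fun i j r x => psr_nonneg μ u₁ 2 i j _) (fun i j r x => psr_le μ u₁ 2 i j _)
    (es := es) (fun c i hi => by
      have h1 := hq μ hμp hμ u₁ u₂ hUu hd1 (nCst_to hR3) S c w i hi hwin
      simp only [psr_eq hU0 (b := 2) (by norm_num)]
      exact h1)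
    (err_le hn S hD1 he hC.le hu0.le heu hK0 (KS_two_le S) hT) hgr
  refine hcore.trans ?_
  have hE : (A0 n + 1) * Real.exp (-(Real.log 2 * ((w : ℝ) / 32))) ≤ ε₀ / 8 := by
    have h1 : Real.exp (-(Real.log 2 * ((w : ℝ) / 32))) ≤ ε₀ / (8 * (A0 n + 1)) :=
      (hW w hwW).trans (min_le_left _ _)
    have h2 := mul_le_mul_of_nonneg_left h1 (by linarith : 0 ≤ A0 n + 1)
    refine h2.trans (le_of_eq ?_)
    field_simp
  have hN := card_CC_le S
  have hNn : (0 : ℝ) ≤ Fintype.card (CC S) := Nat.cast_nonneg _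
  have hA : 2 * (Fintype.card (CC S) : ℝ) / c₁ * (es + 16 * g) ≤ 2 * N₀ / c₁ * (es + 16 * g) := by
    have : 2 * (Fintype.card (CC S) : ℝ) / c₁ ≤ 2 * N₀ / c₁ := by gcongr
    exact mul_le_mul_of_nonneg_right this (by positivity)
  have hB1 : 2 * N₀ / c₁ * es ≤ ε₀ / 4 := by
    have : 2 * N₀ / c₁ * es = ε₀ / 4 * (N₀ / (N₀ + 1)) := by
      rw [hes]; field_simp; ring
    rw [this]
    have h1 : N₀ / (N₀ + 1) ≤ 1 := by rw [div_le_one (by linarith)]; linarith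
    have := mul_le_mul_of_nonneg_left h1 (by positivity : 0 ≤ ε₀ / 4)
    linarith
  have hB2 : 2 * g + 2 * N₀ / c₁ * (16 * g) = ε₀ / 4 := by
    rw [hg]; field_simp; ring
  nlinarith

/-- **BASE WINDOWS**, unconditional. -/
theorem base :
    ∀ κ C : ℝ, 0 < κ → 0 < C → ∃ c₃ : ℝ, 0 < c₃ ∧ ∀ ε₀ δ' : ℝ, 0 < ε₀ → 0 < δ' →
    ∃ (B : Finset ℕ) (η d₀ U C' c' : ℝ) (D₀ : ℝ → ℝ → ℝ), 0 < η ∧ 0 < d₀ ∧ 0 < C' ∧ 0 < c' ∧
    ∀ μ : Measure (ModSpace n), IsProbabilityMeasure μ → AInv μ →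
    ∀ u₁ u₂ : ℝ, Reg Fr B η d₀ U μ u₁ u₂ → ∀ e η' D : ℝ, 0 < e → 0 < η' → D₀ e η' ≤ D →
      SlabBd μ D κ C e η' → C' * e * Real.log D ≤ u₁ → u₂ ≤ c' * Real.log D →
      ∀ w : ℕ, δ' * u₂ ≤ w → (w : ℝ) ≤ u₂ / 12000 →
      ∀ S : Finset (Fin n), S.Nonempty → S ≠ Finset.univ →
        μ.real {x | ∑ r ∈ Finset.range w, ∑ i ∈ S, ∑ j ∈ Sᶜ,
          PSr μ u₁ 2 i j (tz (Pi.single i (r : ℤ)) x) < c₃ * w} ≤ ε₀ :=
  base_of (L3_884.C3_nonneg n) (L3_884.l3st n)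

end Crest.Agent.R014.Base_373
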