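import Mathlib

/-!
# Row 14, block D, noise formalism, section 3 of post 3844 (helper395), part A

Pure arithmetic of "metrics" `R : Fin n → Fin n → ℝ` (diagonal included): negligible / clean
metrics, the model metrics `rho i j`, the pigeonhole over scales and near constancy of the digit
entropy on good metrics.  The digit entropy is an abstract function `f` satisfying `Dig`.
-/

set_option autoImplicit false

open Finset

noncomputable section

namespace Crest.Agent.R014.NScA_395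

variable {n : ℕ}

/-- a metric (diagonal included) -/
abbrev Met (n : ℕ) := Fin n → Fin n → ℝ

/-- the coboundary of `t` -/
def sh (t : Fin n → ℝ) : Met n := fun p q => t p - t q

/-- `R'` is `w`-negligible for `R` -/
def Neg (w : ℝ) (R' R : Met n) : Prop :=
  (∀ i j, R i j + w ≤ R' i j) ∧ (∀ i k j, R i j + w ≤ R' i k + R k j) ∧
    (∀ i k j, R i j + w ≤ R i k + R' k j)

/-- `R` is `((i,j), r, w)`-clean -/
def Clean (i j : Fin n) (r w : ℝ) (R : Met n) : Prop :=
  (∀ k, R k j + w ≤ r + R k i) ∧ (∀ l, R i l + w ≤ r + R j l) ∧ R i j + w ≤ 2 * r + R j i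

theorem Neg.mono {w w' : ℝ} {R' R : Met n} (h : Neg w R' R) (hw : w' ≤ w) : Neg w' R' R :=
  ⟨fun i j => by linarith [h.1 i j], fun i k j => by linarith [h.2.1 i k j],
    fun i k j => by linarith [h.2.2 i k j]⟩

theorem Clean.mono {i j : Fin n} {r w w' : ℝ} {R : Met n} (h : Clean i j r w R) (hw : w' ≤ w) :
    Clean i j r w' R :=
  ⟨fun k => by linarith [h.1 k], fun l => by linarith [h.2.1 l], by linarith [h.2.2]⟩

theorem neg_sh {w : ℝ} {R' R : Met n} {t : Fin n → ℝ} :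
    Neg w (R' + sh t) (R + sh t) ↔ Neg w R' R := by
  unfold Neg sh
  simp only [Pi.add_apply]
  constructor
  · rintro ⟨h1, h2, h3⟩
    exact ⟨fun i j => by linarith [h1 i j], fun i k j => by linarith [h2 i k j],
      fun i k j => by linarith [h3 i k j]⟩
  · rintro ⟨h1, h2, h3⟩
    exact ⟨fun i j => by linarith [h1 i j], fun i k j => by linarith [h2 i k j],
      fun i k j => by linarith [h3 i k j]⟩

theorem clean_sh {i j : Fin n} {r w : ℝ} {R : Met n} {t : Fin n → ℝ} :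
    Clean i j (r + (t i - t j)) w (R + sh t) ↔ Clean i j r w R := by
  unfold Clean sh
  simp only [Pi.add_apply]
  constructor
  · rintro ⟨h1, h2, h3⟩
    exact ⟨fun k => by linarith [h1 k], fun l => by linarith [h2 l], by linarith [h3]⟩
  · rintro ⟨h1, h2, h3⟩
    exact ⟨fun k => by linarith [h1 k], fun l => by linarith [h2 l], by linarith [h3]⟩

theorem clean_sh_ker {i j : Fin n} {r w : ℝ} {R : Met n} {t : Fin n → ℝ} (ht : t i = t j) :
    Clean i j r w (R + sh t) ↔ Clean i j r w R := by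
  have h := clean_sh (i := i) (j := j) (r := r) (w := w) (R := R) (t := t)
  rw [ht, sub_self, add_zero] at h
  exact h

/-- Neg from uniform bounds -/
theorem neg_of_bounds {w a b : ℝ} {R' R : Met n} (h' : ∀ p q, a ≤ R' p q)
    (h0 : ∀ p q, 0 ≤ R p q) (hb : ∀ p q, R p q ≤ b) (hab : b + w ≤ a) : Neg w R' R :=
  ⟨fun i j => by linarith [h' i j, hb i j], fun i k j => by linarith [h' i k, hb i j, h0 k j],
    fun i k j => by linarith [h' k j, hb i j, h0 i k]⟩

/-- the model metric of the root `(i,j)` -/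
def rho (i j : Fin n) : Met n := fun p q =>
  if p = q then 1 / 10 else if p = i ∧ q = j then 1 / 20 else if p = j ∧ q = i then 3 else
    if q = i ∨ p = j then 2 else 1

theorem rho_ge (i j p q : Fin n) : 1 / 20 ≤ rho i j p q := by
  unfold rho; split_ifs <;> norm_num

theorem rho_le (i j p q : Fin n) : rho i j p q ≤ 3 := by
  unfold rho; split_ifs <;> norm_num

theorem rho_diag (i j p : Fin n) : rho i j p p = 1 / 10 := by simp [rho]

theorem rho_ij {i j : Fin n} (hij : i ≠ j) : rho i j i j = 1 / 20 := by simp [rho, hij]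

theorem rho_ji {i j : Fin n} (hij : i ≠ j) : rho i j j i = 3 := by
  simp [rho, hij, hij.symm]

theorem rho_ki {i j k : Fin n} (hki : k ≠ i) (hkj : k ≠ j) : rho i j k i = 2 := by
  simp [rho, hki, hkj]

theorem rho_jl {i j l : Fin n} (hli : l ≠ i) (hlj : l ≠ j) : rho i j j l = 2 := by
  simp only [rho]
  rw [if_neg (Ne.symm hlj), if_neg (by rintro ⟨_, h⟩; exact hlj h),
    if_neg (by rintro ⟨_, h⟩; exact hli h)]
  simp

theorem rho_kj {i j k : Fin n} (hij : i ≠ j) (hki : k ≠ i) (hkj : k ≠ j) : rho i j k j = 1 := by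
  simp only [rho]
  rw [if_neg hkj, if_neg (by rintro ⟨h, _⟩; exact hki h), if_neg (by rintro ⟨h, _⟩; exact hkj h),
    if_neg (by rintro (h | h); exact hij h.symm; exact hkj h)]

theorem rho_il {i j l : Fin n} (hij : i ≠ j) (hli : l ≠ i) (hlj : l ≠ j) : rho i j i l = 1 := by
  simp only [rho]
  rw [if_neg (Ne.symm hli), if_neg (by rintro ⟨_, h⟩; exact hlj h),
    if_neg (by rintro ⟨h, _⟩; exact hij h),
    if_neg (by rintro (h | h); exact hli h; exact hij h)]

theorem smul_ge {u : ℝ} (hu : 0 ≤ u) (i j p q : Fin n) : u / 20 ≤ (u • rho i j) p q := by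
  have := mul_le_mul_of_nonneg_left (rho_ge i j p q) hu
  simp only [Pi.smul_apply, smul_eq_mul]; linarith

theorem smul_le {u : ℝ} (hu : 0 ≤ u) (i j p q : Fin n) : (u • rho i j) p q ≤ 3 * u := by
  have := mul_le_mul_of_nonneg_left (rho_le i j p q) hu
  simp only [Pi.smul_apply, smul_eq_mul]; linarith

theorem clean_rho {i j : Fin n} (hij : i ≠ j) {u : ℝ} (hu : 0 ≤ u) :
    Clean i j 0 (u / 20) (u • rho i j) := by
  refine ⟨fun k => ?_, fun l => ?_, ?_⟩ <;> simp only [Pi.smul_apply, smul_eq_mul]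
  · by_cases hki : k = i
    · subst hki; rw [rho_ij hij, rho_diag]; linarith
    · by_cases hkj : k = j
      · subst hkj; rw [rho_diag, rho_ji hij]; linarith
      · rw [rho_kj hij hki hkj, rho_ki hki hkj]; linarith
  · by_cases hli : l = i
    · subst hli; rw [rho_diag, rho_ji hij]; linarith
    · by_cases hlj : l = j
      · subst hlj; rw [rho_ij hij, rho_diag]; linarith
      · rw [rho_il hij hli hlj, rho_jl hli hlj]; linarith
  · rw [rho_ij hij, rho_ji hij]; linarith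

theorem neg_rho {i j : Fin n} {u u' : ℝ} (hu : 0 ≤ u) (huu : 80 * u ≤ u') :
    Neg u (u' • rho i j) (u • rho i j) :=
  neg_of_bounds (a := u' / 20) (b := 3 * u) (smul_ge (by linarith) i j)
    (fun p q => le_trans (by positivity) (smul_ge hu i j p q)) (smul_le hu i j) (by linarith)

/-- abstract properties (2.1), (2.2) of the digit entropy -/
structure Dig (f : Fin n → Fin n → ℝ → Met n → ℝ) (adm : Met n → Prop) (e : ℝ → ℝ)
    (B c1 : ℝ) : Prop where
  eqv : ∀ i j r R, ∀ t : Fin n → ℝ, adm R → f i j (r + (t i - t j)) (R + sh t) = f i j r R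
  mono : ∀ i j r R R' w, i ≠ j → 1 ≤ w → adm R → adm R' → Clean i j r w R → Clean i j r w R' →
    Neg w R' R → f i j r R' ≤ f i j r R + e w
  lo : ∀ i j r R, adm R → 0 ≤ f i j r R
  hi : ∀ i j r R, adm R → f i j r R ≤ B
  adm_sh : ∀ R t, adm R → adm (R + sh t)
  adm_of : ∀ R, (∀ p q, c1 ≤ R p q) → adm R
  anti : ∀ w w', 1 ≤ w → w ≤ w' → e w' ≤ e w
  e0 : ∀ w, 1 ≤ w → 0 ≤ e w

/-- `R` is `(i,j)`-good with respect to the scales `u1 < u2` -/
def Good (i j : Fin n) (w u1 u2 : ℝ) (R : Met n) : Prop :=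
  Clean i j 0 w R ∧ ∃ t : Fin n → ℝ, t i = t j ∧
    ∀ p q, 3 * u1 + w ≤ (R + sh t) p q ∧ (R + sh t) p q + w ≤ u2 / 20

section
variable {f : Fin n → Fin n → ℝ → Met n → ℝ} {adm : Met n → Prop} {e : ℝ → ℝ} {B c1 : ℝ}

theorem Dig.adm_rho (hD : Dig f adm e B c1) {i j : Fin n} {u : ℝ} (hu : 0 ≤ u)
    (hc : 20 * c1 ≤ u) : adm (u • rho i j) :=
  hD.adm_of _ fun p q => le_trans (by linarith) (smul_ge hu i j p q)

theorem Dig.adm_of_sh (hD : Dig f adm e B c1) {R : Met n} {t : Fin n → ℝ}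
    (h : adm (R + sh t)) : adm R := by
  have := hD.adm_sh _ (-t) h
  have h2 : R + sh t + sh (-t) = R := by
    funext p q; simp only [sh, Pi.add_apply, Pi.neg_apply]; ring
  rwa [h2] at this

theorem Dig.step (hD : Dig f adm e B c1) {i j : Fin n} (hij : i ≠ j) {u u' : ℝ} (hu : 20 ≤ u)
    (hc : 20 * c1 ≤ u) (huu : 80 * u ≤ u') :
    f i j 0 (u' • rho i j) ≤ f i j 0 (u • rho i j) + e (u / 20) := by
  have hu0 : 0 ≤ u := by linarith
  have hu0' : 0 ≤ u' := by linarith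
  refine hD.mono i j 0 _ _ (u / 20) hij (by linarith) (hD.adm_rho hu0 hc)
    (hD.adm_rho hu0' (by linarith)) (clean_rho hij hu0) ?_ ?_
  · exact (clean_rho hij hu0').mono (by linarith)
  · exact (neg_rho hu0 huu).mono (by linarith)

/-- good metrics have nearly the same digit entropy -/
theorem Dig.near_const (hD : Dig f adm e B c1) {i j : Fin n} (hij : i ≠ j) {w u1 u2 η : ℝ}
    {R : Met n} (hw : 1 ≤ w) (hwu : w ≤ u1 / 20) (hc : 20 * c1 ≤ u1)
    (hη : f i j 0 (u1 • rho i j) - f i j 0 (u2 • rho i j) ≤ η) (hR : Good i j w u1 u2 R) :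
    f i j 0 R ≤ f i j 0 (u1 • rho i j) + e w ∧
      f i j 0 (u1 • rho i j) - η - e w ≤ f i j 0 R := by
  obtain ⟨hcl, t, ht, hb⟩ := hR
  have hu1 : 0 ≤ u1 := by linarith
  have hu2 : 0 ≤ u2 := by
    have := hb i i
    linarith [this.1, this.2]
  have hu12 : u1 ≤ u2 := by
    have := hb i i
    linarith [this.1, this.2]
  have hadmt : adm (R + sh t) := by
    refine hD.adm_of _ fun p q => ?_
    have := (hb p q).1
    by_cases h : 0 ≤ c1
    · linarith
    · linarith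
  have hadm : adm R := hD.adm_of_sh hadmt
  have hfe : f i j 0 (R + sh t) = f i j 0 R := by
    have := hD.eqv i j 0 R t hadm
    rwa [ht, sub_self, add_zero] at this
  have hclt : Clean i j 0 w (R + sh t) := (clean_sh_ker ht).2 hcl
  have h1 : f i j 0 (R + sh t) ≤ f i j 0 (u1 • rho i j) + e w := by
    refine hD.mono i j 0 _ _ w hij hw (hD.adm_rho hu1 hc) hadmt
      ((clean_rho hij hu1).mono hwu) hclt ?_
    exact neg_of_bounds (a := 3 * u1 + w) (b := 3 * u1) (fun p q => (hb p q).1)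
      (fun p q => le_trans (by positivity) (smul_ge hu1 i j p q)) (smul_le hu1 i j) le_rfl
  have h2 : f i j 0 (u2 • rho i j) ≤ f i j 0 (R + sh t) + e w := by
    refine hD.mono i j 0 _ _ w hij hw hadmt (hD.adm_rho hu2 (by linarith)) hclt
      ((clean_rho hij hu2).mono (by linarith)) ?_
    exact neg_of_bounds (a := u2 / 20) (b := u2 / 20 - w) (smul_ge hu2 i j)
      (fun p q => by linarith [(hb p q).1]) (fun p q => by linarith [(hb p q).2]) (by linarith)
  rw [hfe] at h1 h2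
  exact ⟨h1, by linarith⟩

/-- at depth `r`: shift by `t` with `t i - t j = -r` -/
theorem Dig.near_const_depth (hD : Dig f adm e B c1) {i j : Fin n} (hij : i ≠ j)
    {w u1 u2 η r : ℝ} {R : Met n} {t : Fin n → ℝ} (ht : t i - t j = -r) (hw : 1 ≤ w)
    (hwu : w ≤ u1 / 20) (hc : 20 * c1 ≤ u1)
    (hη : f i j 0 (u1 • rho i j) - f i j 0 (u2 • rho i j) ≤ η) (hadm : adm R)
    (hR : Good i j w u1 u2 (R + sh t)) :
    f i j r R ≤ f i j 0 (u1 • rho i j) + e w ∧
      f i j 0 (u1 • rho i j) - η - e w ≤ f i j r R := by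
  have h := hD.near_const hij hw hwu hc hη hR
  have h2 := hD.eqv i j r R t hadm
  rw [ht, add_neg_cancel] at h2
  rw [h2] at h
  exact h

end

/-! ### pigeonhole over the scales -/

/-- telescoping bound -/
theorem tele (F : ℝ → ℝ) (u1 u2 : ℕ → ℝ) (e0 : ℝ) (h : ∀ m, F (u1 (m + 1)) ≤ F (u2 m) + e0)
    (N : ℕ) : ∑ m ∈ range N, (F (u1 m) - F (u2 m)) + F (u1 N) ≤ F (u1 0) + N * e0 := by
  induction N with
  | zero => simp
  | succ N ih =>
    rw [sum_range_succ]
    push_cast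
    linarith [h N]

/-- abstract pigeonhole: finitely many nearly monotone bounded functions -/
theorem pigeon {ι : Type*} [DecidableEq ι] (P : Finset ι) (F : ι → ℝ → ℝ) (u1 u2 : ℕ → ℝ) (e0 B η : ℝ)
    (he0 : 0 ≤ e0) (N : ℕ)
    (h : ∀ a ∈ P, ∀ m, F a (u1 (m + 1)) ≤ F a (u2 m) + e0)
    (h' : ∀ a ∈ P, ∀ m, F a (u2 m) ≤ F a (u1 m) + e0)
    (hlo : ∀ a ∈ P, ∀ m, 0 ≤ F a (u1 m)) (hhi : ∀ a ∈ P, F a (u1 0) ≤ B)
    (hN : (P.card : ℝ) * B + N * (2 * P.card * e0) < η * N) :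
    ∃ m < N, ∀ a ∈ P, F a (u1 m) - F a (u2 m) ≤ η := by
  by_contra hcon
  push Not at hcon
  have hsum : ∀ m < N, η - P.card * e0 ≤ ∑ a ∈ P, (F a (u1 m) - F a (u2 m)) := by
    intro m hm
    obtain ⟨a, ha, hlt⟩ := hcon m hm
    have h1 : ∑ b ∈ P.erase a, (-e0) ≤ ∑ b ∈ P.erase a, (F b (u1 m) - F b (u2 m)) :=
      sum_le_sum fun b hb => by linarith [h' b (mem_of_mem_erase hb) m]
    rw [← add_sum_erase P _ ha]
    rw [sum_const, nsmul_eq_mul] at h1
    have h2 : ((P.erase a).card : ℝ) ≤ P.card := by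
      exact_mod_cast card_le_card (erase_subset a P)
    nlinarith
  have h3 : N * (η - P.card * e0) ≤ ∑ m ∈ range N, ∑ a ∈ P, (F a (u1 m) - F a (u2 m)) := by
    have := sum_le_sum (s := range N) (f := fun _ => η - P.card * e0)
      (g := fun m => ∑ a ∈ P, (F a (u1 m) - F a (u2 m))) (fun m hm => hsum m (mem_range.1 hm))
    rwa [sum_const, card_range, nsmul_eq_mul] at this
  rw [sum_comm] at h3
  have h4 : ∑ a ∈ P, ∑ m ∈ range N, (F a (u1 m) - F a (u2 m)) ≤ ∑ a ∈ P, (B + N * e0) :=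
    sum_le_sum fun a ha => by
      have := tele (F a) u1 u2 e0 (h a ha) N
      linarith [hlo a ha N, hhi a ha]
  rw [sum_const, nsmul_eq_mul] at h4
  nlinarith

section
variable {f : Fin n → Fin n → ℝ → Met n → ℝ} {adm : Met n → Prop} {e : ℝ → ℝ} {B c1 : ℝ}

/-- **choice of the scale** `L = A Q ^ m`, `Q = 80 / δ ^ 2`, `m < N` -/
theorem Dig.exists_scale (hD : Dig f adm e B c1) (hB : 0 ≤ B) {δ η A : ℝ} (hδ : 0 < δ) (hδ9 : δ ≤ 1 / 9)
    (N : ℕ) (hA : 20 ≤ δ * A) (hA' : 20 * c1 ≤ δ * A)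
    (hN : (n : ℝ) ^ 2 * B + N * (2 * (n : ℝ) ^ 2 * e (δ * A / 20)) < η * N) :
    ∃ m < N, ∀ i j : Fin n, i ≠ j →
      f i j 0 ((δ * (A * (80 / δ ^ 2) ^ m)) • rho i j) -
        f i j 0 ((A * (80 / δ ^ 2) ^ m / δ) • rho i j) ≤ η := by
  set Q : ℝ := 80 / δ ^ 2 with hQ
  have hδ2 : δ ^ 2 ≤ 1 / 81 := by nlinarith
  have hQ1 : 1 ≤ Q := by
    rw [hQ, le_div_iff₀ (by positivity)]; nlinarith
  have hA0 : 0 < A := by
    by_contra h
    have : δ * A ≤ 0 := mul_nonpos_of_nonneg_of_nonpos hδ.le (not_lt.1 h)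
    linarith
  have hQm : ∀ m : ℕ, 1 ≤ Q ^ m := fun m => one_le_pow₀ hQ1
  set P : Finset (Fin n × Fin n) := univ.filter fun a => a.1 ≠ a.2 with hP
  have hcard : (P.card : ℝ) ≤ (n : ℝ) ^ 2 := by
    have : P.card ≤ n ^ 2 := by
      refine le_trans (card_le_univ P) ?_
      simp [sq]
    exact_mod_cast this
  have he0 : 0 ≤ e (δ * A / 20) := hD.e0 _ (by linarith)
  let u1 : ℕ → ℝ := fun m => δ * (A * Q ^ m)
  let u2 : ℕ → ℝ := fun m => A * Q ^ m / δ
  have hu1 : ∀ m, δ * A ≤ u1 m := fun m => by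
    show δ * A ≤ δ * (A * Q ^ m)
    exact mul_le_mul_of_nonneg_left (le_mul_of_one_le_right hA0.le (hQm m)) hδ.le
  have hu12 : ∀ m, 80 * u1 m ≤ u2 m := fun m => by
    show 80 * (δ * (A * Q ^ m)) ≤ A * Q ^ m / δ
    rw [le_div_iff₀ hδ]
    have : 0 ≤ A * Q ^ m := by positivity
    nlinarith
  have hu21 : ∀ m, 80 * u2 m ≤ u1 (m + 1) := fun m => by
    show 80 * (A * Q ^ m / δ) ≤ δ * (A * Q ^ (m + 1))
    have : δ * (A * Q ^ (m + 1)) = 80 * (A * Q ^ m / δ) := by
      rw [pow_succ, hQ]; field_simp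
    rw [this]
  have k1 : ∀ a ∈ P, ∀ m, f a.1 a.2 0 (u1 (m + 1) • rho a.1 a.2) ≤
      f a.1 a.2 0 (u2 m • rho a.1 a.2) + e (δ * A / 20) := by
    intro a ha m
    have hij : a.1 ≠ a.2 := by simpa [hP] using ha
    have h1 := hu1 m
    have h12 := hu12 m
    have hs := hD.step hij (u := u2 m) (u' := u1 (m + 1)) (by linarith) (by linarith) (hu21 m)
    refine hs.trans ?_
    have := hD.anti (δ * A / 20) (u2 m / 20) (by linarith) (by linarith)
    linarith
  have k2 : ∀ a ∈ P, ∀ m, f a.1 a.2 0 (u2 m • rho a.1 a.2) ≤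
      f a.1 a.2 0 (u1 m • rho a.1 a.2) + e (δ * A / 20) := by
    intro a ha m
    have hij : a.1 ≠ a.2 := by simpa [hP] using ha
    have h1 := hu1 m
    have hs := hD.step hij (u := u1 m) (u' := u2 m) (by linarith) (by linarith) (hu12 m)
    refine hs.trans ?_
    have := hD.anti (δ * A / 20) (u1 m / 20) (by linarith) (by linarith)
    linarith
  have k3 : ∀ a ∈ P, ∀ m, 0 ≤ f a.1 a.2 0 (u1 m • rho a.1 a.2) := by
    intro a ha m
    have h1 := hu1 m
    exact hD.lo _ _ _ _ (hD.adm_rho (by linarith) (by linarith))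
  have k4 : ∀ a ∈ P, f a.1 a.2 0 (u1 0 • rho a.1 a.2) ≤ B := by
    intro a ha
    have h1 := hu1 0
    exact hD.hi _ _ _ _ (hD.adm_rho (by linarith) (by linarith))
  have k5 : (P.card : ℝ) * B + N * (2 * P.card * e (δ * A / 20)) < η * N := by
    refine lt_of_le_of_lt ?_ hN
    gcongr
  obtain ⟨m, hm, h⟩ := pigeon P (fun a u => f a.1 a.2 0 (u • rho a.1 a.2)) u1 u2
    (e (δ * A / 20)) B η he0 N k1 k2 k3 k4 k5
  exact ⟨m, hm, fun i j hij => h (i, j) (by simp [hP, hij])⟩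

end

end Crest.Agent.R014.NScA_395
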