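import Mathlib
import Crest.Agent.R166.Ent_397

/-!
Row 14, block D (noise formalism, section 2 of #3844), helper567: Shannon entropy `H(d | Y)` of a finite
label `d` given an observation `Y` with values in an arbitrary measurable space.

The joint law of `(d, Y)` is a family `ρ : ι → Measure Y` of finite measures, `ρ c = law (Y ; d = c)`.
* `pr ρ c y = P(d = c | Y = y)`, `Hc ρ = H(d | Y)` (homogeneous of degree one in `ρ`);
* `Hc_eq`: `Hc ρ = ∑ c, ∫ -log P(c|y) dρ_c`;
* `Hc_map_le`, `pinsker_map`: data processing with the Pinsker defect;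
* `Hc_prod`, `pr_prod`: independent noise; `Hc_equiv`: measurable relabelling of `Y`.
-/

set_option autoImplicit false

namespace Crest.Agent.R014.Ne1_567

open MeasureTheory Finset
open scoped ENNReal

variable {ι Y Z : Type*} [Fintype ι] [MeasurableSpace Y] [MeasurableSpace Z]

/-- The law of the observation. -/
noncomputable def tot (ρ : ι → Measure Y) : Measure Y := ∑ c, ρ c

/-- `P(d = c | Y = y)`. -/
noncomputable def pr (ρ : ι → Measure Y) (c : ι) (y : Y) : ℝ := ((ρ c).rnDeriv (tot ρ) y).toReal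

/-- `H(d | Y)` in nats. -/
noncomputable def Hc (ρ : ι → Measure Y) : ℝ := ∫ y, ∑ c, Real.negMulLog (pr ρ c y) ∂(tot ρ)

/-- The push forward of the observation. -/
noncomputable def mp (K : Y → Z) (ρ : ι → Measure Y) (c : ι) : Measure Z := (ρ c).map K

instance tot_finite (ρ : ι → Measure Y) [∀ c, IsFiniteMeasure (ρ c)] : IsFiniteMeasure (tot ρ) := by
  unfold tot; infer_instance

instance mp_finite (K : Y → Z) (ρ : ι → Measure Y) [∀ c, IsFiniteMeasure (ρ c)] (c : ι) :
    IsFiniteMeasure (mp K ρ c) := by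
  unfold mp; infer_instance

theorem tot_apply (ρ : ι → Measure Y) (s : Set Y) : tot ρ s = ∑ c, ρ c s := by
  simp [tot, Measure.finsetSum_apply]

theorem le_tot (ρ : ι → Measure Y) (c : ι) : ρ c ≤ tot ρ := by
  refine Measure.le_iff.2 fun s _ => ?_
  rw [tot_apply]
  exact Finset.single_le_sum (f := fun c => ρ c s) (fun _ _ => zero_le) (Finset.mem_univ c)

theorem ac (ρ : ι → Measure Y) (c : ι) : ρ c ≪ tot ρ := Measure.absolutelyContinuous_of_le (le_tot ρ c)

theorem tot_mp {K : Y → Z} (hK : Measurable K) (ρ : ι → Measure Y) :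
    tot (mp K ρ) = (tot ρ).map K := by
  unfold tot mp
  rw [Measure.map_finset_sum hK.aemeasurable]

theorem pr_nonneg (ρ : ι → Measure Y) (c : ι) (y : Y) : 0 ≤ pr ρ c y := ENNReal.toReal_nonneg

theorem measurable_pr (ρ : ι → Measure Y) (c : ι) : Measurable (pr ρ c) :=
  (Measure.measurable_rnDeriv _ _).ennreal_toReal

variable (ρ : ι → Measure Y) [∀ c, IsFiniteMeasure (ρ c)]

theorem sum_rn : ∀ᵐ y ∂(tot ρ), ∑ c, (ρ c).rnDeriv (tot ρ) y = 1 := by
  have h : (fun y => ∑ c, (ρ c).rnDeriv (tot ρ) y) =ᵐ[tot ρ] fun _ => 1 := by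
    refine ae_eq_of_forall_setLIntegral_eq_of_sigmaFinite
      (Finset.measurable_sum _ fun c _ => Measure.measurable_rnDeriv _ _) measurable_const ?_
    intro s hs _
    rw [lintegral_finsetSum _ fun c _ => Measure.measurable_rnDeriv _ _, setLIntegral_const, one_mul,
      tot_apply]
    exact Finset.sum_congr rfl fun c _ => Measure.setLIntegral_rnDeriv (ac ρ c) s
  exact h

theorem sum_pr : ∀ᵐ y ∂(tot ρ), ∑ c, pr ρ c y = 1 := by
  filter_upwards [sum_rn ρ] with y hy
  have h : ∀ c ∈ (Finset.univ : Finset ι), (ρ c).rnDeriv (tot ρ) y ≠ ∞ := fun c hc hne => by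
    have : (ρ c).rnDeriv (tot ρ) y ≤ ∑ c, (ρ c).rnDeriv (tot ρ) y :=
      Finset.single_le_sum (f := fun c => (ρ c).rnDeriv (tot ρ) y) (fun _ _ => zero_le) hc
    rw [hy, hne] at this
    simp at this
  unfold pr
  rw [← ENNReal.toReal_sum h, hy, ENNReal.toReal_one]

theorem pr_le_one (c : ι) : ∀ᵐ y ∂(tot ρ), pr ρ c y ≤ 1 := by
  filter_upwards [sum_pr ρ] with y hy
  rw [← hy]
  exact Finset.single_le_sum (f := fun c => pr ρ c y) (fun _ _ => pr_nonneg ρ _ y) (Finset.mem_univ c)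

theorem integral_pr_mul (c : ι) (f : Y → ℝ) : ∫ y, pr ρ c y * f y ∂(tot ρ) = ∫ y, f y ∂(ρ c) :=
  integral_toReal_rnDeriv_mul (ac ρ c)

theorem integrable_pr_mul_iff (c : ι) (f : Y → ℝ) :
    Integrable (fun y => pr ρ c y * f y) (tot ρ) ↔ Integrable f (ρ c) :=
  integrable_toReal_rnDeriv_mul_iff (ac ρ c)

theorem negMulLog_bound {x : ℝ} (h0 : 0 ≤ x) (h1 : x ≤ 1) : |Real.negMulLog x| ≤ 1 := by
  have h2 : 0 ≤ Real.negMulLog x := Real.negMulLog_nonneg h0 h1
  rw [abs_of_nonneg h2]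
  have := Real.abs_log_mul_self_lt x
  rcases eq_or_lt_of_le h0 with h | h
  · rw [← h]; simp
  · have h3 := this h h1
    unfold Real.negMulLog
    have h4 := le_abs_self (-(Real.log x * x))
    rw [abs_neg] at h4
    nlinarith

theorem integrable_nml (c : ι) : Integrable (fun y => Real.negMulLog (pr ρ c y)) (tot ρ) := by
  refine Integrable.of_bound
    (Real.continuous_negMulLog.measurable.comp (measurable_pr ρ c)).aestronglyMeasurable 1 ?_
  filter_upwards [pr_le_one ρ c] with y hy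
  exact negMulLog_bound (pr_nonneg ρ c y) hy

theorem Hc_eq_sum : Hc ρ = ∑ c, ∫ y, Real.negMulLog (pr ρ c y) ∂(tot ρ) := by
  unfold Hc
  exact integral_finsetSum _ fun c _ => integrable_nml ρ c

theorem integrable_log (c : ι) : Integrable (fun y => -Real.log (pr ρ c y)) (ρ c) := by
  rw [← integrable_pr_mul_iff]
  refine (integrable_nml ρ c).congr (Filter.Eventually.of_forall fun y => ?_)
  simp only [Real.negMulLog]; ring

/-- `H(d | Y) = E[-log P(d | Y)]`. -/
theorem Hc_eq : Hc ρ = ∑ c, ∫ y, -Real.log (pr ρ c y) ∂(ρ c) := by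
  rw [Hc_eq_sum]
  refine Finset.sum_congr rfl fun c _ => ?_
  rw [← integral_pr_mul ρ c]
  refine integral_congr_ae (Filter.Eventually.of_forall fun y => ?_)
  simp only [Real.negMulLog]; ring

theorem Hc_nonneg : 0 ≤ Hc ρ := by
  rw [Hc_eq_sum]
  refine Finset.sum_nonneg fun c _ => integral_nonneg_of_ae ?_
  filter_upwards [pr_le_one ρ c] with y hy
  exact Real.negMulLog_nonneg (pr_nonneg ρ c y) hy

/-- the label has no mass where its conditional probability vanishes. -/
theorem pr_ne_zero (c : ι) : ∀ᵐ y ∂(ρ c), pr ρ c y ≠ 0 := by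
  have h := Measure.rnDeriv_pos (ac ρ c)
  have h2 : ∀ᵐ y ∂(ρ c), (ρ c).rnDeriv (tot ρ) y ≠ ∞ := (ac ρ c).ae_le (Measure.rnDeriv_ne_top _ _)
  filter_upwards [h, h2] with y hy hy2
  exact (ENNReal.toReal_pos hy.ne' hy2).ne'

/-- a property that holds a.e. for `ρ c` holds a.e. for `tot ρ` where `pr ρ c ≠ 0`. -/
theorem ae_of_ae {c : ι} {P : Y → Prop} (h : ∀ᵐ y ∂(ρ c), P y) :
    ∀ᵐ y ∂(tot ρ), pr ρ c y ≠ 0 → P y := by
  have h1 : ρ c = (tot ρ).withDensity ((ρ c).rnDeriv (tot ρ)) := (Measure.withDensity_rnDeriv_eq _ _ (ac ρ c)).symm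
  have h2 : ∀ᵐ y ∂((tot ρ).withDensity ((ρ c).rnDeriv (tot ρ))), P y := by rw [← h1]; exact h
  rw [ae_withDensity_iff (Measure.measurable_rnDeriv _ _)] at h2
  filter_upwards [h2] with y hy hne
  refine hy fun h0 => hne ?_
  simp [pr, h0]

section Map

variable {K : Y → Z} (hK : Measurable K)
include hK

theorem ae_comp {P : Z → Prop} (h : ∀ᵐ z ∂(tot (mp K ρ)), P z) : ∀ᵐ y ∂(tot ρ), P (K y) := by
  rw [tot_mp hK] at h
  exact ae_of_ae_map hK.aemeasurable h

theorem Hc_map_eq : Hc (mp K ρ) = ∑ c, ∫ y, -Real.log (pr (mp K ρ) c (K y)) ∂(ρ c) := by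
  rw [Hc_eq]
  refine Finset.sum_congr rfl fun c _ => ?_
  unfold mp
  rw [integral_map hK.aemeasurable]
  exact (Real.measurable_log.comp (measurable_pr _ c)).neg.aestronglyMeasurable

theorem integrable_log_map (c : ι) :
    Integrable (fun y => -Real.log (pr (mp K ρ) c (K y))) (ρ c) := by
  have h : Integrable (fun z => -Real.log (pr (mp K ρ) c z)) ((ρ c).map K) := integrable_log (mp K ρ) c
  exact (integrable_map_measure
    (Real.measurable_log.comp (measurable_pr _ c)).neg.aestronglyMeasurable hK.aemeasurable).1 h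

/-- The defect of data processing as an average of relative entropies. -/
theorem Hc_sub_eq : Hc (mp K ρ) - Hc ρ =
    ∫ y, ∑ c, pr ρ c y * Real.log (pr ρ c y / pr (mp K ρ) c (K y)) ∂(tot ρ) := by
  have hi1 : ∀ c, Integrable (fun y => pr ρ c y * (-Real.log (pr (mp K ρ) c (K y)))) (tot ρ) :=
    fun c => (integrable_pr_mul_iff ρ c _).2 (integrable_log_map ρ hK c)
  have hi2 : ∀ c, Integrable (fun y => pr ρ c y * (-Real.log (pr ρ c y))) (tot ρ) :=
    fun c => (integrable_pr_mul_iff ρ c _).2 (integrable_log ρ c)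
  rw [Hc_map_eq ρ hK, Hc_eq ρ, ← Finset.sum_sub_distrib]
  have h1 : ∀ c, (∫ y, -Real.log (pr (mp K ρ) c (K y)) ∂(ρ c)) - ∫ y, -Real.log (pr ρ c y) ∂(ρ c) =
      ∫ y, (pr ρ c y * (-Real.log (pr (mp K ρ) c (K y))) - pr ρ c y * (-Real.log (pr ρ c y))) ∂(tot ρ) := by
    intro c
    rw [integral_sub (hi1 c) (hi2 c), integral_pr_mul, integral_pr_mul]
  have h2 := integral_finsetSum (μ := tot ρ) Finset.univ
    (f := fun c y => pr ρ c y * (-Real.log (pr (mp K ρ) c (K y))) - pr ρ c y * (-Real.log (pr ρ c y)))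
    (fun c _ => (hi1 c).sub (hi2 c))
  rw [Finset.sum_congr rfl fun c _ => h1 c, ← h2]
  have hne : ∀ c, ∀ᵐ y ∂(tot ρ), pr ρ c y ≠ 0 → pr (mp K ρ) c (K y) ≠ 0 := by
    intro c
    refine ae_of_ae ρ ?_
    have := pr_ne_zero (mp K ρ) c
    exact ae_of_ae_map (μ := ρ c) hK.aemeasurable this
  refine integral_congr_ae ?_
  filter_upwards [ae_all_iff.2 hne] with y hy
  refine Finset.sum_congr rfl fun c _ => ?_
  rcases eq_or_ne (pr ρ c y) 0 with h0 | h0
  · simp [h0]
  · rw [Real.log_div h0 (hy c h0)]; ring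

theorem integrable_defect : Integrable
    (fun y => ∑ c, pr ρ c y * Real.log (pr ρ c y / pr (mp K ρ) c (K y))) (tot ρ) := by
  refine integrable_finsetSum _ fun c _ => ?_
  have hi1 : Integrable (fun y => pr ρ c y * (-Real.log (pr (mp K ρ) c (K y)))) (tot ρ) :=
    (integrable_pr_mul_iff ρ c _).2 (integrable_log_map ρ hK c)
  have hi2 : Integrable (fun y => pr ρ c y * (-Real.log (pr ρ c y))) (tot ρ) :=
    (integrable_pr_mul_iff ρ c _).2 (integrable_log ρ c)
  have hne : ∀ᵐ y ∂(tot ρ), pr ρ c y ≠ 0 → pr (mp K ρ) c (K y) ≠ 0 := by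
    refine ae_of_ae ρ ?_
    exact ae_of_ae_map (μ := ρ c) hK.aemeasurable (pr_ne_zero (mp K ρ) c)
  refine (hi1.sub hi2).congr ?_
  filter_upwards [hne] with y hy
  rcases eq_or_ne (pr ρ c y) 0 with h0 | h0
  · simp [h0]
  · simp only [Pi.sub_apply]
    rw [Real.log_div h0 (hy h0)]; ring

theorem defect_ge : ∀ᵐ y ∂(tot ρ), (∑ c, |pr ρ c y - pr (mp K ρ) c (K y)|) ^ 2 ≤
    4 * ∑ c, pr ρ c y * Real.log (pr ρ c y / pr (mp K ρ) c (K y)) := by
  have hne : ∀ c, ∀ᵐ y ∂(tot ρ), pr ρ c y ≠ 0 → pr (mp K ρ) c (K y) ≠ 0 := by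
    intro c
    refine ae_of_ae ρ ?_
    exact ae_of_ae_map (μ := ρ c) hK.aemeasurable (pr_ne_zero (mp K ρ) c)
  filter_upwards [ae_all_iff.2 hne, sum_pr ρ, ae_comp ρ hK (sum_pr (mp K ρ))] with y h1 h2 h3
  exact R166.Ent397.pinsker _ _ (fun c => pr_nonneg ρ c y) (fun c => pr_nonneg _ c _) h1 h2 h3

/-- Conditional Pinsker inequality: if observing `K Y` instead of `Y` loses little information, the
conditional laws are close. -/
theorem pinsker_map : ∫ y, (∑ c, |pr ρ c y - pr (mp K ρ) c (K y)|) ^ 2 ∂(tot ρ) ≤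
    4 * (Hc (mp K ρ) - Hc ρ) := by
  rw [Hc_sub_eq ρ hK, ← integral_const_mul]
  refine integral_mono_of_nonneg (Filter.Eventually.of_forall fun y => sq_nonneg _)
    ((integrable_defect ρ hK).const_mul 4) (defect_ge ρ hK)

/-- Data processing. -/
theorem Hc_le_map : Hc ρ ≤ Hc (mp K ρ) := by
  have h1 := pinsker_map ρ hK
  have h2 : 0 ≤ ∫ y, (∑ c, |pr ρ c y - pr (mp K ρ) c (K y)|) ^ 2 ∂(tot ρ) :=
    integral_nonneg fun y => sq_nonneg _
  linarith

end Map

/-- the total mass. -/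
theorem tot_real_univ : (tot ρ).real Set.univ = ∑ c, (ρ c).real Set.univ := by
  unfold Measure.real
  rw [tot_apply, ENNReal.toReal_sum fun c _ => measure_ne_top _ _]

/-- `H(d | Y) ≤ mass * log (number of labels)`. -/
theorem Hc_le_log [Nonempty ι] : Hc ρ ≤ (tot ρ).real Set.univ * Real.log (Fintype.card ι) := by
  have hb : ∀ᵐ y ∂(tot ρ), ∑ c, Real.negMulLog (pr ρ c y) ≤ Real.log (Fintype.card ι) := by
    filter_upwards [sum_pr ρ] with y hy
    have hcard : (0 : ℝ) < Fintype.card ι := by exact_mod_cast Fintype.card_pos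
    have h := R166.Ent397.gibbs (fun c => pr ρ c y) (fun _ => (Fintype.card ι : ℝ)⁻¹)
      (fun c => pr_nonneg ρ c y) (fun _ => by positivity) (fun _ _ => by positivity) (by
        rw [hy]; simp [Finset.sum_const, Finset.card_univ])
    have h2 : ∀ c, pr ρ c y * Real.log (pr ρ c y / (Fintype.card ι : ℝ)⁻¹) =
        -Real.negMulLog (pr ρ c y) + pr ρ c y * Real.log (Fintype.card ι) := by
      intro c
      rcases eq_or_ne (pr ρ c y) 0 with h0 | h0
      · simp [h0]
      · rw [div_inv_eq_mul, Real.log_mul h0 hcard.ne']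
        simp only [Real.negMulLog]; ring
    rw [Finset.sum_congr rfl fun c _ => h2 c, Finset.sum_add_distrib, ← Finset.sum_mul, hy,
      Finset.sum_neg_distrib] at h
    linarith
  unfold Hc
  calc ∫ y, ∑ c, Real.negMulLog (pr ρ c y) ∂(tot ρ) ≤ ∫ _, Real.log (Fintype.card ι) ∂(tot ρ) :=
        integral_mono_ae (integrable_finsetSum _ fun c _ => integrable_nml ρ c)
          (integrable_const _) hb
    _ = _ := by simp [integral_const, smul_eq_mul]

section Equiv

/-- Relabelling of the observation. -/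
theorem Hc_equiv (e : Y ≃ᵐ Z) : Hc (mp e ρ) = Hc ρ := by
  refine le_antisymm ?_ (Hc_le_map ρ e.measurable)
  have h := Hc_le_map (mp e ρ) e.symm.measurable
  have h2 : mp e.symm (mp e ρ) = ρ := by
    funext c
    simp [mp, Measure.map_map e.symm.measurable e.measurable]
  rwa [h2] at h

end Equiv

section Prod

variable (ζ : Measure Z) [IsProbabilityMeasure ζ]

/-- the observation together with an independent noise. -/
noncomputable def pd (ρ : ι → Measure Y) (ζ : Measure Z) (c : ι) : Measure (Y × Z) := (ρ c).prod ζ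

instance pd_finite (c : ι) : IsFiniteMeasure (pd ρ ζ c) := by unfold pd; infer_instance

theorem tot_pd : tot (pd ρ ζ) = (tot ρ).prod ζ := by
  unfold tot pd
  classical
  have : ∀ s : Finset ι, ∑ c ∈ s, (ρ c).prod ζ = (∑ c ∈ s, ρ c).prod ζ := by
    intro s
    induction s using Finset.induction_on with
    | empty => simp
    | insert a s ha ih => rw [Finset.sum_insert ha, Finset.sum_insert ha, ih, Measure.add_prod]
  exact this _

theorem pr_pd (c : ι) : pr (pd ρ ζ) c =ᵐ[tot (pd ρ ζ)] fun y => pr ρ c y.1 := by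
  have h1 : pd ρ ζ c = (tot (pd ρ ζ)).withDensity (fun y => (ρ c).rnDeriv (tot ρ) y.1) := by
    rw [tot_pd, ← prod_withDensity_left (Measure.measurable_rnDeriv _ _),
      Measure.withDensity_rnDeriv_eq _ _ (ac ρ c)]
    rfl
  have h2 := Measure.rnDeriv_withDensity (tot (pd ρ ζ))
    ((Measure.measurable_rnDeriv (ρ c) (tot ρ)).comp (measurable_fst (α := Y) (β := Z)))
  have h3 : (pd ρ ζ c).rnDeriv (tot (pd ρ ζ)) =ᵐ[tot (pd ρ ζ)]
      fun y => (ρ c).rnDeriv (tot ρ) y.1 := by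
    have h4 : (pd ρ ζ c).rnDeriv (tot (pd ρ ζ)) = ((tot (pd ρ ζ)).withDensity
      (fun y => (ρ c).rnDeriv (tot ρ) y.1)).rnDeriv (tot (pd ρ ζ)) := by
      congr 1
    rw [h4]
    exact h2
  filter_upwards [h3] with y hy
  simp only [pr, hy]

theorem Hc_pd : Hc (pd ρ ζ) = Hc ρ := by
  have h1 : Hc (pd ρ ζ) = ∫ y, ∑ c, Real.negMulLog (pr ρ c y.1) ∂((tot ρ).prod ζ) := by
    unfold Hc
    rw [← tot_pd]
    refine integral_congr_ae ?_
    filter_upwards [ae_all_iff.2 (pr_pd ρ ζ)] with y hy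
    exact Finset.sum_congr rfl fun c _ => by rw [hy c]
  rw [h1]
  unfold Hc
  have h2 := integral_fun_fst (μ := tot ρ) (ν := ζ) (fun y => ∑ c, Real.negMulLog (pr ρ c y))
  rw [h2]
  simp

/-- the noisy observation `K (Y, noise)`. -/
noncomputable def nz {W : Type*} [MeasurableSpace W] (ρ : ι → Measure Y) (ζ : Measure Z)
    (K : Y × Z → W) (c : ι) : Measure W := ((ρ c).prod ζ).map K

theorem nz_eq {W : Type*} [MeasurableSpace W] (K : Y × Z → W) : nz ρ ζ K = mp K (pd ρ ζ) := rfl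

instance nz_finite {W : Type*} [MeasurableSpace W] (K : Y × Z → W) (c : ι) :
    IsFiniteMeasure (nz ρ ζ K c) := by unfold nz; infer_instance

/-- Data processing for noisy observations. -/
theorem Hc_le_nz {W : Type*} [MeasurableSpace W] {K : Y × Z → W} (hK : Measurable K) :
    Hc ρ ≤ Hc (nz ρ ζ K) := by
  rw [← Hc_pd ρ ζ, nz_eq]
  exact Hc_le_map _ hK

/-- Conditional Pinsker for noisy observations. -/
theorem pinsker_nz {W : Type*} [MeasurableSpace W] {K : Y × Z → W} (hK : Measurable K) :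
    ∫ y, (∑ c, |pr ρ c y.1 - pr (nz ρ ζ K) c (K y)|) ^ 2 ∂((tot ρ).prod ζ) ≤
      4 * (Hc (nz ρ ζ K) - Hc ρ) := by
  have h := pinsker_map (pd ρ ζ) hK
  rw [Hc_pd, ← nz_eq] at h
  refine le_trans (le_of_eq ?_) h
  rw [← tot_pd]
  refine integral_congr_ae ?_
  filter_upwards [ae_all_iff.2 (pr_pd ρ ζ)] with y hy
  congr 1
  exact Finset.sum_congr rfl fun c _ => by rw [hy c]

end Prod

end Crest.Agent.R014.Ne1_567
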