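import Mathlib
import Crest.Agent.R014.Ne1_567

/-!
Row 14, block D (noise formalism), helper567: conditional entropy, part 2.
* `Hc_comp`: relabelling; `Hc_chain`, `Hc_chain'`: chain rule; `du`, `Hc_du`, `pr_du`: observing a further
  label; `Hc_cond_le`, `pinsker_cond`; `Hc_lab_le`: function of the label;
* `Hc_le_gibbs`: Gibbs inequality with an arbitrary prediction kernel;
* `Hc_add_le`, `Hc_le_of_tv`: concavity and continuity in total variation; `pv`, `integral_abs_pv_le`.
-/

set_option autoImplicit false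

namespace Crest.Agent.R014.Ne2_567

open MeasureTheory Finset
open scoped ENNReal
open Crest.Agent.R014.Ne1_567

variable {ι κ Y Z : Type*} [Fintype ι] [Fintype κ] [MeasurableSpace Y] [MeasurableSpace Z]

theorem rn_of_eq {μ ν : Measure Y} [SigmaFinite ν] {f : Y → ℝ≥0∞} (hf : Measurable f)
    (h : μ = ν.withDensity f) : μ.rnDeriv ν =ᵐ[ν] f := by
  subst h; exact Measure.rnDeriv_withDensity ν hf

section Relabel

variable {ι' : Type*} [Fintype ι']

theorem tot_comp (e : ι' ≃ ι) (ρ : ι → Measure Y) : tot (fun c => ρ (e c)) = tot ρ := by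
  unfold tot; exact Equiv.sum_comp e ρ

theorem pr_comp (e : ι' ≃ ι) (ρ : ι → Measure Y) (c : ι') (y : Y) :
    pr (fun c => ρ (e c)) c y = pr ρ (e c) y := by
  unfold pr; rw [tot_comp]

/-- Relabelling. -/
theorem Hc_comp (e : ι' ≃ ι) (ρ : ι → Measure Y) : Hc (fun c => ρ (e c)) = Hc ρ := by
  unfold Hc; rw [tot_comp]; congr 1; funext y; simp_rw [pr_comp]
  exact Equiv.sum_comp e (fun c => Real.negMulLog (pr ρ c y))

end Relabel

section Chain

/-- marginal law of the second label -/
noncomputable def ms (w : ι × κ → Measure Y) (k : κ) : Measure Y := ∑ c, w (c, k)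

/-- marginal law of the first label -/
noncomputable def mf (w : ι × κ → Measure Y) (c : ι) : Measure Y := ∑ k, w (c, k)

theorem ms_eq_tot (w : ι × κ → Measure Y) (k : κ) : ms w k = tot (fun c => w (c, k)) := rfl

theorem mf_eq_tot (w : ι × κ → Measure Y) (c : ι) : mf w c = tot (fun k => w (c, k)) := rfl

theorem tot_ms (w : ι × κ → Measure Y) : tot (ms w) = tot w := by
  unfold tot ms; rw [Fintype.sum_prod_type_right]

theorem tot_mf (w : ι × κ → Measure Y) : tot (mf w) = tot w := by
  unfold tot mf; rw [Fintype.sum_prod_type]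

variable (w : ι × κ → Measure Y) [∀ p, IsFiniteMeasure (w p)]

instance ms_finite (k : κ) : IsFiniteMeasure (ms w k) := by unfold ms; infer_instance
instance mf_finite (c : ι) : IsFiniteMeasure (mf w c) := by unfold mf; infer_instance

theorem pr_chain (c : ι) (k : κ) :
    ∀ᵐ y ∂(tot w), pr w (c, k) y = pr (fun c => w (c, k)) c y * pr (ms w) k y := by
  have h := Measure.rnDeriv_mul_rnDeriv (κ := tot w) (ac (fun c => w (c, k)) c)
  filter_upwards [h] with y hy
  unfold pr
  rw [← hy, Pi.mul_apply, ENNReal.toReal_mul, tot_ms]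
  rfl

theorem le_ms (c : ι) (k : κ) : w (c, k) ≤ ms w k := le_tot (fun c => w (c, k)) c

/-- **Chain rule**. `H(d, e | Y) = H(e | Y) + H(d | Y, e)`. -/
theorem Hc_chain : Hc w = Hc (ms w) + ∑ k, Hc (fun c => w (c, k)) := by
  have hI1 : ∀ c k, Integrable (fun y => -Real.log (pr (fun c => w (c, k)) c y)) (w (c, k)) :=
    fun c k => integrable_log (fun c => w (c, k)) c
  have hI2 : ∀ c k, Integrable (fun y => -Real.log (pr (ms w) k y)) (w (c, k)) :=
    fun c k => (integrable_log (ms w) k).mono_measure (le_ms w c k)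
  have h1 : ∀ c k, ∫ y, -Real.log (pr w (c, k) y) ∂(w (c, k)) =
      (∫ y, -Real.log (pr (ms w) k y) ∂(w (c, k))) +
        ∫ y, -Real.log (pr (fun c => w (c, k)) c y) ∂(w (c, k)) := by
    intro c k
    rw [← integral_add (hI2 c k) (hI1 c k)]
    refine integral_congr_ae ?_
    filter_upwards [(ac w (c, k)).ae_le (pr_chain w c k), pr_ne_zero w (c, k)] with y h1 h2
    rw [h1] at h2 ⊢
    rw [Real.log_mul (left_ne_zero_of_mul h2) (right_ne_zero_of_mul h2)]
    ring
  have h2 : ∀ k, ∑ c, ∫ y, -Real.log (pr (ms w) k y) ∂(w (c, k)) =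
      ∫ y, -Real.log (pr (ms w) k y) ∂(ms w k) := by
    intro k
    exact (integral_finsetSum_measure (f := fun y => -Real.log (pr (ms w) k y))
      (μ := fun c => w (c, k)) (s := Finset.univ) (fun c _ => hI2 c k)).symm
  have h3 : ∀ k, Hc (fun c => w (c, k)) =
      ∑ c, ∫ y, -Real.log (pr (fun c => w (c, k)) c y) ∂(w (c, k)) :=
    fun k => Hc_eq (fun c => w (c, k))
  rw [Hc_eq w, Hc_eq (ms w), Fintype.sum_prod_type_right, ← Finset.sum_add_distrib]
  refine Finset.sum_congr rfl fun k _ => ?_
  rw [h3 k, ← h2 k, ← Finset.sum_add_distrib]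
  exact Finset.sum_congr rfl fun c _ => h1 c k

/-- the family with exchanged labels -/
theorem Hc_swap : Hc (fun p : κ × ι => w (p.2, p.1)) = Hc w :=
  Hc_comp (Equiv.prodComm κ ι) w

/-- **Chain rule**, other order. `H(d, e | Y) = H(d | Y) + H(e | Y, d)`. -/
theorem Hc_chain' : Hc w = Hc (mf w) + ∑ c, Hc (fun k => w (c, k)) := by
  rw [← Hc_swap w]
  exact Hc_chain (fun p : κ × ι => w (p.2, p.1))

/-- Exchange of the order. -/
theorem Hc_exchange : Hc (ms w) + ∑ k, Hc (fun c => w (c, k)) = Hc (mf w) + ∑ c, Hc (fun k => w (c, k)) := by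
  rw [← Hc_chain, ← Hc_chain']

theorem Hc_ms_le : Hc (ms w) ≤ Hc w := by
  rw [Hc_chain w]
  have : 0 ≤ ∑ k, Hc (fun c => w (c, k)) := Finset.sum_nonneg fun k _ => Hc_nonneg _
  linarith

theorem Hc_mf_le : Hc (mf w) ≤ Hc w := by
  rw [Hc_chain' w]
  have : 0 ≤ ∑ c, Hc (fun k => w (c, k)) := Finset.sum_nonneg fun k _ => Hc_nonneg _
  linarith

end Chain

section Du

variable [MeasurableSpace κ] [MeasurableSingletonClass κ]

/-- the observation `Y` together with the label `k`. -/
noncomputable def du (w : ι × κ → Measure Y) (c : ι) : Measure (Y × κ) :=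
  ∑ k, (w (c, k)).map (fun y => (y, k))

omit [Fintype ι] [Fintype κ] [MeasurableSingletonClass κ] in
theorem meas_in (k : κ) : Measurable (fun y : Y => (y, k)) := by fun_prop

variable (w : ι × κ → Measure Y) [∀ p, IsFiniteMeasure (w p)]

instance du_finite (c : ι) : IsFiniteMeasure (du w c) := by unfold du; infer_instance

omit [Fintype ι] [MeasurableSingletonClass κ] [∀ p, IsFiniteMeasure (w p)] in
theorem du_apply (c : ι) {s : Set (Y × κ)} (hs : MeasurableSet s) :
    du w c s = ∑ k, w (c, k) {y | (y, k) ∈ s} := by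
  unfold du
  rw [Measure.finsetSum_apply]
  exact Finset.sum_congr rfl fun k _ => Measure.map_apply (meas_in k) hs

omit [MeasurableSingletonClass κ] [∀ p, IsFiniteMeasure (w p)] in
theorem tot_du : tot (du w) = ∑ k, (ms w k).map (fun y => (y, k)) := by
  refine Measure.ext fun s hs => ?_
  rw [tot_apply, Measure.finsetSum_apply]
  simp_rw [du_apply w _ hs, Measure.map_apply (meas_in _) hs]
  rw [Finset.sum_comm]
  refine Finset.sum_congr rfl fun k _ => ?_
  rw [ms_eq_tot, tot_apply]
  rfl

omit [MeasurableSingletonClass κ] [∀ p, IsFiniteMeasure (w p)] in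
theorem ae_tot_du_iff {P : Y × κ → Prop} (h : ∀ᵐ p ∂(tot (du w)), P p) (k : κ) :
    ∀ᵐ y ∂(ms w k), P (y, k) := by
  rw [tot_du] at h
  have h2 : (ms w k).map (fun y => (y, k)) ≤ ∑ k, (ms w k).map (fun y => (y, k)) := by
    refine Measure.le_iff.2 fun s _ => ?_
    rw [Measure.finsetSum_apply]
    exact Finset.single_le_sum (f := fun k => (ms w k).map (fun y => (y, k)) s)
      (fun _ _ => zero_le) (Finset.mem_univ k)
  have h3 : ∀ᵐ p ∂((ms w k).map (fun y => (y, k))), P p :=
    (Measure.absolutelyContinuous_of_le h2).ae_le h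
  exact ae_of_ae_map (meas_in k).aemeasurable h3

theorem rn_du (c : ι) : (du w c).rnDeriv (tot (du w)) =ᵐ[tot (du w)]
    fun p => (w (c, p.2)).rnDeriv (ms w p.2) p.1 := by
  have hm : Measurable (fun p : Y × κ => (w (c, p.2)).rnDeriv (ms w p.2) p.1) :=
    measurable_from_prod_countable_left fun k => Measure.measurable_rnDeriv (w (c, k)) (ms w k)
  refine rn_of_eq hm (Measure.ext fun s hs => ?_)
  rw [withDensity_apply _ hs, tot_du, ← lintegral_indicator hs, lintegral_finsetSum_measure,
    du_apply w c hs]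
  refine Finset.sum_congr rfl fun k _ => ?_
  rw [lintegral_map (hm.indicator hs) (meas_in k)]
  have h1 : ∀ y : Y, s.indicator (fun p : Y × κ => (w (c, p.2)).rnDeriv (ms w p.2) p.1) (y, k) =
      {y | (y, k) ∈ s}.indicator ((w (c, k)).rnDeriv (ms w k)) y := by
    intro y
    by_cases h : (y, k) ∈ s
    · rw [Set.indicator_of_mem h, Set.indicator_of_mem (show y ∈ {y | (y, k) ∈ s} from h)]
    · rw [Set.indicator_of_notMem h, Set.indicator_of_notMem (show y ∉ {y | (y, k) ∈ s} from h)]
  have hms : MeasurableSet {y : Y | (y, k) ∈ s} := meas_in k hs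
  simp_rw [h1]
  rw [lintegral_indicator hms]
  exact (Measure.setLIntegral_rnDeriv (ac (fun c => w (c, k)) c) _).symm

theorem pr_du (c : ι) : ∀ᵐ p ∂(tot (du w)), pr (du w) c p = pr (fun c => w (c, p.2)) c p.1 := by
  filter_upwards [rn_du w c] with p hp
  unfold pr
  rw [hp]
  rfl

omit [MeasurableSingletonClass κ] in
theorem integral_tot_du {f : Y × κ → ℝ} (hf : ∀ k, Integrable (fun y => f (y, k)) (ms w k))
    (hm : AEStronglyMeasurable f (tot (du w))) :
    ∫ p, f p ∂(tot (du w)) = ∑ k, ∫ y, f (y, k) ∂(ms w k) := by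
  have hle : ∀ k, (ms w k).map (fun y => (y, k)) ≤ tot (du w) := by
    intro k
    rw [tot_du]
    refine Measure.le_iff.2 fun s _ => ?_
    rw [Measure.finsetSum_apply]
    exact Finset.single_le_sum (f := fun k => (ms w k).map (fun y => (y, k)) s)
      (fun _ _ => zero_le) (Finset.mem_univ k)
  have hm' : ∀ k, AEStronglyMeasurable f ((ms w k).map (fun y => (y, k))) :=
    fun k => hm.mono_measure (hle k)
  have hi : ∀ k ∈ (Finset.univ : Finset κ), Integrable f ((ms w k).map (fun y => (y, k))) :=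
    fun k _ => (integrable_map_measure (hm' k) (meas_in k).aemeasurable).2 (hf k)
  rw [tot_du, integral_finsetSum_measure hi]
  exact Finset.sum_congr rfl fun k _ => integral_map (meas_in k).aemeasurable (hm' k)

/-- `H(d | Y, k)` as a sum over the values of the label `k`. -/
theorem Hc_du : Hc (du w) = ∑ k, Hc (fun c => w (c, k)) := by
  unfold Hc
  have h1 : ∀ᵐ p ∂(tot (du w)), ∑ c, Real.negMulLog (pr (du w) c p) =
      ∑ c, Real.negMulLog (pr (fun c => w (c, p.2)) c p.1) := by
    filter_upwards [ae_all_iff.2 (pr_du w)] with p hp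
    exact Finset.sum_congr rfl fun c _ => by rw [hp c]
  rw [integral_tot_du w]
  · refine Finset.sum_congr rfl fun k _ => ?_
    refine integral_congr_ae ?_
    filter_upwards [ae_tot_du_iff w h1 k] with y hy
    exact hy
  · intro k
    have h2 : Integrable (fun y => ∑ c, Real.negMulLog (pr (fun c => w (c, k)) c y)) (ms w k) :=
      integrable_finsetSum _ fun c _ => integrable_nml (fun c => w (c, k)) c
    refine h2.congr ?_
    filter_upwards [ae_tot_du_iff w h1 k] with y hy
    exact hy.symm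
  · exact (integrable_finsetSum _ fun c _ => integrable_nml (du w) c).aestronglyMeasurable

omit [MeasurableSingletonClass κ] [∀ p, IsFiniteMeasure (w p)] in
theorem mp_du {K : Y × κ → Z} (hK : Measurable K) (c : ι) :
    mp K (du w) c = ∑ k, (w (c, k)).map (fun y => K (y, k)) := by
  unfold mp du
  rw [Measure.map_finset_sum hK.aemeasurable]
  refine Finset.sum_congr rfl fun k _ => ?_
  rw [Measure.map_map hK (meas_in k)]
  rfl

omit [MeasurableSingletonClass κ] [∀ p, IsFiniteMeasure (w p)] in
theorem mp_fst_du : mp Prod.fst (du w) = mf w := by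
  funext c
  rw [mp_du w measurable_fst]
  unfold mf
  refine Finset.sum_congr rfl fun k _ => ?_
  exact Measure.map_id

/-- **Conditioning on a further label reduces the entropy**. -/
theorem Hc_cond_le : ∑ k, Hc (fun c => w (c, k)) ≤ Hc (mf w) := by
  rw [← Hc_du w, ← mp_fst_du w]
  exact Hc_le_map (du w) measurable_fst

/-- Pinsker form: small conditional mutual information. -/
theorem pinsker_cond :
    ∑ k, ∫ y, (∑ c, |pr (fun c => w (c, k)) c y - pr (mf w) c y|) ^ 2 ∂(ms w k) ≤
      4 * (Hc (mf w) - ∑ k, Hc (fun c => w (c, k))) := by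
  have h := pinsker_map (du w) measurable_fst
  rw [Hc_du w, mp_fst_du w] at h
  refine le_trans (le_of_eq ?_) h
  have h1 : ∀ᵐ p ∂(tot (du w)), (∑ c, |pr (du w) c p - pr (mf w) c p.1|) ^ 2 =
      (∑ c, |pr (fun c => w (c, p.2)) c p.1 - pr (mf w) c p.1|) ^ 2 := by
    filter_upwards [ae_all_iff.2 (pr_du w)] with p hp
    congr 1
    exact Finset.sum_congr rfl fun c _ => by rw [hp c]
  have hmeas : Measurable fun p : Y × κ => (∑ c, |pr (du w) c p - pr (mf w) c p.1|) ^ 2 := by
    refine (Finset.measurable_sum _ fun c _ => ?_).pow_const 2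
    exact ((measurable_pr (du w) c).sub ((measurable_pr (mf w) c).comp measurable_fst)).norm
  have hle : ∀ k, ms w k ≤ tot w := fun k => by rw [← tot_ms]; exact le_tot (ms w) k
  rw [integral_tot_du w]
  · refine Finset.sum_congr rfl fun k _ => integral_congr_ae ?_
    filter_upwards [ae_tot_du_iff w h1 k] with y hy
    exact hy.symm
  · intro k
    refine Integrable.of_bound ((hmeas.comp (meas_in k)).aestronglyMeasurable) 4 ?_
    have h2 : ∀ᵐ y ∂(ms w k), ∑ c, pr (mf w) c y = 1 :=
      (Measure.absolutelyContinuous_of_le (hle k)).ae_le (by rw [← tot_mf]; exact sum_pr (mf w))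
    filter_upwards [ae_tot_du_iff w (sum_pr (du w)) k, h2] with y h3 h4
    have h5 : ∑ c, |pr (du w) c (y, k) - pr (mf w) c y| ≤ 2 := by
      calc ∑ c, |pr (du w) c (y, k) - pr (mf w) c y| ≤ ∑ c, (pr (du w) c (y, k) + pr (mf w) c y) := by
            refine Finset.sum_le_sum fun c _ => ?_
            have e1 := pr_nonneg (du w) c (y, k)
            have e2 := pr_nonneg (mf w) c y
            rw [abs_le]; constructor <;> linarith
        _ = 2 := by rw [Finset.sum_add_distrib, h3, h4]; norm_num
    have h6 : 0 ≤ ∑ c, |pr (du w) c (y, k) - pr (mf w) c y| :=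
      Finset.sum_nonneg fun c _ => abs_nonneg _
    have h7 : ‖(∑ c, |pr (du w) c (y, k) - pr (mf w) c y|) ^ 2‖ =
        (∑ c, |pr (du w) c (y, k) - pr (mf w) c y|) ^ 2 := by
      rw [Real.norm_eq_abs, abs_of_nonneg (sq_nonneg _)]
    refine le_trans (le_of_eq h7) ?_
    nlinarith
  · exact hmeas.aestronglyMeasurable

end Du

section NoMeas

variable (w : ι × κ → Measure Y) [∀ p, IsFiniteMeasure (w p)]

/-- mutual information is nonnegative: `H(d | Y, e) ≤ H(d | Y)`, labels only. -/
theorem Hc_slices_le : ∑ k, Hc (fun c => w (c, k)) ≤ Hc (mf w) := by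
  letI : MeasurableSpace κ := ⊤
  haveI : MeasurableSingletonClass κ := ⟨fun _ => trivial⟩
  exact Hc_cond_le w

theorem Hc_slices_le' : ∑ c, Hc (fun k => w (c, k)) ≤ Hc (ms w) := by
  have h := Hc_slices_le w
  have h2 := Hc_exchange w
  linarith

/-- subadditivity. -/
theorem Hc_le_add : Hc w ≤ Hc (ms w) + Hc (mf w) := by
  rw [Hc_chain w]; linarith [Hc_slices_le w]

end NoMeas

section Lab

variable {ι' : Type*} [Fintype ι'] [DecidableEq ι']

/-- the family of a function of the label. -/
noncomputable def lb (g : ι → ι') (ρ : ι → Measure Y) (c' : ι') : Measure Y := ∑ c with g c = c', ρ c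

variable (g : ι → ι') (ρ : ι → Measure Y) [∀ c, IsFiniteMeasure (ρ c)]

instance lb_finite (c' : ι') : IsFiniteMeasure (lb g ρ c') := by unfold lb; infer_instance

omit [∀ c, IsFiniteMeasure (ρ c)] in
theorem tot_lb : tot (lb g ρ) = tot ρ := by
  unfold tot lb
  exact Finset.sum_fiberwise _ _ _

/-- Entropy of a function of the label. -/
theorem Hc_lb_le : Hc (lb g ρ) ≤ Hc ρ := by
  have h : ∀ p : ι × ι', IsFiniteMeasure (if g p.1 = p.2 then ρ p.1 else 0) := fun p => by
    split_ifs <;> infer_instance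
  let w : ι × ι' → Measure Y := fun p => if g p.1 = p.2 then ρ p.1 else 0
  have hw1 : mf w = ρ := by
    funext c
    simp [mf, w]
  have hw2 : ms w = lb g ρ := by
    funext c'
    simp only [ms, w, lb]
    rw [Finset.sum_filter]
  haveI : ∀ p, IsFiniteMeasure (w p) := h
  have h1 := Hc_chain' w
  have h2 : ∀ c, Hc (fun k => w (c, k)) = 0 := by
    intro c
    haveI : ∀ k, IsFiniteMeasure ((fun k => w (c, k)) k) := fun k => h (c, k)
    have ht : tot (fun k => w (c, k)) = ρ c := by simp [tot, w]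
    rw [Hc_eq (fun k => w (c, k))]
    refine Finset.sum_eq_zero fun k _ => ?_
    by_cases hk : g c = k
    · have e1 : w (c, k) = ρ c := by simp [w, hk]
      have e2 : ∀ᵐ y ∂(ρ c), -Real.log (pr (fun k => w (c, k)) k y) = 0 := by
        have h3 : (ρ c).rnDeriv (ρ c) =ᵐ[ρ c] fun _ => 1 := Measure.rnDeriv_self _
        filter_upwards [h3] with y hy
        unfold pr
        simp only [ht, e1, hy]
        simp
      simp only [e1]
      rw [integral_congr_ae e2]
      simp
    · have e1 : w (c, k) = 0 := by simp [w, hk]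
      simp [e1]
  rw [Finset.sum_congr rfl fun c _ => h2 c, Finset.sum_const_zero, add_zero, hw1] at h1
  rw [← h1, ← hw2]
  exact Hc_ms_le w

end Lab

section Gibbs

variable (ρ : ι → Measure Y) [∀ c, IsFiniteMeasure (ρ c)]

/-- **Gibbs inequality**: every (sub)probability prediction `q` has cost at least `H(d | Y)`. -/
theorem Hc_le_gibbs (q : ι → Y → ℝ) (hq : ∀ c y, 0 ≤ q c y)
    (hs : ∀ᵐ y ∂(tot ρ), ∑ c, q c y ≤ 1) (h0 : ∀ c, ∀ᵐ y ∂(ρ c), q c y ≠ 0)
    (hi : ∀ c, Integrable (fun y => -Real.log (q c y)) (ρ c)) :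
    Hc ρ ≤ ∑ c, ∫ y, -Real.log (q c y) ∂(ρ c) := by
  have hi1 : ∀ c, Integrable (fun y => pr ρ c y * (-Real.log (q c y))) (tot ρ) :=
    fun c => (integrable_pr_mul_iff ρ c _).2 (hi c)
  have hi2 : ∀ c, Integrable (fun y => pr ρ c y * (-Real.log (pr ρ c y))) (tot ρ) :=
    fun c => (integrable_pr_mul_iff ρ c _).2 (integrable_log ρ c)
  rw [Hc_eq ρ, ← sub_nonneg, ← Finset.sum_sub_distrib]
  have h1 : ∀ c, (∫ y, -Real.log (q c y) ∂(ρ c)) - ∫ y, -Real.log (pr ρ c y) ∂(ρ c) =
      ∫ y, (pr ρ c y * (-Real.log (q c y)) - pr ρ c y * (-Real.log (pr ρ c y))) ∂(tot ρ) := by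
    intro c
    rw [integral_sub (hi1 c) (hi2 c), integral_pr_mul, integral_pr_mul]
  have h2 := integral_finsetSum (μ := tot ρ) Finset.univ
    (f := fun c y => pr ρ c y * (-Real.log (q c y)) - pr ρ c y * (-Real.log (pr ρ c y)))
    (fun c _ => (hi1 c).sub (hi2 c))
  rw [Finset.sum_congr rfl fun c _ => h1 c, ← h2]
  have hne : ∀ c, ∀ᵐ y ∂(tot ρ), pr ρ c y ≠ 0 → q c y ≠ 0 := fun c => ae_of_ae ρ (h0 c)
  refine integral_nonneg_of_ae ?_
  filter_upwards [ae_all_iff.2 hne, sum_pr ρ, hs] with y hy h3 h4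
  have h5 := R166.Ent397.gibbs (fun c => pr ρ c y) (fun c => q c y) (fun c => pr_nonneg ρ c y)
    (fun c => hq c y) hy (by rw [h3]; exact h4)
  refine le_trans h5 (le_of_eq (Finset.sum_congr rfl fun c _ => ?_))
  rcases eq_or_ne (pr ρ c y) 0 with h0 | h0
  · simp [h0]
  · rw [Real.log_div h0 (hy c h0)]; ring

/-- The entropy given `Y` is at most the entropy of the label alone. -/
theorem Hc_le_ent : Hc ρ ≤ ∑ c, (ρ c).real Set.univ *
    -Real.log ((ρ c).real Set.univ / (tot ρ).real Set.univ) := by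
  have hT := tot_real_univ ρ
  have hle : ∀ c, (ρ c).real Set.univ ≤ (tot ρ).real Set.univ := fun c => by
    rw [hT]; exact Finset.single_le_sum (f := fun c => (ρ c).real Set.univ)
      (fun _ _ => measureReal_nonneg) (Finset.mem_univ c)
  have h := Hc_le_gibbs ρ (fun c _ => (ρ c).real Set.univ / (tot ρ).real Set.univ)
    (fun c _ => div_nonneg measureReal_nonneg measureReal_nonneg)
    (Filter.Eventually.of_forall fun y => by
      rw [← Finset.sum_div, ← hT]; exact div_self_le_one _)
    (fun c => by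
      rcases eq_or_lt_of_le (measureReal_nonneg (μ := ρ c) (s := Set.univ)) with h0 | h0
      · have : ρ c = 0 := by
          rw [← Measure.measure_univ_eq_zero]
          have := h0.symm
          rwa [measureReal_eq_zero_iff] at this
        rw [this]; simp
      · exact Filter.Eventually.of_forall fun y => (div_pos h0 (lt_of_lt_of_le h0 (hle c))).ne')
    (fun c => integrable_const _)
  refine le_trans h (le_of_eq (Finset.sum_congr rfl fun c _ => ?_))
  rw [integral_const, smul_eq_mul]

end Gibbs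

end Crest.Agent.R014.Ne2_567
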