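import Mathlib
import Crest.Agent.R014.Ne2_567

/-!
Row 14, block D (noise formalism), helper567: conditional entropy, part 3: continuity in total variation.
* `split`: two finite measures as `m + u`, `m + v`;
* `abs_integral_sub_le`; `Hc_add_le`, `Hc_add_ge`;
* `Hc_le_of_tv`: `H(ρ) ≤ H(ρ') + δ log b + δ + negMulLog δ`;
* `pv`: everywhere defined version of the conditional law, `integral_abs_pv_le`.
-/

set_option autoImplicit false

namespace Crest.Agent.R014.Ne3_567

open MeasureTheory Finset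
open scoped ENNReal
open Crest.Agent.R014.Ne1_567 Crest.Agent.R014.Ne2_567

variable {ι κ Y Z : Type*} [Fintype ι] [Fintype κ] [MeasurableSpace Y] [MeasurableSpace Z]

/-- Hahn splitting: common part and the two differences. -/
theorem split (μ ν : Measure Y) [IsFiniteMeasure μ] [IsFiniteMeasure ν] :
    ∃ m u v : Measure Y, ∃ s : Set Y, MeasurableSet s ∧ IsFiniteMeasure m ∧ IsFiniteMeasure u ∧
      IsFiniteMeasure v ∧ μ = m + u ∧ ν = m + v ∧
      u.real Set.univ = μ.real s - ν.real s ∧ v.real Set.univ = ν.real sᶜ - μ.real sᶜ := by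
  obtain ⟨s, hs, h1, h2⟩ := hahn_decomposition μ ν
  have hle1 : ν.restrict s ≤ μ.restrict s := by
    refine Measure.le_iff.2 fun t ht => ?_
    rw [Measure.restrict_apply ht, Measure.restrict_apply ht]
    exact h1 _ (ht.inter hs) Set.inter_subset_right
  have hle2 : μ.restrict sᶜ ≤ ν.restrict sᶜ := by
    refine Measure.le_iff.2 fun t ht => ?_
    rw [Measure.restrict_apply ht, Measure.restrict_apply ht]
    exact h2 _ (ht.inter hs.compl) Set.inter_subset_right
  have e1 : μ.restrict s - ν.restrict s + ν.restrict s = μ.restrict s :=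
    Measure.sub_add_cancel_of_le hle1
  have e2 : ν.restrict sᶜ - μ.restrict sᶜ + μ.restrict sᶜ = ν.restrict sᶜ :=
    Measure.sub_add_cancel_of_le hle2
  have f1 : IsFiniteMeasure (μ.restrict s - ν.restrict s) :=
    isFiniteMeasure_of_le (μ.restrict s) Measure.sub_le
  have f2 : IsFiniteMeasure (ν.restrict sᶜ - μ.restrict sᶜ) :=
    isFiniteMeasure_of_le (ν.restrict sᶜ) Measure.sub_le
  have g1 : (μ.restrict s - ν.restrict s).real Set.univ = μ.real s - ν.real s := by
    have h := congrArg (fun m : Measure Y => m.real Set.univ) e1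
    simp only [measureReal_restrict_apply_univ] at h
    rw [measureReal_add_apply, measureReal_restrict_apply_univ] at h
    linarith
  have g2 : (ν.restrict sᶜ - μ.restrict sᶜ).real Set.univ = ν.real sᶜ - μ.real sᶜ := by
    have h := congrArg (fun m : Measure Y => m.real Set.univ) e2
    simp only [measureReal_restrict_apply_univ] at h
    rw [measureReal_add_apply, measureReal_restrict_apply_univ] at h
    linarith
  generalize hu : μ.restrict s - ν.restrict s = u at *
  generalize hv : ν.restrict sᶜ - μ.restrict sᶜ = v at *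
  refine ⟨ν.restrict s + μ.restrict sᶜ, u, v, s, hs, inferInstance, f1, f2, ?_, ?_, g1, g2⟩
  · calc μ = μ.restrict s + μ.restrict sᶜ := (Measure.restrict_add_restrict_compl hs).symm
      _ = (u + ν.restrict s) + μ.restrict sᶜ := by rw [e1]
      _ = _ := by abel
  · calc ν = ν.restrict s + ν.restrict sᶜ := (Measure.restrict_add_restrict_compl hs).symm
      _ = ν.restrict s + (v + μ.restrict sᶜ) := by rw [e2]
      _ = _ := by abel

/-- Integrals of bounded functions against close measures. -/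
theorem abs_integral_sub_le {μ ν : Measure Y} [IsFiniteMeasure μ] [IsFiniteMeasure ν] {e M : ℝ}
    (h1 : ∀ A, MeasurableSet A → μ.real A ≤ ν.real A + e)
    (h2 : ∀ A, MeasurableSet A → ν.real A ≤ μ.real A + e)
    {f : Y → ℝ} (hf : Measurable f) (hM0 : 0 ≤ M) (hM : ∀ y, |f y| ≤ M) :
    |∫ y, f y ∂μ - ∫ y, f y ∂ν| ≤ 2 * M * e := by
  obtain ⟨m, u, v, s, hs, fm, fu, fv, e1, e2, hu, hv⟩ := split μ ν
  have hi : ∀ (θ : Measure Y) [IsFiniteMeasure θ], Integrable f θ := fun θ _ =>
    Integrable.of_bound hf.aestronglyMeasurable M (Filter.Eventually.of_forall fun y => hM y)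
  have hb : ∀ (θ : Measure Y) [IsFiniteMeasure θ], |∫ y, f y ∂θ| ≤ M * θ.real Set.univ := by
    intro θ _
    have := norm_integral_le_of_norm_le_const (μ := θ) (f := f) (C := M)
      (Filter.Eventually.of_forall fun y => hM y)
    simpa using this
  have e3 : ∫ y, f y ∂μ = ∫ y, f y ∂m + ∫ y, f y ∂u := by
    rw [e1]; exact integral_add_measure (hi m) (hi u)
  have e4 : ∫ y, f y ∂ν = ∫ y, f y ∂m + ∫ y, f y ∂v := by
    rw [e2]; exact integral_add_measure (hi m) (hi v)
  rw [e3, e4]
  have h3 := hb u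
  have h4 := hb v
  have h5 : u.real Set.univ ≤ e := by rw [hu]; linarith [h1 s hs]
  have h6 : v.real Set.univ ≤ e := by rw [hv]; linarith [h2 sᶜ hs.compl]
  rw [abs_le] at h3 h4 ⊢
  have h7 := mul_le_mul_of_nonneg_left h5 hM0
  have h8 := mul_le_mul_of_nonneg_left h6 hM0
  constructor <;> linarith

section Add

variable (m u : ι → Measure Y) [∀ c, IsFiniteMeasure (m c)] [∀ c, IsFiniteMeasure (u c)]

/-- two sources -/
noncomputable def src (m u : ι → Measure Y) (p : ι × Bool) : Measure Y := if p.2 then m p.1 else u p.1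

instance src_finite (p : ι × Bool) : IsFiniteMeasure (src m u p) := by
  unfold src; split_ifs <;> infer_instance

theorem mf_src : mf (src m u) = fun c => m c + u c := by
  funext c
  simp [mf, src]

/-- superadditivity (concavity) -/
theorem Hc_add_ge : Hc m + Hc u ≤ Hc (fun c => m c + u c) := by
  have h := Hc_slices_le (src m u)
  rw [mf_src, Fintype.sum_bool] at h
  exact h

theorem Hc_add_le : Hc (fun c => m c + u c) ≤ Hc m + Hc u +
    ((tot u).real Set.univ + (tot u).real Set.univ * Real.log ((tot m).real Set.univ + (tot u).real Set.univ)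
      + Real.negMulLog ((tot u).real Set.univ)) := by
  have h1 := Hc_mf_le (src m u)
  rw [mf_src] at h1
  rw [Hc_chain (src m u), Fintype.sum_bool] at h1
  have h2 : Hc (ms (src m u)) ≤ (tot u).real Set.univ + (tot u).real Set.univ *
      Real.log ((tot m).real Set.univ + (tot u).real Set.univ)
      + Real.negMulLog ((tot u).real Set.univ) := by
    have h3 := Hc_le_ent (ms (src m u))
    have e1 : ms (src m u) true = tot m := by simp [ms, src, tot]
    have e2 : ms (src m u) false = tot u := by simp [ms, src, tot]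
    rw [tot_real_univ, Fintype.sum_bool, Fintype.sum_bool, e1, e2] at h3
    set M := (tot m).real Set.univ with hM
    set U := (tot u).real Set.univ with hU
    have hM0 : 0 ≤ M := measureReal_nonneg
    have hU0 : 0 ≤ U := measureReal_nonneg
    refine le_trans h3 ?_
    have h4 : M * -Real.log (M / (M + U)) ≤ U := by
      rcases eq_or_lt_of_le hM0 with h | h
      · rw [← h]; simpa using hU0
      · have h5 := Real.log_le_sub_one_of_pos (show 0 < (M + U) / M by positivity)
        have h6 : -Real.log (M / (M + U)) = Real.log ((M + U) / M) := by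
          rw [← Real.log_inv, inv_div]
        rw [h6]
        have h7 := mul_le_mul_of_nonneg_left h5 hM0
        have h8 : M * ((M + U) / M - 1) = U := by field_simp; ring
        linarith
    have h5 : U * -Real.log (U / (M + U)) = U * Real.log (M + U) + Real.negMulLog U := by
      rcases eq_or_lt_of_le hU0 with h | h
      · rw [← h]; simp
      · rw [Real.log_div h.ne' (by positivity)]
        unfold Real.negMulLog; ring
    linarith
  have e3 : Hc (fun c => src m u (c, true)) = Hc m := rfl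
  have e4 : Hc (fun c => src m u (c, false)) = Hc u := by
    congr 1
  rw [e3, e4] at h1
  linarith

end Add

theorem add_negMulLog_mono {x y : ℝ} (hx : 0 ≤ x) (hxy : x ≤ y) (hy : y ≤ 1) :
    x + Real.negMulLog x ≤ y + Real.negMulLog y := by
  rcases eq_or_lt_of_le hx with h | h
  · rw [← h]
    simp only [Real.negMulLog_zero, add_zero]
    have := Real.negMulLog_nonneg (le_trans hx hxy) hy
    linarith [le_trans hx hxy]
  · have hy0 : 0 < y := lt_of_lt_of_le h hxy
    unfold Real.negMulLog
    -- `x log x - y log y ≥ x - y` i.e. `x log (y/x) ≤ y - x` and `log y ≤ 0`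
    have h1 := Real.log_le_sub_one_of_pos (show 0 < y / x by positivity)
    rw [Real.log_div hy0.ne' h.ne'] at h1
    have h2 : x * (y / x - 1) = y - x := by field_simp
    have h3 := mul_le_mul_of_nonneg_left h1 h.le
    rw [h2] at h3
    have h4 : Real.log y ≤ 0 := Real.log_nonpos hy0.le hy
    nlinarith

section TV

variable (ρ ρ' : ι → Measure Y) [∀ c, IsFiniteMeasure (ρ c)] [∀ c, IsFiniteMeasure (ρ' c)]

/-- **Continuity in total variation** (one sided). -/
theorem Hc_le_of_tv [Nonempty ι] {e : ι → ℝ} (h : ∀ c A, MeasurableSet A → (ρ c).real A ≤ (ρ' c).real A + e c)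
    (hT : (tot ρ).real Set.univ ≤ 1) (he : ∑ c, e c ≤ 1) :
    Hc ρ ≤ Hc ρ' + ((∑ c, e c) * Real.log (Fintype.card ι) + ((∑ c, e c) + Real.negMulLog (∑ c, e c))) := by
  choose m u v s hs fm fu fv e1 e2 hu hv using fun c => split (ρ c) (ρ' c)
  have hρ : ρ = fun c => m c + u c := funext e1
  have hρ' : ρ' = fun c => m c + v c := funext e2
  set U := (tot u).real Set.univ with hU
  have hU0 : 0 ≤ U := measureReal_nonneg
  have hUe : U ≤ ∑ c, e c := by
    rw [hU, tot_real_univ]
    refine Finset.sum_le_sum fun c _ => ?_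
    rw [hu c]; linarith [h c (s c) (hs c)]
  have h1 := Hc_add_le m u
  have h2 := Hc_add_ge m v
  rw [← hρ'] at h2
  rw [← hρ, ← hU] at h1
  have h3 : (tot m).real Set.univ + U ≤ 1 := by
    have h4 : (tot ρ).real Set.univ = (tot m).real Set.univ + U := by
      rw [hU, tot_real_univ, tot_real_univ, tot_real_univ, ← Finset.sum_add_distrib]
      refine Finset.sum_congr rfl fun c _ => ?_
      rw [e1 c, measureReal_add_apply]
    rw [← h4]; exact hT
  have h5 : U * Real.log ((tot m).real Set.univ + U) ≤ 0 :=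
    mul_nonpos_of_nonneg_of_nonpos hU0 (Real.log_nonpos (add_nonneg measureReal_nonneg hU0) h3)
  have h6 := Hc_le_log u
  rw [← hU] at h6
  have h7 := Hc_nonneg v
  have h8 := add_negMulLog_mono hU0 hUe he
  have h9 : U * Real.log (Fintype.card ι) ≤ (∑ c, e c) * Real.log (Fintype.card ι) :=
    mul_le_mul_of_nonneg_right hUe (Real.log_nonneg (by exact_mod_cast Fintype.card_pos))
  linarith

end TV

section Pv

/-- Everywhere defined version of the conditional law: a probability vector at every point. -/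
noncomputable def pv (ρ : ι → Measure Y) (c : ι) (y : Y) : ℝ :=
  if ∑ c, pr ρ c y = 1 then pr ρ c y else (Fintype.card ι : ℝ)⁻¹

theorem measurable_pv (ρ : ι → Measure Y) (c : ι) : Measurable (pv ρ c) := by
  refine Measurable.ite ?_ (measurable_pr ρ c) measurable_const
  exact measurableSet_eq_fun (Finset.measurable_sum _ fun c _ => measurable_pr ρ c) measurable_const

theorem pv_nonneg (ρ : ι → Measure Y) (c : ι) (y : Y) : 0 ≤ pv ρ c y := by
  unfold pv; split_ifs
  · exact pr_nonneg ρ c y
  · positivity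

theorem sum_pv [Nonempty ι] (ρ : ι → Measure Y) (y : Y) : ∑ c, pv ρ c y = 1 := by
  by_cases h : ∑ c, pr ρ c y = 1
  · simp only [pv, h, if_true]
  · have hc : (Fintype.card ι : ℝ) ≠ 0 := by exact_mod_cast Fintype.card_ne_zero
    simp only [pv, h, if_false, Finset.sum_const, Finset.card_univ, nsmul_eq_mul]
    exact mul_inv_cancel₀ hc

theorem pv_le_one [Nonempty ι] (ρ : ι → Measure Y) (c : ι) (y : Y) : pv ρ c y ≤ 1 := by
  rw [← sum_pv ρ y]
  exact Finset.single_le_sum (f := fun c => pv ρ c y) (fun _ _ => pv_nonneg ρ _ y) (Finset.mem_univ c)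

variable (ρ ρ' : ι → Measure Y) [∀ c, IsFiniteMeasure (ρ c)] [∀ c, IsFiniteMeasure (ρ' c)]

theorem pv_eq : ∀ᵐ y ∂(tot ρ), ∀ c, pv ρ c y = pr ρ c y := by
  filter_upwards [sum_pr ρ] with y hy c
  simp [pv, hy]

theorem integral_pv_mul (c : ι) (f : Y → ℝ) : ∫ y, pv ρ c y * f y ∂(tot ρ) = ∫ y, f y ∂(ρ c) := by
  rw [← integral_pr_mul ρ c f]
  refine integral_congr_ae ?_
  filter_upwards [pv_eq ρ] with y hy
  rw [hy c]

theorem Hc_eq_pv : Hc ρ = ∫ y, ∑ c, Real.negMulLog (pv ρ c y) ∂(tot ρ) := by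
  unfold Hc
  refine integral_congr_ae ?_
  filter_upwards [pv_eq ρ] with y hy
  exact Finset.sum_congr rfl fun c _ => by rw [hy c]

/-- Conditional Pinsker inequality with the everywhere defined versions. -/
theorem pinsker_pv {K : Y → Z} (hK : Measurable K) :
    ∫ y, (∑ c, |pv ρ c y - pv (mp K ρ) c (K y)|) ^ 2 ∂(tot ρ) ≤ 4 * (Hc (mp K ρ) - Hc ρ) := by
  refine le_trans (le_of_eq (integral_congr_ae ?_)) (pinsker_map ρ hK)
  filter_upwards [pv_eq ρ, ae_comp ρ hK (pv_eq (mp K ρ))] with y h1 h2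
  congr 1
  exact Finset.sum_congr rfl fun c _ => by rw [h1 c, h2 c]

theorem pinsker_nz_pv {W : Type*} [MeasurableSpace W] (ζ : Measure Z) [IsProbabilityMeasure ζ]
    {K : Y × Z → W} (hK : Measurable K) :
    ∫ y, (∑ c, |pv ρ c y.1 - pv (nz ρ ζ K) c (K y)|) ^ 2 ∂((tot ρ).prod ζ) ≤
      4 * (Hc (nz ρ ζ K) - Hc ρ) := by
  refine le_trans (le_of_eq (integral_congr_ae ?_)) (pinsker_nz ρ ζ hK)
  have h1 : ∀ᵐ y ∂((tot ρ).prod ζ), ∀ c, pv ρ c y.1 = pr ρ c y.1 :=
    Measure.quasiMeasurePreserving_fst.ae (pv_eq ρ)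
  have h2 : ∀ᵐ y ∂((tot ρ).prod ζ), ∀ c, pv (nz ρ ζ K) c (K y) = pr (nz ρ ζ K) c (K y) := by
    have h3 := ae_comp (pd ρ ζ) hK (pv_eq (mp K (pd ρ ζ)))
    rw [tot_pd] at h3
    exact h3
  filter_upwards [h1, h2] with y h1 h2
  congr 1
  exact Finset.sum_congr rfl fun c _ => by rw [h1 c, h2 c]

theorem sum_abs_pv_le_two [Nonempty ι] (y z : Y) : ∑ c, |pv ρ c y - pv ρ' c z| ≤ 2 := by
  calc ∑ c, |pv ρ c y - pv ρ' c z| ≤ ∑ c, (pv ρ c y + pv ρ' c z) := by
        refine Finset.sum_le_sum fun c _ => ?_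
        have e1 := pv_nonneg ρ c y
        have e2 := pv_nonneg ρ' c z
        rw [abs_le]; constructor <;> linarith
    _ = 2 := by rw [Finset.sum_add_distrib, sum_pv, sum_pv]; norm_num

/-- Conditional laws of two close joint laws are close. -/
theorem integral_abs_pv_le [Nonempty ι] {e : ι → ℝ}
    (h1 : ∀ c A, MeasurableSet A → (ρ c).real A ≤ (ρ' c).real A + e c)
    (h2 : ∀ c A, MeasurableSet A → (ρ' c).real A ≤ (ρ c).real A + e c) :
    ∫ y, ∑ c, |pv ρ c y - pv ρ' c y| ∂(tot ρ) ≤ 4 * ∑ c, e c := by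
  let s : ι → Y → ℝ := fun c y => if pv ρ' c y ≤ pv ρ c y then 1 else -1
  have hs : ∀ c, Measurable (s c) := fun c =>
    Measurable.ite (measurableSet_le (measurable_pv ρ' c) (measurable_pv ρ c)) measurable_const
      measurable_const
  have hs1 : ∀ c y, |s c y| ≤ 1 := fun c y => by simp only [s]; split_ifs <;> simp
  have hs2 : ∀ c y, |pv ρ c y - pv ρ' c y| = pv ρ c y * s c y - pv ρ' c y * s c y := fun c y => by
    simp only [s]
    split_ifs with h
    · rw [abs_of_nonneg (by linarith)]; ring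
    · rw [abs_of_nonpos (by linarith [not_le.1 h])]; ring
  have hb : ∀ c y, |pv ρ c y * s c y| ≤ 1 := fun c y => by
    rw [abs_mul, abs_of_nonneg (pv_nonneg ρ c y)]
    exact mul_le_one₀ (pv_le_one ρ c y) (abs_nonneg _) (hs1 c y)
  have hb' : ∀ c y, |pv ρ' c y * s c y| ≤ 1 := fun c y => by
    rw [abs_mul, abs_of_nonneg (pv_nonneg ρ' c y)]
    exact mul_le_one₀ (pv_le_one ρ' c y) (abs_nonneg _) (hs1 c y)
  have hm : ∀ c, Measurable fun y => pv ρ c y * s c y := fun c => (measurable_pv ρ c).mul (hs c)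
  have hm' : ∀ c, Measurable fun y => pv ρ' c y * s c y := fun c => (measurable_pv ρ' c).mul (hs c)
  have hi : ∀ c (θ : Measure Y) [IsFiniteMeasure θ], Integrable (fun y => pv ρ c y * s c y) θ :=
    fun c θ _ => Integrable.of_bound (hm c).aestronglyMeasurable 1
      (Filter.Eventually.of_forall fun y => hb c y)
  have hi' : ∀ c (θ : Measure Y) [IsFiniteMeasure θ], Integrable (fun y => pv ρ' c y * s c y) θ :=
    fun c θ _ => Integrable.of_bound (hm' c).aestronglyMeasurable 1
      (Filter.Eventually.of_forall fun y => hb' c y)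
  have e1 : ∫ y, ∑ c, |pv ρ c y - pv ρ' c y| ∂(tot ρ) =
      ∑ c, ∫ y, s c y ∂(ρ c) - ∫ y, ∑ c, pv ρ' c y * s c y ∂(tot ρ) := by
    simp_rw [hs2, Finset.sum_sub_distrib]
    rw [integral_sub (integrable_finsetSum _ fun c _ => hi c _)
      (integrable_finsetSum _ fun c _ => hi' c _), integral_finsetSum _ fun c _ => hi c _]
    congr 1
    exact Finset.sum_congr rfl fun c _ => integral_pv_mul ρ c (s c)
  have e2 : ∫ y, ∑ c, pv ρ' c y * s c y ∂(tot ρ') = ∑ c, ∫ y, s c y ∂(ρ' c) := by
    rw [integral_finsetSum _ fun c _ => hi' c _]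
    exact Finset.sum_congr rfl fun c _ => integral_pv_mul ρ' c (s c)
  have h3 : ∀ c, (∫ y, s c y ∂(ρ c)) - ∫ y, s c y ∂(ρ' c) ≤ 2 * e c := fun c => by
    have := abs_integral_sub_le (h1 c) (h2 c) (hs c) zero_le_one (hs1 c)
    have h4 := (abs_le.1 this).2
    linarith
  have h5 : (∫ y, ∑ c, pv ρ' c y * s c y ∂(tot ρ')) - ∫ y, ∑ c, pv ρ' c y * s c y ∂(tot ρ) ≤
      2 * ∑ c, e c := by
    have hT : ∀ (θ : ι → Measure Y) [∀ c, IsFiniteMeasure (θ c)] (A : Set Y),
        (tot θ).real A = ∑ c, (θ c).real A := by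
      intro θ _ A
      unfold Measure.real
      rw [tot_apply, ENNReal.toReal_sum fun c _ => measure_ne_top _ _]
    have h6 : ∀ A, MeasurableSet A → (tot ρ').real A ≤ (tot ρ).real A + ∑ c, e c := fun A hA => by
      rw [hT, hT, ← Finset.sum_add_distrib]
      exact Finset.sum_le_sum fun c _ => h2 c A hA
    have h7 : ∀ A, MeasurableSet A → (tot ρ).real A ≤ (tot ρ').real A + ∑ c, e c := fun A hA => by
      rw [hT, hT, ← Finset.sum_add_distrib]
      exact Finset.sum_le_sum fun c _ => h1 c A hA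
    have := abs_integral_sub_le h6 h7 (Finset.measurable_sum Finset.univ fun c _ => hm' c) zero_le_one
      (fun y => by
        refine (Finset.abs_sum_le_sum_abs _ _).trans ?_
        rw [← sum_pv ρ' y]
        refine Finset.sum_le_sum fun c _ => ?_
        rw [abs_mul, abs_of_nonneg (pv_nonneg ρ' c y)]
        exact mul_le_of_le_one_right (pv_nonneg ρ' c y) (hs1 c y))
    have h8 := (abs_le.1 this).2
    linarith
  have h9 : ∑ c, ((∫ y, s c y ∂(ρ c)) - ∫ y, s c y ∂(ρ' c)) ≤ ∑ c, 2 * e c :=
    Finset.sum_le_sum fun c _ => h3 c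
  rw [Finset.sum_sub_distrib, ← Finset.mul_sum] at h9
  rw [e1]
  rw [e2] at h5
  linarith

/-- From the square to the first power. -/
theorem integral_le_sqrt {θ : Measure Y} [IsFiniteMeasure θ] (hθ : θ.real Set.univ ≤ 1) {f : Y → ℝ}
    (hf : Measurable f) {M : ℝ} (hM : ∀ y, |f y| ≤ M) {E : ℝ} (hE : ∫ y, f y ^ 2 ∂θ ≤ E) :
    ∫ y, f y ∂θ ≤ Real.sqrt E := by
  have hi : Integrable f θ := Integrable.of_bound hf.aestronglyMeasurable M
    (Filter.Eventually.of_forall fun y => hM y)
  have hi2 : Integrable (fun y => f y ^ 2) θ := Integrable.of_bound (hf.pow_const 2).aestronglyMeasurable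
    (M ^ 2) (Filter.Eventually.of_forall fun y => by
      rw [Real.norm_eq_abs, abs_pow]; exact pow_le_pow_left₀ (abs_nonneg _) (hM y) 2)
  have h0 : 0 ≤ ∫ y, f y ^ 2 ∂θ := integral_nonneg fun y => sq_nonneg _
  have hE0 : 0 ≤ E := h0.trans hE
  -- for every `t > 0`: `∫ f ≤ t / 2 + E / (2 t)`
  have h1 : ∀ t : ℝ, 0 < t → ∫ y, f y ∂θ ≤ t / 2 + E / (2 * t) := by
    intro t ht
    have h2 : ∫ y, f y ∂θ ≤ ∫ y, (t / 2 + (1 / (2 * t)) * f y ^ 2) ∂θ := by
      refine integral_mono hi ((integrable_const _).add (hi2.const_mul _)) fun y => ?_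
      have h3 : 0 ≤ (t - f y) ^ 2 / (2 * t) := by positivity
      have h4 : (t - f y) ^ 2 / (2 * t) = t / 2 + (1 / (2 * t)) * f y ^ 2 - f y := by
        field_simp; ring
      simp only
      linarith
    rw [integral_add (integrable_const _) (hi2.const_mul _), integral_const_mul, integral_const,
      smul_eq_mul] at h2
    have h5 : θ.real Set.univ * (t / 2) ≤ t / 2 := by
      have : θ.real Set.univ * (t / 2) ≤ 1 * (t / 2) := mul_le_mul_of_nonneg_right hθ (by positivity)
      linarith
    have h6 : (1 / (2 * t)) * ∫ y, f y ^ 2 ∂θ ≤ E / (2 * t) := by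
      rw [div_mul_eq_mul_div, one_mul]
      exact div_le_div_of_nonneg_right hE (by positivity)
    linarith
  rcases eq_or_lt_of_le hE0 with h | h
  · rw [← h, Real.sqrt_zero]
    refine le_of_forall_pos_le_add fun t ht => ?_
    have := h1 t ht
    rw [← h] at this
    simp at this
    linarith
  · have h7 := h1 (Real.sqrt E) (Real.sqrt_pos.2 h)
    have h8 : E / (2 * Real.sqrt E) = Real.sqrt E / 2 := by
      have h9 : Real.sqrt E ≠ 0 := (Real.sqrt_pos.2 h).ne'
      have h10 : E = Real.sqrt E * Real.sqrt E := (Real.mul_self_sqrt hE0).symm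
      rw [div_eq_div_iff (by positivity) (by norm_num)]
      nlinarith
    rw [h8] at h7
    linarith

end Pv

end Crest.Agent.R014.Ne3_567
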