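import Crest.Agent.R014.Nd2_837
import Crest.Agent.R014.Ne3_567

set_option autoImplicit false

/-!
Row 14, block D, noise formalism (text #3844 of helper548, (2.2)): monotonicity and the conditional
Pinsker inequality for general noise laws on `SLR n`.
-/

open MeasureTheory Crest.NumberTheoryR.Packets
open scoped ENNReal

namespace Crest.Agent.R014.Nd_837

open Ms_667 Ne1_567 Ne3_567

variable {n : ℕ} {ι : Type*} [Fintype ι]

/-! ### The modulus of continuity -/

/-- The modulus of continuity of the entropy of `N` labels with respect to total variation. -/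
noncomputable def md (N : ℕ) (e : ℝ) : ℝ := e * Real.log N + (e + Real.negMulLog e)

theorem md_nonneg (N : ℕ) {e : ℝ} (h0 : 0 ≤ e) (h1 : e ≤ 1) : 0 ≤ md N e :=
  add_nonneg (mul_nonneg h0 (Real.log_natCast_nonneg N))
    (add_nonneg h0 (Real.negMulLog_nonneg h0 h1))

theorem md_mono (N : ℕ) {x y : ℝ} (hx : 0 ≤ x) (hxy : x ≤ y) (hy : y ≤ 1) : md N x ≤ md N y :=
  add_le_add (mul_le_mul_of_nonneg_right hxy (Real.log_natCast_nonneg N))
    (add_negMulLog_mono hx hxy hy)

theorem md_one (N : ℕ) : md N 1 = Real.log N + 1 := by simp [md]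

theorem md_zero (N : ℕ) : md N 0 = 0 := by simp [md]

/-- `md N e ≤ (log N + 3) √e`. -/
theorem md_le_sqrt (N : ℕ) {e : ℝ} (h0 : 0 ≤ e) (h1 : e ≤ 1) :
    md N e ≤ (Real.log N + 3) * Real.sqrt e := by
  have hs0 : 0 ≤ Real.sqrt e := Real.sqrt_nonneg e
  have hs1 : Real.sqrt e ≤ 1 := Real.sqrt_le_one.2 h1
  have hss : Real.sqrt e * Real.sqrt e = e := Real.mul_self_sqrt h0
  have he : e ≤ Real.sqrt e := by nlinarith
  have hn : Real.negMulLog e ≤ 2 * Real.sqrt e := by
    rcases eq_or_lt_of_le h0 with h | h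
    · rw [← h]; simp
    · have hs : 0 < Real.sqrt e := Real.sqrt_pos.2 h
      have h2 : Real.log e = 2 * Real.log (Real.sqrt e) := by
        rw [Real.log_sqrt h0]; ring
      have h3 : -Real.log (Real.sqrt e) ≤ (Real.sqrt e)⁻¹ := by
        rw [← Real.log_inv]
        exact (Real.log_le_sub_one_of_pos (inv_pos.2 hs)).trans (by linarith)
      have h4 : Real.negMulLog e = 2 * (Real.sqrt e * (Real.sqrt e * -Real.log (Real.sqrt e))) := by
        unfold Real.negMulLog
        rw [h2, ← mul_assoc (Real.sqrt e), hss]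
        ring
      have h5 : Real.sqrt e * -Real.log (Real.sqrt e) ≤ 1 := by
        calc Real.sqrt e * -Real.log (Real.sqrt e) ≤ Real.sqrt e * (Real.sqrt e)⁻¹ :=
              mul_le_mul_of_nonneg_left h3 hs0
          _ = 1 := mul_inv_cancel₀ hs.ne'
      rw [h4]
      nlinarith
  have hl := Real.log_natCast_nonneg N
  have h6 : e * Real.log N ≤ Real.sqrt e * Real.log N := mul_le_mul_of_nonneg_right he hl
  unfold md
  nlinarith

/-! ### Monotonicity and Pinsker for closeness of joint laws -/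

section Gen

variable (ρ' ρ : ι → Measure (ModSpace n)) [∀ c, IsFiniteMeasure (ρ' c)]
  [∀ c, IsFiniteMeasure (ρ c)] (κ : Measure (SLR n)) [IsProbabilityMeasure κ]

/-- **(2.2), abstract form**: `ρ` is close to the noisy copy of `ρ'`. -/
theorem Hc_mono [Nonempty ι] {e : ι → ℝ} (h : ∀ c, TVle (stp (ρ' c) κ) (ρ c) (e c))
    (hT : (tot ρ').real Set.univ ≤ 1) (he : ∑ c, e c ≤ 1) :
    Hc ρ' ≤ Hc ρ + md (Fintype.card ι) (∑ c, e c) := by
  have h1 := Hc_le_stp ρ' κ
  have hT' : (tot fun c => stp (ρ' c) κ).real Set.univ ≤ 1 := by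
    rw [tot_real_univ]
    rw [tot_real_univ] at hT
    refine le_trans (le_of_eq ?_) hT
    refine Finset.sum_congr rfl fun c _ => ?_
    unfold stp
    rw [map_measureReal_apply measurable_act₂ MeasurableSet.univ, Set.preimage_univ,
      measureReal_def, Measure.prod_apply MeasurableSet.univ]
    simp [measureReal_def]
  have h2 := Hc_le_of_tv (ρ := fun c => stp (ρ' c) κ) (ρ' := ρ) (e := e)
    (fun c A hA => by
      have := h c A hA
      rw [abs_le] at this
      linarith [this.2]) hT' he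
  unfold md
  linarith

/-- **(2.2), Pinsker form**. -/
theorem pinsker_close [Nonempty ι] {e : ι → ℝ} (h : ∀ c, TVle (stp (ρ' c) κ) (ρ c) (e c))
    (hT : (tot ρ').real Set.univ ≤ 1) (he : ∑ c, e c ≤ 1) :
    ∫ p, ∑ c, |pv ρ' c p.1 - pv ρ c (act p.1 p.2)| ∂((tot ρ').prod κ)
      ≤ Real.sqrt (4 * (Hc ρ + md (Fintype.card ι) (∑ c, e c) - Hc ρ')) + 4 * ∑ c, e c := by
  have hmass : ∀ c, (stp (ρ' c) κ).real Set.univ = (ρ' c).real Set.univ := by
    intro c
    unfold stp
    rw [map_measureReal_apply measurable_act₂ MeasurableSet.univ, Set.preimage_univ,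
      measureReal_def, Measure.prod_apply MeasurableSet.univ]
    simp [measureReal_def]
  have hT' : (tot fun c => stp (ρ' c) κ).real Set.univ ≤ 1 := by
    rw [tot_real_univ, Finset.sum_congr rfl fun c _ => hmass c, ← tot_real_univ]
    exact hT
  have htot : (tot fun c => stp (ρ' c) κ) = stp (tot ρ') κ := by
    have h1 := tot_mp (K := fun p : ModSpace n × SLR n => act p.1 p.2) measurable_act₂ (pd ρ' κ)
    rw [tot_pd] at h1
    exact h1
  -- entropy comparison
  have h2 := Hc_le_of_tv (ρ := fun c => stp (ρ' c) κ) (ρ' := ρ) (e := e)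
    (fun c A hA => by
      have := h c A hA
      rw [abs_le] at this
      linarith [this.2]) hT' he
  have h3 := pinsker_nz_pv ρ' κ (K := fun p : ModSpace n × SLR n => act p.1 p.2) measurable_act₂
  have h3' : ∫ y, (∑ c, |pv ρ' c y.1 - pv (fun c => stp (ρ' c) κ) c (act y.1 y.2)|) ^ 2
      ∂((tot ρ').prod κ) ≤ 4 * (Hc ρ + md (Fintype.card ι) (∑ c, e c) - Hc ρ') := by
    refine h3.trans ?_
    have h4 : Hc (nz ρ' κ fun p : ModSpace n × SLR n => act p.1 p.2)
        ≤ Hc ρ + md (Fintype.card ι) (∑ c, e c) := h2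
    linarith
  have hm1 : ∀ c, Measurable fun p : ModSpace n × SLR n =>
      |pv ρ' c p.1 - pv (fun c => stp (ρ' c) κ) c (act p.1 p.2)| := fun c =>
    (((measurable_pv ρ' c).comp measurable_fst).sub
      ((measurable_pv _ c).comp measurable_act₂)).abs
  have hm2 : ∀ c, Measurable fun y : ModSpace n =>
      |pv (fun c => stp (ρ' c) κ) c y - pv ρ c y| := fun c =>
    ((measurable_pv _ c).sub (measurable_pv _ c)).abs
  have hm3 : ∀ c, Measurable fun p : ModSpace n × SLR n =>
      |pv (fun c => stp (ρ' c) κ) c (act p.1 p.2) - pv ρ c (act p.1 p.2)| := fun c =>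
    (hm2 c).comp measurable_act₂
  have hmass1 : ((tot ρ').prod κ).real Set.univ ≤ 1 := by
    rw [measureReal_def, Measure.prod_apply MeasurableSet.univ]
    simpa [measureReal_def] using hT
  have h5 : ∫ y, (∑ c, |pv ρ' c y.1 - pv (fun c => stp (ρ' c) κ) c (act y.1 y.2)|)
      ∂((tot ρ').prod κ) ≤ Real.sqrt (4 * (Hc ρ + md (Fintype.card ι) (∑ c, e c) - Hc ρ')) := by
    refine integral_le_sqrt hmass1 (Finset.measurable_sum _ fun c _ => hm1 c) (M := 2) ?_ h3'
    intro y
    rw [abs_of_nonneg (Finset.sum_nonneg fun c _ => abs_nonneg _)]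
    exact sum_abs_pv_le_two ρ' (fun c => stp (ρ' c) κ) _ _
  have h6 : ∫ y, ∑ c, |pv (fun c => stp (ρ' c) κ) c y - pv ρ c y| ∂(tot fun c => stp (ρ' c) κ)
      ≤ 4 * ∑ c, e c := by
    refine integral_abs_pv_le (fun c => stp (ρ' c) κ) ρ (fun c A hA => ?_) (fun c A hA => ?_)
    · have := h c A hA
      rw [abs_le] at this
      linarith [this.2]
    · have := h c A hA
      rw [abs_le] at this
      linarith [this.1]
  have h7 : ∫ p, ∑ c, |pv (fun c => stp (ρ' c) κ) c (act p.1 p.2) - pv ρ c (act p.1 p.2)|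
      ∂((tot ρ').prod κ) ≤ 4 * ∑ c, e c := by
    refine le_trans (le_of_eq ?_) h6
    have h8 : stp (tot ρ') κ = ((tot ρ').prod κ).map fun p => act p.1 p.2 := rfl
    rw [htot, h8, integral_map measurable_act₂.aemeasurable
      (Finset.measurable_sum _ fun c _ => hm2 c).aestronglyMeasurable]
  have hi1 : Integrable (fun y : ModSpace n × SLR n =>
      (∑ c, |pv ρ' c y.1 - pv (fun c => stp (ρ' c) κ) c (act y.1 y.2)|)) ((tot ρ').prod κ) := by
    refine Integrable.of_bound (Finset.measurable_sum _ fun c _ => hm1 c).aestronglyMeasurable 2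
      (Filter.Eventually.of_forall fun y => ?_)
    rw [Real.norm_eq_abs, abs_of_nonneg (Finset.sum_nonneg fun c _ => abs_nonneg _)]
    exact sum_abs_pv_le_two ρ' (fun c => stp (ρ' c) κ) _ _
  have hi2 : Integrable (fun y : ModSpace n × SLR n =>
      (∑ c, |pv (fun c => stp (ρ' c) κ) c (act y.1 y.2) - pv ρ c (act y.1 y.2)|))
      ((tot ρ').prod κ) := by
    refine Integrable.of_bound (Finset.measurable_sum _ fun c _ => hm3 c).aestronglyMeasurable 2
      (Filter.Eventually.of_forall fun y => ?_)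
    rw [Real.norm_eq_abs, abs_of_nonneg (Finset.sum_nonneg fun c _ => abs_nonneg _)]
    exact sum_abs_pv_le_two (fun c => stp (ρ' c) κ) ρ _ _
  calc ∫ p, ∑ c, |pv ρ' c p.1 - pv ρ c (act p.1 p.2)| ∂((tot ρ').prod κ)
      ≤ ∫ p, ((∑ c, |pv ρ' c p.1 - pv (fun c => stp (ρ' c) κ) c (act p.1 p.2)|)
          + ∑ c, |pv (fun c => stp (ρ' c) κ) c (act p.1 p.2) - pv ρ c (act p.1 p.2)|)
          ∂((tot ρ').prod κ) := by
        refine integral_mono_of_nonneg (Filter.Eventually.of_forall fun y =>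
          Finset.sum_nonneg fun c _ => abs_nonneg _) (hi1.add hi2)
          (Filter.Eventually.of_forall fun y => ?_)
        simp only
        rw [← Finset.sum_add_distrib]
        exact Finset.sum_le_sum fun c _ => abs_sub_le _ _ _
    _ ≤ _ := by
        rw [integral_add hi1 hi2]
        exact add_le_add h5 h7

end Gen

/-! ### The same for labelled random elements and for the digits -/

omit [Fintype ι] in
theorem stp_real_univ (μ : Measure (ModSpace n)) [IsProbabilityMeasure μ] (κ : Measure (SLR n))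
    [IsFiniteMeasure κ] : (stp μ κ).real Set.univ = κ.real Set.univ := by
  unfold stp
  rw [map_measureReal_apply measurable_act₂ MeasurableSet.univ, Set.preimage_univ,
    measureReal_def, Measure.prod_apply MeasurableSet.univ]
  simp [measureReal_def]

omit [Fintype ι] in
theorem tvle_gl (μ : Measure (ModSpace n)) [IsProbabilityMeasure μ] (κ : Measure (SLR n))
    [IsProbabilityMeasure κ] (D' D : ι → Measure (SLR n)) [∀ c, IsFiniteMeasure (D' c)]
    [∀ c, IsFiniteMeasure (D c)] {e : ι → ℝ} (h : ∀ c, TVle (cv (D' c) κ) (D c) (e c)) (c : ι) :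
    TVle (stp (gl μ D' c) κ) (gl μ D c) (e c) := by
  rw [stp_gl]
  exact (h c).stp_right

/-- **(2.2)** for labelled random elements. -/
theorem Hc_gl_mono [Nonempty ι] (μ : Measure (ModSpace n)) [IsProbabilityMeasure μ]
    (κ : Measure (SLR n)) [IsProbabilityMeasure κ] (D' D : ι → Measure (SLR n))
    [∀ c, IsFiniteMeasure (D' c)] [∀ c, IsFiniteMeasure (D c)] {e : ι → ℝ}
    (h : ∀ c, TVle (cv (D' c) κ) (D c) (e c)) (hT : ∑ c, (D' c).real Set.univ ≤ 1)
    (he : ∑ c, e c ≤ 1) :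
    Hc (gl μ D') ≤ Hc (gl μ D) + md (Fintype.card ι) (∑ c, e c) := by
  refine Hc_mono _ _ κ (tvle_gl μ κ D' D h) ?_ he
  rw [tot_real_univ]
  refine le_trans (le_of_eq (Finset.sum_congr rfl fun c _ => ?_)) hT
  exact stp_real_univ μ (D' c)

theorem pinsker_gl [Nonempty ι] (μ : Measure (ModSpace n)) [IsProbabilityMeasure μ]
    (κ : Measure (SLR n)) [IsProbabilityMeasure κ] (D' D : ι → Measure (SLR n))
    [∀ c, IsFiniteMeasure (D' c)] [∀ c, IsFiniteMeasure (D c)] {e : ι → ℝ}
    (h : ∀ c, TVle (cv (D' c) κ) (D c) (e c)) (hT : ∑ c, (D' c).real Set.univ ≤ 1)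
    (he : ∑ c, e c ≤ 1) :
    ∫ p, ∑ c, |pv (gl μ D') c p.1 - pv (gl μ D) c (act p.1 p.2)| ∂((tot (gl μ D')).prod κ)
      ≤ Real.sqrt (4 * (Hc (gl μ D) + md (Fintype.card ι) (∑ c, e c) - Hc (gl μ D')))
        + 4 * ∑ c, e c := by
  refine pinsker_close _ _ κ (tvle_gl μ κ D' D h) ?_ he
  rw [tot_real_univ]
  refine le_trans (le_of_eq (Finset.sum_congr rfl fun c _ => ?_)) hT
  exact stp_real_univ μ (D' c)

section Lab

variable (μ : Measure (ModSpace n)) [IsProbabilityMeasure μ] (κ' κ : Measure (SLR n))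
  [IsProbabilityMeasure κ'] [IsProbabilityMeasure κ] {i j : Fin n} (hij : i ≠ j) (r : ℝ) {b : ℕ}

omit [Fintype ι] in
theorem tvle_lab {e : ℝ} (d : Fin b)
    (h : TVle (cv (cv κ' (dlaw hij r b d)) κ) (cv κ (dlaw hij r b d)) e) :
    TVle (stp (lab μ κ' hij r b d) κ) (lab μ κ hij r b d) ((b : ℝ)⁻¹ * e) := by
  have h1 : stp (lab μ κ' hij r b d) κ
      = (b : ℝ≥0∞)⁻¹ • stp μ (cv (cv κ' (dlaw hij r b d)) κ) := by
    rw [lab, smul_stp, stp_stp, stp_stp, cv_assoc]
  have h2 : lab μ κ hij r b d = (b : ℝ≥0∞)⁻¹ • stp μ (cv κ (dlaw hij r b d)) := by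
    rw [lab, stp_stp]
  rw [h1, h2]
  have h3 := (h.stp_right (μ := μ)).smul ((b : ℝ≥0∞)⁻¹)
  simpa using h3

omit [Fintype ι] in
theorem tot_lab_real (hb : 0 < b) : (tot (lab μ κ hij r b)).real Set.univ = 1 := by
  rw [measureReal_def]
  have := tot_lab μ κ hij r hb
  unfold tot
  rw [this]
  rfl

omit [Fintype ι] in
/-- **(2.2)** for the digits and general noise laws. -/
theorem Hc_lab_mono (hb : 0 < b) {e : ℝ}
    (h : ∀ d, TVle (cv (cv κ' (dlaw hij r b d)) κ) (cv κ (dlaw hij r b d)) e) (he : e ≤ 1) :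
    Hc (lab μ κ' hij r b) ≤ Hc (lab μ κ hij r b) + md b e := by
  have : Nonempty (Fin b) := ⟨⟨0, hb⟩⟩
  have hs : ∑ _d : Fin b, (b : ℝ)⁻¹ * e = e := by
    rw [Finset.sum_const, Finset.card_univ, Fintype.card_fin, nsmul_eq_mul, ← mul_assoc,
      mul_inv_cancel₀ (by exact_mod_cast hb.ne'), one_mul]
  have h1 := Hc_mono (lab μ κ' hij r b) (lab μ κ hij r b) κ (e := fun _ => (b : ℝ)⁻¹ * e)
    (fun d => tvle_lab μ κ' κ hij r d (h d)) (tot_lab_real μ κ' hij r hb).le (by rw [hs]; exact he)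
  rw [hs, Fintype.card_fin] at h1
  exact h1

omit [Fintype ι] in
/-- **(2.2)**, Pinsker form, for the digits and general noise laws. -/
theorem pinsker_lab (hb : 0 < b) {e : ℝ}
    (h : ∀ d, TVle (cv (cv κ' (dlaw hij r b d)) κ) (cv κ (dlaw hij r b d)) e) (he : e ≤ 1) :
    ∫ p, ∑ d, |pv (lab μ κ' hij r b) d p.1 - pv (lab μ κ hij r b) d (act p.1 p.2)|
        ∂((tot (lab μ κ' hij r b)).prod κ)
      ≤ Real.sqrt (4 * (Hc (lab μ κ hij r b) + md b e - Hc (lab μ κ' hij r b))) + 4 * e := by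
  have : Nonempty (Fin b) := ⟨⟨0, hb⟩⟩
  have hs : ∑ _d : Fin b, (b : ℝ)⁻¹ * e = e := by
    rw [Finset.sum_const, Finset.card_univ, Fintype.card_fin, nsmul_eq_mul, ← mul_assoc,
      mul_inv_cancel₀ (by exact_mod_cast hb.ne'), one_mul]
  have h1 := pinsker_close (lab μ κ' hij r b) (lab μ κ hij r b) κ (e := fun _ => (b : ℝ)⁻¹ * e)
    (fun d => tvle_lab μ κ' κ hij r d (h d)) (tot_lab_real μ κ' hij r hb).le (by rw [hs]; exact he)
  rw [hs, Fintype.card_fin] at h1
  exact h1

omit [Fintype ι] in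
/-- The law of the observation. -/
theorem tot_lab_eq (hb : 0 < b) : tot (lab μ κ hij r b)
    = stp μ (cv κ (uni.map fun θ => uu hij ((2 : ℝ) ^ (-r) * θ))) := by
  have hm : Measurable fun θ : ℝ => (uu hij ((2 : ℝ) ^ (-r) * θ) : SLR n) :=
    ((continuous_uu hij).comp (by fun_prop)).measurable
  have h1 : uni.map (fun θ : ℝ => (uu hij ((2 : ℝ) ^ (-r) * θ) : SLR n))
      = (b : ℝ≥0∞)⁻¹ • ∑ d : Fin b, dlaw hij r b d := by
    conv_lhs => rw [uni_split hb]
    rw [Measure.map_smul, Measure.map_finset_sum hm.aemeasurable]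
    congr 1
    refine Finset.sum_congr rfl fun k _ => ?_
    rw [Measure.map_map hm (by fun_prop)]
    rfl
  have h2 : IsProbabilityMeasure
      (uni.map fun θ => uu hij ((2 : ℝ) ^ (-r) * θ) : Measure (SLR n)) :=
    Measure.isProbabilityMeasure_map hm.aemeasurable
  rw [← stp_stp, h1, stp_smul, stp_sum, Finset.smul_sum]
  rfl

omit [Fintype ι] in
theorem Hc_lab_nonneg : 0 ≤ Hc (lab μ κ hij r b) := Hc_nonneg _

omit [Fintype ι] in
theorem Hc_lab_le (hb : 0 < b) : Hc (lab μ κ hij r b) ≤ Real.log b := by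
  have : Nonempty (Fin b) := ⟨⟨0, hb⟩⟩
  have h := Hc_le_log (lab μ κ hij r b)
  rw [tot_lab_real μ κ hij r hb, Fintype.card_fin, one_mul] at h
  exact h

end Lab

end Crest.Agent.R014.Nd_837
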