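import Crest.Agent.R014.NScF_395
import Crest.Agent.R014.NScA_395
import Crest.Agent.R014.Nd3_837

/-!
# Row 14, block D, noise formalism, section 3 of post 3844 (helper395), part G

The choice of the scale (`scale`) and the near invariance of `Psi` under the kernel of the root
(`q1`), for a family of box noises described by `NoiseFam`.
-/

set_option autoImplicit false

open MeasureTheory Finset Filter Topology Crest.NumberTheoryR.Packets
open Crest.Agent.R014.Nd_837 Crest.Agent.R014.Ne1_567 Crest.Agent.R014.NScB_395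
open Crest.Agent.R014.NScC_395 Crest.Agent.R014.NScD_395 Crest.Agent.R014.NScE_395
open Crest.Agent.R014.Ms_667
open Crest.Agent.R014.NScA_395 (Met Neg Clean rho Dig Good)
open scoped ENNReal

noncomputable section

namespace Crest.Agent.R014.NScG_395

variable {n : ℕ}

/-- the five facts about box noises that are used -/
structure NoiseFam (zt : Met n → Measure (SLR n)) (adm : Met n → Prop) (C c1 : ℝ) : Prop where
  C0 : 0 ≤ C
  prob : ∀ R, adm R → IsProbabilityMeasure (zt R)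
  cj_zt : ∀ R t, adm R → Nd_837.cj (aT t) (zt R) = zt (R + NScA_395.sh t)
  adm_sh : ∀ R t, adm R → adm (R + NScA_395.sh t)
  adm_of : ∀ R, (∀ p q, c1 ≤ R p q) → adm R
  com : ∀ (i j : Fin n) (hij : i ≠ j) (r w : ℝ) (R : Met n) (b : ℕ) (d : Fin b), adm R →
    Clean i j r w R →
    TVle (cv (dlaw hij r b d) (zt R)) (cv (zt R) (dlaw hij r b d)) (C * (2:ℝ) ^ (-w))
  absl : ∀ (R R' : Met n) (w : ℝ), 0 ≤ w → adm R → adm R' → Neg w R' R →
    TVle (cv (zt R') (zt R)) (zt R) (C * (2:ℝ) ^ (-w))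

/-- the error of (2.2) -/
def ew (b : ℕ) (C w : ℝ) : ℝ := md b (min 1 (2 * C * (2:ℝ) ^ (-w)))

/-- the digit entropy -/
def fdig (zt : Met n → Measure (SLR n)) (μ : Measure (ModSpace n)) (b : ℕ) (i j : Fin n) (r : ℝ)
    (R : Met n) : ℝ := if h : i ≠ j then Hc (lab μ (zt R) h r b) else 0

variable {zt : Met n → Measure (SLR n)} {adm : Met n → Prop} {C c1 : ℝ}

theorem NoiseFam.key (hZ : NoiseFam zt adm C c1) {i j : Fin n} (hij : i ≠ j) {r w : ℝ}
    {R R' : Met n} (hw : 0 ≤ w) (hR : adm R) (hR' : adm R') (hC : Clean i j r w R)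
    (hN : Neg w R' R) (b : ℕ) (d : Fin b) :
    TVle (cv (cv (zt R') (dlaw hij r b d)) (zt R)) (cv (zt R) (dlaw hij r b d))
      (2 * C * (2:ℝ) ^ (-w)) := by
  have := hZ.prob R hR
  have := hZ.prob R' hR'
  rw [cv_assoc]
  have h1 := (hZ.com i j hij r w R b d hR hC).cv_right (κ := zt R')
  have h2 := (hZ.absl R R' w hw hR hR' hN).cv_left (κ := dlaw hij r b d)
  rw [cv_assoc] at h2
  exact (h1.trans h2).mono (le_of_eq (by ring))

theorem ew_nonneg (b : ℕ) (hC : 0 ≤ C) (w : ℝ) : 0 ≤ ew b C w :=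
  md_nonneg b (le_min zero_le_one (by positivity)) (min_le_left _ _)

theorem ew_anti (b : ℕ) (hC : 0 ≤ C) {w w' : ℝ} (h : w ≤ w') : ew b C w' ≤ ew b C w := by
  refine md_mono b (le_min zero_le_one (by positivity)) ?_ (min_le_left _ _)
  refine min_le_min le_rfl (mul_le_mul_of_nonneg_left ?_ (by positivity))
  exact Real.rpow_le_rpow_of_exponent_le (by norm_num) (by linarith)

theorem tendsto_pow (C : ℝ) : Tendsto (fun w : ℝ => 2 * C * (2:ℝ) ^ (-w)) atTop (𝓝 0) := by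
  have h1 : Tendsto (fun w : ℝ => (2:ℝ) ^ (-w)) atTop (𝓝 0) := by
    have h2 : (fun w : ℝ => (2:ℝ) ^ (-w)) = fun w : ℝ => Real.exp (-(Real.log 2 * w)) := by
      funext w
      rw [Real.rpow_def_of_pos two_pos]
      congr 1
      ring
    rw [h2]
    exact Real.tendsto_exp_neg_atTop_nhds_zero.comp
      (tendsto_id.const_mul_atTop (Real.log_pos one_lt_two))
  simpa using h1.const_mul (2 * C)

theorem tendsto_ew (b : ℕ) (C : ℝ) : Tendsto (ew b C) atTop (𝓝 0) := by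
  have h1 : Continuous (md b) := by
    unfold md
    exact (continuous_id.mul continuous_const).add (continuous_id.add Real.continuous_negMulLog)
  have h2 : Tendsto (fun w : ℝ => min 1 (2 * C * (2:ℝ) ^ (-w))) atTop (𝓝 0) := by
    have := (tendsto_const_nhds (x := (1:ℝ)) (f := (atTop : Filter ℝ))).min (tendsto_pow C)
    simpa using this
  have h3 := (h1.tendsto 0).comp h2
  rw [md_zero] at h3
  exact h3

/-- (2.1), (2.2) for the digit entropy -/
theorem NoiseFam.dig (hZ : NoiseFam zt adm C c1) {μ : Measure (ModSpace n)}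
    [IsProbabilityMeasure μ] (hμ : AInv μ) {b : ℕ} (hb : 0 < b) :
    Dig (fdig zt μ b) adm (ew b C) (Real.log b) c1 where
  eqv := by
    intro i j r R t hR
    have := hZ.prob R hR
    unfold fdig
    split_ifs with hij
    · rw [← hZ.cj_zt R t hR, Hc_lab_sh hμ]
    · rfl
  mono := by
    intro i j r R R' w hij hw hR hR' hC _ hN
    have := hZ.prob R hR
    have := hZ.prob R' hR'
    unfold fdig
    rw [dif_pos hij, dif_pos hij]
    have hk := hZ.key hij (by linarith) hR hR' hC hN b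
    unfold ew
    rcases le_total (2 * C * (2:ℝ) ^ (-w)) 1 with h | h
    · rw [min_eq_right h]
      exact Hc_lab_mono μ (zt R') (zt R) hij r hb hk h
    · rw [min_eq_left h, md_one]
      have h1 := Hc_lab_le μ (zt R') hij r hb
      have h2 := Hc_lab_nonneg μ (zt R) hij r (b := b)
      linarith
  lo := by
    intro i j r R hR
    have := hZ.prob R hR
    unfold fdig
    split_ifs with hij
    · exact Hc_lab_nonneg μ (zt R) hij r
    · exact le_rfl
  hi := by
    intro i j r R hR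
    have := hZ.prob R hR
    unfold fdig
    split_ifs with hij
    · exact Hc_lab_le μ (zt R) hij r hb
    · exact Real.log_natCast_nonneg b
  adm_sh := hZ.adm_sh
  adm_of := hZ.adm_of
  anti := fun w w' _ h => ew_anti b hZ.C0 h
  e0 := fun w _ => ew_nonneg b hZ.C0 w

/-- near constancy of the digit entropies between the scales `u1` and `u2` -/
def NCst (zt : Met n → Measure (SLR n)) (μ : Measure (ModSpace n)) (u1 u2 : ℝ) (B : Finset ℕ)
    (η : ℝ) : Prop :=
  ∀ i j : Fin n, i ≠ j → ∀ b ∈ B, 0 < b →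
    fdig zt μ b i j 0 (u1 • rho i j) - fdig zt μ b i j 0 (u2 • rho i j) ≤ η

theorem NCst.mono {μ : Measure (ModSpace n)} {u1 u2 : ℝ} {B B' : Finset ℕ} {η η' : ℝ}
    (h : NCst zt μ u1 u2 B η) (hB : B' ⊆ B) (hη : η ≤ η') : NCst zt μ u1 u2 B' η' :=
  fun i j hij b hb hb0 => (h i j hij b (hB hb) hb0).trans hη

/-- the reference spread function -/
def PS (zt : Met n → Measure (SLR n)) (μ : Measure (ModSpace n)) (u1 : ℝ) (b : ℕ) (i j : Fin n)
    (x : ModSpace n) : ℝ := if h : i ≠ j then Psi μ (zt (u1 • rho i j)) h 0 b x else 0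

/-- finite sums of digit entropies -/
theorem NoiseFam.dig_sum (hZ : NoiseFam zt adm C c1) {μ : Measure (ModSpace n)}
    [IsProbabilityMeasure μ] (hμ : AInv μ) (B : Finset ℕ) (hB : ∀ b ∈ B, 0 < b) :
    Dig (fun i j r R => ∑ b ∈ B, fdig zt μ b i j r R) adm (fun w => ∑ b ∈ B, ew b C w)
      (∑ b ∈ B, Real.log b) c1 where
  eqv := fun i j r R t hR => sum_congr rfl fun b hb => (hZ.dig hμ (hB b hb)).eqv i j r R t hR
  mono := by
    intro i j r R R' w hij hw hR hR' hC hC' hN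
    rw [← sum_add_distrib]
    exact sum_le_sum fun b hb => (hZ.dig hμ (hB b hb)).mono i j r R R' w hij hw hR hR' hC hC' hN
  lo := fun i j r R hR => sum_nonneg fun b hb => (hZ.dig hμ (hB b hb)).lo i j r R hR
  hi := fun i j r R hR => sum_le_sum fun b hb => (hZ.dig hμ (hB b hb)).hi i j r R hR
  adm_sh := hZ.adm_sh
  adm_of := hZ.adm_of
  anti := fun w w' h1 h => sum_le_sum fun b hb => (hZ.dig hμ (hB b hb)).anti w w' h1 h
  e0 := fun w h1 => sum_nonneg fun b hb => (hZ.dig hμ (hB b hb)).e0 w h1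

/-- **choice of the scale** -/
theorem scale (hZ : NoiseFam zt adm C c1) (B : Finset ℕ) {d0 η : ℝ} (hd0 : 0 < d0) (hη : 0 < η) :
    ∃ Rr A0 : ℝ, 0 < Rr ∧ ∀ A, A0 ≤ A → ∀ μ : Measure (ModSpace n), IsProbabilityMeasure μ →
      AInv μ → ∃ u1 u2 : ℝ, A ≤ u1 ∧ u2 ≤ Rr * A ∧ u1 ≤ d0 * u2 ∧ NCst zt μ u1 u2 B η := by
  set B' := B.filter fun b => 0 < b with hB'
  have hB0 : ∀ b ∈ B', 0 < b := fun b hb => (mem_filter.1 hb).2
  set δ : ℝ := min (1 / 9) d0 with hδ
  have hδ0 : 0 < δ := lt_min (by norm_num) hd0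
  have hδ9 : δ ≤ 1 / 9 := min_le_left _ _
  set Bd : ℝ := ∑ b ∈ B', Real.log b with hBd
  have hBd0 : 0 ≤ Bd := sum_nonneg fun b _ => Real.log_natCast_nonneg b
  obtain ⟨N, hN⟩ := exists_nat_gt ((n : ℝ) ^ 2 * Bd / (η / 4))
  have hN0 : (0:ℝ) < N := lt_of_le_of_lt (by positivity) hN
  have hN1 : (n : ℝ) ^ 2 * Bd < (η / 4) * N := by
    rw [div_lt_iff₀ (by positivity)] at hN; linarith
  have ht : Tendsto (fun w : ℝ => ∑ b ∈ B', ew b C w) atTop (𝓝 0) := by
    have := tendsto_finsetSum B' fun b _ => tendsto_ew b C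
    simpa using this
  set κ : ℝ := min (η / 2) (η / (8 * ((n:ℝ) ^ 2 + 1))) with hκ
  have hκ0 : 0 < κ := lt_min (by positivity) (by positivity)
  obtain ⟨W, hW⟩ := eventually_atTop.1 (ht.eventually (eventually_lt_nhds hκ0))
  set A0 : ℝ := max 20 (max (20 * c1) (20 * W)) with hA0
  refine ⟨(80 / δ ^ 2) ^ N / δ ^ 2, A0, by positivity, ?_⟩
  intro A hA μ hμp hμ
  have hA20 : 20 ≤ A := le_trans (le_max_left _ _) hA
  have hAc : 20 * c1 ≤ A := le_trans (le_trans (le_max_left _ _) (le_max_right _ _)) hA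
  have hAW : 20 * W ≤ A := le_trans (le_trans (le_max_right _ _) (le_max_right _ _)) hA
  have hD := hZ.dig_sum hμ B' hB0
  have hsmall := hW (A / 20) (by linarith)
  have hδA : δ * (A / δ) = A := by field_simp
  have hκ1 : κ ≤ η / 2 := min_le_left _ _
  have hκ2 : 2 * (n:ℝ) ^ 2 * κ ≤ η / 4 := by
    have h1 : κ ≤ η / (8 * ((n:ℝ) ^ 2 + 1)) := min_le_right _ _
    rw [le_div_iff₀ (by positivity)] at h1
    nlinarith
  have hsum0 : 0 ≤ ∑ b ∈ B', ew b C (A / 20) := sum_nonneg fun b _ => ew_nonneg b hZ.C0 _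
  obtain ⟨m, hm, h⟩ := hD.exists_scale hBd0 (A := A / δ) (η := η / 2) hδ0 hδ9 N
    (by rw [hδA]; exact hA20) (by rw [hδA]; exact hAc) (by
      rw [hδA]
      have h1 : 2 * (n:ℝ) ^ 2 * ∑ b ∈ B', ew b C (A / 20) ≤ 2 * (n:ℝ) ^ 2 * κ :=
        mul_le_mul_of_nonneg_left hsmall.le (by positivity)
      nlinarith)
  set Q : ℝ := 80 / δ ^ 2 with hQ
  have hδ2 : δ ^ 2 ≤ 1 / 81 := by nlinarith
  have hQ1 : 1 ≤ Q := by
    rw [hQ, le_div_iff₀ (by positivity)]; nlinarith
  have hQm : 1 ≤ Q ^ m := one_le_pow₀ hQ1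
  have hQmN : Q ^ m ≤ Q ^ N := pow_le_pow_right₀ hQ1 hm.le
  have hA0' : 0 < A := by linarith
  have e1 : δ * (A / δ * Q ^ m) = A * Q ^ m := by field_simp
  have e2 : A / δ * Q ^ m / δ = A * Q ^ m / δ ^ 2 := by field_simp
  rw [e1, e2] at h
  refine ⟨A * Q ^ m, A * Q ^ m / δ ^ 2, ?_, ?_, ?_, ?_⟩
  · exact le_mul_of_one_le_right hA0'.le hQm
  · rw [div_mul_eq_mul_div]
    refine div_le_div_of_nonneg_right ?_ (by positivity)
    nlinarith
  · have h1 : δ ^ 2 ≤ d0 := by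
      have : δ ≤ d0 := min_le_right _ _
      nlinarith
    have h2 : 0 < A * Q ^ m := by positivity
    rw [mul_div_assoc', le_div_iff₀ (by positivity)]
    nlinarith
  · intro i j hij b hb hb0
    have hbB : b ∈ B' := mem_filter.2 ⟨hb, hb0⟩
    have h1 := h i j hij
    rw [← sum_sub_distrib, ← add_sum_erase B' _ hbB] at h1
    have hu1 : A ≤ A * Q ^ m := le_mul_of_one_le_right hA0'.le hQm
    have hu12 : 80 * (A * Q ^ m) ≤ A * Q ^ m / δ ^ 2 := by
      rw [le_div_iff₀ (by positivity)]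
      have h80 : 80 * δ ^ 2 ≤ 1 := by linarith
      calc 80 * (A * Q ^ m) * δ ^ 2 = (80 * δ ^ 2) * (A * Q ^ m) := by ring
        _ ≤ 1 * (A * Q ^ m) := mul_le_mul_of_nonneg_right h80 (by positivity)
        _ = _ := one_mul _
    have h2 : ∀ b' ∈ B'.erase b, -ew b' C (A / 20) ≤
        fdig zt μ b' i j 0 ((A * Q ^ m) • rho i j) -
          fdig zt μ b' i j 0 ((A * Q ^ m / δ ^ 2) • rho i j) := by
      intro b' hb'
      have hd := hZ.dig hμ (hB0 b' (mem_of_mem_erase hb'))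
      have h3 := hd.step hij (u := A * Q ^ m) (u' := A * Q ^ m / δ ^ 2) (by linarith)
        (by linarith) hu12
      have h4 := ew_anti b' hZ.C0 (w := A / 20) (w' := A * Q ^ m / 20) (by linarith)
      linarith
    have h5 := sum_le_sum h2
    rw [sum_neg_distrib] at h5
    have h6 : ∑ b' ∈ B'.erase b, ew b' C (A / 20) ≤ ∑ b' ∈ B', ew b' C (A / 20) :=
      sum_le_sum_of_subset_of_nonneg (erase_subset _ _) fun b' _ _ => ew_nonneg b' hZ.C0 _
    linarith

/-- near constancy for one `b` gives closeness of the digit entropy on good metrics -/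
theorem NoiseFam.good (hZ : NoiseFam zt adm C c1) {μ : Measure (ModSpace n)}
    [IsProbabilityMeasure μ] (hμ : AInv μ) {b : ℕ} (hb : 0 < b) {i j : Fin n} (hij : i ≠ j)
    {w u1 u2 η : ℝ} (hw : 1 ≤ w) (hwu : w ≤ u1 / 20) (hc : 20 * c1 ≤ u1)
    (hη : fdig zt μ b i j 0 (u1 • rho i j) - fdig zt μ b i j 0 (u2 • rho i j) ≤ η) {R : Met n}
    (hR : Good i j w u1 u2 R) :
    Hc (lab μ (zt R) hij 0 b) ≤ Hc (lab μ (zt (u1 • rho i j)) hij 0 b) + ew b C w ∧
      Hc (lab μ (zt (u1 • rho i j)) hij 0 b) - η - ew b C w ≤ Hc (lab μ (zt R) hij 0 b) := by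
  have h := (hZ.dig hμ hb).near_const hij hw hwu hc hη hR
  simpa only [fdig, dif_pos hij] using h

/-- (3.1) for a metric with entries between the two scales, with explicit error -/
theorem NoiseFam.acv (hZ : NoiseFam zt adm C c1) {μ : Measure (ModSpace n)}
    [IsProbabilityMeasure μ] (hμ : AInv μ) {b : ℕ} [NeZero b] {i j : Fin n} (hij : i ≠ j)
    {w u1 u2 η : ℝ} (hw : 1 ≤ w) (hwu : w ≤ u1 / 20) (hc : 20 * c1 ≤ u1)
    (hη : fdig zt μ b i j 0 (u1 • rho i j) - fdig zt μ b i j 0 (u2 • rho i j) ≤ η)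
    (he : 2 * C * (2:ℝ) ^ (-w) ≤ 1) {R : Met n} (hcl : Clean i j 0 w R)
    (hlo : ∀ p q, 3 * u1 + w ≤ R p q) (hhi : ∀ p q, R p q + w ≤ u2 / 20) :
    ∫ x, |Acv μ (zt R) hij 0 b x - Psi μ (zt (u1 • rho i j)) hij 0 b x| ∂μ ≤
      8 * √(η + ew b C w + ew b C w) + (8 * b + 12) * (2 * C * (2:ℝ) ^ (-w)) := by
  have hb : 0 < b := Nat.pos_of_ne_zero (NeZero.ne b)
  have hu1 : 0 ≤ u1 := by linarith
  have hadm : adm R := hZ.adm_of _ fun p q => by
    have := hlo p q
    rcases le_total 0 c1 with h | h <;> linarith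
  have hadm1 : adm (u1 • rho i j) := (hZ.dig hμ hb).adm_rho hu1 hc
  have := hZ.prob R hadm
  have := hZ.prob _ hadm1
  have hgood : Good i j w u1 u2 R := by
    refine ⟨hcl, 0, rfl, fun p q => ?_⟩
    have h0 : (R + NScA_395.sh (0 : Fin n → ℝ)) p q = R p q := by
      simp [NScA_395.sh]
    rw [h0]
    exact ⟨hlo p q, hhi p q⟩
  have h1 := (hZ.good hμ hb hij hw hwu hc hη hgood).2
  have hneg : Neg w R (u1 • rho i j) := NScA_395.neg_of_bounds (a := 3 * u1 + w) (b := 3 * u1) hlo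
    (fun p q => le_trans (by positivity) (NScA_395.smul_ge hu1 i j p q))
    (NScA_395.smul_le hu1 i j) le_rfl
  have hcl1 : Clean i j 0 w (u1 • rho i j) := (NScA_395.clean_rho hij hu1).mono hwu
  have hk := hZ.key hij (by linarith) hadm1 hadm hcl1 hneg b
  have h2 := NScF_395.acv_close_tv (μ := μ) he hk (η := η + ew b C w) (by linarith)
  refine h2.trans ?_
  have h3 : NScF_395.md b (2 * C * (2:ℝ) ^ (-w)) = ew b C w := by
    unfold ew
    rw [min_eq_right he]
    rfl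
  rw [h3]

/-- (3.2) with explicit error -/
theorem NoiseFam.psi_ker (hZ : NoiseFam zt adm C c1) {μ : Measure (ModSpace n)}
    [IsProbabilityMeasure μ] (hμ : AInv μ) {b : ℕ} [NeZero b] {i j : Fin n} (hij : i ≠ j)
    {u1 u2 η : ℝ} (hu : 20 ≤ u1) (hc : 20 * c1 ≤ u1) (hu12 : u1 ≤ u2 / 100000)
    (hη : fdig zt μ b i j 0 (u1 • rho i j) - fdig zt μ b i j 0 (u2 • rho i j) ≤ η)
    (he : 2 * C * (2:ℝ) ^ (-(u1 / 20)) ≤ 1) {t : Fin n → ℝ} (ht : t i = t j)
    (htb : ∀ l, |t l| ≤ u2 / 3000) :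
    ∫ x, |Psi μ (zt (u1 • rho i j)) hij 0 b x -
        Psi μ (zt (u1 • rho i j)) hij 0 b (act x (aT t))| ∂μ ≤
      2 * (8 * √(η + ew b C (u1 / 20) + ew b C (u1 / 20)) +
        (8 * b + 12) * (2 * C * (2:ℝ) ^ (-(u1 / 20)))) := by
  have hb : 0 < b := Nat.pos_of_ne_zero (NeZero.ne b)
  set w : ℝ := u1 / 20 with hw
  have hw1 : 1 ≤ w := by rw [hw]; linarith
  set M : ℝ := 40 * (u2 / 3000) + 60 * u1 + 20 * w with hM
  have hu2 : 0 ≤ u2 := by linarith
  have hM0 : 0 ≤ M := by positivity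
  have hsh : ∀ p q, |NScA_395.sh t p q| ≤ 2 * (u2 / 3000) := by
    intro p q
    unfold NScA_395.sh
    have := abs_sub (t p) (t q)
    linarith [htb p, htb q]
  have hlo0 : ∀ p q, 3 * u1 + w + 2 * (u2 / 3000) ≤ (M • rho i j) p q := by
    intro p q
    have := NScA_395.smul_ge hM0 i j p q
    rw [hM] at this ⊢
    linarith
  have hhi0 : ∀ p q, (M • rho i j) p q + w + 2 * (u2 / 3000) ≤ u2 / 20 := by
    intro p q
    have := NScA_395.smul_le hM0 i j p q
    have h2 : 3 * M + w + 2 * (u2 / 3000) ≤ u2 / 20 := by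
      rw [hM, hw]
      linarith
    linarith
  have hadm : adm (M • rho i j) := hZ.adm_of _ fun p q => by
    have := hlo0 p q
    rcases le_total 0 c1 with h | h <;> linarith
  have hprob := hZ.prob _ hadm
  have hadm1 : adm (u1 • rho i j) := (hZ.dig hμ hb).adm_rho (by linarith) hc
  have hprob1 := hZ.prob _ hadm1
  have hcl : Clean i j 0 w (M • rho i j) := (NScA_395.clean_rho hij hM0).mono (by
    rw [hw, hM]; linarith)
  have hE := hZ.acv hμ hij hw1 le_rfl hc hη he hcl (fun p q => by linarith [hlo0 p q])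
    (fun p q => by linarith [hhi0 p q])
  have hE' := hZ.acv hμ hij hw1 le_rfl hc hη he
    (R := M • rho i j + NScA_395.sh t) ((NScA_395.clean_sh_ker ht).2 hcl)
    (fun p q => by
      simp only [Pi.add_apply]
      have h1 := hsh p q
      linarith [hlo0 p q, neg_abs_le (NScA_395.sh t p q)])
    (fun p q => by
      simp only [Pi.add_apply]
      have h1 := hsh p q
      linarith [hhi0 p q, le_abs_self (NScA_395.sh t p q)])
  rw [← hZ.cj_zt _ t hadm] at hE'
  have h0 : cj (aT (0 : Fin n → ℝ)) (zt (M • rho i j)) = zt (M • rho i j) := by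
    rw [hZ.cj_zt _ 0 hadm]
    congr 1
    funext p q
    simp [NScA_395.sh]
  rw [← h0] at hE
  have h := psi_inv hμ (κ := zt (M • rho i j)) (κ1 := zt (u1 • rho i j)) hij (b := b) (r0 := 0)
    (r := 0) 0 t (by rw [ht]; simp) (by simp) hE hE'
  simp only [aT_zero, act_one] at h
  refine h.trans (le_of_eq ?_)
  ring

/-- **(Q1)** -/
theorem q1 (hZ : NoiseFam zt adm C c1) {b : ℕ} (hb : 0 < b) {e1 : ℝ} (he1 : 0 < e1) :
    ∃ η U : ℝ, 0 < η ∧ 0 < U ∧ ∀ μ : Measure (ModSpace n), IsProbabilityMeasure μ → AInv μ →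
      ∀ u1 u2 : ℝ, U ≤ u1 → u1 ≤ 1 / 100000 * u2 → ∀ i j : Fin n, i ≠ j →
      fdig zt μ b i j 0 (u1 • rho i j) - fdig zt μ b i j 0 (u2 • rho i j) ≤ η →
      ∀ t : Fin n → ℝ, t i = t j → (∀ l, |t l| ≤ u2 / 3000) →
      ∫ x, |PS zt μ u1 b i j x - PS zt μ u1 b i j (act x (aT t))| ∂μ ≤ e1 := by
  have : NeZero b := ⟨hb.ne'⟩
  set η : ℝ := (e1 / 32) ^ 2 / 3 with hη
  have hη0 : 0 < η := by positivity
  have ht1 := (tendsto_ew b C).eventually (eventually_lt_nhds hη0)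
  have hκ : 0 < min 1 (e1 / (4 * (8 * b + 12))) := lt_min one_pos (by positivity)
  have ht2 := (tendsto_pow C).eventually (eventually_lt_nhds hκ)
  obtain ⟨W, hW⟩ := eventually_atTop.1 (ht1.and ht2)
  refine ⟨η, max 20 (max (20 * c1) (20 * W)), hη0, lt_of_lt_of_le (by norm_num) (le_max_left _ _),
    ?_⟩
  intro μ hμp hμ u1 u2 hU hu12 i j hij hnc t ht htb
  have hu20 : 20 ≤ u1 := le_trans (le_max_left _ _) hU
  have huc : 20 * c1 ≤ u1 := le_trans (le_trans (le_max_left _ _) (le_max_right _ _)) hU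
  have huW : 20 * W ≤ u1 := le_trans (le_trans (le_max_right _ _) (le_max_right _ _)) hU
  obtain ⟨hw1, hw2⟩ := hW (u1 / 20) (by linarith)
  have hw3 : 2 * C * (2:ℝ) ^ (-(u1 / 20)) ≤ 1 := hw2.le.trans (min_le_left _ _)
  have hw4 : (8 * b + 12) * (2 * C * (2:ℝ) ^ (-(u1 / 20))) ≤ e1 / 4 := by
    have h1 : 2 * C * (2:ℝ) ^ (-(u1 / 20)) ≤ e1 / (4 * (8 * b + 12)) :=
      hw2.le.trans (min_le_right _ _)
    have h2 : (8 * (b:ℝ) + 12) * (e1 / (4 * (8 * b + 12))) = e1 / 4 := by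
      field_simp
    have h3 : (0:ℝ) ≤ 8 * b + 12 := by positivity
    calc _ ≤ (8 * (b:ℝ) + 12) * (e1 / (4 * (8 * b + 12))) := mul_le_mul_of_nonneg_left h1 h3
      _ = _ := h2
  have h := hZ.psi_ker hμ (b := b) hij hu20 huc (by linarith) hnc hw3 ht htb
  have h5 : √(η + ew b C (u1 / 20) + ew b C (u1 / 20)) ≤ e1 / 32 := by
    rw [Real.sqrt_le_left (by positivity)]
    have : (e1 / 32) ^ 2 = 3 * η := by rw [hη]; ring
    linarith
  unfold PS
  simp only [dif_pos hij]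
  refine h.trans ?_
  linarith

end Crest.Agent.R014.NScG_395
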