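import Crest.Agent.R014.Conv_792
import Crest.Agent.R014.NScG_395

/-!
# Row 14, block D, board item D10 (helper792): CONV over helper395's `NScG_395.PS`

`conv_PS`: the spread function of base `2` is bounded by `2^q` times the spread function of base
`2^K` (`K > q`) up to a nonnegative function of integral `≤ 2^(-q)`.
-/

set_option autoImplicit false
set_option linter.style.haveILetI false

open MeasureTheory Set Crest.NumberTheoryR.Packets
open Crest.Agent.R014.Nd_837 Crest.Agent.R014.Ne1_567 Crest.Agent.R014.Conv_792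
open Crest.Agent.R014.Iface_792 Crest.Agent.R014.NScG_395
open Crest.Agent.R014.NScA_395 (Met rho)
open Crest.Agent.R014.NScC_395 Crest.Agent.R014.NScD_395 Crest.Agent.R014.Ms_667
open Crest.Agent.R014.Ne3_567 (pv measurable_pv pv_nonneg sum_pv pv_le_one pv_eq integral_pv_mul)

noncomputable section

namespace Crest.Agent.R014.Conv2_792

variable {n : ℕ}

theorem card_near_dvd (q m p : ℕ) (hm : 0 < m) (hp : m = 2 ^ q * p) :
    ((nearB q (2 * m)).card : ℝ) ≤ 2 * (m * (2 : ℝ) ^ (-(q : ℝ))) := by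
  have hm' : (0 : ℝ) < m := by exact_mod_cast hm
  have hX : (m : ℝ) * (2 : ℝ) ^ (-(q : ℝ)) = p := by
    rw [hp, Real.rpow_neg (by norm_num), Real.rpow_natCast]
    push_cast
    field_simp
  have h1 : (nearB q (2 * m)).card ≤ (Finset.univ (α := Fin 2) ×ˢ Finset.range p).card := by
    refine Finset.card_le_card_of_injOn
      (fun d => ((finProdFinEquiv.symm d).1,
        if (finProdFinEquiv.symm d).1 = 0 then m - 1 - ((finProdFinEquiv.symm d).2 : ℕ)
          else ((finProdFinEquiv.symm d).2 : ℕ))) ?_ ?_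
    · intro d hd
      obtain ⟨⟨c, k⟩, rfl⟩ := finProdFinEquiv.surjective d
      have hd' : |cen (2 * m) (finProdFinEquiv (c, k))| < (2 : ℝ) ^ (-(q : ℝ)) := by
        simpa [nearB] using hd
      simp only [Equiv.symm_apply_apply, Finset.coe_product, Finset.coe_univ, Finset.coe_range,
        Set.mem_prod, Set.mem_univ, true_and, Set.mem_Iio]
      have hk : (k : ℕ) < m := k.2
      have hc : c = 0 ∨ c = 1 := by fin_cases c <;> simp
      rcases hc with rfl | rfl
      · rw [if_pos rfl]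
        rw [abs_of_neg (cen_lo_neg k), cen_lo, neg_neg, div_lt_iff₀ (by positivity)] at hd'
        have h3 : ((m - 1 - (k : ℕ) : ℕ) : ℝ) < p := by
          rw [Nat.sub_sub, Nat.cast_sub (by omega)]
          push_cast
          rw [← hX]
          nlinarith
        exact_mod_cast h3
      · rw [if_neg (by decide)]
        rw [abs_of_pos (cen_hi_pos k), cen_hi, div_lt_iff₀ (by positivity)] at hd'
        have h3 : ((k : ℕ) : ℝ) < p := by
          rw [← hX]
          nlinarith
        exact_mod_cast h3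
    · intro d _ d' _ hdd
      obtain ⟨⟨c, k⟩, rfl⟩ := finProdFinEquiv.surjective d
      obtain ⟨⟨c', k'⟩, rfl⟩ := finProdFinEquiv.surjective d'
      simp only [Equiv.symm_apply_apply, Prod.mk.injEq] at hdd
      obtain ⟨rfl, h2⟩ := hdd
      have hk : (k : ℕ) < m := k.2
      have hk' : (k' : ℕ) < m := k'.2
      have : k = k' := by
        apply Fin.ext
        split_ifs at h2 <;> omega
      rw [this]
  have h2 : (Finset.univ (α := Fin 2) ×ˢ Finset.range p).card = 2 * p := by simp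
  rw [h2] at h1
  rw [hX]
  exact_mod_cast h1

theorem integral_Bd_dvd (μ : Measure (ModSpace n)) (κ : Measure (SLR n)) [IsProbabilityMeasure μ]
    [IsProbabilityMeasure κ] {i j : Fin n} (hij : i ≠ j) (r : ℝ) (q m p : ℕ) (hm : 0 < m)
    (hp : m = 2 ^ q * p) :
    ∫ x, Bd μ κ hij r q (2 * m) x ∂μ ≤ (2 : ℝ) ^ (-(q : ℝ)) := by
  have hm' : (0 : ℝ) < m := by exact_mod_cast hm
  haveI : NeZero (2 * m) := ⟨by omega⟩
  have h1 : ∫ x, Bd μ κ hij r q (2 * m) x ∂μ
      = ∫ y, ∑ d ∈ nearB q (2 * m), pv (lab μ κ hij r (2 * m)) d y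
          ∂(tot (lab μ κ hij r (2 * m))) := by
    rw [NScD_395.tot_lab_eq μ κ hij r (by omega : 0 < 2 * m),
      integral_stp μ _ (measurable_near μ κ hij r q (2 * m)) (M := 1)]
    · rfl
    · intro y
      rw [abs_of_nonneg (near_nonneg μ κ hij r q _ y)]
      exact near_le μ κ hij r q y
  have h2 : ∀ d : Fin (2 * m), ∫ y, pv (lab μ κ hij r (2 * m)) d y
      ∂(tot (lab μ κ hij r (2 * m))) = ((2 * m : ℕ) : ℝ)⁻¹ := by
    intro d
    have h3 := integral_pv_mul (lab μ κ hij r (2 * m)) d (fun _ => (1 : ℝ))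
    simp only [mul_one, integral_const, smul_eq_mul] at h3
    rw [h3]
    unfold lab
    rw [measureReal_def, Measure.smul_apply, measure_univ]
    simp
  rw [h1, integral_finsetSum]
  · simp_rw [h2]
    rw [Finset.sum_const, nsmul_eq_mul]
    have h4 := card_near_dvd q m p hm hp
    push_cast
    rw [← div_eq_mul_inv, div_le_iff₀ (by positivity)]
    refine h4.trans (le_of_eq ?_)
    ring
  · intro d _
    exact bdd_integrable (measurable_pv _ d) (M := 1) fun y => by
      rw [abs_of_nonneg (pv_nonneg _ d y)]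
      exact pv_le_one _ d y

/-- **CONV** for helper395's spread functions. -/
theorem conv_PS {zt : Met n → Measure (SLR n)} {adm : Met n → Prop} {C c1 : ℝ}
    (hZ : NoiseFam zt adm C c1) (q : ℕ) :
    ∃ (K₀ : ℕ) (U : ℝ), ∀ K : ℕ, K₀ ≤ K → ∀ μ : Measure (ModSpace n), IsProbabilityMeasure μ →
      AInv μ → ∀ u : ℝ, U ≤ u → ∀ i j : Fin n, i ≠ j → ∃ V : ModSpace n → ℝ, Integrable V μ ∧
        (∀ x, 0 ≤ V x) ∧ ∫ x, V x ∂μ ≤ (1 / 2) ^ q ∧
        ∀ᵐ x ∂μ, PS zt μ u 2 i j x ≤ 2 ^ q * PS zt μ u (2 ^ K) i j x + V x := by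
  refine ⟨q + 1, max 0 (20 * c1), fun K hK μ hμ _ u hu i j hij => ?_⟩
  have hu0 : 0 ≤ u := (le_max_left _ _).trans hu
  have hadm : adm (u • rho i j) := hZ.adm_of _ fun p q => by
    have h1 := NScA_395.smul_ge hu0 i j p q
    have h2 : 20 * c1 ≤ u := (le_max_right _ _).trans hu
    linarith
  haveI := hZ.prob _ hadm
  obtain ⟨k, rfl⟩ : ∃ k, K = q + 1 + k := ⟨K - (q + 1), by omega⟩
  set m : ℕ := 2 ^ (q + k) with hmdef
  have hm : 0 < m := by positivity
  have h2m : 2 ^ (q + 1 + k) = 2 * m := by rw [hmdef]; ring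
  have hp : m = 2 ^ q * 2 ^ k := by rw [hmdef]; ring
  haveI : NeZero (2 * m) := ⟨by omega⟩
  refine ⟨Bd μ (zt (u • rho i j)) hij 0 q (2 * m), ?_, Bd_nonneg _ _ _ _ _ _, ?_, ?_⟩
  · exact bdd_integrable (measurable_Bd _ _ _ _ _ _) (M := 1) fun y => by
      rw [abs_of_nonneg (Bd_nonneg _ _ _ _ _ _ y)]
      exact Bd_le _ _ _ _ _ y
  · refine (integral_Bd_dvd μ _ hij 0 q m _ hm hp).trans (le_of_eq ?_)
    rw [Real.rpow_neg (by norm_num), Real.rpow_natCast, one_div, inv_pow]
  · rw [h2m]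
    filter_upwards [psi_two_le μ (zt (u • rho i j)) hij 0 q m hm] with x hx
    rw [Real.rpow_natCast] at hx
    simpa [PS, hij] using hx

end Crest.Agent.R014.Conv2_792
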