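import Crest.Agent.R014.DSkel_792

/-!
R014 / Q3c_433 (row 14, block D): from positive density of the crossing roots in ONE base window
`[0, w)` to positive density in all windows of length `≥ δ L` (input (Q3) of the chain).

Abstract part: `τ` a measure preserving action of `Fin n → ℤ`.
* `crS Psi S r x`: sum of `Psi i j` over the crossing roots at depth `r`;
* `shift_bad`: windows `[a, a + w)`;
* `sum_windows`: all windows of length `≥ δ L` in `[-L, L]`;
* `p3_of_sum`, `p3_of_base`: the form `P3` of `DSkel_792`.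
-/

set_option autoImplicit false

open MeasureTheory Filter Topology

noncomputable section

namespace Crest.Agent.R014.Q3c_433

variable {n : ℕ} {Ω : Type*} [MeasurableSpace Ω]

/-- the crossing roots of `S` at depth `r` -/
def crS (τ : (Fin n → ℤ) → Ω → Ω) (Psi : Fin n → Fin n → Ω → ℝ) (S : Finset (Fin n)) (r : ℤ)
    (x : Ω) : ℝ := ∑ i ∈ S, ∑ j ∈ Sᶜ, Psi i j (τ (Pi.single i r) x)

/-- the sum over the block `[a, a + w)` -/
def blk (τ : (Fin n → ℤ) → Ω → Ω) (Psi : Fin n → Fin n → Ω → ℝ) (S : Finset (Fin n)) (a : ℤ)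
    (w : ℕ) (x : Ω) : ℝ := ∑ r ∈ Finset.range w, crS τ Psi S (a + r) x

/-- `a` on `S`, `0` off `S` -/
def sv (S : Finset (Fin n)) (a : ℤ) : Fin n → ℤ := fun l => if l ∈ S then a else 0

/-- `L¹` form of near invariance under `ker (ij)` -/
def Q1 (μ : Measure Ω) (τ : (Fin n → ℤ) → Ω → Ω) (Psi : Fin n → Fin n → Ω → ℝ) (L : ℕ) (e : ℝ) :
    Prop :=
  ∀ i j : Fin n, i ≠ j → ∀ z : Fin n → ℤ, z i = z j → (∀ l, |z l| ≤ (L : ℤ)) →
    ∫ x, |Psi i j (τ z x) - Psi i j x| ∂μ ≤ e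

variable {μ : Measure Ω} [IsProbabilityMeasure μ] {τ : (Fin n → ℤ) → Ω → Ω}
  {Psi : Fin n → Fin n → Ω → ℝ} {M : ℝ}

omit [MeasurableSpace Ω] in
theorem crS_nonneg (h0 : ∀ i j x, 0 ≤ Psi i j x) (S : Finset (Fin n)) (r : ℤ) (x : Ω) :
    0 ≤ crS τ Psi S r x :=
  Finset.sum_nonneg fun _ _ => Finset.sum_nonneg fun _ _ => h0 _ _ _

theorem measurable_crS (hτ : ∀ z, MeasurePreserving (τ z) μ μ) (hm : ∀ i j, Measurable (Psi i j))
    (S : Finset (Fin n)) (r : ℤ) : Measurable (crS τ Psi S r) :=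
  Finset.measurable_fun_sum _ fun i _ => Finset.measurable_fun_sum _ fun j _ =>
    (hm i j).comp (hτ _).measurable

theorem measurable_blk (hτ : ∀ z, MeasurePreserving (τ z) μ μ) (hm : ∀ i j, Measurable (Psi i j))
    (S : Finset (Fin n)) (a : ℤ) (w : ℕ) : Measurable (blk τ Psi S a w) :=
  Finset.measurable_fun_sum _ fun r _ => measurable_crS hτ hm S _

theorem integrable_diff (hτ : ∀ z, MeasurePreserving (τ z) μ μ)
    (hm : ∀ i j, Measurable (Psi i j)) (h0 : ∀ i j x, 0 ≤ Psi i j x)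
    (hM : ∀ i j x, Psi i j x ≤ M) (i j : Fin n) (z z' : Fin n → ℤ) :
    Integrable (fun x => |Psi i j (τ z x) - Psi i j (τ z' x)|) μ := by
  refine Integrable.of_bound (C := M) ?_ (Eventually.of_forall fun x => ?_)
  · exact (((hm i j).comp (hτ z).measurable).sub
      ((hm i j).comp (hτ z').measurable)).abs.aestronglyMeasurable
  · rw [Real.norm_eq_abs, abs_abs, abs_le]
    have h1 := h0 i j (τ z x)
    have h2 := h0 i j (τ z' x)
    have h3 := hM i j (τ z x)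
    have h4 := hM i j (τ z' x)
    constructor <;> linarith

theorem integral_shift (hτ : ∀ z, MeasurePreserving (τ z) μ μ)
    (hadd : ∀ z w x, τ (z + w) x = τ z (τ w x)) (hm : ∀ i j, Measurable (Psi i j))
    (i j : Fin n) (z z' : Fin n → ℤ) :
    ∫ x, |Psi i j (τ (z + z') x) - Psi i j (τ z' x)| ∂μ = ∫ x, |Psi i j (τ z x) - Psi i j x| ∂μ := by
  have h1 : Measurable fun x => |Psi i j (τ z x) - Psi i j x| :=
    (((hm i j).comp (hτ z).measurable).sub (hm i j)).abs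
  conv_rhs => rw [← (hτ z').map_eq]
  rw [integral_map (hτ z').measurable.aemeasurable h1.aestronglyMeasurable]
  simp only [hadd]

theorem card_mul_card_compl_le (S : Finset (Fin n)) : (S.card : ℝ) * (Sᶜ.card : ℝ) ≤ n ^ 2 := by
  have h1 : (S.card : ℝ) ≤ n := by
    have := S.card_le_univ
    rw [Fintype.card_fin] at this
    exact_mod_cast this
  have h2 : (Sᶜ.card : ℝ) ≤ n := by
    have := Sᶜ.card_le_univ
    rw [Fintype.card_fin] at this
    exact_mod_cast this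
  rw [sq]
  exact mul_le_mul h1 h2 (by positivity) (by positivity)

/-- the shifted block sum against the base block sum -/
theorem blk_shift (hτ : ∀ z, MeasurePreserving (τ z) μ μ)
    (hadd : ∀ z w x, τ (z + w) x = τ z (τ w x)) (hm : ∀ i j, Measurable (Psi i j))
    (h0 : ∀ i j x, 0 ≤ Psi i j x) (hM : ∀ i j x, Psi i j x ≤ M) {L : ℕ} {e : ℝ} (he : 0 ≤ e)
    (hQ : Q1 μ τ Psi L e) (S : Finset (Fin n)) (a : ℤ) (ha : |a| ≤ (L : ℤ)) (w : ℕ) :
    ∃ F : Ω → ℝ, Integrable F μ ∧ (∀ x, 0 ≤ F x) ∧ ∫ x, F x ∂μ ≤ w * (n ^ 2 * e) ∧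
      ∀ x, |blk τ Psi S a w x - blk τ Psi S 0 w (τ (sv S a) x)| ≤ F x := by
  set G : ℕ → Fin n → Fin n → Ω → ℝ := fun r i j x =>
    |Psi i j (τ ((sv S a - Pi.single i a) + Pi.single i (a + r)) x)
      - Psi i j (τ (Pi.single i (a + r)) x)| with hG
  have hint : ∀ (r : ℕ) (i j : Fin n), Integrable (G r i j) μ :=
    fun r i j => integrable_diff hτ hm h0 hM i j _ _
  have hint2 : ∀ (r : ℕ) (i : Fin n), Integrable (fun x => ∑ j ∈ Sᶜ, G r i j x) μ :=
    fun r i => integrable_finsetSum _ fun j _ => hint r i j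
  have hint3 : ∀ (r : ℕ), Integrable (fun x => ∑ i ∈ S, ∑ j ∈ Sᶜ, G r i j x) μ :=
    fun r => integrable_finsetSum _ fun i _ => hint2 r i
  have hterm : ∀ (r : ℕ), ∀ i ∈ S, ∀ j ∈ Sᶜ, ∫ x, G r i j x ∂μ ≤ e := by
    intro r i hi j hj
    have hij : i ≠ j := fun h => (Finset.mem_compl.1 hj) (h ▸ hi)
    have hj' : j ∉ S := Finset.mem_compl.1 hj
    have h1 := hQ i j hij (sv S a - Pi.single i a) (by
      simp [sv, hi, hj', Pi.single_eq_of_ne (Ne.symm hij)]) (by
      intro l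
      simp only [Pi.sub_apply, sv]
      by_cases hl : l = i
      · subst hl; simp [hi]
      · rw [Pi.single_eq_of_ne hl, sub_zero]
        split_ifs
        · exact ha
        · simp)
    rw [hG]
    rw [integral_shift hτ hadd hm i j]
    exact h1
  refine ⟨fun x => ∑ r ∈ Finset.range w, ∑ i ∈ S, ∑ j ∈ Sᶜ, G r i j x,
    integrable_finsetSum _ fun r _ => hint3 r, ?_, ?_, ?_⟩
  · intro x
    exact Finset.sum_nonneg fun _ _ => Finset.sum_nonneg fun _ _ =>
      Finset.sum_nonneg fun _ _ => abs_nonneg _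
  · have h1 : ∫ x, ∑ r ∈ Finset.range w, ∑ i ∈ S, ∑ j ∈ Sᶜ, G r i j x ∂μ
        = ∑ r ∈ Finset.range w, ∑ i ∈ S, ∑ j ∈ Sᶜ, ∫ x, G r i j x ∂μ := by
      rw [integral_finsetSum _ fun r _ => hint3 r]
      refine Finset.sum_congr rfl fun r _ => ?_
      rw [integral_finsetSum _ fun i _ => hint2 r i]
      refine Finset.sum_congr rfl fun i _ => ?_
      rw [integral_finsetSum _ fun j _ => hint r i j]
    rw [h1]
    calc ∑ r ∈ Finset.range w, ∑ i ∈ S, ∑ j ∈ Sᶜ, ∫ x, G r i j x ∂μ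
        ≤ ∑ _r ∈ Finset.range w, ∑ _i ∈ S, ∑ _j ∈ Sᶜ, e :=
          Finset.sum_le_sum fun r _ => Finset.sum_le_sum fun i hi =>
            Finset.sum_le_sum fun j hj => hterm r i hi j hj
      _ = w * ((S.card : ℝ) * (Sᶜ.card : ℝ) * e) := by
          simp only [Finset.sum_const, Finset.card_range, nsmul_eq_mul]
          ring
      _ ≤ w * (n ^ 2 * e) := by
          have := card_mul_card_compl_le S
          gcongr
  · intro x
    have h2 : ∀ i ∈ S, ∀ r : ℕ, τ (Pi.single i ((0 : ℤ) + r)) (τ (sv S a) x)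
        = τ ((sv S a - Pi.single i a) + Pi.single i (a + r)) x := by
      intro i hi r
      rw [← hadd]
      congr 1
      funext l
      simp only [Pi.add_apply, Pi.sub_apply]
      by_cases hl : l = i
      · subst hl
        simp only [Pi.single_eq_same]
        ring
      · simp [Pi.single_eq_of_ne hl]
    unfold blk crS
    rw [← Finset.sum_sub_distrib]
    refine (Finset.abs_sum_le_sum_abs _ _).trans (Finset.sum_le_sum fun r _ => ?_)
    rw [← Finset.sum_sub_distrib]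
    refine (Finset.abs_sum_le_sum_abs _ _).trans (Finset.sum_le_sum fun i hi => ?_)
    rw [← Finset.sum_sub_distrib]
    refine (Finset.abs_sum_le_sum_abs _ _).trans (Finset.sum_le_sum fun j _ => ?_)
    rw [h2 i hi r, hG, abs_sub_comm]

/-- all windows `[a, a + w)` from the base window -/
theorem shift_bad (hτ : ∀ z, MeasurePreserving (τ z) μ μ)
    (hadd : ∀ z w x, τ (z + w) x = τ z (τ w x)) (hm : ∀ i j, Measurable (Psi i j))
    (h0 : ∀ i j x, 0 ≤ Psi i j x) (hM : ∀ i j x, Psi i j x ≤ M) {L : ℕ} {e c₃ ε₀ : ℝ} (he : 0 ≤ e)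
    (hc : 0 < c₃) (hQ : Q1 μ τ Psi L e) (S : Finset (Fin n)) (a : ℤ) (ha : |a| ≤ (L : ℤ)) {w : ℕ}
    (hw : 0 < w) (hb : μ.real {x | blk τ Psi S 0 w x < c₃ * w} ≤ ε₀) :
    μ.real {x | blk τ Psi S a w x < c₃ / 2 * w} ≤ ε₀ + 2 * n ^ 2 * e / c₃ := by
  obtain ⟨F, hFi, hF0, hFe, hFd⟩ := blk_shift hτ hadd hm h0 hM he hQ S a ha w
  have hw' : (0 : ℝ) < w := by exact_mod_cast hw
  have hsub : {x | blk τ Psi S a w x < c₃ / 2 * w}
      ⊆ (τ (sv S a)) ⁻¹' {x | blk τ Psi S 0 w x < c₃ * w} ∪ {x | c₃ / 2 * w ≤ F x} := by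
    intro x hx
    by_contra hne
    rw [Set.mem_union, not_or] at hne
    have h1 : c₃ * w ≤ blk τ Psi S 0 w (τ (sv S a) x) := not_lt.1 hne.1
    have h2 : F x < c₃ / 2 * w := not_le.1 hne.2
    have h3 := (abs_le.1 (hFd x)).1
    have hx' : blk τ Psi S a w x < c₃ / 2 * w := hx
    linarith
  have hms : MeasurableSet {x | blk τ Psi S 0 w x < c₃ * w} :=
    measurableSet_lt (measurable_blk hτ hm S 0 w) measurable_const
  have h4 : μ.real ((τ (sv S a)) ⁻¹' {x | blk τ Psi S 0 w x < c₃ * w}) ≤ ε₀ := by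
    rw [Measure.real, (hτ _).measure_preimage hms.nullMeasurableSet]
    exact hb
  have h5 : μ.real {x | c₃ / 2 * w ≤ F x} ≤ 2 * n ^ 2 * e / c₃ := by
    have h6 := mul_meas_ge_le_integral_of_nonneg (Eventually.of_forall hF0) hFi (c₃ / 2 * w)
    have h7 : c₃ / 2 * w * μ.real {x | c₃ / 2 * w ≤ F x} ≤ w * (n ^ 2 * e) := h6.trans hFe
    rw [le_div_iff₀ hc]
    have h8 : w * (c₃ * μ.real {x | c₃ / 2 * w ≤ F x}) ≤ w * (2 * n ^ 2 * e) := by linarith
    have h9 := le_of_mul_le_mul_left h8 hw'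
    linarith
  calc μ.real {x | blk τ Psi S a w x < c₃ / 2 * w}
      ≤ μ.real ((τ (sv S a)) ⁻¹' {x | blk τ Psi S 0 w x < c₃ * w} ∪ {x | c₃ / 2 * w ≤ F x}) :=
        measureReal_mono hsub (measure_ne_top _ _)
    _ ≤ _ := measureReal_union_le _ _
    _ ≤ _ := add_le_add h4 h5

/-- a run of good blocks -/
theorem run_blocks (f : ℤ → ℝ) {w : ℕ} {t : ℝ} (k : ℤ) (m : ℕ)
    (h : ∀ l : ℕ, l < m → t ≤ ∑ r ∈ Finset.range w, f ((k + l) * w + r)) :
    m * t ≤ ∑ r ∈ Finset.Ico (k * w) ((k + m) * w), f r := by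
  induction m with
  | zero => simp
  | succ m ih =>
    have h1 := ih fun l hl => h l (Nat.lt_succ_of_lt hl)
    have h2 := h m (Nat.lt_succ_self m)
    have h3 : ∑ r ∈ Finset.Ico (k * w) ((k + (m + 1 : ℕ)) * w), f r
        = ∑ r ∈ Finset.Ico (k * w) ((k + m) * w), f r
          + ∑ r ∈ Finset.Ico ((k + m) * w) ((k + (m + 1 : ℕ)) * w), f r := by
      rw [← Finset.sum_union]
      · congr 1
        rw [Finset.Ico_union_Ico_eq_Ico]
        · have : (0 : ℤ) ≤ m * w := by positivity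
          linarith
        · push_cast
          have : (0 : ℤ) ≤ w := by positivity
          linarith
      · exact Finset.Ico_disjoint_Ico_consecutive _ _ _
    have h4 : ∑ r ∈ Finset.Ico ((k + m) * (w : ℤ)) ((k + (m + 1 : ℕ)) * w), f r
        = ∑ r ∈ Finset.range w, f ((k + m) * w + r) := by
      have h5 : Finset.Ico ((k + m) * (w : ℤ)) ((k + (m + 1 : ℕ)) * w)
          = (Finset.range w).image (fun r : ℕ => (k + m) * (w : ℤ) + r) := by
        ext r
        rw [Finset.mem_Ico, Finset.mem_image]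
        constructor
        · rintro ⟨ha, hb⟩
          have h6 : r - (k + m) * w < w := by
            push_cast at hb
            linarith
          have h7 : 0 ≤ r - (k + m) * w := by linarith
          refine ⟨(r - (k + m) * w).toNat, ?_, ?_⟩
          · rw [Finset.mem_range]
            omega
          · rw [Int.toNat_of_nonneg h7]
            ring
        · rintro ⟨s, hs, rfl⟩
          rw [Finset.mem_range] at hs
          have h6 : (s : ℤ) < w := by exact_mod_cast hs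
          have h7 : (0 : ℤ) ≤ s := by positivity
          constructor
          · linarith
          · push_cast
            linarith
      rw [h5, Finset.sum_image]
      intro a _ b _ hab
      have : (a : ℤ) = b := by
        have h8 : (k + m) * (w : ℤ) + a = (k + m) * (w : ℤ) + b := hab
        linarith
      exact_mod_cast this
    rw [h3, h4]
    push_cast
    linarith

/-- sums over windows from sums over the blocks of a grid -/
theorem window_ge (f : ℤ → ℝ) (hf : ∀ r, 0 ≤ f r) {w : ℕ} (hw : 0 < w) {c₃ : ℝ} (hc : 0 ≤ c₃)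
    {L : ℕ} (h : ∀ k : ℤ, -(L : ℤ) ≤ k * w → (k + 1) * w ≤ (L : ℤ) →
      c₃ / 2 * w ≤ ∑ r ∈ Finset.range w, f (k * w + r)) {a b : ℤ} (ha : -(L : ℤ) ≤ a)
    (hb : b ≤ (L : ℤ)) (hab : 4 * (w : ℤ) ≤ b - a) :
    c₃ / 4 * ((b - a : ℤ) : ℝ) ≤ ∑ r ∈ Finset.Ico a b, f r := by
  have hw' : (0 : ℤ) < w := by exact_mod_cast hw
  set k₀ : ℤ := -((-a) / w) with hk₀
  set k₁ : ℤ := b / w with hk₁
  have e1 : (-a) / (w : ℤ) * w ≤ -a := Int.ediv_mul_le _ hw'.ne'
  have e2 : -a < ((-a) / (w : ℤ) + 1) * w := Int.lt_ediv_add_one_mul_self _ hw'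
  have e3 : b / (w : ℤ) * w ≤ b := Int.ediv_mul_le _ hw'.ne'
  have e4 : b < (b / (w : ℤ) + 1) * w := Int.lt_ediv_add_one_mul_self _ hw'
  have g1 : a ≤ k₀ * w := by rw [hk₀, neg_mul]; linarith
  have g2 : k₀ * w < a + w := by rw [hk₀, neg_mul]; linarith
  have g3 : k₁ * w ≤ b := e3
  have g4 : b < k₁ * w + w := by rw [add_mul, one_mul] at e4; exact e4
  have g5 : b - a - 2 * w < (k₁ - k₀) * w := by rw [sub_mul]; linarith
  have g6 : 0 ≤ k₁ - k₀ := by
    by_contra hneg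
    push Not at hneg
    have : (k₁ - k₀) * (w : ℤ) ≤ 0 := mul_nonpos_of_nonpos_of_nonneg hneg.le hw'.le
    linarith
  obtain ⟨m, hm⟩ := Int.eq_ofNat_of_zero_le g6
  have hk₁' : k₁ = k₀ + m := by linarith
  have hrun := run_blocks f (w := w) (t := c₃ / 2 * w) k₀ m (by
    intro l hl
    refine h (k₀ + l) ?_ ?_
    · have : (0 : ℤ) ≤ l * w := by positivity
      rw [add_mul]
      linarith
    · have h1 : (k₀ + l + 1) * (w : ℤ) ≤ k₁ * w := by
        refine mul_le_mul_of_nonneg_right ?_ hw'.le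
        have : (l : ℤ) + 1 ≤ m := by exact_mod_cast hl
        linarith
      linarith)
  rw [← hk₁'] at hrun
  have hsub : Finset.Ico (k₀ * w) (k₁ * w) ⊆ Finset.Ico a b := by
    intro r hr
    rw [Finset.mem_Ico] at hr ⊢
    exact ⟨g1.trans hr.1, hr.2.trans_le g3⟩
  have h2 : ∑ r ∈ Finset.Ico (k₀ * w) (k₁ * w), f r ≤ ∑ r ∈ Finset.Ico a b, f r :=
    Finset.sum_le_sum_of_subset_of_nonneg hsub fun r _ _ => hf r
  refine le_trans ?_ (hrun.trans h2)
  have h3 : (b - a : ℤ) ≤ 2 * (m * w) := by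
    have : (k₁ - k₀) = (m : ℤ) := hm
    rw [this] at g5
    linarith
  have h4 : ((b - a : ℤ) : ℝ) ≤ 2 * (m * w) := by exact_mod_cast h3
  calc c₃ / 4 * ((b - a : ℤ) : ℝ) ≤ c₃ / 4 * (2 * (m * w)) :=
        mul_le_mul_of_nonneg_left h4 (by positivity)
    _ = m * (c₃ / 2 * w) := by ring

/-- the exceptional set: some block of the grid is bad for some proper `S` -/
def badSet (τ : (Fin n → ℤ) → Ω → Ω) (Psi : Fin n → Fin n → Ω → ℝ) (c₃ : ℝ) (L w : ℕ) : Set Ω :=
  ⋃ S ∈ (Finset.univ : Finset (Finset (Fin n))).filter (fun S => S.Nonempty ∧ S ≠ Finset.univ),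
    ⋃ k ∈ (Finset.Icc (-(L / w : ℕ) : ℤ) (L / w : ℕ)),
      {x | blk τ Psi S (k * w) w x < c₃ / 2 * w}

theorem badSet_le (hτ : ∀ z, MeasurePreserving (τ z) μ μ)
    (hadd : ∀ z w x, τ (z + w) x = τ z (τ w x)) (hm : ∀ i j, Measurable (Psi i j))
    (h0 : ∀ i j x, 0 ≤ Psi i j x) (hM : ∀ i j x, Psi i j x ≤ M) {L : ℕ} {e c₃ ε₀ : ℝ} (he : 0 ≤ e)
    (hε₀ : 0 ≤ ε₀) (hc : 0 < c₃) (hQ : Q1 μ τ Psi L e) {w : ℕ} (hw : 0 < w)
    (hb : ∀ S : Finset (Fin n), S.Nonempty → S ≠ Finset.univ →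
      μ.real {x | blk τ Psi S 0 w x < c₃ * w} ≤ ε₀) :
    μ.real (badSet τ Psi c₃ L w) ≤ 2 ^ n * ((2 * (L / w : ℕ) + 1) * (ε₀ + 2 * n ^ 2 * e / c₃)) := by
  have hE : 0 ≤ ε₀ + 2 * n ^ 2 * e / c₃ := by positivity
  unfold badSet
  refine (measureReal_biUnion_finset_le _ _).trans ?_
  calc ∑ S ∈ (Finset.univ : Finset (Finset (Fin n))).filter
        (fun S => S.Nonempty ∧ S ≠ Finset.univ), μ.real (⋃ k ∈ (Finset.Icc (-(L / w : ℕ) : ℤ)
          (L / w : ℕ)), {x | blk τ Psi S (k * w) w x < c₃ / 2 * w})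
      ≤ ∑ S ∈ (Finset.univ : Finset (Finset (Fin n))).filter
        (fun S => S.Nonempty ∧ S ≠ Finset.univ),
          ((2 * (L / w : ℕ) + 1) * (ε₀ + 2 * n ^ 2 * e / c₃)) := by
        refine Finset.sum_le_sum fun S hS => ?_
        rw [Finset.mem_filter] at hS
        refine (measureReal_biUnion_finset_le _ _).trans ?_
        calc ∑ k ∈ Finset.Icc (-(L / w : ℕ) : ℤ) (L / w : ℕ),
              μ.real {x | blk τ Psi S (k * w) w x < c₃ / 2 * w}
            ≤ ∑ _k ∈ Finset.Icc (-(L / w : ℕ) : ℤ) (L / w : ℕ), (ε₀ + 2 * n ^ 2 * e / c₃) := by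
              refine Finset.sum_le_sum fun k hk => ?_
              rw [Finset.mem_Icc] at hk
              refine shift_bad hτ hadd hm h0 hM he hc hQ S (k * w) ?_ hw (hb S hS.2.1 hS.2.2)
              have h1 : |k| ≤ ((L / w : ℕ) : ℤ) := abs_le.2 ⟨by linarith [hk.1], hk.2⟩
              rw [abs_mul]
              calc |k| * |(w : ℤ)| ≤ ((L / w : ℕ) : ℤ) * (w : ℤ) := by
                    rw [Nat.abs_cast]
                    exact mul_le_mul_of_nonneg_right h1 (by positivity)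
                _ ≤ L := by
                    exact_mod_cast Nat.div_mul_le_self L w
          _ = (2 * (L / w : ℕ) + 1) * (ε₀ + 2 * n ^ 2 * e / c₃) := by
              rw [Finset.sum_const, Int.card_Icc, nsmul_eq_mul]
              congr 1
              have h2 : (((L / w : ℕ) : ℤ) + 1 - -((L / w : ℕ) : ℤ)).toNat = 2 * (L / w) + 1 := by
                omega
              rw [h2]
              push_cast
              ring
    _ ≤ ∑ _S : Finset (Fin n), ((2 * (L / w : ℕ) + 1) * (ε₀ + 2 * n ^ 2 * e / c₃)) :=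
        Finset.sum_le_sum_of_subset_of_nonneg (Finset.filter_subset _ _) fun _ _ _ => by positivity
    _ = 2 ^ n * ((2 * (L / w : ℕ) + 1) * (ε₀ + 2 * n ^ 2 * e / c₃)) := by
        rw [Finset.sum_const, Finset.card_univ, Fintype.card_finset, Fintype.card_fin,
          nsmul_eq_mul]
        push_cast
        ring

omit [MeasurableSpace Ω] in
/-- off the exceptional set: all windows of length `≥ 4 w` in `[-L, L]` (sum form) -/
theorem window_of_notMem (h0 : ∀ i j x, 0 ≤ Psi i j x) {L : ℕ} {c₃ : ℝ} (hc : 0 ≤ c₃) {w : ℕ}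
    (hw : 0 < w) {x : Ω} (hx : x ∉ badSet τ Psi c₃ L w) {S : Finset (Fin n)} (hS : S.Nonempty)
    (hS' : S ≠ Finset.univ) {a b : ℤ} (ha : -(L : ℤ) ≤ a) (hb : b ≤ (L : ℤ))
    (hab : 4 * (w : ℤ) ≤ b - a) :
    c₃ / 4 * ((b - a : ℤ) : ℝ) ≤ ∑ r ∈ Finset.Ico a b, crS τ Psi S r x := by
  have hw' : (0 : ℤ) < w := by exact_mod_cast hw
  refine window_ge (fun r => crS τ Psi S r x) (fun r => crS_nonneg h0 S r x) hw hc ?_ ha hb hab
  intro k hk1 hk2
  by_contra hlt
  push Not at hlt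
  refine hx ?_
  unfold badSet
  rw [Set.mem_iUnion₂]
  refine ⟨S, Finset.mem_filter.2 ⟨Finset.mem_univ _, hS, hS'⟩, ?_⟩
  rw [Set.mem_iUnion₂]
  refine ⟨k, ?_, hlt⟩
  rw [Finset.mem_Icc]
  have h1 : k ≤ (L : ℤ) / w := by
    rw [Int.le_ediv_iff_mul_le hw']
    rw [add_mul, one_mul] at hk2
    linarith
  have h2 : -k ≤ (L : ℤ) / w := by
    rw [Int.le_ediv_iff_mul_le hw', neg_mul]
    linarith
  push_cast
  exact ⟨by linarith, h1⟩

/-- the total of `V` over all roots and all depths in `[-L, L)` -/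
def totV (τ : (Fin n → ℤ) → Ω → Ω) (V : Fin n → Fin n → Ω → ℝ) (L : ℕ) (x : Ω) : ℝ :=
  ∑ r ∈ Finset.Ico (-(L : ℤ)) L, ∑ i : Fin n, ∑ j : Fin n, V i j (τ (Pi.single i r) x)

theorem totV_bad (hτ : ∀ z, MeasurePreserving (τ z) μ μ) {V : Fin n → Fin n → Ω → ℝ}
    (hVi : ∀ i j, Integrable (V i j) μ) (hV0 : ∀ i j x, 0 ≤ V i j x) {v : ℝ}
    (hv : ∀ i j, ∫ x, V i j x ∂μ ≤ v) {L : ℕ} {t : ℝ} (ht : 0 < t) :
    μ.real {x | t ≤ totV τ V L x} ≤ 2 * L * n ^ 2 * v / t := by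
  have h1 : ∀ (r : ℤ) (i j : Fin n), Integrable (fun x => V i j (τ (Pi.single i r) x)) μ :=
    fun r i j => (hτ _).integrable_comp_of_integrable (hVi i j)
  have h2 : ∀ (r : ℤ) (i : Fin n), Integrable
      (fun x => ∑ j : Fin n, V i j (τ (Pi.single i r) x)) μ :=
    fun r i => integrable_finsetSum _ fun j _ => h1 r i j
  have h3 : ∀ (r : ℤ), Integrable
      (fun x => ∑ i : Fin n, ∑ j : Fin n, V i j (τ (Pi.single i r) x)) μ :=
    fun r => integrable_finsetSum _ fun i _ => h2 r i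
  have h4 : Integrable (totV τ V L) μ := integrable_finsetSum _ fun r _ => h3 r
  have h5 : ∀ (r : ℤ) (i j : Fin n), ∫ x, V i j (τ (Pi.single i r) x) ∂μ = ∫ x, V i j x ∂μ := by
    intro r i j
    have h6 := integral_map (μ := μ) (hτ (Pi.single i r)).measurable.aemeasurable
      (f := V i j) (by rw [(hτ _).map_eq]; exact (hVi i j).aestronglyMeasurable)
    rw [(hτ _).map_eq] at h6
    exact h6.symm
  have h7 : ∫ x, totV τ V L x ∂μ ≤ 2 * L * n ^ 2 * v := by
    have h8 : ∫ x, totV τ V L x ∂μ = ∑ r ∈ Finset.Ico (-(L : ℤ)) L, ∑ i : Fin n, ∑ j : Fin n,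
        ∫ x, V i j (τ (Pi.single i r) x) ∂μ := by
      unfold totV
      rw [integral_finsetSum _ fun r _ => h3 r]
      refine Finset.sum_congr rfl fun r _ => ?_
      rw [integral_finsetSum _ fun i _ => h2 r i]
      refine Finset.sum_congr rfl fun i _ => ?_
      rw [integral_finsetSum _ fun j _ => h1 r i j]
    rw [h8]
    calc ∑ r ∈ Finset.Ico (-(L : ℤ)) L, ∑ i : Fin n, ∑ j : Fin n,
        ∫ x, V i j (τ (Pi.single i r) x) ∂μ
        ≤ ∑ _r ∈ Finset.Ico (-(L : ℤ)) L, ∑ _i : Fin n, ∑ _j : Fin n, v :=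
          Finset.sum_le_sum fun r _ => Finset.sum_le_sum fun i _ =>
            Finset.sum_le_sum fun j _ => (h5 r i j).le.trans (hv i j)
      _ = 2 * L * n ^ 2 * v := by
          simp only [Finset.sum_const, Finset.card_univ, Fintype.card_fin, nsmul_eq_mul,
            Int.card_Ico]
          have h9 : ((L : ℤ) - -(L : ℤ)).toNat = 2 * L := by omega
          rw [h9]
          push_cast
          ring
  have h10 := mul_meas_ge_le_integral_of_nonneg (μ := μ) (Eventually.of_forall fun x =>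
    Finset.sum_nonneg fun r _ => Finset.sum_nonneg fun i _ => Finset.sum_nonneg fun j _ =>
      hV0 i j (τ (Pi.single i r) x)) h4 t
  rw [le_div_iff₀ ht, mul_comm]
  exact h10.trans h7

omit [MeasurableSpace Ω] in
/-- counting: from the sums of `Psi` to the number of depths with `Phi ≥ τ₀` -/
theorem count_of_sum (h0 : ∀ i j x, 0 ≤ Psi i j x) (hM0 : 0 < M) (hM : ∀ i j x, Psi i j x ≤ M)
    {Phi V : Fin n → Fin n → Ω → ℝ} (hV0 : ∀ i j x, 0 ≤ V i j x) {A τ₀ c₃ δ : ℝ} (hA : 0 ≤ A)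
    (hτ₀ : 0 ≤ τ₀) (hc : 0 < c₃) (hcmp : ∀ i j, i ≠ j → ∀ x, Psi i j x ≤ A * Phi i j x + V i j x)
    (hAτ : n ^ 2 * (A * τ₀) ≤ c₃ / 16) {L : ℕ} {x : Ω}
    (hx : totV τ V L x < c₃ / 8 * (δ * L)) {S : Finset (Fin n)} {a b : ℤ} (ha : -(L : ℤ) ≤ a)
    (hb : b ≤ (L : ℤ)) (hab : δ * L ≤ ((b - a : ℤ) : ℝ)) (hab0 : a ≤ b)
    (hsum : c₃ / 4 * ((b - a : ℤ) : ℝ) ≤ ∑ r ∈ Finset.Ico a b, crS τ Psi S r x) :
    c₃ / (16 * M) * ((b - a : ℤ) : ℝ) ≤ ∑ i ∈ S, ∑ j ∈ Sᶜ,
      (((Finset.Ico a b).filter fun r => τ₀ ≤ Phi i j (τ (Pi.single i r) x)).card : ℝ) := by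
  classical
  have hlen : (0 : ℝ) ≤ ((b - a : ℤ) : ℝ) := by exact_mod_cast sub_nonneg.2 hab0
  have hpt : ∀ i ∈ S, ∀ j ∈ Sᶜ, ∀ r : ℤ, Psi i j (τ (Pi.single i r) x)
      ≤ M * (if τ₀ ≤ Phi i j (τ (Pi.single i r) x) then 1 else 0) + A * τ₀
        + V i j (τ (Pi.single i r) x) := by
    intro i hi j hj r
    have hij : i ≠ j := fun h => (Finset.mem_compl.1 hj) (h ▸ hi)
    have h1 := hcmp i j hij (τ (Pi.single i r) x)
    have h2 := hV0 i j (τ (Pi.single i r) x)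
    have h3 := hM i j (τ (Pi.single i r) x)
    split_ifs with h
    · have : 0 ≤ A * τ₀ := mul_nonneg hA hτ₀
      linarith
    · have h4 : A * Phi i j (τ (Pi.single i r) x) ≤ A * τ₀ :=
        mul_le_mul_of_nonneg_left (not_le.1 h).le hA
      linarith
  have h5 : ∑ r ∈ Finset.Ico a b, crS τ Psi S r x
      ≤ M * (∑ i ∈ S, ∑ j ∈ Sᶜ,
        (((Finset.Ico a b).filter fun r => τ₀ ≤ Phi i j (τ (Pi.single i r) x)).card : ℝ))
        + n ^ 2 * (A * τ₀) * ((b - a : ℤ) : ℝ) + totV τ V L x := by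
    have e1 : ∑ r ∈ Finset.Ico a b, crS τ Psi S r x
        ≤ ∑ r ∈ Finset.Ico a b, ∑ i ∈ S, ∑ j ∈ Sᶜ,
          (M * (if τ₀ ≤ Phi i j (τ (Pi.single i r) x) then 1 else 0) + A * τ₀
            + V i j (τ (Pi.single i r) x)) :=
      Finset.sum_le_sum fun r _ => Finset.sum_le_sum fun i hi => Finset.sum_le_sum fun j hj =>
        hpt i hi j hj r
    refine e1.trans ?_
    simp only [Finset.sum_add_distrib]
    refine add_le_add (add_le_add ?_ ?_) ?_
    · refine le_of_eq ?_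
      rw [Finset.sum_comm, Finset.mul_sum]
      refine Finset.sum_congr rfl fun i _ => ?_
      rw [Finset.sum_comm, Finset.mul_sum]
      refine Finset.sum_congr rfl fun j _ => ?_
      rw [← Finset.mul_sum, Finset.sum_boole]
    · have h6 : ((Finset.Ico a b).card : ℝ) = ((b - a : ℤ) : ℝ) := by
        rw [Int.card_Ico]
        have : (((b - a).toNat : ℤ) : ℝ) = ((b - a : ℤ) : ℝ) := by
          rw [Int.toNat_of_nonneg (sub_nonneg.2 hab0)]
        rw [← this]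
        exact (Int.cast_natCast _).symm
      simp only [Finset.sum_const, nsmul_eq_mul]
      rw [h6]
      have h7 := card_mul_card_compl_le S
      have h8 : 0 ≤ A * τ₀ := mul_nonneg hA hτ₀
      calc ((b - a : ℤ) : ℝ) * ((S.card : ℝ) * ((Sᶜ.card : ℝ) * (A * τ₀)))
          = ((S.card : ℝ) * (Sᶜ.card : ℝ)) * (A * τ₀) * ((b - a : ℤ) : ℝ) := by ring
        _ ≤ n ^ 2 * (A * τ₀) * ((b - a : ℤ) : ℝ) := by gcongr
    · unfold totV
      calc ∑ r ∈ Finset.Ico a b, ∑ i ∈ S, ∑ j ∈ Sᶜ, V i j (τ (Pi.single i r) x)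
          ≤ ∑ r ∈ Finset.Ico a b, ∑ i : Fin n, ∑ j : Fin n, V i j (τ (Pi.single i r) x) := by
            refine Finset.sum_le_sum fun r _ => ?_
            refine (Finset.sum_le_sum fun i _ => Finset.sum_le_sum_of_subset_of_nonneg
              (Finset.subset_univ Sᶜ) fun j _ _ => hV0 i j _).trans ?_
            exact Finset.sum_le_sum_of_subset_of_nonneg (Finset.subset_univ S) fun i _ _ =>
              Finset.sum_nonneg fun j _ => hV0 i j _
        _ ≤ _ := by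
            refine Finset.sum_le_sum_of_subset_of_nonneg ?_ fun r _ _ =>
              Finset.sum_nonneg fun i _ => Finset.sum_nonneg fun j _ => hV0 i j _
            exact Finset.Ico_subset_Ico ha hb
  have h9 : c₃ / 8 * (δ * L) ≤ c₃ / 8 * ((b - a : ℤ) : ℝ) :=
    mul_le_mul_of_nonneg_left hab (by positivity)
  have h10 : n ^ 2 * (A * τ₀) * ((b - a : ℤ) : ℝ) ≤ c₃ / 16 * ((b - a : ℤ) : ℝ) :=
    mul_le_mul_of_nonneg_right hAτ hlen
  have h11 : c₃ / 16 * ((b - a : ℤ) : ℝ) ≤ M * (∑ i ∈ S, ∑ j ∈ Sᶜ,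
        (((Finset.Ico a b).filter fun r => τ₀ ≤ Phi i j (τ (Pi.single i r) x)).card : ℝ)) := by
    linarith
  have h12 : c₃ / (16 * M) * ((b - a : ℤ) : ℝ) = (c₃ / 16 * ((b - a : ℤ) : ℝ)) / M := by
    field_simp
  rw [h12, div_le_iff₀ hM0]
  linarith

open Crest.NumberTheoryR.Packets Crest.Agent.R014.Nd_837 Crest.Agent.R014.DSkel_792 in
/-- **the consumer of (Q3)**: positive density of the crossing roots for `Psi` in one base window,
near invariance of `Psi` under `ker (ij)`, comparison `Psi ≤ A Phi + V` with `∫ V ≤ v`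
give `P3` for `Phi`. -/
theorem p3_of_base {μ : Measure (ModSpace n)} [IsProbabilityMeasure μ] (hA : AInv μ)
    {Psi Phi V : Fin n → Fin n → ModSpace n → ℝ} {M A τ₀ c₃ δ v e ε₀ : ℝ}
    (hm : ∀ i j, Measurable (Psi i j)) (h0 : ∀ i j x, 0 ≤ Psi i j x) (hM0 : 0 < M)
    (hM : ∀ i j x, Psi i j x ≤ M) (hVi : ∀ i j, Integrable (V i j) μ)
    (hV0 : ∀ i j x, 0 ≤ V i j x) (hv : ∀ i j, ∫ x, V i j x ∂μ ≤ v) (hA0 : 0 ≤ A)
    (hτ₀ : 0 ≤ τ₀) (hc : 0 < c₃) (hcmp : ∀ i j, i ≠ j → ∀ x, Psi i j x ≤ A * Phi i j x + V i j x)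
    (hAτ : n ^ 2 * (A * τ₀) ≤ c₃ / 16) (he : 0 ≤ e) (hε₀ : 0 ≤ ε₀) (hδ : 0 < δ) {L w : ℕ}
    (hw : 0 < w) (hwL : 4 * (w : ℝ) ≤ δ * L) (hQ : Q1 μ tz Psi L e)
    (hb : ∀ S : Finset (Fin n), S.Nonempty → S ≠ Finset.univ →
      μ.real {x | blk tz Psi S 0 w x < c₃ * w} ≤ ε₀) :
    P3 μ Phi L δ (c₃ / (16 * M)) τ₀
      (2 ^ n * ((2 * (L / w : ℕ) + 1) * (ε₀ + 2 * n ^ 2 * e / c₃)) + 16 * n ^ 2 * v / (c₃ * δ)) := by
  have hw' : (0 : ℝ) < w := by exact_mod_cast hw
  have hLpos : 0 < δ * L := by linarith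
  have hL0 : (0 : ℝ) < L := by
    by_contra hneg
    push Not at hneg
    have : δ * L ≤ 0 := mul_nonpos_of_nonneg_of_nonpos hδ.le hneg
    linarith
  have hτ : ∀ z : Fin n → ℤ, MeasurePreserving (tz z) μ μ := fun z => measurePreserving_tz hA z
  have hbad := badSet_le hτ tz_add hm h0 hM he hε₀ hc hQ hw hb
  have ht : 0 < c₃ / 8 * (δ * L) := by positivity
  have hbad2 := totV_bad (L := L) hτ hVi hV0 hv ht
  set Bs : Set (ModSpace n) := badSet tz Psi c₃ L w ∪ {x | c₃ / 8 * (δ * L) ≤ totV tz V L x}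
    with hBs
  refine ⟨toMeasurable μ Bs, measurableSet_toMeasurable _ _, ?_, ?_⟩
  · rw [measureReal_def, measure_toMeasurable, ← measureReal_def]
    refine (measureReal_union_le _ _).trans (add_le_add hbad (hbad2.trans (le_of_eq ?_)))
    field_simp
    ring
  · intro x hx a b ha hb' hab S hS hS'
    have hx' : x ∉ Bs := fun h => hx (subset_toMeasurable _ _ h)
    rw [hBs, Set.mem_union, not_or] at hx'
    obtain ⟨hn1, hn2⟩ := hx'
    have hn2' : totV tz V L x < c₃ / 8 * (δ * L) := not_le.1 hn2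
    have h4w : 4 * (w : ℤ) ≤ b - a := by
      have : 4 * (w : ℝ) ≤ ((b - a : ℤ) : ℝ) := hwL.trans hab
      exact_mod_cast this
    have hab0 : a ≤ b := by
      have : (0 : ℤ) < w := by exact_mod_cast hw
      linarith
    have hs := window_of_notMem h0 hc.le hw hn1 hS hS' ha hb' h4w
    exact count_of_sum (τ := tz) h0 hM0 hM hV0 hA0 hτ₀ hc hcmp hAτ hn2' ha hb' hab hab0 hs

end Crest.Agent.R014.Q3c_433
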