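import Crest.Agent.R014.AsmB_460
import Crest.Agent.R014.Q3c_433

/-!
# Row 14, block D: input (Q3) of level 2 from the one window statement `Base` (helper433)

`Base`: positive density of the crossing roots in every base window `[0, w)`, digit size `2`;
`Conv`: conversion of the digit size `2` to `2 ^ K`;
`q3_of_base : Q1 PS F k₀ → Base PS F k₂ → Conv PS → Q3 PS F k₁`, `k₁ ≥ k₀, k₂`.
-/

set_option autoImplicit false

open MeasureTheory Filter Topology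
open Crest.NumberTheoryR.Packets
open Crest.Agent.R014.Iface_792
open Crest.Agent.R014.Nd_837
open Crest.Agent.R014.DSkel_792
open Crest.Agent.R014.AsmB_460

namespace Crest.Agent.R014.Q3f_433

variable {n : ℕ}

/-- **(BASE)**: the slab bound gives positive density of the crossing roots in base windows. -/
def Base (PS : Measure (ModSpace n) → ℝ → ℕ → Fin n → Fin n → ModSpace n → ℝ)
    (F : Measure (ModSpace n) → ℝ → ℕ → Fin n → Fin n → ℝ) (k₂ : ℝ) : Prop :=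
  ∀ κ C : ℝ, 0 < κ → 0 < C → ∃ c₃ : ℝ, 0 < c₃ ∧ ∀ ε₀ δ' : ℝ, 0 < ε₀ → 0 < δ' →
    ∃ (B : Finset ℕ) (η d₀ U C' c' : ℝ) (D₀ : ℝ → ℝ → ℝ), 0 < η ∧ 0 < d₀ ∧ 0 < C' ∧ 0 < c' ∧
    ∀ μ : Measure (ModSpace n), IsProbabilityMeasure μ → AInv μ →
    ∀ u₁ u₂ : ℝ, Reg F B η d₀ U μ u₁ u₂ → ∀ e η' D : ℝ, 0 < e → 0 < η' → D₀ e η' ≤ D →
      SlabBd μ D κ C e η' → C' * e * Real.log D ≤ u₁ → u₂ ≤ c' * Real.log D →
      ∀ w : ℕ, δ' * u₂ ≤ w → (w : ℝ) ≤ u₂ / k₂ →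
      ∀ S : Finset (Fin n), S.Nonempty → S ≠ Finset.univ →
        μ.real {x | Q3c_433.blk tz (PS μ u₁ 2) S 0 w x < c₃ * w} ≤ ε₀

/-- **(CONV)**: from digit size `2` to digit size `2 ^ K`. -/
def Conv (PS : Measure (ModSpace n) → ℝ → ℕ → Fin n → Fin n → ModSpace n → ℝ) : Prop :=
  ∀ q : ℕ, ∃ (K₀ : ℕ) (U : ℝ), ∀ K : ℕ, K₀ ≤ K → ∀ μ : Measure (ModSpace n),
    IsProbabilityMeasure μ → AInv μ → ∀ u : ℝ, U ≤ u → ∀ i j : Fin n, i ≠ j →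
      ∃ V : ModSpace n → ℝ, Integrable V μ ∧ (∀ x, 0 ≤ V x) ∧ ∫ x, V x ∂μ ≤ (1 / 2) ^ q ∧
        ∀ᵐ x ∂μ, PS μ u 2 i j x ≤ 2 ^ q * PS μ u (2 ^ K) i j x + V x

/-- **(CONV)**, general constants. -/
def ConvG (PS : Measure (ModSpace n) → ℝ → ℕ → Fin n → Fin n → ModSpace n → ℝ) : Prop :=
  ∀ v : ℝ, 0 < v → ∃ (A : ℝ) (K₀ : ℕ) (U : ℝ), 0 ≤ A ∧ ∀ K : ℕ, K₀ ≤ K →
    ∀ μ : Measure (ModSpace n), IsProbabilityMeasure μ → AInv μ → ∀ u : ℝ, U ≤ u →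
    ∀ i j : Fin n, i ≠ j →
      ∃ V : ModSpace n → ℝ, Integrable V μ ∧ (∀ x, 0 ≤ V x) ∧ ∫ x, V x ∂μ ≤ v ∧
        ∀ᵐ x ∂μ, PS μ u 2 i j x ≤ A * PS μ u (2 ^ K) i j x + V x

theorem Conv.gen {PS : Measure (ModSpace n) → ℝ → ℕ → Fin n → Fin n → ModSpace n → ℝ}
    (h : Conv PS) : ConvG PS := by
  intro v hv
  obtain ⟨q, hq⟩ := exists_pow_lt_of_lt_one hv (show (1 / 2 : ℝ) < 1 by norm_num)
  obtain ⟨K₀, U, h⟩ := h q
  refine ⟨2 ^ q, K₀, U, by positivity, fun K hK μ hprob hA u hu i j hij => ?_⟩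
  obtain ⟨V, h1, h2, h3, h4⟩ := h K hK μ hprob hA u hu i j hij
  exact ⟨V, h1, h2, h3.trans hq.le, h4⟩

/-- `P3` is monotone in the window parameter. -/
theorem P3.mono_delta {μ : Measure (ModSpace n)}
    {Psi : Fin n → Fin n → ModSpace n → ℝ} {L : ℕ} {δ δ' c τ₀ ε : ℝ} (h : δ' ≤ δ)
    (h3 : P3 μ Psi L δ' c τ₀ ε) : P3 μ Psi L δ c τ₀ ε := by
  obtain ⟨B, hB, hμ, hx⟩ := h3
  exact ⟨B, hB, hμ, fun x hxB a b ha hb hab =>
    hx x hxB a b ha hb ((mul_le_mul_of_nonneg_right h (Nat.cast_nonneg _)).trans hab)⟩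

/-- `P3` is monotone in the error. -/
theorem P3.mono_eps {μ : Measure (ModSpace n)}
    {Psi : Fin n → Fin n → ModSpace n → ℝ} {L : ℕ} {δ c τ₀ ε ε' : ℝ} (h : ε ≤ ε')
    (h3 : P3 μ Psi L δ c τ₀ ε) : P3 μ Psi L δ c τ₀ ε' := by
  obtain ⟨B, hB, hμ, hx⟩ := h3
  exact ⟨B, hB, hμ.trans h, hx⟩

/-- the conversion, everywhere and for all pairs at once -/
theorem conv_all {μ : Measure (ModSpace n)} {Psi Phi : Fin n → Fin n → ModSpace n → ℝ} {A v : ℝ}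
    (hv : 0 ≤ v) (h : ∀ i j : Fin n, i ≠ j →
      ∃ V : ModSpace n → ℝ, Integrable V μ ∧ (∀ x, 0 ≤ V x) ∧ ∫ x, V x ∂μ ≤ v ∧
        ∀ᵐ x ∂μ, Psi i j x ≤ A * Phi i j x + V x) :
    ∃ V : Fin n → Fin n → ModSpace n → ℝ, (∀ i j, Integrable (V i j) μ) ∧ (∀ i j x, 0 ≤ V i j x) ∧
      (∀ i j, ∫ x, V i j x ∂μ ≤ v) ∧ ∀ i j, i ≠ j → ∀ x, Psi i j x ≤ A * Phi i j x + V i j x := by
  have key : ∀ i j : Fin n, ∃ V : ModSpace n → ℝ, Integrable V μ ∧ (∀ x, 0 ≤ V x) ∧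
      ∫ x, V x ∂μ ≤ v ∧ (i ≠ j → ∀ x, Psi i j x ≤ A * Phi i j x + V x) := by
    intro i j
    by_cases hij : i = j
    · refine ⟨fun _ => 0, integrable_zero _ _ _, fun _ => le_rfl, ?_, fun h' => absurd hij h'⟩
      simpa using hv
    · obtain ⟨V, hVi, hV0, hVv, hVc⟩ := h i j hij
      have hae : (fun x => max (V x) (Psi i j x - A * Phi i j x)) =ᵐ[μ] V := by
        filter_upwards [hVc] with x hx
        exact max_eq_left (by linarith)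
      refine ⟨fun x => max (V x) (Psi i j x - A * Phi i j x), hVi.congr hae.symm,
        fun x => (hV0 x).trans (le_max_left _ _), ?_, fun _ x => ?_⟩
      · rw [integral_congr_ae hae]
        exact hVv
      · have := le_max_right (V x) (Psi i j x - A * Phi i j x)
        linarith
  choose V h1 h2 h3 h4 using key
  exact ⟨V, h1, h2, h3, h4⟩

set_option maxHeartbeats 1000000 in
/-- **(Q3)** from (BASE), (Q1), (CONV), general form. -/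
theorem q3_of_baseG {PS : Measure (ModSpace n) → ℝ → ℕ → Fin n → Fin n → ModSpace n → ℝ}
    {F : Measure (ModSpace n) → ℝ → ℕ → Fin n → Fin n → ℝ}
    (hm : ∀ μ : Measure (ModSpace n), IsProbabilityMeasure μ → ∀ u b i j,
      Measurable (PS μ u b i j))
    (h0 : ∀ μ u b i j x, 0 ≤ PS μ u b i j x) (h2 : ∀ μ u b i j x, PS μ u b i j x ≤ 2)
    {k₀ k₁ k₂ : ℝ} (hk₀ : 0 < k₀) (hk₂ : 0 < k₂) (h01 : k₀ ≤ k₁) (h21 : k₂ ≤ k₁)
    (hQ1 : AsmB_460.Q1 PS F k₀) (hB : Base PS F k₂) (hC : ConvG PS) : AsmB_460.Q3 PS F k₁ := by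
  have hk₁ : 0 < k₁ := hk₀.trans_le h01
  intro κ C hκ hCpos
  obtain ⟨c₃, hc₃, hB⟩ := hB κ C hκ hCpos
  refine ⟨c₃ / (16 * 2), by positivity, ?_⟩
  intro ε δ hε hδ
  set δ₁ : ℝ := min δ 1 with hδ₁
  have hδ₁pos : 0 < δ₁ := lt_min hδ one_pos
  have hδ₁1 : δ₁ ≤ 1 := min_le_right _ _
  have hδ₁δ : δ₁ ≤ δ := min_le_left _ _
  -- number of blocks
  set N : ℝ := 16 / δ₁ + 1 with hN
  have hNpos : 0 < N := by positivity
  set ε₀ : ℝ := ε / (4 * 2 ^ n * N) with hε₀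
  have hε₀pos : 0 < ε₀ := by positivity
  set e₁ : ℝ := c₃ * ε₀ / (2 * (n : ℝ) ^ 2 + 1) with he₁
  have he₁pos : 0 < e₁ := by positivity
  have he₁le : 2 * (n : ℝ) ^ 2 * e₁ / c₃ ≤ ε₀ := by
    rw [he₁, div_le_iff₀ hc₃, mul_div_assoc', div_le_iff₀ (by positivity)]
    nlinarith [mul_pos hc₃ hε₀pos]
  set v : ℝ := ε * c₃ * δ₁ / (32 * ((n : ℝ) ^ 2 + 1)) with hv
  have hvpos : 0 < v := by positivity
  have hvle : 16 * (n : ℝ) ^ 2 * v / (c₃ * δ₁) ≤ ε / 2 := by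
    have h3 : v * (32 * ((n : ℝ) ^ 2 + 1)) = ε * c₃ * δ₁ := by
      rw [hv]
      field_simp
    rw [div_le_iff₀ (by positivity)]
    nlinarith
  obtain ⟨A, K₀, U₀, hA0, hC⟩ := hC v hvpos
  set τ₀ : ℝ := min 1 (c₃ / (16 * ((n : ℝ) ^ 2 + 1) * (A + 1))) with hτ₀
  have hτ₀pos : 0 < τ₀ := lt_min one_pos (by positivity)
  have hAτ : (n : ℝ) ^ 2 * (A * τ₀) ≤ c₃ / 16 := by
    have h3 : τ₀ ≤ c₃ / (16 * ((n : ℝ) ^ 2 + 1) * (A + 1)) := min_le_right _ _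
    rw [le_div_iff₀ (by positivity)] at h3
    have h4 : 0 ≤ A * τ₀ := by positivity
    have h5 : 0 ≤ (n : ℝ) ^ 2 * τ₀ := by positivity
    nlinarith
  refine ⟨τ₀, K₀, hτ₀pos, min_le_left _ _, ?_⟩
  intro K hK
  set δ' : ℝ := δ₁ / (16 * k₁) with hδ'
  have hδ'pos : 0 < δ' := by positivity
  obtain ⟨B₃, η₃, d₃, U₃, C', c', D₀, hη₃, hd₃, hC', hc', hB⟩ := hB ε₀ δ' hε₀pos hδ'pos
  obtain ⟨B₁, η₁, d₁, U₁, hη₁, hd₁, hQ1⟩ := hQ1 1 e₁ he₁pos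
  set U : ℝ := max (max U₃ U₁) (max U₀ (8 * k₁ / δ₁)) with hU
  set d₀ : ℝ := min (min d₃ d₁) 1 with hd₀
  have hd₀pos : 0 < d₀ := lt_min (lt_min hd₃ hd₁) one_pos
  refine ⟨B₃ ∪ B₁, min η₃ η₁, d₀, U, C', c', D₀, lt_min hη₃ hη₁, hd₀pos, hC', hc', ?_⟩
  intro μ hprob hA u₁ u₂ hReg e η' D he hη' hD hslab hu₁ hu₂
  have := hprob
  have hUpos : 0 < U := by
    have h3 : 0 < 8 * k₁ / δ₁ := by positivity
    exact h3.trans_le ((le_max_right _ _).trans (le_max_right _ _))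
  have hUu : U ≤ u₁ := hReg.1
  have hu₂pos : 0 < u₂ := by
    have h3 : 0 < d₀ * u₂ := (hUpos.trans_le hUu).trans_le hReg.2.1
    exact pos_of_mul_pos_right h3 hd₀pos.le
  have hu12 : u₁ ≤ u₂ := by
    refine hReg.2.1.trans ?_
    calc d₀ * u₂ ≤ 1 * u₂ := mul_le_mul_of_nonneg_right (min_le_right _ _) hu₂pos.le
      _ = u₂ := one_mul _
  have hReg₃ : Reg F B₃ η₃ d₃ U₃ μ u₁ u₂ :=
    hReg.mono Finset.subset_union_left (min_le_left _ _)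
      ((min_le_left _ _).trans (min_le_left _ _)) ((le_max_left _ _).trans (le_max_left _ _))
      hUpos.le hd₀pos
  have hReg₁ : Reg F B₁ η₁ d₁ U₁ μ u₁ u₂ :=
    hReg.mono Finset.subset_union_right (min_le_right _ _)
      ((min_le_left _ _).trans (min_le_right _ _)) ((le_max_right _ _).trans (le_max_left _ _))
      hUpos.le hd₀pos
  have hU₀u : U₀ ≤ u₁ := ((le_max_left _ _).trans (le_max_right _ _)).trans hUu
  have h8 : 8 * k₁ / δ₁ ≤ u₂ :=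
    (((le_max_right _ _).trans (le_max_right _ _)).trans hUu).trans hu12
  -- the depth unit
  set L : ℕ := ⌊u₂ / k₁⌋₊ with hL
  have hLle : (L : ℝ) ≤ u₂ / k₁ := Nat.floor_le (by positivity)
  have hLgt : u₂ / k₁ < L + 1 := Nat.lt_floor_add_one _
  have h8' : 8 * k₁ ≤ u₂ * δ₁ := (div_le_iff₀ hδ₁pos).1 h8
  have h8'' : 8 / δ₁ ≤ u₂ / k₁ := by
    rw [div_le_div_iff₀ hδ₁pos hk₁]
    exact h8'
  have h8δ : 8 ≤ 8 / δ₁ := by
    rw [le_div_iff₀ hδ₁pos]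
    linarith
  have hL2 : u₂ / (2 * k₁) ≤ L := by
    have h3 : u₂ / (2 * k₁) = (u₂ / k₁) / 2 := by field_simp
    rw [h3]
    linarith
  have hL1 : 8 / δ₁ / 2 ≤ (L : ℝ) := by
    have h3 : u₂ / (2 * k₁) = (u₂ / k₁) / 2 := by field_simp
    rw [h3] at hL2
    linarith
  have hδL : 4 ≤ δ₁ * L := by
    have h3 : δ₁ * (8 / δ₁ / 2) ≤ δ₁ * L := mul_le_mul_of_nonneg_left hL1 hδ₁pos.le
    have h4 : δ₁ * (8 / δ₁ / 2) = 4 := by
      field_simp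
      norm_num
    linarith
  set w : ℕ := ⌊δ₁ * L / 4⌋₊ with hw
  have hwle : (w : ℝ) ≤ δ₁ * L / 4 := Nat.floor_le (by positivity)
  have hwgt : δ₁ * L / 4 < w + 1 := Nat.lt_floor_add_one _
  have hw0 : 0 < w := Nat.floor_pos.2 (by linarith)
  have hw1 : (1 : ℝ) ≤ w := by exact_mod_cast hw0
  have hw8 : δ₁ * L / 8 ≤ w := by
    linarith
  have hwlow : δ' * u₂ ≤ w := by
    refine le_trans ?_ hw8
    have h3 : δ' * u₂ = δ₁ * (u₂ / (2 * k₁)) / 8 := by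
      rw [hδ']
      field_simp
      norm_num
    rw [h3]
    have h4 := mul_le_mul_of_nonneg_left hL2 hδ₁pos.le
    linarith
  have hwup : (w : ℝ) ≤ u₂ / k₂ := by
    have h3 : δ₁ * L / 4 ≤ L := by
      have h4 : (0 : ℝ) ≤ L := Nat.cast_nonneg _
      nlinarith
    have h5 : u₂ / k₁ ≤ u₂ / k₂ := div_le_div_of_nonneg_left hu₂pos.le hk₂ h21
    linarith
  have hbase := hB μ hprob hA u₁ u₂ hReg₃ e η' D he hη' hD hslab hu₁ hu₂ w hwlow hwup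
  have hQ1' : Q3c_433.Q1 μ tz (PS μ u₁ 2) L e₁ := by
    intro i j hij z hz hzl
    have h3 := hQ1 μ hprob hA u₁ u₂ hReg₁ i j hij z hz (by
      intro l
      have h4 : |(z l : ℝ)| ≤ L := by
        have := hzl l
        exact_mod_cast this
      have h5 : u₂ / k₁ ≤ u₂ / k₀ := div_le_div_of_nonneg_left hu₂pos.le hk₀ h01
      linarith)
    rwa [pow_one] at h3
  obtain ⟨V, hVi, hV0, hVv, hVc⟩ := conv_all (μ := μ) (Psi := PS μ u₁ 2)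
    (Phi := PS μ u₁ (2 ^ K)) (A := A) (v := v) hvpos.le
    (fun i j hij => hC K hK μ hprob hA u₁ hU₀u i j hij)
  have hP3 := Q3c_433.p3_of_base (μ := μ) hA (Psi := PS μ u₁ 2) (Phi := PS μ u₁ (2 ^ K)) (V := V)
    (M := 2) (A := A) (τ₀ := τ₀) (c₃ := c₃) (δ := δ₁) (v := v) (e := e₁) (ε₀ := ε₀)
    (fun i j => hm μ hprob u₁ 2 i j) (fun i j x => h0 μ u₁ 2 i j x) two_pos
    (fun i j x => h2 μ u₁ 2 i j x) hVi hV0 hVv hA0 hτ₀pos.le hc₃ hVc hAτ he₁pos.le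
    hε₀pos.le hδ₁pos (L := L) (w := w) hw0 (by linarith) hQ1' hbase
  refine P3.mono_delta hδ₁δ (P3.mono_eps ?_ hP3)
  have hcount : ((2 * (L / w : ℕ) + 1 : ℝ)) ≤ N := by
    have h3 : ((L / w : ℕ) : ℝ) ≤ (L : ℝ) / w := Nat.cast_div_le
    have h4 : (L : ℝ) / w ≤ 8 / δ₁ := by
      rw [div_le_div_iff₀ (by linarith) hδ₁pos]
      linarith
    have h5 : 16 / δ₁ = 2 * (8 / δ₁) := by ring
    rw [hN, h5]
    linarith
  have hfirst : 2 ^ n * ((2 * (L / w : ℕ) + 1) * (ε₀ + 2 * (n : ℝ) ^ 2 * e₁ / c₃)) ≤ ε / 2 := by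
    calc (2 : ℝ) ^ n * ((2 * (L / w : ℕ) + 1) * (ε₀ + 2 * (n : ℝ) ^ 2 * e₁ / c₃))
        ≤ 2 ^ n * (N * (ε₀ + ε₀)) := by
          gcongr
      _ = ε / 2 := by
          rw [hε₀]
          field_simp
          norm_num
  linarith

/-- **(Q3)** from (BASE), (Q1), (CONV). -/
theorem q3_of_base {PS : Measure (ModSpace n) → ℝ → ℕ → Fin n → Fin n → ModSpace n → ℝ}
    {F : Measure (ModSpace n) → ℝ → ℕ → Fin n → Fin n → ℝ}
    (hm : ∀ μ : Measure (ModSpace n), IsProbabilityMeasure μ → ∀ u b i j,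
      Measurable (PS μ u b i j))
    (h0 : ∀ μ u b i j x, 0 ≤ PS μ u b i j x) (h2 : ∀ μ u b i j x, PS μ u b i j x ≤ 2)
    {k₀ k₁ k₂ : ℝ} (hk₀ : 0 < k₀) (hk₂ : 0 < k₂) (h01 : k₀ ≤ k₁) (h21 : k₂ ≤ k₁)
    (hQ1 : AsmB_460.Q1 PS F k₀) (hB : Base PS F k₂) (hC : Conv PS) : AsmB_460.Q3 PS F k₁ :=
  q3_of_baseG hm h0 h2 hk₀ hk₂ h01 h21 hQ1 hB hC.gen

end Crest.Agent.R014.Q3f_433
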