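import Crest.Agent.R014.NSlab4_373

/-!
Row 14, block D, noise formalism (#3844), section SLAB (helper373, task 1063), part 5:
**lower bound (LB)**: the mass bound for all digit words forces, for every sub-measure `νA ≤ ν`,
`∑_{i<T} ∑_c ∫ (posterior spread of the digit i of the root c) ≥ c₁ T (νA(univ) - B)`.
-/

set_option autoImplicit false

open MeasureTheory Crest.NumberTheoryR.Packets Finset
open scoped ENNReal

noncomputable section

namespace Crest.Agent.R014.NS_373

open Ms_667 Nd_837 Ne1_567 NSlab_373 NScC_395 NScD_395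
open Ne2_567 (lb tot_lb)

variable {n : ℕ} {S : Finset (Fin n)} {b : ℕ}

theorem stp_univ (ν : Measure (ModSpace n)) [SFinite ν] (κ : Measure (SLR n)) [IsProbabilityMeasure κ] :
    stp ν κ Set.univ = ν Set.univ := by
  unfold stp
  rw [Measure.map_apply measurable_act₂ MeasurableSet.univ, Set.preimage_univ, ← Set.univ_prod_univ,
    Measure.prod_prod, measure_univ (μ := κ), mul_one]

theorem tot_rho_univ (hb : 0 < b) (ν : Measure (ModSpace n)) [IsFiniteMeasure ν]
    (κ : Measure (SLR n)) [IsProbabilityMeasure κ] (T : ℕ) :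
    tot (rho ν κ S b T) Set.univ = ν Set.univ := by
  have w : Fin T → CC S → Fin b := fun _ _ => ⟨0, hb⟩
  have h := sum_cl_rho (S := S) hb ν κ T 0 (Nat.zero_le T) w
  rw [cl_zero, pow_zero, one_smul] at h
  change tot (rho ν κ S b T) = _ at h
  rw [h, stp_univ, stp_univ]

theorem rho_mono {ν νA : Measure (ModSpace n)} [SFinite ν] [SFinite νA] (h : νA ≤ ν)
    (κ : Measure (SLR n)) [SFinite κ] (T : ℕ) (w : Fin T → CC S → Fin b) :
    rho νA κ S b T w ≤ rho ν κ S b T w := by
  unfold rho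
  refine Measure.le_iff.2 fun A _ => ?_
  rw [Measure.smul_apply, Measure.smul_apply]
  exact mul_le_mul_right (stp_mono (stp_mono h κ) _ A) _

theorem tau_mono {ν νA : Measure (ModSpace n)} [SFinite ν] [SFinite νA] (h : νA ≤ ν)
    (κ : Measure (SLR n)) [SFinite κ] (m : ℕ) (j : CC S → Fin b) :
    tau νA κ S b m j ≤ tau ν κ S b m j := by
  unfold tau
  refine Measure.le_iff.2 fun A _ => ?_
  rw [Measure.smul_apply, Measure.smul_apply]
  exact mul_le_mul_right (stp_mono (stp_mono h κ) _ A) _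

/-- noise seen by the digit `m` of the root `c`: the noise `κ` and the other crossing roots. -/
abbrev kapc (κ : Measure (SLR n)) (S : Finset (Fin n)) (b m : ℕ) (c : CC S) : Measure (SLR n) :=
  cv κ (ovl S b m c)

/-- the one-root family of the digit `m` of the root `c`. -/
abbrev labc (ν : Measure (ModSpace n)) (κ : Measure (SLR n)) (S : Finset (Fin n)) (b m : ℕ)
    (c : CC S) : Fin b → Measure (ModSpace n) :=
  lab ν (kapc κ S b m c) c.ne (m * Real.logb 2 b) b

theorem lintegral_PhiS (hb : 0 < b) {ν νA : Measure (ModSpace n)} [IsFiniteMeasure ν]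
    [IsFiniteMeasure νA] (h : νA ≤ ν) (κ : Measure (SLR n)) [IsProbabilityMeasure κ] (m : ℕ)
    (hfin : ∀ (ν : Measure (ModSpace n)) [IsFiniteMeasure ν] (c : CC S) (k : Fin b),
      IsFiniteMeasure (labc ν κ S b m c k)) :
    ∫⁻ y, ENNReal.ofReal (PhiS fun j => pr (tau ν κ S b m) j y) ∂(tot (tau νA κ S b m)) =
      ∑ c : CC S, ∫⁻ y, ENNReal.ofReal (ps (labc ν κ S b m c) y) ∂(tot (labc νA κ S b m c)) := by
  classical
  have hle : tot (tau νA κ S b m) ≤ tot (tau ν κ S b m) := tot_mono fun j => tau_mono h κ m j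
  have htot : ∀ (ν : Measure (ModSpace n)) [IsFiniteMeasure ν] (c : CC S),
      tot (labc ν κ S b m c) = tot (tau ν κ S b m) := by
    intro ν _ c
    exact (congrArg tot (marg_tau hb ν κ m c)).symm.trans (tot_lb _ _)
  have key : ∀ c : CC S, ∀ᵐ y ∂(tot (tau νA κ S b m)),
      |spr (cen b) (mg c fun j => pr (tau ν κ S b m) j y)| = ps (labc ν κ S b m c) y := by
    intro c
    have h1 : ∀ᵐ y ∂(tot (tau ν κ S b m)), ∀ k,
        pr (lb (fun j : CC S → Fin b => j c) (tau ν κ S b m)) k y =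
          ∑ j with (fun j : CC S → Fin b => j c) j = k, pr (tau ν κ S b m) j y :=
      ae_all_iff.2 fun k => pr_lb _ _ k
    have h2 : ∀ᵐ y ∂(tot (labc ν κ S b m c)), ∀ k,
        Ne3_567.pv (labc ν κ S b m c) k y = pr (labc ν κ S b m c) k y := by
      have : ∀ k, IsFiniteMeasure (labc ν κ S b m c k) := hfin ν c
      exact Ne3_567.pv_eq _
    rw [htot ν c] at h2
    filter_upwards [hle.absolutelyContinuous.ae_le h1, hle.absolutelyContinuous.ae_le h2] with y hy hy2
    have h3 : (mg c fun j => pr (tau ν κ S b m) j y) = fun k => Ne3_567.pv (labc ν κ S b m c) k y := by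
      funext k
      rw [hy2 k]
      have h4 := hy k
      rw [marg_tau hb ν κ m c] at h4
      rw [h4, mg]
    rw [h3, abs_of_nonneg (spr_nonneg fun k => Ne3_567.pv_nonneg _ k y)]
    rfl
  have h5 : ∀ᵐ y ∂(tot (tau νA κ S b m)), ENNReal.ofReal (PhiS fun j => pr (tau ν κ S b m) j y) =
      ∑ c : CC S, ENNReal.ofReal (ps (labc ν κ S b m c) y) := by
    filter_upwards [ae_all_iff.2 key] with y hy
    unfold PhiS
    rw [ENNReal.ofReal_sum_of_nonneg fun c _ => abs_nonneg _]
    exact Finset.sum_congr rfl fun c _ => by rw [hy c]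
  have : NeZero b := ⟨hb.ne'⟩
  rw [lintegral_congr_ae h5, lintegral_finsetSum _ fun c _ => (measurable_ps _).ennreal_ofReal]
  exact Finset.sum_congr rfl fun c _ => by rw [htot νA c]

instance (ν : Measure (ModSpace n)) (κ : Measure (SLR n)) [IsFiniteMeasure ν] [IsFiniteMeasure κ]
    {i j : Fin n} (hij : i ≠ j) (r : ℝ) (b : ℕ) (d : Fin b) :
    IsFiniteMeasure (lab ν κ hij r b d) := by
  rw [lab_eq_gl]
  infer_instance

/-- **Lower bound (LB)**. -/
theorem LB (hb : 0 < b) (S : Finset (Fin n)) {ν νA : Measure (ModSpace n)} [IsFiniteMeasure ν]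
    [IsFiniteMeasure νA] (hνA : νA ≤ ν) (κ : Measure (SLR n)) [IsProbabilityMeasure κ] (T : ℕ)
    (lam : Measure (ModSpace n)) (M : ℝ≥0∞) (h : ∀ w, rho ν κ S b T w ≤ M • lam) {τ : ℝ} (hτ : 0 < τ)
    (c₁ : ℝ) :
    ENNReal.ofReal (c₁ * T) * νA Set.univ ≤
      ∑ i : Fin T, ∑ c : CC S,
        ∫⁻ y, ENNReal.ofReal (ps (labc ν κ S b i c) y) ∂(tot (labc νA κ S b i c)) +
      ENNReal.ofReal (c₁ * T) * (ENNReal.ofReal τ⁻¹ * (M * lam Set.univ) +
        ENNReal.ofReal (√τ * Real.exp (KS S b * √(T * (c₁ * T)))) * ν Set.univ) := by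
  have hne : Nonempty (CC S → Fin b) := ⟨fun _ => ⟨0, hb⟩⟩
  have h1 := joint (rho ν κ S b T) lam M h (Φ := PhiS) measurable_PhiS (K := KS S b)
    (κ := c₁ * T) hτ KS_nonneg PhiS_nonneg (sqrt_bound hb)
  have h2 := lower_trans (rho ν κ S b T) (rho νA κ S b T) (fun w => rho_mono hνA κ T w)
    measurable_PhiS PhiS_nonneg h1 (fun i => tau ν κ S b i) (fun i => tau νA κ S b i)
    (fun i j => tau_mono hνA κ i j) (trans_rho hb ν νA κ T)
  rw [tot_rho_univ hb, tot_rho_univ hb] at h2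
  refine h2.trans (add_le_add (le_of_eq ?_) le_rfl)
  refine Finset.sum_congr rfl fun i _ => ?_
  exact lintegral_PhiS hb hνA κ i (fun ν _ c k => inferInstance)

/-- **Lower bound (LB)**, real form. -/
theorem LBr (hb : 0 < b) (S : Finset (Fin n)) {ν νA : Measure (ModSpace n)} [IsFiniteMeasure ν]
    [IsFiniteMeasure νA] (hνA : νA ≤ ν) (κ : Measure (SLR n)) [IsProbabilityMeasure κ] (T : ℕ)
    (lam : Measure (ModSpace n)) [IsFiniteMeasure lam] {M : ℝ} (hM : 0 ≤ M)
    (h : ∀ w, rho ν κ S b T w ≤ ENNReal.ofReal M • lam) {τ : ℝ} (hτ : 0 < τ) {c₁ : ℝ} (hc : 0 ≤ c₁) :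
    c₁ * T * (νA.real Set.univ - (τ⁻¹ * (M * lam.real Set.univ) +
        √τ * Real.exp (KS S b * √(T * (c₁ * T))) * ν.real Set.univ)) ≤
      ∑ i : Fin T, ∑ c : CC S, ∫ y, ps (labc ν κ S b i c) y ∂(tot (labc νA κ S b i c)) := by
  have : NeZero b := ⟨hb.ne'⟩
  have hcT : 0 ≤ c₁ * T := mul_nonneg hc (Nat.cast_nonneg _)
  have h1 := LB hb S hνA κ T lam (ENNReal.ofReal M) h hτ c₁
  have h2 : ∀ (i : Fin T) (c : CC S),
      ∫⁻ y, ENNReal.ofReal (ps (labc ν κ S b i c) y) ∂(tot (labc νA κ S b i c)) =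
      ENNReal.ofReal (∫ y, ps (labc ν κ S b i c) y ∂(tot (labc νA κ S b i c))) := by
    intro i c
    rw [ofReal_integral_eq_lintegral_ofReal]
    · exact bdd_integrable (measurable_ps _) (abs_ps_le _)
    · exact Filter.Eventually.of_forall fun y => ps_nonneg _ y
  have h3 : ∀ (i : Fin T) (c : CC S),
      0 ≤ ∫ y, ps (labc ν κ S b i c) y ∂(tot (labc νA κ S b i c)) := fun i c =>
    integral_nonneg fun y => ps_nonneg _ y
  have h4 : ∑ i : Fin T, ∑ c : CC S,
      ∫⁻ y, ENNReal.ofReal (ps (labc ν κ S b i c) y) ∂(tot (labc νA κ S b i c)) =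
      ENNReal.ofReal (∑ i : Fin T, ∑ c : CC S,
        ∫ y, ps (labc ν κ S b i c) y ∂(tot (labc νA κ S b i c))) := by
    rw [ENNReal.ofReal_sum_of_nonneg fun i _ => Finset.sum_nonneg fun c _ => h3 i c]
    refine Finset.sum_congr rfl fun i _ => ?_
    rw [ENNReal.ofReal_sum_of_nonneg fun c _ => h3 i c]
    exact Finset.sum_congr rfl fun c _ => h2 i c
  have e1 : νA Set.univ = ENNReal.ofReal (νA.real Set.univ) := (ofReal_measureReal (by finiteness)).symm
  have e2 : ν Set.univ = ENNReal.ofReal (ν.real Set.univ) := (ofReal_measureReal (by finiteness)).symm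
  have e3 : lam Set.univ = ENNReal.ofReal (lam.real Set.univ) :=
    (ofReal_measureReal (by finiteness)).symm
  have hexp : 0 ≤ √τ * Real.exp (KS S b * √(T * (c₁ * T))) := by positivity
  have hτ' : 0 ≤ τ⁻¹ := by positivity
  rw [h4, e1, e2, e3, ← ENNReal.ofReal_mul hM, ← ENNReal.ofReal_mul hτ', ← ENNReal.ofReal_mul hexp,
    ← ENNReal.ofReal_add (by positivity) (by positivity), ← ENNReal.ofReal_mul hcT,
    ← ENNReal.ofReal_mul hcT, ← ENNReal.ofReal_add (Finset.sum_nonneg fun i _ =>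
      Finset.sum_nonneg fun c _ => h3 i c) (by positivity),
    ENNReal.ofReal_le_ofReal_iff (add_nonneg (Finset.sum_nonneg fun i _ =>
      Finset.sum_nonneg fun c _ => h3 i c) (by positivity))] at h1
  linarith

end Crest.Agent.R014.NS_373
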