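import Crest.Agent.R014.StepQ3_870
import Crest.Agent.R014.NSlab5_373

/-!
# Row 14, block D, noise formalism (#3844), STEP q, part 4 (helper870)

STEP q in the names `kapc` of helper373, base `b = 2`; integrals over measurable sets.
-/

set_option autoImplicit false

open MeasureTheory Finset Filter Topology Crest.NumberTheoryR.Packets
open Crest.Agent.R014.Nd_837 Crest.Agent.R014.NScD_395 Crest.Agent.R014.NScE_395
open Crest.Agent.R014.Ms_667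
open Crest.Agent.R014.NScH_395 (c1N noiseFam NC PZ PZ_eq)
open Crest.Agent.R014.NS_373 (CC CC.ne vv uniC kapc ovl)
open scoped ENNReal

noncomputable section

namespace Crest.Agent.R014.StepQ_870

variable {n : ℕ}

theorem kapc_two (κ : Measure (SLR n)) (S : Finset (Fin n)) (i : ℕ) (c : CC S) :
    kapc κ S 2 i c = cv κ (vl0 S c (i : ℝ)) := by
  unfold kapc ovl
  rw [← vl0_two]

theorem logb_two_mul (i : ℕ) : (i : ℝ) * Real.logb 2 ((2:ℕ) : ℝ) = i := by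
  simp [Real.logb_self_eq_one]

/-- **STEP q** in the names of helper373 -/
theorem stepq_kapc {C3 : ℝ} (hC3 : 0 ≤ C3) (hL3 : L3St n C3) {e : ℝ} (he : 0 < e) :
    ∃ η U : ℝ, 0 < η ∧ 0 < U ∧ 20 * c1N n ≤ U ∧ ∀ μ : Measure (ModSpace n),
      IsProbabilityMeasure μ → AInv μ →
      ∀ u1 u2 : ℝ, U ≤ u1 → u1 ≤ 1 / 100000 * u2 → NC μ u1 u2 {2} η →
      ∀ (S : Finset (Fin n)) (c : CC S) (T i : ℕ), i ≤ T → 2 * (T : ℝ) + 4 * u1 ≤ u2 / 3000 →
      ∫ x, |Acv μ (kapc (zt (Rs S u1 T)) S 2 i c) c.ne ((i : ℝ) * Real.logb 2 ((2:ℕ) : ℝ)) 2 x -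
        PZ μ u1 2 c.1.1 c.1.2 (DSkel_792.tz (Pi.single c.1.1 (i : ℤ)) x)| ∂μ ≤ e := by
  obtain ⟨η, U, hη, hU, hUc, h⟩ := stepq_tz hC3 hL3 he
  refine ⟨η, U, hη, hU, hUc, fun μ hμp hμ u1 u2 h1 h2 hnc S c T i hi hT => ?_⟩
  have h3 := h μ hμp hμ u1 u2 h1 h2 hnc S c T i hi hT
  rw [logb_two_mul]
  exact h3

end Crest.Agent.R014.StepQ_870
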