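import Crest.Agent.R014.BaseA_433
import Crest.Agent.R014.BaseB_433
import Crest.Agent.R014.Q3f_433
import Crest.Agent.R014.NSlab6_373
import Crest.Agent.R014.StepQ4_870
import Crest.Agent.R014.AsmB2_460
import Crest.Agent.R014.Conv2_792

/-!
# Row 14, block D, leaf BASE, final part (helper433)

`base_final : L3St n C3 → Q3f_433.Base PSr Fr 12000` from 373's `slab_avg`, 884's `mass_final`,
870's `stepq_kapc`; `q3_final : L3St n C3 → AsmB_460.Q3 PSr Fr 12000`.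
-/

set_option autoImplicit false

open MeasureTheory Filter Topology
open Crest.NumberTheoryR.Packets
open Crest.Agent.R014.Iface_792
open Crest.Agent.R014.Nd_837
open Crest.Agent.R014.DSkel_792
open Crest.Agent.R014.AsmB_460
open Crest.Agent.R014.NScD_395 (Acv Av bdd_integrable measurable_Av Av_nonneg Av_le)
open Crest.Agent.R014.NScH_395 (PZ NC c1N noiseFam)
open Crest.Agent.R014.NS_373 (CC CC.ne KS ovl slab_avg)
open Crest.Agent.R014.StepQ_870 (Rs Rs_ge Rs_cross Rs_le adm_Rs L3St)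
open Crest.Agent.R014.Nm_884 (lamM isFiniteMeasure_lamM mass_final)
open Crest.Agent.R014.AsmB2_460 (PSr Fr U0 psr_eq' nCst_to)

namespace Crest.Agent.R014.Base_433

variable {n : ℕ}

/-- the absolute density -/
noncomputable def c1c (n : ℕ) : ℝ := (Real.log 2 / (32 * 2 ^ (n ^ 2))) ^ 2

theorem c1c_pos (n : ℕ) : 0 < c1c n := by
  have := Real.log_pos one_lt_two
  unfold c1c
  positivity

theorem KS_two_le (S : Finset (Fin n)) : KS S 2 ≤ 2 ^ (n ^ 2) := by
  unfold KS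
  have h1 : √(((2 : ℕ) : ℝ) / 2) = 1 := by norm_num
  rw [h1, mul_one, Fintype.card_fun, Fintype.card_fin]
  push_cast
  exact pow_le_pow_right₀ (by norm_num) (card_CC_le S)

theorem sqrt_small (S : Finset (Fin n)) (T : ℕ) :
    KS S 2 * √(T * (c1c n * T)) ≤ Real.log 2 / 32 * T := by
  have hl := Real.log_pos one_lt_two
  have hT : (0 : ℝ) ≤ T := Nat.cast_nonneg _
  have h1 : √((T : ℝ) * (c1c n * T)) = Real.log 2 / (32 * 2 ^ (n ^ 2)) * T := by
    have h2 : (T : ℝ) * (c1c n * T) = (Real.log 2 / (32 * 2 ^ (n ^ 2)) * T) ^ 2 := by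
      unfold c1c
      ring
    rw [h2, Real.sqrt_sq (by positivity)]
  rw [h1]
  have h3 := mul_le_mul_of_nonneg_right (KS_two_le S)
    (show 0 ≤ Real.log 2 / (32 * 2 ^ (n ^ 2)) * (T : ℝ) by positivity)
  refine h3.trans (le_of_eq ?_)
  field_simp

/-- the error of the slab bound -/
theorem err_le (S : Finset (Fin n)) {T : ℕ} {ε₀ ML u : ℝ} (hε₀ : 0 < ε₀)
    (hML : ML ≤ Kn n * Real.exp ((30 * (n : ℝ) ^ 2 + 1) * u - Real.log 2 / 2 * T))
    (hu : (30 * (n : ℝ) ^ 2 + 1) * u ≤ Real.log 2 / 8 * T)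
    (hT : (Kn n + 1) / (ε₀ / 8) ≤ Real.log 2 / 32 * T) :
    (Real.exp (-(Real.log 2 / 8 * T)))⁻¹ * ML + √(Real.exp (-(Real.log 2 / 8 * T))) *
      Real.exp (KS S 2 * √(T * (c1c n * T))) ≤ ε₀ / 8 := by
  have hl := Real.log_pos one_lt_two
  have hT0 : (0 : ℝ) ≤ T := Nat.cast_nonneg _
  have hK := Kn_pos n
  refine le_trans ?_ (exp_small (by positivity) hT)
  have h1 : (Real.exp (-(Real.log 2 / 8 * T)))⁻¹ * ML ≤
      Kn n * Real.exp (-(Real.log 2 / 32 * T)) := by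
    rw [← Real.exp_neg, neg_neg]
    calc Real.exp (Real.log 2 / 8 * T) * ML
        ≤ Real.exp (Real.log 2 / 8 * T) *
          (Kn n * Real.exp ((30 * (n : ℝ) ^ 2 + 1) * u - Real.log 2 / 2 * T)) :=
          mul_le_mul_of_nonneg_left hML (Real.exp_nonneg _)
      _ = Kn n * Real.exp (Real.log 2 / 8 * T +
          ((30 * (n : ℝ) ^ 2 + 1) * u - Real.log 2 / 2 * T)) := by
          rw [Real.exp_add]
          ring
      _ ≤ Kn n * Real.exp (-(Real.log 2 / 32 * T)) := by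
          refine mul_le_mul_of_nonneg_left (Real.exp_le_exp.2 ?_) hK.le
          have : 0 ≤ Real.log 2 * T := by positivity
          linarith
  have h2 : √(Real.exp (-(Real.log 2 / 8 * T))) * Real.exp (KS S 2 * √(T * (c1c n * T))) ≤
      1 * Real.exp (-(Real.log 2 / 32 * T)) := by
    rw [← Real.exp_half, ← Real.exp_add, one_mul]
    refine Real.exp_le_exp.2 ?_
    have := sqrt_small S T
    linarith
  linarith

theorem two_rpow_neg (x : ℝ) : (2 : ℝ) ^ (-x) = Real.exp (-(Real.log 2 * x)) := by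
  rw [Real.rpow_def_of_pos two_pos]
  congr 1
  ring

set_option maxHeartbeats 1000000 in
/-- **BASE**. -/
theorem base_final {C3 : ℝ} (hC3 : 0 ≤ C3) (hL3 : L3St n C3) :
    Q3f_433.Base (n := n) PSr Fr 12000 := by
  intro κ C hκ hC
  have hl := Real.log_pos one_lt_two
  have hl1 : Real.log 2 ≤ 1 := by
    have := Real.log_two_lt_d9
    linarith
  set c₁ : ℝ := c1c n with hc₁
  have hc₁pos : 0 < c₁ := c1c_pos n
  refine ⟨c₁ / 2, by positivity, ?_⟩
  intro ε₀ δ' hε₀ hδ'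
  set γ : ℝ := min (ε₀ / 16) (c₁ * ε₀ / (512 * ((n : ℝ) ^ 2 + 1))) with hγ
  have hγpos : 0 < γ := lt_min (by positivity) (by positivity)
  set es : ℝ := c₁ * ε₀ / (16 * ((n : ℝ) ^ 2 + 1)) with hes
  have hespos : 0 < es := by positivity
  obtain ⟨η, Us, hη, hUs, hUc, hstep⟩ := StepQ_870.stepq_kapc (n := n) hC3 hL3 hespos
  choose D₀ hD₀ using exists_D0 hγpos
  have hK := Kn_pos n
  set T₀ : ℝ := max ((Kn n + 1) / (ε₀ / 8) / (Real.log 2 / 32))
    ((8 + 32 * (n : ℝ)) / 1 / (Real.log 2 / 2)) with hT₀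
  set d₁ : ℝ := δ' * Real.log 2 / (8 * (30 * (n : ℝ) ^ 2 + 1)) with hd₁
  have hd₁pos : 0 < d₁ := by positivity
  refine ⟨{2}, η, min (1 / 100000) d₁, max Us (max (U0 n) (max (T₀ / δ') n)), C + (n : ℝ) ^ 3, κ,
    D₀, hη, lt_min (by norm_num) hd₁pos, by positivity, hκ, ?_⟩
  intro μ hprob hA u₁ u₂ hReg e η' D he hη' hD hslab hu₁ hu₂ w hwlow hwup S hS hS'
  obtain ⟨hU, hd, hNC⟩ := hReg
  have hNC' : NC μ u₁ u₂ {2} η := nCst_to hNC
  have hUs' : Us ≤ u₁ := (le_max_left _ _).trans hU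
  have hU0' : U0 n ≤ u₁ := ((le_max_left _ _).trans (le_max_right _ _)).trans hU
  have hUT : T₀ / δ' ≤ u₁ :=
    (((le_max_left _ _).trans (le_max_right _ _)).trans (le_max_right _ _)).trans hU
  have hUn : (n : ℝ) ≤ u₁ :=
    (((le_max_right _ _).trans (le_max_right _ _)).trans (le_max_right _ _)).trans hU
  have hu₁pos : 0 < u₁ := hUs.trans_le hUs'
  have hu₂pos : 0 < u₂ := by
    have h3 : 0 < min (1 / 100000) d₁ * u₂ := hu₁pos.trans_le hd
    exact pos_of_mul_pos_right h3 (lt_min (by norm_num) hd₁pos).le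
  have hd100 : u₁ ≤ 1 / 100000 * u₂ :=
    hd.trans (mul_le_mul_of_nonneg_right (min_le_left _ _) hu₂pos.le)
  have hdd₁ : u₁ ≤ d₁ * u₂ := hd.trans (mul_le_mul_of_nonneg_right (min_le_right _ _) hu₂pos.le)
  have hu12 : u₁ ≤ u₂ := by linarith
  -- the dimension
  have hn2 : 2 ≤ n := by
    obtain ⟨i, hi⟩ := hS
    obtain ⟨j, hj⟩ : ∃ j, j ∉ S := by
      by_contra hcon
      push Not at hcon
      exact hS' (Finset.eq_univ_iff_forall.2 hcon)
    have hij : i ≠ j := fun h => hj (h ▸ hi)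
    have h1 := i.isLt
    have h2 := j.isLt
    have h3 : i.val ≠ j.val := fun h => hij (Fin.ext h)
    omega
  have hn0 : 0 < n := by omega
  -- the number of levels
  have hwT₀ : T₀ ≤ w := by
    rw [div_le_iff₀ hδ'] at hUT
    have h3 := mul_le_mul_of_nonneg_left hu12 hδ'.le
    linarith
  have hw0 : 0 < w := by
    have h3 : 0 < δ' * u₂ := by positivity
    have h4 : (0 : ℝ) < w := h3.trans_le hwlow
    exact_mod_cast h4
  have hwr : (0 : ℝ) ≤ w := Nat.cast_nonneg _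
  have hT1 : (Kn n + 1) / (ε₀ / 8) ≤ Real.log 2 / 32 * w := by
    have h3 : (Kn n + 1) / (ε₀ / 8) / (Real.log 2 / 32) ≤ w := (le_max_left _ _).trans hwT₀
    rw [div_le_iff₀ (by positivity)] at h3
    linarith
  have hT2 : (8 + 32 * (n : ℝ)) / 1 ≤ Real.log 2 / 2 * w := by
    have h3 : (8 + 32 * (n : ℝ)) / 1 / (Real.log 2 / 2) ≤ w := (le_max_right _ _).trans hwT₀
    rw [div_le_iff₀ (by positivity)] at h3
    linarith
  obtain ⟨hD1, hD16, hDη, hDe⟩ := hD₀ e η' he hη' D hD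
  have hD0 : 0 < D := by linarith
  -- the mass bound
  have hδ0 : D ^ (-κ) ≤ (8 + 32 * (n : ℝ)) * 2 ^ (-((w : ℝ) / 2)) := by
    rw [two_rpow_neg, Real.rpow_def_of_pos hD0]
    have h3 : Real.exp (Real.log D * -κ) ≤ Real.exp (-(Real.log 2 * ((w : ℝ) / 2))) := by
      refine Real.exp_le_exp.2 ?_
      have h4 : Real.log 2 * ((w : ℝ) / 2) ≤ 1 * w := by
        refine mul_le_mul hl1 (by linarith) (by positivity) zero_le_one
      have h5 : u₂ / 12000 ≤ u₂ := by linarith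
      linarith
    have h6 : (1 : ℝ) ≤ 8 + 32 * (n : ℝ) := by
      have : (0 : ℝ) ≤ n := Nat.cast_nonneg _
      linarith
    calc Real.exp (Real.log D * -κ) ≤ 1 * Real.exp (-(Real.log 2 * ((w : ℝ) / 2))) := by
          rw [one_mul]; exact h3
      _ ≤ _ := mul_le_mul_of_nonneg_right h6 (Real.exp_nonneg _)
  have hδ1 : (8 + 32 * (n : ℝ)) * 2 ^ (-((w : ℝ) / 2)) ≤ 1 := by
    rw [two_rpow_neg]
    have h3 : Real.log 2 * ((w : ℝ) / 2) = Real.log 2 / 2 * w := by ring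
    rw [h3]
    exact exp_small one_pos hT2
  obtain ⟨G, hGm, hGμ, hmass⟩ := mass_final hn0 μ hA hD1 he.le hslab hD16 (b := 2) le_rfl
    (T := w) (Tr := w) (by simp) S hS hS' hδ0 hδ1
  have hcN : c1N n ≤ 5 * u₁ := by
    rcases le_total 0 (c1N n) with h | h <;> linarith
  set R := Rs S u₁ w with hR
  have hAdm : Nz_323.Adm R := adm_Rs (noiseFam n) S hu₁pos.le hwr hcN
  have hn5 : (n : ℝ) * 2 ^ (-(5 * u₁)) ≤ 1 / 2 := by
    rw [two_rpow_neg]
    refine exp_small (by norm_num) ?_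
    have h3 : (1 : ℝ) / 2 ≤ Real.log 2 := by
      have := Real.log_two_gt_d9
      linarith
    have h4 : (n : ℝ) / (1 / 2) = 2 * n := by ring
    rw [h4]
    nlinarith
  have hmass' := hmass R (5 * u₁) (30 * u₁) hAdm (by positivity) hn5
    (fun i j => Rs_ge hu₁pos.le hwr i j) (fun c => by rw [hR, Rs_cross])
    (fun c => by rw [hR, Rs_cross]; linarith) (fun i j h => Rs_le hu₁pos.le i j h)
  have hprobR : IsProbabilityMeasure (zt R) := isProb_zt hAdm
  have hfin : IsFiniteMeasure (lamM n (D ^ (-e))) :=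
    isFiniteMeasure_lamM hn0 (Real.rpow_pos_of_pos hD0 _)
  set P : Fin n → Fin n → ModSpace n → ℝ := PZ μ u₁ 2 with hP
  have hPS : PSr μ u₁ 2 = P := psr_eq' hU0' two_pos
  have hmP : ∀ i j, Measurable (P i j) := fun i j => hPS ▸ AsmB2_460.measurable_psr μ u₁ 2 i j
  have h0P : ∀ i j x, 0 ≤ P i j x := fun i j x => hPS ▸ AsmB2_460.psr_nonneg μ u₁ 2 i j x
  have h2P : ∀ i j x, P i j x ≤ 2 := fun i j x => hPS ▸ AsmB2_460.psr_le μ u₁ 2 i j x
  rw [hPS]
  have hslb := slab_avg (b := 2) two_pos S μ (zt R) w hGm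
    {x | Q3c_433.blk tz P S 0 w x < c₁ / 2 * w} (lamM n (D ^ (-e))) (M :=
      (2 ^ n * (8 + 32 * n)) * 2 ^ ((n : ℝ) ^ 2 * (30 * u₁)) * D ^ (C * e) * 2 ^ (-((w : ℝ) / 2)))
    (by positivity) hmass' (τ := Real.exp (-(Real.log 2 / 8 * w))) (Real.exp_pos _)
    (c₁ := c₁) hc₁pos.le
  set B : ℝ := (Real.exp (-(Real.log 2 / 8 * w)))⁻¹ *
    ((2 ^ n * (8 + 32 * n)) * 2 ^ ((n : ℝ) ^ 2 * (30 * u₁)) * D ^ (C * e) *
      2 ^ (-((w : ℝ) / 2)) * (lamM n (D ^ (-e))).real Set.univ) +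
    √(Real.exp (-(Real.log 2 / 8 * w))) * Real.exp (KS S 2 * √(w * (c₁ * w))) with hB
  have hBle : B ≤ ε₀ / 8 := by
    refine err_le S hε₀ (mass_le hn0 hD1 he.le hu₁pos.le hu₁) ?_ hT1
    calc (30 * (n : ℝ) ^ 2 + 1) * u₁ ≤ (30 * (n : ℝ) ^ 2 + 1) * (d₁ * u₂) :=
          mul_le_mul_of_nonneg_left hdd₁ (by positivity)
      _ = Real.log 2 / 8 * (δ' * u₂) := by
          rw [hd₁]
          field_simp
      _ ≤ Real.log 2 / 8 * w := mul_le_mul_of_nonneg_left hwlow (by positivity)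
  have hkey := key_one (μ := μ) hmP h0P h2P hw0 S hGm (B := B) (c₁ := c₁) (e := es) hc₁pos
    hespos.le
    (fun i c x => Acv μ (cv (zt R) (ovl S 2 i c)) c.ne ((i : ℕ) * Real.logb 2 ((2 : ℕ) : ℝ)) 2 x)
    (fun i c => bdd_integrable (measurable_Av _ _) (M := 2) fun x => by
        unfold Acv
        rw [abs_of_nonneg (Av_nonneg _ _ _)]
        exact Av_le _ _ _)
    (fun i c => hstep μ hprob hA u₁ u₂ hUs' hd100 hNC' S c w i i.isLt.le (by linarith))
    hslb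
  refine hkey.trans ?_
  have hg : μ.real Gᶜ ≤ γ := real_compl_le hn2 he.le hD1 hDη hDe hGμ
  have hg1 : μ.real Gᶜ ≤ ε₀ / 16 := hg.trans (min_le_left _ _)
  have hg2 : μ.real Gᶜ ≤ c₁ * ε₀ / (512 * ((n : ℝ) ^ 2 + 1)) := hg.trans (min_le_right _ _)
  have h5 : 2 * (n : ℝ) ^ 2 / c₁ * (es + 16 * μ.real Gᶜ) ≤ ε₀ / 4 := by
    have h6 : es + 16 * μ.real Gᶜ ≤ c₁ * (ε₀ / (8 * ((n : ℝ) ^ 2 + 1))) := by
      have h7 : es = c₁ * (ε₀ / (8 * ((n : ℝ) ^ 2 + 1))) / 2 := by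
        rw [hes]
        field_simp
        norm_num
      have h8 : 16 * (c₁ * ε₀ / (512 * ((n : ℝ) ^ 2 + 1))) =
          c₁ * (ε₀ / (8 * ((n : ℝ) ^ 2 + 1))) / 4 := by
        field_simp
        norm_num
      have h9 : 0 < c₁ * (ε₀ / (8 * ((n : ℝ) ^ 2 + 1))) := by positivity
      linarith
    calc 2 * (n : ℝ) ^ 2 / c₁ * (es + 16 * μ.real Gᶜ)
        ≤ 2 * (n : ℝ) ^ 2 / c₁ * (c₁ * (ε₀ / (8 * ((n : ℝ) ^ 2 + 1)))) :=
          mul_le_mul_of_nonneg_left h6 (by positivity)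
      _ = ε₀ / 4 * ((n : ℝ) ^ 2 / ((n : ℝ) ^ 2 + 1)) := by
          field_simp
          norm_num
      _ ≤ ε₀ / 4 * 1 := by
          refine mul_le_mul_of_nonneg_left ?_ (by positivity)
          rw [div_le_one (by positivity)]
          linarith
      _ = ε₀ / 4 := mul_one _
  linarith

/-- **(Q3)** for the real functions. -/
theorem q3_final {C3 : ℝ} (hC3 : 0 ≤ C3) (hL3 : L3St n C3) : AsmB_460.Q3 (n := n) PSr Fr 12000 := by
  refine Q3f_433.q3_of_base (k₀ := 3000) (k₂ := 12000)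
    (fun μ _ u b i j => AsmB2_460.measurable_psr μ u b i j)
    (fun μ u b i j x => AsmB2_460.psr_nonneg μ u b i j x)
    (fun μ u b i j x => AsmB2_460.psr_le μ u b i j x) (by norm_num) (by norm_num) (by norm_num)
    le_rfl (AsmB2_460.q1R n) (base_final hC3 hL3) ?_
  intro q
  obtain ⟨K₀, U, h⟩ := Conv2_792.conv_PS (noiseFam n) q
  refine ⟨K₀, max U (U0 n), fun K hK μ hprob hA u hu i j hij => ?_⟩
  have hu1 : U0 n ≤ u := (le_max_right _ _).trans hu
  rw [psr_eq' hu1 two_pos, psr_eq' hu1 (by positivity : 0 < 2 ^ K)]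
  exact h K hK μ hprob hA u ((le_max_left _ _).trans hu) i j hij

end Crest.Agent.R014.Base_433
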