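import Crest.Prelude.Def_TorusPacket

/-!
# Row 14: unfolding bound for packet measures (helper71)

`act_act`, `diagFlow_add`, `orbitMap_add`, `orbitMap_eq_iff`, `continuous_orbitMap`,
`countable_periods`;
`measure_le` : a packet measure of a measurable set `E` whose packet points are covered by the
orbit images of boxes `orbitMap (y j) '' B j`, `j ∈ s`, is at most `∑ vol (B j) / V`.
-/

set_option autoImplicit false
open MeasureTheory Set
open scoped Pointwise
open Crest Crest.NumberTheoryR Crest.NumberTheoryR.Packets

namespace Crest.Agent.R014.BoxV_71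

theorem act_mk {n : ℕ} (h g : SLR n) :
    act (Quotient.mk _ h : ModSpace n) g = (Quotient.mk _ (h * g) : ModSpace n) := rfl

theorem act_act {n : ℕ} (y : ModSpace n) (g h : SLR n) : act (act y g) h = act y (g * h) := by
  induction y using Quotient.inductionOn with
  | h a => exact congrArg (Quotient.mk _) (mul_assoc a g h)

theorem act_one {n : ℕ} (y : ModSpace n) : act y 1 = y := by
  induction y using Quotient.inductionOn with
  | h a => exact congrArg (Quotient.mk _) (mul_one a)

theorem diagFlow_zero {d : ℕ} : diagFlow (0 : Fin d → ℝ) = 1 := by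
  apply Subtype.ext
  simp only [diagFlow, Pi.zero_apply, Real.exp_zero, Finset.sum_const_zero, neg_zero]
  ext i j
  by_cases h : i = j
  · subst h
    simp only [Matrix.diagonal_apply_eq, Matrix.SpecialLinearGroup.coe_one, Matrix.one_apply_eq]
    exact Fin.lastCases (by simp) (fun k => by simp) i
  · simp [h]

theorem diagFlow_add {d : ℕ} (u v : Fin d → ℝ) : diagFlow (u + v) = diagFlow u * diagFlow v := by
  apply Subtype.ext
  show Matrix.diagonal _ = Matrix.diagonal _ * Matrix.diagonal _
  rw [Matrix.diagonal_mul_diagonal]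
  congr 1
  funext i
  refine Fin.lastCases ?_ (fun k => ?_) i
  · simp [Real.exp_add, Finset.sum_add_distrib, mul_comm]
  · simp [Real.exp_add]

theorem orbitMap_zero {d : ℕ} (x : ModSpace (d + 1)) : orbitMap x 0 = x := by
  unfold orbitMap
  rw [diagFlow_zero, act_one]

theorem orbitMap_add {d : ℕ} (x : ModSpace (d + 1)) (u v : Fin d → ℝ) :
    orbitMap (orbitMap x u) v = orbitMap x (u + v) := by
  unfold orbitMap
  rw [act_act, diagFlow_add]

theorem mem_periods {d : ℕ} {x : ModSpace (d + 1)} {u : Fin d → ℝ} :
    u ∈ periods x ↔ orbitMap x u = x := Iff.rfl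

theorem orbitMap_eq_iff {d : ℕ} (x : ModSpace (d + 1)) (u v : Fin d → ℝ) :
    orbitMap x u = orbitMap x v ↔ u - v ∈ periods x := by
  rw [mem_periods]
  constructor
  · intro h
    have := congrArg (fun z => orbitMap z (-v)) h
    simp only [orbitMap_add] at this
    rw [add_neg_cancel, orbitMap_zero] at this
    rw [sub_eq_add_neg]
    exact this
  · intro h
    have := congrArg (fun z => orbitMap z v) h
    simp only [orbitMap_add] at this
    rwa [sub_add_cancel] at this

theorem continuous_diagFlow {d : ℕ} : Continuous (diagFlow : (Fin d → ℝ) → SLR (d + 1)) := by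
  refine Continuous.subtype_mk ?_ _
  refine Continuous.matrix_diagonal ?_
  refine continuous_pi fun i => ?_
  refine Fin.lastCases ?_ (fun k => ?_) i
  · simp only [Fin.snoc_last]
    fun_prop
  · simp only [Fin.snoc_castSucc]
    fun_prop

theorem continuous_orbitMap {d : ℕ} (x : ModSpace (d + 1)) : Continuous (orbitMap x) := by
  induction x using Quotient.inductionOn with
  | h a =>
    have : (orbitMap (Quotient.mk _ a : ModSpace (d + 1))) =
        fun u => (Quotient.mk _ (a * diagFlow u) : ModSpace (d + 1)) := rfl
    rw [this]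
    exact continuous_quotient_mk'.comp (continuous_const.mul continuous_diagFlow)

theorem measurable_orbitMap {d : ℕ} (x : ModSpace (d + 1)) : Measurable (orbitMap x) :=
  (continuous_orbitMap x).measurable

theorem diagFlow_injective {d : ℕ} : Function.Injective (diagFlow : (Fin d → ℝ) → SLR (d + 1)) := by
  intro u v h
  funext i
  have h1 := congrArg (fun g : SLR (d + 1) => g.1 i.castSucc i.castSucc) h
  simp only [diagFlow, Matrix.diagonal_apply_eq, Fin.snoc_castSucc] at h1
  exact Real.exp_injective h1

/-- the period groups are countable. -/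
instance countable_periods {d : ℕ} (x : ModSpace (d + 1)) : Countable (periods x) := by
  induction x using Quotient.inductionOn with
  | h a =>
    have hΓ : Countable (intPoints (d + 1)) := by
      unfold intPoints
      have : Countable (Matrix.SpecialLinearGroup (Fin (d + 1)) ℤ) := by
        have h0 : Countable (Matrix (Fin (d + 1)) (Fin (d + 1)) ℤ) :=
          inferInstanceAs (Countable (Fin (d + 1) → Fin (d + 1) → ℤ))
        exact Function.Injective.countable
          (f := fun A : Matrix.SpecialLinearGroup (Fin (d + 1)) ℤ => A.1) Subtype.val_injective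
      exact (Set.countable_range _).to_subtype
    have key : ∀ u : periods (Quotient.mk _ a : ModSpace (d + 1)),
        a * diagFlow (u : Fin d → ℝ) * a⁻¹ ∈ intPoints (d + 1) := by
      intro u
      have hu : (Quotient.mk _ (a * diagFlow (u : Fin d → ℝ)) : ModSpace (d + 1))
          = Quotient.mk _ a := u.2
      have h2 := Quotient.exact hu
      have h3 : QuotientGroup.rightRel (intPoints (d + 1)) (a * diagFlow (u : Fin d → ℝ)) a := h2
      rw [QuotientGroup.rightRel_apply] at h3
      have h4 := (intPoints (d + 1)).inv_mem h3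
      rwa [mul_inv_rev, inv_inv] at h4
    let f : periods (Quotient.mk _ a : ModSpace (d + 1)) → intPoints (d + 1) :=
      fun u => ⟨_, key u⟩
    have hf : Function.Injective f := by
      intro u v h
      have h1 : a * diagFlow (u : Fin d → ℝ) * a⁻¹ = a * diagFlow (v : Fin d → ℝ) * a⁻¹ :=
        congrArg Subtype.val h
      have h2 := mul_right_cancel h1
      have h3 := mul_left_cancel h2
      exact Subtype.ext (diagFlow_injective h3)
    exact hf.countable

/-- volume of the part of a fundamental domain that is moved by periods into `C`. -/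
theorem volume_inter_le {d : ℕ} {x : ModSpace (d + 1)} {D : Set (Fin d → ℝ)}
    (hD : IsAddFundamentalDomain (periods x) D volume) (y : ModSpace (d + 1))
    (B : Set (Fin d → ℝ)) :
    volume (D ∩ {u | orbitMap x u ∈ orbitMap y '' B ∧ y ∈ range (orbitMap x)}) ≤ volume B := by
  by_cases hy : y ∈ range (orbitMap x)
  swap
  · have : D ∩ {u | orbitMap x u ∈ orbitMap y '' B ∧ y ∈ range (orbitMap x)} = ∅ := by
      ext u; simp [hy]
    rw [this]; simp
  obtain ⟨u0, rfl⟩ := hy
  have hsub : D ∩ {u | orbitMap x u ∈ orbitMap (orbitMap x u0) '' B ∧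
      orbitMap x u0 ∈ range (orbitMap x)} ⊆
      ⋃ p : periods x, ((p +ᵥ ((fun b => u0 + b) '' B)) ∩ D) := by
    rintro u ⟨huD, ⟨b, hb, hub⟩, -⟩
    rw [orbitMap_add] at hub
    have h1 := (orbitMap_eq_iff x u (u0 + b)).1 hub.symm
    rw [mem_iUnion]
    refine ⟨⟨u - (u0 + b), h1⟩, ?_, huD⟩
    refine ⟨u0 + b, ⟨b, hb, rfl⟩, ?_⟩
    show (u - (u0 + b)) + (u0 + b) = u
    abel
  refine (measure_mono hsub).trans ((measure_iUnion_le _).trans ?_)
  rw [← hD.measure_eq_tsum]
  have h2 : (fun b => u0 + b) '' B = (fun b => -u0 + b) ⁻¹' B := by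
    ext z
    constructor
    · rintro ⟨b, hb, rfl⟩
      simpa using hb
    · intro hz
      exact ⟨-u0 + z, hz, by simp⟩
  rw [h2, measure_preimage_add]

/-- **unfolding bound**. -/
theorem measure_le {d k : ℕ} (x : Fin k → ModSpace (d + 1)) (D : Fin k → Set (Fin d → ℝ))
    (hinj : Function.Injective (fun i => Set.range (orbitMap (x i))))
    (hD : ∀ i, IsAddFundamentalDomain (periods (x i)) (D i) volume)
    {ι : Type*} (s : Finset ι) (y : ι → ModSpace (d + 1)) (B : ι → Set (Fin d → ℝ))
    (E : Set (ModSpace (d + 1))) (hE : MeasurableSet E)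
    (hcov : ∀ z ∈ E, (∃ i, z ∈ Set.range (orbitMap (x i))) → ∃ j ∈ s, z ∈ orbitMap (y j) '' B j) :
    ((∑ i, volume (D i))⁻¹ •
      Measure.sum (fun i => Measure.map (orbitMap (x i)) (volume.restrict (D i)))) E
      ≤ (∑ i, volume (D i))⁻¹ * ∑ j ∈ s, volume (B j) := by
  classical
  rw [Measure.smul_apply, smul_eq_mul]
  gcongr
  rw [Measure.sum_apply _ hE, tsum_fintype]
  have h1 : ∀ i, Measure.map (orbitMap (x i)) (volume.restrict (D i)) E ≤
      ∑ j ∈ s, volume (D i ∩ {u | orbitMap (x i) u ∈ orbitMap (y j) '' B j ∧
        y j ∈ range (orbitMap (x i))}) := by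
    intro i
    rw [Measure.map_apply (measurable_orbitMap _) hE,
      Measure.restrict_apply ((measurable_orbitMap _) hE)]
    refine le_trans (measure_mono ?_) (measure_biUnion_finset_le s _)
    rintro u ⟨huE, huD⟩
    obtain ⟨j, hj, hz⟩ := hcov _ huE ⟨i, mem_range_self u⟩
    rw [mem_iUnion₂]
    refine ⟨j, hj, huD, hz, ?_⟩
    obtain ⟨b, hb, hub⟩ := hz
    refine ⟨u - b, ?_⟩
    have := congrArg (fun z => orbitMap z (-b)) hub
    simp only [orbitMap_add] at this
    rw [add_neg_cancel, orbitMap_zero] at this
    rw [sub_eq_add_neg]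
    exact this.symm
  refine (Finset.sum_le_sum fun i _ => h1 i).trans ?_
  rw [Finset.sum_comm]
  refine Finset.sum_le_sum fun j _ => ?_
  -- at most one orbit contains `y j`
  by_cases hy : ∃ i, y j ∈ range (orbitMap (x i))
  · obtain ⟨i0, hi0⟩ := hy
    have hzero : ∀ i, i ≠ i0 → volume (D i ∩ {u | orbitMap (x i) u ∈ orbitMap (y j) '' B j ∧
        y j ∈ range (orbitMap (x i))}) = 0 := by
      intro i hi
      have : D i ∩ {u | orbitMap (x i) u ∈ orbitMap (y j) '' B j ∧
          y j ∈ range (orbitMap (x i))} = ∅ := by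
        ext u
        simp only [mem_inter_iff, mem_ofPred_eq, mem_empty_iff_false, iff_false, not_and]
        intro _ _ hyi
        apply hi
        apply hinj
        obtain ⟨a, ha⟩ := hyi
        obtain ⟨b, hb⟩ := hi0
        have e1 : ∀ z, z ∈ Set.range (orbitMap (x i)) ↔ z ∈ Set.range (orbitMap (y j)) := by
          intro z
          rw [← ha]
          constructor
          · rintro ⟨c, rfl⟩
            exact ⟨c - a, by rw [orbitMap_add]; congr 1; abel⟩
          · rintro ⟨c, rfl⟩
            exact ⟨a + c, by rw [orbitMap_add]⟩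
        have e2 : ∀ z, z ∈ Set.range (orbitMap (x i0)) ↔ z ∈ Set.range (orbitMap (y j)) := by
          intro z
          rw [← hb]
          constructor
          · rintro ⟨c, rfl⟩
            exact ⟨c - b, by rw [orbitMap_add]; congr 1; abel⟩
          · rintro ⟨c, rfl⟩
            exact ⟨b + c, by rw [orbitMap_add]⟩
        ext z
        rw [e1, e2]
      rw [this]; simp
    rw [Finset.sum_eq_single i0 (fun i _ hi => hzero i hi) (fun h => absurd (Finset.mem_univ _) h)]
    exact volume_inter_le (hD i0) _ _
  · push Not at hy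
    have : ∀ i, D i ∩ {u | orbitMap (x i) u ∈ orbitMap (y j) '' B j ∧
          y j ∈ range (orbitMap (x i))} = ∅ := by
      intro i
      ext u
      simp only [mem_inter_iff, mem_ofPred_eq, mem_empty_iff_false, iff_false, not_and]
      intro _ _ hyi
      exact hy i hyi
    rw [Finset.sum_eq_zero fun i _ => by rw [this i, measure_empty]]
    exact zero_le

end Crest.Agent.R014.BoxV_71
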