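import Crest.Agent.R014.ClF3_599

set_option autoImplicit false

/-!
Row 14, block D, (R): CLAIM F for all digits of the `jl`-window `2 ^ K` at once, `2 ^ K` digits for
the `jk`-window (helper373, order of constants of #5111, #5238).
-/

open MeasureTheory Crest.NumberTheoryR.Packets
open scoped ENNReal

namespace Crest.Agent.R014.CFK_373

open Ms_667 Ne1_567 Ne3_567 Sw1_640 Sw3_640 Sw4_640 Sw5_640 ClF2_599 ClF3_599
open Nd_837 hiding uni_ae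
open Nz_323 (Adm CN)
open NScA_395 (rho)
open NScD_395 (dl)
open NScG_458 (RN)
open NScH_395 (NC c1N)

variable {n : ℕ}

theorem log_base_le (K K3 : ℕ) :
    Real.log ((2 ^ (K + 4) * 2 ^ K3 : ℕ) : ℝ) + 3 ≤ ((K + K3 + 7 : ℕ) : ℝ) := by
  have h1 : ((2 ^ (K + 4) * 2 ^ K3 : ℕ) : ℝ) = 2 ^ (K + 4 + K3) := by push_cast; ring
  rw [h1, Real.log_pow]
  have h2 : Real.log 2 ≤ 1 := by have := Real.log_two_lt_d9; linarith
  have h3 : ((K + 4 + K3 : ℕ) : ℝ) * Real.log 2 ≤ ((K + 4 + K3 : ℕ) : ℝ) * 1 :=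
    mul_le_mul_of_nonneg_left h2 (Nat.cast_nonneg _)
  push_cast at h3 ⊢
  linarith

/-- the modulus at the scale `2 ^ (K3 - K)` -/
theorem exists_K1 (K3 : ℕ) {ε : ℝ} (hε : 0 < ε) :
    ∃ K1 : ℕ, ∀ K : ℕ, K1 ≤ K → (2 : ℝ) ^ ((K3 : ℝ) - K - 3) ≤ 1 ∧
      ∀ x, 0 ≤ x → x ≤ (2 : ℝ) ^ ((K3 : ℝ) - K - 3) → md (2 ^ (K + 4) * 2 ^ K3) x ≤ ε := by
  have ht := tendsto_pow_const_div_const_pow_of_one_lt 2 (by norm_num : (1 : ℝ) < 2)
  have hpos : 0 < ε ^ 2 / 2 ^ (2 * K3 + 4) := by positivity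
  obtain ⟨N, hN⟩ := Filter.eventually_atTop.1 (ht.eventually (gt_mem_nhds hpos))
  refine ⟨max N K3, fun K hK => ?_⟩
  have hKN : N ≤ K := (le_max_left _ _).trans hK
  have hK3 : K3 ≤ K := (le_max_right _ _).trans hK
  have hKr : (K3 : ℝ) ≤ K := by exact_mod_cast hK3
  have hy1 : (2 : ℝ) ^ ((K3 : ℝ) - K - 3) ≤ 1 :=
    Real.rpow_le_one_of_one_le_of_nonpos (by norm_num) (by linarith)
  refine ⟨hy1, fun x hx0 hx => ?_⟩
  set m : ℕ := K + K3 + 7 with hm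
  have h1 := hN m (by omega)
  have hy : (2 : ℝ) ^ ((K3 : ℝ) - K - 3) = 2 ^ (2 * K3 + 4) / 2 ^ m := by
    rw [eq_div_iff (by positivity), ← Real.rpow_natCast, ← Real.rpow_natCast,
      ← Real.rpow_add two_pos]
    congr 1
    rw [hm]; push_cast; ring
  have hm0 : (0 : ℝ) ≤ m := Nat.cast_nonneg _
  have h2 : (m : ℝ) ^ 2 * x ≤ ε ^ 2 := by
    have h3 : (m : ℝ) ^ 2 * x ≤ (m : ℝ) ^ 2 * (2 ^ (2 * K3 + 4) / 2 ^ m) :=
      mul_le_mul_of_nonneg_left (hx.trans hy.le) (by positivity)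
    refine h3.trans ?_
    have h4 : (m : ℝ) ^ 2 * (2 ^ (2 * K3 + 4) / 2 ^ m) =
        (m : ℝ) ^ 2 / 2 ^ m * 2 ^ (2 * K3 + 4) := by ring
    rw [h4]
    have h5 := mul_le_mul_of_nonneg_right h1.le (by positivity : (0 : ℝ) ≤ 2 ^ (2 * K3 + 4))
    refine h5.trans (le_of_eq ?_)
    field_simp
  have h6 : (m : ℝ) * √x ≤ ε := by
    have h7 : (m : ℝ) * √x = √((m : ℝ) ^ 2 * x) := by
      rw [Real.sqrt_mul (by positivity), Real.sqrt_sq hm0]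
    rw [h7]
    calc √((m : ℝ) ^ 2 * x) ≤ √(ε ^ 2) := Real.sqrt_le_sqrt h2
      _ = ε := Real.sqrt_sq hε.le
  calc md (2 ^ (K + 4) * 2 ^ K3) x
      ≤ (Real.log ((2 ^ (K + 4) * 2 ^ K3 : ℕ) : ℝ) + 3) * √x := md_le_sqrt _ hx0 (hx.trans hy1)
    _ ≤ (m : ℝ) * √x := mul_le_mul_of_nonneg_right (log_base_le K K3) (Real.sqrt_nonneg _)
    _ ≤ ε := h6

/-- **(iii), constants.** All digits of the `jl`-window `2 ^ K` down to cells `2 ^ (-3 - K3)`, the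
`jk`-variable known up to `2 ^ (-3 - K)`. -/
theorem claimFK (K3 : ℕ) {ε : ℝ} (hε : 0 < ε) :
    ∃ K1 : ℕ, ∀ K : ℕ, K1 ≤ K → ∃ η U : ℝ, 0 < η ∧ 0 < U ∧
      ∀ μ : Measure (ModSpace n), IsProbabilityMeasure μ → AInv μ →
      ∀ (u1 u2 M W : ℝ) (B : Finset ℕ), U ≤ u1 → 1000 * (u1 + W) ≤ M → 2 * M ≤ u2 / 20 →
      2 ^ (K + 4) * 2 ^ K3 ∈ B → NC μ u1 u2 B η → (K : ℝ) + K3 + 8 ≤ W →
      ∀ (j k l : Fin n) (hjk : j ≠ k) (hkl : k ≠ l) (hjl : j ≠ l) (γ' : ℝ), |γ'| ≤ W →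
      HR μ M hjk hkl hjl (4 + K) 4 (-K) (2 ^ (K + 4) * 2 ^ K3) ≤
        Hc (lab μ (zt (RN j k l M)) hjl γ' (2 ^ (K + 4) * 2 ^ K3)) + ε := by
  obtain ⟨K1, hK1⟩ := exists_K1 K3 (ε := ε / 20) (by positivity)
  refine ⟨K1, fun K hK => ?_⟩
  obtain ⟨hy1, hmd⟩ := hK1 K hK
  set b : ℕ := 2 ^ (K + 4) * 2 ^ K3 with hb
  set y : ℝ := (2 : ℝ) ^ ((K3 : ℝ) - K - 3) with hy
  have hy0 : 0 < y := Real.rpow_pos_of_pos two_pos _
  have hb2 : 2 ≤ b := by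
    have h1 : 2 ≤ 2 ^ (K + 4) := by
      calc 2 = 2 ^ 1 := rfl
        _ ≤ 2 ^ (K + 4) := Nat.pow_le_pow_right (by norm_num) (by omega)
    have h2 : 1 ≤ 2 ^ K3 := Nat.one_le_two_pow
    calc 2 = 2 * 1 := rfl
      _ ≤ 2 ^ (K + 4) * 2 ^ K3 := Nat.mul_le_mul h1 h2
  have hCN : (0 : ℝ) ≤ CN n := by unfold Nz_323.CN; positivity
  obtain ⟨w0, hw0, hw⟩ := rpow_neg_small hCN (δ := y / 12) (by positivity)
  have hL1 : 1 ≤ Real.logb 2 b := logb_ge_one hb2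
  refine ⟨ε / 20, max (20 * (w0 + Real.logb 2 b)) (20 * c1N n), by positivity,
    lt_of_lt_of_le (by positivity) (le_max_left _ _), ?_⟩
  intro μ hμp hμ u1 u2 M W B hU hM hu2 hbB hN hW j k l hjk hkl hjl γ' hγ'
  have hU1 : 20 * (w0 + Real.logb 2 b) ≤ u1 := (le_max_left _ _).trans hU
  have hU2 : 20 * c1N n ≤ u1 := (le_max_right _ _).trans hU
  have hu1 : 0 ≤ u1 := by linarith
  have hK0 : (0 : ℝ) ≤ K := Nat.cast_nonneg _
  have hK30 : (0 : ℝ) ≤ K3 := Nat.cast_nonneg _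
  have hW0 : 0 ≤ W := by linarith
  have h0 := e0_nonneg n (u1 / 20)
  have hadm : ((n.factorial : ℝ) + 1) * 2 ^ (n + 1) ≤ (2 : ℝ) ^ (u1 / 20) := by
    have h1 : c1N n ≤ u1 / 20 := by linarith
    unfold NScH_395.c1N at h1
    rwa [Real.logb_le_iff_le_rpow (by norm_num) (by positivity)] at h1
  have hRg : Rg n (M / 2) u1 u2 (u1 / 20)
      (W + 12 * u1 + 4 * (u1 / 20) + 4 * Real.logb 2 b) :=
    ⟨by positivity, le_rfl, by positivity, hadm, by linarith, by linarith⟩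
  have he0 : e0 n (u1 / 20) ≤ y / 12 := hw (u1 / 20) (by linarith)
  have hX : b * (2 : ℝ) ^ ((-(K : ℝ)) - (4 + K) - 4) / 2 = y / 4 := by
    rw [hb, hy]
    push_cast
    rw [← pow_add, ← Real.rpow_natCast, ← Real.rpow_add two_pos]
    have h1 : (2 : ℝ) ^ ((((K + 4 + K3 : ℕ) : ℝ)) + (-(K : ℝ) - (4 + K) - 4)) =
        (2 : ℝ) ^ ((K3 : ℝ) - K - 3) * 2 ^ (-1 : ℝ) := by
      rw [← Real.rpow_add two_pos]
      congr 1
      push_cast; ring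
    rw [h1, Real.rpow_neg_one]
    ring
  have key := claimF hμ (α := 4 + (K : ℝ)) (β := 4) (γ := -(K : ℝ)) (M := M / 2) (M' := M)
    hjk hkl hjl hb2 hRg hN hbB
    (by positivity) (by linarith) (abs_le.2 ⟨by linarith, by linarith⟩)
    (abs_le.2 ⟨by linarith, by linarith⟩) (abs_le.2 ⟨by linarith, by linarith⟩) le_rfl
    (by rw [hX]; linarith)
  have h1 := hmd (2 * (3 * e0 n (u1 / 20) + b * (2 : ℝ) ^ ((-(K : ℝ)) - (4 + K) - 4) / 2))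
    (by positivity) (by rw [hX]; linarith)
  have h2 := hmd (4 * e0 n (u1 / 20)) (by positivity) (by linarith)
  have h3 := near_Z hμ (rg_of hU2 hu1 hW0 (by linarith) hu2) hN hbB (by omega) (by positivity)
    hjk hkl hjl (Or.inr (Or.inr ⟨rfl, rfl⟩)) hjl hγ' (by linarith)
  have h4 := hmd (2 * e0 n (u1 / 20)) (by positivity) (by linarith)
  have h5 := (abs_le.1 h3).1
  linarith

end Crest.Agent.R014.CFK_373
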