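import Crest.Agent.R014.Chain_891

/-!
# Row 14, block D: the chain for functions `Ψ` (helper891)

Interface of the noise formalism: near invariance `Q1`, commutator step `Q2`, slab density `Q3`.
-/

set_option autoImplicit false

noncomputable section

open MeasureTheory Finset
open scoped BigOperators Classical

namespace Crest.Agent.R014.ChainPsi_891

universe u

open Crest.Agent.R014.Comb_583 (cnt)
open Crest.Agent.R014.Chain_891

variable {n : ℕ} {Ω : Type u} [MeasurableSpace Ω] {μ : Measure Ω}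

/-- the hypotheses for functions -/
structure HypPsi (n : ℕ) {Ω : Type u} [MeasurableSpace Ω] (μ : Measure Ω) (T : Sys n μ)
    (Ψ : Fin n → Fin n → Ω → ℝ) (L : ℕ) (c c2 δ e : ℝ) (q : ℤ) : Prop where
  meas : ∀ i j, Measurable (Ψ i j)
  nonneg : ∀ i j x, 0 ≤ Ψ i j x
  le_one : ∀ i j x, Ψ i j x ≤ 1
  Q1 : ∀ i j, i ≠ j → ∀ z : Fin n → ℤ, z i = z j → (∀ l, |z l| ≤ 4 * L) →
    ∫ x, |Ψ i j (T.τ z x) - Ψ i j x| ∂μ ≤ e
  Q2 : ∀ i j k, i ≠ j → j ≠ k → i ≠ k →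
    μ.real {x | Ψ i k (T.τ (ev i q) x) < c2 * Ψ i j x * Ψ j k x - e} ≤ e
  Q3 : ∃ B : Set Ω, MeasurableSet B ∧ μ.real B ≤ e ∧ ∀ x, x ∉ B → ∀ a b : ℤ, -(L : ℤ) ≤ a →
    b ≤ L → δ * L ≤ ((b - a : ℤ) : ℝ) → ∀ S : Finset (Fin n), S.Nonempty → S ≠ univ →
      c * ((b - a : ℤ) : ℝ) ≤ ∑ i ∈ S, ∑ j ∈ Sᶜ, ∑ r ∈ Finset.Ico a b, Ψ i j (T.τ (ev i r) x)

/-- widths -/
def wid (q : ℤ) : ℕ → ℕ
  | 0 => 0
  | m + 1 => 2 * wid q m + q.natAbs

/-- thresholds -/
def thr (c2 θ : ℝ) : ℕ → ℝ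
  | 0 => θ
  | m + 1 => c2 * thr c2 θ m ^ 2 / 16

/-- the free sets -/
def FrP (T : Sys n μ) (Ψ : Fin n → Fin n → Ω → ℝ) (q : ℤ) (c2 θ : ℝ) (m : ℕ) (i j : Fin n) : Set Ω :=
  {x | ∃ r ∈ Finset.Icc (-(wid q m : ℤ)) (wid q m), thr c2 θ m ≤ Ψ i j (T.τ (ev i r) x)}

theorem wid_mono (q : ℤ) (m : ℕ) : wid q m ≤ wid q (m + 1) := by
  simp only [wid]; omega

theorem wid_le (q : ℤ) {m M : ℕ} (h : m ≤ M) : wid q m ≤ wid q M := monotone_nat_of_le_succ (wid_mono q) h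

theorem thr_pos {c2 θ : ℝ} (hc2 : 0 < c2) (hθ : 0 < θ) : ∀ m, 0 < thr c2 θ m
  | 0 => hθ
  | m + 1 => by
    have := thr_pos hc2 hθ m
    simp only [thr]; positivity

theorem thr_le_one {c2 θ : ℝ} (hc2 : 0 < c2) (hc2' : c2 ≤ 1) (hθ : 0 < θ) (hθ' : θ ≤ 1) :
    ∀ m, thr c2 θ m ≤ 1
  | 0 => hθ'
  | m + 1 => by
    have h1 := thr_le_one hc2 hc2' hθ hθ' m
    have h2 := thr_pos hc2 hθ m
    simp only [thr]
    have : thr c2 θ m ^ 2 ≤ 1 := by nlinarith
    nlinarith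

theorem thr_succ_le {c2 θ : ℝ} (hc2 : 0 < c2) (hc2' : c2 ≤ 1) (hθ : 0 < θ) (hθ' : θ ≤ 1) (m : ℕ) :
    thr c2 θ (m + 1) ≤ thr c2 θ m / 16 := by
  have h1 := thr_le_one hc2 hc2' hθ hθ' m
  have h2 := thr_pos hc2 hθ m
  simp only [thr]
  have h3 : thr c2 θ m ^ 2 ≤ thr c2 θ m := by nlinarith
  have h4 : c2 * thr c2 θ m ^ 2 ≤ 1 * thr c2 θ m :=
    mul_le_mul hc2' h3 (by positivity) (by norm_num)
  linarith

theorem thr_anti {c2 θ : ℝ} (hc2 : 0 < c2) (hc2' : c2 ≤ 1) (hθ : 0 < θ) (hθ' : θ ≤ 1) :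
    Antitone (thr c2 θ) := by
  refine antitone_nat_of_succ_le fun m => ?_
  have h1 := thr_succ_le hc2 hc2' hθ hθ' m
  have h2 := thr_pos hc2 hθ m
  linarith

theorem FrP_meas (T : Sys n μ) {Ψ : Fin n → Fin n → Ω → ℝ} (hΨ : ∀ i j, Measurable (Ψ i j)) (q : ℤ)
    (c2 θ : ℝ) (m : ℕ) (i j : Fin n) : MeasurableSet (FrP T Ψ q c2 θ m i j) := by
  have : FrP T Ψ q c2 θ m i j = ⋃ r ∈ Finset.Icc (-(wid q m : ℤ)) (wid q m),
      T.τ (ev i r) ⁻¹' {x | thr c2 θ m ≤ Ψ i j x} := by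
    ext x
    simp only [FrP, Set.mem_ofPred_eq, Set.mem_iUnion, Set.mem_preimage, exists_prop]
  rw [this]
  refine Finset.measurableSet_biUnion _ fun r _ => ?_
  exact meas_pre T _ (measurableSet_le measurable_const (hΨ i j))

/-- Markov for the difference -/
theorem diff_markov [IsProbabilityMeasure μ] {T : Sys n μ} {Ψ : Fin n → Fin n → Ω → ℝ} {L : ℕ}
    {c c2 δ e : ℝ} {q : ℤ} (h : HypPsi n μ T Ψ L c c2 δ e q) {i j : Fin n} (hij : i ≠ j)
    {z : Fin n → ℤ} (hz : z i = z j) (hzL : ∀ l, |z l| ≤ 4 * L) {t : ℝ} (ht : 0 < t) :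
    MeasurableSet {x | t < |Ψ i j (T.τ z x) - Ψ i j x|} ∧
      μ.real {x | t < |Ψ i j (T.τ z x) - Ψ i j x|} ≤ e / t := by
  have hm : Measurable (fun x => |Ψ i j (T.τ z x) - Ψ i j x|) :=
    (((h.meas i j).comp (T.mp z).measurable).sub (h.meas i j)).abs
  refine ⟨measurableSet_lt measurable_const hm, ?_⟩
  have hint : Integrable (fun x => |Ψ i j (T.τ z x) - Ψ i j x|) μ := by
    refine Integrable.of_bound hm.aestronglyMeasurable 2 (Filter.Eventually.of_forall fun x => ?_)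
    rw [Real.norm_eq_abs, abs_abs, abs_le]
    have h1 := h.nonneg i j (T.τ z x)
    have h2 := h.nonneg i j x
    have h3 := h.le_one i j (T.τ z x)
    have h4 := h.le_one i j x
    constructor <;> linarith
  have h3 := mul_meas_ge_le_integral_of_nonneg (μ := μ)
    (f := fun x => |Ψ i j (T.τ z x) - Ψ i j x|)
    (Filter.Eventually.of_forall fun x => abs_nonneg _) hint t
  have h4 : μ.real {x | t < |Ψ i j (T.τ z x) - Ψ i j x|} ≤
      μ.real {x | t ≤ |Ψ i j (T.τ z x) - Ψ i j x|} :=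
    measureReal_mono (fun x (hx : t < _) => show t ≤ _ from le_of_lt hx) (measure_ne_top _ _)
  rw [le_div_iff₀ ht]
  have h5 := h.Q1 i j hij z hz hzL
  have h6 : t * μ.real {x | t < |Ψ i j (T.τ z x) - Ψ i j x|} ≤
      t * μ.real {x | t ≤ |Ψ i j (T.τ z x) - Ψ i j x|} := mul_le_mul_of_nonneg_left h4 ht.le
  linarith

theorem card_Icc_wid (B : ℕ) : ((Finset.Icc (-(B : ℤ)) B).card : ℝ) = 2 * B + 1 := card_IL B

/-- (P1) -/
theorem frP1 [IsProbabilityMeasure μ] {T : Sys n μ} {Ψ : Fin n → Fin n → Ω → ℝ} {L : ℕ}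
    {c c2 δ e θ : ℝ} {q : ℤ} (h : HypPsi n μ T Ψ L c c2 δ e q) (hc2 : 0 < c2) (hc2' : c2 ≤ 1)
    (hθ : 0 < θ) (hθ' : θ ≤ 1) (m : ℕ) {i j : Fin n} (hij : i ≠ j)
    {z : Fin n → ℤ} (hz : z i = z j) (hzL : ∀ l, |z l| ≤ 3 * L) :
    μ.real (FrP T Ψ q c2 θ m i j \ T.τ z ⁻¹' FrP T Ψ q c2 θ (m + 1) i j) ≤
      (2 * wid q m + 1) * (2 * e / thr c2 θ m) := by
  have hθm := thr_pos hc2 hθ m
  have hθm1 := thr_succ_le hc2 hc2' hθ hθ' m
  have hzL' : ∀ l, |z l| ≤ 4 * L := fun l => by have := hzL l; omega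
  set D : ℤ → Set Ω := fun r => T.τ (ev i r) ⁻¹'
    {y | thr c2 θ m / 2 < |Ψ i j (T.τ z y) - Ψ i j y|} with hD
  obtain ⟨hm1, hm2⟩ := diff_markov h hij hz hzL' (t := thr c2 θ m / 2) (by positivity)
  have hDb : ∀ r ∈ Finset.Icc (-(wid q m : ℤ)) (wid q m), μ.real (D r) ≤ 2 * e / thr c2 θ m := by
    intro r _
    simp only [hD]
    rw [real_pre T _ hm1]
    refine hm2.trans (le_of_eq ?_)
    field_simp
  have hsub : FrP T Ψ q c2 θ m i j \ T.τ z ⁻¹' FrP T Ψ q c2 θ (m + 1) i j ⊆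
      ⋃ r ∈ Finset.Icc (-(wid q m : ℤ)) (wid q m), D r := by
    rintro x ⟨⟨r, hr, hx⟩, hx2⟩
    simp only [Set.mem_iUnion]
    refine ⟨r, hr, ?_⟩
    by_contra hcon
    apply hx2
    simp only [hD, Set.mem_preimage, Set.mem_ofPred_eq, not_lt] at hcon
    have h1 := (abs_le.1 hcon).1
    refine ⟨r, ?_, ?_⟩
    · have := wid_mono q m
      rw [Finset.mem_Icc] at hr ⊢
      constructor <;> omega
    · have e0 : T.τ (ev i r) (T.τ z x) = T.τ z (T.τ (ev i r) x) := by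
        rw [← T.add, ← T.add, add_comm]
      rw [e0]
      linarith
  refine (measureReal_mono hsub (measure_ne_top _ _)).trans ?_
  refine (measureReal_biUnion_finset_le _ _).trans ?_
  refine (Finset.sum_le_card_nsmul _ _ _ hDb).trans ?_
  rw [nsmul_eq_mul, card_Icc_wid]

theorem frP0 {T : Sys n μ} {Ψ : Fin n → Fin n → Ω → ℝ}
    {c2 θ : ℝ} {q : ℤ} (hc2 : 0 < c2) (hc2' : c2 ≤ 1)
    (hθ : 0 < θ) (hθ' : θ ≤ 1) (m : ℕ) (i j : Fin n) :
    FrP T Ψ q c2 θ m i j ⊆ FrP T Ψ q c2 θ (m + 1) i j := by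
  rintro x ⟨r, hr, hx⟩
  refine ⟨r, ?_, le_trans (thr_anti hc2 hc2' hθ hθ' (Nat.le_succ m)) hx⟩
  have := wid_mono q m
  rw [Finset.mem_Icc] at hr ⊢
  constructor <;> omega

/-- (P2) -/
theorem frP2 [IsProbabilityMeasure μ] {T : Sys n μ} {Ψ : Fin n → Fin n → Ω → ℝ} {L : ℕ}
    {c c2 δ e θ : ℝ} {q : ℤ} (h : HypPsi n μ T Ψ L c c2 δ e q) (hc2 : 0 < c2)
    (hθ : 0 < θ) (m : ℕ) {i j k : Fin n} (hij : i ≠ j) (hjk : j ≠ k) (hik : i ≠ k)
    (he : e ≤ c2 * thr c2 θ m ^ 2 / 8) (hL : wid q m ≤ L) :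
    μ.real ((FrP T Ψ q c2 θ m i j ∩ FrP T Ψ q c2 θ m j k) \ FrP T Ψ q c2 θ (m + 1) i k) ≤
      (2 * wid q m + 1) ^ 2 * (4 * e / thr c2 θ m + e + 16 * e / (c2 * thr c2 θ m ^ 2)) := by
  set θm := thr c2 θ m with hθmdef
  have hθm : 0 < θm := thr_pos hc2 hθ m
  set W : ℤ × ℤ → Fin n → ℤ := fun p => ev i (p.1 + p.2) + ev j p.2 with hW
  set D1 : ℤ × ℤ → Set Ω := fun p => T.τ (ev i p.1) ⁻¹'
    {y | θm / 2 < |Ψ i j (T.τ (ev i p.2 + ev j p.2) y) - Ψ i j y|} with hD1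
  set D2 : ℤ × ℤ → Set Ω := fun p => T.τ (ev j p.2) ⁻¹'
    {y | θm / 2 < |Ψ j k (T.τ (ev i (p.1 + p.2)) y) - Ψ j k y|} with hD2
  set D3 : ℤ × ℤ → Set Ω := fun p => T.τ (W p) ⁻¹'
    {x | Ψ i k (T.τ (ev i q) x) < c2 * Ψ i j x * Ψ j k x - e} with hD3
  set D4 : ℤ × ℤ → Set Ω := fun p => T.τ (ev i (p.1 + p.2 + q)) ⁻¹'
    {y | c2 * θm ^ 2 / 16 < |Ψ i k (T.τ (ev j p.2) y) - Ψ i k y|} with hD4
  set I := Finset.Icc (-(wid q m : ℤ)) (wid q m) with hI
  have hbd : ∀ p ∈ I ×ˢ I, μ.real (((D1 p ∪ D2 p) ∪ D3 p) ∪ D4 p) ≤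
      4 * e / θm + e + 16 * e / (c2 * θm ^ 2) := by
    intro p hp
    rw [Finset.mem_product, hI, Finset.mem_Icc, Finset.mem_Icc] at hp
    obtain ⟨⟨hp1, hp2⟩, hp3, hp4⟩ := hp
    have hLw : (wid q m : ℤ) ≤ L := by exact_mod_cast hL
    have habs : ∀ (u v : Fin n) (r s : ℤ), |r| ≤ 2 * L → |s| ≤ 2 * L → ∀ l,
        |(ev u r + ev v s : Fin n → ℤ) l| ≤ 4 * L := by
      intro u v r s hr hs l
      have h1 : |(ev u r : Fin n → ℤ) l| ≤ 2 * L := by
        unfold ev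
        by_cases h : l = u
        · subst h; simpa using hr
        · rw [Pi.single_eq_of_ne h]; simp
      have h2 : |(ev v s : Fin n → ℤ) l| ≤ 2 * L := by
        unfold ev
        by_cases h : l = v
        · subst h; simpa using hs
        · rw [Pi.single_eq_of_ne h]; simp
      calc |(ev u r + ev v s : Fin n → ℤ) l| ≤ |(ev u r : Fin n → ℤ) l| + |(ev v s : Fin n → ℤ) l| :=
            abs_add_le _ _
        _ ≤ 4 * L := by omega
    have b1 : μ.real (D1 p) ≤ 2 * e / θm := by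
      obtain ⟨hm1, hm2⟩ := diff_markov h hij (z := ev i p.2 + ev j p.2)
        (by unfold ev; simp [hij, hij.symm])
        (habs i j p.2 p.2 (abs_le.2 ⟨by omega, by omega⟩) (abs_le.2 ⟨by omega, by omega⟩))
        (t := θm / 2) (by positivity)
      simp only [hD1]
      rw [real_pre T _ hm1]
      refine hm2.trans (le_of_eq ?_)
      field_simp
    have b2 : μ.real (D2 p) ≤ 2 * e / θm := by
      obtain ⟨hm1, hm2⟩ := diff_markov h hjk (z := ev i (p.1 + p.2))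
        (by unfold ev; simp [hij.symm, hik.symm])
        (by
          have := habs i j (p.1 + p.2) 0 (abs_le.2 ⟨by omega, by omega⟩) (by simp)
          rw [ev_zero, add_zero] at this
          exact this)
        (t := θm / 2) (by positivity)
      simp only [hD2]
      rw [real_pre T _ hm1]
      refine hm2.trans (le_of_eq ?_)
      field_simp
    have b3 : μ.real (D3 p) ≤ e := by
      simp only [hD3]
      rw [real_pre T _ ?_]
      · exact h.Q2 i j k hij hjk hik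
      · refine measurableSet_lt ((h.meas i k).comp (T.mp _).measurable) ?_
        exact ((measurable_const.mul (h.meas i j)).mul (h.meas j k)).sub measurable_const
    have b4 : μ.real (D4 p) ≤ 16 * e / (c2 * θm ^ 2) := by
      obtain ⟨hm1, hm2⟩ := diff_markov h hik (z := ev j p.2)
        (by unfold ev; simp [hij, hjk.symm])
        (by
          have := habs i j 0 p.2 (by simp) (abs_le.2 ⟨by omega, by omega⟩)
          rw [ev_zero, zero_add] at this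
          exact this)
        (t := c2 * θm ^ 2 / 16) (by positivity)
      simp only [hD4]
      rw [real_pre T _ hm1]
      refine hm2.trans (le_of_eq ?_)
      field_simp
    have u1 := measureReal_union_le (μ := μ) ((D1 p ∪ D2 p) ∪ D3 p) (D4 p)
    have u2 := measureReal_union_le (μ := μ) (D1 p ∪ D2 p) (D3 p)
    have u3 := measureReal_union_le (μ := μ) (D1 p) (D2 p)
    have : 4 * e / θm = 2 * e / θm + 2 * e / θm := by ring
    linarith
  have hsub : (FrP T Ψ q c2 θ m i j ∩ FrP T Ψ q c2 θ m j k) \ FrP T Ψ q c2 θ (m + 1) i k ⊆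
      ⋃ p ∈ I ×ˢ I, (((D1 p ∪ D2 p) ∪ D3 p) ∪ D4 p) := by
    rintro x ⟨⟨⟨r, hr, hx1⟩, ⟨s, hs, hx2⟩⟩, hx3⟩
    simp only [Set.mem_iUnion]
    refine ⟨(r, s), Finset.mem_product.2 ⟨hr, hs⟩, ?_⟩
    by_contra hcon
    rw [Set.mem_union, Set.mem_union, Set.mem_union, not_or, not_or, not_or] at hcon
    obtain ⟨⟨⟨g1, g2⟩, g3⟩, g4⟩ := hcon
    apply hx3
    simp only [hD1, hD2, hD3, hD4, Set.mem_preimage, Set.mem_ofPred_eq, not_lt] at g1 g2 g3 g4
    have e1 : W (r, s) = (ev i s + ev j s) + ev i r := by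
      simp only [hW, ev_add]; abel
    have e2 : W (r, s) = ev i (r + s) + ev j s := rfl
    have e3 : ev i q + W (r, s) = ev j s + ev i (r + s + q) := by
      simp only [hW, ev_add]; abel
    rw [← T.add, ← e1] at g1
    rw [← T.add, ← e2] at g2
    have e4 : T.τ (ev i q) (T.τ (W (r, s)) x) = T.τ (ev j s) (T.τ (ev i (r + s + q)) x) := by
      rw [← T.add, e3, T.add]
    rw [e4] at g3
    have p1 : θm / 2 ≤ Ψ i j (T.τ (W (r, s)) x) := by
      have := (abs_le.1 g1).1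
      linarith
    have p2 : θm / 2 ≤ Ψ j k (T.τ (W (r, s)) x) := by
      have := (abs_le.1 g2).1
      linarith
    have p3 : c2 * θm ^ 2 / 8 ≤ Ψ i k (T.τ (ev j s) (T.τ (ev i (r + s + q)) x)) := by
      refine le_trans ?_ g3
      have h1 : c2 * (θm / 2) * (θm / 2) ≤
          c2 * Ψ i j (T.τ (W (r, s)) x) * Ψ j k (T.τ (W (r, s)) x) := by
        refine mul_le_mul (mul_le_mul_of_nonneg_left p1 hc2.le) p2 (by positivity) ?_
        exact mul_nonneg hc2.le (h.nonneg _ _ _)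
      have h2 : c2 * (θm / 2) * (θm / 2) = c2 * θm ^ 2 / 4 := by ring
      linarith
    have p4 : c2 * θm ^ 2 / 16 ≤ Ψ i k (T.τ (ev i (r + s + q)) x) := by
      have := (abs_le.1 g4).2
      linarith
    refine ⟨r + s + q, ?_, p4⟩
    rw [Finset.mem_Icc] at hr hs ⊢
    have hq : |q| = (q.natAbs : ℤ) := Int.abs_eq_natAbs q
    have hq1 := neg_abs_le q
    have hq2 := le_abs_self q
    simp only [wid]
    push_cast
    constructor <;> omega
  refine (measureReal_mono hsub (measure_ne_top _ _)).trans ?_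
  refine (measureReal_biUnion_finset_le _ _).trans ?_
  refine (Finset.sum_le_card_nsmul _ _ _ hbd).trans ?_
  rw [nsmul_eq_mul, Finset.card_product, Nat.cast_mul, hI, card_Icc_wid]
  exact le_of_eq (by ring)

theorem mem0 (T : Sys n μ) (Ψ : Fin n → Fin n → Ω → ℝ) (q : ℤ) (c2 θ : ℝ) (i j : Fin n) (r : ℤ)
    (x : Ω) : T.τ (ev i r) x ∈ FrP T Ψ q c2 θ 0 i j ↔ θ ≤ Ψ i j (T.τ (ev i r) x) := by
  simp only [FrP, wid, thr, Set.mem_ofPred_eq]
  constructor
  · rintro ⟨s, hs, h⟩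
    rw [Finset.mem_Icc] at hs
    have : s = 0 := by push_cast at hs; omega
    subst this
    rw [← T.add, ← ev_add, zero_add] at h
    exact h
  · intro h
    refine ⟨0, by simp, ?_⟩
    rw [← T.add, ← ev_add, zero_add]
    exact h

/-- (P3) -/
theorem frP3 {T : Sys n μ} {Ψ : Fin n → Fin n → Ω → ℝ} {c c2 θ : ℝ} {q : ℤ} (hn : 0 < n)
    (hle : ∀ i j x, Ψ i j x ≤ 1) (hθ : 0 < θ) (hθc : θ ≤ c / (2 * n ^ 2)) {x : Ω} {a b : ℤ}
    (hab : a ≤ b) {S : Finset (Fin n)}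
    (h : c * ((b - a : ℤ) : ℝ) ≤ ∑ i ∈ S, ∑ j ∈ Sᶜ, ∑ r ∈ Finset.Ico a b, Ψ i j (T.τ (ev i r) x)) :
    c / 2 * ((b - a : ℤ) : ℝ) ≤
      ∑ i ∈ S, ∑ j ∈ Sᶜ, cnt {r | T.τ (ev i r) x ∈ FrP T Ψ q c2 θ 0 i j} a b := by
  have hn' : (0 : ℝ) < n := by exact_mod_cast hn
  have hab' : (0 : ℝ) ≤ ((b - a : ℤ) : ℝ) := by
    have : (0 : ℤ) ≤ b - a := by omega
    exact_mod_cast this
  have h1 : ∀ i j : Fin n, ∑ r ∈ Finset.Ico a b, Ψ i j (T.τ (ev i r) x) ≤
      cnt {r | T.τ (ev i r) x ∈ FrP T Ψ q c2 θ 0 i j} a b + θ * ((b - a : ℤ) : ℝ) := by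
    intro i j
    have e1 : cnt {r | T.τ (ev i r) x ∈ FrP T Ψ q c2 θ 0 i j} a b =
        ∑ r ∈ Finset.Ico a b, (if θ ≤ Ψ i j (T.τ (ev i r) x) then (1 : ℝ) else 0) := by
      unfold cnt
      rw [Finset.card_filter]
      push_cast
      refine Finset.sum_congr rfl fun r _ => ?_
      have := mem0 T Ψ q c2 θ i j r x
      by_cases hh : θ ≤ Ψ i j (T.τ (ev i r) x)
      · rw [if_pos hh, if_pos]
        exact this.2 hh
      · rw [if_neg hh, if_neg]
        exact fun h => hh (this.1 h)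
    have e2 : ∑ r ∈ Finset.Ico a b, θ = θ * ((b - a : ℤ) : ℝ) := by
      rw [Finset.sum_const, Int.card_Ico, nsmul_eq_mul, mul_comm]
      congr 1
      have : ((b - a).toNat : ℤ) = b - a := Int.toNat_of_nonneg (by omega)
      exact_mod_cast this
    rw [e1, ← e2, ← Finset.sum_add_distrib]
    refine Finset.sum_le_sum fun r _ => ?_
    split_ifs with hh
    · have := hle i j (T.τ (ev i r) x)
      linarith
    · push Not at hh
      linarith
  have h2 : ∑ i ∈ S, ∑ j ∈ Sᶜ, ∑ r ∈ Finset.Ico a b, Ψ i j (T.τ (ev i r) x) ≤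
      ∑ i ∈ S, ∑ j ∈ Sᶜ, (cnt {r | T.τ (ev i r) x ∈ FrP T Ψ q c2 θ 0 i j} a b +
        θ * ((b - a : ℤ) : ℝ)) :=
    Finset.sum_le_sum fun i _ => Finset.sum_le_sum fun j _ => h1 i j
  have h3 : ∑ i ∈ S, ∑ j ∈ Sᶜ, (cnt {r | T.τ (ev i r) x ∈ FrP T Ψ q c2 θ 0 i j} a b +
        θ * ((b - a : ℤ) : ℝ)) =
      ∑ i ∈ S, ∑ j ∈ Sᶜ, cnt {r | T.τ (ev i r) x ∈ FrP T Ψ q c2 θ 0 i j} a b +
        (S.card * Sᶜ.card : ℝ) * (θ * ((b - a : ℤ) : ℝ)) := by
    simp only [Finset.sum_add_distrib, Finset.sum_const, nsmul_eq_mul]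
    ring
  have h4 : (S.card * Sᶜ.card : ℝ) ≤ (n : ℝ) ^ 2 := by
    have e1 : (S.card : ℝ) ≤ n := by
      have := Finset.card_le_univ S
      rw [Fintype.card_fin] at this
      exact_mod_cast this
    have e2 : (Sᶜ.card : ℝ) ≤ n := by
      have := Finset.card_le_univ Sᶜ
      rw [Fintype.card_fin] at this
      exact_mod_cast this
    calc (S.card * Sᶜ.card : ℝ) ≤ n * n := mul_le_mul e1 e2 (by positivity) (by positivity)
      _ = (n : ℝ) ^ 2 := by ring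
  have h5 : (S.card * Sᶜ.card : ℝ) * (θ * ((b - a : ℤ) : ℝ)) ≤
      (n : ℝ) ^ 2 * (θ * ((b - a : ℤ) : ℝ)) :=
    mul_le_mul_of_nonneg_right h4 (by positivity)
  have h6 : (n : ℝ) ^ 2 * (θ * ((b - a : ℤ) : ℝ)) ≤ c / 2 * ((b - a : ℤ) : ℝ) := by
    rw [← mul_assoc]
    refine mul_le_mul_of_nonneg_right ?_ hab'
    rw [le_div_iff₀ (by positivity)] at hθc
    linarith
  rw [h3] at h2
  linarith

/-- **the chain for functions**. -/
theorem chainPsi (n : ℕ) (hn : 3 ≤ n) (c c2 ε' : ℝ) (q : ℤ) (hc : 0 < c) (hc2 : 0 < c2)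
    (hε' : 0 < ε') :
    ∃ (G : ℕ) (θ δ e : ℝ) (L0 : ℕ), 0 < θ ∧ 0 < δ ∧ 0 < e ∧ ∀ L : ℕ, L0 ≤ L →
      ∀ {Ω : Type u} [MeasurableSpace Ω] (μ : Measure Ω) [IsProbabilityMeasure μ] (T : Sys n μ)
        (Ψ : Fin n → Fin n → Ω → ℝ), HypPsi n μ T Ψ L c c2 δ e q →
        ∀ i j, i ≠ j → μ.real {x | ∀ r : ℤ, |r| ≤ G → Ψ i j (T.τ (ev i r) x) < θ} ≤ ε' := by
  have hn0 : 0 < n := by omega
  have hnr : (0 : ℝ) < n := by exact_mod_cast hn0
  set c3 : ℝ := min c2 1 with hc3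
  have hc3p : 0 < c3 := lt_min hc2 one_pos
  have hc31 : c3 ≤ 1 := min_le_right _ _
  have hc32 : c3 ≤ c2 := min_le_left _ _
  set θ0 : ℝ := min 1 (c / (2 * n ^ 2)) with hθ0
  have hθp : 0 < θ0 := lt_min one_pos (by positivity)
  have hθ1 : θ0 ≤ 1 := min_le_left _ _
  obtain ⟨G, M, δ, ε, L1, hδ, hε, hchain⟩ := chain n hn (c / 2) ε' (by positivity) hε'
  set θM : ℝ := thr c3 θ0 M with hθM
  have hθMp : 0 < θM := thr_pos hc3p hθp M
  set B : ℕ := wid q M with hB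
  set K : ℝ := (2 * B + 1) ^ 2 * (4 / θM + 1 + 16 / (c3 * θM ^ 2)) with hK
  have hKp : 0 < K := by positivity
  have hB1 : (1 : ℝ) ≤ 2 * B + 1 := by
    have : (0 : ℝ) ≤ B := by positivity
    linarith
  have hB2 : (2 * B + 1 : ℝ) ≤ (2 * B + 1) ^ 2 := by nlinarith
  set e : ℝ := min (ε / K) (c3 * θM ^ 2 / 8) with he
  have hep : 0 < e := lt_min (by positivity) (by positivity)
  have heK : K * e ≤ ε := by
    have : e ≤ ε / K := min_le_left _ _
    rw [le_div_iff₀ hKp] at this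
    linarith
  have he8 : e ≤ c3 * θM ^ 2 / 8 := min_le_right _ _
  have hK1 : 1 ≤ K := by
    have h1 : (1 : ℝ) ≤ (2 * B + 1) ^ 2 := hB1.trans hB2
    have h2 : (1 : ℝ) ≤ 4 / θM + 1 + 16 / (c3 * θM ^ 2) := by
      have : 0 ≤ 4 / θM + 16 / (c3 * θM ^ 2) := by positivity
      linarith
    calc (1 : ℝ) = 1 * 1 := by ring
      _ ≤ K := mul_le_mul h1 h2 (by norm_num) (by positivity)
  have heε : e ≤ ε := by nlinarith
  refine ⟨B + G, θM, δ, e, max L1 B, hθMp, hδ, hep, ?_⟩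
  intro L hL Ω _ μ _ T Ψ h0 i0 j0 hij0
  have hL1 : L1 ≤ L := le_trans (le_max_left _ _) hL
  have hL2 : B ≤ L := le_trans (le_max_right _ _) hL
  have h : HypPsi n μ T Ψ L c c3 δ e q :=
    { meas := h0.meas
      nonneg := h0.nonneg
      le_one := h0.le_one
      Q1 := h0.Q1
      Q2 := by
        intro i j k hij hjk hik
        refine (measureReal_mono ?_ (measure_ne_top _ _)).trans (h0.Q2 i j k hij hjk hik)
        intro x hx
        have hx' : Ψ i k (T.τ (ev i q) x) < c3 * Ψ i j x * Ψ j k x - e := hx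
        show Ψ i k (T.τ (ev i q) x) < c2 * Ψ i j x * Ψ j k x - e
        refine lt_of_lt_of_le hx' ?_
        have h1 : c3 * Ψ i j x * Ψ j k x ≤ c2 * Ψ i j x * Ψ j k x :=
          mul_le_mul_of_nonneg_right (mul_le_mul_of_nonneg_right hc32 (h0.nonneg _ _ _))
            (h0.nonneg _ _ _)
        linarith
      Q3 := h0.Q3 }
  have hthr : ∀ m, m < M → θM ≤ thr c3 θ0 m := fun m hm => thr_anti hc3p hc31 hθp hθ1 hm.le
  have hwid : ∀ m, m < M → (2 * (wid q m : ℝ) + 1) ≤ 2 * B + 1 := by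
    intro m hm
    have : (wid q m : ℝ) ≤ B := by exact_mod_cast wid_le q hm.le
    linarith
  have hHyp : Hyp n μ T (FrP T Ψ q c3 θ0) M L (c / 2) δ ε :=
    { meas := fun m i j => FrP_meas T h.meas q c3 θ0 m i j
      P0 := by
        intro m _ i j _
        have : FrP T Ψ q c3 θ0 m i j \ FrP T Ψ q c3 θ0 (m + 1) i j = ∅ :=
          Set.sdiff_eq_empty.2 (frP0 hc3p hc31 hθp hθ1 m i j)
        rw [this]
        simp [hε.le]
      P1 := by
        intro m hm i j hij z hz hzL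
        refine (frP1 h hc3p hc31 hθp hθ1 m hij hz hzL).trans ?_
        have h1 : 2 * e / thr c3 θ0 m ≤ 4 * e / θM := by
          have e1 : 2 * e / thr c3 θ0 m ≤ 2 * e / θM :=
            div_le_div_of_nonneg_left (by positivity) hθMp (hthr m hm)
          have e2 : 2 * e / θM ≤ 4 * e / θM := by
            apply div_le_div_of_nonneg_right _ hθMp.le
            linarith
          exact e1.trans e2
        have h2 : 4 * e / θM ≤ (4 / θM + 1 + 16 / (c3 * θM ^ 2)) * e := by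
          have : 0 ≤ e + 16 / (c3 * θM ^ 2) * e := by positivity
          calc 4 * e / θM = 4 / θM * e := by ring
            _ ≤ (4 / θM + 1 + 16 / (c3 * θM ^ 2)) * e := by linarith
        calc (2 * (wid q m : ℝ) + 1) * (2 * e / thr c3 θ0 m)
            ≤ (2 * B + 1) ^ 2 * ((4 / θM + 1 + 16 / (c3 * θM ^ 2)) * e) :=
              mul_le_mul ((hwid m hm).trans hB2) (h1.trans h2)
                (div_nonneg (by positivity) (thr_pos hc3p hθp m).le) (by positivity)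
          _ = K * e := by rw [hK]; ring
          _ ≤ ε := heK
      P2 := by
        intro m hm i j k hij hjk hik
        have hθm := hthr m hm
        have hθmp := thr_pos hc3p hθp m
        have hsq : θM ^ 2 ≤ thr c3 θ0 m ^ 2 := pow_le_pow_left₀ hθMp.le hθm 2
        have he' : e ≤ c3 * thr c3 θ0 m ^ 2 / 8 := by
          refine he8.trans ?_
          have := mul_le_mul_of_nonneg_left hsq hc3p.le
          linarith
        refine (frP2 h hc3p hθp m hij hjk hik he' ((wid_le q hm.le).trans hL2)).trans ?_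
        have h1 : 4 * e / thr c3 θ0 m ≤ 4 / θM * e := by
          calc 4 * e / thr c3 θ0 m ≤ 4 * e / θM :=
                div_le_div_of_nonneg_left (by positivity) hθMp hθm
            _ = 4 / θM * e := by ring
        have h2 : 16 * e / (c3 * thr c3 θ0 m ^ 2) ≤ 16 / (c3 * θM ^ 2) * e := by
          calc 16 * e / (c3 * thr c3 θ0 m ^ 2) ≤ 16 * e / (c3 * θM ^ 2) :=
                div_le_div_of_nonneg_left (by positivity) (by positivity)
                  (mul_le_mul_of_nonneg_left hsq hc3p.le)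
            _ = 16 / (c3 * θM ^ 2) * e := by ring
        have h3 : (2 * (wid q m : ℝ) + 1) ^ 2 ≤ (2 * B + 1) ^ 2 :=
          pow_le_pow_left₀ (by positivity) (hwid m hm) 2
        calc (2 * (wid q m : ℝ) + 1) ^ 2 *
              (4 * e / thr c3 θ0 m + e + 16 * e / (c3 * thr c3 θ0 m ^ 2))
            ≤ (2 * B + 1) ^ 2 * (4 / θM * e + e + 16 / (c3 * θM ^ 2) * e) :=
              mul_le_mul h3 (by linarith) (by positivity) (by positivity)
          _ = K * e := by rw [hK]; ring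
          _ ≤ ε := heK
      P3 := by
        obtain ⟨B', hm1, hm2, hm3⟩ := h.Q3
        refine ⟨B', hm1, hm2.trans heε, fun x hx a b ha hb hab S hS1 hS2 => ?_⟩
        have hab0 : a ≤ b := by
          have h1 : (0 : ℝ) ≤ ((b - a : ℤ) : ℝ) := le_trans (by positivity) hab
          have h2 : (0 : ℤ) ≤ b - a := by exact_mod_cast h1
          omega
        exact frP3 hn0 h.le_one hθp (min_le_right _ _) hab0 (hm3 x hx a b ha hb hab S hS1 hS2) }
  refine le_trans (measureReal_mono ?_ (measure_ne_top _ _)) (hchain L hL1 μ T _ hHyp i0 j0 hij0)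
  intro x hx s hs hmem
  obtain ⟨r, hr, hle⟩ := hmem
  rw [← T.add, ← ev_add] at hle
  rw [Finset.mem_Icc] at hr
  have hlt := hx (r + s) (by
    rw [abs_le]
    push_cast
    constructor <;> omega)
  exact absurd hle (not_le.2 hlt)

end Crest.Agent.R014.ChainPsi_891
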