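import Crest.Agent.R014.Sw3_640

set_option autoImplicit false

/-!
Row 14, block D, noise formalism, section 4, (4.2): the exact exchange square.

For two commuting roots `P`, `Q` and an arbitrary noise `Z` on the left, observation
`x Z u_P(2^(-α) s) u_Q(2^(-γ) r)`:
`H(d_s; α, γ) + H(d_r; α + log₂ b, γ) = H(d_r; α, γ) + H(d_s; α, γ + log₂ b')`.
-/

open MeasureTheory Crest.NumberTheoryR.Packets
open scoped ENNReal

namespace Crest.Agent.R014.ClF1_599

open Ms_667 Nd_837 Ne1_567 Ne2_567 Sw1_640 Sw3_640 NScD_395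

variable {n : ℕ}

theorem eq_of_tv {Y : Type*} [MeasurableSpace Y] {μ ν : Measure Y} [IsFiniteMeasure μ]
    [IsFiniteMeasure ν] (h : TVle μ ν 0) : μ = ν := by
  refine Measure.ext fun A hA => ?_
  have h1 := h A hA
  have h2 : μ.real A = ν.real A := by
    have := abs_nonpos_iff.1 h1
    linarith
  rw [measureReal_def, measureReal_def] at h2
  exact (ENNReal.toReal_eq_toReal_iff' (measure_ne_top _ _) (measure_ne_top _ _)).1 h2

section Comm

variable {p q p' q' : Fin n} {hP : p ≠ q} {hQ : p' ≠ q'}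

/-- The two roots commute. -/
def Co (hP : p ≠ q) (hQ : p' ≠ q') : Prop :=
  ∀ s t : ℝ, (uu hP s : SLR n) * uu hQ t = uu hQ t * uu hP s

theorem Co.symm (h : Co hP hQ) : Co hQ hP := fun s t => (h t s).symm

theorem cv_map_map {W W' : Type*} [MeasurableSpace W] [MeasurableSpace W'] {ρ : Measure W}
    {ρ' : Measure W'} [IsProbabilityMeasure ρ] [IsProbabilityMeasure ρ'] {σ : W → ℝ} {τ : W' → ℝ}
    (hσ : Measurable σ) (hτ : Measurable τ) (h : Co hP hQ) :
    cv (ρ.map fun w => (uu hP (σ w) : SLR n)) (ρ'.map fun w => (uu hQ (τ w) : SLR n))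
      = cv (ρ'.map fun w => (uu hQ (τ w) : SLR n)) (ρ.map fun w => (uu hP (σ w) : SLR n)) := by
  have m1 : Measurable fun w : W => (uu hP (σ w) : SLR n) := (measurable_uu hP).comp hσ
  have m2 : Measurable fun w : W' => (uu hQ (τ w) : SLR n) := (measurable_uu hQ).comp hτ
  unfold cv
  rw [Measure.map_prod_map _ _ m1 m2, Measure.map_prod_map _ _ m2 m1,
    Measure.map_map measurable_mul₂ (m1.prodMap m2),
    Measure.map_map measurable_mul₂ (m2.prodMap m1), ← Measure.prod_swap,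
    Measure.map_map (measurable_mul₂.comp (m1.prodMap m2)) measurable_swap]
  congr 1
  funext w
  simp only [Function.comp_apply, Prod.map_fst, Prod.map_snd, Prod.fst_swap, Prod.snd_swap]
  exact h _ _

theorem dirac_cv_map {W : Type*} [MeasurableSpace W] {ρ : Measure W}
    [IsProbabilityMeasure ρ] {σ : W → ℝ} (hσ : Measurable σ) (h : Co hP hQ) (s : ℝ) :
    cv (Measure.dirac (uu hQ s : SLR n)) (ρ.map fun w => (uu hP (σ w) : SLR n))
      = cv (ρ.map fun w => (uu hP (σ w) : SLR n)) (Measure.dirac (uu hQ s : SLR n)) := by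
  have m1 : Measurable fun w : W => (uu hP (σ w) : SLR n) := (measurable_uu hP).comp hσ
  have : IsProbabilityMeasure (ρ.map fun w => (uu hP (σ w) : SLR n)) :=
    Measure.isProbabilityMeasure_map m1.aemeasurable
  rw [dirac_cv, cv_dirac, Measure.map_map (measurable_const_mul _) m1,
    Measure.map_map (measurable_mul_const _) m1]
  congr 1
  funext w
  exact (h _ _).symm

theorem dlaw_dlaw (h : Co hP hQ) (α γ : ℝ) {b b' : ℕ} (d : Fin b) (e : Fin b') :
    cv (dlaw hP α b d) (dlaw hQ γ b' e) = cv (dlaw hQ γ b' e) (dlaw hP α b d) :=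
  cv_map_map (measurable_digit α d) (measurable_digit γ e) h

theorem wn_dlaw (h : Co hP hQ) (α γ : ℝ) {b' : ℕ} (e : Fin b') :
    cv (wn hP α) (dlaw hQ γ b' e) = cv (dlaw hQ γ b' e) (wn hP α) :=
  cv_map_map (measurable_const.mul measurable_id) (measurable_digit γ e) h

/-- The noise is the mixture of the digit laws. -/
theorem wn_split (hP : p ≠ q) (α : ℝ) {b : ℕ} (hb : 0 < b) :
    (wn hP α : Measure (SLR n)) = (b : ℝ≥0∞)⁻¹ • ∑ d : Fin b, dlaw hP α b d := by
  have hm := measurable_wn (n := n) hP α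
  unfold wn
  conv_lhs => rw [uni_split hb]
  rw [Measure.map_smul, Measure.map_finset_sum hm.aemeasurable]
  congr 1
  refine Finset.sum_congr rfl fun k _ => ?_
  rw [Measure.map_map hm (by fun_prop)]
  rfl

/-- The digit law is a translate of the finer noise. -/
theorem dlaw_eq (hP : p ≠ q) (α : ℝ) {b : ℕ} (d : Fin b) :
    (dlaw hP α b d : Measure (SLR n)) = cv (wn hP (α + Real.logb 2 b))
      (Measure.dirac (uu hP ((2 : ℝ) ^ (-α) * cen b d))) := by
  rw [cv_dirac]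
  unfold dlaw wn
  rw [Measure.map_map (measurable_mul_const _) (measurable_wn hP _)]
  congr 1
  funext θ
  simp only [Function.comp_apply]
  rw [← uu_add, rpow_sub_logb d.pos]
  congr 1
  ring

end Comm

section Square

variable {p q p' q' : Fin n} {hP : p ≠ q} {hQ : p' ≠ q'}

/-- The joint family of the two digits. -/
noncomputable def W2 (μ : Measure (ModSpace n)) (Z : Measure (SLR n)) (hP : p ≠ q) (hQ : p' ≠ q')
    (α γ : ℝ) (b b' : ℕ) : Fin b × Fin b' → Measure (ModSpace n) :=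
  fun c => ((b : ℝ≥0∞)⁻¹ * (b' : ℝ≥0∞)⁻¹) •
    stp μ (cv (cv Z (dlaw hP α b c.1)) (dlaw hQ γ b' c.2))

variable (μ : Measure (ModSpace n)) [IsProbabilityMeasure μ] (Z : Measure (SLR n))
  [IsProbabilityMeasure Z] (α γ : ℝ) {b b' : ℕ}

instance (c : Fin b × Fin b') : IsFiniteMeasure (W2 μ Z hP hQ α γ b b' c) := by
  unfold W2
  have hb : (b : ℝ≥0∞)⁻¹ * (b' : ℝ≥0∞)⁻¹ ≠ ∞ := by
    have h1 : 0 < b := c.1.pos
    have h2 : 0 < b' := c.2.pos
    exact ENNReal.mul_ne_top (by simp [h1.ne']) (by simp [h2.ne'])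
  exact Measure.smul_finite _ hb

theorem mf_W2 (h : Co hP hQ) (hb' : 0 < b') :
    mf (W2 μ Z hP hQ α γ b b') = lab μ (cv Z (wn hQ γ)) hP α b := by
  funext d
  have h1 : lab μ (cv Z (wn hQ γ)) hP α b d
      = (b : ℝ≥0∞)⁻¹ • stp (stp μ (cv Z (dlaw hP α b d))) (wn hQ γ) := by
    unfold lab
    rw [stp_stp, stp_stp, cv_assoc, cv_assoc, wn_dlaw h.symm]
  have h2 : ∀ e : Fin b', W2 μ Z hP hQ α γ b b' (d, e)
      = ((b : ℝ≥0∞)⁻¹ * (b' : ℝ≥0∞)⁻¹) •
        stp (stp μ (cv Z (dlaw hP α b d))) (dlaw hQ γ b' e) := fun e => by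
    unfold W2
    rw [stp_stp]
  unfold mf
  rw [Finset.sum_congr rfl fun e _ => h2 e, h1, wn_split hQ γ hb', stp_smul, stp_sum, smul_smul,
    Finset.smul_sum]

theorem W2_swap (h : Co hP hQ) (d : Fin b) (e : Fin b') :
    W2 μ Z hP hQ α γ b b' (d, e) = W2 μ Z hQ hP γ α b' b (e, d) := by
  unfold W2
  rw [mul_comm, cv_assoc, dlaw_dlaw h, ← cv_assoc]

theorem ms_W2 (h : Co hP hQ) (hb : 0 < b) :
    ms (W2 μ Z hP hQ α γ b b') = lab μ (cv Z (wn hP α)) hQ γ b' := by
  rw [← mf_W2 μ Z γ α h.symm hb]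
  funext e
  unfold ms mf
  exact Finset.sum_congr rfl fun d _ => W2_swap μ Z α γ h d e

theorem slice (h : Co hP hQ) (d : Fin b) :
    Hc (fun e => W2 μ Z hP hQ α γ b b' (d, e))
      = (b : ℝ)⁻¹ * Hc (lab μ (cv Z (wn hP (α + Real.logb 2 b))) hQ γ b') := by
  have hb : 0 < b := d.pos
  have hbt : (b : ℝ≥0∞)⁻¹ ≠ ∞ := by simp [hb.ne']
  have hb0 : (b : ℝ≥0∞)⁻¹ ≠ 0 := by simp
  have h1 : (fun e => W2 μ Z hP hQ α γ b b' (d, e))
      = fun e => (b : ℝ≥0∞)⁻¹ • ((lab μ (cv Z (wn hP (α + Real.logb 2 b))) hQ γ b' e).map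
        fun x => act x (uu hP ((2 : ℝ) ^ (-α) * cen b d))) := by
    funext e
    unfold W2 lab
    rw [Measure.map_smul, smul_smul, stp_stp, ← stp_dirac, stp_stp]
    congr 2
    rw [dlaw_eq hP α d, cv_assoc, cv_assoc, cv_assoc, cv_assoc]
    congr 2
    exact dirac_cv_map (measurable_digit γ e) h.symm _
  have h2 := Hc_smul (fun e => (lab μ (cv Z (wn hP (α + Real.logb 2 b))) hQ γ b' e).map
        fun x => act x (uu hP ((2 : ℝ) ^ (-α) * cen b d))) hb0 hbt
  rw [h1, h2, Hc_act]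
  simp

theorem sum_slice (h : Co hP hQ) (hb : 0 < b) :
    ∑ d, Hc (fun e => W2 μ Z hP hQ α γ b b' (d, e))
      = Hc (lab μ (cv Z (wn hP (α + Real.logb 2 b))) hQ γ b') := by
  rw [Finset.sum_congr rfl fun d _ => slice μ Z α γ h d, Finset.sum_const, Finset.card_univ,
    Fintype.card_fin, nsmul_eq_mul, ← mul_assoc, mul_inv_cancel₀ (by exact_mod_cast hb.ne'), one_mul]

theorem sum_slice' (h : Co hP hQ) (hb' : 0 < b') :
    ∑ e, Hc (fun d => W2 μ Z hP hQ α γ b b' (d, e))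
      = Hc (lab μ (cv Z (wn hQ (γ + Real.logb 2 b'))) hP α b) := by
  rw [← sum_slice μ Z γ α h.symm hb']
  refine Finset.sum_congr rfl fun e _ => ?_
  congr 1
  funext d
  exact W2_swap μ Z α γ h d e

/-- **(SQ), two commuting roots.** -/
theorem square (h : Co hP hQ) (hb : 0 < b) (hb' : 0 < b') :
    Hc (lab μ (cv Z (wn hQ γ)) hP α b)
        + Hc (lab μ (cv Z (wn hP (α + Real.logb 2 b))) hQ γ b')
      = Hc (lab μ (cv Z (wn hP α)) hQ γ b')
        + Hc (lab μ (cv Z (wn hQ (γ + Real.logb 2 b'))) hP α b) := by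
  have h1 := Hc_exchange (W2 μ Z hP hQ α γ b b')
  rw [ms_W2 μ Z α γ h hb, mf_W2 μ Z α γ h hb', sum_slice μ Z α γ h hb,
    sum_slice' μ Z α γ h hb'] at h1
  linarith

/-- Finer noise of the other root: less entropy. -/
theorem slice_le (h : Co hP hQ) (hb : 0 < b) (hb' : 0 < b') :
    Hc (lab μ (cv Z (wn hP (α + Real.logb 2 b))) hQ γ b')
      ≤ Hc (lab μ (cv Z (wn hP α)) hQ γ b') := by
  have h1 := Hc_slices_le' (W2 μ Z hP hQ α γ b b')
  rw [ms_W2 μ Z α γ h hb, sum_slice μ Z α γ h hb] at h1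
  exact h1

end Square

section Heis

variable {j k l : Fin n}

theorem co_jk_jl (hjk : j ≠ k) (hjl : j ≠ l) : Co hjk hjl := fun s t => comm_jk_jl hjk hjl s t

variable (μ : Measure (ModSpace n)) [IsProbabilityMeasure μ] (Z : Measure (SLR n))
  [IsProbabilityMeasure Z] {b b' : ℕ}

/-- **(SQ)** for the Heisenberg order `Z · kl · jk · jl`. -/
theorem square_heis (hjk : j ≠ k) (hkl : k ≠ l) (hjl : j ≠ l) (α β γ : ℝ) (hb : 0 < b)
    (hb' : 0 < b') :
    Hc (lab μ (cv (cv Z (dl hkl β)) (dl hjl γ)) hjk α b)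
        + Hc (lab μ (cv (cv Z (dl hkl β)) (dl hjk (α + Real.logb 2 b))) hjl γ b')
      = Hc (lab μ (cv (cv Z (dl hkl β)) (dl hjk α)) hjl γ b')
        + Hc (lab μ (cv (cv Z (dl hkl β)) (dl hjl (γ + Real.logb 2 b'))) hjk α b) :=
  square μ (cv Z (dl hkl β)) α γ (co_jk_jl hjk hjl) hb hb'

end Heis

end Crest.Agent.R014.ClF1_599
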