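import Crest.Agent.R014.Sw4_640
import Crest.Agent.R014.NScH_395

set_option autoImplicit false

/-!
Row 14, block D, noise formalism: consumer forms of the sandwich.

* `near_Z`, `near_S`, `near_T`, `near_R`, `near_R'` : near constancy (4.1) from `NC`;
* `shift_R` : exact equivariance of the `jl`-entropy of the product noise;
* `mono_R` : monotonicity in the Heisenberg metric (O-monotonicity), product noises;
* `mono_shift_R` : both together.
-/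

open MeasureTheory Crest.NumberTheoryR.Packets
open scoped ENNReal

namespace Crest.Agent.R014.Sw5_640

open Ms_667 Ne1_567 Ne3_567 Sw1_640 Sw3_640 Sw4_640
open Nd_837 hiding uni_ae
open Nz_323 (Adm CN)
open NScA_395 (rho)
open NScD_395 (dl)
open NScG_458 (RN)
open NScH_395 (NC)

variable {n : ℕ} {i j k l : Fin n} {b : ℕ}

/-- The hypothesis of `Good.abs_sub_le` from `NC`. -/
theorem nc_sub_le {μ : Measure (ModSpace n)} {u1 u2 η : ℝ} {B : Finset ℕ} (h : NC μ u1 u2 B η)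
    (hij : i ≠ j) (hb : b ∈ B) (hb0 : 0 < b) :
    Hc (lab μ (zt (u1 • rho i j)) hij 0 b) - Hc (lab μ (zt (u2 • rho i j)) hij 0 b) ≤ η := by
  have h1 := h i j hij b hb hb0
  unfold NScG_395.fdig at h1
  simp only [dif_pos hij] at h1
  exact h1

variable {μ : Measure (ModSpace n)} [IsProbabilityMeasure μ] (hμ : AInv μ)
  {M u1 u2 w W α β γ η : ℝ} {B : Finset ℕ}

include hμ

/-- **Near constancy** of a good noise. -/
theorem near_of_good (h : Rg n M u1 u2 w W) (hN : NC μ u1 u2 B η) (hb : b ∈ B) (hb0 : 0 < b)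
    (hη : 0 ≤ η) (hij : i ≠ j) {κ : Measure (SLR n)} [IsProbabilityMeasure κ] {r e : ℝ}
    {t : Fin n → ℝ} (hG : Sw2_640.Good hij b e (zt (u1 • rho i j)) (zt (u2 • rho i j)) κ r t)
    (hee : e0 n w ≤ e) (he : 2 * e ≤ 1) :
    |Hc (lab μ κ hij r b) - Hc (lab μ (zt (u1 • rho i j)) hij 0 b)| ≤ η + md b (2 * e) := by
  have := isProb_zt (h.adm_coarse i j)
  have := isProb_zt (h.adm_fine i j)
  exact hG.abs_sub_le hij hμ hb0 (fun d => (h.coarse_cm hij d).mono hee) he hη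
    (nc_sub_le hN hij hb hb0)

/-- Near constancy for the Heisenberg box noise itself. -/
theorem near_Z (h : Rg n M u1 u2 w W) (hN : NC μ u1 u2 B η) (hb : b ∈ B) (hb0 : 0 < b)
    (hη : 0 ≤ η) (hjk : j ≠ k) (hkl : k ≠ l) (hjl : j ≠ l) {i i' : Fin n}
    (hi : (i = j ∧ i' = k) ∨ (i = k ∧ i' = l) ∨ (i = j ∧ i' = l)) (hii : i ≠ i') {r : ℝ}
    (hr : |r| ≤ W) (he : 2 * e0 n w ≤ 1) :
    |Hc (lab μ (zt (RN j k l M)) hii r b) - Hc (lab μ (zt (u1 • rho i i')) hii 0 b)|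
      ≤ η + md b (2 * e0 n w) := by
  obtain ⟨t, -, hG⟩ := heis_Z (b := b) h hjk hkl hjl hi hii hr
  have := isProb_zt (h.adm_RN (j := j) (k := k) (l := l))
  exact near_of_good hμ h hN hb hb0 hη hii hG le_rfl he

/-- Near constancy for the `jk`-digits. -/
theorem near_S (h : Rg n M u1 u2 w W) (hN : NC μ u1 u2 B η) (hb : b ∈ B) (hb0 : 0 < b)
    (hη : 0 ≤ η) (hjk : j ≠ k) (hkl : k ≠ l) (hjl : j ≠ l)
    (hα : |α| ≤ W) (hβ : |β| ≤ W) (hγ : |γ| ≤ W) {e : ℝ}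
    (hee : 3 * e0 n w + (2 : ℝ) ^ (γ - α - β) / 2 ≤ e) (he : 2 * e ≤ 1) :
    |Hc (lab μ (cv (cv (zt (RN j k l M)) (dl hkl β)) (dl hjl γ)) hjk α b)
        - Hc (lab μ (zt (u1 • rho j k)) hjk 0 b)| ≤ η + md b (2 * e) := by
  obtain ⟨t, -, hG⟩ := heis_S (b := b) h hjk hkl hjl hα hβ hγ
  have := isProb_zt (h.adm_RN (j := j) (k := k) (l := l))
  have h0 := e0_nonneg n w
  have h1 : (0 : ℝ) < (2 : ℝ) ^ (γ - α - β) := Real.rpow_pos_of_pos two_pos _
  exact near_of_good hμ h hN hb hb0 hη hjk (hG.mono hjk hee) (by linarith) he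

/-- Near constancy for the `kl`-digits. -/
theorem near_T (h : Rg n M u1 u2 w W) (hN : NC μ u1 u2 B η) (hb : b ∈ B) (hb0 : 0 < b)
    (hη : 0 ≤ η) (hjk : j ≠ k) (hkl : k ≠ l) (hjl : j ≠ l)
    (hα : |α| ≤ W) (hβ : |β| ≤ W) (hγ : |γ| ≤ W) {e : ℝ}
    (hee : 3 * e0 n w + (2 : ℝ) ^ (γ - α - β) / 2 ≤ e) (he : 2 * e ≤ 1) :
    |Hc (lab μ (cv (cv (zt (RN j k l M)) (dl hjk α)) (dl hjl γ)) hkl β b)
        - Hc (lab μ (zt (u1 • rho k l)) hkl 0 b)| ≤ η + md b (2 * e) := by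
  obtain ⟨t, -, hG⟩ := heis_T (b := b) h hjk hkl hjl hα hβ hγ
  have := isProb_zt (h.adm_RN (j := j) (k := k) (l := l))
  have h0 := e0_nonneg n w
  have h1 : (0 : ℝ) < (2 : ℝ) ^ (γ - α - β) := Real.rpow_pos_of_pos two_pos _
  exact near_of_good hμ h hN hb hb0 hη hkl (hG.mono hkl hee) (by linarith) he

/-- Near constancy for the `jl`-digits, macroscopic gap. -/
theorem near_R (h : Rg n M u1 u2 w W) (hN : NC μ u1 u2 B η) (hb : b ∈ B) (hb0 : 0 < b)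
    (hη : 0 ≤ η) (hjk : j ≠ k) (hkl : k ≠ l) (hjl : j ≠ l)
    (hβ : |β| ≤ W) (hγ : |γ| ≤ W) (hgap : 2 * (3 * u1 + w) ≤ α + β - γ)
    (he : 6 * e0 n w ≤ 1) :
    |Hc (lab μ (cv (cv (zt (RN j k l M)) (dl hkl β)) (dl hjk α)) hjl γ b)
        - Hc (lab μ (zt (u1 • rho j l)) hjl 0 b)| ≤ η + md b (6 * e0 n w) := by
  obtain ⟨t, -, hG⟩ := heis_R (b := b) h hjk hkl hjl hβ hγ hgap
  have := isProb_zt (h.adm_RN (j := j) (k := k) (l := l))
  have h0 := e0_nonneg n w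
  have h1 := near_of_good hμ h hN hb hb0 hη hjl hG (by linarith) (by linarith)
  rwa [show 2 * (3 * e0 n w) = 6 * e0 n w by ring] at h1

/-- Near constancy for the `jl`-digits, macroscopic gap, the other order of the factors. -/
theorem near_R' (h : Rg n M u1 u2 w W) (hN : NC μ u1 u2 B η) (hb : b ∈ B) (hb0 : 0 < b)
    (hη : 0 ≤ η) (hjk : j ≠ k) (hkl : k ≠ l) (hjl : j ≠ l)
    (hβ : |β| ≤ W) (hγ : |γ| ≤ W) (hgap : 2 * (3 * u1 + w) ≤ α + β - γ)
    (he : 6 * e0 n w ≤ 1) :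
    |Hc (lab μ (cv (cv (zt (RN j k l M)) (dl hjk α)) (dl hkl β)) hjl γ b)
        - Hc (lab μ (zt (u1 • rho j l)) hjl 0 b)| ≤ η + md b (6 * e0 n w) := by
  obtain ⟨t, -, hG⟩ := heis_R' (b := b) h hjk hkl hjl hβ hγ hgap
  have := isProb_zt (h.adm_RN (j := j) (k := k) (l := l))
  have h0 := e0_nonneg n w
  have h1 := near_of_good hμ h hN hb hb0 hη hjl hG (by linarith) (by linarith)
  rwa [show 2 * (3 * e0 n w) = 6 * e0 n w by ring] at h1

/-! ### Shifts and monotonicity in the metric -/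

/-- **Exact equivariance** of the entropy of the `ii'`-digits for a product noise. -/
theorem shift_prod (hii : i ≠ j) {p q p' q' : Fin n} (hpq : p ≠ q) (hpq' : p' ≠ q')
    {R : Fin n → Fin n → ℝ} (hR : Adm R) (t : Fin n → ℝ) (β' α' r : ℝ) :
    Hc (lab μ (cv (cv (zt (R + sh t)) (dl hpq (β' + (t p - t q)))) (dl hpq' (α' + (t p' - t q'))))
        hii (r + (t i - t j)) b)
      = Hc (lab μ (cv (cv (zt R) (dl hpq β')) (dl hpq' α')) hii r b) := by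
  have := isProb_zt hR
  rw [← Hc_lab_sh hμ (cv (cv (zt R) (dl hpq β')) (dl hpq' α')) hii t r b]
  rw [dl_eq_wn, dl_eq_wn, dl_eq_wn, dl_eq_wn, cj_three hpq hpq' (zt_sh hR t)]

omit hμ in
omit [IsProbabilityMeasure μ] in
/-- **The exchange for products**: `Z κa κb L Z' ≈ Z' κa κb L`. -/
theorem exch_prod {Z Z' κa κb L : Measure (SLR n)} [IsProbabilityMeasure Z] [IsProbabilityMeasure Z']
    [IsProbabilityMeasure κa] [IsProbabilityMeasure κb] [IsProbabilityMeasure L]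
    {e₁ e₂ e₃ e₄ : ℝ} (h1 : Cm e₁ L Z') (h2 : Cm e₂ κb Z') (h3 : Cm e₃ κa Z') (h4 : Ab e₄ Z Z') :
    TVle (cv (cv (cv (cv Z κa) κb) L) Z') (cv (cv (cv Z' κa) κb) L) (e₃ + e₂ + e₁ + e₄) := by
  have h5 := exch ((h3.cv_left h2).cv_left h1) h4
  rw [← cv_assoc, ← cv_assoc] at h5
  rw [← cv_assoc, ← cv_assoc] at h5
  exact h5

omit hμ in
/-- General monotonicity for product noises. -/
theorem mono_prod (hij : i ≠ j) {Z Z' κa κb : Measure (SLR n)} [IsProbabilityMeasure Z]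
    [IsProbabilityMeasure Z'] [IsProbabilityMeasure κa] [IsProbabilityMeasure κb]
    {e r : ℝ} (hb : 0 < b) (h1 : ∀ d, Cm e (dlaw hij r b d) Z') (h2 : Cm e κb Z')
    (h3 : Cm e κa Z') (h4 : Ab e Z Z') (he : 4 * e ≤ 1) :
    Hc (lab μ (cv (cv Z κa) κb) hij r b) ≤ Hc (lab μ (cv (cv Z' κa) κb) hij r b) + md b (4 * e) :=
  Sw2_640.dp hij μ hb (τ := Z') (fun d => (exch_prod (h1 d) h2 h3 h4).mono (by linarith)) he

omit hμ in
omit [IsProbabilityMeasure μ] in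
/-- Cleanness of the shifted Heisenberg metric. -/
theorem clean_sh' {p q : Fin n} (hjk : j ≠ k) (hkl : k ≠ l) (hjl : j ≠ l)
    (hi : (p = j ∧ q = k) ∨ (p = k ∧ q = l) ∨ (p = j ∧ q = l)) (hM : 0 ≤ M) (hw : 0 ≤ w)
    {T r : ℝ} {t : Fin n → ℝ} (ht : ∀ p, |t p| ≤ T) (hr : w + |r| + 2 * T ≤ M / 10) :
    Nz_323.Clean p q r w (RN j k l M + sh t) := by
  have h0 : |r - (t p - t q)| ≤ |r| + 2 * T := by
    have h1 := abs_sub r (t p - t q)
    have h2 := abs_sub (t p) (t q)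
    linarith [ht p, ht q]
  have h1 : NScA_395.Clean p q (r - (t p - t q)) w (RN j k l M) := by
    rcases hi with ⟨rfl, rfl⟩ | ⟨rfl, rfl⟩ | ⟨rfl, rfl⟩
    · exact NScG_458.clean_jk hjk hkl hjl hM hw (by linarith)
    · exact NScG_458.clean_kl hjk hkl hjl hM hw (by linarith)
    · exact NScG_458.clean_jl hjk hkl hjl hM hw (by linarith)
  have h2 := (NScA_395.clean_sh (i := p) (j := q) (t := t)).2 h1
  rw [sub_add_cancel] at h2
  exact h2

omit hμ in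
omit [IsProbabilityMeasure μ] in
/-- `RN M'` is negligible for `RN M + sh t` when `M' ≥ 2 M`. -/
theorem neg_sh' (hjk : j ≠ k) (hkl : k ≠ l) (hjl : j ≠ l) {M' T : ℝ} (hM : 0 ≤ M)
    (hMM : 2 * M ≤ M') {t : Fin n → ℝ} (ht : ∀ p, |t p| ≤ T) (hT : 2 * T + w ≤ M / 8) :
    NScA_395.Neg w (RN j k l M') (RN j k l M + sh t) := by
  have h1 := NScG_458.neg_RN_sh hjk hkl hjl (w := w) hM hMM (t := -t)
    (fun p => by rw [Pi.neg_apply, abs_neg]; exact ht p) hT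
  have h2 := (NScA_395.neg_sh (t := t)).2 h1
  have h3 : RN j k l M' + NScA_395.sh (-t) + NScA_395.sh t = RN j k l M' := by
    funext p q
    simp only [NScA_395.sh, Pi.add_apply, Pi.neg_apply]
    ring
  rw [h3] at h2
  exact h2

omit hμ in
/-- **O-monotonicity**, product noises, `jl`-digits. -/
theorem mono_R (hjk : j ≠ k) (hkl : k ≠ l) (hjl : j ≠ l) (hb : 0 < b) {M' T : ℝ} (hw : 0 ≤ w)
    (hM : 0 ≤ M) (hMM : 2 * M ≤ M') {t : Fin n → ℝ} (ht : ∀ p, |t p| ≤ T)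
    (hT : 2 * T + w ≤ M / 8) (hα : w + |α| + 2 * T ≤ M / 10) (hβ : w + |β| + 2 * T ≤ M / 10)
    (hγ : w + |γ| + 2 * T ≤ M / 10) (hadm : Adm (RN j k l M + sh t)) (he : 4 * e0 n w ≤ 1) :
    Hc (lab μ (cv (cv (zt (RN j k l M')) (dl hkl β)) (dl hjk α)) hjl γ b)
      ≤ Hc (lab μ (cv (cv (zt (RN j k l M + sh t)) (dl hkl β)) (dl hjk α)) hjl γ b)
        + md b (4 * e0 n w) := by
  have hN := neg_conv (neg_sh' (w := w) hjk hkl hjl hM hMM ht hT)
  have hadm' : Adm (RN j k l M') := Nz_323.adm_of_le hadm fun p q => by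
    have := hN.1 p q
    linarith
  have := isProb_zt hadm
  have := isProb_zt hadm'
  exact mono_prod hjl hb
    (fun d => Cm_zt hjl hadm (clean_sh' hjk hkl hjl (Or.inr (Or.inr ⟨rfl, rfl⟩)) hM hw ht hγ) d)
    (Cm_dl_zt hjk hadm (clean_sh' hjk hkl hjl (Or.inl ⟨rfl, rfl⟩) hM hw ht hα))
    (Cm_dl_zt hkl hadm (clean_sh' hjk hkl hjl (Or.inr (Or.inl ⟨rfl, rfl⟩)) hM hw ht hβ))
    (Ab_zt hw hadm hN) he

/-- **O-monotonicity and shift**: the entropy at the shifted depths in the fine metric is at most the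
entropy at the original depths. -/
theorem mono_shift_R (hjk : j ≠ k) (hkl : k ≠ l) (hjl : j ≠ l) (hb : 0 < b) {M' T : ℝ}
    (hw : 0 ≤ w) (hM : 0 ≤ M) (hMM : 2 * M ≤ M') {t : Fin n → ℝ} (ht : ∀ p, |t p| ≤ T)
    (hT : 2 * T + w ≤ M / 8) (hα : w + |α| + 4 * T ≤ M / 10) (hβ : w + |β| + 4 * T ≤ M / 10)
    (hγ : w + |γ| + 4 * T ≤ M / 10) (hadm : Adm (RN j k l M)) (he : 4 * e0 n w ≤ 1) :
    Hc (lab μ (cv (cv (zt (RN j k l M')) (dl hkl (β + (t k - t l)))) (dl hjk (α + (t j - t k))))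
        hjl (γ + (t j - t l)) b)
      ≤ Hc (lab μ (cv (cv (zt (RN j k l M)) (dl hkl β)) (dl hjk α)) hjl γ b)
        + md b (4 * e0 n w) := by
  have h2 : ∀ p q : Fin n, |t p - t q| ≤ 2 * T := fun p q => by
    have := abs_sub (t p) (t q)
    linarith [ht p, ht q]
  have h3 : ∀ x y : ℝ, |x + y| ≤ |x| + |y| := abs_add_le
  rw [← shift_prod hμ hjl hkl hjk hadm t β α γ]
  refine mono_R hjk hkl hjl hb hw hM hMM ht hT ?_ ?_ ?_ ((Nz_323.adm_sh (t := t)).2 hadm) he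
  · linarith [h3 α (t j - t k), h2 j k]
  · linarith [h3 β (t k - t l), h2 k l]
  · linarith [h3 γ (t j - t l), h2 j l]

end Crest.Agent.R014.Sw5_640
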