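import Mathlib

/-!
Row 14, block D (noise formalism of #3844), CLAIM F by one exchange square.

`fs a g` : entropy of one `jk`-digit, `fr a g` : entropy of one `jl`-digit, `a` = depth of the
`jk`-window, `g` = depth of the `jl`-window (relative to the critical one), the `kl`-window is fixed.
-/

open Finset

namespace Crest.Agent.R014.Tel_599

/-- Double telescoping: one kind of exchange square + near-constancy of `fs` give an upper bound
for the average of the critical `fr i i`. -/
theorem claimF (fs fr : ℕ → ℕ → ℝ) (e : ℕ → ℝ) (E cs cr η : ℝ) (I A : ℕ) (hIA : I ≤ A)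
    (he : ∀ N, ∑ m ∈ range N, e m ≤ E)
    (hsq : ∀ a g, g ≤ a → a < A → g < I →
      fr a g - fr (a + 1) g ≤ fs a g - fs a (g + 1) + e (a - g))
    (hup : ∀ a, a < A → fs a 0 ≤ cs + η)
    (hlo : ∀ a g, a < A → g ≤ a + 1 → g ≤ I → cs - η ≤ fs a g)
    (hfine : ∀ g < I, fr A g ≤ cr + η) :
    ∑ i ∈ range I, fr i i ≤ I * (cr + η) + 2 * η * A + I * E := by
  have key : ∀ i ∈ range I, fr i i ≤ fr A i + ∑ a ∈ Ico i A, (fs a i - fs a (i + 1)) + E := by
    intro i hi
    have hi' : i < I := mem_range.1 hi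
    have h1 : ∑ a ∈ Ico i A, (fr a i - fr (a + 1) i) = fr i i - fr A i := by
      have : ∀ B, i ≤ B → ∑ a ∈ Ico i B, (fr a i - fr (a + 1) i) = fr i i - fr B i := by
        intro B hB
        induction B, hB using Nat.le_induction with
        | base => simp
        | succ B hB ih => rw [Finset.sum_Ico_succ_top hB, ih]; ring
      exact this A (hi'.le.trans hIA)
    have h2 : ∑ a ∈ Ico i A, (fr a i - fr (a + 1) i)
        ≤ ∑ a ∈ Ico i A, ((fs a i - fs a (i + 1)) + e (a - i)) := by
      refine Finset.sum_le_sum fun a ha => ?_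
      have ha' := Finset.mem_Ico.1 ha
      exact hsq a i ha'.1 ha'.2 hi'
    have h3 : ∑ a ∈ Ico i A, e (a - i) ≤ E := by
      rw [Finset.sum_Ico_eq_sum_range]
      have : ∑ k ∈ range (A - i), e (i + k - i) = ∑ k ∈ range (A - i), e k :=
        Finset.sum_congr rfl fun k _ => by rw [Nat.add_sub_cancel_left]
      rw [this]
      exact he _
    rw [Finset.sum_add_distrib] at h2
    linarith
  have hswap : ∑ i ∈ range I, ∑ a ∈ Ico i A, (fs a i - fs a (i + 1))
      = ∑ a ∈ range A, ∑ i ∈ range (min (a + 1) I), (fs a i - fs a (i + 1)) := by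
    rw [Finset.sum_sigma', Finset.sum_sigma']
    refine Finset.sum_bij' (fun x _ => ⟨x.2, x.1⟩) (fun x _ => ⟨x.2, x.1⟩) ?_ ?_ ?_ ?_ ?_
    · rintro ⟨i, a⟩ h
      simp only [Finset.mem_sigma, mem_range, Finset.mem_Ico] at h ⊢
      omega
    · rintro ⟨a, i⟩ h
      simp only [Finset.mem_sigma, mem_range, Finset.mem_Ico, lt_min_iff] at h ⊢
      omega
    · rintro ⟨i, a⟩ _; rfl
    · rintro ⟨a, i⟩ _; rfl
    · rintro ⟨i, a⟩ _; rfl
  have hrow : ∀ a ∈ range A, ∑ i ∈ range (min (a + 1) I), (fs a i - fs a (i + 1)) ≤ 2 * η := by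
    intro a ha
    have ha' := mem_range.1 ha
    rw [Finset.sum_range_sub']
    have h1 := hup a ha'
    have h2 := hlo a (min (a + 1) I) ha' (min_le_left _ _) (min_le_right _ _)
    linarith
  calc ∑ i ∈ range I, fr i i
      ≤ ∑ i ∈ range I, (fr A i + ∑ a ∈ Ico i A, (fs a i - fs a (i + 1)) + E) :=
        Finset.sum_le_sum key
    _ = ∑ i ∈ range I, fr A i + ∑ i ∈ range I, ∑ a ∈ Ico i A, (fs a i - fs a (i + 1))
          + I * E := by
        rw [Finset.sum_add_distrib, Finset.sum_add_distrib]
        simp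
    _ ≤ I * (cr + η) + A * (2 * η) + I * E := by
        have h1 : ∑ i ∈ range I, fr A i ≤ I * (cr + η) := by
          have := Finset.sum_le_sum (s := range I) (f := fun i => fr A i) (g := fun _ => cr + η)
            fun i hi => hfine i (mem_range.1 hi)
          rw [Finset.sum_const, card_range, nsmul_eq_mul] at this
          exact this
        have h2 : ∑ a ∈ range A, ∑ i ∈ range (min (a + 1) I), (fs a i - fs a (i + 1))
            ≤ A * (2 * η) := by
          have := Finset.sum_le_sum hrow
          simpa using this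
        rw [hswap]
        linarith
    _ = I * (cr + η) + 2 * η * A + I * E := by ring

/-- Pointwise form: if all critical terms `fr i i` dominate one number `φ` (shift-equivariance and
monotonicity in the macroscopic entries), then `φ ≤ cr + η + 2ηA/I + E + w`. -/
theorem claimF_point (fs fr : ℕ → ℕ → ℝ) (e : ℕ → ℝ) (E cs cr η w φ : ℝ) (I A : ℕ)
    (hI : 0 < I) (hIA : I ≤ A)
    (he : ∀ N, ∑ m ∈ range N, e m ≤ E)
    (hsq : ∀ a g, g ≤ a → a < A → g < I →
      fr a g - fr (a + 1) g ≤ fs a g - fs a (g + 1) + e (a - g))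
    (hup : ∀ a, a < A → fs a 0 ≤ cs + η)
    (hlo : ∀ a g, a < A → g ≤ a + 1 → g ≤ I → cs - η ≤ fs a g)
    (hfine : ∀ g < I, fr A g ≤ cr + η)
    (hφ : ∀ i < I, φ ≤ fr i i + w) :
    φ ≤ cr + η + 2 * η * A / I + E + w := by
  have h := claimF fs fr e E cs cr η I A hIA he hsq hup hlo hfine
  have h1 : (I : ℝ) * φ ≤ ∑ i ∈ range I, fr i i + I * w := by
    have := Finset.sum_le_sum (s := range I) (f := fun _ => φ) (g := fun i => fr i i + w)
      fun i hi => hφ i (mem_range.1 hi)
    rw [Finset.sum_add_distrib] at this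
    simpa using this
  have hI' : (0 : ℝ) < I := by exact_mod_cast hI
  have h2 : (I : ℝ) * φ ≤ I * (cr + η + 2 * η * A / I + E + w) := by
    have h3 : (I : ℝ) * (cr + η + 2 * η * A / I + E + w)
        = I * (cr + η) + 2 * η * A + I * E + I * w := by
      field_simp
    rw [h3]; linarith
  exact le_of_mul_le_mul_left h2 hI'

end Crest.Agent.R014.Tel_599
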