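import Crest.Agent.R014.ClF1_599
import Crest.Agent.R014.Sw5_640
import Crest.Agent.R014.Tel_599

set_option autoImplicit false

/-!
Row 14, block D, noise formalism, section 4, (4.2) **CLAIM F**: the `jl`-digits at depth `γ` of the
observation `x ζ u_kl(2^(-β) t) u_jk(2^(-α) s) u_jl(2^(-γ) r)` have no more entropy than the
reference value, up to small errors, as soon as `α + β - γ` is large (an absolute gap).
-/

open MeasureTheory Crest.NumberTheoryR.Packets
open scoped ENNReal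

namespace Crest.Agent.R014.ClF2_599

open Ms_667 Ne1_567 Ne3_567 Sw1_640 Sw3_640 Sw4_640 Sw5_640
open Nd_837 hiding uni_ae
open Nz_323 (Adm CN)
open NScA_395 (rho)
open NScD_395 (dl)
open NScG_458 (RN)
open NScH_395 (NC)

variable {n : ℕ} {j k l : Fin n} {b : ℕ}

variable {μ : Measure (ModSpace n)} [IsProbabilityMeasure μ] (hμ : AInv μ)
  {M M' u1 u2 w W α β γ η e : ℝ} {B : Finset ℕ}

theorem logb_ge_one {b : ℕ} (hb : 2 ≤ b) : 1 ≤ Real.logb 2 b := by
  rw [Real.le_logb_iff_rpow_le (by norm_num) (by exact_mod_cast (by omega : 0 < b)), Real.rpow_one]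
  exact_mod_cast hb

theorem two_rpow_logb {b : ℕ} (hb : 2 ≤ b) : (2 : ℝ) ^ Real.logb 2 b = b :=
  Real.rpow_logb two_pos (by norm_num) (by exact_mod_cast (by omega : 0 < b))

/-- the window of the `jl`-entropy -/
noncomputable abbrev HR (μ : Measure (ModSpace n)) (M : ℝ) (hjk : j ≠ k) (hkl : k ≠ l) (hjl : j ≠ l)
    (α β γ : ℝ) (b : ℕ) : ℝ :=
  Hc (lab μ (cv (cv (zt (RN j k l M)) (dl hkl β)) (dl hjk α)) hjl γ b)

/-- the window of the `jk`-entropy -/
noncomputable abbrev HS (μ : Measure (ModSpace n)) (M : ℝ) (hjk : j ≠ k) (hkl : k ≠ l) (hjl : j ≠ l)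
    (α β γ : ℝ) (b : ℕ) : ℝ :=
  Hc (lab μ (cv (cv (zt (RN j k l M)) (dl hkl β)) (dl hjl γ)) hjk α b)

include hμ

/-- **CLAIM F**, explicit form. -/
theorem claimF (hjk : j ≠ k) (hkl : k ≠ l) (hjl : j ≠ l) (hb : 2 ≤ b)
    (h : Rg n M u1 u2 w (W + 12 * u1 + 4 * w + 4 * Real.logb 2 b)) (hN : NC μ u1 u2 B η)
    (hbB : b ∈ B) (hη : 0 ≤ η) (hMM : 2 * M ≤ M') (hα : |α| ≤ W) (hβ : |β| ≤ W) (hγ : |γ| ≤ W)
    (hee : 3 * e0 n w + b * (2 : ℝ) ^ (γ - α - β) / 2 ≤ e) (he : 2 * e ≤ 1) :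
    HR μ M' hjk hkl hjl α β γ b ≤ Hc (lab μ (zt (u1 • rho j l)) hjl 0 b)
      + 5 * (η + md b (2 * e)) + md b (4 * e0 n w) := by
  have hb0 : 0 < b := by omega
  have hb0' : (0 : ℝ) < b := by exact_mod_cast hb0
  set L : ℝ := Real.logb 2 b with hL
  have hL1 : 1 ≤ L := logb_ge_one hb
  have hL0 : 0 < L := by linarith
  have hu1 := h.u1_nonneg
  have hw := h.hw
  have hM0 := h.M_nonneg
  have hM1 := h.hM1
  have h0 := e0_nonneg n w
  have hX : (0 : ℝ) < (2 : ℝ) ^ (γ - α - β) := Real.rpow_pos_of_pos two_pos _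
  have hW : 0 ≤ W := le_trans (abs_nonneg _) hα
  have he0 : 0 ≤ e := le_trans (by positivity) hee
  -- the gap is nonnegative
  have hgap0 : 0 ≤ α + β - γ := by
    by_contra hcon
    push Not at hcon
    have h1 : (1 : ℝ) ≤ (2 : ℝ) ^ (γ - α - β) :=
      Real.one_le_rpow (by norm_num) (by linarith)
    have h2 : (2 : ℝ) ≤ b := by exact_mod_cast hb
    nlinarith
  -- number of steps
  set I : ℕ := ⌈(6 * u1 + 2 * w) / L⌉₊ + 1 with hI
  have hIpos : 0 < I := by omega
  have hI1 : 6 * u1 + 2 * w ≤ I * L := by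
    have h1 : (6 * u1 + 2 * w) / L ≤ (I : ℝ) := by
      refine (Nat.le_ceil _).trans ?_
      exact_mod_cast (by omega : ⌈(6 * u1 + 2 * w) / L⌉₊ ≤ I)
    rwa [div_le_iff₀ hL0] at h1
  have hI2 : I * L ≤ 6 * u1 + 2 * w + 2 * L := by
    have h1 : ((⌈(6 * u1 + 2 * w) / L⌉₊ : ℕ) : ℝ) < (6 * u1 + 2 * w) / L + 1 :=
      Nat.ceil_lt_add_one (by positivity)
    have h2 : (I : ℝ) ≤ (6 * u1 + 2 * w) / L + 2 := by
      rw [hI]; push_cast; linarith
    calc (I : ℝ) * L ≤ ((6 * u1 + 2 * w) / L + 2) * L := mul_le_mul_of_nonneg_right h2 hL0.le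
      _ = 6 * u1 + 2 * w + 2 * L := by field_simp
  have hIL : 0 ≤ (I : ℝ) * L := by positivity
  -- ranges of the depths
  have hdep : ∀ (m : ℕ) (x : ℝ), m ≤ 2 * I → |x| ≤ W →
      |x + m * L| ≤ W + 12 * u1 + 4 * w + 4 * L := fun m x hm hx => by
    have h1 : (m : ℝ) ≤ 2 * I := by exact_mod_cast hm
    have h2 : (m : ℝ) * L ≤ 2 * I * L := mul_le_mul_of_nonneg_right h1 hL0.le
    have h3 : 0 ≤ (m : ℝ) * L := by positivity
    have h4 := abs_add_le x (m * L)
    rw [abs_of_nonneg h3] at h4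
    linarith
  have hWβ : |β| ≤ W + 12 * u1 + 4 * w + 4 * L := by linarith
  -- near constancy of the `jk`-digits
  have hS : ∀ a g : ℕ, a < 2 * I → g ≤ a + 1 → g ≤ I →
      |HS μ M hjk hkl hjl (α + a * L) β (γ + g * L) b
        - Hc (lab μ (zt (u1 • rho j k)) hjk 0 b)| ≤ η + md b (2 * e) := by
    intro a g ha hg hgI
    refine near_S hμ h hN hbB hb0 hη hjk hkl hjl (hdep a α (by omega) hα) hWβ
      (hdep g γ (by omega) hγ) (le_trans (add_le_add le_rfl ?_) hee) he
    have h1 : (g : ℝ) ≤ a + 1 := by exact_mod_cast hg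
    have h2 : (g : ℝ) * L ≤ (a + 1) * L := mul_le_mul_of_nonneg_right h1 hL0.le
    have h3 : γ + g * L - (α + a * L) - β ≤ L + (γ - α - β) := by linarith
    have h4 : (2 : ℝ) ^ (γ + g * L - (α + a * L) - β) ≤ b * (2 : ℝ) ^ (γ - α - β) := by
      refine (Real.rpow_le_rpow_of_exponent_le (by norm_num) h3).trans (le_of_eq ?_)
      rw [Real.rpow_add two_pos, hL, two_rpow_logb hb]
    linarith
  have hmd : md b (6 * e0 n w) ≤ md b (2 * e) := by
    refine md_mono b (by positivity) ?_ he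
    have : 0 ≤ b * (2 : ℝ) ^ (γ - α - β) / 2 := by positivity
    linarith
  have hq : 0 ≤ b * (2 : ℝ) ^ (γ - α - β) / 2 := by positivity
  have key := Tel_599.claimF_point
    (fs := fun a g => HS μ M hjk hkl hjl (α + a * L) β (γ + g * L) b)
    (fr := fun a g => HR μ M hjk hkl hjl (α + a * L) β (γ + g * L) b)
    (e := fun _ => 0) (E := 0) (cs := Hc (lab μ (zt (u1 • rho j k)) hjk 0 b))
    (cr := Hc (lab μ (zt (u1 • rho j l)) hjl 0 b)) (η := η + md b (2 * e))
    (w := md b (4 * e0 n w)) (φ := HR μ M' hjk hkl hjl α β γ b) (I := I) (A := 2 * I)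
    hIpos (by omega) (fun N => by simp) ?_ ?_ ?_ ?_ ?_
  · have h1 : 2 * (η + md b (2 * e)) * ((2 * I : ℕ) : ℝ) / I = 4 * (η + md b (2 * e)) := by
      have : (I : ℝ) ≠ 0 := by exact_mod_cast hIpos.ne'
      push_cast
      field_simp
      ring
    rw [h1] at key
    linarith
  · -- the squares
    intro a g _ _ _
    have hp := isProb_zt (h.adm_RN (j := j) (k := k) (l := l))
    have h1 := ClF1_599.square_heis μ (zt (RN j k l M)) hjk hkl hjl (α + a * L) β (γ + g * L)
      hb0 hb0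
    have h2 : α + ((a + 1 : ℕ) : ℝ) * L = α + a * L + Real.logb 2 b := by
      rw [← hL]; push_cast; ring
    have h3 : γ + ((g + 1 : ℕ) : ℝ) * L = γ + g * L + Real.logb 2 b := by
      rw [← hL]; push_cast; ring
    simp only [HS, HR]
    rw [h2, h3]
    linarith
  · -- upper bound of `fs`
    intro a ha
    have h1 := hS a 0 ha (by omega) (by omega)
    have h2 := (abs_le.1 h1).2
    linarith
  · -- lower bound of `fs`
    intro a g ha hg hgI
    have h1 := hS a g ha hg hgI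
    have h2 := (abs_le.1 h1).1
    linarith
  · -- fine `jl`-digits
    intro g hg
    have h1 : (g : ℝ) + 1 ≤ I := by exact_mod_cast hg
    have h2 : ((g : ℝ) + 1) * L ≤ I * L := mul_le_mul_of_nonneg_right h1 hL0.le
    have hgap : 2 * (3 * u1 + w) ≤ (α + ((2 * I : ℕ) : ℝ) * L) + β - (γ + g * L) := by
      push_cast
      linarith
    have h3 := near_R hμ h hN hbB hb0 hη hjk hkl hjl hWβ (hdep g γ (by omega) hγ) hgap
      (by linarith)
    have h4 := (abs_le.1 h3).2
    linarith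
  · -- the diagonal terms dominate
    intro i hi
    have h1 : (i : ℝ) ≤ I := by exact_mod_cast hi.le
    have h2 : (i : ℝ) * L ≤ I * L := mul_le_mul_of_nonneg_right h1 hL0.le
    have h3 : 0 ≤ (i : ℝ) * L := by positivity
    set t : Fin n → ℝ := Pi.single j (-(i * L)) with ht
    have htj : t j = -(i * L) := by rw [ht, Pi.single_eq_same]
    have htk : t k = 0 := by rw [ht, Pi.single_eq_of_ne hjk.symm]
    have htl : t l = 0 := by rw [ht, Pi.single_eq_of_ne hjl.symm]
    have htb : ∀ p, |t p| ≤ I * L := fun p => by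
      by_cases hp : p = j
      · rw [hp, htj, abs_neg, abs_of_nonneg h3]; exact h2
      · rw [ht, Pi.single_eq_of_ne hp, abs_zero]; exact hIL
    have h5 : ∀ x : ℝ, |x| ≤ W → |x + i * L| ≤ W + I * L := fun x hx => by
      have h4 := abs_add_le x (i * L)
      rw [abs_of_nonneg h3] at h4
      linarith
    have h6 := mono_shift_R hμ (b := b) (α := α + i * L) (β := β) (γ := γ + i * L) hjk hkl hjl hb0
      hw hM0 hMM htb (by linarith) (by linarith [h5 α hα]) (by linarith)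
      (by linarith [h5 γ hγ]) h.adm_RN (by linarith)
    rw [htj, htk, htl] at h6
    have e1 : β + ((0 : ℝ) - 0) = β := by ring
    have e2 : α + i * L + (-(i * L) - 0) = α := by ring
    have e3 : γ + i * L + (-(i * L) - 0) = γ := by ring
    rw [e1, e2, e3] at h6
    exact h6

end Crest.Agent.R014.ClF2_599
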