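import Crest.Agent.R014.ClF2_599

set_option autoImplicit false

/-!
Row 14, block D, noise formalism, section 4, (4.2) CLAIM F, quantified forms.
-/

open MeasureTheory Crest.NumberTheoryR.Packets
open scoped ENNReal

namespace Crest.Agent.R014.ClF3_599

open Ms_667 Ne1_567 Ne3_567 Sw1_640 Sw3_640 Sw4_640 Sw5_640 ClF2_599
open Nd_837 hiding uni_ae
open Nz_323 (Adm CN)
open NScA_395 (rho)
open NScD_395 (dl)
open NScG_458 (RN)
open NScH_395 (NC c1N)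

variable {n : ℕ}

theorem md_small (b : ℕ) {ε : ℝ} (hε : 0 < ε) :
    ∃ δ : ℝ, 0 < δ ∧ δ ≤ 1 ∧ ∀ x, 0 ≤ x → x ≤ δ → md b x ≤ ε := by
  have hl : 0 < Real.log b + 3 := by linarith [Real.log_natCast_nonneg b]
  refine ⟨min 1 ((ε / (Real.log b + 3)) ^ 2), lt_min one_pos (by positivity), min_le_left _ _,
    fun x hx0 hx => ?_⟩
  have h1 : √x ≤ ε / (Real.log b + 3) := by
    rw [Real.sqrt_le_left (by positivity)]
    exact hx.trans (min_le_right _ _)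
  calc md b x ≤ (Real.log b + 3) * √x := md_le_sqrt b hx0 (hx.trans (min_le_left _ _))
    _ ≤ (Real.log b + 3) * (ε / (Real.log b + 3)) := mul_le_mul_of_nonneg_left h1 hl.le
    _ = ε := by field_simp

theorem rpow_neg_small {C δ : ℝ} (hC : 0 ≤ C) (hδ : 0 < δ) :
    ∃ w0 : ℝ, 0 < w0 ∧ ∀ w, w0 ≤ w → C * (2 : ℝ) ^ (-w) ≤ δ := by
  refine ⟨max 1 (Real.logb 2 ((C + 1) / δ)), lt_of_lt_of_le one_pos (le_max_left _ _),
    fun w hw => ?_⟩
  have h1 : Real.logb 2 ((C + 1) / δ) ≤ w := (le_max_right _ _).trans hw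
  have hp : 0 < (C + 1) / δ := by positivity
  rw [Real.logb_le_iff_le_rpow (by norm_num) hp] at h1
  have h2 : 0 < (2 : ℝ) ^ w := Real.rpow_pos_of_pos two_pos _
  rw [Real.rpow_neg two_pos.le, mul_inv_le_iff₀ h2]
  rw [div_le_iff₀ hδ] at h1
  nlinarith

/-- The ranges of `Sw4_640.Rg` from the regime. -/
theorem rg_of {M u1 u2 W : ℝ} (hc : 20 * c1N n ≤ u1) (hu : 0 ≤ u1) (hW : 0 ≤ W)
    (hM : 100 * (u1 + W) ≤ M) (hu2 : 2 * M ≤ u2 / 20) : Rg n M u1 u2 (u1 / 20) W where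
  hw := by positivity
  hwu := le_rfl
  hW := hW
  hadm := by
    have h1 : c1N n ≤ u1 / 20 := by linarith
    unfold NScH_395.c1N at h1
    rwa [Real.logb_le_iff_le_rpow (by norm_num) (by positivity)] at h1
  hM1 := by linarith
  hM2 := by linarith

/-- **CLAIM F.** For every base `b ≥ 2` and every `e1 > 0` there are `η`, `U`, `D0` such that the
`jl`-digits at depth `γ` (windows `α`, `β` of the roots `jk`, `kl`) have at most the reference entropy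
plus `e1` as soon as `α + β - γ ≥ D0`. -/
theorem claimF_ev {b : ℕ} (hb : 2 ≤ b) {e1 : ℝ} (he1 : 0 < e1) :
    ∃ η U D0 : ℝ, 0 < η ∧ 0 < U ∧ 0 < D0 ∧
      ∀ μ : Measure (ModSpace n), IsProbabilityMeasure μ → AInv μ →
      ∀ (u1 u2 M W : ℝ) (B : Finset ℕ), U ≤ u1 → 1000 * (u1 + W) ≤ M → 2 * M ≤ u2 / 20 → b ∈ B →
      NC μ u1 u2 B η → ∀ (j k l : Fin n) (hjk : j ≠ k) (hkl : k ≠ l) (hjl : j ≠ l),
      ∀ α β γ : ℝ, |α| ≤ W → |β| ≤ W → |γ| ≤ W → D0 ≤ α + β - γ →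
      HR μ M hjk hkl hjl α β γ b ≤ Hc (lab μ (zt (u1 • rho j l)) hjl 0 b) + e1 := by
  obtain ⟨δ, hδ0, hδ1, hδ⟩ := md_small b (ε := e1 / 20) (by positivity)
  have hCN : (0 : ℝ) ≤ CN n := by unfold Nz_323.CN; positivity
  obtain ⟨w0, hw0, hw⟩ := rpow_neg_small hCN (δ := δ / 12) (by positivity)
  obtain ⟨D0, hD0, hD⟩ := rpow_neg_small (C := b) (by positivity) (δ := δ / 2) (by positivity)
  have hL1 : 1 ≤ Real.logb 2 b := logb_ge_one hb
  refine ⟨e1 / 20, max (20 * (w0 + Real.logb 2 b)) (20 * c1N n), D0, by positivity,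
    lt_of_lt_of_le (by positivity) (le_max_left _ _), hD0, ?_⟩
  intro μ hμp hμ u1 u2 M W B hU hM hu2 hbB hN j k l hjk hkl hjl α β γ hα hβ hγ hgap
  have hU1 : 20 * (w0 + Real.logb 2 b) ≤ u1 := (le_max_left _ _).trans hU
  have hU2 : 20 * c1N n ≤ u1 := (le_max_right _ _).trans hU
  have hu1 : 0 ≤ u1 := by linarith
  have hW : 0 ≤ W := (abs_nonneg _).trans hα
  have h0 := e0_nonneg n (u1 / 20)
  have hadm : ((n.factorial : ℝ) + 1) * 2 ^ (n + 1) ≤ (2 : ℝ) ^ (u1 / 20) := by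
    have h1 : c1N n ≤ u1 / 20 := by linarith
    unfold NScH_395.c1N at h1
    rwa [Real.logb_le_iff_le_rpow (by norm_num) (by positivity)] at h1
  have hRg : Rg n (M / 2) u1 u2 (u1 / 20)
      (W + 12 * u1 + 4 * (u1 / 20) + 4 * Real.logb 2 b) :=
    ⟨by positivity, le_rfl, by positivity, hadm, by linarith, by linarith⟩
  have he0 : e0 n (u1 / 20) ≤ δ / 12 := hw (u1 / 20) (by linarith)
  have hX : b * (2 : ℝ) ^ (γ - α - β) ≤ δ / 2 := by
    have h1 := hD (α + β - γ) hgap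
    rwa [show -(α + β - γ) = γ - α - β by ring] at h1
  have hX0 : (0 : ℝ) < (2 : ℝ) ^ (γ - α - β) := Real.rpow_pos_of_pos two_pos _
  have hX1 : 0 ≤ b * (2 : ℝ) ^ (γ - α - β) := by positivity
  have key := claimF hμ (α := α) (β := β) (γ := γ) (M := M / 2) (M' := M) hjk hkl hjl hb hRg hN hbB
    (by positivity) (by linarith) hα hβ hγ le_rfl (by linarith)
  have h1 := hδ (2 * (3 * e0 n (u1 / 20) + b * (2 : ℝ) ^ (γ - α - β) / 2)) (by positivity)
    (by linarith)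
  have h2 := hδ (4 * e0 n (u1 / 20)) (by positivity) (by linarith)
  linarith

/-- **CLAIM F**, compared with the entropy of the digits of the noise alone (information form):
`H(D_r | x ζ u_kl u_jk u_jl) ≤ H(D_r | x ζ u_jl) + e1`. -/
theorem claimF_info {b : ℕ} (hb : 2 ≤ b) {e1 : ℝ} (he1 : 0 < e1) :
    ∃ η U D0 : ℝ, 0 < η ∧ 0 < U ∧ 0 < D0 ∧
      ∀ μ : Measure (ModSpace n), IsProbabilityMeasure μ → AInv μ →
      ∀ (u1 u2 M W : ℝ) (B : Finset ℕ), U ≤ u1 → 1000 * (u1 + W) ≤ M → 2 * M ≤ u2 / 20 → b ∈ B →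
      NC μ u1 u2 B η → ∀ (j k l : Fin n) (hjk : j ≠ k) (hkl : k ≠ l) (hjl : j ≠ l),
      ∀ α β γ γ' : ℝ, |α| ≤ W → |β| ≤ W → |γ| ≤ W → |γ'| ≤ W → D0 ≤ α + β - γ →
      HR μ M hjk hkl hjl α β γ b ≤ Hc (lab μ (zt (RN j k l M)) hjl γ' b) + e1 := by
  obtain ⟨η1, U1, D0, hη1, hU1, hD0, h1⟩ := claimF_ev (n := n) hb (e1 := e1 / 2) (by positivity)
  obtain ⟨δ, hδ0, hδ1, hδ⟩ := md_small b (ε := e1 / 4) (by positivity)
  have hCN : (0 : ℝ) ≤ CN n := by unfold Nz_323.CN; positivity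
  obtain ⟨w0, hw0, hw⟩ := rpow_neg_small hCN (δ := δ / 2) (by positivity)
  refine ⟨min η1 (e1 / 4), max U1 (max (20 * w0) (20 * c1N n)), D0,
    lt_min hη1 (by positivity), lt_of_lt_of_le hU1 (le_max_left _ _), hD0, ?_⟩
  intro μ hμp hμ u1 u2 M W B hU hM hu2 hbB hN j k l hjk hkl hjl α β γ γ' hα hβ hγ hγ' hgap
  have hUa : U1 ≤ u1 := (le_max_left _ _).trans hU
  have hUb : 20 * w0 ≤ u1 := ((le_max_left _ _).trans (le_max_right _ _)).trans hU
  have hUc : 20 * c1N n ≤ u1 := ((le_max_right _ _).trans (le_max_right _ _)).trans hU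
  have hu1 : 0 ≤ u1 := by linarith
  have hW : 0 ≤ W := (abs_nonneg _).trans hα
  have h0 := e0_nonneg n (u1 / 20)
  have hN1 : NC μ u1 u2 B η1 := fun i' j' h' c hc hc0 =>
    (hN i' j' h' c hc hc0).trans (min_le_left _ _)
  have hN2 : NC μ u1 u2 B (e1 / 4) := fun i' j' h' c hc hc0 =>
    (hN i' j' h' c hc hc0).trans (min_le_right _ _)
  have h2 := h1 μ hμp hμ u1 u2 M W B hUa hM hu2 hbB hN1 j k l hjk hkl hjl α β γ hα hβ hγ hgap
  have he0 : e0 n (u1 / 20) ≤ δ / 2 := hw (u1 / 20) (by linarith)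
  have h3 := near_Z hμ (rg_of hUc hu1 hW (by linarith) hu2) hN2 hbB (by omega) (by positivity)
    hjk hkl hjl (Or.inr (Or.inr ⟨rfl, rfl⟩)) hjl hγ' (by linarith)
  have h4 := hδ (2 * e0 n (u1 / 20)) (by positivity) (by linarith)
  have h5 := (abs_le.1 h3).1
  linarith

end Crest.Agent.R014.ClF3_599
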