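import Crest.Agent.R014.Sl1_652

/-!
Class number formula for the packet volume (row 14), helper652.

Part 1: the lattice of logarithms of units in the coordinates `log |σ_j e|`, `j < d`, has covolume
equal to the regulator, and every fundamental domain of a subgroup of it has volume at least the
regulator.
-/

namespace Crest.Agent.R014.Cnf_652

open Crest.NumberTheoryR.Packets Crest.Agent.R014.Sl_652 Module NumberField MeasureTheory
open NumberField.Units Pointwise

/-! ### Comparison of fundamental domains -/

/-- The fundamental domain of a smaller group is larger. -/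
theorem measure_le_of_le {E : Type*} [AddCommGroup E] [MeasurableSpace E] [MeasurableAdd E]
    (μ : Measure E) [μ.IsAddLeftInvariant] (Γ Γ' : AddSubgroup E) [Countable Γ] (hle : Γ' ≤ Γ)
    {F D : Set E} (hF : IsAddFundamentalDomain Γ F μ) (hD : IsAddFundamentalDomain Γ' D μ) :
    μ F ≤ μ D := by
  have : Countable Γ' := (AddSubgroup.inclusion_injective hle).countable
  rw [hD.measure_eq_tsum' F, hF.measure_eq_tsum D]
  have h1 : ∀ g : Γ', μ (F ∩ (g +ᵥ D)) = μ ((AddSubgroup.inclusion hle g +ᵥ D) ∩ F) := by
    intro g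
    rw [Set.inter_comm]
    rfl
  simp_rw [h1]
  exact ENNReal.tsum_comp_le_tsum_of_injective (AddSubgroup.inclusion_injective hle)
    (fun g : Γ => μ ((g +ᵥ D) ∩ F))

/-! ### Infinite places and real embeddings -/

variable {K : Type*} [Field K] [NumberField K] {n d : ℕ}

/-- The infinite place of a real embedding. -/
noncomputable def plc (φ : K →+* ℝ) : InfinitePlace K := InfinitePlace.mk (Complex.ofRealHom.comp φ)

omit [NumberField K] in
theorem plc_apply (φ : K →+* ℝ) (x : K) : plc φ x = |φ x| := by
  rw [plc, InfinitePlace.apply]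
  change ‖((φ x : ℝ) : ℂ)‖ = _
  rw [Complex.norm_real, Real.norm_eq_abs]

omit [NumberField K] in
theorem isReal_ofRealComp (φ : K →+* ℝ) : ComplexEmbedding.IsReal (Complex.ofRealHom.comp φ) := by
  ext x
  simp

omit [NumberField K] in
theorem plc_isReal (φ : K →+* ℝ) : (plc φ).IsReal := ⟨_, isReal_ofRealComp φ, rfl⟩

theorem plc_mult (φ : K →+* ℝ) : (plc φ).mult = 1 := by
  rw [InfinitePlace.mult, if_pos (plc_isReal φ)]

omit [NumberField K] in
theorem plc_injective : Function.Injective (plc (K := K)) := by
  intro φ ψ h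
  rw [plc, plc, InfinitePlace.mk_eq_iff] at h
  have h2 : Complex.ofRealHom.comp φ = Complex.ofRealHom.comp ψ := by
    rcases h with h | h
    · exact h
    · rwa [ComplexEmbedding.isReal_iff.mp (isReal_ofRealComp φ)] at h
  ext x
  have := DFunLike.congr_fun h2 x
  simpa using this

theorem plc_bijective (hn : finrank ℚ K = n) (σ : Fin n ≃ (K →+* ℝ)) :
    Function.Bijective (fun i => plc (σ i)) := by
  refine ⟨plc_injective.comp σ.injective, fun w => ?_⟩
  have h := (toAlgHom_bijective hn σ).2 w.embedding.toRatAlgHom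
  obtain ⟨i, hi⟩ := h
  refine ⟨i, ?_⟩
  have h2 : Complex.ofRealHom.comp (σ i) = w.embedding := by
    ext x
    exact DFunLike.congr_fun hi x
  change InfinitePlace.mk (Complex.ofRealHom.comp (σ i)) = w
  rw [h2, InfinitePlace.mk_embedding]

/-- Infinite places of a totally real field, numbered by `σ`. -/
noncomputable def plcEquiv (hn : finrank ℚ K = n) (σ : Fin n ≃ (K →+* ℝ)) :
    Fin n ≃ InfinitePlace K := Equiv.ofBijective _ (plc_bijective hn σ)

theorem plcEquiv_apply (hn : finrank ℚ K = n) (σ : Fin n ≃ (K →+* ℝ)) (i : Fin n) (x : K) :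
    plcEquiv hn σ i x = |σ i x| := plc_apply _ _

theorem rank_eq (hn : finrank ℚ K = d + 1) (σ : Fin (d + 1) ≃ (K →+* ℝ)) : rank K = d := by
  classical
  rw [rank, ← Fintype.card_congr (plcEquiv hn σ), Fintype.card_fin]
  rfl

/-! ### Logarithms of units -/

/-- The logarithmic vector of a unit, in the coordinates `j < d`. -/
noncomputable def logVec (σ : Fin (d + 1) ≃ (K →+* ℝ)) (e : (𝓞 K)ˣ) : Fin d → ℝ :=
  fun j => Real.log |σ j.castSucc (e : K)|

omit [NumberField K] in
theorem logVec_mul (σ : Fin (d + 1) ≃ (K →+* ℝ)) (e f : (𝓞 K)ˣ) :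
    logVec σ (e * f) = logVec σ e + logVec σ f := by
  ext j
  simp only [logVec, Pi.add_apply, Units.val_mul, map_mul, abs_mul]
  rw [Real.log_mul]
  · exact abs_ne_zero.mpr ((map_ne_zero _).mpr (by simp))
  · exact abs_ne_zero.mpr ((map_ne_zero _).mpr (by simp))

/-- The logarithm as a homomorphism. -/
noncomputable def logHom (σ : Fin (d + 1) ≃ (K →+* ℝ)) : Additive (𝓞 K)ˣ →+ (Fin d → ℝ) where
  toFun e := logVec σ e.toMul
  map_zero' := by
    ext j; simp [logVec]
  map_add' e f := logVec_mul σ _ _

/-- The group of logarithms of units. -/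
noncomputable def logUnits (σ : Fin (d + 1) ≃ (K →+* ℝ)) : AddSubgroup (Fin d → ℝ) :=
  (logHom σ).range

omit [NumberField K] in
theorem mem_logUnits {σ : Fin (d + 1) ≃ (K →+* ℝ)} {u : Fin d → ℝ} :
    u ∈ logUnits σ ↔ ∃ e : (𝓞 K)ˣ, logVec σ e = u := by
  constructor
  · rintro ⟨e, rfl⟩; exact ⟨e.toMul, rfl⟩
  · rintro ⟨e, rfl⟩; exact ⟨Additive.ofMul e, rfl⟩

theorem logVec_torsion (σ : Fin (d + 1) ≃ (K →+* ℝ)) {e : (𝓞 K)ˣ} (he : e ∈ torsion K) :
    logVec σ e = 0 := by
  ext j
  have h := (mem_torsion K).mp he (plc (σ j.castSucc))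
  rw [plc_apply] at h
  simp [logVec, h]

/-- The matrix of logarithms of a fundamental system. -/
noncomputable def logMat (hr : rank K = d) (σ : Fin (d + 1) ≃ (K →+* ℝ)) :
    Matrix (Fin d) (Fin d) ℝ :=
  Matrix.of fun i => logVec σ (fundSystem K (finCongr hr.symm i))

theorem abs_det_logMat (hn : finrank ℚ K = d + 1) (hr : rank K = d)
    (σ : Fin (d + 1) ≃ (K →+* ℝ)) : |(logMat hr σ).det| = regulator K := by
  classical
  let w' : InfinitePlace K := plcEquiv hn σ (Fin.last d)
  let e0 : Fin d ≃ {w : InfinitePlace K // w ≠ w'} :=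
    { toFun := fun j => ⟨plcEquiv hn σ j.castSucc, fun h => by
        have := (plcEquiv hn σ).injective h
        exact absurd this (Fin.castSucc_lt_last j).ne⟩
      invFun := fun w => ((plcEquiv hn σ).symm w.1).castPred (fun h => w.2 (by
        rw [Equiv.symm_apply_eq] at h
        exact h))
      left_inv := fun j => by simp
      right_inv := fun w => by
        apply Subtype.ext
        simp }
  let e : {w : InfinitePlace K // w ≠ w'} ≃ Fin (rank K) := e0.symm.trans (finCongr hr.symm)
  rw [regulator_eq_det K w' e, ← Matrix.det_reindex_self e0.symm]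
  congr 2
  ext i j
  have h1 : ((e0 j).1 : InfinitePlace K).mult = 1 := plc_mult _
  have h2 : (e0 j).1 = plcEquiv hn σ j.castSucc := rfl
  simp only [logMat, logVec, Matrix.of_apply, Matrix.reindex_apply, Matrix.submatrix_apply,
    Equiv.symm_symm, h1, Nat.cast_one, one_mul]
  rw [h2, plcEquiv_apply]
  congr 3
  simp [e]

theorem logMat_linearIndependent (hn : finrank ℚ K = d + 1) (hr : rank K = d)
    (σ : Fin (d + 1) ≃ (K →+* ℝ)) :
    LinearIndependent ℝ (fun i => logVec σ (fundSystem K (finCongr hr.symm i))) := by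
  have h : IsUnit (logMat hr σ) := by
    rw [Matrix.isUnit_iff_isUnit_det, isUnit_iff_ne_zero]
    intro h
    have := abs_det_logMat hn hr σ
    rw [h, abs_zero] at this
    exact regulator_ne_zero K this.symm
  exact Matrix.linearIndependent_rows_iff_isUnit.mpr h

/-- The basis of logarithms of a fundamental system. -/
noncomputable def logBasis (hn : finrank ℚ K = d + 1) (hr : rank K = d)
    (σ : Fin (d + 1) ≃ (K →+* ℝ)) : Basis (Fin d) ℝ (Fin d → ℝ) :=
  Basis.mk (v := fun i => logVec σ (fundSystem K (finCongr hr.symm i)))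
    (logMat_linearIndependent hn hr σ)
    ((logMat_linearIndependent hn hr σ).span_eq_top_of_card_eq_finrank' (by simp)).ge

theorem logBasis_apply (hn : finrank ℚ K = d + 1) (hr : rank K = d)
    (σ : Fin (d + 1) ≃ (K →+* ℝ)) (i : Fin d) :
    logBasis hn hr σ i = logVec σ (fundSystem K (finCongr hr.symm i)) := by
  simp [logBasis]

theorem span_logBasis (hn : finrank ℚ K = d + 1) (hr : rank K = d)
    (σ : Fin (d + 1) ≃ (K →+* ℝ)) :
    (Submodule.span ℤ (Set.range (logBasis hn hr σ))).toAddSubgroup = logUnits σ := by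
  apply le_antisymm
  · intro u hu
    change u ∈ Submodule.span ℤ (Set.range (logBasis hn hr σ)) at hu
    induction hu using Submodule.span_induction with
    | mem x hx =>
      obtain ⟨i, rfl⟩ := hx
      rw [logBasis_apply]
      exact mem_logUnits.mpr ⟨_, rfl⟩
    | zero => exact (logUnits σ).zero_mem
    | add x y _ _ hx hy => exact (logUnits σ).add_mem hx hy
    | smul a x _ hx => exact (logUnits σ).zsmul_mem hx a
  · intro u hu
    obtain ⟨e, rfl⟩ := mem_logUnits.mp hu
    obtain ⟨⟨ζ, f⟩, hf, -⟩ := exist_unique_eq_mul_prod K e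
    change logVec σ e ∈ Submodule.span ℤ (Set.range (logBasis hn hr σ))
    rw [hf, logVec_mul, logVec_torsion σ ζ.2, zero_add]
    have h1 : ∀ s : Finset (Fin (rank K)),
        logVec σ (∏ i ∈ s, fundSystem K i ^ f i) ∈
          Submodule.span ℤ (Set.range (logBasis hn hr σ)) := by
      intro s
      classical
      induction s using Finset.induction_on with
      | empty =>
        have : logVec σ (1 : (𝓞 K)ˣ) = 0 := (logHom σ).map_zero
        rw [Finset.prod_empty, this]
        exact Submodule.zero_mem _
      | insert i s hi ih =>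
        rw [Finset.prod_insert hi, logVec_mul]
        refine Submodule.add_mem _ ?_ ih
        have h2 : logVec σ (fundSystem K i ^ f i) = f i • logVec σ (fundSystem K i) :=
          (logHom σ).map_zsmul (f i) (Additive.ofMul (fundSystem K i))
        rw [h2]
        refine Submodule.smul_mem _ _ (Submodule.subset_span ⟨finCongr hr i, ?_⟩)
        rw [logBasis_apply]
        simp
    exact h1 Finset.univ

/-- Every fundamental domain of a group of logarithms of units has volume at least the
regulator. -/
theorem regulator_le_volume (hn : finrank ℚ K = d + 1) (σ : Fin (d + 1) ≃ (K →+* ℝ))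
    (Γ : AddSubgroup (Fin d → ℝ)) (hΓ : Γ ≤ logUnits σ) {D : Set (Fin d → ℝ)}
    (hD : IsAddFundamentalDomain Γ D volume) :
    ENNReal.ofReal (regulator K) ≤ volume D := by
  have hr := rank_eq hn σ
  have h1 := ZSpan.isAddFundamentalDomain' (logBasis hn hr σ) (volume : Measure (Fin d → ℝ))
  have h2 : volume (ZSpan.fundamentalDomain (logBasis hn hr σ)) =
      ENNReal.ofReal (regulator K) := by
    rw [ZSpan.volume_fundamentalDomain, ← abs_det_logMat hn hr σ]
    congr 3
    ext i j
    rw [Matrix.of_apply, logBasis_apply]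
    rfl
  rw [← h2]
  have hc : Countable (Submodule.span ℤ (Set.range (logBasis hn hr σ))).toAddSubgroup :=
    inferInstanceAs (Countable (Submodule.span ℤ (Set.range (logBasis hn hr σ))))
  exact measure_le_of_le volume _ Γ (by rw [span_logBasis]; exact hΓ) h1 hD

end Crest.Agent.R014.Cnf_652
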