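import Crest.Agent.R014.Pk1_349

/-!
Row 14, packets, part 2 (helper349): diagonal orbits and their periods for number field lattices;
local homothety is an equivalence relation and preserves the multiplier order.
-/

set_option autoImplicit false
set_option linter.unusedSectionVars false

open MeasureTheory Matrix
open Crest.NumberTheoryR.Packets

namespace Crest.Agent.R014.Pk2_349

open Crest.Agent.R014.Pk1_349

noncomputable section

variable {n d : ℕ} {K : Type*} [Field K] [NumberField K]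

/-- The homothetic lattice `c·M`. -/
def cM (c : K) (M : Submodule ℤ K) : Submodule ℤ K := M.map (LinearMap.mulLeft ℤ c)

theorem mem_cM {c x : K} {M : Submodule ℤ K} : x ∈ cM c M ↔ ∃ y ∈ M, c * y = x := by
  unfold cM
  rw [Submodule.mem_map]
  rfl

theorem mem_cM' {c x : K} (hc : c ≠ 0) {M : Submodule ℤ K} : x ∈ cM c M ↔ c⁻¹ * x ∈ M := by
  rw [mem_cM]
  constructor
  · rintro ⟨y, hy, rfl⟩
    rwa [inv_mul_cancel_left₀ hc]
  · intro h
    exact ⟨_, h, by rw [mul_inv_cancel_left₀ hc]⟩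

theorem cM_one (M : Submodule ℤ K) : cM 1 M = M := by
  ext x
  rw [mem_cM]
  constructor
  · rintro ⟨y, hy, rfl⟩; rwa [one_mul]
  · intro h; exact ⟨x, h, one_mul x⟩

theorem cM_cM (c c' : K) (M : Submodule ℤ K) : cM c (cM c' M) = cM (c * c') M := by
  ext x
  simp only [mem_cM]
  constructor
  · rintro ⟨_, ⟨y, hy, rfl⟩, rfl⟩
    exact ⟨y, hy, by rw [mul_assoc]⟩
  · rintro ⟨y, hy, rfl⟩
    exact ⟨_, ⟨y, hy, rfl⟩, by rw [mul_assoc]⟩

theorem cM_inv {c : K} (hc : c ≠ 0) {M M' : Submodule ℤ K} (h : cM c M = M') :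
    cM c⁻¹ M' = M := by
  rw [← h, cM_cM, inv_mul_cancel₀ hc, cM_one]

theorem embLat_cM (σ : Fin n ≃ (K →+* ℝ)) (c : K) (M : Submodule ℤ K) :
    embLat σ (cM c M) = scaleLat (embLat σ M) (emb σ c) := by
  ext v
  rw [mem_embLat, mem_scaleLat]
  constructor
  · rintro ⟨x, hx, rfl⟩
    obtain ⟨y, hy, rfl⟩ := mem_cM.1 hx
    exact ⟨emb σ y, mem_embLat.2 ⟨y, hy, rfl⟩, by rw [← map_mul, mul_comm]⟩
  · rintro ⟨_, hu, rfl⟩
    obtain ⟨y, hy, rfl⟩ := mem_embLat.1 hu
    exact ⟨c * y, mem_cM.2 ⟨y, hy, rfl⟩, by rw [map_mul, mul_comm]⟩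

/-- The lattice basis `c·m`. -/
def smulBasis (c : K) (hc : c ≠ 0) (m : LatticeBasis n K) : LatticeBasis n K where
  vec := fun i => c * m.vec i
  linIndep := by
    have := m.linIndep.map' (LinearMap.mulLeft ℤ c)
      (LinearMap.ker_eq_bot.2 (mul_right_injective₀ hc))
    exact this
  spans := by
    have h : (Set.range fun i => c * m.vec i) = (LinearMap.mulLeft ℚ c) '' Set.range m.vec := by
      rw [← Set.range_comp]
      rfl
    rw [h, Submodule.span_image, m.spans, Submodule.map_top, LinearMap.range_eq_top]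
    intro y
    exact ⟨c⁻¹ * y, by simp [mul_inv_cancel_left₀ hc]⟩

theorem smulBasis_lattice (c : K) (hc : c ≠ 0) (m : LatticeBasis n K) :
    (smulBasis c hc m).lattice = cM c m.lattice := by
  unfold cM LatticeBasis.lattice
  rw [Submodule.map_span, ← Set.range_comp]
  rfl

theorem vec_ne_zero (m : LatticeBasis n K) (i : Fin n) : m.vec i ≠ 0 := m.linIndep.ne_zero i

theorem vec_mem (m : LatticeBasis n K) (i : Fin n) : m.vec i ∈ m.lattice :=
  Submodule.subset_span ⟨i, rfl⟩

/-- Fundamental rigidity: equal scalings of number field lattices are homothetic in the field. -/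
theorem exists_scalar {σ : Fin (d + 1) ≃ (K →+* ℝ)} {M M' : Submodule ℤ K}
    {s t : Fin (d + 1) → ℝ} (hs : ∀ j, s j ≠ 0) (ht : ∀ j, t j ≠ 0) (hM : M ≠ ⊥)
    (h : scaleLat (embLat σ M) s = scaleLat (embLat σ M') t) :
    ∃ c : K, c ≠ 0 ∧ (∀ j, σ j c * t j = s j) ∧ cM c M = M' := by
  obtain ⟨z, hz, hz0⟩ := Submodule.exists_mem_ne_zero_of_ne_bot hM
  have hσ : ∀ (j : Fin (d + 1)) (x : K), x ≠ 0 → σ j x ≠ 0 := fun j x hx =>
    (map_ne_zero (σ j)).2 hx
  have h1 : emb σ z * s ∈ scaleLat (embLat σ M') t := h ▸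
    mem_scaleLat.2 ⟨_, mem_embLat.2 ⟨z, hz, rfl⟩, rfl⟩
  obtain ⟨_, hu, hyz⟩ := mem_scaleLat.1 h1
  obtain ⟨y, hy, rfl⟩ := mem_embLat.1 hu
  have hj : ∀ j, σ j y * t j = σ j z * s j := fun j => congrFun hyz j
  have hy0 : y ≠ 0 := by
    intro h0
    have := hj 0
    rw [h0, map_zero, zero_mul] at this
    exact mul_ne_zero (hσ 0 z hz0) (hs 0) this.symm
  refine ⟨y / z, div_ne_zero hy0 hz0, ?_, ?_⟩
  · intro j
    rw [map_div₀, div_mul_eq_mul_div, hj j, mul_div_cancel_left₀ _ (hσ j z hz0)]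
  · have hc : ∀ j, σ j (y / z) * t j = s j := by
      intro j
      rw [map_div₀, div_mul_eq_mul_div, hj j, mul_div_cancel_left₀ _ (hσ j z hz0)]
    have hc' : emb σ (y / z) * t = s := funext hc
    have h2 : scaleLat (embLat σ (cM (y / z) M)) t = scaleLat (embLat σ M') t := by
      rw [embLat_cM, scaleLat_scaleLat, hc', h]
    exact embLat_injective σ (scaleLat_injective ht h2)

/-- Points whose lattice is a scaling of `σ(M)` with prescribed signs. -/
def orbSet (σ : Fin (d + 1) ≃ (K →+* ℝ)) (M : Submodule ℤ K) (s : Fin (d + 1) → ℝ) :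
    Set (ModSpace (d + 1)) :=
  {y | ∃ t : Fin (d + 1) → ℝ, (∀ j, 0 < s j * t j) ∧ lat y = scaleLat (embLat σ M) t}

theorem orbSet_congr {σ : Fin (d + 1) ≃ (K →+* ℝ)} {M : Submodule ℤ K}
    {s s' : Fin (d + 1) → ℝ} (h : ∀ j, 0 < s j * s' j) : orbSet σ M s = orbSet σ M s' := by
  have key : ∀ {a b c : ℝ}, 0 < a * b → 0 < a * c → 0 < b * c := by
    intro a b c h1 h2
    have h3 : 0 < (a * b) * (a * c) := mul_pos h1 h2
    have h4 : (a * b) * (a * c) = (a * a) * (b * c) := by ring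
    rw [h4] at h3
    have h5 : 0 < a * a := by
      have ha : a ≠ 0 := by
        intro h0
        rw [h0, zero_mul] at h1
        exact lt_irrefl _ h1
      exact mul_self_pos.2 ha
    exact (pos_iff_pos_of_mul_pos h3).1 h5
  ext y
  constructor
  · rintro ⟨t, ht, hy⟩
    exact ⟨t, fun j => key (h j) (ht j), hy⟩
  · rintro ⟨t, ht, hy⟩
    exact ⟨t, fun j => key (by rw [mul_comm]; exact h j) (ht j), hy⟩

theorem orbSet_cM {σ : Fin (d + 1) ≃ (K →+* ℝ)} {M : Submodule ℤ K} {s : Fin (d + 1) → ℝ}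
    {c : K} (hc : c ≠ 0) : orbSet σ (cM c M) s = orbSet σ M (s * emb σ c) := by
  have hσ : ∀ j, 0 < σ j c * σ j c := fun j => mul_self_pos.2 ((map_ne_zero (σ j)).2 hc)
  have hinv : emb σ c * (emb σ c)⁻¹ = 1 := by
    funext j
    exact mul_inv_cancel₀ ((map_ne_zero (σ j)).2 hc)
  ext y
  constructor
  · rintro ⟨t, ht, hy⟩
    refine ⟨emb σ c * t, fun j => ?_, ?_⟩
    · have : (s * emb σ c) j * (emb σ c * t) j = (s j * t j) * (σ j c * σ j c) := by
        simp only [Pi.mul_apply, emb_apply]; ring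
      rw [this]
      exact mul_pos (ht j) (hσ j)
    · rw [hy, embLat_cM, scaleLat_scaleLat]
  · rintro ⟨t, ht, hy⟩
    refine ⟨(emb σ c)⁻¹ * t, fun j => ?_, ?_⟩
    · have h1 : (s * emb σ c) j * t j = (s j * ((emb σ c)⁻¹ * t) j) * (σ j c * σ j c) := by
        simp only [Pi.mul_apply, emb_apply, Pi.inv_apply]
        have := (map_ne_zero (σ j)).2 hc
        field_simp
      have h2 := ht j
      rw [h1] at h2
      exact (pos_iff_pos_of_mul_pos h2).2 (hσ j)
    · rw [hy, embLat_cM, scaleLat_scaleLat, ← mul_assoc, hinv, one_mul]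

/-- The diagonal orbit of a point over `σ(M)` is the set of all points over `σ(M)` with the same
signs. -/
theorem range_orbitMap {σ : Fin (d + 1) ≃ (K →+* ℝ)} {m : LatticeBasis (d + 1) K}
    {x : ModSpace (d + 1)} {t : Fin (d + 1) → ℝ} (ht : ∀ j, t j ≠ 0)
    (hx : lat x = scaleLat (embLat σ m.lattice) t) :
    Set.range (orbitMap x) = orbSet σ m.lattice t := by
  ext y
  constructor
  · rintro ⟨u, rfl⟩
    refine ⟨t * aVec u, fun j => ?_, ?_⟩
    · rw [Pi.mul_apply, ← mul_assoc]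
      exact mul_pos (mul_self_pos.2 (ht j)) (aVec_pos u j)
    · rw [lat_orbitMap, hx, scaleLat_scaleLat]
  · rintro ⟨t', ht', hy⟩
    have hq : ∀ j, 0 < (t' / t) j := by
      intro j
      rw [Pi.div_apply]
      have h1 := ht' j
      have h2 : t j * t' j = (t' j / t j) * (t j * t j) := by
        have := ht j
        field_simp
      rw [h2] at h1
      exact (pos_iff_pos_of_mul_pos h1).2 (mul_self_pos.2 (ht j))
    have hprod : ∏ j, (t' / t) j = 1 := by
      have e1 := abs_prod_mul_covol hx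
      have e2 := abs_prod_mul_covol hy
      have e3 : |∏ j, t' j| = |∏ j, t j| :=
        mul_right_cancel₀ (covol_pos m σ).ne' (e2.trans e1.symm)
      have e4 : |∏ j, (t' / t) j| = 1 := by
        simp only [Pi.div_apply]
        rw [Finset.prod_div_distrib, abs_div, e3, div_self]
        rw [abs_ne_zero]
        exact Finset.prod_ne_zero_iff.2 fun j _ => ht j
      rwa [abs_of_pos (Finset.prod_pos fun j _ => hq j)] at e4
    have ha := eq_aVec hq hprod
    refine ⟨fun i => Real.log ((t' / t) i.castSucc), ?_⟩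
    apply lat_injective
    rw [lat_orbitMap, ← ha, hx, hy, scaleLat_scaleLat]
    congr 1
    funext j
    rw [Pi.mul_apply, Pi.div_apply, mul_div_cancel₀ _ (ht j)]

theorem lat_ne_bot_of (m : LatticeBasis (d + 1) K) : m.lattice ≠ ⊥ := by
  intro h
  have h1 := vec_mem m 0
  rw [h] at h1
  exact vec_ne_zero m 0 ((Submodule.mem_bot ℤ).1 h1)

theorem cM_eq_iff {m : LatticeBasis n K} {e : K} (he : e ≠ 0) :
    cM e m.lattice = m.lattice ↔ e ∈ multiplierOrder m ∧ e⁻¹ ∈ multiplierOrder m := by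
  constructor
  · intro h
    constructor
    · intro x hx
      have : e * x ∈ cM e m.lattice := mem_cM.2 ⟨x, hx, rfl⟩
      rwa [h] at this
    · intro x hx
      rw [← h] at hx
      exact (mem_cM' he).1 hx
  · rintro ⟨h1, h2⟩
    ext x
    rw [mem_cM' he]
    constructor
    · intro hx
      have := h1 _ hx
      rwa [mul_inv_cancel_left₀ he] at this
    · intro hx
      exact h2 x hx

/-- Multiplication by a unit of the multiplier order has norm `±1`. -/
theorem abs_prod_unit {σ : Fin (d + 1) ≃ (K →+* ℝ)} {m : LatticeBasis (d + 1) K} {e : K}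
    (h : cM e m.lattice = m.lattice) : |∏ j, σ j e| = 1 := by
  have h1 : scaleLat (rowLat (embMatrix m σ)) (emb σ e) = rowLat (embMatrix m σ) := by
    rw [← embLat_lattice, ← embLat_cM, h]
  rw [rowLat_scale] at h1
  have h2 := abs_det_eq_of_rowLat_eq h1
  rw [Matrix.det_mul, Matrix.det_diagonal, abs_mul] at h2
  have h3 := abs_pos.2 (det_embMatrix_ne_zero m σ)
  have h4 := mul_left_cancel₀ h3.ne' (h2.trans (mul_one _).symm)
  exact h4

/-- The periods of the diagonal orbit of a point over `σ(M)`. -/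
theorem mem_periods {σ : Fin (d + 1) ≃ (K →+* ℝ)} {m : LatticeBasis (d + 1) K}
    {x : ModSpace (d + 1)} {t : Fin (d + 1) → ℝ} (ht : ∀ j, t j ≠ 0)
    (hx : lat x = scaleLat (embLat σ m.lattice) t) {u : Fin d → ℝ} :
    u ∈ periods x ↔ ∃ e : K, cM e m.lattice = m.lattice ∧ ∀ j, σ j e = aVec u j := by
  constructor
  · intro hu
    have h1 : orbitMap x u = x := hu
    have h2 : scaleLat (embLat σ m.lattice) (t * aVec u) = scaleLat (embLat σ m.lattice) t := by
      rw [← scaleLat_scaleLat, ← hx, ← lat_orbitMap, h1]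
    obtain ⟨e, he0, he, hM⟩ := exists_scalar
      (fun j => mul_ne_zero (ht j) (aVec_pos u j).ne') ht (lat_ne_bot_of m) h2
    refine ⟨e, hM, fun j => ?_⟩
    have h3 : σ j e * t j = t j * aVec u j := he j
    rw [mul_comm] at h3
    exact mul_left_cancel₀ (ht j) h3
  · rintro ⟨e, hM, he⟩
    show orbitMap x u = x
    apply lat_injective
    have h1 : emb σ e = aVec u := funext he
    rw [lat_orbitMap, hx, scaleLat_scaleLat, mul_comm, ← scaleLat_scaleLat, ← h1, ← embLat_cM, hM]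

/-- The periods in terms of totally positive units of the multiplier order. -/
theorem mem_periods_iff {σ : Fin (d + 1) ≃ (K →+* ℝ)} {m : LatticeBasis (d + 1) K}
    {x : ModSpace (d + 1)} {t : Fin (d + 1) → ℝ} (ht : ∀ j, t j ≠ 0)
    (hx : lat x = scaleLat (embLat σ m.lattice) t) {u : Fin d → ℝ} :
    u ∈ periods x ↔ ∃ e : K, e ∈ multiplierOrder m ∧ e⁻¹ ∈ multiplierOrder m ∧
      (∀ j, 0 < σ j e) ∧ ∀ i : Fin d, u i = Real.log (σ i.castSucc e) := by
  rw [mem_periods ht hx]
  constructor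
  · rintro ⟨e, hM, he⟩
    have hpos : ∀ j, 0 < σ j e := fun j => by rw [he j]; exact aVec_pos u j
    have he0 : e ≠ 0 := by
      intro h
      have := hpos 0
      rw [h, map_zero] at this
      exact lt_irrefl _ this
    obtain ⟨h1, h2⟩ := (cM_eq_iff he0).1 hM
    refine ⟨e, h1, h2, hpos, fun i => ?_⟩
    rw [he, aVec_castSucc, Real.log_exp]
  · rintro ⟨e, h1, h2, hpos, hu⟩
    have he0 : e ≠ 0 := by
      intro h
      have := hpos 0
      rw [h, map_zero] at this
      exact lt_irrefl _ this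
    have hM := (cM_eq_iff he0).2 ⟨h1, h2⟩
    have hprod : ∏ j, emb σ e j = 1 := by
      have := abs_prod_unit (σ := σ) hM
      rwa [abs_of_pos (Finset.prod_pos fun j _ => hpos j)] at this
    have h3 := eq_aVec (t := emb σ e) hpos hprod
    have h4 : u = fun i => Real.log (emb σ e i.castSucc) := funext hu
    rw [← h4] at h3
    exact ⟨e, hM, fun j => congrFun h3 j⟩

/-- Same diagonal orbit iff homothetic by a scalar with the right signs. -/
theorem mem_orbit_iff {σ : Fin (d + 1) ≃ (K →+* ℝ)} {m m' : LatticeBasis (d + 1) K}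
    {x x' : ModSpace (d + 1)} {t t' : Fin (d + 1) → ℝ} (ht : ∀ j, t j ≠ 0)
    (ht' : ∀ j, t' j ≠ 0) (hx : lat x = scaleLat (embLat σ m.lattice) t)
    (hx' : lat x' = scaleLat (embLat σ m'.lattice) t') :
    x' ∈ Set.range (orbitMap x) ↔
      ∃ c : K, cM c m.lattice = m'.lattice ∧ ∀ j, 0 < t j * (σ j c * t' j) := by
  rw [range_orbitMap ht hx]
  constructor
  · rintro ⟨s, hs, hx2⟩
    have hs0 : ∀ j, s j ≠ 0 := fun j h => by
      have := hs j
      rw [h, mul_zero] at this
      exact lt_irrefl _ this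
    obtain ⟨c, hc0, hc, hM⟩ := exists_scalar hs0 ht' (lat_ne_bot_of m) (hx2.symm.trans hx')
    exact ⟨c, hM, fun j => by rw [hc j]; exact hs j⟩
  · rintro ⟨c, hM, hc⟩
    refine ⟨emb σ c * t', hc, ?_⟩
    rw [hx', ← hM, embLat_cM, scaleLat_scaleLat]

/-! ### Local homothety -/

theorem lh_refl (m : LatticeBasis n K) : LocallyHomothetic m m := by
  intro ℓ hℓ
  refine ⟨1, one_ne_zero, 1, fun h => hℓ.one_lt.ne' (Nat.dvd_one.1 h), fun x hx => ⟨x, hx, ?_⟩,
    fun x hx => ?_⟩
  · simp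
  · simpa using hx

theorem lh_symm {m m' : LatticeBasis n K} (h : LocallyHomothetic m m') :
    LocallyHomothetic m' m := by
  intro ℓ hℓ
  obtain ⟨c, hc, N, hN, h1, h2⟩ := h ℓ hℓ
  refine ⟨c⁻¹, inv_ne_zero hc, N, hN, fun x hx => ⟨_, h2 x hx, ?_⟩, fun x hx => ?_⟩
  · field_simp
  · obtain ⟨y, hy, hxy⟩ := h1 x hx
    have : (N : K) * (c⁻¹ * x) = y := by
      rw [mul_left_comm, hxy, inv_mul_cancel_left₀ hc]
    rw [this]
    exact hy

theorem lh_trans {m m' m'' : LatticeBasis n K} (h : LocallyHomothetic m m')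
    (h' : LocallyHomothetic m' m'') : LocallyHomothetic m m'' := by
  intro ℓ hℓ
  obtain ⟨c, hc, N, hN, h1, h2⟩ := h ℓ hℓ
  obtain ⟨c', hc', N', hN', h1', h2'⟩ := h' ℓ hℓ
  refine ⟨c' * c, mul_ne_zero hc' hc, N' * N, ?_, fun x hx => ?_, fun x hx => ?_⟩
  · intro h
    rcases (Nat.Prime.dvd_mul hℓ).1 h with h | h
    · exact hN' h
    · exact hN h
  · obtain ⟨y, hy, hxy⟩ := h1' x hx
    obtain ⟨z, hz, hyz⟩ := h1 y hy
    refine ⟨z, hz, ?_⟩
    push_cast
    calc ((N' : K) * N) * x = N * ((N' : K) * x) := by ring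
      _ = c' * ((N : K) * y) := by rw [hxy]; ring
      _ = c' * c * z := by rw [hyz]; ring
  · have := h2' _ (h2 x hx)
    push_cast
    have e : (N' : K) * N * (c' * c * x) = (N' : K) * (c' * ((N : K) * (c * x))) := by ring
    rw [e]
    exact this

theorem lh_of_cM {m m' : LatticeBasis n K} {c : K} (hc : c ≠ 0)
    (h : cM c m.lattice = m'.lattice) : LocallyHomothetic m m' := by
  intro ℓ hℓ
  refine ⟨c, hc, 1, fun h => hℓ.one_lt.ne' (Nat.dvd_one.1 h), fun x hx => ?_, fun x hx => ?_⟩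
  · rw [← h] at hx
    obtain ⟨y, hy, hyx⟩ := mem_cM.1 hx
    exact ⟨y, hy, by simp [hyx]⟩
  · rw [← h, Nat.cast_one, one_mul]
    exact mem_cM.2 ⟨x, hx, rfl⟩

theorem lh_congr {m m' m'' : LatticeBasis n K} (h : LocallyHomothetic m m')
    (h' : m'.lattice = m''.lattice) : LocallyHomothetic m m'' :=
  lh_trans h (lh_of_cM one_ne_zero (by rw [cM_one]; exact h'))

/-- An element which is a multiple-prime-to-every-prime away from a submodule is in it. -/
theorem mem_of_forall_prime {M : Submodule ℤ K} {x : K}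
    (h : ∀ ℓ : ℕ, ℓ.Prime → ∃ N : ℕ, ¬ ℓ ∣ N ∧ (N : K) * x ∈ M) : x ∈ M := by
  by_contra hx
  let I : Ideal ℤ := M.comap (LinearMap.toSpanSingleton ℤ K x)
  have hI : ∀ k : ℤ, k ∈ I ↔ (k : K) * x ∈ M := by
    intro k
    show k • x ∈ M ↔ _
    rw [zsmul_eq_mul]
  have hne : I ≠ ⊤ := by
    intro ht
    apply hx
    have h1 : (1 : ℤ) ∈ I := by rw [ht]; trivial
    rw [hI] at h1
    simpa using h1
  obtain ⟨g, hg⟩ : ∃ g : ℤ, I = Ideal.span {g} := (IsPrincipalIdealRing.principal I).principal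
  have hg1 : ¬ IsUnit g := fun hu => hne (by rw [hg]; exact Ideal.span_singleton_eq_top.2 hu)
  have hg2 : g.natAbs ≠ 1 := fun h => hg1 (Int.isUnit_iff_natAbs_eq.2 h)
  obtain ⟨ℓ, hℓ, hdvd⟩ := Nat.exists_prime_and_dvd hg2
  obtain ⟨N, hN, hNx⟩ := h ℓ hℓ
  have h2 : (N : ℤ) ∈ I := by rw [hI]; exact_mod_cast hNx
  rw [hg, Ideal.mem_span_singleton] at h2
  apply hN
  have h3 : g.natAbs ∣ N := by
    have := Int.natAbs_dvd_natAbs.2 h2
    simpa using this
  exact hdvd.trans h3

theorem mult_le_of_lh {m m' : LatticeBasis n K} (h : LocallyHomothetic m m') :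
    multiplierOrder m ≤ multiplierOrder m' := by
  intro a ha x hx
  apply mem_of_forall_prime
  intro ℓ hℓ
  obtain ⟨c, hc, N, hN, h1, h2⟩ := h ℓ hℓ
  obtain ⟨y, hy, hxy⟩ := h1 x hx
  refine ⟨N * N, fun h => ?_, ?_⟩
  · rcases (Nat.Prime.dvd_mul hℓ).1 h with h | h <;> exact hN h
  · have h3 := h2 _ (ha y hy)
    have e : ((N * N : ℕ) : K) * (a * x) = (N : K) * (c * (a * y)) := by
      push_cast
      calc (N : K) * N * (a * x) = N * (a * ((N : K) * x)) := by ring
        _ = N * (c * (a * y)) := by rw [hxy]; ring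
    rw [e]
    exact h3

theorem mult_eq_of_lh {m m' : LatticeBasis n K} (h : LocallyHomothetic m m') :
    multiplierOrder m = multiplierOrder m' :=
  le_antisymm (mult_le_of_lh h) (mult_le_of_lh (lh_symm h))

/-! ### Sign-twisted points -/

/-- The scaling vector of a sign-twisted lattice point. -/
def twist (m : LatticeBasis (d + 1) K) (σ : Fin (d + 1) ≃ (K →+* ℝ)) (w : SLR (d + 1)) :
    Fin (d + 1) → ℝ := fun j => nrm m σ * signVec w j

/-- The lattice of a sign-twisted lattice point. -/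
theorem lat_act_latticePoint (m : LatticeBasis (d + 1) K) (σ : Fin (d + 1) ≃ (K →+* ℝ))
    {w : SLR (d + 1)} (hw : IsSignMatrix w) :
    lat (act (latticePoint m σ) w) = scaleLat (embLat σ m.lattice) (twist m σ w) := by
  rw [lat_act_sign _ hw, lat_latticePoint, scaleLat_scaleLat]
  rfl

theorem twist_ne_zero (m : LatticeBasis (d + 1) K) (σ : Fin (d + 1) ≃ (K →+* ℝ))
    {w : SLR (d + 1)} (hw : IsSignMatrix w) (j : Fin (d + 1)) : twist m σ w j ≠ 0 :=
  mul_ne_zero (nrm_pos m σ).ne' (signVec_ne_zero hw j)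

theorem range_orbitMap_twist (m : LatticeBasis (d + 1) K) (σ : Fin (d + 1) ≃ (K →+* ℝ))
    {w : SLR (d + 1)} (hw : IsSignMatrix w) :
    Set.range (orbitMap (act (latticePoint m σ) w)) = orbSet σ m.lattice (signVec w) := by
  rw [range_orbitMap (twist_ne_zero m σ hw) (lat_act_latticePoint m σ hw)]
  apply orbSet_congr
  intro j
  have h1 : twist m σ w j * signVec w j = nrm m σ * (signVec w j * signVec w j) := by
    unfold twist
    ring
  rw [h1]
  exact mul_pos (nrm_pos m σ) (mul_self_pos.2 (signVec_ne_zero hw j))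

/-- (P1) the periods of the orbits of a packet. -/
theorem mem_periods_twist (m : LatticeBasis (d + 1) K) (σ : Fin (d + 1) ≃ (K →+* ℝ))
    {w : SLR (d + 1)} (hw : IsSignMatrix w) {u : Fin d → ℝ} :
    u ∈ periods (act (latticePoint m σ) w) ↔
      ∃ e : K, e ∈ multiplierOrder m ∧ e⁻¹ ∈ multiplierOrder m ∧
        (∀ j, 0 < σ j e) ∧ ∀ i : Fin d, u i = Real.log (σ i.castSucc e) :=
  mem_periods_iff (twist_ne_zero m σ hw) (lat_act_latticePoint m σ hw)

end

end Crest.Agent.R014.Pk2_349
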