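import Crest.Agent.R014.Cnf1_652
import Crest.Agent.R014.Pk2_349
import Crest.Agent.R014.BoxV_71

/-!
Class number formula for the packet volume (row 14), helper652.

Part 2: the packet of the maximal order has at least `classNumber K` orbits; its total volume is at
least `classNumber K * regulator K`.
-/

namespace Crest.Agent.R014.Cnf_652

open Crest.NumberTheoryR.Packets Crest.Agent.R014.Sl_652 Module NumberField MeasureTheory
open NumberField.Units Pointwise nonZeroDivisors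

variable {K : Type*} [Field K] [NumberField K] {n d : ℕ}

/-! ### Ideals as lattices -/

/-- An ideal of the ring of integers as a `ℤ`-submodule of `K`. -/
def idSub (I : Ideal (𝓞 K)) : Submodule ℤ K :=
  (I.restrictScalars ℤ).map ((Algebra.linearMap (𝓞 K) K).restrictScalars ℤ)

omit [NumberField K] in
theorem mem_idSub {I : Ideal (𝓞 K)} {x : K} :
    x ∈ idSub I ↔ ∃ y ∈ I, algebraMap (𝓞 K) K y = x := Iff.rfl

omit [NumberField K] in
theorem coe_mem_idSub {I : Ideal (𝓞 K)} {y : 𝓞 K} :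
    algebraMap (𝓞 K) K y ∈ idSub I ↔ y ∈ I := by
  constructor
  · intro h0
    obtain ⟨z, hz, h⟩ := mem_idSub.mp h0
    have : z = y := RingOfIntegers.coe_injective h
    rw [← this]; exact hz
  · intro h; exact ⟨y, h, rfl⟩

theorem idSub_fg (I : Ideal (𝓞 K)) : (idSub I).FG := by
  have h : IsNoetherian ℤ (𝓞 K) := inferInstance
  exact Submodule.FG.map _ (h.noetherian _)

theorem exists_mul_mem_idSub {I : Ideal (𝓞 K)} (hI : I ≠ ⊥) (x : K) :
    ∃ N : ℕ, N ≠ 0 ∧ (N : K) * x ∈ idSub I := by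
  obtain ⟨o, ho, -⟩ := maxBasis_exists (K := K) rfl
  obtain ⟨N, hN0, hN⟩ := exists_mul_mem o x
  have hint2 : IsIntegral ℤ ((N : K) * x) := (ho _).mp hN
  refine ⟨Ideal.absNorm I * N, mul_ne_zero ?_ hN0, ?_⟩
  · rwa [Ne, Ideal.absNorm_eq_zero_iff]
  · let z : 𝓞 K := ⟨(N : K) * x, hint2⟩
    refine ⟨(Ideal.absNorm I : 𝓞 K) * z, ?_, ?_⟩
    · exact I.mul_mem_right _ (Ideal.absNorm_mem I)
    · change ((Ideal.absNorm I : 𝓞 K) : K) * ((N : K) * x) = _
      push_cast
      ring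

theorem exists_idBasis (hn : finrank ℚ K = n) {I : Ideal (𝓞 K)} (hI : I ≠ ⊥) :
    ∃ m : LatticeBasis n K, m.lattice = idSub I :=
  exists_latticeBasis hn _ (idSub_fg I) (exists_mul_mem_idSub hI)

/-! ### Local principality -/

/-- Every nonzero ideal is, up to a nonzero element, equal to the unit ideal at a given prime. -/
theorem exists_local_generator {I : Ideal (𝓞 K)} (hI : I ≠ ⊥) {ℓ : ℕ} (hℓ : ℓ.Prime) :
    ∃ c : 𝓞 K, c ≠ 0 ∧ c ∈ I ∧ ∃ N : ℕ, ¬ ℓ ∣ N ∧ ∀ x ∈ I, ∃ y : 𝓞 K, (N : 𝓞 K) * x = c * y := by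
  have hℓ0 : (ℓ : 𝓞 K) ≠ 0 := by exact_mod_cast hℓ.ne_zero
  have hle : Ideal.span {(ℓ : 𝓞 K)} * I ≤ I := Ideal.mul_le_right
  have hne : Ideal.span {(ℓ : 𝓞 K)} * I ≠ 0 := by
    rw [Ne, Ideal.zero_eq_bot, Ideal.mul_eq_bot, not_or, Ideal.span_singleton_eq_bot]
    exact ⟨hℓ0, hI⟩
  obtain ⟨a, ha⟩ := IsDedekindDomain.exists_sup_span_eq hle hne
  have haI : a ∈ I := by
    rw [← ha]
    exact Ideal.mem_sup_right (Ideal.mem_span_singleton_self a)
  obtain ⟨b, hb⟩ := Ideal.dvd_iff_le.mpr ((Ideal.span_singleton_le_iff_mem (I := I)).mpr haI)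
  -- `b` is coprime to `ℓ`
  have hcop : Ideal.span {(ℓ : 𝓞 K)} ⊔ b = ⊤ := by
    rw [hb, mul_comm (Ideal.span _) I, ← Ideal.mul_sup] at ha
    have h1 : I * (Ideal.span {(ℓ : 𝓞 K)} ⊔ b) = I * ⊤ := by rw [ha, Ideal.mul_top]
    exact mul_left_cancel₀ (by rwa [Ideal.zero_eq_bot]) h1
  have hb0 : b ≠ ⊥ := by
    rintro rfl
    rw [sup_bot_eq, Ideal.span_singleton_eq_top] at hcop
    obtain ⟨z, hz⟩ := hcop.exists_right_inv
    have hzK : (ℓ : K) * algebraMap (𝓞 K) K z = 1 := by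
      have := congrArg (algebraMap (𝓞 K) K) hz
      simpa using this
    have hℓK : (ℓ : K) ≠ 0 := by exact_mod_cast hℓ.ne_zero
    have hz2 : algebraMap (𝓞 K) K z = algebraMap ℚ K (1 / (ℓ : ℚ)) := by
      rw [eq_comm, map_div₀, map_one, map_natCast, div_eq_iff hℓK, ← hzK, mul_comm]
    have hint : IsIntegral ℤ (algebraMap ℚ K (1 / (ℓ : ℚ))) := by
      rw [← hz2]; exact z.2
    have hint' : IsIntegral ℤ (1 / (ℓ : ℚ)) :=
      (isIntegral_algebraMap_iff (algebraMap ℚ K).injective).mp hint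
    obtain ⟨k, hk⟩ := IsIntegrallyClosed.isIntegral_iff.mp hint'
    have hℓQ : (ℓ : ℚ) ≠ 0 := by exact_mod_cast hℓ.ne_zero
    rw [eq_div_iff hℓQ] at hk
    have hk2 : k * (ℓ : ℤ) = 1 := by
      have : ((k * (ℓ : ℤ) : ℤ) : ℚ) = ((1 : ℤ) : ℚ) := by push_cast; simpa using hk
      exact_mod_cast this
    have hk3 : IsUnit (ℓ : ℤ) := IsUnit.of_mul_eq_one_right k hk2
    rw [Int.isUnit_iff_natAbs_eq] at hk3
    simp at hk3
    exact hℓ.one_lt.ne' hk3
  have ha0 : a ≠ 0 := by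
    rintro rfl
    rw [Ideal.span_singleton_eq_bot.mpr rfl, eq_comm, Ideal.mul_eq_bot] at hb
    rcases hb with h | h
    · exact hI h
    · exact hb0 h
  -- an integer of `b` prime to `ℓ`
  set N0 := Ideal.absNorm b with hN0
  have hN00 : N0 ≠ 0 := by rwa [hN0, Ne, Ideal.absNorm_eq_zero_iff]
  obtain ⟨k, N1, hN1, hN⟩ := Nat.exists_eq_pow_mul_and_not_dvd hN00 ℓ hℓ.ne_one
  have hcopk : IsCoprime (Ideal.span {(ℓ : 𝓞 K)} ^ k) b :=
    IsCoprime.pow_left (Ideal.isCoprime_iff_sup_eq.mpr hcop)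
  have hN1b : (N1 : 𝓞 K) ∈ b := by
    rw [Ideal.isCoprime_iff_sup_eq] at hcopk
    have h1 : (1 : 𝓞 K) ∈ Ideal.span {(ℓ : 𝓞 K)} ^ k ⊔ b := by rw [hcopk]; trivial
    obtain ⟨u, hu, v, hv, huv⟩ := Submodule.mem_sup.mp h1
    rw [Ideal.span_singleton_pow, Ideal.mem_span_singleton] at hu
    obtain ⟨z, hz⟩ := hu
    have h2 : (N1 : 𝓞 K) = (N0 : 𝓞 K) * z + v * N1 := by
      have h3 : (N0 : 𝓞 K) = (ℓ : 𝓞 K) ^ k * N1 := by rw [hN]; push_cast; rfl
      rw [h3]
      calc (N1 : 𝓞 K) = (u + v) * N1 := by rw [huv, one_mul]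
        _ = _ := by rw [hz]; ring
    rw [h2]
    exact b.add_mem (b.mul_mem_right _ (Ideal.absNorm_mem b)) (b.mul_mem_right _ hv)
  refine ⟨a, ha0, haI, N1, hN1, fun x hx => ?_⟩
  have h1 : (N1 : 𝓞 K) * x ∈ I * b := by
    rw [mul_comm (N1 : 𝓞 K) x]
    exact Ideal.mul_mem_mul hx hN1b
  rw [← hb, Ideal.mem_span_singleton] at h1
  exact h1

/-- Every ideal lattice is locally homothetic to the maximal order. -/
theorem locallyHomothetic_ideal {mO m : LatticeBasis n K} (hO : mO.IsMaximalOrder)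
    {I : Ideal (𝓞 K)} (hI : I ≠ ⊥) (hm : m.lattice = idSub I) : LocallyHomothetic mO m := by
  intro ℓ hℓ
  obtain ⟨c, hc0, hcI, N, hN, h⟩ := exists_local_generator hI hℓ
  have hcK : algebraMap (𝓞 K) K c ≠ 0 := RingOfIntegers.coe_ne_zero_iff.mpr hc0
  refine ⟨algebraMap (𝓞 K) K c, hcK, N, hN, ?_, ?_⟩
  · intro x hx
    rw [hm] at hx
    obtain ⟨y, hy, rfl⟩ := mem_idSub.mp hx
    obtain ⟨z, hz⟩ := h y hy
    refine ⟨algebraMap (𝓞 K) K z, (hO _).mpr z.2, ?_⟩
    rw [← map_mul, ← hz, map_mul, map_natCast]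
  · intro x hx
    rw [hm]
    let y : 𝓞 K := ⟨x, (hO x).mp hx⟩
    have hy : algebraMap (𝓞 K) K y = x := rfl
    refine mem_idSub.mpr ⟨(N : 𝓞 K) * (c * y), I.mul_mem_left _ (I.mul_mem_right _ hcI), ?_⟩
    rw [map_mul, map_mul, map_natCast, hy]

/-! ### Distinct classes give distinct orbits -/

theorem mk0_eq_of_cM {I J : (Ideal (𝓞 K))⁰} {c : K} (hc : c ≠ 0)
    (h : Pk2_349.cM c (idSub (I : Ideal (𝓞 K))) = idSub (J : Ideal (𝓞 K))) :
    ClassGroup.mk0 I = ClassGroup.mk0 J := by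
  obtain ⟨a, b, hb, hab⟩ := IsFractionRing.div_surjective (A := 𝓞 K) c
  have hb0 : b ≠ 0 := nonZeroDivisors.ne_zero hb
  have hbK : algebraMap (𝓞 K) K b ≠ 0 := RingOfIntegers.coe_ne_zero_iff.mpr hb0
  have hc' : c * algebraMap (𝓞 K) K b = algebraMap (𝓞 K) K a := by
    rw [← hab]
    exact div_mul_cancel₀ _ hbK
  have ha0 : a ≠ 0 := by
    rintro rfl
    rw [map_zero] at hc'
    exact mul_ne_zero hc hbK hc'
  rw [ClassGroup.mk0_eq_mk0_iff]
  refine ⟨a, b, ha0, hb0, ?_⟩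
  ext x
  rw [Ideal.mem_span_singleton_mul, Ideal.mem_span_singleton_mul]
  constructor
  · rintro ⟨z, hz, rfl⟩
    have h1 : c * algebraMap (𝓞 K) K z ∈ Pk2_349.cM c (idSub (I : Ideal (𝓞 K))) :=
      Pk2_349.mem_cM.mpr ⟨_, coe_mem_idSub.mpr hz, rfl⟩
    rw [h] at h1
    obtain ⟨y, hy, hyz⟩ := mem_idSub.mp h1
    refine ⟨y, hy, RingOfIntegers.coe_injective ?_⟩
    rw [map_mul, map_mul, hyz, ← hc']
    ring
  · rintro ⟨z, hz, rfl⟩
    have h1 : algebraMap (𝓞 K) K z ∈ idSub (J : Ideal (𝓞 K)) := coe_mem_idSub.mpr hz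
    rw [← h] at h1
    obtain ⟨w, hw, hyz⟩ := Pk2_349.mem_cM.mp h1
    obtain ⟨y, hy, rfl⟩ := mem_idSub.mp hw
    refine ⟨y, hy, RingOfIntegers.coe_injective ?_⟩
    rw [map_mul, map_mul, ← hyz, ← hc']
    ring

theorem isSignMatrix_one (n : ℕ) : IsSignMatrix (1 : SLR n) := by
  refine ⟨fun i j hij => ?_, fun i => Or.inl ?_⟩
  · exact Matrix.one_apply_ne hij
  · exact Matrix.one_apply_eq i

/-- The orbits of the packet of the maximal order: an injection of the class group. -/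
theorem exists_injection {mO : LatticeBasis (d + 1) K} (hO : mO.IsMaximalOrder)
    (σ : Fin (d + 1) ≃ (K →+* ℝ)) :
    ∃ f : ClassGroup (𝓞 K) → Set (ModSpace (d + 1)), Function.Injective f ∧
      ∀ C, f C ∈ packetOrbits mO σ := by
  have hn := finrank_eq mO
  choose I hI using ClassGroup.mk0_surjective (R := 𝓞 K)
  have hI0 : ∀ C, (I C : Ideal (𝓞 K)) ≠ ⊥ := fun C => nonZeroDivisors.coe_ne_zero _
  choose m hm using fun C => exists_idBasis hn (hI0 C)
  refine ⟨fun C => Set.range (orbitMap (act (latticePoint (m C) σ) 1)), ?_, fun C => ?_⟩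
  · intro C C' h
    have hw := isSignMatrix_one (d + 1)
    have h1 : act (latticePoint (m C') σ) 1 ∈
        Set.range (orbitMap (act (latticePoint (m C) σ) 1)) := by
      change Set.range (orbitMap (act (latticePoint (m C) σ) 1)) =
        Set.range (orbitMap (act (latticePoint (m C') σ) 1)) at h
      rw [h]
      exact ⟨0, BoxV_71.orbitMap_zero _⟩
    obtain ⟨c, hc, hpos⟩ := (Pk2_349.mem_orbit_iff (Pk2_349.twist_ne_zero (m C) σ hw)
      (Pk2_349.twist_ne_zero (m C') σ hw) (Pk2_349.lat_act_latticePoint (m C) σ hw)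
      (Pk2_349.lat_act_latticePoint (m C') σ hw)).mp h1
    have hc0 : c ≠ 0 := by
      rintro rfl
      have := hpos 0
      simp at this
    rw [hm, hm] at hc
    rw [← hI C, ← hI C']
    exact mk0_eq_of_cM hc0 hc
  · exact ⟨m C, locallyHomothetic_ideal hO (hI0 C) (hm C), 1, isSignMatrix_one _, rfl⟩

/-! ### Volume -/

theorem periods_le_logUnits {mO : LatticeBasis (d + 1) K}
    (σ : Fin (d + 1) ≃ (K →+* ℝ)) {x : ModSpace (d + 1)}
    (hx : Set.range (orbitMap x) ∈ packetOrbits mO σ) : periods x ≤ logUnits σ := by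
  obtain ⟨m', hm', w, hw, h⟩ := hx
  have h1 : x ∈ Set.range (orbitMap (act (latticePoint m' σ) w)) := by
    rw [← h]; exact ⟨0, BoxV_71.orbitMap_zero _⟩
  obtain ⟨v, hv⟩ := h1
  intro u hu
  have h2 : u ∈ periods (act (latticePoint m' σ) w) := by
    have h3 : orbitMap x u = x := hu
    rw [← hv, BoxV_71.orbitMap_add, BoxV_71.orbitMap_eq_iff] at h3
    simpa using h3
  obtain ⟨e, he1, he2, hpos, hlog⟩ := (Pk2_349.mem_periods_twist m' σ hw).mp h2
  have he0 : e ≠ 0 := by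
    rintro rfl
    have := hpos 0
    simp at this
  obtain ⟨a, ha⟩ : ∃ a : 𝓞 K, algebraMap (𝓞 K) K a = e := ⟨⟨e, order_isIntegral he1⟩, rfl⟩
  obtain ⟨b, hb⟩ : ∃ b : 𝓞 K, algebraMap (𝓞 K) K b = e⁻¹ := ⟨⟨e⁻¹, order_isIntegral he2⟩, rfl⟩
  have hab : a * b = 1 := by
    apply RingOfIntegers.coe_injective
    rw [map_mul, ha, hb, map_one, mul_inv_cancel₀ he0]
  let e' : (𝓞 K)ˣ := Units.mkOfMulEqOne a b hab
  refine mem_logUnits.mpr ⟨e', ?_⟩
  ext j
  rw [hlog j]
  change Real.log |σ j.castSucc (algebraMap (𝓞 K) K a)| = _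
  rw [ha, abs_of_pos (hpos _)]

/-- **Volume of the packet of the maximal order**: at least class number times regulator. -/
theorem classNumber_mul_regulator_le {mO : LatticeBasis (d + 1) K} (hO : mO.IsMaximalOrder)
    (σ : Fin (d + 1) ≃ (K →+* ℝ)) {k : ℕ} (x : Fin k → ModSpace (d + 1))
    (D : Fin k → Set (Fin d → ℝ))
    (hall : ∀ O, O ∈ packetOrbits mO σ ↔ ∃ i, O = Set.range (orbitMap (x i)))
    (hD : ∀ i, IsAddFundamentalDomain (periods (x i)) (D i) volume) :
    ENNReal.ofReal (classNumber K * regulator K) ≤ ∑ i, volume (D i) := by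
  obtain ⟨f, hf, hfm⟩ := exists_injection hO σ
  choose g hg using fun C => (hall _).mp (hfm C)
  have hgi : Function.Injective g := by
    intro C C' h
    apply hf
    rw [hg C, hg C', h]
  have hk : classNumber K ≤ k := by
    have := Fintype.card_le_of_injective g hgi
    rwa [Fintype.card_fin] at this
  have h1 : ∀ i, ENNReal.ofReal (regulator K) ≤ volume (D i) := fun i =>
    regulator_le_volume (finrank_eq mO) σ _
      (periods_le_logUnits σ ((hall _).mpr ⟨i, rfl⟩)) (hD i)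
  calc ENNReal.ofReal (classNumber K * regulator K)
      ≤ ENNReal.ofReal (k * regulator K) := by
        refine ENNReal.ofReal_le_ofReal ?_
        have := regulator_pos K
        gcongr
    _ = ∑ _i : Fin k, ENNReal.ofReal (regulator K) := by
        rw [Finset.sum_const, Finset.card_univ, Fintype.card_fin, nsmul_eq_mul,
          ENNReal.ofReal_mul (by positivity), ENNReal.ofReal_natCast]
    _ ≤ _ := Finset.sum_le_sum fun i _ => h1 i

/-! ### The residue of the zeta function -/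

theorem nrComplexPlaces_eq_zero (hn : finrank ℚ K = n) (σ : Fin n ≃ (K →+* ℝ)) :
    InfinitePlace.nrRealPlaces K = n ∧ InfinitePlace.nrComplexPlaces K = 0 := by
  have h1 := InfinitePlace.card_add_two_mul_card_eq_rank K
  have h2 := InfinitePlace.card_eq_nrRealPlaces_add_nrComplexPlaces K
  have h3 := Fintype.card_congr (plcEquiv hn σ)
  rw [Fintype.card_fin] at h3
  omega

/-- `h R ≥ 2^{-n} κ √|D|`. -/
theorem residue_le (hn : finrank ℚ K = n) (σ : Fin n ≃ (K →+* ℝ)) :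
    dedekindZeta_residue K * Real.sqrt |(discr K : ℝ)| / 2 ^ n ≤ classNumber K * regulator K := by
  obtain ⟨h1, h2⟩ := nrComplexPlaces_eq_zero hn σ
  have h3 : (0 : ℝ) < Real.sqrt |(discr K : ℝ)| :=
    Real.sqrt_pos_of_pos (abs_pos.mpr (Int.cast_ne_zero.mpr (discr_ne_zero K)))
  have h4 : (1 : ℝ) ≤ torsionOrder K := by
    exact_mod_cast torsionOrder_pos K
  rw [dedekindZeta_residue_def, h1, h2, pow_zero, mul_one]
  have h7 := regulator_pos K
  have h8 : (0 : ℝ) ≤ classNumber K := Nat.cast_nonneg _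
  have e : 2 ^ n * regulator K * (classNumber K : ℝ) / (torsionOrder K * Real.sqrt |(discr K : ℝ)|) *
      Real.sqrt |(discr K : ℝ)| / 2 ^ n = (classNumber K * regulator K) / torsionOrder K := by
    field_simp
  rw [e]
  exact div_le_self (mul_nonneg h8 h7.le) h4

/-- **Volume of the packet of the maximal order** and the residue of the zeta function. -/
theorem residue_mul_sqrt_le {mO : LatticeBasis (d + 1) K} (hO : mO.IsMaximalOrder)
    (σ : Fin (d + 1) ≃ (K →+* ℝ)) {k : ℕ} (x : Fin k → ModSpace (d + 1))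
    (D : Fin k → Set (Fin d → ℝ))
    (hall : ∀ O, O ∈ packetOrbits mO σ ↔ ∃ i, O = Set.range (orbitMap (x i)))
    (hD : ∀ i, IsAddFundamentalDomain (periods (x i)) (D i) volume) :
    ENNReal.ofReal (dedekindZeta_residue K * Real.sqrt |(discr K : ℝ)| / 2 ^ (d + 1)) ≤
      ∑ i, volume (D i) :=
  (ENNReal.ofReal_le_ofReal (residue_le (finrank_eq mO) σ)).trans
    (classNumber_mul_regulator_le hO σ x D hall hD)

/-- The multiplier order of the maximal order is the maximal order. -/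
theorem mem_multiplierOrder_max {mO : LatticeBasis n K} (hO : mO.IsMaximalOrder) {x : K} :
    x ∈ multiplierOrder mO ↔ IsIntegral ℤ x := by
  constructor
  · exact order_isIntegral
  · intro hx y hy
    rw [hO] at hy ⊢
    exact hx.mul hy

/-- The lattice discriminant of the maximal order. -/
theorem latticeDisc_max {mO : LatticeBasis n K} (hO : mO.IsMaximalOrder) :
    latticeDisc mO = |(discr K : ℝ)| := by
  have h : multiplierOrder mO = (integralClosure ℤ K).toSubring.toAddSubgroup := by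
    ext x
    exact mem_multiplierOrder_max hO
  rw [latticeDisc, h, AddSubgroup.relIndex_self]
  simp

end Crest.Agent.R014.Cnf_652
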