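import Mathlib

/-!
# Points of a lattice in a set, against the volume

`L` a full lattice in a finite dimensional real space, `B` a set with `L + B = E`; then
`vol S / covol L ≤ #((z + L) ∩ T)` if `S - B ⊆ T`, and `#((z + L) ∩ S) ≤ vol T / covol L` if
`S + B ⊆ T`.
-/

namespace Crest.Agent.R014.Cnt1_726

open MeasureTheory
open scoped ENNReal

section Abstract

variable {E : Type*} [NormedAddCommGroup E] [NormedSpace ℝ E] [FiniteDimensional ℝ E]
variable [MeasurableSpace E] [BorelSpace E] (μ : Measure E) [Measure.IsAddHaarMeasure μ]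
variable (L : Submodule ℤ E) [DiscreteTopology L] [IsZLattice ℝ L]

/-- number of points of `z + L` in `S`, as an extended nonnegative real -/
noncomputable def cnt (z : E) (S : Set E) : ℝ≥0∞ := ∑' l : L, S.indicator 1 (z + (l : E))

variable {L} in
omit [NormedSpace ℝ E] [FiniteDimensional ℝ E] [MeasurableSpace E] [BorelSpace E]
  [DiscreteTopology L] [IsZLattice ℝ L] in
theorem cnt_add_mem (z : E) (S : Set E) (l₀ : L) : cnt L (z + (l₀ : E)) S = cnt L z S := by
  unfold cnt
  rw [← (Equiv.addLeft l₀).tsum_eq (fun l : L => S.indicator (1 : E → ℝ≥0∞) (z + (l : E)))]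
  refine tsum_congr fun l => ?_
  simp [add_assoc]

omit [NormedSpace ℝ E] [FiniteDimensional ℝ E] [MeasurableSpace E] [BorelSpace E]
  [DiscreteTopology L] [IsZLattice ℝ L] in
theorem cnt_mono {z z' : E} {S T : Set E} (h : ∀ l ∈ L, z + l ∈ S → z' + l ∈ T) :
    cnt L z S ≤ cnt L z' T := by
  classical
  refine ENNReal.tsum_le_tsum fun l => ?_
  by_cases hl : z + (l : E) ∈ S
  · have := h l l.2 hl
    simp [hl, this]
  · simp [hl]

include μ in
theorem lintegral_cnt {F : Set E} (hF : IsAddFundamentalDomain L F μ) (z : E) {S : Set E}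
    (hS : MeasurableSet S) : ∫⁻ x in F, cnt L (z + x) S ∂μ = μ S := by
  have : MeasurableVAdd L E := (inferInstance : MeasurableVAdd L.toAddSubgroup E)
  have : VAddInvariantMeasure L E μ := (inferInstance : VAddInvariantMeasure L.toAddSubgroup E μ)
  have h1 := hF.lintegral_eq_tsum'' (fun x => S.indicator (1 : E → ℝ≥0∞) (z + x))
  have h2 : ∫⁻ x, S.indicator (1 : E → ℝ≥0∞) (z + x) ∂μ = μ S := by
    rw [lintegral_add_left_eq_self (fun x => S.indicator (1 : E → ℝ≥0∞) x) z,
      lintegral_indicator_one hS]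
  rw [← h2, h1]
  unfold cnt
  rw [lintegral_tsum]
  · refine tsum_congr fun l => ?_
    refine lintegral_congr fun x => ?_
    congr 1
    change z + x + (l : E) = z + ((l : E) + x)
    abel
  · intro l
    refine Measurable.aemeasurable ?_
    exact (measurable_one.indicator hS).comp (by fun_prop)

variable {B S T : Set E}

theorem measure_le_covolume_mul_cnt (hB : ∀ x : E, ∃ l ∈ L, x - l ∈ B) (hS : MeasurableSet S)
    (hST : ∀ s ∈ S, ∀ y ∈ B, s - y ∈ T) (z : E) :
    μ S ≤ ENNReal.ofReal (ZLattice.covolume L μ) * cnt L z T := by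
  have hF := ZLattice.isAddFundamentalDomain (Module.Free.chooseBasis ℤ L) μ
  rw [← lintegral_cnt μ L hF z hS]
  have hcov := ZLattice.covolume_eq_measure_fundamentalDomain L μ hF
  have hfin : μ (ZSpan.fundamentalDomain ((Module.Free.chooseBasis ℤ L).ofZLatticeBasis ℝ)) ≠ ⊤ :=
    ((ZSpan.fundamentalDomain_isBounded _).measure_lt_top).ne
  rw [hcov, Measure.real, ENNReal.ofReal_toReal hfin]
  calc ∫⁻ x in (ZSpan.fundamentalDomain ((Module.Free.chooseBasis ℤ L).ofZLatticeBasis ℝ)),
        cnt L (z + x) S ∂μ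
      ≤ ∫⁻ x in (ZSpan.fundamentalDomain ((Module.Free.chooseBasis ℤ L).ofZLatticeBasis ℝ)),
        cnt L z T ∂μ := by
        refine lintegral_mono fun x => ?_
        obtain ⟨l₀, hl₀, hx⟩ := hB x
        rw [← cnt_add_mem (L := L) z T (-⟨l₀, hl₀⟩)]
        have h3 : cnt L (z + x) S = cnt L (z + x + ((-(⟨l₀, hl₀⟩ : L) : L) : E)) S :=
          (cnt_add_mem (L := L) (z + x) S (-⟨l₀, hl₀⟩)).symm
        rw [← cnt_add_mem (L := L) (z + ((-(⟨l₀, hl₀⟩ : L) : L) : E)) T ⟨l₀, hl₀⟩, h3]
        refine cnt_mono (L := L) fun l hl h => ?_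
        have h4 := hST _ h _ hx
        convert h4 using 1
        simp
        abel
    _ = _ := by rw [lintegral_const, Measure.restrict_apply_univ, mul_comm]

theorem covolume_mul_cnt_le (hB : ∀ x : E, ∃ l ∈ L, x - l ∈ B) (hT : MeasurableSet T)
    (hST : ∀ s ∈ S, ∀ y ∈ B, s + y ∈ T) (z : E) :
    ENNReal.ofReal (ZLattice.covolume L μ) * cnt L z S ≤ μ T := by
  have hF := ZLattice.isAddFundamentalDomain (Module.Free.chooseBasis ℤ L) μ
  rw [← lintegral_cnt μ L hF z hT]
  have hcov := ZLattice.covolume_eq_measure_fundamentalDomain L μ hF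
  have hfin : μ (ZSpan.fundamentalDomain ((Module.Free.chooseBasis ℤ L).ofZLatticeBasis ℝ)) ≠ ⊤ :=
    ((ZSpan.fundamentalDomain_isBounded _).measure_lt_top).ne
  rw [hcov, Measure.real, ENNReal.ofReal_toReal hfin]
  calc μ (ZSpan.fundamentalDomain ((Module.Free.chooseBasis ℤ L).ofZLatticeBasis ℝ)) * cnt L z S
      = ∫⁻ x in (ZSpan.fundamentalDomain ((Module.Free.chooseBasis ℤ L).ofZLatticeBasis ℝ)),
        cnt L z S ∂μ := by rw [lintegral_const, Measure.restrict_apply_univ, mul_comm]
    _ ≤ _ := by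
        refine lintegral_mono fun x => ?_
        obtain ⟨l₀, hl₀, hx⟩ := hB x
        have h3 : cnt L (z + x) T = cnt L (z + x + ((-(⟨l₀, hl₀⟩ : L) : L) : E)) T :=
          (cnt_add_mem (L := L) (z + x) T (-⟨l₀, hl₀⟩)).symm
        change cnt L z S ≤ cnt L (z + x) T
        rw [h3]
        refine cnt_mono (L := L) fun l hl h => ?_
        have h4 := hST _ h _ hx
        convert h4 using 1
        simp
        abel

end Abstract

end Crest.Agent.R014.Cnt1_726
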