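import Mathlib

/-!
# Volume of the simplex and of the sets `{h | h_i ≤ c_i, ∑ h_i ≥ c}`
-/

namespace Crest.Agent.R014.Cnt2_726

open MeasureTheory
open scoped ENNReal

/-- the Riesz weight as a function of the logarithm -/
noncomputable def wt (r : ℕ) (Y : ℝ) : ℝ := if 0 ≤ Y then Y ^ r / (r.factorial : ℝ) else 0

theorem wt_nonneg (r : ℕ) (Y : ℝ) : 0 ≤ wt r Y := by
  unfold wt
  split_ifs with h
  · positivity
  · exact le_rfl

theorem wt_of_nonneg (r : ℕ) {Y : ℝ} (h : 0 ≤ Y) : wt r Y = Y ^ r / (r.factorial : ℝ) := if_pos h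

theorem wt_of_neg (r : ℕ) {Y : ℝ} (h : Y < 0) : wt r Y = 0 := if_neg (not_le.2 h)

theorem wt_mono (r : ℕ) {Y Y' : ℝ} (h : Y ≤ Y') : wt r Y ≤ wt r Y' := by
  rcases lt_or_ge Y 0 with h0 | h0
  · rw [wt_of_neg r h0]; exact wt_nonneg _ _
  · rw [wt_of_nonneg r h0, wt_of_nonneg r (h0.trans h)]
    gcongr

/-- the simplex -/
def spx (ι : Type*) [Fintype ι] (Y : ℝ) : Set (ι → ℝ) := {u | (∀ i, 0 ≤ u i) ∧ ∑ i, u i ≤ Y}

theorem measurableSet_spx (ι : Type*) [Fintype ι] (Y : ℝ) : MeasurableSet (spx ι Y) := by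
  refine MeasurableSet.inter ?_ ?_
  · have : {u : ι → ℝ | ∀ i, 0 ≤ u i} = ⋂ i, {u : ι → ℝ | 0 ≤ u i} := by ext; simp
    change MeasurableSet {u : ι → ℝ | ∀ i, 0 ≤ u i}
    rw [this]
    exact MeasurableSet.iInter fun i => measurableSet_le measurable_const (measurable_pi_apply i)
  · change MeasurableSet {u : ι → ℝ | ∑ i, u i ≤ Y}
    exact measurableSet_le (by fun_prop) measurable_const

theorem spx_eq_empty {ι : Type*} [Fintype ι] {Y : ℝ} (h : Y < 0) : spx ι Y = ∅ := by
  ext u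
  simp only [spx, Set.mem_ofPred_eq, Set.mem_empty_iff_false, iff_false, not_and, not_le]
  intro h0
  exact h.trans_le (Finset.sum_nonneg fun i _ => h0 i)

theorem volume_spx_fin (n : ℕ) : ∀ Y : ℝ, volume (spx (Fin n) Y) = ENNReal.ofReal (wt n Y) := by
  induction n with
  | zero =>
    intro Y
    rcases lt_or_ge Y 0 with h | h
    · rw [spx_eq_empty h, wt_of_neg 0 h]; simp
    · have : spx (Fin 0) Y = Set.univ := by
        ext u; simp [spx, h]
      rw [this, wt_of_nonneg 0 h]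
      simp [volume_pi]
  | succ n ih =>
    intro Y
    rcases lt_or_ge Y 0 with h | h
    · rw [spx_eq_empty h, wt_of_neg _ h]; simp
    have hmp := volume_preserving_piFinSuccAbove (fun _ : Fin (n + 1) => ℝ) 0
    have hset : spx (Fin (n + 1)) Y = (MeasurableEquiv.piFinSuccAbove (fun _ => ℝ) 0) ⁻¹'
        {p : ℝ × (Fin n → ℝ) | 0 ≤ p.1 ∧ p.2 ∈ spx (Fin n) (Y - p.1)} := by
      ext u
      simp only [spx, Set.mem_ofPred_eq, Set.mem_preimage, MeasurableEquiv.piFinSuccAbove_apply,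
        Fin.insertNthEquiv_zero, Fin.consEquiv_symm_apply, Fin.forall_fin_succ, Fin.sum_univ_succ,
        Fin.tail]
      constructor
      · rintro ⟨⟨h0, h1⟩, h2⟩
        exact ⟨h0, h1, by linarith⟩
      · rintro ⟨h0, h1, h2⟩
        exact ⟨⟨h0, h1⟩, by linarith⟩
    have hmeas : MeasurableSet {p : ℝ × (Fin n → ℝ) | 0 ≤ p.1 ∧ p.2 ∈ spx (Fin n) (Y - p.1)} := by
      refine (measurableSet_le measurable_const measurable_fst).inter ?_
      refine MeasurableSet.inter ?_ ?_
      · have : {p : ℝ × (Fin n → ℝ) | ∀ i, 0 ≤ p.2 i} = ⋂ i, {p | 0 ≤ p.2 i} := by ext; simp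
        change MeasurableSet {p : ℝ × (Fin n → ℝ) | ∀ i, 0 ≤ p.2 i}
        rw [this]
        exact MeasurableSet.iInter fun i => measurableSet_le measurable_const (by fun_prop)
      · change MeasurableSet {p : ℝ × (Fin n → ℝ) | ∑ i, p.2 i ≤ Y - p.1}
        exact measurableSet_le (by fun_prop) (by fun_prop)
    rw [hset, hmp.measure_preimage_equiv]
    change (volume.prod volume) _ = _
    rw [Measure.prod_apply hmeas]
    have h1 : ∀ s : ℝ, volume (Prod.mk s ⁻¹' {p : ℝ × (Fin n → ℝ) |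
        0 ≤ p.1 ∧ p.2 ∈ spx (Fin n) (Y - p.1)}) =
        (Set.Icc 0 Y).indicator (fun s => ENNReal.ofReal ((Y - s) ^ n / (n.factorial : ℝ))) s := by
      intro s
      by_cases hs : 0 ≤ s
      · have : Prod.mk s ⁻¹' {p : ℝ × (Fin n → ℝ) | 0 ≤ p.1 ∧ p.2 ∈ spx (Fin n) (Y - p.1)} =
            spx (Fin n) (Y - s) := by
          ext u; simp [hs]
        rw [this, ih]
        by_cases hs' : s ≤ Y
        · rw [Set.indicator_of_mem (Set.mem_Icc.2 ⟨hs, hs'⟩), wt_of_nonneg n (by linarith)]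
        · rw [Set.indicator_of_notMem (fun hh => hs' hh.2), wt_of_neg n (by linarith)]
          simp
      · have : Prod.mk s ⁻¹' {p : ℝ × (Fin n → ℝ) | 0 ≤ p.1 ∧ p.2 ∈ spx (Fin n) (Y - p.1)} = ∅ := by
          ext u; simp [hs]
        rw [this, Set.indicator_of_notMem (fun hh => hs hh.1)]
        simp
    simp_rw [h1]
    rw [lintegral_indicator measurableSet_Icc, ← ofReal_integral_eq_lintegral_ofReal]
    · rw [wt_of_nonneg _ h, integral_Icc_eq_integral_Ioc, ← intervalIntegral.integral_of_le h,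
        intervalIntegral.integral_comp_sub_left (fun s => s ^ n / (n.factorial : ℝ)) Y,
        intervalIntegral.integral_div, integral_pow]
      congr 1
      rw [Nat.factorial_succ]
      push_cast
      have h2 : (n.factorial : ℝ) ≠ 0 := by positivity
      have h3 : (n : ℝ) + 1 ≠ 0 := by positivity
      field_simp
      simp
    · refine Continuous.integrableOn_Icc ?_
      fun_prop
    · rw [Filter.EventuallyLE, ae_restrict_iff' measurableSet_Icc]
      refine Filter.Eventually.of_forall fun s hs => ?_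
      have : 0 ≤ Y - s := by linarith [hs.2]
      change (0 : ℝ) ≤ _
      positivity

theorem volume_spx {ι : Type*} [Fintype ι] (Y : ℝ) :
    volume (spx ι Y) = ENNReal.ofReal (wt (Fintype.card ι) Y) := by
  classical
  let e := (Fintype.equivFin ι).symm
  have hmp := volume_measurePreserving_piCongrLeft (fun _ : ι => ℝ) e
  rw [← volume_spx_fin, ← hmp.measure_preimage_equiv]
  congr 1
  ext u
  have hu : ∀ i, (MeasurableEquiv.piCongrLeft (fun _ : ι => ℝ) e) u i = u (e.symm i) := by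
    intro i
    obtain ⟨j, rfl⟩ := e.surjective i
    simp [MeasurableEquiv.piCongrLeft]
  simp only [spx, Set.mem_ofPred_eq, Set.mem_preimage, hu]
  have h1 : (∀ i : ι, 0 ≤ u (e.symm i)) ↔ ∀ j, 0 ≤ u j :=
    ⟨fun h j => by simpa using h (e j), fun h i => h _⟩
  rw [h1, Equiv.sum_comp e.symm]

/-- `{h | h_i ≤ a_i, b ≤ ∑ h_i}` -/
theorem volume_cut {ι : Type*} [Fintype ι] (a : ι → ℝ) (b : ℝ) :
    volume {h : ι → ℝ | (∀ i, h i ≤ a i) ∧ b ≤ ∑ i, h i} =
      ENNReal.ofReal (wt (Fintype.card ι) (∑ i, a i - b)) := by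
  rw [← volume_spx (ι := ι)]
  have hmp : MeasurePreserving (fun h : ι → ℝ => a - h) volume volume :=
    Measure.measurePreserving_sub_left volume a
  rw [← hmp.measure_preimage (measurableSet_spx ι _).nullMeasurableSet]
  congr 1
  ext h
  simp only [spx, Set.mem_ofPred_eq, Set.mem_preimage, Pi.sub_apply, sub_nonneg,
    Finset.sum_sub_distrib]
  constructor
  · rintro ⟨h1, h2⟩; exact ⟨h1, by linarith⟩
  · rintro ⟨h1, h2⟩; exact ⟨h1, by linarith⟩

theorem measurableSet_cut {ι : Type*} [Fintype ι] (a : ι → ℝ) (b : ℝ) :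
    MeasurableSet {h : ι → ℝ | (∀ i, h i ≤ a i) ∧ b ≤ ∑ i, h i} := by
  refine MeasurableSet.inter ?_ ?_
  · have : {u : ι → ℝ | ∀ i, u i ≤ a i} = ⋂ i, {u : ι → ℝ | u i ≤ a i} := by ext; simp
    change MeasurableSet {u : ι → ℝ | ∀ i, u i ≤ a i}
    rw [this]
    exact MeasurableSet.iInter fun i => measurableSet_le (measurable_pi_apply i) measurable_const
  · change MeasurableSet {u : ι → ℝ | b ≤ ∑ i, u i}
    exact measurableSet_le measurable_const (by fun_prop)

end Crest.Agent.R014.Cnt2_726
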