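import Mathlib
import Crest.Agent.R014.Cnt2_726

/-!
# Unfolding: average over the unit torus of weighted box counts = Riesz mean over an ideal class
-/

namespace Crest.Agent.R014.Cnt3_726

open MeasureTheory NumberField NumberField.Units NumberField.Units.dirichletUnitTheorem
open NumberField.InfinitePlace Module
open scoped ENNReal nonZeroDivisors
open scoped Classical
open Crest.Agent.R014.Cnt2_726

section Group

theorem tsum_comp_eq_card_mul {G H : Type*} [AddCommGroup G] [AddCommGroup H] (f : G →+ H)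
    (hf : Function.Surjective f) [Finite f.ker] (φ : H → ℝ≥0∞) :
    ∑' g, φ (f g) = (Nat.card f.ker : ℝ≥0∞) * ∑' h, φ h := by
  let s := Function.surjInv hf
  have hs : ∀ h, f (s h) = h := Function.surjInv_eq hf
  let e : H × f.ker ≃ G :=
    { toFun := fun p => s p.1 + p.2
      invFun := fun g => (f g, ⟨g - s (f g), by rw [AddMonoidHom.mem_ker, map_sub, hs, sub_self]⟩)
      left_inv := by
        rintro ⟨h, k, hk⟩
        have : f k = 0 := hk
        simp [map_add, hs, this]
      right_inv := by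
        intro g
        simp }
  have : Fintype f.ker := Fintype.ofFinite _
  rw [← e.tsum_eq]
  have h1 : ∀ p : H × f.ker, φ (f (e p)) = (fun (h : H) (_ : f.ker) => φ h) p.1 p.2 := by
    rintro ⟨h, k, hk⟩
    have : f k = 0 := hk
    simp [e, map_add, hs, this]
  rw [tsum_congr h1, ENNReal.tsum_prod (f := fun (h : H) (_ : f.ker) => φ h),
    ← ENNReal.tsum_mul_left]
  refine tsum_congr fun h => ?_
  rw [tsum_fintype, Finset.sum_const, Finset.card_univ, Nat.card_eq_fintype_card, nsmul_eq_mul]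

end Group

variable (K : Type*) [Field K] [NumberField K]

/-- the logarithm of the weight at all places -/
noncomputable def lw (h : logSpace K) (w : InfinitePlace K) : ℝ :=
  if hw : w = w₀ then - ∑ i, h i else h ⟨w, hw⟩

variable {K}

theorem lw_w0 (h : logSpace K) : lw K h w₀ = - ∑ i, h i := by simp [lw]

theorem lw_ne (h : logSpace K) {w : InfinitePlace K} (hw : w ≠ w₀) : lw K h w = h ⟨w, hw⟩ := by
  simp [lw, hw]

theorem sum_lw (h : logSpace K) : ∑ w, lw K h w = 0 := by
  rw [Fintype.sum_eq_add_sum_subtype_ne _ (w₀ : InfinitePlace K), lw_w0]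
  have : ∀ i : {w : InfinitePlace K // w ≠ w₀}, lw K h i = h i := fun i => lw_ne h i.2
  simp [this]

/-- the weight `t_w(h)`, with `∏ t_w ^ mult w = 1` -/
noncomputable def tw (h : logSpace K) (w : InfinitePlace K) : ℝ := Real.exp (lw K h w / mult w)

theorem tw_pos (h : logSpace K) (w : InfinitePlace K) : 0 < tw h w := Real.exp_pos _

theorem prod_tw (h : logSpace K) : ∏ w, tw h w ^ (mult w) = 1 := by
  have : ∀ w : InfinitePlace K, tw h w ^ (mult w) = Real.exp (lw K h w) := by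
    intro w
    rw [tw, ← Real.exp_nat_mul]
    congr 1
    have : (mult w : ℝ) ≠ 0 := mult_coe_ne_zero
    field_simp
  simp_rw [this]
  rw [← Real.exp_sum, sum_lw, Real.exp_zero]

/-- the set of `h` such that `x` times the weight is in the box of side `X` -/
def sA (X : ℝ) (x : K) : Set (logSpace K) := {h | ∀ w : InfinitePlace K, w x * tw h w ≤ X}

theorem mem_sA_iff {X : ℝ} (hX : 0 < X) {x : K} (hx : x ≠ 0) (h : logSpace K) :
    h ∈ sA X x ↔ ∀ w, lw K h w ≤ mult w * (Real.log X - Real.log (w x)) := by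
  refine forall_congr' fun w => ?_
  have h0 : 0 < w x := by
    have := w.1.nonneg x
    rcases lt_or_eq_of_le (apply_nonneg w x) with h | h
    · exact h
    · exact absurd ((map_eq_zero w).1 h.symm) hx
  have hm : (0 : ℝ) < mult w := by exact_mod_cast mult_pos
  rw [← Real.log_le_log_iff (mul_pos h0 (tw_pos h w)) hX, Real.log_mul h0.ne' (tw_pos h w).ne', tw,
    Real.log_exp, ← le_sub_iff_add_le', div_le_iff₀ hm, mul_comm]

theorem sA_eq_cut {X : ℝ} (hX : 0 < X) {x : K} (hx : x ≠ 0) :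
    sA X x = {h : logSpace K | (∀ i, h i ≤ mult i.1 * (Real.log X - Real.log (i.1 x))) ∧
      - ((mult (w₀ : InfinitePlace K) : ℝ) * (Real.log X - Real.log (w₀ x))) ≤ ∑ i, h i} := by
  ext h
  rw [mem_sA_iff hX hx, Set.mem_ofPred_eq]
  constructor
  · intro hh
    refine ⟨fun i => ?_, ?_⟩
    · have := hh i.1
      rwa [lw_ne h i.2] at this
    · have := hh w₀
      rw [lw_w0] at this
      linarith
  · rintro ⟨h1, h2⟩ w
    by_cases hw : w = w₀
    · subst hw; rw [lw_w0]; linarith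
    · rw [lw_ne h hw]; exact h1 ⟨w, hw⟩

theorem measurableSet_sA {X : ℝ} (hX : 0 < X) {x : K} (hx : x ≠ 0) : MeasurableSet (sA X x) := by
  rw [sA_eq_cut hX hx]; exact measurableSet_cut _ _

theorem sum_mult_mul_log_eq {x : K} (hx : x ≠ 0) :
    ∑ w : InfinitePlace K, (mult w : ℝ) * Real.log (w x) =
      Real.log |(Algebra.norm ℚ x : ℝ)| := by
  have h := prod_eq_abs_norm x
  have h' : |(Algebra.norm ℚ x : ℝ)| = ∏ w : InfinitePlace K, w x ^ mult w := by
    rw [h]; push_cast; rfl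
  rw [h', Real.log_prod]
  · simp_rw [Real.log_pow]
  · intro w _
    exact pow_ne_zero _ ((map_ne_zero w).2 hx)

theorem volume_sA {X : ℝ} (hX : 0 < X) {x : K} (hx : x ≠ 0) :
    volume (sA X x) = ENNReal.ofReal (wt (rank K)
      (finrank ℚ K * Real.log X - Real.log |(Algebra.norm ℚ x : ℝ)|)) := by
  rw [sA_eq_cut hX hx, volume_cut]
  have hcard : Fintype.card {w : InfinitePlace K // w ≠ w₀} = rank K := by
    rw [Fintype.card_subtype_compl, Fintype.card_subtype_eq, rank]
  rw [hcard, ← sum_mult_mul_log_eq hx]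
  congr 2
  have h1 := Fintype.sum_eq_add_sum_subtype_ne
    (fun w : InfinitePlace K => (mult w : ℝ) * (Real.log X - Real.log (w x))) w₀
  have h2 : ∑ w : InfinitePlace K, (mult w : ℝ) * (Real.log X - Real.log (w x)) =
      finrank ℚ K * Real.log X - ∑ w : InfinitePlace K, (mult w : ℝ) * Real.log (w x) := by
    simp_rw [mul_sub]
    rw [Finset.sum_sub_distrib, ← Finset.sum_mul, ← Nat.cast_sum, sum_mult_eq]
  linarith

theorem lw_add_logEmbedding (h : logSpace K) (u : (𝓞 K)ˣ) (w : InfinitePlace K) :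
    lw K (h + logEmbedding K (Additive.ofMul u)) w = lw K h w + mult w * Real.log (w (u : K)) := by
  by_cases hw : w = w₀
  · subst hw
    rw [lw_w0, lw_w0]
    have := sum_logEmbedding_component u
    simp only [Pi.add_apply, Finset.sum_add_distrib]
    rw [this]
    ring
  · rw [lw_ne _ hw, lw_ne _ hw, Pi.add_apply, logEmbedding_component]

theorem tw_add_logEmbedding (h : logSpace K) (u : (𝓞 K)ˣ) (w : InfinitePlace K) :
    tw (h + logEmbedding K (Additive.ofMul u)) w = tw h w * w (u : K) := by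
  rw [tw, lw_add_logEmbedding, add_div, Real.exp_add, tw]
  congr 1
  have : (mult w : ℝ) ≠ 0 := mult_coe_ne_zero
  rw [mul_div_assoc, mul_comm, div_mul_cancel₀ _ this, Real.exp_log (pos_at_place u w)]

theorem mem_sA_unit_mul {X : ℝ} {x : K} (u : (𝓞 K)ˣ) (h : logSpace K) :
    h ∈ sA X ((u : K) * x) ↔ logEmbedding K (Additive.ofMul u) + h ∈ sA X x := by
  refine forall_congr' fun w => ?_
  rw [add_comm, tw_add_logEmbedding, map_mul]
  ring_nf

/-- `logEmbedding` onto the unit lattice -/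
noncomputable def toLat (K : Type*) [Field K] [NumberField K] :
    Additive (𝓞 K)ˣ →+ unitLattice K :=
  ((logEmbedding K).codRestrict (unitLattice K).toAddSubgroup (fun x => ⟨x, trivial, rfl⟩))

theorem coe_toLat (u : Additive (𝓞 K)ˣ) : (toLat K u : logSpace K) = logEmbedding K u := rfl

theorem toLat_surjective : Function.Surjective (toLat K) := by
  rintro ⟨_, x, -, rfl⟩
  exact ⟨x, rfl⟩

theorem card_ker_toLat : Nat.card (toLat K).ker = torsionOrder K := by
  have : (toLat K).ker = (logEmbedding K).ker := by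
    ext x
    rw [AddMonoidHom.mem_ker, AddMonoidHom.mem_ker, ← coe_toLat, ZeroMemClass.coe_eq_zero]
  rw [this, logEmbedding_ker]
  rfl

instance finite_ker_toLat : Finite (toLat K).ker := by
  refine Nat.finite_of_card_ne_zero ?_
  rw [card_ker_toLat]
  exact torsionOrder_ne_zero K

/-- unfolding for one orbit -/
theorem tsum_unit {F : Set (logSpace K)} (hF : IsAddFundamentalDomain (unitLattice K) F volume)
    {X : ℝ} (hX : 0 < X) {x : K} (hx : x ≠ 0) :
    ∑' u : (𝓞 K)ˣ, ∫⁻ h in F, (sA X ((u : K) * x)).indicator 1 h =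
      torsionOrder K * volume (sA X x) := by
  have : MeasurableVAdd (unitLattice K) (logSpace K) :=
    (inferInstance : MeasurableVAdd (unitLattice K).toAddSubgroup (logSpace K))
  have : VAddInvariantMeasure (unitLattice K) (logSpace K) volume :=
    (inferInstance : VAddInvariantMeasure (unitLattice K).toAddSubgroup (logSpace K) volume)
  have h1 := hF.lintegral_eq_tsum'' (fun h => (sA X x).indicator (1 : logSpace K → ℝ≥0∞) h)
  rw [lintegral_indicator_one (measurableSet_sA hX hx)] at h1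
  rw [h1, ← card_ker_toLat, ← tsum_comp_eq_card_mul (toLat K) toLat_surjective
    (fun g : unitLattice K => ∫⁻ h in F, (sA X x).indicator (1 : logSpace K → ℝ≥0∞) (g +ᵥ h)),
    ← (Additive.ofMul (α := (𝓞 K)ˣ)).tsum_eq]
  refine tsum_congr fun u => ?_
  refine lintegral_congr fun h => ?_
  have h2 := mem_sA_unit_mul (X := X) (x := x) u h
  have h3 : (toLat K (Additive.ofMul u)) +ᵥ h = logEmbedding K (Additive.ofMul u) + h := rfl
  rw [h3]
  by_cases h4 : h ∈ sA X ((u : K) * x)
  · rw [Set.indicator_of_mem h4, Set.indicator_of_mem (h2.1 h4)]; rfl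
  · rw [Set.indicator_of_notMem h4, Set.indicator_of_notMem (fun h5 => h4 (h2.2 h5))]

/-! ### decomposition over ideals of a class -/

variable (K) in
/-- ideals of the class `c` -/
abbrev clsI (c : ClassGroup (𝓞 K)) := {a : (Ideal (𝓞 K))⁰ // ClassGroup.mk0 a = c}

/-- nonzero elements of the ideal `b` -/
abbrev nzI (b : (Ideal (𝓞 K))⁰) := {v : 𝓞 K // v ∈ (b : Ideal (𝓞 K)) ∧ v ≠ 0}

theorem exists_gen {c : ClassGroup (𝓞 K)} {b : (Ideal (𝓞 K))⁰} (hb : ClassGroup.mk0 b = c⁻¹)
    (a : clsI K c) : ∃ g : 𝓞 K, Ideal.span {g} = (a.1 : Ideal (𝓞 K)) * b := by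
  have h : ClassGroup.mk0 (a.1 * b) = 1 := by
    rw [map_mul, a.2, hb, mul_inv_cancel]
  have h' := (ClassGroup.mk0_eq_one_iff (a.1 * b).2).1 h
  obtain ⟨g, hg⟩ := h'
  refine ⟨g, ?_⟩
  have h2 : (((a.1 * b : (Ideal (𝓞 K))⁰)) : Ideal (𝓞 K)) = (a.1 : Ideal (𝓞 K)) * b := rfl
  rw [← h2, hg]

/-- a generator of `a * b` -/
noncomputable def gen {c : ClassGroup (𝓞 K)} {b : (Ideal (𝓞 K))⁰}
    (hb : ClassGroup.mk0 b = c⁻¹) (a : clsI K c) : 𝓞 K := (exists_gen hb a).choose

theorem span_gen {c : ClassGroup (𝓞 K)} {b : (Ideal (𝓞 K))⁰}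
    (hb : ClassGroup.mk0 b = c⁻¹) (a : clsI K c) :
    Ideal.span {gen hb a} = (a.1 : Ideal (𝓞 K)) * b := (exists_gen hb a).choose_spec

theorem gen_ne_zero {c : ClassGroup (𝓞 K)} {b : (Ideal (𝓞 K))⁰}
    (hb : ClassGroup.mk0 b = c⁻¹) (a : clsI K c) : gen hb a ≠ 0 := by
  intro h
  have h1 := span_gen hb a
  rw [h, Ideal.span_singleton_eq_bot.2 rfl] at h1
  exact mul_ne_zero (nonZeroDivisors.coe_ne_zero a.1) (nonZeroDivisors.coe_ne_zero b) h1.symm

theorem gen_mem {c : ClassGroup (𝓞 K)} {b : (Ideal (𝓞 K))⁰}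
    (hb : ClassGroup.mk0 b = c⁻¹) (a : clsI K c) : gen hb a ∈ (b : Ideal (𝓞 K)) := by
  have h3 : Ideal.span {gen hb a} ≤ (b : Ideal (𝓞 K)) := by
    rw [span_gen hb a, ← Ideal.dvd_iff_le]
    exact dvd_mul_left _ _
  exact h3 (Ideal.mem_span_singleton_self _)

/-- the parametrisation of the nonzero elements of `b` -/
noncomputable def param {c : ClassGroup (𝓞 K)} {b : (Ideal (𝓞 K))⁰}
    (hb : ClassGroup.mk0 b = c⁻¹) (p : clsI K c × (𝓞 K)ˣ) : nzI b :=
  ⟨(p.2 : 𝓞 K) * gen hb p.1, Ideal.mul_mem_left _ _ (gen_mem hb p.1),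
    mul_ne_zero p.2.ne_zero (gen_ne_zero hb p.1)⟩

theorem span_param {c : ClassGroup (𝓞 K)} {b : (Ideal (𝓞 K))⁰}
    (hb : ClassGroup.mk0 b = c⁻¹) (p : clsI K c × (𝓞 K)ˣ) :
    Ideal.span {(param hb p : 𝓞 K)} = (p.1.1 : Ideal (𝓞 K)) * b := by
  rw [← span_gen hb p.1, Ideal.span_singleton_eq_span_singleton]
  exact ⟨p.2⁻¹, by simp [param, mul_comm]⟩

theorem param_bijective {c : ClassGroup (𝓞 K)} {b : (Ideal (𝓞 K))⁰}
    (hb : ClassGroup.mk0 b = c⁻¹) : Function.Bijective (param hb) := by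
  constructor
  · intro p p' h
    have h1 := span_param hb p
    rw [h, span_param hb p'] at h1
    have h2 := mul_right_cancel₀ (nonZeroDivisors.coe_ne_zero b) h1
    have h3 : p.1 = p'.1 := Subtype.ext (Subtype.ext h2.symm)
    refine Prod.ext h3 ?_
    have h4 : (p.2 : 𝓞 K) * gen hb p.1 = p'.2 * gen hb p'.1 := congrArg Subtype.val h
    rw [h3] at h4
    exact Units.ext (mul_right_cancel₀ (gen_ne_zero hb _) h4)
  · rintro ⟨v, hv, hv0⟩
    have h1 : (b : Ideal (𝓞 K)) ∣ Ideal.span {v} := by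
      rw [Ideal.dvd_iff_le, Ideal.span_le]
      simpa using hv
    obtain ⟨a, ha⟩ := h1
    have ha0 : a ≠ 0 := by
      rintro rfl
      rw [mul_zero] at ha
      exact hv0 (Ideal.span_singleton_eq_bot.1 ha)
    let a' : (Ideal (𝓞 K))⁰ := ⟨a, mem_nonZeroDivisors_of_ne_zero ha0⟩
    have h2 : ClassGroup.mk0 a' = c := by
      have h3 : ClassGroup.mk0 (b * a') = 1 := by
        rw [ClassGroup.mk0_eq_one_iff]
        refine ⟨v, ?_⟩
        change (b : Ideal (𝓞 K)) * a = Ideal.span {v}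
        exact ha.symm
      rw [map_mul, hb] at h3
      exact (inv_mul_eq_one.1 h3).symm
    have h4 : Associated (gen hb ⟨a', h2⟩) v := by
      rw [← Ideal.span_singleton_eq_span_singleton, span_gen, ha, mul_comm]
    obtain ⟨u, hu⟩ := h4
    exact ⟨(⟨a', h2⟩, u), Subtype.ext (by simp [param, ← hu, mul_comm])⟩

theorem natAbs_norm_param {c : ClassGroup (𝓞 K)} {b : (Ideal (𝓞 K))⁰}
    (hb : ClassGroup.mk0 b = c⁻¹) (p : clsI K c × (𝓞 K)ˣ) :
    (Algebra.norm ℤ (param hb p : 𝓞 K)).natAbs =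
      Ideal.absNorm (p.1.1 : Ideal (𝓞 K)) * Ideal.absNorm (b : Ideal (𝓞 K)) := by
  rw [← Ideal.absNorm_span_singleton, span_param, map_mul]

/-- **The unfolding identity**. -/
theorem unfold_eq {c : ClassGroup (𝓞 K)} {b : (Ideal (𝓞 K))⁰}
    (hb : ClassGroup.mk0 b = c⁻¹) {F : Set (logSpace K)}
    (hF : IsAddFundamentalDomain (unitLattice K) F volume)
    {X : ℝ} (hX : 0 < X) (f : ℕ → ℝ≥0∞) :
    ∫⁻ h in F, ∑' v : nzI b, f ((Algebra.norm ℤ (v : 𝓞 K)).natAbs / Ideal.absNorm (b : Ideal (𝓞 K))) *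
        (sA X ((v : 𝓞 K) : K)).indicator 1 h =
      torsionOrder K * ∑' a : clsI K c, f (Ideal.absNorm (a.1 : Ideal (𝓞 K))) *
        ENNReal.ofReal (wt (rank K) (finrank ℚ K * Real.log X -
          Real.log (Ideal.absNorm (a.1 : Ideal (𝓞 K)) * Ideal.absNorm (b : Ideal (𝓞 K))))) := by
  have hcount' : Countable (𝓞 K) :=
    (Module.Free.chooseBasis ℤ (𝓞 K)).equivFun.toEquiv.countable_iff.2 inferInstance
  have hcount : Countable (nzI b) := inferInstance
  rw [lintegral_tsum]
  swap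
  · intro v
    refine (Measurable.const_mul ?_ _).aemeasurable
    refine measurable_one.indicator (measurableSet_sA hX ?_)
    simpa using v.2.2
  rw [← (Equiv.ofBijective _ (param_bijective hb)).tsum_eq]
  have hN : Ideal.absNorm (b : Ideal (𝓞 K)) ≠ 0 := by
    rw [Ne, Ideal.absNorm_eq_zero_iff]
    exact nonZeroDivisors.coe_ne_zero b
  have h1 : ∀ p : clsI K c × (𝓞 K)ˣ,
      ∫⁻ h in F, f ((Algebra.norm ℤ (((Equiv.ofBijective _ (param_bijective hb)) p : nzI b) : 𝓞 K)).natAbs /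
        Ideal.absNorm (b : Ideal (𝓞 K))) * (sA X (((((Equiv.ofBijective _
          (param_bijective hb)) p : nzI b) : 𝓞 K) : K))).indicator 1 h =
      (fun (a : clsI K c) (u : (𝓞 K)ˣ) => f (Ideal.absNorm (a.1 : Ideal (𝓞 K))) *
        ∫⁻ h in F, (sA X ((u : K) * (gen hb a : K))).indicator 1 h) p.1 p.2 := by
    intro p
    rw [lintegral_const_mul]
    · simp only [Equiv.ofBijective_apply]
      rw [natAbs_norm_param, Nat.mul_div_cancel _ (Nat.pos_of_ne_zero hN)]
      simp [param]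
    · refine measurable_one.indicator (measurableSet_sA hX ?_)
      simp only [Equiv.ofBijective_apply]
      simpa using (param hb p).2.2
  rw [tsum_congr h1, ENNReal.tsum_prod (f := fun (a : clsI K c) (u : (𝓞 K)ˣ) =>
    f (Ideal.absNorm (a.1 : Ideal (𝓞 K))) *
        ∫⁻ h in F, (sA X ((u : K) * (gen hb a : K))).indicator 1 h), ← ENNReal.tsum_mul_left]
  refine tsum_congr fun a => ?_
  rw [ENNReal.tsum_mul_left, tsum_unit hF hX (by simpa using gen_ne_zero hb a), volume_sA hX
    (by simpa using gen_ne_zero hb a)]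
  have h2 : |(Algebra.norm ℚ (gen hb a : K) : ℝ)| =
      Ideal.absNorm (a.1 : Ideal (𝓞 K)) * Ideal.absNorm (b : Ideal (𝓞 K)) := by
    have h3 := span_gen hb a
    have h4 : ((Algebra.norm ℤ (gen hb a)).natAbs : ℝ) =
        Ideal.absNorm (a.1 : Ideal (𝓞 K)) * Ideal.absNorm (b : Ideal (𝓞 K)) := by
      rw [← Ideal.absNorm_span_singleton, h3, map_mul]
      push_cast; rfl
    rw [← h4, ← Algebra.coe_norm_int, Nat.cast_natAbs]
    push_cast
    rfl
  rw [h2]
  ring

end Crest.Agent.R014.Cnt3_726
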