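import Mathlib
import Crest.Agent.R014.Cnt1_726

/-!
# Lattice of an ideal in the mixed space, deformed by weights: covering and count in boxes
-/

namespace Crest.Agent.R014.Cnt4_726

open MeasureTheory NumberField NumberField.mixedEmbedding NumberField.InfinitePlace Module
open scoped ENNReal nonZeroDivisors NNReal
open scoped Classical
open scoped IntermediateField
open Crest.Agent.R014.Cnt1_726

variable (K : Type*) [Field K] [NumberField K]

/-- sqrt of the absolute discriminant -/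
noncomputable def sD : ℝ := √|(discr K : ℝ)|

theorem one_le_sD : 1 ≤ sD K := by
  rw [sD, Real.one_le_sqrt, ← Int.cast_abs]
  have : 1 ≤ |discr K| := Int.one_le_abs (discr_ne_zero K)
  exact_mod_cast this

theorem sD_pos : 0 < sD K := one_pos.trans_le (one_le_sD K)

/-- the constant `2^r₁ π^r₂` -/
noncomputable def C0 : ℝ := 2 ^ nrRealPlaces K * Real.pi ^ nrComplexPlaces K

theorem C0_pos : 0 < C0 K := by unfold C0; positivity

theorem coe_factor : ((convexBodyLTFactor K : ℝ≥0) : ℝ) = C0 K := by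
  simp [convexBodyLTFactor, C0]

theorem coe_factor' : ((convexBodyLTFactor K : ℝ≥0) : ℝ≥0∞) = ENNReal.ofReal (C0 K) := by
  rw [← coe_factor, ENNReal.ofReal_coe_nnreal]

theorem minkowskiBound_eq (I : (FractionalIdeal (𝓞 K)⁰ K)ˣ) :
    minkowskiBound K I = ENNReal.ofReal (ZLattice.covolume (idealLattice K I) * 2 ^ finrank ℚ K) := by
  have h1 := ZLattice.covolume_eq_measure_fundamentalDomain (idealLattice K I) volume
    (fundamentalDomain_idealLattice K I)
  have hfin : volume (ZSpan.fundamentalDomain (fractionalIdealLatticeBasis K I)) ≠ ⊤ :=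
    ((ZSpan.fundamentalDomain_isBounded _).measure_lt_top).ne
  rw [minkowskiBound, h1, Measure.real, ENNReal.ofReal_mul ENNReal.toReal_nonneg,
    ENNReal.ofReal_toReal hfin, mixedEmbedding.finrank]
  congr 1
  rw [ENNReal.ofReal_pow (by norm_num)]
  simp

theorem covolume_eq (I : (FractionalIdeal (𝓞 K)⁰ K)ˣ) :
    ZLattice.covolume (idealLattice K I) =
      (FractionalIdeal.absNorm I.1 : ℝ) * (2⁻¹ ^ nrComplexPlaces K) * sD K := by
  rw [covolume_idealLattice, sD]

theorem absNorm_pos' (I : (FractionalIdeal (𝓞 K)⁰ K)ˣ) :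
    (0 : ℝ) < (FractionalIdeal.absNorm I.1 : ℝ) := by
  have h := FractionalIdeal.absNorm_nonneg I.1
  have h2 : FractionalIdeal.absNorm I.1 ≠ 0 := by
    intro h3
    exact I.ne_zero (FractionalIdeal.absNorm_eq_zero_iff.1 h3)
  exact_mod_cast lt_of_le_of_ne h h2.symm

/-- the Minkowski bound is `< 2^r₁ π^r₂ * δ` for `δ ≥ 2 √D N(I)` -/
theorem minkowskiBound_lt (I : (FractionalIdeal (𝓞 K)⁰ K)ˣ) {δ : ℝ}
    (hδ : 2 * sD K * (FractionalIdeal.absNorm I.1 : ℝ) ≤ δ) :
    minkowskiBound K I < ENNReal.ofReal (C0 K * δ) := by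
  have hN := absNorm_pos' K I
  have hs := sD_pos K
  have hδ0 : 0 < δ := lt_of_lt_of_le (by positivity) hδ
  rw [minkowskiBound_eq, ENNReal.ofReal_lt_ofReal_iff (mul_pos (C0_pos K) hδ0), covolume_eq, C0,
    ← card_add_two_mul_card_eq_rank]
  have h1 : (2 : ℝ) ^ (nrRealPlaces K + 2 * nrComplexPlaces K) =
      2 ^ nrRealPlaces K * (2 ^ nrComplexPlaces K * 2 ^ nrComplexPlaces K) := by
    rw [pow_add, two_mul, pow_add]
  have h2 : (2⁻¹ : ℝ) ^ nrComplexPlaces K * 2 ^ nrComplexPlaces K = 1 := by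
    rw [← mul_pow]; norm_num
  have h3 : (2 : ℝ) ^ nrComplexPlaces K ≤ Real.pi ^ nrComplexPlaces K := by
    gcongr; exact Real.two_le_pi
  have h4 : (0 : ℝ) < 2 ^ nrRealPlaces K := by positivity
  have h5 : (0 : ℝ) < 2 ^ nrComplexPlaces K := by positivity
  rw [h1]
  calc (FractionalIdeal.absNorm I.1 : ℝ) * 2⁻¹ ^ nrComplexPlaces K * sD K *
        (2 ^ nrRealPlaces K * (2 ^ nrComplexPlaces K * 2 ^ nrComplexPlaces K))
      = (2⁻¹ ^ nrComplexPlaces K * 2 ^ nrComplexPlaces K) * (2 ^ nrRealPlaces K *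
        2 ^ nrComplexPlaces K) * (sD K * (FractionalIdeal.absNorm I.1 : ℝ)) := by ring
    _ = (2 ^ nrRealPlaces K *
        2 ^ nrComplexPlaces K) * (sD K * (FractionalIdeal.absNorm I.1 : ℝ)) := by rw [h2, one_mul]
    _ < (2 ^ nrRealPlaces K *
        2 ^ nrComplexPlaces K) * δ := by
        refine mul_lt_mul_of_pos_left ?_ (by positivity)
        have : 0 < sD K * (FractionalIdeal.absNorm I.1 : ℝ) := by positivity
        linarith
    _ ≤ 2 ^ nrRealPlaces K * Real.pi ^ nrComplexPlaces K * δ := by gcongr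

theorem mk0_one_norm : (FractionalIdeal.absNorm
    ((1 : (FractionalIdeal (𝓞 K)⁰ K)ˣ) : FractionalIdeal (𝓞 K)⁰ K) : ℝ) = 1 := by
  simp

/-- a primitive integer with small conjugates -/
theorem exists_theta : ∃ θ : 𝓞 K, ℚ⟮(θ : K)⟯ = ⊤ ∧ ∀ w : InfinitePlace K, w θ ≤ 3 * sD K := by
  have hs := one_le_sD K
  have hs0 := sD_pos K
  let B : ℝ≥0 := ⟨2 * sD K, by positivity⟩
  have hB : (B : ℝ) = 2 * sD K := rfl
  obtain ⟨w₀⟩ := (inferInstance : Nonempty (InfinitePlace K))
  by_cases hw : IsReal w₀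
  · have h1 : minkowskiBound K ↑1 < convexBodyLTFactor K * B := by
      have h2 := minkowskiBound_lt K 1 (δ := 2 * sD K) (by rw [mk0_one_norm]; simp)
      rw [ENNReal.ofReal_mul (C0_pos K).le, ← coe_factor', ← hB, ENNReal.ofReal_coe_nnreal] at h2
      exact h2
    obtain ⟨a, ha, ha2⟩ := exists_primitive_element_lt_of_isReal K hw h1
    refine ⟨a, ha, fun w => (ha2 w).le.trans ?_⟩
    rw [NNReal.coe_max, hB, NNReal.coe_one]
    exact max_le (by linarith) (by linarith)
  · rw [not_isReal_iff_isComplex] at hw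
    have hr2 : 1 ≤ nrComplexPlaces K := by
      rw [nrComplexPlaces]
      exact Fintype.card_pos_iff.2 ⟨⟨w₀, hw⟩⟩
    have h1 : minkowskiBound K ↑1 < convexBodyLT'Factor K * B := by
      have hpi : (convexBodyLT'Factor K : ℝ) = 4 / Real.pi * C0 K := by
        obtain ⟨m, hm⟩ := Nat.exists_eq_add_of_le hr2
        have hpi0 := Real.pi_ne_zero
        simp only [convexBodyLT'Factor, C0, hm, NNReal.coe_mul, NNReal.coe_pow, NNReal.coe_ofNat,
          NNReal.coe_real_pi]
        rw [show 1 + m - 1 = m by omega, pow_add Real.pi 1 m, pow_one, pow_add]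
        field_simp
        norm_num
      have h3 : minkowskiBound K ↑1 < ENNReal.ofReal (4 / Real.pi * C0 K * (2 * sD K)) := by
        rw [minkowskiBound_eq, ENNReal.ofReal_lt_ofReal_iff (by positivity [C0_pos K]), covolume_eq,
          mk0_one_norm, one_mul, C0, ← card_add_two_mul_card_eq_rank]
        obtain ⟨m, hm⟩ := Nat.exists_eq_add_of_le hr2
        have hpi0 := Real.pi_pos
        rw [hm]
        have h4 : (2 : ℝ) ^ m ≤ Real.pi ^ m := by gcongr; exact Real.two_le_pi
        have h5 : (2⁻¹ : ℝ) ^ m * 2 ^ m = 1 := by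
          rw [← mul_pow]; norm_num
        have h6 : (2 : ℝ) ^ (nrRealPlaces K + 2 * (1 + m)) = 4 * 2 ^ nrRealPlaces K * (2 ^ m * 2 ^ m) := by
          rw [pow_add, mul_add, two_mul m, pow_add, pow_add]; norm_num; ring
        rw [h6, pow_add, pow_one, pow_add Real.pi, pow_one]
        calc (2⁻¹ : ℝ) * 2⁻¹ ^ m * sD K * (4 * 2 ^ nrRealPlaces K * (2 ^ m * 2 ^ m))
            = (2⁻¹ ^ m * 2 ^ m) * (2 * 2 ^ nrRealPlaces K * 2 ^ m * sD K) := by ring
          _ = 2 * 2 ^ nrRealPlaces K * 2 ^ m * sD K := by rw [h5, one_mul]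
          _ ≤ 2 * 2 ^ nrRealPlaces K * Real.pi ^ m * sD K := by gcongr
          _ < 8 * 2 ^ nrRealPlaces K * Real.pi ^ m * sD K := by
              have : 0 < 2 ^ nrRealPlaces K * Real.pi ^ m * sD K := by positivity
              nlinarith
          _ = 4 / Real.pi * (2 ^ nrRealPlaces K * (Real.pi * Real.pi ^ m)) * (2 * sD K) := by
              field_simp
              ring
      rw [ENNReal.ofReal_mul (by positivity [C0_pos K]), ← hpi, ← hB, ENNReal.ofReal_coe_nnreal,
        ENNReal.ofReal_coe_nnreal] at h3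
      exact h3
    obtain ⟨a, ha, ha2⟩ := exists_primitive_element_lt_of_isComplex K hw h1
    refine ⟨a, ha, fun w => (ha2 w).le.trans ?_⟩
    rw [hB, Real.sqrt_le_left (by positivity)]
    nlinarith

variable {K}

/-- weights -/
structure IsWeight (t : InfinitePlace K → ℝ) : Prop where
  pos : ∀ w, 0 < t w
  prod : ∏ w, t w ^ mult w = 1

/-- Minkowski's theorem for weighted boxes -/
theorem exists_small (J : (Ideal (𝓞 K))⁰) {t : InfinitePlace K → ℝ} (ht : IsWeight t) :
    ∃ v : 𝓞 K, v ∈ (J : Ideal (𝓞 K)) ∧ v ≠ 0 ∧ ∀ w : InfinitePlace K, w v * t w ≤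
      (2 * sD K * Ideal.absNorm (J : Ideal (𝓞 K))) ^ ((1 : ℝ) / finrank ℚ K) := by
  have hs := sD_pos K
  have hN : (0 : ℝ) < Ideal.absNorm (J : Ideal (𝓞 K)) := by
    have : Ideal.absNorm (J : Ideal (𝓞 K)) ≠ 0 := by
      rw [Ne, Ideal.absNorm_eq_zero_iff]; exact nonZeroDivisors.coe_ne_zero J
    exact_mod_cast Nat.pos_of_ne_zero this
  have hd : (0 : ℝ) < finrank ℚ K := by exact_mod_cast finrank_pos
  set δ : ℝ := (2 * sD K * Ideal.absNorm (J : Ideal (𝓞 K))) ^ ((1 : ℝ) / finrank ℚ K) with hδ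
  have hδ0 : 0 < δ := by positivity
  let f : InfinitePlace K → ℝ≥0 := fun w => ⟨δ / t w, (div_pos hδ0 (ht.pos w)).le⟩
  have hf : ∀ w, (f w : ℝ) = δ / t w := fun w => rfl
  have hpow : δ ^ (finrank ℚ K) = 2 * sD K * Ideal.absNorm (J : Ideal (𝓞 K)) := by
    rw [hδ, ← Real.rpow_natCast, ← Real.rpow_mul (by positivity), one_div_mul_cancel hd.ne',
      Real.rpow_one]
  have hprod : ((∏ w, (f w) ^ mult w : ℝ≥0) : ℝ) = δ ^ finrank ℚ K := by
    push_cast
    simp_rw [hf, div_pow]
    rw [Finset.prod_div_distrib, ht.prod, div_one, Finset.prod_pow_eq_pow_sum, sum_mult_eq]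
  have hvol : volume (convexBodyLT K f) = ENNReal.ofReal (C0 K * δ ^ finrank ℚ K) := by
    rw [convexBodyLT_volume, ← hprod, ENNReal.ofReal_mul (C0_pos K).le, ENNReal.ofReal_coe_nnreal,
      coe_factor']
  have h1 : minkowskiBound K (FractionalIdeal.mk0 K J) < volume (convexBodyLT K f) := by
    rw [hvol]
    refine minkowskiBound_lt K _ ?_
    rw [hpow, FractionalIdeal.coe_mk0, FractionalIdeal.coeIdeal_absNorm]
    exact le_of_eq (by simp)
  obtain ⟨a, ha, ha0, ha1⟩ := exists_ne_zero_mem_ideal_lt K (FractionalIdeal.mk0 K J) h1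
  rw [FractionalIdeal.coe_mk0, FractionalIdeal.mem_coeIdeal] at ha
  obtain ⟨v, hv, rfl⟩ := ha
  refine ⟨v, hv, ?_, fun w => ?_⟩
  · rintro rfl; simp at ha0
  · have := (ha1 w).le
    rw [hf, le_div_iff₀ (ht.pos w)] at this
    exact this

theorem span_theta {θ : 𝓞 K} (hθ : ℚ⟮(θ : K)⟯ = ⊤) {v : K} (hv : v ≠ 0) (x : mixedSpace K) :
    ∃ c : Fin (finrank ℚ K) → ℝ, ∑ i, c i • mixedEmbedding K (v * (θ : K) ^ (i : ℕ)) = x := by
  have hdeg : (minpoly ℚ (θ : K)).natDegree = finrank ℚ K := by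
    rw [← IntermediateField.adjoin.finrank (Algebra.IsIntegral.isIntegral _), hθ,
      IntermediateField.finrank_top']
  have hli : LinearIndependent ℚ (fun i : Fin (finrank ℚ K) => (θ : K) ^ (i : ℕ)) := by
    have := linearIndependent_pow (K := ℚ) (θ : K)
    rw [hdeg] at this
    exact this
  have hspan : Submodule.span ℚ (Set.range fun i : Fin (finrank ℚ K) => (θ : K) ^ (i : ℕ)) = ⊤ :=
    hli.span_eq_top_of_card_eq_finrank' (by simp)
  have key : ∀ z : K, mixedEmbedding K z ∈ Submodule.span ℝ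
      (Set.range fun i : Fin (finrank ℚ K) => mixedEmbedding K (v * (θ : K) ^ (i : ℕ))) := by
    intro z
    have hz : z / v ∈ Submodule.span ℚ
        (Set.range fun i : Fin (finrank ℚ K) => (θ : K) ^ (i : ℕ)) := by
      rw [hspan]; trivial
    rw [Submodule.mem_span_range_iff_exists_fun] at hz
    obtain ⟨c, hc⟩ := hz
    have h1 : z = ∑ i, c i • (v * (θ : K) ^ (i : ℕ)) := by
      calc z = v * (z / v) := by field_simp
        _ = _ := by
          rw [← hc, Finset.mul_sum]
          refine Finset.sum_congr rfl fun i _ => ?_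
          rw [mul_smul_comm]
    rw [h1, map_sum]
    refine Submodule.sum_mem _ fun i _ => ?_
    have h2 : mixedEmbedding K (c i • (v * (θ : K) ^ (i : ℕ))) =
        ((c i : ℚ) : ℝ) • mixedEmbedding K (v * (θ : K) ^ (i : ℕ)) := by
      rw [map_rat_smul (mixedEmbedding K)]
      exact (algebraMap_smul ℝ (c i) (mixedEmbedding K (v * (θ : K) ^ (i : ℕ)))).symm
    rw [h2]
    exact Submodule.smul_mem _ _ (Submodule.subset_span ⟨i, rfl⟩)
  have htop : Submodule.span ℝ
      (Set.range fun i : Fin (finrank ℚ K) => mixedEmbedding K (v * (θ : K) ^ (i : ℕ))) = ⊤ := by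
    rw [eq_top_iff, ← (latticeBasis K).span_eq, Submodule.span_le]
    rintro _ ⟨i, rfl⟩
    rw [latticeBasis_apply]
    exact key _
  have hx : x ∈ Submodule.span ℝ
      (Set.range fun i : Fin (finrank ℚ K) => mixedEmbedding K (v * (θ : K) ^ (i : ℕ))) := by
    rw [htop]; trivial
  rwa [Submodule.mem_span_range_iff_exists_fun] at hx

/-- the covering radius -/
noncomputable def rho (J : (Ideal (𝓞 K))⁰) : ℝ :=
  finrank ℚ K * (3 * sD K) ^ (finrank ℚ K - 1) *
    (2 * sD K * Ideal.absNorm (J : Ideal (𝓞 K))) ^ ((1 : ℝ) / finrank ℚ K)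

omit [NumberField K] in
theorem normAtPlace_sum_le {ι : Type*} (s : Finset ι) (f : ι → mixedSpace K)
    (w : InfinitePlace K) : normAtPlace w (∑ i ∈ s, f i) ≤ ∑ i ∈ s, normAtPlace w (f i) := by
  induction s using Finset.induction_on with
  | empty => simp
  | insert a s ha ih =>
    rw [Finset.sum_insert ha, Finset.sum_insert ha]
    exact (normAtPlace_add_le w _ _).trans (by gcongr)

theorem mem_idealLattice_of_mem {J : (Ideal (𝓞 K))⁰} {v : 𝓞 K} (hv : v ∈ (J : Ideal (𝓞 K))) :
    mixedEmbedding K v ∈ idealLattice K (FractionalIdeal.mk0 K J) := by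
  rw [mem_idealLattice]
  exact ⟨v, by
    rw [FractionalIdeal.coe_mk0]
    exact FractionalIdeal.mem_coeIdeal_of_mem _ hv, rfl⟩

/-- **covering**: every point is near a lattice point in the weighted norm -/
theorem covering (J : (Ideal (𝓞 K))⁰) {t : InfinitePlace K → ℝ} (ht : IsWeight t)
    (x : mixedSpace K) : ∃ l ∈ idealLattice K (FractionalIdeal.mk0 K J),
      x - l ∈ {y : mixedSpace K | ∀ w, normAtPlace w y * t w ≤ rho J} := by
  obtain ⟨θ, hθ, hθ'⟩ := exists_theta K
  obtain ⟨v, hv, hv0, hvt⟩ := exists_small J ht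
  obtain ⟨c, hc⟩ := span_theta hθ (v := (v : K)) (by simpa using hv0) x
  set δ : ℝ := (2 * sD K * Ideal.absNorm (J : Ideal (𝓞 K))) ^ ((1 : ℝ) / finrank ℚ K) with hδ
  refine ⟨∑ i, (round (c i)) • mixedEmbedding K ((v : K) * (θ : K) ^ (i : ℕ)), ?_, ?_⟩
  · refine Submodule.sum_mem _ fun i _ => Submodule.smul_mem _ _ ?_
    have h1 : v * θ ^ (i : ℕ) ∈ (J : Ideal (𝓞 K)) := Ideal.mul_mem_right _ _ hv
    have := mem_idealLattice_of_mem h1
    simpa using this
  · intro w
    have h2 : x - ∑ i, (round (c i)) • mixedEmbedding K ((v : K) * (θ : K) ^ (i : ℕ)) =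
        ∑ i, (c i - round (c i)) • mixedEmbedding K ((v : K) * (θ : K) ^ (i : ℕ)) := by
      rw [← hc, ← Finset.sum_sub_distrib]
      refine Finset.sum_congr rfl fun i _ => ?_
      rw [sub_smul, Int.cast_smul_eq_zsmul]
    rw [h2]
    have h3 : ∀ i : Fin (finrank ℚ K), normAtPlace w ((c i - round (c i)) •
        mixedEmbedding K ((v : K) * (θ : K) ^ (i : ℕ))) * t w ≤
        (3 * sD K) ^ (finrank ℚ K - 1) * δ := by
      intro i
      rw [normAtPlace_smul, normAtPlace_apply, map_mul, map_pow]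
      have h4 : |c i - round (c i)| ≤ 1 := (abs_sub_round (c i)).trans (by norm_num)
      have h5 : (w (θ : K)) ^ (i : ℕ) ≤ (3 * sD K) ^ (finrank ℚ K - 1) := by
        have hi : (i : ℕ) ≤ finrank ℚ K - 1 := by have := i.2; omega
        calc (w (θ : K)) ^ (i : ℕ) ≤ (3 * sD K) ^ (i : ℕ) :=
              pow_le_pow_left₀ (apply_nonneg w _) (hθ' w) _
          _ ≤ _ := pow_le_pow_right₀ (by linarith [one_le_sD K]) hi
      have h6 : 0 ≤ w (v : K) * t w := mul_nonneg (apply_nonneg w _) (ht.pos w).le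
      calc |c i - round (c i)| * (w (v : K) * (w (θ : K)) ^ (i : ℕ)) * t w
          = |c i - round (c i)| * ((w (θ : K)) ^ (i : ℕ) * (w (v : K) * t w)) := by ring
        _ ≤ 1 * ((3 * sD K) ^ (finrank ℚ K - 1) * δ) := by
            have h7 : 0 ≤ (w (θ : K)) ^ (i : ℕ) := pow_nonneg (apply_nonneg w _) _
            gcongr
            · exact pow_nonneg (by linarith [one_le_sD K]) _
            · exact hvt w
        _ = _ := one_mul _
    calc normAtPlace w (∑ i, (c i - round (c i)) •
          mixedEmbedding K ((v : K) * (θ : K) ^ (i : ℕ))) * t w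
        ≤ (∑ i, normAtPlace w ((c i - round (c i)) •
          mixedEmbedding K ((v : K) * (θ : K) ^ (i : ℕ)))) * t w :=
          mul_le_mul_of_nonneg_right (normAtPlace_sum_le _ _ w) (ht.pos w).le
      _ = ∑ i, normAtPlace w ((c i - round (c i)) •
          mixedEmbedding K ((v : K) * (θ : K) ^ (i : ℕ))) * t w := by rw [Finset.sum_mul]
      _ ≤ ∑ _i : Fin (finrank ℚ K), (3 * sD K) ^ (finrank ℚ K - 1) * δ :=
          Finset.sum_le_sum fun i _ => h3 i
      _ = rho J := by
          rw [Finset.sum_const, Finset.card_univ, Fintype.card_fin, nsmul_eq_mul, rho]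
          ring

/-- the weighted box -/
def bx (X : ℝ) (t : InfinitePlace K → ℝ) : Set (mixedSpace K) :=
  {x | ∀ w, normAtPlace w x * t w ≤ X}

/-- the open weighted box -/
def obx (X : ℝ) (t : InfinitePlace K → ℝ) : Set (mixedSpace K) :=
  {x | ∀ w, normAtPlace w x * t w < X}

theorem measurableSet_bx (X : ℝ) (t : InfinitePlace K → ℝ) : MeasurableSet (bx X t) := by
  have : bx X t = ⋂ w, {x : mixedSpace K | normAtPlace w x * t w ≤ X} := by
    ext; simp [bx]
  rw [this]
  refine MeasurableSet.iInter fun w => ?_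
  exact (isClosed_le (by fun_prop) continuous_const).measurableSet

theorem measurableSet_obx (X : ℝ) (t : InfinitePlace K → ℝ) : MeasurableSet (obx X t) := by
  have : obx X t = ⋂ w, {x : mixedSpace K | normAtPlace w x * t w < X} := by
    ext; simp [obx]
  rw [this]
  refine MeasurableSet.iInter fun w => ?_
  exact (isOpen_lt (by fun_prop) continuous_const).measurableSet

theorem volume_obx {X : ℝ} (hX : 0 ≤ X) {t : InfinitePlace K → ℝ} (ht : IsWeight t) :
    volume (obx X t) = ENNReal.ofReal (C0 K * X ^ finrank ℚ K) := by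
  let f : InfinitePlace K → ℝ≥0 := fun w => ⟨X / t w, div_nonneg hX (ht.pos w).le⟩
  have hf : ∀ w, (f w : ℝ) = X / t w := fun w => rfl
  have hset : obx X t = convexBodyLT K f := by
    ext x
    simp only [obx, Set.mem_ofPred_eq, convexBodyLT, Set.mem_prod, Set.mem_pi, Set.mem_univ,
      forall_true_left, mem_ball_zero_iff]
    constructor
    · intro h
      refine ⟨fun w => ?_, fun w => ?_⟩
      · have := h w.1
        rw [normAtPlace_apply_of_isReal w.2, ← lt_div_iff₀ (ht.pos _)] at this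
        exact this
      · have := h w.1
        rw [normAtPlace_apply_of_isComplex w.2, ← lt_div_iff₀ (ht.pos _)] at this
        exact this
    · rintro ⟨h1, h2⟩ w
      rw [← lt_div_iff₀ (ht.pos _)]
      rcases isReal_or_isComplex w with hw | hw
      · rw [normAtPlace_apply_of_isReal hw]; exact h1 ⟨w, hw⟩
      · rw [normAtPlace_apply_of_isComplex hw]; exact h2 ⟨w, hw⟩
  have hprod : ((∏ w, (f w) ^ mult w : ℝ≥0) : ℝ) = X ^ finrank ℚ K := by
    push_cast
    simp_rw [hf, div_pow]
    rw [Finset.prod_div_distrib, ht.prod, div_one, Finset.prod_pow_eq_pow_sum, sum_mult_eq]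
  rw [hset, convexBodyLT_volume, ← hprod, ENNReal.ofReal_mul (C0_pos K).le,
    ENNReal.ofReal_coe_nnreal, coe_factor']

theorem rho_pos (J : (Ideal (𝓞 K))⁰) : 0 < rho J := by
  have hN : (0 : ℝ) < Ideal.absNorm (J : Ideal (𝓞 K)) := by
    have : Ideal.absNorm (J : Ideal (𝓞 K)) ≠ 0 := by
      rw [Ne, Ideal.absNorm_eq_zero_iff]; exact nonZeroDivisors.coe_ne_zero J
    exact_mod_cast Nat.pos_of_ne_zero this
  have hd : (0 : ℝ) < finrank ℚ K := by exact_mod_cast finrank_pos
  have := sD_pos K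
  unfold rho
  positivity

/-- covolume of an integral ideal -/
noncomputable def V (J : (Ideal (𝓞 K))⁰) : ℝ :=
  ZLattice.covolume (idealLattice K (FractionalIdeal.mk0 K J))

theorem V_eq (J : (Ideal (𝓞 K))⁰) :
    V J = Ideal.absNorm (J : Ideal (𝓞 K)) * (2⁻¹ ^ nrComplexPlaces K) * sD K := by
  rw [V, covolume_eq, FractionalIdeal.coe_mk0, FractionalIdeal.coeIdeal_absNorm]
  simp

/-- **upper bound** for the number of points of a translate of the ideal in a weighted box -/
theorem cnt_le (J : (Ideal (𝓞 K))⁰) {t : InfinitePlace K → ℝ} (ht : IsWeight t) {X : ℝ}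
    (hX : 0 ≤ X) (z : mixedSpace K) :
    ENNReal.ofReal (V J) * cnt (idealLattice K (FractionalIdeal.mk0 K J)) z (bx X t) ≤
      ENNReal.ofReal (C0 K * (X + 2 * rho J) ^ finrank ℚ K) := by
  have hr := rho_pos J
  rw [← volume_obx (by linarith) ht]
  refine covolume_mul_cnt_le volume (idealLattice K (FractionalIdeal.mk0 K J))
    (fun x => covering J ht x) (measurableSet_obx _ _) ?_ z
  intro s hs y hy w
  have h1 := hs w
  have h2 := hy w
  calc normAtPlace w (s + y) * t w ≤ (normAtPlace w s + normAtPlace w y) * t w :=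
        mul_le_mul_of_nonneg_right (normAtPlace_add_le w s y) (ht.pos w).le
    _ ≤ X + rho J := by rw [add_mul]; linarith
    _ < _ := by linarith

/-- **lower bound** for the number of points of a translate of the ideal in a weighted box -/
theorem le_cnt (J : (Ideal (𝓞 K))⁰) {t : InfinitePlace K → ℝ} (ht : IsWeight t) {X : ℝ}
    (hX : rho J ≤ X) (z : mixedSpace K) :
    ENNReal.ofReal (C0 K * (X - rho J) ^ finrank ℚ K) ≤
    ENNReal.ofReal (V J) * cnt (idealLattice K (FractionalIdeal.mk0 K J)) z (bx X t) := by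
  rw [← volume_obx (by linarith) ht]
  refine measure_le_covolume_mul_cnt volume (idealLattice K (FractionalIdeal.mk0 K J))
    (fun x => covering J ht x) (measurableSet_obx _ _) ?_ z
  intro s hs y hy w
  have h1 := hs w
  have h2 := hy w
  calc normAtPlace w (s - y) * t w ≤ (normAtPlace w s + normAtPlace w y) * t w := by
        refine mul_le_mul_of_nonneg_right ?_ (ht.pos w).le
        rw [sub_eq_add_neg, ← normAtPlace_neg w y]
        exact normAtPlace_add_le w s (-y)
    _ ≤ X := by rw [add_mul]; linarith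

end Crest.Agent.R014.Cnt4_726
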