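import Mathlib

/-!
# The norm form `N v / N J` of an ideal `J` modulo `q`

`nu J v = ± N v / N J` (an integer), `nuq J q` the same form on coordinates modulo `q`.
-/

namespace Crest.Agent.R014.Cnt5_726

open NumberField Module
open scoped nonZeroDivisors

variable {K : Type*} [Field K] [NumberField K]

/-- index type of all the `ℤ`-bases -/
abbrev Ix (K : Type*) [Field K] [NumberField K] := Free.ChooseBasisIndex ℤ (𝓞 K)

noncomputable instance : DecidableEq (Ix K) := Classical.decEq _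

theorem card_Ix : Fintype.card (Ix K) = finrank ℚ K := by
  rw [← finrank_eq_card_chooseBasisIndex, RingOfIntegers.rank]

/-- a `ℤ`-basis of a nonzero ideal -/
noncomputable def bas (J : (Ideal (𝓞 K))⁰) : Basis (Ix K) ℤ (J : Ideal (𝓞 K)) :=
  Ideal.selfBasis (RingOfIntegers.basis K) (J : Ideal (𝓞 K)) (nonZeroDivisors.coe_ne_zero J)

/-- the matrix of multiplication by `v ∈ J`, from `𝓞 K` to `J` -/
noncomputable def mulMat {J : (Ideal (𝓞 K))⁰} (β : Basis (Ix K) ℤ (J : Ideal (𝓞 K)))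
    (v : (J : Ideal (𝓞 K))) : Matrix (Ix K) (Ix K) ℤ :=
  Matrix.of fun i j => β.repr (RingOfIntegers.basis K j • v) i

theorem leftMulMatrix_eq {J : (Ideal (𝓞 K))⁰} (β : Basis (Ix K) ℤ (J : Ideal (𝓞 K)))
    (v : (J : Ideal (𝓞 K))) :
    Algebra.leftMulMatrix (RingOfIntegers.basis K) (v : 𝓞 K) =
      (RingOfIntegers.basis K).toMatrix (Subtype.val ∘ β) * mulMat β v := by
  ext i j
  rw [Algebra.leftMulMatrix_apply, LinearMap.toMatrix_apply, Matrix.mul_apply]
  have h1 : (Algebra.lmul ℤ (𝓞 K)) (v : 𝓞 K) (RingOfIntegers.basis K j) =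
      ((RingOfIntegers.basis K j • v : (J : Ideal (𝓞 K))) : 𝓞 K) := by
    simp [mul_comm]
  have h2 : ((RingOfIntegers.basis K j • v : (J : Ideal (𝓞 K))) : 𝓞 K) =
      ∑ k, (β.repr (RingOfIntegers.basis K j • v) k) • (β k : 𝓞 K) := by
    conv_lhs => rw [← β.sum_repr (RingOfIntegers.basis K j • v)]
    push_cast
    rfl
  rw [h1, h2, map_sum, Finsupp.finsetSum_apply]
  refine Finset.sum_congr rfl fun k _ => ?_
  rw [map_zsmul, Finsupp.smul_apply, Basis.toMatrix_apply, mulMat, Matrix.of_apply, smul_eq_mul,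
    mul_comm]
  rfl

/-- the norm form of the ideal -/
noncomputable def nuB {J : (Ideal (𝓞 K))⁰} (β : Basis (Ix K) ℤ (J : Ideal (𝓞 K)))
    (v : (J : Ideal (𝓞 K))) : ℤ := (mulMat β v).det

/-- the norm form of the ideal in the chosen basis -/
noncomputable def nu (J : (Ideal (𝓞 K))⁰) (v : (J : Ideal (𝓞 K))) : ℤ := nuB (bas J) v

/-- the determinant of the ideal basis -/
noncomputable def dJ (J : (Ideal (𝓞 K))⁰) : ℤ :=
  (RingOfIntegers.basis K).det (Subtype.val ∘ bas J)

theorem natAbs_dJ (J : (Ideal (𝓞 K))⁰) : (dJ J).natAbs = Ideal.absNorm (J : Ideal (𝓞 K)) :=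
  Ideal.natAbs_det_basis_change (RingOfIntegers.basis K) J (bas J)

theorem norm_eq (J : (Ideal (𝓞 K))⁰) (v : (J : Ideal (𝓞 K))) :
    Algebra.norm ℤ (v : 𝓞 K) = dJ J * nu J v := by
  rw [Algebra.norm_eq_matrix_det (RingOfIntegers.basis K), leftMulMatrix_eq (bas J) v,
    Matrix.det_mul]
  rfl

theorem absNorm_pos (J : (Ideal (𝓞 K))⁰) : 0 < Ideal.absNorm (J : Ideal (𝓞 K)) := by
  refine Nat.pos_of_ne_zero ?_
  rw [Ne, Ideal.absNorm_eq_zero_iff]
  exact nonZeroDivisors.coe_ne_zero J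

theorem dJ_ne_zero (J : (Ideal (𝓞 K))⁰) : dJ J ≠ 0 := by
  have h := natAbs_dJ J
  have h2 := absNorm_pos J
  intro h3
  rw [h3] at h
  simp at h
  omega

theorem natAbs_norm_div (J : (Ideal (𝓞 K))⁰) (v : (J : Ideal (𝓞 K))) :
    (Algebra.norm ℤ (v : 𝓞 K)).natAbs / Ideal.absNorm (J : Ideal (𝓞 K)) = (nu J v).natAbs := by
  rw [norm_eq J v, Int.natAbs_mul, natAbs_dJ, Nat.mul_div_cancel_left _ (absNorm_pos J)]

/-! ### modulo q -/

/-- the norm form modulo `q`, on coordinates -/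
noncomputable def nuq (J : (Ideal (𝓞 K))⁰) (q : ℕ) (k : Ix K → ZMod q) : ZMod q :=
  (∑ i, k i • (mulMat (bas J) (bas J i)).map (Int.cast : ℤ → ZMod q)).det

/-- coordinates modulo `q` -/
noncomputable def cq (J : (Ideal (𝓞 K))⁰) (q : ℕ) (v : (J : Ideal (𝓞 K))) : Ix K → ZMod q :=
  fun i => ((bas J).repr v i : ZMod q)

theorem cast_nu (J : (Ideal (𝓞 K))⁰) (q : ℕ) (v : (J : Ideal (𝓞 K))) :
    ((nu J v : ℤ) : ZMod q) = nuq J q (cq J q v) := by
  rw [nu, nuB, nuq, Int.cast_det]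
  congr 1
  ext i j
  have h1 : (bas J).repr (RingOfIntegers.basis K j • v) i =
      ∑ k, (bas J).repr v k * (bas J).repr (RingOfIntegers.basis K j • bas J k) i := by
    conv_lhs => rw [← (bas J).sum_repr v]
    rw [Finset.smul_sum, map_sum, Finsupp.finsetSum_apply]
    refine Finset.sum_congr rfl fun k _ => ?_
    rw [smul_comm, map_zsmul, Finsupp.smul_apply, smul_eq_mul]
  simp only [Matrix.map_apply, mulMat, Matrix.of_apply, Matrix.sum_apply, Matrix.smul_apply,
    smul_eq_mul, cq, h1]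
  push_cast
  rfl

theorem natAbs_cast_even {R : Type*} {q : ℕ} {f : ZMod q → R} (hf : ∀ z, f (-z) = f z) (a : ℤ) :
    f ((a.natAbs : ℕ) : ZMod q) = f (a : ZMod q) := by
  rcases Int.natAbs_eq a with h | h
  · have : ((a.natAbs : ℕ) : ZMod q) = (a : ZMod q) := by
      conv_rhs => rw [h]
      simp
    rw [this]
  · have : (a : ZMod q) = - ((a.natAbs : ℕ) : ZMod q) := by
      conv_lhs => rw [h]
      simp
    rw [this, hf]

/-- `f(|N v| / N J) = f(nuq (coordinates of v))` for even `f` -/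
theorem even_apply {R : Type*} (J : (Ideal (𝓞 K))⁰) {q : ℕ} {f : ZMod q → R}
    (hf : ∀ z, f (-z) = f z) (v : (J : Ideal (𝓞 K))) :
    f (((Algebra.norm ℤ (v : 𝓞 K)).natAbs / Ideal.absNorm (J : Ideal (𝓞 K)) : ℕ) : ZMod q) =
      f (nuq J q (cq J q v)) := by
  rw [natAbs_norm_div, natAbs_cast_even hf, cast_nu]

/-! ### representatives -/

section Rep

variable (J : (Ideal (𝓞 K))⁰) (q : ℕ) [NeZero q]

/-- representative of the coordinates -/
noncomputable def rep (k : Ix K → ZMod q) : (J : Ideal (𝓞 K)) := ∑ i, ((k i).val : ℤ) • bas J i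

theorem repr_rep (k : Ix K → ZMod q) (i : Ix K) : (bas J).repr (rep J q k) i = (k i).val := by
  rw [rep, Basis.repr_sum_self]

theorem repr_rep_add (k : Ix K → ZMod q) (m : (J : Ideal (𝓞 K))) (i : Ix K) :
    (bas J).repr (rep J q k + (q : ℤ) • m) i = (k i).val + q * (bas J).repr m i := by
  rw [map_add, Finsupp.add_apply, repr_rep, map_zsmul, Finsupp.smul_apply, smul_eq_mul]

theorem cq_rep_add (k : Ix K → ZMod q) (m : (J : Ideal (𝓞 K))) :
    cq J q (rep J q k + (q : ℤ) • m) = k := by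
  ext i
  rw [cq, repr_rep_add]
  simp

/-- `J = ⨆ (rep k + q J)` -/
noncomputable def split : (Ix K → ZMod q) × (J : Ideal (𝓞 K)) ≃ (J : Ideal (𝓞 K)) :=
  Equiv.ofBijective (fun p => rep J q p.1 + (q : ℤ) • p.2) <| by
    have hq : (q : ℤ) ≠ 0 := by exact_mod_cast NeZero.ne q
    constructor
    · intro p p' h
      have h1 : p.1 = p'.1 := by
        rw [← cq_rep_add J q p.1 p.2, ← cq_rep_add J q p'.1 p'.2]
        exact congrArg _ h
      refine Prod.ext h1 ?_
      have h2 : rep J q p.1 + (q : ℤ) • p.2 = rep J q p'.1 + (q : ℤ) • p'.2 := h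
      rw [h1] at h2
      have h3 := add_left_cancel h2
      refine (bas J).ext_elem fun i => ?_
      have h4 := congrArg (fun x => (bas J).repr x i) h3
      simp only [map_zsmul, Finsupp.smul_apply, smul_eq_mul] at h4
      exact mul_left_cancel₀ hq h4
    · intro v
      refine ⟨(cq J q v, ∑ i, ((bas J).repr v i / (q : ℤ)) • bas J i), ?_⟩
      refine (bas J).ext_elem fun i => ?_
      simp only
      rw [repr_rep_add, Basis.repr_sum_self, cq, ZMod.val_intCast]
      exact Int.emod_add_mul_ediv _ _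

theorem split_apply (k : Ix K → ZMod q) (m : (J : Ideal (𝓞 K))) :
    split J q (k, m) = rep J q k + (q : ℤ) • m := rfl

end Rep

end Crest.Agent.R014.Cnt5_726
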