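import Mathlib
import Crest.Agent.R014.Cnt3_726
import Crest.Agent.R014.Cnt4_726
import Crest.Agent.R014.Cnt5_726

/-!
# Two sided bounds for the Riesz mean over one ideal class, extended nonnegative reals
-/

namespace Crest.Agent.R014.Cnt6_726

open MeasureTheory NumberField NumberField.Units NumberField.Units.dirichletUnitTheorem
open NumberField.mixedEmbedding NumberField.InfinitePlace Module
open scoped ENNReal nonZeroDivisors NNReal
open scoped Classical
open Crest.Agent.R014.Cnt1_726 Crest.Agent.R014.Cnt2_726 Crest.Agent.R014.Cnt3_726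
open Crest.Agent.R014.Cnt4_726 Crest.Agent.R014.Cnt5_726

variable {K : Type*} [Field K] [NumberField K]

theorem isWeight_tw (h : logSpace K) : IsWeight (tw h) := ⟨tw_pos h, prod_tw h⟩

/-- elements of `J` as lattice points -/
noncomputable def embL (J : (Ideal (𝓞 K))⁰) :
    (J : Ideal (𝓞 K)) ≃ idealLattice K (FractionalIdeal.mk0 K J) :=
  Equiv.ofBijective (fun m => ⟨mixedEmbedding K ((m : 𝓞 K) : K), mem_idealLattice_of_mem m.2⟩) <| by
    constructor
    · intro m m' h
      have h1 := congrArg Subtype.val h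
      have h2 := (mixedEmbedding_injective K) h1
      exact Subtype.ext (RingOfIntegers.ext h2)
    · rintro ⟨x, hx⟩
      rw [mem_idealLattice] at hx
      obtain ⟨y, hy, rfl⟩ := hx
      rw [FractionalIdeal.coe_mk0] at hy
      obtain ⟨v, hv, rfl⟩ := (FractionalIdeal.mem_coeIdeal _).1 hy
      exact ⟨⟨v, hv⟩, rfl⟩

theorem coe_embL (J : (Ideal (𝓞 K))⁰) (m : (J : Ideal (𝓞 K))) :
    (embL J m : mixedSpace K) = mixedEmbedding K ((m : 𝓞 K) : K) := rfl

section Fix

variable (J : (Ideal (𝓞 K))⁰) (q : ℕ) [NeZero q]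

/-- the base point of a coset -/
noncomputable def zk (k : Ix K → ZMod q) : mixedSpace K :=
  (q : ℝ)⁻¹ • mixedEmbedding K ((rep J q k : 𝓞 K) : K)

theorem mem_bx_iff (k : Ix K → ZMod q) (m : (J : Ideal (𝓞 K))) (X : ℝ) (t : InfinitePlace K → ℝ) :
    mixedEmbedding K (((rep J q k + (q : ℤ) • m : (J : Ideal (𝓞 K))) : 𝓞 K) : K) ∈ bx X t ↔
      zk J q k + (embL J m : mixedSpace K) ∈ bx (X / q) t := by
  have hq : (0 : ℝ) < q := by exact_mod_cast Nat.pos_of_ne_zero (NeZero.ne q)
  have h1 : mixedEmbedding K (((rep J q k + (q : ℤ) • m : (J : Ideal (𝓞 K))) : 𝓞 K) : K) =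
      (q : ℝ) • (zk J q k + (embL J m : mixedSpace K)) := by
    rw [zk, coe_embL, smul_add, smul_smul, mul_inv_cancel₀ hq.ne', one_smul]
    have h2 : (((rep J q k + (q : ℤ) • m : (J : Ideal (𝓞 K))) : 𝓞 K) : K) =
        ((rep J q k : 𝓞 K) : K) + (q : K) * ((m : 𝓞 K) : K) := by
      push_cast
      rw [zsmul_eq_mul]
      push_cast
      rfl
    rw [h2, map_add, map_mul, map_natCast]
    congr 1
  rw [h1]
  refine forall_congr' fun w => ?_
  rw [normAtPlace_smul, abs_of_pos hq, mul_assoc, le_div_iff₀ hq, mul_comm]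

/-- sum over all elements of `J` in a weighted box -/
noncomputable def tot (f : ZMod q → ℝ≥0∞) (X : ℝ) (t : InfinitePlace K → ℝ) : ℝ≥0∞ :=
  ∑' v : (J : Ideal (𝓞 K)), f (nuq J q (cq J q v)) *
    (bx X t).indicator 1 (mixedEmbedding K ((v : 𝓞 K) : K))

theorem tot_eq (f : ZMod q → ℝ≥0∞) (X : ℝ) (t : InfinitePlace K → ℝ) :
    tot J q f X t = ∑ k : Ix K → ZMod q, f (nuq J q k) *
      cnt (idealLattice K (FractionalIdeal.mk0 K J)) (zk J q k) (bx (X / q) t) := by
  rw [tot, ← (split J q).tsum_eq]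
  have h1 : ∀ p : (Ix K → ZMod q) × (J : Ideal (𝓞 K)),
      f (nuq J q (cq J q (split J q p))) *
        (bx X t).indicator 1 (mixedEmbedding K ((split J q p : 𝓞 K) : K)) =
      (fun (k : Ix K → ZMod q) (m : (J : Ideal (𝓞 K))) => f (nuq J q k) *
        (bx (X / q) t).indicator 1 (zk J q k + (embL J m : mixedSpace K))) p.1 p.2 := by
    rintro ⟨k, m⟩
    simp only [split_apply]
    rw [cq_rep_add]
    congr 1
    by_cases h : mixedEmbedding K (((rep J q k + (q : ℤ) • m : (J : Ideal (𝓞 K))) : 𝓞 K) : K) ∈ bx X t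
    · rw [Set.indicator_of_mem h, Set.indicator_of_mem ((mem_bx_iff J q k m X t).1 h)]; rfl
    · rw [Set.indicator_of_notMem h,
        Set.indicator_of_notMem (fun h' => h ((mem_bx_iff J q k m X t).2 h'))]
  rw [tsum_congr h1, ENNReal.tsum_prod (f := fun (k : Ix K → ZMod q) (m : (J : Ideal (𝓞 K))) =>
    f (nuq J q k) * (bx (X / q) t).indicator 1 (zk J q k + (embL J m : mixedSpace K))),
    tsum_fintype]
  refine Finset.sum_congr rfl fun k _ => ?_
  rw [ENNReal.tsum_mul_left, cnt, ← (embL J).tsum_eq]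

/-- the sum of the values of `f` at the norm form over all residues -/
noncomputable def sumf (f : ZMod q → ℝ≥0∞) : ℝ≥0∞ := ∑ k : Ix K → ZMod q, f (nuq J q k)

theorem tot_le (f : ZMod q → ℝ≥0∞) {X : ℝ} (hX : 0 ≤ X) {t : InfinitePlace K → ℝ}
    (ht : IsWeight t) :
    ENNReal.ofReal (V J) * tot J q f X t ≤
      sumf J q f * ENNReal.ofReal (C0 K * (X / q + 2 * rho J) ^ finrank ℚ K) := by
  rw [tot_eq, Finset.mul_sum, sumf, Finset.sum_mul]
  refine Finset.sum_le_sum fun k _ => ?_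
  calc ENNReal.ofReal (V J) * (f (nuq J q k) *
        cnt (idealLattice K (FractionalIdeal.mk0 K J)) (zk J q k) (bx (X / q) t))
      = f (nuq J q k) * (ENNReal.ofReal (V J) *
        cnt (idealLattice K (FractionalIdeal.mk0 K J)) (zk J q k) (bx (X / q) t)) := by ring
    _ ≤ _ := by gcongr; exact cnt_le J ht (by positivity) _

theorem le_tot (f : ZMod q → ℝ≥0∞) {X : ℝ} (hX : rho J ≤ X / q) {t : InfinitePlace K → ℝ}
    (ht : IsWeight t) :
    sumf J q f * ENNReal.ofReal (C0 K * (X / q - rho J) ^ finrank ℚ K) ≤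
    ENNReal.ofReal (V J) * tot J q f X t := by
  rw [tot_eq, Finset.mul_sum, sumf, Finset.sum_mul]
  refine Finset.sum_le_sum fun k _ => ?_
  calc f (nuq J q k) * ENNReal.ofReal (C0 K * (X / q - rho J) ^ finrank ℚ K)
      ≤ f (nuq J q k) * (ENNReal.ofReal (V J) *
        cnt (idealLattice K (FractionalIdeal.mk0 K J)) (zk J q k) (bx (X / q) t)) := by
        gcongr; exact le_cnt J ht hX _
    _ = _ := by ring

/-- the integrand of the unfolding -/
noncomputable def Sh (f : ZMod q → ℝ≥0∞) (X : ℝ) (h : logSpace K) : ℝ≥0∞ :=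
  ∑' v : nzI J, f (((Algebra.norm ℤ (v : 𝓞 K)).natAbs / Ideal.absNorm (J : Ideal (𝓞 K)) : ℕ) :
    ZMod q) * (sA X ((v : 𝓞 K) : K)).indicator 1 h

omit [NeZero q] in
theorem tot_eq_add {f : ZMod q → ℝ≥0∞} (hf : ∀ z, f (-z) = f z) {X : ℝ} (hX : 0 ≤ X)
    (h : logSpace K) : tot J q f X (tw h) = f (nuq J q (cq J q 0)) + Sh J q f X h := by
  rw [tot, ENNReal.tsum_eq_add_tsum_ite (0 : (J : Ideal (𝓞 K)))]
  congr 1
  · have : mixedEmbedding K ((((0 : (J : Ideal (𝓞 K))) : 𝓞 K)) : K) ∈ bx X (tw h) := by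
      intro w
      simpa using hX
    rw [Set.indicator_of_mem this]
    simp
  · let e : nzI J → (J : Ideal (𝓞 K)) := fun v => ⟨v.1, v.2.1⟩
    have he : Function.Injective e := by
      intro v v' hv
      exact Subtype.ext (congrArg (fun z : (J : Ideal (𝓞 K)) => (z : 𝓞 K)) hv)
    have hsup : Function.support (fun v : (J : Ideal (𝓞 K)) => if v = 0 then (0 : ℝ≥0∞) else
        f (nuq J q (cq J q v)) *
          (bx X (tw h)).indicator 1 (mixedEmbedding K ((v : 𝓞 K) : K))) ⊆ Set.range e := by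
      intro v hv
      have hv0 : v ≠ 0 := by
        rintro rfl
        simp at hv
      exact ⟨⟨v.1, v.2, fun h0 => hv0 (Subtype.ext h0)⟩, rfl⟩
    have h5 := he.tsum_eq hsup
    refine Eq.trans (tsum_congr fun v => ?_) (h5.symm.trans ?_)
    · split_ifs <;> rfl
    rw [Sh]
    refine tsum_congr fun v => ?_
    have hv0 : e v ≠ 0 := fun h0 => v.2.2 (congrArg Subtype.val h0)
    rw [if_neg hv0, ← even_apply J hf (e v)]
    congr 1
    have hiff : mixedEmbedding K (((e v : (J : Ideal (𝓞 K))) : 𝓞 K) : K) ∈ bx X (tw h) ↔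
        h ∈ sA X ((v : 𝓞 K) : K) := by
      refine forall_congr' fun w => ?_
      rw [normAtPlace_apply]
    by_cases h1 : h ∈ sA X ((v : 𝓞 K) : K)
    · rw [Set.indicator_of_mem h1, Set.indicator_of_mem (hiff.2 h1)]; rfl
    · rw [Set.indicator_of_notMem h1, Set.indicator_of_notMem (fun h2 => h1 (hiff.1 h2))]

end Fix

/-! ### integration over the unit torus -/

theorem exists_fd (K : Type*) [Field K] [NumberField K] : ∃ F : Set (logSpace K),
    IsAddFundamentalDomain (unitLattice K) F volume ∧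
      volume F = ENNReal.ofReal (regulator K) := by
  let b := basisUnitLattice K
  refine ⟨ZSpan.fundamentalDomain (b.ofZLatticeBasis ℝ), ZLattice.isAddFundamentalDomain b volume,
    ?_⟩
  have h1 := ZLattice.covolume_eq_measure_fundamentalDomain (unitLattice K) volume
    (ZLattice.isAddFundamentalDomain b volume)
  have hfin : volume (ZSpan.fundamentalDomain (b.ofZLatticeBasis ℝ)) ≠ ⊤ :=
    ((ZSpan.fundamentalDomain_isBounded _).measure_lt_top).ne
  rw [regulator, h1, Measure.real, ENNReal.ofReal_toReal hfin]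

/-- the Riesz mean over a class in extended nonnegative reals; `Y` is `log x` -/
noncomputable def rzE (c : ClassGroup (𝓞 K)) {q : ℕ} (f : ZMod q → ℝ≥0∞) (x : ℝ) : ℝ≥0∞ :=
  ∑' a : clsI K c, f (Ideal.absNorm (a.1 : Ideal (𝓞 K)) : ZMod q) *
    ENNReal.ofReal (wt (rank K) (Real.log (x / Ideal.absNorm (a.1 : Ideal (𝓞 K)))))

/-- the side of the box -/
noncomputable def side (J : (Ideal (𝓞 K))⁰) (x : ℝ) : ℝ :=
  (x * Ideal.absNorm (J : Ideal (𝓞 K))) ^ ((1 : ℝ) / finrank ℚ K)

theorem side_pow (J : (Ideal (𝓞 K))⁰) {x : ℝ} (hx : 0 < x) :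
    side J x ^ finrank ℚ K = x * Ideal.absNorm (J : Ideal (𝓞 K)) := by
  have hN : (0 : ℝ) < Ideal.absNorm (J : Ideal (𝓞 K)) := by exact_mod_cast absNorm_pos J
  have hd : (0 : ℝ) < finrank ℚ K := by exact_mod_cast finrank_pos
  rw [side, ← Real.rpow_natCast, ← Real.rpow_mul (by positivity), one_div_mul_cancel hd.ne',
    Real.rpow_one]

theorem side_pos (J : (Ideal (𝓞 K))⁰) {x : ℝ} (hx : 0 < x) : 0 < side J x := by
  have hN : (0 : ℝ) < Ideal.absNorm (J : Ideal (𝓞 K)) := by exact_mod_cast absNorm_pos J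
  unfold side; positivity

theorem lintegral_Sh {c : ClassGroup (𝓞 K)} {J : (Ideal (𝓞 K))⁰} (hJ : ClassGroup.mk0 J = c⁻¹)
    {F : Set (logSpace K)} (hF : IsAddFundamentalDomain (unitLattice K) F volume) (q : ℕ)
    (f : ZMod q → ℝ≥0∞) {x : ℝ} (hx : 0 < x) :
    ∫⁻ h in F, Sh J q f (side J x) h = torsionOrder K * rzE c f x := by
  have hN : (0 : ℝ) < Ideal.absNorm (J : Ideal (𝓞 K)) := by exact_mod_cast absNorm_pos J
  have := unfold_eq hJ hF (side_pos J hx) (fun n => f (n : ZMod q))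
  unfold Sh
  rw [this, rzE]
  congr 1
  refine tsum_congr fun a => ?_
  congr 3
  have hNa : (0 : ℝ) < Ideal.absNorm (a.1 : Ideal (𝓞 K)) := by exact_mod_cast absNorm_pos a.1
  rw [← Real.log_pow, side_pow J hx, ← Real.log_div (by positivity) (by positivity)]
  congr 1
  field_simp

/-- **upper bound**, extended form -/
theorem rzE_le {c : ClassGroup (𝓞 K)} {J : (Ideal (𝓞 K))⁰} (hJ : ClassGroup.mk0 J = c⁻¹)
    (q : ℕ) [NeZero q] {f : ZMod q → ℝ≥0∞} (hf : ∀ z, f (-z) = f z) {x : ℝ} (hx : 0 < x) :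
    ENNReal.ofReal (V J) * (torsionOrder K * rzE c f x) ≤
      ENNReal.ofReal (regulator K) * (sumf J q f *
        ENNReal.ofReal (C0 K * (side J x / q + 2 * rho J) ^ finrank ℚ K)) := by
  obtain ⟨F, hF, hF2⟩ := exists_fd K
  rw [← lintegral_Sh hJ hF q f hx]
  calc ENNReal.ofReal (V J) * ∫⁻ h in F, Sh J q f (side J x) h
      ≤ ∫⁻ h in F, ENNReal.ofReal (V J) * Sh J q f (side J x) h := lintegral_const_mul_le _ _
    _ ≤ ∫⁻ _h in F, sumf J q f *
        ENNReal.ofReal (C0 K * (side J x / q + 2 * rho J) ^ finrank ℚ K) := by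
        refine lintegral_mono fun h => ?_
        refine le_trans ?_ (tot_le J q f (side_pos J hx).le (isWeight_tw h))
        rw [tot_eq_add J q hf (side_pos J hx).le]
        gcongr
        exact le_add_self
    _ = _ := by rw [lintegral_const, Measure.restrict_apply_univ, hF2, mul_comm]

/-- **lower bound**, extended form -/
theorem le_rzE {c : ClassGroup (𝓞 K)} {J : (Ideal (𝓞 K))⁰} (hJ : ClassGroup.mk0 J = c⁻¹)
    (q : ℕ) [NeZero q] {f : ZMod q → ℝ≥0∞} (hf : ∀ z, f (-z) = f z) (hf1 : ∀ z, f z ≤ 1) {x : ℝ}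
    (hx : 0 < x) (hx2 : rho J ≤ side J x / q) :
    ENNReal.ofReal (regulator K) * (sumf J q f *
        ENNReal.ofReal (C0 K * (side J x / q - rho J) ^ finrank ℚ K)) ≤
    ENNReal.ofReal (V J) * (ENNReal.ofReal (regulator K) + torsionOrder K * rzE c f x) := by
  obtain ⟨F, hF, hF2⟩ := exists_fd K
  rw [← lintegral_Sh hJ hF q f hx]
  calc ENNReal.ofReal (regulator K) * (sumf J q f *
        ENNReal.ofReal (C0 K * (side J x / q - rho J) ^ finrank ℚ K))
      = ∫⁻ _h in F, sumf J q f *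
        ENNReal.ofReal (C0 K * (side J x / q - rho J) ^ finrank ℚ K) := by
        rw [lintegral_const, Measure.restrict_apply_univ, hF2, mul_comm]
    _ ≤ ∫⁻ h in F, ENNReal.ofReal (V J) * (1 + Sh J q f (side J x) h) := by
        refine lintegral_mono fun h => ?_
        refine (le_tot J q f hx2 (isWeight_tw h)).trans ?_
        rw [tot_eq_add J q hf (side_pos J hx).le]
        gcongr
        exact hf1 _
    _ = ENNReal.ofReal (V J) * ∫⁻ h in F, (1 + Sh J q f (side J x) h) :=
        lintegral_const_mul' _ _ ENNReal.ofReal_ne_top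
    _ = _ := by
        rw [lintegral_add_left measurable_const, lintegral_const, Measure.restrict_apply_univ, hF2,
          one_mul]

/-- Minkowski: the regulator is bounded by a short Riesz mean -/
theorem regulator_le_rzE (c : ClassGroup (𝓞 K)) :
    ENNReal.ofReal (regulator K) ≤
      torsionOrder K * rzE c (fun _ : ZMod 1 => 1) (2 * sD K) := by
  obtain ⟨F, hF, hF2⟩ := exists_fd K
  obtain ⟨J, hJ⟩ := ClassGroup.mk0_surjective c⁻¹
  have hs := sD_pos K
  rw [← lintegral_Sh hJ hF 1 (fun _ : ZMod 1 => 1) (by positivity), ← hF2]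
  calc volume F = ∫⁻ _h in F, 1 := by simp
    _ ≤ _ := by
      refine lintegral_mono fun h => ?_
      obtain ⟨v, hv, hv0, hvt⟩ := exists_small J (isWeight_tw h)
      refine le_trans ?_ (ENNReal.le_tsum (⟨v, hv, hv0⟩ : nzI J))
      have : h ∈ sA (side J (2 * sD K)) (v : K) := fun w => hvt w
      simp [this]

end Crest.Agent.R014.Cnt6_726
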