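import Crest.Agent.R014.DivB_684

/-!
# Row 14, N1: trivial bounds for ideals, uniform in the field (helper550)

* `exists_coding`: the nonzero ideals of `𝓞 E` inject into `Fin d → ℕ` (`d = [E : ℚ]`) such that
  the norm is the product of the coordinates;
* `card_norm_le_log`: `#{a ≠ 0 : N a ≤ x} ≤ x (1 + log x)^d`;
* `summable_norm`: `∑ N a^{-z} < ∞` for `z > 1`, with sum at most `ζ(z)^d`.
-/

set_option autoImplicit false

open NumberField Ideal UniqueFactorizationMonoid

noncomputable section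

namespace Crest.Agent.R014.Ic2_550

open Crest.Agent.R014.DivB_684

universe u

variable {E : Type u} [Field E] [NumberField E]

/-- nonzero primes above `p` -/
def above (E : Type u) [Field E] [NumberField E] (p : ℕ) : Set (Ideal (𝓞 E)) :=
  {P | P.IsPrime ∧ P ≠ ⊥ ∧ (absNorm P).minFac = p}

theorem prime_data {P : Ideal (𝓞 E)} (hP : P.IsPrime) (h0 : P ≠ ⊥) :
    ∃ n, 0 < n ∧ ((absNorm P).minFac : 𝓞 E) ∈ P ∧ (absNorm P).minFac.Prime ∧
      absNorm P = (absNorm P).minFac ^ n := by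
  have : P.IsMaximal := hP.isMaximal h0
  obtain ⟨p, n, hn, hp, hpp, hN⟩ := Ideal.exists_prime_and_absNorm_eq_pow P
  have h1 : (absNorm P).minFac = p := by
    rw [hN, Nat.Prime.pow_minFac hpp hn.ne']
  refine ⟨n, hn, ?_, ?_, ?_⟩
  · rw [h1]; exact hp
  · rw [h1]; exact hpp
  · rw [h1]; exact hN

theorem card_above_le {p : ℕ} (S : Finset (Ideal (𝓞 E))) (hS : ∀ P ∈ S, P ∈ above E p) :
    S.card ≤ Module.finrank ℚ E := by
  classical
  rcases S.eq_empty_or_nonempty with rfl | ⟨P0, hP0⟩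
  · simp
  have hp : p.Prime := by
    obtain ⟨h1, h2, h3⟩ := hS P0 hP0
    obtain ⟨n, _, _, h4, _⟩ := prime_data h1 h2
    rw [h3] at h4; exact h4
  have hdvd : (∏ P ∈ S, P) ∣ span {(p : 𝓞 E)} := by
    apply Finset.prod_dvd_of_coprime
    · intro P hP Q hQ hPQ
      have hPp := hS P hP
      have hQp := hS Q hQ
      have : IsCoprime P Q := by
        rw [Ideal.isCoprime_iff_sup_eq]
        have hPm : P.IsMaximal := hPp.1.isMaximal hPp.2.1
        have hQm : Q.IsMaximal := hQp.1.isMaximal hQp.2.1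
        exact hPm.coprime_of_ne hQm hPQ
      exact this
    · intro P hP
      obtain ⟨h1, h2, h3⟩ := hS P hP
      obtain ⟨n, _, h5, h4, _⟩ := prime_data h1 h2
      rw [h3] at h5
      rw [dvd_span_singleton]
      exact h5
  have h2 : absNorm (∏ P ∈ S, P) ∣ absNorm (span {(p : 𝓞 E)}) := absNorm_dvd_absNorm_of_le
    (Ideal.dvd_iff_le.mp hdvd)
  rw [absNorm_span_nat, map_prod] at h2
  have h3 : p ^ S.card ∣ ∏ P ∈ S, absNorm P := by
    rw [← Finset.prod_const]
    apply Finset.prod_dvd_prod_of_dvd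
    intro P hP
    obtain ⟨h1, h2, h3⟩ := hS P hP
    rw [← h3]
    exact Nat.minFac_dvd _
  exact (Nat.pow_dvd_pow_iff_le_right hp.one_lt).mp (h3.trans h2)

theorem above_finite (p : ℕ) : (above E p).Finite := by
  by_contra h
  obtain ⟨t, ht, hc⟩ := Set.Infinite.exists_subset_card_eq h (Module.finrank ℚ E + 1)
  have := card_above_le (E := E) (p := p) t (fun P hP => ht hP)
  omega

theorem exists_label (p : ℕ) :
    ∃ lab : Ideal (𝓞 E) → Fin (Module.finrank ℚ E), Set.InjOn lab (above E p) := by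
  classical
  have hd : 0 < Module.finrank ℚ E := Module.finrank_pos
  have hfin := above_finite (E := E) p
  have hcard : hfin.toFinset.card ≤ Module.finrank ℚ E :=
    card_above_le _ (fun P hP => (hfin.mem_toFinset).mp hP)
  let e := hfin.toFinset.equivFin
  refine ⟨fun P => if h : P ∈ hfin.toFinset then Fin.castLE hcard (e ⟨P, h⟩) else ⟨0, hd⟩, ?_⟩
  intro P hP Q hQ hPQ
  have hP' : P ∈ hfin.toFinset := hfin.mem_toFinset.mpr hP
  have hQ' : Q ∈ hfin.toFinset := hfin.mem_toFinset.mpr hQ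
  simp only [hP', hQ', dif_pos] at hPQ
  have := e.injective (Fin.castLE_injective hcard hPQ)
  exact congrArg Subtype.val this

/-- a labelling, injective on the primes above `p` -/
def labp (p : ℕ) : Ideal (𝓞 E) → Fin (Module.finrank ℚ E) :=
  Classical.choose (exists_label (E := E) p)

theorem labp_spec (p : ℕ) : Set.InjOn (labp (E := E) p) (above E p) :=
  Classical.choose_spec (exists_label (E := E) p)

/-- a labelling of the primes, injective on the primes above each `p` -/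
def lab (P : Ideal (𝓞 E)) : Fin (Module.finrank ℚ E) := labp (absNorm P).minFac P

theorem lab_inj {P Q : Ideal (𝓞 E)} (hP : P.IsPrime) (hP0 : P ≠ ⊥) (hQ : Q.IsPrime) (hQ0 : Q ≠ ⊥)
    (hm : (absNorm P).minFac = (absNorm Q).minFac) (h : lab P = lab Q) : P = Q := by
  unfold lab at h
  rw [← hm] at h
  exact labp_spec (E := E) (absNorm P).minFac ⟨hP, hP0, rfl⟩ ⟨hQ, hQ0, hm.symm⟩ h

/-- the coding of ideals -/
def code (a : Ideal (𝓞 E)) (j : Fin (Module.finrank ℚ E)) : ℕ :=
  ∏ P ∈ (normalizedFactors a).toFinset with lab P = j, absNorm P ^ (normalizedFactors a).count P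

theorem prod_code {a : Ideal (𝓞 E)} (ha : a ≠ ⊥) : ∏ j, code a j = absNorm a := by
  rw [absNorm_eq_prod ha]
  unfold code
  rw [← Finset.prod_fiberwise (normalizedFactors a).toFinset lab]

theorem prime_of_mem {a P : Ideal (𝓞 E)} (hP : P ∈ normalizedFactors a) :
    P.IsPrime ∧ P ≠ ⊥ := by
  have h1 : Prime P := prime_of_normalized_factor P hP
  exact ⟨isPrime_of_prime h1, h1.ne_zero⟩

theorem factorization_code {a P : Ideal (𝓞 E)} (hP : P.IsPrime) (hP0 : P ≠ ⊥) :
    (code a (lab P)).factorization (absNorm P).minFac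
      = (normalizedFactors a).count P * (absNorm P).factorization (absNorm P).minFac := by
  unfold code
  rw [Nat.factorization_prod]
  · rw [Finsupp.finsetSum_apply]
    rw [Finset.sum_eq_single P]
    · rw [Nat.factorization_pow]
      simp only [Finsupp.smul_apply, smul_eq_mul]
    · intro Q hQ hQP
      rw [Finset.mem_filter, Multiset.mem_toFinset] at hQ
      obtain ⟨hQ1, hQ2⟩ := prime_of_mem hQ.1
      have hne : (absNorm Q).minFac ≠ (absNorm P).minFac := by
        intro h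
        exact hQP (lab_inj hQ1 hQ2 hP hP0 h hQ.2)
      obtain ⟨n, _, _, hq, hN⟩ := prime_data hQ1 hQ2
      have h0 : (absNorm Q).factorization (absNorm P).minFac = 0 := by
        generalize (absNorm Q).minFac = q at hq hN hne
        rw [hN, hq.factorization_pow]
        exact Finsupp.single_eq_of_ne (Ne.symm hne)
      rw [Nat.factorization_pow]
      simp only [Finsupp.smul_apply, smul_eq_mul, h0, mul_zero]
    · intro h
      rw [Finset.mem_filter, not_and] at h
      have : P ∉ (normalizedFactors a).toFinset := fun h' => h h' rfl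
      rw [Multiset.mem_toFinset] at this
      rw [Multiset.count_eq_zero_of_notMem this]
      simp
  · intro Q hQ
    rw [Finset.mem_filter, Multiset.mem_toFinset] at hQ
    obtain ⟨hQ1, hQ2⟩ := prime_of_mem hQ.1
    have := two_le_absNorm hQ1 hQ2
    positivity

theorem code_injOn : Set.InjOn (code (E := E)) {a | a ≠ ⊥} := by
  intro a ha b hb hab
  have ha' : a ≠ 0 := ha
  have hb' : b ≠ 0 := hb
  rw [← Ideal.prod_normalizedFactors_eq_self ha', ← Ideal.prod_normalizedFactors_eq_self hb']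
  congr 1
  ext P
  by_cases hP : P.IsPrime ∧ P ≠ ⊥
  · have h1 := factorization_code (a := a) hP.1 hP.2
    have h2 := factorization_code (a := b) hP.1 hP.2
    rw [hab, h2] at h1
    obtain ⟨n, hn, _, hq, hN⟩ := prime_data hP.1 hP.2
    have h3 : (absNorm P).factorization (absNorm P).minFac ≠ 0 := by
      have : (absNorm P).minFac ∣ absNorm P := Nat.minFac_dvd _
      have h4 : absNorm P ≠ 0 := by have := two_le_absNorm hP.1 hP.2; omega
      exact (hq.factorization_pos_of_dvd h4 this).ne'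
    exact (Nat.eq_of_mul_eq_mul_right (Nat.pos_of_ne_zero h3) h1).symm
  · rw [Multiset.count_eq_zero_of_notMem (fun h => hP (prime_of_mem h)),
      Multiset.count_eq_zero_of_notMem (fun h => hP (prime_of_mem h))]

theorem code_ne_zero {a : Ideal (𝓞 E)} (ha : a ≠ ⊥) (j : Fin (Module.finrank ℚ E)) :
    code a j ≠ 0 := by
  have h := prod_code ha
  have h1 : absNorm a ≠ 0 := by rwa [Ne, absNorm_eq_zero_iff]
  rw [← h] at h1
  exact Finset.prod_ne_zero_iff.mp h1 j (Finset.mem_univ j)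

theorem code_le {a : Ideal (𝓞 E)} (ha : a ≠ ⊥) (j : Fin (Module.finrank ℚ E)) :
    code a j ≤ absNorm a := by
  have h1 : absNorm a ≠ 0 := by rwa [Ne, absNorm_eq_zero_iff]
  refine Nat.le_of_dvd (Nat.pos_of_ne_zero h1) ?_
  rw [← prod_code ha]
  exact Finset.dvd_prod_of_mem _ (Finset.mem_univ j)

/-- weighted sums over finite sets of ideals are bounded by powers of sums over integers -/
theorem sum_le (S : Finset (Ideal (𝓞 E))) (hS : ∀ a ∈ S, a ≠ ⊥) (N : ℕ) (hN : ∀ a ∈ S, absNorm a ≤ N)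
    (f : ℕ → ℝ) (hf : ∀ n, 0 ≤ f n) (hm : ∀ (v : Fin (Module.finrank ℚ E) → ℕ), (∀ j, v j ≠ 0) →
      f (∏ j, v j) = ∏ j, f (v j)) :
    ∑ a ∈ S, f (absNorm a) ≤ (∑ n ∈ Finset.Icc 1 N, f n) ^ Module.finrank ℚ E := by
  classical
  have h1 : (∑ n ∈ Finset.Icc 1 N, f n) ^ Module.finrank ℚ E
      = ∑ v ∈ Fintype.piFinset (fun _ : Fin (Module.finrank ℚ E) => Finset.Icc 1 N),
        ∏ j, f (v j) := by
    rw [← Finset.prod_univ_sum]
    simp
  rw [h1]
  have h2 : ∑ a ∈ S, f (absNorm a) = ∑ v ∈ S.image code, ∏ j, f (v j) := by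
    rw [Finset.sum_image (fun a ha b hb h => code_injOn (hS a ha) (hS b hb) h)]
    refine Finset.sum_congr rfl fun a ha => ?_
    rw [← prod_code (hS a ha), hm _ (code_ne_zero (hS a ha))]
  rw [h2]
  refine Finset.sum_le_sum_of_subset_of_nonneg ?_ (fun v _ _ => Finset.prod_nonneg fun j _ => hf _)
  intro v hv
  rw [Finset.mem_image] at hv
  obtain ⟨a, ha, rfl⟩ := hv
  rw [Fintype.mem_piFinset]
  intro j
  rw [Finset.mem_Icc]
  exact ⟨Nat.one_le_iff_ne_zero.mpr (code_ne_zero (hS a ha) j), (code_le (hS a ha) j).trans (hN a ha)⟩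

theorem finite_norm_le (x : ℝ) : {a : Ideal (𝓞 E) | a ≠ ⊥ ∧ (absNorm a : ℝ) ≤ x}.Finite :=
  DivB_684.finite_norm_le x

/-- **trivial bound**: `#{a ≠ 0 : N a ≤ x} ≤ x (1 + log x)^d` -/
theorem card_norm_le_log {x : ℝ} (hx : 1 ≤ x) :
    ({a : Ideal (𝓞 E) | a ≠ ⊥ ∧ (absNorm a : ℝ) ≤ x}.ncard : ℝ)
      ≤ x * (1 + Real.log x) ^ Module.finrank ℚ E := by
  have hfin := finite_norm_le (E := E) x
  rw [Set.ncard_eq_toFinset_card _ hfin]
  have h1 : ∀ a ∈ hfin.toFinset, a ≠ ⊥ := fun a ha => ((hfin.mem_toFinset).mp ha).1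
  have h2 : ∀ a ∈ hfin.toFinset, absNorm a ≤ ⌊x⌋₊ := fun a ha =>
    Nat.le_floor ((hfin.mem_toFinset).mp ha).2
  have h3 := sum_le hfin.toFinset h1 ⌊x⌋₊ h2 (fun n => (n : ℝ)⁻¹) (fun n => by positivity) (by
    intro v _; push_cast; rw [Finset.prod_inv_distrib])
  have h4 : (hfin.toFinset.card : ℝ) ≤ x * ∑ a ∈ hfin.toFinset, (absNorm a : ℝ)⁻¹ := by
    rw [Finset.mul_sum, Finset.card_eq_sum_ones]
    push_cast
    refine Finset.sum_le_sum fun a ha => ?_
    have h5 := ((hfin.mem_toFinset).mp ha).2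
    have h6 : (0:ℝ) < absNorm a := by
      have : absNorm a ≠ 0 := by rw [Ne, absNorm_eq_zero_iff]; exact h1 a ha
      positivity
    rw [← div_eq_mul_inv, le_div_iff₀ h6]
    linarith
  refine h4.trans ?_
  have h7 : ∑ n ∈ Finset.Icc 1 ⌊x⌋₊, (n : ℝ)⁻¹ ≤ 1 + Real.log x := by
    have := harmonic_floor_le_one_add_log x hx
    rw [harmonic_eq_sum_Icc] at this
    push_cast at this
    exact this
  have h8 : (0:ℝ) ≤ ∑ n ∈ Finset.Icc 1 ⌊x⌋₊, (n : ℝ)⁻¹ := Finset.sum_nonneg fun n _ => by positivity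
  calc x * ∑ a ∈ hfin.toFinset, (absNorm a : ℝ)⁻¹
      ≤ x * (∑ n ∈ Finset.Icc 1 ⌊x⌋₊, (n : ℝ)⁻¹) ^ Module.finrank ℚ E := by gcongr
    _ ≤ x * (1 + Real.log x) ^ Module.finrank ℚ E := by gcongr

/-- partial sums of `∑ N a^{-z}` -/
theorem sum_rpow_le {z : ℝ} (hz : 1 < z) (S : Finset (Ideal (𝓞 E))) (hS : ∀ a ∈ S, a ≠ ⊥) :
    ∑ a ∈ S, (absNorm a : ℝ) ^ (-z) ≤ (∑' n : ℕ, (n : ℝ) ^ (-z)) ^ Module.finrank ℚ E := by
  have hs : Summable fun n : ℕ => (n : ℝ) ^ (-z) := Real.summable_nat_rpow.mpr (by linarith)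
  have h3 := sum_le S hS (S.sup absNorm) (fun a ha => Finset.le_sup ha)
    (fun n => (n : ℝ) ^ (-z)) (fun n => by positivity) (by
    intro v _
    push_cast
    rw [Real.finsetProd_rpow _ _ (fun i _ => by positivity)])
  refine h3.trans ?_
  gcongr
  exact hs.sum_le_tsum _ (fun n _ => by positivity)

theorem summable_norm {z : ℝ} (hz : 1 < z) :
    Summable fun a : {a : Ideal (𝓞 E) // a ≠ ⊥} => (absNorm a.1 : ℝ) ^ (-z) := by
  refine summable_of_sum_le (c := (∑' n : ℕ, (n : ℝ) ^ (-z)) ^ Module.finrank ℚ E)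
    (fun a => by positivity) fun S => ?_
  have := sum_rpow_le (E := E) hz (S.map (Function.Embedding.subtype _)) (by
    intro a ha
    rw [Finset.mem_map] at ha
    obtain ⟨b, _, rfl⟩ := ha
    exact b.2)
  rwa [Finset.sum_map] at this

end Crest.Agent.R014.Ic2_550
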