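import Mathlib
import Crest.Agent.R014.Cnt6_726
import Crest.Agent.R014.Ic2_550

/-!
# Riesz means over one ideal class: asymptotics with a uniform error term
-/

namespace Crest.Agent.R014.Cnt7_726

open MeasureTheory NumberField NumberField.Units NumberField.Units.dirichletUnitTheorem
open NumberField.mixedEmbedding NumberField.InfinitePlace Module
open scoped ENNReal nonZeroDivisors NNReal
open Crest.Agent.R014.Cnt1_726 Crest.Agent.R014.Cnt2_726 Crest.Agent.R014.Cnt3_726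
open Crest.Agent.R014.Cnt4_726 Crest.Agent.R014.Cnt5_726 Crest.Agent.R014.Cnt6_726

variable {K : Type*} [Field K] [NumberField K]

/-- finitely many ideals of the class have norm at most `x` -/
theorem finite_cls (c : ClassGroup (𝓞 K)) (x : ℝ) :
    {a : clsI K c | (Ideal.absNorm (a.1 : Ideal (𝓞 K)) : ℝ) ≤ x}.Finite := by
  have h := Ideal.finite_setOfPred_absNorm_le (S := 𝓞 K) ⌊x⌋₊
  refine Set.Finite.of_finite_image (f := fun a : clsI K c => (a.1 : Ideal (𝓞 K)))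
    (h.subset ?_) ?_
  · rintro _ ⟨a, ha, rfl⟩
    exact Nat.le_floor ha
  · intro a _ b _ hab
    exact Subtype.ext (Subtype.ext hab)

/-- the weight of an ideal -/
noncomputable def wi (c : ClassGroup (𝓞 K)) (x : ℝ) (a : clsI K c) : ℝ :=
  wt (rank K) (Real.log (x / Ideal.absNorm (a.1 : Ideal (𝓞 K))))

theorem wi_nonneg (c : ClassGroup (𝓞 K)) (x : ℝ) (a : clsI K c) : 0 ≤ wi c x a := wt_nonneg _ _

theorem wi_eq_zero {c : ClassGroup (𝓞 K)} {x : ℝ} (hx : 0 < x) {a : clsI K c}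
    (ha : ¬ ((Ideal.absNorm (a.1 : Ideal (𝓞 K)) : ℝ) ≤ x)) : wi c x a = 0 := by
  have hN : (0 : ℝ) < Ideal.absNorm (a.1 : Ideal (𝓞 K)) := by exact_mod_cast absNorm_pos a.1
  rw [wi, wt_of_neg]
  refine Real.log_neg (by positivity) ?_
  rw [div_lt_one hN]
  exact not_le.1 ha

/-- the finite set of the relevant ideals -/
noncomputable def Sx (c : ClassGroup (𝓞 K)) (x : ℝ) : Finset (clsI K c) := (finite_cls c x).toFinset

theorem wi_eq_zero' {c : ClassGroup (𝓞 K)} {x : ℝ} (hx : 0 < x) {a : clsI K c}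
    (ha : a ∉ Sx c x) : wi c x a = 0 := by
  refine wi_eq_zero hx fun h => ha ?_
  rw [Sx, Set.Finite.mem_toFinset]
  exact h

/-- **the Riesz mean** over the ideal class `c`, with coefficients `f (N a)` -/
noncomputable def riesz (c : ClassGroup (𝓞 K)) {q : ℕ} (f : ZMod q → ℂ) (x : ℝ) : ℂ :=
  ∑' a : clsI K c, f (Ideal.absNorm (a.1 : Ideal (𝓞 K)) : ZMod q) * (wi c x a : ℂ)

/-- the Riesz mean with real coefficients -/
noncomputable def rieszR (c : ClassGroup (𝓞 K)) {q : ℕ} (g : ZMod q → ℝ) (x : ℝ) : ℝ :=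
  ∑' a : clsI K c, g (Ideal.absNorm (a.1 : Ideal (𝓞 K)) : ZMod q) * wi c x a

theorem riesz_eq_sum (c : ClassGroup (𝓞 K)) {q : ℕ} (f : ZMod q → ℂ) {x : ℝ} (hx : 0 < x) :
    riesz c f x = ∑ a ∈ Sx c x, f (Ideal.absNorm (a.1 : Ideal (𝓞 K)) : ZMod q) * (wi c x a : ℂ) :=
  tsum_eq_sum fun a ha => by rw [wi_eq_zero' hx ha]; simp

theorem rieszR_eq_sum (c : ClassGroup (𝓞 K)) {q : ℕ} (g : ZMod q → ℝ) {x : ℝ} (hx : 0 < x) :
    rieszR c g x = ∑ a ∈ Sx c x, g (Ideal.absNorm (a.1 : Ideal (𝓞 K)) : ZMod q) * wi c x a :=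
  tsum_eq_sum fun a ha => by rw [wi_eq_zero' hx ha]; simp

theorem rzE_eq (c : ClassGroup (𝓞 K)) {q : ℕ} {g : ZMod q → ℝ} (hg : ∀ z, 0 ≤ g z) {x : ℝ}
    (hx : 0 < x) : rzE c (fun z => ENNReal.ofReal (g z)) x = ENNReal.ofReal (rieszR c g x) := by
  rw [rieszR_eq_sum c g hx, ENNReal.ofReal_sum_of_nonneg, rzE]
  · rw [tsum_eq_sum (s := Sx c x)]
    · refine Finset.sum_congr rfl fun a _ => ?_
      rw [ENNReal.ofReal_mul (hg _)]
      rfl
    · intro a ha
      have := wi_eq_zero' hx ha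
      rw [wi] at this
      rw [this]; simp
  · intro a _
    exact mul_nonneg (hg _) (wi_nonneg _ _ _)

theorem rieszR_nonneg (c : ClassGroup (𝓞 K)) {q : ℕ} {g : ZMod q → ℝ} (hg : ∀ z, 0 ≤ g z)
    (x : ℝ) : 0 ≤ rieszR c g x := tsum_nonneg fun _ => mul_nonneg (hg _) (wi_nonneg _ _ _)

/-! ### constants -/

variable (K) in
/-- normalised covering radius -/
noncomputable def rho1 : ℝ :=
  finrank ℚ K * (3 * sD K) ^ (finrank ℚ K - 1) * (2 * sD K) ^ ((1 : ℝ) / finrank ℚ K)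

variable (K) in
theorem rho1_pos : 0 < rho1 K := by
  have hd : (0 : ℝ) < finrank ℚ K := by exact_mod_cast finrank_pos
  have := sD_pos K
  unfold rho1; positivity

theorem rho_eq (J : (Ideal (𝓞 K))⁰) :
    rho J = rho1 K * (Ideal.absNorm (J : Ideal (𝓞 K)) : ℝ) ^ ((1 : ℝ) / finrank ℚ K) := by
  have hN : (0 : ℝ) < Ideal.absNorm (J : Ideal (𝓞 K)) := by exact_mod_cast absNorm_pos J
  have := sD_pos K
  rw [rho, rho1, Real.mul_rpow (by positivity) hN.le, mul_assoc, mul_assoc, mul_assoc]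

theorem side_eq (J : (Ideal (𝓞 K))⁰) {x : ℝ} (hx : 0 < x) :
    side J x = x ^ ((1 : ℝ) / finrank ℚ K) *
      (Ideal.absNorm (J : Ideal (𝓞 K)) : ℝ) ^ ((1 : ℝ) / finrank ℚ K) := by
  have hN : (0 : ℝ) < Ideal.absNorm (J : Ideal (𝓞 K)) := by exact_mod_cast absNorm_pos J
  rw [side, Real.mul_rpow hx.le hN.le]

theorem rpow_inv_pow {y : ℝ} (hy : 0 ≤ y) :
    (y ^ ((1 : ℝ) / finrank ℚ K)) ^ finrank ℚ K = y := by
  have hd : (0 : ℝ) < finrank ℚ K := by exact_mod_cast finrank_pos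
  rw [← Real.rpow_natCast, ← Real.rpow_mul hy, one_div_mul_cancel hd.ne', Real.rpow_one]

variable (K) in
/-- regulator over number of roots of unity -/
noncomputable def rgw : ℝ := regulator K / torsionOrder K

variable (K) in
theorem torsionOrder_pos' : (0 : ℝ) < torsionOrder K := by
  exact_mod_cast Nat.pos_of_ne_zero (torsionOrder_ne_zero K)

variable (K) in
theorem rgw_pos : 0 < rgw K := div_pos (regulator_pos K) (torsionOrder_pos' K)

variable (K) in
/-- the residue of one class: `2^r₁ (2π)^r₂ R / (w √D)` -/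
noncomputable def kap0 : ℝ :=
  rgw K * (2 ^ nrRealPlaces K * (2 * Real.pi) ^ nrComplexPlaces K) / sD K

variable (K) in
theorem kap0_pos : 0 < kap0 K := by
  have := sD_pos K
  have := rgw_pos K
  unfold kap0; positivity

variable (K) in
theorem kap0_mul_classNumber : kap0 K * classNumber K = dedekindZeta_residue K := by
  have h1 := (sD_pos K).ne'
  have h2 := (torsionOrder_pos' K).ne'
  rw [kap0, rgw, dedekindZeta_residue]
  rw [show √|((discr K : ℤ) : ℝ)| = sD K from rfl]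
  field_simp

theorem C0_eq : kap0 K = rgw K * (C0 K * 2 ^ nrComplexPlaces K) / sD K := by
  rw [kap0, C0, mul_pow]; ring

/-- average of `g` over the norm form -/
noncomputable def avgR (J : (Ideal (𝓞 K))⁰) (q : ℕ) [NeZero q] (g : ZMod q → ℝ) : ℝ :=
  ((q : ℝ) ^ finrank ℚ K)⁻¹ * ∑ k : Ix K → ZMod q, g (nuq J q k)

theorem card_coord (q : ℕ) [NeZero q] :
    (Fintype.card (Ix K → ZMod q) : ℝ) = (q : ℝ) ^ finrank ℚ K := by
  rw [Fintype.card_fun, ZMod.card, card_Ix]; push_cast; rfl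

theorem avgR_nonneg (J : (Ideal (𝓞 K))⁰) (q : ℕ) [NeZero q] {g : ZMod q → ℝ}
    (hg : ∀ z, 0 ≤ g z) : 0 ≤ avgR J q g := by
  unfold avgR
  have : 0 ≤ ∑ k : Ix K → ZMod q, g (nuq J q k) := Finset.sum_nonneg fun k _ => hg _
  positivity

theorem avgR_le_one (J : (Ideal (𝓞 K))⁰) (q : ℕ) [NeZero q] {g : ZMod q → ℝ}
    (hg : ∀ z, g z ≤ 1) : avgR J q g ≤ 1 := by
  have hq : (0 : ℝ) < q := by exact_mod_cast Nat.pos_of_ne_zero (NeZero.ne q)
  unfold avgR
  rw [inv_mul_le_one₀ (by positivity), ← card_coord]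
  calc ∑ k : Ix K → ZMod q, g (nuq J q k) ≤ ∑ _k : Ix K → ZMod q, (1 : ℝ) :=
        Finset.sum_le_sum fun k _ => hg _
    _ = _ := by simp

section Main

variable {c : ClassGroup (𝓞 K)} {J : (Ideal (𝓞 K))⁰} (hJ : ClassGroup.mk0 J = c⁻¹)
  (q : ℕ) [NeZero q] {g : ZMod q → ℝ} (hg : ∀ z, g (-z) = g z) (hg0 : ∀ z, 0 ≤ g z)
  (hg1 : ∀ z, g z ≤ 1) {x : ℝ}

include hJ hg hg0 in
theorem rieszR_le (hx : 0 < x) : rieszR c g x ≤ kap0 K * avgR J q g *
    (x ^ ((1 : ℝ) / finrank ℚ K) + 2 * (q * rho1 K)) ^ finrank ℚ K := by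
  have hq : (0 : ℝ) < q := by exact_mod_cast Nat.pos_of_ne_zero (NeZero.ne q)
  have hN : (0 : ℝ) < Ideal.absNorm (J : Ideal (𝓞 K)) := by exact_mod_cast absNorm_pos J
  have hs := sD_pos K
  have hw := torsionOrder_pos' K
  have hr := rho1_pos K
  have h := rzE_le hJ q (f := fun z => ENNReal.ofReal (g z)) (fun z => by rw [hg]) hx
  have hsum0 : 0 ≤ ∑ k : Ix K → ZMod q, g (nuq J q k) := Finset.sum_nonneg fun k _ => hg0 _
  rw [rzE_eq c hg0 hx, sumf, ← ENNReal.ofReal_sum_of_nonneg (fun k _ => hg0 _),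
    ← ENNReal.ofReal_natCast, ← ENNReal.ofReal_mul (by positivity),
    ← ENNReal.ofReal_mul (by rw [V_eq]; positivity), ← ENNReal.ofReal_mul hsum0,
    ← ENNReal.ofReal_mul (regulator_pos K).le, ENNReal.ofReal_le_ofReal_iff] at h
  swap
  · have := C0_pos K
    have := regulator_pos K
    have h1 : 0 < side J x := side_pos J hx
    have h2 := rho_pos J
    positivity
  have h3 : (side J x / q + 2 * rho J) ^ finrank ℚ K = Ideal.absNorm (J : Ideal (𝓞 K)) *
      ((q : ℝ) ^ finrank ℚ K)⁻¹ *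
      (x ^ ((1 : ℝ) / finrank ℚ K) + 2 * (q * rho1 K)) ^ finrank ℚ K := by
    rw [side_eq J hx, rho_eq]
    set n := (Ideal.absNorm (J : Ideal (𝓞 K)) : ℝ) ^ ((1 : ℝ) / finrank ℚ K) with hn
    have h4 : x ^ ((1 : ℝ) / finrank ℚ K) * n / q + 2 * (rho1 K * n) =
        n * (q : ℝ)⁻¹ * (x ^ ((1 : ℝ) / finrank ℚ K) + 2 * (q * rho1 K)) := by
      field_simp
    rw [h4, mul_pow, mul_pow, hn, rpow_inv_pow hN.le, inv_pow]
  rw [h3, V_eq] at h
  have h5 : rieszR c g x ≤ ((Ideal.absNorm (J : Ideal (𝓞 K)) : ℝ) * 2⁻¹ ^ nrComplexPlaces K * sD K *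
      torsionOrder K)⁻¹ * (regulator K * ((∑ k : Ix K → ZMod q, g (nuq J q k)) * (C0 K *
        (Ideal.absNorm (J : Ideal (𝓞 K)) * ((q : ℝ) ^ finrank ℚ K)⁻¹ *
      (x ^ ((1 : ℝ) / finrank ℚ K) + 2 * (q * rho1 K)) ^ finrank ℚ K)))) := by
    rw [le_inv_mul_iff₀ (by positivity)]
    calc _ = (Ideal.absNorm (J : Ideal (𝓞 K)) : ℝ) * 2⁻¹ ^ nrComplexPlaces K * sD K *
        (torsionOrder K * rieszR c g x) := by ring
      _ ≤ _ := h
  refine h5.trans (le_of_eq ?_)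
  have h6 : ((2⁻¹ : ℝ) ^ nrComplexPlaces K)⁻¹ = 2 ^ nrComplexPlaces K := by
    rw [← inv_pow, inv_inv]
  rw [C0_eq, avgR, rgw, mul_inv, mul_inv, mul_inv, h6]
  field_simp

include hJ hg hg0 hg1 in
theorem le_rieszR (hx : 0 < x) (hx2 : q * rho1 K ≤ x ^ ((1 : ℝ) / finrank ℚ K)) :
    kap0 K * avgR J q g * (x ^ ((1 : ℝ) / finrank ℚ K) - q * rho1 K) ^ finrank ℚ K ≤
      rgw K + rieszR c g x := by
  have hq : (0 : ℝ) < q := by exact_mod_cast Nat.pos_of_ne_zero (NeZero.ne q)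
  have hN : (0 : ℝ) < Ideal.absNorm (J : Ideal (𝓞 K)) := by exact_mod_cast absNorm_pos J
  have hs := sD_pos K
  have hw := torsionOrder_pos' K
  have hr := rho1_pos K
  have hreg := regulator_pos K
  set n := (Ideal.absNorm (J : Ideal (𝓞 K)) : ℝ) ^ ((1 : ℝ) / finrank ℚ K) with hn
  have hn0 : 0 < n := by positivity
  have h4 : side J x / q - rho J =
      n * (q : ℝ)⁻¹ * (x ^ ((1 : ℝ) / finrank ℚ K) - (q * rho1 K)) := by
    rw [side_eq J hx, rho_eq, ← hn]
    field_simp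
  have hx3 : rho J ≤ side J x / q := by
    rw [← sub_nonneg, h4]
    have : 0 ≤ x ^ ((1 : ℝ) / finrank ℚ K) - (q * rho1 K) := by linarith
    positivity
  have h := le_rzE hJ q (f := fun z => ENNReal.ofReal (g z)) (fun z => by rw [hg])
    (fun z => by rw [ENNReal.ofReal_le_one]; exact hg1 z) hx hx3
  have hsum0 : 0 ≤ ∑ k : Ix K → ZMod q, g (nuq J q k) := Finset.sum_nonneg fun k _ => hg0 _
  have hrz := rieszR_nonneg c hg0 x
  rw [rzE_eq c hg0 hx, sumf, ← ENNReal.ofReal_sum_of_nonneg (fun k _ => hg0 _),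
    ← ENNReal.ofReal_natCast, ← ENNReal.ofReal_mul hw.le,
    ← ENNReal.ofReal_add hreg.le (mul_nonneg hw.le hrz),
    ← ENNReal.ofReal_mul hsum0,
    ← ENNReal.ofReal_mul hreg.le, ← ENNReal.ofReal_mul (by rw [V_eq]; positivity),
    ENNReal.ofReal_le_ofReal_iff (by rw [V_eq]; positivity)] at h
  rw [h4, V_eq, mul_pow, mul_pow, hn, rpow_inv_pow hN.le, inv_pow] at h
  have h5 : ((Ideal.absNorm (J : Ideal (𝓞 K)) : ℝ) * 2⁻¹ ^ nrComplexPlaces K * sD K *
      torsionOrder K)⁻¹ * (regulator K * ((∑ k : Ix K → ZMod q, g (nuq J q k)) * (C0 K *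
        (Ideal.absNorm (J : Ideal (𝓞 K)) * ((q : ℝ) ^ finrank ℚ K)⁻¹ *
      (x ^ ((1 : ℝ) / finrank ℚ K) - (q * rho1 K)) ^ finrank ℚ K)))) ≤ rgw K + rieszR c g x := by
    rw [inv_mul_le_iff₀ (by positivity)]
    refine h.trans (le_of_eq ?_)
    rw [rgw]
    field_simp
  refine le_trans (le_of_eq ?_) h5
  have h6 : ((2⁻¹ : ℝ) ^ nrComplexPlaces K)⁻¹ = 2 ^ nrComplexPlaces K := by
    rw [← inv_pow, inv_inv]
  rw [C0_eq, avgR, rgw, mul_inv, mul_inv, mul_inv, h6]
  field_simp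

end Main

/-! ### elementary inequalities -/

theorem bern {z a : ℝ} (hz : 0 < z) (ha0 : 0 ≤ a) (ha : a ≤ z) {d : ℕ} (hd : 0 < d) :
    z ^ d - d * a * z ^ (d - 1) ≤ (z - a) ^ d := by
  have h1 : (-2 : ℝ) ≤ -(a / z) := by
    have : a / z ≤ 1 := (div_le_one hz).2 ha
    linarith
  have h2 := one_add_mul_le_pow h1 d
  have h3 : (z - a) ^ d = z ^ d * (1 + -(a / z)) ^ d := by
    rw [← mul_pow]; congr 1; field_simp; ring
  obtain ⟨m, rfl⟩ := Nat.exists_eq_succ_of_ne_zero hd.ne'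
  rw [h3]
  refine le_trans (le_of_eq ?_) (mul_le_mul_of_nonneg_left h2 (pow_pos hz _).le)
  have : (m.succ : ℕ) - 1 = m := rfl
  rw [this, pow_succ]
  field_simp
  ring

theorem add_pow_le' {d : ℕ} (hd : 0 < d) {y a : ℝ} (hy : 1 ≤ y) (ha : 0 ≤ a) :
    (y + a) ^ d ≤ y ^ d + d * a * (1 + a) ^ (d - 1) * y ^ (d - 1) := by
  have h1 := bern (z := y + a) (a := a) (by linarith) ha (by linarith) hd
  rw [add_sub_cancel_right] at h1
  have h2 : (y + a) ^ (d - 1) ≤ (1 + a) ^ (d - 1) * y ^ (d - 1) := by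
    rw [← mul_pow]
    refine pow_le_pow_left₀ (by linarith) ?_ _
    nlinarith
  have h3 : d * a * (y + a) ^ (d - 1) ≤ d * a * ((1 + a) ^ (d - 1) * y ^ (d - 1)) := by gcongr
  linarith

/-! ### the asymptotics with explicit error -/

section Main2

variable {c : ClassGroup (𝓞 K)} {J : (Ideal (𝓞 K))⁰} (hJ : ClassGroup.mk0 J = c⁻¹)
  (q : ℕ) [NeZero q] {g : ZMod q → ℝ} (hg : ∀ z, g (-z) = g z) (hg0 : ∀ z, 0 ≤ g z)
  (hg1 : ∀ z, g z ≤ 1) {x : ℝ}

include hJ hg hg0 hg1 in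
theorem rieszR_asymp (hx : 1 ≤ x) : |rieszR c g x - kap0 K * avgR J q g * x| ≤
    (kap0 K * (finrank ℚ K * (2 * (q * rho1 K)) * (1 + 2 * (q * rho1 K)) ^ (finrank ℚ K - 1)) +
      rgw K) * (x ^ ((1 : ℝ) / finrank ℚ K)) ^ (finrank ℚ K - 1) := by
  have hx0 : 0 < x := by linarith
  have hd : 0 < finrank ℚ K := finrank_pos
  have hdR : (1 : ℝ) ≤ finrank ℚ K := by exact_mod_cast hd
  have hq : (0 : ℝ) < q := by exact_mod_cast Nat.pos_of_ne_zero (NeZero.ne q)
  have hr := rho1_pos K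
  have hk := kap0_pos K
  have hA0 := avgR_nonneg J q hg0
  have hA1 := avgR_le_one J q hg1
  have hw := rgw_pos K
  set b := q * rho1 K with hb
  have hb0 : 0 < b := by positivity
  set y := x ^ ((1 : ℝ) / finrank ℚ K) with hy
  have hyd : y ^ finrank ℚ K = x := rpow_inv_pow hx0.le
  have hy1 : 1 ≤ y := Real.one_le_rpow hx (by positivity)
  have hyp : 1 ≤ y ^ (finrank ℚ K - 1) := one_le_pow₀ hy1
  have hup := rieszR_le hJ q hg hg0 hx0
  rw [← hy, ← hb] at hup
  set A := avgR J q g with hA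
  set e := finrank ℚ K * (2 * b) * (1 + 2 * b) ^ (finrank ℚ K - 1) with he
  have hee : finrank ℚ K * b ≤ e := by
    rw [he]
    have h1 : (1 : ℝ) ≤ (1 + 2 * b) ^ (finrank ℚ K - 1) := one_le_pow₀ (by linarith)
    calc (finrank ℚ K : ℝ) * b ≤ finrank ℚ K * (2 * b) * 1 := by nlinarith
      _ ≤ _ := by gcongr
  have he0 : 0 ≤ e := le_trans (by positivity) hee
  rw [abs_le]
  constructor
  · have hlow : kap0 K * A * (x - finrank ℚ K * b * y ^ (finrank ℚ K - 1)) ≤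
        rgw K + rieszR c g x := by
      rcases le_or_gt b y with hby | hby
      · have h1 := le_rieszR hJ q hg hg0 hg1 hx0 (by rw [← hy, ← hb]; exact hby)
        rw [← hy, ← hb, ← hA] at h1
        refine le_trans ?_ h1
        have h2 := bern (z := y) (a := b) (by linarith) hb0.le hby hd
        rw [hyd] at h2
        exact mul_le_mul_of_nonneg_left h2 (by positivity)
      · have h1 := rieszR_nonneg c hg0 x
        have h2 : x - finrank ℚ K * b * y ^ (finrank ℚ K - 1) ≤ 0 := by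
          have h3 : x = y * y ^ (finrank ℚ K - 1) := by
            rw [← pow_succ', Nat.sub_add_cancel hd, hyd]
          have h4 : y ≤ finrank ℚ K * b := by nlinarith
          have h5 : y * y ^ (finrank ℚ K - 1) ≤ finrank ℚ K * b * y ^ (finrank ℚ K - 1) := by
            gcongr
          linarith
        have h6 : kap0 K * A * (x - finrank ℚ K * b * y ^ (finrank ℚ K - 1)) ≤ 0 :=
          mul_nonpos_of_nonneg_of_nonpos (by positivity) h2
        linarith
    have h7 : kap0 K * A * (finrank ℚ K * b * y ^ (finrank ℚ K - 1)) ≤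
        kap0 K * e * y ^ (finrank ℚ K - 1) := by
      calc kap0 K * A * (finrank ℚ K * b * y ^ (finrank ℚ K - 1))
          = kap0 K * (A * (finrank ℚ K * b)) * y ^ (finrank ℚ K - 1) := by ring
        _ ≤ kap0 K * (1 * e) * y ^ (finrank ℚ K - 1) := by gcongr
        _ = _ := by ring
    have h8 : rgw K ≤ rgw K * y ^ (finrank ℚ K - 1) := by nlinarith
    nlinarith
  · have h1 := add_pow_le' hd (y := y) (a := 2 * b) hy1 (by positivity)
    rw [hyd, ← he] at h1
    have h2 : kap0 K * A * (y + 2 * b) ^ finrank ℚ K ≤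
        kap0 K * A * (x + e * y ^ (finrank ℚ K - 1)) :=
      mul_le_mul_of_nonneg_left h1 (by positivity)
    have h3 : kap0 K * A * (e * y ^ (finrank ℚ K - 1)) ≤
        kap0 K * e * y ^ (finrank ℚ K - 1) := by
      calc kap0 K * A * (e * y ^ (finrank ℚ K - 1))
          ≤ kap0 K * 1 * (e * y ^ (finrank ℚ K - 1)) := by gcongr
        _ = _ := by ring
    have h4 : 0 ≤ rgw K * y ^ (finrank ℚ K - 1) := by positivity
    nlinarith

end Main2

/-! ### a priori bound for regulator / number of roots of unity -/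

variable (K) in
theorem rgw_le (c : ClassGroup (𝓞 K)) :
    rgw K ≤ rieszR c (fun _ : ZMod 1 => (1 : ℝ)) (2 * sD K) := by
  have hs := sD_pos K
  have hw := torsionOrder_pos' K
  have h := regulator_le_rzE c
  have h1 := rzE_eq c (q := 1) (g := fun _ => (1 : ℝ)) (fun _ => zero_le_one)
    (x := 2 * sD K) (by positivity)
  have h2 : (fun _ : ZMod 1 => ENNReal.ofReal 1) = fun _ : ZMod 1 => (1 : ℝ≥0∞) := by
    funext _; exact ENNReal.ofReal_one
  have h0 := rieszR_nonneg c (q := 1) (g := fun _ => (1 : ℝ)) (fun _ => zero_le_one) (2 * sD K)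
  rw [← h2, h1, ← ENNReal.ofReal_natCast, ← ENNReal.ofReal_mul hw.le,
    ENNReal.ofReal_le_ofReal_iff (mul_nonneg hw.le h0)] at h
  rw [rgw, div_le_iff₀ hw, mul_comm]
  exact h

theorem rieszR_one_le (c : ClassGroup (𝓞 K)) {q : ℕ} {g : ZMod q → ℝ} (hg1 : ∀ z, g z ≤ 1)
    {x : ℝ} (hx : 1 ≤ x) :
    rieszR c g x ≤ x * (1 + Real.log x) ^ finrank ℚ K * Real.log x ^ rank K := by
  have hx0 : 0 < x := by linarith
  have hlog : 0 ≤ Real.log x := Real.log_nonneg hx
  rw [rieszR_eq_sum c g hx0]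
  have h1 : ∀ a ∈ Sx c x, g (Ideal.absNorm (a.1 : Ideal (𝓞 K)) : ZMod q) * wi c x a ≤
      Real.log x ^ rank K := by
    intro a ha
    have hN : (1 : ℝ) ≤ Ideal.absNorm (a.1 : Ideal (𝓞 K)) := by exact_mod_cast absNorm_pos a.1
    have h2 : wi c x a ≤ Real.log x ^ rank K := by
      rw [wi]
      refine (wt_mono _ (Real.log_le_log (by positivity) (div_le_self hx0.le hN))).trans ?_
      rw [wt_of_nonneg _ hlog]
      refine div_le_self (by positivity) ?_
      exact_mod_cast Nat.factorial_pos _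
    calc g (Ideal.absNorm (a.1 : Ideal (𝓞 K)) : ZMod q) * wi c x a ≤ 1 * wi c x a :=
          mul_le_mul_of_nonneg_right (hg1 _) (wi_nonneg _ _ _)
      _ ≤ _ := by rw [one_mul]; exact h2
  refine (Finset.sum_le_sum h1).trans ?_
  rw [Finset.sum_const, nsmul_eq_mul]
  have hfin := Crest.Agent.R014.Ic2_550.finite_norm_le (E := K) x
  have hcard : ((Sx c x).card : ℝ) ≤ x * (1 + Real.log x) ^ finrank ℚ K := by
    refine le_trans ?_ (Crest.Agent.R014.Ic2_550.card_norm_le_log (E := K) hx)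
    have h3 : (Sx c x).card = ((fun a : clsI K c => (a.1 : Ideal (𝓞 K))) '' (Sx c x)).ncard := by
      rw [Set.ncard_image_of_injective _ (fun a b hab => Subtype.ext (Subtype.ext hab)),
        Set.ncard_coe_finset]
    rw [h3]
    have h4 : (fun a : clsI K c => (a.1 : Ideal (𝓞 K))) '' (Sx c x) ⊆
        {a : Ideal (𝓞 K) | a ≠ ⊥ ∧ (Ideal.absNorm a : ℝ) ≤ x} := by
      rintro _ ⟨a, ha, rfl⟩
      refine ⟨nonZeroDivisors.coe_ne_zero a.1, ?_⟩
      rw [Finset.mem_coe, Sx, Set.Finite.mem_toFinset] at ha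
      exact ha
    exact_mod_cast Set.ncard_le_ncard h4 hfin
  gcongr

variable (K) in
theorem rank_le : rank K + 1 ≤ finrank ℚ K := by
  have h1 : Fintype.card (InfinitePlace K) ≤ finrank ℚ K := by
    rw [← sum_mult_eq, ← Finset.card_univ, Finset.card_eq_sum_ones]
    exact Finset.sum_le_sum fun w _ => mult_pos
  have h2 : 0 < Fintype.card (InfinitePlace K) := Fintype.card_pos
  rw [rank]; omega

variable (K) in
theorem rgw_le_pow : rgw K ≤ (2 * sD K) ^ (2 * finrank ℚ K) := by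
  have hs := one_le_sD K
  have h1 : (1 : ℝ) ≤ 2 * sD K := by linarith
  refine (rgw_le K (1 : ClassGroup (𝓞 K))).trans
    ((rieszR_one_le (1 : ClassGroup (𝓞 K)) (fun _ => le_rfl) h1).trans ?_)
  have hlog : Real.log (2 * sD K) ≤ 2 * sD K - 1 := Real.log_le_sub_one_of_pos (by linarith)
  have hlog0 : 0 ≤ Real.log (2 * sD K) := Real.log_nonneg h1
  have hr := rank_le K
  calc 2 * sD K * (1 + Real.log (2 * sD K)) ^ finrank ℚ K * Real.log (2 * sD K) ^ rank K
      ≤ 2 * sD K * (2 * sD K) ^ finrank ℚ K * (2 * sD K) ^ rank K := by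
        gcongr
        · linarith
        · linarith
    _ = (2 * sD K) ^ (1 + finrank ℚ K + rank K) := by rw [pow_add, pow_add, pow_one]
    _ ≤ _ := pow_le_pow_right₀ h1 (by omega)

end Crest.Agent.R014.Cnt7_726
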