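import Mathlib
import Crest.Agent.R014.Cnt7_726

/-!
# `riesz_class`: Riesz means over one ideal class, complex coefficients, explicit uniform error
-/

namespace Crest.Agent.R014.Cnt8_726

open MeasureTheory NumberField NumberField.Units NumberField.Units.dirichletUnitTheorem
open NumberField.mixedEmbedding NumberField.InfinitePlace Module
open scoped ENNReal nonZeroDivisors NNReal
open Crest.Agent.R014.Cnt1_726 Crest.Agent.R014.Cnt2_726 Crest.Agent.R014.Cnt3_726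
open Crest.Agent.R014.Cnt4_726 Crest.Agent.R014.Cnt5_726 Crest.Agent.R014.Cnt6_726
open Crest.Agent.R014.Cnt7_726

/-- the constant of the error term -/
noncomputable def cst (d : ℕ) : ℝ := 2 * 7 ^ d * d * (3 * d * 3 ^ d) ^ d * 2 ^ (2 * d)

theorem cst_nonneg (d : ℕ) : 0 ≤ cst d := by unfold cst; positivity

variable {K : Type*} [Field K] [NumberField K]

variable (K) in
theorem kap0_le : kap0 K ≤ rgw K * 7 ^ finrank ℚ K := by
  have hs := one_le_sD K
  have hw := rgw_pos K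
  have hpi : 2 * Real.pi ≤ 7 := by linarith [Real.pi_lt_d2]
  rw [kap0]
  have h1 : (2 : ℝ) ^ nrRealPlaces K * (2 * Real.pi) ^ nrComplexPlaces K ≤ 7 ^ finrank ℚ K := by
    calc (2 : ℝ) ^ nrRealPlaces K * (2 * Real.pi) ^ nrComplexPlaces K
        ≤ 7 ^ nrRealPlaces K * 7 ^ nrComplexPlaces K := by gcongr; norm_num
      _ = 7 ^ (nrRealPlaces K + nrComplexPlaces K) := by rw [pow_add]
      _ ≤ _ := by
        refine pow_le_pow_right₀ (by norm_num) ?_
        rw [← card_add_two_mul_card_eq_rank]; omega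
  calc rgw K * (2 ^ nrRealPlaces K * (2 * Real.pi) ^ nrComplexPlaces K) / sD K
      ≤ rgw K * (2 ^ nrRealPlaces K * (2 * Real.pi) ^ nrComplexPlaces K) :=
        div_le_self (by positivity) hs
    _ ≤ _ := by gcongr

variable (K) in
theorem rho1_le : rho1 K ≤ finrank ℚ K * (3 * sD K) ^ finrank ℚ K := by
  have hs := one_le_sD K
  have hd : 0 < finrank ℚ K := finrank_pos
  have hdR : (1 : ℝ) ≤ finrank ℚ K := by exact_mod_cast hd
  have h1 : (2 * sD K) ^ ((1 : ℝ) / finrank ℚ K) ≤ 3 * sD K := by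
    calc (2 * sD K) ^ ((1 : ℝ) / finrank ℚ K) ≤ (2 * sD K) ^ (1 : ℝ) := by
          refine Real.rpow_le_rpow_of_exponent_le (by linarith) ?_
          rw [div_le_one (by linarith)]; exact hdR
      _ ≤ _ := by rw [Real.rpow_one]; linarith
  rw [rho1]
  calc finrank ℚ K * (3 * sD K) ^ (finrank ℚ K - 1) * (2 * sD K) ^ ((1 : ℝ) / finrank ℚ K)
      ≤ finrank ℚ K * (3 * sD K) ^ (finrank ℚ K - 1) * (3 * sD K) := by
        gcongr
    _ = _ := by rw [mul_assoc, ← pow_succ, Nat.sub_add_cancel hd]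

variable (K) in
theorem one_le_rho1 : 1 ≤ rho1 K := by
  have hs := one_le_sD K
  have hd : 0 < finrank ℚ K := finrank_pos
  have hdR : (1 : ℝ) ≤ finrank ℚ K := by exact_mod_cast hd
  have h1 : (1 : ℝ) ≤ (3 * sD K) ^ (finrank ℚ K - 1) := one_le_pow₀ (by linarith)
  have h2 : (1 : ℝ) ≤ (2 * sD K) ^ ((1 : ℝ) / finrank ℚ K) :=
    Real.one_le_rpow (by linarith) (by positivity)
  rw [rho1]
  calc (1 : ℝ) = 1 * 1 * 1 := by norm_num
    _ ≤ _ := by gcongr

variable (K) in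
theorem sD_le : sD K ≤ |(discr K : ℝ)| := by
  have h1 : (1 : ℝ) ≤ |(discr K : ℝ)| := by
    rw [← Int.cast_abs]
    exact_mod_cast Int.one_le_abs (discr_ne_zero K)
  rw [sD]
  calc √|(discr K : ℝ)| ≤ √(|(discr K : ℝ)| * |(discr K : ℝ)|) := by
        apply Real.sqrt_le_sqrt; nlinarith
    _ = _ := Real.sqrt_mul_self (by linarith)

theorem y_pow {x : ℝ} (hx : 0 < x) : (x ^ ((1 : ℝ) / finrank ℚ K)) ^ (finrank ℚ K - 1) =
    x ^ (1 - (1 : ℝ) / finrank ℚ K) := by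
  have hd : 0 < finrank ℚ K := finrank_pos
  have hdR : (0 : ℝ) < finrank ℚ K := by exact_mod_cast hd
  rw [← Real.rpow_natCast, ← Real.rpow_mul hx.le, Nat.cast_sub hd]
  congr 1
  field_simp
  push_cast
  ring

/-- explicit error -/
theorem error_le (q : ℕ) [NeZero q] :
    kap0 K * (finrank ℚ K * (2 * (q * rho1 K)) * (1 + 2 * (q * rho1 K)) ^ (finrank ℚ K - 1)) +
      rgw K ≤ cst (finrank ℚ K) * (q * |(discr K : ℝ)|) ^ ((finrank ℚ K + 1) ^ 2) := by
  have hs := one_le_sD K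
  have hs0 := sD_pos K
  have hd : 0 < finrank ℚ K := finrank_pos
  have hdR : (1 : ℝ) ≤ finrank ℚ K := by exact_mod_cast hd
  have hq : (1 : ℝ) ≤ q := by exact_mod_cast Nat.pos_of_ne_zero (NeZero.ne q)
  have hr1 := one_le_rho1 K
  have hr2 := rho1_le K
  have hw := rgw_pos K
  have hk := kap0_le K
  have hk0 := kap0_pos K
  have hD := sD_le K
  set d := finrank ℚ K with hdef
  set b := q * rho1 K with hb
  have hb1 : 1 ≤ b := by rw [hb]; nlinarith
  have hb2 : b ≤ q * (d * (3 * sD K) ^ d) := by rw [hb]; gcongr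
  have h1 : 2 * b * (1 + 2 * b) ^ (d - 1) ≤ (3 * b) ^ d := by
    calc 2 * b * (1 + 2 * b) ^ (d - 1) ≤ (3 * b) * (3 * b) ^ (d - 1) := by
          gcongr
          · linarith
          · linarith
      _ = _ := by rw [← pow_succ', Nat.sub_add_cancel hd]
  have h2 : 1 ≤ 7 ^ d * d * (3 * b) ^ d := by
    have h3 : (1 : ℝ) ≤ 7 ^ d := one_le_pow₀ (by norm_num)
    have h4 : (1 : ℝ) ≤ (3 * b) ^ d := one_le_pow₀ (by linarith)
    calc (1 : ℝ) = 1 * 1 * 1 := by norm_num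
      _ ≤ _ := by gcongr
  have h5 : kap0 K * (d * (2 * b) * (1 + 2 * b) ^ (d - 1)) + rgw K ≤
      rgw K * (2 * (7 ^ d * d * (3 * b) ^ d)) := by
    calc kap0 K * (d * (2 * b) * (1 + 2 * b) ^ (d - 1)) + rgw K
        = kap0 K * (d * (2 * b * (1 + 2 * b) ^ (d - 1))) + rgw K * 1 := by ring
      _ ≤ rgw K * 7 ^ d * (d * (3 * b) ^ d) + rgw K * (7 ^ d * d * (3 * b) ^ d) := by
          gcongr
      _ = _ := by ring
  refine h5.trans ?_
  have h6 := rgw_le_pow K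
  rw [← hdef] at h6
  have h7 : (3 * b) ^ d ≤ (3 * d * 3 ^ d) ^ d * (q ^ d * (sD K ^ d) ^ d) := by
    calc (3 * b) ^ d ≤ (3 * (q * (d * (3 * sD K) ^ d))) ^ d := by gcongr
      _ = _ := by rw [mul_pow 3 (sD K)]; ring
  have h8 : (q : ℝ) ^ d * (sD K ^ d) ^ d * (sD K) ^ (2 * d) ≤ (q * |(discr K : ℝ)|) ^ ((d + 1) ^ 2) := by
    have h9 : (q : ℝ) ^ d ≤ q ^ ((d + 1) ^ 2) := pow_le_pow_right₀ hq (by nlinarith)
    have h10 : (sD K ^ d) ^ d * (sD K) ^ (2 * d) ≤ |(discr K : ℝ)| ^ ((d + 1) ^ 2) := by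
      rw [← pow_mul, ← pow_add]
      calc sD K ^ (d * d + 2 * d) ≤ sD K ^ ((d + 1) ^ 2) :=
            pow_le_pow_right₀ hs (by nlinarith)
        _ ≤ _ := by gcongr
    calc (q : ℝ) ^ d * (sD K ^ d) ^ d * (sD K) ^ (2 * d)
        = (q : ℝ) ^ d * ((sD K ^ d) ^ d * (sD K) ^ (2 * d)) := by ring
      _ ≤ q ^ ((d + 1) ^ 2) * |(discr K : ℝ)| ^ ((d + 1) ^ 2) := by gcongr
      _ = _ := by rw [mul_pow]
  calc rgw K * (2 * (7 ^ d * d * (3 * b) ^ d))
      ≤ (2 * sD K) ^ (2 * d) * (2 * (7 ^ d * d * ((3 * d * 3 ^ d) ^ d *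
        (q ^ d * (sD K ^ d) ^ d)))) := by gcongr
    _ = cst d * ((q : ℝ) ^ d * (sD K ^ d) ^ d * (sD K) ^ (2 * d)) := by
        rw [cst, mul_pow 2 (sD K)]; ring
    _ ≤ _ := mul_le_mul_of_nonneg_left h8 (cst_nonneg _)

/-- **real coefficients** -/
theorem rieszR_class {c : ClassGroup (𝓞 K)} {J : (Ideal (𝓞 K))⁰} (hJ : ClassGroup.mk0 J = c⁻¹)
    (q : ℕ) [NeZero q] {g : ZMod q → ℝ} (hg : ∀ z, g (-z) = g z) (hg0 : ∀ z, 0 ≤ g z)
    (hg1 : ∀ z, g z ≤ 1) {x : ℝ} (hx : 1 ≤ x) :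
    |rieszR c g x - kap0 K * avgR J q g * x| ≤
      cst (finrank ℚ K) * (q * |(discr K : ℝ)|) ^ ((finrank ℚ K + 1) ^ 2) *
        x ^ (1 - (1 : ℝ) / finrank ℚ K) := by
  refine (rieszR_asymp hJ q hg hg0 hg1 hx).trans ?_
  rw [y_pow (by linarith)]
  exact mul_le_mul_of_nonneg_right (error_le q) (Real.rpow_nonneg (by linarith) _)

/-- average of `f` over the norm form -/
noncomputable def avgC (J : (Ideal (𝓞 K))⁰) (q : ℕ) [NeZero q] (f : ZMod q → ℂ) : ℂ :=
  ((q : ℂ) ^ finrank ℚ K)⁻¹ * ∑ k : Ix K → ZMod q, f (nuq J q k)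

/-- **Riesz mean over one ideal class**: main theorem, complex coefficients. -/
theorem riesz_class_explicit {c : ClassGroup (𝓞 K)} {J : (Ideal (𝓞 K))⁰}
    (hJ : ClassGroup.mk0 J = c⁻¹)
    (q : ℕ) [NeZero q] {f : ZMod q → ℂ} (hf : ∀ z, f (-z) = f z) (hf1 : ∀ z, ‖f z‖ ≤ 1)
    {x : ℝ} (hx : 1 ≤ x) :
    ‖riesz c f x - kap0 K * avgC J q f * x‖ ≤
      4 * (cst (finrank ℚ K) * (q * |(discr K : ℝ)|) ^ ((finrank ℚ K + 1) ^ 2) *
        x ^ (1 - (1 : ℝ) / finrank ℚ K)) := by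
  have hx0 : 0 < x := by linarith
  let g1 : ZMod q → ℝ := fun z => max (f z).re 0
  let g2 : ZMod q → ℝ := fun z => max (-(f z).re) 0
  let g3 : ZMod q → ℝ := fun z => max (f z).im 0
  let g4 : ZMod q → ℝ := fun z => max (-(f z).im) 0
  have hre : ∀ z, |(f z).re| ≤ 1 := fun z => (Complex.abs_re_le_norm _).trans (hf1 z)
  have him : ∀ z, |(f z).im| ≤ 1 := fun z => (Complex.abs_im_le_norm _).trans (hf1 z)
  have e1 := rieszR_class hJ q (g := g1) (fun z => by simp only [g1, hf]) (fun z => le_max_right _ _)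
    (fun z => max_le (le_of_abs_le (hre z)) zero_le_one) hx
  have e2 := rieszR_class hJ q (g := g2) (fun z => by simp only [g2, hf]) (fun z => le_max_right _ _)
    (fun z => max_le (by linarith [neg_le_of_abs_le (hre z)]) zero_le_one) hx
  have e3 := rieszR_class hJ q (g := g3) (fun z => by simp only [g3, hf]) (fun z => le_max_right _ _)
    (fun z => max_le (le_of_abs_le (him z)) zero_le_one) hx
  have e4 := rieszR_class hJ q (g := g4) (fun z => by simp only [g4, hf]) (fun z => le_max_right _ _)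
    (fun z => max_le (by linarith [neg_le_of_abs_le (him z)]) zero_le_one) hx
  have hdec : ∀ z, f z = ((g1 z : ℂ) - g2 z) + ((g3 z : ℂ) - g4 z) * Complex.I := by
    intro z
    have h1 : max (f z).re 0 - max (-(f z).re) 0 = (f z).re := by
      rcases le_total 0 (f z).re with h | h
      · rw [max_eq_left h, max_eq_right (by linarith)]; ring
      · rw [max_eq_right h, max_eq_left (by linarith)]; ring
    have h2 : max (f z).im 0 - max (-(f z).im) 0 = (f z).im := by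
      rcases le_total 0 (f z).im with h | h
      · rw [max_eq_left h, max_eq_right (by linarith)]; ring
      · rw [max_eq_right h, max_eq_left (by linarith)]; ring
    conv_lhs => rw [← Complex.re_add_im (f z), ← h1, ← h2]
    push_cast
    rfl
  have hR : riesz c f x = ((rieszR c g1 x : ℂ) - rieszR c g2 x) +
      ((rieszR c g3 x : ℂ) - rieszR c g4 x) * Complex.I := by
    rw [riesz_eq_sum c f hx0, rieszR_eq_sum c g1 hx0, rieszR_eq_sum c g2 hx0,
      rieszR_eq_sum c g3 hx0, rieszR_eq_sum c g4 hx0]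
    push_cast
    rw [← Finset.sum_sub_distrib, ← Finset.sum_sub_distrib, Finset.sum_mul,
      ← Finset.sum_add_distrib]
    refine Finset.sum_congr rfl fun a _ => ?_
    rw [hdec]
    ring
  have hA : avgC J q f = ((avgR J q g1 : ℂ) - avgR J q g2) +
      ((avgR J q g3 : ℂ) - avgR J q g4) * Complex.I := by
    simp only [avgC, avgR]
    push_cast
    simp_rw [hdec]
    rw [Finset.sum_add_distrib, ← Finset.sum_mul, Finset.sum_sub_distrib, Finset.sum_sub_distrib]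
    ring
  set E := cst (finrank ℚ K) * (q * |(discr K : ℝ)|) ^ ((finrank ℚ K + 1) ^ 2) *
        x ^ (1 - (1 : ℝ) / finrank ℚ K) with hE
  have hfin : riesz c f x - kap0 K * avgC J q f * x =
      (((rieszR c g1 x - kap0 K * avgR J q g1 * x : ℝ) : ℂ) -
        ((rieszR c g2 x - kap0 K * avgR J q g2 * x : ℝ) : ℂ)) +
      (((rieszR c g3 x - kap0 K * avgR J q g3 * x : ℝ) : ℂ) -
        ((rieszR c g4 x - kap0 K * avgR J q g4 * x : ℝ) : ℂ)) * Complex.I := by
    rw [hR, hA]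
    push_cast
    ring
  rw [hfin]
  refine (norm_add_le _ _).trans ?_
  rw [norm_mul, Complex.norm_I, mul_one]
  have n1 := norm_sub_le (((rieszR c g1 x - kap0 K * avgR J q g1 * x : ℝ) : ℂ))
    ((rieszR c g2 x - kap0 K * avgR J q g2 * x : ℝ) : ℂ)
  have n2 := norm_sub_le (((rieszR c g3 x - kap0 K * avgR J q g3 * x : ℝ) : ℂ))
    ((rieszR c g4 x - kap0 K * avgR J q g4 * x : ℝ) : ℂ)
  simp only [Complex.norm_real, Real.norm_eq_abs] at n1 n2
  linarith

/-- the constant in the short form of the theorem -/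
noncomputable def Cst (d : ℕ) : ℕ := max ⌈4 * cst d⌉₊ ((d + 1) ^ 2)

theorem riesz_class {c : ClassGroup (𝓞 K)} {J : (Ideal (𝓞 K))⁰}
    (hJ : ClassGroup.mk0 J = c⁻¹)
    (q : ℕ) [NeZero q] {f : ZMod q → ℂ} (hf : ∀ z, f (-z) = f z) (hf1 : ∀ z, ‖f z‖ ≤ 1)
    {x : ℝ} (hx : 1 ≤ x) :
    ‖riesz c f x - kap0 K * avgC J q f * x‖ ≤
      Cst (finrank ℚ K) * (q * |(discr K : ℝ)|) ^ (Cst (finrank ℚ K)) *
        x ^ (1 - (1 : ℝ) / finrank ℚ K) := by
  refine (riesz_class_explicit hJ q hf hf1 hx).trans ?_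
  have hq : (1 : ℝ) ≤ q := by exact_mod_cast Nat.pos_of_ne_zero (NeZero.ne q)
  have hD : (1 : ℝ) ≤ |(discr K : ℝ)| := by
    rw [← Int.cast_abs]
    exact_mod_cast Int.one_le_abs (discr_ne_zero K)
  have hqD : (1 : ℝ) ≤ q * |(discr K : ℝ)| := by nlinarith
  have h1 : 4 * cst (finrank ℚ K) ≤ Cst (finrank ℚ K) :=
    (Nat.le_ceil _).trans (by exact_mod_cast le_max_left _ _)
  have h2 : (q * |(discr K : ℝ)|) ^ ((finrank ℚ K + 1) ^ 2) ≤
      (q * |(discr K : ℝ)|) ^ (Cst (finrank ℚ K)) := pow_le_pow_right₀ hqD (le_max_right _ _)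
  have h3 : 0 ≤ x ^ (1 - (1 : ℝ) / finrank ℚ K) := Real.rpow_nonneg (by linarith) _
  calc 4 * (cst (finrank ℚ K) * (q * |(discr K : ℝ)|) ^ ((finrank ℚ K + 1) ^ 2) *
        x ^ (1 - (1 : ℝ) / finrank ℚ K))
      = (4 * cst (finrank ℚ K)) * (q * |(discr K : ℝ)|) ^ ((finrank ℚ K + 1) ^ 2) *
        x ^ (1 - (1 : ℝ) / finrank ℚ K) := by ring
    _ ≤ _ := by gcongr

end Crest.Agent.R014.Cnt8_726
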