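import Mathlib

/-!
Row 14, block D, leaf COMB-AIJ: pure finite combinatorics of the additive sets `A i j`.
-/

set_option autoImplicit false
open Finset

namespace Crest.Agent.R014.Comb_583

open Classical in
/-- number of elements of `A` in `[a,b)` -/
noncomputable def cnt (A : Set ℤ) (a b : ℤ) : ℝ :=
  (((Finset.Ico a b).filter (fun x => x ∈ A)).card : ℝ)

open Classical in
/-- the pairs violating `X + Y ⊆ Z` inside `[-L,L]` -/
noncomputable def badPairs (X Y Z : Set ℤ) (L : ℕ) : Finset (ℤ × ℤ) :=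
  (Finset.Icc (-(L : ℤ)) L ×ˢ Finset.Icc (-(L : ℤ)) L).filter
    (fun p => p.1 ∈ X ∧ p.2 ∈ Y ∧ |p.1 + p.2| ≤ (L : ℤ) ∧ p.1 + p.2 ∉ Z)

open Classical in
/-- `x ∈ X` with `x + r ∉ Z` -/
noncomputable def badOne (X Z : Set ℤ) (L : ℕ) (r : ℤ) : Finset ℤ :=
  (Finset.Icc (-(L : ℤ)) L).filter (fun x => x ∈ X ∧ |x + r| ≤ (L : ℤ) ∧ x + r ∉ Z)

open Classical in
/-- points where `A` and its shift by `s` differ -/
noncomputable def dif (A : Set ℤ) (L : ℕ) (s : ℤ) : ℝ :=
  (((Finset.Icc (-(L : ℤ)) L).filter (fun x => ¬ (x ∈ A ↔ x + s ∈ A))).card : ℝ)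

lemma cnt_nonneg (A : Set ℤ) (a b : ℤ) : 0 ≤ cnt A a b := by
  unfold cnt; positivity

lemma cnt_mono (A : Set ℤ) {a b a' b' : ℤ} (h1 : a' ≤ a) (h2 : b ≤ b') : cnt A a b ≤ cnt A a' b' := by
  classical
  unfold cnt
  have : (Finset.Ico a b).filter (fun x => x ∈ A) ⊆ (Finset.Ico a' b').filter (fun x => x ∈ A) := by
    intro x hx
    simp only [mem_filter, mem_Ico] at hx ⊢
    exact ⟨⟨h1.trans hx.1.1, hx.1.2.trans_le h2⟩, hx.2⟩
  exact_mod_cast Finset.card_le_card this

/-- composition: if most sums are good then the count is transported -/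
lemma comp (X Y Z : Set ℤ) (L : ℕ) (E : ℝ) (hE : ((badPairs X Y Z L).card : ℝ) ≤ E)
    (a b c d : ℤ) (ha : -(L : ℤ) ≤ a) (hb : b ≤ L) (hc : -(L : ℤ) ≤ c) (hd : d ≤ L)
    (h1 : -(L : ℤ) ≤ a + c) (h2 : b + d ≤ L)
    (hpos : 2 * E ≤ cnt X a b * cnt Y c d) (hY : 0 < cnt Y c d) :
    cnt X a b ≤ 2 * cnt Z (a + c) (b + d) := by
  classical
  set PX := (Finset.Ico a b).filter (fun x => x ∈ X) with hPX
  set PY := (Finset.Ico c d).filter (fun x => x ∈ Y) with hPY
  set PZ := (Finset.Ico (a + c) (b + d)).filter (fun x => x ∈ Z) with hPZ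
  have hX' : cnt X a b = (PX.card : ℝ) := by
    simp only [cnt, hPX]
  have hY' : cnt Y c d = (PY.card : ℝ) := by
    simp only [cnt, hPY]
  have hZ' : cnt Z (a + c) (b + d) = (PZ.card : ℝ) := by
    simp only [cnt, hPZ]
  have hbad : ((PX ×ˢ PY).filter (fun p => p.1 + p.2 ∉ Z)).card ≤ (badPairs X Y Z L).card := by
    apply Finset.card_le_card
    intro p hp
    simp only [hPX, hPY, badPairs, mem_filter, mem_product, mem_Ico, mem_Icc] at hp ⊢
    obtain ⟨⟨⟨⟨p1, p2⟩, p3⟩, ⟨⟨p4, p5⟩, p6⟩⟩, p7⟩ := hp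
    refine ⟨⟨⟨by omega, by omega⟩, ⟨by omega, by omega⟩⟩, p3, p6, ?_, p7⟩
    rw [abs_le]; constructor <;> omega
  have hgood : ((PX ×ˢ PY).filter (fun p => p.1 + p.2 ∈ Z)).card ≤ PY.card * PZ.card := by
    have : ((PX ×ˢ PY).filter (fun p => p.1 + p.2 ∈ Z)).card
        = ∑ s ∈ PY, (PX.filter (fun r => r + s ∈ Z)).card := by
      rw [Finset.card_filter, Finset.sum_product_right]
      apply Finset.sum_congr rfl
      intro s _
      rw [Finset.card_filter]
    rw [this]
    calc ∑ s ∈ PY, (PX.filter (fun r => r + s ∈ Z)).card ≤ ∑ s ∈ PY, PZ.card := by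
          apply Finset.sum_le_sum
          intro s hs
          apply Finset.card_le_card_of_injOn (fun r => r + s)
          · intro r hr
            simp only [hPX, hPY, hPZ, coe_filter, mem_filter, mem_Ico, Set.mem_ofPred_eq] at hr hs ⊢
            exact ⟨⟨by omega, by omega⟩, hr.2⟩
          · intro r _ r' _ h
            simpa using h
      _ = PY.card * PZ.card := by simp
  have hsplit : ((PX ×ˢ PY).filter (fun p => p.1 + p.2 ∈ Z)).card
      + ((PX ×ˢ PY).filter (fun p => p.1 + p.2 ∉ Z)).card = PX.card * PY.card := by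
    rw [Finset.card_filter_add_card_filter_not, Finset.card_product]
  have hs' : (((PX ×ˢ PY).filter (fun p => p.1 + p.2 ∈ Z)).card : ℝ)
      + (((PX ×ˢ PY).filter (fun p => p.1 + p.2 ∉ Z)).card : ℝ) = (PX.card : ℝ) * PY.card := by
    exact_mod_cast hsplit
  have hb' : (((PX ×ˢ PY).filter (fun p => p.1 + p.2 ∉ Z)).card : ℝ) ≤ (badPairs X Y Z L).card := by
    exact_mod_cast hbad
  have hg' : (((PX ×ˢ PY).filter (fun p => p.1 + p.2 ∈ Z)).card : ℝ) ≤ (PY.card : ℝ) * PZ.card := by
    exact_mod_cast hgood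
  rw [hX', hY'] at hpos
  rw [hY'] at hY
  rw [hX', hZ']
  have h3 : (PX.card : ℝ) * PY.card ≤ 2 * ((PY.card : ℝ) * PZ.card) := by nlinarith
  have h4 : (PY.card : ℝ) * (PX.card : ℝ) ≤ (PY.card : ℝ) * (2 * (PZ.card : ℝ)) := by nlinarith
  exact le_of_mul_le_mul_left h4 hY

/-- half of the elements `r` of `Y` in a window have few bad partners -/
lemma popular (X Y Z : Set ℤ) (L : ℕ) (E : ℝ) (hE : ((badPairs X Y Z L).card : ℝ) ≤ E)
    (a b : ℤ) (ha : -(L : ℤ) ≤ a) (hb : b ≤ L) :
    ∃ G : Finset ℤ, (∀ r ∈ G, a ≤ r ∧ r < b ∧ r ∈ Y ∧ ((badOne X Z L r).card : ℝ) * cnt Y a b ≤ 2 * E) ∧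
      cnt Y a b ≤ 2 * (G.card : ℝ) := by
  classical
  set P := (Finset.Ico a b).filter (fun x => x ∈ Y) with hP
  have hY' : cnt Y a b = (P.card : ℝ) := by
    simp only [cnt, hP]
  refine ⟨P.filter (fun r => ((badOne X Z L r).card : ℝ) * cnt Y a b ≤ 2 * E), ?_, ?_⟩
  · intro r hr
    simp only [hP, mem_filter, mem_Ico] at hr
    exact ⟨hr.1.1.1, hr.1.1.2, hr.1.2, hr.2⟩
  · set G := P.filter (fun r => ((badOne X Z L r).card : ℝ) * cnt Y a b ≤ 2 * E) with hG
    set G' := P.filter (fun r => ¬ ((badOne X Z L r).card : ℝ) * cnt Y a b ≤ 2 * E) with hG'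
    have hsum : G.card + G'.card = P.card := Finset.card_filter_add_card_filter_not _
    have htot : ∑ r ∈ P, ((badOne X Z L r).card : ℝ) ≤ E := by
      refine le_trans ?_ hE
      have : ∑ r ∈ P, (badOne X Z L r).card ≤ (badPairs X Y Z L).card := by
        rw [← Finset.card_sigma]
        apply Finset.card_le_card_of_injOn (fun q => (q.2, q.1))
        · intro q hq
          simp only [hP, badOne, badPairs, coe_sigma, Set.mem_sigma_iff, mem_coe, mem_filter, mem_Ico,
            mem_Icc, coe_filter, mem_product, Set.mem_ofPred_eq] at hq ⊢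
          obtain ⟨⟨⟨q1, q2⟩, q3⟩, ⟨q4, q5⟩, q6, q7, q8⟩ := hq
          exact ⟨⟨⟨q4, q5⟩, by omega, by omega⟩, q6, q3, q7, q8⟩
        · rintro ⟨q1, q2⟩ _ ⟨r1, r2⟩ _ h
          simp only [Prod.mk.injEq] at h
          obtain ⟨h1, h2⟩ := h
          subst h1; subst h2; rfl
      exact_mod_cast this
    have hsub : ∑ r ∈ G', ((badOne X Z L r).card : ℝ) ≤ E :=
      le_trans (Finset.sum_le_sum_of_subset_of_nonneg (Finset.filter_subset _ _)
        (fun _ _ _ => by positivity)) htot
    by_contra hcon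
    push Not at hcon
    have hPr : (G.card : ℝ) + G'.card = P.card := by exact_mod_cast hsum
    have hE0 : 0 ≤ E := le_trans (by positivity) hE
    have hPpos : 0 < (P.card : ℝ) := by
      rw [hY'] at hcon
      have : (0 : ℝ) ≤ G.card := by positivity
      linarith
    have hG'big : (P.card : ℝ) < 2 * G'.card := by rw [hY'] at hcon; linarith
    have hG'pos : 0 < (G'.card : ℝ) := by linarith
    have hlow : (G'.card : ℝ) * (2 * E) < ∑ r ∈ G', ((badOne X Z L r).card : ℝ) * cnt Y a b := by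
      have hne : G'.Nonempty := by
        rw [← Finset.card_pos]; exact_mod_cast hG'pos
      calc (G'.card : ℝ) * (2 * E) = ∑ _r ∈ G', 2 * E := by simp
        _ < ∑ r ∈ G', ((badOne X Z L r).card : ℝ) * cnt Y a b := by
            apply Finset.sum_lt_sum_of_nonempty hne
            intro r hr
            simp only [hG', mem_filter, not_le] at hr
            exact hr.2
    rw [← Finset.sum_mul, hY'] at hlow
    have h5 : (∑ r ∈ G', ((badOne X Z L r).card : ℝ)) * (P.card : ℝ) ≤ E * P.card :=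
      mul_le_mul_of_nonneg_right hsub hPpos.le
    nlinarith


lemma dif_nonneg (A : Set ℤ) (L : ℕ) (s : ℤ) : 0 ≤ dif A L s := by
  unfold dif; positivity

/-- shifting a window costs at most the shift -/
lemma card_shift_le (Q : ℤ → Prop) [DecidablePred Q] (L : ℕ) (s : ℤ) :
    (((Finset.Icc (-(L : ℤ)) L).filter (fun x => Q (x + s))).card : ℝ)
      ≤ (((Finset.Icc (-(L : ℤ)) L).filter (fun x => Q x)).card : ℝ) + |(s : ℝ)| := by
  classical
  have h1 : ((Finset.Icc (-(L : ℤ)) L).filter (fun x => Q (x + s))).card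
      ≤ (((Finset.Icc (-(L : ℤ)) L).filter (fun x => Q x)) ∪
          (Finset.Icc (-(L : ℤ) + s) (-(L : ℤ) - 1) ∪ Finset.Icc ((L : ℤ) + 1) (L + s))).card := by
    apply Finset.card_le_card_of_injOn (fun x => x + s)
    · intro x hx
      simp only [coe_filter, mem_Icc, Set.mem_ofPred_eq, coe_union, coe_Icc, Set.mem_union,
        Set.mem_Icc] at hx ⊢
      by_cases h : -(L : ℤ) ≤ x + s ∧ x + s ≤ L
      · exact Or.inl ⟨h, hx.2⟩
      · right
        rcases not_and_or.mp h with h | h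
        · left; constructor <;> omega
        · right; constructor <;> omega
    · intro x _ y _ h
      simpa using h
  have h2 : (Finset.Icc (-(L : ℤ) + s) (-(L : ℤ) - 1) ∪ Finset.Icc ((L : ℤ) + 1) (L + s)).card
      ≤ s.natAbs := by
    refine (Finset.card_union_le _ _).trans ?_
    simp only [Int.card_Icc]
    omega
  have h3 := h1.trans ((Finset.card_union_le _ _).trans (Nat.add_le_add_left h2 _))
  have h4 : (s.natAbs : ℝ) = |(s : ℝ)| := by
    rw [Nat.cast_natAbs]; simp
  rw [← h4]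
  exact_mod_cast h3

lemma dif_add (A : Set ℤ) (L : ℕ) (s t : ℤ) : dif A L (s + t) ≤ dif A L s + dif A L t + |(s : ℝ)| := by
  classical
  have h1 := card_shift_le (fun y => ¬ (y ∈ A ↔ y + t ∈ A)) L s
  have h2 : (((Finset.Icc (-(L : ℤ)) L).filter (fun x => ¬ (x ∈ A ↔ x + (s + t) ∈ A))).card : ℝ)
      ≤ (((Finset.Icc (-(L : ℤ)) L).filter (fun x => ¬ (x ∈ A ↔ x + s ∈ A))).card : ℝ)
        + (((Finset.Icc (-(L : ℤ)) L).filter (fun x => ¬ (x + s ∈ A ↔ x + s + t ∈ A))).card : ℝ) := by
    have : ((Finset.Icc (-(L : ℤ)) L).filter (fun x => ¬ (x ∈ A ↔ x + (s + t) ∈ A))) ⊆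
        ((Finset.Icc (-(L : ℤ)) L).filter (fun x => ¬ (x ∈ A ↔ x + s ∈ A))) ∪
        ((Finset.Icc (-(L : ℤ)) L).filter (fun x => ¬ (x + s ∈ A ↔ x + s + t ∈ A))) := by
      intro x hx
      simp only [mem_filter, mem_union] at hx ⊢
      rw [← add_assoc] at hx
      tauto
    exact_mod_cast (Finset.card_le_card this).trans (Finset.card_union_le _ _)
  unfold dif
  linarith

lemma dif_neg (A : Set ℤ) (L : ℕ) (s : ℤ) : dif A L (-s) ≤ dif A L s + |(s : ℝ)| := by
  classical
  have h1 := card_shift_le (fun y => ¬ (y ∈ A ↔ y + s ∈ A)) L (-s)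
  have h2 : ((Finset.Icc (-(L : ℤ)) L).filter (fun x => ¬ (x ∈ A ↔ x + -s ∈ A))) =
      ((Finset.Icc (-(L : ℤ)) L).filter (fun x => ¬ (x + -s ∈ A ↔ x + -s + s ∈ A))) := by
    apply Finset.filter_congr
    intro x _
    rw [neg_add_cancel_right]; tauto
  unfold dif
  rw [h2]
  simpa using h1

lemma dif_zero (A : Set ℤ) (L : ℕ) : dif A L 0 = 0 := by
  classical
  unfold dif
  simp

lemma dif_mul (A : Set ℤ) (L : ℕ) (s : ℤ) (m : ℕ) :
    dif A L (m * s) ≤ m * (dif A L s + |(s : ℝ)|) := by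
  induction m with
  | zero => simp [dif_zero]
  | succ m ih =>
    have h := dif_add A L s (m * s)
    have e : ((m + 1 : ℕ) : ℤ) * s = s + m * s := by push_cast; ring
    rw [e]
    push_cast
    linarith

/-- from one sided loss to the symmetric difference -/
lemma dif_le_loss (A : Set ℤ) (L : ℕ) (s : ℤ) :
    dif A L s ≤ 2 * ((badOne A A L s).card : ℝ) + 3 * |(s : ℝ)| := by
  classical
  set W := Finset.Icc (-(L : ℤ)) L with hW
  set a1 := (W.filter (fun x => x ∈ A ∧ x + s ∉ A)).card with ha1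
  set a2 := (W.filter (fun x => x ∉ A ∧ x + s ∈ A)).card with ha2
  set a3 := (W.filter (fun x => x ∈ A ∧ x + s ∈ A)).card with ha3
  have hd : dif A L s = (a1 : ℝ) + a2 := by
    unfold dif
    have : (W.filter (fun x => ¬ (x ∈ A ↔ x + s ∈ A))).card = a1 + a2 := by
      rw [ha1, ha2, ← Finset.card_union_of_disjoint]
      · congr 1
        ext x
        simp only [mem_filter, mem_union]
        tauto
      · rw [Finset.disjoint_filter]
        intro x _ h1 h2
        exact h2.1 h1.1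
    exact_mod_cast this
  have hA : (W.filter (fun x => x ∈ A)).card = a1 + a3 := by
    rw [ha1, ha3, ← Finset.card_union_of_disjoint]
    · congr 1
      ext x
      simp only [mem_filter, mem_union]
      tauto
    · rw [Finset.disjoint_filter]
      intro x _ h1 h2
      exact h1.2 h2.2
  have hAs : (W.filter (fun x => x + s ∈ A)).card = a2 + a3 := by
    rw [ha2, ha3, ← Finset.card_union_of_disjoint]
    · congr 1
      ext x
      simp only [mem_filter, mem_union]
      tauto
    · rw [Finset.disjoint_filter]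
      intro x _ h1 h2
      exact h1.1 h2.1
  have h1 := card_shift_le (fun y => y ∈ A) L s
  rw [← hW] at h1
  rw [hA, hAs] at h1
  push_cast at h1
  -- a1 ≤ loss + |s|
  have h2 : (a1 : ℝ) ≤ ((badOne A A L s).card : ℝ) + |(s : ℝ)| := by
    have hsub : W.filter (fun x => x ∈ A ∧ x + s ∉ A) ⊆
        badOne A A L s ∪ (Finset.Icc (-(L : ℤ)) (-(L : ℤ) - 1 - s) ∪ Finset.Icc ((L : ℤ) + 1 - s) L) := by
      intro x hx
      simp only [hW, badOne, mem_filter, mem_Icc, mem_union] at hx ⊢
      by_cases h : |x + s| ≤ (L : ℤ)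
      · left; exact ⟨hx.1, hx.2.1, h, hx.2.2⟩
      · right
        rw [abs_le] at h
        rcases not_and_or.mp h with h | h
        · left; constructor <;> omega
        · right; constructor <;> omega
    have hc : (Finset.Icc (-(L : ℤ)) (-(L : ℤ) - 1 - s) ∪ Finset.Icc ((L : ℤ) + 1 - s) L).card
        ≤ s.natAbs := by
      refine (Finset.card_union_le _ _).trans ?_
      simp only [Int.card_Icc]
      omega
    have h3 := (Finset.card_le_card hsub).trans
      ((Finset.card_union_le _ _).trans (Nat.add_le_add_left hc _))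
    have h4 : (s.natAbs : ℝ) = |(s : ℝ)| := by
      rw [Nat.cast_natAbs]; simp
    rw [← h4]
    exact_mod_cast h3
  rw [hd]
  linarith

/-- pigeonhole form of the slab positivity -/
lemma exists_dense (n : ℕ) (A : Fin n → Fin n → Set ℤ) (a b : ℤ) (t : ℝ) (ht : 0 ≤ t) (S : Finset (Fin n))
    (h : t ≤ ∑ i ∈ S, ∑ j ∈ Sᶜ, cnt (A i j) a b) (hS : S.Nonempty) (hS' : S ≠ univ) :
    ∃ i ∈ S, ∃ j, j ∉ S ∧ t / (n : ℝ) ^ 2 ≤ cnt (A i j) a b := by
  by_contra hcon
  push Not at hcon
  have hn : 0 < n := by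
    obtain ⟨i, _⟩ := hS
    exact Fin.pos i
  have hSc : Sᶜ.Nonempty := by
    rw [Finset.nonempty_iff_ne_empty]
    intro h0
    exact hS' (by simpa using h0)
  have h1 : ∑ i ∈ S, ∑ j ∈ Sᶜ, cnt (A i j) a b < ∑ _i ∈ S, ∑ _j ∈ Sᶜ, t / (n : ℝ) ^ 2 := by
    apply Finset.sum_lt_sum_of_nonempty hS
    intro i hi
    apply Finset.sum_lt_sum_of_nonempty hSc
    intro j hj
    exact hcon i hi j (by simpa using hj)
  have h2 : ∑ _i ∈ S, ∑ _j ∈ Sᶜ, t / (n : ℝ) ^ 2 ≤ t := by
    simp only [Finset.sum_const, nsmul_eq_mul]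
    have hc1 : (S.card : ℝ) ≤ n := by
      have := Finset.card_le_univ S
      simp only [Fintype.card_fin] at this
      exact_mod_cast this
    have hc2 : ((Sᶜ).card : ℝ) ≤ n := by
      have := Finset.card_le_univ Sᶜ
      simp only [Fintype.card_fin] at this
      exact_mod_cast this
    have hn' : (0 : ℝ) < n := by exact_mod_cast hn
    have : (S.card : ℝ) * (((Sᶜ).card : ℝ) * (t / (n : ℝ) ^ 2)) ≤ n * (n * (t / (n : ℝ) ^ 2)) := by
      apply mul_le_mul hc1 _ (by positivity) (by positivity)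
      apply mul_le_mul_of_nonneg_right hc2 (by positivity)
    refine this.trans (le_of_eq ?_)
    field_simp
  linarith

/-- every pair is dense near `0` -/
lemma dense_small (n : ℕ) (hn : 3 ≤ n) (A : Fin n → Fin n → Set ℤ) (L v : ℕ) (hv : 0 < v) (E c' : ℝ)
    (hc' : 0 < c')
    (H1 : ∀ i j k : Fin n, i ≠ j → j ≠ k → i ≠ k →
      ((badPairs (A i j) (A j k) (A i k) L).card : ℝ) ≤ E)
    (hV : ∀ S : Finset (Fin n), S.Nonempty → S ≠ univ →
      ∃ i ∈ S, ∃ j, j ∉ S ∧ c' * (2 * v) ≤ cnt (A i j) (-(v : ℤ)) v)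
    (hu : 2 ^ n * v ≤ L) (hE : 2 * E ≤ ((1 / 2 : ℝ) ^ n * (c' * (2 * v))) ^ 2)
    (i j : Fin n) (hij : i ≠ j) :
    (1 / 2 : ℝ) ^ n * (c' * (2 * v)) ≤ cnt (A i j) (-((2 ^ n * v : ℕ) : ℤ)) ((2 ^ n * v : ℕ) : ℤ) := by
  classical
  set R : ℕ → Finset (Fin n) := fun m => univ.filter (fun j => j ≠ i ∧
    (1 / 2 : ℝ) ^ m * (c' * (2 * v)) ≤ cnt (A i j) (-((2 ^ m * v : ℕ) : ℤ)) ((2 ^ m * v : ℕ) : ℤ)) with hR
  have hvr : (0 : ℝ) < v := by exact_mod_cast hv
  have hmono : ∀ m, R m ⊆ R (m + 1) := by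
    intro m x hx
    simp only [hR, mem_filter, mem_univ, true_and] at hx ⊢
    refine ⟨hx.1, ?_⟩
    have hle : 2 ^ m * v ≤ 2 ^ (m + 1) * v :=
      Nat.mul_le_mul_right _ (Nat.pow_le_pow_right (by norm_num) (Nat.le_succ m))
    refine le_trans (le_trans ?_ hx.2) (cnt_mono _ (by omega) (by omega))
    rw [pow_succ]
    have : 0 ≤ (1 / 2 : ℝ) ^ m * (c' * (2 * v)) := by positivity
    nlinarith
  have h0m : ∀ m, R 0 ⊆ R m := by
    intro m
    induction m with
    | zero => exact subset_rfl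
    | succ m ih => exact ih.trans (hmono m)
  have key : ∀ m, m ≤ n → (m + 1 ≤ (R m).card ∨ insert i (R m) = univ) := by
    intro m
    induction m with
    | zero =>
      intro _
      left
      have hne : ({i} : Finset (Fin n)) ≠ univ := by
        intro h
        have := congrArg Finset.card h
        simp at this
        omega
      obtain ⟨k, hk, l, hl, hkl⟩ := hV {i} (by simp) hne
      have hk' : k = i := by simpa using hk
      subst hk'
      have : l ∈ R 0 := by
        simp only [hR, mem_filter, mem_univ, true_and, pow_zero, one_mul]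
        exact ⟨by simpa using hl, hkl⟩
      exact Finset.card_pos.mpr ⟨l, this⟩
    | succ m ih =>
      intro hm
      rcases ih (by omega) with h | h
      · by_cases hfull : insert i (R m) = univ
        · right
          apply Finset.eq_univ_of_forall
          intro x
          have hx : x ∈ insert i (R m) := by rw [hfull]; simp
          exact Finset.insert_subset_insert i (hmono m) hx
        · left
          obtain ⟨k, hk, l, hl, hkl⟩ := hV (insert i (R m)) (by simp) hfull
          have hli : l ≠ i := fun h => hl (by rw [h]; simp)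
          have hlR : l ∉ R m := fun h => hl (by simp [h])
          have hki : k ≠ i := by
            intro h
            subst h
            apply hlR
            apply h0m m
            simp only [hR, mem_filter, mem_univ, true_and, pow_zero, one_mul]
            exact ⟨hli, hkl⟩
          have hkR : k ∈ R m := by
            rcases Finset.mem_insert.mp hk with h | h
            · exact absurd h hki
            · exact h
          have hkl' : k ≠ l := fun h => hlR (h ▸ hkR)
          simp only [hR, mem_filter, mem_univ, true_and] at hkR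
          have hpow : (1 / 2 : ℝ) ^ n ≤ (1 / 2 : ℝ) ^ m :=
            pow_le_pow_of_le_one (by norm_num) (by norm_num) (by omega)
          have hpow1 : (1 / 2 : ℝ) ^ n ≤ 1 := pow_le_one₀ (by norm_num) (by norm_num)
          have hcv : 0 < c' * (2 * (v : ℝ)) := by positivity
          have hle : 2 ^ (m + 1) * v ≤ L := by
            refine le_trans ?_ hu
            exact Nat.mul_le_mul_right _ (Nat.pow_le_pow_right (by norm_num) hm)
          have hle2 : 2 ^ m * v + v ≤ 2 ^ (m + 1) * v := by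
            have : 1 ≤ 2 ^ m := Nat.one_le_two_pow
            rw [pow_succ]; nlinarith
          have hcomp := comp (A i k) (A k l) (A i l) L E (H1 i k l hki.symm hkl' hli.symm)
            (-((2 ^ m * v : ℕ) : ℤ)) ((2 ^ m * v : ℕ) : ℤ) (-(v : ℤ)) v
            (by omega) (by omega) (by omega) (by omega) (by omega) (by omega)
            (by
              refine hE.trans ?_
              rw [sq]
              have e1 : (1 / 2 : ℝ) ^ n * (c' * (2 * v)) ≤
                  cnt (A i k) (-((2 ^ m * v : ℕ) : ℤ)) ((2 ^ m * v : ℕ) : ℤ) :=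
                (mul_le_mul_of_nonneg_right hpow hcv.le).trans hkR.2
              have e2 : (1 / 2 : ℝ) ^ n * (c' * (2 * v)) ≤ cnt (A k l) (-(v : ℤ)) v := by
                refine le_trans ?_ hkl
                nlinarith
              exact mul_le_mul e1 e2 (by positivity) (cnt_nonneg _ _ _))
            (lt_of_lt_of_le hcv hkl)
          have hl' : l ∈ R (m + 1) := by
            simp only [hR, mem_filter, mem_univ, true_and]
            refine ⟨hli, ?_⟩
            have hm2 : cnt (A i l) (-((2 ^ m * v : ℕ) : ℤ) + -(v : ℤ)) (((2 ^ m * v : ℕ) : ℤ) + v) ≤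
                cnt (A i l) (-((2 ^ (m + 1) * v : ℕ) : ℤ)) ((2 ^ (m + 1) * v : ℕ) : ℤ) :=
              cnt_mono _ (by omega) (by omega)
            have h7 := hkR.2
            rw [pow_succ]
            linarith
          have hsub : insert l (R m) ⊆ R (m + 1) := by
            intro x hx
            rcases Finset.mem_insert.mp hx with h | h
            · rw [h]; exact hl'
            · exact hmono m h
          have hc := Finset.card_le_card hsub
          rw [Finset.card_insert_of_notMem hlR] at hc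
          omega
      · right
        apply Finset.eq_univ_of_forall
        intro x
        have hx : x ∈ insert i (R m) := by rw [h]; simp
        exact Finset.insert_subset_insert i (hmono m) hx
  have hfin : insert i (R n) = univ := by
    rcases key n le_rfl with h | h
    · exfalso
      have := Finset.card_le_univ (R n)
      simp only [Fintype.card_fin] at this
      omega
    · exact h
  have hj : j ∈ insert i (R n) := by rw [hfin]; simp
  rcases Finset.mem_insert.mp hj with h | h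
  · exact absurd h.symm hij
  · simp only [hR, mem_filter, mem_univ, true_and] at h
    exact h.2

/-- the almost invariance of `A i j` under `q * h`, `q = N!` -/
lemma almost_inv (X Y1 X2 Y2 : Set ℤ) (L u N : ℕ) (E κ : ℝ) (hκ : 0 < κ) (hE0 : 0 ≤ E)
    (hu : u ≤ L)
    (B1 : ((badPairs X Y1 X2 L).card : ℝ) ≤ E) (B2 : ((badPairs X2 Y2 X L).card : ℝ) ≤ E)
    (d1 : κ ≤ cnt Y1 (-(u : ℤ)) u) (d2 : κ ≤ cnt Y2 (-(u : ℤ)) u)
    (hEu : 16 * E ≤ κ * u)
    (hN : (12 * u + 2 : ℝ) < (N + 1) * κ) (h : ℤ) (hh : N * |h| ≤ u) :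
    dif X L ((N.factorial : ℤ) * h) ≤ 22 * N.factorial * u := by
  classical
  obtain ⟨G1, hG1, hc1⟩ := popular X Y1 X2 L E B1 (-(u : ℤ)) u (by omega) (by omega)
  obtain ⟨G2, hG2, hc2⟩ := popular X2 Y2 X L E B2 (-(u : ℤ)) u (by omega) (by omega)
  have hG1ne : G1.Nonempty := by
    rw [← Finset.card_pos]
    have : (0 : ℝ) < G1.card := by linarith
    exact_mod_cast this
  obtain ⟨r0, hr0⟩ := hG1ne
  obtain ⟨r1, r2, -, r4⟩ := hG1 r0 hr0
  have hur : (0 : ℝ) ≤ u := by positivity
  have hbad1 : ((badOne X X2 L r0).card : ℝ) * κ ≤ 2 * E :=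
    le_trans (mul_le_mul_of_nonneg_left d1 (by positivity)) r4
  have hb1 : ((badOne X X2 L r0).card : ℝ) ≤ u / 8 := by
    by_contra hcon
    push Not at hcon
    nlinarith
  have habs0 : |(r0 : ℝ)| ≤ u := by
    have : |r0| ≤ (u : ℤ) := by rw [abs_le]; constructor <;> omega
    exact_mod_cast this
  -- one sided loss for s = r0 + r'
  have hloss : ∀ r' ∈ G2, dif X L (r0 + r') ≤ (17 / 2) * u := by
    intro r' hr'
    obtain ⟨t1, t2, -, t4⟩ := hG2 r' hr'
    have hbad2 : ((badOne X2 X L r').card : ℝ) * κ ≤ 2 * E :=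
      le_trans (mul_le_mul_of_nonneg_left d2 (by positivity)) t4
    have hb2 : ((badOne X2 X L r').card : ℝ) ≤ u / 8 := by
      by_contra hcon
      push Not at hcon
      nlinarith
    have hsub : badOne X X L (r0 + r') ⊆ badOne X X2 L r0 ∪
        ((badOne X2 X L r').image (fun y => y - r0) ∪
          (Finset.Icc (-(L : ℤ)) (-(L : ℤ) - 1 - r0) ∪ Finset.Icc ((L : ℤ) + 1 - r0) L)) := by
      intro x hx
      simp only [badOne, mem_filter, mem_Icc, mem_union, mem_image] at hx ⊢
      obtain ⟨⟨x1, x2⟩, x3, x4, x5⟩ := hx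
      by_cases hw : |x + r0| ≤ (L : ℤ)
      · by_cases hx2 : x + r0 ∈ X2
        · right; left
          refine ⟨x + r0, ⟨⟨(abs_le.mp hw).1, (abs_le.mp hw).2⟩, hx2, ?_, ?_⟩, by ring⟩
          · rwa [add_assoc]
          · rwa [add_assoc]
        · left; exact ⟨⟨x1, x2⟩, x3, hw, hx2⟩
      · right; right
        rw [abs_le] at hw
        rcases not_and_or.mp hw with hw | hw
        · left; constructor <;> omega
        · right; constructor <;> omega
    have hc : (Finset.Icc (-(L : ℤ)) (-(L : ℤ) - 1 - r0) ∪ Finset.Icc ((L : ℤ) + 1 - r0) L).card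
        ≤ u := by
      refine (Finset.card_union_le _ _).trans ?_
      simp only [Int.card_Icc]
      omega
    have h3 := (Finset.card_le_card hsub).trans ((Finset.card_union_le _ _).trans
      (Nat.add_le_add_left ((Finset.card_union_le _ _).trans
        (Nat.add_le_add (Finset.card_image_le) hc)) _))
    have h3' : ((badOne X X L (r0 + r')).card : ℝ) ≤
        (badOne X X2 L r0).card + ((badOne X2 X L r').card + u) := by exact_mod_cast h3
    have h4 := dif_le_loss X L (r0 + r')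
    have h5 : |((r0 + r' : ℤ) : ℝ)| ≤ 2 * u := by
      have : |r0 + r'| ≤ 2 * (u : ℤ) := by rw [abs_le]; constructor <;> omega
      exact_mod_cast this
    linarith
  -- pigeonhole
  have hpig : ∃ m : ℕ, 1 ≤ m ∧ m ≤ N ∧ dif X L (m * h) ≤ 21 * u := by
    have hmaps : ∀ p ∈ (Finset.range (N + 1)) ×ˢ G2, (fun p : ℕ × ℤ => r0 + p.2 + (p.1 : ℤ) * h) p ∈
        Finset.Icc (-(3 * (u : ℤ))) (3 * u) := by
      rintro ⟨a, t⟩ hp
      simp only [mem_product, mem_range, mem_Icc] at hp ⊢
      obtain ⟨t1, t2, -, -⟩ := hG2 t hp.2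
      have ha : |(a : ℤ) * h| ≤ u := by
        rw [abs_mul]
        have : |(a : ℤ)| ≤ N := by
          rw [abs_of_nonneg (by positivity)]; omega
        exact (mul_le_mul_of_nonneg_right this (abs_nonneg h)).trans hh
      obtain ⟨ha1, ha2⟩ := abs_le.mp ha
      constructor <;> linarith
    have hcard : (Finset.Icc (-(3 * (u : ℤ))) (3 * u)).card < ((Finset.range (N + 1)) ×ˢ G2).card := by
      rw [Finset.card_product, Finset.card_range, Int.card_Icc]
      have e1 : ((3 * (u : ℤ)) + 1 - (-(3 * (u : ℤ)))).toNat = 6 * u + 1 := by omega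
      rw [e1]
      have : ((6 * u + 1 : ℕ) : ℝ) < (((N + 1) * G2.card : ℕ) : ℝ) := by
        push_cast
        have : ((N : ℝ) + 1) * κ ≤ (N + 1) * (2 * G2.card) :=
          mul_le_mul_of_nonneg_left (d2.trans hc2) (by positivity)
        linarith
      exact_mod_cast this
    obtain ⟨⟨a, t⟩, hp, ⟨b, t'⟩, hp', hne, heq⟩ :=
      Finset.exists_ne_map_eq_of_card_lt_of_maps_to hcard hmaps
    simp only [mem_product, mem_range] at hp hp'
    simp only at heq
    have hab : a ≠ b := by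
      intro hab
      subst hab
      apply hne
      have : t = t' := by linarith
      rw [this]
    have main : ∀ (a b : ℕ) (t t' : ℤ), a < N + 1 → t ∈ G2 → t' ∈ G2 → b < a →
        r0 + t + (a : ℤ) * h = r0 + t' + (b : ℤ) * h →
        ∃ m : ℕ, 1 ≤ m ∧ m ≤ N ∧ dif X L (m * h) ≤ 21 * u := by
      intro a b t t' ha ht ht' hba heq
      refine ⟨a - b, by omega, by omega, ?_⟩
      have e : ((a - b : ℕ) : ℤ) * h = (r0 + t') + -(r0 + t) := by
        rw [Nat.cast_sub hba.le]; linarith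
      rw [e]
      have k1 := dif_add X L (r0 + t') (-(r0 + t))
      have k2 := dif_neg X L (r0 + t)
      have k3 := hloss t ht
      have k4 := hloss t' ht'
      obtain ⟨t1, t2, -, -⟩ := hG2 t ht
      obtain ⟨t3, t4, -, -⟩ := hG2 t' ht'
      have h5 : |((r0 + t' : ℤ) : ℝ)| ≤ 2 * u := by
        have : |r0 + t'| ≤ 2 * (u : ℤ) := by rw [abs_le]; constructor <;> omega
        exact_mod_cast this
      have h6 : |((r0 + t : ℤ) : ℝ)| ≤ 2 * u := by
        have : |r0 + t| ≤ 2 * (u : ℤ) := by rw [abs_le]; constructor <;> omega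
        exact_mod_cast this
      linarith
    rcases lt_or_gt_of_ne hab with hlt | hlt
    · exact main b a t' t hp'.1 hp'.2 hp.2 hlt heq.symm
    · exact main a b t t' hp.1 hp.2 hp'.2 hlt heq
  obtain ⟨m, hm1, hmN, hm⟩ := hpig
  have hdvd : m ∣ N.factorial := Nat.dvd_factorial hm1 hmN
  obtain ⟨k, hk⟩ := hdvd
  have hkle : k ≤ N.factorial := by rw [hk]; exact Nat.le_mul_of_pos_left _ hm1
  have e : (N.factorial : ℤ) * h = (k : ℤ) * ((m : ℤ) * h) := by rw [hk]; push_cast; ring
  rw [e]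
  have h1 := dif_mul X L ((m : ℤ) * h) k
  have h2 : |(((m : ℤ) * h : ℤ) : ℝ)| ≤ u := by
    have : |(m : ℤ) * h| ≤ u := by
      rw [abs_mul]
      have : |(m : ℤ)| ≤ N := by
        rw [abs_of_nonneg (by positivity)]; exact_mod_cast hmN
      exact (mul_le_mul_of_nonneg_right this (abs_nonneg h)).trans hh
    exact_mod_cast this
  have h3 : (k : ℝ) ≤ N.factorial := by exact_mod_cast hkle
  calc dif X L ((k : ℤ) * ((m : ℤ) * h)) ≤ k * (dif X L ((m : ℤ) * h) + |(((m : ℤ) * h : ℤ) : ℝ)|) := h1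
    _ ≤ k * (21 * u + u) := by
        apply mul_le_mul_of_nonneg_left _ (by positivity)
        linarith
    _ ≤ N.factorial * (21 * u + u) := mul_le_mul_of_nonneg_right h3 (by positivity)
    _ = 22 * N.factorial * u := by ring

open Classical in
/-- counting: a set of points without elements of `X` in `[x,x+q)`, although every window of length
`q*H` has many elements, is small if `X` is almost invariant under `q*h`, `h < H`. -/
lemma gaps_le (X : Set ℤ) (L q H : ℕ) (D t : ℝ)
    (hD : ∀ h < H, dif X L ((q : ℤ) * h) ≤ D)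
    (hwin : ∀ a : ℤ, -(L : ℤ) ≤ a → a + q * H ≤ L → t ≤ cnt X a (a + q * H)) :
    (((Finset.Icc (-(L : ℤ)) L).filter
      (fun r => r + q * H ≤ (L : ℤ) ∧ ∀ s : ℤ, r ≤ s → s < r + q → s ∉ X)).card : ℝ) * t
      ≤ q * H * D := by
  classical
  set Bd := (Finset.Icc (-(L : ℤ)) L).filter
      (fun r => r + q * H ≤ (L : ℤ) ∧ ∀ s : ℤ, r ≤ s → s < r + q → s ∉ X) with hBd
  -- for each bad r the count is a double sum of differences
  have h1 : ∀ r ∈ Bd, t ≤ ∑ h ∈ Finset.range H, ∑ j ∈ Finset.range q,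
      (if ¬ ((r + j) ∈ X ↔ (r + j) + (q : ℤ) * h ∈ X) then (1 : ℝ) else 0) := by
    intro r hr
    simp only [hBd, mem_filter, mem_Icc] at hr
    obtain ⟨⟨hr1, hr2⟩, hr3, hr4⟩ := hr
    refine (hwin r hr1 hr3).trans ?_
    have hcard : ((Finset.Ico r (r + q * H)).filter (fun x => x ∈ X)).card ≤
        (((Finset.range H) ×ˢ (Finset.range q)).filter
          (fun p : ℕ × ℕ => ¬ ((r + p.2) ∈ X ↔ (r + p.2) + (q : ℤ) * p.1 ∈ X))).card := by
      apply Finset.card_le_card_of_injOn
        (fun x => (((x - r) / q).toNat, ((x - r) % q).toNat))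
      · intro x hx
        simp only [coe_filter, mem_Ico, Set.mem_ofPred_eq, mem_product, mem_range] at hx ⊢
        obtain ⟨⟨hx1, hx2⟩, hx3⟩ := hx
        have hq : 0 < (q : ℤ) := by
          rcases Nat.eq_zero_or_pos q with h | h
          · subst h; simp at hx2; omega
          · exact_mod_cast h
        have hd1 : 0 ≤ (x - r) / q := Int.ediv_nonneg (by omega) hq.le
        have hd2 : (x - r) / q < H := by
          apply Int.ediv_lt_of_lt_mul hq; linarith
        have hm1 : 0 ≤ (x - r) % q := Int.emod_nonneg _ hq.ne'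
        have hm2 : (x - r) % q < q := Int.emod_lt_of_pos _ hq
        have e : r + (((x - r) % q).toNat : ℤ) + (q : ℤ) * (((x - r) / q).toNat : ℤ) = x := by
          rw [Int.toNat_of_nonneg hd1, Int.toNat_of_nonneg hm1]
          have := Int.emod_add_mul_ediv (x - r) q
          linarith
        refine ⟨⟨by omega, by omega⟩, ?_⟩
        rw [e]
        intro hiff
        exact hr4 (r + (((x - r) % q).toNat : ℤ)) (by omega) (by omega) (hiff.mpr hx3)
      · intro x hx y hy hxy
        simp only [coe_filter, mem_Ico, Set.mem_ofPred_eq] at hx hy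
        simp only [Prod.mk.injEq] at hxy
        have hq : 0 < (q : ℤ) := by
          rcases Nat.eq_zero_or_pos q with h | h
          · subst h
            have := hx.1.2
            simp at this; omega
          · exact_mod_cast h
        have hd1 : 0 ≤ (x - r) / q := Int.ediv_nonneg (by omega) hq.le
        have hd1' : 0 ≤ (y - r) / q := Int.ediv_nonneg (by omega) hq.le
        have hm1 : 0 ≤ (x - r) % q := Int.emod_nonneg _ hq.ne'
        have hm1' : 0 ≤ (y - r) % q := Int.emod_nonneg _ hq.ne'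
        have e1 : (x - r) / q = (y - r) / q := by omega
        have e2 : (x - r) % q = (y - r) % q := by omega
        have e3 := Int.emod_add_mul_ediv (x - r) q
        have e4 := Int.emod_add_mul_ediv (y - r) q
        rw [e1, e2] at e3
        linarith
    have hsum : ((((Finset.range H) ×ˢ (Finset.range q)).filter
          (fun p : ℕ × ℕ => ¬ ((r + p.2) ∈ X ↔ (r + p.2) + (q : ℤ) * p.1 ∈ X))).card : ℝ) =
        ∑ h ∈ Finset.range H, ∑ j ∈ Finset.range q,
          (if ¬ ((r + j) ∈ X ↔ (r + j) + (q : ℤ) * h ∈ X) then (1 : ℝ) else 0) := by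
      rw [Finset.card_filter, Finset.sum_product]
      push_cast
      rfl
    rw [← hsum]
    unfold cnt
    exact_mod_cast hcard
  have h2 : (Bd.card : ℝ) * t ≤ ∑ r ∈ Bd, ∑ h ∈ Finset.range H, ∑ j ∈ Finset.range q,
      (if ¬ ((r + j) ∈ X ↔ (r + j) + (q : ℤ) * h ∈ X) then (1 : ℝ) else 0) := by
    rw [← nsmul_eq_mul, ← Finset.sum_const]
    exact Finset.sum_le_sum h1
  refine h2.trans ?_
  rw [Finset.sum_comm]
  have h3 : ∀ h ∈ Finset.range H, ∑ r ∈ Bd, ∑ j ∈ Finset.range q,
      (if ¬ ((r + j) ∈ X ↔ (r + j) + (q : ℤ) * h ∈ X) then (1 : ℝ) else 0) ≤ q * D := by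
    intro h hh
    rw [Finset.sum_comm]
    have h4 : ∀ j ∈ Finset.range q, ∑ r ∈ Bd,
        (if ¬ ((r + j) ∈ X ↔ (r + j) + (q : ℤ) * h ∈ X) then (1 : ℝ) else 0) ≤ D := by
      intro j hj
      refine le_trans ?_ (hD h (Finset.mem_range.mp hh))
      rw [← Finset.sum_filter, Finset.sum_const, nsmul_eq_mul, mul_one]
      unfold dif
      have : (Bd.filter (fun r : ℤ => ¬ ((r + j) ∈ X ↔ (r + j) + (q : ℤ) * h ∈ X))).card ≤
          ((Finset.Icc (-(L : ℤ)) L).filter (fun x => ¬ (x ∈ X ↔ x + (q : ℤ) * h ∈ X))).card := by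
        apply Finset.card_le_card_of_injOn (fun r => r + (j : ℤ))
        · intro r hr
          simp only [hBd, coe_filter, mem_filter, mem_Icc, Set.mem_ofPred_eq] at hr ⊢
          obtain ⟨⟨⟨hr1, hr2⟩, hr3, -⟩, hr5⟩ := hr
          have hj' := Finset.mem_range.mp hj
          have hH : 1 ≤ H := by
            have := Finset.mem_range.mp hh
            omega
          have hqH : (q : ℤ) ≤ q * H := by
            have : (1 : ℤ) ≤ H := by exact_mod_cast hH
            nlinarith
          exact ⟨⟨by omega, by linarith [show (j : ℤ) < q by exact_mod_cast hj']⟩, hr5⟩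
        · intro x _ y _ h
          simpa using h
      exact_mod_cast this
    calc ∑ j ∈ Finset.range q, ∑ r ∈ Bd,
        (if ¬ ((r + j) ∈ X ↔ (r + j) + (q : ℤ) * h ∈ X) then (1 : ℝ) else 0)
        ≤ ∑ _j ∈ Finset.range q, D := Finset.sum_le_sum h4
      _ = q * D := by simp
  calc ∑ h ∈ Finset.range H, ∑ r ∈ Bd, ∑ j ∈ Finset.range q,
      (if ¬ ((r + j) ∈ X ↔ (r + j) + (q : ℤ) * h ∈ X) then (1 : ℝ) else 0)
      ≤ ∑ _h ∈ Finset.range H, (q : ℝ) * D := Finset.sum_le_sum h3
    _ = q * H * D := by simp; ring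

open Classical in
set_option maxHeartbeats 2000000 in
/-- **COMB-AIJ**. -/
theorem comb (n : ℕ) (hn : 3 ≤ n) (c ε : ℝ) (hc : 0 < c) (hε : 0 < ε) :
    ∃ (G : ℕ) (δ η : ℝ) (L0 : ℕ), 0 < δ ∧ 0 < η ∧ ∀ L : ℕ, L0 ≤ L →
      ∀ A : Fin n → Fin n → Set ℤ,
      (∀ i j k : Fin n, i ≠ j → j ≠ k → i ≠ k →
        ((badPairs (A i j) (A j k) (A i k) L).card : ℝ) ≤ η * (L : ℝ) ^ 2) →
      (∀ a b : ℤ, -(L : ℤ) ≤ a → b ≤ L → δ * L ≤ ((b - a : ℤ) : ℝ) →
        ∀ S : Finset (Fin n), S.Nonempty → S ≠ univ →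
        c * ((b - a : ℤ) : ℝ) ≤ ∑ i ∈ S, ∑ j ∈ Sᶜ, cnt (A i j) a b) →
      ∀ i j : Fin n, i ≠ j →
        (((Finset.Icc (-(L : ℤ)) L).filter
          (fun r => ∀ s : ℤ, r ≤ s → s < r + G → s ∉ A i j)).card : ℝ) ≤ ε * L := by
  have hnr : (0 : ℝ) < n := by
    have : 0 < n := by omega
    exact_mod_cast this
  set c' : ℝ := c / (n : ℝ) ^ 2 with hc'def
  have hc' : 0 < c' := by positivity
  set κ0 : ℝ := (1 / 2 : ℝ) ^ n * (c' * 2) with hκ0
  have hκ0pos : 0 < κ0 := by positivity
  set N : ℕ := ⌈(12 * 2 ^ n + 2 : ℝ) / κ0⌉₊ + 2 ^ (n + 2) + 2 with hN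
  have hN1 : (12 * 2 ^ n + 2 : ℝ) < (N + 1) * κ0 := by
    have h1 : (12 * 2 ^ n + 2 : ℝ) / κ0 ≤ ⌈(12 * 2 ^ n + 2 : ℝ) / κ0⌉₊ := Nat.le_ceil _
    have h2 : (⌈(12 * 2 ^ n + 2 : ℝ) / κ0⌉₊ : ℝ) < N + 1 := by
      have : ⌈(12 * 2 ^ n + 2 : ℝ) / κ0⌉₊ < N + 1 := by
        rw [hN]; have := Nat.one_le_two_pow (n := n + 2); omega
      exact_mod_cast this
    rw [← div_lt_iff₀ hκ0pos]
    linarith
  have hN2 : 2 ^ (n + 2) + 2 ≤ N := by
    rw [hN]; exact Nat.add_le_add_right (Nat.le_add_left _ _) 2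
  have hNpos : 1 ≤ N := by
    rw [hN]; exact le_trans (by norm_num) (Nat.le_add_left 2 _)
  clear_value N
  set q : ℕ := N.factorial with hq
  have hqge : 4 * (2 ^ n * N) ≤ q := by
    have h1 : q = N * (N - 1).factorial := by
      rw [hq]; exact (Nat.mul_factorial_pred (by omega)).symm
    have h2 : N - 1 ≤ (N - 1).factorial := Nat.self_le_factorial _
    have h3 : 2 ^ (n + 2) ≤ (N - 1).factorial := by omega
    rw [h1]
    calc 4 * (2 ^ n * N) = N * 2 ^ (n + 2) := by ring
      _ ≤ N * (N - 1).factorial := Nat.mul_le_mul_left _ h3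
  have hqpos : 1 ≤ q := Nat.factorial_pos _
  set C1 : ℝ := 88 * q * (2 ^ n * N) / c' + q with hC1
  have hC1pos : 0 < C1 := by
    have : (0 : ℝ) < q := by exact_mod_cast hqpos
    positivity
  set B : ℕ := ⌈C1 / ε⌉₊ + q + 1 with hB
  have hB1 : C1 ≤ ε * B := by
    have h1 : C1 / ε ≤ ⌈C1 / ε⌉₊ := Nat.le_ceil _
    have h2 : (⌈C1 / ε⌉₊ : ℝ) ≤ B := by
      have : ⌈C1 / ε⌉₊ ≤ B := by rw [hB]; omega
      exact_mod_cast this
    have h3 : C1 / ε ≤ B := h1.trans h2
    rw [div_le_iff₀ hε] at h3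
    linarith
  have hBq : q ≤ B := by rw [hB]; omega
  have hBpos : 0 < B := by omega
  clear_value B
  have hBr : (0 : ℝ) < B := by exact_mod_cast hBpos
  refine ⟨q, 1 / (2 * B), min (κ0 ^ 2) κ0 / (64 * B ^ 2), B, by positivity,
    div_pos (lt_min (by positivity) hκ0pos) (by positivity), ?_⟩
  intro L hL A H1 H2 i j hij
  set η : ℝ := min (κ0 ^ 2) κ0 / (64 * (B : ℝ) ^ 2) with hη
  set H : ℕ := L / B with hH
  have hHpos : 1 ≤ H := (Nat.one_le_div_iff hBpos).mpr hL
  have hBH : B * H ≤ L := Nat.mul_div_le L B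
  have hLB : L < B * (H + 1) := by
    rw [hH]; exact Nat.lt_mul_div_succ L hBpos
  clear_value H
  have hHr : (1 : ℝ) ≤ H := by exact_mod_cast hHpos
  have hLr2 : (L : ℝ) ≤ 2 * B * H := by
    have h1 : (L : ℝ) < B * (H + 1) := by exact_mod_cast hLB
    nlinarith
  set v : ℕ := N * H with hv
  have hvpos : 0 < v := Nat.mul_pos (by omega) (by omega)
  have hHv : H ≤ v := Nat.le_mul_of_pos_left _ (by omega)
  set u : ℕ := 2 ^ n * v with hu
  have hvu : v ≤ u := Nat.le_mul_of_pos_left _ (by positivity)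
  have h4u : 4 * u ≤ q * H := by
    calc 4 * u = 4 * (2 ^ n * N) * H := by rw [hu, hv]; ring
      _ ≤ q * H := Nat.mul_le_mul_right _ hqge
  have hqHL : q * H ≤ L := (Nat.mul_le_mul_right _ hBq).trans hBH
  have huL : u ≤ L := by omega
  have hLrpos : (0 : ℝ) < L := by
    have : 0 < L := by omega
    exact_mod_cast this
  -- the bound on E
  have hHvr : (H : ℝ) ≤ v := by exact_mod_cast hHv
  have hvur : (v : ℝ) ≤ u := by exact_mod_cast hvu
  have hvr : (0 : ℝ) < v := by linarith
  have hEH : η * (L : ℝ) ^ 2 ≤ min (κ0 ^ 2) κ0 / 16 * H ^ 2 := by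
    have h1 : (L : ℝ) ^ 2 ≤ (2 * B * H) ^ 2 := by gcongr
    have h2 : 0 ≤ η := by rw [hη]; exact div_nonneg (le_min (by positivity) hκ0pos.le) (by positivity)
    calc η * (L : ℝ) ^ 2 ≤ η * (2 * B * H) ^ 2 := mul_le_mul_of_nonneg_left h1 h2
      _ = min (κ0 ^ 2) κ0 / 16 * H ^ 2 := by rw [hη]; field_simp; ring
  have hH2v : (H : ℝ) ^ 2 ≤ v ^ 2 := by gcongr
  have hE1 : 2 * (η * (L : ℝ) ^ 2) ≤ (κ0 * v) ^ 2 := by
    have h1 : min (κ0 ^ 2) κ0 ≤ κ0 ^ 2 := min_le_left _ _
    have h2 : min (κ0 ^ 2) κ0 / 16 * (H : ℝ) ^ 2 ≤ κ0 ^ 2 / 16 * v ^ 2 := by gcongr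
    have h3 : 0 ≤ κ0 ^ 2 * (v : ℝ) ^ 2 := by positivity
    rw [mul_pow]
    linarith
  have hE2 : 16 * (η * (L : ℝ) ^ 2) ≤ (κ0 * v) * u := by
    have h1 : min (κ0 ^ 2) κ0 ≤ κ0 := min_le_right _ _
    have h2 : min (κ0 ^ 2) κ0 / 16 * (H : ℝ) ^ 2 ≤ κ0 / 16 * v ^ 2 := by gcongr
    have h3 : κ0 * (v : ℝ) ^ 2 ≤ κ0 * v * u := by
      rw [sq, ← mul_assoc]
      exact mul_le_mul_of_nonneg_left hvur (by positivity)
    linarith
  have hE0 : 0 ≤ η * (L : ℝ) ^ 2 := by
    have h2 : 0 ≤ η := by rw [hη]; exact div_nonneg (le_min (by positivity) hκ0pos.le) (by positivity)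
    positivity
  -- base windows
  have hV : ∀ S : Finset (Fin n), S.Nonempty → S ≠ univ →
      ∃ i ∈ S, ∃ j, j ∉ S ∧ c' * (2 * v) ≤ cnt (A i j) (-(v : ℤ)) v := by
    intro S hS hS'
    have hw : 1 / (2 * (B : ℝ)) * L ≤ (((v : ℤ) - (-(v : ℤ)) : ℤ) : ℝ) := by
      push_cast
      rw [div_mul_eq_mul_div, div_le_iff₀ (by positivity)]
      nlinarith
    have h := H2 (-(v : ℤ)) v (by omega) (by omega) hw S hS hS'
    obtain ⟨i, hi, j, hj, hij⟩ := exists_dense n A _ _ _ (by
      have : (0 : ℝ) ≤ (((v : ℤ) - (-(v : ℤ)) : ℤ) : ℝ) := by push_cast; linarith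
      positivity) S h hS hS'
    refine ⟨i, hi, j, hj, le_trans (le_of_eq ?_) hij⟩
    rw [hc'def]; push_cast; ring
  have hsmall : ∀ i j : Fin n, i ≠ j → κ0 * v ≤ cnt (A i j) (-(u : ℤ)) u := by
    intro i j hij
    have h := dense_small n hn A L v hvpos (η * (L : ℝ) ^ 2) c' hc' H1 hV huL (by
      refine hE1.trans (le_of_eq ?_)
      rw [hκ0]; ring) i j hij
    refine le_trans (le_of_eq ?_) h
    rw [hκ0]; ring
  -- a third index
  obtain ⟨k, hki, hkj⟩ : ∃ k : Fin n, k ≠ i ∧ k ≠ j := by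
    by_contra hcon
    push Not at hcon
    have hsub : (univ : Finset (Fin n)) ⊆ {i, j} := by
      intro k _
      by_cases h : k = i
      · simp [h]
      · simp [hcon k h]
    have := Finset.card_le_card hsub
    have h2 : ({i, j} : Finset (Fin n)).card ≤ 2 := Finset.card_le_two
    simp only [Finset.card_univ, Fintype.card_fin] at this
    omega
  -- almost invariance
  have hinv : ∀ h < H, dif (A i j) L ((q : ℤ) * h) ≤ 22 * q * u := by
    intro h hh
    apply almost_inv (A i j) (A j k) (A i k) (A k j) L u N (η * (L : ℝ) ^ 2) (κ0 * v)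
      (by positivity) hE0 huL (H1 i j k hij hkj.symm hki.symm) (H1 i k j hki.symm hkj hij)
      (hsmall j k hkj.symm) (hsmall k j hkj) hE2
    · have h1 : (12 * (u : ℝ) + 2) ≤ (12 * 2 ^ n + 2) * v := by
        have : (u : ℝ) = 2 ^ n * v := by rw [hu]; push_cast; ring
        rw [this]
        nlinarith [show (1 : ℝ) ≤ v by exact_mod_cast hvpos]
      have h2 : (12 * 2 ^ n + 2 : ℝ) * v < (N + 1) * κ0 * v := mul_lt_mul_of_pos_right hN1 hvr
      linarith
    · have h1 : (N : ℤ) * |(h : ℤ)| ≤ N * H := by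
        rw [abs_of_nonneg (by positivity)]
        have : (h : ℤ) ≤ H := by exact_mod_cast hh.le
        exact mul_le_mul_of_nonneg_left this (by positivity)
      have h2 : (N : ℤ) * H ≤ u := by
        have : N * H ≤ u := hvu
        exact_mod_cast this
      linarith
  -- all windows of length q*H
  have hwin : ∀ a : ℤ, -(L : ℤ) ≤ a → a + q * H ≤ L → c' * (q * H) / 4 ≤ cnt (A i j) a (a + q * H) := by
    intro a ha hb
    have h4u' : 4 * (u : ℤ) ≤ q * H := by exact_mod_cast h4u
    have h4ur : 4 * (u : ℝ) ≤ q * H := by exact_mod_cast h4u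
    have hqr : (4 : ℝ) ≤ q := by
      have h1 : 4 ≤ q := by
        have : 1 ≤ 2 ^ n * N := Nat.mul_pos (by positivity) (by omega)
        omega
      exact_mod_cast h1
    have hw : 1 / (2 * (B : ℝ)) * L ≤ (((a + q * H - u) - (a + u) : ℤ) : ℝ) := by
      push_cast
      rw [div_mul_eq_mul_div, div_le_iff₀ (by positivity)]
      have h5 : (H : ℝ) ≤ q * H / 2 := by nlinarith
      have h6 : (q : ℝ) * H / 2 ≤ (a + q * H - u) - (a + u) := by linarith
      have h7 : (H : ℝ) ≤ (a + q * H - u) - (a + u) := h5.trans h6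
      have h8 : (H : ℝ) * (2 * B) ≤ ((a + q * H - u) - (a + u)) * (2 * B) :=
        mul_le_mul_of_nonneg_right h7 (by positivity)
      linarith
    have hne : ({i} : Finset (Fin n)) ≠ univ := by
      intro h
      have := congrArg Finset.card h
      simp at this
      omega
    have h := H2 (a + u) (a + q * H - u) (by omega) (by omega) hw {i} (by simp) hne
    have hwr : (q : ℝ) * H / 2 ≤ (((a + q * H - u) - (a + u) : ℤ) : ℝ) := by
      push_cast; linarith
    obtain ⟨i', hi', l, hl, hil⟩ := exists_dense n A _ _ _ (by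
      have : (0 : ℝ) ≤ (((a + q * H - u) - (a + u) : ℤ) : ℝ) := le_trans (by positivity) hwr
      positivity) {i} h (by simp) hne
    have hi'' : i' = i := by simpa using hi'
    subst hi''
    have hli : l ≠ i' := by simpa using hl
    have hX : c' * (q * H / 2) ≤ cnt (A i' l) (a + u) (a + q * H - u) := by
      refine le_trans ?_ hil
      rw [hc'def, div_mul_eq_mul_div]
      gcongr
    by_cases hlj : l = j
    · subst hlj
      refine le_trans ?_ (hX.trans (cnt_mono _ (by omega) (by omega)))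
      have : 0 ≤ c' * (q * H) := by positivity
      linarith
    · have hY := hsmall l j hlj
      have hκX : κ0 * v ≤ cnt (A i' l) (a + u) (a + q * H - u) := by
        refine le_trans ?_ hX
        have h1 : κ0 ≤ c' * 2 := by
          rw [hκ0]
          have : (1 / 2 : ℝ) ^ n ≤ 1 := pow_le_one₀ (by norm_num) (by norm_num)
          nlinarith
        calc κ0 * v ≤ (c' * 2) * u := mul_le_mul h1 hvur hvr.le (by positivity)
          _ ≤ c' * (q * H / 2) := by nlinarith
      have hcomp := comp (A i' l) (A l j) (A i' j) L (η * (L : ℝ) ^ 2)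
        (H1 i' l j hli.symm hlj hij) (a + u) (a + q * H - u) (-(u : ℤ)) u
        (by omega) (by omega) (by omega) (by omega) (by omega) (by omega)
        (by
          refine hE1.trans ?_
          rw [sq]
          exact mul_le_mul hκX hY (by positivity) (cnt_nonneg _ _ _))
        (lt_of_lt_of_le (by positivity) hY)
      have e1 : a + (u : ℤ) + -(u : ℤ) = a := by ring
      have e2 : a + (q : ℤ) * H - u + u = a + q * H := by ring
      rw [e1, e2] at hcomp
      linarith
  have hgap := gaps_le (A i j) L q H (22 * q * u) (c' * (q * H) / 4) hinv hwin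
  -- conclusion
  have hqr : (0 : ℝ) < q := by exact_mod_cast hqpos
  have hHr0 : (0 : ℝ) < H := by linarith
  have hcard1 : (((Finset.Icc (-(L : ℤ)) L).filter
      (fun r => r + q * H ≤ (L : ℤ) ∧ ∀ s : ℤ, r ≤ s → s < r + q → s ∉ A i j)).card : ℝ)
      ≤ 88 * q * u / c' := by
    rw [le_div_iff₀ hc']
    have h1 : (((Finset.Icc (-(L : ℤ)) L).filter
      (fun r => r + q * H ≤ (L : ℤ) ∧ ∀ s : ℤ, r ≤ s → s < r + q → s ∉ A i j)).card : ℝ) * c' *
        (q * H) ≤ 88 * q * u * (q * H) := by linarith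
    exact le_of_mul_le_mul_right h1 (by positivity)
  have hsub : (Finset.Icc (-(L : ℤ)) L).filter
      (fun r => ∀ s : ℤ, r ≤ s → s < r + q → s ∉ A i j) ⊆
      (Finset.Icc (-(L : ℤ)) L).filter
        (fun r => r + q * H ≤ (L : ℤ) ∧ ∀ s : ℤ, r ≤ s → s < r + q → s ∉ A i j) ∪
      Finset.Ioc ((L : ℤ) - q * H) L := by
    intro x hx
    simp only [mem_filter, mem_Icc, mem_union, mem_Ioc] at hx ⊢
    by_cases h : x + q * H ≤ (L : ℤ)
    · exact Or.inl ⟨hx.1, h, hx.2⟩
    · right; constructor <;> omega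
  have hcard2 := (Finset.card_le_card hsub).trans (Finset.card_union_le _ _)
  have hIoc : (Finset.Ioc ((L : ℤ) - q * H) L).card = q * H := by
    rw [Int.card_Ioc]
    have : (L : ℤ) - ((L : ℤ) - q * H) = ((q * H : ℕ) : ℤ) := by push_cast; ring
    rw [this, Int.toNat_natCast]
  rw [hIoc] at hcard2
  have hcard3 : (((Finset.Icc (-(L : ℤ)) L).filter
      (fun r => ∀ s : ℤ, r ≤ s → s < r + q → s ∉ A i j)).card : ℝ) ≤ 88 * q * u / c' + q * H := by
    have : (((Finset.Icc (-(L : ℤ)) L).filter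
      (fun r => ∀ s : ℤ, r ≤ s → s < r + q → s ∉ A i j)).card : ℝ) ≤
      (((Finset.Icc (-(L : ℤ)) L).filter
        (fun r => r + q * H ≤ (L : ℤ) ∧ ∀ s : ℤ, r ≤ s → s < r + q → s ∉ A i j)).card : ℝ) + q * H := by
      exact_mod_cast hcard2
    linarith
  refine hcard3.trans ?_
  have hfin : 88 * q * (u : ℝ) / c' + q * H = H * C1 := by
    have : (u : ℝ) = 2 ^ n * (N * H) := by rw [hu, hv]; push_cast; ring
    rw [this, hC1]
    field_simp
  rw [hfin]
  have hBHr : (B : ℝ) * H ≤ L := by exact_mod_cast hBH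
  calc (H : ℝ) * C1 ≤ H * (ε * B) := mul_le_mul_of_nonneg_left hB1 hHr0.le
    _ = ε * (B * H) := by ring
    _ ≤ ε * L := mul_le_mul_of_nonneg_left hBHr hε.le

end Crest.Agent.R014.Comb_583
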