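import Crest.Agent.R014.Conv2_792
import Crest.Agent.R014.AsmB2_460

/-!
# Row 14, block D, board item D10 (helper792): CONV for helper460's `AsmB2_460.PSr`
-/

set_option autoImplicit false

open MeasureTheory Crest.NumberTheoryR.Packets
open Crest.Agent.R014.Iface_792 Crest.Agent.R014.AsmB2_460 Crest.Agent.R014.Nd_837
open Crest.Agent.R014.NScH_395

noncomputable section

namespace Crest.Agent.R014.Conv3_792

variable {n : ℕ}

/-- **CONV** for `PSr`: the literal shape `Q3f_433.Conv PSr`. -/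
theorem conv_psr (q : ℕ) :
    ∃ (K₀ : ℕ) (U : ℝ), ∀ K : ℕ, K₀ ≤ K → ∀ μ : Measure (ModSpace n), IsProbabilityMeasure μ →
      AInv μ → ∀ u : ℝ, U ≤ u → ∀ i j : Fin n, i ≠ j → ∃ V : ModSpace n → ℝ, Integrable V μ ∧
        (∀ x, 0 ≤ V x) ∧ ∫ x, V x ∂μ ≤ (1 / 2) ^ q ∧
        ∀ᵐ x ∂μ, PSr μ u 2 i j x ≤ 2 ^ q * PSr μ u (2 ^ K) i j x + V x := by
  obtain ⟨K₀, U, h⟩ := Conv2_792.conv_PS (noiseFam n) q
  refine ⟨K₀, max U (U0 n), fun K hK μ hμ hA u hu i j hij => ?_⟩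
  have hu1 : U ≤ u := (le_max_left _ _).trans hu
  have hu2 : U0 n ≤ u := (le_max_right _ _).trans hu
  rw [psr_eq hu2 two_pos, psr_eq hu2 (pow_pos two_pos K)]
  exact h K hK μ hμ hA u hu1 i j hij

end Crest.Agent.R014.Conv3_792
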