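import Crest.Agent.R014.NScD_395
import Crest.Agent.R014.DSkel_792

/-!
# Row 14, block D: from `Ψ` with base 2 to `Ψ` with a large base (helper792)

`Ψ₂ ≤ 2^q Ψ_b + B`, `∫ B ≤ 2 · 2^(-q)` (`b = 2 m`, `m ≥ 2^q`), for the same reference noise; hence a
positive density of depths with `Σ Ψ₂ ≥ c₁ w` gives a density `c₁ / 4` of depths with
`Ψ_b ≥ τ₀ = 2^(-q) c₁ / (4 n²)`.
-/

set_option autoImplicit false
set_option linter.unusedSectionVars false
set_option linter.style.haveILetI false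

open MeasureTheory Finset Crest.NumberTheoryR.Packets
open Crest.Agent.R014.Nd_837 Crest.Agent.R014.Ne1_567 Crest.Agent.R014.NScC_395
open Crest.Agent.R014.NScD_395 Crest.Agent.R014.Ms_667
open Crest.Agent.R014.Ne3_567 (pv measurable_pv pv_nonneg sum_pv pv_le_one pv_eq integral_pv_mul)
open scoped ENNReal

noncomputable section

namespace Crest.Agent.R014.Conv_792

variable {n : ℕ}

/-! ### Radon-Nikodym derivatives of finite sums -/

theorem rnDeriv_finset_sum {Y κ : Type*} [MeasurableSpace Y] (s : Finset κ) (ν : κ → Measure Y)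
    [∀ k, IsFiniteMeasure (ν k)] (T : Measure Y) [SigmaFinite T] :
    (∑ k ∈ s, ν k).rnDeriv T =ᵐ[T] fun y => ∑ k ∈ s, (ν k).rnDeriv T y := by
  classical
  induction s using Finset.induction_on with
  | empty =>
    simp only [Finset.sum_empty]
    exact Measure.rnDeriv_zero T
  | insert a s ha ih =>
    rw [Finset.sum_insert ha]
    filter_upwards [Measure.rnDeriv_add' (ν a) (∑ k ∈ s, ν k) T, ih] with y h1 h2
    rw [h1, Pi.add_apply, h2, Finset.sum_insert ha]

/-! ### base 2 versus base `2 m` -/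

section
variable (μ : Measure (ModSpace n)) (κ : Measure (SLR n)) [IsProbabilityMeasure μ]
  [IsProbabilityMeasure κ] {i j : Fin n} (hij : i ≠ j) (r : ℝ)

theorem tot_eq {m : ℕ} (hm : 0 < m) :
    tot (lab μ κ hij r (2 * m)) = tot (lab μ κ hij r 2) := by
  rw [NScD_395.tot_lab_eq μ κ hij r (by omega), NScD_395.tot_lab_eq μ κ hij r (by omega)]

theorem pr_coarse {m : ℕ} (hm : 0 < m) (c : Fin 2) :
    ∀ᵐ y ∂(tot (lab μ κ hij r (2 * m))), pr (lab μ κ hij r 2) c y
      = ∑ k : Fin m, pr (lab μ κ hij r (2 * m)) (finProdFinEquiv (c, k)) y := by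
  have h1 := rnDeriv_finset_sum Finset.univ
    (fun k : Fin m => lab μ κ hij r (2 * m) (finProdFinEquiv (c, k))) (tot (lab μ κ hij r (2 * m)))
  rw [sum_lab_mul μ κ hij r hm c] at h1
  have h2 : ∀ k : Fin m, ∀ᵐ y ∂(tot (lab μ κ hij r (2 * m))),
      (lab μ κ hij r (2 * m) (finProdFinEquiv (c, k))).rnDeriv (tot (lab μ κ hij r (2 * m))) y ≠ ∞ :=
    fun k => (Measure.rnDeriv_lt_top _ _).mono fun y hy => hy.ne
  have h3 := Filter.eventually_all.2 h2
  filter_upwards [h1, h3] with y hy1 hy2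
  unfold pr
  rw [← tot_eq μ κ hij r hm, hy1, ENNReal.toReal_sum fun k _ => hy2 k]

theorem pv_coarse {m : ℕ} (hm : 0 < m) :
    ∀ᵐ y ∂(tot (lab μ κ hij r (2 * m))), ∀ c : Fin 2, pv (lab μ κ hij r 2) c y
      = ∑ k : Fin m, pv (lab μ κ hij r (2 * m)) (finProdFinEquiv (c, k)) y := by
  have h1 := Filter.eventually_all.2 fun c : Fin 2 => pr_coarse μ κ hij r hm c
  have h2 := pv_eq (lab μ κ hij r (2 * m))
  have h3 := pv_eq (lab μ κ hij r 2)
  rw [← tot_eq μ κ hij r hm] at h3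
  filter_upwards [h1, h2, h3] with y hy1 hy2 hy3 c
  rw [hy3 c, hy1 c]
  exact Finset.sum_congr rfl fun k _ => (hy2 _).symm

end

/-! ### the pointwise inequality -/

theorem cen_lo {m : ℕ} (k : Fin m) :
    cen (2 * m) (finProdFinEquiv ((0 : Fin 2), k)) = -((2 * (m : ℝ) - 2 * (k : ℕ) - 1) / (2 * m)) := by
  have hm : (m : ℝ) ≠ 0 := by exact_mod_cast k.pos.ne'
  rw [cen_mul]
  unfold cen
  simp only [Fin.val_zero]
  push_cast
  field_simp
  ring

theorem cen_hi {m : ℕ} (k : Fin m) :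
    cen (2 * m) (finProdFinEquiv ((1 : Fin 2), k)) = (2 * (k : ℕ) + 1) / (2 * m) := by
  have hm : (m : ℝ) ≠ 0 := by exact_mod_cast k.pos.ne'
  rw [cen_mul]
  unfold cen
  simp only [Fin.val_one]
  push_cast
  field_simp
  ring

theorem cen_lo_neg {m : ℕ} (k : Fin m) : cen (2 * m) (finProdFinEquiv ((0 : Fin 2), k)) < 0 := by
  have hm : (0 : ℝ) < m := by exact_mod_cast k.pos
  have hk : ((k : ℕ) : ℝ) + 1 ≤ m := by exact_mod_cast k.2
  rw [cen_lo, neg_lt_zero]
  apply div_pos <;> linarith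

theorem cen_hi_pos {m : ℕ} (k : Fin m) : 0 < cen (2 * m) (finProdFinEquiv ((1 : Fin 2), k)) := by
  have hm : (0 : ℝ) < m := by exact_mod_cast k.pos
  rw [cen_hi]
  positivity

/-- the digits whose cells have centres close to `0`. -/
def nearB (q b : ℕ) : Finset (Fin b) := Finset.univ.filter fun d => |cen b d| < (2 : ℝ) ^ (-(q : ℝ))

theorem spr_two (p : Fin 2 → ℝ) : spr (cen 2) p = 2 * (p 0 * p 1) := by
  unfold spr cen
  simp only [Fin.sum_univ_two, Fin.val_zero, Fin.val_one]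
  norm_num
  ring

theorem pointwise {m q : ℕ} (p : Fin (2 * m) → ℝ) (h0 : ∀ d, 0 ≤ p d) (h1 : ∑ d, p d = 1) :
    2 * ((∑ k : Fin m, p (finProdFinEquiv ((0 : Fin 2), k)))
      * ∑ k : Fin m, p (finProdFinEquiv ((1 : Fin 2), k)))
      ≤ 2 ^ (q : ℝ) * spr (cen (2 * m)) p + ∑ d ∈ nearB q (2 * m), p d := by
  have hq : (0 : ℝ) < 2 ^ (q : ℝ) := Real.rpow_pos_of_pos two_pos _
  -- weights
  have hw : ∀ d d' : Fin (2 * m),
      (if ((finProdFinEquiv.symm d).1 ≠ (finProdFinEquiv.symm d').1) then (1 : ℝ) else 0)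
        ≤ 2 ^ (q : ℝ) * |cen (2 * m) d - cen (2 * m) d'|
          + (if |cen (2 * m) d| < (2 : ℝ) ^ (-(q : ℝ)) then 1 else 0) := by
    intro d d'
    obtain ⟨⟨c, k⟩, rfl⟩ := finProdFinEquiv.surjective d
    obtain ⟨⟨c', k'⟩, rfl⟩ := finProdFinEquiv.surjective d'
    simp only [Equiv.symm_apply_apply]
    have hnn : 0 ≤ 2 ^ (q : ℝ) * |cen (2 * m) (finProdFinEquiv (c, k))
        - cen (2 * m) (finProdFinEquiv (c', k'))| := by positivity
    by_cases h2 : c ≠ c'
    · have h4 : |cen (2 * m) (finProdFinEquiv (c, k))| ≤ |cen (2 * m) (finProdFinEquiv (c, k))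
          - cen (2 * m) (finProdFinEquiv (c', k'))| := by
        have hc : c = 0 ∨ c = 1 := by fin_cases c <;> simp
        have hc' : c' = 0 ∨ c' = 1 := by fin_cases c' <;> simp
        rcases hc with rfl | rfl <;> rcases hc' with rfl | rfl
        · exact absurd rfl h2
        · have e1 := cen_lo_neg k
          have e2 := cen_hi_pos k'
          rw [abs_of_neg e1, abs_of_neg (by linarith)]
          linarith
        · have e1 := cen_hi_pos k
          have e2 := cen_lo_neg k'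
          rw [abs_of_pos e1, abs_of_pos (by linarith)]
          linarith
        · exact absurd rfl h2
      rw [if_pos h2]
      by_cases h3 : |cen (2 * m) (finProdFinEquiv (c, k))| < (2 : ℝ) ^ (-(q : ℝ))
      · rw [if_pos h3]; linarith
      · rw [if_neg h3, add_zero]
        have h5 : (2 : ℝ) ^ (q : ℝ) * (2 : ℝ) ^ (-(q : ℝ)) = 1 := by
          rw [← Real.rpow_add two_pos, add_neg_cancel, Real.rpow_zero]
        rw [← h5]
        exact mul_le_mul_of_nonneg_left ((not_lt.1 h3).trans h4) hq.le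
    · rw [if_neg h2]
      split_ifs <;> linarith
  have h2 : 2 * ((∑ k : Fin m, p (finProdFinEquiv ((0 : Fin 2), k)))
      * ∑ k : Fin m, p (finProdFinEquiv ((1 : Fin 2), k)))
      = ∑ d : Fin (2 * m), ∑ d' : Fin (2 * m), p d * p d' *
        (if ((finProdFinEquiv.symm d).1 ≠ (finProdFinEquiv.symm d').1) then (1 : ℝ) else 0) := by
    simp_rw [← (finProdFinEquiv (m := 2) (n := m)).sum_comp, Fintype.sum_prod_type,
      Fin.sum_univ_two, Equiv.symm_apply_apply]
    simp only [ne_eq, not_true_eq_false, if_false, mul_zero, Finset.sum_const_zero, zero_add,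
      zero_ne_one, not_false_eq_true, if_true, mul_one, one_ne_zero, add_zero]
    rw [two_mul, Finset.sum_mul_sum]
    congr 1
    rw [Finset.sum_comm]
    exact Finset.sum_congr rfl fun k _ => Finset.sum_congr rfl fun k' _ => mul_comm _ _
  have h3 : ∑ d ∈ nearB q (2 * m), p d = ∑ d : Fin (2 * m), ∑ d' : Fin (2 * m), p d * p d' *
      (if |cen (2 * m) d| < (2 : ℝ) ^ (-(q : ℝ)) then 1 else 0) := by
    unfold nearB
    rw [Finset.sum_filter]
    refine Finset.sum_congr rfl fun d _ => ?_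
    rw [← Finset.sum_mul, ← Finset.mul_sum, h1]
    split_ifs <;> simp
  rw [h2, h3, spr, Finset.mul_sum, ← Finset.sum_add_distrib]
  refine Finset.sum_le_sum fun d _ => ?_
  rw [Finset.mul_sum, ← Finset.sum_add_distrib]
  refine Finset.sum_le_sum fun d' _ => ?_
  have h4 := mul_le_mul_of_nonneg_left (hw d d') (mul_nonneg (h0 d) (h0 d'))
  refine h4.trans (le_of_eq ?_)
  ring

/-! ### the number of central digits -/

theorem card_near (q m : ℕ) (hm : 0 < m) :
    ((nearB q (2 * m)).card : ℝ) ≤ 2 * (m * (2 : ℝ) ^ (-(q : ℝ)) + 1) := by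
  have hm' : (0 : ℝ) < m := by exact_mod_cast hm
  set X : ℝ := m * (2 : ℝ) ^ (-(q : ℝ)) with hX
  have hX0 : 0 ≤ X := by positivity
  set N : ℕ := ⌈X⌉₊ with hN
  have hNX : (N : ℝ) ≤ X + 1 := (Nat.ceil_lt_add_one hX0).le
  -- injection into `Fin 2 × range N`
  have h1 : (nearB q (2 * m)).card ≤ (Finset.univ (α := Fin 2) ×ˢ Finset.range N).card := by
    refine Finset.card_le_card_of_injOn
      (fun d => ((finProdFinEquiv.symm d).1,
        if (finProdFinEquiv.symm d).1 = 0 then m - 1 - ((finProdFinEquiv.symm d).2 : ℕ)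
          else ((finProdFinEquiv.symm d).2 : ℕ))) ?_ ?_
    · intro d hd
      obtain ⟨⟨c, k⟩, rfl⟩ := finProdFinEquiv.surjective d
      have hd' : |cen (2 * m) (finProdFinEquiv (c, k))| < (2 : ℝ) ^ (-(q : ℝ)) := by
        simpa [nearB] using hd
      simp only [Equiv.symm_apply_apply, Finset.coe_product, Finset.coe_univ, Finset.coe_range,
        Set.mem_prod, Set.mem_univ, true_and, Set.mem_Iio]
      have hk : (k : ℕ) < m := k.2
      have hc : c = 0 ∨ c = 1 := by fin_cases c <;> simp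
      rcases hc with rfl | rfl
      · rw [if_pos rfl, hN]
        rw [abs_of_neg (cen_lo_neg k), cen_lo, neg_neg, div_lt_iff₀ (by positivity)] at hd'
        apply Nat.lt_ceil.2
        rw [Nat.sub_sub, Nat.cast_sub (by omega)]
        push_cast
        rw [hX]
        nlinarith
      · rw [if_neg (by decide), hN]
        rw [abs_of_pos (cen_hi_pos k), cen_hi, div_lt_iff₀ (by positivity)] at hd'
        apply Nat.lt_ceil.2
        rw [hX]
        nlinarith
    · intro d _ d' _ hdd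
      obtain ⟨⟨c, k⟩, rfl⟩ := finProdFinEquiv.surjective d
      obtain ⟨⟨c', k'⟩, rfl⟩ := finProdFinEquiv.surjective d'
      simp only [Equiv.symm_apply_apply, Prod.mk.injEq] at hdd
      obtain ⟨rfl, h2⟩ := hdd
      have hk : (k : ℕ) < m := k.2
      have hk' : (k' : ℕ) < m := k'.2
      have : k = k' := by
        apply Fin.ext
        split_ifs at h2 <;> omega
      rw [this]
  have h2 : (Finset.univ (α := Fin 2) ×ˢ Finset.range N).card = 2 * N := by simp
  rw [h2] at h1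
  have h3 : ((nearB q (2 * m)).card : ℝ) ≤ 2 * N := by exact_mod_cast h1
  linarith

/-! ### the correction term -/

/-- mean posterior mass of the central digits. -/
def Bd (μ : Measure (ModSpace n)) (κ : Measure (SLR n)) {i j : Fin n} (hij : i ≠ j) (r : ℝ)
    (q b : ℕ) (x : ModSpace n) : ℝ :=
  ∫ g, ∑ d ∈ nearB q b, pv (lab μ κ hij r b) d (act x g) ∂(cv κ (dl hij r))

section
variable (μ : Measure (ModSpace n)) (κ : Measure (SLR n)) [IsProbabilityMeasure μ]
  [IsProbabilityMeasure κ] {i j : Fin n} (hij : i ≠ j) (r : ℝ)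

/-- the integrand of `Bd`. -/
theorem measurable_near (q b : ℕ) :
    Measurable fun y : ModSpace n => ∑ d ∈ nearB q b, pv (lab μ κ hij r b) d y :=
  Finset.measurable_sum _ fun d _ => measurable_pv _ d

theorem near_nonneg (q b : ℕ) (y : ModSpace n) :
    0 ≤ ∑ d ∈ nearB q b, pv (lab μ κ hij r b) d y :=
  Finset.sum_nonneg fun d _ => pv_nonneg _ d y

theorem near_le (q : ℕ) {b : ℕ} [NeZero b] (y : ModSpace n) :
    ∑ d ∈ nearB q b, pv (lab μ κ hij r b) d y ≤ 1 := by
  rw [← sum_pv (lab μ κ hij r b) y]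
  exact Finset.sum_le_sum_of_subset_of_nonneg (Finset.subset_univ _)
    fun d _ _ => pv_nonneg _ d y

theorem measurable_Bd (q b : ℕ) : Measurable (Bd μ κ hij r q b) :=
  (((measurable_near μ κ hij r q b).comp measurable_act₂).stronglyMeasurable.integral_prod_right').measurable

theorem Bd_nonneg (q b : ℕ) (x : ModSpace n) : 0 ≤ Bd μ κ hij r q b x :=
  integral_nonneg fun _ => near_nonneg μ κ hij r q b _

theorem Bd_le (q : ℕ) {b : ℕ} [NeZero b] (x : ModSpace n) : Bd μ κ hij r q b x ≤ 1 := by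
  have h : Bd μ κ hij r q b x ≤ ∫ _, (1 : ℝ) ∂(cv κ (dl hij r)) :=
    integral_mono_of_nonneg (Filter.Eventually.of_forall fun _ => near_nonneg μ κ hij r q b _)
      (integrable_const _) (Filter.Eventually.of_forall fun _ => near_le μ κ hij r q _)
  simpa using h

theorem integral_Bd (q m : ℕ) (hm : 0 < m) :
    ∫ x, Bd μ κ hij r q (2 * m) x ∂μ ≤ (2 : ℝ) ^ (-(q : ℝ)) + 1 / m := by
  have hm' : (0 : ℝ) < m := by exact_mod_cast hm
  haveI : NeZero (2 * m) := ⟨by omega⟩
  have h1 : ∫ x, Bd μ κ hij r q (2 * m) x ∂μ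
      = ∫ y, ∑ d ∈ nearB q (2 * m), pv (lab μ κ hij r (2 * m)) d y
          ∂(tot (lab μ κ hij r (2 * m))) := by
    rw [NScD_395.tot_lab_eq μ κ hij r (by omega : 0 < 2 * m),
      integral_stp μ _ (measurable_near μ κ hij r q (2 * m)) (M := 1)]
    · rfl
    · intro y
      rw [abs_of_nonneg (near_nonneg μ κ hij r q _ y)]
      exact near_le μ κ hij r q y
  have h2 : ∀ d : Fin (2 * m), ∫ y, pv (lab μ κ hij r (2 * m)) d y
      ∂(tot (lab μ κ hij r (2 * m))) = ((2 * m : ℕ) : ℝ)⁻¹ := by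
    intro d
    have h3 := integral_pv_mul (lab μ κ hij r (2 * m)) d (fun _ => (1 : ℝ))
    simp only [mul_one, integral_const, smul_eq_mul] at h3
    rw [h3]
    unfold lab
    rw [measureReal_def, Measure.smul_apply, measure_univ]
    simp
  rw [h1, integral_finsetSum]
  · simp_rw [h2]
    rw [Finset.sum_const, nsmul_eq_mul]
    have h4 := card_near q m hm
    push_cast
    rw [← div_eq_mul_inv, div_le_iff₀ (by positivity)]
    refine h4.trans (le_of_eq ?_)
    field_simp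
  · intro d _
    exact bdd_integrable (measurable_pv _ d) (M := 1) fun y => by
      rw [abs_of_nonneg (pv_nonneg _ d y)]
      exact pv_le_one _ d y

/-- `Ψ₂ ≤ 2^q Ψ_b + B` almost everywhere. -/
theorem psi_two_le (q m : ℕ) (hm : 0 < m) :
    ∀ᵐ x ∂μ, Psi μ κ hij r 2 x ≤ 2 ^ (q : ℝ) * Psi μ κ hij r (2 * m) x + Bd μ κ hij r q (2 * m) x := by
  haveI : NeZero (2 * m) := ⟨by omega⟩
  have h1 : ∀ᵐ y ∂(tot (lab μ κ hij r (2 * m))), ps (lab μ κ hij r 2) y
      ≤ 2 ^ (q : ℝ) * ps (lab μ κ hij r (2 * m)) y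
        + ∑ d ∈ nearB q (2 * m), pv (lab μ κ hij r (2 * m)) d y := by
    filter_upwards [pv_coarse μ κ hij r hm] with y hy
    unfold ps
    rw [spr_two, hy 0, hy 1]
    exact pointwise (fun d => pv (lab μ κ hij r (2 * m)) d y) (fun d => pv_nonneg _ d y) (sum_pv _ y)
  rw [NScD_395.tot_lab_eq μ κ hij r (by omega : 0 < 2 * m), stp] at h1
  have h2 := ae_of_ae_map measurable_act₂.aemeasurable h1
  have h3 := Measure.ae_ae_of_ae_prod h2
  filter_upwards [h3] with x hx
  have hi1 : Integrable (fun g => ps (lab μ κ hij r 2) (act x g)) (cv κ (dl hij r)) :=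
    bdd_integrable ((measurable_ps _).comp (measurable_act₂.comp measurable_prodMk_left))
      (M := 2) fun g => abs_ps_le _ _
  have hi2 : Integrable (fun g => ps (lab μ κ hij r (2 * m)) (act x g)) (cv κ (dl hij r)) :=
    bdd_integrable ((measurable_ps _).comp (measurable_act₂.comp measurable_prodMk_left))
      (M := 2) fun g => abs_ps_le _ _
  have hi3 : Integrable (fun g => ∑ d ∈ nearB q (2 * m), pv (lab μ κ hij r (2 * m)) d (act x g))
      (cv κ (dl hij r)) :=
    bdd_integrable ((measurable_near μ κ hij r q (2 * m)).comp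
      (measurable_act₂.comp measurable_prodMk_left)) (M := 1) fun g => by
        rw [abs_of_nonneg (near_nonneg μ κ hij r q _ _)]
        exact near_le μ κ hij r q _
  show ∫ g, ps (lab μ κ hij r 2) (act x g) ∂(cv κ (dl hij r)) ≤ 2 ^ (q : ℝ) *
    (∫ g, ps (lab μ κ hij r (2 * m)) (act x g) ∂(cv κ (dl hij r)))
    + ∫ g, ∑ d ∈ nearB q (2 * m), pv (lab μ κ hij r (2 * m)) d (act x g) ∂(cv κ (dl hij r))
  rw [← integral_const_mul, ← integral_add (hi2.const_mul _) hi3]
  exact integral_mono_ae hi1 ((hi2.const_mul _).add hi3) hx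

end

/-! ### the conversion -/

open Crest.Agent.R014.DSkel_792 (tz P3 cross measurable_tz measurePreserving_tz)

/-- `Ψ` for all pairs, reference noise `κ i j`, depth `0`. -/
def PsiT (μ : Measure (ModSpace n)) (κ : Fin n → Fin n → Measure (SLR n)) (b : ℕ) (i j : Fin n)
    (x : ModSpace n) : ℝ :=
  if h : i ≠ j then Psi μ (κ i j) h 0 b x else 0

/-- the correction term for all pairs. -/
def BdT (μ : Measure (ModSpace n)) (κ : Fin n → Fin n → Measure (SLR n)) (q b : ℕ) (i j : Fin n)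
    (x : ModSpace n) : ℝ :=
  if h : i ≠ j then Bd μ (κ i j) h 0 q b x else 0

section
variable (μ : Measure (ModSpace n)) [IsProbabilityMeasure μ]
  (κ : Fin n → Fin n → Measure (SLR n)) [∀ i j, IsProbabilityMeasure (κ i j)]

theorem measurable_PsiT (b : ℕ) [NeZero b] (i j : Fin n) : Measurable (PsiT μ κ b i j) := by
  by_cases h : i ≠ j
  · have : PsiT μ κ b i j = Psi μ (κ i j) h 0 b := by funext x; simp [PsiT, h]
    rw [this]
    exact measurable_Av _ _
  · have : PsiT μ κ b i j = fun _ => 0 := by funext x; simp [PsiT, h]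
    rw [this]
    exact measurable_const

theorem PsiT_nonneg (b : ℕ) [NeZero b] (i j : Fin n) (x : ModSpace n) : 0 ≤ PsiT μ κ b i j x := by
  unfold PsiT
  split_ifs with h
  · exact Av_nonneg _ _ x
  · exact le_rfl

theorem PsiT_le (b : ℕ) [NeZero b] (i j : Fin n) (x : ModSpace n) : PsiT μ κ b i j x ≤ 2 := by
  unfold PsiT
  split_ifs with h
  · exact Av_le _ _ x
  · norm_num

theorem measurable_BdT (q b : ℕ) [NeZero b] (i j : Fin n) : Measurable (BdT μ κ q b i j) := by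
  by_cases h : i ≠ j
  · have : BdT μ κ q b i j = Bd μ (κ i j) h 0 q b := by funext x; simp [BdT, h]
    rw [this]
    exact measurable_Bd _ _ _ _ _ _
  · have : BdT μ κ q b i j = fun _ => 0 := by funext x; simp [BdT, h]
    rw [this]
    exact measurable_const

theorem BdT_nonneg (q b : ℕ) [NeZero b] (i j : Fin n) (x : ModSpace n) : 0 ≤ BdT μ κ q b i j x := by
  unfold BdT
  split_ifs with h
  · exact Bd_nonneg _ _ _ _ _ _ x
  · exact le_rfl

theorem BdT_le (q b : ℕ) [NeZero b] (i j : Fin n) (x : ModSpace n) : BdT μ κ q b i j x ≤ 1 := by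
  unfold BdT
  split_ifs with h
  · exact Bd_le _ _ _ _ _ x
  · norm_num

theorem integral_BdT {q m : ℕ} (hm : 0 < m) (i j : Fin n) :
    ∫ x, BdT μ κ q (2 * m) i j x ∂μ ≤ (2 : ℝ) ^ (-(q : ℝ)) + 1 / m := by
  by_cases h : i ≠ j
  · have : BdT μ κ q (2 * m) i j = Bd μ (κ i j) h 0 q (2 * m) := by funext x; simp [BdT, h]
    rw [this]
    exact integral_Bd μ (κ i j) h 0 q m hm
  · have : BdT μ κ q (2 * m) i j = fun _ => 0 := by funext x; simp [BdT, h]
    rw [this]
    simp only [integral_zero]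
    positivity

theorem psiT_two_le {q m : ℕ} (hm : 0 < m) (i j : Fin n) :
    ∀ᵐ x ∂μ, PsiT μ κ 2 i j x ≤ 2 ^ (q : ℝ) * PsiT μ κ (2 * m) i j x + BdT μ κ q (2 * m) i j x := by
  by_cases h : i ≠ j
  · filter_upwards [psi_two_le μ (κ i j) h 0 q m hm] with x hx
    simpa [PsiT, BdT, h] using hx
  · exact Filter.Eventually.of_forall fun x => by simp [PsiT, BdT, h]

variable {μ}

theorem conv (hA : AInv μ) (hn : 0 < n) {L : ℕ} (hL : 0 < L) {δ c₁ ε : ℝ} (hδ : 0 < δ)
    (hc₁ : 0 < c₁) (hε : 0 < ε) {q m : ℕ} (hm : 2 ^ q ≤ m)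
    (hq : (2 : ℝ) ^ (-(q : ℝ)) * (128 * (n : ℝ) ^ 2) ≤ ε * c₁ * δ)
    (h : ∃ E : Set (ModSpace n), MeasurableSet E ∧ μ.real E ≤ ε / 2 ∧ ∀ x, x ∉ E → ∀ a b : ℤ,
      -(L : ℤ) ≤ a → b ≤ L → δ * L ≤ ((b - a : ℤ) : ℝ) →
      ∀ S : Finset (Fin n), S.Nonempty → S ≠ Finset.univ →
        c₁ * ((b - a : ℤ) : ℝ) ≤ ∑ i ∈ S, ∑ j ∈ Sᶜ, ∑ r ∈ Finset.Ico a b,
          PsiT μ κ 2 i j (tz (Pi.single i r) x)) :
    P3 μ (PsiT μ κ (2 * m)) L δ (c₁ / 4) ((2 : ℝ) ^ (-(q : ℝ)) * (c₁ / (4 * (n : ℝ) ^ 2))) ε := by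
  obtain ⟨E, hE, hEm, hsum⟩ := h
  have hm0 : 0 < m := lt_of_lt_of_le (by positivity) hm
  haveI : NeZero (2 * m) := ⟨by omega⟩
  have hmr : (0 : ℝ) < m := by exact_mod_cast hm0
  have hLr : (0 : ℝ) < L := by exact_mod_cast hL
  have hnr : (0 : ℝ) < n := by exact_mod_cast hn
  have hn1 : (1 : ℝ) ≤ n := by exact_mod_cast hn
  have h2q : (0 : ℝ) < (2 : ℝ) ^ (q : ℝ) := Real.rpow_pos_of_pos two_pos _
  have h2nq : (0 : ℝ) < (2 : ℝ) ^ (-(q : ℝ)) := Real.rpow_pos_of_pos two_pos _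
  have h2qq : (2 : ℝ) ^ (q : ℝ) * (2 : ℝ) ^ (-(q : ℝ)) = 1 := by
    rw [← Real.rpow_add two_pos, add_neg_cancel, Real.rpow_zero]
  have hminv : 1 / (m : ℝ) ≤ (2 : ℝ) ^ (-(q : ℝ)) := by
    have h1 : (2 : ℝ) ^ (q : ℝ) ≤ m := by
      rw [Real.rpow_natCast]; exact_mod_cast hm
    rw [Real.rpow_neg two_pos.le, ← one_div]
    exact one_div_le_one_div_of_le h2q h1
  set W : ModSpace n → ℝ := fun x => ∑ i : Fin n, ∑ j : Fin n, ∑ r ∈ Finset.Ico (-(L : ℤ)) L,
    BdT μ κ q (2 * m) i j (tz (Pi.single i r) x) with hW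
  have hWm : Measurable W := Finset.measurable_sum _ fun i _ => Finset.measurable_sum _ fun j _ =>
    Finset.measurable_sum _ fun r _ => (measurable_BdT μ κ q (2 * m) i j).comp (measurable_tz _)
  have hBi : ∀ (i j : Fin n) (r : ℤ), Integrable
      (fun x => BdT μ κ q (2 * m) i j (tz (Pi.single i r) x)) μ := fun i j r =>
    bdd_integrable ((measurable_BdT μ κ q (2 * m) i j).comp (measurable_tz _)) (M := 1) fun x => by
      rw [abs_of_nonneg (BdT_nonneg μ κ q _ i j _)]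
      exact BdT_le μ κ q _ i j _
  have hWi : Integrable W μ := integrable_finsetSum _ fun i _ => integrable_finsetSum _ fun j _ =>
    integrable_finsetSum _ fun r _ => hBi i j r
  have hWn : ∀ x, 0 ≤ W x := fun x => Finset.sum_nonneg fun i _ => Finset.sum_nonneg fun j _ =>
    Finset.sum_nonneg fun r _ => BdT_nonneg μ κ q _ i j _
  have hWint : ∫ x, W x ∂μ ≤ 4 * (n : ℝ) ^ 2 * L * (2 : ℝ) ^ (-(q : ℝ)) := by
    have h1 : ∫ x, W x ∂μ = ∑ i : Fin n, ∑ j : Fin n, ∑ r ∈ Finset.Ico (-(L : ℤ)) L,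
        ∫ x, BdT μ κ q (2 * m) i j x ∂μ := by
      rw [hW]
      rw [integral_finsetSum _ fun i _ => integrable_finsetSum _ fun j _ =>
        integrable_finsetSum _ fun r _ => hBi i j r]
      refine Finset.sum_congr rfl fun i _ => ?_
      rw [integral_finsetSum _ fun j _ => integrable_finsetSum _ fun r _ => hBi i j r]
      refine Finset.sum_congr rfl fun j _ => ?_
      rw [integral_finsetSum _ fun r _ => hBi i j r]
      refine Finset.sum_congr rfl fun r _ => ?_
      have hp := measurePreserving_tz hA (Pi.single i r : Fin n → ℤ)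
      have h3 := integral_map (μ := μ) (φ := tz (Pi.single i r : Fin n → ℤ))
        hp.measurable.aemeasurable
        (f := BdT μ κ q (2 * m) i j) (measurable_BdT μ κ q (2 * m) i j).aestronglyMeasurable
      rw [← h3, hp.map_eq]
    rw [h1]
    calc ∑ i : Fin n, ∑ j : Fin n, ∑ r ∈ Finset.Ico (-(L : ℤ)) L,
        ∫ x, BdT μ κ q (2 * m) i j x ∂μ
        ≤ ∑ i : Fin n, ∑ j : Fin n, ∑ r ∈ Finset.Ico (-(L : ℤ)) L,
          (2 * (2 : ℝ) ^ (-(q : ℝ))) :=
          Finset.sum_le_sum fun i _ => Finset.sum_le_sum fun j _ => Finset.sum_le_sum fun r _ => by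
            have := integral_BdT μ κ (q := q) hm0 i j
            linarith
      _ = 4 * (n : ℝ) ^ 2 * L * (2 : ℝ) ^ (-(q : ℝ)) := by
          simp only [Finset.sum_const, Int.card_Ico, Finset.card_univ, Fintype.card_fin,
            nsmul_eq_mul]
          have : (((L : ℤ) - -(L : ℤ)).toNat : ℝ) = 2 * L := by
            have h5 : ((L : ℤ) - -(L : ℤ)).toNat = 2 * L := by omega
            rw [h5]; push_cast; ring
          rw [this]
          ring
  -- the exceptional set of Markov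
  set lam : ℝ := c₁ * δ / 4 with hlam
  have hlam0 : 0 < lam := by positivity
  have hMk : μ.real {x | lam * L ≤ W x} ≤ ε / 4 := by
    have h1 := mul_meas_ge_le_integral_of_nonneg (μ := μ) (Filter.Eventually.of_forall hWn) hWi (lam * L)
    have h2 : lam * L * μ.real {x | lam * L ≤ W x} ≤ 4 * (n : ℝ) ^ 2 * L * (2 : ℝ) ^ (-(q : ℝ)) :=
      h1.trans hWint
    have h3 : lam * μ.real {x | lam * L ≤ W x} ≤ 4 * (n : ℝ) ^ 2 * (2 : ℝ) ^ (-(q : ℝ)) := by
      have h4 : L * (lam * μ.real {x | lam * L ≤ W x}) ≤ L * (4 * (n : ℝ) ^ 2 * (2 : ℝ) ^ (-(q : ℝ))) := by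
        linarith
      exact le_of_mul_le_mul_left h4 hLr
    have h5 : 4 * (n : ℝ) ^ 2 * (2 : ℝ) ^ (-(q : ℝ)) ≤ lam * (ε / 4) := by
      rw [hlam]; nlinarith [mul_pos (mul_pos hε hc₁) hδ]
    exact le_of_mul_le_mul_left (h3.trans h5) hlam0
  -- the null set
  set Z : Set (ModSpace n) := {x | ∀ (i j : Fin n) (r : ℤ),
    PsiT μ κ 2 i j (tz (Pi.single i r) x) ≤ 2 ^ (q : ℝ) * PsiT μ κ (2 * m) i j (tz (Pi.single i r) x)
      + BdT μ κ q (2 * m) i j (tz (Pi.single i r) x)} with hZ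
  have hZnull : μ Zᶜ = 0 := by
    have h1 : ∀ᵐ x ∂μ, x ∈ Z := by
      rw [hZ]
      refine ae_all_iff.2 fun i => ae_all_iff.2 fun j => ae_all_iff.2 fun r => ?_
      exact (measurePreserving_tz hA (Pi.single i r : Fin n → ℤ)).quasiMeasurePreserving.ae
        (psiT_two_le μ κ (q := q) hm0 i j)
    exact h1
  refine ⟨E ∪ {x | lam * L ≤ W x} ∪ toMeasurable μ Zᶜ,
    (hE.union (measurableSet_le measurable_const hWm)).union (measurableSet_toMeasurable _ _), ?_, ?_⟩
  · have h1 : μ.real (toMeasurable μ Zᶜ) = 0 := by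
      rw [measureReal_def, measure_toMeasurable, hZnull]; rfl
    calc μ.real (E ∪ {x | lam * L ≤ W x} ∪ toMeasurable μ Zᶜ)
        ≤ μ.real (E ∪ {x | lam * L ≤ W x}) + μ.real (toMeasurable μ Zᶜ) := measureReal_union_le _ _
      _ ≤ (μ.real E + μ.real {x | lam * L ≤ W x}) + 0 := by
          rw [h1]
          exact add_le_add (measureReal_union_le _ _) le_rfl
      _ ≤ ε := by linarith
  · intro x hx a b ha hb hab S hS hS'
    have hxE : x ∉ E := fun h => hx (Or.inl (Or.inl h))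
    have hxW : W x < lam * L := not_le.1 fun h => hx (Or.inl (Or.inr h))
    have hxZ : x ∈ Z := by
      by_contra h
      exact hx (Or.inr (subset_toMeasurable _ _ h))
    have h1 := hsum x hxE a b ha hb hab S hS hS'
    set τ₀ : ℝ := (2 : ℝ) ^ (-(q : ℝ)) * (c₁ / (4 * (n : ℝ) ^ 2)) with hτ₀
    have hτ₀p : 0 < τ₀ := by positivity
    have hpt : ∀ (i j : Fin n) (r : ℤ), PsiT μ κ 2 i j (tz (Pi.single i r) x)
        ≤ 2 * (if τ₀ ≤ PsiT μ κ (2 * m) i j (tz (Pi.single i r) x) then 1 else 0)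
          + 2 ^ (q : ℝ) * τ₀ + BdT μ κ q (2 * m) i j (tz (Pi.single i r) x) := by
      intro i j r
      have e1 := hxZ i j r
      have e2 := PsiT_le μ κ 2 i j (tz (Pi.single i r) x)
      have e3 := BdT_nonneg μ κ q (2 * m) i j (tz (Pi.single i r) x)
      have e4 : 0 < (2 : ℝ) ^ (q : ℝ) * τ₀ := by positivity
      split_ifs with h5
      · linarith
      · have h6 := mul_le_mul_of_nonneg_left (not_le.1 h5).le h2q.le
        linarith
    have hbound : ∑ i ∈ S, ∑ j ∈ Sᶜ, ∑ r ∈ Finset.Ico a b, PsiT μ κ 2 i j (tz (Pi.single i r) x)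
        ≤ 2 * cross (PsiT μ κ (2 * m)) τ₀ S a b x
          + (S.card : ℝ) * (Sᶜ.card : ℝ) * ((b - a : ℤ) : ℝ) * (2 ^ (q : ℝ) * τ₀) + W x := by
      have hba : (0 : ℝ) ≤ ((b - a : ℤ) : ℝ) := le_trans (by positivity) hab
      have hba' : (((b - a).toNat : ℕ) : ℝ) = ((b - a : ℤ) : ℝ) := by
        have : 0 ≤ b - a := by exact_mod_cast hba
        exact_mod_cast congrArg (Int.cast (R := ℝ)) (Int.toNat_of_nonneg this)
      have e1 : ∑ i ∈ S, ∑ j ∈ Sᶜ, ∑ r ∈ Finset.Ico a b, PsiT μ κ 2 i j (tz (Pi.single i r) x)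
          ≤ ∑ i ∈ S, ∑ j ∈ Sᶜ, ∑ r ∈ Finset.Ico a b,
            (2 * (if τ₀ ≤ PsiT μ κ (2 * m) i j (tz (Pi.single i r) x) then 1 else 0)
              + 2 ^ (q : ℝ) * τ₀ + BdT μ κ q (2 * m) i j (tz (Pi.single i r) x)) :=
        Finset.sum_le_sum fun i _ => Finset.sum_le_sum fun j _ => Finset.sum_le_sum fun r _ =>
          hpt i j r
      refine e1.trans ?_
      simp only [Finset.sum_add_distrib, ← Finset.mul_sum]
      have e2 : ∑ i ∈ S, ∑ j ∈ Sᶜ, ∑ r ∈ Finset.Ico a b,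
          (if τ₀ ≤ PsiT μ κ (2 * m) i j (tz (Pi.single i r) x) then (1 : ℝ) else 0)
          = cross (PsiT μ κ (2 * m)) τ₀ S a b x := by
        unfold cross
        refine Finset.sum_congr rfl fun i _ => Finset.sum_congr rfl fun j _ => ?_
        rw [Finset.card_filter]
        push_cast
        rfl
      have e3 : ∑ i ∈ S, ∑ j ∈ Sᶜ, ∑ r ∈ Finset.Ico a b, BdT μ κ q (2 * m) i j (tz (Pi.single i r) x)
          ≤ W x := by
        rw [hW]
        refine (Finset.sum_le_sum_of_subset_of_nonneg (Finset.subset_univ S) fun i _ _ =>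
          Finset.sum_nonneg fun j _ => Finset.sum_nonneg fun r _ => BdT_nonneg μ κ q _ i j _).trans ?_
        refine Finset.sum_le_sum fun i _ => ?_
        refine (Finset.sum_le_sum_of_subset_of_nonneg (Finset.subset_univ Sᶜ) fun j _ _ =>
          Finset.sum_nonneg fun r _ => BdT_nonneg μ κ q _ i j _).trans ?_
        refine Finset.sum_le_sum fun j _ => ?_
        exact Finset.sum_le_sum_of_subset_of_nonneg (Finset.Ico_subset_Ico ha hb)
          fun r _ _ => BdT_nonneg μ κ q _ i j _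
      rw [e2]
      have e4 : (2 : ℝ) ^ (q : ℝ) * ∑ i ∈ S, ∑ j ∈ Sᶜ, ∑ r ∈ Finset.Ico a b, τ₀
          = (S.card : ℝ) * (Sᶜ.card : ℝ) * ((b - a : ℤ) : ℝ) * (2 ^ (q : ℝ) * τ₀) := by
        simp only [Finset.sum_const, Int.card_Ico, nsmul_eq_mul]
        rw [hba']
        ring
      linarith [e3, e4.le]
    have hS1 : (S.card : ℝ) ≤ n := by
      have := Finset.card_le_univ S
      rw [Fintype.card_fin] at this
      exact_mod_cast this
    have hS2 : (Sᶜ.card : ℝ) ≤ n := by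
      have := Finset.card_le_univ Sᶜ
      rw [Fintype.card_fin] at this
      exact_mod_cast this
    have hba : (0 : ℝ) ≤ ((b - a : ℤ) : ℝ) := le_trans (by positivity) hab
    have hSS : (S.card : ℝ) * (Sᶜ.card : ℝ) ≤ (n : ℝ) ^ 2 := by
      rw [pow_two]
      exact mul_le_mul hS1 hS2 (by positivity) hnr.le
    have h7 : (S.card : ℝ) * (Sᶜ.card : ℝ) * ((b - a : ℤ) : ℝ) * (2 ^ (q : ℝ) * τ₀)
        ≤ c₁ / 4 * ((b - a : ℤ) : ℝ) := by
      have e1 : (2 : ℝ) ^ (q : ℝ) * τ₀ = c₁ / (4 * (n : ℝ) ^ 2) := by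
        rw [hτ₀, ← mul_assoc, h2qq, one_mul]
      rw [e1]
      calc (S.card : ℝ) * (Sᶜ.card : ℝ) * ((b - a : ℤ) : ℝ) * (c₁ / (4 * (n : ℝ) ^ 2))
          ≤ (n : ℝ) ^ 2 * ((b - a : ℤ) : ℝ) * (c₁ / (4 * (n : ℝ) ^ 2)) := by
            refine mul_le_mul_of_nonneg_right (mul_le_mul_of_nonneg_right hSS hba) (by positivity)
        _ = c₁ / 4 * ((b - a : ℤ) : ℝ) := by field_simp
    have h8 : lam * L ≤ c₁ / 4 * ((b - a : ℤ) : ℝ) := by
      rw [hlam]
      calc c₁ * δ / 4 * L = c₁ / 4 * (δ * L) := by ring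
        _ ≤ c₁ / 4 * ((b - a : ℤ) : ℝ) := mul_le_mul_of_nonneg_left hab (by positivity)
    linarith

end

end Crest.Agent.R014.Conv_792
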