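import Crest.Agent.R014.Cell1_433

/-!
R014 / Cover_433: covering number of `{x : λ₁ ≥ η}` in `SL_n(ℤ)\SL_n(ℝ)` by small balls,
polynomial in `1/η` and `1/ρ`, with polynomially bounded centres.
-/

set_option autoImplicit false

open MeasureTheory Topology Filter Set
open Crest.NumberTheoryR.Packets Crest.Agent.R014.Top1_458
open scoped Matrix

noncomputable section

namespace Crest.Agent.R014.Cell_433

variable {n : ℕ}

/-- entries of the inverse -/
theorem abs_inv_le (g : SLR n) {M : ℝ} (hM : 1 ≤ M) (hg : ∀ i j, |g.1 i j| ≤ M) (i j : Fin n) :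
    |(g⁻¹).1 i j| ≤ n.factorial * M ^ n := by
  have h1 : (g⁻¹).1 i j = (g.1.updateRow j (Pi.single i 1)).det := by
    rw [← Matrix.adjugate_apply]
    exact congrFun (congrFun (Matrix.SpecialLinearGroup.coe_inv g) i) j
  rw [h1]
  have h2 := Matrix.det_le (A := g.1.updateRow j (Pi.single i 1)) (abv := AbsoluteValue.abs)
    (x := M) (fun k l => by
      rw [AbsoluteValue.abs_apply]
      by_cases hk : k = j
      · subst hk
        rw [Matrix.updateRow_self]
        by_cases hl : l = i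
        · subst hl
          simpa using hM
        · rw [Pi.single_eq_of_ne hl]
          simpa using (zero_le_one.trans hM)
      · rw [Matrix.updateRow_ne hk]
        exact hg k l)
  simpa [nsmul_eq_mul] using h2

theorem bump {a b C : ℕ} (ha : a ≤ C) (hb : b ≤ C) {x : ℝ} (hx : 1 ≤ x) :
    (a : ℝ) * x ^ b ≤ C * x ^ C := by
  have h1 : (a : ℝ) ≤ C := by exact_mod_cast ha
  have h2 : x ^ b ≤ x ^ C := pow_le_pow_right₀ hx hb
  exact mul_le_mul h1 h2 (by positivity) (by positivity)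

/-- **covering number**: `{λ₁ ≥ η}` is covered by polynomially many `ρ`-balls -/
theorem cover (n : ℕ) : ∃ C : ℕ, ∀ η ρ : ℝ, 0 < η → η ≤ 1 → 0 < ρ → ρ ≤ 1 →
    ∃ F : Finset (SLR n), (F.card : ℝ) ≤ C * (1 / (η * ρ)) ^ C ∧
      (∀ g₀ ∈ F, nrm g₀.1 ≤ C * (1 / η) ^ C ∧ nrm (g₀⁻¹).1 ≤ C * (1 / η) ^ C) ∧
      ∀ g : SLR n, η ≤ mm g → ∃ γ ∈ intPoints n, ∃ g₀ ∈ F,
        nrm ((g₀⁻¹ * (γ * g)).1 - 1) ≤ ρ ∧ nrm (((γ * g)⁻¹ * g₀).1 - 1) ≤ ρ := by
  classical
  set c0 : ℕ := (n + 1) * 2 ^ (n * n) with hc0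
  set c1 : ℕ := (n ^ 2 + 1) * n.factorial * c0 ^ n with hc1
  set c2 : ℕ := 4 * (n ^ 2 + 1) * c0 * c1 with hc2
  set C : ℕ := (7 * c2) ^ (n * n) + (n * n + n + 1) * (n * n) + n ^ 2 * c0 + n + c1 + n * n with hC
  have hc0pos : 1 ≤ c0 := Nat.one_le_iff_ne_zero.2 (by positivity)
  have hc1pos : 1 ≤ c1 := Nat.one_le_iff_ne_zero.2 (by positivity)
  have hc2pos : 1 ≤ c2 := Nat.one_le_iff_ne_zero.2 (by positivity)
  refine ⟨C, fun η ρ hη hη1 hρ hρ1 => ?_⟩
  set y : ℝ := 1 / η with hy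
  have hy1 : 1 ≤ y := by rw [hy, le_div_iff₀ hη]; linarith
  set x : ℝ := 1 / (η * ρ) with hx
  have hηρ : 0 < η * ρ := mul_pos hη hρ
  have hx1 : 1 ≤ x := by
    rw [hx, le_div_iff₀ hηρ]
    nlinarith
  have hyx : y ≤ x := by
    rw [hy, hx]
    apply one_div_le_one_div_of_le hηρ
    nlinarith
  have hρx : 1 / ρ ≤ x := by
    rw [hx]
    apply one_div_le_one_div_of_le hηρ
    nlinarith
  set M : ℝ := c0 * y ^ n with hM
  have hc0r : (1 : ℝ) ≤ c0 := by exact_mod_cast hc0pos
  have hc1r : (1 : ℝ) ≤ c1 := by exact_mod_cast hc1pos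
  have hyn : ∀ k : ℕ, 1 ≤ y ^ k := fun k => one_le_pow₀ hy1
  have hM1 : 1 ≤ M := one_le_mul_of_one_le_of_one_le hc0r (hyn n)
  set N : ℝ := c1 * y ^ (n * n) with hN
  have hN1 : 1 ≤ N := one_le_mul_of_one_le_of_one_le hc1r (hyn _)
  -- reduced matrices
  set Red : Set (SLR n) := {g | ∀ i j, |g.1 i j| ≤ M} with hRed
  have hRed1 : (1 : SLR n) ∈ Red := by
    intro i j
    rw [Matrix.SpecialLinearGroup.coe_one]
    by_cases hij : i = j
    · subst hij; simpa using hM1
    · rw [Matrix.one_apply_ne hij]; simpa using zero_le_one.trans hM1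
  have hinv : ∀ g ∈ Red, nrm (g⁻¹).1 ≤ N := by
    intro g hg
    have h1 := nrm_le_of_forall (fun i j => abs_inv_le g hM1 hg i j)
    refine h1.trans ?_
    rw [hN, hM, hc1]
    push_cast
    have h2 : ((c0 : ℝ) * y ^ n) ^ n = c0 ^ n * y ^ (n * n) := by
      rw [mul_pow, ← pow_mul]
    rw [h2]
    have h3 : (n : ℝ) ^ 2 * (n.factorial * (c0 ^ n * y ^ (n * n)))
        = n ^ 2 * (n.factorial * c0 ^ n * y ^ (n * n)) := by ring
    have h4 : ((n : ℝ) ^ 2 + 1) * n.factorial * c0 ^ n * y ^ (n * n)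
        = (n ^ 2 + 1) * (n.factorial * c0 ^ n * y ^ (n * n)) := by ring
    rw [h3, h4]
    have h5 : 0 ≤ (n.factorial : ℝ) * c0 ^ n * y ^ (n * n) := by positivity
    nlinarith
  have hnrmRed : ∀ g ∈ Red, nrm g.1 ≤ n ^ 2 * M := fun g hg => nrm_le_of_forall hg
  -- mesh
  set δ : ℝ := ρ / (4 * N * (n ^ 2 + 1)) with hδ
  have hδpos : 0 < δ := by positivity
  have hNδ : N * (n ^ 2 * δ) ≤ ρ / 4 := by
    rw [hδ]
    have h1 : N * ((n : ℝ) ^ 2 * (ρ / (4 * N * (n ^ 2 + 1)))) = ρ / 4 * (n ^ 2 / (n ^ 2 + 1)) := by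
      field_simp
    rw [h1]
    have h2 : (n : ℝ) ^ 2 / (n ^ 2 + 1) ≤ 1 := by
      rw [div_le_one (by positivity)]
      linarith
    nlinarith
  set κ : SLR n → (Fin n → Fin n → ℤ) := fun g i j => ⌊g.1 i j / δ⌋ with hκ
  set B : ℤ := ⌈M / δ⌉ + 1 with hB
  have hκmem : ∀ g ∈ Red, κ g ∈ Fintype.piFinset (fun _ : Fin n => Fintype.piFinset
      (fun _ : Fin n => Finset.Icc (-B) B)) := by
    intro g hg
    rw [Fintype.mem_piFinset]
    intro i
    rw [Fintype.mem_piFinset]
    intro j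
    rw [Finset.mem_Icc]
    have h1 := abs_le.1 (hg i j)
    have h2 : g.1 i j / δ ≤ M / δ := div_le_div_of_nonneg_right h1.2 hδpos.le
    have h3 : -(M / δ) ≤ g.1 i j / δ := by
      rw [← neg_div]
      exact div_le_div_of_nonneg_right h1.1 hδpos.le
    constructor
    · rw [Int.le_floor, hB]
      push_cast
      have := Int.le_ceil (M / δ)
      linarith
    · have h4 : (⌊g.1 i j / δ⌋ : ℤ) ≤ ⌈M / δ⌉ := by
        rw [← Int.cast_le (R := ℝ)]
        exact (Int.floor_le _).trans (h2.trans (Int.le_ceil _))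
      show ⌊g.1 i j / δ⌋ ≤ B
      omega
  -- section
  set sct : (Fin n → Fin n → ℤ) → SLR n := fun k =>
    if h : ∃ g ∈ Red, κ g = k then h.choose else 1 with hsct
  have hsctRed : ∀ k, sct k ∈ Red := by
    intro k
    rw [hsct]
    show (if h : ∃ g ∈ Red, κ g = k then h.choose else 1) ∈ Red
    split_ifs with h
    · exact h.choose_spec.1
    · exact hRed1
  have hsctκ : ∀ g ∈ Red, κ (sct (κ g)) = κ g := by
    intro g hg
    have h : ∃ g' ∈ Red, κ g' = κ g := ⟨g, hg, rfl⟩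
    have h1 : sct (κ g) = h.choose := by
      rw [hsct]
      exact dif_pos h
    rw [h1]
    exact h.choose_spec.2
  set T := Fintype.piFinset (fun _ : Fin n => Fintype.piFinset
      (fun _ : Fin n => Finset.Icc (-B) B)) with hT
  refine ⟨T.image sct, ?_, ?_, ?_⟩
  · -- the count
    have hBle : (2 * (B : ℝ) + 1) ≤ 7 * (M / δ) := by
      have h1 := Int.ceil_lt_add_one (M / δ)
      have h2 : 1 ≤ M / δ := by
        rw [le_div_iff₀ hδpos, one_mul]
        have h3 : δ ≤ 1 := by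
          rw [hδ, div_le_one (by positivity)]
          have h4 : (1 : ℝ) ≤ 4 * N * (n ^ 2 + 1) := by
            have h5 : (1 : ℝ) ≤ n ^ 2 + 1 := by
              have : (0 : ℝ) ≤ (n : ℝ) ^ 2 := by positivity
              linarith
            nlinarith
          linarith
        linarith
      rw [hB]
      push_cast
      linarith
    have hB0 : 0 ≤ B := by
      have : 0 ≤ M / δ := by positivity
      have := Int.ceil_nonneg this
      omega
    have hMδ : M / δ ≤ c2 * x ^ (n * n + n + 1) := by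
      have h1 : M / δ = (4 * (n ^ 2 + 1) * c0 * c1) * (y ^ (n * n + n) * (1 / ρ)) := by
        rw [hδ, hM, hN, pow_add]
        field_simp
      rw [h1, hc2]
      push_cast
      refine mul_le_mul_of_nonneg_left ?_ (by positivity)
      rw [pow_succ]
      exact mul_le_mul (pow_le_pow_left₀ (by linarith) hyx _) hρx (by positivity) (by positivity)
    have hcardT : (T.card : ℝ) = (2 * (B : ℝ) + 1) ^ (n * n) := by
      rw [hT, Fintype.card_piFinset]
      simp only [Fintype.card_piFinset, Finset.prod_const, Finset.card_univ, Fintype.card_fin,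
        Int.card_Icc]
      push_cast
      rw [← pow_mul]
      congr 1
      have h1 : (B + 1 - -B).toNat = ((2 * B + 1).toNat) := by
        congr 1
        ring
      rw [h1]
      have h2 : (((2 * B + 1).toNat : ℤ) : ℝ) = ((2 * B + 1 : ℤ) : ℝ) := by
        rw [Int.toNat_of_nonneg (by omega)]
      calc (((2 * B + 1).toNat : ℕ) : ℝ) = (((2 * B + 1).toNat : ℤ) : ℝ) :=
            (Int.cast_natCast _).symm
        _ = _ := by rw [h2]; push_cast; ring
    calc ((T.image sct).card : ℝ) ≤ T.card := by exact_mod_cast Finset.card_image_le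
      _ = (2 * (B : ℝ) + 1) ^ (n * n) := hcardT
      _ ≤ (7 * (c2 * x ^ (n * n + n + 1))) ^ (n * n) := by
          refine pow_le_pow_left₀ ?_ ?_ _
          · have : (0 : ℝ) ≤ B := by exact_mod_cast hB0
            linarith
          · linarith
      _ = (((7 * c2) ^ (n * n) : ℕ) : ℝ) * x ^ ((n * n + n + 1) * (n * n)) := by
          push_cast
          rw [← mul_assoc, mul_pow, ← pow_mul]
      _ ≤ C * x ^ C := bump (by rw [hC]; omega) (by rw [hC]; omega) hx1
  · intro g₀ hg₀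
    rw [Finset.mem_image] at hg₀
    obtain ⟨k, -, rfl⟩ := hg₀
    constructor
    · refine (hnrmRed _ (hsctRed k)).trans ?_
      rw [hM]
      calc (n : ℝ) ^ 2 * (c0 * y ^ n) = ((n ^ 2 * c0 : ℕ) : ℝ) * y ^ n := by push_cast; ring
        _ ≤ C * y ^ C := bump (by rw [hC]; omega) (by rw [hC]; omega) hy1
    · refine (hinv _ (hsctRed k)).trans ?_
      rw [hN]
      exact bump (by rw [hC]; omega) (by rw [hC]; omega) hy1
  · intro g hg
    obtain ⟨γ, hγ, hs⟩ := exists_short g
    have hRedγ : γ * g ∈ Red := by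
      intro i j
      refine (hs i j).trans ?_
      have h1 : 2 ^ n / mm g ≤ 2 ^ n * y := by
        rw [hy, mul_one_div]
        exact div_le_div_of_nonneg_left (by positivity) hη hg
      calc (n : ℝ) * (2 ^ n / mm g) ^ (n - 1) ≤ n * (2 ^ n * y) ^ (n - 1) := by
            refine mul_le_mul_of_nonneg_left ?_ (by positivity)
            have := mm_pos g
            exact pow_le_pow_left₀ (by positivity) h1 _
        _ ≤ (n + 1) * (2 ^ n * y) ^ n := by
            have h2 : 1 ≤ 2 ^ n * y := one_le_mul_of_one_le_of_one_le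
              (one_le_pow₀ (by norm_num)) hy1
            have h3 : (2 ^ n * y) ^ (n - 1) ≤ (2 ^ n * y) ^ n :=
              pow_le_pow_right₀ h2 (Nat.sub_le _ _)
            have h4 : 0 ≤ (2 ^ n * y) ^ (n - 1) := by positivity
            have h5 : (0 : ℝ) ≤ n := Nat.cast_nonneg n
            nlinarith
        _ = M := by
            rw [hM, hc0, mul_pow, ← pow_mul]
            push_cast
            ring
    refine ⟨γ, hγ, sct (κ (γ * g)), Finset.mem_image.2 ⟨_, hκmem _ hRedγ, rfl⟩, ?_⟩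
    set g₁ := γ * g with hg₁
    set g₀ := sct (κ g₁) with hg₀
    have hclose : ∀ i j, |(g₁.1 - g₀.1) i j| ≤ δ := by
      intro i j
      have h1 : ⌊g₀.1 i j / δ⌋ = ⌊g₁.1 i j / δ⌋ := congrFun (congrFun (hsctκ g₁ hRedγ) i) j
      have h2 := Int.floor_le (g₀.1 i j / δ)
      have h3 := Int.lt_floor_add_one (g₀.1 i j / δ)
      have h4 := Int.floor_le (g₁.1 i j / δ)
      have h5 := Int.lt_floor_add_one (g₁.1 i j / δ)
      rw [h1] at h2 h3
      have h6 : |g₁.1 i j / δ - g₀.1 i j / δ| ≤ 1 := by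
        rw [abs_le]
        constructor <;> linarith
      rw [Matrix.sub_apply]
      rw [← sub_div, abs_div, abs_of_pos hδpos, div_le_iff₀ hδpos, one_mul] at h6
      exact h6
    have hnr := nrm_le_of_forall hclose
    have key : nrm ((g₀⁻¹ * g₁).1 - 1) ≤ ρ / 4 := by
      have e : (g₀⁻¹ * g₁).1 - 1 = (g₀⁻¹).1 * (g₁.1 - g₀.1) := by
        rw [mul_sub, coe_inv_mul]
        rfl
      rw [e]
      refine (nrm_mul_le _ _).trans (le_trans ?_ hNδ)
      exact mul_le_mul (hinv _ (hsctRed _)) hnr (nrm_nonneg _) (by linarith)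
    refine ⟨key.trans (by linarith), ?_⟩
    have h7 := nrm_inv_sub_one_le key (by linarith)
    have h8 : (g₀⁻¹ * g₁)⁻¹ = g₁⁻¹ * g₀ := by group
    rw [h8] at h7
    exact h7.trans (by linarith)

end Crest.Agent.R014.Cell_433
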