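import Crest.Agent.R014.Nd1_837
import Crest.Agent.R014.Ne2_567

set_option autoImplicit false

/-!
Row 14, block D, noise formalism (text #3844 of helper548, section 2): entropy of the digits of a
unipotent displacement given the displaced random point, for general noise laws on `SLR n`.
-/

open MeasureTheory Crest.NumberTheoryR.Packets
open scoped ENNReal

namespace Crest.Agent.R014.Nd_837

open Ms_667 Ne1_567

variable {n : ℕ} {ι : Type*} [Fintype ι]

/-! ### Translation of the observation -/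

/-- Right translation as a measurable equivalence. -/
noncomputable def actE (a : SLR n) : ModSpace n ≃ᵐ ModSpace n := (actHomeo a).toMeasurableEquiv

theorem actE_apply (a : SLR n) (x : ModSpace n) : actE a x = act x a := rfl

/-- Entropy does not change under a translation of the observation. -/
theorem Hc_act (ρ : ι → Measure (ModSpace n)) [∀ c, IsFiniteMeasure (ρ c)] (a : SLR n) :
    Hc (fun c => (ρ c).map fun x => act x a) = Hc ρ := Hc_equiv ρ (actE a)

section Equiv

variable {Y Z : Type*} [MeasurableSpace Y] [MeasurableSpace Z]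

/-- The conditional probabilities under a relabelling of the observation. -/
theorem pr_equiv (ρ : ι → Measure Y) [∀ c, IsFiniteMeasure (ρ c)] (e : Y ≃ᵐ Z) (c : ι) :
    ∀ᵐ y ∂(tot ρ), pr (mp e ρ) c (e y) = pr ρ c y := by
  have h := pinsker_map ρ e.measurable
  rw [Hc_equiv ρ e, sub_self, mul_zero] at h
  have hint : Integrable (fun y => (∑ c, |pr ρ c y - pr (mp e ρ) c (e y)|) ^ 2) (tot ρ) := by
    have h1 : ∀ᵐ y ∂(tot ρ), ∑ c, pr (mp e ρ) c (e y) = 1 := ae_comp ρ e.measurable (sum_pr _)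
    have hm : Measurable fun y => (∑ c, |pr ρ c y - pr (mp e ρ) c (e y)|) ^ 2 :=
      (Finset.measurable_sum _ fun c _ => ((measurable_pr ρ c).sub
        ((measurable_pr _ c).comp e.measurable)).abs).pow_const 2
    refine Integrable.of_bound hm.aestronglyMeasurable 4 ?_
    filter_upwards [sum_pr ρ, h1] with y hy hy'
    have h2 : ∑ c, |pr ρ c y - pr (mp e ρ) c (e y)| ≤ 2 := by
      calc ∑ c, |pr ρ c y - pr (mp e ρ) c (e y)|
          ≤ ∑ c, (pr ρ c y + pr (mp e ρ) c (e y)) := Finset.sum_le_sum fun c _ => by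
            rw [abs_le]
            constructor <;> linarith [pr_nonneg ρ c y, pr_nonneg (mp e ρ) c (e y)]
        _ = 2 := by rw [Finset.sum_add_distrib, hy, hy']; norm_num
    have h3 : 0 ≤ ∑ c, |pr ρ c y - pr (mp e ρ) c (e y)| :=
      Finset.sum_nonneg fun c _ => abs_nonneg _
    rw [Real.norm_eq_abs, abs_of_nonneg (sq_nonneg _)]
    nlinarith
  have h0 := (integral_eq_zero_iff_of_nonneg (fun y => sq_nonneg _) hint).1
    (le_antisymm h (integral_nonneg fun y => sq_nonneg _))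
  filter_upwards [h0] with y hy
  have h1 : ∑ c, |pr ρ c y - pr (mp e ρ) c (e y)| = 0 := pow_eq_zero_iff two_ne_zero |>.1 hy
  have h2 := (Finset.sum_eq_zero_iff_of_nonneg fun c _ => abs_nonneg _).1 h1 c (Finset.mem_univ c)
  have h3 := abs_eq_zero.1 h2
  linarith

end Equiv

/-! ### Homogeneity -/

section Smul

variable {ι Y : Type*} [Fintype ι] [MeasurableSpace Y]

theorem tot_smul (ρ : ι → Measure Y) (a : ℝ≥0∞) : tot (fun c => a • ρ c) = a • tot ρ := by
  unfold tot
  rw [Finset.smul_sum]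

theorem pr_smul (ρ : ι → Measure Y) [∀ c, IsFiniteMeasure (ρ c)] {a : ℝ≥0∞} (h0 : a ≠ 0)
    (ha : a ≠ ∞) (c : ι) : ∀ᵐ y ∂(tot ρ), pr (fun c => a • ρ c) c y = pr ρ c y := by
  have : IsFiniteMeasure (a • tot ρ) := Measure.smul_finite _ ha
  have : IsFiniteMeasure (a • ρ c) := Measure.smul_finite _ ha
  have h1 : (a • ρ c).rnDeriv (a • tot ρ) =ᵐ[a • tot ρ] (ρ c).rnDeriv (tot ρ) := by
    refine Ne2_567.rn_of_eq (Measure.measurable_rnDeriv _ _) ?_
    rw [withDensity_smul_measure, Measure.withDensity_rnDeriv_eq _ _ (ac ρ c)]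
  have h2 : (a • ρ c).rnDeriv (a • tot ρ) =ᵐ[tot ρ] (ρ c).rnDeriv (tot ρ) := by
    rw [Filter.EventuallyEq, Measure.ae_ennreal_smul_measure_iff h0] at h1
    exact h1
  filter_upwards [h2] with y hy
  unfold pr
  rw [tot_smul, hy]

/-- Homogeneity. -/
theorem Hc_smul (ρ : ι → Measure Y) [∀ c, IsFiniteMeasure (ρ c)] {a : ℝ≥0∞} (h0 : a ≠ 0)
    (ha : a ≠ ∞) : Hc (fun c => a • ρ c) = a.toReal * Hc ρ := by
  unfold Hc
  rw [tot_smul, integral_smul_measure, smul_eq_mul]
  congr 1
  refine integral_congr_ae ?_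
  filter_upwards [ae_all_iff.2 (pr_smul ρ h0 ha)] with y hy
  exact Finset.sum_congr rfl fun c _ => by rw [hy c]

end Smul

/-! ### Labels and random points -/

/-- The joint law of the label and of the random point `x g`, where `x ~ μ` is independent of the
labelled random element `(c, g) ~ D`. -/
noncomputable def gl (μ : Measure (ModSpace n)) (D : ι → Measure (SLR n)) (c : ι) :
    Measure (ModSpace n) := stp μ (D c)

omit [Fintype ι] in
instance (μ : Measure (ModSpace n)) [IsFiniteMeasure μ] (D : ι → Measure (SLR n))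
    [∀ c, IsFiniteMeasure (D c)] (c : ι) : IsFiniteMeasure (gl μ D c) := by
  unfold gl stp; infer_instance

instance instFiniteCv (κ κ' : Measure (SLR n)) [IsFiniteMeasure κ] [IsFiniteMeasure κ'] :
    IsFiniteMeasure (cv κ κ') := by unfold cv; infer_instance

instance instFiniteStp (μ : Measure (ModSpace n)) (κ : Measure (SLR n)) [IsFiniteMeasure μ]
    [IsFiniteMeasure κ] : IsFiniteMeasure (stp μ κ) := by unfold stp; infer_instance

instance instFiniteCj (a : SLR n) (κ : Measure (SLR n)) [IsFiniteMeasure κ] :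
    IsFiniteMeasure (cj a κ) := by unfold cj; infer_instance

theorem stp_smul (μ : Measure (ModSpace n)) (κ : Measure (SLR n)) [SFinite μ] [SFinite κ]
    (c : ℝ≥0∞) : stp μ (c • κ) = c • stp μ κ := by
  unfold stp
  rw [Measure.prod_smul_right, Measure.map_smul]

theorem smul_stp (μ : Measure (ModSpace n)) (κ : Measure (SLR n)) [SFinite μ] [SFinite κ]
    (c : ℝ≥0∞) : stp (c • μ) κ = c • stp μ κ := by
  unfold stp
  rw [Measure.prod_smul_left, Measure.map_smul]

theorem cv_smul (κ κ' : Measure (SLR n)) [SFinite κ] [SFinite κ'] (c : ℝ≥0∞) :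
    cv κ (c • κ') = c • cv κ κ' := by
  unfold cv
  rw [Measure.prod_smul_right, Measure.map_smul]

theorem smul_cv (κ κ' : Measure (SLR n)) [SFinite κ] [SFinite κ'] (c : ℝ≥0∞) :
    cv (c • κ) κ' = c • cv κ κ' := by
  unfold cv
  rw [Measure.prod_smul_left, Measure.map_smul]

/-- The labelled element of the digits: noise, then digit. -/
noncomputable def ld (κ : Measure (SLR n)) {i j : Fin n} (hij : i ≠ j) (r : ℝ) (b : ℕ)
    (d : Fin b) : Measure (SLR n) := (b : ℝ≥0∞)⁻¹ • cv κ (dlaw hij r b d)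

instance (κ : Measure (SLR n)) [IsFiniteMeasure κ] {i j : Fin n} (hij : i ≠ j) (r : ℝ) (b : ℕ)
    (d : Fin b) : IsFiniteMeasure (ld κ hij r b d) := by
  unfold ld
  have hb : (b : ℝ≥0∞)⁻¹ ≠ ∞ := by
    have : 0 < b := d.pos
    simp [this.ne']
  exact Measure.smul_finite _ hb

theorem lab_eq_gl (μ : Measure (ModSpace n)) (κ : Measure (SLR n)) [SFinite μ] [SFinite κ]
    {i j : Fin n} (hij : i ≠ j) (r : ℝ) (b : ℕ) : lab μ κ hij r b = gl μ (ld κ hij r b) := by
  funext d
  have h1 : SFinite (cv κ (dlaw hij r b d)) := by unfold cv; infer_instance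
  rw [lab, gl, ld, stp_smul, stp_stp]

omit [Fintype ι] in
/-- A further independent noise on the right. -/
theorem stp_gl (μ : Measure (ModSpace n)) [SFinite μ] (D : ι → Measure (SLR n))
    [∀ c, SFinite (D c)] (κ : Measure (SLR n)) [SFinite κ] (c : ι) :
    stp (gl μ D c) κ = gl μ (fun c => cv (D c) κ) c := by
  unfold gl
  rw [stp_stp]

/-- Data processing for a further noise. -/
theorem Hc_le_stp (ρ : ι → Measure (ModSpace n)) [∀ c, IsFiniteMeasure (ρ c)]
    (κ : Measure (SLR n)) [IsProbabilityMeasure κ] : Hc ρ ≤ Hc (fun c => stp (ρ c) κ) :=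
  Hc_le_nz ρ κ measurable_act₂

/-- Conditional Pinsker inequality for a further noise. -/
theorem pinsker_stp (ρ : ι → Measure (ModSpace n)) [∀ c, IsFiniteMeasure (ρ c)]
    (κ : Measure (SLR n)) [IsProbabilityMeasure κ] :
    ∫ p, (∑ c, |pr ρ c p.1 - pr (fun c => stp (ρ c) κ) c (act p.1 p.2)|) ^ 2 ∂((tot ρ).prod κ)
      ≤ 4 * (Hc (fun c => stp (ρ c) κ) - Hc ρ) :=
  pinsker_nz ρ κ measurable_act₂

/-! ### (2.1) Equivariance -/

theorem Hc_lab_sh {μ : Measure (ModSpace n)} [IsProbabilityMeasure μ] (hμ : AInv μ)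
    (κ : Measure (SLR n)) [IsProbabilityMeasure κ] {i j : Fin n} (hij : i ≠ j) (t : Fin n → ℝ)
    (r : ℝ) (b : ℕ) :
    Hc (lab μ (cj (aT t) κ) hij (r + (t i - t j)) b) = Hc (lab μ κ hij r b) := by
  rw [← Hc_act (lab μ κ hij r b) (aT t)]
  congr 1
  funext d
  exact (lab_act hμ κ hij t r b d).symm

/-- The conditional probabilities of the digits are equivariant. -/
theorem pr_lab_sh {μ : Measure (ModSpace n)} [IsProbabilityMeasure μ] (hμ : AInv μ)
    (κ : Measure (SLR n)) [IsProbabilityMeasure κ] {i j : Fin n} (hij : i ≠ j) (t : Fin n → ℝ)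
    (r : ℝ) (b : ℕ) (d : Fin b) :
    ∀ᵐ y ∂(tot (lab μ κ hij r b)),
      pr (lab μ (cj (aT t) κ) hij (r + (t i - t j)) b) d (act y (aT t))
        = pr (lab μ κ hij r b) d y := by
  have h := pr_equiv (lab μ κ hij r b) (actE (aT t)) d
  have h2 : mp (actE (aT t)) (lab μ κ hij r b)
      = lab μ (cj (aT t) κ) hij (r + (t i - t j)) b := by
    funext d
    exact lab_act hμ κ hij t r b d
  rw [h2] at h
  exact h

omit [Fintype ι] in
/-- General form of the equivariance. -/
theorem gl_act {μ : Measure (ModSpace n)} [IsProbabilityMeasure μ] (hμ : AInv μ)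
    (D : ι → Measure (SLR n)) [∀ c, IsFiniteMeasure (D c)] (t : Fin n → ℝ) (c : ι) :
    (gl μ D c).map (fun x => act x (aT t)) = gl μ (fun c => cj (aT t) (D c)) c := by
  unfold gl
  rw [map_act_stp, hμ t]

theorem Hc_gl_sh {μ : Measure (ModSpace n)} [IsProbabilityMeasure μ] (hμ : AInv μ)
    (D : ι → Measure (SLR n)) [∀ c, IsFiniteMeasure (D c)] (t : Fin n → ℝ) :
    Hc (gl μ fun c => cj (aT t) (D c)) = Hc (gl μ D) := by
  rw [← Hc_act (gl μ D) (aT t)]
  congr 1
  funext d
  exact (gl_act hμ D t d).symm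

/-! ### Cells -/

theorem sum_restrict_Ioc (a : ℕ → ℝ) (ha : Monotone a) (m : ℕ) :
    ∑ k ∈ Finset.range m, (volume.restrict (Set.Ioc (a k) (a (k + 1))))
      = volume.restrict (Set.Ioc (a 0) (a m)) := by
  induction m with
  | zero => simp
  | succ m ih =>
    rw [Finset.sum_range_succ, ih, ← Measure.restrict_union _ measurableSet_Ioc,
      Set.Ioc_union_Ioc_eq_Ioc (ha (Nat.zero_le m)) (ha (Nat.le_succ m))]
    exact Set.Ioc_disjoint_Ioc_of_le le_rfl

theorem uni_map_cell {b : ℕ} (hb : 0 < b) (c : ℝ) :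
    uni.map (fun θ => c + θ / b)
      = (b : ℝ≥0∞) • ((2 : ℝ≥0∞)⁻¹ • volume.restrict (Set.Icc (c - 1 / b) (c + 1 / b))) := by
  have hb' : (0 : ℝ) < b := by exact_mod_cast hb
  have hf : Measurable fun θ : ℝ => c + θ / b := by fun_prop
  have h1 : (volume : Measure ℝ).map (fun θ : ℝ => c + θ / b) = (b : ℝ≥0∞) • volume := by
    have h2 : (fun θ : ℝ => c + θ / b) = (fun x => c + x) ∘ (fun θ => θ * (b : ℝ)⁻¹) := by
      funext θ; simp [div_eq_mul_inv]
    rw [h2, ← Measure.map_map (by fun_prop) (by fun_prop),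
      Real.map_volume_mul_right (inv_ne_zero hb'.ne'), inv_inv, abs_of_pos hb', Measure.map_smul,
      map_add_left_eq_self, ENNReal.ofReal_natCast]
  have h3 : (fun θ : ℝ => c + θ / b) ⁻¹' (Set.Icc (c - 1 / b) (c + 1 / b)) = Set.Icc (-1) 1 := by
    ext θ
    simp only [Set.mem_preimage, Set.mem_Icc]
    rw [show c - 1 / (b : ℝ) = c + (-1) / b by ring, add_le_add_iff_left, add_le_add_iff_left,
      div_le_div_iff_of_pos_right hb', div_le_div_iff_of_pos_right hb']
  rw [uni, Measure.map_smul, ← h3, ← Measure.restrict_map hf measurableSet_Icc, h1,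
    Measure.restrict_smul, smul_smul, smul_smul, mul_comm]

theorem cell_eq {b : ℕ} (hb : 0 < b) (k : Fin b) :
    Set.Icc (cen b k - 1 / b) (cen b k + 1 / b)
      = Set.Icc (-1 + 2 * (k : ℝ) / b) (-1 + 2 * ((k : ℝ) + 1) / b) := by
  have hb' : (b : ℝ) ≠ 0 := by exact_mod_cast hb.ne'
  unfold cen
  congr 1 <;> field_simp <;> ring

/-- The uniform law is the mixture of the uniform laws on the cells. -/
theorem uni_split {b : ℕ} (hb : 0 < b) :
    uni = (b : ℝ≥0∞)⁻¹ • ∑ k : Fin b, uni.map (fun θ => cen b k + θ / b) := by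
  have hb' : (0 : ℝ) < b := by exact_mod_cast hb
  have h1 : ∀ k : Fin b, uni.map (fun θ => cen b k + θ / b) = (b : ℝ≥0∞) • ((2 : ℝ≥0∞)⁻¹ •
      volume.restrict (Set.Ioc (-1 + 2 * ((k : ℕ) : ℝ) / b) (-1 + 2 * (((k : ℕ) + 1 : ℕ) : ℝ) / b))) := by
    intro k
    rw [uni_map_cell hb, cell_eq hb, Measure.restrict_congr_set Ioc_ae_eq_Icc]
    push_cast
    rfl
  rw [Finset.sum_congr rfl fun k _ => h1 k, ← Finset.smul_sum, ← Finset.smul_sum, smul_smul,
    ENNReal.inv_mul_cancel (by exact_mod_cast hb.ne') (ENNReal.natCast_ne_top b), one_smul,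
    Fin.sum_univ_eq_sum_range (fun k : ℕ =>
      volume.restrict (Set.Ioc (-1 + 2 * (k : ℝ) / b) (-1 + 2 * ((k + 1 : ℕ) : ℝ) / b))) b,
    sum_restrict_Ioc (fun k : ℕ => -1 + 2 * (k : ℝ) / b), uni, Measure.restrict_congr_set Ioc_ae_eq_Icc]
  · congr 3
    simp
    field_simp
    norm_num
  · intro k l hkl
    have : (k : ℝ) ≤ l := by exact_mod_cast hkl
    simp only
    gcongr

omit [Fintype ι] in
theorem stp_sum (μ : Measure (ModSpace n)) [SFinite μ] (κ : ι → Measure (SLR n))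
    [∀ c, IsFiniteMeasure (κ c)] (s : Finset ι) : stp μ (∑ c ∈ s, κ c) = ∑ c ∈ s, stp μ (κ c) := by
  classical
  unfold stp
  have h : ∀ s : Finset ι, μ.prod (∑ c ∈ s, κ c) = ∑ c ∈ s, μ.prod (κ c) := by
    intro s
    induction s using Finset.induction_on with
    | empty => simp
    | insert a s ha ih =>
      rw [Finset.sum_insert ha, Finset.sum_insert ha, Measure.prod_add, ih]
  rw [h, Measure.map_finset_sum measurable_act₂.aemeasurable]

theorem cen_mul {b b' : ℕ} (c : Fin b) (k : Fin b') :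
    cen (b * b') (finProdFinEquiv (c, k)) = cen b c + cen b' k / b := by
  have hb : (b : ℝ) ≠ 0 := by exact_mod_cast c.pos.ne'
  have hb' : (b' : ℝ) ≠ 0 := by exact_mod_cast k.pos.ne'
  unfold cen
  rw [finProdFinEquiv_apply_val]
  push_cast
  field_simp
  ring

theorem rpow_sub_logb {b : ℕ} (hb : 0 < b) (r : ℝ) :
    (2 : ℝ) ^ (-(r + Real.logb 2 b)) = (2 : ℝ) ^ (-r) / b := by
  rw [neg_add, Real.rpow_add two_pos, Real.rpow_neg two_pos.le (Real.logb 2 b),
    Real.rpow_logb two_pos (by norm_num) (by exact_mod_cast hb), div_eq_mul_inv]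

/-- The fine digit, given the coarse digit: the law is translated. -/
theorem dlaw_mul {i j : Fin n} (hij : i ≠ j) (r : ℝ) {b b' : ℕ} (c : Fin b) (k : Fin b') :
    dlaw hij r (b * b') (finProdFinEquiv (c, k))
      = (dlaw hij (r + Real.logb 2 b) b' k).map
          fun g => g * uu hij ((2 : ℝ) ^ (-r) * cen b c) := by
  have hb : (b : ℝ) ≠ 0 := by exact_mod_cast c.pos.ne'
  have hb' : (b' : ℝ) ≠ 0 := by exact_mod_cast k.pos.ne'
  unfold dlaw
  rw [Measure.map_map (measurable_mul_const _) (measurable_dlaw hij _ b' k)]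
  congr 1
  funext θ
  simp only [Function.comp_apply]
  rw [← uu_add, cen_mul, rpow_sub_logb c.pos]
  congr 1
  push_cast
  field_simp
  ring

/-- The coarse digit is the mixture of the fine ones. -/
theorem dlaw_coarse {i j : Fin n} (hij : i ≠ j) (r : ℝ) {b b' : ℕ} (hb' : 0 < b') (c : Fin b) :
    dlaw hij r b c = (b' : ℝ≥0∞)⁻¹ • ∑ k : Fin b', dlaw hij r (b * b') (finProdFinEquiv (c, k)) := by
  have hb0 : (b : ℝ) ≠ 0 := by exact_mod_cast c.pos.ne'
  have hb0' : (b' : ℝ) ≠ 0 := by exact_mod_cast hb'.ne'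
  have h0 : dlaw hij r b c
      = uni.map (fun θ => uu hij ((2 : ℝ) ^ (-r) * (cen b c + θ / b))) := rfl
  rw [h0, uni_split hb', Measure.map_smul,
    Measure.map_finset_sum (measurable_dlaw hij r b c).aemeasurable]
  congr 1
  refine Finset.sum_congr rfl fun k _ => ?_
  unfold dlaw
  rw [Measure.map_map (measurable_dlaw hij r b c) (by fun_prop)]
  congr 1
  funext θ
  simp only [Function.comp_apply]
  rw [cen_mul]
  congr 2
  push_cast
  field_simp
  ring

/-- The joint law of (coarse, fine) digit. -/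
theorem lab_mul (μ : Measure (ModSpace n)) (κ : Measure (SLR n)) [IsFiniteMeasure μ]
    [IsFiniteMeasure κ] {i j : Fin n} (hij : i ≠ j) (r : ℝ) {b b' : ℕ} (c : Fin b) (k : Fin b') :
    lab μ κ hij r (b * b') (finProdFinEquiv (c, k)) = (b : ℝ≥0∞)⁻¹ •
      (lab μ κ hij (r + Real.logb 2 b) b' k).map
        fun x => act x (uu hij ((2 : ℝ) ^ (-r) * cen b c)) := by
  unfold lab
  have hb : (b : ℝ≥0∞) ≠ 0 := by exact_mod_cast c.pos.ne'
  have hb' : (b' : ℝ≥0∞) ≠ 0 := by exact_mod_cast k.pos.ne'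
  rw [dlaw_mul, Measure.map_smul, smul_smul, ← cv_dirac, ← stp_stp, stp_dirac, Nat.cast_mul,
    ENNReal.mul_inv (Or.inl hb) (Or.inr hb')]

theorem sum_lab_mul (μ : Measure (ModSpace n)) (κ : Measure (SLR n)) [IsFiniteMeasure μ]
    [IsFiniteMeasure κ] {i j : Fin n} (hij : i ≠ j) (r : ℝ) {b b' : ℕ} (hb' : 0 < b')
    (c : Fin b) :
    ∑ k : Fin b', lab μ κ hij r (b * b') (finProdFinEquiv (c, k)) = lab μ κ hij r b c := by
  unfold lab
  have hb0 : (b : ℝ≥0∞) ≠ 0 := by exact_mod_cast c.pos.ne'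
  have hb0' : (b' : ℝ≥0∞) ≠ 0 := by exact_mod_cast hb'.ne'
  rw [dlaw_coarse hij r hb' c, stp_smul, stp_sum, ← Finset.smul_sum, smul_smul, Nat.cast_mul,
    ENNReal.mul_inv (Or.inl hb0) (Or.inr hb0')]

/-! ### (2.3) Digits add up -/

theorem Hc_digits (μ : Measure (ModSpace n)) (κ : Measure (SLR n)) [IsProbabilityMeasure μ]
    [IsProbabilityMeasure κ] {i j : Fin n} (hij : i ≠ j) (r : ℝ) {b b' : ℕ} (hb : 0 < b)
    (hb' : 0 < b') :
    Hc (lab μ κ hij r (b * b')) = Hc (lab μ κ hij r b) + Hc (lab μ κ hij (r + Real.logb 2 b) b') := by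
  have hbt : (b : ℝ≥0∞)⁻¹ ≠ ∞ := by simp [hb.ne']
  have hb0 : (b : ℝ≥0∞)⁻¹ ≠ 0 := by simp
  have h1 := Ne2_567.Hc_comp finProdFinEquiv (lab μ κ hij r (b * b'))
  have h2 := Ne2_567.Hc_chain' fun p : Fin b × Fin b' => lab μ κ hij r (b * b') (finProdFinEquiv p)
  have h3 : Ne2_567.mf (fun p : Fin b × Fin b' => lab μ κ hij r (b * b') (finProdFinEquiv p))
      = lab μ κ hij r b := by
    funext c
    exact sum_lab_mul μ κ hij r hb' c
  have h4 : ∀ c : Fin b, Hc (fun k : Fin b' => lab μ κ hij r (b * b') (finProdFinEquiv (c, k)))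
      = (b : ℝ)⁻¹ * Hc (lab μ κ hij (r + Real.logb 2 b) b') := by
    intro c
    have h5 : (fun k : Fin b' => lab μ κ hij r (b * b') (finProdFinEquiv (c, k)))
        = fun k => (b : ℝ≥0∞)⁻¹ • ((lab μ κ hij (r + Real.logb 2 b) b' k).map
          fun x => act x (uu hij ((2 : ℝ) ^ (-r) * cen b c))) :=
      funext fun k => lab_mul μ κ hij r c k
    have h6 := Hc_smul (fun k => (lab μ κ hij (r + Real.logb 2 b) b' k).map
          fun x => act x (uu hij ((2 : ℝ) ^ (-r) * cen b c))) hb0 hbt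
    rw [h5, h6, Hc_act]
    simp
  rw [← h1, h2, h3, Finset.sum_congr rfl fun c _ => h4 c, Finset.sum_const, Finset.card_univ,
    Fintype.card_fin, nsmul_eq_mul, ← mul_assoc, mul_inv_cancel₀ (by exact_mod_cast hb.ne'), one_mul]

end Crest.Agent.R014.Nd_837
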