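import Crest.Agent.R014.NScB_395
import Crest.Agent.R014.Ne3_567
import Crest.Agent.R014.Nd2_837

/-!
# Row 14, block D, noise formalism, section 3 of post 3844 (helper395), part C

Posterior laws as probability vectors everywhere, the spread of a digit law, the function `Psi`,
and its near invariance under the kernel of the root: (3.1), (3.2).
-/

set_option autoImplicit false

open MeasureTheory Finset Crest.NumberTheoryR.Packets
open Crest.Agent.R014.Nd_837 Crest.Agent.R014.Ne1_567 Crest.Agent.R014.NScB_395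
open Crest.Agent.R014.Ne3_567 (pv measurable_pv pv_nonneg sum_pv pv_le_one pv_eq)
open scoped ENNReal

noncomputable section

namespace Crest.Agent.R014.NScC_395

/-! ### posterior as a probability vector everywhere -/

section Post
variable {ι Y : Type*} [Fintype ι] [MeasurableSpace Y]

variable (ρ : ι → Measure Y) [∀ c, IsFiniteMeasure (ρ c)]

theorem pv_ae : ∀ᵐ y ∂(tot ρ), ∀ c, pv ρ c y = pr ρ c y := pv_eq ρ

theorem setIntegral_pv (c : ι) (A : Set Y) (hA : MeasurableSet A) :
    ∫ y in A, pv ρ c y ∂(tot ρ) = (ρ c).real A := by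
  have h1 : ∫ y in A, pv ρ c y ∂(tot ρ) = ∫ y, pr ρ c y * A.indicator 1 y ∂(tot ρ) := by
    rw [← integral_indicator hA]
    refine integral_congr_ae ?_
    filter_upwards [pv_ae ρ] with y hy
    by_cases h : y ∈ A
    · simp [h, hy c]
    · simp [h]
  rw [h1, integral_pr_mul, integral_indicator_one hA]

theorem setIntegral_pr (c : ι) (A : Set Y) (hA : MeasurableSet A) :
    ∫ y in A, pr ρ c y ∂(tot ρ) = (ρ c).real A := by
  have h1 : ∫ y in A, pr ρ c y ∂(tot ρ) = ∫ y, pr ρ c y * A.indicator 1 y ∂(tot ρ) := by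
    rw [← integral_indicator hA]
    refine integral_congr_ae (Filter.Eventually.of_forall fun y => ?_)
    by_cases h : y ∈ A
    · simp [h]
    · simp [h]
  rw [h1, integral_pr_mul, integral_indicator_one hA]

theorem integrable_pr (c : ι) : Integrable (pr ρ c) (tot ρ) := by
  refine Integrable.of_bound (measurable_pr ρ c).aestronglyMeasurable 1 ?_
  filter_upwards [pr_le_one ρ c] with y hy
  rw [Real.norm_eq_abs, abs_of_nonneg (pr_nonneg ρ c y)]
  exact hy

/-- comparison of posteriors of two joint laws that are close in total variation -/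
theorem post_compare [Nonempty ι] (ρ' : ι → Measure Y) [∀ c, IsFiniteMeasure (ρ' c)] {e : ℝ}
    (h : ∀ c, TVle (ρ c) (ρ' c) e) :
    ∫ y, ∑ c, |pr ρ' c y - pv ρ c y| ∂(tot ρ') ≤
      2 * Fintype.card ι * (1 + Fintype.card ι) * e := by
  have htot : TVle (tot ρ) (tot ρ') (Fintype.card ι * e) := by
    intro A hA
    have h1 : ∀ σ : ι → Measure Y, (∀ c, IsFiniteMeasure (σ c)) →
        (tot σ).real A = ∑ c, (σ c).real A := by
      intro σ hσ
      rw [measureReal_def, tot_apply, ENNReal.toReal_sum (fun c _ => measure_ne_top _ _)]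
      rfl
    rw [h1 ρ inferInstance, h1 ρ' inferInstance, ← sum_sub_distrib]
    refine (abs_sum_le_sum_abs _ _).trans ?_
    refine (sum_le_sum fun c _ => h c A hA).trans ?_
    rw [sum_const, card_univ, nsmul_eq_mul]
  have hI : ∀ c, Integrable (fun y => |pr ρ' c y - pv ρ c y|) (tot ρ') := by
    intro c
    refine (Integrable.sub (integrable_pr ρ' c) ?_).abs
    exact Integrable.of_bound (measurable_pv ρ c).aestronglyMeasurable 1
      (Filter.Eventually.of_forall fun y => by
        rw [Real.norm_eq_abs, abs_of_nonneg (pv_nonneg ρ c y)]; exact pv_le_one ρ c y)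
  rw [integral_finsetSum _ fun c _ => hI c]
  have hc : ∀ c ∈ (univ : Finset ι), ∫ y, |pr ρ' c y - pv ρ c y| ∂(tot ρ') ≤
      2 * (e + Fintype.card ι * e) := fun c _ =>
    density_compare (h c) htot (measurable_pv ρ c) (measurable_pr ρ' c) (pv_nonneg ρ c)
      (pv_le_one ρ c) (integrable_pr ρ' c) (setIntegral_pv ρ c) (setIntegral_pr ρ' c)
  refine (sum_le_sum hc).trans ?_
  rw [sum_const, card_univ, nsmul_eq_mul]
  exact le_of_eq (by ring)

end Post

/-! ### the spread -/

section Spread
variable {ι : Type*} [Fintype ι]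

/-- mean distance of two independent samples of the law `p` on the points `x c` -/
def spr (x : ι → ℝ) (p : ι → ℝ) : ℝ := ∑ c, ∑ c', p c * p c' * |x c - x c'|

theorem spr_nonneg {x p : ι → ℝ} (h0 : ∀ c, 0 ≤ p c) : 0 ≤ spr x p :=
  sum_nonneg fun c _ => sum_nonneg fun c' _ =>
    mul_nonneg (mul_nonneg (h0 c) (h0 c')) (abs_nonneg _)

theorem spr_le {x p : ι → ℝ} {D : ℝ} (hx : ∀ c c', |x c - x c'| ≤ D) (h0 : ∀ c, 0 ≤ p c)
    (h1 : ∑ c, p c = 1) : spr x p ≤ D := by
  have : spr x p ≤ ∑ c, ∑ c', p c * p c' * D :=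
    sum_le_sum fun c _ => sum_le_sum fun c' _ =>
      mul_le_mul_of_nonneg_left (hx c c') (mul_nonneg (h0 c) (h0 c'))
  refine this.trans (le_of_eq ?_)
  simp_rw [← sum_mul, ← mul_sum, h1]
  simp [h1]

theorem spr_lip {x p q : ι → ℝ} {D : ℝ} (hx : ∀ c c', |x c - x c'| ≤ D) (hp0 : ∀ c, 0 ≤ p c)
    (hp1 : ∑ c, p c = 1) (hq0 : ∀ c, 0 ≤ q c) (hq1 : ∑ c, q c = 1) :
    |spr x p - spr x q| ≤ 2 * D * ∑ c, |p c - q c| := by
  unfold spr
  simp_rw [← sum_sub_distrib]
  have key : ∀ c c', abs (p c * p c' * abs (x c - x c') - q c * q c' * abs (x c - x c')) ≤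
      D * (abs (p c - q c) * p c' + q c * abs (p c' - q c')) := by
    intro c c'
    have h1 : p c * p c' * |x c - x c'| - q c * q c' * |x c - x c'| =
        ((p c - q c) * p c' + q c * (p c' - q c')) * |x c - x c'| := by ring
    rw [h1, abs_mul, abs_abs]
    have h2 : |(p c - q c) * p c' + q c * (p c' - q c')| ≤
        |p c - q c| * p c' + q c * |p c' - q c'| := by
      refine (abs_add_le _ _).trans ?_
      rw [abs_mul, abs_mul, abs_of_nonneg (hp0 c'), abs_of_nonneg (hq0 c)]
    have h3 : 0 ≤ |p c - q c| * p c' + q c * |p c' - q c'| :=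
      add_nonneg (mul_nonneg (abs_nonneg _) (hp0 c')) (mul_nonneg (hq0 c) (abs_nonneg _))
    calc _ ≤ (|p c - q c| * p c' + q c * |p c' - q c'|) * D :=
          mul_le_mul h2 (hx c c') (abs_nonneg _) h3
      _ = _ := by ring
  refine (abs_sum_le_sum_abs _ _).trans ?_
  refine (sum_le_sum fun c _ => (abs_sum_le_sum_abs _ _).trans
    (sum_le_sum fun c' _ => key c c')).trans (le_of_eq ?_)
  simp_rw [← mul_sum, sum_add_distrib, ← mul_sum, ← sum_mul, hp1, hq1]
  ring

end Spread

end Crest.Agent.R014.NScC_395
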