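import Crest.Agent.R014.DEnd3_935
import Crest.Agent.R014.NScC_395
import Crest.Agent.R014.Sw1_640

/-!
# Row 14, block D, END: the swap data from entropies (helper935)

`ind`: small entropy gap ⇒ near independence in test function form.
`M1`, `M2`: laws of `(z, r')` and `(z, r'')` for the Heisenberg observation
`z = x ζ u_kl(t) u_jk(s) u_jl(r') = x ζ u_jk(s) u_kl(t) u_jl(r'')`.
-/

set_option autoImplicit false

open MeasureTheory Crest.NumberTheoryR.Packets
open Crest.Agent.R014.Nd_837 Crest.Agent.R014.Ne1_567 Crest.Agent.R014.NScB_395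
open Crest.Agent.R014.NScC_395 Crest.Agent.R014.Sw1_640 Crest.Agent.R014.DEnd2_935
open Crest.Agent.R014.DEnd3_935 Crest.Agent.R014.Ms_667
open Crest.Agent.R014.Ne3_567 (pv measurable_pv pv_nonneg sum_pv pv_le_one pv_eq)
open scoped ENNReal BigOperators

namespace Crest.Agent.R014.DEnd4_935

section Ind

variable {ι κ Y W Z : Type*} [Fintype ι] [Fintype κ] [Nonempty κ] [MeasurableSpace Y]
  [MeasurableSpace W] [MeasurableSpace Z]

omit [Nonempty κ] in
theorem prod_tot (μ : Measure Y) [SFinite μ] (V : ι → Measure W) [∀ i, IsFiniteMeasure (V i)] :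
    μ.prod (tot V) = ∑ i, μ.prod (V i) := by
  classical
  unfold tot
  have : ∀ s : Finset ι, μ.prod (∑ i ∈ s, V i) = ∑ i ∈ s, μ.prod (V i) := by
    intro s
    induction s using Finset.induction_on with
    | empty => simp
    | insert a s ha ih =>
      rw [Finset.sum_insert ha, Finset.sum_insert ha, Measure.prod_add, ih]
  exact this _

theorem sq_int_le {P : Measure Y} [IsProbabilityMeasure P] {g : Y → ℝ} (hg : Measurable g)
    {C : ℝ} (hb : ∀ y, |g y| ≤ C) : (∫ y, g y ∂P) ^ 2 ≤ ∫ y, g y ^ 2 ∂P := by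
  set c := ∫ y, g y ∂P with hc
  have i1 : Integrable g P := Integrable.of_bound hg.aestronglyMeasurable C
    (Filter.Eventually.of_forall fun y => by rw [Real.norm_eq_abs]; exact hb y)
  have i2 : Integrable (fun y => g y ^ 2) P := by
    refine Integrable.of_bound (hg.pow_const 2).aestronglyMeasurable (C ^ 2)
      (Filter.Eventually.of_forall fun y => ?_)
    rw [Real.norm_eq_abs, abs_pow]
    exact pow_le_pow_left₀ (abs_nonneg _) (hb y) 2
  have h0 : 0 ≤ ∫ y, (g y - c) ^ 2 ∂P := integral_nonneg fun y => sq_nonneg _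
  have h1 : ∫ y, (g y - c) ^ 2 ∂P = (∫ y, g y ^ 2 ∂P) - c ^ 2 := by
    have e1 : ∀ y, (g y - c) ^ 2 = (g y ^ 2 - 2 * c * g y) + c ^ 2 := fun y => by ring
    have i3 : Integrable (fun y => 2 * c * g y) P := i1.const_mul _
    have i4 : Integrable (fun y => g y ^ 2 - 2 * c * g y) P := i2.sub i3
    simp only [e1]
    rw [integral_add i4 (integrable_const _), integral_sub i2 i3, integral_const_mul,
      integral_const, ← hc]
    simp
    ring
  linarith

variable (ρ : κ → Measure Y) [∀ c, IsFiniteMeasure (ρ c)]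

omit [Nonempty κ] in
theorem int_pv (k : κ) (ν : Measure W) [IsFiniteMeasure ν] {Φ : Y × W → ℝ} (hΦ : Measurable Φ)
    (hb : ∀ x, |Φ x| ≤ 1) :
    ∫ x, Φ x ∂((ρ k).prod ν) = ∫ x, pv ρ k x.1 * Φ x ∂((tot ρ).prod ν) := by
  classical
  rcases isEmpty_or_nonempty κ with h | hne
  · exact (h.false k).elim
  have i1 : Integrable Φ ((ρ k).prod ν) := intg hΦ hb
  have i2 : Integrable (fun x : Y × W => pv ρ k x.1 * Φ x) ((tot ρ).prod ν) := by
    refine intg (((measurable_pv ρ k).comp measurable_fst).mul hΦ) fun x => ?_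
    rw [abs_mul, abs_of_nonneg (pv_nonneg ρ k _)]
    exact mul_le_one₀ (pv_le_one ρ k _) (abs_nonneg _) (hb x)
  rw [integral_prod_symm _ i1, integral_prod_symm _ i2]
  refine integral_congr_ae (Filter.Eventually.of_forall fun w => ?_)
  dsimp only
  rw [← integral_pr_mul ρ k]
  refine integral_congr_ae ?_
  filter_upwards [pv_ae ρ] with y hy
  rw [hy k]

/-- **Near independence from a small entropy gap**, test function form. -/
theorem ind (V : ι → Measure W) [∀ i, IsFiniteMeasure (V i)] [IsProbabilityMeasure (tot V)]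
    [IsProbabilityMeasure (tot ρ)] {K : Y × W → Z} (hK : Measurable K) {η : ℝ}
    (hη : Hc (nz ρ (tot V) K) - Hc ρ ≤ η) (Φ : ι → κ → Y × W → ℝ) (hΦ : ∀ i k, Measurable (Φ i k))
    (hb : ∀ i k x, |Φ i k x| ≤ 1) :
    |∑ i, ∑ k, ((∫ x, Φ i k x ∂((ρ k).prod (V i)))
      - ∫ x, pv (nz ρ (tot V) K) k (K x) * Φ i k x ∂((tot ρ).prod (V i)))| ≤ √(4 * η) := by
  set g : κ → Y × W → ℝ := fun k x => |pv ρ k x.1 - pv (nz ρ (tot V) K) k (K x)| with hg
  have hgm : ∀ k, Measurable (g k) := fun k =>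
    (((measurable_pv ρ k).comp measurable_fst).sub ((measurable_pv _ k).comp hK)).abs
  have hg0 : ∀ k x, 0 ≤ g k x := fun k x => abs_nonneg _
  have hg1 : ∀ k x, g k x ≤ 1 := fun k x => by
    rw [hg]; dsimp only
    rw [abs_le]
    have h1 := pv_nonneg ρ k x.1
    have h2 := pv_le_one ρ k x.1
    have h3 := pv_nonneg (nz ρ (tot V) K) k (K x)
    have h4 := pv_le_one (nz ρ (tot V) K) k (K x)
    constructor <;> linarith
  have hgi : ∀ k (ν : Measure (Y × W)) [IsFiniteMeasure ν], Integrable (g k) ν := fun k ν _ =>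
    intg (hgm k) fun x => by rw [abs_of_nonneg (hg0 k x)]; exact hg1 k x
  have hterm : ∀ i k, |(∫ x, Φ i k x ∂((ρ k).prod (V i)))
      - ∫ x, pv (nz ρ (tot V) K) k (K x) * Φ i k x ∂((tot ρ).prod (V i))|
      ≤ ∫ x, g k x ∂((tot ρ).prod (V i)) := by
    intro i k
    rw [int_pv ρ k (V i) (hΦ i k) (hb i k)]
    have i1 : Integrable (fun x : Y × W => pv ρ k x.1 * Φ i k x) ((tot ρ).prod (V i)) := by
      refine intg (((measurable_pv ρ k).comp measurable_fst).mul (hΦ i k)) fun x => ?_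
      rw [abs_mul, abs_of_nonneg (pv_nonneg ρ k _)]
      exact mul_le_one₀ (pv_le_one ρ k _) (abs_nonneg _) (hb i k x)
    have i2 : Integrable (fun x : Y × W => pv (nz ρ (tot V) K) k (K x) * Φ i k x)
        ((tot ρ).prod (V i)) := by
      refine intg (((measurable_pv _ k).comp hK).mul (hΦ i k)) fun x => ?_
      rw [abs_mul, abs_of_nonneg (pv_nonneg _ k _)]
      exact mul_le_one₀ (pv_le_one _ k _) (abs_nonneg _) (hb i k x)
    rw [← integral_sub i1 i2]
    refine (abs_integral_le_integral_abs).trans ?_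
    refine integral_mono (i1.sub i2).abs (hgi k _) fun x => ?_
    dsimp only
    rw [← sub_mul, abs_mul]
    calc |pv ρ k x.1 - pv (nz ρ (tot V) K) k (K x)| * |Φ i k x|
        ≤ |pv ρ k x.1 - pv (nz ρ (tot V) K) k (K x)| * 1 :=
          mul_le_mul_of_nonneg_left (hb i k x) (abs_nonneg _)
      _ = _ := mul_one _
  refine (Finset.abs_sum_le_sum_abs _ _).trans ((Finset.sum_le_sum fun i _ =>
    (Finset.abs_sum_le_sum_abs _ _).trans (Finset.sum_le_sum fun k _ => hterm i k)).trans ?_)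
  have hsum : ∑ i, ∑ k, ∫ x, g k x ∂((tot ρ).prod (V i))
      = ∫ x, ∑ k, g k x ∂((tot ρ).prod (tot V)) := by
    rw [prod_tot, integral_finsetSum_measure fun i _ => integrable_finsetSum _ fun k _ => hgi k _]
    refine Finset.sum_congr rfl fun i _ => ?_
    rw [integral_finsetSum _ fun k _ => hgi k _]
  rw [hsum]
  apply Real.le_sqrt_of_sq_le
  have hcard : ∀ x, |∑ k, g k x| ≤ Fintype.card κ := fun x => by
    rw [abs_of_nonneg (Finset.sum_nonneg fun k _ => hg0 k x)]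
    calc ∑ k, g k x ≤ ∑ _k : κ, (1:ℝ) := Finset.sum_le_sum fun k _ => hg1 k x
      _ = Fintype.card κ := by simp
  refine (sq_int_le (Finset.measurable_sum _ fun k _ => hgm k) hcard).trans ?_
  have hp := pinsker_nz ρ (tot V) hK
  refine le_trans (le_of_eq ?_) (hp.trans (mul_le_mul_of_nonneg_left hη (by norm_num)))
  refine integral_congr_ae ?_
  have ha1 : ∀ᵐ x ∂((tot ρ).prod (tot V)), ∀ k, pv ρ k x.1 = pr ρ k x.1 :=
    Measure.quasiMeasurePreserving_fst.ae (pv_ae ρ)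
  have ha2 : ∀ᵐ x ∂((tot ρ).prod (tot V)), ∀ k, pv (nz ρ (tot V) K) k (K x)
      = pr (nz ρ (tot V) K) k (K x) := by
    have h := ae_comp (pd ρ (tot V)) hK (P := fun z => ∀ k, pv (nz ρ (tot V) K) k z
      = pr (nz ρ (tot V) K) k z) (pv_ae (nz ρ (tot V) K))
    rwa [tot_pd] at h
  filter_upwards [ha1, ha2] with x h1 h2
  rw [hg]
  dsimp only
  congr 1
  exact Finset.sum_congr rfl fun k _ => by rw [h1 k, h2 k]

end Ind

section Heis

variable {n : ℕ} {j k l p' q' : Fin n}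

/-- the displacement of the digit cell `i` at depth `a` -/
noncomputable def sv (a : ℝ) (b : ℕ) (i : Fin b) (θ : ℝ) : ℝ := (2 : ℝ) ^ (-a) * (cen b i + θ / b)

theorem measurable_sv (a : ℝ) (b : ℕ) (i : Fin b) : Measurable (sv a b i) := by
  unfold sv; fun_prop

theorem measurable_us (hjk : j ≠ k) (a : ℝ) (b : ℕ) (i : Fin b) :
    Measurable fun θ : ℝ => (uu hjk (sv a b i θ) : SLR n) :=
  (measurable_uu hjk).comp (measurable_sv a b i)

theorem dlaw_eq (hjk : j ≠ k) (a : ℝ) (b : ℕ) (i : Fin b) :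
    dlaw hjk a b i = uni.map fun θ => (uu hjk (sv a b i θ) : SLR n) := rfl

/-- the law of `(u_jk(s) u_jl(r), r)`, `s` in the cell `i`, weighted -/
noncomputable def VV (hjk : j ≠ k) (hjl : p' ≠ q') (a c : ℝ) (b : ℕ) (i : Fin b) :
    Measure (SLR n × ℝ) :=
  (b : ℝ≥0∞)⁻¹ • (uni.prod uni).map fun p : ℝ × ℝ =>
    ((uu hjk (sv a b i p.1) * uu hjl ((2 : ℝ) ^ (-c) * p.2) : SLR n), (2 : ℝ) ^ (-c) * p.2)

theorem measurable_VV (hjk : j ≠ k) (hjl : p' ≠ q') (a c : ℝ) (b : ℕ) (i : Fin b) :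
    Measurable fun p : ℝ × ℝ =>
    ((uu hjk (sv a b i p.1) * uu hjl ((2 : ℝ) ^ (-c) * p.2) : SLR n), (2 : ℝ) ^ (-c) * p.2) := by
  have h1 : Measurable fun p : ℝ × ℝ => (uu hjk (sv a b i p.1) : SLR n) :=
    (measurable_uu hjk).comp ((measurable_sv a b i).comp measurable_fst)
  have h2 : Measurable fun p : ℝ × ℝ => (uu hjl ((2 : ℝ) ^ (-c) * p.2) : SLR n) :=
    (measurable_uu hjl).comp (measurable_const.mul measurable_snd)
  exact (h1.mul h2).prodMk (measurable_const.mul measurable_snd)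

instance (hjk : j ≠ k) (hjl : p' ≠ q') (a c : ℝ) (b : ℕ) (i : Fin b) :
    IsFiniteMeasure (VV hjk hjl a c b i) := by
  unfold VV
  have hb : (b : ℝ≥0∞)⁻¹ ≠ ∞ := by
    have : 0 < b := i.pos
    simp [this.ne']
  exact Measure.smul_finite _ hb

theorem VV_univ (hjk : j ≠ k) (hjl : p' ≠ q') (a c : ℝ) (b : ℕ) (i : Fin b) :
    VV hjk hjl a c b i Set.univ = (b : ℝ≥0∞)⁻¹ := by
  unfold VV
  rw [Measure.smul_apply, Measure.map_apply (measurable_VV hjk hjl a c b i) MeasurableSet.univ]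
  simp

theorem prob_VV (hjk : j ≠ k) (hjl : p' ≠ q') (a c : ℝ) {b : ℕ} (hb : 0 < b) :
    IsProbabilityMeasure (tot (VV hjk hjl a c b)) := by
  refine ⟨?_⟩
  rw [tot_apply]
  simp only [VV_univ, Finset.sum_const, Finset.card_univ, Fintype.card_fin, nsmul_eq_mul]
  exact ENNReal.mul_inv_cancel (by exact_mod_cast hb.ne') (ENNReal.natCast_ne_top b)

theorem prob_lab (μ : Measure (ModSpace n)) (κ0 : Measure (SLR n)) [IsProbabilityMeasure μ]
    [IsProbabilityMeasure κ0] (hjk : j ≠ k) (a : ℝ) {b : ℕ} (hb : 0 < b) :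
    IsProbabilityMeasure (tot (lab μ κ0 hjk a b)) := ⟨tot_lab μ κ0 hjk a hb⟩

/-- right multiplication of the point -/
def KK (x : ModSpace n × (SLR n × ℝ)) : ModSpace n := act x.1 x.2.1

theorem measurable_KK : Measurable (KK : ModSpace n × (SLR n × ℝ) → ModSpace n) :=
  measurable_act₂.comp (measurable_fst.prodMk (measurable_fst.comp measurable_snd))

/-- the pair (point, coordinate) -/
def KP (x : ModSpace n × (SLR n × ℝ)) : ModSpace n × ℝ := (act x.1 x.2.1, x.2.2)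

theorem measurable_KP : Measurable (KP : ModSpace n × (SLR n × ℝ) → ModSpace n × ℝ) :=
  measurable_KK.prodMk (measurable_snd.comp measurable_snd)

/-- the law of `(z, r)` given the `V`-label -/
noncomputable def MM {ι κ : Type*} [Fintype κ] (ρ : κ → Measure (ModSpace n))
    (V : ι → Measure (SLR n × ℝ)) (i : ι) : Measure (ModSpace n × ℝ) :=
  ((tot ρ).prod (V i)).map KP

instance {ι κ : Type*} [Fintype κ] (ρ : κ → Measure (ModSpace n)) [∀ c, IsFiniteMeasure (ρ c)]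
    (V : ι → Measure (SLR n × ℝ)) [∀ c, IsFiniteMeasure (V c)] (i : ι) :
    IsFiniteMeasure (MM ρ V i) := by unfold MM; infer_instance

/-- the posterior of the label of `ρ` -/
noncomputable def PP {ι κ : Type*} [Fintype κ] [Fintype ι] (ρ : κ → Measure (ModSpace n))
    (V : ι → Measure (SLR n × ℝ)) (k : κ) (z : ModSpace n) : ℝ := pv (nz ρ (tot V) KK) k z

theorem PP_wt {ι κ : Type*} [Fintype κ] [Nonempty κ] [Fintype ι] (ρ : κ → Measure (ModSpace n))
    (V : ι → Measure (SLR n × ℝ)) (k : κ) : Wt (PP ρ V k) :=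
  ⟨measurable_pv _ k, pv_nonneg _ k, pv_le_one _ k⟩

/-- half of the swap -/
theorem half {ι κ : Type*} [Fintype κ] [Nonempty κ] [Fintype ι] (ρ : κ → Measure (ModSpace n))
    [∀ c, IsFiniteMeasure (ρ c)] (V : ι → Measure (SLR n × ℝ)) [∀ i, IsFiniteMeasure (V i)]
    [IsProbabilityMeasure (tot V)] [IsProbabilityMeasure (tot ρ)] {η : ℝ}
    (hη : Hc (nz ρ (tot V) KK) - Hc ρ ≤ η) {k0 ω : ℝ} (Ψ : ι → κ → ModSpace n → ℝ → ℝ)
    (hΨ : ∀ i k, Tm k0 ω (Ψ i k)) :
    |∑ i, ∑ k, ((∫ x, Ψ i k x.1 x.2 ∂(((ρ k).prod (V i)).map KP))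
      - ∫ x, PP ρ V k x.1 * Ψ i k x.1 x.2 ∂(MM ρ V i))| ≤ √(4 * η) := by
  have hm : ∀ i k, Measurable (fun x : ModSpace n × (SLR n × ℝ) =>
      Ψ i k (act x.1 x.2.1) x.2.2) := fun i k => (hΨ i k).meas.comp measurable_KP
  have key := ind ρ V measurable_KK hη
    (fun i k x => Ψ i k (act x.1 x.2.1) x.2.2) hm (fun i k x => (hΨ i k).le _ _)
  refine le_trans (le_of_eq ?_) key
  congr 1
  refine Finset.sum_congr rfl fun i _ => Finset.sum_congr rfl fun k _ => ?_
  congr 1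
  · rw [integral_map measurable_KP.aemeasurable (hΨ i k).meas.aestronglyMeasurable]
    rfl
  · unfold MM
    rw [integral_map measurable_KP.aemeasurable]
    · rfl
    · exact (((PP_wt ρ V k).meas.comp measurable_fst).mul (hΨ i k).meas).aestronglyMeasurable

/-! ### the link between the two orders -/

theorem swap3 : (uni.prod (uni.prod uni)).map (fun p : ℝ × (ℝ × ℝ) => (p.2.1, (p.1, p.2.2)))
    = uni.prod (uni.prod uni) := by
  have h1 : (uni.prod (uni.prod uni)) = ((uni.prod uni).prod uni).map MeasurableEquiv.prodAssoc :=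
    (Measure.prodAssoc_prod).symm
  have h2 : (uni.prod uni).map (Prod.swap : ℝ × ℝ → ℝ × ℝ) = uni.prod uni := Measure.prod_swap
  have h3 : ((uni.prod uni).prod uni).map (Prod.map (Prod.swap : ℝ × ℝ → ℝ × ℝ) (id : ℝ → ℝ))
      = (uni.prod uni).prod uni := by
    rw [← Measure.map_prod_map _ _ measurable_swap measurable_id, h2, Measure.map_id]
  have m0 : Measurable (fun p : ℝ × (ℝ × ℝ) => (p.2.1, (p.1, p.2.2))) := by fun_prop
  calc (uni.prod (uni.prod uni)).map (fun p : ℝ × (ℝ × ℝ) => (p.2.1, (p.1, p.2.2)))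
      = (((uni.prod uni).prod uni).map (Prod.map (Prod.swap : ℝ × ℝ → ℝ × ℝ) (id : ℝ → ℝ))).map
          MeasurableEquiv.prodAssoc := by
        rw [h1, Measure.map_map m0 MeasurableEquiv.prodAssoc.measurable,
          Measure.map_map MeasurableEquiv.prodAssoc.measurable
            (measurable_swap.prodMap measurable_id)]
        rfl
    _ = uni.prod (uni.prod uni) := by rw [h3, ← h1]

/-- the base space of the Heisenberg observation: `(y, (t, (s, r)))` -/
noncomputable def QQ (ν : Measure (ModSpace n)) : Measure (ModSpace n × (ℝ × (ℝ × ℝ))) :=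
  ν.prod (uni.prod (uni.prod uni))

instance (ν : Measure (ModSpace n)) [IsProbabilityMeasure ν] : IsProbabilityMeasure (QQ ν) := by
  unfold QQ; infer_instance

theorem lab_eq_map (μ : Measure (ModSpace n)) (κ0 : Measure (SLR n)) [IsProbabilityMeasure μ]
    [IsProbabilityMeasure κ0] (hkl : k ≠ l) (a : ℝ) (b : ℕ) (i : Fin b) :
    lab μ κ0 hkl a b i = (b : ℝ≥0∞)⁻¹ • ((stp μ κ0).prod uni).map
      fun p : ModSpace n × ℝ => act p.1 (uu hkl (sv a b i p.2)) := by
  have h1 : (stp μ κ0).prod (dlaw hkl a b i)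
      = ((stp μ κ0).prod uni).map (Prod.map id fun θ => (uu hkl (sv a b i θ) : SLR n)) := by
    rw [dlaw_eq]
    conv_lhs => rw [← Measure.map_id (μ := stp μ κ0)]
    exact Measure.map_prod_map _ _ measurable_id (measurable_us hkl a b i)
  have h2 : stp (stp μ κ0) (dlaw hkl a b i) = ((stp μ κ0).prod uni).map
      fun p : ModSpace n × ℝ => act p.1 (uu hkl (sv a b i p.2)) := by
    conv_lhs => unfold stp
    have h3 : ((stp μ κ0).prod (dlaw hkl a b i)).map (fun p : ModSpace n × SLR n => act p.1 p.2)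
        = ((stp μ κ0).prod uni).map fun p : ModSpace n × ℝ => act p.1 (uu hkl (sv a b i p.2)) := by
      rw [h1, Measure.map_map measurable_act₂
        (measurable_id.prodMap (measurable_us hkl a b i))]
      rfl
    exact h3
  unfold lab
  rw [h2]

theorem map_KP (ν : Measure (ModSpace n)) [IsProbabilityMeasure ν] {f : ModSpace n × ℝ → ModSpace n}
    (hf : Measurable f) {g : ℝ × ℝ → SLR n × ℝ} (hg : Measurable g) :
    (((ν.prod uni).map f).prod ((uni.prod uni).map g)).map KP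
      = (QQ ν).map fun x => KP (f (x.1, x.2.1), g x.2.2) := by
  have hF : Measurable fun x : ModSpace n × (ℝ × (ℝ × ℝ)) => KP (f (x.1, x.2.1), g x.2.2) := by
    refine measurable_KP.comp (Measurable.prodMk ?_ ?_)
    · exact hf.comp (measurable_fst.prodMk (measurable_fst.comp measurable_snd))
    · exact hg.comp (measurable_snd.comp measurable_snd)
  rw [Measure.map_prod_map _ _ hf hg, Measure.map_map measurable_KP (hf.prodMap hg)]
  unfold QQ
  have h := Measure.prodAssoc_prod (μ := ν) (ν := uni) (τ := uni.prod uni)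
  rw [← h, Measure.map_map hF MeasurableEquiv.prodAssoc.measurable]
  rfl

/-- the `(t, s)` cell, `kl` first -/
theorem M1_eq (μ : Measure (ModSpace n)) (κ0 : Measure (SLR n)) [IsProbabilityMeasure μ]
    [IsProbabilityMeasure κ0] (hjk : j ≠ k) (hkl : k ≠ l) (hjl : j ≠ l) (a b c : ℝ) {bs bt : ℕ}
    (i : Fin bs) (t : Fin bt) :
    ((lab μ κ0 hkl b bt t).prod (VV hjk hjl a c bs i)).map KP
      = ((bt : ℝ≥0∞)⁻¹ * (bs : ℝ≥0∞)⁻¹) • (QQ (stp μ κ0)).map fun x =>
        (act x.1 (uu hkl (sv b bt t x.2.1) * (uu hjk (sv a bs i x.2.2.1)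
          * uu hjl ((2 : ℝ) ^ (-c) * x.2.2.2))), (2 : ℝ) ^ (-c) * x.2.2.2) := by
  have hf : Measurable fun p : ModSpace n × ℝ => act p.1 (uu hkl (sv b bt t p.2) : SLR n) :=
    measurable_act₂.comp (measurable_fst.prodMk ((measurable_us hkl b bt t).comp measurable_snd))
  rw [lab_eq_map]
  unfold VV
  rw [Measure.prod_smul_left, Measure.prod_smul_right, smul_smul, Measure.map_smul,
    map_KP (stp μ κ0) hf (measurable_VV hjk hjl a c bs i)]
  congr 2
  funext x
  unfold KP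
  simp only
  rw [act_act]

/-- the same cell, `jk` first -/
theorem M2_eq (μ : Measure (ModSpace n)) (κ0 : Measure (SLR n)) [IsProbabilityMeasure μ]
    [IsProbabilityMeasure κ0] (hjk : j ≠ k) (hkl : k ≠ l) (hjl : j ≠ l) (a b c : ℝ) {bs bt : ℕ}
    (i : Fin bs) (t : Fin bt) :
    ((lab μ κ0 hjk a bs i).prod (VV hkl hjl b c bt t)).map KP
      = ((bt : ℝ≥0∞)⁻¹ * (bs : ℝ≥0∞)⁻¹) • (QQ (stp μ κ0)).map fun x =>
        (act x.1 (uu hjk (sv a bs i x.2.2.1) * (uu hkl (sv b bt t x.2.1)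
          * uu hjl ((2 : ℝ) ^ (-c) * x.2.2.2))), (2 : ℝ) ^ (-c) * x.2.2.2) := by
  have hf : Measurable fun p : ModSpace n × ℝ => act p.1 (uu hjk (sv a bs i p.2) : SLR n) :=
    measurable_act₂.comp (measurable_fst.prodMk ((measurable_us hjk a bs i).comp measurable_snd))
  rw [lab_eq_map]
  unfold VV
  have hg : Measurable fun p : ℝ × ℝ => ((uu hkl (sv b bt t p.1) * uu hjl ((2 : ℝ) ^ (-c) * p.2) : SLR n),
      (2 : ℝ) ^ (-c) * p.2) := measurable_VV hkl hjl b c bt t
  rw [Measure.prod_smul_left, Measure.prod_smul_right, smul_smul, Measure.map_smul,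
    map_KP (stp μ κ0) hf hg, mul_comm]
  congr 1
  -- exchange the two unipotent parameters
  have hsw : QQ (stp μ κ0) = (QQ (stp μ κ0)).map (fun x : ModSpace n × (ℝ × (ℝ × ℝ)) =>
      (x.1, (x.2.2.1, (x.2.1, x.2.2.2)))) := by
    unfold QQ
    have m0 : Measurable (fun p : ℝ × (ℝ × ℝ) => (p.2.1, (p.1, p.2.2))) := by fun_prop
    have h1 := Measure.map_prod_map (stp μ κ0) (uni.prod (uni.prod uni)) measurable_id m0
    rw [Measure.map_id, swap3] at h1
    conv_lhs => rw [h1]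
    rfl
  have hF : Measurable fun x : ModSpace n × (ℝ × (ℝ × ℝ)) =>
      KP ((fun p : ModSpace n × ℝ => act p.1 (uu hjk (sv a bs i p.2) : SLR n)) (x.1, x.2.1),
        (fun p : ℝ × ℝ => ((uu hkl (sv b bt t p.1) * uu hjl ((2 : ℝ) ^ (-c) * p.2) : SLR n),
          (2 : ℝ) ^ (-c) * p.2)) x.2.2) := by
    refine measurable_KP.comp (Measurable.prodMk ?_ ?_)
    · exact hf.comp (measurable_fst.prodMk (measurable_fst.comp measurable_snd))
    · exact hg.comp (measurable_snd.comp measurable_snd)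
  have m1 : Measurable (fun x : ModSpace n × (ℝ × (ℝ × ℝ)) =>
      (x.1, (x.2.2.1, (x.2.1, x.2.2.2)))) := by fun_prop
  conv_lhs => rw [hsw]
  rw [Measure.map_map hF m1]
  congr 1
  funext x
  unfold KP
  simp only [Function.comp_apply]
  rw [act_act]

theorem abs_sv_le (a : ℝ) {b : ℕ} (i : Fin b) {θ : ℝ} (hθ : |θ| ≤ 1) :
    |sv a b i θ| ≤ (2 : ℝ) ^ (-a) := by
  have hb : (0 : ℝ) < b := by exact_mod_cast i.pos
  have h2 : (0 : ℝ) < (2 : ℝ) ^ (-a) := Real.rpow_pos_of_pos two_pos _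
  unfold sv
  rw [abs_mul, abs_of_pos h2]
  refine mul_le_of_le_one_right h2.le ?_
  have hi : ((i : ℕ) : ℝ) + 1 ≤ b := by exact_mod_cast i.isLt
  have hi0 : (0 : ℝ) ≤ ((i : ℕ) : ℝ) := Nat.cast_nonneg _
  rw [abs_le] at hθ
  unfold cen
  have e1 : -1 + (2 * ((i : ℕ) : ℝ) + 1) / b + θ / b = -1 + (2 * ((i : ℕ) : ℝ) + 1 + θ) / b := by
    ring
  rw [e1, abs_le]
  constructor
  · have : 0 ≤ (2 * ((i : ℕ) : ℝ) + 1 + θ) / b := div_nonneg (by linarith [hθ.1]) hb.le
    linarith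
  · have : (2 * ((i : ℕ) : ℝ) + 1 + θ) / b ≤ 2 := by
      rw [div_le_iff₀ hb]; linarith [hθ.2]
    linarith

/-- the representative of a digit cell -/
noncomputable def rp (a : ℝ) (b : ℕ) (i : Fin b) : ℝ := (2 : ℝ) ^ (-a) * cen b i

theorem sv_zero (a : ℝ) (b : ℕ) (i : Fin b) : sv a b i 0 = rp a b i := by
  unfold sv rp; simp

theorem abs_rp_le (a : ℝ) {b : ℕ} (i : Fin b) : |rp a b i| ≤ (2 : ℝ) ^ (-a) := by
  rw [← sv_zero]; exact abs_sv_le a i (by simp)

theorem abs_sv_sub_le (a : ℝ) {b : ℕ} (i : Fin b) {θ : ℝ} (hθ : |θ| ≤ 1) :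
    |sv a b i θ - rp a b i| ≤ (2 : ℝ) ^ (-a) / b := by
  have hb : (0 : ℝ) < b := by exact_mod_cast i.pos
  have h2 : (0 : ℝ) < (2 : ℝ) ^ (-a) := Real.rpow_pos_of_pos two_pos _
  have e : sv a b i θ - rp a b i = (2 : ℝ) ^ (-a) * θ / b := by unfold sv rp; ring
  rw [e, abs_div, abs_mul, abs_of_pos h2, abs_of_pos hb]
  exact div_le_div_of_nonneg_right (mul_le_of_le_one_right h2.le hθ) hb.le

theorem abs_mul_sub_le {s t S T A B x y : ℝ} (hs : |s| ≤ A) (hT : |T| ≤ B) (h1 : |s - S| ≤ x)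
    (h2 : |t - T| ≤ y) : |s * t - S * T| ≤ A * y + B * x := by
  have e : s * t - S * T = s * (t - T) + T * (s - S) := by ring
  rw [e]
  refine (abs_add_le _ _).trans ?_
  rw [abs_mul, abs_mul]
  exact add_le_add (mul_le_mul hs h2 (abs_nonneg _) ((abs_nonneg _).trans hs))
    (mul_le_mul hT h1 (abs_nonneg _) ((abs_nonneg _).trans hT))

/-- `kl` first -/
noncomputable def F1 (hjk : j ≠ k) (hkl : k ≠ l) (hjl : j ≠ l) (a b c : ℝ) {bs bt : ℕ}
    (i : Fin bs) (t : Fin bt) (x : ModSpace n × (ℝ × (ℝ × ℝ))) : ModSpace n × ℝ :=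
  (act x.1 (uu hkl (sv b bt t x.2.1) * (uu hjk (sv a bs i x.2.2.1)
          * uu hjl ((2 : ℝ) ^ (-c) * x.2.2.2))), (2 : ℝ) ^ (-c) * x.2.2.2)

/-- `jk` first -/
noncomputable def F2 (hjk : j ≠ k) (hkl : k ≠ l) (hjl : j ≠ l) (a b c : ℝ) {bs bt : ℕ}
    (i : Fin bs) (t : Fin bt) (x : ModSpace n × (ℝ × (ℝ × ℝ))) : ModSpace n × ℝ :=
  (act x.1 (uu hjk (sv a bs i x.2.2.1) * (uu hkl (sv b bt t x.2.1)
          * uu hjl ((2 : ℝ) ^ (-c) * x.2.2.2))), (2 : ℝ) ^ (-c) * x.2.2.2)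

/-- `jk` first, coordinate corrected -/
noncomputable def F3 (hjk : j ≠ k) (hkl : k ≠ l) (hjl : j ≠ l) (a b c : ℝ) {bs bt : ℕ}
    (i : Fin bs) (t : Fin bt) (x : ModSpace n × (ℝ × (ℝ × ℝ))) : ModSpace n × ℝ :=
  (act x.1 (uu hjk (sv a bs i x.2.2.1) * (uu hkl (sv b bt t x.2.1)
          * uu hjl ((2 : ℝ) ^ (-c) * x.2.2.2))),
    (2 : ℝ) ^ (-c) * x.2.2.2 + sv a bs i x.2.2.1 * sv b bt t x.2.1)

section
variable (hjk : j ≠ k) (hkl : k ≠ l) (hjl : j ≠ l) (a b c : ℝ) {bs bt : ℕ} (i : Fin bs) (t : Fin bt)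

theorem meas_t : Measurable fun x : ModSpace n × (ℝ × (ℝ × ℝ)) => (uu hkl (sv b bt t x.2.1) : SLR n) :=
  (measurable_us hkl b bt t).comp (measurable_fst.comp measurable_snd)

theorem meas_s : Measurable fun x : ModSpace n × (ℝ × (ℝ × ℝ)) => (uu hjk (sv a bs i x.2.2.1) : SLR n) :=
  (measurable_us hjk a bs i).comp (measurable_fst.comp (measurable_snd.comp measurable_snd))

theorem meas_r : Measurable fun x : ModSpace n × (ℝ × (ℝ × ℝ)) =>
    (uu hjl ((2 : ℝ) ^ (-c) * x.2.2.2) : SLR n) :=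
  (measurable_uu hjl).comp (measurable_const.mul (measurable_snd.comp (measurable_snd.comp
    measurable_snd)))

theorem meas_r' : Measurable fun x : ModSpace n × (ℝ × (ℝ × ℝ)) => (2 : ℝ) ^ (-c) * x.2.2.2 :=
  measurable_const.mul (measurable_snd.comp (measurable_snd.comp measurable_snd))

theorem measurable_F1 : Measurable (F1 (n := n) hjk hkl hjl a b c i t) :=
  (measurable_act₂.comp (measurable_fst.prodMk ((meas_t hkl b t).mul ((meas_s hjk a i).mul
    (meas_r hjl c))))).prodMk (meas_r' c)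

theorem measurable_F2 : Measurable (F2 (n := n) hjk hkl hjl a b c i t) :=
  (measurable_act₂.comp (measurable_fst.prodMk ((meas_s hjk a i).mul ((meas_t hkl b t).mul
    (meas_r hjl c))))).prodMk (meas_r' c)

theorem measurable_F3 : Measurable (F3 (n := n) hjk hkl hjl a b c i t) := by
  refine (measurable_act₂.comp (measurable_fst.prodMk ((meas_s hjk a i).mul ((meas_t hkl b t).mul
    (meas_r hjl c))))).prodMk ((meas_r' c).add ?_)
  exact ((measurable_sv a bs i).comp (measurable_fst.comp (measurable_snd.comp measurable_snd))).mul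
    ((measurable_sv b bt t).comp (measurable_fst.comp measurable_snd))

theorem TV13 (ν : Measure (ModSpace n)) [IsProbabilityMeasure ν] :
    TVle ((QQ ν).map (F1 hjk hkl hjl a b c i t)) ((QQ ν).map (F3 hjk hkl hjl a b c i t))
      ((2 : ℝ) ^ (c - a - b) / 2) := by
  have h1 := measurable_F1 (n := n) hjk hkl hjl a b c i t
  have h3 := measurable_F3 (n := n) hjk hkl hjl a b c i t
  unfold QQ
  refine TVle.mix (κ := ν) h1 h3 (Filter.Eventually.of_forall fun y => ?_)
  have g1 : Measurable fun w : ℝ × (ℝ × ℝ) => F1 (n := n) hjk hkl hjl a b c i t (y, w) :=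
    h1.comp measurable_prodMk_left
  have g3 : Measurable fun w : ℝ × (ℝ × ℝ) => F3 (n := n) hjk hkl hjl a b c i t (y, w) :=
    h3.comp measurable_prodMk_left
  refine TVle.mix (κ := uni) g1 g3 ?_
  filter_upwards [uni_ae] with θt hθt
  have f1 : Measurable fun w : ℝ × ℝ => F1 (n := n) hjk hkl hjl a b c i t (y, (θt, w)) :=
    g1.comp measurable_prodMk_left
  have f3 : Measurable fun w : ℝ × ℝ => F3 (n := n) hjk hkl hjl a b c i t (y, (θt, w)) :=
    g3.comp measurable_prodMk_left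
  refine TVle.mix (κ := uni) f1 f3 ?_
  filter_upwards [uni_ae] with θs hθs
  -- the last coordinate
  set s : ℝ := sv a bs i θs with hs
  set t' : ℝ := sv b bt t θt with ht
  have hG : Measurable fun r : ℝ => F3 (n := n) hjk hkl hjl a b c i t (y, (θt, (θs, r))) :=
    f3.comp measurable_prodMk_left
  have e1 : (fun r : ℝ => F1 (n := n) hjk hkl hjl a b c i t (y, (θt, (θs, r))))
      = (fun r : ℝ => F3 (n := n) hjk hkl hjl a b c i t (y, (θt, (θs, r))))
        ∘ fun r : ℝ => r + (-((2 : ℝ) ^ c * (s * t'))) := by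
    funext r
    have h2 : (2 : ℝ) ^ (-c) * (2 : ℝ) ^ c = 1 := by
      rw [← Real.rpow_add two_pos]; simp
    have e2 : (2 : ℝ) ^ (-c) * (r + (-((2 : ℝ) ^ c * (s * t')))) = (2 : ℝ) ^ (-c) * r - s * t' := by
      rw [mul_add, mul_neg, ← mul_assoc ((2 : ℝ) ^ (-c)), h2, one_mul]; ring
    simp only [Function.comp_apply, F1, F3]
    rw [← hs, ← ht, e2]
    refine Prod.ext ?_ ?_
    · simp only
      congr 1
      rw [← mul_assoc (uu hjk s), comm_jk_kl hjk hkl hjl, mul_assoc (uu hkl t' * uu hjk s), ← uu_add,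
        mul_assoc]
      congr 3
      ring
    · simp only; ring
  have hsh : Measurable fun r : ℝ => r + (-((2 : ℝ) ^ c * (s * t'))) :=
    measurable_id.add measurable_const
  have e3 : uni.map (fun r : ℝ => F1 (n := n) hjk hkl hjl a b c i t (y, (θt, (θs, r))))
      = (uni.map fun r : ℝ => r + (-((2 : ℝ) ^ c * (s * t')))).map
        (fun r : ℝ => F3 (n := n) hjk hkl hjl a b c i t (y, (θt, (θs, r)))) := by
    rw [Measure.map_map hG hsh, e1]
  show TVle (uni.map fun r : ℝ => F1 (n := n) hjk hkl hjl a b c i t (y, (θt, (θs, r))))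
    (uni.map fun r : ℝ => F3 (n := n) hjk hkl hjl a b c i t (y, (θt, (θs, r)))) _
  rw [e3]
  refine (TVle.map hG (uni_shift _)).mono ?_
  rw [abs_neg, abs_mul, abs_mul, abs_of_pos (Real.rpow_pos_of_pos two_pos _)]
  have h4 : |s| * |t'| ≤ (2 : ℝ) ^ (-a) * (2 : ℝ) ^ (-b) :=
    mul_le_mul (abs_sv_le a i hθs) (abs_sv_le b t hθt) (abs_nonneg _)
      (Real.rpow_pos_of_pos two_pos _).le
  have h5 : (2 : ℝ) ^ c * ((2 : ℝ) ^ (-a) * (2 : ℝ) ^ (-b)) = (2 : ℝ) ^ (c - a - b) := by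
    rw [← Real.rpow_add two_pos, ← Real.rpow_add two_pos]
    congr 1
    ring
  have h6 := mul_le_mul_of_nonneg_left h4 (Real.rpow_pos_of_pos two_pos c).le
  rw [h5] at h6
  linarith

/-- **the link** for one pair of labels -/
theorem link (ν : Measure (ModSpace n)) [IsProbabilityMeasure ν] {k0 ω : ℝ}
    (hk0 : (2 : ℝ) ^ (-a) * ((2 : ℝ) ^ (-b) / bt) + (2 : ℝ) ^ (-b) * ((2 : ℝ) ^ (-a) / bs) ≤ k0)
    {Ψ : ModSpace n → ℝ → ℝ} (hΨ : Tm k0 ω Ψ) :
    |(∫ x, Ψ x.1 x.2 ∂((QQ ν).map (F1 hjk hkl hjl a b c i t)))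
      - ∫ x, Ψ x.1 (x.2 + rp a bs i * rp b bt t) ∂((QQ ν).map (F2 hjk hkl hjl a b c i t))|
      ≤ (2 : ℝ) ^ (c - a - b) + ω := by
  have m1 := measurable_F1 (n := n) hjk hkl hjl a b c i t
  have m2 := measurable_F2 (n := n) hjk hkl hjl a b c i t
  have m3 := measurable_F3 (n := n) hjk hkl hjl a b c i t
  have p1 : IsProbabilityMeasure ((QQ ν).map (F1 hjk hkl hjl a b c i t)) :=
    Measure.isProbabilityMeasure_map m1.aemeasurable
  have p3 : IsProbabilityMeasure ((QQ ν).map (F3 hjk hkl hjl a b c i t)) :=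
    Measure.isProbabilityMeasure_map m3.aemeasurable
  have h1 := NScB_395.integral_le (TV13 hjk hkl hjl a b c i t ν) hΨ.meas (M := 1)
    (fun x => hΨ.le _ _)
  have hs := hΨ.shift (rp a bs i * rp b bt t)
  have e2 : ∫ x, Ψ x.1 (x.2 + rp a bs i * rp b bt t) ∂((QQ ν).map (F2 hjk hkl hjl a b c i t))
      = ∫ x, Ψ (F2 hjk hkl hjl a b c i t x).1
        ((F2 hjk hkl hjl a b c i t x).2 + rp a bs i * rp b bt t) ∂(QQ ν) :=
    integral_map m2.aemeasurable hs.meas.aestronglyMeasurable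
  have e3 : ∫ x, Ψ x.1 x.2 ∂((QQ ν).map (F3 hjk hkl hjl a b c i t))
      = ∫ x, Ψ (F3 hjk hkl hjl a b c i t x).1 (F3 hjk hkl hjl a b c i t x).2 ∂(QQ ν) :=
    integral_map m3.aemeasurable hΨ.meas.aestronglyMeasurable
  have i2 : Integrable (fun x => Ψ (F2 hjk hkl hjl a b c i t x).1
      ((F2 hjk hkl hjl a b c i t x).2 + rp a bs i * rp b bt t)) (QQ ν) :=
    intg (hs.meas.comp m2) fun x => hs.le _ _
  have i3 : Integrable (fun x => Ψ (F3 hjk hkl hjl a b c i t x).1
      (F3 hjk hkl hjl a b c i t x).2) (QQ ν) := intg (hΨ.meas.comp m3) fun x => hΨ.le _ _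
  have h2 : |(∫ x, Ψ x.1 x.2 ∂((QQ ν).map (F3 hjk hkl hjl a b c i t)))
      - ∫ x, Ψ x.1 (x.2 + rp a bs i * rp b bt t) ∂((QQ ν).map (F2 hjk hkl hjl a b c i t))| ≤ ω := by
    rw [e2, e3, ← integral_sub i3 i2]
    have hae : ∀ᵐ x ∂(QQ ν), |x.2.1| ≤ 1 ∧ |x.2.2.1| ≤ 1 := by
      unfold QQ
      have q1 : ∀ᵐ x : ModSpace n × (ℝ × (ℝ × ℝ)) ∂(ν.prod (uni.prod (uni.prod uni))), |x.2.1| ≤ 1 :=
        (Measure.quasiMeasurePreserving_fst.comp Measure.quasiMeasurePreserving_snd).ae uni_ae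
      have q2 : ∀ᵐ x : ModSpace n × (ℝ × (ℝ × ℝ)) ∂(ν.prod (uni.prod (uni.prod uni))), |x.2.2.1| ≤ 1 :=
        (Measure.quasiMeasurePreserving_fst.comp (Measure.quasiMeasurePreserving_snd.comp
          Measure.quasiMeasurePreserving_snd)).ae uni_ae
      filter_upwards [q1, q2] with x hx1 hx2
      exact ⟨hx1, hx2⟩
    have hb := norm_integral_le_of_norm_le_const (μ := QQ ν) (C := ω)
      (f := fun x => Ψ (F3 hjk hkl hjl a b c i t x).1 (F3 hjk hkl hjl a b c i t x).2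
        - Ψ (F2 hjk hkl hjl a b c i t x).1
          ((F2 hjk hkl hjl a b c i t x).2 + rp a bs i * rp b bt t)) (by
        filter_upwards [hae] with x hx
        rw [Real.norm_eq_abs]
        refine hΨ.md _ _ _ ?_
        have e4 : (F3 hjk hkl hjl a b c i t x).2 - ((F2 hjk hkl hjl a b c i t x).2
            + rp a bs i * rp b bt t)
            = sv a bs i x.2.2.1 * sv b bt t x.2.1 - rp a bs i * rp b bt t := by
          simp only [F2, F3]; ring
        rw [e4]
        exact (abs_mul_sub_le (abs_sv_le a i hx.2) (abs_rp_le b t) (abs_sv_sub_le a i hx.2)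
          (abs_sv_sub_le b t hx.1)).trans hk0)
    simpa using hb
  have : 2 * 1 * ((2 : ℝ) ^ (c - a - b) / 2) = (2 : ℝ) ^ (c - a - b) := by ring
  rw [this] at h1
  exact (abs_sub_le _ (∫ x, Ψ x.1 x.2 ∂((QQ ν).map (F3 hjk hkl hjl a b c i t))) _).trans
    (add_le_add h1 h2)

end

end Heis

end Crest.Agent.R014.DEnd4_935
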