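import Crest.Agent.R014.Sw5_640
import Crest.Agent.R014.DEnd4_935

set_option autoImplicit false

/-!
Row 14, block D, END: the entropy gaps (H1), (H2) of `DEnd4b_935.sw_of` from near constancy.

* `nz_VV` : the noisy family of `DEnd4_935` as a smeared `lab`;
* `nz_le_kl`, `nz_le_jk` : comparison with `lab μ (κ0 · dl · dl)`;
* `gap_kl`, `gap_jk` : explicit form under `Rg`;
* `gap` : final form.
-/

open MeasureTheory Crest.NumberTheoryR.Packets
open scoped ENNReal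

namespace Crest.Agent.R014.Gap_640

open Ms_667 Ne1_567 Ne3_567 Sw1_640 Sw3_640 Sw4_640 Sw5_640
open Nd_837 hiding uni_ae
open NScA_395 (rho)
open NScD_395 (dl)
open NScG_458 (RN)
open NScH_395 (NC c1N)
open DEnd4_935 (VV KK)

variable {n : ℕ} {j k l : Fin n} {b b' : ℕ}

theorem cv_finset_sum_left {ι : Type*} (s : Finset ι) (κ : Measure (SLR n)) [IsFiniteMeasure κ]
    (κ' : ι → Measure (SLR n)) [∀ c, IsFiniteMeasure (κ' c)] :
    cv (∑ c ∈ s, κ' c) κ = ∑ c ∈ s, cv (κ' c) κ := by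
  classical
  unfold cv
  have h : ∀ s : Finset ι, (∑ c ∈ s, κ' c).prod κ = ∑ c ∈ s, (κ' c).prod κ := by
    intro s
    induction s using Finset.induction_on with
    | empty => simp
    | insert a s ha ih =>
      rw [Finset.sum_insert ha, Finset.sum_insert ha, Measure.add_prod, ih]
  rw [h s, Measure.map_finset_sum measurable_mul₂.aemeasurable]

/-- The group part of the noise of `DEnd4_935`. -/
theorem map_fst_VV {p q p' q' : Fin n} (hpq : p ≠ q) (hpq' : p' ≠ q') (a c : ℝ) (hb : 0 < b) :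
    (tot (VV hpq hpq' a c b)).map Prod.fst = cv (dl hpq a) (dl hpq' c) := by
  have h1 : ∀ i : Fin b, (VV hpq hpq' a c b i).map Prod.fst
      = (b : ℝ≥0∞)⁻¹ • cv (dlaw hpq a b i) (dl hpq' c) := fun i => by
    unfold VV
    rw [Measure.map_smul, Measure.map_map measurable_fst
      (DEnd4_935.measurable_VV hpq hpq' a c b i)]
    congr 1
    unfold cv dl
    rw [DEnd4_935.dlaw_eq, Measure.map_prod_map uni uni (DEnd4_935.measurable_us hpq a b i)
      (NScD_395.measurable_uuw hpq' c), Measure.map_map measurable_mul₂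
      ((DEnd4_935.measurable_us hpq a b i).prodMap (NScD_395.measurable_uuw hpq' c))]
    rfl
  unfold tot
  rw [Measure.map_finset_sum measurable_fst.aemeasurable, Finset.sum_congr rfl fun i _ => h1 i,
    ← Finset.smul_sum, ← cv_finset_sum_left, ← smul_cv, ← NScD_395.dl_eq hpq a hb]

/-- The noisy family as a smeared family. -/
theorem nz_VV (μ : Measure (ModSpace n)) (κ0 : Measure (SLR n)) [IsProbabilityMeasure μ]
    [IsProbabilityMeasure κ0] {p q p' q' i' j' : Fin n} (hij : i' ≠ j') (hpq : p ≠ q)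
    (hpq' : p' ≠ q') (r a c : ℝ) (hb : 0 < b) :
    nz (lab μ κ0 hij r b') (tot (VV hpq hpq' a c b)) KK
      = gl μ fun d => cv (ld κ0 hij r b' d) (cv (dl hpq a) (dl hpq' c)) := by
  have := DEnd4_935.prob_VV hpq hpq' a c hb
  funext d
  rw [← stp_gl, ← lab_eq_gl, ← map_fst_VV hpq hpq' a c hb]
  unfold nz stp
  have h1 : (lab μ κ0 hij r b' d).prod ((tot (VV hpq hpq' a c b)).map Prod.fst)
      = ((lab μ κ0 hij r b' d).prod (tot (VV hpq hpq' a c b))).map (Prod.map id Prod.fst) := by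
    conv_lhs => rw [← Measure.map_id (μ := lab μ κ0 hij r b' d)]
    exact Measure.map_prod_map _ _ measurable_id measurable_fst
  rw [h1, Measure.map_map measurable_act₂ (measurable_id.prodMap measurable_fst)]
  rfl

theorem cv_dirac_one (κ : Measure (SLR n)) [SFinite κ] : cv κ (Measure.dirac 1) = κ := by
  rw [cv_dirac]
  simp

/-- General comparison: the noise after the digit may be moved in front of the digit. -/
theorem nz_le (μ : Measure (ModSpace n)) (κ0 : Measure (SLR n)) [IsProbabilityMeasure μ]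
    [IsProbabilityMeasure κ0] {p q p' q' i' j' : Fin n} (hij : i' ≠ j') (hpq : p ≠ q)
    (hpq' : p' ≠ q') (r a c : ℝ) (hb : 0 < b) (hb' : 0 < b') {e : ℝ}
    (hC : ∀ d, Cm e (dlaw hij r b' d) (cv (dl hpq a) (dl hpq' c))) (he : e ≤ 1) :
    Hc (nz (lab μ κ0 hij r b') (tot (VV hpq hpq' a c b)) KK)
      ≤ Hc (lab μ (cv (cv κ0 (dl hpq a)) (dl hpq' c)) hij r b') + md b' e := by
  have hne : Nonempty (Fin b') := ⟨⟨0, hb'⟩⟩
  rw [nz_VV μ κ0 hij hpq hpq' r a c hb, lab_eq_gl μ (cv (cv κ0 (dl hpq a)) (dl hpq' c))]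
  have h1 : ∀ d, TVle (cv (cv (ld κ0 hij r b' d) (cv (dl hpq a) (dl hpq' c))) (Measure.dirac 1))
      (ld (cv (cv κ0 (dl hpq a)) (dl hpq' c)) hij r b' d) (e / b') := fun d => by
    rw [cv_dirac_one]
    unfold ld
    rw [smul_cv]
    have h2 : TVle (cv (cv κ0 (dlaw hij r b' d)) (cv (dl hpq a) (dl hpq' c)))
        (cv (cv (cv κ0 (dl hpq a)) (dl hpq' c)) (dlaw hij r b' d)) e := by
      rw [cv_assoc, cv_assoc κ0 (dl hpq a), cv_assoc κ0 (cv (dl hpq a) (dl hpq' c))]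
      exact TVle.cv_right (hC d)
    refine (h2.smul _).mono (le_of_eq ?_)
    rw [ENNReal.toReal_inv, ENNReal.toReal_natCast]
    ring
  have h3 : ∑ d, (cv (ld κ0 hij r b' d) (cv (dl hpq a) (dl hpq' c))).real Set.univ ≤ 1 := by
    have h4 : ∀ d, (cv (ld κ0 hij r b' d) (cv (dl hpq a) (dl hpq' c))).real Set.univ
        = 1 / b' := fun d => by
      unfold ld
      rw [smul_cv, measureReal_def, Measure.smul_apply, measure_univ, smul_eq_mul, mul_one,
        ENNReal.toReal_inv, ENNReal.toReal_natCast, one_div]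
    rw [Finset.sum_congr rfl fun d _ => h4 d]
    exact (Sw2_640.sum_div hb' 1).le
  have h5 := Hc_gl_mono μ (Measure.dirac (1 : SLR n))
    (fun d => cv (ld κ0 hij r b' d) (cv (dl hpq a) (dl hpq' c)))
    (ld (cv (cv κ0 (dl hpq a)) (dl hpq' c)) hij r b') (e := fun _ => e / b') h1 h3
    (by rw [Sw2_640.sum_div hb' e]; exact he)
  rwa [Fintype.card_fin, Sw2_640.sum_div hb' e] at h5

theorem nz_le_kl (μ : Measure (ModSpace n)) (κ0 : Measure (SLR n)) [IsProbabilityMeasure μ]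
    [IsProbabilityMeasure κ0] (hjk : j ≠ k) (hkl : k ≠ l) (hjl : j ≠ l) (α β γ : ℝ) (hb : 0 < b)
    (hb' : 0 < b') (he : (2 : ℝ) ^ (γ - α - β) / 2 ≤ 1) :
    Hc (nz (lab μ κ0 hkl β b') (tot (VV hjk hjl α γ b)) KK)
      ≤ Hc (lab μ (cv (cv κ0 (dl hjk α)) (dl hjl γ)) hkl β b')
        + md b' ((2 : ℝ) ^ (γ - α - β) / 2) :=
  nz_le μ κ0 hkl hjk hjl β α γ hb hb' (fun d => dig_kl hjk hkl hjl β α γ d) he

theorem nz_le_jk (μ : Measure (ModSpace n)) (κ0 : Measure (SLR n)) [IsProbabilityMeasure μ]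
    [IsProbabilityMeasure κ0] (hjk : j ≠ k) (hkl : k ≠ l) (hjl : j ≠ l) (α β γ : ℝ) (hb : 0 < b)
    (hb' : 0 < b') (he : (2 : ℝ) ^ (γ - α - β) / 2 ≤ 1) :
    Hc (nz (lab μ κ0 hjk α b') (tot (VV hkl hjl β γ b)) KK)
      ≤ Hc (lab μ (cv (cv κ0 (dl hkl β)) (dl hjl γ)) hjk α b')
        + md b' ((2 : ℝ) ^ (γ - α - β) / 2) :=
  nz_le μ κ0 hjk hkl hjl α β γ hb hb' (fun d => dig_jk hjk hkl hjl α β γ d) he

section Gap

variable {μ : Measure (ModSpace n)} [IsProbabilityMeasure μ] (hμ : AInv μ)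
  {M u1 u2 w W α β γ η : ℝ} {B : Finset ℕ}

include hμ

/-- **(H1)**, explicit. -/
theorem gap_kl (h : Rg n M u1 u2 w W) (hN : NC μ u1 u2 B η) (hbB : b' ∈ B) (hb : 0 < b)
    (hb' : 0 < b') (hη : 0 ≤ η) (hjk : j ≠ k) (hkl : k ≠ l) (hjl : j ≠ l)
    (hα : |α| ≤ W) (hβ : |β| ≤ W) (hγ : |γ| ≤ W) {e : ℝ}
    (hee : 3 * e0 n w + (2 : ℝ) ^ (γ - α - β) / 2 ≤ e) (he : 2 * e ≤ 1) :
    Hc (nz (lab μ (zt (RN j k l M)) hkl β b') (tot (VV hjk hjl α γ b)) KK)
        - Hc (lab μ (zt (RN j k l M)) hkl β b') ≤ 2 * η + 3 * md b' (2 * e) := by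
  have := isProb_zt (h.adm_RN (j := j) (k := k) (l := l))
  have h0 := e0_nonneg n w
  have h1 : (0 : ℝ) < (2 : ℝ) ^ (γ - α - β) := Real.rpow_pos_of_pos two_pos _
  have h2 := nz_le_kl μ (zt (RN j k l M)) hjk hkl hjl α β γ hb hb' (by linarith)
  have h3 := near_T hμ h hN hbB hb' hη hjk hkl hjl hα hβ hγ hee he
  have h4 := near_Z hμ h hN hbB hb' hη hjk hkl hjl (i := k) (i' := l)
    (Or.inr (Or.inl ⟨rfl, rfl⟩)) hkl hβ (by linarith)
  have h5 : md b' ((2 : ℝ) ^ (γ - α - β) / 2) ≤ md b' (2 * e) :=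
    md_mono b' (by positivity) (by linarith) he
  have h6 : md b' (2 * e0 n w) ≤ md b' (2 * e) := md_mono b' (by positivity) (by linarith) he
  have h7 := (abs_le.1 h3).2
  have h8 := (abs_le.1 h4).1
  linarith

/-- **(H2)**, explicit. -/
theorem gap_jk (h : Rg n M u1 u2 w W) (hN : NC μ u1 u2 B η) (hbB : b' ∈ B) (hb : 0 < b)
    (hb' : 0 < b') (hη : 0 ≤ η) (hjk : j ≠ k) (hkl : k ≠ l) (hjl : j ≠ l)
    (hα : |α| ≤ W) (hβ : |β| ≤ W) (hγ : |γ| ≤ W) {e : ℝ}
    (hee : 3 * e0 n w + (2 : ℝ) ^ (γ - α - β) / 2 ≤ e) (he : 2 * e ≤ 1) :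
    Hc (nz (lab μ (zt (RN j k l M)) hjk α b') (tot (VV hkl hjl β γ b)) KK)
        - Hc (lab μ (zt (RN j k l M)) hjk α b') ≤ 2 * η + 3 * md b' (2 * e) := by
  have := isProb_zt (h.adm_RN (j := j) (k := k) (l := l))
  have h0 := e0_nonneg n w
  have h1 : (0 : ℝ) < (2 : ℝ) ^ (γ - α - β) := Real.rpow_pos_of_pos two_pos _
  have h2 := nz_le_jk μ (zt (RN j k l M)) hjk hkl hjl α β γ hb hb' (by linarith)
  have h3 := near_S hμ h hN hbB hb' hη hjk hkl hjl hα hβ hγ hee he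
  have h4 := near_Z hμ h hN hbB hb' hη hjk hkl hjl (i := j) (i' := k)
    (Or.inl ⟨rfl, rfl⟩) hjk hα (by linarith)
  have h5 : md b' ((2 : ℝ) ^ (γ - α - β) / 2) ≤ md b' (2 * e) :=
    md_mono b' (by positivity) (by linarith) he
  have h6 : md b' (2 * e0 n w) ≤ md b' (2 * e) := md_mono b' (by positivity) (by linarith) he
  have h7 := (abs_le.1 h3).2
  have h8 := (abs_le.1 h4).1
  linarith

end Gap

/-- The ranges from the simple conditions. -/
theorem rg_of {M u1 u2 W : ℝ} (hu : 20 * c1N n ≤ u1) (hu0 : 0 ≤ u1) (hW : 0 ≤ W)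
    (hM : 100 * (u1 + W) ≤ M) (hM2 : 2 * M ≤ u2 / 20) : Rg n M u1 u2 (u1 / 20) W where
  hw := by positivity
  hwu := le_rfl
  hW := hW
  hadm := by
    have h1 : c1N n ≤ u1 / 20 := by linarith
    have h2 := Real.rpow_le_rpow_of_exponent_le (x := 2) (by norm_num) h1
    unfold c1N at h2
    rwa [Real.rpow_logb two_pos (by norm_num) (by positivity)] at h2
  hM1 := by linarith
  hM2 := by linarith

/-- `md N` is small at small arguments. -/
theorem exists_md (N : ℕ) {ε : ℝ} (hε : 0 < ε) :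
    ∃ δ : ℝ, 0 < δ ∧ δ ≤ 1 ∧ ∀ x, 0 ≤ x → x ≤ δ → md N x ≤ ε := by
  have h1 : Continuous (md N) := by
    unfold md
    exact (continuous_id.mul continuous_const).add (continuous_id.add Real.continuous_negMulLog)
  have h2 := (Metric.continuous_iff.1 h1) 0 ε hε
  obtain ⟨δ, hδ, h3⟩ := h2
  refine ⟨min (δ / 2) 1, by positivity, min_le_right _ _, fun x hx0 hx => ?_⟩
  have h4 : dist x 0 < δ := by
    rw [Real.dist_eq, sub_zero, abs_of_nonneg hx0]
    linarith [hx.trans (min_le_left _ _)]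
  have h5 := h3 x h4
  rw [md_zero, Real.dist_eq, sub_zero] at h5
  exact ((le_abs_self _).trans h5.le)

/-- `e0 n w` is small for large `w`. -/
theorem exists_e0 (n : ℕ) {ε : ℝ} (hε : 0 < ε) : ∃ U : ℝ, 0 < U ∧ ∀ w, U ≤ w → e0 n w ≤ ε := by
  have h1 := NScG_395.tendsto_pow (Nz_323.CN n)
  have h2 := (h1.eventually (gt_mem_nhds hε)).and (Filter.eventually_ge_atTop (1 : ℝ))
  obtain ⟨U, hU⟩ := Filter.eventually_atTop.1 h2
  refine ⟨max U 1, by positivity, fun w hw => ?_⟩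
  have h3 := (hU w ((le_max_left _ _).trans hw)).1
  have h4 := e0_nonneg n w
  unfold e0 at h4 ⊢
  linarith

/-- `2 ^ (-D)` is small for large `D`. -/
theorem exists_pow {ε : ℝ} (hε : 0 < ε) : ∃ D : ℝ, 0 < D ∧ ∀ m, D ≤ m → (2 : ℝ) ^ (-m) ≤ ε := by
  have h1 := NScG_395.tendsto_pow (1 / 2)
  have h2 := (h1.eventually (gt_mem_nhds hε)).and (Filter.eventually_ge_atTop (1 : ℝ))
  obtain ⟨U, hU⟩ := Filter.eventually_atTop.1 h2
  refine ⟨max U 1, by positivity, fun w hw => ?_⟩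
  have h3 := (hU w ((le_max_left _ _).trans hw)).1
  linarith

/-- **(GAP)**: the two entropy gaps are small, final form. -/
theorem gap {b b' : ℕ} (hb : 0 < b) (hb' : 0 < b') {η' : ℝ} (hη' : 0 < η') :
    ∃ η U D0 : ℝ, 0 < η ∧ 0 < U ∧ 0 < D0 ∧ ∀ μ : Measure (ModSpace n), IsProbabilityMeasure μ →
      AInv μ → ∀ u1 u2 M W : ℝ, U ≤ u1 → 100 * (u1 + W) ≤ M → 2 * M ≤ u2 / 20 →
      NC μ u1 u2 {b, b'} η → ∀ (j k l : Fin n) (hjk : j ≠ k) (hkl : k ≠ l) (hjl : j ≠ l)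
      (α β γ : ℝ), |α| ≤ W → |β| ≤ W → |γ| ≤ W → D0 ≤ α + β - γ →
      Hc (nz (lab μ (zt (RN j k l M)) hkl β b) (tot (VV hjk hjl α γ b')) KK)
          - Hc (lab μ (zt (RN j k l M)) hkl β b) ≤ η' ∧
      Hc (nz (lab μ (zt (RN j k l M)) hjk α b') (tot (VV hkl hjl β γ b)) KK)
          - Hc (lab μ (zt (RN j k l M)) hjk α b') ≤ η' := by
  obtain ⟨δ, hδ, hδ1, hmd⟩ := exists_md b (ε := η' / 9) (by positivity)
  obtain ⟨δ', hδ', hδ1', hmd'⟩ := exists_md b' (ε := η' / 9) (by positivity)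
  set ε : ℝ := min δ δ' / 8 with hε
  have hε0 : 0 < ε := by positivity
  have hεδ : 8 * ε ≤ δ := by rw [hε]; linarith [min_le_left δ δ']
  have hεδ' : 8 * ε ≤ δ' := by rw [hε]; linarith [min_le_right δ δ']
  obtain ⟨U, hU, he0⟩ := exists_e0 n hε0
  obtain ⟨D, hD, hpow⟩ := exists_pow hε0
  refine ⟨η' / 9, max (20 * U) (20 * c1N n), D, by positivity, lt_max_of_lt_left (by positivity),
    hD, ?_⟩
  intro μ hμp hμ u1 u2 M W hu1 hM hM2 hN j k l hjk hkl hjl α β γ hα hβ hγ hgap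
  have hu1' : 20 * U ≤ u1 := (le_max_left _ _).trans hu1
  have hc : 20 * c1N n ≤ u1 := (le_max_right _ _).trans hu1
  have hu0 : 0 ≤ u1 := by linarith
  have hW : 0 ≤ W := (abs_nonneg α).trans hα
  have hR := rg_of hc hu0 hW hM hM2
  have h1 : e0 n (u1 / 20) ≤ ε := he0 _ (by linarith)
  have h2 : (2 : ℝ) ^ (γ - α - β) ≤ ε := by
    have := hpow _ hgap
    rwa [show -(α + β - γ) = γ - α - β by ring] at this
  have h3 : 3 * e0 n (u1 / 20) + (2 : ℝ) ^ (γ - α - β) / 2 ≤ 4 * ε := by linarith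
  have h4 : 2 * (4 * ε) ≤ 1 := by linarith
  have h5 : md b (2 * (4 * ε)) ≤ η' / 9 := hmd _ (by positivity) (by linarith)
  have h6 : md b' (2 * (4 * ε)) ≤ η' / 9 := hmd' _ (by positivity) (by linarith)
  constructor
  · have := gap_kl hμ hR hN (b := b') (b' := b) (by simp) hb' hb (by positivity) hjk hkl hjl hα hβ
      hγ h3 h4
    linarith
  · have := gap_jk hμ hR hN (b := b) (b' := b') (by simp) hb hb' (by positivity) hjk hkl hjl hα hβ
      hγ h3 h4
    linarith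

end Crest.Agent.R014.Gap_640
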