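import Crest.Agent.R014.ClF3_599
import Crest.Agent.R014.Gap_640

set_option autoImplicit false

/-!
Row 14, block D, (R): constants (helper832).  The window of the `jl`-noise is `2 ^ K`, the number of
digits of `s`, `t` is `2 ^ K`, the same `K`; all error terms tend to `0` as `K → ∞`.

* `md_pow_small` : `md (2 ^ (K + a)) (C * 2 ^ (-K)) → 0`;
* `nearK` : near constancy of the `jk`- and `kl`-digits (`α = β = 4`, `γ = -K`, base `2 ^ K`);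
* `gapK` : the two entropy gaps of `Gap_640.gap`;
* `claimFK` : CLAIM F at `α = 4 + K`, `β = 4`, `γ = -K`, base `2 ^ (K + 4) * 2 ^ K3`.
-/

open MeasureTheory Crest.NumberTheoryR.Packets Filter Topology
open scoped ENNReal

namespace Crest.Agent.R014.Cst_832

open Ms_667 Ne1_567 Ne3_567 Sw1_640 Sw3_640 Sw4_640 Sw5_640 ClF2_599 ClF3_599
open Gap_640 hiding rg_of
open Nd_837 hiding uni_ae
open Nz_323 (Adm CN)
open NScA_395 (rho)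
open NScD_395 (dl)
open NScG_458 (RN)
open NScH_395 (NC c1N)
open DEnd4_935 (VV KK)

variable {n : ℕ}

theorem rpow_half (K : ℕ) : (2 : ℝ) ^ (-(K : ℝ)) = (1 / 2 : ℝ) ^ K := by
  rw [Real.rpow_neg two_pos.le, Real.rpow_natCast, one_div, inv_pow]

theorem md_pow_small {C : ℝ} (hC : 0 ≤ C) (a : ℕ) {ε : ℝ} (hε : 0 < ε) :
    ∃ K1 : ℕ, ∀ K : ℕ, K1 ≤ K → C * (2 : ℝ) ^ (-(K : ℝ)) ≤ 1 ∧
      md (2 ^ (K + a)) (C * (2 : ℝ) ^ (-(K : ℝ))) ≤ ε := by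
  have hq0 : (0 : ℝ) ≤ √(1 / 2) := Real.sqrt_nonneg _
  have hq1 : √(1 / 2 : ℝ) < 1 := by
    rw [Real.sqrt_lt' one_pos]
    norm_num
  have t1 : Tendsto (fun K : ℕ => (K : ℝ) * √(1 / 2 : ℝ) ^ K) atTop (𝓝 0) :=
    tendsto_self_mul_const_pow_of_lt_one hq0 hq1
  have t2 : Tendsto (fun K : ℕ => √(1 / 2 : ℝ) ^ K) atTop (𝓝 0) :=
    tendsto_pow_atTop_nhds_zero_of_lt_one hq0 hq1
  have t3 : Tendsto (fun K : ℕ => (1 / 2 : ℝ) ^ K) atTop (𝓝 0) :=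
    tendsto_pow_atTop_nhds_zero_of_lt_one (by norm_num) (by norm_num)
  have t4 : Tendsto (fun K : ℕ => √C * ((K : ℝ) * √(1 / 2 : ℝ) ^ K +
      ((a : ℝ) + 3) * √(1 / 2 : ℝ) ^ K)) atTop (𝓝 0) := by
    have := (t1.add (t2.const_mul ((a : ℝ) + 3))).const_mul (√C)
    simpa using this
  have t5 : Tendsto (fun K : ℕ => C * (1 / 2 : ℝ) ^ K) atTop (𝓝 0) := by
    simpa using t3.const_mul C
  have ev := (t4.eventually (gt_mem_nhds hε)).and (t5.eventually (gt_mem_nhds one_pos))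
  obtain ⟨K1, hK1⟩ := eventually_atTop.1 ev
  refine ⟨K1, fun K hK => ?_⟩
  obtain ⟨h1, h2⟩ := hK1 K hK
  rw [rpow_half]
  refine ⟨h2.le, ?_⟩
  have hx0 : 0 ≤ C * (1 / 2 : ℝ) ^ K := by positivity
  refine (md_le_sqrt _ hx0 h2.le).trans ?_
  have hs : √(C * (1 / 2 : ℝ) ^ K) = √C * √(1 / 2 : ℝ) ^ K := by
    rw [Real.sqrt_mul hC]
    congr 1
    have h3 : (1 / 2 : ℝ) ^ K = (√(1 / 2 : ℝ) ^ K) ^ 2 := by
      rw [← pow_mul, mul_comm, pow_mul, Real.sq_sqrt (by norm_num)]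
    rw [h3, Real.sqrt_sq (by positivity)]
  have hl : Real.log ((2 ^ (K + a) : ℕ) : ℝ) ≤ K + a := by
    push_cast
    rw [Real.log_pow]
    have : Real.log 2 ≤ 1 := by linarith [Real.log_two_lt_d9]
    push_cast
    have h0 : (0 : ℝ) ≤ K + a := by positivity
    nlinarith
  rw [hs]
  have hp : 0 ≤ √C * √(1 / 2 : ℝ) ^ K := by positivity
  calc (Real.log ((2 ^ (K + a) : ℕ) : ℝ) + 3) * (√C * √(1 / 2 : ℝ) ^ K)
      ≤ ((K + a) + 3) * (√C * √(1 / 2 : ℝ) ^ K) := mul_le_mul_of_nonneg_right (by linarith) hp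
    _ = √C * ((K : ℝ) * √(1 / 2 : ℝ) ^ K + ((a : ℝ) + 3) * √(1 / 2 : ℝ) ^ K) := by ring
    _ ≤ ε := h1.le

theorem rpow_m8 : (2 : ℝ) ^ ((-8 : ℤ) : ℝ) = 1 / 256 := by
  rw [Real.rpow_intCast]
  norm_num

/-- `e0 n w` against `δ` for large `w`, both factors used below. -/
theorem exists_e0' (n : ℕ) {δ : ℝ} (hδ : 0 < δ) : ∃ w1 : ℝ, 0 < w1 ∧ ∀ w, w1 ≤ w → e0 n w ≤ δ :=
  exists_e0 n hδ

/-- **near constancy** of the `jk`- and the `kl`-digits (base `2 ^ K`, windows `4`, `4`, `-K`). -/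
theorem nearK {ε : ℝ} (hε : 0 < ε) : ∃ K1 : ℕ, ∀ K : ℕ, K1 ≤ K → ∃ η U : ℝ, 0 < η ∧ 0 < U ∧
    ∀ μ : Measure (ModSpace n), IsProbabilityMeasure μ → AInv μ →
    ∀ (u1 u2 M W : ℝ) (B : Finset ℕ), U ≤ u1 → 100 * (u1 + W) ≤ M → 2 * M ≤ u2 / 20 → 4 ≤ W →
      (K : ℝ) ≤ W → 2 ^ K ∈ B → NC μ u1 u2 B η →
      ∀ (j k l : Fin n) (hjk : j ≠ k) (hkl : k ≠ l) (hjl : j ≠ l),
      |Hc (lab μ (cv (cv (zt (RN j k l M)) (dl hkl 4)) (dl hjl (-(K : ℝ)))) hjk 4 (2 ^ K))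
        - Hc (lab μ (zt (RN j k l M)) hjk 4 (2 ^ K))| ≤ ε ∧
      |Hc (lab μ (cv (cv (zt (RN j k l M)) (dl hjk 4)) (dl hjl (-(K : ℝ)))) hkl 4 (2 ^ K))
        - Hc (lab μ (zt (RN j k l M)) hkl 4 (2 ^ K))| ≤ ε := by
  obtain ⟨K1, hK1⟩ := md_pow_small (C := 1) zero_le_one 0 (ε := ε / 4) (by positivity)
  refine ⟨K1, fun K hK => ?_⟩
  obtain ⟨hC1, hC2⟩ := hK1 K hK
  rw [one_mul] at hC1 hC2
  rw [add_zero] at hC2
  have hx0 : (0 : ℝ) < (2 : ℝ) ^ (-(K : ℝ)) := Real.rpow_pos_of_pos two_pos _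
  obtain ⟨w1, hw1, hw⟩ := exists_e0' n (δ := (2 : ℝ) ^ (-(K : ℝ)) / 100) (by positivity)
  refine ⟨ε / 4, max (20 * w1) (20 * c1N n), by positivity,
    lt_of_lt_of_le (by positivity) (le_max_left _ _), ?_⟩
  intro μ hμp hμ u1 u2 M W B hU hM hu2 hW4 hWK hB hN j k l hjk hkl hjl
  have hUb : 20 * w1 ≤ u1 := (le_max_left _ _).trans hU
  have hUc : 20 * c1N n ≤ u1 := (le_max_right _ _).trans hU
  have hu1 : 0 ≤ u1 := by linarith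
  have hR := rg_of hUc hu1 (by linarith : (0 : ℝ) ≤ W) hM hu2
  have h0 := e0_nonneg n (u1 / 20)
  have he0 : e0 n (u1 / 20) ≤ (2 : ℝ) ^ (-(K : ℝ)) / 100 := hw _ (by linarith)
  have hg : (2 : ℝ) ^ (-(K : ℝ) - 4 - 4) / 2 ≤ (2 : ℝ) ^ (-(K : ℝ)) / 100 := by
    rw [show (-(K : ℝ) - 4 - 4) = -(K : ℝ) + ((-8 : ℤ) : ℝ) by push_cast; ring,
      Real.rpow_add two_pos, rpow_m8]
    linarith
  have hee : 3 * e0 n (u1 / 20) + (2 : ℝ) ^ (-(K : ℝ) - 4 - 4) / 2 ≤ (2 : ℝ) ^ (-(K : ℝ)) / 2 := by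
    linarith
  have he : 2 * ((2 : ℝ) ^ (-(K : ℝ)) / 2) ≤ 1 := by linarith
  have hα : |(4 : ℝ)| ≤ W := by rw [abs_of_pos (by norm_num)]; exact hW4
  have hγ : |(-(K : ℝ))| ≤ W := by rw [abs_neg, Nat.abs_cast]; exact hWK
  have hb0 : 0 < 2 ^ K := by positivity
  have hη : 0 ≤ ε / 4 := by positivity
  have hm : md (2 ^ K) (2 * ((2 : ℝ) ^ (-(K : ℝ)) / 2)) ≤ ε / 4 := by
    rwa [show 2 * ((2 : ℝ) ^ (-(K : ℝ)) / 2) = (2 : ℝ) ^ (-(K : ℝ)) by ring]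
  have hm2 : md (2 ^ K) (2 * e0 n (u1 / 20)) ≤ ε / 4 :=
    (md_mono (2 ^ K) (by positivity) (by linarith) hC1).trans hC2
  have s1 := near_S hμ hR hN hB hb0 hη hjk hkl hjl (α := 4) (β := 4) (γ := -(K : ℝ)) hα hα hγ hee he
  have s2 := near_T hμ hR hN hB hb0 hη hjk hkl hjl (α := 4) (β := 4) (γ := -(K : ℝ)) hα hα hγ hee he
  have z1 := near_Z hμ hR hN hB hb0 hη hjk hkl hjl (i := j) (i' := k)
    (Or.inl ⟨rfl, rfl⟩) hjk hα (by linarith)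
  have z2 := near_Z hμ hR hN hB hb0 hη hjk hkl hjl (i := k) (i' := l)
    (Or.inr (Or.inl ⟨rfl, rfl⟩)) hkl hα (by linarith)
  rw [abs_le] at s1 s2 z1 z2
  constructor <;> rw [abs_le] <;> constructor <;> linarith [s1.1, s1.2, s2.1, s2.2, z1.1, z1.2, z2.1, z2.2]

/-- **(GAP)** with `b = b' = 2 ^ K`, windows `4`, `4`, `-K`. -/
theorem gapK {ε : ℝ} (hε : 0 < ε) : ∃ K1 : ℕ, ∀ K : ℕ, K1 ≤ K → ∃ η U : ℝ, 0 < η ∧ 0 < U ∧
    ∀ μ : Measure (ModSpace n), IsProbabilityMeasure μ → AInv μ →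
    ∀ (u1 u2 M W : ℝ) (B : Finset ℕ), U ≤ u1 → 100 * (u1 + W) ≤ M → 2 * M ≤ u2 / 20 → 4 ≤ W →
      (K : ℝ) ≤ W → 2 ^ K ∈ B → NC μ u1 u2 B η →
      ∀ (j k l : Fin n) (hjk : j ≠ k) (hkl : k ≠ l) (hjl : j ≠ l),
      Hc (nz (lab μ (zt (RN j k l M)) hkl 4 (2 ^ K)) (tot (VV hjk hjl 4 (-(K : ℝ)) (2 ^ K))) KK)
          - Hc (lab μ (zt (RN j k l M)) hkl 4 (2 ^ K)) ≤ ε ∧
      Hc (nz (lab μ (zt (RN j k l M)) hjk 4 (2 ^ K)) (tot (VV hkl hjl 4 (-(K : ℝ)) (2 ^ K))) KK)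
          - Hc (lab μ (zt (RN j k l M)) hjk 4 (2 ^ K)) ≤ ε := by
  obtain ⟨K1, hK1⟩ := nearK (n := n) (ε := ε / 2) (by positivity)
  obtain ⟨K2, hK2⟩ := md_pow_small (C := 1) zero_le_one 0 (ε := ε / 2) (by positivity)
  refine ⟨max K1 K2, fun K hK => ?_⟩
  obtain ⟨η, U, hη, hU, h⟩ := hK1 K ((le_max_left _ _).trans hK)
  obtain ⟨hC1, hC2⟩ := hK2 K ((le_max_right _ _).trans hK)
  rw [one_mul] at hC1 hC2
  rw [add_zero] at hC2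
  have hx0 : (0 : ℝ) < (2 : ℝ) ^ (-(K : ℝ)) := Real.rpow_pos_of_pos two_pos _
  refine ⟨η, max U (20 * c1N n), hη, lt_of_lt_of_le hU (le_max_left _ _), ?_⟩
  intro μ hμp hμ u1 u2 M W B hUu hM hu2 hW4 hWK hB hN j k l hjk hkl hjl
  have hUc : 20 * c1N n ≤ u1 := (le_max_right _ _).trans hUu
  have hUa : U ≤ u1 := (le_max_left _ _).trans hUu
  have hu1 : 0 ≤ u1 := by linarith
  obtain ⟨h1, h2⟩ := h μ hμp hμ u1 u2 M W B hUa hM hu2 hW4 hWK hB hN j k l hjk hkl hjl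
  have hR := rg_of hUc hu1 (by linarith : (0 : ℝ) ≤ W) hM hu2
  have := isProb_zt (hR.adm_RN (j := j) (k := k) (l := l))
  have hg : (2 : ℝ) ^ (-(K : ℝ) - 4 - 4) / 2 ≤ (2 : ℝ) ^ (-(K : ℝ)) := by
    rw [show (-(K : ℝ) - 4 - 4) = -(K : ℝ) + ((-8 : ℤ) : ℝ) by push_cast; ring,
      Real.rpow_add two_pos, rpow_m8]
    linarith
  have hm : md (2 ^ K) ((2 : ℝ) ^ (-(K : ℝ) - 4 - 4) / 2) ≤ ε / 2 :=
    (md_mono (2 ^ K) (by positivity) hg hC1).trans hC2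
  have hb0 : 0 < 2 ^ K := by positivity
  have g1 := nz_le_kl μ (zt (RN j k l M)) hjk hkl hjl 4 4 (-(K : ℝ)) hb0 hb0 (hg.trans hC1)
  have g2 := nz_le_jk μ (zt (RN j k l M)) hjk hkl hjl 4 4 (-(K : ℝ)) hb0 hb0 (hg.trans hC1)
  rw [abs_le] at h1 h2
  constructor <;> linarith [h1.1, h1.2, h2.1, h2.2]

/-- **CLAIM F** at `α = 4 + K`, `β = 4`, `γ = -K`, base `2 ^ (K + 4) * 2 ^ K3`: the digits of `s` have
base `2 ^ K`, the window of `r` is `2 ^ K`, its blocks have `2 ^ K3` digits. -/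
theorem claimFK (K3 : ℕ) {ε : ℝ} (hε : 0 < ε) : ∃ K1 : ℕ, ∀ K : ℕ, K1 ≤ K →
    ∃ η U : ℝ, 0 < η ∧ 0 < U ∧
    ∀ μ : Measure (ModSpace n), IsProbabilityMeasure μ → AInv μ →
    ∀ (u1 u2 M W : ℝ) (B : Finset ℕ), U ≤ u1 → 1000 * (u1 + W) ≤ M → 2 * M ≤ u2 / 20 →
      4 + (K : ℝ) ≤ W → 2 ^ (K + 4) * 2 ^ K3 ∈ B → NC μ u1 u2 B η →
      ∀ (j k l : Fin n) (hjk : j ≠ k) (hkl : k ≠ l) (hjl : j ≠ l), ∀ γ' : ℝ, |γ'| ≤ W →
      HR μ M hjk hkl hjl (4 + (K : ℝ)) 4 (-(K : ℝ)) (2 ^ (K + 4) * 2 ^ K3)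
        ≤ Hc (lab μ (zt (RN j k l M)) hjl γ' (2 ^ (K + 4) * 2 ^ K3)) + ε := by
  obtain ⟨K1, hK1⟩ := md_pow_small (C := 2 ^ K3) (by positivity) (4 + K3) (ε := ε / 20)
    (by positivity)
  refine ⟨K1, fun K hK => ?_⟩
  obtain ⟨hC1, hC2⟩ := hK1 K hK
  set X : ℝ := 2 ^ K3 * (2 : ℝ) ^ (-(K : ℝ)) with hX
  have hp : (2 : ℝ) ^ (-(K : ℝ)) ≤ X := by
    rw [hX]
    exact le_mul_of_one_le_left (Real.rpow_pos_of_pos two_pos _).le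
      (one_le_pow₀ (by norm_num))
  have hX0 : 0 < X := by positivity
  obtain ⟨b, hb⟩ : ∃ b : ℕ, b = 2 ^ (K + 4) * 2 ^ K3 := ⟨_, rfl⟩
  have hb' : b = 2 ^ (K + (4 + K3)) := by rw [hb, ← pow_add, add_assoc]
  rw [← hb'] at hC2
  rw [← hb]
  have hb2 : 2 ≤ b := by
    rw [hb']
    calc 2 = 2 ^ 1 := rfl
      _ ≤ 2 ^ (K + (4 + K3)) := Nat.pow_le_pow_right (by norm_num) (by omega)
  have hL : Real.logb 2 b = K + (4 + K3) := by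
    rw [hb']
    push_cast
    rw [Real.logb_pow, Real.logb_self_eq_one (by norm_num), mul_one]
    push_cast
    ring
  obtain ⟨w1, hw1, hw⟩ := exists_e0' n (δ := X / 100) (by positivity)
  refine ⟨ε / 20, max (20 * (w1 + (K + (4 + K3)))) (20 * c1N n), by positivity,
    lt_of_lt_of_le (by positivity) (le_max_left _ _), ?_⟩
  intro μ hμp hμ u1 u2 M W B hU hM hu2 hWK hbB hN j k l hjk hkl hjl γ' hγ'
  have hU1 : 20 * (w1 + (K + (4 + K3))) ≤ u1 := (le_max_left _ _).trans hU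
  have hUc : 20 * c1N n ≤ u1 := (le_max_right _ _).trans hU
  have hK0 : (0 : ℝ) ≤ (K : ℝ) + (4 + K3) := by positivity
  have hu1 : 0 ≤ u1 := by linarith
  have hKr : (0 : ℝ) ≤ K := by positivity
  have hW : 0 ≤ W := by linarith
  have h0 := e0_nonneg n (u1 / 20)
  have hadm : ((n.factorial : ℝ) + 1) * 2 ^ (n + 1) ≤ (2 : ℝ) ^ (u1 / 20) := by
    have h1 : c1N n ≤ u1 / 20 := by linarith
    unfold NScH_395.c1N at h1
    rwa [Real.logb_le_iff_le_rpow (by norm_num) (by positivity)] at h1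
  have hRg : Rg n (M / 2) u1 u2 (u1 / 20)
      (W + 12 * u1 + 4 * (u1 / 20) + 4 * Real.logb 2 b) := by
    rw [hL]
    exact ⟨by positivity, le_rfl, by positivity, hadm, by linarith, by linarith⟩
  have he0 : e0 n (u1 / 20) ≤ X / 100 := hw (u1 / 20) (by linarith)
  have hg : b * (2 : ℝ) ^ (-(K : ℝ) - (4 + (K : ℝ)) - 4) / 2 ≤ X / 30 := by
    have h1 : (2 : ℝ) ^ (-(K : ℝ) - (4 + (K : ℝ)) - 4)
        = (2 : ℝ) ^ (-(K : ℝ)) * ((2 : ℝ) ^ (-(K : ℝ)) * (1 / 256)) := by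
      rw [← rpow_m8, ← Real.rpow_add two_pos, ← Real.rpow_add two_pos]
      congr 1
      push_cast
      ring
    have h2 : (b : ℝ) * (2 : ℝ) ^ (-(K : ℝ)) = 2 ^ (4 + K3) := by
      rw [hb']
      push_cast
      rw [pow_add, mul_comm ((2 : ℝ) ^ K), mul_assoc, ← Real.rpow_natCast 2 K,
        ← Real.rpow_add two_pos, add_neg_cancel, Real.rpow_zero, mul_one]
    rw [h1, ← mul_assoc, h2, hX, pow_add]
    have h3 : (0 : ℝ) < 2 ^ K3 * (2 : ℝ) ^ (-(K : ℝ)) := by positivity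
    nlinarith
  have hee : 3 * e0 n (u1 / 20) + b * (2 : ℝ) ^ (-(K : ℝ) - (4 + (K : ℝ)) - 4) / 2 ≤ X / 2 := by
    linarith
  have he : 2 * (X / 2) ≤ 1 := by linarith
  have hα : |4 + (K : ℝ)| ≤ W := by rw [abs_of_nonneg (by positivity)]; exact hWK
  have hβ : |(4 : ℝ)| ≤ W := by rw [abs_of_pos (by norm_num)]; linarith
  have hγ : |(-(K : ℝ))| ≤ W := by rw [abs_neg, Nat.abs_cast]; linarith
  have key := claimF hμ (α := 4 + (K : ℝ)) (β := 4) (γ := -(K : ℝ)) (M := M / 2) (M' := M)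
    hjk hkl hjl hb2 hRg hN hbB (by positivity) (by linarith) hα hβ hγ hee he
  have hm1 : md b (2 * (X / 2)) ≤ ε / 20 := by
    rwa [show 2 * (X / 2) = X by ring]
  have hm2 : md b (4 * e0 n (u1 / 20)) ≤ ε / 20 :=
    (md_mono b (by positivity) (by linarith) hC1).trans hC2
  have hm3 : md b (2 * e0 n (u1 / 20)) ≤ ε / 20 :=
    (md_mono b (by positivity) (by linarith) hC1).trans hC2
  have hz := near_Z hμ (rg_of hUc hu1 hW (by linarith) hu2) hN hbB (by omega) (by positivity)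
    hjk hkl hjl (Or.inr (Or.inr ⟨rfl, rfl⟩)) hjl hγ' (by linarith)
  have h5 := (abs_le.1 hz).1
  linarith

end Crest.Agent.R014.Cst_832
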