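import Mathlib

/-!
# Row 14, block D, end: a law which is nearly invariant under shifts of all sizes is nearly
translation invariant (helper935)

`I v = ∫ f (t + v) dκ`. If `κ` is `η`-invariant (for bounded test functions supported in `[a, b]`)
under `s 0 ≥ s 1 ≥ ... ≥ s m > 0` with `g s i ≤ s (i + 1)`, then for every `u ≥ 0`
`|∫ f (t + u) - ∫ f t| ≤ η (u / s 0 + m / g) + Lf (s m) κ(ℝ)`.
Only linearly many steps are used.
-/

open MeasureTheory Set

namespace Crest.Agent.R014.DEnd1_935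

/-- `κ` is `η`-invariant under the shift by `s`, tested on functions bounded by `1` with support
(and shifted support) in `[a, b]`. -/
def ShiftInv (κ : Measure ℝ) (a b s η : ℝ) : Prop :=
  ∀ φ : ℝ → ℝ, Measurable φ → (∀ t, |φ t| ≤ 1) → (∀ t, t ∉ Icc a b → φ t = 0) →
    (∀ t, t ∉ Icc a b → φ (t + s) = 0) → |(∫ t, φ (t + s) ∂κ) - ∫ t, φ t ∂κ| ≤ η

variable {κ : Measure ℝ} {a b : ℝ} {f : ℝ → ℝ} {u : ℝ}

lemma supp_shift (h1 : ∀ t, t ∉ Icc a b → f t = 0) (h2 : ∀ t, t ∉ Icc a b → f (t + u) = 0)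
    {v : ℝ} (hv0 : 0 ≤ v) (hvu : v ≤ u) (t : ℝ) (ht : t ∉ Icc a b) : f (t + v) = 0 := by
  by_cases hb : t + v ≤ b
  · -- `t + v ≤ b`, so `t ≤ b`, so `t < a`
    have hta : t < a := by
      by_contra h
      push Not at h
      exact ht ⟨h, by linarith⟩
    have h3 := h2 (t + v - u) (by
      intro h
      have := h.1
      linarith)
    have h4 : t + v - u + u = t + v := by ring
    rwa [h4] at h3
  · exact h1 _ (fun h => hb h.2)

/-- one step -/
lemma step {s η : ℝ} (hκ : ShiftInv κ a b s η) (hf : Measurable f) (hfb : ∀ t, |f t| ≤ 1)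
    (h1 : ∀ t, t ∉ Icc a b → f t = 0) (h2 : ∀ t, t ∉ Icc a b → f (t + u) = 0)
    (hs : 0 ≤ s) {v : ℝ} (hv0 : 0 ≤ v) (hvu : v + s ≤ u) :
    |(∫ t, f (t + (v + s)) ∂κ) - ∫ t, f (t + v) ∂κ| ≤ η := by
  have h3 := hκ (fun t => f (t + v)) (hf.comp (measurable_id.add_const v)) (fun t => hfb _)
    (supp_shift h1 h2 hv0 (by linarith)) (fun t ht => by
      have h4 := supp_shift h1 h2 (v := v + s) (by linarith) hvu t ht
      have h5 : t + s + v = t + (v + s) := by ring
      change f (t + s + v) = 0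
      rw [h5]; exact h4)
  have h6 : ∀ t : ℝ, t + s + v = t + (v + s) := fun t => by ring
  simp only [h6] at h3
  exact h3

/-- `n` steps -/
lemma steps {s η : ℝ} (hκ : ShiftInv κ a b s η) (hf : Measurable f) (hfb : ∀ t, |f t| ≤ 1)
    (h1 : ∀ t, t ∉ Icc a b → f t = 0) (h2 : ∀ t, t ∉ Icc a b → f (t + u) = 0)
    (hs : 0 ≤ s) {v : ℝ} (hv0 : 0 ≤ v) (n : ℕ) (hvu : v + n * s ≤ u) :
    |(∫ t, f (t + (v + n * s)) ∂κ) - ∫ t, f (t + v) ∂κ| ≤ n * η := by
  induction n with
  | zero => simp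
  | succ n ih =>
    have hn : (0 : ℝ) ≤ n := Nat.cast_nonneg n
    have h3 : v + n * s ≤ u := by
      push_cast at hvu
      nlinarith
    have h4 := ih h3
    have h5 := step hκ hf hfb h1 h2 hs (v := v + n * s) (by positivity) (by
      push_cast at hvu
      linarith)
    have h6 : v + ((n + 1 : ℕ) : ℝ) * s = v + n * s + s := by push_cast; ring
    rw [h6]
    calc |(∫ t, f (t + (v + n * s + s)) ∂κ) - ∫ t, f (t + v) ∂κ|
        ≤ |(∫ t, f (t + (v + n * s + s)) ∂κ) - ∫ t, f (t + (v + n * s)) ∂κ| +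
          |(∫ t, f (t + (v + n * s)) ∂κ) - ∫ t, f (t + v) ∂κ| := abs_sub_le _ _ _
      _ ≤ η + n * η := add_le_add h5 h4
      _ = _ := by push_cast; ring

/-- **LEB.** -/
theorem leb [IsFiniteMeasure κ] {m : ℕ} {s : ℕ → ℝ} {g η : ℝ} (hg : 0 < g) (hη : 0 ≤ η)
    (hs : ∀ i ≤ m, 0 < s i) (hsg : ∀ i < m, g * s i ≤ s (i + 1))
    (hκ : ∀ i ≤ m, ShiftInv κ a b (s i) η) (hf : Measurable f) (hfb : ∀ t, |f t| ≤ 1)
    {Lf : ℝ} (hL : ∀ t t', |f t - f t'| ≤ Lf * |t - t'|)
    (h1 : ∀ t, t ∉ Icc a b → f t = 0) (h2 : ∀ t, t ∉ Icc a b → f (t + u) = 0) (hu : 0 ≤ u) :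
    |(∫ t, f (t + u) ∂κ) - ∫ t, f t ∂κ| ≤
      η * (u / s 0 + m / g) + Lf * s m * κ.real univ := by
  have hLf : 0 ≤ Lf := by
    have := hL 0 1
    have h3 := (abs_nonneg _).trans this
    simpa using h3
  have hint : ∀ v, Integrable (fun t => f (t + v)) κ := fun v =>
    Integrable.of_bound (hf.comp (measurable_id.add_const v)).aestronglyMeasurable 1
      (Filter.Eventually.of_forall fun t => hfb _)
  -- the last remainder
  have hlast : ∀ v w : ℝ, v ≤ w → w - v ≤ s m →
      |(∫ t, f (t + w) ∂κ) - ∫ t, f (t + v) ∂κ| ≤ Lf * s m * κ.real univ := by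
    intro v w hvw hw
    rw [← integral_sub (hint w) (hint v)]
    have h3 : ∀ t, ‖f (t + w) - f (t + v)‖ ≤ Lf * s m := by
      intro t
      rw [Real.norm_eq_abs]
      refine (hL _ _).trans ?_
      have h4 : t + w - (t + v) = w - v := by ring
      rw [h4, abs_of_nonneg (by linarith)]
      gcongr
    calc |∫ t, f (t + w) - f (t + v) ∂κ| = ‖∫ t, f (t + w) - f (t + v) ∂κ‖ := rfl
      _ ≤ Lf * s m * κ.real univ :=
        norm_integral_le_of_norm_le_const (Filter.Eventually.of_forall h3)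
  -- levels `i, ..., m`
  have key : ∀ j : ℕ, ∀ i : ℕ, i + j = m → ∀ v w : ℝ, 0 ≤ v → v ≤ w → w ≤ u →
      |(∫ t, f (t + w) ∂κ) - ∫ t, f (t + v) ∂κ| ≤
        η * ((w - v) / s i + j / g) + Lf * s m * κ.real univ := by
    intro j
    induction j with
    | zero =>
      intro i hi v w hv hvw hwu
      have hi' : i = m := by omega
      subst hi'
      have hsi := hs i le_rfl
      set n := ⌊(w - v) / s i⌋₊ with hn
      have hq : 0 ≤ (w - v) / s i := div_nonneg (by linarith) hsi.le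
      have hn1 : (n : ℝ) ≤ (w - v) / s i := Nat.floor_le hq
      have hn2 : (w - v) / s i < n + 1 := Nat.lt_floor_add_one _
      have h3 : (n : ℝ) * s i ≤ w - v := by rwa [le_div_iff₀ hsi] at hn1
      have h4 : w - v < (n + 1) * s i := by rwa [div_lt_iff₀ hsi] at hn2
      have h5 := steps (hκ i le_rfl) hf hfb h1 h2 hsi.le hv n (by linarith)
      have h6 := hlast (v + n * s i) w (by linarith) (by linarith)
      calc |(∫ t, f (t + w) ∂κ) - ∫ t, f (t + v) ∂κ|
          ≤ |(∫ t, f (t + w) ∂κ) - ∫ t, f (t + (v + n * s i)) ∂κ| +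
            |(∫ t, f (t + (v + n * s i)) ∂κ) - ∫ t, f (t + v) ∂κ| := abs_sub_le _ _ _
        _ ≤ Lf * s i * κ.real univ + n * η := add_le_add h6 h5
        _ ≤ Lf * s i * κ.real univ + (w - v) / s i * η := by gcongr
        _ = _ := by push_cast; ring
    | succ j ih =>
      intro i hi v w hv hvw hwu
      have hsi := hs i (by omega)
      have hsi1 := hs (i + 1) (by omega)
      set n := ⌊(w - v) / s i⌋₊ with hn
      have hq : 0 ≤ (w - v) / s i := div_nonneg (by linarith) hsi.le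
      have hn1 : (n : ℝ) ≤ (w - v) / s i := Nat.floor_le hq
      have hn2 : (w - v) / s i < n + 1 := Nat.lt_floor_add_one _
      have h3 : (n : ℝ) * s i ≤ w - v := by rwa [le_div_iff₀ hsi] at hn1
      have h4 : w - v < (n + 1) * s i := by rwa [div_lt_iff₀ hsi] at hn2
      have hn0 : (0 : ℝ) ≤ n * s i := by positivity
      have h5 := steps (hκ i (by omega)) hf hfb h1 h2 hsi.le hv n (by linarith)
      have h6 := ih (i + 1) (by omega) (v + n * s i) w (by linarith) (by linarith) hwu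
      have h7 : (w - (v + n * s i)) / s (i + 1) ≤ 1 / g := by
        rw [div_le_div_iff₀ hsi1 hg, one_mul]
        have h8 := hsg i (by omega)
        have h9 : w - (v + n * s i) ≤ s i := by linarith
        calc (w - (v + n * s i)) * g ≤ s i * g := by gcongr
          _ = g * s i := mul_comm _ _
          _ ≤ s (i + 1) := h8
      calc |(∫ t, f (t + w) ∂κ) - ∫ t, f (t + v) ∂κ|
          ≤ |(∫ t, f (t + w) ∂κ) - ∫ t, f (t + (v + n * s i)) ∂κ| +
            |(∫ t, f (t + (v + n * s i)) ∂κ) - ∫ t, f (t + v) ∂κ| := abs_sub_le _ _ _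
        _ ≤ (η * ((w - (v + n * s i)) / s (i + 1) + j / g) + Lf * s m * κ.real univ) + n * η :=
            add_le_add h6 h5
        _ ≤ (η * (1 / g + j / g) + Lf * s m * κ.real univ) + (w - v) / s i * η := by gcongr
        _ = _ := by push_cast; ring
  have h3 := key m 0 (by omega) 0 u le_rfl hu le_rfl
  simpa using h3

end Crest.Agent.R014.DEnd1_935
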