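import Mathlib

/-!
# Row 14, block D, END (noise formalism): near independence of two labels and a product
relation between two coordinates forces near invariance (everything integrated, no conditional laws)
-/

namespace Crest.Agent.R014.DEnd2_935

open MeasureTheory

/-- test functions `F z x`, measurable, bounded by one, Lipschitz in `x` -/
structure Tst {Z : Type*} [MeasurableSpace Z] (Λ : ℝ) (F : Z → ℝ → ℝ) : Prop where
  meas : Measurable (fun p : Z × ℝ => F p.1 p.2)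
  le : ∀ z x, |F z x| ≤ 1
  lip : ∀ z x y, |F z x - F z y| ≤ Λ * |x - y|

/-- weights: measurable functions of the observation with values in `[0,1]` -/
structure Wt {Z : Type*} [MeasurableSpace Z] (g : Z → ℝ) : Prop where
  meas : Measurable g
  nonneg : ∀ z, 0 ≤ g z
  le : ∀ z, g z ≤ 1

section
variable {Ω Z : Type*} [MeasurableSpace Ω] [MeasurableSpace Z]

theorem Wt.mul {g h : Z → ℝ} (hg : Wt g) (hh : Wt h) : Wt (fun z => g z * h z) where
  meas := hg.meas.mul hh.meas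
  nonneg z := mul_nonneg (hg.nonneg z) (hh.nonneg z)
  le z := mul_le_one₀ (hg.le z) (hh.nonneg z) (hh.le z)

theorem Tst.wt {Λ : ℝ} {F : Z → ℝ → ℝ} (hF : Tst Λ F) {g : Z → ℝ} (hg : Wt g) :
    Tst Λ (fun z x => g z * F z x) where
  meas := (hg.meas.comp measurable_fst).mul hF.meas
  le z x := by
    rw [abs_mul, abs_of_nonneg (hg.nonneg z)]
    exact mul_le_one₀ (hg.le z) (abs_nonneg _) (hF.le z x)
  lip z x y := by
    rw [← mul_sub, abs_mul, abs_of_nonneg (hg.nonneg z)]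
    calc g z * |F z x - F z y| ≤ 1 * |F z x - F z y| :=
          mul_le_mul_of_nonneg_right (hg.le z) (abs_nonneg _)
      _ = |F z x - F z y| := one_mul _
      _ ≤ _ := hF.lip z x y

theorem Tst.shift {Λ : ℝ} {F : Z → ℝ → ℝ} (hF : Tst Λ F) (c : ℝ) :
    Tst Λ (fun z x => F z (x + c)) where
  meas := hF.meas.comp (measurable_fst.prodMk (measurable_snd.add_const c))
  le z x := hF.le _ _
  lip z x y := by
    have := hF.lip z (x + c) (y + c)
    rwa [add_sub_add_right_eq_sub] at this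

theorem Tst.nonneg {Λ : ℝ} {F : Z → ℝ → ℝ} (hF : Tst Λ F) (z : Z) : 0 ≤ Λ := by
  have := hF.lip z 1 0
  have h2 := abs_nonneg (F z 1 - F z 0)
  norm_num at this
  linarith

theorem integrable_of_le {P : Measure Ω} [IsFiniteMeasure P] {f : Ω → ℝ} (hf : Measurable f)
    (h1 : ∀ ω, |f ω| ≤ 1) (s : Set Ω) : IntegrableOn f s P := by
  apply Measure.integrableOn_of_bounded (M := 1) (measure_ne_top _ _) hf.aestronglyMeasurable
  exact Filter.Eventually.of_forall (fun ω => by simpa using h1 ω)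

end

/-- the data of the END -/
structure Dat {Ω Z ι κ : Type*} [MeasurableSpace Ω] [MeasurableSpace Z] (P : Measure Ω)
    (z : Ω → Z) (σ : Ω → ι) (τ : Ω → κ) (r1 r2 : Ω → ℝ) (S : ι → ℝ) (T : κ → ℝ)
    (p : ι → Z → ℝ) (q : κ → Z → ℝ) (k0 e1 : ℝ) : Prop where
  hz : Measurable z
  hr1 : Measurable r1
  hr2 : Measurable r2
  hσ : ∀ i, MeasurableSet {ω | σ ω = i}
  hτ : ∀ k, MeasurableSet {ω | τ ω = k}
  link : ∀ ω, |r1 ω - r2 ω - S (σ ω) * T (τ ω)| ≤ k0
  hp : ∀ i, Wt (p i)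
  hq : ∀ k, Wt (q k)
  I1 : ∀ i k (F : Z → ℝ → ℝ), Measurable (fun p : Z × ℝ => F p.1 p.2) → (∀ z x, |F z x| ≤ 1) →
    |(∫ ω in {ω | σ ω = i} ∩ {ω | τ ω = k}, F (z ω) (r1 ω) ∂P)
      - ∫ ω in {ω | σ ω = i}, q k (z ω) * F (z ω) (r1 ω) ∂P| ≤ e1
  I2 : ∀ i k (F : Z → ℝ → ℝ), Measurable (fun p : Z × ℝ => F p.1 p.2) → (∀ z x, |F z x| ≤ 1) →
    |(∫ ω in {ω | σ ω = i} ∩ {ω | τ ω = k}, F (z ω) (r2 ω) ∂P)
      - ∫ ω in {ω | τ ω = k}, p i (z ω) * F (z ω) (r2 ω) ∂P| ≤ e1

section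
variable {Ω Z ι κ : Type*} [MeasurableSpace Ω] [MeasurableSpace Z] {P : Measure Ω}
  [IsProbabilityMeasure P]
  {z : Ω → Z} {σ : Ω → ι} {τ : Ω → κ} {r1 r2 : Ω → ℝ} {S : ι → ℝ} {T : κ → ℝ}
  {p : ι → Z → ℝ} {q : κ → Z → ℝ} {k0 e1 : ℝ}

theorem Dat.swap (D : Dat P z σ τ r1 r2 S T p q k0 e1) {Λ : ℝ} {F : Z → ℝ → ℝ} (hF : Tst Λ F)
    (hΛ : 0 ≤ Λ) (i : ι) (k : κ) :
    |(∫ ω in {ω | σ ω = i}, q k (z ω) * F (z ω) (r1 ω) ∂P)
      - ∫ ω in {ω | τ ω = k}, p i (z ω) * F (z ω) (r2 ω + S i * T k) ∂P| ≤ 2 * e1 + Λ * k0 := by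
  have h1 := D.I1 i k F hF.meas hF.le
  have hs := hF.shift (S i * T k)
  have h2 := D.I2 i k _ hs.meas hs.le
  have hm1 : Measurable (fun ω => F (z ω) (r1 ω)) := hF.meas.comp (D.hz.prodMk D.hr1)
  have hm2 : Measurable (fun ω => F (z ω) (r2 ω + S i * T k)) := hs.meas.comp (D.hz.prodMk D.hr2)
  have h3 : |(∫ ω in {ω | σ ω = i} ∩ {ω | τ ω = k}, F (z ω) (r1 ω) ∂P)
      - ∫ ω in {ω | σ ω = i} ∩ {ω | τ ω = k}, F (z ω) (r2 ω + S i * T k) ∂P| ≤ Λ * k0 := by
    rw [← integral_sub (integrable_of_le hm1 (fun ω => hF.le _ _) _)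
      (integrable_of_le hm2 (fun ω => hF.le _ _) _)]
    have hms : MeasurableSet ({ω | σ ω = i} ∩ {ω | τ ω = k}) := (D.hσ i).inter (D.hτ k)
    have := norm_setIntegral_le_of_norm_le_const (μ := P) (s := {ω | σ ω = i} ∩ {ω | τ ω = k})
      (f := fun ω => F (z ω) (r1 ω) - F (z ω) (r2 ω + S i * T k)) (C := Λ * k0)
      (measure_lt_top _ _) (by
        rintro ω ⟨hi, hk⟩
        replace hi : σ ω = i := hi
        replace hk : τ ω = k := hk
        have hl := D.link ω
        rw [hi, hk] at hl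
        rw [Real.norm_eq_abs]
        refine (hF.lip _ _ _).trans (mul_le_mul_of_nonneg_left ?_ hΛ)
        rwa [← sub_sub])
    rw [Real.norm_eq_abs] at this
    refine this.trans ?_
    have hk0 : 0 ≤ k0 := by
      rcases isEmpty_or_nonempty Ω with hΩ | ⟨⟨ω⟩⟩
      · exfalso
        have : P Set.univ = 1 := measure_univ
        rw [Set.univ_eq_empty_iff.2 hΩ] at this
        simp at this
      · exact (abs_nonneg _).trans (D.link ω)
    have h0 : (0:ℝ) ≤ Λ * k0 := mul_nonneg hΛ hk0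
    calc Λ * k0 * P.real ({ω | σ ω = i} ∩ {ω | τ ω = k}) ≤ Λ * k0 * 1 :=
          mul_le_mul_of_nonneg_left measureReal_le_one h0
      _ = Λ * k0 := mul_one _
  rw [abs_le] at h1 h2 h3 ⊢
  constructor <;> linarith [h1.1, h1.2, h2.1, h2.2, h3.1, h3.2]

/-- the closed walk `i0 - k - i - k' - i' - k - i0` -/
theorem Dat.walk (D : Dat P z σ τ r1 r2 S T p q k0 e1) {Λ : ℝ} {F : Z → ℝ → ℝ} (hF : Tst Λ F)
    (hΛ : 0 ≤ Λ) (i0 i i' : ι) (k k' : κ) {g : Z → ℝ} (hg : Wt g) :
    |(∫ ω in {ω | σ ω = i0},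
        (q k (z ω) * (p i (z ω) * q k' (z ω) * p i' (z ω) * q k (z ω) * g (z ω)))
          * F (z ω) (r1 ω) ∂P)
      - ∫ ω in {ω | σ ω = i0},
        (q k (z ω) * (p i (z ω) * q k' (z ω) * p i' (z ω) * q k (z ω) * g (z ω)))
          * F (z ω) (r1 ω - (S i - S i') * (T k - T k')) ∂P| ≤ 6 * (2 * e1 + Λ * k0) := by
  have key : ∀ (j : ι) (l : κ) (W : Z → ℝ) (_ : Wt W) (c : ℝ),
      |(∫ ω in {ω | σ ω = j}, (q l (z ω) * W (z ω)) * F (z ω) (r1 ω + c) ∂P)
        - ∫ ω in {ω | τ ω = l}, (p j (z ω) * W (z ω)) * F (z ω) (r2 ω + (c + S j * T l)) ∂P|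
        ≤ 2 * e1 + Λ * k0 := by
    intro j l W hW c
    have := D.swap ((hF.shift c).wt hW) hΛ j l
    have e1' : ∀ ω, q l (z ω) * (W (z ω) * F (z ω) (r1 ω + c))
        = (q l (z ω) * W (z ω)) * F (z ω) (r1 ω + c) := fun ω => by ring
    have e2' : ∀ ω, p j (z ω) * (W (z ω) * F (z ω) (r2 ω + S j * T l + c))
        = (p j (z ω) * W (z ω)) * F (z ω) (r2 ω + (c + S j * T l)) := fun ω => by
      rw [show r2 ω + S j * T l + c = r2 ω + (c + S j * T l) by ring]; ring
    simp only [e1', e2'] at this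
    exact this
  have hW1 : Wt (fun z => p i z * q k' z * p i' z * q k z * g z) :=
    ((((D.hp i).mul (D.hq k')).mul (D.hp i')).mul (D.hq k)).mul hg
  have hW2 : Wt (fun z => p i0 z * q k' z * p i' z * q k z * g z) :=
    ((((D.hp i0).mul (D.hq k')).mul (D.hp i')).mul (D.hq k)).mul hg
  have hW3 : Wt (fun z => q k z * p i0 z * p i' z * q k z * g z) :=
    ((((D.hq k).mul (D.hp i0)).mul (D.hp i')).mul (D.hq k)).mul hg
  have hW4 : Wt (fun z => q k z * p i0 z * p i z * q k z * g z) :=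
    ((((D.hq k).mul (D.hp i0)).mul (D.hp i)).mul (D.hq k)).mul hg
  have hW5 : Wt (fun z => q k' z * p i0 z * p i z * q k z * g z) :=
    ((((D.hq k').mul (D.hp i0)).mul (D.hp i)).mul (D.hq k)).mul hg
  set c1 : ℝ := 0 + S i0 * T k with hc1
  set c2 : ℝ := c1 - S i * T k with hc2
  set c3 : ℝ := c2 + S i * T k' with hc3
  set c4 : ℝ := c3 - S i' * T k' with hc4
  set c5 : ℝ := c4 + S i' * T k with hc5
  set c6 : ℝ := c5 - S i0 * T k with hc6
  have s1 := key i0 k _ hW1 0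
  have s2 := key i k _ hW2 c2
  have s3 := key i k' _ hW3 c2
  have s4 := key i' k' _ hW4 c4
  have s5 := key i' k _ hW5 c4
  have s6 := key i0 k _ hW1 c6
  rw [← hc1] at s1
  rw [show c2 + S i * T k = c1 by rw [hc2]; ring] at s2
  rw [← hc3] at s3
  rw [show c4 + S i' * T k' = c3 by rw [hc4]; ring] at s4
  rw [← hc5] at s5
  rw [show c6 + S i0 * T k = c5 by rw [hc6]; ring] at s6
  -- rewrite the weights
  have w12 : ∀ ω, p i (z ω) * (p i0 (z ω) * q k' (z ω) * p i' (z ω) * q k (z ω) * g (z ω))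
      = p i0 (z ω) * (p i (z ω) * q k' (z ω) * p i' (z ω) * q k (z ω) * g (z ω)) :=
    fun ω => by ring
  have w23 : ∀ ω, q k' (z ω) * (q k (z ω) * p i0 (z ω) * p i' (z ω) * q k (z ω) * g (z ω))
      = q k (z ω) * (p i0 (z ω) * q k' (z ω) * p i' (z ω) * q k (z ω) * g (z ω)) :=
    fun ω => by ring
  have w34 : ∀ ω, p i' (z ω) * (q k (z ω) * p i0 (z ω) * p i (z ω) * q k (z ω) * g (z ω))
      = p i (z ω) * (q k (z ω) * p i0 (z ω) * p i' (z ω) * q k (z ω) * g (z ω)) :=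
    fun ω => by ring
  have w45 : ∀ ω, q k (z ω) * (q k' (z ω) * p i0 (z ω) * p i (z ω) * q k (z ω) * g (z ω))
      = q k' (z ω) * (q k (z ω) * p i0 (z ω) * p i (z ω) * q k (z ω) * g (z ω)) :=
    fun ω => by ring
  have w56 : ∀ ω, p i' (z ω) * (q k' (z ω) * p i0 (z ω) * p i (z ω) * q k (z ω) * g (z ω))
      = p i0 (z ω) * (p i (z ω) * q k' (z ω) * p i' (z ω) * q k (z ω) * g (z ω)) :=
    fun ω => by ring
  simp only [w12] at s2
  simp only [w23] at s3
  simp only [w34] at s4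
  simp only [w45] at s5
  simp only [w56] at s5
  have hc : c6 = -((S i - S i') * (T k - T k')) := by
    rw [hc6, hc5, hc4, hc3, hc2, hc1]; ring
  have e0 : ∀ ω, r1 ω + 0 = r1 ω := fun ω => add_zero _
  have e6 : ∀ ω, r1 ω + c6 = r1 ω - (S i - S i') * (T k - T k') := fun ω => by rw [hc]; ring
  simp only [e0] at s1
  simp only [e6] at s6
  rw [abs_le] at s1 s2 s3 s4 s5 s6 ⊢
  constructor <;>
  linarith [s1.1, s1.2, s2.1, s2.2, s3.1, s3.2, s4.1, s4.2, s5.1, s5.2, s6.1, s6.2]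

/-- the set of observations at which the quadruple `(i,i',k,k')` has all four weights `≥ w` -/
def good (p : ι → Z → ℝ) (q : κ → Z → ℝ) (w : ℝ) (i i' : ι) (k k' : κ) : Set Z :=
  {y | w ≤ p i y ∧ w ≤ p i' y ∧ w ≤ q k y ∧ w ≤ q k' y}

omit [IsProbabilityMeasure P] in
theorem Dat.hgood (D : Dat P z σ τ r1 r2 S T p q k0 e1) (w : ℝ) (i i' : ι) (k k' : κ) :
    MeasurableSet (good p q w i i' k k') := by
  have h1 : MeasurableSet {y | w ≤ p i y} := measurableSet_le measurable_const (D.hp i).meas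
  have h2 : MeasurableSet {y | w ≤ p i' y} := measurableSet_le measurable_const (D.hp i').meas
  have h3 : MeasurableSet {y | w ≤ q k y} := measurableSet_le measurable_const (D.hq k).meas
  have h4 : MeasurableSet {y | w ≤ q k' y} := measurableSet_le measurable_const (D.hq k').meas
  exact h1.inter (h2.inter (h3.inter h4))

/-- one label, one quadruple, one step -/
theorem Dat.one_label (D : Dat P z σ τ r1 r2 S T p q k0 e1) {Λ : ℝ} {F : Z → ℝ → ℝ}
    (hF : Tst Λ F) (hΛ : 0 ≤ Λ) {w : ℝ} (hw : 0 < w) (i0 i i' : ι) (k k' : κ) {G : Z → ℝ}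
    (hG : Wt G) (hG0 : ∀ y, y ∉ good p q w i i' k k' → G y = 0) :
    |(∫ ω in {ω | σ ω = i0}, G (z ω) * F (z ω) (r1 ω) ∂P)
      - ∫ ω in {ω | σ ω = i0}, G (z ω) * F (z ω) (r1 ω - (S i - S i') * (T k - T k')) ∂P|
      ≤ 6 * (2 * e1 + Λ * k0) / w ^ 5 := by
  set g : Z → ℝ := fun y => (good p q w i i' k k').indicator
    (fun y => G y * (w / p i y) * (w / q k' y) * (w / p i' y) * (w / q k y) * (w / q k y)) y with hg
  have hgW : Wt g := by
    refine ⟨?_, ?_, ?_⟩
    · refine Measurable.indicator ?_ (D.hgood w i i' k k')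
      exact ((((hG.meas.mul (measurable_const.div (D.hp i).meas)).mul
        (measurable_const.div (D.hq k').meas)).mul (measurable_const.div (D.hp i').meas)).mul
        (measurable_const.div (D.hq k).meas)).mul (measurable_const.div (D.hq k).meas)
    · intro y
      refine Set.indicator_nonneg (fun y _ => ?_) y
      have := hG.nonneg y
      have h1 := (D.hp i).nonneg y
      have h2 := (D.hp i').nonneg y
      have h3 := (D.hq k).nonneg y
      have h4 := (D.hq k').nonneg y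
      positivity
    · intro y
      by_cases hy : y ∈ good p q w i i' k k'
      · rw [hg]
        simp only [Set.indicator_of_mem hy]
        obtain ⟨h1, h2, h3, h4⟩ := hy
        have d : ∀ x : ℝ, w ≤ x → 0 ≤ w / x ∧ w / x ≤ 1 := fun x hx =>
          ⟨div_nonneg hw.le (hw.le.trans hx), div_le_one_of_le₀ hx (hw.le.trans hx)⟩
        have a0 := hG.nonneg y
        have a1 := hG.le y
        obtain ⟨b1, b1'⟩ := d _ h1
        obtain ⟨b2, b2'⟩ := d _ h2
        obtain ⟨b3, b3'⟩ := d _ h3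
        obtain ⟨b4, b4'⟩ := d _ h4
        exact mul_le_one₀ (mul_le_one₀ (mul_le_one₀ (mul_le_one₀ (mul_le_one₀ a1 b1 b1') b4 b4')
          b2 b2') b3 b3') b3 b3'
      · rw [hg]
        simp only [Set.indicator_of_notMem hy]
        exact zero_le_one
  have hwalk := D.walk hF hΛ i0 i i' k k' hgW
  have e : ∀ y, (q k y * (p i y * q k' y * p i' y * q k y * g y)) = w ^ 5 * G y := by
    intro y
    by_cases hy : y ∈ good p q w i i' k k'
    · rw [hg]
      simp only [Set.indicator_of_mem hy]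
      obtain ⟨h1, h2, h3, h4⟩ := hy
      have n1 : p i y ≠ 0 := (hw.trans_le h1).ne'
      have n2 : p i' y ≠ 0 := (hw.trans_le h2).ne'
      have n3 : q k y ≠ 0 := (hw.trans_le h3).ne'
      have n4 : q k' y ≠ 0 := (hw.trans_le h4).ne'
      field_simp
    · rw [hg, hG0 y hy]
      simp only [Set.indicator_of_notMem hy]
      ring
  simp only [e] at hwalk
  simp only [mul_assoc] at hwalk
  rw [integral_const_mul, integral_const_mul, ← mul_sub, abs_mul, abs_of_pos (pow_pos hw 5)]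
    at hwalk
  rw [le_div_iff₀ (pow_pos hw 5)]
  linarith

variable [Fintype ι]

/-- all labels, one quadruple, one step -/
theorem Dat.one_step (D : Dat P z σ τ r1 r2 S T p q k0 e1) {Λ : ℝ} {F : Z → ℝ → ℝ}
    (hF : Tst Λ F) (hΛ : 0 ≤ Λ) {w : ℝ} (hw : 0 < w) (i i' : ι) (k k' : κ) {G : Z → ℝ}
    (hG : Wt G) (hG0 : ∀ y, y ∉ good p q w i i' k k' → G y = 0) :
    |(∫ ω, G (z ω) * F (z ω) (r1 ω) ∂P)
      - ∫ ω, G (z ω) * F (z ω) (r1 ω - (S i - S i') * (T k - T k')) ∂P|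
      ≤ Fintype.card ι * (6 * (2 * e1 + Λ * k0) / w ^ 5) := by
  have split : ∀ f : Ω → ℝ, Measurable f → (∀ ω, |f ω| ≤ 1) →
      ∫ ω, f ω ∂P = ∑ i0, ∫ ω in {ω | σ ω = i0}, f ω ∂P := by
    intro f hf h1
    have hU : (⋃ i0 ∈ (Finset.univ : Finset ι), {ω | σ ω = i0}) = Set.univ := by
      ext ω; simp
    rw [← integral_biUnion_finset Finset.univ (fun i _ => D.hσ i)]
    · rw [hU, setIntegral_univ]
    · intro a _ b _ hab
      refine Set.disjoint_left.2 ?_
      intro ω ha hb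
      exact hab (ha.symm.trans hb)
    · intro a _
      exact integrable_of_le hf h1 _
  have hs := (hF.shift (-((S i - S i') * (T k - T k')))).wt hG
  have h1 := hF.wt hG
  have m1 : Measurable (fun ω => G (z ω) * F (z ω) (r1 ω)) := h1.meas.comp (D.hz.prodMk D.hr1)
  have m2 : Measurable (fun ω => G (z ω) * F (z ω) (r1 ω - (S i - S i') * (T k - T k'))) := by
    have := hs.meas.comp (D.hz.prodMk D.hr1)
    simpa [Function.comp_def, sub_eq_add_neg] using this
  rw [split _ m1 (fun ω => h1.le _ _), split _ m2 (fun ω => by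
    have := hs.le (z ω) (r1 ω)
    simpa [sub_eq_add_neg] using this), ← Finset.sum_sub_distrib]
  refine (Finset.abs_sum_le_sum_abs _ _).trans ?_
  refine (Finset.sum_le_card_nsmul _ _ (6 * (2 * e1 + Λ * k0) / w ^ 5)
    (fun i0 _ => D.one_label hF hΛ hw i0 i i' k k' hG hG0)).trans ?_
  simp

/-- iteration: shift by a natural multiple of `|θ|` -/
theorem Dat.iter (D : Dat P z σ τ r1 r2 S T p q k0 e1) {Λ : ℝ} {F : Z → ℝ → ℝ}
    (hF : Tst Λ F) (hΛ : 0 ≤ Λ) {w : ℝ} (hw : 0 < w) (i i' : ι) (k k' : κ) {G : Z → ℝ}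
    (hG : Wt G) (hG0 : ∀ y, y ∉ good p q w i i' k k' → G y = 0) (m : ℕ) :
    |(∫ ω, G (z ω) * F (z ω) (r1 ω) ∂P)
      - ∫ ω, G (z ω) * F (z ω) (r1 ω + m * |(S i - S i') * (T k - T k')|) ∂P|
      ≤ m * (Fintype.card ι * (6 * (2 * e1 + Λ * k0) / w ^ 5)) := by
  have pos : ∀ (c : ℝ), |(∫ ω, G (z ω) * F (z ω) (r1 ω + c) ∂P)
      - ∫ ω, G (z ω) * F (z ω) (r1 ω + (c + |(S i - S i') * (T k - T k')|)) ∂P|
      ≤ Fintype.card ι * (6 * (2 * e1 + Λ * k0) / w ^ 5) := by
    intro c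
    set θ := (S i - S i') * (T k - T k') with hθ
    rcases le_total 0 θ with h | h
    · have := D.one_step (hF.shift (c + |θ|)) hΛ hw i i' k k' hG hG0
      rw [← hθ] at this
      have e : ∀ ω, r1 ω - θ + (c + |θ|) = r1 ω + c := fun ω => by
        rw [abs_of_nonneg h]; ring
      simp only [e] at this
      rw [abs_sub_comm]
      exact this
    · have := D.one_step (hF.shift c) hΛ hw i i' k k' hG hG0
      rw [← hθ] at this
      have e : ∀ ω, r1 ω - θ + c = r1 ω + (c + |θ|) := fun ω => by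
        rw [abs_of_nonpos h]; ring
      simp only [e] at this
      exact this
  induction m with
  | zero => simp
  | succ m ih =>
    have h2 := pos (m * |(S i - S i') * (T k - T k')|)
    have e : ((m + 1 : ℕ) : ℝ) * |(S i - S i') * (T k - T k')|
        = m * |(S i - S i') * (T k - T k')| + |(S i - S i') * (T k - T k')| := by
      push_cast; ring
    rw [e]
    refine (abs_sub_le _ _ _).trans ((add_le_add ih h2).trans (le_of_eq ?_))
    push_cast
    ring

/-- shift by an arbitrary `u ≥ 0` -/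
theorem Dat.shift_u (D : Dat P z σ τ r1 r2 S T p q k0 e1) {Λ : ℝ} {F : Z → ℝ → ℝ}
    (hF : Tst Λ F) (hΛ : 0 ≤ Λ) {w : ℝ} (hw : 0 < w) (i i' : ι) (k k' : κ) {G : Z → ℝ}
    (hG : Wt G) (hG0 : ∀ y, y ∉ good p q w i i' k k' → G y = 0) {a c0 u B : ℝ} (ha : 0 < a)
    (h1 : a ≤ |(S i - S i') * (T k - T k')|) (h2 : |(S i - S i') * (T k - T k')| ≤ c0)
    (hu : 0 ≤ u) (huB : u ≤ B) (he : 0 ≤ 2 * e1 + Λ * k0) :
    |(∫ ω, G (z ω) * F (z ω) (r1 ω) ∂P)
      - ∫ ω, G (z ω) * F (z ω) (r1 ω + u) ∂P|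
      ≤ B / a * (Fintype.card ι * (6 * (2 * e1 + Λ * k0) / w ^ 5))
        + Λ * c0 * ∫ ω, G (z ω) ∂P := by
  set θ := |(S i - S i') * (T k - T k')| with hθ
  have hθ0 : 0 < θ := ha.trans_le h1
  set m : ℕ := ⌊u / θ⌋₊ with hm
  have hm1 : (m : ℝ) ≤ u / θ := Nat.floor_le (by positivity)
  have hm2 : u / θ < m + 1 := Nat.lt_floor_add_one _
  have hd1 : (m : ℝ) * θ ≤ u := by rwa [le_div_iff₀ hθ0] at hm1
  have hd2 : u < m * θ + θ := by
    rw [div_lt_iff₀ hθ0] at hm2; linarith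
  have hit := D.iter hF hΛ hw i i' k k' hG hG0 m
  rw [← hθ] at hit
  have E0 : 0 ≤ (Fintype.card ι : ℝ) * (6 * (2 * e1 + Λ * k0) / w ^ 5) := by positivity
  have hmB : (m : ℝ) * (Fintype.card ι * (6 * (2 * e1 + Λ * k0) / w ^ 5))
      ≤ B / a * (Fintype.card ι * (6 * (2 * e1 + Λ * k0) / w ^ 5)) := by
    refine mul_le_mul_of_nonneg_right ?_ E0
    refine hm1.trans ?_
    have hB : 0 ≤ B := hu.trans huB
    exact div_le_div₀ hB huB ha h1
  have hGm : Measurable (fun ω => G (z ω)) := hG.meas.comp D.hz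
  have hs1 := (hF.shift (m * θ)).wt hG
  have hs2 := (hF.shift u).wt hG
  have m1 : Measurable (fun ω => G (z ω) * F (z ω) (r1 ω + m * θ)) :=
    hs1.meas.comp (D.hz.prodMk D.hr1)
  have m2 : Measurable (fun ω => G (z ω) * F (z ω) (r1 ω + u)) :=
    hs2.meas.comp (D.hz.prodMk D.hr1)
  have hlast : |(∫ ω, G (z ω) * F (z ω) (r1 ω + m * θ) ∂P)
      - ∫ ω, G (z ω) * F (z ω) (r1 ω + u) ∂P| ≤ Λ * c0 * ∫ ω, G (z ω) ∂P := by
    have i1 : Integrable (fun ω => G (z ω) * F (z ω) (r1 ω + m * θ)) P := by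
      simpa using integrable_of_le (P := P) m1 (fun ω => hs1.le _ _) Set.univ
    have i2 : Integrable (fun ω => G (z ω) * F (z ω) (r1 ω + u)) P := by
      simpa using integrable_of_le (P := P) m2 (fun ω => hs2.le _ _) Set.univ
    have i3 : Integrable (fun ω => G (z ω)) P := by
      simpa using integrable_of_le (P := P) hGm (fun ω => by
        rw [abs_of_nonneg (hG.nonneg _)]; exact hG.le _) Set.univ
    rw [← integral_sub i1 i2]
    refine (abs_integral_le_integral_abs).trans ?_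
    rw [← integral_const_mul]
    refine integral_mono ((i1.sub i2).abs) (i3.const_mul _) ?_
    intro ω
    simp only
    rw [← mul_sub, abs_mul, abs_of_nonneg (hG.nonneg _)]
    have h3 : |F (z ω) (r1 ω + m * θ) - F (z ω) (r1 ω + u)| ≤ Λ * c0 := by
      refine (hF.lip _ _ _).trans (mul_le_mul_of_nonneg_left ?_ hΛ)
      rw [add_sub_add_left_eq_sub, abs_le]
      constructor <;> linarith
    calc G (z ω) * |F (z ω) (r1 ω + m * θ) - F (z ω) (r1 ω + u)|
        ≤ G (z ω) * (Λ * c0) := mul_le_mul_of_nonneg_left h3 (hG.nonneg _)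
      _ = Λ * c0 * G (z ω) := mul_comm _ _
  refine (abs_sub_le _ _ _).trans (add_le_add (hit.trans hmB) hlast)

variable [Fintype κ]

omit [Fintype ι] [Fintype κ] in
theorem integrable_one {f : Ω → ℝ} (hf : Measurable f) (h1 : ∀ ω, |f ω| ≤ 1) : Integrable f P := by
  have := integrable_of_le (P := P) hf h1 Set.univ
  rwa [integrableOn_univ] at this

/-- `end_abs`: the END of block D in the noise formalism, abstract form. -/
theorem Dat.end_abs (D : Dat P z σ τ r1 r2 S T p q k0 e1) {Λ : ℝ} {F : Z → ℝ → ℝ}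
    (hF : Tst Λ F) (hΛ : 0 ≤ Λ) {w : ℝ} (hw : 0 < w) {a c0 u B e2 : ℝ} (ha : 0 < a)
    (hc0 : ∀ i i' k k', |(S i - S i') * (T k - T k')| ≤ c0) (hc0' : 0 ≤ c0)
    (hu : 0 ≤ u) (huB : u ≤ B) (he : 0 ≤ 2 * e1 + Λ * k0)
    (hNC : P.real {ω | ¬ ∃ i i' k k', a ≤ |(S i - S i') * (T k - T k')| ∧
      z ω ∈ good p q w i i' k k'} ≤ e2) :
    |(∫ ω, F (z ω) (r1 ω) ∂P) - ∫ ω, F (z ω) (r1 ω + u) ∂P|
      ≤ 2 * e2 + (Fintype.card (ι × ι × κ × κ)) *
        (B / a * (Fintype.card ι * (6 * (2 * e1 + Λ * k0) / w ^ 5))) + Λ * c0 := by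
  classical
  set A : (ι × ι × κ × κ) → Prop := fun j => a ≤ |(S j.1 - S j.2.1) * (T j.2.2.1 - T j.2.2.2)|
    with hA
  set Bs : (ι × ι × κ × κ) → Set Z := fun j => good p q w j.1 j.2.1 j.2.2.1 j.2.2.2 with hBs
  have hBm : ∀ j, MeasurableSet (Bs j) := fun j => D.hgood w _ _ _ _
  set I : (ι × ι × κ × κ) → Z → ℝ := fun j y => if A j ∧ y ∈ Bs j then 1 else 0 with hI
  have hI01 : ∀ j y, I j y = 0 ∨ I j y = 1 := by
    intro j y
    rw [hI]
    dsimp only
    split_ifs <;> simp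
  have hI0 : ∀ j y, 0 ≤ I j y := fun j y => by rcases hI01 j y with h | h <;> rw [h] <;> norm_num
  have hIpos : ∀ j y, A j → y ∈ Bs j → I j y = 1 := fun j y h1 h2 => by
    rw [hI]; dsimp only; rw [if_pos ⟨h1, h2⟩]
  have hIz : ∀ j y, ¬ (A j ∧ y ∈ Bs j) → I j y = 0 := fun j y h => by
    rw [hI]; dsimp only; rw [if_neg h]
  have hIm : ∀ j, Measurable (I j) := by
    intro j
    rw [hI]
    dsimp only
    refine Measurable.ite ?_ measurable_const measurable_const
    exact (MeasurableSet.const _).inter (hBm j)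
  set N : Z → ℝ := fun y => ∑ j, I j y with hN
  have hNm : Measurable N := Finset.measurable_sum _ (fun j _ => hIm j)
  have hIN : ∀ j y, I j y ≤ N y := fun j y =>
    Finset.single_le_sum (f := fun j => I j y) (fun j _ => hI0 j y) (Finset.mem_univ j)
  have hN0 : ∀ y, 0 ≤ N y := fun y => Finset.sum_nonneg (fun j _ => hI0 j y)
  set G : (ι × ι × κ × κ) → Z → ℝ := fun j y => I j y / N y with hGdef
  have hG : ∀ j, Wt (G j) := fun j =>
    ⟨(hIm j).div hNm, fun y => div_nonneg (hI0 j y) (hN0 y),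
      fun y => div_le_one_of_le₀ (hIN j y) (hN0 y)⟩
  have hGz : ∀ j y, ¬ (A j ∧ y ∈ Bs j) → G j y = 0 := fun j y h => by
    rw [hGdef]; dsimp only; rw [hIz j y h, zero_div]
  have hGsum : ∀ y, ∑ j, G j y = N y / N y := fun y => by
    rw [hGdef]
    dsimp only
    rw [← Finset.sum_div]
  have hGsum1 : ∀ y, ∑ j, G j y ≤ 1 := fun y => by rw [hGsum]; exact div_self_le_one _
  have hmk : ∀ (g : Z → ℝ) (_ : Wt g) (c : ℝ),
      Integrable (fun ω => g (z ω) * F (z ω) (r1 ω + c)) P := fun g hg c => by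
    have h := (hF.shift c).wt hg
    have hm : Measurable (fun ω => g (z ω) * F (z ω) (r1 ω + c)) :=
      h.meas.comp (D.hz.prodMk D.hr1)
    exact integrable_one hm (fun ω => h.le _ _)
  have hGi : ∀ j, Integrable (fun ω => G j (z ω)) P := fun j =>
    integrable_one ((hG j).meas.comp D.hz) (fun ω => by
      rw [abs_of_nonneg ((hG j).nonneg _)]; exact (hG j).le _)
  -- each quadruple
  have hq : ∀ j, |(∫ ω, G j (z ω) * F (z ω) (r1 ω + 0) ∂P)
      - ∫ ω, G j (z ω) * F (z ω) (r1 ω + u) ∂P|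
      ≤ B / a * (Fintype.card ι * (6 * (2 * e1 + Λ * k0) / w ^ 5))
        + Λ * c0 * ∫ ω, G j (z ω) ∂P := by
    intro j
    simp only [add_zero]
    by_cases hj : A j
    · refine D.shift_u hF hΛ hw j.1 j.2.1 j.2.2.1 j.2.2.2 (hG j) ?_ ha hj (hc0 _ _ _ _) hu huB he
      intro y hy
      exact hGz j y (fun h => hy h.2)
    · have h0 : ∀ y, G j y = 0 := fun y => hGz j y (fun h => hj h.1)
      simp only [h0, zero_mul, integral_zero, sub_self, abs_zero, mul_zero, add_zero]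
      have : 0 ≤ B := hu.trans huB
      positivity
  -- the rest
  set R : Z → ℝ := fun y => 1 - ∑ j, G j y with hR
  have hRW : Wt R := by
    refine ⟨measurable_const.sub (Finset.measurable_sum _ (fun j _ => (hG j).meas)),
      fun y => sub_nonneg.2 (hGsum1 y), fun y => ?_⟩
    have : 0 ≤ ∑ j, G j y := Finset.sum_nonneg (fun j _ => (hG j).nonneg y)
    rw [hR]; dsimp only; linarith
  set bad : Set Ω := {ω | ¬ ∃ i i' k k', a ≤ |(S i - S i') * (T k - T k')| ∧
      z ω ∈ good p q w i i' k k'} with hbad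
  have hNpos : ∀ y, (∃ i i' k k', a ≤ |(S i - S i') * (T k - T k')| ∧
      y ∈ good p q w i i' k k') → 1 ≤ N y := by
    rintro y ⟨i, i', k, k', h1, h2⟩
    have := hIN (i, i', k, k') y
    rwa [hIpos (i, i', k, k') y h1 h2] at this
  have hbad' : bad = {ω | N (z ω) = 0} := by
    ext ω
    constructor
    · intro h
      refine Finset.sum_eq_zero (fun j _ => hIz j _ ?_)
      rintro ⟨h1, h2⟩
      exact h ⟨j.1, j.2.1, j.2.2.1, j.2.2.2, h1, h2⟩
    · intro h hex
      have h1 := hNpos _ hex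
      have h2 : N (z ω) = 0 := h
      linarith
  have hbadm : MeasurableSet bad := by
    rw [hbad']
    exact measurableSet_eq_fun (hNm.comp D.hz) measurable_const
  have hRi : Integrable (fun ω => R (z ω)) P :=
    integrable_one (hRW.meas.comp D.hz) (fun ω => by
      rw [abs_of_nonneg (hRW.nonneg _)]; exact hRW.le _)
  have hRint : ∫ ω, R (z ω) ∂P ≤ e2 := by
    refine le_trans ?_ hNC
    rw [← integral_indicator_one hbadm]
    refine integral_mono hRi ((integrable_const (1:ℝ)).indicator hbadm) ?_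
    intro ω
    dsimp only
    by_cases hω : ω ∈ bad
    · rw [Set.indicator_of_mem hω]
      exact hRW.le _
    · rw [Set.indicator_of_notMem hω]
      have h1 : 1 ≤ N (z ω) := by
        refine hNpos _ ?_
        by_contra h
        exact hω h
      rw [hR]
      dsimp only
      rw [hGsum, div_self (by linarith : N (z ω) ≠ 0), sub_self]
  have hrest : |(∫ ω, R (z ω) * F (z ω) (r1 ω + 0) ∂P) - ∫ ω, R (z ω) * F (z ω) (r1 ω + u) ∂P|
      ≤ 2 * e2 := by
    rw [← integral_sub (hmk R hRW 0) (hmk R hRW u)]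
    refine (abs_integral_le_integral_abs).trans ?_
    refine (integral_mono (g := fun ω => 2 * R (z ω)) ((hmk R hRW 0).sub (hmk R hRW u)).abs
      (hRi.const_mul 2) ?_).trans ?_
    · intro ω
      simp only [Pi.sub_apply]
      rw [← mul_sub, abs_mul, abs_of_nonneg (hRW.nonneg _), mul_comm]
      refine mul_le_mul_of_nonneg_right ?_ (hRW.nonneg _)
      have h1 := hF.le (z ω) (r1 ω + 0)
      have h2 := hF.le (z ω) (r1 ω + u)
      rw [abs_le] at h1 h2 ⊢
      constructor <;> linarith [h1.1, h1.2, h2.1, h2.2]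
    · rw [integral_const_mul]
      linarith
  -- decomposition
  have hdec : ∀ c : ℝ, ∫ ω, F (z ω) (r1 ω + c) ∂P
      = (∑ j, ∫ ω, G j (z ω) * F (z ω) (r1 ω + c) ∂P) + ∫ ω, R (z ω) * F (z ω) (r1 ω + c) ∂P := by
    intro c
    rw [← integral_finsetSum _ (fun j _ => hmk _ (hG j) c), ← integral_add (integrable_finsetSum _
      (fun j _ => hmk _ (hG j) c)) (hmk R hRW c)]
    refine integral_congr_ae (Filter.Eventually.of_forall (fun ω => ?_))
    dsimp only
    rw [← Finset.sum_mul, hR]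
    ring
  have h0 := hdec 0
  simp only [add_zero] at h0
  rw [h0, hdec u]
  simp only [add_zero] at hq hrest
  have hsum : |(∑ j, ∫ ω, G j (z ω) * F (z ω) (r1 ω) ∂P)
      - ∑ j, ∫ ω, G j (z ω) * F (z ω) (r1 ω + u) ∂P|
      ≤ (Fintype.card (ι × ι × κ × κ)) *
        (B / a * (Fintype.card ι * (6 * (2 * e1 + Λ * k0) / w ^ 5))) + Λ * c0 := by
    rw [← Finset.sum_sub_distrib]
    refine (Finset.abs_sum_le_sum_abs _ _).trans ?_
    refine (Finset.sum_le_sum (fun j _ => hq j)).trans ?_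
    have hle1 : ∑ j, ∫ ω, G j (z ω) ∂P ≤ 1 := by
      rw [← integral_finsetSum _ (fun j _ => hGi j)]
      refine (integral_mono (g := fun _ => (1:ℝ)) (integrable_finsetSum _ (fun j _ => hGi j))
        (integrable_const _) (fun ω => hGsum1 _)).trans ?_
      simp
    have h2 : ∑ j, Λ * c0 * ∫ ω, G j (z ω) ∂P ≤ Λ * c0 := by
      rw [← Finset.mul_sum]
      calc _ ≤ Λ * c0 * 1 := mul_le_mul_of_nonneg_left hle1 (mul_nonneg hΛ hc0')
        _ = _ := mul_one _
    rw [Finset.sum_add_distrib, Finset.sum_const, Finset.card_univ, nsmul_eq_mul]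
    linarith
  rw [abs_le] at hrest hsum ⊢
  constructor <;> linarith [hrest.1, hrest.2, hsum.1, hsum.2]

end

end Crest.Agent.R014.DEnd2_935
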