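import Crest.Agent.R014.NScE_395

/-!
# Row 14, block D, END (noise formalism): nonconcentration (NC), helper667

`nc_one`: if the posterior of the big label (window `2^-a0`) at `z` is concentrated for `z ∈ Bad`,
then `∫ P(z ∈ Bad | x) * Acv x ∂μ` is small, `Acv` = averaged posterior spread in a smaller window
`2^-(a0 + c)`. Proof: the big observation is a noisy copy of the small one (Markov chain).
`nc_main`: if most `x` have a free depth then `P(Bad)` is small.
-/

set_option autoImplicit false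

open MeasureTheory Finset Crest.NumberTheoryR.Packets
open Crest.Agent.R014.Nd_837 Crest.Agent.R014.Ne1_567 Crest.Agent.R014.NScB_395
open Crest.Agent.R014.NScC_395 Crest.Agent.R014.NScD_395 Crest.Agent.R014.Ms_667
open Crest.Agent.R014.Ne3_567 (pv measurable_pv pv_nonneg sum_pv pv_le_one integral_pv_mul)
open scoped ENNReal

noncomputable section

namespace Crest.Agent.R014.DEnd3_667

variable {n : ℕ} {i j : Fin n}

theorem uni_ae : ∀ᵐ θ ∂uni, |θ| ≤ 1 := by
  unfold uni
  refine Measure.ae_smul_measure ?_ _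
  rw [ae_restrict_iff' measurableSet_Icc]
  exact Filter.Eventually.of_forall fun θ hθ => abs_le.2 hθ

/-- noise times unipotent -/
def U (hij : i ≠ j) (r : ℝ) (p : SLR n × ℝ) : SLR n := p.1 * uu hij ((2 : ℝ) ^ (-r) * p.2)

theorem measurable_U (hij : i ≠ j) (r : ℝ) : Measurable (U hij r) :=
  measurable_fst.mul ((measurable_uuw hij r).comp measurable_snd)

theorem cv_dl_eq (κ : Measure (SLR n)) [IsProbabilityMeasure κ] (hij : i ≠ j) (r : ℝ) :
    cv κ (dl hij r) = (κ.prod uni).map (U hij r) := by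
  unfold cv dl
  have h1 : κ.prod (uni.map fun θ => (uu hij ((2 : ℝ) ^ (-r) * θ) : SLR n))
      = (κ.prod uni).map (Prod.map id fun θ => (uu hij ((2 : ℝ) ^ (-r) * θ) : SLR n)) := by
    conv_lhs => rw [← Measure.map_id (μ := κ)]
    exact Measure.map_prod_map κ uni measurable_id (measurable_uuw hij r)
  rw [h1, Measure.map_map measurable_mul₂ (measurable_id.prodMap (measurable_uuw hij r))]
  rfl

/-- splitting of the uniform law into cells -/
theorem integral_uni_split {b : ℕ} (hb : 0 < b) {H : ℝ → ℝ} (hH : Measurable H) {M : ℝ}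
    (hM : ∀ t, |H t| ≤ M) :
    ∫ θ, H θ ∂uni = (b : ℝ)⁻¹ * ∑ d : Fin b, ∫ θ, H (cen b d + θ / b) ∂uni := by
  conv_lhs => rw [uni_split hb]
  rw [integral_smul_measure, integral_finsetSum_measure]
  · congr 1
    · simp
    refine sum_congr rfl fun d _ => ?_
    rw [integral_map (by fun_prop) hH.aestronglyMeasurable]
  · intro d _
    have : IsProbabilityMeasure (uni.map fun θ => cen b d + θ / b) :=
      Measure.isProbabilityMeasure_map (by fun_prop)
    exact bdd_integrable hH hM

/-- integral against the joint law of digit and observation -/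
theorem integral_lab (μ : Measure (ModSpace n)) (κ : Measure (SLR n)) [IsProbabilityMeasure μ]
    [IsProbabilityMeasure κ] (hij : i ≠ j) (r : ℝ) {b : ℕ} (d : Fin b) {F : ModSpace n → ℝ}
    (hF : Measurable F) {M : ℝ} (hM : ∀ y, |F y| ≤ M) :
    ∫ y, F y ∂(lab μ κ hij r b d)
      = (b : ℝ)⁻¹ * ∫ x, ∫ g, ∫ θ, F (act x (U hij r (g, cen b d + θ / b))) ∂uni ∂κ ∂μ := by
  unfold lab
  rw [integral_smul_measure, integral_stp _ _ hF hM]
  have hG : Measurable fun x : ModSpace n => ∫ g, F (act x g) ∂(dlaw hij r b d) :=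
    ((hF.comp measurable_act₂).stronglyMeasurable.integral_prod_right').measurable
  have hGM : ∀ x : ModSpace n, |∫ g, F (act x g) ∂(dlaw hij r b d)| ≤ M := fun x => by
    have h := norm_integral_le_of_norm_le_const (μ := dlaw hij r b d) (C := M)
      (f := fun g => F (act x g)) (Filter.Eventually.of_forall fun h => by
        rw [Real.norm_eq_abs]; exact hM _)
    simpa using h
  rw [integral_stp _ _ hG hGM]
  congr 1
  · simp
  refine integral_congr_ae (Filter.Eventually.of_forall fun x => ?_)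
  refine integral_congr_ae (Filter.Eventually.of_forall fun g => ?_)
  simp only
  unfold dlaw
  rw [integral_map (f := fun h => F (act (act x g) h)) (measurable_dlaw hij r b d).aemeasurable
    (hF.comp (measurable_act₂.comp measurable_prodMk_left)).aestronglyMeasurable]
  refine integral_congr_ae (Filter.Eventually.of_forall fun θ => ?_)
  simp only [act_act]
  rfl

theorem integrable_of_abs {Y : Type*} [MeasurableSpace Y] {ν : Measure Y} [IsFiniteMeasure ν]
    {F : Y → ℝ} (hF : Measurable F) {M : ℝ} (hM : ∀ y, |F y| ≤ M) : Integrable F ν :=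
  bdd_integrable hF hM

/-- the averaged posterior spread as an integral over noise and displacement -/
theorem Av_eq {b : ℕ} [NeZero b] (ρ : Fin b → Measure (ModSpace n)) (κ : Measure (SLR n))
    [IsProbabilityMeasure κ] (hij : i ≠ j) (r : ℝ) (x : ModSpace n) :
    Av ρ (cv κ (dl hij r)) x = ∫ q, ps ρ (act x (U hij r q)) ∂(κ.prod uni) := by
  unfold Av
  rw [cv_dl_eq, integral_map (measurable_U hij r).aemeasurable]
  exact ((measurable_ps ρ).comp (measurable_act₂.comp measurable_prodMk_left)).aestronglyMeasurable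

theorem spr_le_center {ι : Type*} [Fintype ι] {x p : ι → ℝ} (h0 : ∀ c, 0 ≤ p c)
    (h1 : ∑ c, p c = 1) (g : ℝ) : spr x p ≤ ∑ c, p c * (2 * |x c - g|) := by
  have h2 : spr x p ≤ ∑ c, ∑ c', (p c * p c' * |x c - g| + p c * p c' * |x c' - g|) := by
    unfold spr
    refine sum_le_sum fun c _ => sum_le_sum fun c' _ => ?_
    rw [← mul_add]
    refine mul_le_mul_of_nonneg_left ?_ (mul_nonneg (h0 c) (h0 c'))
    have := abs_sub_le (x c) g (x c')
    rwa [abs_sub_comm g] at this
  refine h2.trans (le_of_eq ?_)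
  have h3 : ∑ c, ∑ c', p c * p c' * |x c - g| = ∑ c, p c * |x c - g| := by
    refine sum_congr rfl fun c _ => ?_
    have : ∀ c', p c * p c' * |x c - g| = p c' * (p c * |x c - g|) := fun c' => by ring
    simp_rw [this, ← sum_mul, h1, one_mul]
  have h4 : ∑ c, ∑ c', p c * p c' * |x c' - g| = ∑ c, p c * |x c - g| := by
    rw [sum_comm]
    refine sum_congr rfl fun c _ => ?_
    have : ∀ c', p c' * p c * |x c - g| = p c' * (p c * |x c - g|) := fun c' => by ring
    simp_rw [this, ← sum_mul, h1, one_mul]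
  simp_rw [sum_add_distrib]
  rw [h3, h4, ← sum_add_distrib]
  exact sum_congr rfl fun c _ => by ring

/-- clipping to `[-1, 1]` -/
def clip (t : ℝ) : ℝ := max (-1) (min 1 t)

theorem clip_mem (t : ℝ) : |clip t| ≤ 1 := by
  unfold clip
  rw [abs_le]
  exact ⟨le_max_left _ _, max_le (by norm_num) (min_le_left _ _)⟩

theorem measurable_clip : Measurable clip :=
  measurable_const.max (measurable_const.min measurable_id)

theorem clip_close {s : ℝ} (hs : |s| ≤ 1) (t : ℝ) : |s - clip t| ≤ |s - t| := by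
  obtain ⟨h1, h2⟩ := abs_le.1 hs
  unfold clip
  rcases le_total t 1 with h | h
  · rw [min_eq_right h]
    rcases le_total (-1) t with h' | h'
    · rw [max_eq_right h']
    · rw [max_eq_left h', abs_of_nonneg (by linarith), abs_of_nonneg (by linarith)]
      linarith
  · rw [min_eq_left h, max_eq_right (by norm_num), abs_of_nonpos (by linarith),
      abs_of_nonpos (by linarith)]
    linarith

theorem clip_two {s : ℝ} (hs : |s| ≤ 1) (t : ℝ) : |s - clip t| ≤ 2 := by
  have h1 := clip_mem t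
  have h2 := abs_sub s (clip t)
  linarith

/-! ### integrals over (x, noise, displacement) -/

section P3

variable (μ : Measure (ModSpace n)) [IsProbabilityMeasure μ] (κ : Measure (SLR n))
  [IsProbabilityMeasure κ]

theorem integral_P3 {F : ModSpace n × (SLR n × ℝ) → ℝ} (hF : Measurable F) {M : ℝ}
    (hM : ∀ y, |F y| ≤ M) :
    ∫ w, F w ∂(μ.prod (κ.prod uni)) = ∫ x, ∫ g, ∫ θ, F (x, (g, θ)) ∂uni ∂κ ∂μ := by
  rw [integral_prod _ (bdd_integrable hF hM)]
  refine integral_congr_ae (Filter.Eventually.of_forall fun x => ?_)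
  simp only
  rw [integral_prod (fun q => F (x, q)) (bdd_integrable (hF.comp measurable_prodMk_left)
    fun y => hM _)]

/-- splitting of the displacement into cells -/
theorem split3 {b : ℕ} (hb : 0 < b) {F : ModSpace n × (SLR n × ℝ) → ℝ} (hF : Measurable F) {M : ℝ}
    (hM : ∀ y, |F y| ≤ M) :
    ∫ w, F w ∂(μ.prod (κ.prod uni))
      = (b : ℝ)⁻¹ * ∑ d : Fin b, ∫ w, F (w.1, (w.2.1, cen b d + w.2.2 / b)) ∂(μ.prod (κ.prod uni)) := by
  have hm : ∀ d : Fin b, Measurable fun w : ModSpace n × (SLR n × ℝ) =>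
      ((w.1, (w.2.1, cen b d + w.2.2 / b)) : ModSpace n × (SLR n × ℝ)) := fun d => by fun_prop
  have hFd : ∀ d : Fin b, Measurable fun w : ModSpace n × (SLR n × ℝ) =>
      F (w.1, (w.2.1, cen b d + w.2.2 / b)) := fun d => hF.comp (hm d)
  rw [integral_P3 μ κ hF hM]
  have h1 : ∀ d : Fin b, ∫ w, F (w.1, (w.2.1, cen b d + w.2.2 / b)) ∂(μ.prod (κ.prod uni))
      = ∫ x, ∫ g, ∫ θ, F (x, (g, cen b d + θ / b)) ∂uni ∂κ ∂μ := fun d =>
    integral_P3 μ κ (hFd d) fun y => hM _
  simp_rw [h1]
  have hmθ : ∀ d : Fin b, Measurable fun y : ModSpace n × SLR n =>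
      ∫ θ, F (y.1, (y.2, cen b d + θ / b)) ∂uni := fun d => by
    have h2 : Measurable fun y : (ModSpace n × SLR n) × ℝ =>
        F (y.1.1, (y.1.2, cen b d + y.2 / b)) := hF.comp (by fun_prop)
    exact h2.stronglyMeasurable.integral_prod_right'.measurable
  have hbθ : ∀ (d : Fin b) (y : ModSpace n × SLR n),
      |∫ θ, F (y.1, (y.2, cen b d + θ / b)) ∂uni| ≤ M := fun d y => by
    have h := norm_integral_le_of_norm_le_const (μ := uni) (C := M)
      (f := fun θ => F (y.1, (y.2, cen b d + θ / b))) (Filter.Eventually.of_forall fun h => by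
        rw [Real.norm_eq_abs]; exact hM _)
    simpa using h
  have hmg : ∀ d : Fin b, Measurable fun x : ModSpace n =>
      ∫ g, ∫ θ, F (x, (g, cen b d + θ / b)) ∂uni ∂κ := fun d =>
    (hmθ d).stronglyMeasurable.integral_prod_right'.measurable
  have hbg : ∀ (d : Fin b) (x : ModSpace n),
      |∫ g, ∫ θ, F (x, (g, cen b d + θ / b)) ∂uni ∂κ| ≤ M := fun d x => by
    have h := norm_integral_le_of_norm_le_const (μ := κ) (C := M)
      (f := fun g => ∫ θ, F (x, (g, cen b d + θ / b)) ∂uni)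
      (Filter.Eventually.of_forall fun h => by
        rw [Real.norm_eq_abs]; exact hbθ d (x, h))
    simpa using h
  have h3 : ∀ x : ModSpace n, ∫ g, ∫ θ, F (x, (g, θ)) ∂uni ∂κ
      = (b : ℝ)⁻¹ * ∑ d : Fin b, ∫ g, ∫ θ, F (x, (g, cen b d + θ / b)) ∂uni ∂κ := fun x => by
    have h4 : ∀ g : SLR n, ∫ θ, F (x, (g, θ)) ∂uni
        = (b : ℝ)⁻¹ * ∑ d : Fin b, ∫ θ, F (x, (g, cen b d + θ / b)) ∂uni := fun g =>
      integral_uni_split hb (H := fun θ => F (x, (g, θ)))
        (hF.comp (measurable_prodMk_left.comp measurable_prodMk_left)) fun t => hM _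
    simp_rw [h4]
    rw [integral_const_mul, integral_finsetSum]
    intro d _
    exact bdd_integrable ((hmθ d).comp measurable_prodMk_left) fun g => hbθ d (x, g)
  simp_rw [h3]
  rw [integral_const_mul, integral_finsetSum]
  intro d _
  exact bdd_integrable (hmg d) (hbg d)

theorem integral_lab3 (hij : i ≠ j) (r : ℝ) {b : ℕ} (d : Fin b) {F : ModSpace n → ℝ}
    (hF : Measurable F) {M : ℝ} (hM : ∀ y, |F y| ≤ M) :
    ∫ y, F y ∂(lab μ κ hij r b d)
      = (b : ℝ)⁻¹ * ∫ w, F (act w.1 (U hij r (w.2.1, cen b d + w.2.2 / b))) ∂(μ.prod (κ.prod uni)) := by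
  have h1 : Measurable fun w : ModSpace n × (SLR n × ℝ) =>
      F (act w.1 (U hij r (w.2.1, cen b d + w.2.2 / b))) := by
    refine hF.comp (measurable_act₂.comp (measurable_fst.prodMk ((measurable_U hij r).comp ?_)))
    fun_prop
  rw [integral_lab μ κ hij r d hF hM, integral_P3 μ κ h1 fun y => hM _]

omit [IsProbabilityMeasure μ] [IsProbabilityMeasure κ] in
theorem ae_P3 : ∀ᵐ w ∂(μ.prod (κ.prod uni)), |w.2.2| ≤ 1 :=
  (Measure.quasiMeasurePreserving_snd.comp Measure.quasiMeasurePreserving_snd).ae uni_ae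

end P3

/-! ### the Markov chain -/

/-- noise and displacement of `z` seen from `x`, when `z` is a noisy copy of `y = x q` -/
def Tq (hij : i ≠ j) (a0 c : ℝ) (q p : SLR n × ℝ) : SLR n × ℝ :=
  (q.1 * uu hij ((2 : ℝ) ^ (-(a0 + c)) * q.2) * p.1 * (uu hij ((2 : ℝ) ^ (-(a0 + c)) * q.2))⁻¹,
    p.2 + (2 : ℝ) ^ (-c) * q.2)

theorem measurable_Tq (hij : i ≠ j) (a0 c : ℝ) (q : SLR n × ℝ) : Measurable (Tq hij a0 c q) := by
  unfold Tq
  fun_prop

theorem U_Tq (hij : i ≠ j) (a0 c : ℝ) (q p : SLR n × ℝ) :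
    U hij a0 (Tq hij a0 c q p) = U hij (a0 + c) q * U hij a0 p := by
  unfold U Tq
  simp only
  have h1 : (2 : ℝ) ^ (-a0) * (p.2 + (2 : ℝ) ^ (-c) * q.2)
      = (2 : ℝ) ^ (-(a0 + c)) * q.2 + (2 : ℝ) ^ (-a0) * p.2 := by
    rw [neg_add, Real.rpow_add two_pos]; ring
  rw [h1, uu_add]
  group

section Main

variable (μ : Measure (ModSpace n)) [IsProbabilityMeasure μ] (κ κ' : Measure (SLR n))
  [IsProbabilityMeasure κ] [IsProbabilityMeasure κ'] (hij : i ≠ j) (a0 c : ℝ)
  (Bad : Set (ModSpace n)) (cz : ModSpace n → ℝ)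

/-- `P(z ∈ Bad | y)`, `z = y κ u(2^-a0 v)` -/
def Qb (y : ModSpace n) : ℝ := ∫ p, Bad.indicator (fun _ => (1 : ℝ)) (act y (U hij a0 p)) ∂(κ.prod uni)

/-- the centre, seen from `y` -/
def ga (y : ModSpace n) (p : SLR n × ℝ) : ℝ :=
  clip ((2 : ℝ) ^ c * (cz (act y (U hij a0 p)) - p.2))

/-- the cost -/
def Ph (y : ModSpace n) (s : ℝ) : ℝ :=
  ∫ p, 2 * |s - ga hij a0 c cz y p| * Bad.indicator (fun _ => (1 : ℝ)) (act y (U hij a0 p))
    ∂(κ.prod uni)

variable {Bad} {cz}

theorem ind_bound (A : Set (ModSpace n)) (y : ModSpace n) :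
    0 ≤ A.indicator (fun _ => (1 : ℝ)) y ∧ A.indicator (fun _ => (1 : ℝ)) y ≤ 1 := by
  by_cases h : y ∈ A <;> simp [h]

theorem meas_ind (hBad : MeasurableSet Bad) :
    Measurable fun y : ModSpace n => Bad.indicator (fun _ => (1 : ℝ)) y :=
  measurable_const.indicator hBad

theorem meas_actU : Measurable fun y : ModSpace n × (SLR n × ℝ) => act y.1 (U hij a0 y.2) :=
  measurable_act₂.comp (measurable_fst.prodMk ((measurable_U hij a0).comp measurable_snd))

theorem measurable_Qb (hBad : MeasurableSet Bad) : Measurable (Qb κ hij a0 Bad) :=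
  (((meas_ind hBad).comp (meas_actU hij a0)).stronglyMeasurable.integral_prod_right').measurable

theorem Qb_bound (y : ModSpace n) :
    0 ≤ Qb κ hij a0 Bad y ∧ Qb κ hij a0 Bad y ≤ 1 := by
  refine ⟨integral_nonneg fun p => (ind_bound _ _).1, ?_⟩
  have h : Qb κ hij a0 Bad y ≤ ∫ _, (1 : ℝ) ∂(κ.prod uni) :=
    integral_mono_of_nonneg (Filter.Eventually.of_forall fun p => (ind_bound _ _).1)
      (integrable_const _) (Filter.Eventually.of_forall fun p => (ind_bound _ _).2)
  simpa using h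

theorem measurable_ga (hcz : Measurable cz) :
    Measurable fun y : ModSpace n × (SLR n × ℝ) => ga hij a0 c cz y.1 y.2 :=
  measurable_clip.comp (((hcz.comp (meas_actU hij a0)).sub
    (measurable_snd.comp measurable_snd)).const_mul _)

theorem meas_cost (hBad : MeasurableSet Bad) (hcz : Measurable cz) :
    Measurable fun y : (ModSpace n × ℝ) × (SLR n × ℝ) =>
      2 * |y.1.2 - ga hij a0 c cz y.1.1 y.2|
        * Bad.indicator (fun _ => (1 : ℝ)) (act y.1.1 (U hij a0 y.2)) := by
  have h1 : Measurable fun y : (ModSpace n × ℝ) × (SLR n × ℝ) => (y.1.1, y.2) :=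
    (measurable_fst.comp measurable_fst).prodMk measurable_snd
  have h2 := (measurable_ga hij a0 c hcz).comp h1
  have h3 := ((meas_ind hBad).comp (meas_actU hij a0)).comp h1
  have h4 : Measurable fun y : (ModSpace n × ℝ) × (SLR n × ℝ) => y.1.2 :=
    measurable_snd.comp measurable_fst
  exact ((h4.sub h2).abs.const_mul 2).mul h3

theorem measurable_Ph (hBad : MeasurableSet Bad) (hcz : Measurable cz) :
    Measurable fun y : ModSpace n × ℝ => Ph κ hij a0 c Bad cz y.1 y.2 :=
  ((meas_cost hij a0 c hBad hcz).stronglyMeasurable.integral_prod_right').measurable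

theorem cost_bound (y : ModSpace n) (s : ℝ) (p : SLR n × ℝ) :
    0 ≤ 2 * |s - ga hij a0 c cz y p| * Bad.indicator (fun _ => (1 : ℝ)) (act y (U hij a0 p)) ∧
    2 * |s - ga hij a0 c cz y p| * Bad.indicator (fun _ => (1 : ℝ)) (act y (U hij a0 p))
      ≤ 2 * (|s| + 1) := by
  have h1 := ind_bound Bad (act y (U hij a0 p))
  have h2 : |ga hij a0 c cz y p| ≤ 1 := clip_mem _
  have h3 := abs_sub s (ga hij a0 c cz y p)
  have h4 := abs_nonneg (s - ga hij a0 c cz y p)
  refine ⟨mul_nonneg (by positivity) h1.1, ?_⟩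
  calc 2 * |s - ga hij a0 c cz y p| * Bad.indicator (fun _ => (1 : ℝ)) (act y (U hij a0 p))
      ≤ 2 * |s - ga hij a0 c cz y p| * 1 := mul_le_mul_of_nonneg_left h1.2 (by positivity)
    _ ≤ _ := by linarith

theorem Ph_bound (y : ModSpace n) (s : ℝ) :
    0 ≤ Ph κ hij a0 c Bad cz y s ∧ Ph κ hij a0 c Bad cz y s ≤ 2 * (|s| + 1) := by
  refine ⟨integral_nonneg fun p => (cost_bound hij a0 c y s p).1, ?_⟩
  have h : Ph κ hij a0 c Bad cz y s ≤ ∫ _, (2 * (|s| + 1)) ∂(κ.prod uni) :=
    integral_mono_of_nonneg (Filter.Eventually.of_forall fun p => (cost_bound hij a0 c y s p).1)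
      (integrable_const _) (Filter.Eventually.of_forall fun p => (cost_bound hij a0 c y s p).2)
  simpa using h

theorem integrable_cost (hBad : MeasurableSet Bad) (hcz : Measurable cz) (y : ModSpace n) (s : ℝ) :
    Integrable (fun p => 2 * |s - ga hij a0 c cz y p|
      * Bad.indicator (fun _ => (1 : ℝ)) (act y (U hij a0 p))) (κ.prod uni) := by
  refine bdd_integrable (M := 2 * (|s| + 1)) ?_ fun p => ?_
  · exact (meas_cost hij a0 c hBad hcz).comp (measurable_prodMk_left (x := (y, s)))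
  · have := cost_bound (Bad := Bad) hij a0 c (cz := cz) y s p
    rw [abs_of_nonneg this.1]; exact this.2

/-- the cost is Lipschitz -/
theorem Ph_lip (hBad : MeasurableSet Bad) (hcz : Measurable cz) (y : ModSpace n) (s s' : ℝ) :
    Ph κ hij a0 c Bad cz y s ≤ Ph κ hij a0 c Bad cz y s' + 2 * |s - s'| := by
  have h1 : ∫ p, (2 * |s' - ga hij a0 c cz y p|
      * Bad.indicator (fun _ => (1 : ℝ)) (act y (U hij a0 p)) + 2 * |s - s'|) ∂(κ.prod uni)
      = Ph κ hij a0 c Bad cz y s' + 2 * |s - s'| := by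
    rw [integral_add (integrable_cost κ hij a0 c hBad hcz y s') (integrable_const _)]
    simp [Ph]
  rw [← h1]
  refine integral_mono (integrable_cost κ hij a0 c hBad hcz y s)
    ((integrable_cost κ hij a0 c hBad hcz y s').add (integrable_const _)) fun p => ?_
  simp only
  have h2 := ind_bound Bad (act y (U hij a0 p))
  have h3 : |s - ga hij a0 c cz y p| ≤ |s - s'| + |s' - ga hij a0 c cz y p| := abs_sub_le _ _ _
  have h4 := abs_nonneg (s - s')
  have h5 := abs_nonneg (s' - ga hij a0 c cz y p)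
  nlinarith [mul_le_mul_of_nonneg_right h3 h2.1, mul_le_mul_of_nonneg_left h2.2 h4]

/-- pointwise: posterior spread against the cost -/
theorem step_spread (hBad : MeasurableSet Bad) (hcz : Measurable cz) {m : ℕ} [NeZero m]
    (ρ : Fin m → Measure (ModSpace n)) (y : ModSpace n) :
    ps ρ y * Qb κ hij a0 Bad y ≤ ∑ d, pv ρ d y * Ph κ hij a0 c Bad cz y (cen m d) := by
  have hI : ∀ p : SLR n × ℝ, ps ρ y * Bad.indicator (fun _ => (1 : ℝ)) (act y (U hij a0 p)) ≤
      ∑ d, pv ρ d y * (2 * |cen m d - ga hij a0 c cz y p|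
        * Bad.indicator (fun _ => (1 : ℝ)) (act y (U hij a0 p))) := by
    intro p
    have h1 := spr_le_center (x := cen m) (p := fun d => pv ρ d y) (fun d => pv_nonneg ρ d y)
      (sum_pv ρ y) (ga hij a0 c cz y p)
    have h2 := mul_le_mul_of_nonneg_right h1 (ind_bound Bad (act y (U hij a0 p))).1
    refine h2.trans (le_of_eq ?_)
    rw [sum_mul]
    exact sum_congr rfl fun d _ => by ring
  have hR : ∫ p, ∑ d, pv ρ d y * (2 * |cen m d - ga hij a0 c cz y p|
        * Bad.indicator (fun _ => (1 : ℝ)) (act y (U hij a0 p))) ∂(κ.prod uni)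
      = ∑ d, pv ρ d y * Ph κ hij a0 c Bad cz y (cen m d) := by
    rw [integral_finsetSum _ fun d _ =>
      (integrable_cost κ hij a0 c hBad hcz y (cen m d)).const_mul _]
    refine sum_congr rfl fun d _ => ?_
    rw [integral_const_mul]
    rfl
  have hL : ∫ p, ps ρ y * Bad.indicator (fun _ => (1 : ℝ)) (act y (U hij a0 p)) ∂(κ.prod uni)
      = ps ρ y * Qb κ hij a0 Bad y := by
    rw [integral_const_mul]
    rfl
  rw [← hL, ← hR]
  refine integral_mono_of_nonneg (Filter.Eventually.of_forall fun p =>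
    mul_nonneg (ps_nonneg ρ y) (ind_bound _ _).1) ?_ (Filter.Eventually.of_forall hI)
  exact integrable_finsetSum _ fun d _ =>
      (integrable_cost κ hij a0 c hBad hcz y (cen m d)).const_mul _

theorem abs_cen_le {b : ℕ} (d : Fin b) : |cen b d| ≤ 1 := by
  have hb : (0:ℝ) < b := by exact_mod_cast d.pos
  have h2 : ((d : ℕ) : ℝ) + 1 ≤ b := by exact_mod_cast d.2
  have h3 : (0:ℝ) ≤ ((d : ℕ) : ℝ) := by positivity
  unfold cen
  rw [abs_le]
  constructor
  · have : 0 ≤ (2 * (d : ℝ) + 1) / b := by positivity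
    linarith
  · have : (2 * (d : ℝ) + 1) / b ≤ 2 := by
      rw [div_le_iff₀ hb]; linarith
    linarith

/-- Step 1: the small label costs at most the distance of the displacement to the centre -/
theorem step_small (hBad : MeasurableSet Bad) (hcz : Measurable cz) {m : ℕ} [NeZero m] (r : ℝ) :
    ∫ y, ps (lab μ κ' hij r m) y * Qb κ hij a0 Bad y ∂(tot (lab μ κ' hij r m))
      ≤ ∫ w, Ph κ hij a0 c Bad cz (act w.1 (U hij r w.2)) (clip w.2.2) ∂(μ.prod (κ'.prod uni))
        + 2 / m := by
  have hm : 0 < m := Nat.pos_of_ne_zero (NeZero.ne m)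
  have hm' : (0:ℝ) < m := by exact_mod_cast hm
  set ρ := lab μ κ' hij r m with hρ
  have hPhc : ∀ d : Fin m, Measurable fun y : ModSpace n => Ph κ hij a0 c Bad cz y (cen m d) :=
    fun d => (measurable_Ph κ hij a0 c hBad hcz).comp measurable_prodMk_right
  have hPhb : ∀ (y : ModSpace n) (s : ℝ), |s| ≤ 1 → |Ph κ hij a0 c Bad cz y s| ≤ 4 := by
    intro y s hs
    have := Ph_bound (Bad := Bad) (cz := cz) κ hij a0 c y s
    rw [abs_of_nonneg this.1]
    linarith [this.2]
  have htot : tot ρ = stp μ (cv κ' (dl hij r)) := tot_lab_eq μ κ' hij r hm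
  have hP1 : IsProbabilityMeasure (tot ρ) := by rw [htot]; infer_instance
  have hint : ∀ d : Fin m, Integrable (fun y => pv ρ d y * Ph κ hij a0 c Bad cz y (cen m d))
      (tot ρ) := fun d => by
    refine bdd_integrable (M := 4) ((measurable_pv ρ d).mul (hPhc d)) fun y => ?_
    rw [abs_mul, abs_of_nonneg (pv_nonneg ρ d y)]
    have h1 := pv_le_one ρ d y
    have h2 := hPhb y _ (abs_cen_le d)
    have h3 := pv_nonneg ρ d y
    nlinarith [abs_nonneg (Ph κ hij a0 c Bad cz y (cen m d))]
  have h1 : ∫ y, ps ρ y * Qb κ hij a0 Bad y ∂(tot ρ)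
      ≤ ∑ d, ∫ y, Ph κ hij a0 c Bad cz y (cen m d) ∂(ρ d) := by
    have h2 : ∫ y, ∑ d, pv ρ d y * Ph κ hij a0 c Bad cz y (cen m d) ∂(tot ρ)
        = ∑ d, ∫ y, Ph κ hij a0 c Bad cz y (cen m d) ∂(ρ d) := by
      rw [integral_finsetSum _ fun d _ => hint d]
      exact sum_congr rfl fun d _ => integral_pv_mul ρ d _
    rw [← h2]
    refine integral_mono_of_nonneg (Filter.Eventually.of_forall fun y =>
      mul_nonneg (ps_nonneg ρ y) (Qb_bound κ hij a0 y).1) (integrable_finsetSum _ fun d _ => hint d)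
      (Filter.Eventually.of_forall fun y => step_spread κ hij a0 c hBad hcz ρ y)
  refine h1.trans ?_
  -- the continuous displacement
  set F : ModSpace n × (SLR n × ℝ) → ℝ := fun w =>
    Ph κ hij a0 c Bad cz (act w.1 (U hij r w.2)) (clip w.2.2) with hF
  have hFm : Measurable F := by
    refine (measurable_Ph κ hij a0 c hBad hcz).comp ((meas_actU hij r).prodMk ?_)
    exact measurable_clip.comp (measurable_snd.comp measurable_snd)
  have hFb : ∀ w, |F w| ≤ 4 := fun w => hPhb _ _ (clip_mem _)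
  rw [split3 μ κ' hm hFm hFb]
  have h3 : ∀ d : Fin m, ∫ y, Ph κ hij a0 c Bad cz y (cen m d) ∂(ρ d)
      ≤ (m : ℝ)⁻¹ * (∫ w, F (w.1, (w.2.1, cen m d + w.2.2 / m)) ∂(μ.prod (κ'.prod uni)) + 2 / m) := by
    intro d
    rw [hρ, integral_lab3 μ κ' hij r d (hPhc d) fun y => hPhb y _ (abs_cen_le d)]
    refine mul_le_mul_of_nonneg_left ?_ (by positivity)
    have hmd : Measurable fun w : ModSpace n × (SLR n × ℝ) =>
        ((w.1, (w.2.1, cen m d + w.2.2 / m)) : ModSpace n × (SLR n × ℝ)) := by fun_prop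
    have hi2 : Integrable (fun w : ModSpace n × (SLR n × ℝ) =>
        F (w.1, (w.2.1, cen m d + w.2.2 / m))) (μ.prod (κ'.prod uni)) :=
      bdd_integrable (hFm.comp hmd) fun w => hFb _
    have h4 : ∫ w, F (w.1, (w.2.1, cen m d + w.2.2 / m)) ∂(μ.prod (κ'.prod uni)) + 2 / m
        = ∫ w, (F (w.1, (w.2.1, cen m d + w.2.2 / m)) + 2 / m) ∂(μ.prod (κ'.prod uni)) := by
      rw [integral_add hi2 (integrable_const _)]
      simp
    rw [h4]
    refine integral_mono_ae ?_ (hi2.add (integrable_const _)) ?_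
    · refine bdd_integrable (M := 4) ?_ fun w => hPhb _ _ (abs_cen_le d)
      exact (hPhc d).comp (measurable_act₂.comp (measurable_fst.prodMk
        ((measurable_U hij r).comp (measurable_snd.comp hmd))))
    · filter_upwards [ae_P3 μ κ'] with w hw
      have h5 := Ph_lip κ hij a0 c hBad hcz (act w.1 (U hij r (w.2.1, cen m d + w.2.2 / m)))
        (cen m d) (clip (cen m d + w.2.2 / m))
      have h6 : |cen m d - clip (cen m d + w.2.2 / m)| ≤ 1 / m := by
        refine (clip_close (abs_cen_le d) _).trans ?_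
        rw [sub_add_cancel_left, abs_neg, abs_div, abs_of_pos hm']
        gcongr
      have h7 : 2 * |cen m d - clip (cen m d + w.2.2 / m)| ≤ 2 / m := by
        calc _ ≤ 2 * (1 / (m:ℝ)) := by linarith
          _ = 2 / m := by ring
      have h8 : F (w.1, (w.2.1, cen m d + w.2.2 / m))
        = Ph κ hij a0 c Bad cz (act w.1 (U hij r (w.2.1, cen m d + w.2.2 / m)))
          (clip (cen m d + w.2.2 / m)) := rfl
      rw [h8]
      linarith
  refine (sum_le_sum fun d _ => h3 d).trans (le_of_eq ?_)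
  rw [← mul_sum, sum_add_distrib, sum_const, card_univ, Fintype.card_fin, nsmul_eq_mul, mul_add]
  congr 1
  field_simp

/-! ### the comparison with the big window -/

variable (Bad cz) in
/-- cost seen from the big window -/
def ch (w : ModSpace n × (SLR n × ℝ)) : ℝ :=
  min 4 (2 * ((2 : ℝ) ^ c * |w.2.2 - cz (act w.1 (U hij a0 w.2))|))
    * Bad.indicator (fun _ => (1 : ℝ)) (act w.1 (U hij a0 w.2))

theorem measurable_ch (hBad : MeasurableSet Bad) (hcz : Measurable cz) :
    Measurable (ch hij a0 c Bad cz) := by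
  refine Measurable.mul ?_ ((meas_ind hBad).comp (meas_actU hij a0))
  refine measurable_const.min ((Measurable.const_mul ?_ _).const_mul _)
  exact ((measurable_snd.comp measurable_snd).sub (hcz.comp (meas_actU hij a0))).abs

theorem ch_bound (w : ModSpace n × (SLR n × ℝ)) :
    0 ≤ ch hij a0 c Bad cz w ∧ ch hij a0 c Bad cz w ≤ 4 := by
  have h1 := ind_bound Bad (act w.1 (U hij a0 w.2))
  have h2 : 0 ≤ min 4 (2 * ((2 : ℝ) ^ c * |w.2.2 - cz (act w.1 (U hij a0 w.2))|)) :=
    le_min (by norm_num) (by positivity)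
  refine ⟨mul_nonneg h2 h1.1, ?_⟩
  calc ch hij a0 c Bad cz w ≤ min 4 (2 * ((2 : ℝ) ^ c * |w.2.2 - cz (act w.1 (U hij a0 w.2))|)) * 1 :=
        mul_le_mul_of_nonneg_left h1.2 h2
    _ ≤ 4 := by rw [mul_one]; exact min_le_left _ _

/-- Step 2: transfer to the big window -/
theorem step_transfer (hBad : MeasurableSet Bad) (hcz : Measurable cz) {e : ℝ} (x : ModSpace n)
    {q : SLR n × ℝ} (hq : |q.2| ≤ 1)
    (hT : TVle ((κ.prod uni).map (Tq hij a0 c q)) (κ.prod uni) e) :
    Ph κ hij a0 c Bad cz (act x (U hij (a0 + c) q)) (clip q.2)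
      ≤ ∫ p, ch hij a0 c Bad cz (x, p) ∂(κ.prod uni) + 8 * e := by
  have hm := measurable_Tq (n := n) hij a0 c q
  have hchm : Measurable fun p => ch hij a0 c Bad cz (x, p) :=
    (measurable_ch hij a0 c hBad hcz).comp measurable_prodMk_left
  have hchb : ∀ p, |ch hij a0 c Bad cz (x, p)| ≤ 4 := fun p => by
    have := ch_bound (Bad := Bad) (cz := cz) hij a0 c (x, p)
    rw [abs_of_nonneg this.1]; exact this.2
  have hP : IsProbabilityMeasure ((κ.prod uni).map (Tq hij a0 c q)) :=
    Measure.isProbabilityMeasure_map hm.aemeasurable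
  have h1 := integral_le hT hchm (M := 4) hchb
  rw [integral_map hm.aemeasurable hchm.aestronglyMeasurable] at h1
  have h2 : Ph κ hij a0 c Bad cz (act x (U hij (a0 + c) q)) (clip q.2)
      ≤ ∫ p, ch hij a0 c Bad cz (x, Tq hij a0 c q p) ∂(κ.prod uni) := by
    unfold Ph
    refine integral_mono (integrable_cost κ hij a0 c hBad hcz _ _)
      (bdd_integrable (hchm.comp hm) fun p => hchb _) fun p => ?_
    have h3 : act (act x (U hij (a0 + c) q)) (U hij a0 p)
        = act x (U hij a0 (Tq hij a0 c q p)) := by rw [act_act, U_Tq]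
    simp only [ch, ga, h3]
    refine mul_le_mul_of_nonneg_right ?_ (ind_bound _ _).1
    have hcq : clip q.2 = q.2 := by
      obtain ⟨ha, hb⟩ := abs_le.1 hq
      unfold clip
      rw [min_eq_right hb, max_eq_right ha]
    rw [hcq]
    set Z := cz (act x (U hij a0 (Tq hij a0 c q p))) with hZ
    have h2c : (0:ℝ) < (2:ℝ) ^ c := Real.rpow_pos_of_pos two_pos _
    have h4 : q.2 - (2 : ℝ) ^ c * (Z - p.2) = (2 : ℝ) ^ c * ((Tq hij a0 c q p).2 - Z) := by
      have h5 : (Tq hij a0 c q p).2 = p.2 + (2 : ℝ) ^ (-c) * q.2 := rfl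
      rw [h5, Real.rpow_neg two_pos.le]
      field_simp
      ring
    refine le_min ?_ ?_
    · have := clip_two hq ((2 : ℝ) ^ c * (Z - p.2))
      linarith
    · have := clip_close hq ((2 : ℝ) ^ c * (Z - p.2))
      rw [h4, abs_mul, abs_of_pos h2c] at this
      linarith
  rw [abs_le] at h1
  linarith [h1.2]

/-- Step 3: the cost in the big window is small, if the posterior is concentrated on `Bad` -/
theorem step_big (hBad : MeasurableSet Bad) (hcz : Measurable cz) {b : ℕ} [NeZero b] {a η : ℝ}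
    (ha : 0 ≤ a) (hη : 0 ≤ η)
    (hB : ∀ z ∈ Bad, ∑ d : Fin b, pv (lab μ κ hij a0 b) d z *
      (if a < |cen b d - cz z| then 1 else 0) ≤ η) :
    ∫ w, ch hij a0 c Bad cz w ∂(μ.prod (κ.prod uni)) ≤ 2 * (2 : ℝ) ^ c * (a + 1 / b) + 4 * η := by
  have hb : 0 < b := Nat.pos_of_ne_zero (NeZero.ne b)
  have hb' : (0:ℝ) < b := by exact_mod_cast hb
  have h2c : (0:ℝ) < (2:ℝ) ^ c := Real.rpow_pos_of_pos two_pos _
  set ρ := lab μ κ hij a0 b with hρ
  set K : ℝ := 2 * (2 : ℝ) ^ c * (a + 1 / b) with hK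
  have hK0 : 0 ≤ K := by positivity
  have htot : tot ρ = stp μ (cv κ (dl hij a0)) := tot_lab_eq μ κ hij a0 hb
  have hP1 : IsProbabilityMeasure (tot ρ) := by rw [htot]; infer_instance
  set G : Fin b → ModSpace n → ℝ := fun d z =>
    (K + 4 * (if a < |cen b d - cz z| then 1 else 0)) * Bad.indicator (fun _ => (1 : ℝ)) z with hG
  have hGm : ∀ d, Measurable (G d) := fun d => by
    refine Measurable.mul (measurable_const.add (Measurable.const_mul ?_ _)) (meas_ind hBad)
    exact Measurable.ite (measurableSet_lt measurable_const (measurable_const.sub hcz).abs)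
      measurable_const measurable_const
  have hGb : ∀ d z, 0 ≤ G d z ∧ G d z ≤ K + 4 := fun d z => by
    have h1 := ind_bound Bad z
    have h2 : (0:ℝ) ≤ (if a < |cen b d - cz z| then 1 else 0) ∧
        (if a < |cen b d - cz z| then (1:ℝ) else 0) ≤ 1 := by split_ifs <;> norm_num
    simp only [hG]
    constructor
    · exact mul_nonneg (by linarith [h2.1]) h1.1
    · calc _ ≤ (K + 4 * (if a < |cen b d - cz z| then 1 else 0)) * 1 :=
          mul_le_mul_of_nonneg_left h1.2 (by linarith [h2.1])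
        _ ≤ _ := by linarith [h2.2]
  have hGb' : ∀ d z, |G d z| ≤ K + 4 := fun d z => by
    rw [abs_of_nonneg (hGb d z).1]; exact (hGb d z).2
  have hchm := measurable_ch hij a0 c hBad hcz
  have hchb : ∀ p, |ch hij a0 c Bad cz p| ≤ 4 := fun p => by
    have := ch_bound (Bad := Bad) (cz := cz) hij a0 c p
    rw [abs_of_nonneg this.1]; exact this.2
  rw [split3 μ κ hb hchm hchb]
  have h1 : ∀ d : Fin b, (b : ℝ)⁻¹ * ∫ w, ch hij a0 c Bad cz (w.1, (w.2.1, cen b d + w.2.2 / b))
      ∂(μ.prod (κ.prod uni)) ≤ ∫ z, G d z ∂(ρ d) := by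
    intro d
    rw [hρ, integral_lab3 μ κ hij a0 d (hGm d) (hGb' d)]
    refine mul_le_mul_of_nonneg_left ?_ (by positivity)
    have hmd : Measurable fun w : ModSpace n × (SLR n × ℝ) =>
        ((w.1, (w.2.1, cen b d + w.2.2 / b)) : ModSpace n × (SLR n × ℝ)) := by fun_prop
    refine integral_mono_ae (bdd_integrable (hchm.comp hmd) fun w => hchb _)
      (bdd_integrable (M := K + 4) ((hGm d).comp (measurable_act₂.comp (measurable_fst.prodMk
        ((measurable_U hij a0).comp (measurable_snd.comp hmd))))) fun w => hGb' d _) ?_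
    filter_upwards [ae_P3 μ κ] with w hw
    simp only [ch, hG]
    refine mul_le_mul_of_nonneg_right ?_ (ind_bound _ _).1
    set Z := cz (act w.1 (U hij a0 (w.2.1, cen b d + w.2.2 / b))) with hZ
    split_ifs with hif
    · refine (min_le_left _ _).trans ?_
      linarith
    · refine (min_le_right _ _).trans ?_
      push Not at hif
      have h3 : |w.2.2 / (b:ℝ)| ≤ 1 / b := by
        rw [abs_div, abs_of_pos hb']
        gcongr
      have h4 : |cen b d + w.2.2 / b - Z| ≤ a + 1 / b := by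
        have := abs_add_le (cen b d - Z) (w.2.2 / b)
        have h5 : cen b d + w.2.2 / b - Z = cen b d - Z + w.2.2 / b := by ring
        rw [h5]
        linarith
      rw [hK]
      nlinarith [mul_le_mul_of_nonneg_left h4 h2c.le]
  rw [mul_sum]
  refine (sum_le_sum fun d _ => h1 d).trans ?_
  have hint : ∀ d, Integrable (fun z => pv ρ d z * G d z) (tot ρ) := fun d => by
    refine bdd_integrable (M := K + 4) ((measurable_pv ρ d).mul (hGm d)) fun z => ?_
    rw [abs_mul, abs_of_nonneg (pv_nonneg ρ d z), abs_of_nonneg (hGb d z).1]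
    have h1 := pv_le_one ρ d z
    have h3 := pv_nonneg ρ d z
    nlinarith [(hGb d z).1, (hGb d z).2]
  have h2 : ∫ z, ∑ d, pv ρ d z * G d z ∂(tot ρ) = ∑ d, ∫ z, G d z ∂(ρ d) := by
    rw [integral_finsetSum _ fun d _ => hint d]
    exact sum_congr rfl fun d _ => integral_pv_mul ρ d _
  rw [← h2]
  have h3 : ∫ z, ∑ d, pv ρ d z * G d z ∂(tot ρ) ≤ ∫ _, (K + 4 * η) ∂(tot ρ) := by
    refine integral_mono (integrable_finsetSum _ fun d _ => hint d) (integrable_const _) fun z => ?_
    simp only [hG]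
    by_cases hz : z ∈ Bad
    · have h4 : ∑ d, pv ρ d z * ((K + 4 * (if a < |cen b d - cz z| then 1 else 0)) *
          Bad.indicator (fun _ => (1 : ℝ)) z)
          = K + 4 * ∑ d, pv ρ d z * (if a < |cen b d - cz z| then 1 else 0) := by
        have h5 : K = ∑ d, pv ρ d z * K := by rw [← sum_mul, sum_pv, one_mul]
        rw [Set.indicator_of_mem hz, mul_sum]
        conv_rhs => rw [h5]
        rw [← sum_add_distrib]
        exact sum_congr rfl fun d _ => by ring
      rw [h4]
      have := hB z hz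
      linarith
    · simp only [Set.indicator_of_notMem hz, mul_zero, sum_const_zero]
      linarith
  simpa using h3

/-- **(NC), one depth.** -/
theorem nc_one (hBad : MeasurableSet Bad) (hcz : Measurable cz) {b m : ℕ} [NeZero b] [NeZero m]
    {a η e : ℝ} (ha : 0 ≤ a) (hη : 0 ≤ η)
    (hB : ∀ z ∈ Bad, ∑ d : Fin b, pv (lab μ κ hij a0 b) d z *
      (if a < |cen b d - cz z| then 1 else 0) ≤ η)
    (hT : ∀ᵐ q ∂(κ'.prod uni), TVle ((κ.prod uni).map (Tq hij a0 c q)) (κ.prod uni) e) :
    ∫ x, Qb κ hij a0 Bad x * Acv μ κ' hij (a0 + c) m x ∂μ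
      ≤ 2 * (2 : ℝ) ^ c * (a + 1 / b) + 4 * η + 2 / m + 10 * e := by
  have hm : 0 < m := Nat.pos_of_ne_zero (NeZero.ne m)
  set ρ := lab μ κ' hij (a0 + c) m with hρ
  have htot : tot ρ = stp μ (cv κ' (dl hij (a0 + c))) := tot_lab_eq μ κ' hij _ hm
  have hQm := measurable_Qb κ hij a0 hBad
  have hQ := Qb_bound (Bad := Bad) κ hij a0
  have hUm := measurable_U (n := n) hij (a0 + c)
  -- `P(Bad | x) ≤ P(Bad | y) + e`
  have h1 : ∀ x, Qb κ hij a0 Bad x * Acv μ κ' hij (a0 + c) m x
      ≤ ∫ q, ps ρ (act x (U hij (a0 + c) q)) * Qb κ hij a0 Bad (act x (U hij (a0 + c) q))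
        ∂(κ'.prod uni) + 2 * e := by
    intro x
    have e1 : Acv μ κ' hij (a0 + c) m x = ∫ q, ps ρ (act x (U hij (a0 + c) q)) ∂(κ'.prod uni) :=
      Av_eq ρ κ' hij (a0 + c) x
    have hmx : Measurable fun q : SLR n × ℝ => act x (U hij (a0 + c) q) :=
      measurable_act₂.comp (measurable_prodMk_left.comp hUm)
    have hi1 : Integrable (fun q => ps ρ (act x (U hij (a0 + c) q))) (κ'.prod uni) :=
      bdd_integrable ((measurable_ps ρ).comp hmx) (M := 2) fun q => abs_ps_le ρ _
    have hi2 : Integrable (fun q => ps ρ (act x (U hij (a0 + c) q)) *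
        Qb κ hij a0 Bad (act x (U hij (a0 + c) q))) (κ'.prod uni) := by
      refine bdd_integrable (M := 2) (((measurable_ps ρ).comp hmx).mul (hQm.comp hmx)) fun q => ?_
      rw [abs_mul, abs_of_nonneg (hQ _).1]
      have := abs_ps_le ρ (act x (U hij (a0 + c) q))
      nlinarith [abs_nonneg (ps ρ (act x (U hij (a0 + c) q))), (hQ (act x (U hij (a0 + c) q))).1,
        (hQ (act x (U hij (a0 + c) q))).2]
    have e2 : ∫ q, ps ρ (act x (U hij (a0 + c) q)) * Qb κ hij a0 Bad (act x (U hij (a0 + c) q))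
        ∂(κ'.prod uni) + 2 * e = ∫ q, (ps ρ (act x (U hij (a0 + c) q)) *
          Qb κ hij a0 Bad (act x (U hij (a0 + c) q)) + 2 * e) ∂(κ'.prod uni) := by
      rw [integral_add hi2 (integrable_const _)]
      simp
    rw [e1, e2, ← integral_const_mul]
    refine integral_mono_ae (hi1.const_mul _) (hi2.add (integrable_const _)) ?_
    filter_upwards [hT] with q hq
    have hmq := measurable_Tq (n := n) hij a0 c q
    set A : Set (SLR n × ℝ) := {p | act x (U hij a0 p) ∈ Bad} with hA
    have hAm : MeasurableSet A :=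
      (measurable_act₂.comp (measurable_prodMk_left.comp (measurable_U hij a0))) hBad
    have e3 : ∀ (y : ModSpace n), Qb κ hij a0 Bad y
        = (κ.prod uni).real {p | act y (U hij a0 p) ∈ Bad} := by
      intro y
      have hAy : MeasurableSet {p : SLR n × ℝ | act y (U hij a0 p) ∈ Bad} :=
        (measurable_act₂.comp (measurable_prodMk_left.comp (measurable_U hij a0))) hBad
      rw [← integral_indicator_one hAy]
      rfl
    have e4 : (κ.prod uni).real {p | act (act x (U hij (a0 + c) q)) (U hij a0 p) ∈ Bad}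
        = ((κ.prod uni).map (Tq hij a0 c q)).real A := by
      rw [map_measureReal_apply hmq hAm]
      congr 1
      ext p
      simp only [hA, Set.mem_ofPred_eq, Set.mem_preimage]
      rw [act_act, U_Tq]
    have e5 := hq A hAm
    rw [← e4, ← e3, ← e3, abs_le] at e5
    have e6 := ps_nonneg ρ (act x (U hij (a0 + c) q))
    have e7 := ps_le ρ (act x (U hij (a0 + c) q))
    have e8 : 0 ≤ e := hq.nonneg
    nlinarith [e5.1, mul_le_mul_of_nonneg_right e7 e8]
  have hAm' : Measurable (Acv μ κ' hij (a0 + c) m) := measurable_Av _ _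
  have hAb : ∀ x, 0 ≤ Acv μ κ' hij (a0 + c) m x ∧ Acv μ κ' hij (a0 + c) m x ≤ 2 := fun x =>
    ⟨Av_nonneg _ _ x, Av_le _ _ x⟩
  -- the function of `y`
  set F : ModSpace n → ℝ := fun y => ps ρ y * Qb κ hij a0 Bad y with hF
  have hFm : Measurable F := (measurable_ps ρ).mul hQm
  have hFb : ∀ y, |F y| ≤ 2 := fun y => by
    rw [hF, abs_mul, abs_of_nonneg (hQ y).1]
    have := abs_ps_le ρ y
    nlinarith [abs_nonneg (ps ρ y), (hQ y).1, (hQ y).2]
  have e9 : ∫ x, ∫ q, F (act x (U hij (a0 + c) q)) ∂(κ'.prod uni) ∂μ = ∫ y, F y ∂(tot ρ) := by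
    rw [htot, integral_stp μ _ hFm hFb]
    refine integral_congr_ae (Filter.Eventually.of_forall fun x => ?_)
    simp only
    rw [cv_dl_eq, integral_map hUm.aemeasurable]
    exact (hFm.comp (measurable_act₂.comp measurable_prodMk_left)).aestronglyMeasurable
  have hmF : Measurable fun x => ∫ q, F (act x (U hij (a0 + c) q)) ∂(κ'.prod uni) :=
    ((hFm.comp (meas_actU hij (a0 + c))).stronglyMeasurable.integral_prod_right').measurable
  have hbF : ∀ x, |∫ q, F (act x (U hij (a0 + c) q)) ∂(κ'.prod uni)| ≤ 2 := fun x => by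
    have h := norm_integral_le_of_norm_le_const (μ := κ'.prod uni) (C := 2)
      (f := fun q => F (act x (U hij (a0 + c) q))) (Filter.Eventually.of_forall fun h => by
        rw [Real.norm_eq_abs]; exact hFb _)
    simpa using h
  have h2 : ∫ x, Qb κ hij a0 Bad x * Acv μ κ' hij (a0 + c) m x ∂μ
      ≤ ∫ y, F y ∂(tot ρ) + 2 * e := by
    have h3 : ∫ y, F y ∂(tot ρ) + 2 * e
        = ∫ x, (∫ q, F (act x (U hij (a0 + c) q)) ∂(κ'.prod uni) + 2 * e) ∂μ := by
      rw [integral_add (bdd_integrable hmF hbF) (integrable_const _), e9]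
      simp
    rw [h3]
    refine integral_mono (bdd_integrable (M := 2) (hQm.mul hAm') fun x => ?_)
      ((bdd_integrable hmF hbF).add (integrable_const _)) h1
    rw [abs_mul, abs_of_nonneg (hQ x).1, abs_of_nonneg (hAb x).1]
    nlinarith [(hQ x).1, (hQ x).2, (hAb x).1, (hAb x).2]
  refine h2.trans ?_
  have h4 := step_small μ κ κ' hij a0 c hBad hcz (m := m) (a0 + c)
  have h5 : ∫ w, Ph κ hij a0 c Bad cz (act w.1 (U hij (a0 + c) w.2)) (clip w.2.2)
      ∂(μ.prod (κ'.prod uni)) ≤ ∫ w, ch hij a0 c Bad cz w ∂(μ.prod (κ.prod uni)) + 8 * e := by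
    have hchm := measurable_ch hij a0 c hBad hcz
    have hchb : ∀ p, |ch hij a0 c Bad cz p| ≤ 4 := fun p => by
      have := ch_bound (Bad := Bad) (cz := cz) hij a0 c p
      rw [abs_of_nonneg this.1]; exact this.2
    have hPm : Measurable fun w : ModSpace n × (SLR n × ℝ) =>
        Ph κ hij a0 c Bad cz (act w.1 (U hij (a0 + c) w.2)) (clip w.2.2) :=
      (measurable_Ph κ hij a0 c hBad hcz).comp ((meas_actU hij (a0 + c)).prodMk
        (measurable_clip.comp (measurable_snd.comp measurable_snd)))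
    have hPb : ∀ w : ModSpace n × (SLR n × ℝ),
        |Ph κ hij a0 c Bad cz (act w.1 (U hij (a0 + c) w.2)) (clip w.2.2)| ≤ 4 := fun w => by
      have := Ph_bound (Bad := Bad) (cz := cz) κ hij a0 c (act w.1 (U hij (a0 + c) w.2))
        (clip w.2.2)
      rw [abs_of_nonneg this.1]
      linarith [this.2, clip_mem w.2.2]
    have hmch : Measurable fun x => ∫ p, ch hij a0 c Bad cz (x, p) ∂(κ.prod uni) :=
      (hchm.stronglyMeasurable.integral_prod_right').measurable
    have hbch : ∀ x, |∫ p, ch hij a0 c Bad cz (x, p) ∂(κ.prod uni)| ≤ 4 := fun x => by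
      have h := norm_integral_le_of_norm_le_const (μ := κ.prod uni) (C := 4)
        (f := fun p => ch hij a0 c Bad cz (x, p)) (Filter.Eventually.of_forall fun h => by
          rw [Real.norm_eq_abs]; exact hchb _)
      simpa using h
    have e10 : ∫ w, ch hij a0 c Bad cz w ∂(μ.prod (κ.prod uni)) + 8 * e
        = ∫ w, (∫ p, ch hij a0 c Bad cz (w.1, p) ∂(κ.prod uni) + 8 * e)
          ∂(μ.prod (κ'.prod uni)) := by
      set R : ModSpace n → ℝ := fun x => ∫ p, ch hij a0 c Bad cz (x, p) ∂(κ.prod uni) with hR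
      have hRi : Integrable (fun w : ModSpace n × (SLR n × ℝ) => R w.1) (μ.prod (κ'.prod uni)) :=
        bdd_integrable (hmch.comp measurable_fst) fun w => hbch _
      have e13 : ∫ w : ModSpace n × (SLR n × ℝ), (R w.1 + 8 * e) ∂(μ.prod (κ'.prod uni))
          = ∫ w : ModSpace n × (SLR n × ℝ), R w.1 ∂(μ.prod (κ'.prod uni)) + 8 * e := by
        rw [integral_add hRi (integrable_const _)]
        simp
      have e11 : ∫ w : ModSpace n × (SLR n × ℝ), R w.1 ∂(μ.prod (κ'.prod uni))
          = ∫ x, R x ∂μ := by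
        rw [integral_prod _ hRi]
        simp
      rw [e13, e11, integral_prod _ (bdd_integrable hchm hchb)]
    rw [e10]
    refine integral_mono_ae (bdd_integrable hPm hPb)
      ((bdd_integrable (hmch.comp measurable_fst) fun w => hbch _).add (integrable_const _)) ?_
    have e12 : ∀ᵐ w ∂(μ.prod (κ'.prod uni)),
        TVle ((κ.prod uni).map (Tq hij a0 c w.2)) (κ.prod uni) e :=
      Measure.quasiMeasurePreserving_snd.ae hT
    filter_upwards [e12, ae_P3 μ κ'] with w hw1 hw2
    exact step_transfer κ hij a0 c hBad hcz w.1 hw2 hw1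
  have h6 := step_big μ κ hij a0 c hBad hcz ha hη hB
  linarith

end Main

end Crest.Agent.R014.DEnd3_667
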