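import Crest.Agent.R014.DEnd2_935

/-!
# Row 14, block D, END (noise formalism): the four-cycle argument, averaged over labels

Constants do not depend on the number of labels: the swap hypothesis is summed over all pairs of
labels, the closed walk `i0 - k - i - k' - i' - k - i0` is summed over all quintuples.
-/

namespace Crest.Agent.R014.DEnd3_935

open MeasureTheory DEnd2_935
open scoped BigOperators

/-- test functions: measurable, bounded by one, oscillation at most `ω` on scale `k0` -/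
structure Tm {Z : Type*} [MeasurableSpace Z] (k0 ω : ℝ) (F : Z → ℝ → ℝ) : Prop where
  meas : Measurable (fun p : Z × ℝ => F p.1 p.2)
  le : ∀ z x, |F z x| ≤ 1
  md : ∀ z x y, |x - y| ≤ k0 → |F z x - F z y| ≤ ω

section Basic
variable {Z : Type*} [MeasurableSpace Z] {k0 ω : ℝ} {F : Z → ℝ → ℝ}

theorem Tm.shift (hF : Tm k0 ω F) (c : ℝ) : Tm k0 ω (fun z x => F z (x + c)) where
  meas := hF.meas.comp (measurable_fst.prodMk (measurable_snd.add_const c))
  le z x := hF.le _ _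
  md z x y h := hF.md z (x + c) (y + c) (by rwa [add_sub_add_right_eq_sub])

theorem Tm.zero (hω : 0 ≤ ω) : Tm k0 ω (fun (_ : Z) (_ : ℝ) => (0:ℝ)) where
  meas := measurable_const
  le z x := by simp
  md z x y _ := by simpa using hω

theorem Tm.sum {J : Type*} [Fintype J] (hω : 0 ≤ ω) {H : J → Z → ℝ} (hH : ∀ j, Wt (H j))
    (h1 : ∀ y, ∑ j, H j y ≤ 1) {Φ : J → Z → ℝ → ℝ} (hΦ : ∀ j, Tm k0 ω (Φ j)) {s : J → ℝ}
    (hs : ∀ j, |s j| ≤ 1) : Tm k0 ω (fun z x => ∑ j, s j * (H j z * Φ j z x)) where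
  meas := Finset.measurable_sum _ (fun j _ =>
    measurable_const.mul (((hH j).meas.comp measurable_fst).mul (hΦ j).meas))
  le z x := by
    refine (Finset.abs_sum_le_sum_abs _ _).trans ((Finset.sum_le_sum fun j _ => ?_).trans (h1 z))
    rw [abs_mul, abs_mul, abs_of_nonneg ((hH j).nonneg z)]
    calc |s j| * (H j z * |Φ j z x|) ≤ 1 * (H j z * 1) :=
          mul_le_mul (hs j) (mul_le_mul_of_nonneg_left ((hΦ j).le z x) ((hH j).nonneg z))
            (mul_nonneg ((hH j).nonneg z) (abs_nonneg _)) zero_le_one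
      _ = H j z := by ring
  md z x y hxy := by
    rw [← Finset.sum_sub_distrib]
    refine (Finset.abs_sum_le_sum_abs _ _).trans ?_
    have h2 : ∑ j, H j z * ω ≤ ω := by
      rw [← Finset.sum_mul]
      calc (∑ j, H j z) * ω ≤ 1 * ω := mul_le_mul_of_nonneg_right (h1 z) hω
        _ = ω := one_mul _
    refine (Finset.sum_le_sum fun j _ => ?_).trans h2
    rw [← mul_sub, ← mul_sub, abs_mul, abs_mul, abs_of_nonneg ((hH j).nonneg z)]
    calc |s j| * (H j z * |Φ j z x - Φ j z y|) ≤ 1 * (H j z * ω) :=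
          mul_le_mul (hs j) (mul_le_mul_of_nonneg_left ((hΦ j).md z x y hxy) ((hH j).nonneg z))
            (mul_nonneg ((hH j).nonneg z) (abs_nonneg _)) zero_le_one
      _ = H j z * ω := one_mul _

/-- bounded measurable functions are integrable -/
theorem intg {Y : Type*} [MeasurableSpace Y] {ν : Measure Y} [IsFiniteMeasure ν] {f : Y → ℝ}
    (hf : Measurable f) (h1 : ∀ y, |f y| ≤ 1) : Integrable f ν :=
  Integrable.of_bound hf.aestronglyMeasurable 1 (Filter.Eventually.of_forall fun y => by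
    rw [Real.norm_eq_abs]; exact h1 y)

theorem intg_wt {ν : Measure (Z × ℝ)} [IsFiniteMeasure ν] {g : Z → ℝ} (hg : Wt g)
    (hF : Tm k0 ω F) : Integrable (fun x : Z × ℝ => g x.1 * F x.1 x.2) ν :=
  intg ((hg.meas.comp measurable_fst).mul hF.meas) fun y => by
    rw [abs_mul, abs_of_nonneg (hg.nonneg _)]
    exact mul_le_one₀ (hg.le _) (abs_nonneg _) (hF.le _ _)

end Basic

/-- swap data -/
structure Sw {Z ι κ : Type*} [MeasurableSpace Z] [Fintype ι] [Fintype κ]
    (M1 : ι → Measure (Z × ℝ)) (M2 : κ → Measure (Z × ℝ)) (S : ι → ℝ) (T : κ → ℝ)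
    (p : ι → Z → ℝ) (q : κ → Z → ℝ) (k0 ω e : ℝ) : Prop where
  hp : ∀ i, Wt (p i)
  hq : ∀ k, Wt (q k)
  sp : ∀ y, ∑ i, p i y ≤ 1
  sq : ∀ y, ∑ k, q k y ≤ 1
  ω0 : 0 ≤ ω
  sw : ∀ Ψ : ι → κ → Z → ℝ → ℝ, (∀ i k, Tm k0 ω (Ψ i k)) →
    |∑ i, ∑ k, ((∫ x, q k x.1 * Ψ i k x.1 x.2 ∂(M1 i))
      - ∫ x, p i x.1 * Ψ i k x.1 (x.2 + S i * T k) ∂(M2 k))| ≤ e

section
variable {Z ι κ : Type*} [MeasurableSpace Z] [Fintype ι] [Fintype κ]
  {M1 : ι → Measure (Z × ℝ)} {M2 : κ → Measure (Z × ℝ)} [∀ i, IsFiniteMeasure (M1 i)]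
  [∀ k, IsFiniteMeasure (M2 k)] {S : ι → ℝ} {T : κ → ℝ}
  {p : ι → Z → ℝ} {q : κ → Z → ℝ} {k0 ω e : ℝ}

theorem Sw.sum (D : Sw M1 M2 S T p q k0 ω e) {J : Type*} [Fintype J] (H : ι → κ → J → Z → ℝ)
    (hH : ∀ i k j, Wt (H i k j)) (h1 : ∀ i k y, ∑ j, H i k j y ≤ 1)
    (Φ : ι → κ → J → Z → ℝ → ℝ) (hΦ : ∀ i k j, Tm k0 ω (Φ i k j)) :
    ∑ i, ∑ k, ∑ j, |(∫ x, q k x.1 * (H i k j x.1 * Φ i k j x.1 x.2) ∂(M1 i))
      - ∫ x, p i x.1 * (H i k j x.1 * Φ i k j x.1 (x.2 + S i * T k)) ∂(M2 k)| ≤ e := by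
  set d : ι → κ → J → ℝ := fun i k j => (∫ x, q k x.1 * (H i k j x.1 * Φ i k j x.1 x.2) ∂(M1 i))
      - ∫ x, p i x.1 * (H i k j x.1 * Φ i k j x.1 (x.2 + S i * T k)) ∂(M2 k) with hd
  set s : ι → κ → J → ℝ := fun i k j => if 0 ≤ d i k j then 1 else -1 with hs
  have hs1 : ∀ i k j, |s i k j| ≤ 1 := fun i k j => by
    rw [hs]; dsimp only; split_ifs <;> simp
  have hsd : ∀ i k j, s i k j * d i k j = |d i k j| := fun i k j => by
    rw [hs]; dsimp only
    split_ifs with h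
    · rw [one_mul, abs_of_nonneg h]
    · rw [abs_of_neg (not_le.1 h)]; ring
  have key := D.sw (fun i k z x => ∑ j, s i k j * (H i k j z * Φ i k j z x))
    (fun i k => Tm.sum D.ω0 (hH i k) (h1 i k) (hΦ i k) (hs1 i k))
  refine le_trans (le_of_eq ?_) ((le_abs_self _).trans key)
  refine Finset.sum_congr rfl fun i _ => Finset.sum_congr rfl fun k _ => ?_
  have e1 : ∀ x : Z × ℝ, q k x.1 * ∑ j, s i k j * (H i k j x.1 * Φ i k j x.1 x.2)
      = ∑ j, s i k j * (q k x.1 * (H i k j x.1 * Φ i k j x.1 x.2)) := fun x => by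
    rw [Finset.mul_sum]; exact Finset.sum_congr rfl fun j _ => by ring
  have e2 : ∀ x : Z × ℝ, p i x.1 * ∑ j, s i k j * (H i k j x.1 * Φ i k j x.1 (x.2 + S i * T k))
      = ∑ j, s i k j * (p i x.1 * (H i k j x.1 * Φ i k j x.1 (x.2 + S i * T k))) := fun x => by
    rw [Finset.mul_sum]; exact Finset.sum_congr rfl fun j _ => by ring
  have i1 : ∀ j, Integrable (fun x : Z × ℝ => q k x.1 * (H i k j x.1 * Φ i k j x.1 x.2)) (M1 i) :=
    fun j => by
      have := intg_wt (ν := M1 i) ((D.hq k).mul (hH i k j)) (hΦ i k j)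
      simpa only [mul_assoc] using this
  have i2 : ∀ j, Integrable (fun x : Z × ℝ => p i x.1 * (H i k j x.1 *
      Φ i k j x.1 (x.2 + S i * T k))) (M2 k) := fun j => by
      have := intg_wt (ν := M2 k) ((D.hp i).mul (hH i k j)) ((hΦ i k j).shift (S i * T k))
      simpa only [mul_assoc] using this
  simp only [e1, e2]
  rw [integral_finsetSum _ (fun j _ => (i1 j).const_mul _),
    integral_finsetSum _ (fun j _ => (i2 j).const_mul _), ← Finset.sum_sub_distrib]
  refine Finset.sum_congr rfl fun j _ => ?_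
  rw [integral_const_mul, integral_const_mul, ← mul_sub]
  exact (hsd i k j).symm

/-- one step of the walk, summed over all quintuples -/
theorem Sw.step (D : Sw M1 M2 S T p q k0 ω e)
    (E : ι × (ι × ι × κ × κ) ≃ ι × κ × (ι × ι × κ)) (G : (ι × ι × κ × κ) → Z → ℝ)
    (hG : ∀ j, Wt (G j)) (F : (ι × ι × κ × κ) → Z → ℝ → ℝ) (hF : ∀ j, Tm k0 ω (F j))
    (c : ι × (ι × ι × κ × κ) → ℝ) :
    ∑ t, |(∫ x, q (E t).2.1 x.1 * ((p (E t).2.2.1 x.1 * p (E t).2.2.2.1 x.1
        * q (E t).2.2.2.2 x.1 * G t.2 x.1) * F t.2 x.1 (x.2 + c t)) ∂(M1 (E t).1))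
      - ∫ x, p (E t).1 x.1 * ((p (E t).2.2.1 x.1 * p (E t).2.2.2.1 x.1
        * q (E t).2.2.2.2 x.1 * G t.2 x.1) * F t.2 x.1 (x.2 + S (E t).1 * T (E t).2.1 + c t))
          ∂(M2 (E t).2.1)| ≤ e := by
  set H : ι → κ → (ι × ι × κ) → Z → ℝ := fun a b j y =>
    p j.1 y * p j.2.1 y * q j.2.2 y * G (E.symm (a, b, j)).2 y with hH
  have hHW : ∀ a b j, Wt (H a b j) := fun a b j =>
    (((D.hp _).mul (D.hp _)).mul (D.hq _)).mul (hG _)
  have h1 : ∀ a b y, ∑ j, H a b j y ≤ 1 := by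
    intro a b y
    have hP := D.sp y
    have hQ := D.sq y
    have p0 : 0 ≤ ∑ i, p i y := Finset.sum_nonneg fun i _ => (D.hp i).nonneg y
    have q0 : 0 ≤ ∑ k, q k y := Finset.sum_nonneg fun i _ => (D.hq i).nonneg y
    calc ∑ j, H a b j y ≤ ∑ j : ι × ι × κ, p j.1 y * (p j.2.1 y * q j.2.2 y) := by
          refine Finset.sum_le_sum fun j _ => ?_
          rw [hH]; dsimp only
          have := (((D.hp j.1).mul (D.hp j.2.1)).mul (D.hq j.2.2)).nonneg y
          calc _ ≤ p j.1 y * p j.2.1 y * q j.2.2 y * 1 :=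
                mul_le_mul_of_nonneg_left ((hG _).le y) this
            _ = _ := by ring
      _ = (∑ i, p i y) * ((∑ i, p i y) * ∑ k, q k y) := by
          rw [Fintype.sum_prod_type, Finset.sum_mul]
          refine Finset.sum_congr rfl fun i _ => ?_
          dsimp only
          rw [← Finset.mul_sum, Fintype.sum_prod_type, Finset.sum_mul]
          congr 1
          refine Finset.sum_congr rfl fun i' _ => ?_
          dsimp only
          rw [← Finset.mul_sum]
      _ ≤ 1 := mul_le_one₀ hP (mul_nonneg p0 q0) (mul_le_one₀ hP q0 hQ)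
  have key := D.sum H hHW h1 (fun a b j z x => F (E.symm (a, b, j)).2 z (x + c (E.symm (a, b, j))))
    (fun a b j => (hF _).shift _)
  refine le_trans (le_of_eq ?_) key
  have r1 : ∀ f : ι → κ → (ι × ι × κ) → ℝ,
      ∑ i, ∑ k, ∑ j, f i k j = ∑ u : ι × κ × (ι × ι × κ), f u.1 u.2.1 u.2.2 := by
    intro f
    rw [Fintype.sum_prod_type]
    refine Finset.sum_congr rfl fun i _ => ?_
    rw [Fintype.sum_prod_type]
  rw [r1]
  refine Fintype.sum_equiv E _ _ fun t => ?_
  have e0 : ((E t).1, (E t).2.1, (E t).2.2) = E t := rfl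
  simp only [hH, e0, Equiv.symm_apply_apply]

/-- the shift of a quadruple -/
def th (S : ι → ℝ) (T : κ → ℝ) (j : ι × ι × κ × κ) : ℝ := (S j.1 - S j.2.1) * (T j.2.2.1 - T j.2.2.2)

/-- the weight of a quadruple -/
def om (p : ι → Z → ℝ) (q : κ → Z → ℝ) (G : (ι × ι × κ × κ) → Z → ℝ) (j : ι × ι × κ × κ) (y : Z) : ℝ :=
  p j.1 y * p j.2.1 y * q j.2.2.1 y * q j.2.2.2 y * G j y

omit [∀ i, IsFiniteMeasure (M1 i)] [∀ k, IsFiniteMeasure (M2 k)] in
theorem Sw.om_wt (D : Sw M1 M2 S T p q k0 ω e) {G : (ι × ι × κ × κ) → Z → ℝ}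
    (hG : ∀ j, Wt (G j)) (j : ι × ι × κ × κ) : Wt (om p q G j) :=
  ((((D.hp _).mul (D.hp _)).mul (D.hq _)).mul (D.hq _)).mul (hG _)

/-- **the closed walk, summed over all quintuples** -/
theorem Sw.six (D : Sw M1 M2 S T p q k0 ω e) (G : (ι × ι × κ × κ) → Z → ℝ)
    (hG : ∀ j, Wt (G j)) (F : (ι × ι × κ × κ) → Z → ℝ → ℝ) (hF : ∀ j, Tm k0 ω (F j)) :
    ∑ t : ι × (ι × ι × κ × κ), |(∫ x, om p q G t.2 x.1 * F t.2 x.1 x.2 ∂(M1 t.1))
      - ∫ x, om p q G t.2 x.1 * F t.2 x.1 (x.2 - th S T t.2) ∂(M1 t.1)| ≤ 6 * e := by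
  -- the equivalences
  let E1 : ι × (ι × ι × κ × κ) ≃ ι × κ × (ι × ι × κ) :=
    ⟨fun t => (t.1, t.2.2.2.1, t.2.1, t.2.2.1, t.2.2.2.2),
      fun u => (u.1, u.2.2.1, u.2.2.2.1, u.2.1, u.2.2.2.2), fun _ => rfl, fun _ => rfl⟩
  let E2 : ι × (ι × ι × κ × κ) ≃ ι × κ × (ι × ι × κ) :=
    ⟨fun t => (t.2.1, t.2.2.2.1, t.1, t.2.2.1, t.2.2.2.2),
      fun u => (u.2.2.1, u.1, u.2.2.2.1, u.2.1, u.2.2.2.2), fun _ => rfl, fun _ => rfl⟩
  let E3 : ι × (ι × ι × κ × κ) ≃ ι × κ × (ι × ι × κ) :=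
    ⟨fun t => (t.2.1, t.2.2.2.2, t.1, t.2.2.1, t.2.2.2.1),
      fun u => (u.2.2.1, u.1, u.2.2.2.1, u.2.2.2.2, u.2.1), fun _ => rfl, fun _ => rfl⟩
  let E4 : ι × (ι × ι × κ × κ) ≃ ι × κ × (ι × ι × κ) :=
    ⟨fun t => (t.2.2.1, t.2.2.2.2, t.1, t.2.1, t.2.2.2.1),
      fun u => (u.2.2.1, u.2.2.2.1, u.1, u.2.2.2.2, u.2.1), fun _ => rfl, fun _ => rfl⟩
  let E5 : ι × (ι × ι × κ × κ) ≃ ι × κ × (ι × ι × κ) :=
    ⟨fun t => (t.2.2.1, t.2.2.2.1, t.1, t.2.1, t.2.2.2.2),
      fun u => (u.2.2.1, u.2.2.2.1, u.1, u.2.1, u.2.2.2.2), fun _ => rfl, fun _ => rfl⟩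
  have s1 := D.step E1 G hG F hF (fun _ => 0)
  have s2 := D.step E2 G hG F hF (fun t => S t.1 * T t.2.2.2.1 - S t.2.1 * T t.2.2.2.1)
  have s3 := D.step E3 G hG F hF (fun t => S t.1 * T t.2.2.2.1 - S t.2.1 * T t.2.2.2.1)
  have s4 := D.step E4 G hG F hF (fun t => S t.1 * T t.2.2.2.1 - S t.2.1 * T t.2.2.2.1
    + S t.2.1 * T t.2.2.2.2 - S t.2.2.1 * T t.2.2.2.2)
  have s5 := D.step E5 G hG F hF (fun t => S t.1 * T t.2.2.2.1 - S t.2.1 * T t.2.2.2.1
    + S t.2.1 * T t.2.2.2.2 - S t.2.2.1 * T t.2.2.2.2)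
  have s6 := D.step E1 G hG F hF (fun t => - th S T t.2)
  have hall := add_le_add (add_le_add (add_le_add s1 s2) (add_le_add s3 s4)) (add_le_add s5 s6)
  rw [← Finset.sum_add_distrib, ← Finset.sum_add_distrib, ← Finset.sum_add_distrib,
    ← Finset.sum_add_distrib, ← Finset.sum_add_distrib] at hall
  refine le_trans (Finset.sum_le_sum fun t _ => ?_) (hall.trans (le_of_eq (by ring)))
  obtain ⟨i0, i, i', k, k'⟩ := t
  simp only [E1, E2, E3, E4, E5, Equiv.coe_fn_mk]
  -- abbreviations for the integrals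
  have f1 : ∀ (ν : Measure (Z × ℝ)) (W W' : Z → ℝ) (c c' : ℝ), (∀ y, W y = W' y) → c = c' →
      ∫ x, W x.1 * F (i, i', k, k') x.1 (x.2 + c) ∂ν
        = ∫ x, W' x.1 * F (i, i', k, k') x.1 (x.2 + c') ∂ν := by
    intro ν W W' c c' h1 h2
    rw [h2]
    exact integral_congr_ae (Filter.Eventually.of_forall fun x => by
      dsimp only; rw [h1])
  -- canonical forms
  set A : ι → (Z → ℝ) → ℝ → ℝ := fun a W c =>
    ∫ x, W x.1 * F (i, i', k, k') x.1 (x.2 + c) ∂(M1 a) with hA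
  set B : κ → (Z → ℝ) → ℝ → ℝ := fun b W c =>
    ∫ x, W x.1 * F (i, i', k, k') x.1 (x.2 + c) ∂(M2 b) with hB
  set g : Z → ℝ := G (i, i', k, k') with hg
  set c1 : ℝ := S i0 * T k with hc1
  set c2 : ℝ := S i0 * T k - S i * T k with hc2
  set c3 : ℝ := S i0 * T k - S i * T k + S i * T k' with hc3
  set c4 : ℝ := S i0 * T k - S i * T k + S i * T k' - S i' * T k' with hc4
  set c5 : ℝ := S i0 * T k - S i * T k + S i * T k' - S i' * T k' + S i' * T k with hc5
  set θ : ℝ := th S T (i, i', k, k') with hθ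
  have hθ' : θ = (S i - S i') * (T k - T k') := rfl
  have a1 : ∀ (W : Z → ℝ) (c : ℝ) (a : ι) (b : κ) (V : Z → ℝ), (∀ y, q b y * V y = W y) →
      (∫ x, q b x.1 * (V x.1 * F (i, i', k, k') x.1 (x.2 + c)) ∂(M1 a)) = A a W c := by
    intro W c a b V hV
    rw [hA]
    refine integral_congr_ae (Filter.Eventually.of_forall fun x => ?_)
    dsimp only
    rw [← hV]; ring
  have b1 : ∀ (W : Z → ℝ) (c c' : ℝ) (a : ι) (b : κ) (V : Z → ℝ), (∀ y, p a y * V y = W y) →
      S a * T b + c = c' →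
      (∫ x, p a x.1 * (V x.1 * F (i, i', k, k') x.1 (x.2 + S a * T b + c)) ∂(M2 b)) = B b W c' := by
    intro W c c' a b V hV hc
    rw [hB]
    refine integral_congr_ae (Filter.Eventually.of_forall fun x => ?_)
    dsimp only
    rw [← hV, ← hc, ← add_assoc]; ring
  set W0 : Z → ℝ := fun y => p i y * p i' y * q k y * q k' y * g y with hW0
  set V1 : Z → ℝ := fun y => p i0 y * p i y * p i' y * q k' y * g y with hV1
  set W2 : Z → ℝ := fun y => p i0 y * p i' y * q k y * q k' y * g y with hW2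
  set V3 : Z → ℝ := fun y => p i0 y * p i y * p i' y * q k y * g y with hV3
  set W4 : Z → ℝ := fun y => p i0 y * p i y * q k y * q k' y * g y with hW4
  rw [a1 W0 0 i0 k (fun y => p i y * p i' y * q k' y * g y) (fun y => by rw [hW0]; ring),
    b1 V1 0 c1 i0 k (fun y => p i y * p i' y * q k' y * g y) (fun y => by rw [hV1]; ring)
      (by rw [hc1]; ring),
    a1 W2 c2 i k (fun y => p i0 y * p i' y * q k' y * g y) (fun y => by rw [hW2]; ring),
    b1 V1 c2 c1 i k (fun y => p i0 y * p i' y * q k' y * g y) (fun y => by rw [hV1]; ring)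
      (by rw [hc1, hc2]; ring),
    a1 W2 c2 i k' (fun y => p i0 y * p i' y * q k y * g y) (fun y => by rw [hW2]; ring),
    b1 V3 c2 c3 i k' (fun y => p i0 y * p i' y * q k y * g y) (fun y => by rw [hV3]; ring)
      (by rw [hc3, hc2]; ring),
    a1 W4 c4 i' k' (fun y => p i0 y * p i y * q k y * g y) (fun y => by rw [hW4]; ring),
    b1 V3 c4 c3 i' k' (fun y => p i0 y * p i y * q k y * g y) (fun y => by rw [hV3]; ring)
      (by rw [hc3, hc4]; ring),
    a1 W4 c4 i' k (fun y => p i0 y * p i y * q k' y * g y) (fun y => by rw [hW4]; ring),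
    b1 V1 c4 c5 i' k (fun y => p i0 y * p i y * q k' y * g y) (fun y => by rw [hV1]; ring)
      (by rw [hc5, hc4]; ring),
    a1 W0 (-θ) i0 k (fun y => p i y * p i' y * q k' y * g y) (fun y => by rw [hW0]; ring),
    b1 V1 (-θ) c5 i0 k (fun y => p i y * p i' y * q k' y * g y) (fun y => by rw [hV1]; ring)
      (by rw [hc5, hθ']; ring)]
  have l1 : (∫ x, om p q G (i, i', k, k') x.1 * F (i, i', k, k') x.1 x.2 ∂(M1 i0)) = A i0 W0 0 := by
    rw [hA]
    refine integral_congr_ae (Filter.Eventually.of_forall fun x => ?_)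
    dsimp only
    rw [add_zero]; rfl
  have l2 : (∫ x, om p q G (i, i', k, k') x.1 * F (i, i', k, k') x.1 (x.2 - θ) ∂(M1 i0))
      = A i0 W0 (-θ) := by
    rw [hA]
    refine integral_congr_ae (Filter.Eventually.of_forall fun x => ?_)
    dsimp only
    rw [← sub_eq_add_neg]; rfl
  rw [l1, l2]
  have t1 := abs_sub_le (A i0 W0 0) (B k V1 c1) (A i0 W0 (-θ))
  have t2 := abs_sub_le (B k V1 c1) (A i W2 c2) (A i0 W0 (-θ))
  have t3 := abs_sub_le (A i W2 c2) (B k' V3 c3) (A i0 W0 (-θ))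
  have t4 := abs_sub_le (B k' V3 c3) (A i' W4 c4) (A i0 W0 (-θ))
  have t5 := abs_sub_le (A i' W4 c4) (B k V1 c5) (A i0 W0 (-θ))
  rw [abs_sub_comm (B k V1 c1) (A i W2 c2)] at t2
  rw [abs_sub_comm (B k' V3 c3) (A i' W4 c4)] at t4
  rw [abs_sub_comm (B k V1 c5) (A i0 W0 (-θ))] at t5
  linarith

/-- the total measure -/
noncomputable def tt (M1 : ι → Measure (Z × ℝ)) : Measure (Z × ℝ) := ∑ i, M1 i

instance : IsFiniteMeasure (tt M1) := by unfold tt; infer_instance

theorem integral_tt {f : Z × ℝ → ℝ} (hf : Measurable f) (h1 : ∀ x, |f x| ≤ 1) :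
    ∫ x, f x ∂(tt M1) = ∑ i, ∫ x, f x ∂(M1 i) := by
  unfold tt
  exact integral_finsetSum_measure fun i _ => intg hf h1

/-- one step for all quadruples -/
theorem Sw.one (D : Sw M1 M2 S T p q k0 ω e) (G : (ι × ι × κ × κ) → Z → ℝ)
    (hG : ∀ j, Wt (G j)) (F : (ι × ι × κ × κ) → Z → ℝ → ℝ) (hF : ∀ j, Tm k0 ω (F j)) :
    ∑ j, |(∫ x, om p q G j x.1 * F j x.1 x.2 ∂(tt M1))
      - ∫ x, om p q G j x.1 * F j x.1 (x.2 - th S T j) ∂(tt M1)| ≤ 6 * e := by
  have hsix := D.six G hG F hF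
  rw [Fintype.sum_prod_type, Finset.sum_comm] at hsix
  refine le_trans (Finset.sum_le_sum fun j _ => ?_) hsix
  have hW := D.om_wt hG j
  have m1 : Measurable (fun x : Z × ℝ => om p q G j x.1 * F j x.1 x.2) :=
    (hW.meas.comp measurable_fst).mul (hF j).meas
  have m2 : Measurable (fun x : Z × ℝ => om p q G j x.1 * F j x.1 (x.2 - th S T j)) := by
    have := ((hF j).shift (-(th S T j))).meas
    simp only [← sub_eq_add_neg] at this
    exact (hW.meas.comp measurable_fst).mul this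
  rw [integral_tt m1 (fun x => by
      rw [abs_mul, abs_of_nonneg (hW.nonneg _)]
      exact mul_le_one₀ (hW.le _) (abs_nonneg _) ((hF j).le _ _)),
    integral_tt m2 (fun x => by
      rw [abs_mul, abs_of_nonneg (hW.nonneg _)]
      exact mul_le_one₀ (hW.le _) (abs_nonneg _) ((hF j).le _ _)), ← Finset.sum_sub_distrib]
  exact Finset.abs_sum_le_sum_abs _ _

/-- iteration -/
theorem Sw.iter (D : Sw M1 M2 S T p q k0 ω e) (G : (ι × ι × κ × κ) → Z → ℝ)
    (hG : ∀ j, Wt (G j)) {F : Z → ℝ → ℝ} (hF : Tm k0 ω F) (m : (ι × ι × κ × κ) → ℕ) (N : ℕ)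
    (hm : ∀ j, m j ≤ N) :
    ∑ j, |(∫ x, om p q G j x.1 * F x.1 x.2 ∂(tt M1))
      - ∫ x, om p q G j x.1 * F x.1 (x.2 + m j * |th S T j|) ∂(tt M1)| ≤ N * (6 * e) := by
  -- the value after `r` steps
  set v : (ι × ι × κ × κ) → ℕ → ℝ := fun j r =>
    ∫ x, om p q G j x.1 * F x.1 (x.2 + r * |th S T j|) ∂(tt M1) with hv
  have hstep : ∀ r : ℕ, ∑ j, (if r < m j then |v j r - v j (r + 1)| else 0) ≤ 6 * e := by
    intro r
    set Fr : (ι × ι × κ × κ) → Z → ℝ → ℝ := fun j =>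
      if r < m j then (if 0 ≤ th S T j then fun z x => F z (x + (r + 1 : ℕ) * |th S T j|)
        else fun z x => F z (x + r * |th S T j|)) else fun _ _ => 0 with hFr
    have hFrT : ∀ j, Tm k0 ω (Fr j) := by
      intro j
      rw [hFr]
      dsimp only
      split_ifs
      · exact hF.shift _
      · exact hF.shift _
      · exact Tm.zero D.ω0
    refine le_trans (Finset.sum_le_sum fun j _ => ?_) (D.one G hG Fr hFrT)
    by_cases hr : r < m j
    · rw [if_pos hr]
      by_cases h0 : 0 ≤ th S T j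
      · have e1 : Fr j = fun z x => F z (x + (r + 1 : ℕ) * |th S T j|) := by
          rw [hFr]; dsimp only; rw [if_pos hr, if_pos h0]
        rw [e1, abs_sub_comm]
        apply le_of_eq
        congr 2
        refine integral_congr_ae (Filter.Eventually.of_forall fun x => ?_)
        dsimp only
        congr 2
        rw [abs_of_nonneg h0]; push_cast; ring
      · have e1 : Fr j = fun z x => F z (x + r * |th S T j|) := by
          rw [hFr]; dsimp only; rw [if_pos hr, if_neg h0]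
        rw [e1]
        apply le_of_eq
        congr 2
        refine integral_congr_ae (Filter.Eventually.of_forall fun x => ?_)
        dsimp only
        congr 2
        rw [abs_of_neg (not_le.1 h0)]; push_cast; ring
    · rw [if_neg hr]
      exact abs_nonneg _
  have htel : ∀ j (r : ℕ), r ≤ m j → |v j 0 - v j r| ≤ ∑ s ∈ Finset.range r,
      (if s < m j then |v j s - v j (s + 1)| else 0) := by
    intro j r
    induction r with
    | zero => intro _; simp
    | succ r ih =>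
      intro hr
      rw [Finset.sum_range_succ, if_pos (Nat.lt_of_succ_le hr)]
      exact (abs_sub_le _ (v j r) _).trans (add_le_add (ih (Nat.le_of_succ_le hr)) le_rfl)
  have h0 : ∀ j, (∫ x, om p q G j x.1 * F x.1 x.2 ∂(tt M1)) = v j 0 := fun j => by
    rw [hv]; simp
  calc ∑ j, |(∫ x, om p q G j x.1 * F x.1 x.2 ∂(tt M1))
      - ∫ x, om p q G j x.1 * F x.1 (x.2 + m j * |th S T j|) ∂(tt M1)|
      ≤ ∑ j, ∑ s ∈ Finset.range N, (if s < m j then |v j s - v j (s + 1)| else 0) := by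
        refine Finset.sum_le_sum fun j _ => ?_
        rw [h0 j]
        refine (htel j (m j) le_rfl).trans ?_
        refine Finset.sum_le_sum_of_subset_of_nonneg (Finset.range_mono (hm j)) fun s _ _ => ?_
        split_ifs
        · exact abs_nonneg _
        · exact le_rfl
    _ = ∑ s ∈ Finset.range N, ∑ j, (if s < m j then |v j s - v j (s + 1)| else 0) :=
        Finset.sum_comm
    _ ≤ ∑ s ∈ Finset.range N, 6 * e := Finset.sum_le_sum fun s _ => hstep s
    _ = N * (6 * e) := by rw [Finset.sum_const, Finset.card_range, nsmul_eq_mul]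

/-- the probability (given the observation) of a shift of size at least `a` -/
noncomputable def nn (S : ι → ℝ) (T : κ → ℝ) (p : ι → Z → ℝ) (q : κ → Z → ℝ) (a : ℝ) (y : Z) : ℝ :=
  ∑ j : ι × ι × κ × κ,
    (if a ≤ |th S T j| then (1:ℝ) else 0) * (p j.1 y * p j.2.1 y * q j.2.2.1 y * q j.2.2.2 y)

/-- **END, abstract form.** -/
theorem Sw.fin (D : Sw M1 M2 S T p q k0 ω e) {F : Z → ℝ → ℝ} (hF : Tm k0 ω F) {a c0 ω2 u B n0 e2 : ℝ}
    (ha : 0 < a) (hc0 : ∀ j, |th S T j| ≤ c0) (hn0 : 0 < n0)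
    (hF2 : ∀ z x y, |x - y| ≤ c0 → |F z x - F z y| ≤ ω2) (hω2 : 0 ≤ ω2) (he : 0 ≤ e)
    (hu : 0 ≤ u) (huB : u ≤ B) (htot : (tt M1).real Set.univ ≤ 1)
    (hNC : (tt M1).real {x | nn S T p q a x.1 < n0} ≤ e2) :
    |(∫ x, F x.1 x.2 ∂(tt M1)) - ∫ x, F x.1 (x.2 + u) ∂(tt M1)|
      ≤ 2 * e2 + B / a * (6 * e) / n0 + ω2 := by
  classical
  set A : (ι × ι × κ × κ) → Prop := fun j => a ≤ |th S T j| with hA
  set om0 : (ι × ι × κ × κ) → Z → ℝ := fun j y =>
    p j.1 y * p j.2.1 y * q j.2.2.1 y * q j.2.2.2 y with hom0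
  have hom0W : ∀ j, Wt (om0 j) := fun j => (((D.hp _).mul (D.hp _)).mul (D.hq _)).mul (D.hq _)
  set N : Z → ℝ := fun y => nn S T p q a y with hN
  have hNe : ∀ y, N y = ∑ j, if A j then om0 j y else 0 := fun y => by
    rw [hN]; unfold nn
    refine Finset.sum_congr rfl fun j _ => ?_
    by_cases hj : A j
    · rw [if_pos hj, if_pos hj, one_mul]
    · rw [if_neg hj, if_neg hj, zero_mul]
  have hNm : Measurable N := by
    have : N = fun y => ∑ j, if A j then om0 j y else 0 := funext hNe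
    rw [this]
    refine Finset.measurable_sum _ fun j _ => ?_
    by_cases hj : A j
    · simp only [if_pos hj]; exact (hom0W j).meas
    · simp only [if_neg hj]; exact measurable_const
  set gd : Set Z := {y | n0 ≤ N y} with hgd
  have hgdm : MeasurableSet gd := measurableSet_le measurable_const hNm
  set G : (ι × ι × κ × κ) → Z → ℝ := fun j y => if A j ∧ y ∈ gd then n0 / N y else 0 with hG
  have hGW : ∀ j, Wt (G j) := by
    intro j
    refine ⟨?_, fun y => ?_, fun y => ?_⟩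
    · rw [hG]; dsimp only
      refine Measurable.ite ?_ (measurable_const.div hNm) measurable_const
      exact (MeasurableSet.const _).inter hgdm
    · rw [hG]; dsimp only
      split_ifs with h
      · have : n0 ≤ N y := h.2
        exact div_nonneg hn0.le (hn0.le.trans this)
      · exact le_rfl
    · rw [hG]; dsimp only
      split_ifs with h
      · have : n0 ≤ N y := h.2
        exact div_le_one_of_le₀ this (hn0.le.trans this)
      · exact zero_le_one
  have hsum : ∀ y, ∑ j, om p q G j y = n0 * (if y ∈ gd then 1 else 0) := by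
    intro y
    by_cases hy : y ∈ gd
    · have hpos : 0 < N y := hn0.trans_le hy
      have : ∀ j, om p q G j y = (if A j then om0 j y else 0) * (n0 / N y) := by
        intro j
        unfold om
        rw [hG]; dsimp only
        by_cases hj : A j
        · rw [if_pos ⟨hj, hy⟩, if_pos hj]
        · rw [if_neg (fun h => hj h.1), if_neg hj]; ring
      rw [Finset.sum_congr rfl fun j _ => this j, ← Finset.sum_mul, ← hNe, if_pos hy]
      field_simp
    · have : ∀ j, om p q G j y = 0 := by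
        intro j
        unfold om
        rw [hG]; dsimp only
        rw [if_neg (fun h => hy h.2), mul_zero]
      rw [Finset.sum_congr rfl fun j _ => this j, if_neg hy]
      simp
  -- the multiplicities
  set m : (ι × ι × κ × κ) → ℕ := fun j => if A j then ⌊u / |th S T j|⌋₊ else 0 with hm
  have hB : 0 ≤ B := hu.trans huB
  have hmN : ∀ j, m j ≤ ⌊B / a⌋₊ := by
    intro j
    rw [hm]; dsimp only
    split_ifs with h
    · refine Nat.floor_mono ?_
      exact div_le_div₀ hB huB ha h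
    · exact Nat.zero_le _
  have hit := D.iter G hGW hF m ⌊B / a⌋₊ hmN
  have hit2 : ((⌊B / a⌋₊ : ℕ) : ℝ) * (6 * e) ≤ B / a * (6 * e) :=
    mul_le_mul_of_nonneg_right (Nat.floor_le (by positivity)) (by positivity)
  have hFs : ∀ c, Tm k0 ω (fun z x => F z (x + c)) := fun c => hF.shift c
  have iF : ∀ (g : Z → ℝ) (_ : Wt g) (c : ℝ),
      Integrable (fun x : Z × ℝ => g x.1 * F x.1 (x.2 + c)) (tt M1) := fun g hg c =>
    intg_wt hg (hFs c)
  have ig : ∀ (g : Z → ℝ) (_ : Wt g), Integrable (fun x : Z × ℝ => g x.1) (tt M1) := fun g hg =>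
    intg (hg.meas.comp measurable_fst) fun x => by
      rw [abs_of_nonneg (hg.nonneg _)]; exact hg.le _
  -- rounding
  have hround : ∀ j, |(∫ x, om p q G j x.1 * F x.1 (x.2 + m j * |th S T j|) ∂(tt M1))
      - ∫ x, om p q G j x.1 * F x.1 (x.2 + u) ∂(tt M1)| ≤ ω2 * ∫ x, om p q G j x.1 ∂(tt M1) := by
    intro j
    have hW := D.om_wt hGW j
    rw [← integral_sub (iF _ hW _) (iF _ hW _), ← integral_const_mul]
    refine (abs_integral_le_integral_abs).trans ?_
    refine integral_mono ((iF _ hW _).sub (iF _ hW _)).abs ((ig _ hW).const_mul _) ?_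
    intro x
    dsimp only
    rw [← mul_sub, abs_mul, abs_of_nonneg (hW.nonneg _), mul_comm ω2]
    by_cases hj : A j
    · refine mul_le_mul_of_nonneg_left (hF2 _ _ _ ?_) (hW.nonneg _)
      have hθ0 : 0 < |th S T j| := ha.trans_le hj
      have hmj : m j = ⌊u / |th S T j|⌋₊ := by rw [hm]; dsimp only; rw [if_pos hj]
      have hm1 : (m j : ℝ) ≤ u / |th S T j| := by rw [hmj]; exact Nat.floor_le (by positivity)
      have hm2 : u / |th S T j| < m j + 1 := by rw [hmj]; exact Nat.lt_floor_add_one _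
      rw [le_div_iff₀ hθ0] at hm1
      rw [div_lt_iff₀ hθ0] at hm2
      refine le_trans ?_ (hc0 j)
      rw [add_sub_add_left_eq_sub, abs_le]
      constructor <;> linarith
    · have h0 : om p q G j x.1 = 0 := by
        unfold om
        rw [hG]; dsimp only
        rw [if_neg (fun h => hj h.1), mul_zero]
      rw [h0, zero_mul, zero_mul]
  -- the good part
  set χ : Z → ℝ := fun y => if y ∈ gd then 1 else 0 with hχ
  have hχW : Wt χ := by
    refine ⟨?_, fun y => ?_, fun y => ?_⟩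
    · exact Measurable.ite hgdm measurable_const measurable_const
    · rw [hχ]; dsimp only; split_ifs <;> norm_num
    · rw [hχ]; dsimp only; split_ifs <;> norm_num
  have hdec : ∀ c, n0 * ∫ x, χ x.1 * F x.1 (x.2 + c) ∂(tt M1)
      = ∑ j, ∫ x, om p q G j x.1 * F x.1 (x.2 + c) ∂(tt M1) := by
    intro c
    rw [← integral_finsetSum _ (fun j _ => iF _ (D.om_wt hGW j) c), ← integral_const_mul]
    refine integral_congr_ae (Filter.Eventually.of_forall fun x => ?_)
    dsimp only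
    rw [← Finset.sum_mul, hsum, hχ]
    dsimp only
    ring
  have hχsum : ∑ j, ∫ x, om p q G j x.1 ∂(tt M1) ≤ n0 := by
    rw [← integral_finsetSum _ (fun j _ => ig _ (D.om_wt hGW j))]
    calc ∫ x, ∑ j, om p q G j x.1 ∂(tt M1) ≤ ∫ _, n0 ∂(tt M1) := by
          refine integral_mono (integrable_finsetSum _ fun j _ => ig _ (D.om_wt hGW j))
            (integrable_const _) fun x => ?_
          dsimp only
          rw [hsum]
          split_ifs <;> linarith
      _ = (tt M1).real Set.univ * n0 := by rw [integral_const, smul_eq_mul]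
      _ ≤ 1 * n0 := mul_le_mul_of_nonneg_right htot hn0.le
      _ = n0 := one_mul _
  have hgood : |(∫ x, χ x.1 * F x.1 (x.2 + 0) ∂(tt M1)) - ∫ x, χ x.1 * F x.1 (x.2 + u) ∂(tt M1)|
      ≤ B / a * (6 * e) / n0 + ω2 := by
    have h1 : n0 * |(∫ x, χ x.1 * F x.1 (x.2 + 0) ∂(tt M1))
        - ∫ x, χ x.1 * F x.1 (x.2 + u) ∂(tt M1)| ≤ B / a * (6 * e) + ω2 * n0 := by
      rw [← abs_of_pos hn0, ← abs_mul, abs_of_pos hn0, mul_sub, hdec 0, hdec u,
        ← Finset.sum_sub_distrib]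
      simp only [add_zero]
      refine (Finset.abs_sum_le_sum_abs _ _).trans ?_
      have h2 : ∀ j, |(∫ x, om p q G j x.1 * F x.1 x.2 ∂(tt M1))
          - ∫ x, om p q G j x.1 * F x.1 (x.2 + u) ∂(tt M1)|
          ≤ |(∫ x, om p q G j x.1 * F x.1 x.2 ∂(tt M1))
            - ∫ x, om p q G j x.1 * F x.1 (x.2 + m j * |th S T j|) ∂(tt M1)|
            + ω2 * ∫ x, om p q G j x.1 ∂(tt M1) := fun j =>
        (abs_sub_le _ _ _).trans (add_le_add le_rfl (hround j))
      refine (Finset.sum_le_sum fun j _ => h2 j).trans ?_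
      rw [Finset.sum_add_distrib, ← Finset.mul_sum]
      exact add_le_add (hit.trans hit2) (mul_le_mul_of_nonneg_left hχsum hω2)
    rw [← le_div_iff₀' hn0] at h1
    refine h1.trans (le_of_eq ?_)
    field_simp
  -- the bad part
  have hbad : |(∫ x, (1 - χ x.1) * F x.1 (x.2 + 0) ∂(tt M1))
      - ∫ x, (1 - χ x.1) * F x.1 (x.2 + u) ∂(tt M1)| ≤ 2 * e2 := by
    have hW : Wt (fun y => 1 - χ y) :=
      ⟨measurable_const.sub hχW.meas, fun y => sub_nonneg.2 (hχW.le y), fun y => by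
        have := hχW.nonneg y; linarith⟩
    have hbm : MeasurableSet {x : Z × ℝ | nn S T p q a x.1 < n0} :=
      measurableSet_lt (hNm.comp measurable_fst) measurable_const
    rw [← integral_sub (iF _ hW 0) (iF _ hW u)]
    refine (abs_integral_le_integral_abs).trans ?_
    refine le_trans (integral_mono (g := fun x => 2 * {x : Z × ℝ | nn S T p q a x.1 < n0}.indicator 1 x)
      ((iF _ hW 0).sub (iF _ hW u)).abs
      (((integrable_const (1:ℝ)).indicator hbm).const_mul 2) ?_) ?_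
    · intro x
      simp only [Pi.sub_apply]
      rw [← mul_sub, abs_mul, abs_of_nonneg (hW.nonneg _)]
      by_cases hx : x.1 ∈ gd
      · have h0 : χ x.1 = 1 := by rw [hχ]; dsimp only; rw [if_pos hx]
        rw [h0, sub_self, zero_mul]
        exact mul_nonneg zero_le_two (Set.indicator_nonneg (fun _ _ => zero_le_one) _)
      · have h0 : χ x.1 = 0 := by rw [hχ]; dsimp only; rw [if_neg hx]
        have h1 : x ∈ {x : Z × ℝ | nn S T p q a x.1 < n0} := by
          have hx' : ¬ (n0 ≤ N x.1) := hx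
          exact lt_of_not_ge hx'
        rw [h0, Set.indicator_of_mem h1, sub_zero, one_mul]
        have h2 := hF.le x.1 (x.2 + 0)
        have h3 := hF.le x.1 (x.2 + u)
        simp only [Pi.one_apply]
        rw [abs_le] at h2 h3 ⊢
        constructor <;> linarith [h2.1, h2.2, h3.1, h3.2]
    · rw [integral_const_mul, integral_indicator_one hbm]
      linarith
  have hfin : ∀ c, ∫ x, F x.1 (x.2 + c) ∂(tt M1)
      = (∫ x, χ x.1 * F x.1 (x.2 + c) ∂(tt M1)) + ∫ x, (1 - χ x.1) * F x.1 (x.2 + c) ∂(tt M1) := by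
    intro c
    have hW : Wt (fun y => 1 - χ y) :=
      ⟨measurable_const.sub hχW.meas, fun y => sub_nonneg.2 (hχW.le y), fun y => by
        have := hχW.nonneg y; linarith⟩
    rw [← integral_add (iF _ hχW c) (iF _ hW c)]
    refine integral_congr_ae (Filter.Eventually.of_forall fun x => ?_)
    dsimp only
    ring
  have h0 := hfin 0
  have hU := hfin u
  have e0 : (∫ x, F x.1 (x.2 + 0) ∂(tt M1)) = ∫ x, F x.1 x.2 ∂(tt M1) := by simp
  rw [e0] at h0
  rw [h0, hU]
  rw [abs_le] at hgood hbad ⊢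
  constructor <;> linarith [hgood.1, hgood.2, hbad.1, hbad.2]

end

end Crest.Agent.R014.DEnd3_935
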