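import Crest.Agent.R014.DEnd3_667
import Crest.Agent.R014.Sw1_640

/-!
# Row 14, block D, END (noise formalism): nonconcentration (NC), part b, helper667

* `hT_of`: the Markov hypothesis of `nc_one` from absorption and commutation of the noise;
* `BadW`: the points at which all labels of weight `≥ w` are within `a` of each other;
* `nc_main`: if most `x` have a free depth, then `P(BadW)` is small.
-/

set_option autoImplicit false

open MeasureTheory Finset Crest.NumberTheoryR.Packets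
open Crest.Agent.R014.Nd_837 Crest.Agent.R014.Ne1_567 Crest.Agent.R014.NScB_395
open Crest.Agent.R014.NScC_395 Crest.Agent.R014.NScD_395 Crest.Agent.R014.Ms_667
open Crest.Agent.R014.Ne3_567 (pv measurable_pv pv_nonneg sum_pv pv_le_one integral_pv_mul)
open scoped ENNReal

noncomputable section

namespace Crest.Agent.R014.DEnd3_667

variable {n : ℕ} {i j : Fin n}

/-! ### (1) the Markov hypothesis -/

theorem hT_one (κ : Measure (SLR n)) [IsProbabilityMeasure κ] (hij : i ≠ j) (a0 c : ℝ)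
    {e1 e2 : ℝ} {q : SLR n × ℝ} (hq : |q.2| ≤ 1)
    (h1 : TVle (κ.map fun g => q.1 * g) κ e1)
    (h2 : TVle (κ.map fun g => uu hij ((2 : ℝ) ^ (-(a0 + c)) * q.2) * g *
      (uu hij ((2 : ℝ) ^ (-(a0 + c)) * q.2))⁻¹) κ e2) :
    TVle ((κ.prod uni).map (Tq hij a0 c q)) (κ.prod uni) (e1 + e2 + (2 : ℝ) ^ (-c) / 2) := by
  set u : SLR n := uu hij ((2 : ℝ) ^ (-(a0 + c)) * q.2) with hu
  have m1 : Measurable fun g : SLR n => q.1 * u * g * u⁻¹ := by fun_prop
  have m2 : Measurable fun t : ℝ => t + (2 : ℝ) ^ (-c) * q.2 := by fun_prop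
  have m3 : Measurable fun g : SLR n => u * g * u⁻¹ := by fun_prop
  have m4 : Measurable fun g : SLR n => q.1 * g := by fun_prop
  have e : (κ.prod uni).map (Tq hij a0 c q)
      = (κ.map fun g => q.1 * u * g * u⁻¹).prod (uni.map fun t => t + (2 : ℝ) ^ (-c) * q.2) := by
    rw [Measure.map_prod_map κ uni m1 m2]
    rfl
  have hP1 : IsProbabilityMeasure (κ.map fun g => q.1 * u * g * u⁻¹) :=
    Measure.isProbabilityMeasure_map m1.aemeasurable
  have hP2 : IsProbabilityMeasure (uni.map fun t => t + (2 : ℝ) ^ (-c) * q.2) :=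
    Measure.isProbabilityMeasure_map m2.aemeasurable
  have h3 : TVle (κ.map fun g => q.1 * u * g * u⁻¹) κ (e1 + e2) := by
    have h4 : (κ.map fun g => q.1 * u * g * u⁻¹)
        = (κ.map fun g => u * g * u⁻¹).map fun g => q.1 * g := by
      rw [Measure.map_map m4 m3]
      congr 1
      funext g
      simp only [Function.comp_apply]
      group
    rw [h4, add_comm]
    exact (h2.map m4).trans h1
  have h5 : TVle (uni.map fun t => t + (2 : ℝ) ^ (-c) * q.2) uni ((2 : ℝ) ^ (-c) / 2) := by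
    refine (Sw1_640.uni_shift _).mono ?_
    rw [abs_mul, abs_of_pos (Real.rpow_pos_of_pos two_pos _)]
    have := mul_le_mul_of_nonneg_left hq (Real.rpow_pos_of_pos two_pos (-c)).le
    linarith
  rw [e]
  exact (h3.prod_left (κ := uni.map fun t => t + (2 : ℝ) ^ (-c) * q.2)).trans
    (h5.prod_right (κ := κ))

/-- **(1)** -/
theorem hT_of (κ κ' : Measure (SLR n)) [IsProbabilityMeasure κ] [IsProbabilityMeasure κ']
    (hij : i ≠ j) (a0 c : ℝ) {e1 e2 : ℝ}
    (h1 : ∀ᵐ g' ∂κ', TVle (κ.map fun g => g' * g) κ e1)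
    (h2 : ∀ s : ℝ, |s| ≤ (2 : ℝ) ^ (-(a0 + c)) →
      TVle (κ.map fun g => uu hij s * g * (uu hij s)⁻¹) κ e2) :
    ∀ᵐ q ∂(κ'.prod uni), TVle ((κ.prod uni).map (Tq hij a0 c q)) (κ.prod uni)
      (e1 + e2 + (2 : ℝ) ^ (-c) / 2) := by
  have a1 : ∀ᵐ q ∂(κ'.prod uni), TVle (κ.map fun g => q.1 * g) κ e1 :=
    Measure.quasiMeasurePreserving_fst.ae h1
  have a2 : ∀ᵐ q ∂(κ'.prod uni), |q.2| ≤ 1 := Measure.quasiMeasurePreserving_snd.ae uni_ae
  filter_upwards [a1, a2] with q hq1 hq2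
  refine hT_one κ hij a0 c hq2 hq1 (h2 _ ?_)
  rw [abs_mul, abs_of_pos (Real.rpow_pos_of_pos two_pos _)]
  have := mul_le_mul_of_nonneg_left hq2 (Real.rpow_pos_of_pos two_pos (-(a0 + c))).le
  linarith

/-- conjugation by `u` is close to the identity if `u` commutes with the noise -/
theorem conj_of_comm (κ : Measure (SLR n)) (u : SLR n) {e : ℝ}
    (h : TVle (κ.map fun g => u * g) (κ.map fun g => g * u) e) :
    TVle (κ.map fun g => u * g * u⁻¹) κ e := by
  have m : Measurable fun g : SLR n => g * u⁻¹ := by fun_prop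
  have h1 := h.map m
  rw [Measure.map_map m (by fun_prop), Measure.map_map m (by fun_prop)] at h1
  have h2 : ((fun g : SLR n => g * u⁻¹) ∘ fun g => g * u) = id := by
    funext g; simp
  rw [h2, Measure.map_id] at h1
  exact h1

/-! ### (2) the bad set -/

/-- all labels of weight `≥ w` are within `a` of each other -/
def BadW {b : ℕ} (ρ : Fin b → Measure (ModSpace n)) (w a : ℝ) : Set (ModSpace n) :=
  {z | ∀ d d' : Fin b, w ≤ pv ρ d z → w ≤ pv ρ d' z → |cen b d - cen b d'| ≤ a}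

theorem measurableSet_BadW {b : ℕ} (ρ : Fin b → Measure (ModSpace n)) (w a : ℝ) :
    MeasurableSet (BadW ρ w a) := by
  have h : BadW ρ w a = ⋂ d : Fin b, ⋂ d' : Fin b,
      ({z | pv ρ d z < w} ∪ {z | pv ρ d' z < w} ∪ {_z | |cen b d - cen b d'| ≤ a}) := by
    ext z
    simp only [BadW, Set.mem_ofPred_eq, Set.mem_iInter, Set.mem_union]
    refine forall_congr' fun d => forall_congr' fun d' => ?_
    constructor
    · intro h
      by_contra hne
      push Not at hne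
      exact absurd (h hne.1.1 hne.1.2) (not_le.2 hne.2)
    · rintro ((h | h) | h) h1 h2
      · exact absurd h (not_lt.2 h1)
      · exact absurd h (not_lt.2 h2)
      · exact h
  rw [h]
  refine MeasurableSet.iInter fun d => MeasurableSet.iInter fun d' => ?_
  refine ((measurableSet_lt (measurable_pv ρ d) measurable_const).union
    (measurableSet_lt (measurable_pv ρ d') measurable_const)).union ?_
  exact MeasurableSet.const _

/-- the pattern of the heavy labels -/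
def pat {b : ℕ} (ρ : Fin b → Measure (ModSpace n)) (w : ℝ) (z : ModSpace n) : Fin b → Prop :=
  fun d => w ≤ pv ρ d z

open Classical in
/-- the centre as a function of the pattern -/
def ctr {b : ℕ} (P : Fin b → Prop) : ℝ := if h : ∃ d, P d then cen b h.choose else 0

theorem measurable_ctr {b : ℕ} (ρ : Fin b → Measure (ModSpace n)) (w : ℝ) :
    Measurable fun z => ctr (pat ρ w z) := by
  have h1 : Measurable (pat ρ w) := by
    refine measurable_pi_iff.2 fun d => ?_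
    exact measurableSet_setOfPred.1 (measurableSet_le measurable_const (measurable_pv ρ d))
  have h2 : Measurable (ctr : (Fin b → Prop) → ℝ) := measurable_of_finite _
  exact h2.comp h1

theorem hB_of {b : ℕ} [NeZero b] (ρ : Fin b → Measure (ModSpace n)) {w a : ℝ} (hw : 0 ≤ w)
    (hbw : b * w < 1) (z : ModSpace n) (hz : z ∈ BadW ρ w a) :
    ∑ d : Fin b, pv ρ d z * (if a < |cen b d - ctr (pat ρ w z)| then 1 else 0) ≤ b * w := by
  have hex : ∃ d, pat ρ w z d := by
    by_contra hne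
    push Not at hne
    have h1 : ∑ d : Fin b, pv ρ d z ≤ ∑ _d : Fin b, w := sum_le_sum fun d _ => by
      have := hne d
      unfold pat at this
      linarith
    rw [sum_pv, sum_const, card_univ, Fintype.card_fin, nsmul_eq_mul] at h1
    linarith
  have hc : ctr (pat ρ w z) = cen b hex.choose := by
    unfold ctr
    rw [dif_pos hex]
  have h2 : ∀ d : Fin b, pv ρ d z * (if a < |cen b d - ctr (pat ρ w z)| then 1 else 0) ≤ w := by
    intro d
    split_ifs with h
    · rw [mul_one]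
      by_contra hlt
      push Not at hlt
      have h3 := hz d hex.choose hlt.le hex.choose_spec
      rw [hc] at h
      linarith
    · rw [mul_zero]; exact hw
  refine (sum_le_sum fun d _ => h2 d).trans (le_of_eq ?_)
  rw [sum_const, card_univ, Fintype.card_fin, nsmul_eq_mul]

/-! ### (3) sum over the depths -/

theorem integral_Qb (μ : Measure (ModSpace n)) [IsProbabilityMeasure μ] (κ : Measure (SLR n))
    [IsProbabilityMeasure κ] (hij : i ≠ j) (a0 : ℝ) {Bad : Set (ModSpace n)}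
    (hBad : MeasurableSet Bad) :
    ∫ x, Qb κ hij a0 Bad x ∂μ = (stp μ (cv κ (dl hij a0))).real Bad := by
  have h1 : (stp μ (cv κ (dl hij a0))).real Bad
      = ∫ y, Bad.indicator (fun _ => (1 : ℝ)) y ∂(stp μ (cv κ (dl hij a0))) := by
    rw [← integral_indicator_one hBad]
    rfl
  rw [h1, integral_stp μ _ (meas_ind hBad) (M := 1) fun y => by
    have := ind_bound Bad y
    rw [abs_of_nonneg this.1]; exact this.2]
  refine integral_congr_ae (Filter.Eventually.of_forall fun x => ?_)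
  simp only
  rw [cv_dl_eq, integral_map (measurable_U hij a0).aemeasurable]
  · rfl
  · exact ((meas_ind hBad).comp (measurable_act₂.comp measurable_prodMk_left)).aestronglyMeasurable

/-- **(3), abstract**: if `∫ Q Ps_l ≤ E` for finitely many `l` and most `x` have some `Ps_l x ≥ τ`,
then `∫ Q` is small. -/
theorem sum_depths {Y Λ : Type*} [MeasurableSpace Y] (μ : Measure Y) [IsProbabilityMeasure μ]
    (L : Finset Λ) {Q : Y → ℝ} (hQ : Measurable Q) (hQ1 : ∀ x, 0 ≤ Q x ∧ Q x ≤ 1)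
    {Ps : Λ → Y → ℝ} (hPs : ∀ l ∈ L, Measurable (Ps l)) (hPs1 : ∀ l ∈ L, ∀ x, 0 ≤ Ps l x ∧ Ps l x ≤ 2)
    {E : ℝ} (hE : ∀ l ∈ L, ∫ x, Q x * Ps l x ∂μ ≤ E) {τ ε : ℝ} (hτ : 0 < τ)
    (hN : μ.real {x | ∀ l ∈ L, Ps l x < τ} ≤ ε) :
    ∫ x, Q x ∂μ ≤ ε + L.card * E / τ := by
  have hNm : MeasurableSet {x | ∀ l ∈ L, Ps l x < τ} := by
    have : {x | ∀ l ∈ L, Ps l x < τ} = ⋂ l ∈ L, {x | Ps l x < τ} := by
      ext x; simp
    rw [this]
    exact Finset.measurableSet_biInter _ fun l hl => measurableSet_lt (hPs l hl) measurable_const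
  have hint : ∀ l ∈ L, Integrable (fun x => Q x * Ps l x) μ := fun l hl =>
    bdd_integrable (M := 2) (hQ.mul (hPs l hl)) fun x => by
      have h1 := hQ1 x
      have h2 := hPs1 l hl x
      rw [abs_mul, abs_of_nonneg h1.1, abs_of_nonneg h2.1]
      nlinarith
  have h1 : ∀ x, Q x ≤ {x | ∀ l ∈ L, Ps l x < τ}.indicator (fun _ => (1 : ℝ)) x
      + τ⁻¹ * ∑ l ∈ L, Q x * Ps l x := by
    intro x
    have h0 : 0 ≤ ∑ l ∈ L, Q x * Ps l x := Finset.sum_nonneg fun l hl =>
      mul_nonneg (hQ1 x).1 (hPs1 l hl x).1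
    by_cases hx : x ∈ {x | ∀ l ∈ L, Ps l x < τ}
    · rw [Set.indicator_of_mem hx]
      have := (hQ1 x).2
      have : 0 ≤ τ⁻¹ * ∑ l ∈ L, Q x * Ps l x := mul_nonneg (inv_nonneg.2 hτ.le) h0
      linarith
    · rw [Set.indicator_of_notMem hx, zero_add]
      simp only [Set.mem_ofPred_eq, not_forall, not_lt] at hx
      obtain ⟨l, hl, hx⟩ := hx
      have h2 : Q x * Ps l x ≤ ∑ l ∈ L, Q x * Ps l x :=
        Finset.single_le_sum (f := fun l => Q x * Ps l x)
          (fun l hl => mul_nonneg (hQ1 x).1 (hPs1 l hl x).1) hl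
      have h3 : Q x * τ ≤ Q x * Ps l x := mul_le_mul_of_nonneg_left hx (hQ1 x).1
      rw [inv_mul_eq_div, le_div_iff₀ hτ]
      linarith
  have hi1 : Integrable (fun x => {x | ∀ l ∈ L, Ps l x < τ}.indicator (fun _ => (1 : ℝ)) x) μ :=
    (integrable_const _).indicator hNm
  have hi2 : Integrable (fun x => τ⁻¹ * ∑ l ∈ L, Q x * Ps l x) μ :=
    (integrable_finsetSum _ hint).const_mul _
  have hQi : Integrable Q μ := bdd_integrable (M := 1) hQ fun x => by
    rw [abs_of_nonneg (hQ1 x).1]; exact (hQ1 x).2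
  have h4 := integral_mono hQi (hi1.add hi2) h1
  have h5 : ∫ x, ({x | ∀ l ∈ L, Ps l x < τ}.indicator (fun _ => (1 : ℝ)) x
      + τ⁻¹ * ∑ l ∈ L, Q x * Ps l x) ∂μ
      = μ.real {x | ∀ l ∈ L, Ps l x < τ} + τ⁻¹ * ∑ l ∈ L, ∫ x, Q x * Ps l x ∂μ := by
    rw [integral_add hi1 hi2, integral_const_mul, integral_finsetSum _ hint]
    congr 1
    rw [← integral_indicator_one hNm]
    rfl
  have h6 : ∑ l ∈ L, ∫ x, Q x * Ps l x ∂μ ≤ L.card * E := by
    refine (Finset.sum_le_sum hE).trans (le_of_eq ?_)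
    rw [sum_const, nsmul_eq_mul]
  have h7 : τ⁻¹ * ∑ l ∈ L, ∫ x, Q x * Ps l x ∂μ ≤ L.card * E / τ := by
    rw [inv_mul_eq_div]
    gcongr
  calc ∫ x, Q x ∂μ ≤ _ := h4
    _ = μ.real {x | ∀ l ∈ L, Ps l x < τ} + τ⁻¹ * ∑ l ∈ L, ∫ x, Q x * Ps l x ∂μ := h5
    _ ≤ _ := add_le_add hN h7

/-- **(NC)**: if most `x` have a free depth `a0 + c l`, `l ∈ L`, then the posterior of the label of
the big window is spread for most `z`. -/
theorem nc_main {Λ : Type*} (L : Finset Λ) (μ : Measure (ModSpace n)) [IsProbabilityMeasure μ]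
    (κ : Measure (SLR n)) [IsProbabilityMeasure κ] (κ' : Λ → Measure (SLR n))
    [∀ l, IsProbabilityMeasure (κ' l)] (hij : i ≠ j) (a0 : ℝ) (c : Λ → ℝ) {cm : ℝ}
    (hcm : ∀ l ∈ L, c l ≤ cm) {b m : ℕ} [NeZero b] [NeZero m] {w a e E0 : ℝ} (ha : 0 ≤ a)
    (hw : 0 ≤ w) (hbw : b * w < 1)
    (hT : ∀ l ∈ L, ∀ᵐ q ∂((κ' l).prod uni),
      TVle ((κ.prod uni).map (Tq hij a0 (c l) q)) (κ.prod uni) e)
    {Ps : Λ → ModSpace n → ℝ} (hPs : ∀ l ∈ L, Measurable (Ps l))
    (hPs1 : ∀ l ∈ L, ∀ x, 0 ≤ Ps l x ∧ Ps l x ≤ 2)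
    (hE : ∀ l ∈ L, ∫ x, |Acv μ (κ' l) hij (a0 + c l) m x - Ps l x| ∂μ ≤ E0)
    {τ ε : ℝ} (hτ : 0 < τ) (hN : μ.real {x | ∀ l ∈ L, Ps l x < τ} ≤ ε) :
    (stp μ (cv κ (dl hij a0))).real (BadW (lab μ κ hij a0 b) w a)
      ≤ ε + L.card * (2 * (2 : ℝ) ^ cm * (a + 1 / b) + 4 * (b * w) + 2 / m + 10 * e + E0) / τ := by
  set ρ := lab μ κ hij a0 b with hρ
  have hBad := measurableSet_BadW ρ w a
  have hQm := measurable_Qb κ hij a0 hBad
  have hQ := Qb_bound (Bad := BadW ρ w a) κ hij a0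
  have hb' : (0:ℝ) < b := by exact_mod_cast Nat.pos_of_ne_zero (NeZero.ne b)
  rw [← integral_Qb μ κ hij a0 hBad]
  refine sum_depths μ L hQm hQ hPs hPs1 (fun l hl => ?_) hτ hN
  have h1 := nc_one μ κ (κ' l) hij a0 (c l) hBad (measurable_ctr ρ w) (b := b) (m := m) ha
    (mul_nonneg hb'.le hw) (fun z hz => hB_of ρ hw hbw z hz) (hT l hl)
  have hAm : Measurable (Acv μ (κ' l) hij (a0 + c l) m) := measurable_Av _ _
  have hAb : ∀ x, 0 ≤ Acv μ (κ' l) hij (a0 + c l) m x ∧ Acv μ (κ' l) hij (a0 + c l) m x ≤ 2 :=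
    fun x => ⟨Av_nonneg _ _ x, Av_le _ _ x⟩
  have hi1 : Integrable (fun x => Qb κ hij a0 (BadW ρ w a) x *
      Acv μ (κ' l) hij (a0 + c l) m x) μ :=
    bdd_integrable (M := 2) (hQm.mul hAm) fun x => by
      rw [abs_mul, abs_of_nonneg (hQ x).1, abs_of_nonneg (hAb x).1]
      nlinarith [(hQ x).1, (hQ x).2, (hAb x).1, (hAb x).2]
  have hi2 : Integrable (fun x => |Acv μ (κ' l) hij (a0 + c l) m x - Ps l x|) μ :=
    bdd_integrable (M := 2) (hAm.sub (hPs l hl)).abs fun x => by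
      rw [abs_abs, abs_le]
      constructor <;> linarith [(hAb x).1, (hAb x).2, (hPs1 l hl x).1, (hPs1 l hl x).2]
  have hi3 : Integrable (fun x => Qb κ hij a0 (BadW ρ w a) x * Ps l x) μ :=
    bdd_integrable (M := 2) (hQm.mul (hPs l hl)) fun x => by
      have h2 := hPs1 l hl x
      rw [abs_mul, abs_of_nonneg (hQ x).1, abs_of_nonneg h2.1]
      nlinarith [(hQ x).1, (hQ x).2]
  have h2 : ∫ x, Qb κ hij a0 (BadW ρ w a) x * Ps l x ∂μ
      ≤ ∫ x, (Qb κ hij a0 (BadW ρ w a) x * Acv μ (κ' l) hij (a0 + c l) m x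
        + |Acv μ (κ' l) hij (a0 + c l) m x - Ps l x|) ∂μ := by
    refine integral_mono hi3 (hi1.add hi2) fun x => ?_
    simp only
    have h3 := neg_abs_le (Acv μ (κ' l) hij (a0 + c l) m x - Ps l x)
    have h4 := abs_nonneg (Acv μ (κ' l) hij (a0 + c l) m x - Ps l x)
    nlinarith [(hQ x).1, (hQ x).2]
  rw [integral_add hi1 hi2] at h2
  have h5 : (2 : ℝ) ^ (c l) ≤ (2 : ℝ) ^ cm := Real.rpow_le_rpow_of_exponent_le one_le_two (hcm l hl)
  have h6 : 2 * (2 : ℝ) ^ (c l) * (a + 1 / b) ≤ 2 * (2 : ℝ) ^ cm * (a + 1 / b) := by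
    have : 0 ≤ a + 1 / (b:ℝ) := by positivity
    gcongr
  linarith [hE l hl]

end Crest.Agent.R014.DEnd3_667
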