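import Crest.Agent.R014.DEnd3b_667
import Crest.Agent.R014.DEnd3_935

/-!
# Row 14, block D, END (noise formalism): nonconcentration (NC), part c, helper667

`BadN ρ n0 a`: the points at which two independent samples of the posterior are at distance `≥ a`
with probability `< n0` (no dependence on the number of labels). `nc_mainN`: `P(BadN)` is small.
`nn_ge`: off the two bad sets the quantity `nn` of `DEnd3_935` is bounded below.
-/

set_option autoImplicit false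

open MeasureTheory Finset Crest.NumberTheoryR.Packets
open Crest.Agent.R014.Nd_837 Crest.Agent.R014.Ne1_567 Crest.Agent.R014.NScB_395
open Crest.Agent.R014.NScC_395 Crest.Agent.R014.NScD_395 Crest.Agent.R014.Ms_667
open Crest.Agent.R014.Ne3_567 (pv measurable_pv pv_nonneg sum_pv pv_le_one integral_pv_mul)
open scoped ENNReal

noncomputable section

namespace Crest.Agent.R014.DEnd3_667

variable {n : ℕ} {i j : Fin n}

/-- probability that two independent samples of the posterior are at distance `≥ a` -/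
def far {b : ℕ} (ρ : Fin b → Measure (ModSpace n)) (a : ℝ) (z : ModSpace n) : ℝ :=
  ∑ d : Fin b, ∑ d' : Fin b, pv ρ d z * pv ρ d' z * (if a ≤ |cen b d - cen b d'| then 1 else 0)

theorem measurable_far {b : ℕ} (ρ : Fin b → Measure (ModSpace n)) (a : ℝ) :
    Measurable (far ρ a) :=
  Finset.measurable_sum _ fun d _ => Finset.measurable_sum _ fun d' _ =>
    ((measurable_pv ρ d).mul (measurable_pv ρ d')).mul_const _

theorem far_nonneg {b : ℕ} (ρ : Fin b → Measure (ModSpace n)) (a : ℝ) (z : ModSpace n) :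
    0 ≤ far ρ a z := sum_nonneg fun d _ => sum_nonneg fun d' _ =>
  mul_nonneg (mul_nonneg (pv_nonneg ρ d z) (pv_nonneg ρ d' z)) (by split_ifs <;> norm_num)

/-- two independent samples of the posterior are close with high probability -/
def BadN {b : ℕ} (ρ : Fin b → Measure (ModSpace n)) (n0 a : ℝ) : Set (ModSpace n) :=
  {z | far ρ a z < n0}

theorem measurableSet_BadN {b : ℕ} (ρ : Fin b → Measure (ModSpace n)) (n0 a : ℝ) :
    MeasurableSet (BadN ρ n0 a) := measurableSet_lt (measurable_far ρ a) measurable_const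

/-- the labels around which the posterior is concentrated -/
def patN {b : ℕ} (ρ : Fin b → Measure (ModSpace n)) (n0 a : ℝ) (z : ModSpace n) : Fin b → Prop :=
  fun d' => ∑ d : Fin b, pv ρ d z * (if a ≤ |cen b d - cen b d'| then 1 else 0) < n0

theorem measurable_ctrN {b : ℕ} (ρ : Fin b → Measure (ModSpace n)) (n0 a : ℝ) :
    Measurable fun z => ctr (patN ρ n0 a z) := by
  have h1 : Measurable (patN ρ n0 a) := by
    refine measurable_pi_iff.2 fun d' => ?_
    refine measurableSet_setOfPred.1 (measurableSet_lt ?_ measurable_const)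
    exact Finset.measurable_sum _ fun d _ => (measurable_pv ρ d).mul_const _
  have h2 : Measurable (ctr : (Fin b → Prop) → ℝ) := measurable_of_finite _
  exact h2.comp h1

theorem hBN_of {b : ℕ} [NeZero b] (ρ : Fin b → Measure (ModSpace n)) {n0 a : ℝ}
    (z : ModSpace n) (hz : z ∈ BadN ρ n0 a) :
    ∑ d : Fin b, pv ρ d z * (if a < |cen b d - ctr (patN ρ n0 a z)| then 1 else 0) ≤ n0 := by
  have hex : ∃ d, patN ρ n0 a z d := by
    by_contra hne
    push Not at hne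
    have h1 : n0 ≤ far ρ a z := by
      have h2 : far ρ a z = ∑ d' : Fin b, pv ρ d' z *
          ∑ d : Fin b, pv ρ d z * (if a ≤ |cen b d - cen b d'| then 1 else 0) := by
        unfold far
        rw [sum_comm]
        refine sum_congr rfl fun d' _ => ?_
        rw [mul_sum]
        exact sum_congr rfl fun d _ => by ring
      have h3 : ∑ d' : Fin b, pv ρ d' z * n0 ≤ far ρ a z := by
        rw [h2]
        refine sum_le_sum fun d' _ => mul_le_mul_of_nonneg_left ?_ (pv_nonneg ρ d' z)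
        have := hne d'
        unfold patN at this
        exact not_lt.1 this
      rwa [← sum_mul, sum_pv, one_mul] at h3
    have h4 : far ρ a z < n0 := hz
    linarith
  have hc : ctr (patN ρ n0 a z) = cen b hex.choose := by
    unfold ctr
    rw [dif_pos hex]
  rw [hc]
  refine le_trans (sum_le_sum fun d _ => ?_) (le_of_lt hex.choose_spec)
  refine mul_le_mul_of_nonneg_left ?_ (pv_nonneg ρ d z)
  split_ifs with h1 h2 h2
  · exact le_rfl
  · exact absurd h1.le h2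
  · exact zero_le_one
  · exact le_rfl

/-- **(NC), general bad set.** -/
theorem nc_gen {Λ : Type*} (L : Finset Λ) (μ : Measure (ModSpace n)) [IsProbabilityMeasure μ]
    (κ : Measure (SLR n)) [IsProbabilityMeasure κ] (κ' : Λ → Measure (SLR n))
    [∀ l, IsProbabilityMeasure (κ' l)] (hij : i ≠ j) (a0 : ℝ) (c : Λ → ℝ) {cm : ℝ}
    (hcm : ∀ l ∈ L, c l ≤ cm) {b m : ℕ} [NeZero b] [NeZero m] {a η e E0 : ℝ} (ha : 0 ≤ a)
    (hη : 0 ≤ η) {Bad : Set (ModSpace n)} {cz : ModSpace n → ℝ} (hBad : MeasurableSet Bad)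
    (hcz : Measurable cz)
    (hB : ∀ z ∈ Bad, ∑ d : Fin b, pv (lab μ κ hij a0 b) d z *
      (if a < |cen b d - cz z| then 1 else 0) ≤ η)
    (hT : ∀ l ∈ L, ∀ᵐ q ∂((κ' l).prod uni),
      TVle ((κ.prod uni).map (Tq hij a0 (c l) q)) (κ.prod uni) e)
    {Ps : Λ → ModSpace n → ℝ} (hPs : ∀ l ∈ L, Measurable (Ps l))
    (hPs1 : ∀ l ∈ L, ∀ x, 0 ≤ Ps l x ∧ Ps l x ≤ 2)
    (hE : ∀ l ∈ L, ∫ x, |Acv μ (κ' l) hij (a0 + c l) m x - Ps l x| ∂μ ≤ E0)
    {τ ε : ℝ} (hτ : 0 < τ) (hN : μ.real {x | ∀ l ∈ L, Ps l x < τ} ≤ ε) :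
    (stp μ (cv κ (dl hij a0))).real Bad
      ≤ ε + L.card * (2 * (2 : ℝ) ^ cm * (a + 1 / b) + 4 * η + 2 / m + 10 * e + E0) / τ := by
  have hQm := measurable_Qb κ hij a0 hBad
  have hQ := Qb_bound (Bad := Bad) κ hij a0
  have hb' : (0:ℝ) < b := by exact_mod_cast Nat.pos_of_ne_zero (NeZero.ne b)
  rw [← integral_Qb μ κ hij a0 hBad]
  refine sum_depths μ L hQm hQ hPs hPs1 (fun l hl => ?_) hτ hN
  have h1 := nc_one μ κ (κ' l) hij a0 (c l) hBad hcz (b := b) (m := m) ha hη hB (hT l hl)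
  have hAm : Measurable (Acv μ (κ' l) hij (a0 + c l) m) := measurable_Av _ _
  have hAb : ∀ x, 0 ≤ Acv μ (κ' l) hij (a0 + c l) m x ∧ Acv μ (κ' l) hij (a0 + c l) m x ≤ 2 :=
    fun x => ⟨Av_nonneg _ _ x, Av_le _ _ x⟩
  have hi1 : Integrable (fun x => Qb κ hij a0 Bad x * Acv μ (κ' l) hij (a0 + c l) m x) μ :=
    bdd_integrable (M := 2) (hQm.mul hAm) fun x => by
      rw [abs_mul, abs_of_nonneg (hQ x).1, abs_of_nonneg (hAb x).1]
      nlinarith [(hQ x).1, (hQ x).2, (hAb x).1, (hAb x).2]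
  have hi2 : Integrable (fun x => |Acv μ (κ' l) hij (a0 + c l) m x - Ps l x|) μ :=
    bdd_integrable (M := 2) (hAm.sub (hPs l hl)).abs fun x => by
      rw [abs_abs, abs_le]
      constructor <;> linarith [(hAb x).1, (hAb x).2, (hPs1 l hl x).1, (hPs1 l hl x).2]
  have hi3 : Integrable (fun x => Qb κ hij a0 Bad x * Ps l x) μ :=
    bdd_integrable (M := 2) (hQm.mul (hPs l hl)) fun x => by
      have h2 := hPs1 l hl x
      rw [abs_mul, abs_of_nonneg (hQ x).1, abs_of_nonneg h2.1]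
      nlinarith [(hQ x).1, (hQ x).2]
  have h2 : ∫ x, Qb κ hij a0 Bad x * Ps l x ∂μ
      ≤ ∫ x, (Qb κ hij a0 Bad x * Acv μ (κ' l) hij (a0 + c l) m x
        + |Acv μ (κ' l) hij (a0 + c l) m x - Ps l x|) ∂μ := by
    refine integral_mono hi3 (hi1.add hi2) fun x => ?_
    simp only
    have h3 := neg_abs_le (Acv μ (κ' l) hij (a0 + c l) m x - Ps l x)
    have h4 := abs_nonneg (Acv μ (κ' l) hij (a0 + c l) m x - Ps l x)
    nlinarith [(hQ x).1, (hQ x).2]
  rw [integral_add hi1 hi2] at h2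
  have h5 : (2 : ℝ) ^ (c l) ≤ (2 : ℝ) ^ cm := Real.rpow_le_rpow_of_exponent_le one_le_two (hcm l hl)
  have h6 : 2 * (2 : ℝ) ^ (c l) * (a + 1 / b) ≤ 2 * (2 : ℝ) ^ cm * (a + 1 / b) := by
    have : 0 ≤ a + 1 / (b:ℝ) := by positivity
    gcongr
  linarith [hE l hl]

/-- **(NC)** in the form independent of the number of labels. -/
theorem nc_mainN {Λ : Type*} (L : Finset Λ) (μ : Measure (ModSpace n)) [IsProbabilityMeasure μ]
    (κ : Measure (SLR n)) [IsProbabilityMeasure κ] (κ' : Λ → Measure (SLR n))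
    [∀ l, IsProbabilityMeasure (κ' l)] (hij : i ≠ j) (a0 : ℝ) (c : Λ → ℝ) {cm : ℝ}
    (hcm : ∀ l ∈ L, c l ≤ cm) {b m : ℕ} [NeZero b] [NeZero m] {a n0 e E0 : ℝ} (ha : 0 ≤ a)
    (hn : 0 ≤ n0)
    (hT : ∀ l ∈ L, ∀ᵐ q ∂((κ' l).prod uni),
      TVle ((κ.prod uni).map (Tq hij a0 (c l) q)) (κ.prod uni) e)
    {Ps : Λ → ModSpace n → ℝ} (hPs : ∀ l ∈ L, Measurable (Ps l))
    (hPs1 : ∀ l ∈ L, ∀ x, 0 ≤ Ps l x ∧ Ps l x ≤ 2)
    (hE : ∀ l ∈ L, ∫ x, |Acv μ (κ' l) hij (a0 + c l) m x - Ps l x| ∂μ ≤ E0)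
    {τ ε : ℝ} (hτ : 0 < τ) (hN : μ.real {x | ∀ l ∈ L, Ps l x < τ} ≤ ε) :
    (stp μ (cv κ (dl hij a0))).real {z | far (lab μ κ hij a0 b) a z < n0}
      ≤ ε + L.card * (2 * (2 : ℝ) ^ cm * (a + 1 / b) + 4 * n0 + 2 / m + 10 * e + E0) / τ :=
  nc_gen L μ κ κ' hij a0 c hcm ha hn (measurableSet_BadN _ n0 a) (measurable_ctrN _ n0 a)
    (fun z hz => hBN_of _ z hz) hT hPs hPs1 hE hτ hN

/-! ### the product of the two labels -/

theorem nn_ge {Z : Type*} {b b' : ℕ} {p : Fin b → Z → ℝ} {q : Fin b' → Z → ℝ}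
    (hp : ∀ d z, 0 ≤ p d z) (hq : ∀ d z, 0 ≤ q d z) {S : Fin b → ℝ} {T : Fin b' → ℝ}
    {s1 s2 a1 a2 : ℝ} (hl1 : 0 ≤ s1) (hl2 : 0 ≤ s2) (ha2 : 0 ≤ a2) (z : Z)
    (hS : ∀ d, S d = s1 * cen b d) (hT : ∀ d, T d = s2 * cen b' d) :
    (∑ d : Fin b, ∑ d' : Fin b, p d z * p d' z * (if a1 ≤ |cen b d - cen b d'| then 1 else 0)) *
      (∑ k : Fin b', ∑ k' : Fin b', q k z * q k' z *
        (if a2 ≤ |cen b' k - cen b' k'| then 1 else 0))
      ≤ DEnd3_935.nn S T p q (s1 * a1 * (s2 * a2)) z := by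
  unfold DEnd3_935.nn
  rw [Fintype.sum_prod_type]
  rw [sum_mul]
  refine sum_le_sum fun d _ => ?_
  rw [Fintype.sum_prod_type, sum_mul]
  refine sum_le_sum fun d' _ => ?_
  rw [Fintype.sum_prod_type, mul_sum]
  refine sum_le_sum fun k _ => ?_
  rw [mul_sum]
  refine sum_le_sum fun k' _ => ?_
  have h0 : 0 ≤ p d z * p d' z * q k z * q k' z :=
    mul_nonneg (mul_nonneg (mul_nonneg (hp _ _) (hp _ _)) (hq _ _)) (hq _ _)
  by_cases h1 : a1 ≤ |cen b d - cen b d'|
  · by_cases h2 : a2 ≤ |cen b' k - cen b' k'|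
    · have h3 : s1 * a1 * (s2 * a2) ≤ |DEnd3_935.th S T (d, d', k, k')| := by
        have e : DEnd3_935.th S T (d, d', k, k')
            = (s1 * (cen b d - cen b d')) * (s2 * (cen b' k - cen b' k')) := by
          unfold DEnd3_935.th
          simp only [hS, hT]
          ring
        rw [e, abs_mul, abs_mul, abs_mul, abs_of_nonneg hl1, abs_of_nonneg hl2]
        exact mul_le_mul (mul_le_mul_of_nonneg_left h1 hl1) (mul_le_mul_of_nonneg_left h2 hl2)
          (mul_nonneg hl2 ha2) (mul_nonneg hl1 (abs_nonneg _))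
      rw [if_pos h1, if_pos h2, if_pos h3]
      refine le_of_eq ?_
      ring
    · rw [if_neg h2]
      simp only [mul_zero]
      exact mul_nonneg (by split_ifs <;> norm_num) h0
  · rw [if_neg h1]
    simp only [mul_zero, zero_mul]
    exact mul_nonneg (by split_ifs <;> norm_num) h0

/-- **off the two bad sets the probability of a macroscopic shift is bounded below** -/
theorem nn_ge_of_far {b b' : ℕ} (ρ : Fin b → Measure (ModSpace n))
    (ρ' : Fin b' → Measure (ModSpace n)) {S : Fin b → ℝ} {T : Fin b' → ℝ} {s1 s2 a1 a2 n1 n2 : ℝ}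
    (hl1 : 0 ≤ s1) (hl2 : 0 ≤ s2) (ha2 : 0 ≤ a2) (hn1 : 0 ≤ n1) (hn2 : 0 ≤ n2)
    (hS : ∀ d, S d = s1 * cen b d) (hT : ∀ d, T d = s2 * cen b' d) (z : ModSpace n)
    (h1 : n1 ≤ far ρ a1 z) (h2 : n2 ≤ far ρ' a2 z) :
    n1 * n2 ≤ DEnd3_935.nn S T (pv ρ) (pv ρ') (s1 * a1 * (s2 * a2)) z :=
  (mul_le_mul h1 h2 hn2 (hn1.trans h1)).trans
    (nn_ge (p := pv ρ) (q := pv ρ') (fun d z => pv_nonneg ρ d z) (fun d z => pv_nonneg ρ' d z)
      hl1 hl2 ha2 z hS hT)

end Crest.Agent.R014.DEnd3_667
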