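import Crest.Agent.R014.NScA_395

/-!
# Row 14, block D, noise formalism: the Heisenberg metric `R^N` (helper458)

For distinct `j k l` and `M > 0` the metric
`RN j k l M p q = M + c_p - c_q` (`c_j = 0`, `c_l = M/5`, `c_p = M/10` otherwise), except
`M/2` on the diagonal, `M/4` at `(j,k)` and `(k,l)`, `M/8` at `(j,l)`.

* `clean_jk`, `clean_kl`, `clean_jl`: `RN` is clean for the three roots at every depth `r` with
  `w + |r| ≤ M/10`;
* `tri`: `RN i j + (3/10) M ≤ RN i k + RN k j`; `neg_of_le`, `neg_RN_sh`;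
* `lo_sh`, `hi_sh`: bounds after a shift;
* `exists_jk`, `exists_kl`, `exists_jl`: the shifts to depth zero with everything macroscopic;
* `good_jk`, `good_kl`, `good_jl`.
-/

set_option autoImplicit false

noncomputable section

namespace Crest.Agent.R014.NScG_458

open Crest.Agent.R014.NScA_395

variable {n : ℕ}

/-- the coboundary part (in units of `M`) -/
def cN (j l : Fin n) (p : Fin n) : ℝ := if p = j then 0 else if p = l then 1 / 5 else 1 / 10

/-- the deficit (in units of `M`) -/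
def dN (j k l : Fin n) (p q : Fin n) : ℝ :=
  if p = q then 1 / 2 else if p = j ∧ q = k then 13 / 20 else if p = k ∧ q = l then 13 / 20 else
    if p = j ∧ q = l then 27 / 40 else 0

/-- the Heisenberg metric -/
def RN (j k l : Fin n) (M : ℝ) : Met n := fun p q => M * (1 + cN j l p - cN j l q - dN j k l p q)

variable {j k l : Fin n}

theorem cN_j (j l : Fin n) : cN j l j = 0 := by simp [cN]

theorem cN_l (h : j ≠ l) : cN j l l = 1 / 5 := by simp [cN, h.symm]

theorem cN_k {p : Fin n} (h : p ≠ j) (h' : p ≠ l) : cN j l p = 1 / 10 := by simp [cN, h, h']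

theorem cN_nonneg (j l p : Fin n) : 0 ≤ cN j l p := by unfold cN; split_ifs <;> norm_num

theorem cN_le (j l p : Fin n) : cN j l p ≤ 1 / 5 := by unfold cN; split_ifs <;> norm_num

theorem dN_nonneg (j k l p q : Fin n) : 0 ≤ dN j k l p q := by unfold dN; split_ifs <;> norm_num

theorem dN_le (j k l p q : Fin n) : dN j k l p q ≤ 27 / 40 := by unfold dN; split_ifs <;> norm_num

theorem dN_diag (j k l p : Fin n) : dN j k l p p = 1 / 2 := by simp [dN]

theorem dN_jk (h : j ≠ k) : dN j k l j k = 13 / 20 := by simp [dN, h]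

theorem dN_kl (hjk : j ≠ k) (hkl : k ≠ l) : dN j k l k l = 13 / 20 := by
  simp [dN, hkl, hjk.symm]

theorem dN_jl (hjk : j ≠ k) (hkl : k ≠ l) (hjl : j ≠ l) : dN j k l j l = 27 / 40 := by
  simp [dN, hjl, hkl.symm, hjk]

theorem RN_diag (j k l : Fin n) (M : ℝ) (p : Fin n) : RN j k l M p p = M / 2 := by
  simp only [RN, dN_diag]; ring

theorem RN_jk (hjk : j ≠ k) (hkl : k ≠ l) (M : ℝ) : RN j k l M j k = M / 4 := by
  simp only [RN, dN_jk hjk, cN_j, cN_k hjk.symm hkl]; ring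

theorem RN_kl (hjk : j ≠ k) (hkl : k ≠ l) (hjl : j ≠ l) (M : ℝ) : RN j k l M k l = M / 4 := by
  simp only [RN, dN_kl hjk hkl, cN_l hjl, cN_k hjk.symm hkl]; ring

theorem RN_jl (hjk : j ≠ k) (hkl : k ≠ l) (hjl : j ≠ l) (M : ℝ) : RN j k l M j l = M / 8 := by
  simp only [RN, dN_jl hjk hkl hjl, cN_j, cN_l hjl]; ring

/-- comparison of the deficits, columns -/
theorem d_col_jk (hjk : j ≠ k) (_hkl : k ≠ l) (hjl : j ≠ l) (p : Fin n) :
    dN j k l p j ≤ dN j k l p k := by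
  by_cases h : p = j
  · subst h; rw [dN_diag, dN_jk hjk]; norm_num
  · have : dN j k l p j = 0 := by simp [dN, h, hjk, hjl]
    rw [this]; exact dN_nonneg ..

theorem d_row_jk (hjk : j ≠ k) (hkl : k ≠ l) (hjl : j ≠ l) (q : Fin n) :
    dN j k l k q ≤ dN j k l j q := by
  by_cases h : q = k
  · subst h; rw [dN_diag, dN_jk hjk]; norm_num
  · by_cases h' : q = l
    · subst h'; rw [dN_kl hjk hkl, dN_jl hjk hkl hjl]; norm_num
    · have : dN j k l k q = 0 := by simp [dN, Ne.symm h, h', hjk.symm]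
      rw [this]; exact dN_nonneg ..

theorem d_col_kl (hjk : j ≠ k) (hkl : k ≠ l) (hjl : j ≠ l) (p : Fin n) :
    dN j k l p k ≤ dN j k l p l := by
  by_cases h : p = j
  · subst h; rw [dN_jk hjk, dN_jl hjk hkl hjl]; norm_num
  · by_cases h' : p = k
    · subst h'; rw [dN_diag, dN_kl hjk hkl]; norm_num
    · have : dN j k l p k = 0 := by simp [dN, h, h']
      rw [this]; exact dN_nonneg ..

theorem d_row_kl (hjk : j ≠ k) (hkl : k ≠ l) (hjl : j ≠ l) (q : Fin n) :
    dN j k l l q ≤ dN j k l k q := by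
  by_cases h : q = l
  · subst h; rw [dN_diag, dN_kl hjk hkl]; norm_num
  · have : dN j k l l q = 0 := by simp [dN, Ne.symm h, hjl.symm, hkl.symm]
    rw [this]; exact dN_nonneg ..

theorem clean_jk (hjk : j ≠ k) (hkl : k ≠ l) (hjl : j ≠ l) {M r w : ℝ} (hM : 0 ≤ M) (hw : 0 ≤ w)
    (h : w + |r| ≤ M / 10) : Clean j k r w (RN j k l M) := by
  have hr := neg_abs_le r
  have hr0 := abs_nonneg r
  refine ⟨fun p => ?_, fun q => ?_, ?_⟩ <;> simp only [RN, cN_j, cN_k hjk.symm hkl]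
  · nlinarith [mul_le_mul_of_nonneg_left (d_col_jk hjk hkl hjl p) hM]
  · nlinarith [mul_le_mul_of_nonneg_left (d_row_jk hjk hkl hjl q) hM]
  · have h1 : dN j k l k j = 0 := by simp [dN, hjk.symm, hjl]
    rw [h1, dN_jk hjk]; nlinarith

theorem clean_kl (hjk : j ≠ k) (hkl : k ≠ l) (hjl : j ≠ l) {M r w : ℝ} (hM : 0 ≤ M) (hw : 0 ≤ w)
    (h : w + |r| ≤ M / 10) : Clean k l r w (RN j k l M) := by
  have hr := neg_abs_le r
  have hr0 := abs_nonneg r
  refine ⟨fun p => ?_, fun q => ?_, ?_⟩ <;> simp only [RN, cN_l hjl, cN_k hjk.symm hkl]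
  · nlinarith [mul_le_mul_of_nonneg_left (d_col_kl hjk hkl hjl p) hM]
  · nlinarith [mul_le_mul_of_nonneg_left (d_row_kl hjk hkl hjl q) hM]
  · have h1 : dN j k l l k = 0 := by simp [dN, hkl.symm, hjl.symm]
    rw [h1, dN_kl hjk hkl]; nlinarith

theorem clean_jl (hjk : j ≠ k) (hkl : k ≠ l) (hjl : j ≠ l) {M r w : ℝ} (hM : 0 ≤ M) (hw : 0 ≤ w)
    (h : w + |r| ≤ M / 10) : Clean j l r w (RN j k l M) := by
  have hr := neg_abs_le r
  have hr0 := abs_nonneg r
  refine ⟨fun p => ?_, fun q => ?_, ?_⟩ <;> simp only [RN, cN_l hjl, cN_j]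
  · nlinarith [mul_le_mul_of_nonneg_left (d_col_jk hjk hkl hjl p) hM,
      mul_le_mul_of_nonneg_left (d_col_kl hjk hkl hjl p) hM]
  · nlinarith [mul_le_mul_of_nonneg_left (d_row_jk hjk hkl hjl q) hM,
      mul_le_mul_of_nonneg_left (d_row_kl hjk hkl hjl q) hM]
  · have h1 : dN j k l l j = 0 := by simp [dN, hjl.symm, hkl.symm, hjk]
    rw [h1, dN_jl hjk hkl hjl]; nlinarith

/-! ### bounds -/

theorem RN_ge {M : ℝ} (hM : 0 ≤ M) (p q : Fin n) : M / 8 ≤ RN j k l M p q := by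
  have h1 := mul_le_mul_of_nonneg_left (dN_le j k l p q) hM
  have h2 := mul_le_mul_of_nonneg_left (cN_le j l q) hM
  have h3 := mul_nonneg hM (cN_nonneg j l p)
  simp only [RN]; nlinarith

theorem RN_le {M : ℝ} (hM : 0 ≤ M) (p q : Fin n) : RN j k l M p q ≤ 6 / 5 * M := by
  have h1 := mul_nonneg hM (dN_nonneg j k l p q)
  have h2 := mul_le_mul_of_nonneg_left (cN_le j l p) hM
  have h3 := mul_nonneg hM (cN_nonneg j l q)
  simp only [RN]; nlinarith

theorem abs_sh_le {t : Fin n → ℝ} {T : ℝ} (ht : ∀ p, |t p| ≤ T) (p q : Fin n) :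
    |sh t p q| ≤ 2 * T := by
  have h := abs_sub (t p) (t q)
  simp only [sh]; linarith [ht p, ht q]

theorem lo_sh {M T : ℝ} (hM : 0 ≤ M) {t : Fin n → ℝ} (ht : ∀ p, |t p| ≤ T) (p q : Fin n) :
    M / 8 - 2 * T ≤ (RN j k l M + sh t) p q := by
  have h1 := RN_ge (j := j) (k := k) (l := l) hM p q
  have h2 := neg_abs_le (sh t p q)
  have h3 := abs_sh_le ht p q
  simp only [Pi.add_apply]; linarith

theorem hi_sh {M T : ℝ} (hM : 0 ≤ M) {t : Fin n → ℝ} (ht : ∀ p, |t p| ≤ T) (p q : Fin n) :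
    (RN j k l M + sh t) p q ≤ 6 / 5 * M + 2 * T := by
  have h1 := RN_le (j := j) (k := k) (l := l) hM p q
  have h2 := le_abs_self (sh t p q)
  have h3 := abs_sh_le ht p q
  simp only [Pi.add_apply]; linarith

/-! ### the strict triangle inequality -/

theorem dN_eq_zero_or (p q : Fin n) : dN j k l p q = 0 ∨ (p = q ∧ dN j k l p q = 1 / 2) ∨
    (p = j ∧ q = k) ∨ (p = k ∧ q = l) ∨ (p = j ∧ q = l) := by
  unfold dN; split_ifs <;> simp_all

/-- two deficits cost at most `7/10` more than the deficit of the composite -/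
theorem dN_tri (hjk : j ≠ k) (hkl : k ≠ l) (hjl : j ≠ l) (p m q : Fin n) :
    dN j k l p m + dN j k l m q ≤ dN j k l p q + 7 / 10 := by
  have h0 := dN_nonneg j k l p q
  have h1 := dN_le j k l m q
  have h2 := dN_le j k l p m
  rcases dN_eq_zero_or (j := j) (k := k) (l := l) p m with h | ⟨rfl, h⟩ | ⟨rfl, rfl⟩ |
    ⟨rfl, rfl⟩ | ⟨rfl, rfl⟩
  · linarith
  · linarith
  · rcases dN_eq_zero_or (j := p) (k := m) (l := l) m q with h | ⟨rfl, h⟩ | ⟨h, -⟩ |
      ⟨-, rfl⟩ | ⟨h, -⟩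
    · linarith
    · linarith
    · exact absurd h.symm hjk
    · rw [dN_jk hjk, dN_kl hjk hkl, dN_jl hjk hkl hjl]; norm_num
    · exact absurd h.symm hjk
  · rcases dN_eq_zero_or (j := j) (k := p) (l := m) m q with h | ⟨rfl, h⟩ | ⟨h, -⟩ |
      ⟨h, -⟩ | ⟨h, -⟩
    · linarith
    · linarith
    · exact absurd h.symm hjl
    · exact absurd h.symm hkl
    · exact absurd h.symm hjl
  · rcases dN_eq_zero_or (j := p) (k := k) (l := m) m q with h | ⟨rfl, h⟩ | ⟨h, -⟩ |
      ⟨h, -⟩ | ⟨h, -⟩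
    · linarith
    · linarith
    · exact absurd h.symm hjl
    · exact absurd h.symm hkl
    · exact absurd h.symm hjl

theorem tri (hjk : j ≠ k) (hkl : k ≠ l) (hjl : j ≠ l) {M : ℝ} (hM : 0 ≤ M) (p m q : Fin n) :
    RN j k l M p q + 3 / 10 * M ≤ RN j k l M p m + RN j k l M m q := by
  have := mul_le_mul_of_nonneg_left (dN_tri hjk hkl hjl p m q) hM
  simp only [RN]; nlinarith

/-- everything that is `≥ RN + w` entrywise is `w`-negligible for `RN` -/
theorem neg_of_le (hjk : j ≠ k) (hkl : k ≠ l) (hjl : j ≠ l) {M w : ℝ} (hM : 0 ≤ M)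
    {R' : Met n} (h : ∀ p q, RN j k l M p q + w ≤ R' p q) :
    Neg w R' (RN j k l M) :=
  ⟨h, fun i m q => by linarith [h i m, tri hjk hkl hjl hM i m q],
    fun i m q => by linarith [h m q, tri hjk hkl hjl hM i m q]⟩

/-- the metric at scale `2 M` (or more), shifted a little, is negligible for the metric at scale
`M` -/
theorem neg_RN_sh (hjk : j ≠ k) (hkl : k ≠ l) (hjl : j ≠ l) {M M' w T : ℝ} (hM : 0 ≤ M)
    (hMM : 2 * M ≤ M') {t : Fin n → ℝ} (ht : ∀ p, |t p| ≤ T) (hT : 2 * T + w ≤ M / 8) :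
    Neg w (RN j k l M' + sh t) (RN j k l M) := by
  refine neg_of_le hjk hkl hjl hM fun p q => ?_
  have h1 := RN_ge (j := j) (k := k) (l := l) (M := M' - M) (by linarith) p q
  have h2 := neg_abs_le (sh t p q)
  have h3 := abs_sh_le ht p q
  have h4 : RN j k l M' p q = RN j k l M p q + RN j k l (M' - M) p q := by
    simp only [RN]; ring
  simp only [Pi.add_apply]; linarith

/-! ### shifts to depth zero -/

/-- `jk`-digits at depth `a`, other unipotent factors at depths `b` (kl) and `c` (jl) -/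
theorem exists_jk (hjk : j ≠ k) (hkl : k ≠ l) (hjl : j ≠ l) {u w W a b c : ℝ}
    (hu : 0 ≤ 3 * u + w) (ha : |a| ≤ W) (hb : |b| ≤ W) (hc : |c| ≤ W) :
    ∃ t : Fin n → ℝ, a + (t j - t k) = 0 ∧ 3 * u + w ≤ b + (t k - t l) ∧
      3 * u + w ≤ c + (t j - t l) ∧ ∀ p, |t p| ≤ 3 * u + w + 2 * W := by
  have hW : 0 ≤ W := (abs_nonneg a).trans ha
  have ha' := abs_le.1 ha
  have hb' := abs_le.1 hb
  have hc' := abs_le.1 hc
  refine ⟨fun p => if p = j then -a else if p = l then -(3 * u + w + 2 * W) else 0,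
    ?_, ?_, ?_, fun p => ?_⟩
  · simp [hjk.symm, hkl]
  · simp only [hjk.symm, hkl, hjl.symm, if_false, if_true]; linarith
  · simp only [hjl.symm, if_false, if_true]; linarith
  · dsimp only
    split_ifs
    · rw [abs_neg]; linarith
    · rw [abs_neg, abs_of_nonneg (by linarith)]
    · rw [abs_zero]; linarith

/-- `kl`-digits at depth `b`, other unipotent factors at depths `a` (jk) and `c` (jl) -/
theorem exists_kl (hjk : j ≠ k) (hkl : k ≠ l) (hjl : j ≠ l) {u w W a b c : ℝ}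
    (hu : 0 ≤ 3 * u + w) (ha : |a| ≤ W) (hb : |b| ≤ W) (hc : |c| ≤ W) :
    ∃ t : Fin n → ℝ, b + (t k - t l) = 0 ∧ 3 * u + w ≤ a + (t j - t k) ∧
      3 * u + w ≤ c + (t j - t l) ∧ ∀ p, |t p| ≤ 3 * u + w + 2 * W := by
  have hW : 0 ≤ W := (abs_nonneg a).trans ha
  have ha' := abs_le.1 ha
  have hb' := abs_le.1 hb
  have hc' := abs_le.1 hc
  refine ⟨fun p => if p = j then 3 * u + w + 2 * W else if p = k then -b else 0,
    ?_, ?_, ?_, fun p => ?_⟩
  · simp [hjk.symm, hkl.symm, hjl.symm]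
  · simp only [hjk.symm, if_false, if_true]; linarith
  · simp only [hjl.symm, hkl.symm, if_false, if_true]; linarith
  · dsimp only
    split_ifs
    · rw [abs_of_nonneg (by linarith)]
    · rw [abs_neg]; linarith
    · rw [abs_zero]; linarith

/-- `jl`-digits at depth `c`, other unipotent factors at depths `a` (jk) and `b` (kl), critical
gap `a + b - c` macroscopic -/
theorem exists_jl (hjk : j ≠ k) (hkl : k ≠ l) (hjl : j ≠ l) {u w W a b c : ℝ}
    (hu : 0 ≤ 3 * u + w) (hb : |b| ≤ W) (hc : |c| ≤ W)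
    (hgap : 2 * (3 * u + w) ≤ a + b - c) :
    ∃ t : Fin n → ℝ, c + (t j - t l) = 0 ∧ 3 * u + w ≤ a + (t j - t k) ∧
      3 * u + w ≤ b + (t k - t l) ∧ ∀ p, |t p| ≤ 3 * u + w + 2 * W := by
  have hW : 0 ≤ W := (abs_nonneg b).trans hb
  have hb' := abs_le.1 hb
  have hc' := abs_le.1 hc
  refine ⟨fun p => if p = j then -c else if p = k then 3 * u + w - b else 0,
    ?_, ?_, ?_, fun p => ?_⟩
  · simp [hjl.symm, hkl.symm]
  · simp only [hjk.symm, if_false, if_true]; linarith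
  · simp only [hjl.symm, hjk.symm, hkl.symm, if_false, if_true]; linarith
  · dsimp only
    split_ifs
    · rw [abs_neg]; linarith
    · rw [abs_le]; constructor <;> linarith
    · rw [abs_zero]; linarith

/-! ### goodness of the box noise `RN` -/

/-- after any shift by `|t| ≤ T` the entries of `RN` are in the range of goodness -/
theorem range_sh {M T u1 u2 w : ℝ} (hM : 0 ≤ M) {t : Fin n → ℝ} (ht : ∀ p, |t p| ≤ T)
    (h1 : 3 * u1 + w + 2 * T ≤ M / 8) (h2 : 6 / 5 * M + 2 * T + w ≤ u2 / 20) (p q : Fin n) :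
    3 * u1 + w ≤ (RN j k l M + sh t) p q ∧ (RN j k l M + sh t) p q + w ≤ u2 / 20 :=
  ⟨by linarith [lo_sh (j := j) (k := k) (l := l) hM ht p q],
    by linarith [hi_sh (j := j) (k := k) (l := l) hM ht p q]⟩

theorem good_of_clean {i i' : Fin n} {M T u1 u2 w r : ℝ} (hM : 0 ≤ M)
    (hc : Clean i i' r w (RN j k l M)) {t : Fin n → ℝ} (ht : ∀ p, |t p| ≤ T)
    (htr : r + (t i - t i') = 0)
    (h1 : 3 * u1 + w + 2 * T ≤ M / 8) (h2 : 6 / 5 * M + 2 * T + w ≤ u2 / 20) :
    Good i i' w u1 u2 (RN j k l M + sh t) := by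
  refine ⟨?_, 0, rfl, fun p q => ?_⟩
  · have := (clean_sh (i := i) (j := i') (r := r) (w := w) (R := RN j k l M) (t := t)).2 hc
    rwa [htr] at this
  · have h0 : sh (0 : Fin n → ℝ) = 0 := by funext p q; simp [sh]
    rw [h0, add_zero]
    exact range_sh hM ht h1 h2 p q

/-- the three roots of the Heisenberg triple -/
theorem clean_roots (hjk : j ≠ k) (hkl : k ≠ l) (hjl : j ≠ l) {M r w : ℝ} (hM : 0 ≤ M) (hw : 0 ≤ w)
    (h : w + |r| ≤ M / 10) {i i' : Fin n}
    (hi : (i = j ∧ i' = k) ∨ (i = k ∧ i' = l) ∨ (i = j ∧ i' = l)) :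
    Clean i i' r w (RN j k l M) := by
  rcases hi with ⟨rfl, rfl⟩ | ⟨rfl, rfl⟩ | ⟨rfl, rfl⟩
  · exact clean_jk hjk hkl hjl hM hw h
  · exact clean_kl hjk hkl hjl hM hw h
  · exact clean_jl hjk hkl hjl hM hw h

/-- goodness of the box noise `RN` for the three roots at every depth `|r| ≤ W` -/
theorem good_roots (hjk : j ≠ k) (hkl : k ≠ l) (hjl : j ≠ l) {M r w W u1 u2 : ℝ}
    (hu1 : 0 ≤ u1) (hw : w ≤ u1) (hW : 1000 * (u1 + W) ≤ 10 * M) (hw0 : 0 ≤ w)
    (hr : |r| ≤ W) (hu2 : 2 * M ≤ u2 / 20) {i i' : Fin n}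
    (hi : (i = j ∧ i' = k) ∨ (i = k ∧ i' = l) ∨ (i = j ∧ i' = l)) :
    ∃ t : Fin n → ℝ, r + (t i - t i') = 0 ∧ (∀ p, |t p| ≤ W) ∧
      Good i i' w u1 u2 (RN j k l M + sh t) := by
  have hW0 : 0 ≤ W := (abs_nonneg r).trans hr
  have hM : 0 ≤ M := by linarith
  have hii : i ≠ i' := by
    rcases hi with ⟨rfl, rfl⟩ | ⟨rfl, rfl⟩ | ⟨rfl, rfl⟩ <;> assumption
  refine ⟨fun p => if p = i then -r else 0, ?_, fun p => ?_, ?_⟩
  · simp [hii.symm]
  · dsimp only
    split_ifs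
    · rw [abs_neg]; exact hr
    · rw [abs_zero]; exact hW0
  · refine good_of_clean (T := W) (r := r) hM
      (clean_roots hjk hkl hjl hM hw0 (by linarith) hi) (fun p => ?_) ?_ (by linarith) (by linarith)
    · split_ifs
      · rw [abs_neg]; exact hr
      · rw [abs_zero]; exact hW0
    · simp [hii.symm]

end Crest.Agent.R014.NScG_458
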