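import Crest.Agent.R014.Sw3_640
import Crest.Agent.R014.Nd4_837
import Crest.Agent.R014.NScG_458

set_option autoImplicit false

/-!
Row 14, block D, noise formalism: goodness of the Heisenberg noises for the box noise `zt (RN j k l M)`
(metric of helper458), with explicit ranges `Rg`.

* `Ab_zt`, `Ab_dl`, `Ab_dl_right`, `Cm_zt` : (L1), (L2) in the language of `Sw1_640`;
* `Rg n M u1 u2 w W` : the ranges of the scales;
* `heis_Z`, `heis_S`, `heis_R`, `heis_R'`, `heis_T` : goodness;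
* `coarse_cm` : the digits commute with the coarse noise.
-/

open MeasureTheory Crest.NumberTheoryR.Packets
open scoped ENNReal

namespace Crest.Agent.R014.Sw4_640

open Ms_667 Ne1_567 Ne3_567 Sw1_640 Sw3_640
open Nd_837 hiding uni_ae
open Nz_323 (Adm CN)
open NScA_395 (rho)
open NScD_395 (dl)
open NScG_458 (RN)

variable {n : ℕ} {i j k l : Fin n} {b : ℕ}

/-- The error of (L1), (L2). -/
noncomputable def e0 (n : ℕ) (w : ℝ) : ℝ := CN n * 2 ^ (-w)

theorem e0_nonneg (n : ℕ) (w : ℝ) : 0 ≤ e0 n w := by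
  unfold e0 Nz_323.CN
  positivity

theorem e0_anti (n : ℕ) {w w' : ℝ} (h : w ≤ w') : e0 n w' ≤ e0 n w := by
  unfold e0
  have h1 : (0 : ℝ) ≤ CN n := by unfold Nz_323.CN; positivity
  exact mul_le_mul_of_nonneg_left
    (Real.rpow_le_rpow_of_exponent_le (by norm_num) (by linarith)) h1

theorem neg_conv {w : ℝ} {R' R : Fin n → Fin n → ℝ} (h : NScA_395.Neg w R' R) :
    Nz_323.Neg w R' R :=
  ⟨h.1, fun p m q => ⟨h.2.1 p m q, h.2.2 p m q⟩⟩

section Basic

variable {w r : ℝ} {R R' : Fin n → Fin n → ℝ}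

/-- (L1): the noise of `R` absorbs the noise of `R'`. -/
theorem Ab_zt (hw : 0 ≤ w) (hR : Adm R) (hN : Nz_323.Neg w R' R) :
    Ab (e0 n w) (zt R') (zt R) := by
  have hR' : Adm R' := Nz_323.adm_of_le hR fun p q => by linarith [hN.1 p q]
  have := isProb_zt hR'
  exact cv_zt_left hw hR hN (zt_ae hR')

theorem dl_ae (hij : i ≠ j) (r : ℝ) : ∀ᵐ g ∂(dl hij r), g ∈ (rtG hij r : Set (SLR n)) := by
  refine (ae_map_iff (p := fun g => g ∈ (rtG hij r : Set (SLR n)))
    (measurable_wn hij r).aemeasurable (measurableSet_rtG hij r)).2 ?_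
  filter_upwards [ae_wn r] with θ hθ
  exact uu_mem_rtG hij hθ

/-- (L1): the noise of `R` absorbs the unipotent noise at depth `r`. -/
theorem Ab_dl (hij : i ≠ j) (hw : 0 ≤ w) (hR : Adm R) (h0 : ∀ p q, 0 ≤ R p q)
    (hr : ∀ p q, R p q + w ≤ r) : Ab (e0 n w) (dl hij r) (zt R) :=
  cv_zt_left_rt hij hw hR (hr i j) (fun q => by linarith [hr i q, h0 j q])
    (fun p => by linarith [hr p j, h0 p i]) (dl_ae hij r)

/-- (L1), on the right. -/
theorem Ab_dl_right (hij : i ≠ j) (hw : 0 ≤ w) (hR : Adm R) (h0 : ∀ p q, 0 ≤ R p q)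
    (hr : ∀ p q, R p q + w ≤ r) : TVle (cv (zt R) (dl hij r)) (zt R) (e0 n w) :=
  cv_zt_right_rt hij hw hR (hr i j) (fun q => by linarith [hr i q, h0 j q])
    (fun p => by linarith [hr p j, h0 p i]) (dl_ae hij r)

/-- (L2): the digits commute with the noise of a clean metric. -/
theorem Cm_zt (hij : i ≠ j) (hR : Adm R) (hC : Nz_323.Clean i j r w R) (d : Fin b) :
    Cm (e0 n w) (dlaw hij r b d) (zt R) :=
  cv_zt_comm hij hR hC (dlaw_ae hij r b d)

/-- (L2): the unipotent noise commutes with the noise of a clean metric. -/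
theorem Cm_dl_zt (hij : i ≠ j) (hR : Adm R) (hC : Nz_323.Clean i j r w R) :
    Cm (e0 n w) (dl hij r) (zt R) :=
  cv_zt_comm hij hR hC (dl_ae hij r)

end Basic

/-- The ranges of the scales: `w ≤ u1 / 20` margin, `u1` coarse scale, `u2` fine scale, `M` scale of
the Heisenberg metric, `W` bound for all depths. -/
structure Rg (n : ℕ) (M u1 u2 w W : ℝ) : Prop where
  hw : 0 ≤ w
  hwu : w ≤ u1 / 20
  hW : 0 ≤ W
  hadm : ((n.factorial : ℝ) + 1) * 2 ^ (n + 1) ≤ (2 : ℝ) ^ (u1 / 20)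
  hM1 : 9 * u1 + 3 * w + 4 * W ≤ M / 8
  hM2 : 6 / 5 * M + (6 * u1 + 3 * w + 4 * W) ≤ u2 / 20

namespace Rg

variable {M u1 u2 w W : ℝ} (h : Rg n M u1 u2 w W)

include h

theorem u1_nonneg : 0 ≤ u1 := by linarith [h.hw, h.hwu]

theorem M_nonneg : 0 ≤ M := by linarith [h.hw, h.hwu, h.hW, h.hM1, h.u1_nonneg]

theorem u2_nonneg : 0 ≤ u2 := by
  linarith [h.hw, h.hwu, h.hW, h.hM1, h.hM2, h.u1_nonneg, h.M_nonneg]

theorem adm_of {R : Fin n → Fin n → ℝ} (hR : ∀ p q, u1 / 20 ≤ R p q) : Adm R :=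
  Nz_323.adm_of_entries h.hadm hR

theorem adm_coarse (i j : Fin n) : Adm (u1 • rho i j) :=
  h.adm_of (NScA_395.smul_ge h.u1_nonneg i j)

theorem adm_fine (i j : Fin n) : Adm (u2 • rho i j) :=
  h.adm_of fun p q => le_trans (by
    linarith [h.hw, h.hwu, h.hW, h.hM1, h.hM2, h.u1_nonneg, h.M_nonneg])
    (NScA_395.smul_ge h.u2_nonneg i j p q)

/-- The digits at depth `0` commute with the coarse noise. -/
theorem coarse_cm (hij : i ≠ j) (d : Fin b) :
    Cm (e0 n w) (dlaw hij 0 b d) (zt (u1 • rho i j)) :=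
  Cm_zt hij (h.adm_coarse i j) ((NScA_395.clean_rho hij h.u1_nonneg).mono h.hwu) d

variable {t : Fin n → ℝ} (ht : ∀ p, |t p| ≤ 3 * u1 + w + 2 * W)

include ht

theorem lo (p q : Fin n) : 3 * u1 + w ≤ (RN j k l M + sh t) p q := by
  have h1 := NScG_458.lo_sh (j := j) (k := k) (l := l) h.M_nonneg ht p q
  have h2 : (RN j k l M + sh t) p q = (RN j k l M + NScA_395.sh t) p q := rfl
  rw [h2]
  linarith [h.hM1]

theorem hi (p q : Fin n) : (RN j k l M + sh t) p q + w ≤ u2 / 20 := by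
  have h1 := NScG_458.hi_sh (j := j) (k := k) (l := l) h.M_nonneg ht p q
  have h2 : (RN j k l M + sh t) p q = (RN j k l M + NScA_395.sh t) p q := rfl
  rw [h2]
  linarith [h.hM2]

theorem adm_RN_sh : Adm (RN j k l M + sh t) :=
  h.adm_of fun p q => le_trans (by linarith [h.hw, h.u1_nonneg]) (h.lo ht p q)

/-- The coarse noise absorbs the shifted Heisenberg noise. -/
theorem up (i i' : Fin n) : Ab (e0 n w) (zt (RN j k l M + sh t)) (zt (u1 • rho i i')) :=
  Ab_zt h.hw (h.adm_coarse i i') (neg_conv (NScA_395.neg_of_bounds (a := 3 * u1 + w)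
    (b := 3 * u1) (h.lo ht) (fun p q => le_trans (by have := h.u1_nonneg; positivity)
      (NScA_395.smul_ge h.u1_nonneg i i' p q)) (NScA_395.smul_le h.u1_nonneg i i') le_rfl))

/-- The shifted Heisenberg noise absorbs the fine noise. -/
theorem dn (i i' : Fin n) : Ab (e0 n w) (zt (u2 • rho i i')) (zt (RN j k l M + sh t)) :=
  Ab_zt h.hw (h.adm_RN_sh ht) (neg_conv (NScA_395.neg_of_bounds (a := u2 / 20)
    (b := u2 / 20 - w) (NScA_395.smul_ge h.u2_nonneg i i')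
    (fun p q => le_trans (by linarith [h.hw, h.u1_nonneg]) (h.lo ht p q))
    (fun p q => by linarith [h.hi (j := j) (k := k) (l := l) ht p q]) (by linarith)))

omit ht in
/-- The coarse noise absorbs a unipotent noise at depth `≥ 3 u1 + w`. -/
theorem up_dl (i i' : Fin n) {p q : Fin n} (hpq : p ≠ q) {β : ℝ} (hβ : 3 * u1 + w ≤ β) :
    Ab (e0 n w) (dl hpq β) (zt (u1 • rho i i')) :=
  Ab_dl hpq h.hw (h.adm_coarse i i')
    (fun p q => le_trans (by have := h.u1_nonneg; positivity)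
      (NScA_395.smul_ge h.u1_nonneg i i' p q))
    (fun p q => by linarith [NScA_395.smul_le h.u1_nonneg i i' p q])

omit ht in
theorem adm_RN : Adm (RN j k l M) := by
  refine h.adm_of fun p q => le_trans ?_ (NScG_458.RN_ge h.M_nonneg p q)
  linarith [h.hw, h.hW, h.hM1, h.u1_nonneg]

end Rg

variable {M u1 u2 w W α β γ : ℝ}

theorem clean_conv {p q : Fin n} {r : ℝ} {R : Fin n → Fin n → ℝ} {t : Fin n → ℝ}
    (hc : NScA_395.Clean p q r w R) (ht : r + (t p - t q) = 0) :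
    Nz_323.Clean p q 0 w (R + sh t) := by
  have h1 := (NScA_395.clean_sh (i := p) (j := q) (r := r) (w := w) (R := R) (t := t)).2 hc
  rw [ht] at h1
  exact h1

/-- The box noise itself, for the three roots of the Heisenberg triple. -/
theorem heis_Z (h : Rg n M u1 u2 w W) (hjk : j ≠ k) (hkl : k ≠ l) (hjl : j ≠ l) {i i' : Fin n}
    (hi : (i = j ∧ i' = k) ∨ (i = k ∧ i' = l) ∨ (i = j ∧ i' = l)) (hii : i ≠ i') {r : ℝ}
    (hr : |r| ≤ W) :
    ∃ t : Fin n → ℝ, (∀ p, |t p| ≤ 3 * u1 + w + 2 * W) ∧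
      Sw2_640.Good hii b (e0 n w) (zt (u1 • rho i i')) (zt (u2 • rho i i')) (zt (RN j k l M)) r t := by
  have h1 := h.u1_nonneg
  have hW := h.hW
  have hw := h.hw
  have hr' : ∀ p : Fin n, |if p = i then -r else 0| ≤ 3 * u1 + w + 2 * W := fun p => by
    split_ifs
    · rw [abs_neg]; linarith
    · rw [abs_zero]; linarith
  have ht : r + ((if i = i then -r else 0) - (if i' = i then -r else 0)) = 0 := by
    simp [hii.symm]
  refine ⟨fun p => if p = i then -r else 0, hr', ?_⟩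
  have hc : NScA_395.Clean i i' r w (RN j k l M) :=
    NScG_458.clean_roots hjk hkl hjl h.M_nonneg hw (by linarith [h.hM1]) hi
  exact good_Z hii ht (zt_sh h.adm_RN _) (h.up hr' i i') (h.dn hr' i i')
    fun d => Cm_zt hii (h.adm_RN_sh hr') (clean_conv hc ht) d

/-- **`jk`-digits** at depth `α`, noise `RN · u_kl(β) · u_jl(γ)`. -/
theorem heis_S (h : Rg n M u1 u2 w W) (hjk : j ≠ k) (hkl : k ≠ l) (hjl : j ≠ l)
    (hα : |α| ≤ W) (hβ : |β| ≤ W) (hγ : |γ| ≤ W) :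
    ∃ t : Fin n → ℝ, (∀ p, |t p| ≤ 3 * u1 + w + 2 * W) ∧
      Sw2_640.Good hjk b (3 * e0 n w + (2 : ℝ) ^ (γ - α - β) / 2) (zt (u1 • rho j k))
        (zt (u2 • rho j k)) (cv (cv (zt (RN j k l M)) (dl hkl β)) (dl hjl γ)) α t := by
  have h1 := h.u1_nonneg
  have hw := h.hw
  obtain ⟨t, ht, htb, htc, hta⟩ := NScG_458.exists_jk (j := j) (k := k) (l := l) hjk hkl hjl
    (u := u1) (w := w) (by linarith) hα hβ hγ
  refine ⟨t, hta, ?_⟩
  have := isProb_zt (h.adm_RN (j := j) (k := k) (l := l))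
  have := isProb_zt (h.adm_RN_sh (j := j) (k := k) (l := l) hta)
  have := isProb_zt (h.adm_coarse j k)
  have := isProb_zt (h.adm_fine j k)
  have hc : NScA_395.Clean j k α w (RN j k l M) :=
    NScG_458.clean_jk hjk hkl hjl h.M_nonneg hw (by linarith [h.hM1, h.hW, h.M_nonneg])
  exact good_S hjk hkl hjl ht (zt_sh h.adm_RN _) (h.up hta j k) (h.dn hta j k)
    (fun d => Cm_zt hjk (h.adm_RN_sh hta) (clean_conv hc ht) d) (h.up_dl j k hkl htb)
    (h.up_dl j k hjl htc)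

/-- **`kl`-digits** at depth `β`, noise `RN · u_jk(α) · u_jl(γ)`. -/
theorem heis_T (h : Rg n M u1 u2 w W) (hjk : j ≠ k) (hkl : k ≠ l) (hjl : j ≠ l)
    (hα : |α| ≤ W) (hβ : |β| ≤ W) (hγ : |γ| ≤ W) :
    ∃ t : Fin n → ℝ, (∀ p, |t p| ≤ 3 * u1 + w + 2 * W) ∧
      Sw2_640.Good hkl b (3 * e0 n w + (2 : ℝ) ^ (γ - α - β) / 2) (zt (u1 • rho k l))
        (zt (u2 • rho k l)) (cv (cv (zt (RN j k l M)) (dl hjk α)) (dl hjl γ)) β t := by
  have h1 := h.u1_nonneg
  have hw := h.hw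
  obtain ⟨t, ht, hta', htc, hta⟩ := NScG_458.exists_kl (j := j) (k := k) (l := l) hjk hkl hjl
    (u := u1) (w := w) (by linarith) hα hβ hγ
  refine ⟨t, hta, ?_⟩
  have := isProb_zt (h.adm_RN (j := j) (k := k) (l := l))
  have := isProb_zt (h.adm_RN_sh (j := j) (k := k) (l := l) hta)
  have := isProb_zt (h.adm_coarse k l)
  have := isProb_zt (h.adm_fine k l)
  have hc : NScA_395.Clean k l β w (RN j k l M) :=
    NScG_458.clean_kl hjk hkl hjl h.M_nonneg hw (by linarith [h.hM1, h.hW, h.M_nonneg])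
  exact good_T hjk hkl hjl ht (zt_sh h.adm_RN _) (h.up hta k l) (h.dn hta k l)
    (fun d => Cm_zt hkl (h.adm_RN_sh hta) (clean_conv hc ht) d) (h.up_dl k l hjk hta')
    (h.up_dl k l hjl htc)

/-- **`jl`-digits** at depth `γ`, noise `RN · u_kl(β) · u_jk(α)`, macroscopic gap. -/
theorem heis_R (h : Rg n M u1 u2 w W) (hjk : j ≠ k) (hkl : k ≠ l) (hjl : j ≠ l)
    (hβ : |β| ≤ W) (hγ : |γ| ≤ W) (hgap : 2 * (3 * u1 + w) ≤ α + β - γ) :
    ∃ t : Fin n → ℝ, (∀ p, |t p| ≤ 3 * u1 + w + 2 * W) ∧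
      Sw2_640.Good hjl b (3 * e0 n w) (zt (u1 • rho j l))
        (zt (u2 • rho j l)) (cv (cv (zt (RN j k l M)) (dl hkl β)) (dl hjk α)) γ t := by
  have h1 := h.u1_nonneg
  have hw := h.hw
  obtain ⟨t, ht, hta', htb, hta⟩ := NScG_458.exists_jl (j := j) (k := k) (l := l) hjk hkl hjl
    (u := u1) (w := w) (by linarith) hβ hγ hgap
  refine ⟨t, hta, ?_⟩
  have := isProb_zt (h.adm_RN (j := j) (k := k) (l := l))
  have := isProb_zt (h.adm_RN_sh (j := j) (k := k) (l := l) hta)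
  have := isProb_zt (h.adm_coarse j l)
  have := isProb_zt (h.adm_fine j l)
  have hc : NScA_395.Clean j l γ w (RN j k l M) :=
    NScG_458.clean_jl hjk hkl hjl h.M_nonneg hw (by linarith [h.hM1, h.hW, h.M_nonneg])
  exact good_R hjk hkl hjl ht (zt_sh h.adm_RN _) (h.up hta j l) (h.dn hta j l)
    (fun d => Cm_zt hjl (h.adm_RN_sh hta) (clean_conv hc ht) d) (h.up_dl j l hkl htb)
    (h.up_dl j l hjk hta')

/-- **`jl`-digits** at depth `γ`, noise `RN · u_jk(α) · u_kl(β)`, macroscopic gap. -/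
theorem heis_R' (h : Rg n M u1 u2 w W) (hjk : j ≠ k) (hkl : k ≠ l) (hjl : j ≠ l)
    (hβ : |β| ≤ W) (hγ : |γ| ≤ W) (hgap : 2 * (3 * u1 + w) ≤ α + β - γ) :
    ∃ t : Fin n → ℝ, (∀ p, |t p| ≤ 3 * u1 + w + 2 * W) ∧
      Sw2_640.Good hjl b (3 * e0 n w) (zt (u1 • rho j l))
        (zt (u2 • rho j l)) (cv (cv (zt (RN j k l M)) (dl hjk α)) (dl hkl β)) γ t := by
  have h1 := h.u1_nonneg
  have hw := h.hw
  obtain ⟨t, ht, hta', htb, hta⟩ := NScG_458.exists_jl (j := j) (k := k) (l := l) hjk hkl hjl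
    (u := u1) (w := w) (by linarith) hβ hγ hgap
  refine ⟨t, hta, ?_⟩
  have := isProb_zt (h.adm_RN (j := j) (k := k) (l := l))
  have := isProb_zt (h.adm_RN_sh (j := j) (k := k) (l := l) hta)
  have := isProb_zt (h.adm_coarse j l)
  have := isProb_zt (h.adm_fine j l)
  have hc : NScA_395.Clean j l γ w (RN j k l M) :=
    NScG_458.clean_jl hjk hkl hjl h.M_nonneg hw (by linarith [h.hM1, h.hW, h.M_nonneg])
  exact good_R' hjk hkl hjl ht (zt_sh h.adm_RN _) (h.up hta j l) (h.dn hta j l)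
    (fun d => Cm_zt hjl (h.adm_RN_sh hta) (clean_conv hc ht) d) (h.up_dl j l hkl htb)
    (h.up_dl j l hjk hta')

end Crest.Agent.R014.Sw4_640
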