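import Crest.Agent.R014.DEnd3c_667
import Crest.Agent.R014.Sw4_640
import Crest.Agent.R014.NScH_395

/-!
# Row 14, block D, END (noise formalism): nonconcentration (NC), part d, helper667

* `acv_RN`: (3.1) for the Heisenberg box noise at depth `r`;
* `nc_root`: (NC) for a root and a noise built over `zt (RN j k l M)`;
* `nc_S`, `nc_T`: the two instances (`jk`-digits and `kl`-digits);
* `far_transfer`: change of the labelled law.
-/

set_option autoImplicit false

open MeasureTheory Finset Crest.NumberTheoryR.Packets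
open Crest.Agent.R014.Nd_837 Crest.Agent.R014.Ne1_567 Crest.Agent.R014.NScB_395
open Crest.Agent.R014.NScC_395 Crest.Agent.R014.NScD_395 Crest.Agent.R014.Ms_667
open Crest.Agent.R014.Sw1_640 Crest.Agent.R014.Sw4_640 Crest.Agent.R014.NScH_395
open Crest.Agent.R014.Ne3_567 (pv measurable_pv pv_nonneg sum_pv pv_le_one integral_pv_mul)
open Crest.Agent.R014.NScG_458 (RN)
open Crest.Agent.R014.NScA_395 (rho)
open Crest.Agent.R014.DSkel_792 (tz)
open scoped ENNReal

noncomputable section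

namespace Crest.Agent.R014.DEnd3_667

variable {n : ℕ} {i j k l : Fin n}

/-! ### (3.1) for the Heisenberg box noise -/

/-- error of (3.1) -/
def E31 (n m : ℕ) (η w : ℝ) : ℝ :=
  8 * √(η + NScG_395.ew m (Nz_323.CN n) w + NScG_395.ew m (Nz_323.CN n) w)
    + (8 * m + 12) * (2 * Nz_323.CN n * (2:ℝ) ^ (-w))

theorem acv_RN {μ : Measure (ModSpace n)} [IsProbabilityMeasure μ] (hμ : AInv μ)
    {M u1 u2 w W η : ℝ} {B : Finset ℕ} (h : Rg n M u1 u2 w W) (hw1 : 1 ≤ w)
    (he : 2 * Nz_323.CN n * (2:ℝ) ^ (-w) ≤ 1) (hc : 20 * c1N n ≤ u1)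
    (hN : NC μ u1 u2 B η) {m : ℕ} [NeZero m] (hm : m ∈ B)
    (hjk : j ≠ k) (hkl : k ≠ l) (hjl : j ≠ l) {p q : Fin n}
    (hi : (p = j ∧ q = k) ∨ (p = k ∧ q = l) ∨ (p = j ∧ q = l)) (hpq : p ≠ q) {r : ℕ}
    (hr : (r : ℝ) ≤ W) :
    ∫ x, |Acv μ (zt (RN j k l M)) hpq r m x - PZ μ u1 m p q (tz (Pi.single p (r : ℤ)) x)| ∂μ
      ≤ E31 n m η w := by
  have hadm := h.adm_RN (j := j) (k := k) (l := l)
  have := isProb_zt hadm
  have hu1 := h.u1_nonneg
  have := isProb_zt (adm_rho hc hu1 p q)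
  have hr0 : (0:ℝ) ≤ r := Nat.cast_nonneg r
  set t : Fin n → ℝ := fun s => -((Pi.single p (r : ℤ) : Fin n → ℤ) s : ℝ) with ht
  have htp : t p = -r := by rw [ht]; simp
  have htq : t q = 0 := by rw [ht]; simp [hpq.symm]
  have hrt : (r : ℝ) + (t p - t q) = 0 := by rw [htp, htq]; ring
  have htb : ∀ s, |t s| ≤ W := fun s => by
    rw [ht]
    by_cases hs : s = p
    · subst hs; simp only [Pi.single_eq_same, Int.cast_natCast, abs_neg]
      rw [abs_of_nonneg hr0]; exact hr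
    · simp only [Pi.single_eq_of_ne hs, Int.cast_zero, neg_zero, abs_zero]
      exact h.hW
  have hcl : NScA_395.Clean p q r w (RN j k l M) := by
    refine NScG_458.clean_roots hjk hkl hjl h.M_nonneg h.hw ?_ hi
    rw [abs_of_nonneg hr0]
    linarith [h.hM1, h.hW, h.M_nonneg]
  have hcl0 : NScA_395.Clean p q 0 w (RN j k l M + NScA_395.sh t) := by
    have h1 := (NScA_395.clean_sh (i := p) (j := q) (r := r) (w := w) (R := RN j k l M)
      (t := t)).2 hcl
    rwa [hrt] at h1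
  have hb := NScG_458.range_sh (j := j) (k := k) (l := l) (M := M) (T := W) (u1 := u1) (u2 := u2)
    (w := w) h.M_nonneg htb
    (by have := h.hM1; have := h.hW; have := h.hw; linarith)
    (by have := h.hM2; have := h.hW; have := h.hw; linarith)
  have h2 := (noiseFam n).acv hμ (b := m) hpq hw1 h.hwu hc
    (hN p q hpq m hm (Nat.pos_of_ne_zero (NeZero.ne m))) he hcl0 (fun a b => (hb a b).1)
    (fun a b => (hb a b).2)
  rw [← (noiseFam n).cj_zt _ t hadm] at h2
  have h3 := NScE_395.kern_shift hμ (κ := zt (RN j k l M)) (κ1 := zt (u1 • rho p q)) hpq t hrt h2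
  rw [PZ_eq hpq]
  exact h3

/-! ### (NC) for a root -/

theorem nc_root {μ : Measure (ModSpace n)} [IsProbabilityMeasure μ] (hμ : AInv μ)
    {M u1 u2 w W η : ℝ} {B : Finset ℕ} (h' : Rg n (2 * M) u1 u2 w W)
    (hw1 : 1 ≤ w) (he : 2 * Nz_323.CN n * (2:ℝ) ^ (-w) ≤ 1) (hc : 20 * c1N n ≤ u1)
    (hN : NC μ u1 u2 B η) {m : ℕ} [NeZero m] (hm : m ∈ B)
    (hjk : j ≠ k) (hkl : k ≠ l) (hjl : j ≠ l) {p q : Fin n}
    (hi : (p = j ∧ q = k) ∨ (p = k ∧ q = l) ∨ (p = j ∧ q = l)) (hpq : p ≠ q)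
    (κ : Measure (SLR n)) [IsProbabilityMeasure κ] {eA eK : ℝ}
    (hK1 : ∀ g ∈ bxG (RN j k l (2 * M)), TVle (κ.map fun x => g * x) κ eA) {α C G : ℕ}
    (hK2 : ∀ s : ℝ, |s| ≤ (2:ℝ) ^ (-((α:ℝ) + C)) →
      TVle (κ.map fun x => uu hpq s * x) (κ.map fun x => x * uu hpq s) eK)
    (hW : (α:ℝ) + C + G ≤ W) {b : ℕ} [NeZero b] {a n0 : ℝ} (ha : 0 ≤ a) (hn : 0 ≤ n0)
    {τ ε : ℝ} (hτ : 0 < τ)
    (hfree : μ.real {x | ∀ r : ℕ, r < G → PZ μ u1 m p q (tz (Pi.single p (r : ℤ)) x) < τ} ≤ ε) :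
    (stp μ (cv κ (dl hpq α))).real {z | far (lab μ κ hpq α b) a z < n0}
      ≤ ε + G * (2 * (2:ℝ) ^ ((C:ℝ) + G) * (a + 1 / b) + 4 * n0 + 2 / m
          + 10 * (eA + eK + (2:ℝ) ^ (-(C:ℝ)) / 2) + E31 n m η w) / τ := by
  have hadm := h'.adm_RN (j := j) (k := k) (l := l)
  have := isProb_zt hadm
  have hu1 := h'.u1_nonneg
  have := isProb_zt (adm_rho hc hu1 p q)
  have hpz : Measurable (PZ μ u1 m p q) := measurable_PZ hc hu1 m p q
  have hmain := nc_mainN (Finset.range G) μ κ (fun _ => zt (RN j k l (2 * M))) hpq (α:ℝ)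
    (fun r => (C:ℝ) + r) (cm := (C:ℝ) + G) (fun r hr => by
      have : (r:ℝ) ≤ G := by exact_mod_cast (Finset.mem_range.1 hr).le
      linarith) (b := b) (m := m) (a := a) (n0 := n0)
    (e := eA + eK + (2:ℝ) ^ (-(C:ℝ)) / 2) (E0 := E31 n m η w) ha hn
    (fun r _ => by
      have hr0 : (0:ℝ) ≤ r := Nat.cast_nonneg r
      have h1 := hT_of κ (zt (RN j k l (2 * M))) hpq (α:ℝ) ((C:ℝ) + r) (e1 := eA) (e2 := eK) (by
          filter_upwards [zt_ae hadm] with g hg
          exact hK1 g hg) (fun s hs => by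
          refine conj_of_comm κ _ (hK2 s (hs.trans ?_))
          exact Real.rpow_le_rpow_of_exponent_le one_le_two (by linarith))
      filter_upwards [h1] with x hx
      refine hx.mono ?_
      have : (2:ℝ) ^ (-((C:ℝ) + r)) ≤ (2:ℝ) ^ (-(C:ℝ)) :=
        Real.rpow_le_rpow_of_exponent_le one_le_two (by linarith)
      linarith)
    (Ps := fun r x => PZ μ u1 m p q (tz (Pi.single p ((α + C + r : ℕ) : ℤ)) x))
    (fun r _ => hpz.comp (DSkel_792.measurable_tz _))
    (fun r _ x => ⟨PZ_nonneg hc hu1 m p q _, PZ_le hc hu1 m p q _⟩)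
    (fun r hr => by
      have h1 := acv_RN (j := j) (k := k) (l := l) hμ h' hw1 he hc hN hm hjk hkl hjl hi hpq
        (r := α + C + r) (by
          have : (r:ℝ) ≤ G := by exact_mod_cast (Finset.mem_range.1 hr).le
          push_cast
          linarith)
      have e1 : ((α:ℝ) + ((C:ℝ) + r)) = ((α + C + r : ℕ) : ℝ) := by push_cast; ring
      rw [e1]
      exact h1)
    hτ (ε := ε) (by
      have h1 : {x | ∀ r ∈ Finset.range G, PZ μ u1 m p q
            (tz (Pi.single p ((α + C + r : ℕ) : ℤ)) x) < τ}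
          = tz (Pi.single p ((α + C : ℕ) : ℤ)) ⁻¹'
            {x | ∀ r : ℕ, r < G → PZ μ u1 m p q (tz (Pi.single p (r : ℤ)) x) < τ} := by
        ext x
        simp only [Finset.mem_range, Set.mem_ofPred_eq, Set.mem_preimage]
        refine forall_congr' fun r => forall_congr' fun _ => ?_
        rw [← DSkel_792.tz_add]
        have : (Pi.single p (r : ℤ) + Pi.single p ((α + C : ℕ) : ℤ) : Fin n → ℤ)
            = Pi.single p ((α + C + r : ℕ) : ℤ) := by
          rw [← Pi.single_add]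
          congr 1
          push_cast
          ring
        rw [this]
      have hmeas : MeasurableSet
          {x | ∀ r : ℕ, r < G → PZ μ u1 m p q (tz (Pi.single p (r : ℤ)) x) < τ} := by
        have : {x | ∀ r : ℕ, r < G → PZ μ u1 m p q (tz (Pi.single p (r : ℤ)) x) < τ}
            = ⋂ r : ℕ, ⋂ _ : r < G, {x | PZ μ u1 m p q (tz (Pi.single p (r : ℤ)) x) < τ} := by
          ext x; simp
        rw [this]
        exact MeasurableSet.iInter fun r => MeasurableSet.iInter fun _ =>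
          measurableSet_lt (hpz.comp (DSkel_792.measurable_tz _)) measurable_const
      rw [h1, measureReal_def, (DSkel_792.measurePreserving_tz hμ _).measure_preimage
        hmeas.nullMeasurableSet, ← measureReal_def]
      exact hfree)
  rwa [Finset.card_range] at hmain

/-! ### the two noises of the Heisenberg observation -/

theorem dirac_comm {κ : Measure (SLR n)} [IsProbabilityMeasure κ] {u : SLR n} {e : ℝ} :
    Cm e (Measure.dirac u) κ ↔ TVle (κ.map fun x => u * x) (κ.map fun x => x * u) e := by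
  unfold Cm
  rw [dirac_cv, cv_dirac]

/-- `u_jk(s)` commutes with `u_kl(β) u_jl(γ)` -/
theorem comm_S (hjk : j ≠ k) (hkl : k ≠ l) (hjl : j ≠ l) {a β γ s : ℝ}
    (hs : |s| ≤ (2:ℝ) ^ (-a)) :
    Cm ((2 : ℝ) ^ (γ - a - β) / 2) (Measure.dirac (uu hjk s : SLR n))
      (cv (dl hkl β) (dl hjl γ)) := by
  have h := Cm_jk (n := n) (ρ := Measure.dirac ()) (σ := fun _ => s) hjk hkl hjl measurable_const
    (a := a) (Filter.Eventually.of_forall fun _ => hs) β γ
  simp only [Measure.map_const, measure_univ, one_smul] at h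
  exact h

/-- `u_kl(s)` commutes with `u_jk(α) u_jl(γ)` -/
theorem comm_T (hjk : j ≠ k) (hkl : k ≠ l) (hjl : j ≠ l) {b α γ s : ℝ}
    (hs : |s| ≤ (2:ℝ) ^ (-b)) :
    Cm ((2 : ℝ) ^ (γ - α - b) / 2) (Measure.dirac (uu hkl s : SLR n))
      (cv (dl hjk α) (dl hjl γ)) := by
  have h := Cm_kl (n := n) (ρ := Measure.dirac ()) (σ := fun _ => s) hjk hkl hjl measurable_const
    (b := b) (Filter.Eventually.of_forall fun _ => hs) α γ
  simp only [Measure.map_const, measure_univ, one_smul] at h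
  exact h

/-- the hypotheses of `nc_root` for `zt R · X` -/
theorem hK_of {R R' : Fin n → Fin n → ℝ} {w r : ℝ} (hw : 0 ≤ w) (hR : Nz_323.Adm R)
    (hNeg : Nz_323.Neg w R' R) {p q : Fin n} (hpq : p ≠ q) (hC : Nz_323.Clean p q r w R)
    (X : Measure (SLR n)) [IsProbabilityMeasure X] {eX : ℝ}
    (hX : ∀ s : ℝ, |s| ≤ (2:ℝ) ^ (-r) → Cm eX (Measure.dirac (uu hpq s : SLR n)) X) :
    (∀ g ∈ bxG R', TVle ((cv (zt R) X).map fun x => g * x) (cv (zt R) X) (e0 n w)) ∧
      ∀ s : ℝ, |s| ≤ (2:ℝ) ^ (-r) →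
        TVle ((cv (zt R) X).map fun x => uu hpq s * x) ((cv (zt R) X).map fun x => x * uu hpq s)
          (e0 n w + eX) := by
  have := isProb_zt hR
  refine ⟨fun g hg => ?_, fun s hs => ?_⟩
  · rw [← dirac_cv, ← cv_assoc, dirac_cv]
    exact (L1G_left hw hR hNeg hg).cv_left
  · refine dirac_comm.1 ?_
    exact Cm.cv_right (dirac_comm.2 (TVle.commute_of_cj (L2G hpq hR hC hs))) (hX s hs)

theorem neg_two (hjk : j ≠ k) (hkl : k ≠ l) (hjl : j ≠ l) {M u1 u2 w W : ℝ}
    (h : Rg n M u1 u2 w W) : Nz_323.Neg w (RN j k l (2 * M)) (RN j k l M) := by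
  have h1 := NScG_458.neg_RN_sh (j := j) (k := k) (l := l) hjk hkl hjl (M := M) (M' := 2 * M)
    (w := w) (T := 0) h.M_nonneg le_rfl (t := 0) (fun p => by simp)
    (by have := h.hM1; have := h.u1_nonneg; have := h.hW; have := h.hw; linarith)
  have h2 : (RN j k l (2 * M) + NScA_395.sh (0 : Fin n → ℝ)) = RN j k l (2 * M) := by
    funext p q; simp [NScA_395.sh]
  rw [h2] at h1
  exact neg_conv h1

section Inst

variable {μ : Measure (ModSpace n)} [IsProbabilityMeasure μ] (hμ : AInv μ)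
    {M u1 u2 w W η : ℝ} {B : Finset ℕ} (h : Rg n M u1 u2 w W) (h' : Rg n (2 * M) u1 u2 w W)
    (hw1 : 1 ≤ w) (he : 2 * Nz_323.CN n * (2:ℝ) ^ (-w) ≤ 1) (hc : 20 * c1N n ≤ u1)
    (hN : NC μ u1 u2 B η) {m : ℕ} [NeZero m] (hm : m ∈ B)
    (hjk : j ≠ k) (hkl : k ≠ l) (hjl : j ≠ l) {α β C G : ℕ} {γ : ℝ}
    {b : ℕ} [NeZero b] {a n0 : ℝ} (ha : 0 ≤ a) (hn : 0 ≤ n0) {τ ε : ℝ} (hτ : 0 < τ)

include hμ h h' hw1 he hc hN hm ha hn hτ

/-- **(NC) for the `jk`-digits** at depth `α`, noise `zt (RN M) · u_kl(β) · u_jl(γ)`. -/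
theorem nc_S (hW : (α:ℝ) + C + G ≤ W)
    (hfree : μ.real {x | ∀ r : ℕ, r < G → PZ μ u1 m j k (tz (Pi.single j (r : ℤ)) x) < τ} ≤ ε) :
    (stp μ (cv (cv (zt (RN j k l M)) (cv (dl hkl β) (dl hjl γ))) (dl hjk α))).real
        {z | far (lab μ (cv (zt (RN j k l M)) (cv (dl hkl β) (dl hjl γ))) hjk α b) a z < n0}
      ≤ ε + G * (2 * (2:ℝ) ^ ((C:ℝ) + G) * (a + 1 / b) + 4 * n0 + 2 / m
          + 10 * (e0 n w + (e0 n w + (2:ℝ) ^ (γ - α - β - C) / 2) + (2:ℝ) ^ (-(C:ℝ)) / 2)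
          + E31 n m η w) / τ := by
  have hadm := h.adm_RN (j := j) (k := k) (l := l)
  have := isProb_zt hadm
  have hr : w + |(α:ℝ) + C| ≤ M / 10 := by
    have hG : (0:ℝ) ≤ G := Nat.cast_nonneg G
    rw [abs_of_nonneg (by positivity)]
    linarith [h.hM1, h.hw, h.u1_nonneg, h.M_nonneg, h.hW]
  have hcl : NScA_395.Clean j k ((α:ℝ) + C) w (RN j k l M) :=
    NScG_458.clean_jk hjk hkl hjl h.M_nonneg h.hw hr
  have hK := hK_of (eX := (2:ℝ) ^ (γ - α - β - C) / 2) h.hw hadm (neg_two hjk hkl hjl h) hjk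
    (clean_iff.2 hcl) (cv (dl hkl (β:ℝ)) (dl hjl γ)) (fun s hs => by
      have h1 := comm_S (n := n) hjk hkl hjl (a := (α:ℝ) + C) (β := β) (γ := γ) hs
      refine h1.mono (le_of_eq ?_)
      congr 2
      ring)
  exact nc_root hμ h' hw1 he hc hN hm hjk hkl hjl (Or.inl ⟨rfl, rfl⟩) hjk _ hK.1 hK.2 hW ha hn hτ
    hfree

/-- **(NC) for the `kl`-digits** at depth `β`, noise `zt (RN M) · u_jk(α) · u_jl(γ)`. -/
theorem nc_T (hW : (β:ℝ) + C + G ≤ W)
    (hfree : μ.real {x | ∀ r : ℕ, r < G → PZ μ u1 m k l (tz (Pi.single k (r : ℤ)) x) < τ} ≤ ε) :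
    (stp μ (cv (cv (zt (RN j k l M)) (cv (dl hjk α) (dl hjl γ))) (dl hkl β))).real
        {z | far (lab μ (cv (zt (RN j k l M)) (cv (dl hjk α) (dl hjl γ))) hkl β b) a z < n0}
      ≤ ε + G * (2 * (2:ℝ) ^ ((C:ℝ) + G) * (a + 1 / b) + 4 * n0 + 2 / m
          + 10 * (e0 n w + (e0 n w + (2:ℝ) ^ (γ - α - β - C) / 2) + (2:ℝ) ^ (-(C:ℝ)) / 2)
          + E31 n m η w) / τ := by
  have hadm := h.adm_RN (j := j) (k := k) (l := l)
  have := isProb_zt hadm
  have hr : w + |(β:ℝ) + C| ≤ M / 10 := by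
    have hG : (0:ℝ) ≤ G := Nat.cast_nonneg G
    rw [abs_of_nonneg (by positivity)]
    linarith [h.hM1, h.hw, h.u1_nonneg, h.M_nonneg, h.hW]
  have hcl : NScA_395.Clean k l ((β:ℝ) + C) w (RN j k l M) :=
    NScG_458.clean_kl hjk hkl hjl h.M_nonneg h.hw hr
  have hK := hK_of (eX := (2:ℝ) ^ (γ - α - β - C) / 2) h.hw hadm (neg_two hjk hkl hjl h) hkl
    (clean_iff.2 hcl) (cv (dl hjk (α:ℝ)) (dl hjl γ)) (fun s hs => by
      have h1 := comm_T (n := n) hjk hkl hjl (b := (β:ℝ) + C) (α := α) (γ := γ) hs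
      refine h1.mono (le_of_eq ?_)
      congr 2
      ring)
  exact nc_root hμ h' hw1 he hc hN hm hjk hkl hjl (Or.inr (Or.inl ⟨rfl, rfl⟩)) hkl _ hK.1 hK.2 hW
    ha hn hτ hfree

end Inst

/-! ### change of the labelled law -/

theorem far_sub_le {b : ℕ} [NeZero b] (ρ ρ' : Fin b → Measure (ModSpace n)) (a : ℝ)
    (z : ModSpace n) : |far ρ a z - far ρ' a z| ≤ 2 * ∑ d, |pv ρ d z - pv ρ' d z| := by
  unfold far
  simp_rw [← sum_sub_distrib]
  have key : ∀ d d' : Fin b, |pv ρ d z * pv ρ d' z * (if a ≤ |cen b d - cen b d'| then 1 else 0)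
      - pv ρ' d z * pv ρ' d' z * (if a ≤ |cen b d - cen b d'| then 1 else 0)|
      ≤ |pv ρ d z - pv ρ' d z| * pv ρ d' z + pv ρ' d z * |pv ρ d' z - pv ρ' d' z| := by
    intro d d'
    have e1 : pv ρ d z * pv ρ d' z * (if a ≤ |cen b d - cen b d'| then 1 else 0)
      - pv ρ' d z * pv ρ' d' z * (if a ≤ |cen b d - cen b d'| then 1 else 0)
      = (if a ≤ |cen b d - cen b d'| then (1:ℝ) else 0) *
        ((pv ρ d z - pv ρ' d z) * pv ρ d' z + pv ρ' d z * (pv ρ d' z - pv ρ' d' z)) := by ring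
    have e2 : |(if a ≤ |cen b d - cen b d'| then (1:ℝ) else 0)| ≤ 1 := by split_ifs <;> simp
    rw [e1, abs_mul]
    refine (mul_le_of_le_one_left (abs_nonneg _) e2).trans ((abs_add_le _ _).trans ?_)
    rw [abs_mul, abs_mul, abs_of_nonneg (pv_nonneg ρ d' z), abs_of_nonneg (pv_nonneg ρ' d z)]
  refine (abs_sum_le_sum_abs _ _).trans ((sum_le_sum fun d _ => (abs_sum_le_sum_abs _ _).trans
    (sum_le_sum fun d' _ => key d d')).trans (le_of_eq ?_))
  simp_rw [sum_add_distrib, ← mul_sum, sum_pv]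
  rw [← sum_mul, ← sum_mul, sum_pv]
  ring

theorem far_transfer {b : ℕ} [NeZero b] (ρ ρ' : Fin b → Measure (ModSpace n))
    [∀ c, IsFiniteMeasure (ρ c)] [∀ c, IsFiniteMeasure (ρ' c)] {e : ℝ}
    (h : ∀ d, TVle (ρ d) (ρ' d) e) {a n0 : ℝ} (hn : 0 < n0) :
    (tot ρ').real {z | far ρ' a z < n0}
      ≤ (tot ρ).real {z | far ρ a z < 2 * n0} + b * e + 8 * (b * e) / n0 := by
  have hA : MeasurableSet {z | far ρ a z < 2 * n0} := measurableSet_BadN ρ (2 * n0) a
  have hDm : Measurable fun z => |far ρ a z - far ρ' a z| :=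
    ((measurable_far ρ a).sub (measurable_far ρ' a)).abs
  have hB : MeasurableSet {z | n0 ≤ |far ρ a z - far ρ' a z|} :=
    measurableSet_le measurable_const hDm
  have hsub : {z | far ρ' a z < n0} ⊆
      {z | far ρ a z < 2 * n0} ∪ {z | n0 ≤ |far ρ a z - far ρ' a z|} := by
    intro z hz
    simp only [Set.mem_ofPred_eq, Set.mem_union] at hz ⊢
    by_contra hne
    push Not at hne
    have := le_abs_self (far ρ a z - far ρ' a z)
    linarith [hne.1, hne.2]
  have h1 : (tot ρ').real {z | far ρ a z < 2 * n0} ≤ (tot ρ).real {z | far ρ a z < 2 * n0} + b * e := by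
    have h2 : (tot ρ').real {z | far ρ a z < 2 * n0}
        - (tot ρ).real {z | far ρ a z < 2 * n0} ≤ b * e := by
      have e1 : ∀ ρ'' : Fin b → Measure (ModSpace n), (∀ c, IsFiniteMeasure (ρ'' c)) →
          (tot ρ'').real {z | far ρ a z < 2 * n0} = ∑ d, (ρ'' d).real {z | far ρ a z < 2 * n0} := by
        intro ρ'' hf
        rw [measureReal_def, tot_apply, ENNReal.toReal_sum fun c _ => measure_ne_top _ _]
        rfl
      rw [e1 ρ' inferInstance, e1 ρ inferInstance, ← sum_sub_distrib]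
      refine (sum_le_sum fun d _ => ?_).trans (le_of_eq (?_ : ∑ _d : Fin b, e = b * e))
      · have := h d _ hA
        rw [abs_le] at this
        linarith [this.1]
      · rw [sum_const, card_univ, Fintype.card_fin, nsmul_eq_mul]
    linarith
  have h2 : ∫ z, ∑ d, |pv ρ' d z - pv ρ d z| ∂(tot ρ') ≤ 4 * (b * e) := by
    have h3 := Ne3_567.integral_abs_pv_le (ρ := ρ') (ρ' := ρ) (e := fun _ => e)
      (fun c A hA => by
        have := h c A hA
        rw [abs_le] at this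
        linarith [this.1])
      (fun c A hA => by
        have := h c A hA
        rw [abs_le] at this
        linarith [this.2])
    refine h3.trans (le_of_eq ?_)
    rw [sum_const, card_univ, Fintype.card_fin, nsmul_eq_mul]
  have hSi : Integrable (fun z => ∑ d, |pv ρ' d z - pv ρ d z|) (tot ρ') := by
    refine bdd_integrable (M := 2) (Finset.measurable_sum _ fun d _ =>
      ((measurable_pv ρ' d).sub (measurable_pv ρ d)).abs) fun z => ?_
    rw [abs_of_nonneg (sum_nonneg fun d _ => abs_nonneg _)]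
    exact Ne3_567.sum_abs_pv_le_two ρ' ρ z z
  have hDi : Integrable (fun z => |far ρ a z - far ρ' a z|) (tot ρ') := by
    refine Integrable.mono' (hSi.const_mul 2) hDm.aestronglyMeasurable
      (Filter.Eventually.of_forall fun z => ?_)
    rw [Real.norm_eq_abs, abs_abs]
    refine (far_sub_le ρ ρ' a z).trans (le_of_eq ?_)
    simp_rw [abs_sub_comm]
  have h4 : n0 * (tot ρ').real {z | n0 ≤ |far ρ a z - far ρ' a z|} ≤ 8 * (b * e) := by
    have h5 := mul_meas_ge_le_integral_of_nonneg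
      (Filter.Eventually.of_forall fun z => abs_nonneg (far ρ a z - far ρ' a z)) hDi n0
    have h6 : ∫ z, |far ρ a z - far ρ' a z| ∂(tot ρ')
        ≤ ∫ z, 2 * ∑ d, |pv ρ' d z - pv ρ d z| ∂(tot ρ') := by
      refine integral_mono hDi (hSi.const_mul 2) fun z => ?_
      refine (far_sub_le ρ ρ' a z).trans (le_of_eq ?_)
      simp_rw [abs_sub_comm]
    rw [integral_const_mul] at h6
    linarith
  have h7 : (tot ρ').real {z | n0 ≤ |far ρ a z - far ρ' a z|} ≤ 8 * (b * e) / n0 := by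
    rw [le_div_iff₀ hn]; linarith
  calc (tot ρ').real {z | far ρ' a z < n0} ≤ (tot ρ').real
        ({z | far ρ a z < 2 * n0} ∪ {z | n0 ≤ |far ρ a z - far ρ' a z|}) := measureReal_mono hsub
    _ ≤ (tot ρ').real {z | far ρ a z < 2 * n0}
        + (tot ρ').real {z | n0 ≤ |far ρ a z - far ρ' a z|} := measureReal_union_le _ _
    _ ≤ _ := by linarith

end Crest.Agent.R014.DEnd3_667
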