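import Crest.Agent.R014.DEnd3d_667

/-!
# Row 14, block D, END (noise formalism): nonconcentration (NC), part e, helper667

`nc_nn`: for the Heisenberg observation, both posteriors (noise after the cell) are spread for most
`z`, in the form consumed by `DEnd3_935.Sw.fin`.
-/

set_option autoImplicit false

open MeasureTheory Finset Crest.NumberTheoryR.Packets
open Crest.Agent.R014.Nd_837 Crest.Agent.R014.Ne1_567 Crest.Agent.R014.NScB_395
open Crest.Agent.R014.NScC_395 Crest.Agent.R014.NScD_395 Crest.Agent.R014.Ms_667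
open Crest.Agent.R014.Sw1_640 Crest.Agent.R014.Sw4_640 Crest.Agent.R014.NScH_395
open Crest.Agent.R014.Ne3_567 (pv measurable_pv pv_nonneg sum_pv pv_le_one integral_pv_mul)
open Crest.Agent.R014.NScG_458 (RN)
open Crest.Agent.R014.NScA_395 (rho)
open Crest.Agent.R014.DSkel_792 (tz)
open scoped ENNReal

noncomputable section

namespace Crest.Agent.R014.DEnd3_667

variable {n : ℕ} {i j k l : Fin n}

/-- the labelled law with the noise `X` after the cell -/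
def labX (μ : Measure (ModSpace n)) (κ0 : Measure (SLR n)) (hij : i ≠ j) (r : ℝ) (b : ℕ)
    (X : Measure (SLR n)) (d : Fin b) : Measure (ModSpace n) := stp (lab μ κ0 hij r b d) X

instance (μ : Measure (ModSpace n)) (κ0 : Measure (SLR n)) [IsProbabilityMeasure μ]
    [IsProbabilityMeasure κ0] (hij : i ≠ j) (r : ℝ) (b : ℕ) (X : Measure (SLR n))
    [IsFiniteMeasure X] (d : Fin b) : IsFiniteMeasure (labX μ κ0 hij r b X d) := by
  unfold labX; infer_instance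

theorem labX_tv (μ : Measure (ModSpace n)) (κ0 : Measure (SLR n)) [IsProbabilityMeasure μ]
    [IsProbabilityMeasure κ0] (hij : i ≠ j) (r : ℝ) {b : ℕ} (X : Measure (SLR n))
    [IsProbabilityMeasure X] {e : ℝ} (d : Fin b) (h : Cm e (dlaw hij r b d) X) :
    TVle (lab μ (cv κ0 X) hij r b d) (labX μ κ0 hij r b X d) ((b : ℝ)⁻¹ * e) := by
  have e1 : lab μ (cv κ0 X) hij r b d
      = (b : ℝ≥0∞)⁻¹ • stp μ (cv κ0 (cv X (dlaw hij r b d))) := by
    rw [lab, stp_stp, cv_assoc]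
  have e2 : labX μ κ0 hij r b X d
      = (b : ℝ≥0∞)⁻¹ • stp μ (cv κ0 (cv (dlaw hij r b d) X)) := by
    rw [labX, lab, smul_stp, stp_stp, stp_stp]
  rw [e1, e2]
  have h2 : TVle (cv X (dlaw hij r b d)) (cv (dlaw hij r b d) X) e := h.symm
  have h3 := ((TVle.cv_right (κ := κ0) h2).stp_right (μ := μ)).smul ((b : ℝ≥0∞)⁻¹)
  simpa using h3

theorem tot_labX (μ : Measure (ModSpace n)) (κ0 : Measure (SLR n)) [IsProbabilityMeasure μ]
    [IsProbabilityMeasure κ0] (hij : i ≠ j) (r : ℝ) {b : ℕ} (hb : 0 < b) (X : Measure (SLR n))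
    [IsProbabilityMeasure X] :
    tot (labX μ κ0 hij r b X) = stp μ (cv κ0 (cv (dl hij r) X)) := by
  have h1 : tot (labX μ κ0 hij r b X) = stp (tot (lab μ κ0 hij r b)) X := by
    have h1 := tot_mp (K := fun p : ModSpace n × SLR n => act p.1 p.2) measurable_act₂
      (pd (lab μ κ0 hij r b) X)
    rw [tot_pd] at h1
    exact h1
  rw [h1, NScD_395.tot_lab_eq μ κ0 hij r hb, stp_stp, cv_assoc]

/-- (NC) transported to the posterior with the noise after the cell. -/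
theorem far_labX (μ : Measure (ModSpace n)) (κ0 : Measure (SLR n)) [IsProbabilityMeasure μ]
    [IsProbabilityMeasure κ0] (hij : i ≠ j) (r : ℝ) {b : ℕ} [NeZero b] (X : Measure (SLR n))
    [IsProbabilityMeasure X] {e : ℝ} (h : ∀ d, Cm e (dlaw hij r b d) X) {a n0 : ℝ} (hn : 0 < n0) :
    (tot (labX μ κ0 hij r b X)).real {z | far (labX μ κ0 hij r b X) a z < n0}
      ≤ (stp μ (cv (cv κ0 X) (dl hij r))).real {z | far (lab μ (cv κ0 X) hij r b) a z < 2 * n0}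
        + e + 8 * e / n0 := by
  have hb : 0 < b := Nat.pos_of_ne_zero (NeZero.ne b)
  have hb' : (b : ℝ) ≠ 0 := by exact_mod_cast hb.ne'
  have h1 := far_transfer (lab μ (cv κ0 X) hij r b) (labX μ κ0 hij r b X)
    (fun d => labX_tv μ κ0 hij r X d (h d)) (a := a) hn
  rw [NScD_395.tot_lab_eq μ (cv κ0 X) hij r hb] at h1
  have e1 : (b : ℝ) * ((b : ℝ)⁻¹ * e) = e := by rw [← mul_assoc, mul_inv_cancel₀ hb', one_mul]
  rwa [e1] at h1

/-- the two orders of the Heisenberg observation -/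
theorem order_tv (μ : Measure (ModSpace n)) (κ0 : Measure (SLR n)) [IsProbabilityMeasure μ]
    [IsProbabilityMeasure κ0] (hjk : j ≠ k) (hkl : k ≠ l) (hjl : j ≠ l) (α β γ : ℝ) :
    TVle (stp μ (cv κ0 (cv (dl hjk α) (cv (dl hkl β) (dl hjl γ)))))
      (stp μ (cv κ0 (cv (dl hkl β) (cv (dl hjk α) (dl hjl γ))))) ((2:ℝ) ^ (γ - α - β) / 2) := by
  have h1 : Cm ((2 : ℝ) ^ (γ - α - β) / 2) (dl hjk α : Measure (SLR n))
      (cv (dl hkl β) (dl hjl γ)) :=
    Cm_jk (n := n) (ρ := uni) (σ := fun θ => (2:ℝ) ^ (-α) * θ) hjk hkl hjl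
      (by fun_prop) (Sw3_640.ae_wn α) β γ
  have h2 : Cm 0 (dl hjk α : Measure (SLR n)) (dl hjl γ) :=
    Cm_jk_jl (n := n) (ρ := uni) (σ := fun θ => (2:ℝ) ^ (-α) * θ) hjk hjl (by fun_prop) γ
  have h3 : TVle (cv (cv (dl hkl β) (dl hjl γ)) (dl hjk α) : Measure (SLR n))
      (cv (dl hkl β) (cv (dl hjk α) (dl hjl γ))) 0 := by
    rw [cv_assoc]
    exact (TVle.symm h2).cv_right
  have h4 : TVle (cv (dl hjk α) (cv (dl hkl β) (dl hjl γ)) : Measure (SLR n))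
      (cv (dl hkl β) (cv (dl hjk α) (dl hjl γ))) ((2:ℝ) ^ (γ - α - β) / 2) :=
    (TVle.trans h1 h3).mono (by linarith)
  exact (h4.cv_right (κ := κ0)).stp_right

section Final

variable {μ : Measure (ModSpace n)} [IsProbabilityMeasure μ] (hμ : AInv μ)
    {M u1 u2 w W η : ℝ} {B : Finset ℕ} (h : Rg n M u1 u2 w W) (h' : Rg n (2 * M) u1 u2 w W)
    (hw1 : 1 ≤ w) (he : 2 * Nz_323.CN n * (2:ℝ) ^ (-w) ≤ 1) (hc : 20 * c1N n ≤ u1)
    (hN : NC μ u1 u2 B η) {m : ℕ} [NeZero m] (hm : m ∈ B)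
    (hjk : j ≠ k) (hkl : k ≠ l) (hjl : j ≠ l) {α β C G : ℕ} {γ : ℝ}
    {b : ℕ} [NeZero b] {a n0 : ℝ} (ha : 0 ≤ a) (hn : 0 < n0) {τ ε : ℝ} (hτ : 0 < τ)

include hμ h h' hw1 he hc hN hm ha hn hτ

/-- **(NC), final form**: for most `z` the two posteriors of the Heisenberg observation give a
macroscopic shift with probability at least `n0 ^ 2`. -/
theorem nc_nn (hWα : (α:ℝ) + C + G ≤ W) (hWβ : (β:ℝ) + C + G ≤ W)
    (hfree1 : μ.real {x | ∀ r : ℕ, r < G → PZ μ u1 m j k (tz (Pi.single j (r : ℤ)) x) < τ} ≤ ε)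
    (hfree2 : μ.real {x | ∀ r : ℕ, r < G → PZ μ u1 m k l (tz (Pi.single k (r : ℤ)) x) < τ} ≤ ε)
    {S T : Fin b → ℝ} (hS : ∀ d, S d = (2:ℝ) ^ (-(α:ℝ)) * cen b d)
    (hT : ∀ d, T d = (2:ℝ) ^ (-(β:ℝ)) * cen b d) :
    (stp μ (cv (zt (RN j k l M)) (cv (dl hkl β) (cv (dl hjk α) (dl hjl γ))))).real
        {z | DEnd3_935.nn S T
          (pv (labX μ (zt (RN j k l M)) hjk α b (cv (dl hkl β) (dl hjl γ))))
          (pv (labX μ (zt (RN j k l M)) hkl β b (cv (dl hjk α) (dl hjl γ))))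
          ((2:ℝ) ^ (-(α:ℝ)) * a * ((2:ℝ) ^ (-(β:ℝ)) * a)) z < n0 * n0}
      ≤ 2 * (ε + G * (2 * (2:ℝ) ^ ((C:ℝ) + G) * (a + 1 / b) + 8 * n0 + 2 / m
          + 10 * (e0 n w + (e0 n w + (2:ℝ) ^ (γ - α - β - C) / 2) + (2:ℝ) ^ (-(C:ℝ)) / 2)
          + E31 n m η w) / τ) + 3 / 2 * (2:ℝ) ^ (γ - α - β) + 8 * (2:ℝ) ^ (γ - α - β) / n0 := by
  have hb : 0 < b := Nat.pos_of_ne_zero (NeZero.ne b)
  have hadm := h.adm_RN (j := j) (k := k) (l := l)
  have := isProb_zt hadm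
  set κ0 := zt (RN j k l M) with hκ0
  set XS : Measure (SLR n) := cv (dl hkl (β:ℝ)) (dl hjl γ) with hXS
  set XT : Measure (SLR n) := cv (dl hjk (α:ℝ)) (dl hjl γ) with hXT
  set g : ℝ := (2:ℝ) ^ (γ - α - β) with hg
  have hg0 : 0 < g := Real.rpow_pos_of_pos two_pos _
  have hcS : ∀ d : Fin b, Cm (g / 2) (dlaw hjk (α:ℝ) b d) XS := fun d =>
    Sw3_640.dig_jk hjk hkl hjl _ _ _ d
  have hcT : ∀ d : Fin b, Cm (g / 2) (dlaw hkl (β:ℝ) b d) XT := fun d =>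
    Sw3_640.dig_kl hjk hkl hjl _ _ _ d
  have h1 := far_labX μ κ0 hjk (α:ℝ) (b := b) XS hcS (a := a) hn
  have h2 := far_labX μ κ0 hkl (β:ℝ) (b := b) XT hcT (a := a) hn
  rw [tot_labX μ κ0 hjk _ hb] at h1
  rw [tot_labX μ κ0 hkl _ hb] at h2
  have h3 := nc_S hμ h h' hw1 he hc hN hm hjk hkl hjl (α := α) (β := β) (γ := γ) (C := C) (G := G)
    (b := b) (a := a) (n0 := 2 * n0) ha (by linarith) hτ hWα hfree1
  have h4 := nc_T hμ h h' hw1 he hc hN hm hjk hkl hjl (α := α) (β := β) (γ := γ) (C := C) (G := G)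
    (b := b) (a := a) (n0 := 2 * n0) ha (by linarith) hτ hWβ hfree2
  have h5 := order_tv μ κ0 hjk hkl hjl (α:ℝ) (β:ℝ) γ
  set ν1 := stp μ (cv κ0 (cv (dl hjk (α:ℝ)) XS)) with hν1
  set ν2 := stp μ (cv κ0 (cv (dl hkl (β:ℝ)) XT)) with hν2
  have hAS : MeasurableSet {z | far (labX μ κ0 hjk α b XS) a z < n0} := measurableSet_BadN _ n0 a
  have h6 := h5 _ hAS
  have hsub : {z | DEnd3_935.nn S T (pv (labX μ κ0 hjk α b XS)) (pv (labX μ κ0 hkl β b XT))
      ((2:ℝ) ^ (-(α:ℝ)) * a * ((2:ℝ) ^ (-(β:ℝ)) * a)) z < n0 * n0} ⊆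
      {z | far (labX μ κ0 hjk α b XS) a z < n0} ∪ {z | far (labX μ κ0 hkl β b XT) a z < n0} := by
    intro z hz
    by_contra hne
    simp only [Set.mem_union, Set.mem_ofPred_eq, not_or, not_lt] at hne
    have := nn_ge_of_far (labX μ κ0 hjk α b XS) (labX μ κ0 hkl β b XT) (S := S) (T := T)
      (s1 := (2:ℝ) ^ (-(α:ℝ))) (s2 := (2:ℝ) ^ (-(β:ℝ))) (a1 := a) (a2 := a) (n1 := n0) (n2 := n0)
      (Real.rpow_pos_of_pos two_pos _).le (Real.rpow_pos_of_pos two_pos _).le ha hn.le hn.le hS hT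
      z hne.1 hne.2
    exact absurd this (not_le.2 hz)
  have h7 := (measureReal_mono hsub (μ := ν2)).trans (measureReal_union_le _ _)
  rw [abs_le] at h6
  have e3 : 8 * (g / 2) / n0 = 4 * g / n0 := by ring
  rw [e3] at h1 h2
  have e4 : 4 * g / n0 + 4 * g / n0 = 8 * g / n0 := by ring
  have e5 : 4 * (2 * n0) = 8 * n0 := by ring
  rw [e5] at h3 h4
  linarith [h6.1]

end Final

end Crest.Agent.R014.DEnd3_667
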