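import Crest.Agent.R014.DEnd3e_667
import Crest.Agent.R014.DEnd4_935

/-!
# Row 14, block D, END (noise formalism): nonconcentration (NC), part f, helper667

`nc_MM`: (NC) in terms of the objects `MM`, `VV`, `PP`, `nn` of helper935.
`nc_final`: the same with the constants chosen, depths `α = β = 0`.
-/

set_option autoImplicit false

open MeasureTheory Finset Filter Topology Crest.NumberTheoryR.Packets
open Crest.Agent.R014.Nd_837 Crest.Agent.R014.Ne1_567 Crest.Agent.R014.NScB_395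
open Crest.Agent.R014.NScC_395 Crest.Agent.R014.NScD_395 Crest.Agent.R014.Ms_667
open Crest.Agent.R014.Sw1_640 Crest.Agent.R014.Sw4_640 Crest.Agent.R014.NScH_395
open Crest.Agent.R014.DEnd4_935 Crest.Agent.R014.DEnd3_935
open Crest.Agent.R014.Ne3_567 (pv measurable_pv pv_nonneg sum_pv pv_le_one integral_pv_mul)
open Crest.Agent.R014.NScG_458 (RN)
open Crest.Agent.R014.NScA_395 (rho)
open Crest.Agent.R014.DSkel_792 (tz)
open scoped ENNReal

noncomputable section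

namespace Crest.Agent.R014.DEnd3_667

variable {n : ℕ} {i j k l p q p' q' : Fin n}

theorem map_KK (ν : Measure (ModSpace n)) [IsFiniteMeasure ν] (V : Measure (SLR n × ℝ))
    [IsFiniteMeasure V] : (ν.prod V).map KK = stp ν (V.map Prod.fst) := by
  unfold stp
  have h1 : ν.prod (V.map Prod.fst) = (ν.prod V).map (Prod.map id Prod.fst) := by
    conv_lhs => rw [← Measure.map_id (μ := ν)]
    exact Measure.map_prod_map ν V measurable_id measurable_fst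
  rw [h1, Measure.map_map measurable_act₂ (measurable_id.prodMap measurable_fst)]
  rfl

theorem VV_fst (hpq : p ≠ q) (hpq' : p' ≠ q') (a c : ℝ) (b : ℕ) (d : Fin b) :
    (VV (n := n) hpq hpq' a c b d).map Prod.fst
      = (b : ℝ≥0∞)⁻¹ • cv (dlaw hpq a b d) (dl hpq' c) := by
  have m1 : Measurable fun θ : ℝ => (uu hpq (sv a b d θ) : SLR n) := measurable_us hpq a b d
  have m2 : Measurable fun θ : ℝ => (uu hpq' ((2:ℝ) ^ (-c) * θ) : SLR n) := measurable_uuw hpq' c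
  unfold VV cv
  rw [Measure.map_smul, Measure.map_map measurable_fst (measurable_VV hpq hpq' a c b d),
    DEnd4_935.dlaw_eq, dl, Measure.map_prod_map _ _ m1 m2,
    Measure.map_map measurable_mul₂ (m1.prodMap m2)]
  rfl

theorem tot_VV_fst (hpq : p ≠ q) (hpq' : p' ≠ q') (a c : ℝ) {b : ℕ} (hb : 0 < b) :
    (tot (VV (n := n) hpq hpq' a c b)).map Prod.fst = cv (dl hpq a) (dl hpq' c) := by
  have h1 : (tot (VV (n := n) hpq hpq' a c b)).map Prod.fst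
      = ∑ d, (VV (n := n) hpq hpq' a c b d).map Prod.fst := by
    unfold tot
    exact Measure.map_finset_sum measurable_fst.aemeasurable
  have h2 : ∀ s : Finset (Fin b), (cv (∑ d ∈ s, dlaw hpq a b d) (dl hpq' c) : Measure (SLR n))
      = ∑ d ∈ s, cv (dlaw hpq a b d) (dl hpq' c) := by
    classical
    intro s
    induction s using Finset.induction_on with
    | empty => simp [cv]
    | insert d s hd ih =>
      rw [sum_insert hd, sum_insert hd, ← ih]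
      unfold cv
      rw [Measure.add_prod, Measure.map_add _ _ measurable_mul₂]
  rw [h1, dl_eq hpq a hb, smul_cv, h2]
  simp_rw [VV_fst]
  rw [smul_sum]

theorem nz_eq_labX (μ : Measure (ModSpace n)) (κ0 : Measure (SLR n)) [IsProbabilityMeasure μ]
    [IsProbabilityMeasure κ0] (hij : i ≠ j) (r : ℝ) {b b' : ℕ} (hb' : 0 < b') (hpq : p ≠ q)
    (hpq' : p' ≠ q') (a c : ℝ) :
    nz (lab μ κ0 hij r b) (tot (VV hpq hpq' a c b')) KK
      = labX μ κ0 hij r b (cv (dl hpq a) (dl hpq' c)) := by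
  funext d
  have := prob_VV (n := n) hpq hpq' a c hb'
  have h1 : nz (lab μ κ0 hij r b) (tot (VV hpq hpq' a c b')) KK d
      = ((lab μ κ0 hij r b d).prod (tot (VV hpq hpq' a c b'))).map KK := rfl
  rw [h1, map_KK, tot_VV_fst hpq hpq' a c hb']
  rfl

theorem PP_eq (μ : Measure (ModSpace n)) (κ0 : Measure (SLR n)) [IsProbabilityMeasure μ]
    [IsProbabilityMeasure κ0] (hij : i ≠ j) (r : ℝ) {b b' : ℕ} (hb' : 0 < b') (hpq : p ≠ q)
    (hpq' : p' ≠ q') (a c : ℝ) :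
    PP (lab μ κ0 hij r b) (VV hpq hpq' a c b')
      = pv (labX μ κ0 hij r b (cv (dl hpq a) (dl hpq' c))) := by
  funext d z
  unfold PP
  rw [nz_eq_labX μ κ0 hij r hb' hpq hpq' a c]

theorem tt_MM_fst {b b' : ℕ} (ρ : Fin b → Measure (ModSpace n)) [∀ c, IsFiniteMeasure (ρ c)]
    (V : Fin b' → Measure (SLR n × ℝ)) [∀ c, IsFiniteMeasure (V c)] :
    (tt (MM ρ V)).map Prod.fst = stp (tot ρ) ((tot V).map Prod.fst) := by
  have h1 : (tt (MM ρ V)).map Prod.fst = ∑ i, (MM ρ V i).map Prod.fst := by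
    unfold tt
    exact Measure.map_finset_sum measurable_fst.aemeasurable
  have h2 : ∀ i, (MM ρ V i).map Prod.fst = ((tot ρ).prod (V i)).map KK := fun i => by
    unfold MM
    rw [Measure.map_map measurable_fst measurable_KP]
    rfl
  rw [h1, ← map_KK, DEnd4_935.prod_tot]
  simp_rw [h2]
  exact (Measure.map_finset_sum measurable_KK.aemeasurable).symm

theorem measurable_nn {b b' : ℕ} {S : Fin b → ℝ} {T : Fin b' → ℝ}
    {P : Fin b → ModSpace n → ℝ} {Q : Fin b' → ModSpace n → ℝ} (hP : ∀ d, Measurable (P d))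
    (hQ : ∀ d, Measurable (Q d)) (a : ℝ) : Measurable (nn S T P Q a) := by
  unfold nn
  refine Finset.measurable_sum _ fun t _ => Measurable.const_mul ?_ _
  exact (((hP _).mul (hP _)).mul (hQ _)).mul (hQ _)

section Final

variable {μ : Measure (ModSpace n)} [IsProbabilityMeasure μ] (hμ : AInv μ)
    {M u1 u2 w W η : ℝ} {B : Finset ℕ} (h : Rg n M u1 u2 w W) (h' : Rg n (2 * M) u1 u2 w W)
    (hw1 : 1 ≤ w) (he : 2 * Nz_323.CN n * (2:ℝ) ^ (-w) ≤ 1) (hc : 20 * c1N n ≤ u1)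
    (hN : NC μ u1 u2 B η) {m : ℕ} [NeZero m] (hm : m ∈ B)
    (hjk : j ≠ k) (hkl : k ≠ l) (hjl : j ≠ l) {α β C G : ℕ} {γ : ℝ}
    {b : ℕ} [NeZero b] {a n0 : ℝ} (ha : 0 ≤ a) (hn : 0 < n0) {τ ε : ℝ} (hτ : 0 < τ)

include hμ h h' hw1 he hc hN hm ha hn hτ

/-- **(NC)** in terms of `MM`, `VV`, `PP`, `nn`. -/
theorem nc_MM (hWα : (α:ℝ) + C + G ≤ W) (hWβ : (β:ℝ) + C + G ≤ W)
    (hfree1 : μ.real {x | ∀ r : ℕ, r < G → PZ μ u1 m j k (tz (Pi.single j (r : ℤ)) x) < τ} ≤ ε)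
    (hfree2 : μ.real {x | ∀ r : ℕ, r < G → PZ μ u1 m k l (tz (Pi.single k (r : ℤ)) x) < τ} ≤ ε) :
    (tt (MM (lab μ (zt (RN j k l M)) hkl (β:ℝ) b) (VV hjk hjl (α:ℝ) γ b))).real
        {x | nn (rp (α:ℝ) b) (rp (β:ℝ) b)
          (PP (lab μ (zt (RN j k l M)) hjk (α:ℝ) b) (VV hkl hjl (β:ℝ) γ b))
          (PP (lab μ (zt (RN j k l M)) hkl (β:ℝ) b) (VV hjk hjl (α:ℝ) γ b))
          ((2:ℝ) ^ (-(α:ℝ)) * a * ((2:ℝ) ^ (-(β:ℝ)) * a)) x.1 < n0 * n0}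
      ≤ 2 * (ε + G * (2 * (2:ℝ) ^ ((C:ℝ) + G) * (a + 1 / b) + 8 * n0 + 2 / m
          + 10 * (e0 n w + (e0 n w + (2:ℝ) ^ (γ - α - β - C) / 2) + (2:ℝ) ^ (-(C:ℝ)) / 2)
          + E31 n m η w) / τ) + 3 / 2 * (2:ℝ) ^ (γ - α - β) + 8 * (2:ℝ) ^ (γ - α - β) / n0 := by
  have hb : 0 < b := Nat.pos_of_ne_zero (NeZero.ne b)
  have hadm := h.adm_RN (j := j) (k := k) (l := l)
  have := isProb_zt hadm
  have h1 := nc_nn hμ h h' hw1 he hc hN hm hjk hkl hjl (γ := γ) (b := b) (a := a) (n0 := n0)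
    ha hn hτ hWα hWβ hfree1 hfree2 (S := rp (α:ℝ) b) (T := rp (β:ℝ) b) (fun d => rfl) (fun d => rfl)
  refine le_trans (le_of_eq ?_) h1
  rw [PP_eq μ _ hjk (α:ℝ) hb hkl hjl (β:ℝ) γ, PP_eq μ _ hkl (β:ℝ) hb hjk hjl (α:ℝ) γ]
  set A : Set (ModSpace n) := {z | nn (rp (α:ℝ) b) (rp (β:ℝ) b)
          (pv (labX μ (zt (RN j k l M)) hjk (α:ℝ) b (cv (dl hkl (β:ℝ)) (dl hjl γ))))
          (pv (labX μ (zt (RN j k l M)) hkl (β:ℝ) b (cv (dl hjk (α:ℝ)) (dl hjl γ))))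
          ((2:ℝ) ^ (-(α:ℝ)) * a * ((2:ℝ) ^ (-(β:ℝ)) * a)) z < n0 * n0} with hA
  have hAm : MeasurableSet A := measurableSet_lt
    (measurable_nn (fun d => measurable_pv _ d) (fun d => measurable_pv _ d) _) measurable_const
  have h2 := tt_MM_fst (lab μ (zt (RN j k l M)) hkl (β:ℝ) b) (VV hjk hjl (α:ℝ) γ b)
  rw [NScD_395.tot_lab_eq μ _ hkl (β:ℝ) hb, tot_VV_fst hjk hjl (α:ℝ) γ hb, stp_stp, cv_assoc] at h2
  rw [← h2, map_measureReal_apply measurable_fst hAm]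
  rfl

end Final

/-! ### choice of the constants -/

theorem tendsto_two_rpow : Tendsto (fun w : ℝ => (2:ℝ) ^ (-w)) atTop (𝓝 0) := by
  have h2 : (fun w : ℝ => (2:ℝ) ^ (-w)) = fun w : ℝ => Real.exp (-(Real.log 2 * w)) := by
    funext w
    rw [Real.rpow_def_of_pos two_pos]
    congr 1
    ring
  rw [h2]
  exact Real.tendsto_exp_neg_atTop_nhds_zero.comp
    (tendsto_id.const_mul_atTop (Real.log_pos one_lt_two))

/-- the error of (3.1) is small for `w` large and `η` small -/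
theorem exists_E31 (n m : ℕ) {δ : ℝ} (hδ : 0 < δ) :
    ∃ w0 η0 : ℝ, 0 < η0 ∧ ∀ w η, w0 ≤ w → η ≤ η0 → E31 n m η w ≤ δ := by
  have h1 : Tendsto (fun w => 8 * √((δ / 16) ^ 2 / 2 + NScG_395.ew m (Nz_323.CN n) w
      + NScG_395.ew m (Nz_323.CN n) w) + (8 * m + 12) * (2 * Nz_323.CN n * (2:ℝ) ^ (-w))) atTop
      (𝓝 (8 * √((δ / 16) ^ 2 / 2 + 0 + 0) + (8 * m + 12) * (2 * Nz_323.CN n * 0))) := by
    have hew := NScG_395.tendsto_ew m (Nz_323.CN n)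
    refine Tendsto.add (Tendsto.const_mul _ ?_) (Tendsto.const_mul _
      (tendsto_two_rpow.const_mul _))
    exact (Real.continuous_sqrt.tendsto _).comp ((tendsto_const_nhds.add hew).add hew)
  have hlim : 8 * √((δ / 16) ^ 2 / 2 + 0 + 0) + (8 * m + 12) * (2 * Nz_323.CN n * 0) < δ := by
    have h2 : √((δ / 16) ^ 2 / 2 + 0 + 0) ≤ δ / 16 := by
      refine Real.sqrt_le_iff.2 ⟨by positivity, ?_⟩
      nlinarith [sq_nonneg (δ / 16)]
    nlinarith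
  obtain ⟨w0, hw0⟩ := (eventually_atTop.1 (h1.eventually (gt_mem_nhds hlim)))
  refine ⟨w0, (δ / 16) ^ 2 / 2, by positivity, fun w η hw hη => ?_⟩
  refine le_trans ?_ (hw0 w hw).le
  unfold E31
  gcongr

theorem exists_e0 (n : ℕ) {δ : ℝ} (hδ : 0 < δ) : ∃ w0 : ℝ, ∀ w, w0 ≤ w → e0 n w ≤ δ := by
  have h1 : Tendsto (fun w : ℝ => Nz_323.CN n * (2:ℝ) ^ (-w)) atTop (𝓝 (Nz_323.CN n * 0)) :=
    tendsto_two_rpow.const_mul _
  obtain ⟨w0, hw0⟩ := eventually_atTop.1 (h1.eventually (gt_mem_nhds (by rw [mul_zero]; exact hδ)))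
  exact ⟨w0, fun w hw => (hw0 w hw).le⟩

theorem exists_two_pow {δ : ℝ} (hδ : 0 < δ) : ∃ C : ℕ, (2:ℝ) ^ (-(C:ℝ)) ≤ δ := by
  obtain ⟨w0, hw0⟩ := eventually_atTop.1 (tendsto_two_rpow.eventually (gt_mem_nhds hδ))
  obtain ⟨C, hC⟩ := exists_nat_ge w0
  exact ⟨C, (hw0 C hC).le⟩

/-- **(NC), constants chosen**, depths `α = β = 0`. -/
theorem nc_final (n : ℕ) {τ ε0 : ℝ} (hτ : 0 < τ) (hε0 : 0 < ε0) (G : ℕ) :
    ∃ (C : ℕ) (a n0 : ℝ), 0 < a ∧ 0 < n0 ∧ ∃ b0 K0 : ℕ, ∀ b K : ℕ, b0 ≤ b → K0 ≤ K →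
    ∃ D0 w0 η0 : ℝ, 0 < η0 ∧
    ∀ (μ : Measure (ModSpace n)) [IsProbabilityMeasure μ], AInv μ →
    ∀ (M u1 u2 w W η : ℝ) (B : Finset ℕ), Rg n M u1 u2 w W → Rg n (2 * M) u1 u2 w W →
    w0 ≤ w → 20 * c1N n ≤ u1 → η ≤ η0 → NC μ u1 u2 B η → 2 ^ K ∈ B → (C:ℝ) + G ≤ W →
    ∀ (j k l : Fin n) (hjk : j ≠ k) (hkl : k ≠ l) (hjl : j ≠ l) (γ : ℝ), γ ≤ -D0 → ∀ ε : ℝ,
    μ.real {x | ∀ r : ℕ, r < G → PZ μ u1 (2 ^ K) j k (tz (Pi.single j (r : ℤ)) x) < τ} ≤ ε →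
    μ.real {x | ∀ r : ℕ, r < G → PZ μ u1 (2 ^ K) k l (tz (Pi.single k (r : ℤ)) x) < τ} ≤ ε →
    (tt (MM (lab μ (zt (RN j k l M)) hkl 0 b) (VV hjk hjl 0 γ b))).real
        {x | nn (rp 0 b) (rp 0 b)
          (PP (lab μ (zt (RN j k l M)) hjk 0 b) (VV hkl hjl 0 γ b))
          (PP (lab μ (zt (RN j k l M)) hkl 0 b) (VV hjk hjl 0 γ b))
          (a * a) x.1 < n0 * n0} ≤ 2 * ε + ε0 := by
  set K1 : ℝ := 2 * G / τ with hK1
  have hK10 : 0 ≤ K1 := by positivity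
  set δ : ℝ := ε0 / (16 * (K1 + 1)) with hδ
  have hδ0 : 0 < δ := by positivity
  obtain ⟨C, hC⟩ := exists_two_pow (δ := δ / 5) (by positivity)
  set n0 : ℝ := δ / 8 with hn0
  set P2 : ℝ := 2 * (2:ℝ) ^ ((C:ℝ) + G) with hP2
  have hP20 : 0 < P2 := by positivity
  set a : ℝ := δ / P2 with ha
  have hn00 : 0 < n0 := by positivity
  have ha0 : 0 < a := by positivity
  obtain ⟨b0, hb0⟩ := exists_nat_ge (P2 / δ + 1)
  obtain ⟨K0, hK0⟩ := exists_two_pow (δ := δ / 2) (by positivity)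
  refine ⟨C, a, n0, ha0, hn00, b0, K0, fun b K hb hK => ?_⟩
  obtain ⟨D0, hD0⟩ := exists_two_pow (δ := min (δ / 5) (δ * n0 / 8)) (by positivity)
  obtain ⟨w1, hw1⟩ := exists_e0 n (δ := δ / 20) (by positivity)
  obtain ⟨w2, hw2⟩ := exists_e0 n (δ := 1 / 2) (by positivity)
  obtain ⟨w3, η0, hη0, hw3⟩ := exists_E31 n (2 ^ K) hδ0
  refine ⟨D0, max 1 (max w1 (max w2 w3)), η0, hη0, ?_⟩
  intro μ hμp hμ M u1 u2 w W η B hR hR2 hw hc hη hN hKB hW j k l hjk hkl hjl γ hγ ε hf1 hf2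
  have hwa : 1 ≤ w := (le_max_left _ _).trans hw
  have hwb : w1 ≤ w := ((le_max_left _ _).trans (le_max_right _ _)).trans hw
  have hwc : w2 ≤ w := ((le_max_left _ _).trans ((le_max_right _ _).trans (le_max_right _ _))).trans hw
  have hwd : w3 ≤ w := ((le_max_right _ _).trans ((le_max_right _ _).trans (le_max_right _ _))).trans hw
  have he : 2 * Nz_323.CN n * (2:ℝ) ^ (-w) ≤ 1 := by
    have := hw2 w hwc
    unfold e0 at this
    linarith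
  have hb1 : 0 < b := by
    have h1 : (1:ℝ) ≤ b0 := by
      have : 0 ≤ P2 / δ := by positivity
      linarith
    have h2 : 1 ≤ b0 := by exact_mod_cast h1
    omega
  have : NeZero b := ⟨hb1.ne'⟩
  have : NeZero (2 ^ K : ℕ) := ⟨by positivity⟩
  have h1 := nc_MM (α := 0) (β := 0) hμ hR hR2 hwa he hc hN hKB hjk hkl hjl (γ := γ) (b := b)
    (a := a) (n0 := n0) (C := C) (G := G) ha0.le hn00 hτ (by simpa using hW) (by simpa using hW)
    hf1 hf2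
  simp only [Nat.cast_zero, neg_zero, Real.rpow_zero, one_mul, sub_zero] at h1
  refine h1.trans ?_
  -- the terms
  have hb2 : (0:ℝ) < b := by exact_mod_cast hb1
  have t1 : P2 * a = δ := by rw [ha]; field_simp
  have t2 : P2 * (1 / b) ≤ δ := by
    have h2 : P2 / δ ≤ b := by
      have : (b0:ℝ) ≤ b := by exact_mod_cast hb
      linarith
    rw [div_le_iff₀ hδ0] at h2
    rw [mul_one_div, div_le_iff₀ hb2]
    linarith
  have t3 : 8 * n0 = δ := by rw [hn0]; ring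
  have t4 : 2 / ((2 ^ K : ℕ) : ℝ) ≤ δ := by
    have h2 : ((2 ^ K : ℕ) : ℝ)⁻¹ ≤ δ / 2 := by
      refine le_trans ?_ hK0
      rw [Real.rpow_neg two_pos.le, Real.rpow_natCast]
      push_cast
      exact inv_anti₀ (by positivity) (pow_le_pow_right₀ one_le_two hK)
    rw [div_eq_mul_inv]
    linarith
  have t5 : e0 n w ≤ δ / 20 := hw1 w hwb
  have t6 : E31 n (2 ^ K) η w ≤ δ := hw3 w η hwd hη
  have hg : (2:ℝ) ^ γ ≤ min (δ / 5) (δ * n0 / 8) :=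
    (Real.rpow_le_rpow_of_exponent_le one_le_two hγ).trans hD0
  have hg0 : 0 < (2:ℝ) ^ γ := Real.rpow_pos_of_pos two_pos _
  have hg1 : (2:ℝ) ^ γ ≤ δ / 5 := hg.trans (min_le_left _ _)
  have hg2 : (2:ℝ) ^ γ ≤ δ * n0 / 8 := hg.trans (min_le_right _ _)
  have t7 : (2:ℝ) ^ (γ - C) ≤ δ / 5 := by
    refine le_trans (Real.rpow_le_rpow_of_exponent_le one_le_two ?_) hg1
    have : (0:ℝ) ≤ C := Nat.cast_nonneg C
    linarith
  have t8 : 8 * (2:ℝ) ^ γ / n0 ≤ δ := by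
    rw [div_le_iff₀ hn00]; linarith
  have t9 : P2 * (a + 1 / b) ≤ 2 * δ := by rw [mul_add]; linarith
  set X := P2 * (a + 1 / b) + 8 * n0 + 2 / ((2 ^ K : ℕ) : ℝ)
          + 10 * (e0 n w + (e0 n w + (2:ℝ) ^ (γ - C) / 2) + (2:ℝ) ^ (-(C:ℝ)) / 2)
          + E31 n (2 ^ K) η w with hX
  have hXle : X ≤ 8 * δ := by
    rw [hX]
    linarith
  have e1 : 2 * (ε + G * X / τ) = 2 * ε + K1 * X := by rw [hK1]; field_simp
  have h2 : K1 * X ≤ 8 * (K1 * δ) := by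
    have := mul_le_mul_of_nonneg_left hXle hK10
    linarith
  have h3 : 16 * (K1 * δ) + 16 * δ = ε0 := by rw [hδ]; field_simp
  have h5 : 0 ≤ K1 * δ := by positivity
  have h4 : 2 * (ε + G * X / τ) + 3 / 2 * (2:ℝ) ^ γ + 8 * (2:ℝ) ^ γ / n0 ≤ 2 * ε + ε0 := by
    rw [e1]
    linarith
  exact h4

end Crest.Agent.R014.DEnd3_667
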