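import Crest.Agent.R014.DEnd4_935

/-!
# Row 14, block D, END: swap data from two entropy gaps (helper935)
-/

set_option autoImplicit false

open MeasureTheory Crest.NumberTheoryR.Packets
open Crest.Agent.R014.Nd_837 Crest.Agent.R014.Ne1_567 Crest.Agent.R014.NScB_395
open Crest.Agent.R014.NScC_395 Crest.Agent.R014.Sw1_640 Crest.Agent.R014.DEnd2_935
open Crest.Agent.R014.DEnd3_935 Crest.Agent.R014.Ms_667
open Crest.Agent.R014.Ne3_567 (pv measurable_pv pv_nonneg sum_pv pv_le_one pv_eq)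
open scoped ENNReal BigOperators

namespace Crest.Agent.R014.DEnd4_935

/-- Lipschitz test functions -/
theorem Tm.of_tst {Z : Type*} [MeasurableSpace Z] {L : ℝ} {F : Z → ℝ → ℝ} (hL : 0 ≤ L)
    (hF : Tst L F) (k0 : ℝ) : Tm k0 (L * k0) F where
  meas := hF.meas
  le := hF.le
  md z x y h := (hF.lip z x y).trans (mul_le_mul_of_nonneg_left h hL)

variable {n : ℕ} {j k l : Fin n}

theorem link_lab (μ : Measure (ModSpace n)) (κ0 : Measure (SLR n)) [IsProbabilityMeasure μ]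
    [IsProbabilityMeasure κ0] (hjk : j ≠ k) (hkl : k ≠ l) (hjl : j ≠ l) (a b c : ℝ) {bs bt : ℕ}
    (i : Fin bs) (t : Fin bt) {k0 ω : ℝ}
    (hk0 : (2 : ℝ) ^ (-a) * ((2 : ℝ) ^ (-b) / bt) + (2 : ℝ) ^ (-b) * ((2 : ℝ) ^ (-a) / bs) ≤ k0)
    {Ψ : ModSpace n → ℝ → ℝ} (hΨ : Tm k0 ω Ψ) :
    |(∫ x, Ψ x.1 x.2 ∂(((lab μ κ0 hkl b bt t).prod (VV hjk hjl a c bs i)).map KP))
      - ∫ x, Ψ x.1 (x.2 + rp a bs i * rp b bt t)
        ∂(((lab μ κ0 hjk a bs i).prod (VV hkl hjl b c bt t)).map KP)|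
      ≤ ((bt : ℝ)⁻¹ * (bs : ℝ)⁻¹) * ((2 : ℝ) ^ (c - a - b) + ω) := by
  have hp : IsProbabilityMeasure (stp μ κ0) := by infer_instance
  rw [M1_eq μ κ0 hjk hkl hjl a b c i t, M2_eq μ κ0 hjk hkl hjl a b c i t,
    integral_smul_measure, integral_smul_measure, ← smul_sub, smul_eq_mul, abs_mul]
  have e1 : ((bt : ℝ≥0∞)⁻¹ * (bs : ℝ≥0∞)⁻¹).toReal = (bt : ℝ)⁻¹ * (bs : ℝ)⁻¹ := by
    simp
  rw [e1, abs_of_nonneg (by positivity)]
  exact mul_le_mul_of_nonneg_left (link hjk hkl hjl a b c i t (stp μ κ0) hk0 hΨ) (by positivity)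

/-- **swap data from two entropy gaps** -/
theorem sw_of (μ : Measure (ModSpace n)) (κ0 : Measure (SLR n)) [IsProbabilityMeasure μ]
    [IsProbabilityMeasure κ0] (hjk : j ≠ k) (hkl : k ≠ l) (hjl : j ≠ l) (a b c : ℝ) {bs bt : ℕ}
    (hbs : 0 < bs) (hbt : 0 < bt) {η1 η2 k0 ω : ℝ} (hω : 0 ≤ ω)
    (H1 : Hc (nz (lab μ κ0 hkl b bt) (tot (VV hjk hjl a c bs)) KK) - Hc (lab μ κ0 hkl b bt) ≤ η1)
    (H2 : Hc (nz (lab μ κ0 hjk a bs) (tot (VV hkl hjl b c bt)) KK) - Hc (lab μ κ0 hjk a bs) ≤ η2)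
    (hk0 : (2 : ℝ) ^ (-a) * ((2 : ℝ) ^ (-b) / bt) + (2 : ℝ) ^ (-b) * ((2 : ℝ) ^ (-a) / bs) ≤ k0) :
    Sw (MM (lab μ κ0 hkl b bt) (VV hjk hjl a c bs)) (MM (lab μ κ0 hjk a bs) (VV hkl hjl b c bt))
      (rp a bs) (rp b bt) (PP (lab μ κ0 hjk a bs) (VV hkl hjl b c bt))
      (PP (lab μ κ0 hkl b bt) (VV hjk hjl a c bs)) k0 ω
      (√(4 * η1) + √(4 * η2) + ((2 : ℝ) ^ (c - a - b) + ω)) := by
  have ns : Nonempty (Fin bs) := ⟨⟨0, hbs⟩⟩
  have nt : Nonempty (Fin bt) := ⟨⟨0, hbt⟩⟩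
  have p1 : IsProbabilityMeasure (tot (VV hjk hjl a c bs)) := prob_VV hjk hjl a c hbs
  have p2 : IsProbabilityMeasure (tot (VV hkl hjl b c bt)) := prob_VV hkl hjl b c hbt
  have p3 : IsProbabilityMeasure (tot (lab μ κ0 hkl b bt)) := prob_lab μ κ0 hkl b hbt
  have p4 : IsProbabilityMeasure (tot (lab μ κ0 hjk a bs)) := prob_lab μ κ0 hjk a hbs
  refine ⟨fun i => PP_wt _ _ i, fun i => PP_wt _ _ i, fun y => (sum_pv _ y).le,
    fun y => (sum_pv _ y).le, hω, fun Ψ hΨ => ?_⟩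
  have h1 := half (lab μ κ0 hkl b bt) (VV hjk hjl a c bs) H1 Ψ hΨ
  have h2 := half (lab μ κ0 hjk a bs) (VV hkl hjl b c bt) H2
    (fun t i z x => Ψ i t z (x + rp a bs i * rp b bt t)) (fun t i => (hΨ i t).shift _)
  rw [Finset.sum_comm] at h2
  have h3 : |∑ i, ∑ t, ((∫ x, Ψ i t x.1 x.2
        ∂(((lab μ κ0 hkl b bt t).prod (VV hjk hjl a c bs i)).map KP))
      - ∫ x, Ψ i t x.1 (x.2 + rp a bs i * rp b bt t)
        ∂(((lab μ κ0 hjk a bs i).prod (VV hkl hjl b c bt t)).map KP))|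
      ≤ (2 : ℝ) ^ (c - a - b) + ω := by
    refine (Finset.abs_sum_le_sum_abs _ _).trans ((Finset.sum_le_sum fun i _ =>
      (Finset.abs_sum_le_sum_abs _ _).trans (Finset.sum_le_sum fun t _ =>
        link_lab μ κ0 hjk hkl hjl a b c i t hk0 (hΨ i t))).trans (le_of_eq ?_))
    simp only [Finset.sum_const, Finset.card_univ, Fintype.card_fin, nsmul_eq_mul]
    have hs : (bs : ℝ) ≠ 0 := by exact_mod_cast hbs.ne'
    have ht : (bt : ℝ) ≠ 0 := by exact_mod_cast hbt.ne'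
    field_simp
  simp only [Finset.sum_sub_distrib] at h1 h2 h3 ⊢
  rw [abs_le] at h1 h2 h3 ⊢
  constructor <;> linarith [h1.1, h1.2, h2.1, h2.2, h3.1, h3.2]

end Crest.Agent.R014.DEnd4_935
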