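import Crest.Agent.R014.NScC_395

/-!
# Row 14, block D, noise formalism, section 3 of post 3844 (helper395), part D

The function `Psi`, the averaged posterior spread `Acv`, and (3.1): they are close in `L¹(μ)`
when the noise is good. Exact equivariance of `Acv`; the near invariance of `Psi`.
-/

set_option autoImplicit false

open MeasureTheory Finset Crest.NumberTheoryR.Packets
open Crest.Agent.R014.Nd_837 Crest.Agent.R014.Ne1_567 Crest.Agent.R014.NScB_395
open Crest.Agent.R014.NScC_395 Crest.Agent.R014.Ms_667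
open Crest.Agent.R014.Ne3_567 (pv measurable_pv pv_nonneg sum_pv pv_le_one)
open scoped ENNReal

noncomputable section

namespace Crest.Agent.R014.NScD_395

variable {n : ℕ}

/-! ### integrals along a step -/

theorem bdd_integrable {Y : Type*} [MeasurableSpace Y] {ν : Measure Y} [IsFiniteMeasure ν]
    {F : Y → ℝ} (hF : Measurable F) {M : ℝ} (hM : ∀ y, |F y| ≤ M) : Integrable F ν :=
  Integrable.of_bound hF.aestronglyMeasurable M (Filter.Eventually.of_forall hM)

theorem integral_stp (μ : Measure (ModSpace n)) (κ : Measure (SLR n)) [IsFiniteMeasure μ]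
    [IsFiniteMeasure κ] {F : ModSpace n → ℝ} (hF : Measurable F) {M : ℝ} (hM : ∀ y, |F y| ≤ M) :
    ∫ y, F y ∂(stp μ κ) = ∫ x, ∫ g, F (act x g) ∂κ ∂μ := by
  unfold stp
  rw [integral_map measurable_act₂.aemeasurable hF.aestronglyMeasurable, integral_prod]
  exact bdd_integrable (hF.comp measurable_act₂) fun y => hM _

theorem integral_cv (κ κ' : Measure (SLR n)) [IsFiniteMeasure κ]
    [IsFiniteMeasure κ'] {F : SLR n → ℝ} (hF : Measurable F) {M : ℝ} (hM : ∀ y, |F y| ≤ M) :
    ∫ g, F g ∂(cv κ κ') = ∫ g, ∫ h, F (g * h) ∂κ' ∂κ := by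
  unfold cv
  rw [integral_map measurable_mul₂.aemeasurable hF.aestronglyMeasurable, integral_prod]
  exact bdd_integrable (hF.comp measurable_mul₂) fun y => hM _

/-! ### the law of the whole digit window -/

/-- law of `uu hij (2^-r θ)`, `θ` uniform on `[-1,1]` -/
def dl {i j : Fin n} (hij : i ≠ j) (r : ℝ) : Measure (SLR n) :=
  uni.map fun θ => uu hij ((2 : ℝ) ^ (-r) * θ)

theorem measurable_uuw {i j : Fin n} (hij : i ≠ j) (r : ℝ) :
    Measurable fun θ : ℝ => (uu hij ((2 : ℝ) ^ (-r) * θ) : SLR n) :=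
  ((continuous_uu hij).comp (continuous_const.mul continuous_id)).measurable

instance {i j : Fin n} (hij : i ≠ j) (r : ℝ) : IsProbabilityMeasure (dl hij r) :=
  Measure.isProbabilityMeasure_map (measurable_uuw hij r).aemeasurable

/-- the window is the mixture of the digit laws -/
theorem dl_eq {i j : Fin n} (hij : i ≠ j) (r : ℝ) {b : ℕ} (hb : 0 < b) :
    dl hij r = (b : ℝ≥0∞)⁻¹ • ∑ d : Fin b, dlaw hij r b d := by
  unfold dl dlaw
  conv_lhs => rw [uni_split hb]
  rw [Measure.map_smul, Measure.map_finset_sum (measurable_uuw hij r).aemeasurable]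
  congr 1
  refine sum_congr rfl fun d _ => ?_
  rw [Measure.map_map (measurable_uuw hij r) (by fun_prop)]
  rfl

theorem stp_apply (μ : Measure (ModSpace n)) (κ : Measure (SLR n)) [SFinite μ] [SFinite κ]
    {A : Set (ModSpace n)} (hA : MeasurableSet A) :
    stp μ κ A = ∫⁻ x, κ {g | act x g ∈ A} ∂μ := by
  unfold stp
  rw [Measure.map_apply measurable_act₂ hA, Measure.prod_apply (measurable_act₂ hA)]
  rfl

theorem measurable_stp_aux (κ : Measure (SLR n)) [SFinite κ] {A : Set (ModSpace n)}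
    (hA : MeasurableSet A) : Measurable fun x : ModSpace n => κ {g | act x g ∈ A} :=
  measurable_measure_prodMk_left (measurable_act₂ hA)

theorem tot_lab_eq (μ : Measure (ModSpace n)) (κ : Measure (SLR n)) [IsProbabilityMeasure μ]
    [IsProbabilityMeasure κ] {i j : Fin n} (hij : i ≠ j) (r : ℝ) {b : ℕ} (hb : 0 < b) :
    tot (lab μ κ hij r b) = stp μ (cv κ (dl hij r)) := by
  rw [← stp_stp]
  refine Measure.ext fun A hA => ?_
  rw [tot_apply, stp_apply _ _ hA, dl_eq hij r hb]
  simp only [lab, Measure.smul_apply, Measure.finsetSum_apply, smul_eq_mul]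
  have hm : ∀ d : Fin b, Measurable fun x : ModSpace n => dlaw hij r b d {g | act x g ∈ A} :=
    fun d => measurable_stp_aux _ hA
  rw [lintegral_const_mul _ (Finset.measurable_sum _ fun d _ => hm d),
    lintegral_finsetSum _ fun d _ => hm d, mul_sum]
  exact sum_congr rfl fun d _ => by rw [stp_apply _ _ hA]

theorem cj_dl {i j : Fin n} (hij : i ≠ j) (t : Fin n → ℝ) (r : ℝ) :
    cj (aT t) (dl hij r) = dl hij (r + (t i - t j)) := by
  unfold cj dl
  rw [Measure.map_map (measurable_cj _) (measurable_uuw hij r)]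
  congr 1
  funext θ
  simp only [Function.comp_apply]
  rw [aT_conj_uu hij]
  congr 1
  rw [← mul_assoc, ← Real.rpow_add two_pos]
  congr 2
  ring

/-! ### posterior spread, `Psi`, `Acv` -/

/-- spread of the posterior law of the digit -/
def ps {b : ℕ} (ρ : Fin b → Measure (ModSpace n)) (y : ModSpace n) : ℝ :=
  spr (cen b) fun d => pv ρ d y

/-- average of the posterior spread over a noise -/
def Av {b : ℕ} (ρ : Fin b → Measure (ModSpace n)) (κ : Measure (SLR n)) (x : ModSpace n) : ℝ :=
  ∫ g, ps ρ (act x g) ∂κ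

/-- `E[ψ(law(d | Y)) | x]`, `Y = x ζ u(2^-r θ)` -/
def Acv (μ : Measure (ModSpace n)) (κ : Measure (SLR n)) {i j : Fin n} (hij : i ≠ j) (r : ℝ)
    (b : ℕ) (x : ModSpace n) : ℝ := Av (lab μ κ hij r b) (cv κ (dl hij r)) x

/-- `Ψ(x) = E ψ(kap(x ζ u(2^-r θ)))`, `kap` = posterior law of the digit, for the reference
noise `ζ ~ κ` -/
def Psi (μ : Measure (ModSpace n)) (κ : Measure (SLR n)) {i j : Fin n} (hij : i ≠ j) (r : ℝ)
    (b : ℕ) (x : ModSpace n) : ℝ := Acv μ κ hij r b x

theorem cen_dist {b : ℕ} (c c' : Fin b) : |cen b c - cen b c'| ≤ 2 := by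
  have hb : (0:ℝ) < b := by exact_mod_cast c.pos
  have h1 : cen b c - cen b c' = 2 * ((c:ℝ) - c') / b := by
    unfold cen; field_simp; ring
  rw [h1, abs_div, abs_mul, abs_of_pos hb, abs_of_pos (by norm_num : (0:ℝ) < 2), div_le_iff₀ hb]
  have h2 : ((c : ℕ) : ℝ) < b := by exact_mod_cast c.2
  have h3 : ((c' : ℕ) : ℝ) < b := by exact_mod_cast c'.2
  have h4 : (0:ℝ) ≤ ((c : ℕ) : ℝ) := by positivity
  have h5 : (0:ℝ) ≤ ((c' : ℕ) : ℝ) := by positivity
  have : |((c : ℕ) : ℝ) - c'| ≤ b := abs_le.2 ⟨by linarith, by linarith⟩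
  linarith

section
variable {b : ℕ} [NeZero b] (ρ : Fin b → Measure (ModSpace n))

theorem measurable_ps : Measurable (ps ρ) := by
  unfold ps spr
  exact Finset.measurable_sum _ fun c _ => Finset.measurable_sum _ fun c' _ =>
    ((measurable_pv ρ c).mul (measurable_pv ρ c')).mul_const _

theorem ps_nonneg (y : ModSpace n) : 0 ≤ ps ρ y := spr_nonneg fun c => pv_nonneg ρ c y

theorem ps_le (y : ModSpace n) : ps ρ y ≤ 2 :=
  spr_le cen_dist (fun c => pv_nonneg ρ c y) (sum_pv ρ y)

theorem abs_ps_le (y : ModSpace n) : |ps ρ y| ≤ 2 := by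
  rw [abs_of_nonneg (ps_nonneg ρ y)]; exact ps_le ρ y

theorem ps_lip (ρ' : Fin b → Measure (ModSpace n)) (y z : ModSpace n) :
    |ps ρ y - ps ρ' z| ≤ 4 * ∑ c, |pv ρ c y - pv ρ' c z| := by
  have := spr_lip (x := cen b) (D := 2) cen_dist (fun c => pv_nonneg ρ c y) (sum_pv ρ y)
    (fun c => pv_nonneg ρ' c z) (sum_pv ρ' z)
  norm_num at this
  exact this

variable (κ : Measure (SLR n)) [IsProbabilityMeasure κ]

theorem measurable_Av : Measurable (Av ρ κ) :=
  (((measurable_ps ρ).comp measurable_act₂).stronglyMeasurable.integral_prod_right').measurable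

theorem Av_nonneg (x : ModSpace n) : 0 ≤ Av ρ κ x := integral_nonneg fun g => ps_nonneg ρ _

theorem Av_le (x : ModSpace n) : Av ρ κ x ≤ 2 := by
  have h : ∫ g, ps ρ (act x g) ∂κ ≤ ∫ _, (2:ℝ) ∂κ :=
    integral_mono_of_nonneg (Filter.Eventually.of_forall fun g => ps_nonneg ρ _)
      (integrable_const _) (Filter.Eventually.of_forall fun g => ps_le ρ _)
  simpa [Av] using h

end

/-! ### (3.1) -/

/-- Cauchy-Schwarz for a probability measure -/
theorem integral_le_sqrt {Y : Type*} [MeasurableSpace Y] {P : Measure Y} [IsProbabilityMeasure P]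
    {S : Y → ℝ} (hS : Integrable S P) (hS2 : Integrable (fun y => S y ^ 2) P) {E : ℝ}
    (h : ∫ y, S y ^ 2 ∂P ≤ E) : ∫ y, S y ∂P ≤ √E := by
  set c := ∫ y, S y ∂P with hc
  have h1 : 0 ≤ ∫ y, (S y - c) ^ 2 ∂P := integral_nonneg fun y => sq_nonneg _
  have h2 : ∫ y, (S y - c) ^ 2 ∂P = ∫ y, S y ^ 2 ∂P - c ^ 2 := by
    have h3 : (fun y => (S y - c) ^ 2) = fun y => (S y ^ 2 - (2 * c) * S y) + c ^ 2 := by
      funext y; ring
    have h4 : Integrable (fun y => S y ^ 2 - (2 * c) * S y) P := hS2.sub (hS.const_mul _)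
    rw [h3, integral_add h4 (integrable_const _),
      integral_sub hS2 (hS.const_mul _), integral_const_mul, ← hc]
    simp
    ring
  refine Real.le_sqrt_of_sq_le ?_
  linarith

/-- the noisy observation map -/
def Kact (p : ModSpace n × SLR n) : ModSpace n := act p.1 p.2

theorem measurable_Kact : Measurable (Kact (n := n)) := measurable_act₂

theorem nz_lab (ρ : Measure (ModSpace n)) [IsFiniteMeasure ρ] (κ1 : Measure (SLR n)) :
    (ρ.prod κ1).map Kact = stp ρ κ1 := rfl

theorem acv_close {μ : Measure (ModSpace n)} [IsProbabilityMeasure μ]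
    {κR κ1 κP : Measure (SLR n)} [IsProbabilityMeasure κR] [IsProbabilityMeasure κ1]
    [IsProbabilityMeasure κP] {i j : Fin n} (hij : i ≠ j) (r : ℝ) {b : ℕ}
    [NeZero b] {E0 e e' : ℝ}
    (h1 : ∫ y, (∑ d, |pr (lab μ κR hij r b) d y.1 -
      pr (nz (lab μ κR hij r b) κ1 Kact) d (Kact y)|) ^ 2 ∂((tot (lab μ κR hij r b)).prod κ1) ≤ E0)
    (h2 : ∀ d, TVle (lab μ κ1 hij r b d) (nz (lab μ κR hij r b) κ1 Kact d) e)
    (h3 : TVle (cv (cv κR (dl hij r)) κ1) κP e') :
    ∫ x, |Acv μ κR hij r b x - Av (lab μ κ1 hij r b) κP x| ∂μ ≤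
      4 * (√E0 + 2 * b * (1 + b) * e) + 4 * e' := by
  have hb : 0 < b := Nat.pos_of_ne_zero (NeZero.ne b)
  set ρR := lab μ κR hij r b with hρR
  set ρ1 := lab μ κ1 hij r b with hρ1
  set ρ' := nz ρR κ1 Kact with hρ'
  have htot : tot ρR = stp μ (cv κR (dl hij r)) := tot_lab_eq μ κR hij r hb
  have hP1 : IsProbabilityMeasure (tot ρR) := by rw [htot]; infer_instance
  have hK := measurable_Kact (n := n)
  -- total law of the noisy observation
  have htot' : tot ρ' = ((tot ρR).prod κ1).map Kact := by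
    rw [hρ', nz_eq, tot_mp hK, tot_pd]
  set P := (tot ρR).prod κ1 with hP
  -- a.e. facts on `P`
  have ae1 : ∀ᵐ p ∂P, ∀ c, pv ρR c p.1 = pr ρR c p.1 :=
    Measure.quasiMeasurePreserving_fst.ae (pv_ae ρR)
  have ae2 : ∀ᵐ p ∂P, ∀ c, pr ρR c p.1 ≤ 1 :=
    Measure.quasiMeasurePreserving_fst.ae (ae_all_iff.2 fun c => pr_le_one ρR c)
  have ae3 : ∀ᵐ p ∂P, ∀ c, pr ρ' c (Kact p) ≤ 1 := by
    have h := ae_all_iff.2 fun c => pr_le_one ρ' c
    rw [htot'] at h
    exact ae_of_ae_map hK.aemeasurable h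
  set S : ModSpace n × SLR n → ℝ := fun p => ∑ d, |pr ρR d p.1 - pr ρ' d (Kact p)| with hSdef
  have hSm : Measurable S := by
    refine Finset.measurable_sum _ fun d _ => ?_
    exact ((((measurable_pr ρR d).comp measurable_fst).sub ((measurable_pr ρ' d).comp hK))).abs
  have hS0 : ∀ p, 0 ≤ S p := fun p => sum_nonneg fun d _ => abs_nonneg _
  have hSb : ∀ᵐ p ∂P, S p ≤ b := by
    filter_upwards [ae2, ae3] with p hp2 hp3
    have : S p ≤ ∑ _d : Fin b, (1:ℝ) := sum_le_sum fun d _ => by
      rw [abs_le]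
      constructor
      · linarith [pr_nonneg ρR d p.1, hp3 d]
      · linarith [pr_nonneg ρ' d (Kact p), hp2 d]
    simpa using this
  have hSi : Integrable S P := Integrable.of_bound hSm.aestronglyMeasurable b (by
    filter_upwards [hSb] with p hp
    rw [Real.norm_eq_abs, abs_of_nonneg (hS0 p)]; exact hp)
  have hSi2 : Integrable (fun p => S p ^ 2) P :=
    Integrable.of_bound (hSm.pow_const 2).aestronglyMeasurable ((b:ℝ) ^ 2) (by
      filter_upwards [hSb] with p hp
      rw [Real.norm_eq_abs, abs_of_nonneg (sq_nonneg _)]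
      exact pow_le_pow_left₀ (hS0 p) hp 2)
  have hS1 : ∫ p, S p ∂P ≤ √E0 := integral_le_sqrt hSi hSi2 h1
  -- second comparison
  set F : ModSpace n → ℝ := fun y => ∑ c, |pr ρ' c y - pv ρ1 c y| with hFdef
  have hFm : Measurable F := Finset.measurable_sum _ fun d _ =>
    ((measurable_pr ρ' d).sub (measurable_pv ρ1 d)).abs
  have hF0 : ∀ y, 0 ≤ F y := fun y => sum_nonneg fun d _ => abs_nonneg _
  have hFP : ∫ p, F (Kact p) ∂P ≤ 2 * b * (1 + b) * e := by
    have h := post_compare ρ1 ρ' h2
    rw [htot', integral_map hK.aemeasurable hFm.aestronglyMeasurable] at h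
    simpa using h
  have hFi : Integrable (fun p => F (Kact p)) P := by
    refine Integrable.of_bound (hFm.comp hK).aestronglyMeasurable b ?_
    filter_upwards [ae3] with p hp3
    rw [Real.norm_eq_abs, abs_of_nonneg (hF0 _)]
    have : F (Kact p) ≤ ∑ _d : Fin b, (1:ℝ) := sum_le_sum fun d _ => by
      rw [abs_le]
      constructor
      · linarith [pr_nonneg ρ' d (Kact p), pv_le_one ρ1 d (Kact p)]
      · linarith [pv_nonneg ρ1 d (Kact p), hp3 d]
    simpa using this
  -- the spread
  set T : ModSpace n × SLR n → ℝ := fun p => |ps ρR p.1 - ps ρ1 (Kact p)| with hTdef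
  have hTm : Measurable T :=
    (((measurable_ps ρR).comp measurable_fst).sub ((measurable_ps ρ1).comp hK)).abs
  have hTb : ∀ p, |T p| ≤ 2 := by
    intro p
    rw [hTdef]
    simp only [abs_abs]
    rw [abs_le]
    constructor <;> linarith [ps_nonneg ρR p.1, ps_nonneg ρ1 (Kact p), ps_le ρR p.1,
      ps_le ρ1 (Kact p)]
  have hTi : Integrable T P := bdd_integrable hTm hTb
  have hT : ∫ p, T p ∂P ≤ 4 * (√E0 + 2 * b * (1 + b) * e) := by
    have hle : T ≤ᵐ[P] fun p => 4 * (S p + F (Kact p)) := by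
      filter_upwards [ae1] with p hp1
      refine (ps_lip ρR ρ1 p.1 (Kact p)).trans (mul_le_mul_of_nonneg_left ?_ (by norm_num))
      rw [hSdef, hFdef]
      simp only
      rw [← sum_add_distrib]
      exact sum_le_sum fun c _ => by
        rw [hp1 c]; exact abs_sub_le _ _ _
    have h := integral_mono_ae hTi ((hSi.add hFi).const_mul 4) hle
    have h' : ∫ p, 4 * (S p + F (Kact p)) ∂P = 4 * (∫ p, S p ∂P + ∫ p, F (Kact p) ∂P) := by
      rw [integral_const_mul, integral_add hSi hFi]
    simp only [Pi.add_apply] at h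
    rw [h'] at h
    linarith
  -- the intermediate function
  set κA := cv κR (dl hij r) with hκA
  set B : ModSpace n → ℝ := fun x => ∫ g, ∫ h, ps ρ1 (act (act x g) h) ∂κ1 ∂κA with hB
  have hps1 := measurable_ps ρ1
  have hW : Measurable fun y : ModSpace n => ∫ h, ps ρ1 (act y h) ∂κ1 := measurable_Av ρ1 κ1
  have hBA : ∀ x, B x = ∫ g, ps ρ1 (act x g) ∂(cv κA κ1) := by
    intro x
    rw [integral_cv κA κ1 (F := fun g => ps ρ1 (act x g)) (hps1.comp
      (measurable_act₂.comp measurable_prodMk_left)) (M := 2) (fun g => abs_ps_le ρ1 _)]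
    simp only [hB, act_act]
  have hBP : ∀ x, |B x - Av ρ1 κP x| ≤ 4 * e' := by
    intro x
    rw [hBA]
    have h := integral_le h3 (f := fun g => ps ρ1 (act x g)) (hps1.comp
      (measurable_act₂.comp measurable_prodMk_left)) (M := 2) (fun g => abs_ps_le ρ1 _)
    refine h.trans (le_of_eq (by ring))
  have hBm : Measurable B := by
    have : B = Av ρ1 (cv κA κ1) := funext hBA
    rw [this]
    exact measurable_Av ρ1 _
  have hAm : Measurable (Acv μ κR hij r b) := measurable_Av ρR _
  have hPm : Measurable (Av ρ1 κP) := measurable_Av ρ1 _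
  have hA2 : ∀ x, 0 ≤ Acv μ κR hij r b x ∧ Acv μ κR hij r b x ≤ 2 := fun x =>
    ⟨Av_nonneg ρR _ x, Av_le ρR _ x⟩
  have hP2 : ∀ x, 0 ≤ Av ρ1 κP x ∧ Av ρ1 κP x ≤ 2 := fun x =>
    ⟨Av_nonneg ρ1 _ x, Av_le ρ1 _ x⟩
  have hB2 : ∀ x, 0 ≤ B x ∧ B x ≤ 2 := fun x => by
    rw [hBA]; exact ⟨Av_nonneg ρ1 (cv κA κ1) x, Av_le ρ1 (cv κA κ1) x⟩
  -- Fubini
  set G : ModSpace n → ℝ := fun y => ∫ h, T (y, h) ∂κ1 with hG
  have hGm : Measurable G := (hTm.stronglyMeasurable.integral_prod_right').measurable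
  have hGb : ∀ y, |G y| ≤ 2 := by
    intro y
    have h := norm_integral_le_of_norm_le_const (μ := κ1) (C := 2) (f := fun h => T (y, h))
      (Filter.Eventually.of_forall fun h => by rw [Real.norm_eq_abs]; exact hTb _)
    simpa using h
  have hFub : ∫ x, ∫ g, G (act x g) ∂κA ∂μ = ∫ p, T p ∂P := by
    rw [← integral_stp μ κA hGm hGb, ← htot, hP, integral_prod _ hTi]
  have hAB : ∀ x, |Acv μ κR hij r b x - B x| ≤ ∫ g, G (act x g) ∂κA := by
    intro x
    have e1 : Acv μ κR hij r b x - B x =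
        ∫ g, (ps ρR (act x g) - ∫ h, ps ρ1 (act (act x g) h) ∂κ1) ∂κA := by
      rw [integral_sub]
      · rfl
      · exact bdd_integrable ((measurable_ps ρR).comp
          (measurable_act₂.comp measurable_prodMk_left)) (M := 2) fun g => abs_ps_le ρR _
      · refine bdd_integrable (hW.comp (measurable_act₂.comp measurable_prodMk_left)) (M := 2)
          fun g => ?_
        have e3 := Av_nonneg ρ1 κ1 (act x g)
        have e4 := Av_le ρ1 κ1 (act x g)
        exact abs_le.2 ⟨by unfold Av at e3; linarith, e4⟩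
    rw [e1]
    refine (abs_integral_le_integral_abs).trans ?_
    refine integral_mono_of_nonneg (Filter.Eventually.of_forall fun g => abs_nonneg _) ?_
      (Filter.Eventually.of_forall fun g => ?_)
    · exact bdd_integrable (hGm.comp (measurable_act₂.comp measurable_prodMk_left)) (M := 2)
        fun g => hGb _
    · simp only [hG]
      have e2 : ps ρR (act x g) - ∫ h, ps ρ1 (act (act x g) h) ∂κ1 =
          ∫ h, (ps ρR (act x g) - ps ρ1 (act (act x g) h)) ∂κ1 := by
        rw [integral_sub (integrable_const _)]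
        · simp
        · exact bdd_integrable (hps1.comp (measurable_act₂.comp measurable_prodMk_left)) (M := 2)
            fun g => abs_ps_le ρ1 _
      rw [e2]
      exact abs_integral_le_integral_abs
  -- conclusion
  have hfin : ∫ x, |Acv μ κR hij r b x - Av ρ1 κP x| ∂μ ≤
      ∫ x, (∫ g, G (act x g) ∂κA + 4 * e') ∂μ := by
    refine integral_mono_of_nonneg (Filter.Eventually.of_forall fun g => abs_nonneg _) ?_
      (Filter.Eventually.of_forall fun x => ?_)
    · refine Integrable.add ?_ (integrable_const _)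
      refine bdd_integrable (M := 2) ?_ fun x => ?_
      · exact ((hGm.comp measurable_act₂).stronglyMeasurable.integral_prod_right').measurable
      · have h := norm_integral_le_of_norm_le_const (μ := κA) (C := 2)
          (f := fun g => G (act x g))
          (Filter.Eventually.of_forall fun h => by rw [Real.norm_eq_abs]; exact hGb _)
        simpa using h
    · exact (abs_sub_le _ (B x) _).trans (add_le_add (hAB x) (hBP x))
  refine hfin.trans ?_
  rw [integral_add _ (integrable_const _), hFub]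
  · simp
    linarith
  · refine bdd_integrable (M := 2) ?_ fun x => ?_
    · exact ((hGm.comp measurable_act₂).stronglyMeasurable.integral_prod_right').measurable
    · have h := norm_integral_le_of_norm_le_const (μ := κA) (C := 2)
        (f := fun g => G (act x g))
        (Filter.Eventually.of_forall fun h => by rw [Real.norm_eq_abs]; exact hGb _)
      simpa using h

end Crest.Agent.R014.NScD_395
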