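import Crest.Agent.R014.DEnd4b_935
import Crest.Agent.R014.NScD_395

/-!
# Row 14, block D, END: the law of the observation (helper935)
-/

set_option autoImplicit false

open MeasureTheory Crest.NumberTheoryR.Packets
open Crest.Agent.R014.Nd_837 Crest.Agent.R014.Ne1_567 Crest.Agent.R014.NScB_395
open Crest.Agent.R014.NScC_395 Crest.Agent.R014.Sw1_640 Crest.Agent.R014.DEnd2_935
open Crest.Agent.R014.DEnd3_935 Crest.Agent.R014.Ms_667
open Crest.Agent.R014.Ne3_567 (pv measurable_pv pv_nonneg sum_pv pv_le_one pv_eq)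
open scoped ENNReal BigOperators

namespace Crest.Agent.R014.DEnd4_935

variable {n : ℕ} {j k l p' q' : Fin n}

theorem split_prod {Y : Type*} [MeasurableSpace Y] {b : ℕ} (hb : 0 < b) {G : ℝ × ℝ → Y}
    (hG : Measurable G) : (uni.prod uni).map G
      = ∑ d : Fin b, (b : ℝ≥0∞)⁻¹ • (uni.prod uni).map fun p => G (cen b d + p.1 / b, p.2) := by
  classical
  have h0 : ∀ s : Finset (Fin b), (∑ d ∈ s, uni.map fun θ => cen b d + θ / b).prod uni
      = ∑ d ∈ s, (uni.map fun θ => cen b d + θ / b).prod uni := by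
    intro s
    induction s using Finset.induction_on with
    | empty => simp
    | insert a s ha ih => rw [Finset.sum_insert ha, Finset.sum_insert ha, Measure.add_prod, ih]
  have h1 : uni.prod uni = (b : ℝ≥0∞)⁻¹ • ∑ d : Fin b, (uni.map fun θ => cen b d + θ / b).prod uni := by
    conv_lhs => enter [1]; rw [uni_split hb]
    rw [Measure.prod_smul_left, h0]
  conv_lhs => rw [h1]
  rw [Measure.map_smul, Measure.map_finset_sum hG.aemeasurable, Finset.smul_sum]
  refine Finset.sum_congr rfl fun d _ => ?_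
  congr 1
  have hf : Measurable fun θ : ℝ => cen b d + θ / b := by fun_prop
  have h2 : (uni.map fun θ : ℝ => cen b d + θ / b).prod uni
      = (uni.prod uni).map (Prod.map (fun θ : ℝ => cen b d + θ / b) id) := by
    conv_lhs => rw [← Measure.map_id (μ := uni)]
    rw [Measure.map_id]
    conv_lhs => enter [2]; rw [← Measure.map_id (μ := uni)]
    exact Measure.map_prod_map _ _ hf measurable_id
  rw [h2, Measure.map_map hG (hf.prodMap measurable_id)]
  rfl

/-- the law of `(u(s) u(r), r)` -/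
noncomputable def WW (hjk : j ≠ k) (hjl : p' ≠ q') (a c : ℝ) (p : ℝ × ℝ) : SLR n × ℝ :=
  ((uu hjk ((2 : ℝ) ^ (-a) * p.1) * uu hjl ((2 : ℝ) ^ (-c) * p.2) : SLR n), (2 : ℝ) ^ (-c) * p.2)

theorem measurable_WW (hjk : j ≠ k) (hjl : p' ≠ q') (a c : ℝ) :
    Measurable (WW (n := n) hjk hjl a c) := by
  have h1 : Measurable fun p : ℝ × ℝ => (uu hjk ((2 : ℝ) ^ (-a) * p.1) : SLR n) :=
    (measurable_uu hjk).comp (measurable_const.mul measurable_fst)
  have h2 : Measurable fun p : ℝ × ℝ => (uu hjl ((2 : ℝ) ^ (-c) * p.2) : SLR n) :=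
    (measurable_uu hjl).comp (measurable_const.mul measurable_snd)
  exact (h1.mul h2).prodMk (measurable_const.mul measurable_snd)

theorem tot_VV (hjk : j ≠ k) (hjl : p' ≠ q') (a c : ℝ) {b : ℕ} (hb : 0 < b) :
    tot (VV hjk hjl a c b) = (uni.prod uni).map (WW (n := n) hjk hjl a c) := by
  rw [split_prod hb (measurable_WW hjk hjl a c)]
  rfl

theorem tt_MM {ι κ : Type*} [Fintype κ] [Fintype ι] (ρ : κ → Measure (ModSpace n))
    [∀ c, IsFiniteMeasure (ρ c)] (V : ι → Measure (SLR n × ℝ)) [∀ i, IsFiniteMeasure (V i)] :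
    tt (MM ρ V) = ((tot ρ).prod (tot V)).map KP := by
  unfold tt MM
  rw [prod_tot, Measure.map_finset_sum measurable_KP.aemeasurable]

/-- the observation as a random variable on `(x, (ζ, (t, (s, r))))` -/
noncomputable def OB {i1 j1 i2 j2 i3 j3 : Fin n} (h1 : i1 ≠ j1) (h2 : i2 ≠ j2) (h3 : i3 ≠ j3)
    (b a c : ℝ) (x : ModSpace n × (SLR n × (ℝ × (ℝ × ℝ)))) : ModSpace n × ℝ :=
  (act x.1 (x.2.1 * uu h1 ((2 : ℝ) ^ (-b) * x.2.2.1) * uu h2 ((2 : ℝ) ^ (-a) * x.2.2.2.1)
    * uu h3 ((2 : ℝ) ^ (-c) * x.2.2.2.2)), (2 : ℝ) ^ (-c) * x.2.2.2.2)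

/-- the product of the three noises (without the last unipotent) -/
noncomputable def gb {i1 j1 i2 j2 : Fin n} (h1 : i1 ≠ j1) (h2 : i2 ≠ j2)
    (b a : ℝ) (x : ModSpace n × (SLR n × (ℝ × (ℝ × ℝ)))) : SLR n :=
  x.2.1 * uu h1 ((2 : ℝ) ^ (-b) * x.2.2.1) * uu h2 ((2 : ℝ) ^ (-a) * x.2.2.2.1)

section
variable {i1 j1 i2 j2 i3 j3 : Fin n} (h1 : i1 ≠ j1) (h2 : i2 ≠ j2) (h3 : i3 ≠ j3) (b a c : ℝ)

theorem measurable_gb : Measurable (gb (n := n) h1 h2 b a) := by
  have m1 : Measurable fun x : ModSpace n × (SLR n × (ℝ × (ℝ × ℝ))) =>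
      (uu h1 ((2 : ℝ) ^ (-b) * x.2.2.1) : SLR n) :=
    (measurable_uu h1).comp (measurable_const.mul (by fun_prop))
  have m2 : Measurable fun x : ModSpace n × (SLR n × (ℝ × (ℝ × ℝ))) =>
      (uu h2 ((2 : ℝ) ^ (-a) * x.2.2.2.1) : SLR n) :=
    (measurable_uu h2).comp (measurable_const.mul (by fun_prop))
  exact ((measurable_fst.comp measurable_snd).mul m1).mul m2

theorem measurable_rb : Measurable fun x : ModSpace n × (SLR n × (ℝ × (ℝ × ℝ))) =>
    (2 : ℝ) ^ (-c) * x.2.2.2.2 := measurable_const.mul (by fun_prop)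

theorem OB_eq (x : ModSpace n × (SLR n × (ℝ × (ℝ × ℝ)))) : OB h1 h2 h3 b a c x
    = (act x.1 (gb h1 h2 b a x * uu h3 ((2 : ℝ) ^ (-c) * x.2.2.2.2)), (2 : ℝ) ^ (-c) * x.2.2.2.2) :=
  rfl

theorem measurable_OB : Measurable (OB (n := n) h1 h2 h3 b a c) := by
  have m3 : Measurable fun x : ModSpace n × (SLR n × (ℝ × (ℝ × ℝ))) =>
      (uu h3 ((2 : ℝ) ^ (-c) * x.2.2.2.2) : SLR n) :=
    (measurable_uu h3).comp (measurable_rb c)
  exact (measurable_act₂.comp (measurable_fst.prodMk ((measurable_gb h1 h2 b a).mul m3))).prodMk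
    (measurable_rb c)

/-- base measure of the observation -/
noncomputable def PQ (μ : Measure (ModSpace n)) (κ0 : Measure (SLR n)) :
    Measure (ModSpace n × (SLR n × (ℝ × (ℝ × ℝ)))) :=
  μ.prod (κ0.prod (uni.prod (uni.prod uni)))

instance (μ : Measure (ModSpace n)) (κ0 : Measure (SLR n)) [IsProbabilityMeasure μ]
    [IsProbabilityMeasure κ0] : IsProbabilityMeasure (PQ μ κ0) := by
  unfold PQ; infer_instance

theorem PQ_fst (μ : Measure (ModSpace n)) (κ0 : Measure (SLR n)) [IsProbabilityMeasure μ]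
    [IsProbabilityMeasure κ0] : (PQ μ κ0).map Prod.fst = μ := by
  unfold PQ
  rw [Measure.map_fst_prod]
  simp

theorem stp_dl (μ : Measure (ModSpace n)) (κ0 : Measure (SLR n)) [IsProbabilityMeasure μ]
    [IsProbabilityMeasure κ0] : stp μ (cv κ0 (NScD_395.dl h1 b))
      = (μ.prod (κ0.prod uni)).map
        fun x => act x.1 (x.2.1 * uu h1 ((2 : ℝ) ^ (-b) * x.2.2)) := by
  have hu : Measurable fun θ : ℝ => (uu h1 ((2 : ℝ) ^ (-b) * θ) : SLR n) :=
    NScD_395.measurable_uuw h1 b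
  have e1 : cv κ0 (NScD_395.dl h1 b) = (κ0.prod uni).map
      fun p : SLR n × ℝ => p.1 * uu h1 ((2 : ℝ) ^ (-b) * p.2) := by
    unfold cv NScD_395.dl
    have h := Measure.map_prod_map κ0 uni measurable_id hu
    rw [Measure.map_id] at h
    rw [h, Measure.map_map measurable_mul₂ (measurable_id.prodMap hu)]
    rfl
  have hm : Measurable fun p : SLR n × ℝ => p.1 * uu h1 ((2 : ℝ) ^ (-b) * p.2) :=
    measurable_fst.mul (hu.comp measurable_snd)
  rw [e1]
  unfold stp
  have h := Measure.map_prod_map μ (κ0.prod uni) measurable_id hm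
  rw [Measure.map_id] at h
  rw [h, Measure.map_map measurable_act₂ (measurable_id.prodMap hm)]
  rfl

theorem tt_law (μ : Measure (ModSpace n)) (κ0 : Measure (SLR n)) [IsProbabilityMeasure μ]
    [IsProbabilityMeasure κ0] {bs bt : ℕ} (hbs : 0 < bs) (hbt : 0 < bt) :
    tt (MM (lab μ κ0 h1 b bt) (VV h2 h3 a c bs)) = (PQ μ κ0).map (OB h1 h2 h3 b a c) := by
  rw [tt_MM, NScD_395.tot_lab_eq μ κ0 h1 b hbt, tot_VV h2 h3 a c hbs, stp_dl]
  have hf : Measurable fun x : ModSpace n × (SLR n × ℝ) =>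
      act x.1 (x.2.1 * uu h1 ((2 : ℝ) ^ (-b) * x.2.2)) :=
    measurable_act₂.comp (measurable_fst.prodMk ((measurable_fst.comp measurable_snd).mul
      ((NScD_395.measurable_uuw h1 b).comp (measurable_snd.comp measurable_snd))))
  rw [Measure.map_prod_map _ _ hf (measurable_WW h2 h3 a c),
    Measure.map_map measurable_KP (hf.prodMap (measurable_WW h2 h3 a c))]
  have s1 := Measure.prodAssoc_prod (μ := κ0) (ν := uni) (τ := uni.prod uni)
  have s2 := Measure.prodAssoc_prod (μ := μ) (ν := κ0.prod uni) (τ := uni.prod uni)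
  have ma : Measurable (MeasurableEquiv.prodAssoc : (SLR n × ℝ) × (ℝ × ℝ) ≃ᵐ SLR n × ℝ × ℝ × ℝ) :=
    MeasurableEquiv.prodAssoc.measurable
  have mb : Measurable (MeasurableEquiv.prodAssoc :
      (ModSpace n × (SLR n × ℝ)) × (ℝ × ℝ) ≃ᵐ ModSpace n × ((SLR n × ℝ) × (ℝ × ℝ))) :=
    MeasurableEquiv.prodAssoc.measurable
  have s3 : PQ μ κ0 = ((μ.prod (κ0.prod uni)).prod (uni.prod uni)).map
      ((Prod.map id MeasurableEquiv.prodAssoc) ∘ MeasurableEquiv.prodAssoc) := by
    rw [← Measure.map_map (measurable_id.prodMap ma) mb, s2]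
    have h := Measure.map_prod_map μ ((κ0.prod uni).prod (uni.prod uni)) measurable_id ma
    rw [Measure.map_id, s1] at h
    unfold PQ
    exact h
  rw [s3, Measure.map_map (measurable_OB h1 h2 h3 b a c) ((measurable_id.prodMap ma).comp mb)]
  congr 1
  funext x
  simp only [Function.comp_apply, KP, WW, OB, Prod.map, MeasurableEquiv.prodAssoc,
    MeasurableEquiv.coe_mk, Equiv.prodAssoc_apply, id_eq, act_act, mul_assoc]

end

end Crest.Agent.R014.DEnd4_935
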