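import Crest.Agent.R014.DEnd4c_935

/-!
# Row 14, block D, END: `nz (lab ..) (tot (VV ..)) KK` as a step by `dl * dl` (helper935)
-/

set_option autoImplicit false

open MeasureTheory Crest.NumberTheoryR.Packets
open Crest.Agent.R014.Nd_837 Crest.Agent.R014.Ne1_567 Crest.Agent.R014.NScB_395
open Crest.Agent.R014.NScC_395 Crest.Agent.R014.Sw1_640 Crest.Agent.R014.DEnd2_935
open Crest.Agent.R014.DEnd3_935 Crest.Agent.R014.Ms_667
open Crest.Agent.R014.Ne3_567 (pv measurable_pv pv_nonneg sum_pv pv_le_one pv_eq)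
open Crest.Agent.R014.NScD_395 (dl)
open scoped ENNReal BigOperators

namespace Crest.Agent.R014.DEnd4_935

variable {n : ℕ} {j k p' q' : Fin n}

theorem map_fst_VV (hjk : j ≠ k) (hjl : p' ≠ q') (a c : ℝ) {b : ℕ} (hb : 0 < b) :
    (tot (VV (n := n) hjk hjl a c b)).map Prod.fst = cv (dl hjk a) (dl hjl c) := by
  rw [tot_VV hjk hjl a c hb, Measure.map_map measurable_fst (measurable_WW hjk hjl a c)]
  have h1 : Measurable fun θ : ℝ => (uu hjk ((2 : ℝ) ^ (-a) * θ) : SLR n) :=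
    NScD_395.measurable_uuw hjk a
  have h2 : Measurable fun θ : ℝ => (uu hjl ((2 : ℝ) ^ (-c) * θ) : SLR n) :=
    NScD_395.measurable_uuw hjl c
  unfold cv dl
  rw [Measure.map_prod_map _ _ h1 h2, Measure.map_map measurable_mul₂ (h1.prodMap h2)]
  rfl

theorem nz_KK {κ : Type*} [Fintype κ] (ρ : κ → Measure (ModSpace n)) [∀ d, IsFiniteMeasure (ρ d)]
    (hjk : j ≠ k) (hjl : p' ≠ q') (a c : ℝ) {b : ℕ} (hb : 0 < b) (d : κ) :
    nz ρ (tot (VV hjk hjl a c b)) KK d = stp (ρ d) (cv (dl hjk a) (dl hjl c)) := by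
  have hp : IsProbabilityMeasure (tot (VV (n := n) hjk hjl a c b)) := prob_VV hjk hjl a c hb
  rw [← map_fst_VV hjk hjl a c hb]
  unfold nz stp
  have h := Measure.map_prod_map (ρ d) (tot (VV (n := n) hjk hjl a c b)) measurable_id
    (measurable_fst (α := SLR n) (β := ℝ))
  rw [Measure.map_id] at h
  rw [h, Measure.map_map measurable_act₂ (measurable_id.prodMap measurable_fst)]
  rfl

/-- the posterior with the noise after the cell -/
theorem PP_eq {κ : Type*} [Fintype κ] (ρ : κ → Measure (ModSpace n)) [∀ d, IsFiniteMeasure (ρ d)]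
    (hjk : j ≠ k) (hjl : p' ≠ q') (a c : ℝ) {b : ℕ} (hb : 0 < b) :
    PP ρ (VV hjk hjl a c b) = pv fun d => stp (ρ d) (cv (dl hjk a) (dl hjl c)) := by
  have h : nz ρ (tot (VV hjk hjl a c b)) KK = fun d => stp (ρ d) (cv (dl hjk a) (dl hjl c)) :=
    funext fun d => nz_KK ρ hjk hjl a c hb d
  funext d z
  unfold PP
  rw [h]

theorem map_fst_KP (ν : Measure (ModSpace n)) [IsFiniteMeasure ν] (hjk : j ≠ k) (hjl : p' ≠ q')
    (a c : ℝ) {b : ℕ} (hb : 0 < b) :
    (ν.prod (tot (VV hjk hjl a c b))).map (Prod.fst ∘ KP) = stp ν (cv (dl hjk a) (dl hjl c)) := by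
  have hp : IsProbabilityMeasure (tot (VV (n := n) hjk hjl a c b)) := prob_VV hjk hjl a c hb
  rw [← map_fst_VV hjk hjl a c hb]
  unfold stp
  have h := Measure.map_prod_map ν (tot (VV (n := n) hjk hjl a c b)) measurable_id
    (measurable_fst (α := SLR n) (β := ℝ))
  rw [Measure.map_id] at h
  rw [h, Measure.map_map measurable_act₂ (measurable_id.prodMap measurable_fst)]
  rfl

/-- the law of `z` -/
theorem tt_fst (μ : Measure (ModSpace n)) (κ0 : Measure (SLR n)) [IsProbabilityMeasure μ]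
    [IsProbabilityMeasure κ0] {i1 j1 i2 j2 i3 j3 : Fin n} (h1 : i1 ≠ j1) (h2 : i2 ≠ j2)
    (h3 : i3 ≠ j3) (b a c : ℝ) {bs bt : ℕ} (hbs : 0 < bs) (hbt : 0 < bt) :
    (tt (MM (lab μ κ0 h1 b bt) (VV h2 h3 a c bs))).map Prod.fst
      = stp μ (cv κ0 (cv (dl h1 b) (cv (dl h2 a) (dl h3 c)))) := by
  have hp : IsProbabilityMeasure (tot (VV (n := n) h2 h3 a c bs)) := prob_VV h2 h3 a c hbs
  rw [tt_MM, Measure.map_map measurable_fst measurable_KP, NScD_395.tot_lab_eq μ κ0 h1 b hbt,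
    map_fst_KP (stp μ (cv κ0 (dl h1 b))) h2 h3 a c hbs, stp_stp, cv_assoc]

end Crest.Agent.R014.DEnd4_935
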