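import Crest.Agent.R014.Esc3_296

/-!
# R014/Esc4_296 : right uniformly continuous functions, near invariance and **no escape of mass**
(leaf NOESC, helper296)

* `RUC f` : bounded and right uniformly continuous.
* `NearInv μ` : asymptotic invariance under all elementary matrices, tested on `RUC` functions.
* `esc` : `NearInv` + diagonal invariance ⟹ no escape of mass.
-/

set_option autoImplicit false

open MeasureTheory Filter Topology
open Crest.NumberTheoryR.Packets Crest.Agent.R014.Ms_667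
open scoped InnerProductSpace

namespace Crest.Agent.R014.Esc_296

variable {n : ℕ}

/-- bounded, right uniformly continuous functions. -/
def RUC (f : ModSpace n → ℝ) : Prop :=
  (∃ B : ℝ, ∀ x, |f x| ≤ B) ∧
    ∀ ε : ℝ, 0 < ε → ∃ O ∈ 𝓝 (1 : SLR n), ∀ x, ∀ h ∈ O, |f (act x h) - f x| ≤ ε

lemma RUC.continuous {f : ModSpace n → ℝ} (hf : RUC f) : Continuous f := by
  rw [← isOpenQuotientMap_q.continuous_comp_iff]
  rw [continuous_iff_continuousAt]
  intro g
  rw [Metric.continuousAt_iff']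
  intro ε hε
  obtain ⟨O, hO, h⟩ := hf.2 (ε / 2) (half_pos hε)
  have hcont : ContinuousAt (fun g' : SLR n => g⁻¹ * g') g :=
    (continuous_const.mul continuous_id).continuousAt
  have h1 : (fun g' : SLR n => g⁻¹ * g') ⁻¹' O ∈ 𝓝 g :=
    hcont.preimage_mem_nhds (by rw [inv_mul_cancel]; exact hO)
  filter_upwards [h1] with g' hg'
  have h2 := h (q g) (g⁻¹ * g') hg'
  rw [act_q, mul_inv_cancel_left] at h2
  show dist (f (q g')) (f (q g)) < ε
  rw [Real.dist_eq]
  linarith

lemma RUC.integrable {f : ModSpace n → ℝ} (hf : RUC f) (μ : Measure (ModSpace n))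
    [IsFiniteMeasure μ] : Integrable f μ := by
  obtain ⟨B, hB⟩ := hf.1
  exact Integrable.of_bound hf.continuous.aestronglyMeasurable B
    (Eventually.of_forall fun x => by rw [Real.norm_eq_abs]; exact hB x)

lemma RUC.comp_act {f : ModSpace n → ℝ} (hf : RUC f) (g : SLR n) :
    RUC fun x => f (act x g) := by
  refine ⟨hf.1.imp fun B hB x => hB _, fun ε hε => ?_⟩
  obtain ⟨O, hO, h⟩ := hf.2 ε hε
  have hcont : ContinuousAt (fun h : SLR n => g⁻¹ * h * g) 1 :=
    ((continuous_const.mul continuous_id).mul continuous_const).continuousAt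
  refine ⟨(fun h : SLR n => g⁻¹ * h * g) ⁻¹' O,
    hcont.preimage_mem_nhds (by simpa using hO), fun x k hk => ?_⟩
  have h2 := h (act x g) (g⁻¹ * k * g) hk
  rw [act_act] at h2
  show |f (act (act x k) g) - f (act x g)| ≤ ε
  rw [act_act]
  have e : g * (g⁻¹ * k * g) = k * g := by group
  rwa [e] at h2

/-- `μ` is asymptotically invariant under `g`, tested on `RUC` functions. -/
def NearInvAt (μ : ℕ → Measure (ModSpace n)) (g : SLR n) : Prop :=
  ∀ f : ModSpace n → ℝ, RUC f →
    Tendsto (fun k => ∫ x, f (act x g) ∂(μ k) - ∫ x, f x ∂(μ k)) atTop (𝓝 0)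

/-- asymptotic invariance under all elementary matrices. -/
def NearInv (μ : ℕ → Measure (ModSpace n)) : Prop :=
  ∀ (i j : Fin n) (hij : i ≠ j) (s : ℝ), NearInvAt μ (U i j hij s)

lemma NearInvAt.mul {μ : ℕ → Measure (ModSpace n)} {g h : SLR n} (hg : NearInvAt μ g)
    (hh : NearInvAt μ h) : NearInvAt μ (g * h) := by
  intro f hf
  have h1 := (hg _ (hf.comp_act h)).add (hh f hf)
  rw [add_zero] at h1
  refine h1.congr fun k => ?_
  simp only [act_act]
  ring

lemma NearInv.rot {μ : ℕ → Measure (ModSpace n)} (hμ : NearInv μ) (i j : Fin n) (hij : i ≠ j) :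
    NearInvAt μ (rot i j hij) :=
  ((hμ i j hij s1).mul (hμ j i hij.symm c2)).mul (hμ i j hij s1)

/-! ### the weights -/

/-- cut-off in the gap. -/
noncomputable def ww (R t : ℝ) : ℝ := max 0 (min 1 (t / R - 1))

lemma ww_nonneg (R t : ℝ) : 0 ≤ ww R t := le_max_left _ _

lemma ww_le_one (R t : ℝ) : ww R t ≤ 1 := max_le zero_le_one (min_le_left _ _)

lemma ww_eq_zero {R t : ℝ} (hR : 0 < R) (ht : t ≤ R) : ww R t = 0 := by
  unfold ww
  refine max_eq_left ((min_le_right _ _).trans ?_)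
  rw [sub_nonpos, div_le_one hR]
  exact ht

lemma ww_eq_one {R t : ℝ} (hR : 0 < R) (ht : 2 * R ≤ t) : ww R t = 1 := by
  unfold ww
  have h1 : 1 ≤ t / R - 1 := by
    rw [le_sub_iff_add_le, le_div_iff₀ hR]
    linarith
  rw [min_eq_left h1, max_eq_right zero_le_one]

lemma lt_of_ww_ne_zero {R t : ℝ} (hR : 0 < R) (h : ww R t ≠ 0) : R < t := by
  by_contra hcon
  exact h (ww_eq_zero hR (not_lt.1 hcon))

lemma abs_ww_sub (R s t : ℝ) (hR : 0 < R) : |ww R s - ww R t| ≤ |s - t| / R := by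
  unfold ww
  refine (abs_max_sub_max_le_max _ _ _ _).trans ?_
  rw [sub_self, abs_zero]
  refine max_le (by positivity) ((abs_min_sub_min_le_max _ _ _ _).trans ?_)
  rw [sub_self, abs_zero]
  refine max_le (by positivity) ?_
  have : s / R - 1 - (t / R - 1) = (s - t) / R := by ring
  rw [this, abs_div, abs_of_pos hR]

/-- test functions. -/
noncomputable def tf (φ : Submodule ℝ (EV n) → ℝ) (R : ℝ) (k : ℕ) (x : ModSpace n) : ℝ :=
  ww R (gap x k) * φ (Vk x k)

/-- uniform right continuity on subspaces. -/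
def UC (φ : Submodule ℝ (EV n) → ℝ) : Prop :=
  ∀ ε : ℝ, 0 < ε → ∃ O ∈ 𝓝 (1 : SLR n), ∀ h ∈ O, ∀ V, |φ (V.map (Rl h)) - φ V| ≤ ε

lemma ruc_tf {φ : Submodule ℝ (EV n) → ℝ} (hb : ∀ V, |φ V| ≤ 1) (hc : UC φ) {R : ℝ}
    (hR : 0 < R) {k : ℕ} (hk0 : 0 < k) (hk : k < n) : RUC (tf φ R k) := by
  refine ⟨⟨1, fun x => ?_⟩, fun ε hε => ?_⟩
  · unfold tf
    rw [abs_mul, abs_of_nonneg (ww_nonneg _ _)]
    exact mul_le_one₀ (ww_le_one _ _) (abs_nonneg _) (hb _)
  obtain ⟨O, hO, h⟩ := hc (ε / 2) (half_pos hε)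
  have hpos : 0 < min (R / 4) (ε * R / 2) := by positivity
  have h1 : {h : SLR n | cc h < min (R / 4) (ε * R / 2)} ∈ 𝓝 (1 : SLR n) :=
    (continuous_cc (n := n)).continuousAt.preimage_mem_nhds
      (by rw [cc_one]; exact Iio_mem_nhds hpos)
  refine ⟨O ∩ {h : SLR n | cc h < min (R / 4) (ε * R / 2)}, inter_mem hO h1, ?_⟩
  rintro x g ⟨hgO, hg⟩
  have hg1 : cc g < R / 4 := lt_of_lt_of_le hg (min_le_left _ _)
  have hg2 : cc g < ε * R / 2 := lt_of_lt_of_le hg (min_le_right _ _)
  have hgap := abs_gap_act x g hk0 hk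
  unfold tf
  by_cases hcase : 2 * cc g < gap x k
  · rw [Vk_act hk0 hk hcase]
    have e1 : ww R (gap (act x g) k) * φ ((Vk x k).map (Rl g)) - ww R (gap x k) * φ (Vk x k)
        = (ww R (gap (act x g) k) - ww R (gap x k)) * φ ((Vk x k).map (Rl g))
          + ww R (gap x k) * (φ ((Vk x k).map (Rl g)) - φ (Vk x k)) := by ring
    rw [e1]
    refine (abs_add_le _ _).trans ?_
    rw [abs_mul, abs_mul]
    have e2 : |ww R (gap (act x g) k) - ww R (gap x k)| ≤ ε / 2 := by
      refine (abs_ww_sub R _ _ hR).trans ?_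
      rw [div_le_iff₀ hR]
      linarith
    have e3 := h g hgO (Vk x k)
    have e4 : |ww R (gap x k)| ≤ 1 := by
      rw [abs_of_nonneg (ww_nonneg _ _)]; exact ww_le_one _ _
    have e5 := hb ((Vk x k).map (Rl g))
    have e6 := mul_le_mul e2 e5 (abs_nonneg _) (by positivity)
    have e7 := mul_le_mul e4 e3 (abs_nonneg _) zero_le_one
    linarith
  · push Not at hcase
    rw [abs_le] at hgap
    have z1 : ww R (gap x k) = 0 := ww_eq_zero hR (by linarith)
    have z2 : ww R (gap (act x g) k) = 0 := ww_eq_zero hR (by linarith [hgap.2])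
    rw [z1, z2]
    simp [hε.le]

lemma uc_pm (i j : Fin n) : UC fun V : Submodule ℝ (EV n) => pm V i j := by
  intro ε hε
  have hc : Continuous fun h : SLR n =>
      max ‖Rc h - ContinuousLinearMap.id ℝ (EV n)‖ ‖Rc h⁻¹ - ContinuousLinearMap.id ℝ (EV n)‖ :=
    ((continuous_Rc.sub continuous_const).norm).max
      (((continuous_Rc.comp continuous_inv).sub continuous_const).norm)
  have h1 : {h : SLR n | max ‖Rc h - ContinuousLinearMap.id ℝ (EV n)‖
      ‖Rc h⁻¹ - ContinuousLinearMap.id ℝ (EV n)‖ < ε / 2} ∈ 𝓝 (1 : SLR n) :=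
    hc.continuousAt.preimage_mem_nhds (by
      rw [inv_one, Rc_one, sub_self, norm_zero, max_self]
      exact Iio_mem_nhds (half_pos hε))
  refine ⟨_, h1, fun h hh V => ?_⟩
  have hh1 : ‖Rc h - ContinuousLinearMap.id ℝ (EV n)‖ < ε / 2 := (le_max_left _ _).trans_lt hh
  have hh2 : ‖Rc h⁻¹ - ContinuousLinearMap.id ℝ (EV n)‖ < ε / 2 := (le_max_right _ _).trans_lt hh
  have key := abs_pm_sub_le V (V.map (Rl h)) (ε / 2) ?_ ?_ (by positivity) i j
  · linarith
  · intro v hv
    refine ⟨Rc h v, ⟨v, hv, rfl⟩, ?_⟩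
    have e : v - Rc h v = -((Rc h - ContinuousLinearMap.id ℝ (EV n)) v) := by simp
    rw [e, norm_neg]
    exact (ContinuousLinearMap.le_opNorm _ _).trans
      (mul_le_mul_of_nonneg_right hh1.le (norm_nonneg _))
  · rintro _ ⟨v, hv, rfl⟩
    refine ⟨v, hv, ?_⟩
    have e : Rl h v - v = -((Rc h⁻¹ - ContinuousLinearMap.id ℝ (EV n)) (Rl h v)) := by
      show Rc h v - v = -(Rc h⁻¹ (Rc h v) - Rc h v)
      rw [Rc_inv_apply]; abel
    rw [e, norm_neg]
    exact (ContinuousLinearMap.le_opNorm _ _).trans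
      (mul_le_mul_of_nonneg_right hh2.le (norm_nonneg _))

lemma uc_sq {φ : Submodule ℝ (EV n) → ℝ} (hb : ∀ V, |φ V| ≤ 1) (hc : UC φ) :
    UC fun V => φ V ^ 2 := by
  intro ε hε
  obtain ⟨O, hO, h⟩ := hc (ε / 2) (half_pos hε)
  refine ⟨O, hO, fun g hg V => ?_⟩
  have e : φ (V.map (Rl g)) ^ 2 - φ V ^ 2
      = (φ (V.map (Rl g)) - φ V) * (φ (V.map (Rl g)) + φ V) := by ring
  rw [e, abs_mul]
  have h1 := h g hg V
  have h2 : |φ (V.map (Rl g)) + φ V| ≤ 2 := by
    refine (abs_add_le _ _).trans ?_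
    have := hb V; have := hb (V.map (Rl g)); linarith
  have h3 := mul_le_mul h1 h2 (abs_nonneg _) (by positivity)
  linarith

lemma uc_const (c : ℝ) : UC fun _ : Submodule ℝ (EV n) => c := by
  intro ε hε
  exact ⟨Set.univ, univ_mem, fun _ _ _ => by simp [hε.le]⟩

/-! ### the torus element -/

/-- `diag(2^{n-1} at i, 1/2 elsewhere)`. -/
noncomputable def tor (i : Fin n) : SLR n :=
  ⟨Matrix.diagonal fun j => if j = i then (2 : ℝ) ^ (n - 1) else (1 / 2 : ℝ), by
    rw [Matrix.det_diagonal, Finset.prod_ite]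
    have h1 : (Finset.univ.filter fun j : Fin n => j = i) = {i} := by
      ext j; simp
    have h2 : (Finset.univ.filter fun j : Fin n => ¬ j = i).card = n - 1 := by
      have : (Finset.univ.filter fun j : Fin n => ¬ j = i) = Finset.univ.erase i := by
        ext j; simp
      rw [this, Finset.card_erase_of_mem (Finset.mem_univ i), Finset.card_univ, Fintype.card_fin]
    rw [h1, Finset.prod_singleton, Finset.prod_const, h2, ← mul_pow]
    norm_num⟩

lemma Rc_tor (i : Fin n) (v : EV n) (j : Fin n) :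
    Rc (tor i) v j = (if j = i then (2 : ℝ) ^ (n - 1) else (1 / 2 : ℝ)) * v j := by
  rw [Rc_apply]
  have h1 : ∀ l, v l * (tor i).1 l j
      = if l = j then (if j = i then (2 : ℝ) ^ (n - 1) else (1 / 2 : ℝ)) * v j else 0 := by
    intro l
    show v l * (Matrix.diagonal _) l j = _
    rw [Matrix.diagonal_apply]
    by_cases h : l = j
    · subst h; simp [mul_comm]
    · simp [h]
  rw [Finset.sum_congr rfl fun l _ => h1 l, Finset.sum_ite_eq']
  simp

/-- the contraction inequality for the diagonal entries. -/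
lemma pm_tor_ge (V : Submodule ℝ (EV n)) (i : Fin n) :
    pm V i i + 3 / 4 * (pm V i i * (1 - pm V i i)) ≤ pm (V.map (Rl (tor i))) i i := by
  have h := pm_torus V i (tor i) ((2 : ℝ) ^ (n - 1)) (1 / 2) (by positivity) (by norm_num)
    (Rc_tor i)
  rw [h]
  set y := pm V i i
  have hy0 : 0 ≤ y := pm_self_nonneg V i
  have hy1 : y ≤ 1 := pm_self_le_one V i
  set α : ℝ := (2 : ℝ) ^ (n - 1)
  have hα : 1 ≤ α := one_le_pow₀ (by norm_num)
  have hα2 : 1 ≤ α ^ 2 := one_le_pow₀ hα
  have hD : 0 < α ^ 2 * y + (1 / 2) ^ 2 * (1 - y) := by nlinarith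
  rw [le_div_iff₀ hD]
  have hz : 0 ≤ y * (1 - y) := mul_nonneg hy0 (by linarith)
  -- α²y - y·D - 3/4 y(1-y) D ≥ 0
  have e1 : α ^ 2 * y - y * (α ^ 2 * y + (1 / 2) ^ 2 * (1 - y))
      = y * (1 - y) * (α ^ 2 - 1 / 4) := by ring
  have e2 : α ^ 2 * y + (1 / 2) ^ 2 * (1 - y) ≤ α ^ 2 := by nlinarith
  nlinarith [mul_le_mul_of_nonneg_left e2 hz, mul_nonneg hz (by linarith : (0:ℝ) ≤ α ^ 2 - 1)]

/-! ### integral estimates -/

section Est

variable {μ : Measure (ModSpace n)} [IsProbabilityMeasure μ]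

omit [IsProbabilityMeasure μ] in
lemma integral_act_eq {g : SLR n} (hinv : Measure.map (fun x => act x g) μ = μ)
    {f : ModSpace n → ℝ} (hf : RUC f) : ∫ x, f (act x g) ∂μ = ∫ x, f x ∂μ := by
  conv_rhs => rw [← hinv]
  exact (integral_map (measurable_act g).aemeasurable
    (hf.continuous.aestronglyMeasurable)).symm

/-- torus step. -/
lemma torus_step (i : Fin n) (hinv : Measure.map (fun x => act x (tor i)) μ = μ) {R : ℝ}
    (hR : 0 < R) (hR2 : 2 * cc (tor i) ≤ R) {k : ℕ} (hk0 : 0 < k) (hk : k < n) :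
    ∫ x, tf (fun V => pm V i i * (1 - pm V i i)) R k x ∂μ ≤ 4 / 3 * (cc (tor i) / R) := by
  have hb1 : ∀ V : Submodule ℝ (EV n), |pm V i i| ≤ 1 := fun V => abs_pm_le_one V i i
  have r1 : RUC (tf (fun V => pm V i i) R k) := ruc_tf hb1 (uc_pm i i) hR hk0 hk
  have r2 : RUC (tf (fun V => pm V i i ^ 2) R k) :=
    ruc_tf (fun V => by rw [abs_pow]; exact pow_le_one₀ (abs_nonneg _) (hb1 V))
      (uc_sq hb1 (uc_pm i i)) hR hk0 hk
  have hpt : ∀ x, 3 / 4 * (tf (fun V => pm V i i) R k x - tf (fun V => pm V i i ^ 2) R k x)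
      - cc (tor i) / R ≤ tf (fun V => pm V i i) R k (act x (tor i))
        - tf (fun V => pm V i i) R k x := by
    intro x
    have hgap := abs_gap_act x (tor i) hk0 hk
    by_cases hw : ww R (gap x k) = 0
    · have e1 : 0 ≤ tf (fun V => pm V i i) R k (act x (tor i)) :=
        mul_nonneg (ww_nonneg _ _) (pm_self_nonneg _ _)
      have e2 : 0 ≤ cc (tor i) / R := div_nonneg (cc_nonneg _) hR.le
      unfold tf at *
      rw [hw]
      linarith
    · have hlt := lt_of_ww_ne_zero hR hw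
      have hV := Vk_act (x := x) (h := tor i) hk0 hk (by linarith)
      have h1 := pm_tor_ge (Vk x k) i
      have h2 := abs_ww_sub R (gap (act x (tor i)) k) (gap x k) hR
      have h3 : |gap (act x (tor i)) k - gap x k| / R ≤ cc (tor i) / R :=
        div_le_div_of_nonneg_right hgap hR.le
      have h4 : ww R (gap x k) - cc (tor i) / R ≤ ww R (gap (act x (tor i)) k) := by
        have := (abs_le.1 (h2.trans h3)).1
        linarith
      unfold tf
      rw [hV]
      set y' := pm ((Vk x k).map (Rl (tor i))) i i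
      set y := pm (Vk x k) i i
      have hy'0 : 0 ≤ y' := pm_self_nonneg _ _
      have hy'1 : y' ≤ 1 := pm_self_le_one _ _
      have hw0 := ww_nonneg R (gap x k)
      have hc0 : 0 ≤ cc (tor i) / R := div_nonneg (cc_nonneg _) hR.le
      have h5 : (ww R (gap x k) - cc (tor i) / R) * y'
          ≤ ww R (gap (act x (tor i)) k) * y' := mul_le_mul_of_nonneg_right h4 hy'0
      have h6 : ww R (gap x k) * (y + 3 / 4 * (y * (1 - y))) ≤ ww R (gap x k) * y' :=
        mul_le_mul_of_nonneg_left h1 hw0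
      have h7 : cc (tor i) / R * y' ≤ cc (tor i) / R := mul_le_of_le_one_right hc0 hy'1
      nlinarith
  have hint := integral_mono
    (((r1.integrable μ).sub (r2.integrable μ)).const_mul (3 / 4) |>.sub
      (integrable_const (cc (tor i) / R)))
    (((r1.comp_act (tor i)).integrable μ).sub (r1.integrable μ)) hpt
  have e1 : ∫ x, (tf (fun V => pm V i i) R k (act x (tor i))
      - tf (fun V => pm V i i) R k x) ∂μ = 0 := by
    rw [integral_sub ((r1.comp_act (tor i)).integrable μ) (r1.integrable μ),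
      integral_act_eq hinv r1, sub_self]
  have e2 : ∫ x, tf (fun V => pm V i i * (1 - pm V i i)) R k x ∂μ
      = ∫ x, (tf (fun V => pm V i i) R k x - tf (fun V => pm V i i ^ 2) R k x) ∂μ := by
    refine integral_congr_ae (Eventually.of_forall fun x => ?_)
    simp only [tf]
    ring
  have e3 : ∫ x, (3 / 4 * (tf (fun V => pm V i i) R k x - tf (fun V => pm V i i ^ 2) R k x)
      - cc (tor i) / R) ∂μ
      = 3 / 4 * ∫ x, (tf (fun V => pm V i i) R k x - tf (fun V => pm V i i ^ 2) R k x) ∂μ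
        - cc (tor i) / R := by
    have hi : Integrable (fun x => 3 / 4 * (tf (fun V => pm V i i) R k x
        - tf (fun V => pm V i i ^ 2) R k x)) μ :=
      ((r1.integrable μ).sub (r2.integrable μ)).const_mul (3 / 4)
    rw [integral_sub hi (integrable_const _), integral_const_mul, integral_const]
    simp
  rw [e2]
  have hint' : ∫ x, (3 / 4 * (tf (fun V => pm V i i) R k x - tf (fun V => pm V i i ^ 2) R k x)
      - cc (tor i) / R) ∂μ ≤ ∫ x, (tf (fun V => pm V i i) R k (act x (tor i))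
      - tf (fun V => pm V i i) R k x) ∂μ := hint
  rw [e1, e3] at hint'
  linarith

/-- rotation step. -/
lemma rot_step (i j : Fin n) (hij : i ≠ j) {R : ℝ} (hR : 0 < R) {k : ℕ} (hk0 : 0 < k)
    (hk : k < n) {δ : ℝ}
    (hδ : |∫ x, tf (fun V => pm V i j ^ 2) R k (act x (rot i j hij)) ∂μ
      - ∫ x, tf (fun V => pm V i j ^ 2) R k x ∂μ| ≤ δ) :
    ∫ x, tf (fun V => (pm V i i - pm V j j) ^ 2) R k x ∂μ
      ≤ 4 * ∫ x, tf (fun V => pm V i i * (1 - pm V i i)) R k x ∂μ + 4 * δ := by
  have hb1 : ∀ (a b : Fin n) (V : Submodule ℝ (EV n)), |pm V a b| ≤ 1 :=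
    fun a b V => abs_pm_le_one V a b
  have hb2 : ∀ (a b : Fin n) (V : Submodule ℝ (EV n)), |pm V a b ^ 2| ≤ 1 :=
    fun a b V => by rw [abs_pow]; exact pow_le_one₀ (abs_nonneg _) (hb1 a b V)
  have r0 : RUC (tf (fun V => pm V i i) R k) := ruc_tf (hb1 i i) (uc_pm i i) hR hk0 hk
  have r2 : RUC (tf (fun V => pm V i i ^ 2) R k) :=
    ruc_tf (hb2 i i) (uc_sq (hb1 i i) (uc_pm i i)) hR hk0 hk
  have r1 : RUC (tf (fun V => pm V i j ^ 2) R k) :=
    ruc_tf (hb2 i j) (uc_sq (hb1 i j) (uc_pm i j)) hR hk0 hk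
  have e1 : ∀ x, tf (fun V => pm V i j ^ 2) R k (act x (rot i j hij))
      = tf (fun V => (pm V i i - pm V j j) ^ 2) R k x / 4 := by
    intro x
    have hcc := cc_of_isometry (rot_isometry i j hij)
    have hgap := abs_gap_act x (rot i j hij) hk0 hk
    rw [hcc] at hgap
    have hge : gap (act x (rot i j hij)) k = gap x k := by
      have := abs_nonpos_iff.1 hgap
      linarith
    unfold tf
    rw [hge]
    by_cases hw : ww R (gap x k) = 0
    · rw [hw]; simp
    · have hlt := lt_of_ww_ne_zero hR hw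
      rw [Vk_act (x := x) (h := rot i j hij) hk0 hk (by rw [hcc]; linarith)]
      show ww R (gap x k) * (pm ((Vk x k).map (Rl (rot i j hij))) i j) ^ 2
        = ww R (gap x k) * (pm (Vk x k) i i - pm (Vk x k) j j) ^ 2 / 4
      rw [pm_rot]
      ring
  have e2 : ∫ x, tf (fun V => pm V i j ^ 2) R k (act x (rot i j hij)) ∂μ
      = (∫ x, tf (fun V => (pm V i i - pm V j j) ^ 2) R k x ∂μ) / 4 := by
    rw [integral_congr_ae (Eventually.of_forall e1), integral_div]
  have e3 : ∫ x, tf (fun V => pm V i j ^ 2) R k x ∂μ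
      ≤ ∫ x, tf (fun V => pm V i i * (1 - pm V i i)) R k x ∂μ := by
    refine integral_mono (r1.integrable μ) ?_ fun x => ?_
    · refine ((r0.integrable μ).sub (r2.integrable μ)).congr (Eventually.of_forall fun x => ?_)
      simp only [tf, Pi.sub_apply]; ring
    · exact mul_le_mul_of_nonneg_left (sq_pm_le _ hij) (ww_nonneg _ _)
  rw [e2] at hδ
  have := (abs_le.1 hδ).2
  linarith

/-- the total estimate for one gap. -/
lemma gap_est (hn : 0 < n) (hinv : ∀ i : Fin n, Measure.map (fun x => act x (tor i)) μ = μ)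
    {R C : ℝ}
    (hR : 0 < R) (hC : ∀ i : Fin n, cc (tor i) ≤ C) (hR2 : 2 * C ≤ R) {k : ℕ} (hk0 : 0 < k)
    (hk : k < n) {δ : ℝ}
    (hδ : ∀ i j hij, |∫ x, tf (fun V => pm V i j ^ 2) R k (act x (rot i j hij)) ∂μ
      - ∫ x, tf (fun V => pm V i j ^ 2) R k x ∂μ| ≤ δ) :
    ∫ x, ww R (gap x k) ∂μ ≤ (n : ℝ) ^ 2 * (4 * (C / R) + 2 * δ) := by
  have hb1 : ∀ (a b : Fin n) (V : Submodule ℝ (EV n)), |pm V a b| ≤ 1 :=
    fun a b V => abs_pm_le_one V a b
  have hb2 : ∀ (a b : Fin n) (V : Submodule ℝ (EV n)), |pm V a b ^ 2| ≤ 1 :=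
    fun a b V => by rw [abs_pow]; exact pow_le_one₀ (abs_nonneg _) (hb1 a b V)
  have hnn : (0 : ℝ) < n := by exact_mod_cast hn
  have rw1 : RUC (tf (fun _ => (1 : ℝ)) R k) :=
    ruc_tf (fun _ => by simp) (uc_const 1) hR hk0 hk
  have hδ0 : 0 ≤ δ := by
    by_cases h2 : ∃ i j : Fin n, i ≠ j
    · obtain ⟨i, j, hij⟩ := h2
      exact (abs_nonneg _).trans (hδ i j hij)
    · exfalso
      push Not at h2
      have : (⟨0, hn⟩ : Fin n) = ⟨k, hk⟩ := h2 _ _
      have := congrArg Fin.val this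
      simp at this
      omega
  have hA : ∀ i : Fin n, Integrable (tf (fun V => pm V i i * (1 - pm V i i)) R k) μ := by
    intro i
    have r0 : RUC (tf (fun V => pm V i i) R k) := ruc_tf (hb1 i i) (uc_pm i i) hR hk0 hk
    have r2 : RUC (tf (fun V => pm V i i ^ 2) R k) :=
      ruc_tf (hb2 i i) (uc_sq (hb1 i i) (uc_pm i i)) hR hk0 hk
    refine ((r0.integrable μ).sub (r2.integrable μ)).congr (Eventually.of_forall fun x => ?_)
    simp only [tf, Pi.sub_apply]; ring
  have hAle : ∀ i : Fin n, ∫ x, tf (fun V => pm V i i * (1 - pm V i i)) R k x ∂μ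
      ≤ 4 / 3 * (C / R) := by
    intro i
    refine (torus_step i (hinv i) hR (by linarith [hC i]) hk0 hk).trans ?_
    have := div_le_div_of_nonneg_right (hC i) hR.le
    linarith
  have hB : ∀ i j : Fin n, Integrable (tf (fun V => (pm V i i - pm V j j) ^ 2) R k) μ := by
    intro i j
    have r0 : RUC (tf (fun V => pm V i i) R k) := ruc_tf (hb1 i i) (uc_pm i i) hR hk0 hk
    have r0' : RUC (tf (fun V => pm V j j) R k) := ruc_tf (hb1 j j) (uc_pm j j) hR hk0 hk
    refine Integrable.of_bound (C := 4) ?_ (Eventually.of_forall fun x => ?_)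
    · -- measurability from continuity of the constituents
      have hw : Continuous (tf (fun _ => (1 : ℝ)) R k : ModSpace n → ℝ) := rw1.continuous
      have r2 : RUC (tf (fun V => pm V i i ^ 2) R k) :=
        ruc_tf (hb2 i i) (uc_sq (hb1 i i) (uc_pm i i)) hR hk0 hk
      have r3 : RUC (tf (fun V => pm V j j ^ 2) R k) :=
        ruc_tf (hb2 j j) (uc_sq (hb1 j j) (uc_pm j j)) hR hk0 hk
      have huc : UC fun V : Submodule ℝ (EV n) => (pm V i i + pm V j j) / 2 := by
        intro ε hε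
        obtain ⟨O, hO, h⟩ := uc_pm i i ε hε
        obtain ⟨O', hO', h'⟩ := uc_pm j j ε hε
        refine ⟨O ∩ O', inter_mem hO hO', fun g hg V => ?_⟩
        have a1 := abs_le.1 (h g hg.1 V)
        have a2 := abs_le.1 (h' g hg.2 V)
        rw [abs_le]
        constructor <;> linarith [a1.1, a1.2, a2.1, a2.2]
      have hbd : ∀ V : Submodule ℝ (EV n), |(pm V i i + pm V j j) / 2| ≤ 1 := by
        intro V
        have a1 := abs_le.1 (hb1 i i V)
        have a2 := abs_le.1 (hb1 j j V)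
        rw [abs_le]
        constructor <;> linarith [a1.1, a1.2, a2.1, a2.2]
      have r4 : RUC (tf (fun V => ((pm V i i + pm V j j) / 2) ^ 2) R k) :=
        ruc_tf (fun V => by rw [abs_pow]; exact pow_le_one₀ (abs_nonneg _) (hbd V))
          (uc_sq hbd huc) hR hk0 hk
      have e : tf (fun V => (pm V i i - pm V j j) ^ 2) R k
          = fun x => 2 * tf (fun V => pm V i i ^ 2) R k x + 2 * tf (fun V => pm V j j ^ 2) R k x
            - 4 * tf (fun V => ((pm V i i + pm V j j) / 2) ^ 2) R k x := by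
        funext x
        simp only [tf]; ring
      rw [e]
      exact (((continuous_const.mul r2.continuous).add
        (continuous_const.mul r3.continuous)).sub
        (continuous_const.mul r4.continuous)).aestronglyMeasurable
    · rw [Real.norm_eq_abs]
      unfold tf
      rw [abs_mul, abs_of_nonneg (ww_nonneg _ _), abs_pow]
      have a0 := ww_nonneg R (gap x k)
      have a1 := ww_le_one R (gap x k)
      have a2 : |pm (Vk x k) i i - pm (Vk x k) j j| ≤ 2 := by
        refine (abs_sub _ _).trans ?_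
        have := hb1 i i (Vk x k); have := hb1 j j (Vk x k); linarith
      have a3 : |pm (Vk x k) i i - pm (Vk x k) j j| ^ 2 ≤ 4 := by
        nlinarith [abs_nonneg (pm (Vk x k) i i - pm (Vk x k) j j)]
      nlinarith [sq_nonneg |pm (Vk x k) i i - pm (Vk x k) j j|]
  have hBle : ∀ i j : Fin n, ∫ x, tf (fun V => (pm V i i - pm V j j) ^ 2) R k x ∂μ
      ≤ 16 / 3 * (C / R) + 4 * δ := by
    intro i j
    have hCR : 0 ≤ C / R := div_nonneg ((cc_nonneg _).trans (hC i)) hR.le
    by_cases hij : i = j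
    · subst hij
      have : ∀ x, tf (fun V => (pm V i i - pm V i i) ^ 2) R k x = 0 := fun x => by
        simp [tf]
      simp only [this, integral_zero]
      positivity
    · have h1 := rot_step i j hij hR hk0 hk (hδ i j hij)
      have h2 := hAle i
      linarith
  -- the identity, integrated
  have hid : ∀ x : ModSpace n, ((k : ℝ) * (n - k)) * tf (fun _ => (1 : ℝ)) R k x
      = (n : ℝ) * ∑ i : Fin n, tf (fun V => pm V i i * (1 - pm V i i)) R k x
        + (1 / 2) * ∑ i : Fin n, ∑ j : Fin n,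
          tf (fun V => (pm V i i - pm V j j) ^ 2) R k x := by
    intro x
    unfold tf
    by_cases hw : ww R (gap x k) = 0
    · simp [hw]
    · have hlt := lt_of_ww_ne_zero hR hw
      have h1 := identity (Vk x k)
      rw [finrank_Vk hk0 hk (by linarith)] at h1
      rw [← h1]
      simp only [← Finset.mul_sum]
      ring
  have hkn : (1 : ℝ) ≤ (k : ℝ) * (n - k) := by
    have h1 : (1 : ℝ) ≤ k := by exact_mod_cast hk0
    have h2 : (1 : ℝ) ≤ (n : ℝ) - k := by
      have : (k : ℝ) + 1 ≤ n := by exact_mod_cast hk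
      linarith
    nlinarith
  have hwint : 0 ≤ ∫ x, tf (fun _ => (1 : ℝ)) R k x ∂μ :=
    integral_nonneg fun x => by
      show 0 ≤ ww R (gap x k) * 1
      rw [mul_one]; exact ww_nonneg _ _
  have hI : ((k : ℝ) * (n - k)) * ∫ x, tf (fun _ => (1 : ℝ)) R k x ∂μ
      = (n : ℝ) * ∑ i, ∫ x, tf (fun V => pm V i i * (1 - pm V i i)) R k x ∂μ
        + (1 / 2) * ∑ i, ∑ j, ∫ x, tf (fun V => (pm V i i - pm V j j) ^ 2) R k x ∂μ := by
    rw [← integral_const_mul, integral_congr_ae (Eventually.of_forall hid),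
      integral_add, integral_const_mul, integral_const_mul, integral_finsetSum,
      integral_finsetSum]
    · congr 2
      refine Finset.sum_congr rfl fun i _ => ?_
      rw [integral_finsetSum _ fun j _ => hB i j]
    · exact fun i _ => integrable_finsetSum _ fun j _ => hB i j
    · exact fun i _ => hA i
    · exact (integrable_finsetSum _ fun i _ => hA i).const_mul _
    · exact (integrable_finsetSum _ fun i _ =>
        integrable_finsetSum _ fun j _ => hB i j).const_mul _
  have hS1 : ∑ i : Fin n, ∫ x, tf (fun V => pm V i i * (1 - pm V i i)) R k x ∂μ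
      ≤ n * (4 / 3 * (C / R)) := by
    calc _ ≤ ∑ _i : Fin n, (4 / 3 * (C / R)) := Finset.sum_le_sum fun i _ => hAle i
      _ = n * (4 / 3 * (C / R)) := by simp
  have hS2 : ∑ i : Fin n, ∑ j : Fin n, ∫ x, tf (fun V => (pm V i i - pm V j j) ^ 2) R k x ∂μ
      ≤ n * (n * (16 / 3 * (C / R) + 4 * δ)) := by
    calc _ ≤ ∑ _i : Fin n, ∑ _j : Fin n, (16 / 3 * (C / R) + 4 * δ) :=
          Finset.sum_le_sum fun i _ => Finset.sum_le_sum fun j _ => hBle i j
      _ = n * (n * (16 / 3 * (C / R) + 4 * δ)) := by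
        simp only [Finset.sum_const, Finset.card_univ, Fintype.card_fin, nsmul_eq_mul]
  have hww : ∫ x, ww R (gap x k) ∂μ = ∫ x, tf (fun _ => (1 : ℝ)) R k x ∂μ :=
    integral_congr_ae (Eventually.of_forall fun x => by simp [tf])
  rw [hww]
  have h1 : ∫ x, tf (fun _ => (1 : ℝ)) R k x ∂μ
      ≤ ((k : ℝ) * (n - k)) * ∫ x, tf (fun _ => (1 : ℝ)) R k x ∂μ :=
    le_mul_of_one_le_left hwint hkn
  refine h1.trans ?_
  rw [hI]
  have h2 := mul_le_mul_of_nonneg_left hS1 hnn.le
  nlinarith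

end Est

/-! ### the theorem -/

/-- the cusp neighbourhood. -/
def cusp (n : ℕ) (r : ℝ) : Set (ModSpace n) := {x | ∃ v ∈ Lat x, v ≠ 0 ∧ ‖v‖ < r}

/-- **No escape of mass**. -/
theorem esc_rot (hn : 0 < n) (μ : ℕ → Measure (ModSpace n)) (hprob : ∀ k, IsProbabilityMeasure (μ k))
    (hA : ∀ k, ∀ i : Fin n, Measure.map (fun x => act x (tor i)) (μ k) = μ k)
    (hrot : ∀ (i j : Fin n) (hij : i ≠ j), NearInvAt μ (rot i j hij)) (ε : ℝ) (hε : 0 < ε) :
    ∃ r : ℝ, 0 < r ∧ ∀ᶠ k in atTop, (μ k) (cusp n r) ≤ ENNReal.ofReal ε := by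
  classical
  have hnn : (0 : ℝ) < n := by exact_mod_cast hn
  obtain ⟨C, hC0, hC⟩ : ∃ C : ℝ, 0 ≤ C ∧ ∀ i : Fin n, cc (tor i) ≤ C := by
    refine ⟨∑ i : Fin n, cc (tor i), Finset.sum_nonneg fun i _ => cc_nonneg _, fun i => ?_⟩
    exact Finset.single_le_sum (f := fun i : Fin n => cc (tor i)) (fun i _ => cc_nonneg _)
      (Finset.mem_univ i)
  -- the parameters
  set δ : ℝ := ε / (8 * n ^ 3) with hδ
  have hδ0 : 0 < δ := by positivity
  set R : ℝ := 2 * C + 16 * n ^ 3 * (C + 1) / ε + 1 with hRdef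
  have hR : 0 < R := by positivity
  have hR2 : 2 * C ≤ R := by
    have : 0 ≤ 16 * n ^ 3 * (C + 1) / ε := by positivity
    linarith
  have hCR : C / R ≤ ε / (16 * n ^ 3) := by
    rw [div_le_div_iff₀ hR (by positivity)]
    have h1 : 16 * (n : ℝ) ^ 3 * (C + 1) ≤ ε * R := by
      have : ε * (16 * n ^ 3 * (C + 1) / ε) = 16 * n ^ 3 * (C + 1) := by field_simp
      have h2 : 0 ≤ ε * (2 * C) := by positivity
      nlinarith
    nlinarith [pow_pos hnn 3]
  refine ⟨Real.exp (-(n * (2 * R))), Real.exp_pos _, ?_⟩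
  -- eventually all the rotations are `δ`-good
  have hev : ∀ᶠ m in atTop, ∀ k : Fin n, ∀ i j : Fin n, ∀ hij : i ≠ j, 0 < (k : ℕ) →
      |∫ x, tf (fun V => pm V i j ^ 2) R k (act x (rot i j hij)) ∂(μ m)
        - ∫ x, tf (fun V => pm V i j ^ 2) R k x ∂(μ m)| ≤ δ := by
    rw [eventually_all]; intro k
    rw [eventually_all]; intro i
    rw [eventually_all]; intro j
    rw [eventually_all]; intro hij
    by_cases hk0 : 0 < (k : ℕ)
    · have hr : RUC (tf (fun V => pm V i j ^ 2) R k) :=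
        ruc_tf (fun V => by rw [abs_pow]; exact pow_le_one₀ (abs_nonneg _) (abs_pm_le_one V i j))
          (uc_sq (fun V => abs_pm_le_one V i j) (uc_pm i j)) hR hk0 k.2
      have := hrot i j hij _ hr
      rw [Metric.tendsto_atTop] at this
      obtain ⟨N, hN⟩ := this δ hδ0
      filter_upwards [eventually_ge_atTop N] with m hm _
      have := hN m hm
      rw [Real.dist_eq, sub_zero] at this
      exact this.le
    · exact Eventually.of_forall fun m h => absurd h hk0
  filter_upwards [hev] with m hm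
  have := hprob m
  -- pointwise bound of the indicator of the cusp
  have hcover : cusp n (Real.exp (-(n * (2 * R))))
      ⊆ ⋃ k ∈ Finset.univ.filter (fun k : Fin n => 0 < (k : ℕ)),
        {x : ModSpace n | 1 ≤ ww R (gap x k)} := by
    rintro x ⟨v, hv, h0, hlt⟩
    obtain ⟨k, hk0, hk, hg⟩ := exists_gap hn (by positivity) hv h0 hlt
    simp only [Set.mem_iUnion]
    exact ⟨⟨k, hk⟩, by simp [hk0], (ww_eq_one hR hg.le).ge⟩
  have hone : ∀ k : Fin n, 0 < (k : ℕ) →
      (μ m) {x | 1 ≤ ww R (gap x k)} ≤ ENNReal.ofReal (ε / n) := by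
    intro k hk0
    have hint : Integrable (fun x : ModSpace n => ww R (gap x k)) (μ m) := by
      have r : RUC (tf (fun _ => (1 : ℝ)) R (k : ℕ) : ModSpace n → ℝ) :=
        ruc_tf (fun _ => by simp) (uc_const 1) hR hk0 k.2
      exact (r.integrable (μ m)).congr (Eventually.of_forall fun x => by simp [tf])
    have h1 := mul_meas_ge_le_integral_of_nonneg
      (Eventually.of_forall fun x => ww_nonneg R (gap x (k : ℕ))) hint 1
    have h2 := gap_est (μ := μ m) hn (hA m) hR hC hR2 hk0 k.2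
      (fun i j hij => hm k i j hij hk0)
    rw [one_mul] at h1
    have h3 : (μ m).real {x | 1 ≤ ww R (gap x k)} ≤ ε / n := by
      refine h1.trans (h2.trans ?_)
      have e1 : (n : ℝ) ^ 2 * (4 * (C / R) + 2 * δ)
          ≤ (n : ℝ) ^ 2 * (4 * (ε / (16 * n ^ 3)) + 2 * δ) :=
        mul_le_mul_of_nonneg_left (by linarith) (by positivity)
      refine e1.trans (le_of_eq_of_le (?_ : _ = ε / (2 * n)) ?_)
      · rw [hδ]; field_simp; norm_num
      · exact div_le_div_of_nonneg_left hε.le hnn (by linarith)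
    rw [Measure.real] at h3
    exact (ENNReal.le_ofReal_iff_toReal_le (measure_ne_top _ _) (by positivity)).2 h3
  calc (μ m) (cusp n (Real.exp (-(n * (2 * R)))))
      ≤ (μ m) (⋃ k ∈ Finset.univ.filter (fun k : Fin n => 0 < (k : ℕ)),
        {x | 1 ≤ ww R (gap x k)}) := measure_mono hcover
    _ ≤ ∑ k ∈ Finset.univ.filter (fun k : Fin n => 0 < (k : ℕ)),
        (μ m) {x | 1 ≤ ww R (gap x k)} := measure_biUnion_finset_le _ _
    _ ≤ ∑ _k ∈ Finset.univ.filter (fun k : Fin n => 0 < (k : ℕ)),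
        ENNReal.ofReal (ε / n) := Finset.sum_le_sum fun k hk =>
          hone k (Finset.mem_filter.1 hk).2
    _ ≤ ∑ _k : Fin n, ENNReal.ofReal (ε / n) :=
        Finset.sum_le_sum_of_subset (Finset.filter_subset _ _)
    _ = ENNReal.ofReal ε := by
        rw [Finset.sum_const, Finset.card_univ, Fintype.card_fin, nsmul_eq_mul,
          ← ENNReal.ofReal_natCast, ← ENNReal.ofReal_mul hnn.le]
        congr 1
        field_simp

/-- **No escape of mass**, from asymptotic invariance under all elementary matrices. -/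
theorem esc (hn : 0 < n) (μ : ℕ → Measure (ModSpace n)) (hprob : ∀ k, IsProbabilityMeasure (μ k))
    (hA : ∀ k, ∀ i : Fin n, Measure.map (fun x => act x (tor i)) (μ k) = μ k)
    (hμ : NearInv μ) (ε : ℝ) (hε : 0 < ε) :
    ∃ r : ℝ, 0 < r ∧ ∀ᶠ k in atTop, (μ k) (cusp n r) ≤ ENNReal.ofReal ε :=
  esc_rot hn μ hprob hA (fun i j hij => hμ.rot i j hij) ε hε

/-- the torus elements are in the image of `diagFlow`. -/
lemma tor_eq_diagFlow {d : ℕ} (i : Fin (d + 1)) : ∃ u : Fin d → ℝ, tor i = diagFlow u := by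
  set t : Fin (d + 1) → ℝ := fun j => if j = i then (2 : ℝ) ^ d else (1 / 2 : ℝ) with ht
  have htpos : ∀ j, 0 < t j := fun j => by rw [ht]; positivity
  refine ⟨fun j => Real.log (t j.castSucc), ?_⟩
  have hdet : ∏ j, t j = 1 := by
    have := (tor i).2
    unfold tor at this
    rw [Matrix.det_diagonal] at this
    exact this
  apply Subtype.ext
  show Matrix.diagonal t = Matrix.diagonal _
  congr 1
  funext j
  refine Fin.lastCases ?_ (fun k => ?_) j
  · rw [Fin.snoc_last, ← Finset.sum_neg_distrib]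
    rw [Fin.prod_univ_castSucc] at hdet
    have h1 : Real.log (t (Fin.last d)) = ∑ k : Fin d, -Real.log (t k.castSucc) := by
      have h2 := congrArg Real.log hdet
      rw [Real.log_mul (Finset.prod_ne_zero_iff.2 fun k _ => (htpos _).ne') (htpos _).ne',
        Real.log_prod (fun k _ => (htpos _).ne'), Real.log_one] at h2
      rw [Finset.sum_neg_distrib]
      linarith
    rw [← h1, Real.exp_log (htpos _)]
  · rw [Fin.snoc_castSucc, Real.exp_log (htpos _)]

/-- **No escape of mass**, for sequences invariant under the full diagonal flow. -/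
theorem esc_diagFlow {d : ℕ} (μ : ℕ → Measure (ModSpace (d + 1)))
    (hprob : ∀ k, IsProbabilityMeasure (μ k))
    (hA : ∀ k, ∀ u : Fin d → ℝ, Measure.map (fun x => act x (diagFlow u)) (μ k) = μ k)
    (hμ : NearInv μ) (ε : ℝ) (hε : 0 < ε) :
    ∃ r : ℝ, 0 < r ∧ ∀ᶠ k in atTop, (μ k) (cusp (d + 1) r) ≤ ENNReal.ofReal ε := by
  refine esc (Nat.succ_pos d) μ hprob (fun k i => ?_) hμ ε hε
  obtain ⟨u, hu⟩ := tor_eq_diagFlow i
  rw [hu]
  exact hA k u

end Crest.Agent.R014.Esc_296
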