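import Crest.Agent.R014.Nd4_837
import Crest.Agent.R014.DSkel_792
import Crest.Agent.R014.DEnd2_935
import Crest.Agent.R014.Esc4_296

/-!
# Row 14, block D, END, part 5 (helper71): transport of right uniformly continuous functions

`Fm f hac T δ z r`: the average over `q ∈ [0, δ]` of `f (z u_ac(-r) a^T u_ac(q))`.
It is bounded by `sup |f|`, Lipschitz in `r` with constant `2 B 2 ^ m / δ`, `m = T c - T a`, and
close to `f (z u_ac(-r) a^T)`.  `transport`: if `z = x g u_ac(r1)` with `a^{-T} g a^T` close to one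
and `x ~ μ`, `μ` invariant under the diagonal group, then
`|∫ f (x u_ac(v)) dμ - ∫ f dμ| ≤ |E Fm(z, r1 - 2^{-m} v) - E Fm(z, r1)| + 4 e`.
-/

set_option autoImplicit false

open MeasureTheory Filter Topology
open Crest.NumberTheoryR.Packets
open Crest.Agent.R014.Ms_667
open Crest.Agent.R014.Nd_837
open Crest.Agent.R014.Nz_323 (bx Adm dg)

universe w

namespace Crest.Agent.R014.DEnd5_71

variable {n : ℕ}

/-! ### neighbourhoods of one -/

theorem bxG_near {U : Set (SLR n)} (hU : U ∈ 𝓝 (1 : SLR n)) :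
    ∃ w0 : ℝ, 0 ≤ w0 ∧ ∀ R : Fin n → Fin n → ℝ, (∀ p q, w0 ≤ R p q) → bxG R ⊆ U := by
  have hc : ContinuousAt (toSL : Mt n → SLR n) 1 := by
    refine continuousOn_toSL.continuousAt ?_
    refine (isOpen_lt continuous_const (continuous_id.matrix_det)).mem_nhds ?_
    show (0 : ℝ) < (1 : Mt n).det
    rw [Matrix.det_one]; exact one_pos
  have h1 : toSL ⁻¹' U ∈ 𝓝 (1 : Mt n) := hc.preimage_mem_nhds (by rw [toSL_one]; exact hU)
  let W : Set (Fin n → Fin n → ℝ) := toSL ⁻¹' U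
  let o : Fin n → Fin n → ℝ := (1 : Mt n)
  have h2 : W ∈ 𝓝 o := h1
  obtain ⟨ε, hε, hb⟩ := Metric.mem_nhds_iff.1 h2
  obtain ⟨k, hk⟩ := exists_pow_lt_of_lt_one hε (by norm_num : (1 / 2 : ℝ) < 1)
  refine ⟨k, Nat.cast_nonneg k, fun R hR => ?_⟩
  rintro _ ⟨g, hg, rfl⟩
  let g' : Fin n → Fin n → ℝ := g
  have hgo : g' ∈ Metric.ball o ε → g' ∈ W := fun h => hb h
  refine hgo ?_
  rw [Metric.mem_ball, dist_pi_lt_iff hε]
  intro i
  rw [dist_pi_lt_iff hε]
  intro j
  rw [Real.dist_eq]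
  have h3 := hg i j
  have h4 : (2 : ℝ) ^ (-(R i j)) ≤ (1 / 2 : ℝ) ^ k := by
    have e1 : (1 / 2 : ℝ) ^ k = (2 : ℝ) ^ (-(k : ℝ)) := by
      rw [Real.rpow_neg two_pos.le, Real.rpow_natCast, one_div, inv_pow]
    rw [e1]
    exact Real.rpow_le_rpow_of_exponent_le one_le_two (neg_le_neg (hR i j))
  have h5 : (g - 1) i j = g i j - (1 : Mt n) i j := rfl
  rw [h5] at h3
  exact (h3.trans h4).trans_lt hk

theorem uu_near {i j : Fin n} (hij : i ≠ j) {U : Set (SLR n)} (hU : U ∈ 𝓝 (1 : SLR n)) :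
    ∃ w0 : ℝ, 0 ≤ w0 ∧ ∀ s : ℝ, |s| ≤ (2 : ℝ) ^ (-w0) → uu hij s ∈ U := by
  have hc : ContinuousAt (uu hij : ℝ → SLR n) 0 := (continuous_uu hij).continuousAt
  have h1 : uu hij ⁻¹' U ∈ 𝓝 (0 : ℝ) := hc.preimage_mem_nhds (by rw [uu_zero]; exact hU)
  obtain ⟨ε, hε, hb⟩ := Metric.mem_nhds_iff.1 h1
  obtain ⟨k, hk⟩ := exists_pow_lt_of_lt_one hε (by norm_num : (1 / 2 : ℝ) < 1)
  refine ⟨k, Nat.cast_nonneg k, fun s hs => ?_⟩
  apply hb
  rw [Metric.mem_ball, Real.dist_eq, sub_zero]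
  have e1 : (1 / 2 : ℝ) ^ k = (2 : ℝ) ^ (-(k : ℝ)) := by
    rw [Real.rpow_neg two_pos.le, Real.rpow_natCast, one_div, inv_pow]
  rw [e1] at hk
  exact hs.trans_lt hk

theorem mul3_near {U : Set (SLR n)} (hU : U ∈ 𝓝 (1 : SLR n)) :
    ∃ V ∈ 𝓝 (1 : SLR n), ∀ g ∈ V, ∀ h ∈ V, ∀ k ∈ V, g * h * k ∈ U := by
  have hc : ContinuousAt (fun p : SLR n × SLR n × SLR n => p.1 * p.2.1 * p.2.2) (1, 1, 1) :=
    ((continuous_fst.mul (continuous_fst.comp continuous_snd)).mul
      (continuous_snd.comp continuous_snd)).continuousAt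
  have h1 := hc.preimage_mem_nhds (t := U) (by simpa using hU)
  rw [nhds_prod_eq, nhds_prod_eq] at h1
  obtain ⟨A, hA, B, hB, hAB⟩ := Filter.mem_prod_iff.1 h1
  obtain ⟨C, hC, D, hD, hCD⟩ := Filter.mem_prod_iff.1 hB
  refine ⟨A ∩ (C ∩ D), inter_mem hA (inter_mem hC hD), fun g hg h hh k hk => ?_⟩
  have : ((g, h, k) : SLR n × SLR n × SLR n) ∈ (fun p : SLR n × SLR n × SLR n =>
      p.1 * p.2.1 * p.2.2) ⁻¹' U := by
    apply hAB
    exact ⟨hg.1, hCD ⟨hh.2.1, hk.2.2⟩⟩
  exact this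

theorem conj_near (q : SLR n) {U : Set (SLR n)} (hU : U ∈ 𝓝 (1 : SLR n)) :
    (fun h : SLR n => q⁻¹ * h * q) ⁻¹' U ∈ 𝓝 (1 : SLR n) := by
  have hc : ContinuousAt (fun h : SLR n => q⁻¹ * h * q) 1 :=
    ((continuous_const.mul continuous_id).mul continuous_const).continuousAt
  exact hc.preimage_mem_nhds (by simpa using hU)

/-! ### the regularised test function -/

section Reg

variable {a c : Fin n}

/-- The regularised and transported test function. -/
noncomputable def Fm (f : ModSpace n → ℝ) (hac : a ≠ c) (T : Fin n → ℝ) (δ : ℝ)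
    (z : ModSpace n) (r : ℝ) : ℝ :=
  δ⁻¹ * ∫ q in (0 : ℝ)..δ, f (act z (uu hac (-r) * aT T * uu hac q))

variable {f : ModSpace n → ℝ} {hac : a ≠ c} {T : Fin n → ℝ} {δ B e : ℝ}

theorem ruc_continuous (hf : Iface_792.RUC f) : Continuous f := Esc_296.RUC.continuous hf

theorem continuous_kernel (hf : Continuous f) :
    Continuous fun p : (ModSpace n × ℝ) × ℝ =>
      f (act p.1.1 (uu hac (-p.1.2) * aT T * uu hac p.2)) := by
  have h1 : Continuous fun p : (ModSpace n × ℝ) × ℝ => uu hac (-p.1.2) * aT T * uu hac p.2 := by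
    refine (((continuous_uu hac).comp ?_).mul continuous_const).mul ((continuous_uu hac).comp ?_)
    · exact (continuous_snd.comp continuous_fst).neg
    · exact continuous_snd
  have h2 : Continuous fun p : (ModSpace n × ℝ) × ℝ =>
      (p.1.1, uu hac (-p.1.2) * aT T * uu hac p.2) :=
    (continuous_fst.comp continuous_fst).prodMk h1
  exact hf.comp (continuous_act.comp h2)

theorem measurable_Fm (hf : Continuous f) (hδ : 0 ≤ δ) :
    Measurable fun p : ModSpace n × ℝ => Fm f hac T δ p.1 p.2 := by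
  unfold Fm
  refine Measurable.const_mul ?_ _
  simp only [intervalIntegral.integral_of_le hδ]
  have h := (continuous_kernel (hac := hac) (T := T) hf).measurable
  exact (h.stronglyMeasurable.integral_prod_right'
    (ν := volume.restrict (Set.Ioc 0 δ))).measurable

theorem kernel_int (hf : Continuous f) (z : ModSpace n) (r x y : ℝ) :
    IntervalIntegrable (fun q => f (act z (uu hac (-r) * aT T * uu hac q))) volume x y := by
  have h1 : Continuous fun q : ℝ => uu hac (-r) * aT T * uu hac q :=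
    continuous_const.mul (continuous_uu hac)
  have h2 : Continuous fun q : ℝ => (z, uu hac (-r) * aT T * uu hac q) :=
    continuous_const.prodMk h1
  have h : Continuous fun q : ℝ => f (act z (uu hac (-r) * aT T * uu hac q)) :=
    hf.comp (continuous_act.comp h2)
  exact h.intervalIntegrable _ _

theorem abs_Fm_le (hB : ∀ x, |f x| ≤ B) (hδ : 0 < δ) (z : ModSpace n) (r : ℝ) :
    |Fm f hac T δ z r| ≤ B := by
  unfold Fm
  rw [abs_mul, abs_of_pos (inv_pos.2 hδ)]
  have h := intervalIntegral.norm_integral_le_of_norm_le_const (a := (0 : ℝ)) (b := δ) (C := B)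
    (f := fun q => f (act z (uu hac (-r) * aT T * uu hac q)))
    (fun x _ => by rw [Real.norm_eq_abs]; exact hB _)
  rw [Real.norm_eq_abs, sub_zero, abs_of_pos hδ] at h
  calc δ⁻¹ * |∫ q in (0 : ℝ)..δ, f (act z (uu hac (-r) * aT T * uu hac q))|
      ≤ δ⁻¹ * (B * δ) := mul_le_mul_of_nonneg_left h (inv_pos.2 hδ).le
    _ = B := by field_simp

theorem Fm_close (hf : Continuous f) (hδ : 0 < δ)
    (h : ∀ x, ∀ q : ℝ, 0 ≤ q → q ≤ δ → |f (act x (uu hac q)) - f x| ≤ e)
    (z : ModSpace n) (r : ℝ) :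
    |Fm f hac T δ z r - f (act z (uu hac (-r) * aT T))| ≤ e := by
  have h0 : Fm f hac T δ z r - f (act z (uu hac (-r) * aT T))
      = δ⁻¹ * ∫ q in (0 : ℝ)..δ, (f (act z (uu hac (-r) * aT T * uu hac q))
          - f (act z (uu hac (-r) * aT T))) := by
    rw [intervalIntegral.integral_sub (kernel_int hf z r _ _) intervalIntegrable_const,
      intervalIntegral.integral_const, mul_sub, smul_eq_mul, sub_zero, ← mul_assoc,
      inv_mul_cancel₀ hδ.ne', one_mul]
    rfl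
  rw [h0, abs_mul, abs_of_pos (inv_pos.2 hδ)]
  have h1 := intervalIntegral.norm_integral_le_of_norm_le_const (a := (0 : ℝ)) (b := δ) (C := e)
    (f := fun q => f (act z (uu hac (-r) * aT T * uu hac q)) - f (act z (uu hac (-r) * aT T)))
    (fun q hq => by
      rw [Set.uIoc_of_le hδ.le] at hq
      rw [Real.norm_eq_abs, ← act_act]
      exact h _ q hq.1.le hq.2)
  rw [Real.norm_eq_abs, sub_zero, abs_of_pos hδ] at h1
  calc δ⁻¹ * _ ≤ δ⁻¹ * (e * δ) := mul_le_mul_of_nonneg_left h1 (inv_pos.2 hδ).le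
    _ = e := by field_simp

/-- `a^T u(q) = u(2^{-m} q) a^T`. -/
theorem aT_uu (hac : a ≠ c) (T : Fin n → ℝ) (q : ℝ) :
    aT T * uu hac q = uu hac ((2 : ℝ) ^ (T a - T c) * q) * aT T := by
  have h := aT_conj_uu hac T ((2 : ℝ) ^ (T a - T c) * q)
  rw [← mul_assoc ((2 : ℝ) ^ (-(T a - T c))), ← Real.rpow_add two_pos, neg_add_cancel,
    Real.rpow_zero, one_mul] at h
  rw [← h]
  group

theorem Fm_eq (z : ModSpace n) (r : ℝ) :
    Fm f hac T δ z r = (2 : ℝ) ^ (T c - T a) * δ⁻¹ *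
      ∫ y in (-r)..(2 : ℝ) ^ (T a - T c) * δ + -r, f (act z (uu hac y * aT T)) := by
  unfold Fm
  have h1 : ∀ q : ℝ, f (act z (uu hac (-r) * aT T * uu hac q))
      = (fun y => f (act z (uu hac y * aT T))) ((2 : ℝ) ^ (T a - T c) * q + -r) := by
    intro q
    simp only
    rw [mul_assoc, aT_uu, ← mul_assoc, ← uu_add, add_comm]
  rw [intervalIntegral.integral_congr fun q _ => h1 q]
  have hpos : (2 : ℝ) ^ (T a - T c) ≠ 0 := (Real.rpow_pos_of_pos two_pos _).ne'
  have h2 := intervalIntegral.integral_comp_mul_add (a := 0) (b := δ)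
    (fun y => f (act z (uu hac y * aT T))) hpos (-r)
  rw [h2, smul_eq_mul, mul_zero, zero_add, ← Real.rpow_neg two_pos.le, neg_sub]
  ring

theorem Fm_lip (hf : Continuous f) (hB : ∀ x, |f x| ≤ B) (hδ : 0 < δ) (z : ModSpace n)
    (r r' : ℝ) :
    |Fm f hac T δ z r - Fm f hac T δ z r'| ≤ 2 * B * (2 : ℝ) ^ (T c - T a) / δ * |r - r'| := by
  rw [Fm_eq, Fm_eq, ← mul_sub]
  set φ : ℝ → ℝ := fun y => f (act z (uu hac y * aT T)) with hφ
  have hφc : Continuous φ := by
    have g1 : Continuous fun y : ℝ => uu hac y * aT T := (continuous_uu hac).mul continuous_const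
    have g2 : Continuous fun y : ℝ => (z, uu hac y * aT T) := continuous_const.prodMk g1
    exact hf.comp (continuous_act.comp g2)
  have hI : ∀ x y, IntervalIntegrable φ volume x y := fun x y => hφc.intervalIntegrable _ _
  set h := (2 : ℝ) ^ (T a - T c) * δ with hh
  have key : (∫ y in (-r)..h + -r, φ y) - ∫ y in (-r')..h + -r', φ y
      = (∫ y in (-r)..(-r'), φ y) - ∫ y in (h + -r)..(h + -r'), φ y := by
    have e1 := intervalIntegral.integral_add_adjacent_intervals (hI (-r) (h + -r))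
      (hI (h + -r) (h + -r'))
    have e2 := intervalIntegral.integral_add_adjacent_intervals (hI (-r) (-r'))
      (hI (-r') (h + -r'))
    linarith
  rw [key]
  have b1 := intervalIntegral.norm_integral_le_of_norm_le_const (a := -r) (b := -r') (C := B)
    (f := φ) (fun x _ => by rw [Real.norm_eq_abs]; exact hB _)
  have b2 := intervalIntegral.norm_integral_le_of_norm_le_const (a := h + -r) (b := h + -r')
    (C := B) (f := φ) (fun x _ => by rw [Real.norm_eq_abs]; exact hB _)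
  rw [Real.norm_eq_abs] at b1 b2
  have e3 : |(-r') - (-r)| = |r - r'| := by rw [neg_sub_neg]
  have e4 : |(h + -r') - (h + -r)| = |r - r'| := by
    congr 1; ring
  rw [e3] at b1
  rw [e4] at b2
  rw [abs_mul, abs_of_pos (mul_pos (Real.rpow_pos_of_pos two_pos _) (inv_pos.2 hδ))]
  have b3 := abs_sub (∫ y in (-r)..(-r'), φ y) (∫ y in (h + -r)..(h + -r'), φ y)
  have hp : 0 ≤ (2 : ℝ) ^ (T c - T a) * δ⁻¹ :=
    (mul_pos (Real.rpow_pos_of_pos two_pos _) (inv_pos.2 hδ)).le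
  calc (2 : ℝ) ^ (T c - T a) * δ⁻¹ *
        |(∫ y in (-r)..(-r'), φ y) - ∫ y in (h + -r)..(h + -r'), φ y|
      ≤ (2 : ℝ) ^ (T c - T a) * δ⁻¹ * (B * |r - r'| + B * |r - r'|) :=
        mul_le_mul_of_nonneg_left (b3.trans (add_le_add b1 b2)) hp
    _ = _ := by rw [div_eq_mul_inv]; ring

/-- the normalised function is a test function of `DEnd2_935`. -/
theorem tst_Fm (hf : Continuous f) (hB : ∀ x, |f x| ≤ B) (hB0 : 0 < B) (hδ : 0 < δ) :
    DEnd2_935.Tst (2 * (2 : ℝ) ^ (T c - T a) / δ)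
      (fun (z : ModSpace n) r => B⁻¹ * Fm f hac T δ z r) where
  meas := (measurable_Fm (hac := hac) (T := T) hf hδ.le).const_mul _
  le z r := by
    rw [abs_mul, abs_of_pos (inv_pos.2 hB0)]
    calc B⁻¹ * |Fm f hac T δ z r| ≤ B⁻¹ * B :=
          mul_le_mul_of_nonneg_left (abs_Fm_le hB hδ z r) (inv_pos.2 hB0).le
      _ = 1 := inv_mul_cancel₀ hB0.ne'
  lip z r r' := by
    rw [← mul_sub, abs_mul, abs_of_pos (inv_pos.2 hB0)]
    calc B⁻¹ * |Fm f hac T δ z r - Fm f hac T δ z r'|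
        ≤ B⁻¹ * (2 * B * (2 : ℝ) ^ (T c - T a) / δ * |r - r'|) :=
          mul_le_mul_of_nonneg_left (Fm_lip hf hB hδ z r r') (inv_pos.2 hB0).le
      _ = 2 * (2 : ℝ) ^ (T c - T a) / δ * |r - r'| := by field_simp

end Reg

/-! ### transport -/

section Transport

variable {a c : Fin n} {f : ModSpace n → ℝ}

/-- the image of `z = x g u(r1)` under `u(-(r1 - 2^{-m} v)) a^T`. -/
theorem act_key (hac : a ≠ c) (T : Fin n → ℝ) (x : ModSpace n) (g : SLR n) (r v : ℝ) :
    act (act x (g * uu hac r)) (uu hac (-(r - (2 : ℝ) ^ (T a - T c) * v)) * aT T)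
      = act (act (act x (aT T)) (uu hac v)) ((uu hac v)⁻¹ * ((aT T)⁻¹ * g * aT T) * uu hac v) := by
  rw [act_act, act_act, act_act]
  congr 1
  have h1 : uu hac r * uu hac (-(r - (2 : ℝ) ^ (T a - T c) * v))
      = uu hac ((2 : ℝ) ^ (T a - T c) * v) := by
    rw [← uu_add]; congr 1; ring
  have h2 := aT_uu hac T v
  calc g * uu hac r * (uu hac (-(r - (2 : ℝ) ^ (T a - T c) * v)) * aT T)
      = g * (uu hac r * uu hac (-(r - (2 : ℝ) ^ (T a - T c) * v))) * aT T := by
        simp only [mul_assoc]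
    _ = g * (aT T * uu hac v) := by rw [h1, mul_assoc, h2]
    _ = aT T * (uu hac v * ((uu hac v)⁻¹ * ((aT T)⁻¹ * g * aT T) * uu hac v)) := by group

/-- the set of small elements adapted to `f`, `v`, `e`. -/
theorem exists_small (hf : Iface_792.RUC f) (hac : a ≠ c) (v : ℝ) {e : ℝ} (he : 0 < e) :
    ∃ U ∈ 𝓝 (1 : SLR n), ∀ (T : Fin n → ℝ) (x : ModSpace n) (g : SLR n) (r : ℝ),
      (aT T)⁻¹ * g * aT T ∈ U →
      |f (act (act x (g * uu hac r)) (uu hac (-r) * aT T)) - f (act x (aT T))| ≤ e ∧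
      |f (act (act x (g * uu hac r)) (uu hac (-(r - (2 : ℝ) ^ (T a - T c) * v)) * aT T))
        - f (act (act x (aT T)) (uu hac v))| ≤ e := by
  obtain ⟨U, hU, h⟩ := hf.2 e he
  refine ⟨U ∩ (fun h : SLR n => (uu hac v)⁻¹ * h * uu hac v) ⁻¹' U,
    inter_mem hU (conj_near _ hU), fun T x g r hg => ⟨?_, ?_⟩⟩
  · have h0 := act_key hac T x g r 0
    rw [mul_zero, sub_zero, uu_zero, inv_one, one_mul, mul_one] at h0
    rw [h0]
    have h1 : act (act x (aT T)) (1 : SLR n) = act x (aT T) := Top1_458.act_one _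
    rw [h1]
    exact h _ _ hg.1
  · rw [act_key]
    exact h _ _ hg.2

/-- **transport**: the invariance defect of `f` under `u_ac(v)` is bounded by the defect of the
regularised function at the tiny shift `2^{-m} v`, `m = T c - T a`. -/
theorem transport (hf : Iface_792.RUC f) (hac : a ≠ c) (v : ℝ) {e : ℝ} (he : 0 < e) :
    ∃ (U : Set (SLR n)) (δ : ℝ), U ∈ 𝓝 (1 : SLR n) ∧ 0 < δ ∧ δ ≤ 1 ∧
      ∀ (T : Fin n → ℝ) {Ω : Type w} [MeasurableSpace Ω] (P : Measure Ω) [IsProbabilityMeasure P]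
        (μ : Measure (ModSpace n)) (_ : AInv μ) (X : Ω → ModSpace n) (g : Ω → SLR n) (r : Ω → ℝ)
        (_ : Measurable X) (_ : Measurable g) (_ : Measurable r) (_ : P.map X = μ)
        (_ : ∀ᵐ ω ∂P, (aT T)⁻¹ * g ω * aT T ∈ U),
      |∫ x, f (act x (uu hac v)) ∂μ - ∫ x, f x ∂μ|
        ≤ |∫ ω, Fm f hac T δ (act (X ω) (g ω * uu hac (r ω)))
              (r ω - (2 : ℝ) ^ (T a - T c) * v) ∂P
            - ∫ ω, Fm f hac T δ (act (X ω) (g ω * uu hac (r ω))) (r ω) ∂P| + e := by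
  have he4 : 0 < e / 4 := by positivity
  obtain ⟨U, hU, h⟩ := exists_small hf hac v he4
  obtain ⟨U2, hU2, h2⟩ := hf.2 (e / 4) he4
  obtain ⟨w0, hw0, h3⟩ := uu_near hac hU2
  refine ⟨U, (2 : ℝ) ^ (-w0), hU, Real.rpow_pos_of_pos two_pos _, ?_, ?_⟩
  · exact Real.rpow_le_one_of_one_le_of_nonpos one_le_two (neg_nonpos.2 hw0)
  intro T Ω _ P _ μ hμ X g r hX hg hr hXμ hsmall
  have hfc := ruc_continuous hf
  obtain ⟨B, hB⟩ := hf.1
  set δ : ℝ := (2 : ℝ) ^ (-w0) with hδ
  have hδ0 : 0 < δ := Real.rpow_pos_of_pos two_pos _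
  have hclose : ∀ x, ∀ q : ℝ, 0 ≤ q → q ≤ δ → |f (act x (uu hac q)) - f x| ≤ e / 4 :=
    fun x q hq0 hq => h2 x _ (h3 q (by rw [abs_of_nonneg hq0]; exact hq))
  set z : Ω → ModSpace n := fun ω => act (X ω) (g ω * uu hac (r ω)) with hz
  have hzm : Measurable z := by
    have h1 : Measurable fun ω => g ω * uu hac (r ω) :=
      hg.mul ((continuous_uu hac).measurable.comp hr)
    exact measurable_act₂.comp (hX.prodMk h1)
  have hFm : Measurable fun p : ModSpace n × ℝ => Fm f hac T δ p.1 p.2 :=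
    measurable_Fm hfc hδ0.le
  have iF : ∀ s : Ω → ℝ, Measurable s → Integrable (fun ω => Fm f hac T δ (z ω) (s ω)) P := by
    intro s hs
    refine Integrable.of_bound (hFm.comp (hzm.prodMk hs)).aestronglyMeasurable B
      (Eventually.of_forall fun ω => ?_)
    rw [Real.norm_eq_abs]
    exact abs_Fm_le hB hδ0 _ _
  have if' : ∀ k : Ω → ModSpace n, Measurable k → Integrable (fun ω => f (k ω)) P := by
    intro k hk
    refine Integrable.of_bound (hfc.measurable.comp hk).aestronglyMeasurable B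
      (Eventually.of_forall fun ω => ?_)
    rw [Real.norm_eq_abs]
    exact hB _
  -- the two integrals as integrals over `P`
  have e1 : ∫ x, f x ∂μ = ∫ ω, f (act (X ω) (aT T)) ∂P := by
    conv_lhs => rw [← hμ T]
    rw [integral_map (measurable_act _).aemeasurable hfc.aestronglyMeasurable]
    have hm' : Measurable fun x : ModSpace n => f (act x (aT T)) :=
      hfc.measurable.comp (measurable_act _)
    rw [← hXμ, integral_map hX.aemeasurable hm'.aestronglyMeasurable]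
  have e2 : ∫ x, f (act x (uu hac v)) ∂μ = ∫ ω, f (act (act (X ω) (aT T)) (uu hac v)) ∂P := by
    have hm : Measurable fun x : ModSpace n => f (act x (uu hac v)) :=
      hfc.measurable.comp (measurable_act _)
    conv_lhs => rw [← hμ T]
    rw [integral_map (measurable_act _).aemeasurable hm.aestronglyMeasurable]
    have hm' : Measurable fun x : ModSpace n => f (act (act x (aT T)) (uu hac v)) :=
      hm.comp (measurable_act _)
    rw [← hXμ, integral_map hX.aemeasurable hm'.aestronglyMeasurable]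
  have hr' : Measurable fun ω => r ω - (2 : ℝ) ^ (T a - T c) * v := hr.sub_const _
  have b1 : |∫ ω, Fm f hac T δ (z ω) (r ω) ∂P - ∫ ω, f (act (X ω) (aT T)) ∂P| ≤ e / 4 + e / 4 := by
    have m1 : Measurable fun ω => act (X ω) (aT T) := (measurable_act _).comp hX
    rw [← integral_sub (iF r hr) (if' _ m1)]
    have := norm_integral_le_of_norm_le_const (μ := P) (C := e / 4 + e / 4)
      (f := fun ω => Fm f hac T δ (z ω) (r ω) - f (act (X ω) (aT T))) (by
        filter_upwards [hsmall] with ω hω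
        rw [Real.norm_eq_abs]
        have t1 := Fm_close (hac := hac) (T := T) hfc hδ0 hclose (z ω) (r ω)
        have t2 := (h T (X ω) (g ω) (r ω) hω).1
        rw [abs_le] at t1 t2 ⊢
        constructor <;> linarith [t1.1, t1.2, t2.1, t2.2])
    simpa using this
  have b2 : |∫ ω, Fm f hac T δ (z ω) (r ω - (2 : ℝ) ^ (T a - T c) * v) ∂P
      - ∫ ω, f (act (act (X ω) (aT T)) (uu hac v)) ∂P| ≤ e / 4 + e / 4 := by
    have m1 : Measurable fun ω => act (X ω) (aT T) := (measurable_act _).comp hX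
    have m2 : Measurable fun ω => act (act (X ω) (aT T)) (uu hac v) := (measurable_act _).comp m1
    rw [← integral_sub (iF _ hr') (if' _ m2)]
    have := norm_integral_le_of_norm_le_const (μ := P) (C := e / 4 + e / 4)
      (f := fun ω => Fm f hac T δ (z ω) (r ω - (2 : ℝ) ^ (T a - T c) * v)
        - f (act (act (X ω) (aT T)) (uu hac v))) (by
        filter_upwards [hsmall] with ω hω
        rw [Real.norm_eq_abs]
        have t1 := Fm_close (hac := hac) (T := T) hfc hδ0 hclose (z ω)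
          (r ω - (2 : ℝ) ^ (T a - T c) * v)
        have t2 := (h T (X ω) (g ω) (r ω) hω).2
        rw [abs_le] at t1 t2 ⊢
        constructor <;> linarith [t1.1, t1.2, t2.1, t2.2])
    simpa using this
  rw [e1, e2]
  have b3 := abs_le.1 b1
  have b4 := abs_le.1 b2
  have b5 := le_abs_self (∫ ω, Fm f hac T δ (z ω) (r ω - (2 : ℝ) ^ (T a - T c) * v) ∂P
    - ∫ ω, Fm f hac T δ (z ω) (r ω) ∂P)
  have b6 := neg_abs_le (∫ ω, Fm f hac T δ (z ω) (r ω - (2 : ℝ) ^ (T a - T c) * v) ∂P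
    - ∫ ω, Fm f hac T δ (z ω) (r ω) ∂P)
  rw [abs_le]
  constructor <;> linarith [b3.1, b3.2, b4.1, b4.2]

end Transport

/-! ### the Heisenberg observation -/

section Heis

variable {a b c : Fin n}

/-- the transport direction: `T a = -m/2`, `T c = m/2`, zero elsewhere. -/
noncomputable def Td (a c : Fin n) (m : ℝ) : Fin n → ℝ :=
  fun p => if p = a then -(m / 2) else if p = c then m / 2 else 0

theorem Td_a (a c : Fin n) (m : ℝ) : Td a c m a = -(m / 2) := if_pos rfl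

theorem Td_c (hac : a ≠ c) (m : ℝ) : Td a c m c = m / 2 := by
  unfold Td; rw [if_neg hac.symm, if_pos rfl]

theorem Td_b (hab : a ≠ b) (hbc : b ≠ c) (m : ℝ) : Td a c m b = 0 := by
  unfold Td; rw [if_neg hab.symm, if_neg hbc]

theorem abs_Td_le (a c : Fin n) {m : ℝ} (hm : 0 ≤ m) (p : Fin n) : |Td a c m p| ≤ m / 2 := by
  unfold Td
  split_ifs
  · rw [abs_neg, abs_of_nonneg (by positivity)]
  · rw [abs_of_nonneg (by positivity)]
  · rw [abs_zero]; positivity

theorem Td_sub (hac : a ≠ c) (m : ℝ) : Td a c m a - Td a c m c = -m := by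
  rw [Td_a, Td_c hac]; ring

/-- the noise `ζ u_bc(t) u_ab(s)` transported by `a^T` is small. -/
theorem small_of (hab : a ≠ b) (hbc : b ≠ c) (hac : a ≠ c) {U : Set (SLR n)}
    (hU : U ∈ 𝓝 (1 : SLR n)) :
    ∃ w0 : ℝ, 0 ≤ w0 ∧ ∀ (m : ℝ) (R : Fin n → Fin n → ℝ), Adm R →
      (∀ p q, w0 ≤ R p q + (Td a c m p - Td a c m q)) →
      ∀ ζ ∈ bxG R, ∀ s t : ℝ, |s| ≤ (2 : ℝ) ^ (-(m / 2 + w0)) → |t| ≤ (2 : ℝ) ^ (-(m / 2 + w0)) →
        (aT (Td a c m))⁻¹ * (ζ * uu hbc t * uu hab s) * aT (Td a c m) ∈ U ∧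
        (aT (Td a c m))⁻¹ * (ζ * uu hab s * uu hbc t) * aT (Td a c m) ∈ U := by
  obtain ⟨V, hV, h3⟩ := mul3_near hU
  obtain ⟨w1, hw1, h1⟩ := bxG_near hV
  obtain ⟨w2, hw2, h2⟩ := uu_near hab hV
  obtain ⟨w4, hw4, h4⟩ := uu_near hbc hV
  refine ⟨max w1 (max w2 w4), le_max_of_le_left hw1, fun m R hR hRw ζ hζ s t hs ht => ?_⟩
  set w0 := max w1 (max w2 w4) with hw0
  have k1 : (aT (Td a c m))⁻¹ * ζ * aT (Td a c m) ∈ V := by
    apply h1 (R + sh (Td a c m))
    · intro p q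
      exact (le_max_left _ _).trans (hRw p q)
    · obtain ⟨g, hg, rfl⟩ := hζ
      have hd := det_pos_of_adm hR hg
      refine ⟨dg (-(Td a c m)) * g * dg (Td a c m), ?_, ?_⟩
      · exact Nz_323.conj_mem_bx.2 hg
      · rw [toSL_mul _ (Nz_323.det_dg_pos _), toSL_mul (Nz_323.det_dg_pos _) hd, ← aT_neg]
        · rfl
        · rw [Matrix.det_mul]
          exact mul_pos (Nz_323.det_dg_pos _) hd
  have k2 : (aT (Td a c m))⁻¹ * uu hab s * aT (Td a c m) ∈ V := by
    rw [aT_conj_uu]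
    apply h2
    rw [Td_a, Td_b hab hbc, abs_mul, abs_of_pos (Real.rpow_pos_of_pos two_pos _)]
    calc (2 : ℝ) ^ (-(-(m / 2) - 0)) * |s| ≤ (2 : ℝ) ^ (-(-(m / 2) - 0)) * (2 : ℝ) ^ (-(m / 2 + w0)) :=
          mul_le_mul_of_nonneg_left hs (Real.rpow_pos_of_pos two_pos _).le
      _ = (2 : ℝ) ^ (-w0) := by rw [← Real.rpow_add two_pos]; congr 1; ring
      _ ≤ (2 : ℝ) ^ (-w2) := Real.rpow_le_rpow_of_exponent_le one_le_two
          (neg_le_neg ((le_max_left _ _).trans (le_max_right _ _)))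
  have k3 : (aT (Td a c m))⁻¹ * uu hbc t * aT (Td a c m) ∈ V := by
    rw [aT_conj_uu]
    apply h4
    rw [Td_c hac, Td_b hab hbc, abs_mul, abs_of_pos (Real.rpow_pos_of_pos two_pos _)]
    calc (2 : ℝ) ^ (-(0 - m / 2)) * |t| ≤ (2 : ℝ) ^ (-(0 - m / 2)) * (2 : ℝ) ^ (-(m / 2 + w0)) :=
          mul_le_mul_of_nonneg_left ht (Real.rpow_pos_of_pos two_pos _).le
      _ = (2 : ℝ) ^ (-w0) := by rw [← Real.rpow_add two_pos]; congr 1; ring
      _ ≤ (2 : ℝ) ^ (-w4) := Real.rpow_le_rpow_of_exponent_le one_le_two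
          (neg_le_neg ((le_max_right _ _).trans (le_max_right _ _)))
  constructor
  · have := h3 _ k1 _ k3 _ k2
    have e : (aT (Td a c m))⁻¹ * ζ * aT (Td a c m) * ((aT (Td a c m))⁻¹ * uu hbc t * aT (Td a c m))
        * ((aT (Td a c m))⁻¹ * uu hab s * aT (Td a c m))
        = (aT (Td a c m))⁻¹ * (ζ * uu hbc t * uu hab s) * aT (Td a c m) := by group
    rwa [e] at this
  · have := h3 _ k1 _ k2 _ k3
    have e : (aT (Td a c m))⁻¹ * ζ * aT (Td a c m) * ((aT (Td a c m))⁻¹ * uu hab s * aT (Td a c m))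
        * ((aT (Td a c m))⁻¹ * uu hbc t * aT (Td a c m))
        = (aT (Td a c m))⁻¹ * (ζ * uu hab s * uu hbc t) * aT (Td a c m) := by group
    rwa [e] at this

end Heis

end Crest.Agent.R014.DEnd5_71
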