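import Crest.Agent.R014.DEnd5_71
import Crest.Agent.R014.DEnd4b_935
import Crest.Agent.R014.Nd3_837

/-!
# Row 14, block D, END, part 6a (helper71): near invariance from swap data

The law of `(z, r)` of `DEnd4_935` as the image of a product, the smallness of the noise in front of
the last unipotent, and `core`: the invariance defect of `f` under `u_jl(v)` in terms of the entropy
gaps and of the mass of the concentrated observations.
-/

set_option autoImplicit false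

open MeasureTheory Filter Topology
open Crest.NumberTheoryR.Packets
open Crest.Agent.R014.Ms_667
open Crest.Agent.R014.Nd_837
open Crest.Agent.R014.Ne1_567
open Crest.Agent.R014.DEnd3_935
open Crest.Agent.R014.DEnd4_935
open Crest.Agent.R014.Nz_323 (bx Adm dg)
open scoped ENNReal

namespace Crest.Agent.R014.DEnd6_71

open DEnd5_71

variable {n : ℕ}

/-! ### the law of `(z, r)` -/

theorem tt_MM {ι κ : Type*} [Fintype κ] [Fintype ι] (ρ : κ → Measure (ModSpace n))
    [∀ c, IsFiniteMeasure (ρ c)] (V : ι → Measure (SLR n × ℝ)) [∀ i, IsFiniteMeasure (V i)] :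
    tt (MM ρ V) = ((tot ρ).prod (tot V)).map KP := by
  unfold tt MM
  rw [prod_tot, Measure.map_finset_sum measurable_KP.aemeasurable]

/-- the uniform law on the window of the root `hij` at depth `r`. -/
noncomputable def wd {i j : Fin n} (hij : i ≠ j) (r : ℝ) : Measure (SLR n) :=
  uni.map fun θ => uu hij ((2 : ℝ) ^ (-r) * θ)

theorem measurable_wd {i j : Fin n} (hij : i ≠ j) (r : ℝ) :
    Measurable fun θ : ℝ => (uu hij ((2 : ℝ) ^ (-r) * θ) : SLR n) :=
  ((continuous_uu hij).comp (by fun_prop)).measurable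

instance {i j : Fin n} (hij : i ≠ j) (r : ℝ) : IsProbabilityMeasure (wd hij r) :=
  Measure.isProbabilityMeasure_map (measurable_wd hij r).aemeasurable

theorem wd_ae {i j : Fin n} (hij : i ≠ j) (r : ℝ) : ∀ᵐ g ∂(wd hij r), g ∈ (rtG hij r : Set (SLR n)) := by
  refine (ae_map_iff (p := fun g => g ∈ (rtG hij r : Set (SLR n)))
    (measurable_wd hij r).aemeasurable (measurableSet_rtG hij r)).2 ?_
  filter_upwards [uni_ae] with θ hθ
  apply uu_mem_rtG
  rw [abs_mul, abs_of_pos (Real.rpow_pos_of_pos two_pos _)]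
  exact mul_le_of_le_one_right (Real.rpow_pos_of_pos two_pos _).le hθ

/-- the base space of the observation. -/
abbrev Om (n : ℕ) : Type := (ModSpace n × SLR n) × (SLR n × (SLR n × ℝ))

/-- the law on the base space. -/
noncomputable def PO (μ : Measure (ModSpace n)) (κ0 D : Measure (SLR n))
    (V : Measure (SLR n × ℝ)) : Measure (Om n) := (μ.prod κ0).prod (D.prod V)

instance (μ : Measure (ModSpace n)) (κ0 D : Measure (SLR n)) (V : Measure (SLR n × ℝ))
    [IsProbabilityMeasure μ] [IsProbabilityMeasure κ0] [IsProbabilityMeasure D]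
    [IsProbabilityMeasure V] : IsProbabilityMeasure (PO μ κ0 D V) := by unfold PO; infer_instance

theorem law_eq (μ : Measure (ModSpace n)) (κ0 D : Measure (SLR n)) (V : Measure (SLR n × ℝ))
    [IsProbabilityMeasure μ] [IsProbabilityMeasure κ0] [IsProbabilityMeasure D]
    [IsProbabilityMeasure V] :
    ((stp (stp μ κ0) D).prod V).map KP
      = (PO μ κ0 D V).map fun ω => (act ω.1.1 (ω.1.2 * ω.2.1 * ω.2.2.1), ω.2.2.2) := by
  have h1 : (stp (stp μ κ0) D) = ((μ.prod κ0).prod D).map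
      fun q : (ModSpace n × SLR n) × SLR n => act (act q.1.1 q.1.2) q.2 := by
    have h2 : (stp μ κ0).prod D = ((μ.prod κ0).prod D).map
        (Prod.map (fun p : ModSpace n × SLR n => act p.1 p.2) id) := by
      conv_lhs => rw [← Measure.map_id (μ := D)]
      exact Measure.map_prod_map _ _ measurable_act₂ measurable_id
    show ((stp μ κ0).prod D).map (fun p : ModSpace n × SLR n => act p.1 p.2) = _
    rw [h2, Measure.map_map measurable_act₂ (measurable_act₂.prodMap measurable_id)]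
    rfl
  have m1 : Measurable fun q : (ModSpace n × SLR n) × SLR n => act (act q.1.1 q.1.2) q.2 :=
    measurable_act₂.comp ((measurable_act₂.comp measurable_fst).prodMk measurable_snd)
  have h3 : (stp (stp μ κ0) D).prod V = (((μ.prod κ0).prod D).prod V).map
      (Prod.map (fun q : (ModSpace n × SLR n) × SLR n => act (act q.1.1 q.1.2) q.2) id) := by
    rw [h1]
    conv_lhs => rw [← Measure.map_id (μ := V)]
    exact Measure.map_prod_map _ _ m1 measurable_id
  have m2 : Measurable fun ω : Om n =>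
      ((act ω.1.1 (ω.1.2 * ω.2.1 * ω.2.2.1), ω.2.2.2) : ModSpace n × ℝ) := by
    refine Measurable.prodMk ?_ (measurable_snd.comp (measurable_snd.comp measurable_snd))
    refine measurable_act₂.comp ((measurable_fst.comp measurable_fst).prodMk ?_)
    exact ((measurable_snd.comp measurable_fst).mul (measurable_fst.comp measurable_snd)).mul
      (measurable_fst.comp (measurable_snd.comp measurable_snd))
  rw [h3, Measure.map_map measurable_KP (m1.prodMap measurable_id)]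
  unfold PO
  rw [← Measure.prodAssoc_prod, Measure.map_map m2 MeasurableEquiv.prodAssoc.measurable]
  congr 1
  funext q
  show KP _ = _
  unfold KP
  simp only [Prod.map_fst, Prod.map_snd, id_eq, Function.comp_apply, act_act]
  rfl

/-! ### the law of the two last unipotents -/

section Last

variable {j k p' q' : Fin n}

theorem VV_ae (hjk : j ≠ k) (hjl : p' ≠ q') (a c : ℝ) (b : ℕ) (i : Fin b) :
    ∀ᵐ p ∂(VV hjk hjl a c b i), p.1 * (uu hjl p.2)⁻¹ ∈ (rtG hjk a : Set (SLR n)) := by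
  have hm : MeasurableSet {p : SLR n × ℝ | p.1 * (uu hjl p.2)⁻¹ ∈ (rtG hjk a : Set (SLR n))} := by
    have h1 : Measurable fun p : SLR n × ℝ => p.1 * (uu hjl p.2)⁻¹ :=
      measurable_fst.mul (((continuous_uu hjl).measurable.comp measurable_snd).inv)
    exact h1 (measurableSet_rtG hjk a)
  unfold VV
  refine Measure.ae_smul_measure ?_ _
  refine (ae_map_iff (measurable_VV hjk hjl a c b i).aemeasurable hm).2 ?_
  have h1 : ∀ᵐ p ∂(uni.prod uni), |p.1| ≤ 1 :=
    Measure.quasiMeasurePreserving_fst.ae uni_ae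
  filter_upwards [h1] with p hp
  have h2 : (uu hjk (sv a b i p.1) * uu hjl ((2 : ℝ) ^ (-c) * p.2) : SLR n)
      * (uu hjl ((2 : ℝ) ^ (-c) * p.2))⁻¹ = uu hjk (sv a b i p.1) := by
    rw [mul_assoc, mul_inv_cancel, mul_one]
  rw [h2]
  exact uu_mem_rtG hjk (abs_sv_le a i hp)

theorem tot_VV_ae (hjk : j ≠ k) (hjl : p' ≠ q') (a c : ℝ) (b : ℕ) :
    ∀ᵐ p ∂(tot (VV hjk hjl a c b)), p.1 * (uu hjl p.2)⁻¹ ∈ (rtG hjk a : Set (SLR n)) := by
  unfold tot
  rw [ae_finsetSum_measure_iff]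
  intro i _
  exact VV_ae hjk hjl a c b i

end Last

/-! ### the core estimate -/

section Core

variable {j k l : Fin n}

theorem abs_rp_le (b : ℕ) (i : Fin b) : |rp 0 b i| ≤ 1 := by
  have h := abs_sv_le (0 : ℝ) i (θ := 0) (by simp)
  rw [sv_zero, neg_zero, Real.rpow_zero] at h
  exact h

theorem abs_th_le (bs bt : ℕ) (q : Fin bs × Fin bs × Fin bt × Fin bt) :
    |th (rp 0 bs) (rp 0 bt) q| ≤ 4 := by
  unfold th
  rw [abs_mul]
  have h1 : |rp 0 bs q.1 - rp 0 bs q.2.1| ≤ 2 := by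
    refine (abs_sub _ _).trans ?_
    have a1 := abs_rp_le bs q.1
    have a2 := abs_rp_le bs q.2.1
    linarith
  have h2 : |rp 0 bt q.2.2.1 - rp 0 bt q.2.2.2| ≤ 2 := by
    refine (abs_sub _ _).trans ?_
    have a1 := abs_rp_le bt q.2.2.1
    have a2 := abs_rp_le bt q.2.2.2
    linarith
  calc _ ≤ (2 : ℝ) * 2 := mul_le_mul h1 h2 (abs_nonneg _) (by norm_num)
    _ = 4 := by norm_num

/-- the conclusion of `Sw.fin` for shifts of both signs. -/
theorem fin_abs {Z ι κ : Type*} [MeasurableSpace Z] [Fintype ι] [Fintype κ]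
    {M1 : ι → Measure (Z × ℝ)} {M2 : κ → Measure (Z × ℝ)} [∀ i, IsFiniteMeasure (M1 i)]
    [∀ k, IsFiniteMeasure (M2 k)] {S : ι → ℝ} {T : κ → ℝ}
    {p : ι → Z → ℝ} {q : κ → Z → ℝ} {k0 ω e : ℝ} (D : Sw M1 M2 S T p q k0 ω e)
    {F : Z → ℝ → ℝ} (hF : Tm k0 ω F) {a c0 ω2 u B n0 e2 : ℝ}
    (ha : 0 < a) (hc0 : ∀ j, |th S T j| ≤ c0) (hn0 : 0 < n0)
    (hF2 : ∀ z x y, |x - y| ≤ c0 → |F z x - F z y| ≤ ω2) (hω2 : 0 ≤ ω2) (he : 0 ≤ e)
    (hu : |u| ≤ B) (htot : (tt M1).real Set.univ ≤ 1)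
    (hNC : (tt M1).real {x | nn S T p q a x.1 < n0} ≤ e2) :
    |(∫ x, F x.1 (x.2 + u) ∂(tt M1)) - ∫ x, F x.1 x.2 ∂(tt M1)|
      ≤ 2 * e2 + B / a * (6 * e) / n0 + ω2 := by
  rcases le_total 0 u with h | h
  · rw [abs_sub_comm]
    exact D.fin hF ha hc0 hn0 hF2 hω2 he h ((le_abs_self _).trans hu) htot hNC
  · have h1 := D.fin (hF.shift u) ha hc0 hn0 (ω2 := ω2)
      (fun z x y hxy => hF2 z _ _ (by rwa [add_sub_add_right_eq_sub])) hω2 he
      (neg_nonneg.2 h) ((neg_le_abs _).trans hu) htot hNC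
    simpa [add_assoc] using h1

theorem core (hjk : j ≠ k) (hkl : k ≠ l) (hjl : j ≠ l) {f : ModSpace n → ℝ}
    (hf : Iface_792.RUC f) (v : ℝ) {e : ℝ} (he : 0 < e) :
    ∃ Bf Lc w2 : ℝ, 0 < Bf ∧ 0 < Lc ∧ (∀ x, |f x| ≤ Bf) ∧
      ∀ (R : Fin n → Fin n → ℝ), Adm R → (∀ p q, w2 ≤ R p q) →
      ∀ μ : Measure (ModSpace n), IsProbabilityMeasure μ → AInv μ →
      ∀ (γ : ℝ) (bs bt : ℕ), 0 < bs → 0 < bt → ∀ η1 η2 a n0 e2 : ℝ, 0 < a → 0 < n0 →
        Hc (nz (lab μ (zt R) hkl 0 bt) (tot (VV hjk hjl 0 γ bs)) KK)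
          - Hc (lab μ (zt R) hkl 0 bt) ≤ η1 →
        Hc (nz (lab μ (zt R) hjk 0 bs) (tot (VV hkl hjl 0 γ bt)) KK)
          - Hc (lab μ (zt R) hjk 0 bs) ≤ η2 →
        (tt (MM (lab μ (zt R) hkl 0 bt) (VV hjk hjl 0 γ bs))).real {x | nn (rp 0 bs) (rp 0 bt)
          (PP (lab μ (zt R) hjk 0 bs) (VV hkl hjl 0 γ bt))
          (PP (lab μ (zt R) hkl 0 bt) (VV hjk hjl 0 γ bs)) a x.1 < n0} ≤ e2 →
        |∫ x, f (act x (uu hjl v)) ∂μ - ∫ x, f x ∂μ|
          ≤ 2 * e + Bf * (2 * e2 + Lc / a * (√(4 * η1) + √(4 * η2) + ((2 : ℝ) ^ γ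
            + Lc * (1 / bs + 1 / bt))) / n0) := by
  obtain ⟨B0, hB0⟩ := hf.1
  set B : ℝ := max B0 1 with hB
  have hBpos : 0 < B := lt_of_lt_of_le one_pos (le_max_right _ _)
  have hfB : ∀ x, |f x| ≤ B := fun x => (hB0 x).trans (le_max_left _ _)
  have hfc := ruc_continuous hf
  obtain ⟨U, δ, hU, hδ, hδ1, htr⟩ := transport hf hjl v he
  obtain ⟨w0, hw0, hsm⟩ := small_of hjk hkl hjl hU
  -- the scale of the transport
  obtain ⟨N, hN⟩ := exists_pow_lt_of_lt_one (show 0 < e * δ / (8 * B) by positivity)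
    (by norm_num : (1 / 2 : ℝ) < 1)
  set w1 : ℝ := max w0 N with hw1
  have hw1N : (N : ℝ) ≤ 2 * w1 := by
    have h1 : (N : ℝ) ≤ w1 := le_max_right _ _
    have h2 : 0 ≤ w1 := hw0.trans (le_max_left _ _)
    linarith
  have h2w : (2 : ℝ) ^ (-(2 * w1)) ≤ e * δ / (8 * B) := by
    have h1 : (2 : ℝ) ^ (-(2 * w1)) ≤ (2 : ℝ) ^ (-(N : ℝ)) :=
      Real.rpow_le_rpow_of_exponent_le one_le_two (neg_le_neg hw1N)
    have h2 : (2 : ℝ) ^ (-(N : ℝ)) = (1 / 2 : ℝ) ^ N := by
      rw [Real.rpow_neg two_pos.le, Real.rpow_natCast, one_div, inv_pow]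
    rw [h2] at h1
    exact h1.trans hN.le
  set T : Fin n → ℝ := Td j l (-(2 * w1)) with hT
  have hTj : T j = w1 := by rw [hT, Td_a]; ring
  have hTl : T l = -w1 := by rw [hT, Td_c hjl]; ring
  have hTd : T j - T l = 2 * w1 := by rw [hTj, hTl]; ring
  have hTd' : T l - T j = -(2 * w1) := by rw [hTj, hTl]; ring
  set L : ℝ := 2 * (2 : ℝ) ^ (T l - T j) / δ with hL
  have hLpos : 0 < L := by rw [hL]; positivity
  set Bu : ℝ := (2 : ℝ) ^ (T j - T l) * |v| with hBu
  have hBu0 : 0 ≤ Bu := by rw [hBu]; positivity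
  have hBL : B * (L * 4) ≤ e := by
    rw [hL, hTd']
    have h1 : B * (2 * (2 : ℝ) ^ (-(2 * w1)) / δ * 4) = 8 * B / δ * (2 : ℝ) ^ (-(2 * w1)) := by
      field_simp; ring
    rw [h1]
    calc 8 * B / δ * (2 : ℝ) ^ (-(2 * w1)) ≤ 8 * B / δ * (e * δ / (8 * B)) :=
          mul_le_mul_of_nonneg_left h2w (by positivity)
      _ = e := by field_simp
  refine ⟨B, max (6 * Bu) (max L 1), w0 + 2 * w1, hBpos,
    lt_of_lt_of_le one_pos ((le_max_right _ _).trans (le_max_right _ _)), hfB, ?_⟩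
  intro R hR hRw μ hμp hμ γ bs bt hbs hbt η1 η2 a n0 e2 ha hn0 H1 H2 hNC
  set Lc : ℝ := max (6 * Bu) (max L 1) with hLc
  have hzt : IsProbabilityMeasure (zt R) := isProb_zt hR
  set k0 : ℝ := 1 / bs + 1 / bt with hk0
  have hk00 : 0 ≤ k0 := by positivity
  set F : ModSpace n → ℝ → ℝ := fun z r => B⁻¹ * Fm f hjl T δ z r with hF
  have hFt : DEnd2_935.Tst L F := tst_Fm hfc hfB hBpos hδ
  have hFm : Tm k0 (L * k0) F := Tm.of_tst hLpos.le hFt k0
  have D := sw_of μ (zt R) hjk hkl hjl 0 0 γ hbs hbt (ω := L * k0) (k0 := k0) (by positivity)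
    H1 H2 (by
      rw [neg_zero, Real.rpow_zero, one_mul, one_mul, hk0, add_comm])
  have hV : IsProbabilityMeasure (tot (VV hjk hjl 0 γ bs)) := prob_VV hjk hjl 0 γ hbs
  -- the law of the observation
  have hlaw : tt (MM (lab μ (zt R) hkl 0 bt) (VV hjk hjl 0 γ bs))
      = (PO μ (zt R) (wd hkl 0) (tot (VV hjk hjl 0 γ bs))).map
        fun ω => (act ω.1.1 (ω.1.2 * ω.2.1 * ω.2.2.1), ω.2.2.2) := by
    rw [tt_MM, tot_lab_eq μ (zt R) hkl 0 hbt, ← law_eq, stp_stp]
    rfl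
  set P := PO μ (zt R) (wd hkl 0) (tot (VV hjk hjl 0 γ bs)) with hP
  have m2 : Measurable fun ω : Om n =>
      ((act ω.1.1 (ω.1.2 * ω.2.1 * ω.2.2.1), ω.2.2.2) : ModSpace n × ℝ) := by
    refine Measurable.prodMk ?_ (measurable_snd.comp (measurable_snd.comp measurable_snd))
    refine measurable_act₂.comp ((measurable_fst.comp measurable_fst).prodMk ?_)
    exact ((measurable_snd.comp measurable_fst).mul (measurable_fst.comp measurable_snd)).mul
      (measurable_fst.comp (measurable_snd.comp measurable_snd))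
  have htot : (tt (MM (lab μ (zt R) hkl 0 bt) (VV hjk hjl 0 γ bs))).real Set.univ ≤ 1 := by
    rw [hlaw]
    have : IsProbabilityMeasure (P.map fun ω : Om n =>
      ((act ω.1.1 (ω.1.2 * ω.2.1 * ω.2.2.1), ω.2.2.2) : ModSpace n × ℝ)) :=
      Measure.isProbabilityMeasure_map m2.aemeasurable
    exact measureReal_le_one
  -- the data of the transport
  set X : Om n → ModSpace n := fun ω => ω.1.1 with hX
  set g : Om n → SLR n := fun ω => ω.1.2 * ω.2.1 * (ω.2.2.1 * (uu hjl ω.2.2.2)⁻¹) with hg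
  set r : Om n → ℝ := fun ω => ω.2.2.2 with hr
  have hXm : Measurable X := measurable_fst.comp measurable_fst
  have hrm : Measurable r := measurable_snd.comp (measurable_snd.comp measurable_snd)
  have hgm : Measurable g := by
    refine ((measurable_snd.comp measurable_fst).mul (measurable_fst.comp measurable_snd)).mul ?_
    exact (measurable_fst.comp (measurable_snd.comp measurable_snd)).mul
      (((continuous_uu hjl).measurable.comp hrm).inv)
  have hPX : P.map X = μ := by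
    have h1 : MeasurePreserving (Prod.fst : Om n → ModSpace n × SLR n) P (μ.prod (zt R)) :=
      measurePreserving_fst
    have h2 : MeasurePreserving (Prod.fst : ModSpace n × SLR n → ModSpace n) (μ.prod (zt R)) μ :=
      measurePreserving_fst
    exact (h2.comp h1).map_eq
  have hsmall : ∀ᵐ ω ∂P, (aT T)⁻¹ * g ω * aT T ∈ U := by
    have q1 : ∀ᵐ ω ∂P, ω.1.2 ∈ bxG R := by
      have h1 : ∀ᵐ p ∂(μ.prod (zt R)), p.2 ∈ bxG R :=
        Measure.quasiMeasurePreserving_snd.ae (zt_ae hR)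
      exact Measure.quasiMeasurePreserving_fst.ae h1
    have q2 : ∀ᵐ ω ∂P, ω.2.1 ∈ (rtG hkl 0 : Set (SLR n)) := by
      have h1 : ∀ᵐ p ∂((wd hkl 0).prod (tot (VV hjk hjl 0 γ bs))),
          p.1 ∈ (rtG hkl 0 : Set (SLR n)) :=
        Measure.quasiMeasurePreserving_fst.ae (wd_ae hkl 0)
      exact Measure.quasiMeasurePreserving_snd.ae h1
    have q3 : ∀ᵐ ω ∂P, ω.2.2.1 * (uu hjl ω.2.2.2)⁻¹ ∈ (rtG hjk 0 : Set (SLR n)) := by
      have h1 : ∀ᵐ p ∂((wd hkl 0).prod (tot (VV hjk hjl 0 γ bs))),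
          p.2.1 * (uu hjl p.2.2)⁻¹ ∈ (rtG hjk 0 : Set (SLR n)) :=
        Measure.quasiMeasurePreserving_snd.ae (tot_VV_ae hjk hjl 0 γ bs)
      exact Measure.quasiMeasurePreserving_snd.ae h1
    filter_upwards [q1, q2, q3] with ω h1 h2 h3
    obtain ⟨t, ht, ht2⟩ := h2
    obtain ⟨s, hs, hs2⟩ := h3
    have hrp : ∀ x : ℝ, x ∈ Set.Icc (-(2 : ℝ) ^ (-(0 : ℝ))) ((2 : ℝ) ^ (-(0 : ℝ))) →
        |x| ≤ (2 : ℝ) ^ (-((-(2 * w1)) / 2 + w0)) := by
      intro x hx
      rw [neg_zero, Real.rpow_zero] at hx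
      refine (abs_le.2 ⟨hx.1, hx.2⟩).trans ?_
      refine Real.one_le_rpow one_le_two ?_
      have : w0 ≤ w1 := le_max_left _ _
      linarith
    have h4 := (hsm (-(2 * w1)) R hR (by
      intro p q
      have h5 := hRw p q
      have h6 : ∀ x : Fin n, |Td j l (-(2 * w1)) x| ≤ w1 := by
        intro x
        have hw1p : 0 ≤ w1 := hw0.trans (le_max_left _ _)
        unfold Td
        split_ifs
        · rw [abs_le]; constructor <;> linarith
        · rw [abs_le]; constructor <;> linarith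
        · rw [abs_zero]; exact hw1p
      have h7 := abs_le.1 (h6 p)
      have h8 := abs_le.1 (h6 q)
      linarith [h7.1, h8.2]) ω.1.2 h1 s t (hrp s hs) (hrp t ht)).1
    have h5 : g ω = ω.1.2 * uu hkl t * uu hjk s := by
      rw [hg]; simp only; rw [← ht2, ← hs2]
    rw [h5]
    exact h4
  have key := htr T P μ hμ X g r hXm hgm hrm hPX hsmall
  -- identification of the integrals
  have hz : ∀ ω : Om n, act (X ω) (g ω * uu hjl (r ω)) = act ω.1.1 (ω.1.2 * ω.2.1 * ω.2.2.1) := by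
    intro ω
    rw [hX, hg, hr]
    simp only
    congr 1
    group
  have hint : ∀ c : ℝ, ∫ ω, Fm f hjl T δ (act (X ω) (g ω * uu hjl (r ω))) (r ω + c) ∂P
      = B * ∫ x, F x.1 (x.2 + c) ∂(tt (MM (lab μ (zt R) hkl 0 bt) (VV hjk hjl 0 γ bs))) := by
    intro c
    have hmF : Measurable fun x : ModSpace n × ℝ => F x.1 (x.2 + c) := (hFt.shift c).meas
    rw [hlaw, integral_map m2.aemeasurable hmF.aestronglyMeasurable, ← integral_const_mul]
    refine integral_congr_ae (Eventually.of_forall fun ω => ?_)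
    simp only
    rw [hz, hF]
    simp only
    rw [← mul_assoc, mul_inv_cancel₀ hBpos.ne', one_mul]
  have hi1 := hint (-((2 : ℝ) ^ (T j - T l) * v))
  have hi2 := hint 0
  simp only [add_zero, ← sub_eq_add_neg] at hi1 hi2
  rw [hi1, hi2, ← mul_sub, abs_mul, abs_of_pos hBpos] at key
  have hfin := fin_abs D hFm (u := -((2 : ℝ) ^ (T j - T l) * v)) (B := Bu) (ω2 := L * 4) ha
    (abs_th_le bs bt) hn0 (fun z x y hxy => (hFt.lip z x y).trans
      (mul_le_mul_of_nonneg_left hxy hLpos.le)) (by positivity) (by positivity)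
    (by rw [abs_neg, abs_mul, abs_of_pos (Real.rpow_pos_of_pos two_pos _)]) htot hNC
  simp only [← sub_eq_add_neg] at hfin
  refine key.trans ?_
  have h1 : B * |(∫ x, F x.1 (x.2 - (2 : ℝ) ^ (T j - T l) * v)
        ∂(tt (MM (lab μ (zt R) hkl 0 bt) (VV hjk hjl 0 γ bs))))
      - ∫ x, F x.1 x.2 ∂(tt (MM (lab μ (zt R) hkl 0 bt) (VV hjk hjl 0 γ bs)))|
      ≤ B * (2 * e2 + Bu / a * (6 * (√(4 * η1) + √(4 * η2) + ((2 : ℝ) ^ (γ - 0 - 0) + L * k0)))
        / n0 + L * 4) := mul_le_mul_of_nonneg_left hfin hBpos.le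
  have h2 : Bu / a * (6 * (√(4 * η1) + √(4 * η2) + ((2 : ℝ) ^ (γ - 0 - 0) + L * k0))) / n0
      ≤ Lc / a * (√(4 * η1) + √(4 * η2) + ((2 : ℝ) ^ γ + Lc * k0)) / n0 := by
    rw [sub_zero, sub_zero]
    have h3 : Bu / a * (6 * (√(4 * η1) + √(4 * η2) + ((2 : ℝ) ^ γ + L * k0)))
        = 6 * Bu / a * (√(4 * η1) + √(4 * η2) + ((2 : ℝ) ^ γ + L * k0)) := by ring
    rw [h3]
    have h4 : L ≤ Lc := (le_max_left _ _).trans (le_max_right _ _)
    have h5 : 6 * Bu ≤ Lc := le_max_left _ _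
    gcongr
  have h6 : B * (2 * e2 + Bu / a * (6 * (√(4 * η1) + √(4 * η2) + ((2 : ℝ) ^ (γ - 0 - 0)
        + L * k0))) / n0 + L * 4)
      ≤ B * (2 * e2 + Lc / a * (√(4 * η1) + √(4 * η2) + ((2 : ℝ) ^ γ + Lc * k0)) / n0) + e := by
    rw [mul_add]
    exact add_le_add (mul_le_mul_of_nonneg_left (by linarith) hBpos.le) hBL
  linarith

end Core

end Crest.Agent.R014.DEnd6_71
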