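import Crest.Agent.R014.DEnd6a_71
import Crest.Agent.R014.DEnd3f_667
import Crest.Agent.R014.AsmB2_460

/-!
# Row 14, block D, END, part 6b (helper71): order of the constants

`GapSt`: the two entropy gaps from near constancy.  `end_st`: together with helper667's `nc_final`
and `core` they give `AsmB_460.End' PZ Fr`.
-/

set_option autoImplicit false

open MeasureTheory Filter Topology
open Crest.NumberTheoryR.Packets
open Crest.Agent.R014.Ms_667
open Crest.Agent.R014.Nd_837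
open Crest.Agent.R014.Ne1_567
open Crest.Agent.R014.DEnd3_935
open Crest.Agent.R014.DEnd4_935
open Crest.Agent.R014.NScH_395 (NC PZ c1N)
open Crest.Agent.R014.NScG_458 (RN)
open Crest.Agent.R014.Sw4_640 (Rg e0)
open Crest.Agent.R014.DSkel_792 (tz)
open Crest.Agent.R014.AsmB2_460 (Fr)
open scoped ENNReal

namespace Crest.Agent.R014.DEnd6_71

/-- the two entropy gaps of the Heisenberg observation. -/
def GapSt (n : ℕ) : Prop :=
  ∀ b : ℕ, 0 < b → ∀ η' : ℝ, 0 < η' → ∃ η U D0 : ℝ, 0 < η ∧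
    ∀ μ : Measure (ModSpace n), IsProbabilityMeasure μ → AInv μ →
    ∀ u1 u2 M W : ℝ, U ≤ u1 → 100 * (u1 + W) ≤ M → 2 * M ≤ u2 / 20 → NC μ u1 u2 {b} η →
    ∀ (j k l : Fin n) (hjk : j ≠ k) (hkl : k ≠ l) (hjl : j ≠ l) (γ : ℝ), |γ| ≤ W → D0 ≤ -γ →
      Hc (nz (lab μ (zt (RN j k l M)) hkl 0 b) (tot (VV hjk hjl 0 γ b)) KK)
        - Hc (lab μ (zt (RN j k l M)) hkl 0 b) ≤ η' ∧
      Hc (nz (lab μ (zt (RN j k l M)) hjk 0 b) (tot (VV hkl hjl 0 γ b)) KK)
        - Hc (lab μ (zt (RN j k l M)) hjk 0 b) ≤ η'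

/-! ### elementary choices -/

theorem exists_half_pow {x : ℝ} (hx : 0 < x) : ∃ N : ℕ, ∀ s : ℝ, N ≤ s → (2 : ℝ) ^ (-s) ≤ x := by
  obtain ⟨N, hN⟩ := exists_pow_lt_of_lt_one hx (by norm_num : (1 / 2 : ℝ) < 1)
  refine ⟨N, fun s hs => ?_⟩
  have h1 : (2 : ℝ) ^ (-s) ≤ (2 : ℝ) ^ (-(N : ℝ)) :=
    Real.rpow_le_rpow_of_exponent_le one_le_two (neg_le_neg hs)
  have h2 : (2 : ℝ) ^ (-(N : ℝ)) = (1 / 2 : ℝ) ^ N := by
    rw [Real.rpow_neg two_pos.le, Real.rpow_natCast, one_div, inv_pow]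
  rw [h2] at h1
  exact h1.trans hN.le

theorem exists_inv_le {x A : ℝ} (hx : 0 < x) (hA : 0 ≤ A) : ∃ N : ℕ, 0 < N ∧ ∀ b : ℕ, N ≤ b →
    A * (1 / b) ≤ x := by
  obtain ⟨N, hN⟩ := exists_nat_gt (A / x)
  have hN0 : (0 : ℝ) < N := lt_of_le_of_lt (by positivity) hN
  refine ⟨N, by exact_mod_cast hN0, fun b hb => ?_⟩
  have hb' : (N : ℝ) ≤ b := by exact_mod_cast hb
  have hb0 : (0 : ℝ) < b := hN0.trans_le hb'
  rw [div_lt_iff₀ hx] at hN
  rw [mul_one_div, div_le_iff₀ hb0]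
  nlinarith

/-- the final arithmetic. -/
theorem final_arith {ε'' Bf Lc Y a n0 : ℝ} (hB : 0 < Bf) (hL : 0 < Lc)
    (ha : 0 < a) (hn : 0 < n0)
    (hY : Y ≤ ε'' * (a * a) * (n0 * n0) / (8 * Bf * Lc)) (hε : 0 < ε'') :
    2 * (ε'' / 8) + Bf * (2 * (2 * (ε'' / (32 * Bf)) + ε'' / (16 * Bf))
      + Lc / (a * a) * Y / (n0 * n0)) ≤ ε'' := by
  have h5 : Bf * (Lc / (a * a) * Y / (n0 * n0)) ≤ ε'' / 8 := by
    calc Bf * (Lc / (a * a) * Y / (n0 * n0))
        ≤ Bf * (Lc / (a * a) * (ε'' * (a * a) * (n0 * n0) / (8 * Bf * Lc)) / (n0 * n0)) := by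
          gcongr
      _ = ε'' / 8 := by field_simp
  have h6 : Bf * (2 * (2 * (ε'' / (32 * Bf)) + ε'' / (16 * Bf))) = ε'' / 4 := by
    field_simp; ring
  rw [mul_add, h6]
  linarith

/-- **END**, from the entropy gaps. -/
theorem end_st {n : ℕ} (hn : 3 ≤ n) (hG : GapSt n) : AsmB_460.End' (n := n) PZ Fr := by
  intro f hf i j hij v ε'' hε
  obtain ⟨k, hik, hkj⟩ : ∃ k : Fin n, i ≠ k ∧ k ≠ j := by
    have hc : ({i, j} : Finset (Fin n)).card < (Finset.univ : Finset (Fin n)).card := by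
      rw [Finset.card_univ, Fintype.card_fin]
      exact lt_of_le_of_lt (Finset.card_le_two) (by omega)
    obtain ⟨k, _, hk⟩ := Finset.exists_mem_notMem_of_card_lt_card hc
    simp only [Finset.mem_insert, Finset.mem_singleton, not_or] at hk
    exact ⟨k, Ne.symm hk.1, hk.2⟩
  obtain ⟨Bf, Lc, w2, hBf, hLc, hfB, hcore⟩ := core hik hkj hij hf v
    (show 0 < ε'' / 8 by positivity)
  refine ⟨ε'' / (32 * Bf), by positivity, fun G τ hτ => ?_⟩
  obtain ⟨C, a, n0, ha, hn0, b0, K0, hnc⟩ := DEnd3_667.nc_final n hτ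
    (show 0 < ε'' / (16 * Bf) by positivity) G
  refine ⟨K0, fun K hK => AsmB2_460.ev_of ?_⟩
  set y0 : ℝ := ε'' * (a * a) * (n0 * n0) / (8 * Bf * Lc) with hy0
  have hy0p : 0 < y0 := by positivity
  obtain ⟨b1, hb1, hb1'⟩ := exists_inv_le (x := y0 / 3) (A := 2 * Lc) (by positivity)
    (by positivity)
  set b : ℕ := max b0 b1 with hb
  have hbpos : 0 < b := lt_of_lt_of_le hb1 (le_max_right _ _)
  have hbl := hb1' b (le_max_right _ _)
  obtain ⟨D1, w0, η0, hη0, hnc⟩ := hnc b K (le_max_left _ _) hK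
  obtain ⟨ηg, Ug, D2, hηg, hgap⟩ := hG b hbpos ((y0 / 12) ^ 2) (by positivity)
  obtain ⟨N, hN⟩ := exists_half_pow (x := y0 / 3) (by positivity)
  set D : ℝ := max D1 (max D2 N) with hD
  have hD1 : D1 ≤ D := le_max_left _ _
  have hD2 : D2 ≤ D := (le_max_left _ _).trans (le_max_right _ _)
  have hDN : (N : ℝ) ≤ D := (le_max_right _ _).trans (le_max_right _ _)
  have hD0 : 0 ≤ D := (Nat.cast_nonneg N).trans hDN
  have hγ : (2 : ℝ) ^ (-D) ≤ y0 / 3 := hN D hDN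
  set W : ℝ := max ((C : ℝ) + G) D with hW
  have hW0 : 0 ≤ W := hD0.trans (le_max_right _ _)
  set w : ℝ := max w0 0 with hw
  have hw0 : 0 ≤ w := le_max_right _ _
  set U : ℝ := max Ug (max W (max (20 * w) (max (20 * c1N n) (max w2 0)))) with hU
  refine ⟨{b, 2 ^ K}, min ηg η0, 1 / 20000, U, lt_min hηg hη0, by norm_num, ?_⟩
  intro μ hμp hμ u1 u2 hU1 hu12 hN' hfree
  have g1 : Ug ≤ u1 := (le_max_left _ _).trans hU1
  have g2 : W ≤ u1 := ((le_max_left _ _).trans (le_max_right _ _)).trans hU1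
  have g3 : 20 * w ≤ u1 :=
    (((le_max_left _ _).trans (le_max_right _ _)).trans (le_max_right _ _)).trans hU1
  have g4 : 20 * c1N n ≤ u1 :=
    ((((le_max_left _ _).trans (le_max_right _ _)).trans (le_max_right _ _)).trans
      (le_max_right _ _)).trans hU1
  have g5 : w2 ≤ u1 :=
    (((((le_max_left _ _).trans (le_max_right _ _)).trans (le_max_right _ _)).trans
      (le_max_right _ _)).trans (le_max_right _ _)).trans hU1
  have hu10 : 0 ≤ u1 := hW0.trans g2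
  set M : ℝ := 100 * (u1 + W) with hM
  have hM0 : 0 ≤ M := by positivity
  have hadm : ((n.factorial : ℝ) + 1) * 2 ^ (n + 1) ≤ (2 : ℝ) ^ (u1 / 20) := by
    have h1 : c1N n ≤ u1 / 20 := by linarith
    have h2 : ((n.factorial : ℝ) + 1) * 2 ^ (n + 1) = (2 : ℝ) ^ (c1N n) := by
      unfold NScH_395.c1N
      rw [Real.rpow_logb two_pos (by norm_num) (by positivity)]
    rw [h2]
    exact Real.rpow_le_rpow_of_exponent_le one_le_two h1
  have hR1 : Rg n M u1 u2 w W :=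
    ⟨hw0, by linarith, hW0, hadm, by rw [hM]; linarith, by rw [hM]; linarith⟩
  have hR2 : Rg n (2 * M) u1 u2 w W :=
    ⟨hw0, by linarith, hW0, hadm, by rw [hM]; linarith, by rw [hM]; linarith⟩
  have hNg : NC μ u1 u2 {b} ηg :=
    hN'.mono (Finset.singleton_subset_iff.2 (Finset.mem_insert_self _ _)) (min_le_left _ _)
  have hgap' := hgap μ hμp hμ u1 u2 M W g1 le_rfl (by rw [hM]; linarith) hNg i k j hik hkj hij (-D)
    (by rw [abs_neg, abs_of_nonneg hD0]; exact le_max_right _ _) (by rw [neg_neg]; exact hD2)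
  have hncc := hnc μ hμ M u1 u2 w W (min ηg η0) {b, 2 ^ K} hR1 hR2 (le_max_left _ _) g4
    (min_le_right _ _) hN' (Finset.mem_insert_of_mem (Finset.mem_singleton_self _))
    (le_max_left _ _) i k j hik hkj hij (-D) (by linarith) (ε'' / (32 * Bf))
    (hfree i k hik) (hfree k j hkj)
  have hc := hcore (RN i k j M) hR1.adm_RN (fun p q => by
      have h1 := NScG_458.RN_ge (j := i) (k := k) (l := j) hM0 p q
      rw [hM] at h1
      linarith) μ hμp hμ (-D) b b hbpos hbpos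
    ((y0 / 12) ^ 2) ((y0 / 12) ^ 2) (a * a) (n0 * n0) (2 * (ε'' / (32 * Bf)) + ε'' / (16 * Bf))
    (by positivity) (by positivity) hgap'.1 hgap'.2 hncc
  refine le_trans hc ?_
  have hs : √(4 * (y0 / 12) ^ 2) = y0 / 6 := by
    rw [show 4 * (y0 / 12) ^ 2 = (y0 / 6) ^ 2 by ring]
    exact Real.sqrt_sq (by positivity)
  have hY : √(4 * (y0 / 12) ^ 2) + √(4 * (y0 / 12) ^ 2) + ((2 : ℝ) ^ (-D)
      + Lc * (1 / (b : ℝ) + 1 / (b : ℝ))) ≤ y0 := by
    rw [hs]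
    have h1 : Lc * (1 / (b : ℝ) + 1 / (b : ℝ)) = 2 * Lc * (1 / b) := by ring
    rw [h1]
    linarith
  exact final_arith hBf hLc ha hn0 hY hε

end Crest.Agent.R014.DEnd6_71
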