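import Crest.Agent.R014.DEnd6b_71
import Crest.Agent.R014.Gap_640

/-!
# Row 14, block D, END, final form (helper71): `AsmB_460.End' PZ Fr` and `End' PSr Fr`
-/

set_option autoImplicit false

open MeasureTheory
open Crest.NumberTheoryR.Packets

namespace Crest.Agent.R014.DEnd6_71

theorem gapSt (n : ℕ) : GapSt n := by
  intro b hb η' hη'
  obtain ⟨η, U, D0, hη, _, _, h⟩ := Gap_640.gap (n := n) hb hb hη'
  refine ⟨η, U, D0, hη, fun μ hp hA u1 u2 M W h1 h2 h3 hN j k l hjk hkl hjl γ hγ hD => ?_⟩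
  have hN' : NScH_395.NC μ u1 u2 {b, b} η := by
    rw [Finset.pair_eq_singleton]; exact hN
  have hW : 0 ≤ W := (abs_nonneg γ).trans hγ
  exact h μ hp hA u1 u2 M W h1 h2 h3 hN' j k l hjk hkl hjl 0 0 γ (by rw [abs_zero]; exact hW)
    (by rw [abs_zero]; exact hW) hγ (by linarith)

/-- **END.** -/
theorem endZ {n : ℕ} (hn : 3 ≤ n) : AsmB_460.End' (n := n) NScH_395.PZ AsmB2_460.Fr :=
  end_st hn (gapSt n)

/-- **END**, in the form consumed by `AsmB2_460.thmB_of`. -/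
theorem endR {n : ℕ} (hn : 3 ≤ n) : AsmB_460.End' (n := n) AsmB2_460.PSr AsmB2_460.Fr :=
  AsmB2_460.end_of (endZ hn)

end Crest.Agent.R014.DEnd6_71
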