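/-
helper684, row 14, task 923 (DIVB).  Divisor bounds for ideals, uniform in the number field of
given degree:

* `card_dvd_le`   : #{b ∣ a} ≤ C(n,ε) N(a)^ε,
* `card_norm_le`  : #{a : N a = m} ≤ C(n,ε) m^ε,
* `card_norm_le_X`: #{a ≠ 0 : N a ≤ X} ≤ C(n,ε) X^(1+ε),
* `card_primes_norm_eq`, `card_primes_norm_le` : at most `n` primes of given norm `m ≥ 2`.
-/
import Mathlib

set_option autoImplicit false

open NumberField Ideal UniqueFactorizationMonoid

noncomputable section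

namespace Crest.Agent.R014.DivB_684

universe u

section basic

variable {K : Type u} [Field K] [NumberField K]

/-- the norm of the principal ideal `(m)` is `m ^ [K : ℚ]`. -/
theorem absNorm_span_nat (m : ℕ) :
    absNorm (span {(m : 𝓞 K)}) = m ^ Module.finrank ℚ K := by
  rw [absNorm_span_singleton]
  have h1 : (m : 𝓞 K) = algebraMap ℤ (𝓞 K) (m : ℤ) := by simp
  rw [h1, Algebra.norm_algebraMap]
  rw [RingOfIntegers.rank]
  simp [Int.natAbs_pow]

/-- Every nonzero ideal divides the principal ideal generated by its norm. -/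
theorem dvd_span_absNorm (a : Ideal (𝓞 K)) : a ∣ span {((absNorm a : ℕ) : 𝓞 K)} := by
  rw [dvd_span_singleton]
  exact absNorm_mem a

/-- At most `n = [K : ℚ]` primes of given norm `m ≥ 2`. -/
theorem card_primes_norm_eq (m : ℕ) (hm : 2 ≤ m) (S : Finset (Ideal (𝓞 K)))
    (hS : ∀ P ∈ S, P.IsPrime ∧ P ≠ ⊥ ∧ absNorm P = m) : S.card ≤ Module.finrank ℚ K := by
  classical
  have hdvd : (∏ P ∈ S, P) ∣ span {(m : 𝓞 K)} := by
    apply Finset.prod_dvd_of_coprime
    · intro P hP Q hQ hPQ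
      have hPp := hS P hP
      have hQp := hS Q hQ
      have : IsCoprime P Q := by
        rw [Ideal.isCoprime_iff_sup_eq]
        have hPm : P.IsMaximal := hPp.1.isMaximal hPp.2.1
        have hQm : Q.IsMaximal := hQp.1.isMaximal hQp.2.1
        exact hPm.coprime_of_ne hQm hPQ
      exact this
    · intro P hP
      have := dvd_span_absNorm P
      rwa [(hS P hP).2.2] at this
  have h2 : absNorm (∏ P ∈ S, P) ∣ absNorm (span {(m : 𝓞 K)}) := absNorm_dvd_absNorm_of_le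
    (Ideal.dvd_iff_le.mp hdvd)
  rw [absNorm_span_nat, map_prod, Finset.prod_congr rfl (fun P hP => (hS P hP).2.2),
    Finset.prod_const] at h2
  exact (Nat.pow_dvd_pow_iff_le_right (by omega)).mp h2

theorem two_le_absNorm {P : Ideal (𝓞 K)} (hP : P.IsPrime) (h0 : P ≠ ⊥) : 2 ≤ absNorm P := by
  have h1 : absNorm P ≠ 0 := by
    rw [Ne, absNorm_eq_zero_iff]; exact h0
  have h2 : absNorm P ≠ 1 := by
    rw [Ne, absNorm_eq_one_iff]; exact hP.ne_top
  omega

/-- At most `n Y` primes of norm `≤ Y`. -/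
theorem card_primes_norm_le (Y : ℕ) (S : Finset (Ideal (𝓞 K)))
    (hS : ∀ P ∈ S, P.IsPrime ∧ P ≠ ⊥ ∧ absNorm P ≤ Y) :
    S.card ≤ Module.finrank ℚ K * Y := by
  classical
  have hmaps : ∀ P ∈ S, absNorm P ∈ Finset.Icc 1 Y := by
    intro P hP
    obtain ⟨h1, h2, h3⟩ := hS P hP
    have := two_le_absNorm h1 h2
    simp only [Finset.mem_Icc]; omega
  have h := Finset.card_le_mul_card_image_of_maps_to hmaps (Module.finrank ℚ K) (by
    intro m hm
    rw [Finset.mem_Icc] at hm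
    by_cases hm2 : 2 ≤ m
    · apply card_primes_norm_eq m hm2
      intro P hP
      rw [Finset.mem_filter] at hP
      obtain ⟨h1, h2, h3⟩ := hS P hP.1
      exact ⟨h1, h2, hP.2⟩
    · have : (S.filter fun P => absNorm P = m) = ∅ := by
        apply Finset.filter_eq_empty_iff.mpr
        intro P hP h
        obtain ⟨h1, h2, h3⟩ := hS P hP
        have := two_le_absNorm h1 h2
        omega
      rw [this]; simp)
  simpa using h

/-- The divisors of a nonzero ideal inject into the sub-multisets of its normalized factors. -/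
theorem ncard_dvd_le {a : Ideal (𝓞 K)} (ha : a ≠ ⊥) :
    {b : Ideal (𝓞 K) | b ∣ a}.Finite ∧
      {b : Ideal (𝓞 K) | b ∣ a}.ncard ≤
        ∏ P ∈ (normalizedFactors a).toFinset, ((normalizedFactors a).count P + 1) := by
  classical
  have ha0 : a ≠ 0 := ha
  have hmaps : Set.MapsTo (fun b : Ideal (𝓞 K) => normalizedFactors b) {b : Ideal (𝓞 K) | b ∣ a}
      (Finset.Iic (normalizedFactors a) : Set (Multiset (Ideal (𝓞 K)))) := by
    intro b hb
    have hb0 : b ≠ 0 := ne_zero_of_dvd_ne_zero ha0 hb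
    simp only [Finset.coe_Iic, Set.mem_Iic]
    exact (dvd_iff_normalizedFactors_le_normalizedFactors hb0 ha0).mp hb
  have hinj : Set.InjOn (fun b : Ideal (𝓞 K) => normalizedFactors b) {b : Ideal (𝓞 K) | b ∣ a} := by
    intro b hb c hc hbc
    have hb0 : b ≠ 0 := ne_zero_of_dvd_ne_zero ha0 hb
    have hc0 : c ≠ 0 := ne_zero_of_dvd_ne_zero ha0 hc
    have h1 := Ideal.prod_normalizedFactors_eq_self hb0
    have h2 := Ideal.prod_normalizedFactors_eq_self hc0
    simp only at hbc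
    rw [← h1, ← h2, hbc]
  refine ⟨Set.Finite.of_finite_image ((Finset.finite_toSet _).subset hmaps.image_subset) hinj, ?_⟩
  have h := Set.ncard_le_ncard_of_injOn (fun b : Ideal (𝓞 K) => normalizedFactors b) hmaps hinj
    (Finset.finite_toSet _)
  rw [Set.ncard_coe_finset, Multiset.card_Iic] at h
  exact h

/-- The norm of an ideal as a product over its prime factors. -/
theorem absNorm_eq_prod {a : Ideal (𝓞 K)} (ha : a ≠ ⊥) :
    absNorm a = ∏ P ∈ (normalizedFactors a).toFinset,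
      absNorm P ^ (normalizedFactors a).count P := by
  classical
  conv_lhs => rw [← Ideal.prod_normalizedFactors_eq_self (show a ≠ 0 from ha)]
  rw [map_multiset_prod, Finset.prod_multiset_map_count]

end basic

section estimates

/-- `(e + 1) ≤ (1 + 1/(ε log 2)) (N^e)^ε` for `N ≥ 2`. -/
theorem add_one_le_mul {ε : ℝ} (hε : 0 < ε) {N : ℕ} (hN : 2 ≤ N) (e : ℕ) :
    ((e : ℝ) + 1) ≤ (1 + 1 / (ε * Real.log 2)) * ((N : ℝ) ^ e) ^ ε := by
  have hl2 : 0 < Real.log 2 := Real.log_pos (by norm_num)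
  have h0 : (0 : ℝ) < ε * Real.log 2 := by positivity
  have hN' : (2 : ℝ) ≤ N := by exact_mod_cast hN
  have h1 : ((2 : ℝ) ^ e) ^ ε ≤ ((N : ℝ) ^ e) ^ ε :=
    Real.rpow_le_rpow (by positivity) (pow_le_pow_left₀ (by norm_num) hN' e) hε.le
  have h2 : ((2 : ℝ) ^ e) ^ ε = Real.exp (e * (ε * Real.log 2)) := by
    rw [← Real.rpow_natCast, ← Real.rpow_mul (by norm_num), Real.rpow_def_of_pos (by norm_num)]
    congr 1; ring
  have h3 : (e : ℝ) * (ε * Real.log 2) + 1 ≤ Real.exp (e * (ε * Real.log 2)) :=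
    Real.add_one_le_exp _
  have he : (0 : ℝ) ≤ e := Nat.cast_nonneg e
  have h4 : ((e : ℝ) + 1) ≤ (1 + 1 / (ε * Real.log 2)) * ((e : ℝ) * (ε * Real.log 2) + 1) := by
    have h5 : (1 + 1 / (ε * Real.log 2)) * ((e : ℝ) * (ε * Real.log 2) + 1) =
        (e : ℝ) + 1 + ((e : ℝ) * (ε * Real.log 2) + 1 / (ε * Real.log 2)) := by
      field_simp
      ring
    rw [h5]
    have : 0 ≤ (e : ℝ) * (ε * Real.log 2) + 1 / (ε * Real.log 2) := by positivity
    linarith
  refine h4.trans (mul_le_mul_of_nonneg_left ?_ (by positivity))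
  linarith

/-- `(e + 1) ≤ (N^e)^ε` as soon as `N ^ ε ≥ 2`. -/
theorem add_one_le_of_large {ε : ℝ} {N : ℕ} (hN : (2 : ℝ) ≤ (N : ℝ) ^ ε) (e : ℕ) :
    ((e : ℝ) + 1) ≤ ((N : ℝ) ^ e) ^ ε := by
  have h1 : ((N : ℝ) ^ e) ^ ε = ((N : ℝ) ^ ε) ^ e := by
    rw [← Real.rpow_natCast, ← Real.rpow_mul (Nat.cast_nonneg N), mul_comm,
      Real.rpow_mul (Nat.cast_nonneg N), Real.rpow_natCast]
  rw [h1]
  have h2 : (2 : ℝ) ^ e ≤ ((N : ℝ) ^ ε) ^ e := pow_le_pow_left₀ (by norm_num) hN e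
  have h3 : ((e : ℝ) + 1) ≤ 2 ^ e := by
    have := Nat.lt_two_pow_self (n := e)
    exact_mod_cast this
  linarith

/-- The constant of the divisor bound. -/
def CDiv (n : ℕ) (ε : ℝ) : ℝ := (1 + 1 / (ε * Real.log 2)) ^ (n * ⌈(2 : ℝ) ^ (1 / ε)⌉₊)

theorem one_le_CDiv (n : ℕ) {ε : ℝ} (hε : 0 < ε) : 1 ≤ CDiv n ε := by
  have hl2 : 0 < Real.log 2 := Real.log_pos (by norm_num)
  have : 0 < 1 / (ε * Real.log 2) := by positivity
  exact one_le_pow₀ (by linarith)

variable {K : Type u} [Field K] [NumberField K]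

/-- DIVISOR BOUND: `#{b ∣ a} ≤ C(n,ε) N(a)^ε`, `n = [K : ℚ]`. -/
theorem card_dvd_le {ε : ℝ} (hε : 0 < ε) {a : Ideal (𝓞 K)} (ha : a ≠ ⊥) :
    ({b : Ideal (𝓞 K) | b ∣ a}.ncard : ℝ) ≤
      CDiv (Module.finrank ℚ K) ε * (absNorm a : ℝ) ^ ε := by
  classical
  set F := normalizedFactors a with hF
  set A : ℝ := 1 + 1 / (ε * Real.log 2) with hA
  have hl2 : 0 < Real.log 2 := Real.log_pos (by norm_num)
  have hA1 : 1 ≤ A := by
    have : 0 < 1 / (ε * Real.log 2) := by positivity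
    rw [hA]; linarith
  have hprime : ∀ P ∈ F.toFinset, P.IsPrime ∧ P ≠ ⊥ ∧ 2 ≤ absNorm P := by
    intro P hP
    rw [Multiset.mem_toFinset] at hP
    have h1 : Prime P := prime_of_normalized_factor P hP
    have h2 : P.IsPrime := isPrime_of_prime h1
    exact ⟨h2, h1.ne_zero, two_le_absNorm h2 h1.ne_zero⟩
  have h1 : ({b : Ideal (𝓞 K) | b ∣ a}.ncard : ℝ) ≤ ∏ P ∈ F.toFinset, ((F.count P : ℝ) + 1) := by
    have := (ncard_dvd_le ha).2
    exact_mod_cast this
  set Y : ℝ := (2 : ℝ) ^ (1 / ε) with hY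
  have hYpos : 0 < Y := by positivity
  have h2 : ∏ P ∈ F.toFinset, ((F.count P : ℝ) + 1) ≤
      ∏ P ∈ F.toFinset, ((if (absNorm P : ℝ) < Y then A else 1) *
        (((absNorm P : ℝ) ^ F.count P) ^ ε)) := by
    apply Finset.prod_le_prod
    · intro P _; positivity
    · intro P hP
      obtain ⟨_, _, hP2⟩ := hprime P hP
      by_cases hlt : (absNorm P : ℝ) < Y
      · rw [if_pos hlt]; exact add_one_le_mul hε hP2 _
      · rw [if_neg hlt, one_mul]
        apply add_one_le_of_large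
        push Not at hlt
        have h3 : Y ^ ε ≤ (absNorm P : ℝ) ^ ε := Real.rpow_le_rpow hYpos.le hlt hε.le
        have h4 : Y ^ ε = 2 := by
          rw [hY, ← Real.rpow_mul (by norm_num)]
          rw [one_div_mul_cancel hε.ne', Real.rpow_one]
        linarith
  have h3 : ∏ P ∈ F.toFinset, (((absNorm P : ℝ) ^ F.count P) ^ ε) = (absNorm a : ℝ) ^ ε := by
    rw [Real.finsetProd_rpow _ _ (fun P _ => by positivity)]
    congr 1
    rw [absNorm_eq_prod ha]
    push_cast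
    rfl
  have h4 : ∏ P ∈ F.toFinset, (if (absNorm P : ℝ) < Y then A else 1) ≤
      CDiv (Module.finrank ℚ K) ε := by
    rw [Finset.prod_ite, Finset.prod_const, Finset.prod_const_one, mul_one]
    rw [CDiv]
    apply pow_le_pow_right₀ hA1
    apply card_primes_norm_le
    intro P hP
    rw [Finset.mem_filter] at hP
    obtain ⟨h5, h6, _⟩ := hprime P hP.1
    refine ⟨h5, h6, ?_⟩
    have h7 : (absNorm P : ℝ) ≤ ⌈Y⌉₊ := hP.2.le.trans (Nat.le_ceil Y)
    exact_mod_cast h7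
  calc ({b : Ideal (𝓞 K) | b ∣ a}.ncard : ℝ) ≤ _ := h1
    _ ≤ _ := h2
    _ = (∏ P ∈ F.toFinset, (if (absNorm P : ℝ) < Y then A else 1)) *
          ∏ P ∈ F.toFinset, (((absNorm P : ℝ) ^ F.count P) ^ ε) := Finset.prod_mul_distrib
    _ ≤ CDiv (Module.finrank ℚ K) ε * (absNorm a : ℝ) ^ ε := by
        rw [h3]
        exact mul_le_mul_of_nonneg_right h4 (by positivity)

theorem finite_norm_eq (m : ℕ) (hm : m ≠ 0) : {a : Ideal (𝓞 K) | absNorm a = m}.Finite := by
  have h0 : span {(m : 𝓞 K)} ≠ ⊥ := by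
    rw [Ne, span_singleton_eq_bot]; exact_mod_cast hm
  refine (ncard_dvd_le h0).1.subset ?_
  intro a ha
  have := dvd_span_absNorm a
  rwa [show absNorm a = m from ha] at this

/-- NUMBER OF IDEALS OF NORM `m`: at most `C(n, ε/n) m^ε`. -/
theorem card_norm_le {ε : ℝ} (hε : 0 < ε) (m : ℕ) (hm : m ≠ 0) :
    ({a : Ideal (𝓞 K) | absNorm a = m}.ncard : ℝ) ≤
      CDiv (Module.finrank ℚ K) (ε / Module.finrank ℚ K) * (m : ℝ) ^ ε := by
  have hn : 0 < Module.finrank ℚ K := Module.finrank_pos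
  have hn' : (0 : ℝ) < Module.finrank ℚ K := by exact_mod_cast hn
  have h0 : span {(m : 𝓞 K)} ≠ ⊥ := by
    rw [Ne, span_singleton_eq_bot]; exact_mod_cast hm
  have hsub : {a : Ideal (𝓞 K) | absNorm a = m} ⊆ {b : Ideal (𝓞 K) | b ∣ span {(m : 𝓞 K)}} := by
    intro a ha
    have := dvd_span_absNorm a
    rwa [show absNorm a = m from ha] at this
  have h1 : ({a : Ideal (𝓞 K) | absNorm a = m}.ncard : ℝ) ≤
      ({b : Ideal (𝓞 K) | b ∣ span {(m : 𝓞 K)}}.ncard : ℝ) := by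
    exact_mod_cast Set.ncard_le_ncard hsub (ncard_dvd_le h0).1
  have h2 := card_dvd_le (K := K) (ε := ε / Module.finrank ℚ K) (by positivity) h0
  rw [absNorm_span_nat] at h2
  have h3 : (((m ^ Module.finrank ℚ K : ℕ) : ℝ)) ^ (ε / Module.finrank ℚ K) = (m : ℝ) ^ ε := by
    push_cast
    rw [← Real.rpow_natCast, ← Real.rpow_mul (Nat.cast_nonneg m)]
    congr 1
    field_simp
  rw [h3] at h2
  exact h1.trans h2

theorem finite_norm_le (X : ℝ) : {a : Ideal (𝓞 K) | a ≠ ⊥ ∧ (absNorm a : ℝ) ≤ X}.Finite := by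
  have : {a : Ideal (𝓞 K) | a ≠ ⊥ ∧ (absNorm a : ℝ) ≤ X} ⊆
      ⋃ m ∈ Finset.Icc 1 ⌊X⌋₊, {a : Ideal (𝓞 K) | absNorm a = m} := by
    intro a ⟨ha, hX⟩
    have h0 : absNorm a ≠ 0 := by rw [Ne, absNorm_eq_zero_iff]; exact ha
    simp only [Finset.mem_Icc, Set.mem_iUnion, Set.mem_ofPred_eq, exists_prop, exists_eq_right']
    exact ⟨by omega, Nat.le_floor hX⟩
  refine Set.Finite.subset ?_ this
  apply Set.Finite.biUnion (Finset.finite_toSet _)
  intro m hm
  have : m ≠ 0 := by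
    have := (Finset.mem_Icc.mp (Finset.mem_coe.mp hm)).1; omega
  exact finite_norm_eq m this

/-- NUMBER OF NONZERO IDEALS OF NORM `≤ X`: at most `C(n, ε/n) X^(1+ε)`. -/
theorem card_norm_le_X {ε : ℝ} (hε : 0 < ε) {X : ℝ} (hX : 0 ≤ X) :
    ({a : Ideal (𝓞 K) | a ≠ ⊥ ∧ (absNorm a : ℝ) ≤ X}.ncard : ℝ) ≤
      CDiv (Module.finrank ℚ K) (ε / Module.finrank ℚ K) * X ^ (1 + ε) := by
  classical
  have hn : 0 < Module.finrank ℚ K := Module.finrank_pos
  have hn' : (0 : ℝ) < Module.finrank ℚ K := by exact_mod_cast hn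
  set C := CDiv (Module.finrank ℚ K) (ε / Module.finrank ℚ K) with hC
  have hC1 : 1 ≤ C := one_le_CDiv _ (by positivity)
  set S := (finite_norm_le (K := K) X).toFinset with hS
  have hcard : {a : Ideal (𝓞 K) | a ≠ ⊥ ∧ (absNorm a : ℝ) ≤ X}.ncard = S.card := by
    rw [Set.ncard_eq_toFinset_card _ (finite_norm_le (K := K) X)]
  rw [hcard]
  have hmaps : ∀ a ∈ S, absNorm a ∈ Finset.Icc 1 ⌊X⌋₊ := by
    intro a ha
    rw [hS, Set.Finite.mem_toFinset] at ha
    obtain ⟨ha, hX⟩ := ha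
    have h0 : absNorm a ≠ 0 := by rw [Ne, absNorm_eq_zero_iff]; exact ha
    rw [Finset.mem_Icc]
    exact ⟨by omega, Nat.le_floor hX⟩
  rw [Finset.card_eq_sum_card_fiberwise hmaps]
  push_cast
  have h1 : ∀ m ∈ Finset.Icc 1 ⌊X⌋₊, ((S.filter fun a => absNorm a = m).card : ℝ) ≤ C * X ^ ε := by
    intro m hm
    rw [Finset.mem_Icc] at hm
    have hm0 : m ≠ 0 := by omega
    have h2 : ((S.filter fun a => absNorm a = m).card : ℝ) ≤
        ({a : Ideal (𝓞 K) | absNorm a = m}.ncard : ℝ) := by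
      rw [← Set.ncard_coe_finset]
      have : (↑(S.filter fun a => absNorm a = m) : Set (Ideal (𝓞 K))) ⊆
          {a : Ideal (𝓞 K) | absNorm a = m} := by
        intro a ha
        simp only [Finset.coe_filter, Set.mem_ofPred_eq] at ha
        exact ha.2
      exact_mod_cast Set.ncard_le_ncard this (finite_norm_eq m hm0)
    have h3 := card_norm_le (K := K) hε m hm0
    have h4 : (m : ℝ) ≤ X := (Nat.le_floor_iff hX).mp hm.2
    have h5 : (m : ℝ) ^ ε ≤ X ^ ε := Real.rpow_le_rpow (Nat.cast_nonneg m) h4 hε.le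
    calc _ ≤ _ := h2
      _ ≤ _ := h3
      _ ≤ C * X ^ ε := mul_le_mul_of_nonneg_left h5 (by linarith)
  calc ∑ m ∈ Finset.Icc 1 ⌊X⌋₊, ((S.filter fun a => absNorm a = m).card : ℝ)
      ≤ ∑ _m ∈ Finset.Icc 1 ⌊X⌋₊, C * X ^ ε := Finset.sum_le_sum h1
    _ = ⌊X⌋₊ * (C * X ^ ε) := by simp
    _ ≤ X * (C * X ^ ε) := mul_le_mul_of_nonneg_right (Nat.floor_le hX) (by positivity)
    _ ≤ C * X ^ (1 + ε) := by
        rcases hX.eq_or_lt with h | h
        · rw [← h]; simp only [zero_mul]; positivity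
        · rw [Real.rpow_add h, Real.rpow_one]; linarith

end estimates

section integers

/-- INTEGER DIVISOR BOUND: `τ(m) ≤ C(1,ε) m^ε`. -/
theorem card_divisors_le {ε : ℝ} (hε : 0 < ε) (m : ℕ) (hm : m ≠ 0) :
    (m.divisors.card : ℝ) ≤ CDiv 1 ε * (m : ℝ) ^ ε := by
  classical
  have h0 : span {(m : 𝓞 ℚ)} ≠ ⊥ := by
    rw [Ne, span_singleton_eq_bot]; exact_mod_cast hm
  have h1 := card_dvd_le (K := ℚ) hε h0
  rw [absNorm_span_nat, Module.finrank_self, pow_one] at h1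
  refine le_trans ?_ h1
  have hinj : Set.InjOn (fun d : ℕ => span {(d : 𝓞 ℚ)}) (m.divisors : Set ℕ) := by
    intro d _ e _ hde
    have := congrArg absNorm hde
    simp only [absNorm_span_nat, Module.finrank_self, pow_one] at this
    exact this
  have hmaps : ∀ d ∈ (m.divisors : Set ℕ), (fun d : ℕ => span {(d : 𝓞 ℚ)}) d ∈
      {b : Ideal (𝓞 ℚ) | b ∣ span {(m : 𝓞 ℚ)}} := by
    intro d hd
    rw [Finset.mem_coe, Nat.mem_divisors] at hd
    simp only [Set.mem_ofPred_eq]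
    rw [Ideal.dvd_iff_le, span_singleton_le_span_singleton]
    exact_mod_cast Nat.cast_dvd_cast hd.1
  have := Set.ncard_le_ncard_of_injOn _ hmaps hinj (ncard_dvd_le h0).1
  rw [Set.ncard_coe_finset] at this
  exact_mod_cast this

/-- `k^(ω(m)) ≤ C m^ε`. -/
theorem pow_omega_le {ε : ℝ} (hε : 0 < ε) (k : ℕ) (m : ℕ) (hm : m ≠ 0) :
    ((2 : ℝ) ^ k) ^ m.primeFactors.card ≤
      (CDiv 1 (ε / (k + 1))) ^ k * (m : ℝ) ^ ε := by
  have h1 : (2 : ℝ) ^ m.primeFactors.card ≤ m.divisors.card := by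
    have : 2 ^ m.primeFactors.card ≤ m.divisors.card := by
      rw [Nat.card_divisors hm, ← Finset.prod_const]
      apply Finset.prod_le_prod' 
      intro p hp
      have := (Nat.prime_of_mem_primeFactors hp).factorization_pos_of_dvd hm
        (Nat.dvd_of_mem_primeFactors hp)
      omega
    exact_mod_cast this
  have hk : (0 : ℝ) < (k : ℝ) + 1 := by positivity
  have h2 := card_divisors_le (ε := ε / (k + 1)) (by positivity) m hm
  have h3 : ((2 : ℝ) ^ k) ^ m.primeFactors.card = ((2 : ℝ) ^ m.primeFactors.card) ^ k := by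
    rw [← pow_mul, ← pow_mul, mul_comm]
  rw [h3]
  have hm1 : (1 : ℝ) ≤ m := by exact_mod_cast Nat.one_le_iff_ne_zero.mpr hm
  calc ((2 : ℝ) ^ m.primeFactors.card) ^ k
      ≤ (CDiv 1 (ε / (k + 1)) * (m : ℝ) ^ (ε / (k + 1))) ^ k :=
        pow_le_pow_left₀ (by positivity) (h1.trans h2) k
    _ = (CDiv 1 (ε / (k + 1))) ^ k * ((m : ℝ) ^ (ε / (k + 1))) ^ k := mul_pow _ _ _
    _ ≤ (CDiv 1 (ε / (k + 1))) ^ k * (m : ℝ) ^ ε := by
        apply mul_le_mul_of_nonneg_left
        · rw [← Real.rpow_natCast, ← Real.rpow_mul (by positivity)]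
          apply Real.rpow_le_rpow_of_exponent_le hm1
          rw [div_mul_eq_mul_div, div_le_iff₀ hk]
          nlinarith
        · have := one_le_CDiv 1 (ε := ε / (k + 1)) (by positivity)
          positivity

end integers

end Crest.Agent.R014.DivB_684
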