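import Crest.Agent.R014.Pt_71

/-!
# Row 14: real embeddings, trace, norm, dual elements (helper71)

`σ : Fin n ≃ (K →+* ℝ)` with `finrank ℚ K = n` (so `K` is totally real).
`trace_eq`, `norm_eq`, `LatticeBasis.basis` (`bas`), `det_embMatrix_ne_zero`,
`exists_dual` (for `q : Fin n → ℚ` there is `b` with `Tr(m_i b) = q_i`), `emb_mulVec_dual`.
-/

set_option autoImplicit false
open MeasureTheory Set Matrix
open Crest Crest.NumberTheoryR Crest.NumberTheoryR.Packets

namespace Crest.Agent.R014.Emb_71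

open BoxV_71 Pt_71

variable {n : ℕ} {K : Type*} [Field K] [NumberField K]

/-- complexified embeddings. -/
noncomputable def toC (σ : Fin n ≃ (K →+* ℝ)) (j : Fin n) : K →ₐ[ℚ] ℂ :=
  (Complex.ofRealHom.comp (σ j)).toRatAlgHom

theorem toC_apply (σ : Fin n ≃ (K →+* ℝ)) (j : Fin n) (x : K) : toC σ j x = ((σ j x : ℝ) : ℂ) := rfl

theorem toC_bijective (σ : Fin n ≃ (K →+* ℝ)) (hn : Module.finrank ℚ K = n) :
    Function.Bijective (toC σ) := by
  rw [Fintype.bijective_iff_injective_and_card]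
  refine ⟨?_, ?_⟩
  · intro i j h
    apply σ.injective
    ext x
    have := congrArg (fun f : K →ₐ[ℚ] ℂ => f x) h
    simp only [toC_apply] at this
    exact_mod_cast this
  · rw [Fintype.card_fin, AlgHom.card ℚ K ℂ, hn]

theorem trace_eq (σ : Fin n ≃ (K →+* ℝ)) (hn : Module.finrank ℚ K = n) (x : K) :
    ((Algebra.trace ℚ K x : ℚ) : ℝ) = ∑ j, σ j x := by
  have h := trace_eq_sum_embeddings (K := ℚ) (L := K) ℂ (x := x)
  have h2 : ∑ τ : K →ₐ[ℚ] ℂ, τ x = ∑ j, toC σ j x :=
    (Fintype.sum_bijective (toC σ) (toC_bijective σ hn) _ _ (fun _ => rfl)).symm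
  rw [h2] at h
  simp only [toC_apply] at h
  have h3 : ((((Algebra.trace ℚ K x : ℚ) : ℝ)) : ℂ) = ((∑ j, σ j x : ℝ) : ℂ) := by
    rw [Complex.ofReal_sum, ← h]
    simp
  exact_mod_cast h3

theorem norm_eq (σ : Fin n ≃ (K →+* ℝ)) (hn : Module.finrank ℚ K = n) (x : K) :
    ((Algebra.norm ℚ x : ℚ) : ℝ) = ∏ j, σ j x := by
  have h := Algebra.norm_eq_prod_embeddings ℚ ℂ x
  have h2 : ∏ τ : K →ₐ[ℚ] ℂ, τ x = ∏ j, toC σ j x :=
    (Fintype.prod_bijective (toC σ) (toC_bijective σ hn) _ _ (fun _ => rfl)).symm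
  rw [h2] at h
  simp only [toC_apply] at h
  have h3 : ((((Algebra.norm ℚ x : ℚ) : ℝ)) : ℂ) = ((∏ j, σ j x : ℝ) : ℂ) := by
    rw [Complex.ofReal_prod, ← h]
    simp
  exact_mod_cast h3

/-- the `ℚ`-basis given by a lattice basis. -/
noncomputable def bas (m : LatticeBasis n K) : Module.Basis (Fin n) ℚ K :=
  Module.Basis.mk ((LinearIndependent.iff_fractionRing (R := ℤ) (K := ℚ)).1 m.linIndep)
    m.spans.ge

@[simp] theorem bas_apply (m : LatticeBasis n K) (i : Fin n) : bas m i = m.vec i := by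
  simp [bas]

theorem finrank_eq (m : LatticeBasis n K) : Module.finrank ℚ K = n := by
  rw [Module.finrank_eq_card_basis (bas m), Fintype.card_fin]

/-- Gram matrix of the trace form. -/
theorem embMatrix_mul_transpose (m : LatticeBasis n K) (σ : Fin n ≃ (K →+* ℝ)) :
    embMatrix m σ * (embMatrix m σ)ᵀ =
      (Algebra.traceMatrix ℚ (bas m)).map (algebraMap ℚ ℝ) := by
  ext i k
  simp only [Matrix.mul_apply, Matrix.transpose_apply, embMatrix, Matrix.map_apply,
    Algebra.traceMatrix_apply, Algebra.traceForm_apply, bas_apply]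
  rw [show (algebraMap ℚ ℝ) (Algebra.trace ℚ K (m.vec i * m.vec k)) =
    ((Algebra.trace ℚ K (m.vec i * m.vec k) : ℚ) : ℝ) from rfl, trace_eq σ (finrank_eq m)]
  simp only [map_mul]

theorem det_sq (m : LatticeBasis n K) (σ : Fin n ≃ (K →+* ℝ)) :
    (embMatrix m σ).det ^ 2 = ((Algebra.discr ℚ (bas m) : ℚ) : ℝ) := by
  have h := congrArg Matrix.det (embMatrix_mul_transpose m σ)
  rw [Matrix.det_mul, Matrix.det_transpose, ← pow_two] at h
  rw [h]
  have h2 := (RingHom.map_det (algebraMap ℚ ℝ) (Algebra.traceMatrix ℚ (bas m))).symm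
  rw [Algebra.discr_def]
  exact h2

theorem det_embMatrix_ne_zero (m : LatticeBasis n K) (σ : Fin n ≃ (K →+* ℝ)) :
    (embMatrix m σ).det ≠ 0 := by
  intro h
  have h2 := det_sq m σ
  rw [h, zero_pow two_ne_zero] at h2
  have h3 := Algebra.discr_not_zero_of_basis ℚ (bas m)
  exact h3 (by exact_mod_cast h2.symm)

/-- dual elements for the trace form. -/
theorem exists_dual (m : LatticeBasis n K) (q : Fin n → ℚ) :
    ∃ b : K, ∀ i, Algebra.trace ℚ K (m.vec i * b) = q i := by
  have hnd := traceForm_nondegenerate ℚ K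
  refine ⟨∑ k, q k • (Algebra.traceForm ℚ K).dualBasis hnd (bas m) k, fun i => ?_⟩
  rw [Finset.mul_sum, map_sum]
  have : ∀ k, Algebra.trace ℚ K (m.vec i * q k • (Algebra.traceForm ℚ K).dualBasis hnd (bas m) k)
      = if i = k then q k else 0 := by
    intro k
    rw [mul_smul_comm, map_smul]
    have h := LinearMap.BilinForm.apply_dualBasis_right (B := Algebra.traceForm ℚ K) hnd
      (Algebra.traceForm_isSymm ℚ) (bas m) i k
    rw [Algebra.traceForm_apply, bas_apply] at h
    rw [h, smul_eq_mul]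
    split_ifs <;> simp
  rw [Finset.sum_congr rfl fun k _ => this k]
  simp

/-- the vector `σ(b)` of the dual element solves `B x = q`. -/
theorem embMatrix_mulVec (m : LatticeBasis n K) (σ : Fin n ≃ (K →+* ℝ)) (b : K) (i : Fin n) :
    (embMatrix m σ *ᵥ fun j => σ j b) i = ((Algebra.trace ℚ K (m.vec i * b) : ℚ) : ℝ) := by
  rw [trace_eq σ (finrank_eq m)]
  simp only [Matrix.mulVec, dotProduct, embMatrix, map_mul]

/-- uniqueness. -/
theorem eq_of_mulVec (m : LatticeBasis n K) (σ : Fin n ≃ (K →+* ℝ)) {x y : Fin n → ℝ}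
    (h : embMatrix m σ *ᵥ x = embMatrix m σ *ᵥ y) : x = y := by
  have hu : IsUnit (embMatrix m σ).det := (det_embMatrix_ne_zero m σ).isUnit
  have := congrArg (fun z => (embMatrix m σ)⁻¹ *ᵥ z) h
  simpa only [Matrix.mulVec_mulVec, Matrix.nonsing_inv_mul _ hu, Matrix.one_mulVec] using this

/-- scaling a lattice basis by a nonzero element. -/
noncomputable def scale (m : LatticeBasis n K) (a : K) (ha : a ≠ 0) : LatticeBasis n K where
  vec i := a * m.vec i
  linIndep := by
    have h := m.linIndep.map' ((LinearMap.mulLeft ℤ a)) (by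
      rw [LinearMap.ker_eq_bot]
      intro x y hxy
      exact mul_left_cancel₀ ha hxy)
    exact h
  spans := by
    have h := m.spans
    rw [eq_top_iff]
    intro x _
    have hx : a⁻¹ * x ∈ Submodule.span ℚ (Set.range m.vec) := by rw [h]; trivial
    have h2 := Submodule.mem_map_of_mem (f := LinearMap.mulLeft ℚ a) hx
    rw [Submodule.map_span, ← Set.range_comp] at h2
    have h3 : (LinearMap.mulLeft ℚ a) (a⁻¹ * x) = x := by
      simp [mul_inv_cancel_left₀ ha]
    rw [h3] at h2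
    exact h2

@[simp] theorem scale_vec (m : LatticeBasis n K) (a : K) (ha : a ≠ 0) (i : Fin n) :
    (scale m a ha).vec i = a * m.vec i := rfl

theorem mem_scale {m : LatticeBasis n K} {a : K} {ha : a ≠ 0} {x : K} :
    x ∈ (scale m a ha).lattice ↔ ∃ y ∈ m.lattice, x = a * y := by
  have h : (scale m a ha).lattice = m.lattice.map (LinearMap.mulLeft ℤ a) := by
    unfold LatticeBasis.lattice
    rw [Submodule.map_span, ← Set.range_comp]
    rfl
  rw [h, Submodule.mem_map]
  constructor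
  · rintro ⟨y, hy, rfl⟩
    exact ⟨y, hy, rfl⟩
  · rintro ⟨y, hy, rfl⟩
    exact ⟨y, hy, rfl⟩

theorem locHom_scale {m m' : LatticeBasis n K} (h : LocallyHomothetic m m') (a : K) (ha : a ≠ 0) :
    LocallyHomothetic m (scale m' a ha) := by
  intro ℓ hℓ
  obtain ⟨c, hc, N, hN, h1, h2⟩ := h ℓ hℓ
  refine ⟨a * c, mul_ne_zero ha hc, N, hN, ?_, ?_⟩
  · intro x hx
    obtain ⟨y, hy, rfl⟩ := mem_scale.1 hx
    obtain ⟨z, hz, hz2⟩ := h1 y hy
    exact ⟨z, hz, by rw [mul_left_comm, hz2, mul_assoc]⟩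
  · intro x hx
    exact mem_scale.2 ⟨_, h2 x hx, by ring⟩

theorem mem_lattice_iff {m : LatticeBasis n K} {x : K} :
    x ∈ m.lattice ↔ ∃ p : Fin n → ℤ, x = ∑ i, (p i : K) * m.vec i := by
  unfold LatticeBasis.lattice
  rw [Submodule.mem_span_range_iff_exists_fun]
  constructor
  · rintro ⟨c, hc⟩
    exact ⟨c, by rw [← hc]; simp [zsmul_eq_mul]⟩
  · rintro ⟨c, hc⟩
    exact ⟨c, by rw [hc]; simp [zsmul_eq_mul]⟩

theorem sum_ne_zero {m : LatticeBasis n K} {p : Fin n → ℤ} (hp : p ≠ 0) :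
    ∑ i, (p i : K) * m.vec i ≠ 0 := by
  intro h
  apply hp
  have := Fintype.linearIndependent_iff.1 m.linIndep p (by simpa [zsmul_eq_mul] using h)
  exact funext this

end Crest.Agent.R014.Emb_71
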