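/-
helper684, row 14, task ENT.  Conditional entropy API on top of helper397's Shannon toolkit
(R166/Ent_397: `FM`, `lw`, `H`, `condMI`, `condMI_nonneg`, `condMI_pinsker`, ...).

`Hc μ X Z = H(X|Z)`; chain rule, monotonicity, bounds, `H(X|Z) ≤ log |α|`, and the conditional
Pinsker inequality as an average of `ℓ¹`-distances of conditional laws.
-/
import Crest.Agent.R166.Ent_397

set_option autoImplicit false

open MeasureTheory Finset Crest.Agent.R166.Ent397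

noncomputable section

namespace Crest.Agent.R014.Ent_684

variable {Ω α β γ δ : Type*} [MeasurableSpace Ω] [Fintype α] [Fintype β] [Fintype γ] [Fintype δ]

/-- conditional entropy `H(X|Z) = H(X,Z) - H(Z)` -/
def Hc (μ : Measure Ω) (X : Ω → α) (Z : Ω → γ) : ℝ :=
  H μ (fun ω => (X ω, Z ω)) - H μ Z

variable (μ : Measure Ω) [IsProbabilityMeasure μ]
variable {X : Ω → α} {Y : Ω → β} {Z : Ω → γ} {W : Ω → δ}

theorem Hc_nonneg (hX : FM X) (hZ : FM Z) : 0 ≤ Hc μ X Z := by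
  have := H_le_of_det μ (X := Z) (hX.pair hZ) (fun ω ω' h => (Prod.mk.inj h).2)
  unfold Hc; linarith

/-- chain rule `H(X,Y|Z) = H(Y|Z) + H(X|Y,Z)` -/
theorem Hc_chain (hX : FM X) (hY : FM Y) (hZ : FM Z) :
    Hc μ (fun ω => (X ω, Y ω)) Z = Hc μ Y Z + Hc μ X (fun ω => (Y ω, Z ω)) := by
  unfold Hc
  have h : H μ (fun ω => ((X ω, Y ω), Z ω)) = H μ (fun ω => (X ω, Y ω, Z ω)) :=
    H_eq_of_det μ ((hX.pair hY).pair hZ) (hX.pair (hY.pair hZ)) fun ω ω' => by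
      simp only [Prod.mk.injEq]; tauto
  rw [h]; ring

/-- `I(X;Y|Z) = H(X|Z) - H(X|Y,Z)` -/
theorem condMI_eq_sub : condMI μ X Y Z = Hc μ X Z - Hc μ X (fun ω => (Y ω, Z ω)) := by
  unfold condMI Hc; ring

/-- conditioning on more information decreases the entropy -/
theorem Hc_anti (hX : FM X) (hZ : FM Z) (hW : FM W) (h : ∀ ω ω', Z ω = Z ω' → W ω = W ω') :
    Hc μ X Z ≤ Hc μ X W := cond_le_cond μ hX hZ hW h

/-- the conditioning variable only matters up to information -/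
theorem Hc_congr (hX : FM X) (hZ : FM Z) (hW : FM W) (h : ∀ ω ω', Z ω = Z ω' ↔ W ω = W ω') :
    Hc μ X Z = Hc μ X W :=
  le_antisymm (Hc_anti μ hX hZ hW fun ω ω' => (h ω ω').1)
    (Hc_anti μ hX hW hZ fun ω ω' => (h ω ω').2)

/-- `H(Y|Z) ≤ H(X|Z)` if `(X,Z)` determines `Y` -/
theorem Hc_mono (hX : FM X) (hY : FM Y) (hZ : FM Z)
    (h : ∀ ω ω', X ω = X ω' → Z ω = Z ω' → Y ω = Y ω') : Hc μ Y Z ≤ Hc μ X Z := by
  unfold Hc
  have := H_le_of_det μ (X := fun ω => (Y ω, Z ω)) (hX.pair hZ) fun ω ω' => by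
    simp only [Prod.mk.injEq]
    exact fun e => ⟨h _ _ e.1 e.2, e.2⟩
  linarith

/-- `H(X|Z) = H(Y|Z)` if `X` and `Y` determine each other given `Z` -/
theorem Hc_congr_left (hX : FM X) (hY : FM Y) (hZ : FM Z)
    (h : ∀ ω ω', Z ω = Z ω' → (X ω = X ω' ↔ Y ω = Y ω')) : Hc μ Y Z = Hc μ X Z :=
  le_antisymm (Hc_mono μ hX hY hZ fun ω ω' h1 h2 => (h ω ω' h2).1 h1)
    (Hc_mono μ hY hX hZ fun ω ω' h1 h2 => (h ω ω' h2).2 h1)

theorem Hc_eq_zero (hX : FM X) (hZ : FM Z) (h : ∀ ω ω', Z ω = Z ω' → X ω = X ω') :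
    Hc μ X Z = 0 := by
  unfold Hc
  rw [H_eq_of_det μ (hX.pair hZ) hZ fun ω ω' => by
    simp only [Prod.mk.injEq]; exact ⟨fun e => ⟨h _ _ e, e⟩, fun e => e.2⟩]
  ring

/-- `H(X) ≤ log |α|` -/
theorem H_le_log_card (hX : FM X) : H μ X ≤ Real.log (Fintype.card α) := by
  classical
  have hne : Nonempty Ω := μ.nonempty_of_neZero
  have hα : Nonempty α := hne.map X
  have hcard : (0 : ℝ) < Fintype.card α := by exact_mod_cast Fintype.card_pos
  have h := gibbs (lw μ X) (fun _ => 1 / (Fintype.card α : ℝ)) (fun a => lw_nonneg μ X a)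
    (fun _ => by positivity) (fun _ _ => by positivity) (by
      rw [sum_lw μ hX]; simp [hcard.ne'])
  have h2 : ∀ a, lw μ X a * Real.log (lw μ X a / (1 / (Fintype.card α : ℝ))) =
      lw μ X a * Real.log (Fintype.card α) - Real.negMulLog (lw μ X a) := by
    intro a
    rcases eq_or_ne (lw μ X a) 0 with h0 | h0
    · simp [h0]
    · rw [div_div_eq_mul_div, div_one, Real.log_mul h0 hcard.ne', Real.negMulLog]; ring
  rw [Finset.sum_congr rfl fun a _ => h2 a, Finset.sum_sub_distrib, ← Finset.sum_mul,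
    sum_lw μ hX, one_mul] at h
  unfold H; linarith

/-- `H(X|Z) ≤ H(X)` -/
theorem Hc_le_H (hX : FM X) (hZ : FM Z) : Hc μ X Z ≤ H μ X := by
  have h := Hc_anti μ hX hZ (FM.const (Ω := Ω) ()) (fun _ _ _ => rfl)
  have h2 : Hc μ X (fun _ : Ω => ()) = H μ X := by
    unfold Hc
    rw [H_eq_of_det μ (hX.pair (FM.const ())) hX fun ω ω' => by simp]
    have : H μ (fun _ : Ω => ()) = 0 := by
      simp [H, lw]
    rw [this, sub_zero]
  linarith

theorem Hc_le_log_card (hX : FM X) (hZ : FM Z) : Hc μ X Z ≤ Real.log (Fintype.card α) :=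
  (Hc_le_H μ hX hZ).trans (H_le_log_card μ hX)

/-- subadditivity `H(X,Y|Z) ≤ H(X|Z) + H(Y|Z)` -/
theorem Hc_pair_le (hX : FM X) (hY : FM Y) (hZ : FM Z) :
    Hc μ (fun ω => (X ω, Y ω)) Z ≤ Hc μ X Z + Hc μ Y Z := by
  rw [Hc_chain μ hX hY hZ]
  have := Hc_anti μ hX (hY.pair hZ) hZ fun ω ω' h => (Prod.mk.inj h).2
  linarith

/-- invariance of conditional entropy under measure preserving maps -/
theorem Hc_comp_mp (hX : FM X) (hZ : FM Z) {T : Ω → Ω} (hT : MeasurePreserving T μ μ) :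
    Hc μ (fun ω => X (T ω)) (fun ω => Z (T ω)) = Hc μ X Z := by
  unfold Hc
  rw [H_comp_mp μ hZ hT]
  have := H_comp_mp μ (hX.pair hZ) hT
  rw [this]

/-- conditional probability `P(X = a | Z = c)` (0 if `P(Z = c) = 0`) -/
def cp (μ : Measure Ω) (X : Ω → α) (Z : Ω → γ) (a : α) (c : γ) : ℝ :=
  lw μ (fun ω => (X ω, Z ω)) (a, c) / lw μ Z c

theorem cp_nonneg (a : α) (c : γ) : 0 ≤ cp μ X Z a c :=
  div_nonneg (lw_nonneg μ _ _) (lw_nonneg μ _ _)

theorem cp_mul (hX : FM X) (hZ : FM Z) (a : α) (c : γ) :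
    cp μ X Z a c * lw μ Z c = lw μ (fun ω => (X ω, Z ω)) (a, c) := by
  rcases eq_or_ne (lw μ Z c) 0 with h0 | h0
  · have h1 : lw μ (fun ω => (X ω, Z ω)) (a, c) ≤ lw μ Z c := by
      unfold lw
      refine measureReal_mono ?_ (measure_ne_top μ _)
      intro ω h
      simp only [Set.mem_preimage, Set.mem_singleton_iff, Prod.mk.injEq] at h ⊢
      exact h.2
    rw [h0, mul_zero]
    exact (le_antisymm (h1.trans h0.le) (lw_nonneg μ _ _)).symm
  · rw [cp, div_mul_cancel₀ _ h0]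

theorem sum_cp (hX : FM X) (hZ : FM Z) {c : γ} (hc : lw μ Z c ≠ 0) :
    ∑ a : α, cp μ X Z a c = 1 := by
  unfold cp
  rw [← Finset.sum_div, ← lw_snd μ hX hZ, div_self hc]

/-- CONDITIONAL PINSKER: the mean `ℓ¹` distance of the laws of `X` given `(Y,Z)` and given `Z`
is at most `2 √(H(X|Z) - H(X|Y,Z))`. -/
theorem cond_pinsker (hX : FM X) (hY : FM Y) (hZ : FM Z) :
    ∑ b, ∑ c, lw μ (fun ω => (Y ω, Z ω)) (b, c) *
        ∑ a, |cp μ X (fun ω => (Y ω, Z ω)) a (b, c) - cp μ X Z a c| ≤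
      2 * Real.sqrt (Hc μ X Z - Hc μ X (fun ω => (Y ω, Z ω))) := by
  have h1 := condMI_pinsker μ hX hY hZ
  rw [condMI_eq_sub] at h1
  have h3 : (0:ℝ) ≤ ∑ t, |lw μ (fun ω => (X ω, Y ω, Z ω)) t - mk μ X Y Z t| := by positivity
  have h4 := Real.sqrt_le_sqrt h1
  rw [Real.sqrt_sq h3, Real.sqrt_mul (by norm_num)] at h4
  have h5 : Real.sqrt 4 = 2 := by
    rw [show (4:ℝ) = 2 ^ 2 by norm_num]; exact Real.sqrt_sq (by norm_num)
  rw [h5] at h4
  refine le_trans (le_of_eq ?_) h4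
  have hs : (∑ t : α × β × γ, |lw μ (fun ω => (X ω, Y ω, Z ω)) t - mk μ X Y Z t|) =
      ∑ b : β, ∑ c : γ, ∑ a : α,
        |lw μ (fun ω => (X ω, Y ω, Z ω)) (a, b, c) - mk μ X Y Z (a, b, c)| := by
    rw [Fintype.sum_prod_type, Finset.sum_comm, Fintype.sum_prod_type]
  rw [hs]
  refine Finset.sum_congr rfl fun b _ => Finset.sum_congr rfl fun c _ => ?_
  rw [Finset.mul_sum]
  refine Finset.sum_congr rfl fun a _ => ?_
  have h6 : 0 ≤ lw μ (fun ω => (Y ω, Z ω)) (b, c) := lw_nonneg μ _ _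
  rw [← abs_of_nonneg h6, ← abs_mul]
  congr 1
  have h7 := cp_mul μ hX (hY.pair hZ) a (b, c)
  have h8 : mk μ X Y Z (a, b, c) = lw μ (fun ω => (Y ω, Z ω)) (b, c) * cp μ X Z a c := by
    unfold R166.Ent397.mk cp; ring
  rw [h8, ← h7]; ring

end Crest.Agent.R014.Ent_684
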