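import Mathlib

/-!
# R014/Esc1_296 : entries of orthogonal projections (leaf NOESC, helper296)

For a subspace `V` of `EuclideanSpace ℝ (Fin n)` let `pm V i j = ⟪e_i, P_V e_j⟫`.
-/

set_option autoImplicit false

open scoped InnerProductSpace

namespace Crest.Agent.R014.Esc_296

variable {n : ℕ}

/-- The Euclidean space of row vectors. -/
abbrev EV (n : ℕ) : Type := EuclideanSpace ℝ (Fin n)

/-- standard basis vector. -/
noncomputable abbrev ev (i : Fin n) : EV n := EuclideanSpace.single i (1 : ℝ)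

/-- The matrix of the orthogonal projection onto `V`. -/
noncomputable def pm (V : Submodule ℝ (EV n)) (i j : Fin n) : ℝ :=
  ⟪ev i, V.starProjection (ev j)⟫_ℝ

lemma inner_ev (i : Fin n) (v : EV n) : ⟪ev i, v⟫_ℝ = v i := by
  have h := EuclideanSpace.inner_single_left (𝕜 := ℝ) i (1 : ℝ) v
  simpa using h

lemma pm_eq_coord (V : Submodule ℝ (EV n)) (i j : Fin n) :
    pm V i j = V.starProjection (ev j) i := inner_ev _ _

lemma pm_symm (V : Submodule ℝ (EV n)) (i j : Fin n) : pm V i j = pm V j i := by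
  unfold pm
  rw [← V.inner_starProjection_left_eq_right, real_inner_comm]

lemma inner_proj_self (V : Submodule ℝ (EV n)) (v : EV n) :
    ⟪v, V.starProjection v⟫_ℝ = ‖V.starProjection v‖ ^ 2 := by
  have h1 : ⟪v - V.starProjection v, V.starProjection v⟫_ℝ = 0 :=
    V.starProjection_inner_eq_zero v _ (V.starProjection_apply_mem v)
  rw [inner_sub_left, sub_eq_zero] at h1
  rw [h1, real_inner_self_eq_norm_sq]

lemma sum_sq_pm (V : Submodule ℝ (EV n)) (i : Fin n) :
    ∑ j, (pm V j i) ^ 2 = pm V i i := by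
  have h1 : pm V i i = ‖V.starProjection (ev i)‖ ^ 2 := inner_proj_self V _
  rw [h1, EuclideanSpace.norm_sq_eq]
  refine Finset.sum_congr rfl fun j _ => ?_
  rw [pm_eq_coord, Real.norm_eq_abs, sq_abs]

lemma pm_self_nonneg (V : Submodule ℝ (EV n)) (i : Fin n) : 0 ≤ pm V i i := by
  rw [← sum_sq_pm]
  exact Finset.sum_nonneg fun _ _ => sq_nonneg _

lemma pm_self_le_one (V : Submodule ℝ (EV n)) (i : Fin n) : pm V i i ≤ 1 := by
  have h1 : (pm V i i) ^ 2 ≤ pm V i i := by
    conv_rhs => rw [← sum_sq_pm]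
    exact Finset.single_le_sum (f := fun j => (pm V j i) ^ 2) (fun _ _ => sq_nonneg _)
      (Finset.mem_univ i)
  nlinarith [pm_self_nonneg V i]

lemma sq_pm_le (V : Submodule ℝ (EV n)) {i j : Fin n} (hij : i ≠ j) :
    (pm V i j) ^ 2 ≤ pm V i i * (1 - pm V i i) := by
  have h1 : (pm V i i) ^ 2 + (pm V j i) ^ 2 ≤ pm V i i := by
    conv_rhs => rw [← sum_sq_pm]
    have := Finset.sum_le_univ_sum_of_nonneg (s := {i, j})
      (f := fun l => (pm V l i) ^ 2) (fun _ => sq_nonneg _)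
    rwa [Finset.sum_pair hij] at this
  rw [pm_symm V i j]
  nlinarith

lemma abs_pm_le_one (V : Submodule ℝ (EV n)) (i j : Fin n) : |pm V i j| ≤ 1 := by
  have h1 : (pm V j i) ^ 2 ≤ pm V i i := by
    conv_rhs => rw [← sum_sq_pm]
    exact Finset.single_le_sum (f := fun j => (pm V j i) ^ 2) (fun _ _ => sq_nonneg _)
      (Finset.mem_univ j)
  rw [pm_symm V i j]
  have h2 := pm_self_le_one V i
  rw [abs_le_one_iff_mul_self_le_one]
  nlinarith

lemma sum_pm_self (V : Submodule ℝ (EV n)) :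
    ∑ i, pm V i i = (Module.finrank ℝ V : ℝ) := by
  have hproj : LinearMap.IsProj V (V.starProjection : EV n →L[ℝ] EV n).toLinearMap :=
    ⟨fun v => V.starProjection_apply_mem v, fun v hv => V.starProjection_eq_self_iff.2 hv⟩
  have h1 := hproj.trace
  rw [LinearMap.trace_eq_sum_inner _ (EuclideanSpace.basisFun (Fin n) ℝ)] at h1
  rw [← h1]
  refine Finset.sum_congr rfl fun i _ => ?_
  simp [pm, ev]

/-- The identity `n Σ P_ii (1 - P_ii) + Σ_{i<j} (P_ii - P_jj)² = k (n - k)`; here in the symmetric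
form (sum over all pairs, divided by two). -/
lemma identity (V : Submodule ℝ (EV n)) :
    (n : ℝ) * ∑ i, pm V i i * (1 - pm V i i) + (1 / 2) * ∑ i, ∑ j, (pm V i i - pm V j j) ^ 2
      = (Module.finrank ℝ V : ℝ) * (n - Module.finrank ℝ V) := by
  rw [← sum_pm_self]
  have h1 : ∑ i, ∑ j, (pm V i i - pm V j j) ^ 2
      = 2 * ((n : ℝ) * ∑ i, (pm V i i) ^ 2) - 2 * (∑ i, pm V i i) ^ 2 := by
    have h2 : ∀ i j : Fin n, (pm V i i - pm V j j) ^ 2
        = (pm V i i) ^ 2 + (pm V j j) ^ 2 - 2 * (pm V i i * pm V j j) := fun i j => by ring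
    simp only [h2, Finset.sum_sub_distrib, Finset.sum_add_distrib, Finset.sum_const,
      Finset.card_univ, Fintype.card_fin, nsmul_eq_mul, ← Finset.mul_sum, ← Finset.sum_mul]
    ring
  rw [h1]
  have h3 : ∑ i, pm V i i * (1 - pm V i i) = ∑ i, pm V i i - ∑ i, (pm V i i) ^ 2 := by
    rw [← Finset.sum_sub_distrib]
    exact Finset.sum_congr rfl fun i _ => by ring
  rw [h3]
  ring

/-- Comparison of the projections onto `V` and onto `V'`, when each is `δ`-close to the other. -/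
lemma abs_pm_sub_le (V V' : Submodule ℝ (EV n)) (δ : ℝ)
    (h1 : ∀ v ∈ V, ∃ v' ∈ V', ‖v - v'‖ ≤ δ * ‖v‖)
    (h2 : ∀ v' ∈ V', ∃ v ∈ V, ‖v' - v‖ ≤ δ * ‖v'‖) (hδ : 0 ≤ δ) (i j : Fin n) :
    |pm V' i j - pm V i j| ≤ 2 * δ := by
  set P := V.starProjection
  set P' := V'.starProjection
  have hn : ∀ l : Fin n, ‖(ev l : EV n)‖ = 1 := fun l => by simp [ev]
  have hsub : ∀ (U : Submodule ℝ (EV n)) (v : EV n), ‖v - U.starProjection v‖ ≤ ‖v‖ := by
    intro U v
    have h := Submodule.norm_sq_eq_add_norm_sq_starProjection v U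
    have h' : Uᗮ.starProjection v = v - U.starProjection v := U.starProjection_orthogonal_val v
    rw [h'] at h
    nlinarith [norm_nonneg (v - U.starProjection v), norm_nonneg v,
      sq_nonneg ‖U.starProjection v‖]
  have key : ∀ (U U' : Submodule ℝ (EV n)), (∀ v ∈ U, ∃ v' ∈ U', ‖v - v'‖ ≤ δ * ‖v‖) →
      ∀ l m : Fin n, |⟪U.starProjection (ev l), ev m - U'.starProjection (ev m)⟫_ℝ| ≤ δ := by
    intro U U' h l m
    obtain ⟨w, hw, hle⟩ := h _ (U.starProjection_apply_mem (ev l))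
    have h0 : ⟪w, ev m - U'.starProjection (ev m)⟫_ℝ = 0 := by
      rw [real_inner_comm]
      exact U'.starProjection_inner_eq_zero _ _ hw
    have h3 : ⟪U.starProjection (ev l), ev m - U'.starProjection (ev m)⟫_ℝ
        = ⟪U.starProjection (ev l) - w, ev m - U'.starProjection (ev m)⟫_ℝ := by
      rw [inner_sub_left, h0, sub_zero]
    rw [h3]
    refine (abs_real_inner_le_norm _ _).trans ?_
    have h4 : ‖ev m - U'.starProjection (ev m)‖ ≤ 1 := (hsub U' _).trans (hn m).le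
    have h5 : ‖U.starProjection (ev l)‖ ≤ 1 :=
      (U.norm_starProjection_apply_le _).trans (hn l).le
    have h6 : ‖U.starProjection (ev l) - w‖ ≤ δ :=
      hle.trans (by nlinarith)
    calc _ ≤ δ * 1 := mul_le_mul h6 h4 (norm_nonneg _) hδ
      _ = δ := mul_one _
  have e1 : pm V' i j - pm V i j
      = ⟪P' (ev i), ev j - P (ev j)⟫_ℝ - ⟪ev i - P' (ev i), P (ev j)⟫_ℝ := by
    have e2 : pm V' i j = ⟪P' (ev i), ev j⟫_ℝ :=
      (V'.inner_starProjection_left_eq_right _ _).symm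
    rw [e2]
    show _ - ⟪ev i, P (ev j)⟫_ℝ = _
    rw [inner_sub_right, inner_sub_left]
    ring
  rw [e1]
  have k1 := key V' V h2 i j
  have k2 := key V V' h1 j i
  rw [real_inner_comm] at k2
  calc _ ≤ |⟪P' (ev i), ev j - P (ev j)⟫_ℝ| + |⟪ev i - P' (ev i), P (ev j)⟫_ℝ| := abs_sub _ _
    _ ≤ δ + δ := add_le_add k1 k2
    _ = 2 * δ := by ring

end Crest.Agent.R014.Esc_296
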