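import Crest.Agent.R014.Ms2_667
import Crest.Agent.R014.Esc1_296

/-!
# R014/Esc2_296 : successive minima and gap subspaces on `ModSpace n` (leaf NOESC, helper296)
-/

set_option autoImplicit false

open MeasureTheory Filter Topology
open Crest.NumberTheoryR.Packets Crest.Agent.R014.Ms_667
open scoped InnerProductSpace

namespace Crest.Agent.R014.Esc_296

variable {n : ℕ}

/-- right multiplication of row vectors by `h`. -/
noncomputable def Rc (h : SLR n) : EV n →L[ℝ] EV n :=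
  Matrix.toEuclideanCLM (n := Fin n) (𝕜 := ℝ) h.1.transpose

lemma Rc_mul (g h : SLR n) : Rc (g * h) = (Rc h).comp (Rc g) := by
  unfold Rc
  rw [show ((g * h : SLR n)).1.transpose = h.1.transpose * g.1.transpose by
    rw [← Matrix.transpose_mul]; rfl, map_mul]
  rfl

lemma Rc_one : Rc (1 : SLR n) = ContinuousLinearMap.id ℝ (EV n) := by
  unfold Rc
  rw [show ((1 : SLR n)).1.transpose = 1 by simp, map_one]
  rfl

lemma Rc_apply (h : SLR n) (v : EV n) (j : Fin n) : Rc h v j = ∑ i, v i * h.1 i j := by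
  unfold Rc
  rw [Matrix.ofLp_toEuclideanCLM]
  simp only [Matrix.mulVec, dotProduct, Matrix.transpose_apply]
  exact Finset.sum_congr rfl fun i _ => mul_comm _ _

lemma Rc_inv_apply (h : SLR n) (v : EV n) : Rc h⁻¹ (Rc h v) = v := by
  have h1 : Rc (h * h⁻¹) v = Rc h⁻¹ (Rc h v) := by rw [Rc_mul]; rfl
  rw [← h1, mul_inv_cancel, Rc_one]; rfl

lemma Rc_apply_inv (h : SLR n) (v : EV n) : Rc h (Rc h⁻¹ v) = v := by
  have h1 : Rc (h⁻¹ * h) v = Rc h (Rc h⁻¹ v) := by rw [Rc_mul]; rfl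
  rw [← h1, inv_mul_cancel, Rc_one]; rfl

lemma Rc_injective (h : SLR n) : Function.Injective (Rc h) :=
  Function.LeftInverse.injective (Rc_inv_apply h)

/-- `Rc h` as a linear map. -/
noncomputable abbrev Rl (h : SLR n) : EV n →ₗ[ℝ] EV n := (Rc h).toLinearMap

lemma finrank_map (h : SLR n) (V : Submodule ℝ (EV n)) :
    Module.finrank ℝ (V.map (Rl h)) = Module.finrank ℝ V :=
  (Submodule.equivMapOfInjective (Rl h) (Rc_injective h) V).finrank_eq.symm

/-- size of `h`. -/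
noncomputable def nu (h : SLR n) : ℝ := max 1 (max ‖Rc h‖ ‖Rc h⁻¹‖)

lemma one_le_nu (h : SLR n) : 1 ≤ nu h := le_max_left _ _

lemma nu_pos (h : SLR n) : 0 < nu h := one_pos.trans_le (one_le_nu h)

lemma nu_inv (h : SLR n) : nu h⁻¹ = nu h := by
  unfold nu; rw [inv_inv, max_comm ‖Rc h⁻¹‖]

lemma norm_Rc_le (h : SLR n) (v : EV n) : ‖Rc h v‖ ≤ nu h * ‖v‖ :=
  ((Rc h).le_opNorm v).trans
    (mul_le_mul_of_nonneg_right ((le_max_left _ _).trans (le_max_right _ _)) (norm_nonneg _))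

/-- logarithmic size. -/
noncomputable def cc (h : SLR n) : ℝ := 2 * Real.log (nu h)

lemma cc_nonneg (h : SLR n) : 0 ≤ cc h := by
  unfold cc; have := Real.log_nonneg (one_le_nu h); linarith

lemma nu_of_isometry {h : SLR n} (H : ∀ v, ‖Rc h v‖ = ‖v‖) : nu h = 1 := by
  unfold nu
  refine max_eq_left (max_le ?_ ?_)
  · exact ContinuousLinearMap.opNorm_le_bound _ zero_le_one fun v => by rw [one_mul, H]
  · refine ContinuousLinearMap.opNorm_le_bound _ zero_le_one fun v => ?_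
    rw [one_mul, ← H (Rc h⁻¹ v), Rc_apply_inv]

lemma cc_of_isometry {h : SLR n} (H : ∀ v, ‖Rc h v‖ = ‖v‖) : cc h = 0 := by
  unfold cc; rw [nu_of_isometry H, Real.log_one, mul_zero]

lemma continuous_Rc : Continuous (Rc (n := n)) := by
  have h1 : Continuous fun M : Matrix (Fin n) (Fin n) ℝ =>
      Matrix.toEuclideanCLM (n := Fin n) (𝕜 := ℝ) M :=
    LinearMap.continuous_of_finiteDimensional
      (Matrix.toEuclideanCLM (n := Fin n) (𝕜 := ℝ)).toAlgEquiv.toLinearMap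
  exact h1.comp (continuous_subtype_val.matrix_transpose)

lemma continuous_nu : Continuous (nu (n := n)) :=
  continuous_const.max (continuous_Rc.norm.max (continuous_Rc.comp continuous_inv).norm)

lemma continuous_cc : Continuous (cc (n := n)) :=
  continuous_const.mul (continuous_nu.log fun h => (nu_pos h).ne')

lemma cc_one : cc (1 : SLR n) = 0 :=
  cc_of_isometry fun v => by rw [Rc_one]; rfl

/-! ### lattices -/

/-- the lattice of a point. -/
def Lat (x : ModSpace n) : Set (EV n) :=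
  {v | ∃ g : SLR n, q g = x ∧ ∃ z : Fin n → ℤ, v = Rc g (WithLp.toLp 2 fun i => (z i : ℝ))}

lemma mem_Lat_q {g : SLR n} {v : EV n} :
    v ∈ Lat (q g) ↔ ∃ z : Fin n → ℤ, v = Rc g (WithLp.toLp 2 fun i => (z i : ℝ)) := by
  constructor
  · rintro ⟨g', hg', z, rfl⟩
    obtain ⟨γ, ⟨γ', rfl⟩, hγ⟩ := q_eq_iff'.1 hg'.symm
    refine ⟨fun j => ∑ i, z i * γ'.1 i j, ?_⟩
    rw [hγ, Rc_mul]
    show Rc g (Rc _ _) = _
    congr 1
    ext j
    rw [Rc_apply]
    simp
  · rintro ⟨z, rfl⟩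
    exact ⟨g, rfl, z, rfl⟩

lemma Rc_mem_Lat {x : ModSpace n} {v : EV n} (hv : v ∈ Lat x) (h : SLR n) :
    Rc h v ∈ Lat (act x h) := by
  obtain ⟨g, rfl, z, rfl⟩ := hv
  refine ⟨g * h, rfl, z, ?_⟩
  rw [Rc_mul]; rfl

lemma Rc_inv_mem_Lat {x : ModSpace n} {h : SLR n} {v : EV n} (hv : v ∈ Lat (act x h)) :
    Rc h⁻¹ v ∈ Lat x := by
  have h1 := Rc_mem_Lat hv h⁻¹
  rwa [act_act, mul_inv_cancel, act_one] at h1

/-- span of the lattice vectors of norm `≤ r`. -/
def W (x : ModSpace n) (r : ℝ) : Submodule ℝ (EV n) :=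
  Submodule.span ℝ {v | v ∈ Lat x ∧ ‖v‖ ≤ r}

lemma W_mono (x : ModSpace n) {r s : ℝ} (h : r ≤ s) : W x r ≤ W x s :=
  Submodule.span_mono fun _ hv => ⟨hv.1, hv.2.trans h⟩

lemma map_W_le (x : ModSpace n) (h : SLR n) (r : ℝ) :
    (W x r).map (Rl h) ≤ W (act x h) (nu h * r) := by
  unfold W
  rw [Submodule.map_span, Submodule.span_le]
  rintro _ ⟨v, ⟨hv, hr⟩, rfl⟩
  exact Submodule.subset_span ⟨Rc_mem_Lat hv h,
    (norm_Rc_le h v).trans (mul_le_mul_of_nonneg_left hr (nu_pos h).le)⟩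

lemma W_act_le (x : ModSpace n) (h : SLR n) (r : ℝ) :
    W (act x h) r ≤ (W x (nu h * r)).map (Rl h) := by
  conv_lhs => unfold W
  rw [Submodule.span_le]
  rintro v ⟨hv, hr⟩
  refine ⟨Rc h⁻¹ v, Submodule.subset_span ⟨Rc_inv_mem_Lat hv, ?_⟩, Rc_apply_inv h v⟩
  rw [← nu_inv h]
  exact (norm_Rc_le h⁻¹ v).trans (mul_le_mul_of_nonneg_left hr (nu_pos _).le)

/-- every lattice is generated, over `ℝ`, by vectors of some bounded norm. -/
lemma exists_W_eq_top (x : ModSpace n) : ∃ r : ℝ, 0 ≤ r ∧ W x r = ⊤ := by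
  obtain ⟨g, rfl⟩ := q_surjective x
  refine ⟨nu g, (nu_pos g).le, ?_⟩
  rw [eq_top_iff]
  intro u _
  have h1 : u = Rc g (Rc g⁻¹ u) := (Rc_apply_inv g u).symm
  set w := Rc g⁻¹ u
  have h2 : w = ∑ i, w i • (ev i : EV n) := by
    ext j
    simp [ev, Finset.sum_apply, Pi.single_apply]
  rw [h1, h2, map_sum]
  refine Submodule.sum_mem _ fun i _ => ?_
  rw [map_smul]
  refine Submodule.smul_mem _ _ (Submodule.subset_span ⟨?_, ?_⟩)
  · rw [mem_Lat_q]
    refine ⟨Pi.single i 1, ?_⟩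
    congr 1
    ext j
    by_cases hj : j = i
    · subst hj; simp [ev]
    · simp [ev, hj]
  · refine (norm_Rc_le g _).trans ?_
    simp [ev]

lemma norm_ge_of_mem_Lat {g : SLR n} {v : EV n} (hv : v ∈ Lat (q g)) (h0 : v ≠ 0) :
    (nu g)⁻¹ ≤ ‖v‖ := by
  obtain ⟨z, rfl⟩ := mem_Lat_q.1 hv
  set w : EV n := WithLp.toLp 2 fun i => (z i : ℝ) with hw
  have hz : ∃ i, z i ≠ 0 := by
    by_contra hcon
    push Not at hcon
    apply h0
    have : w = 0 := by ext i; simp [hw, hcon i]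
    rw [this, map_zero]
  obtain ⟨i, hi⟩ := hz
  have h1 : (1 : ℝ) ≤ ‖w‖ := by
    have h2 : ‖w i‖ ≤ ‖w‖ := PiLp.norm_apply_le w i
    have h3 : (1 : ℝ) ≤ ‖w i‖ := by
      have : (1 : ℝ) ≤ |(z i : ℝ)| := by
        rw [← Int.cast_abs]
        exact_mod_cast Int.one_le_abs hi
      simpa [hw, Real.norm_eq_abs] using this
    exact h3.trans h2
  have h4 : ‖w‖ ≤ nu g * ‖Rc g w‖ := by
    have := norm_Rc_le g⁻¹ (Rc g w)
    rwa [Rc_inv_apply, nu_inv] at this
  rw [inv_le_iff_one_le_mul₀ (nu_pos g), mul_comm]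
  exact h1.trans h4

/-- successive minima. -/
noncomputable def lam (x : ModSpace n) (k : ℕ) : ℝ :=
  sInf {r : ℝ | 0 ≤ r ∧ k ≤ Module.finrank ℝ (W x r)}

lemma lam_bddBelow (x : ModSpace n) (k : ℕ) :
    BddBelow {r : ℝ | 0 ≤ r ∧ k ≤ Module.finrank ℝ (W x r)} := ⟨0, fun _ h => h.1⟩

lemma lam_nonempty (x : ModSpace n) {k : ℕ} (hk : k ≤ n) :
    {r : ℝ | 0 ≤ r ∧ k ≤ Module.finrank ℝ (W x r)}.Nonempty := by
  obtain ⟨r, hr, hW⟩ := exists_W_eq_top x
  refine ⟨r, hr, ?_⟩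
  rw [hW, finrank_top, finrank_euclideanSpace_fin]
  exact hk

lemma lam_nonneg (x : ModSpace n) (k : ℕ) : 0 ≤ lam x k :=
  Real.sInf_nonneg fun _ h => h.1

lemma lt_of_lt_lam {x : ModSpace n} {k : ℕ} {r : ℝ} (hr0 : 0 ≤ r) (hr : r < lam x k) :
    Module.finrank ℝ (W x r) < k := by
  by_contra hcon
  push Not at hcon
  exact absurd (csInf_le (lam_bddBelow x k) ⟨hr0, hcon⟩) (not_le.2 hr)

lemma le_of_lam_lt {x : ModSpace n} {k : ℕ} (hk : k ≤ n) {r : ℝ} (hr : lam x k < r) :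
    k ≤ Module.finrank ℝ (W x r) := by
  obtain ⟨s, hs, hsr⟩ := (csInf_lt_iff (lam_bddBelow x k) (lam_nonempty x hk)).1 hr
  exact hs.2.trans (Submodule.finrank_mono (W_mono x hsr.le))

lemma lam_pos (x : ModSpace n) {k : ℕ} (hk0 : 0 < k) (hk : k ≤ n) : 0 < lam x k := by
  obtain ⟨g, rfl⟩ := q_surjective x
  refine (inv_pos.2 (nu_pos g)).trans_le ?_
  refine le_csInf (lam_nonempty _ hk) fun r hr => ?_
  by_contra hcon
  push Not at hcon
  have hbot : W (q g) r = ⊥ := by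
    unfold W
    rw [Submodule.span_eq_bot]
    rintro v ⟨hv, hvr⟩
    by_contra h0
    exact absurd (norm_ge_of_mem_Lat hv h0) (not_le.2 (hvr.trans_lt hcon))
  have := hr.2
  rw [hbot, finrank_bot] at this
  omega

lemma lam_mono (x : ModSpace n) {k l : ℕ} (hkl : k ≤ l) (hl : l ≤ n) : lam x k ≤ lam x l :=
  csInf_le_csInf (lam_bddBelow x k) (lam_nonempty x hl) fun _ h => ⟨h.1, hkl.trans h.2⟩

lemma lam_act_le (x : ModSpace n) (h : SLR n) {k : ℕ} (hk : k ≤ n) :
    lam (act x h) k ≤ nu h * lam x k := by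
  rw [← div_le_iff₀' (nu_pos h)]
  refine le_csInf (lam_nonempty x hk) fun r hr => ?_
  rw [div_le_iff₀' (nu_pos h)]
  refine csInf_le (lam_bddBelow _ k) ⟨mul_nonneg (nu_pos h).le hr.1, ?_⟩
  refine hr.2.trans ?_
  rw [← finrank_map h]
  exact Submodule.finrank_mono (map_W_le x h r)

lemma lam_le_act (x : ModSpace n) (h : SLR n) {k : ℕ} (hk : k ≤ n) :
    lam x k ≤ nu h * lam (act x h) k := by
  have h1 := lam_act_le (act x h) h⁻¹ hk
  rwa [act_act, mul_inv_cancel, act_one, nu_inv] at h1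

/-- logarithmic gap between consecutive minima. -/
noncomputable def gap (x : ModSpace n) (k : ℕ) : ℝ :=
  Real.log (lam x (k + 1)) - Real.log (lam x k)

lemma abs_log_lam_act (x : ModSpace n) (h : SLR n) {k : ℕ} (hk0 : 0 < k) (hk : k ≤ n) :
    |Real.log (lam (act x h) k) - Real.log (lam x k)| ≤ Real.log (nu h) := by
  have p1 := lam_pos x hk0 hk
  have p2 := lam_pos (act x h) hk0 hk
  have h1 := Real.log_le_log p2 (lam_act_le x h hk)
  have h2 := Real.log_le_log p1 (lam_le_act x h hk)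
  rw [Real.log_mul (nu_pos h).ne' p1.ne'] at h1
  rw [Real.log_mul (nu_pos h).ne' p2.ne'] at h2
  rw [abs_le]
  constructor <;> linarith

lemma abs_gap_act (x : ModSpace n) (h : SLR n) {k : ℕ} (hk0 : 0 < k) (hk : k < n) :
    |gap (act x h) k - gap x k| ≤ cc h := by
  have h1 := abs_log_lam_act x h hk0 hk.le
  have h2 := abs_log_lam_act x h (Nat.succ_pos k) hk
  unfold gap cc
  rw [abs_le] at *
  constructor <;> linarith [h1.1, h1.2, h2.1, h2.2]

lemma gap_nonneg (x : ModSpace n) {k : ℕ} (hk0 : 0 < k) (hk : k < n) : 0 ≤ gap x k := by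
  unfold gap
  rw [sub_nonneg]
  exact Real.log_le_log (lam_pos x hk0 hk.le) (lam_mono x (Nat.le_succ k) hk)

/-- the geometric midpoint of the `k`-th gap. -/
noncomputable def mid (x : ModSpace n) (k : ℕ) : ℝ :=
  Real.exp ((Real.log (lam x k) + Real.log (lam x (k + 1))) / 2)

lemma mid_pos (x : ModSpace n) (k : ℕ) : 0 < mid x k := Real.exp_pos _

lemma lam_lt_mid {x : ModSpace n} {k : ℕ} (hk0 : 0 < k) (hk : k < n) (hg : 0 < gap x k) :
    lam x k < mid x k := by
  unfold mid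
  rw [← Real.log_lt_iff_lt_exp (lam_pos x hk0 hk.le)]
  unfold gap at hg
  linarith

/-- The canonical subspace at the `k`-th gap. -/
noncomputable def Vk (x : ModSpace n) (k : ℕ) : Submodule ℝ (EV n) := W x (mid x k)

lemma mul_mid_lt {x : ModSpace n} {k : ℕ} (hk : k < n) {t : ℝ} (ht : 0 < t)
    (hg : 2 * Real.log t < gap x k) : t * mid x k < lam x (k + 1) := by
  unfold mid
  rw [← Real.exp_log ht, ← Real.exp_add,
    ← Real.lt_log_iff_exp_lt (lam_pos x (Nat.succ_pos k) hk)]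
  unfold gap at hg
  show _ < Real.log (lam x (k + 1))
  linarith

lemma finrank_Vk {x : ModSpace n} {k : ℕ} (hk0 : 0 < k) (hk : k < n) (hg : 0 < gap x k) :
    Module.finrank ℝ (Vk x k) = k := by
  refine le_antisymm ?_ (le_of_lam_lt hk.le (lam_lt_mid hk0 hk hg))
  have h1 := mul_mid_lt (x := x) hk one_pos (by rw [Real.log_one, mul_zero]; exact hg)
  rw [one_mul] at h1
  exact Nat.lt_succ_iff.1 (lt_of_lt_lam (mid_pos x k).le h1)

lemma abs_log_mid_act (x : ModSpace n) (h : SLR n) {k : ℕ} (hk0 : 0 < k) (hk : k < n) :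
    |Real.log (mid (act x h) k) - Real.log (mid x k)| ≤ Real.log (nu h) := by
  have h1 := abs_log_lam_act x h hk0 hk.le
  have h2 := abs_log_lam_act x h (Nat.succ_pos k) hk
  unfold mid
  rw [Real.log_exp, Real.log_exp]
  rw [abs_le] at *
  constructor <;> linarith [h1.1, h1.2, h2.1, h2.2]

/-- equivariance of the canonical subspace, when the gap is large compared to `h`. -/
lemma Vk_act {x : ModSpace n} {h : SLR n} {k : ℕ} (hk0 : 0 < k) (hk : k < n)
    (hg : 2 * cc h < gap x k) : Vk (act x h) k = (Vk x k).map (Rl h) := by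
  have hc := cc_nonneg h
  have hg' : 0 < gap (act x h) k := by
    have := abs_gap_act x h hk0 hk
    rw [abs_le] at this
    linarith [this.1]
  have hm := abs_log_mid_act x h hk0 hk
  rw [abs_le] at hm
  have hcc : cc h = 2 * Real.log (nu h) := rfl
  have m1 : nu h * mid (act x h) k < lam x (k + 1) := by
    have e1 := mul_mid_lt (x := x) hk (t := nu h ^ 2) (by have := nu_pos h; positivity)
      (by rw [Real.log_pow]; push_cast; linarith)
    refine lt_of_le_of_lt ?_ e1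
    have e2 : mid (act x h) k ≤ nu h * mid x k := by
      rw [← Real.log_le_log_iff (mid_pos _ _) (mul_pos (nu_pos h) (mid_pos _ _)),
        Real.log_mul (nu_pos h).ne' (mid_pos _ _).ne']
      linarith [hm.2]
    calc nu h * mid (act x h) k ≤ nu h * (nu h * mid x k) :=
          mul_le_mul_of_nonneg_left e2 (nu_pos h).le
      _ = nu h ^ 2 * mid x k := by ring
  have m2 : mid x k ≤ nu h * mid (act x h) k := by
    rw [← Real.log_le_log_iff (mid_pos _ _) (mul_pos (nu_pos h) (mid_pos _ _)),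
      Real.log_mul (nu_pos h).ne' (mid_pos _ _).ne']
    linarith [hm.1]
  have f1 : Module.finrank ℝ (W x (nu h * mid (act x h) k)) ≤ k :=
    Nat.lt_succ_iff.1 (lt_of_lt_lam (mul_nonneg (nu_pos h).le (mid_pos _ _).le) m1)
  have f2 := finrank_Vk hk0 hk (x := x) (by linarith)
  have f3 := finrank_Vk hk0 hk hg'
  have s1 : Vk x k = W x (nu h * mid (act x h) k) :=
    Submodule.eq_of_le_of_finrank_le (W_mono x m2) (by rw [f2]; exact f1)
  have s2 : Vk (act x h) k = (W x (nu h * mid (act x h) k)).map (Rl h) :=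
    Submodule.eq_of_le_of_finrank_le (W_act_le x h _) (by rw [f3, finrank_map]; exact f1)
  rw [s2, s1]

end Crest.Agent.R014.Esc_296
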