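import Crest.Agent.R014.Esc2_296

/-!
# R014/Esc3_296 : Hadamard bound, big gaps in the cusp, torus and rotation formulas for projections
(leaf NOESC, helper296)
-/

set_option autoImplicit false

open MeasureTheory Filter Topology
open Crest.NumberTheoryR.Packets Crest.Agent.R014.Ms_667
open scoped InnerProductSpace

namespace Crest.Agent.R014.Esc_296

variable {n : ℕ}

/-! ### Hadamard -/

lemma abs_det_le (v : Fin n → EV n) :
    |(Matrix.of fun i j => v i j).det| ≤ ∏ i, ‖v i‖ := by
  haveI : Fact (Module.finrank ℝ (EV n) = n) := ⟨finrank_euclideanSpace_fin⟩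
  set b := EuclideanSpace.basisFun (Fin n) ℝ
  set o := b.toBasis.orientation
  have h1 := o.abs_volumeForm_apply_le v
  rw [o.volumeForm_robust b rfl, Module.Basis.det_apply] at h1
  have h2 : b.toBasis.toMatrix v = (Matrix.of fun i j => v i j).transpose := by
    ext i j
    simp [Module.Basis.toMatrix_apply, b]
  rwa [h2, Matrix.det_transpose] at h1

/-- the last minimum of a unimodular lattice is at least one. -/
lemma one_le_lam (x : ModSpace n) (hn : 0 < n) : 1 ≤ lam x n := by
  refine le_csInf (lam_nonempty x le_rfl) fun r hr => ?_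
  obtain ⟨hr0, hr⟩ := hr
  have htop : W x r = ⊤ :=
    Submodule.eq_top_of_finrank_eq (le_antisymm (Submodule.finrank_le _)
      (by rw [finrank_euclideanSpace_fin]; exact hr))
  obtain ⟨b, hb, hspan, hli⟩ := exists_linearIndependent ℝ {v : EV n | v ∈ Lat x ∧ ‖v‖ ≤ r}
  have hspan' : Submodule.span ℝ b = ⊤ := hspan.trans htop
  let B : Module.Basis b ℝ (EV n) := Module.Basis.mk hli (by rw [Subtype.range_coe, hspan'])
  have hfin : Finite b := Module.Finite.finite_basis B
  have := Fintype.ofFinite b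
  have hcard : Fintype.card b = n := by
    rw [← Module.finrank_eq_card_basis B, finrank_euclideanSpace_fin]
  let e : Fin n ≃ b := (Fintype.equivFinOfCardEq hcard).symm
  set v : Fin n → EV n := fun i => (e i : EV n) with hv
  have hvli : LinearIndependent ℝ v := hli.comp e e.injective
  obtain ⟨g, hg⟩ := q_surjective x
  have hvm : ∀ i, v i ∈ Lat x ∧ ‖v i‖ ≤ r := fun i => hb (e i).2
  have hz : ∀ i, ∃ z : Fin n → ℤ, v i = Rc g (WithLp.toLp 2 fun i => (z i : ℝ)) := fun i => by
    have := (hvm i).1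
    rw [← hg] at this
    exact mem_Lat_q.1 this
  choose Z hZ using hz
  have hM : (Matrix.of fun i j => v i j) = (Matrix.of Z).map (Int.castRingHom ℝ) * g.1 := by
    ext i j
    rw [Matrix.of_apply, hZ i, Rc_apply, Matrix.mul_apply]
    rfl
  have hdet : (Matrix.of fun i j => v i j).det = ((Matrix.of Z).det : ℝ) := by
    rw [hM, Matrix.det_mul, g.2, mul_one]
    exact (RingHom.map_det (Int.castRingHom ℝ) (Matrix.of Z)).symm
  have hne : (Matrix.of fun i j => v i j).det ≠ 0 := by
    have h1 : LinearIndependent ℝ (fun i => (Matrix.of fun i j => v i j) i) := by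
      have h2 := hvli.map' (WithLp.linearEquiv 2 ℝ (Fin n → ℝ)).toLinearMap
        (LinearEquiv.ker _)
      exact h2
    have h3 := Matrix.linearIndependent_rows_iff_isUnit.1 h1
    exact ((Matrix.isUnit_iff_isUnit_det _).1 h3).ne_zero
  have hge : (1 : ℝ) ≤ |(Matrix.of fun i j => v i j).det| := by
    rw [hdet, ← Int.cast_abs]
    have : (Matrix.of Z).det ≠ 0 := by
      intro h0
      apply hne
      rw [hdet, h0, Int.cast_zero]
    exact_mod_cast Int.one_le_abs this
  have hle : |(Matrix.of fun i j => v i j).det| ≤ r ^ n := by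
    refine (abs_det_le v).trans ?_
    calc ∏ i, ‖v i‖ ≤ ∏ _i : Fin n, r :=
          Finset.prod_le_prod (fun i _ => norm_nonneg _) fun i _ => (hvm i).2
      _ = r ^ n := by simp
  by_contra hcon
  push Not at hcon
  have : r ^ n < 1 := pow_lt_one₀ hr0 hcon hn.ne'
  linarith

lemma lam_one_le {x : ModSpace n} {v : EV n} (hv : v ∈ Lat x) (h0 : v ≠ 0) :
    lam x 1 ≤ ‖v‖ := by
  refine csInf_le (lam_bddBelow x 1) ⟨norm_nonneg _, ?_⟩
  have h1 : v ∈ W x ‖v‖ := Submodule.subset_span ⟨hv, le_rfl⟩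
  rw [Nat.one_le_iff_ne_zero, Ne, Submodule.finrank_eq_zero]
  intro hbot
  rw [hbot, Submodule.mem_bot] at h1
  exact h0 h1

/-- deep in the cusp one of the gaps is large. -/
lemma exists_gap {x : ModSpace n} (hn : 0 < n) {R : ℝ} (hR : 0 ≤ R) {v : EV n} (hv : v ∈ Lat x)
    (h0 : v ≠ 0) (hlt : ‖v‖ < Real.exp (-(n * R))) : ∃ k, 0 < k ∧ k < n ∧ R < gap x k := by
  by_contra hcon
  push Not at hcon
  have key : ∀ m : ℕ, m + 1 ≤ n → Real.log (lam x (m + 1)) - Real.log (lam x 1) ≤ m * R := by
    intro m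
    induction m with
    | zero => intro _; simp
    | succ m ih =>
      intro hm
      have h1 := ih (by omega)
      have h2 := hcon (m + 1) (Nat.succ_pos m) (by omega)
      unfold gap at h2
      push_cast
      linarith
  have h1 := key (n - 1) (by omega)
  rw [Nat.sub_add_cancel hn] at h1
  have h2 : 0 ≤ Real.log (lam x n) := Real.log_nonneg (one_le_lam x hn)
  have h3 : Real.log (lam x 1) < -(n * R) := by
    rw [Real.log_lt_iff_lt_exp (lam_pos x one_pos hn)]
    exact (lam_one_le hv h0).trans_lt hlt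
  have h4 : ((n - 1 : ℕ) : ℝ) * R ≤ n * R :=
    mul_le_mul_of_nonneg_right (by exact_mod_cast Nat.sub_le n 1) hR
  linarith

/-! ### torus elements -/

lemma real_inner_eq_sum (u v : EV n) : ⟪u, v⟫_ℝ = ∑ j, u j * v j := by
  rw [PiLp.inner_apply]
  exact Finset.sum_congr rfl fun j _ => by simp [mul_comm]

lemma inner_proj_of_mem (V : Submodule ℝ (EV n)) (i : Fin n) {v : EV n} (hv : v ∈ V) :
    ⟪V.starProjection (ev i), v⟫_ℝ = v i := by
  have h1 := V.starProjection_inner_eq_zero (ev i) v hv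
  rw [inner_sub_left, sub_eq_zero, inner_ev] at h1
  exact h1.symm

lemma pm_torus (V : Submodule ℝ (EV n)) (i : Fin n) (a : SLR n) (α β : ℝ) (hα : 0 < α)
    (hβ : 0 < β) (hd : ∀ (v : EV n) (j : Fin n), Rc a v j = (if j = i then α else β) * v j) :
    pm (V.map (Rl a)) i i
      = α ^ 2 * pm V i i / (α ^ 2 * pm V i i + β ^ 2 * (1 - pm V i i)) := by
  set p := V.starProjection (ev i) with hp
  set y := pm V i i with hy
  have hy0 : 0 ≤ y := pm_self_nonneg V i
  have hy1 : y ≤ 1 := pm_self_le_one V i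
  have hpi : p i = y := (pm_eq_coord V i i).symm
  set D := α ^ 2 * y + β ^ 2 * (1 - y) with hD
  have hDpos : 0 < D := by
    rcases hy0.eq_or_lt with h | h
    · rw [hD, ← h]; simp; positivity
    · have h1 : 0 < α ^ 2 * y := by positivity
      have h2 : 0 ≤ β ^ 2 * (1 - y) := mul_nonneg (sq_nonneg _) (by linarith)
      linarith
  have hmem : (α / D) • Rc a p ∈ V.map (Rl a) :=
    Submodule.smul_mem _ _ ⟨p, V.starProjection_apply_mem _, rfl⟩
  have horth : ∀ w ∈ V.map (Rl a), ⟪ev i - (α / D) • Rc a p, w⟫_ℝ = 0 := by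
    rintro _ ⟨v, hv, rfl⟩
    show ⟪ev i - (α / D) • Rc a p, Rc a v⟫_ℝ = 0
    rw [inner_sub_left, inner_ev, real_inner_smul_left]
    have e1 : ⟪Rc a p, Rc a v⟫_ℝ = D * v i := by
      rw [real_inner_eq_sum]
      have e2 : ∀ j, Rc a p j * Rc a v j
          = β ^ 2 * (p j * v j) + (if j = i then (α ^ 2 - β ^ 2) * (p j * v j) else 0) := by
        intro j
        rw [hd, hd]
        split_ifs <;> ring
      rw [Finset.sum_congr rfl fun j _ => e2 j, Finset.sum_add_distrib, ← Finset.mul_sum,
        ← real_inner_eq_sum, Finset.sum_ite_eq' Finset.univ i]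
      simp only [Finset.mem_univ, if_true]
      rw [inner_proj_of_mem V i hv, hpi, hD]
      ring
    rw [e1, hd]
    simp only [if_true]
    field_simp
    ring
  have h1 : (V.map (Rl a)).starProjection (ev i) = (α / D) • Rc a p :=
    Submodule.eq_starProjection_of_mem_of_inner_eq_zero hmem horth
  rw [pm_eq_coord, h1, PiLp.smul_apply, hd]
  simp only [if_true, smul_eq_mul]
  rw [hpi]
  ring

/-! ### isometries -/

lemma inner_map {h : SLR n} (H : ∀ v, ‖Rc h v‖ = ‖v‖) (u v : EV n) :
    ⟪Rc h u, Rc h v⟫_ℝ = ⟪u, v⟫_ℝ :=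
  LinearIsometry.inner_map_map (⟨Rl h, H⟩ : EV n →ₗᵢ[ℝ] EV n) u v

lemma pm_isometry {h : SLR n} (H : ∀ v, ‖Rc h v‖ = ‖v‖) (V : Submodule ℝ (EV n)) (i j : Fin n) :
    pm (V.map (Rl h)) i j = ⟪Rc h⁻¹ (ev i), V.starProjection (Rc h⁻¹ (ev j))⟫_ℝ := by
  have hmem : Rc h (V.starProjection (Rc h⁻¹ (ev j))) ∈ V.map (Rl h) :=
    ⟨_, V.starProjection_apply_mem _, rfl⟩
  have horth : ∀ w ∈ V.map (Rl h),
      ⟪ev j - Rc h (V.starProjection (Rc h⁻¹ (ev j))), w⟫_ℝ = 0 := by
    rintro _ ⟨v, hv, rfl⟩
    show ⟪ev j - Rc h (V.starProjection (Rc h⁻¹ (ev j))), Rc h v⟫_ℝ = 0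
    have e1 : (ev j : EV n) = Rc h (Rc h⁻¹ (ev j)) := (Rc_apply_inv h _).symm
    conv_lhs => rw [e1]
    rw [Rc_inv_apply, ← map_sub, inner_map H]
    exact V.starProjection_inner_eq_zero _ _ hv
  have h1 := Submodule.eq_starProjection_of_mem_of_inner_eq_zero hmem horth
  unfold pm
  rw [h1]
  have e2 := inner_map H (Rc h⁻¹ (ev i)) (V.starProjection (Rc h⁻¹ (ev j)))
  rw [Rc_apply_inv] at e2
  exact e2

/-! ### elementary matrices and the rotation by 45 degrees -/

/-- the elementary matrix `1 + s E_ij`. -/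
noncomputable def U (i j : Fin n) (hij : i ≠ j) (s : ℝ) : SLR n :=
  ⟨Matrix.transvection i j s, Matrix.det_transvection_of_ne i j hij s⟩

lemma Rc_U (i j : Fin n) (hij : i ≠ j) (s : ℝ) (v : EV n) :
    Rc (U i j hij s) v = v + (s * v i) • ev j := by
  ext l
  rw [Rc_apply]
  have h1 : ∀ m, v m * (U i j hij s).1 m l
      = (if m = l then v m else 0) + (if m = i then (if l = j then s * v m else 0) else 0) := by
    intro m
    show v m * (Matrix.transvection i j s) m l = _
    rw [Matrix.transvection, Matrix.add_apply, Matrix.one_apply, Matrix.single_apply]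
    by_cases h1 : m = l <;> by_cases h2 : m = i <;> by_cases h3 : l = j <;>
      simp_all [eq_comm, mul_comm, mul_add] 
  rw [Finset.sum_congr rfl fun m _ => h1 m, Finset.sum_add_distrib, Finset.sum_ite_eq',
    Finset.sum_ite_eq']
  simp [ev, Pi.single_apply]

/-- `√2 / 2`. -/
noncomputable def c2 : ℝ := Real.sqrt 2 / 2

lemma c2_sq : c2 * c2 = 1 / 2 := by
  unfold c2
  have := Real.mul_self_sqrt (show (0:ℝ) ≤ 2 by norm_num)
  nlinarith

lemma c2_pos : 0 < c2 := by unfold c2; positivity

/-- `1 - √2`. -/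
noncomputable def s1 : ℝ := 1 - 2 * c2

lemma s1_rel : 1 + s1 * c2 = c2 := by
  unfold s1; have := c2_sq; nlinarith

/-- the rotation by 45 degrees in the plane `(i, j)`. -/
noncomputable def rot (i j : Fin n) (hij : i ≠ j) : SLR n :=
  U i j hij s1 * U j i hij.symm c2 * U i j hij s1

lemma Rc_rot (i j : Fin n) (hij : i ≠ j) (v : EV n) :
    Rc (rot i j hij) v = v + ((c2 - 1) * v i + c2 * v j) • ev i
      + (-c2 * v i + (c2 - 1) * v j) • ev j := by
  unfold rot
  rw [Rc_mul, Rc_mul]
  show Rc (U i j hij s1) (Rc (U j i hij.symm c2) (Rc (U i j hij s1) v)) = _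
  rw [Rc_U i j hij s1 v, Rc_U j i, Rc_U i j]
  have hs := s1_rel
  have hc := c2_sq
  have hs1 : s1 = 1 - 2 * c2 := rfl
  ext l
  simp only [PiLp.add_apply, PiLp.smul_apply, smul_eq_mul, ev, EuclideanSpace.single_apply]
  have hji : j ≠ i := hij.symm
  by_cases h1 : l = i
  · subst h1
    simp only [if_true, hij, hji, if_false]
    have : c2 * s1 = c2 - 1 := by linarith
    linear_combination (v l) * this
  · by_cases h2 : l = j
    · subst h2
      simp only [if_true, h1, hij, hji, if_false]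
      have e1 : c2 * s1 = c2 - 1 := by linarith
      have e2 : s1 + s1 * (1 + c2 * s1) = - c2 := by
        rw [e1, hs1]; nlinarith
      linear_combination (v i) * e2 + (v l) * e1
    · simp only [h1, h2, if_false]
      ring

lemma rot_isometry (i j : Fin n) (hij : i ≠ j) (v : EV n) : ‖Rc (rot i j hij) v‖ = ‖v‖ := by
  have h1 : ‖Rc (rot i j hij) v‖ ^ 2 = ‖v‖ ^ 2 := by
    rw [Rc_rot, ← real_inner_self_eq_norm_sq, ← real_inner_self_eq_norm_sq]
    have e1 : ⟪(ev i : EV n), ev j⟫_ℝ = 0 := by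
      rw [inner_ev]; simp [ev, hij]
    have e2 : ⟪(ev j : EV n), ev i⟫_ℝ = 0 := by rw [real_inner_comm]; exact e1
    have e3 : ⟪(ev i : EV n), ev i⟫_ℝ = 1 := by rw [inner_ev]; simp [ev]
    have e4 : ⟪(ev j : EV n), ev j⟫_ℝ = 1 := by rw [inner_ev]; simp [ev]
    have e5 : ⟪v, ev i⟫_ℝ = v i := by rw [real_inner_comm, inner_ev]
    have e6 : ⟪v, ev j⟫_ℝ = v j := by rw [real_inner_comm, inner_ev]
    simp only [inner_add_left, inner_add_right, real_inner_smul_left, real_inner_smul_right,
      e1, e2, e3, e4, e5, e6, inner_ev]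
    have hc := c2_sq
    linear_combination (2 * (v i * v i) + 2 * (v j * v j)) * hc
  exact (sq_eq_sq₀ (norm_nonneg _) (norm_nonneg _)).1 h1

lemma rot_inv_i (i j : Fin n) (hij : i ≠ j) :
    Rc (rot i j hij)⁻¹ (ev i) = c2 • (ev i + ev j) := by
  have h1 : Rc (rot i j hij) (c2 • (ev i + ev j)) = ev i := by
    rw [Rc_rot]
    have hc := c2_sq
    have hji : j ≠ i := hij.symm
    ext l
    simp only [PiLp.add_apply, PiLp.smul_apply, smul_eq_mul, ev, EuclideanSpace.single_apply,
      if_true, hij, hji, if_false]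
    by_cases h1 : l = i
    · subst h1
      simp only [if_true, hij, if_false]
      linear_combination 2 * hc
    · by_cases h2 : l = j
      · subst h2
        simp only [if_true, h1, if_false]
        ring
      · simp only [h1, h2, if_false]
        ring
  conv_lhs => rw [← h1]
  rw [Rc_inv_apply]

lemma rot_inv_j (i j : Fin n) (hij : i ≠ j) :
    Rc (rot i j hij)⁻¹ (ev j) = c2 • (ev j - ev i) := by
  have h1 : Rc (rot i j hij) (c2 • (ev j - ev i)) = ev j := by
    rw [Rc_rot]
    have hc := c2_sq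
    have hji : j ≠ i := hij.symm
    ext l
    simp only [PiLp.add_apply, PiLp.sub_apply, PiLp.smul_apply, smul_eq_mul, ev,
      EuclideanSpace.single_apply, if_true, hij, hji, if_false]
    by_cases h1 : l = i
    · subst h1
      simp only [if_true, hij, if_false]
      ring
    · by_cases h2 : l = j
      · subst h2
        simp only [if_true, h1, if_false]
        linear_combination 2 * hc
      · simp only [h1, h2, if_false]
        ring
  conv_lhs => rw [← h1]
  rw [Rc_inv_apply]

lemma pm_rot (V : Submodule ℝ (EV n)) (i j : Fin n) (hij : i ≠ j) :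
    (pm (V.map (Rl (rot i j hij))) i j) ^ 2 = (pm V i i - pm V j j) ^ 2 / 4 := by
  rw [pm_isometry (rot_isometry i j hij), rot_inv_i, rot_inv_j]
  have h1 : ⟪c2 • (ev i + ev j), V.starProjection (c2 • (ev j - ev i))⟫_ℝ
      = c2 * c2 * (pm V j j - pm V i i) := by
    rw [map_smul, map_sub, real_inner_smul_left, real_inner_smul_right, inner_sub_right,
      inner_add_left, inner_add_left]
    have e : pm V i j = pm V j i := pm_symm V i j
    show c2 * (c2 * (pm V i j + pm V j j - (pm V i i + pm V j i))) = _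
    rw [e]; ring
  rw [h1, c2_sq]
  ring

end Crest.Agent.R014.Esc_296
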