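import Mathlib

/-!
# Row 14, N1-EUL, part A (helper534): Euler products over an arbitrary index set

`mon x v = ∏ x i ^ v i`.  For `x : ι → 𝕜`, `‖x i‖ ≤ 1/2`, `∑ ‖x i‖ < ∞`:
`∑' v : ι →₀ ℕ, mon x v = ∏' (1 - x i)⁻¹` (`hasProd_mon`), and (`exp_form`)
`∑' v, mon x v = exp w` with `‖w - ∑' x i‖ ≤ ∑' ‖x i‖ ^ 2`.
-/

set_option autoImplicit false

namespace Crest.Agent.R014.EulA_534

open Filter Topology

variable {ι : Type*}

/-- the monomial `∏ x i ^ v i` -/
noncomputable def mon {M : Type*} [CommMonoid M] (x : ι → M) (v : ι →₀ ℕ) : M :=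
  v.prod fun i k => x i ^ k

theorem mon_zero {M : Type*} [CommMonoid M] (x : ι → M) : mon x 0 = 1 := Finsupp.prod_zero_index

theorem mon_add {M : Type*} [CommMonoid M] (x : ι → M) (u v : ι →₀ ℕ) :
    mon x (u + v) = mon x u * mon x v :=
  Finsupp.prod_add_index' (fun i => pow_zero (x i)) fun i a b => pow_add (x i) a b

theorem mon_single {M : Type*} [CommMonoid M] (x : ι → M) (i : ι) (k : ℕ) :
    mon x (Finsupp.single i k) = x i ^ k := Finsupp.prod_single_index (pow_zero (x i))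

theorem norm_mon {𝕜 : Type*} [NormedField 𝕜] (x : ι → 𝕜) (v : ι →₀ ℕ) :
    ‖mon x v‖ = mon (fun i => ‖x i‖) v := by
  unfold mon Finsupp.prod
  rw [norm_prod]
  exact Finset.prod_congr rfl fun i _ => norm_pow _ _

/-- adding one variable -/
noncomputable def ins [DecidableEq ι] (T : Finset ι) {i : ι} (hi : i ∉ T) :
    ℕ × {v : ι →₀ ℕ // v.support ⊆ T} ≃ {v : ι →₀ ℕ // v.support ⊆ insert i T} where
  toFun p := ⟨Finsupp.single i p.1 + p.2.1, by
    refine Finsupp.support_add.trans (Finset.union_subset ?_ (p.2.2.trans (Finset.subset_insert _ _)))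
    exact Finsupp.support_single_subset.trans (Finset.singleton_subset_iff.2
      (Finset.mem_insert_self _ _))⟩
  invFun v := (v.1 i, ⟨v.1.erase i, by
    intro j hj
    rw [Finsupp.support_erase, Finset.mem_erase] at hj
    exact (Finset.mem_insert.1 (v.2 hj.2)).resolve_left hj.1⟩)
  left_inv p := by
    have h0 : p.2.1 i = 0 := by
      by_contra h
      exact hi (p.2.2 (Finsupp.mem_support_iff.2 h))
    refine Prod.ext ?_ (Subtype.ext ?_)
    · change (Finsupp.single i p.1 + p.2.1) i = p.1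
      rw [Finsupp.add_apply, Finsupp.single_eq_same, h0, add_zero]
    · change (Finsupp.single i p.1 + p.2.1).erase i = p.2.1
      ext j
      by_cases hj : j = i
      · subst hj
        rw [Finsupp.erase_same, h0]
      · rw [Finsupp.erase_ne hj, Finsupp.add_apply, Finsupp.single_eq_of_ne hj, zero_add]
  right_inv v := by
    refine Subtype.ext ?_
    change Finsupp.single i (v.1 i) + v.1.erase i = v.1
    exact Finsupp.single_add_erase i v.1

section fin

variable {𝕜 : Type*} [NormedField 𝕜] [CompleteSpace 𝕜]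

omit [CompleteSpace 𝕜] in
theorem hasSum_mul' {β γ : Type*} (f : β → 𝕜) (g : γ → 𝕜) (a b : 𝕜) (hf : HasSum f a)
    (hg : HasSum g b) (h : Summable fun p : β × γ => f p.1 * g p.2) :
    HasSum (fun p : β × γ => f p.1 * g p.2) (a * b) := by
  have : T3Space 𝕜 := instT3Space
  exact hf.mul hg h

theorem finite_part (x : ι → 𝕜) (hx : ∀ i, ‖x i‖ < 1) (T : Finset ι) :
    Summable (fun v : {v : ι →₀ ℕ // v.support ⊆ T} => ‖mon x v.1‖) ∧
      HasSum (fun v : {v : ι →₀ ℕ // v.support ⊆ T} => mon x v.1) (∏ i ∈ T, (1 - x i)⁻¹) := by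
  classical
  induction T using Finset.induction with
  | empty =>
    have hu : ∀ v : {v : ι →₀ ℕ // v.support ⊆ (∅ : Finset ι)}, v = ⟨0, by simp⟩ := by
      intro v
      refine Subtype.ext ?_
      exact Finsupp.support_eq_empty.1 (Finset.subset_empty.1 v.2)
    let _ : Unique {v : ι →₀ ℕ // v.support ⊆ (∅ : Finset ι)} := ⟨⟨⟨0, by simp⟩⟩, hu⟩
    constructor
    · exact (hasSum_fintype _).summable
    · rw [Finset.prod_empty]
      have := hasSum_unique (fun v : {v : ι →₀ ℕ // v.support ⊆ (∅ : Finset ι)} => mon x v.1)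
      convert this using 1
      rw [hu default]
      exact (mon_zero x).symm
  | insert i T hi ih =>
    have hg : Summable (fun k : ℕ => ‖x i ^ k‖) := by
      simp_rw [norm_pow]
      exact summable_geometric_of_lt_one (norm_nonneg _) (hx i)
    have hg' : HasSum (fun k : ℕ => x i ^ k) (1 - x i)⁻¹ := hasSum_geometric_of_norm_lt_one (hx i)
    have heq : ∀ p : ℕ × {v : ι →₀ ℕ // v.support ⊆ T}, mon x ((ins T hi) p).1 =
        x i ^ p.1 * mon x p.2.1 := by
      intro p
      change mon x (Finsupp.single i p.1 + p.2.1) = _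
      rw [mon_add, mon_single]
    have hsm : Summable fun p : ℕ × {v : ι →₀ ℕ // v.support ⊆ T} => ‖x i ^ p.1 * mon x p.2.1‖ :=
      Summable.of_nonneg_of_le (fun _ => norm_nonneg _) (fun _ => (norm_mul _ _).le)
        (Summable.mul_of_nonneg hg ih.1 (fun _ => norm_nonneg _) fun _ => norm_nonneg _)
    constructor
    · rw [← (ins T hi).summable_iff]
      simp only [Function.comp_def, heq]
      exact hsm
    · have hsm' : Summable fun p : ℕ × {v : ι →₀ ℕ // v.support ⊆ T} =>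
          x i ^ p.1 * mon x p.2.1 := hsm.of_norm
      have key : HasSum (fun p : ℕ × {v : ι →₀ ℕ // v.support ⊆ T} => x i ^ p.1 * mon x p.2.1)
          ((1 - x i)⁻¹ * ∏ i ∈ T, (1 - x i)⁻¹) :=
        hasSum_mul' (fun k : ℕ => x i ^ k)
          (fun v : {v : ι →₀ ℕ // v.support ⊆ T} => mon x v.1) _ _ hg' ih.2 hsm'
      rw [Finset.prod_insert hi, ← (ins T hi).hasSum_iff]
      have h5 : (fun v : {v : ι →₀ ℕ // v.support ⊆ insert i T} => mon x v.1) ∘ (ins T hi) =
          fun p : ℕ × {v : ι →₀ ℕ // v.support ⊆ T} => x i ^ p.1 * mon x p.2.1 := funext heq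
      rw [h5]
      exact key

end fin

section real

/-- `∏ (1 - y)⁻¹ ≤ exp (2 ∑ y)` -/
theorem prod_le_exp (y : ι → ℝ) (h0 : ∀ i, 0 ≤ y i) (h1 : ∀ i, y i ≤ 1 / 2) (T : Finset ι) :
    ∏ i ∈ T, (1 - y i)⁻¹ ≤ Real.exp (2 * ∑ i ∈ T, y i) := by
  rw [Finset.mul_sum, Real.exp_sum]
  refine Finset.prod_le_prod (fun i _ => inv_nonneg.2 (by linarith [h1 i])) fun i _ => ?_
  have h2 : (1 - y i)⁻¹ ≤ 1 + 2 * y i := by
    rw [inv_le_iff_one_le_mul₀ (by linarith [h1 i])]
    nlinarith [h0 i, h1 i]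
  exact h2.trans (by linarith [Real.add_one_le_exp (2 * y i)])

theorem mon_nonneg {y : ι → ℝ} (h0 : ∀ i, 0 ≤ y i) (v : ι →₀ ℕ) : 0 ≤ mon y v :=
  Finset.prod_nonneg fun i _ => pow_nonneg (h0 i) _

theorem sum_le (y : ι → ℝ) (h0 : ∀ i, 0 ≤ y i) (h1 : ∀ i, y i ≤ 1 / 2) (hs : Summable y)
    (V : Finset (ι →₀ ℕ)) : ∑ v ∈ V, mon y v ≤ Real.exp (2 * ∑' i, y i) := by
  classical
  set T : Finset ι := V.biUnion fun v => v.support with hT
  have hlt : ∀ i, ‖y i‖ < 1 := fun i => by
    rw [Real.norm_of_nonneg (h0 i)]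
    linarith [h1 i]
  obtain ⟨-, h3⟩ := finite_part y hlt T
  have h4 : ∑ v ∈ V, mon y v ≤ ∏ i ∈ T, (1 - y i)⁻¹ := by
    let e : V → {v : ι →₀ ℕ // v.support ⊆ T} := fun v =>
      ⟨v.1, Finset.subset_biUnion_of_mem (fun v : ι →₀ ℕ => v.support) v.2⟩
    have he : Function.Injective e := by
      intro a b h
      exact Subtype.ext (congrArg (fun z : {v : ι →₀ ℕ // v.support ⊆ T} => z.1) h)
    have h5 : ∑ v ∈ V, mon y v = ∑ v ∈ Finset.univ.image e, mon y v.1 := by
      rw [Finset.sum_image fun a _ b _ h => he h, ← Finset.sum_coe_sort]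
    rw [h5]
    exact sum_le_hasSum _ (fun v _ => mon_nonneg h0 v.1) h3
  refine (h4.trans (prod_le_exp y h0 h1 T)).trans ?_
  exact Real.exp_le_exp.2 (mul_le_mul_of_nonneg_left
    (hs.sum_le_tsum T fun i _ => h0 i) (by norm_num))

theorem summable_mon_real (y : ι → ℝ) (h0 : ∀ i, 0 ≤ y i) (h1 : ∀ i, y i ≤ 1 / 2)
    (hs : Summable y) : Summable (mon y) :=
  summable_of_sum_le (fun v => mon_nonneg h0 v) fun V => sum_le y h0 h1 hs V

end real

section main

variable {𝕜 : Type*} [NormedField 𝕜] [CompleteSpace 𝕜]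

omit [CompleteSpace 𝕜] in
theorem summable_norm_mon (x : ι → 𝕜) (h1 : ∀ i, ‖x i‖ ≤ 1 / 2) (hs : Summable fun i => ‖x i‖) :
    Summable fun v => ‖mon x v‖ := by
  simp only [norm_mon]
  exact summable_mon_real _ (fun i => norm_nonneg _) h1 hs

/-- **Euler product.** -/
theorem hasProd_mon (x : ι → 𝕜) (h1 : ∀ i, ‖x i‖ ≤ 1 / 2) (hs : Summable fun i => ‖x i‖) :
    HasProd (fun i => (1 - x i)⁻¹) (∑' v, mon x v) := by
  classical
  have hlt : ∀ i, ‖x i‖ < 1 := fun i => by linarith [h1 i]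
  have h2 : ∀ T : Finset ι, ∏ i ∈ T, (1 - x i)⁻¹ =
      ∑' v, Set.indicator {v : ι →₀ ℕ | v.support ⊆ T} (mon x) v := by
    intro T
    rw [← tsum_subtype]
    exact (finite_part x hlt T).2.tsum_eq.symm
  rw [HasProd, SummationFilter.unconditional_filter]
  simp only [h2]
  refine tendsto_tsum_of_dominated_convergence (summable_norm_mon x h1 hs) (fun v => ?_) ?_
  · refine tendsto_const_nhds.congr' ?_
    filter_upwards [eventually_ge_atTop v.support] with T hT
    exact (Set.indicator_of_mem (s := {v : ι →₀ ℕ | v.support ⊆ T}) hT _).symm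
  · refine Eventually.of_forall fun T v => ?_
    by_cases h : v ∈ {v : ι →₀ ℕ | v.support ⊆ T}
    · rw [Set.indicator_of_mem h]
    · rw [Set.indicator_of_notMem h, norm_zero]
      exact norm_nonneg _

end main

/-- **Exponential form of the Euler product.** -/
theorem exp_form (x : ι → ℂ) (h1 : ∀ i, ‖x i‖ ≤ 1 / 2) (hs : Summable fun i => ‖x i‖) :
    ∃ w : ℂ, Complex.exp w = ∑' v, mon x v ∧ ‖w - ∑' i, x i‖ ≤ ∑' i, ‖x i‖ ^ 2 := by
  have hs2 : Summable fun i => ‖x i‖ ^ 2 := by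
    refine Summable.of_nonneg_of_le (fun i => by positivity) (fun i => ?_) hs
    nlinarith [norm_nonneg (x i), h1 i]
  have hlog : Summable fun i => Complex.log (1 - x i) := by
    have := Complex.summable_log_one_add_of_summable (f := fun i => -x i) hs.of_norm.neg
    simpa [sub_eq_add_neg] using this
  have hne : ∀ i, (1 : ℂ) - x i ≠ 0 := by
    intro i h
    have h3 : x i = 1 := (sub_eq_zero.1 h).symm
    have h4 := h1 i
    rw [h3, norm_one] at h4
    norm_num at h4
  have hp := (Complex.hasProd_of_hasSum_log hne hlog.hasSum).inv₀ (Complex.exp_ne_zero _)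
  refine ⟨-∑' i, Complex.log (1 - x i), ?_, ?_⟩
  · rw [Complex.exp_neg]
    exact hp.unique (hasProd_mon x h1 hs)
  · have h5 : -∑' i, Complex.log (1 - x i) - ∑' i, x i = -∑' i, (Complex.log (1 - x i) + x i) := by
      rw [hlog.tsum_add hs.of_norm]
      ring
    rw [h5, norm_neg]
    refine tsum_of_norm_bounded hs2.hasSum fun i => ?_
    have h6 : ‖-x i‖ < 1 := by
      rw [norm_neg]
      linarith [h1 i]
    have h7 := Complex.norm_log_one_add_sub_self_le h6
    have h8 : Complex.log (1 + -x i) - -x i = Complex.log (1 - x i) + x i := by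
      rw [sub_neg_eq_add, ← sub_eq_add_neg]
    rw [h8, norm_neg] at h7
    refine h7.trans ?_
    have h9 : (1 - ‖x i‖)⁻¹ ≤ 2 := by
      rw [inv_le_comm₀ (by linarith [h1 i]) (by norm_num)]
      linarith [h1 i]
    have h10 : 0 ≤ ‖x i‖ ^ 2 := by positivity
    nlinarith

end Crest.Agent.R014.EulA_534
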