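import Mathlib
import Crest.Agent.R014.EulA_534

/-!
# Row 14, N1-EUL, part B (helper534): ideals of a number field as monomials in the primes,
norms of primes, fibre sums
-/

set_option autoImplicit false

namespace Crest.Agent.R014.EulB_534

open NumberField IsDedekindDomain Ideal UniqueFactorizationMonoid EulA_534

/-! ### fibre sums -/

section fibre

theorem hasSum_fibre {β : Type*} (N : β → ℕ) (hfin : ∀ n, Finite {b // N b = n}) (g : ℕ → ℂ)
    (h : Summable fun b => g (N b)) :
    HasSum (fun n => (Nat.card {b // N b = n} : ℂ) * g n) (∑' b, g (N b)) := by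
  have h1 : HasSum (fun b => g (N b)) (∑' b, g (N b)) := h.hasSum
  rw [← (Equiv.sigmaFiberEquiv N).hasSum_iff] at h1
  refine h1.sigma fun n => ?_
  have := hfin n
  let _ : Fintype {b // N b = n} := Fintype.ofFinite _
  have h2 : ∀ b : {b // N b = n}, ((fun b => g (N b)) ∘ (Equiv.sigmaFiberEquiv N)) ⟨n, b⟩ = g n := by
    intro b
    change g (N b.1) = g n
    rw [b.2]
  have h3 := hasSum_fintype fun b : {b // N b = n} =>
    ((fun b => g (N b)) ∘ (Equiv.sigmaFiberEquiv N)) ⟨n, b⟩
  convert h3 using 1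
  rw [Finset.sum_congr rfl fun b _ => h2 b, Finset.sum_const, Finset.card_univ, nsmul_eq_mul,
    Nat.card_eq_fintype_card]

/-- comparison of a sum with `d` times a sum over the values of a map with fibres of size `≤ d` -/
theorem summable_of_fibre {β : Type*} (M : β → ℕ) (d : ℕ)
    (hd : ∀ (S : Finset β) (n : ℕ), (∀ b ∈ S, M b = n) → S.card ≤ d) (y : β → ℝ) (h : ℕ → ℝ)
    (hy0 : ∀ b, 0 ≤ y b) (hy : ∀ b, y b ≤ h (M b)) (h0 : ∀ n, 0 ≤ h n) (hs : Summable h) :
    Summable y ∧ ∑' b, y b ≤ d * ∑' n, h n := by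
  classical
  have key : ∀ S : Finset β, ∑ b ∈ S, y b ≤ d * ∑' n, h n := by
    intro S
    calc ∑ b ∈ S, y b ≤ ∑ b ∈ S, h (M b) := Finset.sum_le_sum fun b _ => hy b
      _ = ∑ n ∈ S.image M, ∑ b ∈ S with M b = n, h (M b) :=
          (Finset.sum_fiberwise_of_maps_to (fun b hb => Finset.mem_image_of_mem M hb) _).symm
      _ ≤ ∑ n ∈ S.image M, d * h n := by
          refine Finset.sum_le_sum fun n _ => ?_
          have h1 : ∑ b ∈ S with M b = n, h (M b) = ((S.filter fun b => M b = n).card : ℝ) * h n := by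
            rw [Finset.sum_congr rfl fun b hb => by rw [(Finset.mem_filter.1 hb).2],
              Finset.sum_const, nsmul_eq_mul]
          rw [h1]
          refine mul_le_mul_of_nonneg_right ?_ (h0 n)
          exact_mod_cast hd _ n fun b hb => (Finset.mem_filter.1 hb).2
      _ = d * ∑ n ∈ S.image M, h n := by rw [Finset.mul_sum]
      _ ≤ d * ∑' n, h n :=
          mul_le_mul_of_nonneg_left (hs.sum_le_tsum _ fun n _ => h0 n) (Nat.cast_nonneg d)
  have hsum := summable_of_sum_le hy0 key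
  exact ⟨hsum, hsum.tsum_le_of_sum_le key⟩

end fibre

variable {E : Type*} [Field E] [NumberField E]

/-! ### primes -/

theorem absNorm_span_nat (m : ℕ) :
    absNorm (span {((m : ℕ) : 𝓞 E)}) = m ^ Module.finrank ℚ E := by
  rw [absNorm_span_singleton]
  have h1 : ((m : ℕ) : 𝓞 E) = algebraMap ℤ (𝓞 E) (m : ℤ) := by simp
  rw [h1, Algebra.norm_algebraMap]
  rw [RingOfIntegers.rank]
  simp [Int.natAbs_pow]

theorem exists_below {P : Ideal (𝓞 E)} (hP : P.IsPrime) (h0 : P ≠ ⊥) :
    ∃ l k : ℕ, l.Prime ∧ 1 ≤ k ∧ absNorm P = l ^ k ∧ ((l : ℕ) : 𝓞 E) ∈ P := by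
  have h1 : ((absNorm P : ℕ) : 𝓞 E) ∈ P := absNorm_mem P
  have hne : absNorm P ≠ 0 := by rw [Ne, absNorm_eq_zero_iff]; exact h0
  have h2 : ∃ l : ℕ, l.Prime ∧ ((l : ℕ) : 𝓞 E) ∈ P := by
    have h3 : (((absNorm P).primeFactorsList.map fun l : ℕ => ((l : ℕ) : 𝓞 E)).prod) ∈ P := by
      have h4 : ((absNorm P).primeFactorsList.map fun l : ℕ => ((l : ℕ) : 𝓞 E)).prod =
          (((absNorm P).primeFactorsList.prod : ℕ) : 𝓞 E) := by
        rw [Nat.cast_list_prod]
      rw [h4, Nat.prod_primeFactorsList hne]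
      exact h1
    generalize hL : (absNorm P).primeFactorsList = L at h3
    have hLp : ∀ l ∈ L, l.Prime := by
      intro l hl
      rw [← hL] at hl
      exact Nat.prime_of_mem_primeFactorsList hl
    clear hL
    induction L with
    | nil =>
      simp only [List.map_nil, List.prod_nil] at h3
      exact absurd ((Ideal.eq_top_iff_one P).2 h3) hP.ne_top
    | cons l L ih =>
      simp only [List.map_cons, List.prod_cons] at h3
      rcases hP.mem_or_mem h3 with h5 | h5
      · exact ⟨l, hLp l List.mem_cons_self, h5⟩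
      · exact ih h5 fun l' hl' => hLp l' (List.mem_cons_of_mem _ hl')
  obtain ⟨l, hl, hlP⟩ := h2
  have h3 : absNorm P ∣ l ^ Module.finrank ℚ E := by
    have h4 : P ∣ span {((l : ℕ) : 𝓞 E)} := by
      rw [Ideal.dvd_span_singleton]
      exact hlP
    have h5 := absNorm_dvd_absNorm_of_le (Ideal.dvd_iff_le.1 h4)
    rwa [absNorm_span_nat] at h5
  obtain ⟨k, -, hk⟩ := (Nat.dvd_prime_pow hl).1 h3
  refine ⟨l, k, hl, ?_, hk, hlP⟩
  by_contra hcon
  have hk0 : k = 0 := by omega
  rw [hk0, pow_zero, absNorm_eq_one_iff] at hk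
  exact hP.ne_top hk

/-- at most `d` primes contain a given prime number -/
theorem card_over {l : ℕ} (hl : l.Prime) (S : Finset (HeightOneSpectrum (𝓞 E)))
    (hS : ∀ P ∈ S, ((l : ℕ) : 𝓞 E) ∈ P.asIdeal) : S.card ≤ Module.finrank ℚ E := by
  classical
  obtain ⟨d, hd⟩ : ∃ d, d = Module.finrank ℚ E := ⟨_, rfl⟩
  have hdvd : (∏ P ∈ S, P.asIdeal) ∣ span {((l : ℕ) : 𝓞 E)} := by
    apply Finset.prod_dvd_of_coprime
    · intro P hP Q hQ hPQ
      rw [Function.onFun, Ideal.isCoprime_iff_sup_eq]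
      have hPm : P.asIdeal.IsMaximal := P.isMaximal
      have hQm : Q.asIdeal.IsMaximal := Q.isMaximal
      refine hPm.coprime_of_ne hQm fun h => hPQ ?_
      exact HeightOneSpectrum.ext h
    · intro P hP
      rw [Ideal.dvd_span_singleton]
      exact hS P hP
  have h2 : ∏ P ∈ S, absNorm P.asIdeal ∣ l ^ d := by
    have := absNorm_dvd_absNorm_of_le (Ideal.dvd_iff_le.1 hdvd)
    rw [absNorm_span_nat, map_prod, ← hd] at this
    exact this
  have h3 : l ^ S.card ∣ ∏ P ∈ S, absNorm P.asIdeal := by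
    rw [← Finset.prod_const]
    refine Finset.prod_dvd_prod_of_dvd _ _ fun P hP => ?_
    have h4 : absNorm P.asIdeal ∣ l ^ d :=
      (Finset.dvd_prod_of_mem (fun P : HeightOneSpectrum (𝓞 E) => absNorm P.asIdeal) hP).trans h2
    obtain ⟨k, -, hk⟩ := (Nat.dvd_prime_pow hl).1 h4
    rw [hk]
    refine dvd_pow_self l ?_
    rintro rfl
    rw [pow_zero, absNorm_eq_one_iff] at hk
    exact P.isPrime.ne_top hk
  rw [← hd]
  exact (Nat.pow_dvd_pow_iff_le_right hl.one_lt).1 (h3.trans h2)

/-- the prime number below a prime ideal -/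
noncomputable def below (P : HeightOneSpectrum (𝓞 E)) : ℕ := (absNorm P.asIdeal).minFac

theorem below_spec (P : HeightOneSpectrum (𝓞 E)) :
    (below P).Prime ∧ ((below P : ℕ) : 𝓞 E) ∈ P.asIdeal ∧ below P ≤ absNorm P.asIdeal ∧
      (¬ (absNorm P.asIdeal).Prime → below P ^ 2 ≤ absNorm P.asIdeal) := by
  obtain ⟨l, k, hl, hk, hN, hlP⟩ := exists_below P.isPrime P.ne_bot
  have h1 : below P = l := by
    rw [below, hN, Nat.pow_minFac (by omega), hl.minFac_eq]
  rw [h1]
  refine ⟨hl, hlP, ?_, fun hnp => ?_⟩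
  · rw [hN]
    exact Nat.le_self_pow (by omega) l
  · rw [hN]
    refine Nat.pow_le_pow_right hl.pos ?_
    by_contra hcon
    have : k = 1 := by omega
    rw [this, pow_one] at hN
    exact hnp (hN ▸ hl)

theorem two_le (P : HeightOneSpectrum (𝓞 E)) : 2 ≤ absNorm P.asIdeal :=
  (below_spec P).1.two_le.trans (below_spec P).2.2.1

theorem card_below (S : Finset (HeightOneSpectrum (𝓞 E))) (n : ℕ) (h : ∀ P ∈ S, below P = n) :
    S.card ≤ Module.finrank ℚ E := by
  rcases S.eq_empty_or_nonempty with rfl | ⟨P, hP⟩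
  · simp
  · have h1 : n.Prime := h P hP ▸ (below_spec P).1
    exact card_over h1 S fun Q hQ => h Q hQ ▸ (below_spec Q).2.1

/-! ### ideals as monomials -/

/-- the ideal with given exponents -/
noncomputable def idl (v : HeightOneSpectrum (𝓞 E) →₀ ℕ) : Ideal (𝓞 E) :=
  mon (fun P => P.asIdeal) v

theorem idl_ne_bot (v : HeightOneSpectrum (𝓞 E) →₀ ℕ) : idl v ≠ ⊥ := by
  unfold idl mon Finsupp.prod
  rw [← Ideal.zero_eq_bot, Finset.prod_ne_zero_iff]
  exact fun P _ => pow_ne_zero _ P.ne_bot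

theorem idl_surj {I : Ideal (𝓞 E)} (hI : I ≠ ⊥) : ∃ v, idl v = I := by
  classical
  have h1 := Ideal.finprod_heightOneSpectrum_factorization (R := 𝓞 E) hI
  have hfin : {P : HeightOneSpectrum (𝓞 E) | (Associates.mk P.asIdeal).count
      (Associates.mk I).factors ≠ 0}.Finite := by
    refine (Ideal.finite_factors hI).subset fun P hP => ?_
    exact (Associates.count_ne_zero_iff_dvd hI P.irreducible).1 hP
  refine ⟨Finsupp.onFinset hfin.toFinset (fun P => (Associates.mk P.asIdeal).count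
    (Associates.mk I).factors) (fun P hP => hfin.mem_toFinset.2 hP), ?_⟩
  refine Eq.trans ?_ h1
  rw [finprod_eq_prod_of_mulSupport_subset (s := hfin.toFinset)]
  · unfold idl mon
    rw [Finsupp.prod_of_support_subset _ (s := hfin.toFinset) Finsupp.support_onFinset_subset]
    · rfl
    · exact fun P _ => pow_zero _
  · intro P hP
    rw [Finset.mem_coe, hfin.mem_toFinset]
    intro h2
    apply hP
    change P.asIdeal ^ _ = 1
    rw [h2, pow_zero]

theorem count_idl (v : HeightOneSpectrum (𝓞 E) →₀ ℕ) (P : HeightOneSpectrum (𝓞 E)) :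
    (normalizedFactors (idl v)).count P.asIdeal = v P := by
  classical
  induction v using Finsupp.induction with
  | zero =>
    have : idl (0 : HeightOneSpectrum (𝓞 E) →₀ ℕ) = 1 := mon_zero _
    rw [this, normalizedFactors_one]
    simp
  | single_add Q k v hQ hk ih =>
    have h1 : idl (Finsupp.single Q k + v) = Q.asIdeal ^ k * idl v := by
      rw [idl, mon_add, mon_single]
      rfl
    rw [h1, normalizedFactors_mul (pow_ne_zero _ Q.ne_bot) (idl_ne_bot v), normalizedFactors_pow,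
      Multiset.count_add, ih, normalizedFactors_irreducible Q.irreducible, normalize_eq,
      Multiset.count_nsmul, Finsupp.add_apply, Finsupp.single_apply]
    by_cases h : Q = P
    · subst h
      simp
    · have h2 : P.asIdeal ≠ Q.asIdeal := fun h3 => h (HeightOneSpectrum.ext h3.symm)
      rw [Multiset.count_singleton, if_neg h2, if_neg h]
      simp

theorem idl_inj {u v : HeightOneSpectrum (𝓞 E) →₀ ℕ} (h : idl u = idl v) : u = v := by
  ext P
  rw [← count_idl u P, h, count_idl v P]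

/-- exponents and nonzero ideals -/
noncomputable def idE : (HeightOneSpectrum (𝓞 E) →₀ ℕ) ≃ {I : Ideal (𝓞 E) // I ≠ ⊥} :=
  Equiv.ofBijective (fun v => ⟨idl v, idl_ne_bot v⟩)
    ⟨fun _ _ h => idl_inj (congrArg Subtype.val h), fun I => by
      obtain ⟨v, hv⟩ := idl_surj I.2
      exact ⟨v, Subtype.ext hv⟩⟩

theorem idE_apply (v : HeightOneSpectrum (𝓞 E) →₀ ℕ) : (idE v).1 = idl v := rfl

theorem map_idl {M : Type*} [CommMonoid M] (f : Ideal (𝓞 E) →* M)
    (v : HeightOneSpectrum (𝓞 E) →₀ ℕ) : f (idl v) = mon (fun P => f P.asIdeal) v := by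
  unfold idl mon
  rw [map_finsuppProd]
  simp only [map_pow]

theorem finite_fibre (n : ℕ) : Finite {I : {I : Ideal (𝓞 E) // I ≠ ⊥} // absNorm I.1 = n} := by
  have h1 := Ideal.finite_setOfPred_absNorm_eq (S := 𝓞 E) n
  have : Finite {I : Ideal (𝓞 E) | absNorm I = n} := h1
  exact Finite.of_injective
    (fun I : {I : {I : Ideal (𝓞 E) // I ≠ ⊥} // absNorm I.1 = n} =>
      (⟨I.1.1, I.2⟩ : {I : Ideal (𝓞 E) | absNorm I = n}))
    fun a b h => Subtype.ext (Subtype.ext (congrArg (fun z : {I : Ideal (𝓞 E) | absNorm I = n} =>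
      z.1) h))

end Crest.Agent.R014.EulB_534
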