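import Mathlib
import Crest.Agent.R014.EulB_534

/-!
# Row 14, N1-EUL, part C (helper534): logarithm of `L_E(1+s, c ∘ N)` and primes of degree one

`c : ℕ →* ℂ` completely multiplicative with `‖c n‖ ≤ 1` (for instance a Dirichlet character).
`rE E n` = number of ideals of norm `n`,  `LE E c s = ∑ c(n) rE(n) n^{-(1+s)}`,
`PE E c s = ∑_{p} c(p) rE(p) p^{-(1+s)}`.

`main` : `LE E c s = exp w` with `‖w - PE E c s‖ ≤ 8 [E : ℚ]` for all `s > 0`.
-/

set_option autoImplicit false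

namespace Crest.Agent.R014.EulC_534

open NumberField IsDedekindDomain Ideal EulA_534 EulB_534

variable (E : Type*) [Field E] [NumberField E]

/-- number of ideals of norm `n` (as in Mathlib's `dedekindZeta`) -/
noncomputable def rE (n : ℕ) : ℕ := Nat.card {I : Ideal (𝓞 E) // absNorm I = n}

/-- the `L`-series at `1 + s` -/
noncomputable def LE (c : ℕ →* ℂ) (s : ℝ) : ℂ :=
  ∑' n : ℕ, c n * rE E n * (((n : ℝ) ^ (-(1 + s)) : ℝ) : ℂ)

/-- the sum over the primes of degree one -/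
noncomputable def PE (c : ℕ →* ℂ) (s : ℝ) : ℂ :=
  ∑' p : Nat.Primes, c p * rE E p * (((p : ℝ) ^ (-(1 + s)) : ℝ) : ℂ)

variable {E}

section pre

variable (c : ℕ →* ℂ) (s : ℝ)

/-- the value of the character at an integer, normalised -/
noncomputable def gg (n : ℕ) : ℂ := c n * (((n : ℝ) ^ (-(1 + s)) : ℝ) : ℂ)

/-- `gg` as a monoid homomorphism -/
noncomputable def ggH : ℕ →* ℂ where
  toFun := gg c s
  map_one' := by simp [gg]
  map_mul' m n := by
    unfold gg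
    rw [map_mul, Nat.cast_mul, Real.mul_rpow (Nat.cast_nonneg m) (Nat.cast_nonneg n)]
    push_cast
    ring

/-- `x P = c(N P) N P ^ {-(1+s)}` -/
noncomputable def xx (P : HeightOneSpectrum (𝓞 E)) : ℂ := gg c s (absNorm P.asIdeal)

theorem mon_xx (v : HeightOneSpectrum (𝓞 E) →₀ ℕ) :
    mon (xx c s) v = gg c s (absNorm (idl v)) := by
  have := map_idl (E := E) ((ggH c s).comp (absNorm : Ideal (𝓞 E) →*₀ ℕ).toMonoidHom) v
  exact this.symm

variable {c} {s}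

theorem norm_gg_le (hc : ∀ n, ‖c n‖ ≤ 1) (n : ℕ) : ‖gg c s n‖ ≤ (n : ℝ) ^ (-(1 + s)) := by
  have h0 : (0 : ℝ) ≤ (n : ℝ) ^ (-(1 + s)) := Real.rpow_nonneg (Nat.cast_nonneg n) _
  rw [gg, norm_mul, Complex.norm_real, Real.norm_of_nonneg h0]
  exact mul_le_of_le_one_left h0 (hc n)

theorem norm_xx_le (hc : ∀ n, ‖c n‖ ≤ 1) (P : HeightOneSpectrum (𝓞 E)) :
    ‖xx c s P‖ ≤ (absNorm P.asIdeal : ℝ) ^ (-(1 + s)) := norm_gg_le hc _

theorem rpow_anti {a b t : ℝ} (ha : 0 < a) (hab : a ≤ b) (ht : 0 ≤ t) : b ^ (-t) ≤ a ^ (-t) :=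
  Real.rpow_le_rpow_of_nonpos ha hab (by linarith)

theorem norm_xx_half (hc : ∀ n, ‖c n‖ ≤ 1) (hs : 0 < s) (P : HeightOneSpectrum (𝓞 E)) :
    ‖xx c s P‖ ≤ 1 / 2 := by
  refine (norm_xx_le hc P).trans ?_
  have h1 : (2 : ℝ) ≤ (absNorm P.asIdeal : ℝ) := by exact_mod_cast two_le P
  refine (rpow_anti (by norm_num) h1 (by linarith)).trans ?_
  have h2 : (2 : ℝ) ^ (-(1 + s)) ≤ (2 : ℝ) ^ (-1 : ℝ) :=
    Real.rpow_le_rpow_of_exponent_le (by norm_num) (by linarith)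
  refine h2.trans ?_
  rw [Real.rpow_neg_one]
  norm_num

theorem summable_norm_xx (hc : ∀ n, ‖c n‖ ≤ 1) (hs : 0 < s) :
    Summable fun P : HeightOneSpectrum (𝓞 E) => ‖xx c s P‖ := by
  refine (summable_of_fibre (below (E := E)) (Module.finrank ℚ E) card_below _
    (fun n : ℕ => (n : ℝ) ^ (-(1 + s))) (fun P => norm_nonneg _) (fun P => ?_)
    (fun n => Real.rpow_nonneg (Nat.cast_nonneg n) _) ?_).1
  · refine (norm_xx_le hc P).trans (rpow_anti ?_ ?_ (by linarith))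
    · exact_mod_cast (below_spec P).1.pos
    · exact_mod_cast (below_spec P).2.2.1
  · exact Real.summable_nat_rpow.2 (by linarith)

theorem tsum_sq_le : ∑' n : ℕ, ((n : ℝ) ^ 2)⁻¹ ≤ 2 := by
  have h1 : ∑' n : ℕ, 1 / (n : ℝ) ^ 2 = Real.pi ^ 2 / 6 := hasSum_zeta_two.tsum_eq
  simp only [one_div] at h1
  rw [h1]
  nlinarith [Real.pi_lt_d2, Real.pi_pos]

theorem summable_sq : Summable fun n : ℕ => ((n : ℝ) ^ 2)⁻¹ := by
  have := hasSum_zeta_two.summable
  simpa only [one_div] using this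

theorem rpow_le_inv {n : ℕ} (hn : 1 ≤ n) (hs : 0 < s) :
    (n : ℝ) ^ (-(1 + s)) ≤ ((n : ℝ))⁻¹ := by
  have h1 : (1 : ℝ) ≤ n := by exact_mod_cast hn
  have h2 : (n : ℝ) ^ (-(1 + s)) ≤ (n : ℝ) ^ (-1 : ℝ) :=
    Real.rpow_le_rpow_of_exponent_le h1 (by linarith)
  rwa [Real.rpow_neg_one] at h2

/-- squares -/
theorem tsum_sq_xx (hc : ∀ n, ‖c n‖ ≤ 1) (hs : 0 < s) :
    ∑' P : HeightOneSpectrum (𝓞 E), ‖xx c s P‖ ^ 2 ≤ 2 * Module.finrank ℚ E := by
  have h := (summable_of_fibre (below (E := E)) (Module.finrank ℚ E) card_below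
    (fun P => ‖xx c s P‖ ^ 2) (fun n : ℕ => ((n : ℝ) ^ 2)⁻¹) (fun P => by positivity) (fun P => ?_)
    (fun n => by positivity) summable_sq).2
  · refine h.trans ?_
    nlinarith [tsum_sq_le, (Nat.cast_nonneg (Module.finrank ℚ E) : (0 : ℝ) ≤ _)]
  · have h1 : ‖xx c s P‖ ≤ ((below P : ℕ) : ℝ)⁻¹ := by
      refine (norm_xx_le hc P).trans ?_
      have h2 : (0 : ℝ) < (below P : ℕ) := by exact_mod_cast (below_spec P).1.pos
      refine (rpow_anti h2 (by exact_mod_cast (below_spec P).2.2.1) (by linarith)).trans ?_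
      exact rpow_le_inv (below_spec P).1.one_le hs
    calc ‖xx c s P‖ ^ 2 ≤ (((below P : ℕ) : ℝ)⁻¹) ^ 2 := by
          exact pow_le_pow_left₀ (norm_nonneg _) h1 2
      _ = (((below P : ℕ) : ℝ) ^ 2)⁻¹ := by rw [inv_pow]

/-- primes of degree `≥ 2` -/
theorem tsum_nonprime (hc : ∀ n, ‖c n‖ ≤ 1) (hs : 0 < s) :
    ∑' P : {P : HeightOneSpectrum (𝓞 E) // ¬ (absNorm P.asIdeal).Prime}, ‖xx c s P.1‖ ≤
      2 * Module.finrank ℚ E := by
  have h := (summable_of_fibre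
    (fun P : {P : HeightOneSpectrum (𝓞 E) // ¬ (absNorm P.asIdeal).Prime} => below P.1)
    (Module.finrank ℚ E) (fun S n hS => ?_)
    (fun P => ‖xx c s P.1‖) (fun n : ℕ => ((n : ℝ) ^ 2)⁻¹) (fun P => norm_nonneg _) (fun P => ?_)
    (fun n => by positivity) summable_sq).2
  · refine h.trans ?_
    nlinarith [tsum_sq_le, (Nat.cast_nonneg (Module.finrank ℚ E) : (0 : ℝ) ≤ _)]
  · classical
    have h1 := card_below (S.image Subtype.val) n (fun P hP => by
      obtain ⟨Q, hQ, rfl⟩ := Finset.mem_image.1 hP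
      exact hS Q hQ)
    rwa [Finset.card_image_of_injective _ Subtype.val_injective] at h1
  · have h2 : (0 : ℝ) < (below P.1 : ℕ) := by exact_mod_cast (below_spec P.1).1.pos
    have h3 : ((below P.1 : ℕ) : ℝ) ^ 2 ≤ (absNorm P.1.asIdeal : ℝ) := by
      exact_mod_cast (below_spec P.1).2.2.2 P.2
    refine (norm_xx_le hc P.1).trans ((rpow_le_inv ?_ hs).trans ?_)
    · exact le_trans (by norm_num) (two_le P.1)
    · exact inv_anti₀ (by positivity) h3

end pre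

section main

variable {c : ℕ →* ℂ} {s : ℝ}

theorem hasSum_ideals (hc : ∀ n, ‖c n‖ ≤ 1) (hs : 0 < s) :
    Summable (fun I : {I : Ideal (𝓞 E) // I ≠ ⊥} => ‖gg c s (absNorm I.1)‖) ∧
      ∑' I : {I : Ideal (𝓞 E) // I ≠ ⊥}, gg c s (absNorm I.1) =
        ∑' v : HeightOneSpectrum (𝓞 E) →₀ ℕ, mon (xx c s) v := by
  have h1 := summable_norm_mon (xx (E := E) c s) (norm_xx_half hc hs) (summable_norm_xx hc hs)
  simp only [mon_xx] at h1
  constructor
  · rw [← (idE (E := E)).summable_iff]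
    exact h1
  · rw [← (idE (E := E)).tsum_eq]
    exact tsum_congr fun v => (mon_xx c s v).symm

theorem card_fibre (n : ℕ) (hn : n ≠ 0) :
    Nat.card {I : {I : Ideal (𝓞 E) // I ≠ ⊥} // absNorm I.1 = n} = rE E n := by
  unfold rE
  refine Nat.card_congr ⟨fun I => ⟨I.1.1, I.2⟩, fun I => ⟨⟨I.1, ?_⟩, I.2⟩, fun I => rfl,
    fun I => rfl⟩
  intro h
  have h2 := I.2
  rw [h, absNorm_bot] at h2
  exact hn h2.symm

/-- `LE` is the sum over all nonzero ideals -/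
theorem hasSum_LE (hc : ∀ n, ‖c n‖ ≤ 1) (hs : 0 < s) :
    HasSum (fun n : ℕ => c n * rE E n * (((n : ℝ) ^ (-(1 + s)) : ℝ) : ℂ))
      (∑' I : {I : Ideal (𝓞 E) // I ≠ ⊥}, gg c s (absNorm I.1)) := by
  have h1 := hasSum_fibre (fun I : {I : Ideal (𝓞 E) // I ≠ ⊥} => absNorm I.1)
    (fun n => finite_fibre n) (gg c s) (hasSum_ideals hc hs).1.of_norm
  convert h1 using 1
  funext n
  by_cases hn : n = 0
  · subst hn
    have h2 : (-(1 + s)) ≠ 0 := by linarith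
    rw [gg, Nat.cast_zero, Real.zero_rpow h2]
    simp
  · rw [card_fibre n hn, gg]
    ring

theorem LE_eq (hc : ∀ n, ‖c n‖ ≤ 1) (hs : 0 < s) :
    LE E c s = ∑' I : {I : Ideal (𝓞 E) // I ≠ ⊥}, gg c s (absNorm I.1) :=
  (hasSum_LE hc hs).tsum_eq

theorem rE_prime {p : ℕ} (hp : p.Prime) :
    Nat.card {P : {P : HeightOneSpectrum (𝓞 E) // (absNorm P.asIdeal).Prime} //
      absNorm P.1.asIdeal = p} = rE E p := by
  unfold rE
  refine Nat.card_congr ⟨fun P => ⟨P.1.1.asIdeal, P.2⟩, fun I => ⟨⟨⟨I.1, ?_, ?_⟩, ?_⟩, I.2⟩,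
    fun P => rfl, fun I => rfl⟩
  · exact isPrime_of_irreducible_absNorm (by rw [I.2]; exact hp)
  · intro h
    have h2 := I.2
    rw [h, absNorm_bot] at h2
    exact hp.ne_zero h2.symm
  · change (absNorm I.1).Prime
    rw [I.2]
    exact hp

theorem finite_prime_fibre (n : ℕ) :
    Finite {P : {P : HeightOneSpectrum (𝓞 E) // (absNorm P.asIdeal).Prime} //
      absNorm P.1.asIdeal = n} := by
  have h1 := Ideal.finite_setOfPred_absNorm_eq (S := 𝓞 E) n
  have : Finite {I : Ideal (𝓞 E) | absNorm I = n} := h1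
  exact Finite.of_injective
    (fun P : {P : {P : HeightOneSpectrum (𝓞 E) // (absNorm P.asIdeal).Prime} //
      absNorm P.1.asIdeal = n} =>
      (⟨P.1.1.asIdeal, P.2⟩ : {I : Ideal (𝓞 E) | absNorm I = n}))
    fun a b h => Subtype.ext (Subtype.ext (HeightOneSpectrum.ext
      (congrArg (fun z : {I : Ideal (𝓞 E) | absNorm I = n} => z.1) h)))

/-- the primes of degree one -/
theorem hasSum_PE (hc : ∀ n, ‖c n‖ ≤ 1) (hs : 0 < s) :
    HasSum (fun p : Nat.Primes => c p * rE E p * (((p : ℝ) ^ (-(1 + s)) : ℝ) : ℂ))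
      (∑' P : {P : HeightOneSpectrum (𝓞 E) // (absNorm P.asIdeal).Prime}, xx c s P.1) := by
  have h0 : Summable fun P : {P : HeightOneSpectrum (𝓞 E) // (absNorm P.asIdeal).Prime} =>
      xx c s P.1 := (summable_norm_xx hc hs).of_norm.subtype _
  have h1 := hasSum_fibre
    (fun P : {P : HeightOneSpectrum (𝓞 E) // (absNorm P.asIdeal).Prime} => absNorm P.1.asIdeal)
    (fun n => finite_prime_fibre n) (gg c s) h0
  rw [← Function.Injective.hasSum_iff (g := (fun p : Nat.Primes => (p : ℕ)))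
    (Subtype.val_injective)] at h1
  · have h2 : (fun p : Nat.Primes => c p * rE E p * (((p : ℝ) ^ (-(1 + s)) : ℝ) : ℂ)) =
        (fun n => (Nat.card {P : {P : HeightOneSpectrum (𝓞 E) // (absNorm P.asIdeal).Prime} //
          absNorm P.1.asIdeal = n} : ℂ) * gg c s n) ∘ fun p : Nat.Primes => (p : ℕ) := by
      funext p
      rw [Function.comp_apply, rE_prime p.2, gg]
      ring
    rw [h2]
    exact h1
  · intro n hn
    have h2 : ¬ n.Prime := fun h => hn ⟨⟨n, h⟩, rfl⟩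
    have h3 : IsEmpty {P : {P : HeightOneSpectrum (𝓞 E) // (absNorm P.asIdeal).Prime} //
        absNorm P.1.asIdeal = n} := ⟨fun P => h2 (P.2 ▸ P.1.2)⟩
    rw [Nat.card_of_isEmpty]
    simp

theorem PE_eq (hc : ∀ n, ‖c n‖ ≤ 1) (hs : 0 < s) :
    PE E c s = ∑' P : {P : HeightOneSpectrum (𝓞 E) // (absNorm P.asIdeal).Prime}, xx c s P.1 :=
  (hasSum_PE hc hs).tsum_eq

/-- **N1-EUL.** `L_E(1+s, c ∘ N) = exp w`, `w = ∑_p c(p) r_E(p) p^{-1-s} + O([E : ℚ])`. -/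
theorem main (hc : ∀ n, ‖c n‖ ≤ 1) (hs : 0 < s) :
    ∃ w : ℂ, Complex.exp w = LE E c s ∧ ‖w - PE E c s‖ ≤ 4 * Module.finrank ℚ E := by
  obtain ⟨w, hw, hw2⟩ := exp_form (xx (E := E) c s) (norm_xx_half hc hs) (summable_norm_xx hc hs)
  refine ⟨w, ?_, ?_⟩
  · rw [hw, LE_eq hc hs, (hasSum_ideals hc hs).2]
  · have h1 : ∑' P : HeightOneSpectrum (𝓞 E), xx c s P = PE E c s +
        ∑' P : {P : HeightOneSpectrum (𝓞 E) // ¬ (absNorm P.asIdeal).Prime}, xx c s P.1 := by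
      rw [PE_eq hc hs]
      exact ((summable_norm_xx (E := E) hc hs).of_norm.tsum_subtype_add_tsum_subtype_compl
        {P : HeightOneSpectrum (𝓞 E) | (absNorm P.asIdeal).Prime}).symm
    have h2 : ‖∑' P : {P : HeightOneSpectrum (𝓞 E) // ¬ (absNorm P.asIdeal).Prime}, xx c s P.1‖ ≤
        2 * Module.finrank ℚ E := by
      refine (norm_tsum_le_tsum_norm ?_).trans (tsum_nonprime hc hs)
      exact (summable_norm_xx (E := E) hc hs).subtype _
    have h3 := hw2.trans (tsum_sq_xx hc hs)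
    have h4 : w - PE E c s = (w - ∑' P : HeightOneSpectrum (𝓞 E), xx c s P) +
        ∑' P : {P : HeightOneSpectrum (𝓞 E) // ¬ (absNorm P.asIdeal).Prime}, xx c s P.1 := by
      rw [h1]; ring
    rw [h4]
    refine (norm_add_le _ _).trans ?_
    linarith

/-- real form -/
theorem log_norm_LE (hc : ∀ n, ‖c n‖ ≤ 1) (hs : 0 < s) :
    LE E c s ≠ 0 ∧ |Real.log ‖LE E c s‖ - (PE E c s).re| ≤ 4 * Module.finrank ℚ E := by
  obtain ⟨w, hw, hw2⟩ := main (E := E) hc hs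
  refine ⟨by rw [← hw]; exact Complex.exp_ne_zero w, ?_⟩
  rw [← hw, Complex.norm_exp, Real.log_exp, ← Complex.sub_re]
  exact (Complex.abs_re_le_norm _).trans hw2

end main

end Crest.Agent.R014.EulC_534
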