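import Mathlib

/-!
# Row 14, N1: the common definitions of the Dirichlet series (helper550, for 479, 534, 693, 202)
-/

set_option autoImplicit false

open NumberField

noncomputable section

namespace Crest.Agent.R014.LDef_550

/-- number of ideals of norm `n` -/
def rE (E : Type*) [Field E] [NumberField E] (n : ℕ) : ℕ :=
  Nat.card {I : Ideal (𝓞 E) // Ideal.absNorm I = n}

/-- `L_E(1+s, psi ∘ N)` for real `s > 0` -/
def LEpsi (E : Type*) [Field E] [NumberField E] {q : ℕ} (psi : DirichletCharacter ℂ q) (s : ℝ) : ℂ :=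
  ∑' n : ℕ, psi n * (rE E n : ℂ) * (((n : ℝ) ^ (-(1 + s)) : ℝ) : ℂ)

/-- `ζ_E(1+s)` for real `s > 0` -/
def zE (E : Type*) [Field E] [NumberField E] (s : ℝ) : ℝ :=
  ∑' n : ℕ, (rE E n : ℝ) * (n : ℝ) ^ (-(1 + s))

end Crest.Agent.R014.LDef_550
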