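import Mathlib
import Crest.Agent.R014.EulC_534
import Crest.Agent.R014.LDef_550

/-!
# Row 14, N1-EUL, part D (helper534): the Euler product in the notation of `LDef_550`

`eul_psi` : `L_E(1+s, ψ ∘ N) = exp w`, `‖w - ∑_p ψ(p) r_E(p) p^{-1-s}‖ ≤ 4 [E : ℚ]`.
`eul_zeta` : `|log ζ_E(1+s) - ∑_p r_E(p) p^{-1-s}| ≤ 4 [E : ℚ]`, `1 ≤ ζ_E(1+s)`.
-/

set_option autoImplicit false

namespace Crest.Agent.R014.EulD_534

open NumberField LDef_550 EulC_534

variable {E : Type*} [Field E] [NumberField E]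

/-- a Dirichlet character as a monoid homomorphism on `ℕ` -/
noncomputable def chM {q : ℕ} (ψ : DirichletCharacter ℂ q) : ℕ →* ℂ :=
  ψ.toMonoidHom.comp (Nat.castRingHom (ZMod q)).toMonoidHom

theorem chM_apply {q : ℕ} (ψ : DirichletCharacter ℂ q) (n : ℕ) : chM ψ n = ψ n := rfl

theorem norm_chM_le {q : ℕ} (ψ : DirichletCharacter ℂ q) (n : ℕ) : ‖chM ψ n‖ ≤ 1 :=
  DirichletCharacter.norm_le_one ψ n

theorem LE_eq_LEpsi {q : ℕ} (ψ : DirichletCharacter ℂ q) (s : ℝ) :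
    EulC_534.LE E (chM ψ) s = LEpsi E ψ s := rfl

/-- summability of the prime sum -/
theorem summable_psi {q : ℕ} (ψ : DirichletCharacter ℂ q) {s : ℝ} (hs : 0 < s) :
    Summable fun p : Nat.Primes =>
      ψ ((p : ℕ) : ZMod q) * (LDef_550.rE E p : ℂ) * ((((p : ℕ) : ℝ) ^ (-(1 + s)) : ℝ) : ℂ) :=
  (hasSum_PE (E := E) (norm_chM_le ψ) hs).summable

/-- **EUL, characters.** -/
theorem eul_psi {q : ℕ} (ψ : DirichletCharacter ℂ q) {s : ℝ} (hs : 0 < s) :
    ∃ w : ℂ, Complex.exp w = LEpsi E ψ s ∧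
      ‖w - ∑' p : Nat.Primes, ψ ((p : ℕ) : ZMod q) * (LDef_550.rE E p : ℂ) *
        ((((p : ℕ) : ℝ) ^ (-(1 + s)) : ℝ) : ℂ)‖ ≤ 4 * Module.finrank ℚ E :=
  EulC_534.main (E := E) (norm_chM_le ψ) hs

theorem eul_psi_log {q : ℕ} (ψ : DirichletCharacter ℂ q) {s : ℝ} (hs : 0 < s) :
    LEpsi E ψ s ≠ 0 ∧ |Real.log ‖LEpsi E ψ s‖ - (∑' p : Nat.Primes, ψ ((p : ℕ) : ZMod q) *
      (LDef_550.rE E p : ℂ) * ((((p : ℕ) : ℝ) ^ (-(1 + s)) : ℝ) : ℂ)).re| ≤
        4 * Module.finrank ℚ E :=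
  log_norm_LE (E := E) (norm_chM_le ψ) hs

/-- the trivial character of `ℕ` -/
noncomputable def one' : ℕ →* ℂ := 1

theorem norm_one'_le (n : ℕ) : ‖one' n‖ ≤ 1 := by
  simp [one']

theorem LE_one (s : ℝ) : EulC_534.LE E one' s = ((zE E s : ℝ) : ℂ) := by
  unfold EulC_534.LE zE
  rw [Complex.ofReal_tsum]
  refine tsum_congr fun n => ?_
  rw [one', MonoidHom.one_apply, one_mul]
  push_cast
  rfl

theorem PE_one (s : ℝ) : EulC_534.PE E one' s =
    ((∑' p : Nat.Primes, (LDef_550.rE E p : ℝ) * ((p : ℕ) : ℝ) ^ (-(1 + s)) : ℝ) : ℂ) := by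
  unfold EulC_534.PE
  rw [Complex.ofReal_tsum]
  refine tsum_congr fun n => ?_
  rw [one', MonoidHom.one_apply, one_mul]
  push_cast
  rfl

/-- summability of the prime sum -/
theorem summable_zeta {s : ℝ} (hs : 0 < s) :
    Summable fun p : Nat.Primes => (LDef_550.rE E p : ℝ) * ((p : ℕ) : ℝ) ^ (-(1 + s)) := by
  have h := (hasSum_PE (E := E) norm_one'_le hs).summable.norm
  refine h.congr fun p => ?_
  rw [one', MonoidHom.one_apply, one_mul, norm_mul, Complex.norm_natCast, Complex.norm_real,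
    Real.norm_of_nonneg (Real.rpow_nonneg (Nat.cast_nonneg _) _)]
  rfl

/-- summability of the zeta series -/
theorem summable_zE {s : ℝ} (hs : 0 < s) :
    Summable fun n : ℕ => (LDef_550.rE E n : ℝ) * (n : ℝ) ^ (-(1 + s)) := by
  have h := (hasSum_LE (E := E) norm_one'_le hs).summable.norm
  refine h.congr fun p => ?_
  rw [one', MonoidHom.one_apply, one_mul, norm_mul, Complex.norm_natCast, Complex.norm_real,
    Real.norm_of_nonneg (Real.rpow_nonneg (Nat.cast_nonneg _) _)]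
  rfl

/-- summability of the series with a character -/
theorem summable_LEpsi {q : ℕ} (ψ : DirichletCharacter ℂ q) {s : ℝ} (hs : 0 < s) :
    Summable fun n : ℕ => ψ (n : ZMod q) * (LDef_550.rE E n : ℂ) *
      (((n : ℝ) ^ (-(1 + s)) : ℝ) : ℂ) :=
  (hasSum_LE (E := E) (norm_chM_le ψ) hs).summable

theorem rE_one : LDef_550.rE E 1 = 1 := by
  unfold LDef_550.rE
  rw [Nat.card_eq_one_iff_unique]
  constructor
  · refine ⟨fun I J => Subtype.ext ?_⟩
    rw [Ideal.absNorm_eq_one_iff.1 I.2, Ideal.absNorm_eq_one_iff.1 J.2]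
  · exact ⟨⟨⊤, Ideal.absNorm_top⟩⟩

theorem one_le_zE {s : ℝ} (hs : 0 < s) : 1 ≤ zE E s := by
  unfold zE
  have h := (summable_zE (E := E) hs).le_tsum 1 fun n _ =>
    mul_nonneg (Nat.cast_nonneg _) (Real.rpow_nonneg (Nat.cast_nonneg _) _)
  rw [rE_one] at h
  simpa using h

/-- **EUL, zeta function.** -/
theorem eul_zeta {s : ℝ} (hs : 0 < s) :
    |Real.log (zE E s) - ∑' p : Nat.Primes, (LDef_550.rE E p : ℝ) * ((p : ℕ) : ℝ) ^ (-(1 + s))| ≤
      4 * Module.finrank ℚ E := by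
  have h := (log_norm_LE (E := E) norm_one'_le hs).2
  rw [LE_one, PE_one, Complex.norm_real, Complex.ofReal_re,
    Real.norm_of_nonneg (le_trans zero_le_one (one_le_zE hs))] at h
  exact h

end Crest.Agent.R014.EulD_534
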