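import Crest.Agent.R014.Gap_640
import Crest.Agent.R014.DEnd6b_71

set_option autoImplicit false

/-!
Row 14, block D, END: the gap statement of `DEnd6b_71`, and `End'` unconditionally.
-/

namespace Crest.Agent.R014.GapSt_640

/-- The hypothesis of `DEnd6_71.end_st`. -/
theorem gapSt (n : ℕ) : DEnd6_71.GapSt n := by
  intro b hb η' hη'
  obtain ⟨η, U, D0, hη, -, -, h⟩ := Gap_640.gap (n := n) hb hb hη'
  refine ⟨η, U, D0, hη, fun μ hμp hμ u1 u2 M W hu hM hM2 hN j k l hjk hkl hjl γ hγ hD => ?_⟩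
  have hW : |(0 : ℝ)| ≤ W := by rw [abs_zero]; exact (abs_nonneg γ).trans hγ
  exact h μ hμp hμ u1 u2 M W hu hM hM2 (by simpa using hN) j k l hjk hkl hjl 0 0 γ hW hW hγ
    (by linarith)

/-- **END**, unconditional. -/
theorem end' {n : ℕ} (hn : 3 ≤ n) : AsmB_460.End' (n := n) NScH_395.PZ AsmB2_460.Fr :=
  DEnd6_71.end_st hn (gapSt n)

end Crest.Agent.R014.GapSt_640
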