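import Crest.Agent.R014.Pk4_349
import Crest.Agent.R014.BoxV_71

/-!
Row 14, packets, part 5 (helper349): existence and uniqueness of the packet measure, its total
volume, invariance under the diagonal flow.
-/

set_option autoImplicit false
set_option linter.unusedSectionVars false

open MeasureTheory Matrix Module NumberField
open scoped ENNReal Pointwise
open Crest.NumberTheoryR.Packets

namespace Crest.Agent.R014.Pk5_349

open Crest.Agent.R014.Pk1_349 Crest.Agent.R014.Pk2_349 Crest.Agent.R014.Pk3_349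
open Crest.Agent.R014.Pk4_349
open Crest.Agent.R014.BoxV_71 (continuous_orbitMap measurable_orbitMap countable_periods
  orbitMap_eq_iff)

noncomputable section

variable {d : ℕ}

/-! ### General orbits -/

theorem periods_orbitMap (x : ModSpace (d + 1)) (u : Fin d → ℝ) :
    periods (orbitMap x u) = periods x := by
  ext v
  show orbitMap (orbitMap x u) v = orbitMap x u ↔ orbitMap x v = x
  rw [orbitMap_orbitMap]
  constructor
  · intro h
    have := congrArg (fun z => orbitMap z (-u)) h
    simp only [orbitMap_orbitMap] at this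
    rwa [add_neg_cancel, orbitMap_zero, add_comm u v, add_assoc, add_neg_cancel, add_zero] at this
  · intro h
    rw [add_comm u v, ← orbitMap_orbitMap, h]

theorem orbitMap_period_add {x : ModSpace (d + 1)} (p : periods x) (u : Fin d → ℝ) :
    orbitMap x ((p : Fin d → ℝ) + u) = orbitMap x u := by
  rw [← orbitMap_orbitMap]
  have : orbitMap x (p : Fin d → ℝ) = x := p.2
  rw [this]

/-- The orbit measure does not depend on the fundamental domain nor on the base point. -/
theorem map_orbit_eq {x : ModSpace (d + 1)} (u0 : Fin d → ℝ) {D D' : Set (Fin d → ℝ)}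
    (hD : IsAddFundamentalDomain (periods x) D volume)
    (hD' : IsAddFundamentalDomain (periods (orbitMap x u0)) D' volume) :
    Measure.map (orbitMap (orbitMap x u0)) (volume.restrict D') =
      Measure.map (orbitMap x) (volume.restrict D) := by
  have hD2 : IsAddFundamentalDomain (periods x) D' volume := by
    rwa [periods_orbitMap] at hD'
  have hD3 : IsAddFundamentalDomain (periods x) (u0 +ᵥ D') volume := hD2.vadd_of_comm u0
  ext E hE
  rw [Measure.map_apply (measurable_orbitMap _) hE, Measure.map_apply (measurable_orbitMap _) hE,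
    Measure.restrict_apply ((measurable_orbitMap _) hE),
    Measure.restrict_apply ((measurable_orbitMap _) hE)]
  have hA : MeasurableSet (orbitMap x ⁻¹' E) := (measurable_orbitMap x) hE
  have hinv : ∀ g : periods x, (fun u => g +ᵥ u) ⁻¹' (orbitMap x ⁻¹' E) = orbitMap x ⁻¹' E := by
    intro g
    ext u
    show orbitMap x ((g : Fin d → ℝ) + u) ∈ E ↔ orbitMap x u ∈ E
    rw [orbitMap_period_add]
  rw [hD.measure_set_eq hD3 hA hinv]
  have h1 : orbitMap x ⁻¹' E ∩ (u0 +ᵥ D') =
      u0 +ᵥ (orbitMap (orbitMap x u0) ⁻¹' E ∩ D') := by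
    ext u
    rw [Set.mem_vadd_set]
    constructor
    · rintro ⟨hu, v, hv, rfl⟩
      refine ⟨v, ⟨?_, hv⟩, rfl⟩
      show orbitMap (orbitMap x u0) v ∈ E
      rw [orbitMap_orbitMap]
      exact hu
    · rintro ⟨v, ⟨hv, hvD⟩, rfl⟩
      refine ⟨?_, v, hvD, rfl⟩
      show orbitMap x (u0 + v) ∈ E
      rw [← orbitMap_orbitMap]
      exact hv
  rw [h1, measure_vadd]

/-- The measure of a full orbit, well defined by `map_orbit_eq`. -/
def orbM (O : Set (ModSpace (d + 1))) : Measure (ModSpace (d + 1)) := by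
  classical
  exact if h : ∃ p : ModSpace (d + 1) × Set (Fin d → ℝ), O = Set.range (orbitMap p.1) ∧
      IsAddFundamentalDomain (periods p.1) p.2 volume then
    Measure.map (orbitMap h.choose.1) (volume.restrict h.choose.2) else 0

theorem orbM_eq {x : ModSpace (d + 1)} {D : Set (Fin d → ℝ)}
    (hD : IsAddFundamentalDomain (periods x) D volume) :
    orbM (Set.range (orbitMap x)) = Measure.map (orbitMap x) (volume.restrict D) := by
  have h : ∃ p : ModSpace (d + 1) × Set (Fin d → ℝ),
      Set.range (orbitMap x) = Set.range (orbitMap p.1) ∧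
      IsAddFundamentalDomain (periods p.1) p.2 volume := ⟨(x, D), rfl, hD⟩
  unfold orbM
  rw [dif_pos h]
  obtain ⟨h1, h2⟩ := h.choose_spec
  obtain ⟨u0, hu0⟩ := range_eq_iff_mem.1 h1
  have h3 : IsAddFundamentalDomain (periods (orbitMap x u0)) h.choose.2 volume := by
    rw [hu0]; exact h2
  have h4 := map_orbit_eq u0 hD h3
  rw [hu0] at h4
  exact h4

variable {K : Type*} [Field K] [NumberField K]

/-- The common fundamental domain of the period groups of the packet. -/
def fd (m : LatticeBasis (d + 1) K) (σ : Fin (d + 1) ≃ (K →+* ℝ)) : Set (Fin d → ℝ) :=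
  ZSpan.fundamentalDomain (exists_basis_perLat m σ).choose

theorem isFD_fd (m : LatticeBasis (d + 1) K) (σ : Fin (d + 1) ≃ (K →+* ℝ)) :
    IsAddFundamentalDomain (perLat m σ) (fd m σ) volume := by
  rw [(exists_basis_perLat m σ).choose_spec]
  exact ZSpan.isAddFundamentalDomain' _ volume

theorem isFD_fd' {m : LatticeBasis (d + 1) K} {σ : Fin (d + 1) ≃ (K →+* ℝ)}
    {x : ModSpace (d + 1)} (hx : Set.range (orbitMap x) ∈ packetOrbits m σ) :
    IsAddFundamentalDomain (periods x) (fd m σ) volume := by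
  rw [periods_of_range_mem hx]
  exact isFD_fd m σ

theorem volume_fd_ne_zero (m : LatticeBasis (d + 1) K) (σ : Fin (d + 1) ≃ (K →+* ℝ)) :
    volume (fd m σ) ≠ 0 :=
  ZSpan.measure_fundamentalDomain_ne_zero _

theorem volume_fd_ne_top (m : LatticeBasis (d + 1) K) (σ : Fin (d + 1) ≃ (K →+* ℝ)) :
    volume (fd m σ) ≠ ⊤ :=
  (ZSpan.fundamentalDomain_isBounded _).measure_lt_top.ne

theorem measurableSet_fd (m : LatticeBasis (d + 1) K) (σ : Fin (d + 1) ≃ (K →+* ℝ)) :
    MeasurableSet (fd m σ) :=
  ZSpan.fundamentalDomain_measurableSet _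

theorem volume_eq_fd {m : LatticeBasis (d + 1) K} {σ : Fin (d + 1) ≃ (K →+* ℝ)}
    {x : ModSpace (d + 1)} (hx : Set.range (orbitMap x) ∈ packetOrbits m σ)
    {D : Set (Fin d → ℝ)} (hD : IsAddFundamentalDomain (periods x) D volume) :
    volume D = volume (fd m σ) :=
  hD.measure_eq (isFD_fd' hx)

/-- The total volume of the packet. -/
def packVol (m : LatticeBasis (d + 1) K) (σ : Fin (d + 1) ≃ (K →+* ℝ)) : ℝ≥0∞ :=
  (packetOrbits m σ).ncard * volume (fd m σ)

theorem packetOrbits_nonempty (m : LatticeBasis (d + 1) K) (σ : Fin (d + 1) ≃ (K →+* ℝ)) :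
    (packetOrbits m σ).Nonempty := by
  rw [packetOrbits_eq]
  exact ⟨_, m, lh_refl m, rfl⟩

theorem packVol_ne_zero (m : LatticeBasis (d + 1) K) (σ : Fin (d + 1) ≃ (K →+* ℝ)) :
    packVol m σ ≠ 0 := by
  unfold packVol
  refine mul_ne_zero ?_ (volume_fd_ne_zero m σ)
  have := (Set.ncard_pos (finite_packetOrbits m σ)).2 (packetOrbits_nonempty m σ)
  exact_mod_cast this.ne'

theorem packVol_ne_top (m : LatticeBasis (d + 1) K) (σ : Fin (d + 1) ≃ (K →+* ℝ)) :
    packVol m σ ≠ ⊤ :=
  ENNReal.mul_ne_top (ENNReal.natCast_ne_top _) (volume_fd_ne_top m σ)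

/-- The packet measure. -/
def packMeas (m : LatticeBasis (d + 1) K) (σ : Fin (d + 1) ≃ (K →+* ℝ)) :
    Measure (ModSpace (d + 1)) :=
  (packVol m σ)⁻¹ • Measure.sum (fun O : packetOrbits m σ => orbM (O : Set (ModSpace (d + 1))))

section data

variable {m : LatticeBasis (d + 1) K} {σ : Fin (d + 1) ≃ (K →+* ℝ)} {k : ℕ}
  {x : Fin k → ModSpace (d + 1)} {D : Fin k → Set (Fin d → ℝ)}

/-- The enumeration of the packet orbits by packet data. -/
def orbEquiv (hinj : Function.Injective (fun i => Set.range (orbitMap (x i))))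
    (hall : ∀ O, O ∈ packetOrbits m σ ↔ ∃ i, O = Set.range (orbitMap (x i))) :
    Fin k ≃ packetOrbits m σ :=
  Equiv.ofBijective (fun i => ⟨Set.range (orbitMap (x i)), (hall _).2 ⟨i, rfl⟩⟩)
    ⟨fun i j h => hinj (congrArg Subtype.val h), fun O => by
      obtain ⟨i, hi⟩ := (hall O.1).1 O.2
      exact ⟨i, Subtype.ext hi.symm⟩⟩

theorem card_eq (hinj : Function.Injective (fun i => Set.range (orbitMap (x i))))
    (hall : ∀ O, O ∈ packetOrbits m σ ↔ ∃ i, O = Set.range (orbitMap (x i))) :
    (packetOrbits m σ).ncard = k := by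
  rw [← Nat.card_coe_set_eq, ← Nat.card_congr (orbEquiv hinj hall), Nat.card_eq_fintype_card,
    Fintype.card_fin]

/-- The total mass in the definition of a packet measure is `packVol`. -/
theorem sum_volume_eq (hinj : Function.Injective (fun i => Set.range (orbitMap (x i))))
    (hall : ∀ O, O ∈ packetOrbits m σ ↔ ∃ i, O = Set.range (orbitMap (x i)))
    (hD : ∀ i, IsAddFundamentalDomain (periods (x i)) (D i) volume) :
    ∑ i, volume (D i) = packVol m σ := by
  have h : ∀ i ∈ Finset.univ, volume (D i) = volume (fd m σ) := fun i _ =>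
    volume_eq_fd ((hall _).2 ⟨i, rfl⟩) (hD i)
  rw [Finset.sum_congr rfl h, Finset.sum_const, Finset.card_univ, Fintype.card_fin,
    nsmul_eq_mul, ← card_eq hinj hall]
  rfl

theorem sum_map_eq (hinj : Function.Injective (fun i => Set.range (orbitMap (x i))))
    (hall : ∀ O, O ∈ packetOrbits m σ ↔ ∃ i, O = Set.range (orbitMap (x i)))
    (hD : ∀ i, IsAddFundamentalDomain (periods (x i)) (D i) volume) :
    Measure.sum (fun i => Measure.map (orbitMap (x i)) (volume.restrict (D i))) =
      Measure.sum (fun O : packetOrbits m σ => orbM (O : Set (ModSpace (d + 1)))) := by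
  ext E hE
  rw [Measure.sum_apply _ hE, Measure.sum_apply _ hE, ← (orbEquiv hinj hall).tsum_eq]
  refine tsum_congr fun i => ?_
  show _ = orbM (Set.range (orbitMap (x i))) E
  rw [orbM_eq (hD i)]

end data

/-- Uniqueness of the packet measure. -/
theorem eq_packMeas {m : LatticeBasis (d + 1) K} {σ : Fin (d + 1) ≃ (K →+* ℝ)}
    {μ : Measure (ModSpace (d + 1))} (h : IsPacketMeasure m σ μ) : μ = packMeas m σ := by
  obtain ⟨k, x, D, hinj, hall, hD, rfl⟩ := h
  rw [sum_volume_eq hinj hall (fun i => (hD i).1), sum_map_eq hinj hall (fun i => (hD i).1)]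
  rfl

/-- Existence of the packet measure. -/
theorem isPacketMeasure_packMeas (m : LatticeBasis (d + 1) K) (σ : Fin (d + 1) ≃ (K →+* ℝ)) :
    IsPacketMeasure m σ (packMeas m σ) := by
  classical
  have hfin := finite_packetOrbits m σ
  have : _root_.Finite (packetOrbits m σ) := hfin
  obtain ⟨k, ⟨e⟩⟩ := Finite.exists_equiv_fin (packetOrbits m σ)
  have hb : ∀ O : packetOrbits m σ, ∃ x : ModSpace (d + 1),
      (O : Set (ModSpace (d + 1))) = Set.range (orbitMap x) := by
    intro O
    obtain ⟨m', _, w, _, h⟩ := O.2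
    exact ⟨_, h⟩
  choose b hb using hb
  let x : Fin k → ModSpace (d + 1) := fun i => b (e.symm i)
  have hx : ∀ i, ((e.symm i : packetOrbits m σ) : Set (ModSpace (d + 1))) =
      Set.range (orbitMap (x i)) := fun i => hb (e.symm i)
  have hinj : Function.Injective (fun i => Set.range (orbitMap (x i))) := by
    intro i j h
    have h1 : ((e.symm i : packetOrbits m σ) : Set (ModSpace (d + 1))) = (e.symm j : _) := by
      rw [hx i, hx j]; exact h
    exact e.symm.injective (Subtype.ext h1)
  have hall : ∀ O, O ∈ packetOrbits m σ ↔ ∃ i, O = Set.range (orbitMap (x i)) := by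
    intro O
    constructor
    · intro hO
      refine ⟨e ⟨O, hO⟩, ?_⟩
      rw [← hx, Equiv.symm_apply_apply]
    · rintro ⟨i, rfl⟩
      rw [← hx i]
      exact (e.symm i).2
  have hD : ∀ i, IsAddFundamentalDomain (periods (x i)) (fd m σ) volume := fun i =>
    isFD_fd' ((hall _).2 ⟨i, rfl⟩)
  refine ⟨k, x, fun _ => fd m σ, hinj, hall,
    fun i => ⟨hD i, volume_fd_ne_zero m σ, volume_fd_ne_top m σ⟩, ?_⟩
  rw [sum_volume_eq hinj hall hD, sum_map_eq hinj hall hD]
  rfl

/-- (P5) the second conjunct of the three statements. -/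
theorem exists_packet (m : LatticeBasis (d + 1) K) (σ : Fin (d + 1) ≃ (K →+* ℝ)) :
    ∃ μ : Measure (ModSpace (d + 1)), IsPacketMeasure m σ μ :=
  ⟨_, isPacketMeasure_packMeas m σ⟩

theorem isPacketMeasure_iff {m : LatticeBasis (d + 1) K} {σ : Fin (d + 1) ≃ (K →+* ℝ)}
    {μ : Measure (ModSpace (d + 1))} : IsPacketMeasure m σ μ ↔ μ = packMeas m σ :=
  ⟨eq_packMeas, fun h => h ▸ isPacketMeasure_packMeas m σ⟩

theorem packet_unique {m : LatticeBasis (d + 1) K} {σ : Fin (d + 1) ≃ (K →+* ℝ)}
    {μ μ' : Measure (ModSpace (d + 1))} (h : IsPacketMeasure m σ μ) (h' : IsPacketMeasure m σ μ') :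
    μ = μ' := (eq_packMeas h).trans (eq_packMeas h').symm

/-- Evaluation of the packet measure by any packet data. -/
theorem packMeas_apply {m : LatticeBasis (d + 1) K} {σ : Fin (d + 1) ≃ (K →+* ℝ)}
    {E : Set (ModSpace (d + 1))} (hE : MeasurableSet E) :
    packMeas m σ E = (packVol m σ)⁻¹ * ∑' O : packetOrbits m σ, orbM (O : Set (ModSpace (d + 1))) E := by
  unfold packMeas
  rw [Measure.smul_apply, smul_eq_mul, Measure.sum_apply _ hE]

theorem orbM_univ {m : LatticeBasis (d + 1) K} {σ : Fin (d + 1) ≃ (K →+* ℝ)}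
    {O : Set (ModSpace (d + 1))} (hO : O ∈ packetOrbits m σ) :
    orbM O Set.univ = volume (fd m σ) := by
  obtain ⟨m', hm', w, hw, rfl⟩ := hO
  rw [orbM_eq (isFD_fd' ⟨m', hm', w, hw, rfl⟩),
    Measure.map_apply (measurable_orbitMap _) MeasurableSet.univ, Set.preimage_univ,
    Measure.restrict_apply_univ]

theorem isProbabilityMeasure_packMeas (m : LatticeBasis (d + 1) K)
    (σ : Fin (d + 1) ≃ (K →+* ℝ)) : IsProbabilityMeasure (packMeas m σ) := by
  constructor
  rw [packMeas_apply MeasurableSet.univ]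
  have hfin : _root_.Finite (packetOrbits m σ) := finite_packetOrbits m σ
  have := Fintype.ofFinite (packetOrbits m σ)
  have h : ∀ O ∈ (Finset.univ : Finset (packetOrbits m σ)),
      orbM (O : Set (ModSpace (d + 1))) Set.univ = volume (fd m σ) := fun O _ => orbM_univ O.2
  rw [tsum_fintype, Finset.sum_congr rfl h, Finset.sum_const, Finset.card_univ, nsmul_eq_mul]
  have h2 : (Fintype.card (packetOrbits m σ) : ℝ≥0∞) * volume (fd m σ) = packVol m σ := by
    unfold packVol
    rw [← Nat.card_coe_set_eq, Nat.card_eq_fintype_card]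
  rw [h2]
  exact ENNReal.inv_mul_cancel (packVol_ne_zero m σ) (packVol_ne_top m σ)

theorem isProbabilityMeasure_of_packet {m : LatticeBasis (d + 1) K}
    {σ : Fin (d + 1) ≃ (K →+* ℝ)} {μ : Measure (ModSpace (d + 1))} (h : IsPacketMeasure m σ μ) :
    IsProbabilityMeasure μ := by
  rw [eq_packMeas h]
  exact isProbabilityMeasure_packMeas m σ

theorem continuous_act_left (g : SLR (d + 1)) :
    Continuous (fun z : ModSpace (d + 1) => act z g) := by
  unfold act
  refine Continuous.quotient_map' ?_ _
  exact continuous_id.mul continuous_const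

theorem orbM_map_flow {x : ModSpace (d + 1)} {D : Set (Fin d → ℝ)}
    (hD : IsAddFundamentalDomain (periods x) D volume) (v : Fin d → ℝ) :
    Measure.map (fun z => act z (diagFlow v)) (Measure.map (orbitMap x) (volume.restrict D)) =
      Measure.map (orbitMap x) (volume.restrict D) := by
  rw [Measure.map_map (continuous_act_left _).measurable (measurable_orbitMap x)]
  have h1 : (fun z => act z (diagFlow v)) ∘ orbitMap x = orbitMap (orbitMap x v) := by
    funext u
    show orbitMap (orbitMap x u) v = orbitMap (orbitMap x v) u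
    rw [orbitMap_orbitMap, orbitMap_orbitMap, add_comm u v]
  rw [h1]
  apply map_orbit_eq v hD
  rwa [periods_orbitMap]

/-- (P5) the packet measure is invariant under the diagonal flow. -/
theorem map_flow_packMeas (m : LatticeBasis (d + 1) K) (σ : Fin (d + 1) ≃ (K →+* ℝ))
    (v : Fin d → ℝ) :
    Measure.map (fun z => act z (diagFlow v)) (packMeas m σ) = packMeas m σ := by
  unfold packMeas
  rw [Measure.map_smul, Measure.map_sum (continuous_act_left _).measurable.aemeasurable]
  congr 2
  funext O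
  obtain ⟨O, m', hm', w, hw, rfl⟩ := O
  show Measure.map _ (orbM (Set.range (orbitMap (act (latticePoint m' σ) w)))) =
    orbM (Set.range (orbitMap (act (latticePoint m' σ) w)))
  have hD := isFD_fd' (m := m) (σ := σ) ⟨m', hm', w, hw, rfl⟩
  rw [orbM_eq hD, orbM_map_flow hD]

theorem map_flow_of_packet {m : LatticeBasis (d + 1) K} {σ : Fin (d + 1) ≃ (K →+* ℝ)}
    {μ : Measure (ModSpace (d + 1))} (h : IsPacketMeasure m σ μ) (v : Fin d → ℝ) :
    Measure.map (fun z => act z (diagFlow v)) μ = μ := by
  rw [eq_packMeas h]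
  exact map_flow_packMeas m σ v

end

end Crest.Agent.R014.Pk5_349
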