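import Crest.Agent.R014.Asm2_792
import Crest.Agent.R014.Esc4_296
import Crest.Agent.R014.Pk5_349

/-!
# Row 14: `Pack` (helper349) and `NoEsc` (helper296) in interface form; final assembly from
Theorem A and Theorem B only (helper792)
-/

set_option autoImplicit false

open MeasureTheory Filter Topology
open Crest.NumberTheoryR.Packets
open Crest.Agent.R014.Iface_792 Crest.Agent.R014.Asm_792

universe u

namespace Crest.Agent.R014.Glue_792

theorem pack (d : ℕ) : Pack.{u} d := by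
  intro K _ _ _ _ m σ
  exact ⟨Pk5_349.exists_packet m σ, fun μ hμ =>
    ⟨Pk5_349.isProbabilityMeasure_of_packet hμ, fun u => Pk5_349.map_flow_of_packet hμ u⟩⟩

/-- sup norm small ⇒ Euclidean norm small. -/
theorem norm_le {n : ℕ} (v : Fin n → ℝ) : ‖(WithLp.toLp 2 v : EuclideanSpace ℝ (Fin n))‖ ≤ n * ‖v‖ := by
  rw [EuclideanSpace.norm_eq]
  have h1 : ∑ i, ‖(WithLp.toLp 2 v : EuclideanSpace ℝ (Fin n)) i‖ ^ 2 ≤ (n * ‖v‖) ^ 2 := by
    calc ∑ i, ‖(WithLp.toLp 2 v : EuclideanSpace ℝ (Fin n)) i‖ ^ 2 ≤ ∑ _i : Fin n, ‖v‖ ^ 2 :=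
          Finset.sum_le_sum fun i _ => by
            refine pow_le_pow_left₀ (norm_nonneg _) ?_ 2
            exact norm_le_pi_norm v i
      _ = n * ‖v‖ ^ 2 := by simp
      _ ≤ (n * ‖v‖) ^ 2 := by
          rcases Nat.eq_zero_or_pos n with h0 | h0
          · subst h0; simp
          · have h2 : (1 : ℝ) ≤ n := by exact_mod_cast h0
            rw [mul_pow]
            refine mul_le_mul_of_nonneg_right ?_ (by positivity)
            nlinarith
  calc Real.sqrt _ ≤ Real.sqrt ((n * ‖v‖) ^ 2) := Real.sqrt_le_sqrt h1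
    _ = n * ‖v‖ := Real.sqrt_sq (by positivity)

theorem thin_subset_cusp {n : ℕ} (hn : 0 < n) (r : ℝ) :
    {x : ModSpace n | ¬ Thick x (r / n)} ⊆ Esc_296.cusp n r := by
  intro x hx
  have hx' : ¬ Thick x (r / n) := hx
  unfold Thick at hx'
  push Not at hx'
  obtain ⟨v, ⟨g, hg, z, rfl⟩, hv0, hv⟩ := hx'
  have hn' : (0 : ℝ) < n := by exact_mod_cast hn
  have hvec : Esc_296.Rc g (WithLp.toLp 2 fun i => (z i : ℝ))
      = WithLp.toLp 2 (Matrix.vecMul (fun i => (z i : ℝ)) g.1) := by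
    ext j
    rw [Esc_296.Rc_apply]
    rfl
  refine ⟨WithLp.toLp 2 (Matrix.vecMul (fun i => (z i : ℝ)) g.1), ⟨g, hg, z, hvec.symm⟩, ?_, ?_⟩
  · intro h0
    apply hv0
    have := congrArg (WithLp.ofLp) h0
    simpa using this
  · refine (norm_le _).trans_lt ?_
    rw [lt_div_iff₀ hn'] at hv
    linarith

theorem noEsc (d : ℕ) : NoEsc d := by
  intro μ hprob hinv hni
  refine Asm2_792.tight_of_esc μ hprob fun e he => ?_
  have hni' : Esc_296.NearInv μ := fun i j hij s f hf => hni f hf i j hij s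
  obtain ⟨r, hr, hev⟩ := Esc_296.esc_diagFlow μ hprob (fun k u => hinv k u) hni' e he
  have hd : (0 : ℝ) < ((d + 1 : ℕ) : ℝ) := by positivity
  exact ⟨r / ((d + 1 : ℕ) : ℝ), by positivity, hev.mono fun k hk =>
    (measure_mono (thin_subset_cusp (Nat.succ_pos d) r)).trans hk⟩

/-- the final assembly from Theorem A and Theorem B. -/
theorem main {d : ℕ} (hA : ThmA.{u} d) (hB : ThmB d)
    (K : ℕ → Type u) [∀ i, Field (K i)] [∀ i, NumberField (K i)] [∀ i, NumberField.IsTotallyReal (K i)]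
    (hdeg : ∀ i, Module.finrank ℚ (K i) = d + 1) (hprim : ∀ i, IsPrimitiveField (K i))
    (m : ∀ i, LatticeBasis (d + 1) (K i)) (σ : ∀ i, Fin (d + 1) ≃ (K i →+* ℝ))
    (hdisc : Tendsto (fun i => latticeDisc (m i)) atTop atTop) :
    ∃ ν : Measure (ModSpace (d + 1)), IsHaarProbability ν ∧
      (∀ i, ∃ μ : Measure (ModSpace (d + 1)), IsPacketMeasure (m i) (σ i) μ) ∧
      ∀ μ : ℕ → Measure (ModSpace (d + 1)), (∀ i, IsPacketMeasure (m i) (σ i) (μ i)) →
        (∀ f : ModSpace (d + 1) → ℝ, Continuous f → HasCompactSupport f →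
          Tendsto (fun i => ∫ x, f x ∂(μ i)) atTop (𝓝 (∫ x, f x ∂ν))) ∧
        (∀ ε : ℝ, 0 < ε → ∃ C : Set (ModSpace (d + 1)), IsCompact C ∧
          ∀ᶠ i in atTop, 1 - ε ≤ ((μ i) C).toReal) :=
  Asm2_792.main hA hB (noEsc d) (pack d) K hdeg hprim m σ hdisc

end Crest.Agent.R014.Glue_792
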