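import Crest.Agent.R014.Nh2_849
import Crest.Agent.R014.NScC_395

/-!
Row 14, block D (noise formalism), section 4, (R3r), abstract part (helper792).
`(Ω, P)` probability; `β` (block), `d` (digit in the block), `z` (observation), `v` (the other
parameters), `y` (observation of the digit alone), `z = K (y, v, β)`, `y = L (z, v, β)`,
`(d, y)` independent of `(v, β)`; `g ∘ v` a coarser observation of `v`.
* `drop`: `H(d | z, g v, β) - H(d | y) ≤ H((β, d) | z, g v) - H((β, d) | z, v)`;
* `pv_near`: `L¹` distance of the posteriors of `d` given `(z, g v, β)` and given `y`;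
* `spr_near`: the same for the spreads.
-/

set_option autoImplicit false
set_option linter.unusedSectionVars false

namespace Crest.Agent.R014.HR3_792

open MeasureTheory Finset ProbabilityTheory
open scoped ENNReal
open Crest.Agent.R014.Ne1_567 Crest.Agent.R014.Ne2_567 Crest.Agent.R014.Ne3_567
open Crest.Agent.R014.Ne4_567 Crest.Agent.R014.Nh2_849
open Crest.Agent.R014.NScC_395 (spr spr_lip spr_nonneg spr_le)

variable {Ω ι κ Y Z V W : Type*} [Fintype ι] [Fintype κ] [MeasurableSpace Ω] [MeasurableSpace Y]
  [MeasurableSpace Z] [MeasurableSpace V] [MeasurableSpace W]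
  [MeasurableSpace ι] [MeasurableSingletonClass ι]
  [MeasurableSpace κ] [MeasurableSingletonClass κ]

variable (P : Measure Ω) [IsProbabilityMeasure P] {d : Ω → ι} {β : Ω → κ} {z : Ω → Z} {v : Ω → V}
  {y : Ω → Y} {g : V → W} {K : Y × V × κ → Z} {L : Z × V × κ → Y}

section
variable (hd : Measurable d) (hβ : Measurable β) (hz : Measurable z) (hv : Measurable v)
  (hy : Measurable y) (hg : Measurable g) (hK : Measurable K) (hL : Measurable L)
  (hzK : ∀ ω, z ω = K (y ω, v ω, β ω)) (hyL : ∀ ω, y ω = L (z ω, v ω, β ω))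
  (hi : IndepFun (fun ω => (d ω, y ω)) (fun ω => (v ω, β ω)) P)

include hd hβ hz hv hy hg hK hL hzK hyL hi

/-- the full observation carries the same information on `d` as `y`. -/
theorem HH_full : HH P d (fun ω => ((z ω, v ω), β ω)) = HH P d y := by
  rw [← HH_indep P hd hy (hv.prodMk hβ) inferInstance hi]
  refine HH_eq_of_comp P (K := fun p => (L (p.1.1, p.1.2, p.2), p.1.2, p.2))
    (L := fun p => ((K (p.1, p.2.1, p.2.2), p.2.1), p.2.2)) ?_ ?_ ((hz.prodMk hv).prodMk hβ)
    (hy.prodMk (hv.prodMk hβ)) ?_ ?_
  · refine (hL.comp ?_).prodMk ?_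
    · exact (measurable_fst.comp measurable_fst).prodMk
        ((measurable_snd.comp measurable_fst).prodMk measurable_snd)
    · exact (measurable_snd.comp measurable_fst).prodMk measurable_snd
  · refine ((hK.comp ?_).prodMk ?_).prodMk ?_
    · exact measurable_fst.prodMk ((measurable_fst.comp measurable_snd).prodMk
        (measurable_snd.comp measurable_snd))
    · exact measurable_fst.comp measurable_snd
    · exact measurable_snd.comp measurable_snd
  · exact Filter.Eventually.of_forall fun ω => by
      simp only [← hyL ω]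
  · exact Filter.Eventually.of_forall fun ω => by
      simp only [← hzK ω]

theorem drop : HH P d (fun ω => ((z ω, g (v ω)), β ω)) - HH P d y
    ≤ HH P (fun ω => (d ω, β ω)) (fun ω => (z ω, g (v ω)))
      - HH P (fun ω => (d ω, β ω)) (fun ω => (z ω, v ω)) := by
  have h1 := HH_pair P hd hβ (hz.prodMk (hg.comp hv))
  have h2 := HH_pair P hd hβ (hz.prodMk hv)
  have h3 : HH P β (fun ω => (z ω, v ω)) ≤ HH P β (fun ω => (z ω, g (v ω))) :=
    HH_le_comp P (K := fun p : Z × V => (p.1, g p.2))
      (measurable_fst.prodMk (hg.comp measurable_snd)) (hz.prodMk hv)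
  have h4 := HH_full P hd hβ hz hv hy hg hK hL hzK hyL hi
  simp only [Function.comp_def] at h1
  rw [h1, h2, h4]
  linarith

theorem pv_near [Nonempty ι] :
    ∫ ω, ∑ c, |pv (rv P d (fun ω => ((z ω, g (v ω)), β ω))) c ((z ω, g (v ω)), β ω)
        - pv (rv P d y) c (y ω)| ∂P
      ≤ 2 * √(HH P (fun ω => (d ω, β ω)) (fun ω => (z ω, g (v ω)))
        - HH P (fun ω => (d ω, β ω)) (fun ω => (z ω, v ω))) := by
  have h := pin2 P (d := d) (Yv := fun ω => ((z ω, v ω), β ω))
    (K := fun p => ((p.1.1, g p.1.2), p.2)) (L := fun p => L (p.1.1, p.1.2, p.2)) hd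
    ((hz.prodMk hv).prodMk hβ)
    (((measurable_fst.comp measurable_fst).prodMk (hg.comp (measurable_snd.comp
      measurable_fst))).prodMk measurable_snd)
    (hL.comp ((measurable_fst.comp measurable_fst).prodMk
        ((measurable_snd.comp measurable_fst).prodMk measurable_snd)))
  simp only [← hyL] at h
  have h4 := HH_full P hd hβ hz hv hy hg hK hL hzK hyL hi
  rw [h4, sub_self, Real.sqrt_zero, mul_zero, add_zero] at h
  refine h.trans ?_
  have h5 := drop P hd hβ hz hv hy hg hK hL hzK hyL hi
  gcongr

end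

end Crest.Agent.R014.HR3_792
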