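import Crest.Agent.R014.HR3_792
import Crest.Agent.R014.NScD_395

/-!
Row 14, block D (noise formalism), section 4, (R3r), the product space (helper792).
`ω = (x, (ζ, (t, (s, r))))`, `PM μ κ = μ × κ × uni × uni × uni`; `dN` = block of `r`, `sb` = fine
part of `r`.
* `law_R`: joint law of `((x, (ζ, sb r)), ((t, s), dN r))`;
* `indep_R`: independence of the two halves.
-/

set_option autoImplicit false

open MeasureTheory Finset ProbabilityTheory Crest.NumberTheoryR.Packets
open scoped ENNReal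
open Crest.Agent.R014.Nd_837

noncomputable section

namespace Crest.Agent.R014.HR3_792

/-! ### rearrangement of the coordinates -/

section Law

variable {A B C D E F : Type*} [MeasurableSpace A] [MeasurableSpace B] [MeasurableSpace C]
  [MeasurableSpace D] [MeasurableSpace E] [MeasurableSpace F]
  (α : Measure A) (β : Measure B) (γ : Measure C) (δ : Measure D) (ε : Measure E) (φ : Measure F)
  [IsProbabilityMeasure α] [IsProbabilityMeasure β] [IsProbabilityMeasure γ]
  [IsProbabilityMeasure δ] [IsProbabilityMeasure ε] [IsProbabilityMeasure φ]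

/-- `(A × (B × F)) × ((C × D) × E) → A × (B × (C × (D × (E × F))))`. -/
theorem mp_rearr : MeasurePreserving
    (fun q : (A × (B × F)) × ((C × D) × E) =>
      (q.1.1, (q.1.2.1, (q.2.1.1, (q.2.1.2, (q.2.2, q.1.2.2))))))
    ((α.prod (β.prod φ)).prod ((γ.prod δ).prod ε))
    (α.prod (β.prod (γ.prod (δ.prod (ε.prod φ))))) := by
  have h1 : MeasurePreserving (MeasurableEquiv.prodAssoc : (A × (B × F)) × ((C × D) × E) ≃ᵐ
      A × ((B × F) × ((C × D) × E))) ((α.prod (β.prod φ)).prod ((γ.prod δ).prod ε))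
      (α.prod ((β.prod φ).prod ((γ.prod δ).prod ε))) := measurePreserving_prodAssoc _ _ _
  have h2 : MeasurePreserving (MeasurableEquiv.prodAssoc : (B × F) × ((C × D) × E) ≃ᵐ
      B × (F × ((C × D) × E))) ((β.prod φ).prod ((γ.prod δ).prod ε))
      (β.prod (φ.prod ((γ.prod δ).prod ε))) := measurePreserving_prodAssoc _ _ _
  have h3 : MeasurePreserving (Prod.swap : F × ((C × D) × E) → ((C × D) × E) × F)
      (φ.prod ((γ.prod δ).prod ε)) (((γ.prod δ).prod ε).prod φ) := Measure.measurePreserving_swap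
  have h4 : MeasurePreserving (MeasurableEquiv.prodAssoc : ((C × D) × E) × F ≃ᵐ
      (C × D) × (E × F)) (((γ.prod δ).prod ε).prod φ)
      ((γ.prod δ).prod (ε.prod φ)) := measurePreserving_prodAssoc _ _ _
  have h5 : MeasurePreserving (MeasurableEquiv.prodAssoc : (C × D) × (E × F) ≃ᵐ
      C × (D × (E × F))) ((γ.prod δ).prod (ε.prod φ))
      (γ.prod (δ.prod (ε.prod φ))) := measurePreserving_prodAssoc _ _ _
  have h6 := (MeasurePreserving.id β).prod (h5.comp (h4.comp h3))
  have h7 := (MeasurePreserving.id α).prod (h6.comp h2)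
  exact h7.comp h1

theorem mp_back : MeasurePreserving
    (fun q : A × (B × (C × (D × (E × F)))) =>
      ((q.1, (q.2.1, q.2.2.2.2.2)), ((q.2.2.1, q.2.2.2.1), q.2.2.2.2.1)))
    (α.prod (β.prod (γ.prod (δ.prod (ε.prod φ)))))
    ((α.prod (β.prod φ)).prod ((γ.prod δ).prod ε)) := by
  have hm : Measurable (fun q : A × (B × (C × (D × (E × F)))) =>
      ((q.1, (q.2.1, q.2.2.2.2.2)), ((q.2.2.1, q.2.2.2.1), q.2.2.2.2.1))) := by fun_prop
  refine ⟨hm, ?_⟩
  have h := mp_rearr α β γ δ ε φ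
  rw [← h.map_eq, Measure.map_map hm h.measurable]
  exact Measure.map_id

end Law

/-! ### the space -/

variable {n : ℕ}

/-- the space of `(x, (ζ, (t, (s, r))))` -/
abbrev Om (n : ℕ) : Type := ModSpace n × (SLR n × (ℝ × (ℝ × ℝ)))

/-- the law -/
abbrev PM (μ : Measure (ModSpace n)) (κ : Measure (SLR n)) : Measure (Om n) :=
  μ.prod (κ.prod (uni.prod (uni.prod uni)))

section

variable (μ : Measure (ModSpace n)) (κ : Measure (SLR n)) [IsProbabilityMeasure μ]
  [IsProbabilityMeasure κ] {N : ℕ} {dN : ℝ → Fin N} {sb : ℝ → ℝ} {νN : Measure (Fin N)}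
  [IsProbabilityMeasure νN] (hdN : Measurable dN) (hsb : Measurable sb)
  (hlaw : uni.map (fun θ => (dN θ, sb θ)) = νN.prod uni)

include hdN hsb hlaw

theorem law_R : (PM μ κ).map (fun ω : Om n => ((ω.1, (ω.2.1, sb ω.2.2.2.2)),
      ((ω.2.2.1, ω.2.2.2.1), dN ω.2.2.2.2)))
    = (μ.prod (κ.prod uni)).prod ((uni.prod uni).prod νN) := by
  have h0 : MeasurePreserving (fun θ => (dN θ, sb θ)) uni (νN.prod uni) :=
    ⟨hdN.prodMk hsb, hlaw⟩
  have h1 := (MeasurePreserving.id uni).prod ((MeasurePreserving.id uni).prod h0)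
  have h2 := (MeasurePreserving.id μ).prod ((MeasurePreserving.id κ).prod h1)
  exact ((mp_back μ κ uni uni νN uni).comp h2).map_eq

theorem indep_R : IndepFun (fun ω : Om n => (ω.1, (ω.2.1, sb ω.2.2.2.2)))
    (fun ω : Om n => ((ω.2.2.1, ω.2.2.2.1), dN ω.2.2.2.2)) (PM μ κ) := by
  have hm1 : Measurable (fun ω : Om n => (ω.1, (ω.2.1, sb ω.2.2.2.2))) :=
    measurable_fst.prodMk ((measurable_fst.comp measurable_snd).prodMk (hsb.comp (by fun_prop)))
  have hm2 : Measurable (fun ω : Om n => ((ω.2.2.1, ω.2.2.2.1), dN ω.2.2.2.2)) :=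
    Measurable.prodMk (by fun_prop) (hdN.comp (by fun_prop))
  have h := law_R μ κ hdN hsb hlaw
  rw [indepFun_iff_map_prod_eq_prod_map_map hm1.aemeasurable hm2.aemeasurable]
  have e1 : (PM μ κ).map (fun ω : Om n => (ω.1, (ω.2.1, sb ω.2.2.2.2)))
      = μ.prod (κ.prod uni) := by
    have := congrArg (Measure.map Prod.fst) h
    rw [Measure.map_map measurable_fst (hm1.prodMk hm2), Measure.map_fst_prod,
      measure_univ, one_smul] at this
    exact this
  have e2 : (PM μ κ).map (fun ω : Om n => ((ω.2.2.1, ω.2.2.2.1), dN ω.2.2.2.2))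
      = (uni.prod uni).prod νN := by
    have := congrArg (Measure.map Prod.snd) h
    rw [Measure.map_map measurable_snd (hm1.prodMk hm2), Measure.map_snd_prod,
      measure_univ, one_smul] at this
    exact this
  rw [e1, e2]
  exact h

theorem law_R1 : (PM μ κ).map (fun ω : Om n => (ω.1, (ω.2.1, sb ω.2.2.2.2)))
    = μ.prod (κ.prod uni) := by
  have hm1 : Measurable (fun ω : Om n => (ω.1, (ω.2.1, sb ω.2.2.2.2))) :=
    measurable_fst.prodMk ((measurable_fst.comp measurable_snd).prodMk (hsb.comp (by fun_prop)))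
  have hm2 : Measurable (fun ω : Om n => ((ω.2.2.1, ω.2.2.2.1), dN ω.2.2.2.2)) :=
    Measurable.prodMk (by fun_prop) (hdN.comp (by fun_prop))
  have := congrArg (Measure.map Prod.fst) (law_R μ κ hdN hsb hlaw)
  rw [Measure.map_map measurable_fst (hm1.prodMk hm2), Measure.map_fst_prod,
    measure_univ, one_smul] at this
  exact this

end

/-! ### the observation of the fine part alone -/

open Crest.Agent.R014.Ne1_567 Crest.Agent.R014.Ne3_567 Crest.Agent.R014.Ne4_567
open Crest.Agent.R014.Ms_667 Crest.Agent.R014.NScC_395 Crest.Agent.R014.NScD_395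
open Crest.Agent.R014.Nh2_849

variable {j k l : Fin n}

theorem meas_act {X : Type*} [MeasurableSpace X] {f : X → ModSpace n} {g : X → SLR n}
    (hf : Measurable f) (hg : Measurable g) : Measurable fun ω => act (f ω) (g ω) :=
  measurable_act₂.comp (hf.prodMk hg)

theorem meas_mul {X : Type*} [MeasurableSpace X] {f g : X → SLR n}
    (hf : Measurable f) (hg : Measurable g) : Measurable fun ω => f ω * g ω := hf.mul hg

theorem meas_inv {X : Type*} [MeasurableSpace X] {f : X → SLR n}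
    (hf : Measurable f) : Measurable fun ω => (f ω)⁻¹ := hf.inv

theorem meas_uu {X : Type*} [MeasurableSpace X] {f : X → ℝ} (hij : j ≠ l) (r : ℝ)
    (hf : Measurable f) : Measurable fun ω => (uu hij ((2 : ℝ) ^ (-r) * f ω) : SLR n) :=
  (measurable_uuw hij r).comp hf

/-- `x ζ u_jl(2^(-r0) sb r)`. -/
def yf (hjl : j ≠ l) (r0 : ℝ) (sb : ℝ → ℝ) (ω : Om n) : ModSpace n :=
  act ω.1 (ω.2.1 * uu hjl ((2 : ℝ) ^ (-r0) * sb ω.2.2.2.2))

/-- the full observation (order `kl`, `jk`, `jl`). -/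
def zf (hjk : j ≠ k) (hkl : k ≠ l) (hjl : j ≠ l) (a b c : ℝ) (ω : Om n) : ModSpace n :=
  act ω.1 (ω.2.1 * uu hkl ((2 : ℝ) ^ (-b) * ω.2.2.1) * uu hjk ((2 : ℝ) ^ (-a) * ω.2.2.2.1)
    * uu hjl ((2 : ℝ) ^ (-c) * ω.2.2.2.2))

theorem measurable_yf (hjl : j ≠ l) (r0 : ℝ) {sb : ℝ → ℝ} (hsb : Measurable sb) :
    Measurable (yf (n := n) hjl r0 sb) := by
  refine meas_act measurable_fst (meas_mul (measurable_fst.comp measurable_snd) (meas_uu _ _ ?_))
  exact hsb.comp (by fun_prop)

theorem measurable_zf (hjk : j ≠ k) (hkl : k ≠ l) (hjl : j ≠ l) (a b c : ℝ) :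
    Measurable (zf (n := n) hjk hkl hjl a b c) := by
  refine meas_act measurable_fst (meas_mul (meas_mul (meas_mul (measurable_fst.comp
    measurable_snd) (meas_uu _ _ ?_)) (meas_uu _ _ ?_)) (meas_uu _ _ ?_)) <;> fun_prop

theorem measurable_y0 (hjl : j ≠ l) (r : ℝ) : Measurable (fun p : ModSpace n × (SLR n × ℝ) =>
      act p.1 (p.2.1 * uu hjl ((2 : ℝ) ^ (-r) * p.2.2))) :=
  meas_act measurable_fst (meas_mul (measurable_fst.comp measurable_snd)
    (meas_uu _ _ (measurable_snd.comp measurable_snd)))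

/-- the family of the digit and of `x ζ u(2^(-r) θ)` on `μ × κ × uni` is `lab`. -/
theorem rv_lab0 (μ : Measure (ModSpace n)) (κ : Measure (SLR n)) [IsProbabilityMeasure μ]
    [IsProbabilityMeasure κ] (hjl : j ≠ l) (r : ℝ) {b : ℕ} {db : ℝ → Fin b}
    (hcell : ∀ c, uni.restrict (db ⁻¹' {c}) = (b : ℝ≥0∞)⁻¹ • uni.map (fun θ => cen b c + θ / b)) :
    rv (μ.prod (κ.prod uni)) (fun p : ModSpace n × (SLR n × ℝ) => db p.2.2)
      (fun p => act p.1 (p.2.1 * uu hjl ((2 : ℝ) ^ (-r) * p.2.2))) = lab μ κ hjl r b := by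
  funext c
  unfold rv lab
  have hb : (b : ℝ≥0∞)⁻¹ ≠ ∞ := by
    have : 0 < b := c.pos
    simp [this.ne']
  have e1 : (μ.prod (κ.prod uni)).restrict ((fun p : ModSpace n × (SLR n × ℝ) => db p.2.2) ⁻¹' {c})
      = μ.prod (κ.prod (uni.restrict (db ⁻¹' {c}))) := by
    have h1 : ((fun p : ModSpace n × (SLR n × ℝ) => db p.2.2) ⁻¹' {c})
        = Set.univ ×ˢ (Set.univ ×ˢ (db ⁻¹' {c})) := by
      ext p
      simp
    rw [h1, ← Measure.prod_restrict, ← Measure.prod_restrict, Measure.restrict_univ,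
      Measure.restrict_univ]
  rw [e1, hcell c]
  have hm := measurable_y0 (n := n) hjl r
  have hcm : Measurable (fun θ : ℝ => cen b c + θ / b) := by fun_prop
  have hu : Measurable fun θ : ℝ => (uu hjl ((2 : ℝ) ^ (-r) * (cen b c + θ / b)) : SLR n) :=
    (measurable_uuw hjl r).comp hcm
  have : IsProbabilityMeasure (uni.map (fun θ : ℝ => cen b c + θ / b)) :=
    Measure.isProbabilityMeasure_map hcm.aemeasurable
  rw [Measure.prod_smul_right, Measure.prod_smul_right, Measure.map_smul]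
  congr 1
  unfold dlaw
  have e2 : stp (stp μ κ) (uni.map fun θ : ℝ => (uu hjl ((2 : ℝ) ^ (-r) * (cen b c + θ / b)) : SLR n))
      = ((μ.prod κ).prod uni).map
        (fun q => act (act q.1.1 q.1.2) (uu hjl ((2 : ℝ) ^ (-r) * (cen b c + q.2 / b)))) := by
    unfold stp
    rw [Measure.map_prod_map _ _ measurable_act₂ hu,
      Measure.map_map measurable_act₂ (measurable_act₂.prodMap hu)]
    rfl
  have e3 : μ.prod (κ.prod (uni.map (fun θ : ℝ => cen b c + θ / b)))
      = ((μ.prod κ).prod uni).map (fun q => (q.1.1, (q.1.2, cen b c + q.2 / b))) := by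
    have h3 : MeasurePreserving (fun θ : ℝ => cen b c + θ / b) uni
      (uni.map (fun θ : ℝ => cen b c + θ / b)) := ⟨hcm, rfl⟩
    have h4 := (MeasurePreserving.id μ).prod ((MeasurePreserving.id κ).prod h3)
    have h5 := h4.comp (measurePreserving_prodAssoc μ κ uni)
    exact h5.map_eq.symm
  rw [e2, e3, Measure.map_map hm (by fun_prop)]
  congr 1
  funext q
  simp only [Function.comp_apply, act_act]

end Crest.Agent.R014.HR3_792
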