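import Crest.Agent.R014.HR3b_792
import Crest.Agent.R014.Sw1_640

/-!
Row 14, block D (noise formalism), section 4, (R3r), final form (helper792).
`r3r`: the mean spread of the posterior of the fine digit of `r`, given `(z, g (t, s), block)`, is
`L¹(μ)` close to `Acv μ κ hjl r0 b`, with error `8 √(H((d, β) | z, g (t, s)) - H((d, β) | z, t, s))`.
-/

set_option autoImplicit false
set_option linter.style.haveILetI false

open MeasureTheory Finset ProbabilityTheory Crest.NumberTheoryR.Packets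
open scoped ENNReal
open Crest.Agent.R014.Nd_837
open Crest.Agent.R014.Ne1_567 Crest.Agent.R014.Ne3_567 Crest.Agent.R014.Ne4_567
open Crest.Agent.R014.Ms_667 Crest.Agent.R014.NScC_395 Crest.Agent.R014.NScD_395
open Crest.Agent.R014.Nh2_849 Crest.Agent.R014.Sw1_640

noncomputable section

namespace Crest.Agent.R014.HR3_792

variable {n : ℕ} {j k l : Fin n}

section Alg

variable (hjk : j ≠ k) (hkl : k ≠ l) (hjl : j ≠ l) (a b' c r0 : ℝ)

/-- the noise in front of the fine part, for given `(t, s)` and block centre. -/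
def nf (N : ℕ) (p : (ℝ × ℝ) × Fin N) : SLR n :=
  uu hkl ((2 : ℝ) ^ (-b') * p.1.1) * uu hjk ((2 : ℝ) ^ (-a) * p.1.2)
    * uu hjl ((2 : ℝ) ^ (-c) * cen N p.2)

theorem measurable_nf (N : ℕ) : Measurable (nf (n := n) hjk hkl hjl a b' c N) := by
  have hc : Measurable (fun p : (ℝ × ℝ) × Fin N => cen N p.2) :=
    (measurable_of_countable (cen N)).comp measurable_snd
  exact meas_mul (meas_mul (meas_uu _ _ (by fun_prop)) (meas_uu _ _ (by fun_prop)))
    (meas_uu _ _ hc)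

theorem zf_eq {N : ℕ} (hN : 0 < N) (h0 : (2 : ℝ) ^ (-c) = N * (2 : ℝ) ^ (-r0)) {dN : ℝ → Fin N}
    {sb : ℝ → ℝ} (hval : ∀ θ, θ = cen N (dN θ) + sb θ / N) (ω : Om n) :
    zf hjk hkl hjl a b' c ω = act (yf hjl r0 sb ω)
      (nf hjk hkl hjl a b' c N ((ω.2.2.1, ω.2.2.2.1), dN ω.2.2.2.2)) := by
  have hN' : (N : ℝ) ≠ 0 := by exact_mod_cast hN.ne'
  unfold zf yf nf
  rw [act_act]
  congr 1
  have h1 : (2 : ℝ) ^ (-c) * ω.2.2.2.2
      = (2 : ℝ) ^ (-r0) * sb ω.2.2.2.2 + (2 : ℝ) ^ (-c) * cen N (dN ω.2.2.2.2) := by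
    conv_lhs => rw [hval ω.2.2.2.2]
    rw [mul_add, h0]
    field_simp
    ring
  rw [h1, uu_add]
  simp only [mul_assoc]
  congr 1
  set A : SLR n := uu hkl ((2 : ℝ) ^ (-b') * ω.2.2.1)
  set B : SLR n := uu hjk ((2 : ℝ) ^ (-a) * ω.2.2.2.1)
  set F : SLR n := uu hjl ((2 : ℝ) ^ (-r0) * sb ω.2.2.2.2)
  set E : SLR n := uu hjl ((2 : ℝ) ^ (-c) * cen N (dN ω.2.2.2.2))
  have c1 : A * F = F * A := comm_kl_jl hkl hjl _ _
  have c2 : B * F = F * B := comm_jk_jl hjk hjl _ _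
  rw [← mul_assoc B F E, c2, mul_assoc F B E, ← mul_assoc A F, c1, mul_assoc]

end Alg

section Main

variable (μ : Measure (ModSpace n)) (κ : Measure (SLR n)) [IsProbabilityMeasure μ]
  [IsProbabilityMeasure κ] (hjk : j ≠ k) (hkl : k ≠ l) (hjl : j ≠ l) {a b' c r0 : ℝ}
  {N b : ℕ} [NeZero b] (hN : 0 < N) (h0 : (2 : ℝ) ^ (-c) = N * (2 : ℝ) ^ (-r0))
  {dN : ℝ → Fin N} {db : ℝ → Fin b} {sb : ℝ → ℝ} {νN : Measure (Fin N)}
  [IsProbabilityMeasure νN] (hdN : Measurable dN) (hdb : Measurable db) (hsb : Measurable sb)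
  (hlaw : uni.map (fun θ => (dN θ, sb θ)) = νN.prod uni)
  (hval : ∀ θ, θ = cen N (dN θ) + sb θ / N)
  (hcell : ∀ c, uni.restrict (db ⁻¹' {c}) = (b : ℝ≥0∞)⁻¹ • uni.map (fun θ => cen b c + θ / b))
  {W : Type*} [MeasurableSpace W] {g : ℝ × ℝ → W} (hg : Measurable g)

/-- the fine digit of `r` -/
def dd (db : ℝ → Fin b) (sb : ℝ → ℝ) (ω : Om n) : Fin b := db (sb ω.2.2.2.2)

/-- the block of `r` -/
def bt (dN : ℝ → Fin N) (ω : Om n) : Fin N := dN ω.2.2.2.2

/-- the pair `(t, s)` -/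
def ts (ω : Om n) : ℝ × ℝ := (ω.2.2.1, ω.2.2.2.1)

theorem measurable_ts : Measurable (ts (n := n)) := by unfold ts; fun_prop

include hdN hdb hsb hlaw hcell in
theorem rv_yf : rv (PM μ κ) (dd db sb) (yf hjl r0 sb) = lab μ κ hjl r0 b := by
  rw [← rv_lab0 μ κ hjl r0 hcell]
  funext c
  have hm1 : Measurable (fun ω : Om n => (ω.1, (ω.2.1, sb ω.2.2.2.2))) :=
    measurable_fst.prodMk ((measurable_fst.comp measurable_snd).prodMk (hsb.comp (by fun_prop)))
  have hm2 := measurable_y0 (n := n) hjl r0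
  have hd2 : Measurable (fun p : ModSpace n × (SLR n × ℝ) => db p.2.2) :=
    hdb.comp (measurable_snd.comp measurable_snd)
  have hd1 : Measurable (dd (n := n) db sb) := hdb.comp (hsb.comp (by fun_prop))
  refine rv_eq_of_law (PM μ κ) hd1 (measurable_yf hjl r0 hsb) hd2 hm2 ?_ c
  rw [← law_R1 μ κ hdN hsb hlaw, Measure.map_map (hd2.prodMk hm2) hm1]
  rfl

variable (a b') in
include hN h0 hdN hdb hsb hlaw hval hg in
/-- the posteriors of the fine digit. -/
theorem pv_r : ∫ ω, ∑ c', |pv (rv (PM μ κ) (dd db sb) (fun ω => ((zf hjk hkl hjl a b' c ω,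
          g (ts ω)), bt dN ω))) c' ((zf hjk hkl hjl a b' c ω, g (ts ω)), bt dN ω)
        - pv (rv (PM μ κ) (dd db sb) (yf hjl r0 sb)) c' (yf hjl r0 sb ω)| ∂(PM μ κ)
      ≤ 2 * √(HH (PM μ κ) (fun ω => (dd db sb ω, bt dN ω))
            (fun ω => (zf hjk hkl hjl a b' c ω, g (ts ω)))
          - HH (PM μ κ) (fun ω => (dd db sb ω, bt dN ω))
            (fun ω => (zf hjk hkl hjl a b' c ω, ts ω))) := by
  have hmd : Measurable (dd (n := n) db sb) := hdb.comp (hsb.comp (by fun_prop))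
  have hmb : Measurable (bt (n := n) dN) := hdN.comp (by fun_prop)
  have hmz := measurable_zf (n := n) hjk hkl hjl a b' c
  have hmy := measurable_yf (n := n) hjl r0 hsb
  have hmn := measurable_nf (n := n) hjk hkl hjl a b' c N
  have hmK : Measurable (fun p : ModSpace n × ((ℝ × ℝ) × Fin N) =>
      act p.1 (nf hjk hkl hjl a b' c N p.2)) :=
    meas_act measurable_fst (hmn.comp measurable_snd)
  have hmL : Measurable (fun p : ModSpace n × ((ℝ × ℝ) × Fin N) =>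
      act p.1 (nf hjk hkl hjl a b' c N p.2)⁻¹) :=
    meas_act measurable_fst (meas_inv (hmn.comp measurable_snd))
  have hzK : ∀ ω : Om n, zf hjk hkl hjl a b' c ω = (fun p : ModSpace n × ((ℝ × ℝ) × Fin N) =>
      act p.1 (nf hjk hkl hjl a b' c N p.2)) (yf hjl r0 sb ω, ts ω, bt dN ω) :=
    fun ω => zf_eq hjk hkl hjl a b' c r0 hN h0 hval ω
  have hyL : ∀ ω : Om n, yf hjl r0 sb ω = (fun p : ModSpace n × ((ℝ × ℝ) × Fin N) =>
      act p.1 (nf hjk hkl hjl a b' c N p.2)⁻¹) (zf hjk hkl hjl a b' c ω, ts ω, bt dN ω) := by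
    intro ω
    rw [hzK ω]
    show _ = act (act _ _) _
    rw [act_act, mul_inv_cancel, act_one]
  have hi : IndepFun (fun ω : Om n => (dd db sb ω, yf hjl r0 sb ω))
      (fun ω => (ts ω, bt dN ω)) (PM μ κ) := by
    have h := indep_R μ κ hdN hsb hlaw
    have hφ : Measurable (fun p : ModSpace n × (SLR n × ℝ) =>
        (db p.2.2, act p.1 (p.2.1 * uu hjl ((2 : ℝ) ^ (-r0) * p.2.2)))) :=
      (hdb.comp (measurable_snd.comp measurable_snd)).prodMk (measurable_y0 hjl r0)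
    exact h.comp hφ measurable_id
  exact pv_near (PM μ κ) hmd hmb hmz measurable_ts hmy hg hmK hmL hzK hyL hi

end Main

end Crest.Agent.R014.HR3_792
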