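import Mathlib
import Crest.Agent.R014.Ne3_567

/-!
Row 14, block D (noise formalism), helper567: conditional entropy, part 4: random variable form.
`(Ω, P)` finite measure, `d : Ω → ι` finite label, `Yv : Ω → Y` observation.
* `rv P d Yv`: the family of the joint law; `HH P d Yv = H(d | Yv)`;
* `HH_le_comp` (data processing), `HH_eq_of_comp` (depends on the sigma algebra of the observation only),
  `HH_congr_law`, `HH_pair`, `HH_pair'` (chain rule), `HH_indep` (independent noise), `HH_label_le`,
  `HH_det`, `HH_seq` (chain rule for a string of digits), `pinsker_HH`;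
* `Hc_le_of_tv_joint`; `Hc_ge_of_density` (Renyi / collision lower bound).
-/

set_option autoImplicit false

namespace Crest.Agent.R014.Ne4_567

open MeasureTheory Finset ProbabilityTheory
open scoped ENNReal
open Crest.Agent.R014.Ne1_567 Crest.Agent.R014.Ne2_567 Crest.Agent.R014.Ne3_567

variable {Ω ι κ Y Z : Type*} [Fintype ι] [Fintype κ] [MeasurableSpace Ω] [MeasurableSpace Y]
  [MeasurableSpace Z] [MeasurableSpace ι] [MeasurableSingletonClass ι] [MeasurableSpace κ]
  [MeasurableSingletonClass κ]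

/-- the joint law of label and observation as a family of measures. -/
noncomputable def rv (P : Measure Ω) (d : Ω → ι) (Yv : Ω → Y) (c : ι) : Measure Y :=
  (P.restrict (d ⁻¹' {c})).map Yv

/-- `H(d | Yv)`. -/
noncomputable def HH (P : Measure Ω) (d : Ω → ι) (Yv : Ω → Y) : ℝ := Hc (rv P d Yv)

variable (P : Measure Ω) [IsFiniteMeasure P] {d : Ω → ι} {e : Ω → κ} {Yv : Ω → Y}

instance rv_finite (d : Ω → ι) (Yv : Ω → Y) (c : ι) : IsFiniteMeasure (rv P d Yv c) := by
  unfold rv; infer_instance

omit [Fintype ι] [IsFiniteMeasure P] in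
theorem rv_apply (hd : Measurable d) (hY : Measurable Yv) (c : ι) {s : Set Y} (hs : MeasurableSet s) :
    rv P d Yv c s = P (d ⁻¹' {c} ∩ Yv ⁻¹' s) := by
  unfold rv
  rw [Measure.map_apply hY hs, Measure.restrict_apply (hY hs), Set.inter_comm]

omit [IsFiniteMeasure P] in
theorem tot_rv (hd : Measurable d) (hY : Measurable Yv) : tot (rv P d Yv) = P.map Yv := by
  refine Measure.ext fun s hs => ?_
  rw [tot_apply, Measure.map_apply hY hs]
  simp_rw [rv_apply P hd hY _ hs]
  rw [← measure_biUnion_finset]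
  · congr 1
    ext ω
    simp
  · intro a _ b _ hab
    refine Set.disjoint_left.2 fun ω h1 h2 => hab ?_
    rw [← h1.1, ← h2.1]
  · intro c _
    exact (hd (measurableSet_singleton c)).inter (hY hs)

omit [Fintype ι] [MeasurableSingletonClass ι] [IsFiniteMeasure P] in
theorem mp_rv {K : Y → Z} (hK : Measurable K) (hY : Measurable Yv) (c : ι) :
    mp K (rv P d Yv) c = rv P d (fun ω => K (Yv ω)) c := by
  unfold mp rv
  rw [Measure.map_map hK hY]
  rfl

omit [Fintype ι] [MeasurableSingletonClass ι] [IsFiniteMeasure P] in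
theorem rv_congr {Yv' : Ω → Y} (h : Yv =ᵐ[P] Yv') (c : ι) : rv P d Yv c = rv P d Yv' c := by
  unfold rv
  exact Measure.map_congr (ae_restrict_of_ae h)

theorem HH_nonneg : 0 ≤ HH P d Yv := Hc_nonneg _

theorem HH_le_log [Nonempty ι] (hd : Measurable d) (hY : Measurable Yv) :
    HH P d Yv ≤ P.real Set.univ * Real.log (Fintype.card ι) := by
  have h := Hc_le_log (rv P d Yv)
  rw [tot_rv P hd hY] at h
  have h2 : (P.map Yv).real Set.univ = P.real Set.univ := by
    unfold Measure.real
    rw [Measure.map_apply hY MeasurableSet.univ, Set.preimage_univ]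
  rwa [h2] at h

/-- Data processing. -/
theorem HH_le_comp {K : Y → Z} (hK : Measurable K) (hY : Measurable Yv) :
    HH P d Yv ≤ HH P d (fun ω => K (Yv ω)) := by
  have h := Hc_le_map (rv P d Yv) hK
  have h2 : mp K (rv P d Yv) = rv P d (fun ω => K (Yv ω)) := funext fun c => mp_rv P hK hY c
  rwa [h2] at h

theorem HH_congr_ae {Yv' : Ω → Y} (h : Yv =ᵐ[P] Yv') : HH P d Yv = HH P d Yv' := by
  unfold HH
  congr 1
  funext c
  exact rv_congr P h c

/-- `H(d | Yv)` depends only on the information in `Yv`. -/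
theorem HH_eq_of_comp {Zv : Ω → Z} {K : Y → Z} {L : Z → Y} (hK : Measurable K) (hL : Measurable L)
    (hY : Measurable Yv) (hZ : Measurable Zv) (h1 : Zv =ᵐ[P] fun ω => K (Yv ω))
    (h2 : Yv =ᵐ[P] fun ω => L (Zv ω)) : HH P d Yv = HH P d Zv := by
  refine le_antisymm ?_ ?_
  · rw [HH_congr_ae P h1]; exact HH_le_comp P hK hY
  · rw [HH_congr_ae P h2]; exact HH_le_comp P hL hZ

omit [Fintype ι] [IsFiniteMeasure P] in
/-- the family depends only on the joint law. -/
theorem rv_eq_of_law {Ω' : Type*} [MeasurableSpace Ω'] {P' : Measure Ω'} {d' : Ω' → ι} {Yv' : Ω' → Y}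
    (hd : Measurable d) (hY : Measurable Yv) (hd' : Measurable d') (hY' : Measurable Yv')
    (h : P.map (fun ω => (d ω, Yv ω)) = P'.map (fun ω => (d' ω, Yv' ω))) (c : ι) :
    rv P d Yv c = rv P' d' Yv' c := by
  refine Measure.ext fun s hs => ?_
  rw [rv_apply P hd hY c hs, rv_apply P' hd' hY' c hs]
  have h1 := congrArg (fun m : Measure (ι × Y) => m ({c} ×ˢ s)) h
  rw [Measure.map_apply (hd.prodMk hY) ((measurableSet_singleton c).prod hs),
    Measure.map_apply (hd'.prodMk hY') ((measurableSet_singleton c).prod hs)] at h1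
  exact h1

theorem HH_congr_law {Ω' : Type*} [MeasurableSpace Ω'] {P' : Measure Ω'} {d' : Ω' → ι} {Yv' : Ω' → Y}
    (hd : Measurable d) (hY : Measurable Yv) (hd' : Measurable d') (hY' : Measurable Yv')
    (h : P.map (fun ω => (d ω, Yv ω)) = P'.map (fun ω => (d' ω, Yv' ω))) :
    HH P d Yv = HH P' d' Yv' := by
  unfold HH
  congr 1
  funext c
  exact rv_eq_of_law P hd hY hd' hY' h c

section Pair

variable (hd : Measurable d) (he : Measurable e) (hY : Measurable Yv)
include hd he hY

theorem ms_rv (k : κ) : ms (rv P (fun ω => (d ω, e ω)) Yv) k = rv P e Yv k := by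
  refine Measure.ext fun s hs => ?_
  unfold ms
  rw [Measure.finsetSum_apply, rv_apply P he hY k hs]
  simp_rw [rv_apply P (hd.prodMk he) hY _ hs]
  rw [← measure_biUnion_finset]
  · congr 1
    ext ω
    simp
  · intro a _ b _ hab
    refine Set.disjoint_left.2 fun ω h1 h2 => hab ?_
    have e1 : (d ω, e ω) = (a, k) := h1.1
    have e2 : (d ω, e ω) = (b, k) := h2.1
    rw [e1] at e2
    exact (Prod.mk.inj e2).1
  · intro c _
    exact ((hd.prodMk he) (measurableSet_singleton (c, k))).inter (hY hs)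

theorem mf_rv (c : ι) : mf (rv P (fun ω => (d ω, e ω)) Yv) c = rv P d Yv c := by
  refine Measure.ext fun s hs => ?_
  unfold mf
  rw [Measure.finsetSum_apply, rv_apply P hd hY c hs]
  simp_rw [rv_apply P (hd.prodMk he) hY _ hs]
  rw [← measure_biUnion_finset]
  · congr 1
    ext ω
    simp
  · intro a _ b _ hab
    refine Set.disjoint_left.2 fun ω h1 h2 => hab ?_
    have e1 : (d ω, e ω) = (c, a) := h1.1
    have e2 : (d ω, e ω) = (c, b) := h2.1
    rw [e1] at e2
    exact (Prod.mk.inj e2).2
  · intro k _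
    exact ((hd.prodMk he) (measurableSet_singleton (c, k))).inter (hY hs)

theorem du_rv (c : ι) : du (rv P (fun ω => (d ω, e ω)) Yv) c = rv P d (fun ω => (Yv ω, e ω)) c := by
  refine Measure.ext fun s hs => ?_
  rw [du_apply _ _ hs, rv_apply P hd (hY.prodMk he) c hs]
  have hm : ∀ k, MeasurableSet {y : Y | (y, k) ∈ s} := fun k => meas_in k hs
  simp_rw [rv_apply P (hd.prodMk he) hY _ (hm _)]
  rw [← measure_biUnion_finset]
  · congr 1
    ext ω
    simp only [Set.mem_iUnion, Finset.mem_univ, exists_prop, true_and, Set.mem_inter_iff,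
      Set.mem_preimage, Set.mem_singleton_iff, Set.mem_ofPred_eq, Prod.mk.injEq]
    constructor
    · rintro ⟨k, ⟨h1, h2⟩, h3⟩
      exact ⟨h1, by rw [h2]; exact h3⟩
    · rintro ⟨h1, h2⟩
      exact ⟨e ω, ⟨h1, rfl⟩, h2⟩
  · intro a _ b _ hab
    refine Set.disjoint_left.2 fun ω h1 h2 => hab ?_
    have e1 : (d ω, e ω) = (c, a) := h1.1
    have e2 : (d ω, e ω) = (c, b) := h2.1
    rw [e1] at e2
    exact (Prod.mk.inj e2).2
  · intro k _
    exact ((hd.prodMk he) (measurableSet_singleton (c, k))).inter (hY (hm k))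

/-- **Chain rule**. -/
theorem HH_pair : HH P (fun ω => (d ω, e ω)) Yv = HH P e Yv + HH P d (fun ω => (Yv ω, e ω)) := by
  unfold HH
  rw [Hc_chain, ← Hc_du]
  congr 2
  · funext k; exact ms_rv P hd he hY k
  · funext c; exact du_rv P hd he hY c

/-- **Chain rule**, other order. -/
theorem HH_pair' : HH P (fun ω => (d ω, e ω)) Yv = HH P d Yv + HH P e (fun ω => (Yv ω, d ω)) := by
  have h := HH_pair P he hd hY
  rw [← h]
  unfold HH
  rw [← Hc_comp (Equiv.prodComm κ ι) (rv P (fun ω => (d ω, e ω)) Yv)]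
  congr 1
  funext p
  refine Measure.ext fun s hs => ?_
  rw [rv_apply P (hd.prodMk he) hY _ hs, rv_apply P (he.prodMk hd) hY _ hs]
  congr 1
  ext ω
  simp only [Set.mem_inter_iff, Set.mem_preimage, Set.mem_singleton_iff, Equiv.prodComm_apply,
    Prod.ext_iff, Prod.fst_swap, Prod.snd_swap]
  tauto

end Pair

/-- entropy of a function of the label -/
theorem HH_label_le {g : ι → κ} (hd : Measurable d) (hY : Measurable Yv) :
    HH P (fun ω => g (d ω)) Yv ≤ HH P d Yv := by
  classical
  have h := Hc_lb_le g (rv P d Yv)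
  have h2 : lb g (rv P d Yv) = rv P (fun ω => g (d ω)) Yv := by
    funext k
    refine Measure.ext fun s hs => ?_
    unfold lb
    have hg : Measurable fun ω => g (d ω) := (measurable_of_countable g).comp hd
    rw [Measure.finsetSum_apply, rv_apply P hg hY k hs]
    simp_rw [rv_apply P hd hY _ hs]
    rw [← measure_biUnion_finset]
    · congr 1
      ext ω
      simp
    · intro a _ b _ hab
      refine Set.disjoint_left.2 fun ω h1 h2 => hab ?_
      rw [← h1.1, ← h2.1]
    · intro c _
      exact (hd (measurableSet_singleton c)).inter (hY hs)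
  rw [h2] at h
  exact h

/-- independent noise is no information -/
theorem HH_indep {Zv : Ω → Z} (hd : Measurable d) (hY : Measurable Yv) (hZ : Measurable Zv)
    (hP : IsProbabilityMeasure P) (hi : IndepFun (fun ω => (d ω, Yv ω)) Zv P) :
    HH P d (fun ω => (Yv ω, Zv ω)) = HH P d Yv := by
  haveI : IsProbabilityMeasure (P.map Zv) := Measure.isProbabilityMeasure_map hZ.aemeasurable
  have h := Hc_pd (rv P d Yv) (P.map Zv)
  rw [← show HH P d Yv = Hc (rv P d Yv) from rfl] at h
  rw [← h]
  unfold HH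
  congr 1
  funext c
  unfold pd
  symm
  refine Measure.prod_eq fun s t hs ht => ?_
  rw [rv_apply P hd (hY.prodMk hZ) c (hs.prod ht), rv_apply P hd hY c hs,
    Measure.map_apply hZ ht]
  have h1 := hi.measure_inter_preimage_eq_mul _ _ ((measurableSet_singleton c).prod hs) ht
  rw [show (fun ω => (d ω, Yv ω)) ⁻¹' ({c} ×ˢ s) = d ⁻¹' {c} ∩ Yv ⁻¹' s from rfl] at h1
  rw [← h1]
  congr 1
  ext ω
  simp only [Set.mem_inter_iff, Set.mem_preimage, Set.mem_prod]
  tauto

/-- more information, less entropy -/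
theorem HH_cond_le {Zv : Ω → Z} (hY : Measurable Yv) (hZ : Measurable Zv) :
    HH P d (fun ω => (Yv ω, Zv ω)) ≤ HH P d Yv :=
  HH_le_comp P (K := Prod.fst) measurable_fst (hY.prodMk hZ)

/-- Conditional Pinsker inequality, random variable form. -/
theorem pinsker_HH {K : Y → Z} (hK : Measurable K) (hd : Measurable d) (hY : Measurable Yv) :
    ∫ ω, (∑ c, |pv (rv P d Yv) c (Yv ω) - pv (rv P d (fun ω => K (Yv ω))) c (K (Yv ω))|) ^ 2 ∂P ≤
      4 * (HH P d (fun ω => K (Yv ω)) - HH P d Yv) := by
  have h := pinsker_pv (rv P d Yv) hK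
  have h2 : mp K (rv P d Yv) = rv P d (fun ω => K (Yv ω)) := funext fun c => mp_rv P hK hY c
  rw [h2, tot_rv P hd hY, integral_map hY.aemeasurable] at h
  · exact h
  · refine ((Finset.measurable_sum _ fun c _ => ?_).pow_const 2).aestronglyMeasurable
    exact ((measurable_pv _ c).sub ((measurable_pv _ c).comp hK)).norm

/-- integral form of the conditional law -/
theorem integral_pv_HH (hd : Measurable d) (hY : Measurable Yv) (c : ι) {f : Y → ℝ} (hf : Measurable f) :
    ∫ ω, pv (rv P d Yv) c (Yv ω) * f (Yv ω) ∂P = ∫ ω in d ⁻¹' {c}, f (Yv ω) ∂P := by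
  have h := integral_pv_mul (rv P d Yv) c f
  have hm : AEStronglyMeasurable (fun y => pv (rv P d Yv) c y * f y) (P.map Yv) :=
    ((measurable_pv _ c).mul hf).aestronglyMeasurable
  rw [tot_rv P hd hY, integral_map hY.aemeasurable hm] at h
  rw [h]
  unfold rv
  rw [integral_map hY.aemeasurable hf.aestronglyMeasurable]

/-- a label determined by the observation -/
theorem HH_det [Nonempty ι] {g : Y → ι} (hg : Measurable g) (hd : Measurable d) (hY : Measurable Yv)
    (h : d =ᵐ[P] fun ω => g (Yv ω)) : HH P d Yv = 0 := by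
  classical
  refine le_antisymm ?_ (HH_nonneg P)
  have hae : ∀ c, ∀ᵐ y ∂(rv P d Yv c), g y = c := by
    intro c
    have hs : MeasurableSet {y | g y = c} := hg (measurableSet_singleton c)
    unfold rv
    rw [ae_map_iff hY.aemeasurable hs]
    have h1 : ∀ᵐ ω ∂(P.restrict (d ⁻¹' {c})), d ω = c := by
      have := ae_restrict_mem (μ := P) (hd (measurableSet_singleton c))
      exact this
    filter_upwards [h1, ae_restrict_of_ae h] with ω h1 h2
    rw [← h2]; exact h1
  have h2 := Hc_le_gibbs (rv P d Yv) (fun c y => if g y = c then 1 else 0)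
    (fun c y => by split_ifs <;> norm_num)
    (Filter.Eventually.of_forall fun y => by simp)
    (fun c => by filter_upwards [hae c] with y hy; simp [hy])
    (fun c => by
      refine (integrable_zero Y ℝ (rv P d Yv c)).congr ?_
      filter_upwards [hae c] with y hy; simp [hy])
  refine le_trans h2 (le_of_eq (Finset.sum_eq_zero fun c _ => ?_))
  rw [← integral_zero Y ℝ (μ := rv P d Yv c)]
  refine integral_congr_ae ?_
  filter_upwards [hae c] with y hy
  simp [hy]

section Seq

variable {β : Type*} [Fintype β] [MeasurableSpace β] [MeasurableSingletonClass β]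

/-- **Chain rule for a string of labels.** -/
theorem HH_seq [Nonempty β] {D : ℕ → Ω → β} (hD : ∀ i, Measurable (D i)) (hY : Measurable Yv) (m : ℕ) :
    HH P (fun ω => (fun j : Fin m => D j ω)) Yv =
      ∑ i ∈ Finset.range m, HH P (D i) (fun ω => (Yv ω, fun j : Fin i => D j ω)) := by
  have hDm : ∀ m : ℕ, Measurable (fun ω => (fun j : Fin m => D j ω)) := fun m =>
    measurable_pi_lambda _ fun j => hD j
  induction m with
  | zero =>
    rw [Finset.sum_range_zero]
    refine HH_det P (g := fun _ => Fin.elim0) measurable_const (hDm 0) hY ?_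
    exact Filter.Eventually.of_forall fun ω => funext fun j => j.elim0
  | succ m ih =>
    rw [Finset.sum_range_succ, ← ih, ← HH_pair P (hD m) (hDm m) hY]
    refine le_antisymm ?_ ?_
    · have h := HH_label_le P (d := fun ω => (D m ω, fun j : Fin m => D j ω)) (Yv := Yv)
        (g := fun p : β × (Fin m → β) => (Fin.snoc p.2 p.1 : Fin (m + 1) → β))
        ((hD m).prodMk (hDm m)) hY
      refine le_trans (le_of_eq ?_) h
      congr 1
      funext ω
      funext j
      refine Fin.lastCases ?_ (fun j => ?_) j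
      · simp
      · simp
    · have h := HH_label_le P (d := fun ω => (fun j : Fin (m + 1) => D j ω)) (Yv := Yv)
        (g := fun p : Fin (m + 1) → β => (p (Fin.last m), fun j : Fin m => p j.castSucc))
        (hDm (m + 1)) hY
      refine le_trans (le_of_eq ?_) h
      rfl

end Seq

section TV

omit [MeasurableSpace ι] [MeasurableSingletonClass ι] in
/-- **Continuity in total variation** of the joint law (one sided). -/
theorem Hc_le_of_tv_joint [Nonempty ι] (ρ ρ' : ι → Measure Y) [∀ c, IsFiniteMeasure (ρ c)]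
    [∀ c, IsFiniteMeasure (ρ' c)] {e : ℝ}
    (h : ∀ A : ι → Set Y, (∀ c, MeasurableSet (A c)) → ∑ c, (ρ c).real (A c) ≤ ∑ c, (ρ' c).real (A c) + e)
    (hT : (tot ρ).real Set.univ ≤ 1) (he : e ≤ 1) :
    Hc ρ ≤ Hc ρ' + (e * Real.log (Fintype.card ι) + (e + Real.negMulLog e)) := by
  choose m u v s hs fm fu fv e1 e2 hu hv using fun c => split (ρ c) (ρ' c)
  have hρ : ρ = fun c => m c + u c := funext e1
  have hρ' : ρ' = fun c => m c + v c := funext e2
  set U := (tot u).real Set.univ with hU
  have hU0 : 0 ≤ U := measureReal_nonneg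
  have hUe : U ≤ e := by
    rw [hU, tot_real_univ, Finset.sum_congr rfl fun c _ => hu c, Finset.sum_sub_distrib]
    linarith [h s hs]
  have h1 := Hc_add_le m u
  have h2 := Hc_add_ge m v
  rw [← hρ'] at h2
  rw [← hρ, ← hU] at h1
  have h3 : (tot m).real Set.univ + U ≤ 1 := by
    have h4 : (tot ρ).real Set.univ = (tot m).real Set.univ + U := by
      rw [hU, tot_real_univ, tot_real_univ, tot_real_univ, ← Finset.sum_add_distrib]
      refine Finset.sum_congr rfl fun c _ => ?_
      rw [e1 c, measureReal_add_apply]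
    rw [← h4]; exact hT
  have h5 : U * Real.log ((tot m).real Set.univ + U) ≤ 0 :=
    mul_nonpos_of_nonneg_of_nonpos hU0 (Real.log_nonpos (add_nonneg measureReal_nonneg hU0) h3)
  have h6 := Hc_le_log u
  rw [← hU] at h6
  have h7 := Hc_nonneg v
  have h8 := add_negMulLog_mono hU0 hUe he
  have h9 : U * Real.log (Fintype.card ι) ≤ e * Real.log (Fintype.card ι) :=
    mul_le_mul_of_nonneg_right hUe (Real.log_nonneg (by exact_mod_cast Fintype.card_pos))
  linarith

theorem sum_rv_real (hd : Measurable d) (hY : Measurable Yv) {A : ι → Set Y}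
    (hA : ∀ c, MeasurableSet (A c)) : ∑ c, (rv P d Yv c).real (A c) =
      P.real ((fun ω => (d ω, Yv ω)) ⁻¹' {p : ι × Y | p.2 ∈ A p.1}) := by
  have h1 : ∀ c, (rv P d Yv c).real (A c) = P.real (d ⁻¹' {c} ∩ Yv ⁻¹' (A c)) := fun c => by
    unfold Measure.real
    rw [rv_apply P hd hY c (hA c)]
  rw [Finset.sum_congr rfl fun c _ => h1 c, ← measureReal_biUnion_finset]
  · congr 1
    ext ω
    simp
  · intro a _ b _ hab
    refine Set.disjoint_left.2 fun ω h1 h2 => hab ?_
    rw [← h1.1, ← h2.1]
  · intro c _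
    exact (hd (measurableSet_singleton c)).inter (hY (hA c))

/-- Continuity in total variation, random variable form. -/
theorem HH_le_of_tv [Nonempty ι] {Ω' : Type*} [MeasurableSpace Ω'] {P' : Measure Ω'} [IsFiniteMeasure P']
    {d' : Ω' → ι} {Yv' : Ω' → Y} (hP : P.real Set.univ ≤ 1)
    (hd : Measurable d) (hY : Measurable Yv) (hd' : Measurable d') (hY' : Measurable Yv') {e : ℝ}
    (h : ∀ A : Set (ι × Y), MeasurableSet A →
      P.real ((fun ω => (d ω, Yv ω)) ⁻¹' A) ≤ P'.real ((fun ω => (d' ω, Yv' ω)) ⁻¹' A) + e)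
    (he : e ≤ 1) :
    HH P d Yv ≤ HH P' d' Yv' + (e * Real.log (Fintype.card ι) + (e + Real.negMulLog e)) := by
  refine Hc_le_of_tv_joint (rv P d Yv) (rv P' d' Yv') ?_ ?_ he
  · intro A hA
    have hA2 : MeasurableSet {p : ι × Y | p.2 ∈ A p.1} := by
      have : {p : ι × Y | p.2 ∈ A p.1} = ⋃ c, ({c} : Set ι) ×ˢ A c := by
        ext ⟨c, y⟩; simp
      rw [this]
      exact MeasurableSet.iUnion fun c => (measurableSet_singleton c).prod (hA c)
    rw [sum_rv_real P hd hY hA, sum_rv_real P' hd' hY' hA]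
    exact h _ hA2
  · rw [tot_rv P hd hY]
    unfold Measure.real
    rw [Measure.map_apply hY MeasurableSet.univ, Set.preimage_univ]
    exact hP

omit [MeasurableSpace ι] [MeasurableSingletonClass ι] in
/-- **Collision lower bound**: if every `ρ c ≤ θ` then `H ≥ - T log (θ(Y) / T)`, `T` the mass. -/
theorem Hc_ge_of_le (ρ : ι → Measure Y) [∀ c, IsFiniteMeasure (ρ c)] (θ : Measure Y) [IsFiniteMeasure θ]
    (h : ∀ c, ρ c ≤ θ) :
    (tot ρ).real Set.univ * -Real.log (θ.real Set.univ / (tot ρ).real Set.univ) ≤ Hc ρ := by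
  set T := (tot ρ).real Set.univ with hT
  rcases isEmpty_or_nonempty ι with hι | hι
  · have : T = 0 := by rw [hT, tot_real_univ]; simp
    rw [this, zero_mul]; exact Hc_nonneg ρ
  rcases eq_or_lt_of_le (show 0 ≤ T from measureReal_nonneg) with h0 | h0
  · rw [← h0, zero_mul]; exact Hc_nonneg ρ
  have hθ : 0 < θ.real Set.univ := by
    by_contra hc
    have hz : θ.real Set.univ = 0 := le_antisymm (not_lt.1 hc) measureReal_nonneg
    have hle : ∀ c, (ρ c).real Set.univ ≤ θ.real Set.univ := fun c =>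
      ENNReal.toReal_mono (measure_ne_top _ _) (Measure.le_iff.1 (h c) _ MeasurableSet.univ)
    have : T ≤ 0 := by
      rw [hT, tot_real_univ]
      exact Finset.sum_nonpos fun c _ => by rw [← hz]; exact hle c
    linarith
  set a := θ.real Set.univ / T with ha
  have ha0 : 0 < a := div_pos hθ h0
  have hb : ∀ c y, |pv ρ c y| ≤ 1 := fun c y => by
    rw [abs_of_nonneg (pv_nonneg ρ c y)]; exact pv_le_one ρ c y
  have hip : ∀ c (η : Measure Y) [IsFiniteMeasure η], Integrable (fun y => pv ρ c y) η := fun c η _ =>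
    Integrable.of_bound (measurable_pv ρ c).aestronglyMeasurable 1
      (Filter.Eventually.of_forall fun y => hb c y)
  have hpv : ∀ c, ∀ᵐ y ∂(ρ c), pv ρ c y = pr ρ c y := fun c =>
    (ac ρ c).ae_le (by filter_upwards [pv_eq ρ] with y hy using hy c)
  have h1 : ∀ c, (ρ c).real Set.univ * (1 - Real.log a) - (1 / a) * ∫ y, pv ρ c y ∂(ρ c) ≤
      ∫ y, -Real.log (pr ρ c y) ∂(ρ c) := by
    intro c
    have h2 : ∫ y, ((1 - Real.log a) - (1 / a) * pv ρ c y) ∂(ρ c) =
        (ρ c).real Set.univ * (1 - Real.log a) - (1 / a) * ∫ y, pv ρ c y ∂(ρ c) := by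
      rw [integral_sub (integrable_const _) ((hip c _).const_mul _), integral_const, smul_eq_mul,
        integral_const_mul]
    rw [← h2]
    refine integral_mono_ae ((integrable_const _).sub ((hip c _).const_mul _)) (integrable_log ρ c) ?_
    filter_upwards [hpv c, pr_ne_zero ρ c] with y h3 h4
    have h5 : 0 < pr ρ c y := lt_of_le_of_ne (pr_nonneg ρ c y) (Ne.symm h4)
    have h6 := Real.log_le_sub_one_of_pos (show 0 < pr ρ c y / a by positivity)
    rw [Real.log_div h5.ne' ha0.ne'] at h6
    rw [h3]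
    have h7 : (1 / a) * pr ρ c y = pr ρ c y / a := by ring
    rw [h7]
    linarith
  have h2 : ∑ c, ∫ y, pv ρ c y ∂(ρ c) ≤ θ.real Set.univ := by
    calc ∑ c, ∫ y, pv ρ c y ∂(ρ c) ≤ ∑ c, ∫ y, pv ρ c y ∂θ :=
          Finset.sum_le_sum fun c _ => integral_mono_measure (h c)
            (Filter.Eventually.of_forall fun y => pv_nonneg ρ c y) (hip c θ)
      _ = ∫ y, ∑ c, pv ρ c y ∂θ := (integral_finsetSum _ fun c _ => hip c θ).symm
      _ = θ.real Set.univ := by
          simp_rw [sum_pv ρ]
          rw [integral_const, smul_eq_mul, mul_one]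
  rw [Hc_eq ρ]
  have h3 := Finset.sum_le_sum fun c (_ : c ∈ (Finset.univ : Finset ι)) => h1 c
  rw [Finset.sum_sub_distrib, ← Finset.sum_mul, ← Finset.mul_sum, ← tot_real_univ, ← hT] at h3
  have h4 : (1 / a) * ∑ c, ∫ y, pv ρ c y ∂(ρ c) ≤ T := by
    calc (1 / a) * ∑ c, ∫ y, pv ρ c y ∂(ρ c) ≤ (1 / a) * θ.real Set.univ :=
          mul_le_mul_of_nonneg_left h2 (by positivity)
      _ = T := by rw [ha]; field_simp
  linarith

end TV

end Crest.Agent.R014.Ne4_567
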