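import Crest.Agent.R014.ClF3_599
import Crest.Agent.R014.Ne4_567

set_option autoImplicit false

/-!
Row 14, block D, noise formalism, section 4, (4.3): the probability space of the Heisenberg
observation, digits of a real number, the observations.
-/

open MeasureTheory Crest.NumberTheoryR.Packets
open scoped ENNReal

namespace Crest.Agent.R014.HSp_599

open Ms_667 Ne1_567 Ne3_567 Ne4_567 Sw1_640 Sw3_640
open Nd_837 hiding uni_ae
open NScD_395 (dl)

/-! ### Digits of a real number in `[-1, 1]` -/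

section Digits

variable {b : ℕ}

/-- The digit of `θ ∈ [-1, 1]`: the index of its cell. -/
noncomputable def dg (b : ℕ) [NeZero b] (θ : ℝ) : Fin b :=
  ⟨min ⌊(θ + 1) / 2 * b⌋₊ (b - 1), by have := NeZero.pos b; omega⟩

/-- The fine part of `θ ∈ [-1, 1]`, again in `[-1, 1]`. -/
noncomputable def sb (N : ℕ) [NeZero N] (θ : ℝ) : ℝ := N * (θ - cen N (dg N θ))

theorem measurable_dg (b : ℕ) [NeZero b] : Measurable (dg b) := by
  have h1 : Measurable fun θ : ℝ => ⌊(θ + 1) / 2 * b⌋₊ :=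
    Nat.measurable_floor.comp (by fun_prop)
  refine measurable_to_countable' fun d => ?_
  have h2 : dg b ⁻¹' {d} = (fun θ : ℝ => ⌊(θ + 1) / 2 * b⌋₊) ⁻¹' {m | min m (b - 1) = d.1} := by
    ext θ
    simp only [Set.mem_preimage, Set.mem_singleton_iff, Set.mem_ofPred_eq, dg, Fin.ext_iff]
  rw [h2]
  exact h1 (Set.to_countable _).measurableSet

theorem measurable_sb (N : ℕ) [NeZero N] : Measurable (sb N) := by
  have h1 : Measurable fun θ : ℝ => cen N (dg N θ) :=
    (measurable_of_countable (cen N)).comp (measurable_dg N)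
  exact measurable_const.mul (measurable_id.sub h1)

theorem dg_eq_of_mem [NeZero b] {d : Fin b} {θ : ℝ} (h1 : (-1 : ℝ) + 2 * (d : ℝ) / b ≤ θ)
    (h2 : θ < -1 + 2 * ((d : ℝ) + 1) / b) : dg b θ = d := by
  have hb : (0 : ℝ) < b := by exact_mod_cast NeZero.pos b
  have h3 : ⌊(θ + 1) / 2 * b⌋₊ = (d : ℕ) := by
    rw [Nat.floor_eq_iff]
    · constructor
      · have : (2 * (d : ℝ)) / b ≤ θ + 1 := by linarith
        rw [div_le_iff₀ hb] at this
        linarith
      · have : θ + 1 < (2 * ((d : ℝ) + 1)) / b := by linarith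
        rw [lt_div_iff₀ hb] at this
        linarith
    · have : 0 ≤ (2 * (d : ℝ)) / b := by positivity
      have h4 : 0 ≤ θ + 1 := by linarith
      positivity
  apply Fin.ext
  simp only [dg, h3]
  have := d.2
  omega

theorem dg_mem [NeZero b] {θ : ℝ} (hθ : |θ| ≤ 1) :
    (-1 : ℝ) + 2 * ((dg b θ : ℕ) : ℝ) / b ≤ θ ∧ θ ≤ -1 + 2 * (((dg b θ : ℕ) : ℝ) + 1) / b := by
  have hb : (0 : ℝ) < b := by exact_mod_cast NeZero.pos b
  have hθ' := abs_le.1 hθ
  have h0 : 0 ≤ (θ + 1) / 2 * b := by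
    have : 0 ≤ θ + 1 := by linarith
    positivity
  have hval : ((dg b θ : ℕ)) = min ⌊(θ + 1) / 2 * b⌋₊ (b - 1) := rfl
  have hfl := Nat.floor_le h0
  have hfl2 := Nat.lt_floor_add_one ((θ + 1) / 2 * b)
  constructor
  · have h1 : ((dg b θ : ℕ) : ℝ) ≤ (θ + 1) / 2 * b := by
      refine le_trans ?_ hfl
      rw [hval]
      exact_mod_cast min_le_left _ _
    have h2 : 2 * ((dg b θ : ℕ) : ℝ) / b ≤ θ + 1 := by
      rw [div_le_iff₀ hb]; linarith
    linarith
  · have h2 : θ + 1 ≤ 2 * (((dg b θ : ℕ) : ℝ) + 1) / b := by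
      rw [le_div_iff₀ hb]
      by_cases hc : ⌊(θ + 1) / 2 * b⌋₊ ≤ b - 1
      · rw [hval, min_eq_left hc]
        linarith
      · push Not at hc
        rw [hval, min_eq_right hc.le]
        have h3 : ((b - 1 : ℕ) : ℝ) = b - 1 := by
          rw [Nat.cast_sub (NeZero.one_le)]; simp
        rw [h3]
        nlinarith
    linarith

theorem dg_spec [NeZero b] {θ : ℝ} (hθ : |θ| ≤ 1) : |θ - cen b (dg b θ)| ≤ 1 / b := by
  have hb : (0 : ℝ) < b := by exact_mod_cast NeZero.pos b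
  obtain ⟨h1, h2⟩ := dg_mem (b := b) hθ
  have h3 : cen b (dg b θ) = -1 + 2 * ((dg b θ : ℕ) : ℝ) / b + 1 / b := by
    unfold cen; field_simp; ring
  have h4 : cen b (dg b θ) = -1 + 2 * (((dg b θ : ℕ) : ℝ) + 1) / b - 1 / b := by
    unfold cen; field_simp; ring
  rw [abs_le]
  constructor
  · linarith
  · linarith

theorem abs_sb_le {N : ℕ} [NeZero N] {θ : ℝ} (hθ : |θ| ≤ 1) : |sb N θ| ≤ 1 := by
  have hN : (0 : ℝ) < N := by exact_mod_cast NeZero.pos N
  unfold sb
  rw [abs_mul, abs_of_pos hN]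
  have := dg_spec (b := N) hθ
  calc (N : ℝ) * |θ - cen N (dg N θ)| ≤ N * (1 / N) := mul_le_mul_of_nonneg_left this hN.le
    _ = 1 := by field_simp

theorem eq_cen_add {N : ℕ} [NeZero N] (θ : ℝ) : θ = cen N (dg N θ) + sb N θ / N := by
  have hN : (N : ℝ) ≠ 0 := by exact_mod_cast NeZero.ne N
  unfold sb
  field_simp
  ring

/-- The digit in a cell with open right end. -/
theorem dg_cen_add [NeZero b] (d : Fin b) {θ : ℝ} (h1 : -1 ≤ θ) (h2 : θ < 1) :
    dg b (cen b d + θ / b) = d := by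
  have hb : (0 : ℝ) < b := by exact_mod_cast NeZero.pos b
  refine dg_eq_of_mem ?_ ?_
  · have h3 : cen b d = -1 + 2 * (d : ℝ) / b + 1 / b := by unfold cen; field_simp; ring
    have h4 : -1 / b ≤ θ / b := by gcongr
    rw [h3]
    have h5 : (-1 : ℝ) / b = -(1 / b) := by ring
    linarith
  · have h3 : cen b d = -1 + 2 * ((d : ℝ) + 1) / b - 1 / b := by unfold cen; field_simp; ring
    have h4 : θ / b < 1 / b := by gcongr
    rw [h3]
    linarith

theorem uni_ae_lt : ∀ᵐ θ ∂uni, (-1 : ℝ) ≤ θ ∧ θ < 1 := by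
  unfold uni
  refine Measure.ae_smul_measure ?_ _
  rw [Measure.restrict_congr_set Ico_ae_eq_Icc.symm, ae_restrict_iff' measurableSet_Ico]
  exact Filter.Eventually.of_forall fun θ hθ => hθ

/-- **Cell law.** -/
theorem restrict_cell [NeZero b] (d : Fin b) :
    uni.restrict (dg b ⁻¹' {d}) = (b : ℝ≥0∞)⁻¹ • uni.map (fun θ => cen b d + θ / b) := by
  have hb : 0 < b := NeZero.pos b
  have hm : MeasurableSet (dg b ⁻¹' {d}) := measurable_dg b (measurableSet_singleton d)
  have hf : ∀ k : Fin b, Measurable fun θ : ℝ => cen b k + θ / b := fun k => by fun_prop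
  conv_lhs => rw [uni_split hb]
  rw [Measure.restrict_smul]
  congr 1
  have h0 : (∑ k : Fin b, uni.map fun θ => cen b k + θ / b).restrict (dg b ⁻¹' {d})
      = ∑ k : Fin b, (uni.map fun θ => cen b k + θ / b).restrict (dg b ⁻¹' {d}) := by
    refine Measure.ext fun s hs => ?_
    rw [Measure.restrict_apply hs, Measure.finsetSum_apply, Measure.finsetSum_apply]
    exact Finset.sum_congr rfl fun k _ => (Measure.restrict_apply hs).symm
  rw [h0]
  have h1 : ∀ k : Fin b, (uni.map fun θ => cen b k + θ / b).restrict (dg b ⁻¹' {d})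
      = if k = d then uni.map (fun θ => cen b d + θ / b) else 0 := by
    intro k
    have hae : ∀ᵐ θ ∂uni.map (fun θ => cen b k + θ / b), dg b θ = k := by
      refine (ae_map_iff (p := fun θ => dg b θ = k) (hf k).aemeasurable
        (measurable_dg b (measurableSet_singleton k))).2 ?_
      filter_upwards [uni_ae_lt] with θ hθ
      exact dg_cen_add k hθ.1 hθ.2
    split_ifs with hk
    · subst hk
      rw [Measure.restrict_eq_self_of_ae_mem]
      exact hae
    · rw [Measure.restrict_eq_zero]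
      refine measure_mono_null ?_ hae
      intro θ hθ hc
      exact hk (hc.symm.trans hθ)
  rw [Finset.sum_congr rfl fun k _ => h1 k]
  simp

/-- The digit and the fine part, split off a uniform variable. -/
theorem sb_cen_add {N : ℕ} [NeZero N] (d : Fin N) {θ : ℝ} (h1 : -1 ≤ θ) (h2 : θ < 1) :
    sb N (cen N d + θ / N) = θ := by
  have hN : (N : ℝ) ≠ 0 := by exact_mod_cast NeZero.ne N
  unfold sb
  rw [dg_cen_add d h1 h2]
  field_simp
  ring

/-- The uniform law on `Fin N`. -/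
noncomputable def uf (N : ℕ) : Measure (Fin N) := (N : ℝ≥0∞)⁻¹ • ∑ d : Fin N, Measure.dirac d

instance (N : ℕ) [NeZero N] : IsProbabilityMeasure (uf N) := by
  refine ⟨?_⟩
  unfold uf
  rw [Measure.smul_apply, Measure.finsetSum_apply]
  simp only [measure_univ, Finset.sum_const, Finset.card_univ, Fintype.card_fin, nsmul_eq_mul,
    mul_one, smul_eq_mul]
  exact ENNReal.inv_mul_cancel (by exact_mod_cast NeZero.ne N) (ENNReal.natCast_ne_top N)

/-- **Digit and fine part are independent**, the fine part is uniform again. -/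
theorem law_dg_sb (N : ℕ) [NeZero N] :
    uni.map (fun θ => (dg N θ, sb N θ)) = (uf N).prod uni := by
  have hN : 0 < N := NeZero.pos N
  have hm : Measurable fun θ : ℝ => (dg N θ, sb N θ) := (measurable_dg N).prodMk (measurable_sb N)
  have hf : ∀ k : Fin N, Measurable fun θ : ℝ => cen N k + θ / N := fun k => by fun_prop
  conv_lhs => rw [uni_split hN]
  rw [Measure.map_smul, Measure.map_finset_sum hm.aemeasurable]
  unfold uf
  rw [Measure.prod_smul_left]
  congr 1
  have h2 : ∀ s : Finset (Fin N), (∑ d ∈ s, Measure.dirac d).prod uni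
      = ∑ d ∈ s, (Measure.dirac d).prod uni := by
    classical
    intro s
    induction s using Finset.induction_on with
    | empty => simp
    | insert a s ha ih => rw [Finset.sum_insert ha, Finset.sum_insert ha, Measure.add_prod, ih]
  rw [h2]
  refine Finset.sum_congr rfl fun k _ => ?_
  rw [Measure.map_map hm (hf k), Measure.dirac_prod]
  refine Measure.map_congr ?_
  filter_upwards [uni_ae_lt] with θ hθ
  simp only [Function.comp_apply]
  rw [dg_cen_add k hθ.1 hθ.2, sb_cen_add k hθ.1 hθ.2]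

/-- **Two-step digits.** -/
theorem dg_mul {N b : ℕ} [NeZero N] [NeZero b] {θ : ℝ} (h1 : -1 ≤ θ) (h2 : θ < 1) :
    haveI : NeZero (N * b) := ⟨mul_ne_zero (NeZero.ne N) (NeZero.ne b)⟩
    dg (N * b) θ = finProdFinEquiv (dg N θ, dg b (sb N θ)) := by
  have : NeZero (N * b) := ⟨mul_ne_zero (NeZero.ne N) (NeZero.ne b)⟩
  have hN : (0 : ℝ) < N := by exact_mod_cast NeZero.pos N
  have hb : (0 : ℝ) < b := by exact_mod_cast NeZero.pos b
  have hθ : |θ| ≤ 1 := abs_le.2 ⟨h1, h2.le⟩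
  -- the fine part lies in `[-1, 1)`
  have hs1 : -1 ≤ sb N θ := (abs_le.1 (abs_sb_le (N := N) hθ)).1
  have hs2 : sb N θ < 1 := by
    have h0 : 0 ≤ (θ + 1) / 2 * N := by
      have : 0 ≤ θ + 1 := by linarith
      positivity
    have hlt : (θ + 1) / 2 * N < N := by nlinarith
    have hfl : ⌊(θ + 1) / 2 * N⌋₊ < N := (Nat.floor_lt h0).2 hlt
    have hval : ((dg N θ : ℕ)) = ⌊(θ + 1) / 2 * N⌋₊ := by
      change min ⌊(θ + 1) / 2 * N⌋₊ (N - 1) = _
      omega
    have h3 := Nat.lt_floor_add_one ((θ + 1) / 2 * N)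
    rw [← hval] at h3
    unfold sb cen
    have h4 : (N : ℝ) * (θ - (-1 + (2 * ((dg N θ : ℕ) : ℝ) + 1) / N))
        = N * (θ + 1) - (2 * ((dg N θ : ℕ) : ℝ) + 1) := by field_simp; ring
    rw [h4]
    linarith
  obtain ⟨h5, -⟩ := dg_mem (b := b) (θ := sb N θ) (abs_le.2 ⟨hs1, hs2.le⟩)
  have h6 : sb N θ < -1 + 2 * (((dg b (sb N θ) : ℕ) : ℝ) + 1) / b := by
    have h0 : 0 ≤ (sb N θ + 1) / 2 * b := by
      have : 0 ≤ sb N θ + 1 := by linarith
      positivity
    have hlt : (sb N θ + 1) / 2 * b < b := by nlinarith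
    have hfl : ⌊(sb N θ + 1) / 2 * b⌋₊ < b := (Nat.floor_lt h0).2 hlt
    have hval : ((dg b (sb N θ) : ℕ)) = ⌊(sb N θ + 1) / 2 * b⌋₊ := by
      change min ⌊(sb N θ + 1) / 2 * b⌋₊ (b - 1) = _
      omega
    have h3 := Nat.lt_floor_add_one ((sb N θ + 1) / 2 * b)
    rw [← hval] at h3
    have h7 : sb N θ + 1 < 2 * (((dg b (sb N θ) : ℕ) : ℝ) + 1) / b := by
      rw [lt_div_iff₀ hb]; linarith
    linarith
  have hval : (((finProdFinEquiv (dg N θ, dg b (sb N θ)) : Fin (N * b)) : ℕ) : ℝ)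
      = ((dg b (sb N θ) : ℕ) : ℝ) + b * ((dg N θ : ℕ) : ℝ) := by
    rw [finProdFinEquiv_apply_val]; push_cast; ring
  have hθe := eq_cen_add (N := N) θ
  have hθ2 : θ = -1 + (2 * ((dg N θ : ℕ) : ℝ) + 1) / N + sb N θ / N := hθe
  refine dg_eq_of_mem ?_ ?_
  · rw [hval]
    push_cast
    have h8 : (-1 : ℝ) + 2 * (((dg b (sb N θ) : ℕ) : ℝ) + b * ((dg N θ : ℕ) : ℝ)) / (N * b)
        = -1 + (2 * ((dg N θ : ℕ) : ℝ) + 1) / N
          + (-1 + 2 * ((dg b (sb N θ) : ℕ) : ℝ) / b) / N := by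
      field_simp; ring
    have h9 : (-1 + 2 * ((dg b (sb N θ) : ℕ) : ℝ) / b) / N ≤ sb N θ / N := by gcongr
    rw [h8]
    linarith
  · rw [hval]
    push_cast
    have h8 : (-1 : ℝ) + 2 * (((dg b (sb N θ) : ℕ) : ℝ) + b * ((dg N θ : ℕ) : ℝ) + 1) / (N * b)
        = -1 + (2 * ((dg N θ : ℕ) : ℝ) + 1) / N
          + (-1 + 2 * (((dg b (sb N θ) : ℕ) : ℝ) + 1) / b) / N := by
      field_simp; ring
    have h9 : sb N θ / N < (-1 + 2 * (((dg b (sb N θ) : ℕ) : ℝ) + 1) / b) / N := by gcongr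
    rw [h8]
    linarith

end Digits

/-! ### The space and the observations -/

/-- `(x, ζ, t, s, r)` -/
abbrev Om (n : ℕ) : Type := ModSpace n × (SLR n × (ℝ × (ℝ × ℝ)))

/-- The probability measure. -/
noncomputable def PM {n : ℕ} (μ : Measure (ModSpace n)) (κ : Measure (SLR n)) : Measure (Om n) :=
  μ.prod (κ.prod (uni.prod (uni.prod uni)))

section Space

variable {n : ℕ} {j k l : Fin n}

instance (μ : Measure (ModSpace n)) (κ : Measure (SLR n)) [IsProbabilityMeasure μ]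
    [IsProbabilityMeasure κ] : IsProbabilityMeasure (PM μ κ) := by
  unfold PM; infer_instance

/-- the point -/
def xx (ω : Om n) : ModSpace n := ω.1
/-- the noise -/
def ze (ω : Om n) : SLR n := ω.2.1
/-- the `kl`-variable -/
def tt (ω : Om n) : ℝ := ω.2.2.1
/-- the `jk`-variable -/
def ss (ω : Om n) : ℝ := ω.2.2.2.1
/-- the `jl`-variable -/
def rr (ω : Om n) : ℝ := ω.2.2.2.2

theorem measurable_xx : Measurable (xx (n := n)) := measurable_fst
theorem measurable_ze : Measurable (ze (n := n)) := measurable_fst.comp measurable_snd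
theorem measurable_tt : Measurable (tt (n := n)) :=
  measurable_fst.comp (measurable_snd.comp measurable_snd)
theorem measurable_ss : Measurable (ss (n := n)) :=
  measurable_fst.comp (measurable_snd.comp (measurable_snd.comp measurable_snd))
theorem measurable_rr : Measurable (rr (n := n)) :=
  measurable_snd.comp (measurable_snd.comp (measurable_snd.comp measurable_snd))

/-- The Heisenberg observation `x ζ u_kl(2^(-β) t) u_jk(2^(-α) s) u_jl(2^(-γ) r)`. -/
noncomputable def zz (hjk : j ≠ k) (hkl : k ≠ l) (hjl : j ≠ l) (α β γ : ℝ) (ω : Om n) :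
    ModSpace n :=
  act (xx ω) (ze ω * uu hkl ((2 : ℝ) ^ (-β) * tt ω) * uu hjk ((2 : ℝ) ^ (-α) * ss ω)
    * uu hjl ((2 : ℝ) ^ (-γ) * rr ω))

/-- The `jl`-variable for the other order of `t`, `s`. -/
noncomputable def rp (α β γ : ℝ) (ω : Om n) : ℝ :=
  rr ω - (2 : ℝ) ^ (γ - α - β) * (ss ω * tt ω)

/-- `x ζ u_jk(2^(-α) s)` -/
noncomputable def y1 (hjk : j ≠ k) (α : ℝ) (ω : Om n) : ModSpace n :=
  act (xx ω) (ze ω * uu hjk ((2 : ℝ) ^ (-α) * ss ω))

/-- `x ζ u_kl(2^(-β) t)` -/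
noncomputable def y2 (hkl : k ≠ l) (β : ℝ) (ω : Om n) : ModSpace n :=
  act (xx ω) (ze ω * uu hkl ((2 : ℝ) ^ (-β) * tt ω))

/-- `x ζ u_jl(2^(-γ) r)` -/
noncomputable def y3 (hjl : j ≠ l) (γ : ℝ) (ω : Om n) : ModSpace n :=
  act (xx ω) (ze ω * uu hjl ((2 : ℝ) ^ (-γ) * rr ω))

/-- `x ζ u_jl(2^(-γ) r')`, `r'` the fine part of `r` after `N` cells -/
noncomputable def y3s (hjl : j ≠ l) (γ : ℝ) (N : ℕ) [NeZero N] (ω : Om n) : ModSpace n :=
  act (xx ω) (ze ω * uu hjl ((2 : ℝ) ^ (-γ) * sb N (rr ω)))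

theorem mu1 (h : j ≠ k) {f : Om n → ℝ} (hf : Measurable f) (a : ℝ) :
    Measurable fun ω => (uu h ((2 : ℝ) ^ (-a) * f ω) : SLR n) :=
  (measurable_uu h).comp (measurable_const.mul hf)

theorem measurable_zz (hjk : j ≠ k) (hkl : k ≠ l) (hjl : j ≠ l) (α β γ : ℝ) :
    Measurable (zz (n := n) hjk hkl hjl α β γ) :=
  measurable_act₂.comp (measurable_xx.prodMk (((measurable_ze.mul (mu1 hkl measurable_tt β)).mul
    (mu1 hjk measurable_ss α)).mul (mu1 hjl measurable_rr γ)))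

theorem measurable_rp (α β γ : ℝ) : Measurable (rp (n := n) α β γ) :=
  measurable_rr.sub (measurable_const.mul (measurable_ss.mul measurable_tt))

theorem measurable_y1 (hjk : j ≠ k) (α : ℝ) : Measurable (y1 (n := n) hjk α) :=
  measurable_act₂.comp (measurable_xx.prodMk (measurable_ze.mul (mu1 hjk measurable_ss α)))

theorem measurable_y2 (hkl : k ≠ l) (β : ℝ) : Measurable (y2 (n := n) hkl β) :=
  measurable_act₂.comp (measurable_xx.prodMk (measurable_ze.mul (mu1 hkl measurable_tt β)))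

theorem measurable_y3 (hjl : j ≠ l) (γ : ℝ) : Measurable (y3 (n := n) hjl γ) :=
  measurable_act₂.comp (measurable_xx.prodMk (measurable_ze.mul (mu1 hjl measurable_rr γ)))

theorem measurable_y3s (hjl : j ≠ l) (γ : ℝ) (N : ℕ) [NeZero N] :
    Measurable (y3s (n := n) hjl γ N) :=
  measurable_act₂.comp (measurable_xx.prodMk (measurable_ze.mul
    (mu1 hjl ((measurable_sb N).comp measurable_rr) γ)))

/-- The other order of the factors. -/
theorem zz_eq (hjk : j ≠ k) (hkl : k ≠ l) (hjl : j ≠ l) (α β γ : ℝ) (ω : Om n) :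
    zz hjk hkl hjl α β γ ω = act (xx ω) (ze ω * uu hjk ((2 : ℝ) ^ (-α) * ss ω)
      * uu hkl ((2 : ℝ) ^ (-β) * tt ω) * uu hjl ((2 : ℝ) ^ (-γ) * rp α β γ ω)) := by
  unfold zz
  congr 1
  have h1 := comm_jk_kl (n := n) hjk hkl hjl ((2 : ℝ) ^ (-α) * ss ω) ((2 : ℝ) ^ (-β) * tt ω)
  have h2 : (2 : ℝ) ^ (-γ) * rp α β γ ω
      = -((2 : ℝ) ^ (-α) * ss ω * ((2 : ℝ) ^ (-β) * tt ω)) + (2 : ℝ) ^ (-γ) * rr ω := by
    unfold rp
    have h3 : (2 : ℝ) ^ (-γ) * (2 : ℝ) ^ (γ - α - β) = (2 : ℝ) ^ (-α) * (2 : ℝ) ^ (-β) := by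
      rw [← Real.rpow_add two_pos, ← Real.rpow_add two_pos]
      congr 1
      ring
    linear_combination (-(ss ω * tt ω)) * h3
  have h4 : (uu hjl ((2 : ℝ) ^ (-α) * ss ω * ((2 : ℝ) ^ (-β) * tt ω)) : SLR n)
      * uu hjl (-((2 : ℝ) ^ (-α) * ss ω * ((2 : ℝ) ^ (-β) * tt ω)) + (2 : ℝ) ^ (-γ) * rr ω)
      = uu hjl ((2 : ℝ) ^ (-γ) * rr ω) := by
    rw [← uu_add, add_neg_cancel_left]
  have key : ∀ z A B C D E : SLR n, A * B = B * A * C → C * D = E →
      z * A * B * D = z * B * A * E := by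
    intro z A B C D E h h'
    rw [mul_assoc z A B, h, ← h']
    group
  rw [h2]
  exact (key _ _ _ _ _ _ h1 h4).symm

end Space

end Crest.Agent.R014.HSp_599
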