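import Crest.Agent.R014.Nh4_849
import Crest.Agent.R014.HSp_599

/-!
Row 14, block D (noise formalism), section 4: input (A) of `RAs2_460.Inp` on the space of `HSp_599`.
-/

set_option autoImplicit false
set_option linter.unusedSectionVars false

namespace Crest.Agent.R014.Nh5_849

open MeasureTheory Finset Crest.NumberTheoryR.Packets
open scoped ENNReal
open Crest.Agent.R014.Ne1_567 Crest.Agent.R014.Ne2_567 Crest.Agent.R014.Ne3_567
open Crest.Agent.R014.Ne4_567 Crest.Agent.R014.Nh2_849 Crest.Agent.R014.Nh4_849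
open Crest.Agent.R014.Nd_837 (cen uni)
open Crest.Agent.R014.NScC_395 (spr spr_nonneg spr_le)
open Crest.Agent.R014.HSp_599

noncomputable section

variable {n : ℕ} {j k l : Fin n}

/-! ### a.e. ranges -/

section ae

variable (μ : Measure (ModSpace n)) (κ : Measure (SLR n)) [IsProbabilityMeasure μ]
  [IsProbabilityMeasure κ]

theorem ae_tt : ∀ᵐ ω ∂PM μ κ, -1 ≤ tt ω ∧ tt ω < 1 :=
  Measure.quasiMeasurePreserving_snd.ae (Measure.quasiMeasurePreserving_snd.ae
    (Measure.quasiMeasurePreserving_fst.ae uni_ae_lt))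

theorem ae_ss : ∀ᵐ ω ∂PM μ κ, -1 ≤ ss ω ∧ ss ω < 1 :=
  Measure.quasiMeasurePreserving_snd.ae (Measure.quasiMeasurePreserving_snd.ae
    (Measure.quasiMeasurePreserving_snd.ae (Measure.quasiMeasurePreserving_fst.ae uni_ae_lt)))

theorem ae_rr : ∀ᵐ ω ∂PM μ κ, -1 ≤ rr ω ∧ rr ω < 1 :=
  Measure.quasiMeasurePreserving_snd.ae (Measure.quasiMeasurePreserving_snd.ae
    (Measure.quasiMeasurePreserving_snd.ae (Measure.quasiMeasurePreserving_snd.ae uni_ae_lt)))

end ae

/-! ### the two functions -/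

section defs

variable (μ : Measure (ModSpace n)) (κ : Measure (SLR n)) (hjk : j ≠ k) (hkl : k ≠ l) (hjl : j ≠ l)
  (γ : ℝ) (bs bt b N : ℕ) [NeZero bs] [NeZero bt] [NeZero b] [NeZero N]

/-- product of the mean distances of `2⁻⁴ s` and `2⁻⁴ t` under the posteriors given `z` -/
def ST (ω : Om n) : ℝ :=
  spr (fun c => 1 / 16 * cen bs c) (fun c => pv (rv (PM μ κ) (fun ω => dg bs (ss ω))
      (zz hjk hkl hjl 4 4 γ)) c (zz hjk hkl hjl 4 4 γ ω)) *
    spr (fun c => 1 / 16 * cen bt c) (fun c => pv (rv (PM μ κ) (fun ω => dg bt (tt ω))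
      (zz hjk hkl hjl 4 4 γ)) c (zz hjk hkl hjl 4 4 γ ω))

/-- mean distance of the fine part of `r` given `z`, the digit of `s`, the block -/
def RR (ω : Om n) : ℝ :=
  1 / 16 * spr (cen b) (fun c => pv (rv (PM μ κ) (fun ω => dg b (sb N (rr ω)))
      (fun ω => ((zz hjk hkl hjl 4 4 γ ω, dg bs (ss ω)), dg N (rr ω)))) c
      ((zz hjk hkl hjl 4 4 γ ω, dg bs (ss ω)), dg N (rr ω)))

end defs

theorem measurable_spr {A Y : Type*} [Fintype A] [MeasurableSpace Y] {w : Y → A → ℝ}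
    (hw : ∀ a, Measurable fun y => w y a) (x : A → ℝ) : Measurable fun y => spr x (w y) :=
  Nh3_849.measurable_mdist hw x

section props

variable (μ : Measure (ModSpace n)) (κ : Measure (SLR n)) (hjk : j ≠ k) (hkl : k ≠ l) (hjl : j ≠ l)
  (γ : ℝ) (bs bt b N : ℕ) [NeZero bs] [NeZero bt] [NeZero b] [NeZero N]

theorem measurable_ST : Measurable (ST μ κ hjk hkl hjl γ bs bt) := by
  have h1 : Measurable fun y => spr (fun c => 1 / 16 * cen bs c) (fun c => pv (rv (PM μ κ)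
      (fun ω => dg bs (ss ω)) (zz hjk hkl hjl 4 4 γ)) c y) :=
    measurable_spr (fun c => measurable_pv _ c) _
  have h2 : Measurable fun y => spr (fun c => 1 / 16 * cen bt c) (fun c => pv (rv (PM μ κ)
      (fun ω => dg bt (tt ω)) (zz hjk hkl hjl 4 4 γ)) c y) :=
    measurable_spr (fun c => measurable_pv _ c) _
  have h3 := (h1.comp (measurable_zz hjk hkl hjl 4 4 γ)).mul (h2.comp (measurable_zz hjk hkl hjl 4 4 γ))
  exact h3

theorem measurable_obs : Measurable fun ω : Om n =>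
    ((zz hjk hkl hjl 4 4 γ ω, dg bs (ss ω)), dg N (rr ω)) :=
  ((measurable_zz hjk hkl hjl 4 4 γ).prodMk ((measurable_dg bs).comp measurable_ss)).prodMk
    ((measurable_dg N).comp measurable_rr)

theorem measurable_RR : Measurable (RR μ κ hjk hkl hjl γ bs b N) := by
  have h1 : Measurable fun y => spr (cen b) (fun c => pv (rv (PM μ κ) (fun ω => dg b (sb N (rr ω)))
      (fun ω => ((zz hjk hkl hjl 4 4 γ ω, dg bs (ss ω)), dg N (rr ω)))) c y) :=
    measurable_spr (fun c => measurable_pv _ c) _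
  have h3 := (h1.comp (measurable_obs hjk hkl hjl γ bs N)).const_mul (1 / 16)
  exact h3

theorem spr_bd (m : ℕ) [NeZero m] {Y : Type*} [MeasurableSpace Y] (ρ : Fin m → Measure Y) (y : Y) :
    0 ≤ spr (fun c => 1 / 16 * cen m c) (fun c => pv ρ c y) ∧
      spr (fun c => 1 / 16 * cen m c) (fun c => pv ρ c y) ≤ 1 / 8 := by
  refine ⟨spr_nonneg (fun c => pv_nonneg _ _ _), spr_le (fun c c' => ?_) (fun c => pv_nonneg _ _ _)
    (sum_pv _ _)⟩
  rw [← mul_sub, abs_mul, abs_of_pos (by norm_num : (0:ℝ) < 1 / 16)]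
  have h1 := abs_cen_lt c
  have h2 := abs_cen_lt c'
  have h3 := abs_sub (cen m c) (cen m c')
  linarith

theorem abs_ST_le (ω : Om n) : |ST μ κ hjk hkl hjl γ bs bt ω| ≤ 4 := by
  have h1 := spr_bd bs (rv (PM μ κ) (fun ω => dg bs (ss ω)) (zz hjk hkl hjl 4 4 γ)) (zz hjk hkl hjl 4 4 γ ω)
  have h2 := spr_bd bt (rv (PM μ κ) (fun ω => dg bt (tt ω)) (zz hjk hkl hjl 4 4 γ)) (zz hjk hkl hjl 4 4 γ ω)
  unfold ST
  rw [abs_mul, abs_of_nonneg h1.1, abs_of_nonneg h2.1]
  nlinarith [h1.1, h1.2, h2.1, h2.2]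

theorem abs_RR_le (ω : Om n) : |RR μ κ hjk hkl hjl γ bs b N ω| ≤ 4 := by
  have h1 : 0 ≤ spr (cen b) (fun c => pv (rv (PM μ κ) (fun ω => dg b (sb N (rr ω)))
      (fun ω => ((zz hjk hkl hjl 4 4 γ ω, dg bs (ss ω)), dg N (rr ω)))) c
      ((zz hjk hkl hjl 4 4 γ ω, dg bs (ss ω)), dg N (rr ω))) := spr_nonneg (fun c => pv_nonneg _ _ _)
  have h2 : spr (cen b) (fun c => pv (rv (PM μ κ) (fun ω => dg b (sb N (rr ω)))
      (fun ω => ((zz hjk hkl hjl 4 4 γ ω, dg bs (ss ω)), dg N (rr ω)))) c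
      ((zz hjk hkl hjl 4 4 γ ω, dg bs (ss ω)), dg N (rr ω))) ≤ 2 := by
    refine spr_le (fun c c' => ?_) (fun c => pv_nonneg _ _ _) (sum_pv _ _)
    have h1 := abs_cen_lt c
    have h2 := abs_cen_lt c'
    have h3 := abs_sub (cen b c) (cen b c')
    linarith
  unfold RR
  rw [abs_mul, abs_of_pos (by norm_num : (0:ℝ) < 1 / 16), abs_of_nonneg h1]
  linarith

end props

/-! ### (A) -/

section A

variable (μ : Measure (ModSpace n)) (κ : Measure (SLR n)) [IsProbabilityMeasure μ]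
  [IsProbabilityMeasure κ] (hjk : j ≠ k) (hkl : k ≠ l) (hjl : j ≠ l)
  (w0 bs bt b : ℕ) [NeZero bs] [NeZero bt] [NeZero b]

/-- (A), from the two near independences given `z`. -/
theorem inA (hbs : b ≤ bs) (hbt : b ≤ bt) {η1 η2 : ℝ}
    (hη1 : HH (PM μ κ) (fun ω => dg bt (tt ω)) (zz hjk hkl hjl 4 4 (-(w0:ℝ)))
      - HH (PM μ κ) (fun ω => dg bt (tt ω)) (fun ω => (zz hjk hkl hjl 4 4 (-(w0:ℝ)) ω, (ss ω, rr ω))) ≤ η1)
    (hη2 : HH (PM μ κ) (fun ω => dg bs (ss ω)) (zz hjk hkl hjl 4 4 (-(w0:ℝ)))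
      - HH (PM μ κ) (fun ω => dg bs (ss ω)) (fun ω => (zz hjk hkl hjl 4 4 (-(w0:ℝ)) ω,
        (tt ω, rp 4 4 (-(w0:ℝ)) ω))) ≤ η2) :
    ∫ ω, max 0 (1 / 64 * ST μ κ hjk hkl hjl (-(w0:ℝ)) bs bt ω
        - RR μ κ hjk hkl hjl (-(w0:ℝ)) bs b (2^(w0+4)) ω) ∂(PM μ κ)
      ≤ 1 / 32 * (√η1 + √η2) + 1 / (8 * b) := by
  have hb0 : 0 < b := NeZero.pos b
  have hb : (0:ℝ) < b := by exact_mod_cast hb0
  set N : ℕ := 2^(w0+4) with hN
  have hNr : (N:ℝ) = (2:ℝ)^(w0+4) := by rw [hN]; push_cast; rfl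
  have hNpos : (0:ℝ) < N := by rw [hNr]; positivity
  set m : ℕ := 2 * N * b with hm
  have : NeZero m := ⟨by
    rw [hm]
    exact mul_ne_zero (mul_ne_zero two_ne_zero (NeZero.ne N)) (NeZero.ne b)⟩
  set z := zz (n := n) hjk hkl hjl 4 4 (-(w0:ℝ)) with hz
  have mz : Measurable z := measurable_zz hjk hkl hjl 4 4 _
  have hpow : (2:ℝ)^(-(w0:ℝ) - 4 - 4) = (16 * (N:ℝ))⁻¹ := by
    rw [hNr, show (-(w0:ℝ) - 4 - 4) = -((w0:ℝ) + 8) by ring, Real.rpow_neg two_pos.le]
    congr 1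
    rw [show ((w0:ℝ) + 8) = ((w0 + 8 : ℕ) : ℝ) by push_cast; ring, Real.rpow_natCast]
    rw [show (16:ℝ) = 2^4 by norm_num, ← pow_add]
    congr 1
    ring
  have hpow1 : (16 * (N:ℝ))⁻¹ ≤ 1 := by
    refine inv_le_one_of_one_le₀ ?_
    have h1 : (1:ℝ) ≤ N := by
      rw [hNr]
      exact one_le_pow₀ (by norm_num)
    linarith
  have hrp : ∀ ω : Om n, rr ω = rp 4 4 (-(w0:ℝ)) ω + (16 * N : ℝ)⁻¹ * (ss ω * tt ω) := by
    intro ω
    unfold rp
    rw [hpow]
    ring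
  have key := R2r (PM μ κ) (z := z) (dS := fun ω => dg bs (ss ω)) (dT := fun ω => dg bt (tt ω))
    (d := fun ω => dg b (sb N (rr ω))) (β := fun ω => dg N (rr ω))
    (e := fun ω => dg m (rp 4 4 (-(w0:ℝ)) ω / 2)) (s := ss) (t := tt) (r := rr)
    (rp := rp 4 4 (-(w0:ℝ))) mz
    ((measurable_dg bs).comp measurable_ss) ((measurable_dg bt).comp measurable_tt)
    ((measurable_dg b).comp ((measurable_sb N).comp measurable_rr))
    ((measurable_dg N).comp measurable_rr)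
    ((measurable_dg m).comp ((measurable_rp 4 4 _).div_const 2)) hbs hbt
    (by
      filter_upwards [ae_ss μ κ] with ω hω
      have h1 : |ss ω| ≤ 1 := abs_le.2 ⟨hω.1, hω.2.le⟩
      exact ⟨h1, dg_spec h1⟩)
    (by
      filter_upwards [ae_tt μ κ] with ω hω
      have h1 : |tt ω| ≤ 1 := abs_le.2 ⟨hω.1, hω.2.le⟩
      exact ⟨h1, dg_spec h1⟩)
    (by
      filter_upwards [ae_rr μ κ] with ω hω
      have h1 : |rr ω| ≤ 1 := abs_le.2 ⟨hω.1, hω.2.le⟩
      have h2 := dg_spec (b := b) (abs_sb_le (N := N) h1)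
      have h3 : rr ω - (cen N (dg N (rr ω)) + cen b (dg b (sb N (rr ω))) / N)
          = (sb N (rr ω) - cen b (dg b (sb N (rr ω)))) / N := by
        have h4 := eq_cen_add (N := N) (rr ω)
        linear_combination h4
      rw [h3, abs_div, abs_of_pos hNpos, mul_comm (N:ℝ), ← div_div]
      exact div_le_div_of_nonneg_right h2 hNpos.le)
    (by
      filter_upwards [ae_rr μ κ, ae_ss μ κ, ae_tt μ κ] with ω h1 h2 h3
      have g1 : |rr ω| ≤ 1 := abs_le.2 ⟨h1.1, h1.2.le⟩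
      have g2 : |ss ω| ≤ 1 := abs_le.2 ⟨h2.1, h2.2.le⟩
      have g3 : |tt ω| ≤ 1 := abs_le.2 ⟨h3.1, h3.2.le⟩
      have g4 : |rp 4 4 (-(w0:ℝ)) ω / 2| ≤ 1 := by
        have g5 : |rp 4 4 (-(w0:ℝ)) ω| ≤ 2 := by
          unfold rp
          rw [hpow]
          refine (abs_sub _ _).trans ?_
          have g6 : |(16 * (N:ℝ))⁻¹ * (ss ω * tt ω)| ≤ 1 := by
            rw [abs_mul, abs_of_pos (by positivity), abs_mul]
            have g7 : |ss ω| * |tt ω| ≤ 1 := mul_le_one₀ g2 (abs_nonneg _) g3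
            exact mul_le_one₀ hpow1 (by positivity) g7
          linarith
        rw [abs_div, abs_of_pos (two_pos : (0:ℝ) < 2), div_le_one two_pos]
        exact g5
      exact dg_spec g4)
    (le_of_eq hm.symm) (Filter.Eventually.of_forall hrp) (η1 := η1) (η2 := η2)
    (by
      refine le_trans ?_ hη1
      refine sub_le_sub_left ?_ _
      exact HH_le_comp (PM μ κ) (d := fun ω => dg bt (tt ω)) (Yv := fun ω => (z ω, (ss ω, rr ω)))
        (K := fun y : ModSpace n × (ℝ × ℝ) => (y.1, ((dg N y.2.2, dg b (sb N y.2.2)), dg bs y.2.1)))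
        (measurable_fst.prodMk ((((measurable_dg N).comp (measurable_snd.comp measurable_snd)).prodMk
          ((measurable_dg b).comp ((measurable_sb N).comp (measurable_snd.comp measurable_snd)))).prodMk
          ((measurable_dg bs).comp (measurable_fst.comp measurable_snd))))
        (mz.prodMk (measurable_ss.prodMk measurable_rr)))
    (by
      refine le_trans ?_ hη2
      refine sub_le_sub_left ?_ _
      exact HH_le_comp (PM μ κ) (d := fun ω => dg bs (ss ω))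
        (Yv := fun ω => (z ω, (tt ω, rp 4 4 (-(w0:ℝ)) ω)))
        (K := fun y : ModSpace n × (ℝ × ℝ) => (y.1, (dg bt y.2.1, dg m (y.2.2 / 2))))
        (measurable_fst.prodMk (((measurable_dg bt).comp (measurable_fst.comp measurable_snd)).prodMk
          ((measurable_dg m).comp ((measurable_snd.comp measurable_snd).div_const 2))))
        (mz.prodMk (measurable_tt.prodMk (measurable_rp 4 4 _))))
  refine le_trans (le_of_eq ?_) key
  refine integral_congr_ae (Filter.Eventually.of_forall fun ω => ?_)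
  simp only
  unfold ST RR
  rw [max_comm]
  congr 1
  ring

end A

end

end Crest.Agent.R014.Nh5_849
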