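import Crest.Agent.R014.Prod2_108
import Crest.Agent.R014.NScH_395
import Crest.Agent.R014.NScG_458

/-!
Row 14, block D, section 4 (PROD), helper108: the box noises. The joint average of the posterior
spreads of two digits (roots `(i,j)` and `(k,l)`, common noise `zt O`) is the product of the two
reference functions, for most points.
-/

set_option autoImplicit false

open MeasureTheory Finset Filter Topology Crest.NumberTheoryR.Packets
open Crest.Agent.R014.Nd_837 Crest.Agent.R014.Ne1_567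
open Crest.Agent.R014.NScD_395 Crest.Agent.R014.NScE_395 Crest.Agent.R014.NScG_395
open Crest.Agent.R014.NScH_395 Crest.Agent.R014.Ms_667
open Crest.Agent.R014.NScA_395 (Met rho Dig Good)
open scoped ENNReal

noncomputable section

namespace Crest.Agent.R014.Prod_108

variable {n : ℕ}

/-- the error of one factor -/
def eI (n b : ℕ) (η w : ℝ) : ℝ :=
  8 * √(η + ew b (Nz_323.CN n) w + ew b (Nz_323.CN n) w) + 44 * (Nz_323.CN n * 2 ^ (-w))

/-- half of the error of (PROD) -/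
def eP (n b : ℕ) (η w : ℝ) : ℝ :=
  48 * √(η + ew b (Nz_323.CN n) w + ew b (Nz_323.CN n) w)
    + (32 * b + 224) * (Nz_323.CN n * 2 ^ (-w))

/-- The data of a good box noise for the root `(i,j)` at depth `r`, after the shift by `t`. -/
structure GoodZ (i j : Fin n) (r w u1 u2 : ℝ) (t : Fin n → ℝ) (O : Met n) : Prop where
  shift : r + (t i - t j) = 0
  clean : NScA_395.Clean i j r w O
  lo : ∀ p q, 3 * u1 + w ≤ (O + NScA_395.sh t) p q
  hi : ∀ p q, (O + NScA_395.sh t) p q + w ≤ u2 / 20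

section Zt

variable {μ : Measure (ModSpace n)} [IsProbabilityMeasure μ] (hμ : AInv μ)
  {i j : Fin n} (hij : i ≠ j) {r w u1 u2 η : ℝ} {t : Fin n → ℝ} {O : Met n} {b : ℕ}

theorem GoodZ.clean0 (h : GoodZ i j r w u1 u2 t O) :
    NScA_395.Clean i j 0 w (O + NScA_395.sh t) := by
  have := (NScA_395.clean_sh (i := i) (j := j) (r := r) (w := w) (R := O) (t := t)).2 h.clean
  rwa [h.shift] at this

theorem GoodZ.adm' (h : GoodZ i j r w u1 u2 t O) (hw : 1 ≤ w) (hc : 20 * c1N n ≤ u1)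
    (hu : 0 ≤ u1) : Nz_323.Adm (O + NScA_395.sh t) :=
  (noiseFam n).adm_of _ fun p q => by
    have := h.lo p q
    rcases le_total 0 (c1N n) with h0 | h0 <;> linarith

theorem GoodZ.adm (h : GoodZ i j r w u1 u2 t O) (hw : 1 ≤ w) (hc : 20 * c1N n ≤ u1)
    (hu : 0 ≤ u1) : Nz_323.Adm O :=
  (Nz_323.adm_sh (t := t)).1 (h.adm' hw hc hu)

theorem GoodZ.neg (h : GoodZ i j r w u1 u2 t O) (hu : 0 ≤ u1) :
    NScA_395.Neg w (O + NScA_395.sh t) (u1 • rho i j) :=
  NScA_395.neg_of_bounds (a := 3 * u1 + w) (b := 3 * u1) h.lo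
    (fun p q => le_trans (by positivity) (NScA_395.smul_ge hu i j p q))
    (NScA_395.smul_le hu i j) le_rfl

include hμ in
/-- **(IND)** for the box noises. -/
theorem ind_zt [NeZero b] (hw : 1 ≤ w) (hwu : w ≤ u1 / 20) (hc : 20 * c1N n ≤ u1)
    (hη : fdig zt μ b i j 0 (u1 • rho i j) - fdig zt μ b i j 0 (u2 • rho i j) ≤ η)
    (he : 2 * Nz_323.CN n * (2:ℝ) ^ (-w) ≤ 1) (h : GoodZ i j r w u1 u2 t O) :
    ∫ p, |ps (lab μ (zt O) hij r b) (ob hij r p)
        - rf μ (zt (u1 • rho i j)) hij 0 b (act p.1 (aT t), p.2.2)| ∂(μ.prod ((zt O).prod uni))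
      ≤ eI n b η w := by
  have hb : 0 < b := Nat.pos_of_ne_zero (NeZero.ne b)
  have hu1 : 0 ≤ u1 := by linarith
  have hadm := h.adm hw hc hu1
  have hadm' := h.adm' hw hc hu1
  have hadm1 := adm_rho (n := n) hc hu1 i j
  have := isProb_zt hadm
  have := isProb_zt hadm'
  have := isProb_zt hadm1
  have hcj : cj (aT t) (zt O) = zt (O + NScA_395.sh t) := (noiseFam n).cj_zt O t hadm
  have hcl1 : NScA_395.Clean i j 0 w (u1 • rho i j) := (NScA_395.clean_rho hij hu1).mono hwu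
  have hk := (noiseFam n).key hij (by linarith) hadm1 hadm' hcl1 (h.neg hu1) b
  have hgood : Good i j w u1 u2 (O + NScA_395.sh t) := by
    refine ⟨h.clean0, 0, rfl, fun p q => ?_⟩
    have h0 : (O + NScA_395.sh t + NScA_395.sh (0 : Fin n → ℝ)) p q = (O + NScA_395.sh t) p q := by
      simp [NScA_395.sh]
    rw [h0]
    exact ⟨h.lo p q, h.hi p q⟩
  have hH := ((noiseFam n).good hμ hb hij hw hwu hc hη hgood).2
  have hpin := pinsker_lab μ (zt (O + NScA_395.sh t)) (zt (u1 • rho i j)) hij 0 hb hk he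
  have hew : md b (2 * Nz_323.CN n * (2:ℝ) ^ (-w)) = ew b (Nz_323.CN n) w := by
    unfold ew
    rw [min_eq_right he]
  rw [hew] at hpin
  have h1 : ∫ p, ∑ d, |Ne3_567.pv (lab μ (cj (aT t) (zt O)) hij 0 b) d p.1
        - Ne3_567.pv (lab μ (zt (u1 • rho i j)) hij 0 b) d (act p.1 p.2)|
      ∂((tot (lab μ (cj (aT t) (zt O)) hij 0 b)).prod (zt (u1 • rho i j)))
      ≤ 2 * √(η + ew b (Nz_323.CN n) w + ew b (Nz_323.CN n) w)
        + 4 * (2 * Nz_323.CN n * (2:ℝ) ^ (-w)) := by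
    rw [hcj]
    refine hpin.trans (add_le_add ?_ le_rfl)
    have h2 : √(4 * (Hc (lab μ (zt (u1 • rho i j)) hij 0 b) + ew b (Nz_323.CN n) w
        - Hc (lab μ (zt (O + NScA_395.sh t)) hij 0 b)))
        ≤ √(4 * (η + ew b (Nz_323.CN n) w + ew b (Nz_323.CN n) w)) :=
      Real.sqrt_le_sqrt (by linarith)
    refine h2.trans (le_of_eq ?_)
    rw [Real.sqrt_mul (by norm_num)]
    congr 1
    rw [show (4:ℝ) = 2 ^ 2 by norm_num, Real.sqrt_sq (by norm_num)]
  have h3 : ∀ᵐ q ∂((cj (aT t) (zt O)).prod uni), TVle ((zt (u1 • rho i j)).map fun g =>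
      (uu hij ((2 : ℝ) ^ (-(0:ℝ)) * q.2))⁻¹ * q.1 * uu hij ((2 : ℝ) ^ (-(0:ℝ)) * q.2) * g)
        (zt (u1 • rho i j)) (3 * (Nz_323.CN n * 2 ^ (-w))) := by
    rw [hcj]
    have a1 : ∀ᵐ q ∂((zt (O + NScA_395.sh t)).prod uni), q.1 ∈ bxG (O + NScA_395.sh t) :=
      Measure.quasiMeasurePreserving_fst.ae (zt_ae hadm')
    have a2 : ∀ᵐ q ∂((zt (O + NScA_395.sh t)).prod uni), |q.2| ≤ 1 :=
      Measure.quasiMeasurePreserving_snd.ae uni_ae
    filter_upwards [a1, a2] with q hq1 hq2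
    have c1 := L1G_left (w := w) (by linarith) hadm1 (neg_iff.2 (h.neg hu1)) hq1
    have c2 := L2G (r := 0) (w := w) hij hadm1 hcl1 (s := (2 : ℝ) ^ (-(0:ℝ)) * q.2) (by
      rw [abs_mul, abs_of_pos (Real.rpow_pos_of_pos two_pos _)]
      exact mul_le_of_le_one_right (Real.rpow_nonneg two_pos.le _) hq2)
    exact (conj_absorb c1 c2).mono (le_of_eq (by ring))
  have h4 := ind_shift hμ hij t r (κR := zt O) (κ1 := zt (u1 • rho i j)) h.shift h1 h3
  refine h4.trans (le_of_eq ?_)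
  unfold eI
  ring

include hμ in
/-- (3.1) at depth `r` for the box noises. -/
theorem acv_zt [NeZero b] (hw : 1 ≤ w) (hwu : w ≤ u1 / 20) (hc : 20 * c1N n ≤ u1)
    (hη : fdig zt μ b i j 0 (u1 • rho i j) - fdig zt μ b i j 0 (u2 • rho i j) ≤ η)
    (he : 2 * Nz_323.CN n * (2:ℝ) ^ (-w) ≤ 1) (h : GoodZ i j r w u1 u2 t O) :
    ∫ x, |Acv μ (zt O) hij r b x - PZ μ u1 b i j (act x (aT t))| ∂μ ≤
      8 * √(η + ew b (Nz_323.CN n) w + ew b (Nz_323.CN n) w)
        + (8 * b + 12) * (2 * Nz_323.CN n * (2:ℝ) ^ (-w)) := by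
  have hu1 : 0 ≤ u1 := by linarith
  have hadm := h.adm hw hc hu1
  have hadm1 := adm_rho (n := n) hc hu1 i j
  have := isProb_zt hadm
  have := isProb_zt hadm1
  have hcj : cj (aT t) (zt O) = zt (O + NScA_395.sh t) := (noiseFam n).cj_zt O t hadm
  have h1 := (noiseFam n).acv hμ hij hw hwu hc hη he h.clean0 h.lo h.hi
  rw [← hcj] at h1
  have h2 := kern_shift hμ hij t h.shift h1
  rw [PZ_eq hij]
  exact h2

end Zt

section Main

variable {μ : Measure (ModSpace n)} [IsProbabilityMeasure μ] (hμ : AInv μ)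
  {i j k l : Fin n} (hij : i ≠ j) (hkl : k ≠ l) {r r' w u1 u2 η : ℝ} {t t' : Fin n → ℝ}
  {O : Met n} {b b' : ℕ}

include hμ in
/-- **(PROD)**. For a box noise `zt O` that is good for the roots `(i,j)` (depth `r`, digits to
base `b`) and `(k,l)` (depth `r'`, digits to base `b'`), the average over the common noise and the
two windows of the product of the two posterior spreads is the product of the two reference
functions, for most points. -/
theorem prod_zt [NeZero b] [NeZero b'] (hw : 1 ≤ w) (hwu : w ≤ u1 / 20) (hc : 20 * c1N n ≤ u1)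
    (hη : fdig zt μ b i j 0 (u1 • rho i j) - fdig zt μ b i j 0 (u2 • rho i j) ≤ η)
    (hη' : fdig zt μ b' k l 0 (u1 • rho k l) - fdig zt μ b' k l 0 (u2 • rho k l) ≤ η)
    (he : 2 * Nz_323.CN n * (2:ℝ) ^ (-w) ≤ 1) (h : GoodZ i j r w u1 u2 t O)
    (h' : GoodZ k l r' w u1 u2 t' O) :
    ∫ x, |J2 (zt O) hij hkl r r' (lab μ (zt O) hij r b) (lab μ (zt O) hkl r' b') x
        - PZ μ u1 b i j (act x (aT t)) * PZ μ u1 b' k l (act x (aT t'))| ∂μ
      ≤ eP n b η w + eP n b' η w := by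
  have hu1 : 0 ≤ u1 := by linarith
  have hadm := h.adm hw hc hu1
  have := isProb_zt hadm
  have h1ij := isProb_zt (adm_rho (n := n) hc hu1 i j)
  have h1kl := isProb_zt (adm_rho (n := n) hc hu1 k l)
  have mA : Measurable fun q : ModSpace n × ℝ =>
      rf μ (zt (u1 • rho i j)) hij 0 b (act q.1 (aT t), q.2) :=
    (measurable_rf μ _ hij 0).comp (((measurable_act _).comp measurable_fst).prodMk measurable_snd)
  have mB : Measurable fun q : ModSpace n × ℝ =>
      rf μ (zt (u1 • rho k l)) hkl 0 b' (act q.1 (aT t'), q.2) :=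
    (measurable_rf μ _ hkl 0).comp (((measurable_act _).comp measurable_fst).prodMk measurable_snd)
  have hgen := prod_gen hij hkl r r' (lab μ (zt O) hij r b) (lab μ (zt O) hkl r' b') mA mB
    (fun q => by
      rw [abs_of_nonneg (rf_nonneg _ _ _ _ _)]; exact rf_le _ _ _ _ _)
    (fun q => by
      rw [abs_of_nonneg (rf_nonneg _ _ _ _ _)]; exact rf_le _ _ _ _ _)
    (ind_zt hμ hij hw hwu hc hη he h) (ind_zt hμ hkl hw hwu hc hη' he h')
  have e1 := acv_zt hμ hij hw hwu hc hη he h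
  have e2 := acv_zt hμ hkl hw hwu hc hη' he h'
  have bd : ∀ {F : ModSpace n → ℝ}, (∀ x, 0 ≤ F x) → (∀ x, F x ≤ 2) → ∀ x, |F x| ≤ 2 :=
    fun h0 h2 x => by rw [abs_of_nonneg (h0 x)]; exact h2 x
  have hfin := prod_replace (μ := μ)
    (J := J2 (zt O) hij hkl r r' (lab μ (zt O) hij r b) (lab μ (zt O) hkl r' b'))
    (F := Acv μ (zt O) hij r b) (G := Acv μ (zt O) hkl r' b')
    (F' := fun x => PZ μ u1 b i j (act x (aT t))) (G' := fun x => PZ μ u1 b' k l (act x (aT t')))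
    (measurable_J2 _ _ _ _ _ _ _)
    (fun x => by rw [abs_of_nonneg (J2_nonneg _ _ _ _ _ _ _ x)]; exact J2_le _ _ _ _ _ _ _ x)
    (measurable_Acv hij _ _) (measurable_Acv hkl _ _)
    ((measurable_PZ hc hu1 b i j).comp (measurable_act _))
    ((measurable_PZ hc hu1 b' k l).comp (measurable_act _))
    (bd (fun x => Av_nonneg _ _ x) (fun x => Av_le _ _ x))
    (bd (fun x => Av_nonneg _ _ x) (fun x => Av_le _ _ x))
    (bd (fun x => PZ_nonneg hc hu1 b i j _) (fun x => PZ_le hc hu1 b i j _))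
    (bd (fun x => PZ_nonneg hc hu1 b' k l _) (fun x => PZ_le hc hu1 b' k l _))
    hgen e1 e2
  refine hfin.trans (le_of_eq ?_)
  unfold eP eI
  ring

end Main

/-! ### the joint average as one integral -/

section J2

variable (κ : Measure (SLR n)) [IsProbabilityMeasure κ] {i j k l : Fin n} (hij : i ≠ j)
  (hkl : k ≠ l) (r r' : ℝ) {b b' : ℕ} [NeZero b] [NeZero b'] (ρ : Fin b → Measure (ModSpace n))
  (ρ' : Fin b' → Measure (ModSpace n))

/-- the integrand of `J2` as a function of `(x, ζ, s, t)` -/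
theorem measurable_pair : Measurable fun p : ModSpace n × SLR n × ℝ × ℝ =>
    ps ρ (ob hij r (p.1, p.2.1, p.2.2.1)) * ps ρ' (ob hkl r' (p.1, p.2.1, p.2.2.2)) := by
  have m1 : Measurable fun p : ModSpace n × SLR n × ℝ × ℝ => (p.1, p.2.1, p.2.2.1) := by fun_prop
  have m2 : Measurable fun p : ModSpace n × SLR n × ℝ × ℝ => (p.1, p.2.1, p.2.2.2) := by fun_prop
  exact ((measurable_ps ρ).comp ((measurable_ob hij r).comp m1)).mul
    ((measurable_ps ρ').comp ((measurable_ob hkl r').comp m2))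

theorem pair_le (p : ModSpace n × SLR n × ℝ × ℝ) :
    |ps ρ (ob hij r (p.1, p.2.1, p.2.2.1)) * ps ρ' (ob hkl r' (p.1, p.2.1, p.2.2.2))| ≤ 4 := by
  rw [abs_mul]
  have := mul_le_mul (abs_ps_le ρ (ob hij r (p.1, p.2.1, p.2.2.1)))
    (abs_ps_le ρ' (ob hkl r' (p.1, p.2.1, p.2.2.2))) (abs_nonneg _) (by norm_num)
  linarith

/-- `J2` is the average over `(ζ, s, t) ~ κ ⊗ uni ⊗ uni` of the product of the two spreads. -/
theorem J2_eq (x : ModSpace n) : J2 κ hij hkl r r' ρ ρ' x =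
    ∫ q : SLR n × ℝ × ℝ, ps ρ (ob hij r (x, q.1, q.2.1)) * ps ρ' (ob hkl r' (x, q.1, q.2.2))
      ∂(κ.prod (uni.prod uni)) := by
  have m1 : Measurable fun q : SLR n × ℝ × ℝ => (x, q.1, q.2.1) := by fun_prop
  have m2 : Measurable fun q : SLR n × ℝ × ℝ => (x, q.1, q.2.2) := by fun_prop
  have hm : Measurable fun q : SLR n × ℝ × ℝ =>
      ps ρ (ob hij r (x, q.1, q.2.1)) * ps ρ' (ob hkl r' (x, q.1, q.2.2)) :=
    ((measurable_ps ρ).comp ((measurable_ob hij r).comp m1)).mul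
      ((measurable_ps ρ').comp ((measurable_ob hkl r').comp m2))
  have hi : Integrable (fun q : SLR n × ℝ × ℝ =>
      ps ρ (ob hij r (x, q.1, q.2.1)) * ps ρ' (ob hkl r' (x, q.1, q.2.2)))
      (κ.prod (uni.prod uni)) :=
    bdd_integrable hm (M := 4) fun q => pair_le hij hkl r r' ρ ρ' (x, q)
  rw [integral_prod _ hi]
  unfold J2
  refine integral_congr_ae (Filter.Eventually.of_forall fun z => ?_)
  exact (integral_prod_mul (μ := uni) (ν := uni) (fun s => ps ρ (ob hij r (x, z, s)))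
    (fun s => ps ρ' (ob hkl r' (x, z, s)))).symm

/-- the average of `J2` over a set -/
theorem integral_J2 (μ : Measure (ModSpace n)) [IsFiniteMeasure μ] :
    ∫ x, J2 κ hij hkl r r' ρ ρ' x ∂μ =
    ∫ p : ModSpace n × SLR n × ℝ × ℝ,
      ps ρ (ob hij r (p.1, p.2.1, p.2.2.1)) * ps ρ' (ob hkl r' (p.1, p.2.1, p.2.2.2))
      ∂(μ.prod (κ.prod (uni.prod uni))) := by
  rw [integral_prod _ (bdd_integrable (measurable_pair hij hkl r r' ρ ρ') (M := 4)
    (pair_le hij hkl r r' ρ ρ'))]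
  exact integral_congr_ae (Filter.Eventually.of_forall fun x => J2_eq κ hij hkl r r' ρ ρ' x)

end J2

/-! ### the Heisenberg metric, and the limit form -/

section Limit

open Crest.Agent.R014.NScG_458 (RN)

/-- the shift that brings depth `r` of a root `(i, ·)` to depth `0` -/
def tI (i : Fin n) (r : ℝ) : Fin n → ℝ := Pi.single i (-r)

theorem tI_apply (i : Fin n) (r : ℝ) (p : Fin n) : tI i r p = if p = i then -r else 0 := by
  unfold tI
  rw [Pi.single_apply]

theorem act_tI (i : Fin n) (q : ℤ) (x : ModSpace n) :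
    act x (aT (tI i (q : ℝ))) = DSkel_792.tz (Pi.single i q) x := by
  unfold DSkel_792.tz
  congr 2
  funext p
  rw [tI_apply, Pi.single_apply]
  split_ifs <;> simp

theorem goodZ_RN {j k l : Fin n} (hjk : j ≠ k) (hkl : k ≠ l) (hjl : j ≠ l) {M r w W u1 u2 : ℝ}
    (hu1 : 0 ≤ u1) (hw : w ≤ u1) (hw0 : 0 ≤ w) (hM : 100 * (u1 + W) ≤ M) (hr : |r| ≤ W)
    (hu2 : 2 * M ≤ u2 / 20) {i i' : Fin n}
    (hi : (i = j ∧ i' = k) ∨ (i = k ∧ i' = l) ∨ (i = j ∧ i' = l)) :
    GoodZ i i' r w u1 u2 (tI i r) (RN j k l M) := by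
  have hW0 : 0 ≤ W := (abs_nonneg r).trans hr
  have hM0 : 0 ≤ M := by linarith
  have hii : i ≠ i' := by
    rcases hi with ⟨rfl, rfl⟩ | ⟨rfl, rfl⟩ | ⟨rfl, rfl⟩ <;> assumption
  have ht : ∀ p, |tI i r p| ≤ W := fun p => by
    rw [tI_apply]
    split_ifs
    · rw [abs_neg]; exact hr
    · rw [abs_zero]; exact hW0
  have hb := fun p q => NScG_458.range_sh (j := j) (k := k) (l := l) (M := M) (T := W) (u1 := u1)
    (u2 := u2) (w := w) hM0 ht (by linarith) (by linarith) p q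
  refine ⟨?_, NScG_458.clean_roots hjk hkl hjl hM0 hw0 (by linarith) hi,
    fun p q => (hb p q).1, fun p q => (hb p q).2⟩
  rw [tI_apply, tI_apply, if_pos rfl, if_neg hii.symm]
  ring

/-- the error tends to `0` -/
theorem eP_small (n b : ℕ) {e : ℝ} (he : 0 < e) :
    ∃ η w0 : ℝ, 0 < η ∧ 1 ≤ w0 ∧ ∀ η' w : ℝ, η' ≤ η → w0 ≤ w →
      2 * Nz_323.CN n * (2:ℝ) ^ (-w) ≤ 1 ∧ eP n b η' w ≤ e := by
  have hC0 : 0 ≤ Nz_323.CN n := (noiseFam n).C0
  set η : ℝ := (e / 200) ^ 2 / 3 with hη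
  have hη0 : 0 < η := by positivity
  have t1 := (tendsto_ew b (Nz_323.CN n)).eventually (eventually_lt_nhds hη0)
  have t2 := (tendsto_pow (Nz_323.CN n)).eventually
    (eventually_lt_nhds (show (0:ℝ) < min 1 (e / (32 * b + 224)) by
      refine lt_min one_pos (div_pos he (by positivity))))
  obtain ⟨w0, hw0⟩ := eventually_atTop.1 (t1.and t2)
  refine ⟨η, max w0 1, hη0, le_max_right _ _, fun η' w h1 h2 => ?_⟩
  obtain ⟨h3, h4⟩ := hw0 w ((le_max_left _ _).trans h2)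
  have h5 := h4.le.trans (min_le_left _ _)
  have h6 := h4.le.trans (min_le_right _ _)
  refine ⟨h5, ?_⟩
  unfold eP
  have h7 : √(η' + ew b (Nz_323.CN n) w + ew b (Nz_323.CN n) w) ≤ e / 200 := by
    refine Real.sqrt_le_iff.2 ⟨by positivity, ?_⟩
    have : 3 * η = (e / 200) ^ 2 := by rw [hη]; ring
    linarith
  have h8 : (32 * (b:ℝ) + 224) * (Nz_323.CN n * 2 ^ (-w)) ≤ e / 2 := by
    rw [le_div_iff₀ (by positivity)] at h6
    linarith
  linarith

/-- **(PROD)**, limit form: for every error there are `η` and `U` such that for all scales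
`U ≤ u1`, `100 (u1 + W) ≤ M`, `2 M ≤ u2 / 20` with near constant digit entropies, (PROD) holds
for the Heisenberg noise `zt (RN j k l M)` and the roots `(j,k)`, `(k,l)` at all depths in
`[-W, W]`. -/
theorem prod_RN {b b' : ℕ} (hb : 0 < b) (hb' : 0 < b') {e : ℝ} (he : 0 < e) :
    ∃ η U : ℝ, 0 < η ∧ 0 < U ∧ ∀ μ : Measure (ModSpace n), IsProbabilityMeasure μ → AInv μ →
      ∀ u1 u2 M W : ℝ, U ≤ u1 → 100 * (u1 + W) ≤ M → 2 * M ≤ u2 / 20 →
      NC μ u1 u2 {b, b'} η → ∀ (j k l : Fin n) (hjk : j ≠ k) (hkl : k ≠ l), j ≠ l →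
      ∀ r r' : ℝ, |r| ≤ W → |r'| ≤ W →
      ∫ x, |J2 (zt (RN j k l M)) hjk hkl r r' (lab μ (zt (RN j k l M)) hjk r b)
          (lab μ (zt (RN j k l M)) hkl r' b') x
        - PZ μ u1 b j k (act x (aT (tI j r))) * PZ μ u1 b' k l (act x (aT (tI k r')))| ∂μ ≤ e := by
  have hne : NeZero b := ⟨hb.ne'⟩
  have hne' : NeZero b' := ⟨hb'.ne'⟩
  obtain ⟨η1, w1, hη1, hw1, h1⟩ := eP_small n b (half_pos he)
  obtain ⟨η2, w2, hη2, hw2, h2⟩ := eP_small n b' (half_pos he)
  refine ⟨min η1 η2, max (20 * max w1 w2) (20 * c1N n), lt_min hη1 hη2, ?_, ?_⟩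
  · refine lt_of_lt_of_le ?_ (le_max_left _ _)
    have := le_max_left w1 w2
    linarith
  intro μ hμp hμ u1 u2 M W hU hM hu2 hnc j k l hjk hkl hjl r r' hr hr'
  have hU1 : 20 * max w1 w2 ≤ u1 := (le_max_left _ _).trans hU
  have hc : 20 * c1N n ≤ u1 := (le_max_right _ _).trans hU
  set w : ℝ := u1 / 20 with hw
  have hwm : max w1 w2 ≤ w := by rw [hw]; linarith
  have hw1' : w1 ≤ w := (le_max_left _ _).trans hwm
  have hw2' : w2 ≤ w := (le_max_right _ _).trans hwm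
  have hw_1 : 1 ≤ w := hw1.trans hw1'
  have hu1 : 0 ≤ u1 := by linarith
  obtain ⟨hsm, hE1⟩ := h1 (min η1 η2) w (min_le_left _ _) hw1'
  obtain ⟨-, hE2⟩ := h2 (min η1 η2) w (min_le_right _ _) hw2'
  have g1 := goodZ_RN hjk hkl hjl (M := M) (r := r) (w := w) (W := W) (u1 := u1) (u2 := u2) hu1
    (by linarith) (by linarith) hM hr hu2 (Or.inl ⟨rfl, rfl⟩)
  have g2 := goodZ_RN hjk hkl hjl (M := M) (r := r') (w := w) (W := W) (u1 := u1) (u2 := u2) hu1
    (by linarith) (by linarith) hM hr' hu2 (Or.inr (Or.inl ⟨rfl, rfl⟩))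
  have hmain := prod_zt hμ hjk hkl (b := b) (b' := b') hw_1 le_rfl hc
    (hnc j k hjk b (by simp) hb) (hnc k l hkl b' (by simp) hb') hsm g1 g2
  linarith

end Limit

end Crest.Agent.R014.Prod_108
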