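import Crest.Agent.R014.HR3c_792
import Crest.Agent.R014.Nh5_849
import Crest.Agent.R014.Prod3_108

/-!
Row 14, block D (noise formalism), section 4, (C) = (R3r) on the space of `HSp_599` (helper792).
-/

set_option autoImplicit false
set_option linter.unusedSectionVars false

open MeasureTheory Finset ProbabilityTheory Crest.NumberTheoryR.Packets
open scoped ENNReal
open Crest.Agent.R014.Nd_837
open Crest.Agent.R014.Ne1_567 Crest.Agent.R014.Ne3_567 Crest.Agent.R014.Ne4_567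
open Crest.Agent.R014.Ms_667 Crest.Agent.R014.NScC_395 Crest.Agent.R014.NScD_395
open Crest.Agent.R014.Nh2_849 Crest.Agent.R014.HSp_599 Crest.Agent.R014.Nh5_849

noncomputable section

namespace Crest.Agent.R014.HR3_792

/-! ### labels -/

section Label

variable {Ω ι κ Y : Type*} [Fintype ι] [Fintype κ] [MeasurableSpace Ω] [MeasurableSpace Y]
  [MeasurableSpace ι] [MeasurableSingletonClass ι] [MeasurableSpace κ] [MeasurableSingletonClass κ]

theorem HH_label_ae (P : Measure Ω) {d d' : Ω → ι} {Yv : Ω → Y} (h : d =ᵐ[P] d') :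
    HH P d Yv = HH P d' Yv := by
  unfold HH
  congr 1
  funext c
  unfold rv
  have h1 : (d ⁻¹' {c} : Set Ω) =ᵐ[P] (d' ⁻¹' {c} : Set Ω) := by
    filter_upwards [h] with ω hω
    apply propext
    show d ω ∈ ({c} : Set ι) ↔ d' ω ∈ ({c} : Set ι)
    rw [hω]
  rw [Measure.restrict_congr_set h1]

theorem HH_label_equiv (P : Measure Ω) [IsFiniteMeasure P] {d : Ω → ι} {Yv : Ω → Y}
    (hd : Measurable d) (hY : Measurable Yv) (e : ι ≃ κ) :
    HH P (fun ω => e (d ω)) Yv = HH P d Yv := by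
  refine le_antisymm (HH_label_le P (g := e) hd hY) ?_
  have he : Measurable fun ω => e (d ω) := (measurable_of_countable e).comp hd
  have h := HH_label_le P (d := fun ω => e (d ω)) (g := e.symm) he hY
  simpa using h

end Label

variable {n : ℕ} {j k l : Fin n}

section Main

variable (μ : Measure (ModSpace n)) (κ : Measure (SLR n)) [IsProbabilityMeasure μ]
  [IsProbabilityMeasure κ] (hjk : j ≠ k) (hkl : k ≠ l) (hjl : j ≠ l)

theorem HH_cells (N b : ℕ) [NeZero N] [NeZero b] [NeZero (N * b)] {Y : Type*} [MeasurableSpace Y]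
    {Yv : HSp_599.Om n → Y} (hY : Measurable Yv) :
    HH (HSp_599.PM μ κ) (fun ω => dg (N * b) (rr ω)) Yv
      = HH (HSp_599.PM μ κ) (fun ω => (dg b (HSp_599.sb N (rr ω)), dg N (rr ω))) Yv := by
  have h1 : (fun ω : HSp_599.Om n => dg (N * b) (rr ω)) =ᵐ[HSp_599.PM μ κ]
      fun ω => finProdFinEquiv (dg N (rr ω), dg b (HSp_599.sb N (rr ω))) := by
    filter_upwards [ae_rr μ κ] with ω hω
    exact dg_mul hω.1 hω.2
  have hm : Measurable fun ω : HSp_599.Om n => (dg b (HSp_599.sb N (rr ω)), dg N (rr ω)) :=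
    ((measurable_dg b).comp ((HSp_599.measurable_sb N).comp measurable_rr)).prodMk
      ((measurable_dg N).comp measurable_rr)
  rw [HH_label_ae _ h1]
  exact HH_label_equiv (HSp_599.PM μ κ) hm hY ((Equiv.prodComm _ _).trans finProdFinEquiv)

/-- mean over the noise of the spread of the posterior of the fine digit -/
theorem avg_yf (r0 : ℝ) (b : ℕ) [NeZero b] (N : ℕ) [NeZero N] (x : ModSpace n) :
    ∫ q, ps (lab μ κ hjl r0 b) (yf hjl r0 (HSp_599.sb N) (x, q))
      ∂(κ.prod (uni.prod (uni.prod uni))) = Acv μ κ hjl r0 b x := by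
  have hm1 : Measurable fun q : SLR n × (ℝ × (ℝ × ℝ)) => (q.1, HSp_599.sb N q.2.2.2) :=
    measurable_fst.prodMk ((HSp_599.measurable_sb N).comp (by fun_prop))
  have h1 : (κ.prod (uni.prod (uni.prod uni))).map
      (fun q : SLR n × (ℝ × (ℝ × ℝ)) => (q.1, HSp_599.sb N q.2.2.2)) = κ.prod uni := by
    have h2 : MeasurePreserving (HSp_599.sb N) uni uni := by
      refine ⟨HSp_599.measurable_sb N, ?_⟩
      have h3 := congrArg (Measure.map Prod.snd) (law_dg_sb N)
      rw [Measure.map_map measurable_snd ((measurable_dg N).prodMk (HSp_599.measurable_sb N)),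
        Measure.map_snd_prod, measure_univ, one_smul] at h3
      exact h3
    have h4 : MeasurePreserving (fun q : ℝ × (ℝ × ℝ) => HSp_599.sb N q.2.2)
        (uni.prod (uni.prod uni)) uni :=
      h2.comp (measurePreserving_snd.comp measurePreserving_snd)
    exact ((MeasurePreserving.id κ).prod h4).map_eq
  have hm2 : Measurable fun p : SLR n × ℝ => p.1 * uu hjl ((2 : ℝ) ^ (-r0) * p.2) :=
    meas_mul measurable_fst (meas_uu hjl r0 measurable_snd)
  have h5 : cv κ (dl hjl r0) = (κ.prod (uni.prod (uni.prod uni))).map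
      (fun q => q.1 * uu hjl ((2 : ℝ) ^ (-r0) * HSp_599.sb N q.2.2.2)) := by
    have e1 : cv κ (dl hjl r0) = (κ.prod uni).map
        fun p : SLR n × ℝ => p.1 * uu hjl ((2 : ℝ) ^ (-r0) * p.2) := by
      unfold cv dl
      have h := Measure.map_prod_map κ uni measurable_id (measurable_uuw hjl r0)
      rw [Measure.map_id] at h
      rw [h, Measure.map_map measurable_mul₂ (measurable_id.prodMap (measurable_uuw hjl r0))]
      rfl
    rw [e1, ← h1, Measure.map_map hm2 hm1]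
    rfl
  unfold Acv Av
  rw [h5, integral_map]
  · rfl
  · exact (hm2.comp hm1).aemeasurable
  · have hps : Measurable (ps (lab μ κ hjl r0 b)) := measurable_ps _
    exact (hps.comp (meas_act measurable_const measurable_id)).aestronglyMeasurable

/-- **(C)**, entropy form. -/
theorem r3r (w0 bs b : ℕ) [NeZero bs] [NeZero b] [NeZero (2 ^ (w0 + 4) * b)] {gR : ℝ}
    (hg : HH (HSp_599.PM μ κ) (fun ω => dg (2 ^ (w0 + 4) * b) (rr ω))
        (fun ω => (zz hjk hkl hjl 4 4 (-(w0 : ℝ)) ω, dg bs (ss ω)))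
      - HH (HSp_599.PM μ κ) (fun ω => dg (2 ^ (w0 + 4) * b) (rr ω))
        (fun ω => (zz hjk hkl hjl 4 4 (-(w0 : ℝ)) ω, (tt ω, ss ω))) ≤ gR) :
    ∫ x, |(∫ q, RR μ κ hjk hkl hjl (-(w0 : ℝ)) bs b (2 ^ (w0 + 4)) (x, q)
        ∂(κ.prod (uni.prod (uni.prod uni)))) - 1 / 2 ^ 4 * Acv μ κ hjl 4 b x| ∂μ
      ≤ 1 / 2 ^ 4 * (8 * √gR) := by
  set ν := κ.prod (uni.prod (uni.prod uni)) with hν
  set N : ℕ := 2 ^ (w0 + 4) with hNdef
  have hN : 0 < N := by positivity
  have h0 : (2 : ℝ) ^ (-(-(w0 : ℝ))) = N * (2 : ℝ) ^ (-(4 : ℝ)) := by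
    rw [neg_neg, hNdef]
    push_cast
    rw [Real.rpow_natCast, Real.rpow_neg (by norm_num)]
    rw [show ((4 : ℝ)) = ((4 : ℕ) : ℝ) by norm_num, Real.rpow_natCast, pow_add]
    field_simp
  set F : HSp_599.Om n → ℝ := fun ω => spr (cen b) (fun c => pv (rv (HSp_599.PM μ κ)
      (fun ω => dg b (HSp_599.sb N (rr ω)))
      (fun ω => ((zz hjk hkl hjl 4 4 (-(w0 : ℝ)) ω, dg bs (ss ω)), dg N (rr ω)))) c
      ((zz hjk hkl hjl 4 4 (-(w0 : ℝ)) ω, dg bs (ss ω)), dg N (rr ω))) with hF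
  set G : HSp_599.Om n → ℝ := fun ω => ps (lab μ κ hjl 4 b) (yf hjl 4 (HSp_599.sb N) ω) with hG
  have hFm : Measurable F := by
    have h1 : Measurable fun y => spr (cen b) (fun c => pv (rv (HSp_599.PM μ κ)
        (fun ω => dg b (HSp_599.sb N (rr ω)))
        (fun ω => ((zz hjk hkl hjl 4 4 (-(w0 : ℝ)) ω, dg bs (ss ω)), dg N (rr ω)))) c y) :=
      measurable_spr (fun c => measurable_pv _ c) _
    exact h1.comp (measurable_obs hjk hkl hjl (-(w0 : ℝ)) bs N)
  have hGm : Measurable G := (measurable_ps _).comp (measurable_yf hjl 4 (HSp_599.measurable_sb N))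
  have hF0 : ∀ ω, 0 ≤ F ω ∧ F ω ≤ 2 := fun ω =>
    ⟨spr_nonneg fun c => pv_nonneg _ _ _, spr_le cen_dist (fun c => pv_nonneg _ _ _) (sum_pv _ _)⟩
  have hG0 : ∀ ω, 0 ≤ G ω ∧ G ω ≤ 2 := fun ω => ⟨ps_nonneg _ _, ps_le _ _⟩
  have hFGb : ∀ ω, |F ω - G ω| ≤ 2 := by
    intro ω
    rw [abs_le]
    constructor <;> linarith [(hF0 ω).1, (hF0 ω).2, (hG0 ω).1, (hG0 ω).2]
  -- the posteriors
  have hpv := pv_r μ κ hjk hkl hjl (4 : ℝ) (4 : ℝ) (c := -(w0 : ℝ)) (r0 := 4) hN h0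
    (measurable_dg N) (measurable_dg b) (HSp_599.measurable_sb N) (law_dg_sb N) eq_cen_add
    (g := fun p : ℝ × ℝ => dg bs p.2) ((measurable_dg bs).comp measurable_snd)
  have hlab := rv_yf μ κ hjl (r0 := 4) (measurable_dg N) (measurable_dg b)
    (HSp_599.measurable_sb N) (law_dg_sb N) (b := b) restrict_cell
  rw [hlab] at hpv
  have hmz : Measurable fun ω : HSp_599.Om n => (zz hjk hkl hjl 4 4 (-(w0 : ℝ)) ω, dg bs (ss ω)) :=
    (measurable_zz hjk hkl hjl 4 4 _).prodMk ((measurable_dg bs).comp measurable_ss)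
  have hmv : Measurable fun ω : HSp_599.Om n => (zz hjk hkl hjl 4 4 (-(w0 : ℝ)) ω, (tt ω, ss ω)) :=
    (measurable_zz hjk hkl hjl 4 4 _).prodMk (measurable_tt.prodMk measurable_ss)
  rw [HH_cells μ κ N b hmz, HH_cells μ κ N b hmv] at hg
  have hgap : ∫ ω, ∑ c', |pv (rv (HSp_599.PM μ κ) (fun ω => dg b (HSp_599.sb N (rr ω)))
      (fun ω => ((zz hjk hkl hjl 4 4 (-(w0 : ℝ)) ω, dg bs (ss ω)), dg N (rr ω)))) c'
      ((zz hjk hkl hjl 4 4 (-(w0 : ℝ)) ω, dg bs (ss ω)), dg N (rr ω))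
      - pv (lab μ κ hjl 4 b) c' (yf hjl 4 (HSp_599.sb N) ω)| ∂(HSp_599.PM μ κ) ≤ 2 * √gR := by
    refine hpv.trans ?_
    have := Real.sqrt_le_sqrt hg
    exact mul_le_mul_of_nonneg_left this (by norm_num)
  set Sg : HSp_599.Om n → ℝ := fun ω => ∑ c', |pv (rv (HSp_599.PM μ κ)
      (fun ω => dg b (HSp_599.sb N (rr ω)))
      (fun ω => ((zz hjk hkl hjl 4 4 (-(w0 : ℝ)) ω, dg bs (ss ω)), dg N (rr ω)))) c'
      ((zz hjk hkl hjl 4 4 (-(w0 : ℝ)) ω, dg bs (ss ω)), dg N (rr ω))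
      - pv (lab μ κ hjl 4 b) c' (yf hjl 4 (HSp_599.sb N) ω)| with hSg
  have hSm : Measurable Sg := by
    refine Finset.measurable_sum _ fun c' _ => Measurable.abs (Measurable.sub ?_ ?_)
    · exact (measurable_pv _ c').comp (measurable_obs hjk hkl hjl (-(w0 : ℝ)) bs N)
    · exact (measurable_pv _ c').comp (measurable_yf hjl 4 (HSp_599.measurable_sb N))
  have hSb : ∀ ω, |Sg ω| ≤ 2 := by
    intro ω
    rw [abs_of_nonneg (Finset.sum_nonneg fun c _ => abs_nonneg _)]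
    exact sum_abs_le_two _ _ _ _
  have hlip : ∀ ω, |F ω - G ω| ≤ 4 * Sg ω := by
    intro ω
    have h := spr_lip (x := cen b) (D := 2) cen_dist
      (fun c => pv_nonneg (rv (HSp_599.PM μ κ)
      (fun ω => dg b (HSp_599.sb N (rr ω)))
      (fun ω => ((zz hjk hkl hjl 4 4 (-(w0 : ℝ)) ω, dg bs (ss ω)), dg N (rr ω)))) c
      ((zz hjk hkl hjl 4 4 (-(w0 : ℝ)) ω, dg bs (ss ω)), dg N (rr ω))) (sum_pv _ _)
      (fun c => pv_nonneg (lab μ κ hjl 4 b) c (yf hjl 4 (HSp_599.sb N) ω)) (sum_pv _ _)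
    refine h.trans (le_of_eq ?_)
    rw [hSg]
    norm_num
  have iS : Integrable Sg (HSp_599.PM μ κ) :=
    Integrable.of_bound hSm.aestronglyMeasurable 2 (Filter.Eventually.of_forall hSb)
  have iFG : Integrable (fun ω => |F ω - G ω|) (HSp_599.PM μ κ) :=
    Integrable.of_bound (hFm.sub hGm).abs.aestronglyMeasurable 2
      (Filter.Eventually.of_forall fun ω => by rw [Real.norm_eq_abs, abs_abs]; exact hFGb ω)
  have hP : ∫ ω, |F ω - G ω| ∂(HSp_599.PM μ κ) ≤ 8 * √gR := by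
    have h1 : ∫ ω, |F ω - G ω| ∂(HSp_599.PM μ κ) ≤ ∫ ω, 4 * Sg ω ∂(HSp_599.PM μ κ) :=
      integral_mono iFG (iS.const_mul 4) hlip
    rw [integral_const_mul] at h1
    linarith
  -- fibres
  have hfib : ∀ x, |(∫ q, RR μ κ hjk hkl hjl (-(w0 : ℝ)) bs b N (x, q) ∂ν)
      - 1 / 2 ^ 4 * Acv μ κ hjl 4 b x| ≤ 1 / 2 ^ 4 * ∫ q, |F (x, q) - G (x, q)| ∂ν := by
    intro x
    have hmx : Measurable fun q : SLR n × (ℝ × (ℝ × ℝ)) => ((x, q) : HSp_599.Om n) :=
      measurable_prodMk_left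
    have iF : Integrable (fun q => F (x, q)) ν :=
      Integrable.of_bound (hFm.comp hmx).aestronglyMeasurable 2
        (Filter.Eventually.of_forall fun q => by
          rw [Real.norm_eq_abs, abs_of_nonneg (hF0 _).1]; exact (hF0 _).2)
    have iG : Integrable (fun q => G (x, q)) ν :=
      Integrable.of_bound (hGm.comp hmx).aestronglyMeasurable 2
        (Filter.Eventually.of_forall fun q => by
          rw [Real.norm_eq_abs, abs_of_nonneg (hG0 _).1]; exact (hG0 _).2)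
    have e1 : ∫ q, RR μ κ hjk hkl hjl (-(w0 : ℝ)) bs b N (x, q) ∂ν
        = 1 / 2 ^ 4 * ∫ q, F (x, q) ∂ν := by
      rw [← integral_const_mul]
      refine integral_congr_ae (Filter.Eventually.of_forall fun q => ?_)
      show RR μ κ hjk hkl hjl (-(w0 : ℝ)) bs b N (x, q) = 1 / 2 ^ 4 * F (x, q)
      unfold RR
      rw [hF]
      norm_num
    have e2 : Acv μ κ hjl 4 b x = ∫ q, G (x, q) ∂ν := (avg_yf μ κ hjl 4 b N x).symm
    rw [e1, e2, ← mul_sub, ← integral_sub iF iG, abs_mul, abs_of_pos (by norm_num)]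
    exact mul_le_mul_of_nonneg_left (abs_integral_le_integral_abs) (by norm_num)
  have hint2 : Integrable (fun x => ∫ q, |F (x, q) - G (x, q)| ∂ν) μ := iFG.integral_prod_left
  have hmAvg : Measurable fun x => |(∫ q, RR μ κ hjk hkl hjl (-(w0 : ℝ)) bs b N (x, q) ∂ν)
      - 1 / 2 ^ 4 * Acv μ κ hjl 4 b x| := by
    refine Measurable.abs (Measurable.sub ?_ ?_)
    · exact ((measurable_RR μ κ hjk hkl hjl _ bs b N).stronglyMeasurable.integral_prod_right').measurable
    · exact (measurable_Av _ _).const_mul _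
  calc ∫ x, |(∫ q, RR μ κ hjk hkl hjl (-(w0 : ℝ)) bs b N (x, q) ∂ν)
        - 1 / 2 ^ 4 * Acv μ κ hjl 4 b x| ∂μ
      ≤ ∫ x, 1 / 2 ^ 4 * ∫ q, |F (x, q) - G (x, q)| ∂ν ∂μ := by
        refine integral_mono_of_nonneg (Filter.Eventually.of_forall fun x => abs_nonneg _)
          (hint2.const_mul _) (Filter.Eventually.of_forall hfib)
    _ = 1 / 2 ^ 4 * ∫ ω, |F ω - G ω| ∂(HSp_599.PM μ κ) := by
        rw [integral_const_mul]
        congr 1
        exact (integral_prod _ iFG).symm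
    _ ≤ 1 / 2 ^ 4 * (8 * √gR) := mul_le_mul_of_nonneg_left hP (by norm_num)

end Main

end Crest.Agent.R014.HR3_792
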