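import Crest.Agent.R014.HR3d_792

/-!
Row 14, block D (noise formalism), section 4, (C) over `PZ` (helper792).
* `acv_RN`: `Acv μ (zt (RN j k l M)) hjl r b` against `PZ μ u1 b j l (x a^(tI j r))`;
* `inC`: input (C) of `RAs2_460.Inp`.
-/

set_option autoImplicit false
set_option linter.unusedSectionVars false

open MeasureTheory Finset Crest.NumberTheoryR.Packets
open Crest.Agent.R014.Nd_837
open Crest.Agent.R014.Ne1_567 Crest.Agent.R014.Ne3_567 Crest.Agent.R014.Ne4_567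
open Crest.Agent.R014.NScD_395 Crest.Agent.R014.NScH_395 Crest.Agent.R014.Prod_108
open Crest.Agent.R014.HSp_599 Crest.Agent.R014.Nh5_849
open Crest.Agent.R014.NScG_458 (RN)

noncomputable section

namespace Crest.Agent.R014.HR3_792

variable {n : ℕ}

theorem acv_RN {b : ℕ} (hb : 0 < b) {e : ℝ} (he : 0 < e) :
    ∃ η U : ℝ, 0 < η ∧ 0 < U ∧ 20 * c1N n ≤ U ∧ ∀ μ : Measure (ModSpace n),
      IsProbabilityMeasure μ → Nd_837.AInv μ →
      ∀ u1 u2 M W : ℝ, U ≤ u1 → 100 * (u1 + W) ≤ M → 2 * M ≤ u2 / 20 →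
      NC μ u1 u2 {b} η → ∀ (j k l : Fin n) (_ : j ≠ k) (_ : k ≠ l) (hjl : j ≠ l),
      ∀ r : ℝ, |r| ≤ W →
      ∫ x, |Acv μ (zt (RN j k l M)) hjl r b x - PZ μ u1 b j l (act x (aT (tI j r)))| ∂μ ≤ e := by
  have hne : NeZero b := ⟨hb.ne'⟩
  obtain ⟨η1, w1, hη1, hw1, h1⟩ := eP_small n b he
  refine ⟨η1, max (20 * w1) (20 * c1N n), hη1, ?_, le_max_right _ _, ?_⟩
  · refine lt_of_lt_of_le ?_ (le_max_left _ _)
    linarith
  intro μ hμp hμ u1 u2 M W hU hM hu2 hnc j k l hjk hkl hjl r hr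
  have hU1 : 20 * w1 ≤ u1 := (le_max_left _ _).trans hU
  have hc : 20 * c1N n ≤ u1 := (le_max_right _ _).trans hU
  set w : ℝ := u1 / 20 with hw
  have hw1' : w1 ≤ w := by rw [hw]; linarith
  have hw_1 : 1 ≤ w := hw1.trans hw1'
  have hu1 : 0 ≤ u1 := by linarith
  obtain ⟨hsm, hE1⟩ := h1 η1 w le_rfl hw1'
  have g1 := goodZ_RN hjk hkl hjl (M := M) (r := r) (w := w) (W := W) (u1 := u1) (u2 := u2) hu1
    (by linarith) (by linarith) hM hr hu2 (Or.inr (Or.inr ⟨rfl, rfl⟩))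
  have hmain := acv_zt hμ hjl (b := b) hw_1 le_rfl hc (hnc j l hjl b (by simp) hb) hsm g1
  refine hmain.trans (le_trans ?_ hE1)
  unfold eP
  have hC0 : 0 ≤ Nz_323.CN n := (noiseFam n).C0
  have h2 : 0 ≤ Nz_323.CN n * (2:ℝ) ^ (-w) := by positivity
  have h3 := Real.sqrt_nonneg (η1 + NScG_395.ew b (Nz_323.CN n) w + NScG_395.ew b (Nz_323.CN n) w)
  have h4 : (0 : ℝ) ≤ b := Nat.cast_nonneg b
  nlinarith [mul_nonneg h4 h2]

/-- **(C)**, the literal input of the final assembly. -/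
theorem inC {b : ℕ} [NeZero b] {e : ℝ} (he : 0 < e) :
    ∃ η U : ℝ, 0 < η ∧ 0 < U ∧ 20 * c1N n ≤ U ∧ ∀ μ : Measure (ModSpace n),
      IsProbabilityMeasure μ → Nd_837.AInv μ →
      ∀ u1 u2 M W : ℝ, U ≤ u1 → 100 * (u1 + W) ≤ M → 2 * M ≤ u2 / 20 →
      NC μ u1 u2 {b} η → 4 ≤ W → ∀ (j k l : Fin n) (hjk : j ≠ k) (hkl : k ≠ l) (hjl : j ≠ l)
      (w0 bs : ℕ) [NeZero bs] [NeZero (2 ^ (w0 + 4) * b)] (gR : ℝ),
      HH (PM μ (zt (RN j k l M))) (fun ω => dg (2 ^ (w0 + 4) * b) (rr ω))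
        (fun ω => (zz hjk hkl hjl 4 4 (-(w0 : ℝ)) ω, dg bs (ss ω)))
      - HH (PM μ (zt (RN j k l M))) (fun ω => dg (2 ^ (w0 + 4) * b) (rr ω))
        (fun ω => (zz hjk hkl hjl 4 4 (-(w0 : ℝ)) ω, (tt ω, ss ω))) ≤ gR →
      ∫ x, |(∫ q, RR μ (zt (RN j k l M)) hjk hkl hjl (-(w0 : ℝ)) bs b (2 ^ (w0 + 4)) (x, q)
          ∂((zt (RN j k l M)).prod (uni.prod (uni.prod uni))))
        - 1 / 2 ^ 4 * PZ μ u1 b j l (act x (aT (tI j 4)))| ∂μ ≤ 1 / 2 ^ 4 * (8 * √gR + e) := by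
  obtain ⟨η, U, hη, hU0, hUc, h⟩ := acv_RN (n := n) (b := b) (NeZero.pos b) he
  refine ⟨η, U, hη, hU0, hUc, ?_⟩
  intro μ hμp hμ u1 u2 M W hU hM hu2 hnc hW j k l hjk hkl hjl w0 bs _ _ gR hg
  have hc : 20 * c1N n ≤ u1 := hUc.trans hU
  have hu1 : 0 ≤ u1 := by linarith
  have hM0 : 0 ≤ M := by linarith
  have hadm : Nz_323.Adm (RN j k l M) := (noiseFam n).adm_of _ fun p q => by
    have h1 := NScG_458.RN_ge (j := j) (k := k) (l := l) hM0 p q
    rcases le_total 0 (c1N n) with h2 | h2 <;> linarith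
  have := isProb_zt hadm
  have h1 := r3r μ (zt (RN j k l M)) hjk hkl hjl w0 bs b hg
  have h2 := h μ hμp hμ u1 u2 M W hU hM hu2 hnc j k l hjk hkl hjl 4 (by norm_num; exact hW)
  have hmA : Measurable fun x => ∫ q, RR μ (zt (RN j k l M)) hjk hkl hjl (-(w0 : ℝ)) bs b
      (2 ^ (w0 + 4)) (x, q) ∂((zt (RN j k l M)).prod (uni.prod (uni.prod uni))) :=
    ((measurable_RR μ (zt (RN j k l M)) hjk hkl hjl _ bs b _).stronglyMeasurable.integral_prod_right').measurable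
  have hmB : Measurable (Acv μ (zt (RN j k l M)) hjl 4 b) := measurable_Av _ _
  have hmC : Measurable fun x => PZ μ u1 b j l (act x (aT (tI j 4))) :=
    (measurable_PZ hc hu1 b j l).comp (HR3_792.meas_act measurable_id measurable_const)
  have hA : ∀ x, |∫ q, RR μ (zt (RN j k l M)) hjk hkl hjl (-(w0 : ℝ)) bs b
      (2 ^ (w0 + 4)) (x, q) ∂((zt (RN j k l M)).prod (uni.prod (uni.prod uni)))| ≤ 4 := by
    intro x
    have h3 := norm_integral_le_of_norm_le_const (μ := (zt (RN j k l M)).prod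
      (uni.prod (uni.prod uni))) (C := 4) (f := fun q => RR μ (zt (RN j k l M)) hjk hkl hjl
      (-(w0 : ℝ)) bs b (2 ^ (w0 + 4)) (x, q)) (Filter.Eventually.of_forall fun q => by
        rw [Real.norm_eq_abs]; exact abs_RR_le _ _ _ _ _ _ _ _ _ _)
    simpa using h3
  have hB : ∀ x, |Acv μ (zt (RN j k l M)) hjl 4 b x| ≤ 2 := fun x => by
    have h9 : 0 ≤ Acv μ (zt (RN j k l M)) hjl 4 b x := Av_nonneg _ _ x
    rw [abs_of_nonneg h9]
    exact Av_le _ _ x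
  have hC : ∀ x, |PZ μ u1 b j l (act x (aT (tI j 4)))| ≤ 2 := fun x => by
    rw [abs_of_nonneg (PZ_nonneg hc hu1 b j l _)]
    exact PZ_le hc hu1 b j l _
  have i1 : Integrable (fun x => |(∫ q, RR μ (zt (RN j k l M)) hjk hkl hjl (-(w0 : ℝ)) bs b
      (2 ^ (w0 + 4)) (x, q) ∂((zt (RN j k l M)).prod (uni.prod (uni.prod uni))))
      - 1 / 2 ^ 4 * Acv μ (zt (RN j k l M)) hjl 4 b x|) μ := by
    refine Integrable.of_bound (hmA.sub (hmB.const_mul _)).abs.aestronglyMeasurable 5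
      (Filter.Eventually.of_forall fun x => ?_)
    rw [Real.norm_eq_abs, abs_abs, abs_le]
    have := abs_le.1 (hA x)
    have := abs_le.1 (hB x)
    constructor <;> linarith
  have i2 : Integrable (fun x => |Acv μ (zt (RN j k l M)) hjl 4 b x
      - PZ μ u1 b j l (act x (aT (tI j 4)))|) μ := by
    refine Integrable.of_bound (hmB.sub hmC).abs.aestronglyMeasurable 4
      (Filter.Eventually.of_forall fun x => ?_)
    rw [Real.norm_eq_abs, abs_abs, abs_le]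
    have := abs_le.1 (hC x)
    have := abs_le.1 (hB x)
    constructor <;> linarith
  have h5 : ∀ x, |(∫ q, RR μ (zt (RN j k l M)) hjk hkl hjl (-(w0 : ℝ)) bs b
      (2 ^ (w0 + 4)) (x, q) ∂((zt (RN j k l M)).prod (uni.prod (uni.prod uni))))
      - 1 / 2 ^ 4 * PZ μ u1 b j l (act x (aT (tI j 4)))|
      ≤ |(∫ q, RR μ (zt (RN j k l M)) hjk hkl hjl (-(w0 : ℝ)) bs b
      (2 ^ (w0 + 4)) (x, q) ∂((zt (RN j k l M)).prod (uni.prod (uni.prod uni))))
      - 1 / 2 ^ 4 * Acv μ (zt (RN j k l M)) hjl 4 b x|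
      + 1 / 2 ^ 4 * |Acv μ (zt (RN j k l M)) hjl 4 b x - PZ μ u1 b j l (act x (aT (tI j 4)))| := by
    intro x
    have e1 : 1 / 2 ^ 4 * |Acv μ (zt (RN j k l M)) hjl 4 b x - PZ μ u1 b j l (act x (aT (tI j 4)))|
        = |1 / 2 ^ 4 * Acv μ (zt (RN j k l M)) hjl 4 b x
          - 1 / 2 ^ 4 * PZ μ u1 b j l (act x (aT (tI j 4)))| := by
      rw [← mul_sub, abs_mul, abs_of_pos (by norm_num : (0 : ℝ) < 1 / 2 ^ 4)]
    rw [e1]
    exact abs_sub_le _ _ _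
  have h6 := integral_mono_of_nonneg (μ := μ) (Filter.Eventually.of_forall fun x => abs_nonneg _)
    (i1.add (i2.const_mul (1 / 2 ^ 4))) (Filter.Eventually.of_forall h5)
  have h7 := h6.trans (le_of_eq (integral_add i1 (i2.const_mul (1 / 2 ^ 4))))
  rw [integral_const_mul] at h7
  have h8 : (1 : ℝ) / 2 ^ 4 * ∫ x, |Acv μ (zt (RN j k l M)) hjl 4 b x
      - PZ μ u1 b j l (act x (aT (tI j 4)))| ∂μ ≤ 1 / 2 ^ 4 * e :=
    mul_le_mul_of_nonneg_left h2 (by norm_num)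
  rw [mul_add]
  exact h7.trans (add_le_add h1 h8)

end Crest.Agent.R014.HR3_792
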