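import Crest.Agent.R014.HR3s_108
import Crest.Agent.R014.HSp_599

/-!
Row 14, block D, section 4, (R3s), helper108, on the space of `HSp_599`: laws of the one-root
observations, replacement of the two spreads given `zz` by the spreads given `y1`, `y2`, joint
average given `x`.
-/

set_option autoImplicit false

open MeasureTheory Finset Filter Topology ProbabilityTheory Crest.NumberTheoryR.Packets
open Crest.Agent.R014.Nd_837 Crest.Agent.R014.Ne1_567 Crest.Agent.R014.Ne3_567
open Crest.Agent.R014.Ne4_567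
open Crest.Agent.R014.NScC_395 (spr spr_nonneg spr_le spr_lip)
open Crest.Agent.R014.NScD_395 Crest.Agent.R014.NScE_395 Crest.Agent.R014.NScG_395
open Crest.Agent.R014.NScH_395 Crest.Agent.R014.Ms_667
open Crest.Agent.R014.NScG_458 (RN RN_ge)
open Crest.Agent.R014.Prod_108 Crest.Agent.R014.Nh1_849 Crest.Agent.R014.Nh2_849
open Crest.Agent.R014.HSp_599
open scoped ENNReal

noncomputable section

namespace Crest.Agent.R014.HR3s_108

variable {n : ℕ}

/-! ### laws -/

/-- one root, random variable form = family form -/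
theorem rv_lab {Ω : Type*} [MeasurableSpace Ω] {P : Measure Ω} {Y0 : Ω → ModSpace n} {th : Ω → ℝ}
    (hY0 : Measurable Y0) (hth : Measurable th) {μ : Measure (ModSpace n)} {κ : Measure (SLR n)}
    [IsProbabilityMeasure μ] [IsProbabilityMeasure κ]
    (h : P.map (fun ω => (Y0 ω, th ω)) = (stp μ κ).prod uni) {i j : Fin n} (hij : i ≠ j) (r : ℝ)
    (b : ℕ) [NeZero b] (c : Fin b) :
    rv P (fun ω => dg b (th ω)) (fun ω => act (Y0 ω) (uu hij ((2 : ℝ) ^ (-r) * th ω))) c =
      lab μ κ hij r b c := by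
  have hD : MeasurableSet (dg b ⁻¹' {c}) := measurable_dg b (measurableSet_singleton c)
  have hU := measurable_uuw (n := n) hij r
  have hF : Measurable fun p : ModSpace n × ℝ => act p.1 (uu hij ((2 : ℝ) ^ (-r) * p.2)) :=
    measurable_act₂.comp (measurable_fst.prodMk (hU.comp measurable_snd))
  have hJ : Measurable fun ω => (Y0 ω, th ω) := hY0.prodMk hth
  have hg : Measurable fun θ : ℝ => cen b c + θ / b := by fun_prop
  have e1 : rv P (fun ω => dg b (th ω)) (fun ω => act (Y0 ω) (uu hij ((2 : ℝ) ^ (-r) * th ω))) c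
      = (((stp μ κ).prod uni).restrict (Set.univ ×ˢ (dg b ⁻¹' {c}))).map
        fun p : ModSpace n × ℝ => act p.1 (uu hij ((2 : ℝ) ^ (-r) * p.2)) := by
    rw [← h, Measure.restrict_map hJ (MeasurableSet.univ.prod hD), Measure.map_map hF hJ]
    unfold rv
    congr 2
    ext ω
    simp
  have e2 : (stp μ κ).prod ((uni.map fun θ => cen b c + θ / b).map
      fun θ : ℝ => (uu hij ((2 : ℝ) ^ (-r) * θ) : SLR n)) =
      ((stp μ κ).prod (uni.map fun θ => cen b c + θ / b)).map
        (Prod.map id fun θ : ℝ => (uu hij ((2 : ℝ) ^ (-r) * θ) : SLR n)) := by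
    have : IsProbabilityMeasure (uni.map fun θ : ℝ => cen b c + θ / b) :=
      Measure.isProbabilityMeasure_map hg.aemeasurable
    conv_lhs => rw [← Measure.map_id (μ := stp μ κ)]
    exact Measure.map_prod_map (stp μ κ) _ measurable_id hU
  rw [e1, ← Measure.prod_restrict, Measure.restrict_univ, restrict_cell, Measure.prod_smul_right,
    Measure.map_smul]
  unfold lab
  congr 1
  have e3 : dlaw hij r b c = (uni.map fun θ => cen b c + θ / b).map
      fun θ : ℝ => (uu hij ((2 : ℝ) ^ (-r) * θ) : SLR n) := by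
    rw [Measure.map_map hU hg]
    rfl
  rw [e3]
  unfold stp at e2 ⊢
  rw [e2, Measure.map_map measurable_act₂ (measurable_id.prodMap hU)]
  rfl

section Laws

variable (μ : Measure (ModSpace n)) (κ : Measure (SLR n)) [IsProbabilityMeasure μ]
  [IsProbabilityMeasure κ]

/-- a coordinate and the noisy point -/
theorem law_gen {T : Type*} [MeasurableSpace T] {τ : Measure T} [IsProbabilityMeasure τ]
    {f : T → ℝ} (hf : MeasurePreserving f τ uni) :
    (μ.prod (κ.prod τ)).map (fun p : ModSpace n × (SLR n × T) => (act p.1 p.2.1, f p.2.2)) =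
      (stp μ κ).prod uni := by
  have hA : Measurable fun p : ModSpace n × SLR n => act p.1 p.2 := measurable_act₂
  have h1 : MeasurePreserving (MeasurableEquiv.prodAssoc (α := ModSpace n) (β := SLR n) (γ := T))
      ((μ.prod κ).prod τ) (μ.prod (κ.prod τ)) :=
    measurePreserving_prodAssoc μ κ τ
  have hA2 : MeasurePreserving (fun p : ModSpace n × SLR n => act p.1 p.2) (μ.prod κ) (stp μ κ) :=
    ⟨hA, rfl⟩
  have h2 : MeasurePreserving (Prod.map (fun p : ModSpace n × SLR n => act p.1 p.2) f)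
      ((μ.prod κ).prod τ) ((stp μ κ).prod uni) := hA2.prod hf
  have hm : Measurable fun p : ModSpace n × (SLR n × T) => (act p.1 p.2.1, f p.2.2) :=
    (measurable_act₂.comp (measurable_fst.prodMk (measurable_fst.comp measurable_snd))).prodMk
      (hf.measurable.comp (measurable_snd.comp measurable_snd))
  rw [← h1.map_eq, Measure.map_map hm h1.measurable, ← h2.map_eq]
  rfl

theorem mp_t : MeasurePreserving (fun q : ℝ × (ℝ × ℝ) => q.1) (uni.prod (uni.prod uni)) uni :=
  measurePreserving_fst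

theorem mp_s : MeasurePreserving (fun q : ℝ × (ℝ × ℝ) => q.2.1) (uni.prod (uni.prod uni)) uni :=
  (measurePreserving_fst (μ := uni) (ν := uni)).comp measurePreserving_snd

theorem mp_r : MeasurePreserving (fun q : ℝ × (ℝ × ℝ) => q.2.2) (uni.prod (uni.prod uni)) uni :=
  (measurePreserving_snd (μ := uni) (ν := uni)).comp measurePreserving_snd

theorem law_s : (PM μ κ).map (fun ω => (act (xx ω) (ze ω), ss ω)) = (stp μ κ).prod uni :=
  law_gen μ κ mp_s

theorem law_t : (PM μ κ).map (fun ω => (act (xx ω) (ze ω), tt ω)) = (stp μ κ).prod uni :=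
  law_gen μ κ mp_t

theorem law_r : (PM μ κ).map (fun ω => (act (xx ω) (ze ω), rr ω)) = (stp μ κ).prod uni :=
  law_gen μ κ mp_r

theorem measurable_y0 : Measurable fun ω : Om n => act (xx ω) (ze ω) :=
  measurable_act₂.comp (measurable_xx.prodMk measurable_ze)

variable {j k l : Fin n}

theorem rv_y1 (hjk : j ≠ k) (a : ℝ) (b : ℕ) [NeZero b] (c : Fin b) :
    rv (PM μ κ) (fun ω => dg b (ss ω)) (y1 hjk a) c = lab μ κ hjk a b c := by
  rw [← rv_lab measurable_y0 measurable_ss (law_s μ κ) hjk a b c]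
  congr 1
  funext ω
  unfold y1
  rw [act_act]

theorem rv_y2 (hkl : k ≠ l) (a : ℝ) (b : ℕ) [NeZero b] (c : Fin b) :
    rv (PM μ κ) (fun ω => dg b (tt ω)) (y2 hkl a) c = lab μ κ hkl a b c := by
  rw [← rv_lab measurable_y0 measurable_tt (law_t μ κ) hkl a b c]
  congr 1
  funext ω
  unfold y2
  rw [act_act]

theorem rv_y3 (hjl : j ≠ l) (a : ℝ) (b : ℕ) [NeZero b] (c : Fin b) :
    rv (PM μ κ) (fun ω => dg b (rr ω)) (y3 hjl a) c = lab μ κ hjl a b c := by
  rw [← rv_lab measurable_y0 measurable_rr (law_r μ κ) hjl a b c]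
  congr 1
  funext ω
  unfold y3
  rw [act_act]

end Laws

/-! ### replacement inside the joint average -/

/-- replace two bounded factors -/
theorem joint_replace {X Q : Type*} [MeasurableSpace X] [MeasurableSpace Q] {μ : Measure X}
    {ν : Measure Q} [IsProbabilityMeasure μ] [IsProbabilityMeasure ν] {f g f' g' : X × Q → ℝ}
    (hf : Measurable f) (hg : Measurable g) (hf' : Measurable f') (hg' : Measurable g')
    (bf : ∀ p, |f p| ≤ 2) (bg : ∀ p, |g p| ≤ 2) (bf' : ∀ p, |f' p| ≤ 2) (bg' : ∀ p, |g' p| ≤ 2)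
    {a b : ℝ} (ha : ∫ p, |f p - f' p| ∂(μ.prod ν) ≤ a) (hb : ∫ p, |g p - g' p| ∂(μ.prod ν) ≤ b) :
    ∫ x, |(∫ q, f (x, q) * g (x, q) ∂ν) - ∫ q, f' (x, q) * g' (x, q) ∂ν| ∂μ
      ≤ 2 * a + 2 * b := by
  have b4 : ∀ u v : ℝ, |u| ≤ 2 → |v| ≤ 2 → |u * v| ≤ 4 := fun u v hu hv => by
    rw [abs_mul]
    have := mul_le_mul hu hv (abs_nonneg v) (by norm_num)
    linarith
  have m1 : Measurable fun p : X × Q => f p * g p := hf.mul hg
  have m2 : Measurable fun p : X × Q => f' p * g' p := hf'.mul hg'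
  have i1 : ∀ x, Integrable (fun q => f (x, q) * g (x, q)) ν := fun x =>
    integrable_bdd (m1.comp measurable_prodMk_left) (M := 4) fun q => b4 _ _ (bf _) (bg _)
  have i2 : ∀ x, Integrable (fun q => f' (x, q) * g' (x, q)) ν := fun x =>
    integrable_bdd (m2.comp measurable_prodMk_left) (M := 4) fun q => b4 _ _ (bf' _) (bg' _)
  have mD : Measurable fun p : X × Q => |f p * g p - f' p * g' p| := (m1.sub m2).abs
  have bD : ∀ p, |(|f p * g p - f' p * g' p|)| ≤ 8 := fun p => by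
    rw [abs_abs]
    refine (abs_sub _ _).trans ?_
    linarith [b4 _ _ (bf p) (bg p), b4 _ _ (bf' p) (bg' p)]
  have iD : Integrable (fun p : X × Q => |f p * g p - f' p * g' p|) (μ.prod ν) :=
    integrable_bdd mD bD
  have h1 : ∫ x, |(∫ q, f (x, q) * g (x, q) ∂ν) - ∫ q, f' (x, q) * g' (x, q) ∂ν| ∂μ
      ≤ ∫ x, ∫ q, |f (x, q) * g (x, q) - f' (x, q) * g' (x, q)| ∂ν ∂μ := by
    refine integral_mono ?_ iD.integral_prod_left fun x => ?_
    · refine integrable_bdd (M := 8) ?_ fun x => ?_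
      · exact ((m1.stronglyMeasurable.integral_prod_right').measurable.sub
          (m2.stronglyMeasurable.integral_prod_right').measurable).abs
      · have c1 : |∫ q, f (x, q) * g (x, q) ∂ν| ≤ 4 := by
          have h := norm_integral_le_of_norm_le_const (μ := ν) (C := 4)
            (f := fun q => f (x, q) * g (x, q)) (Eventually.of_forall fun q => by
              rw [Real.norm_eq_abs]; exact b4 _ _ (bf _) (bg _))
          simpa using h
        have c2 : |∫ q, f' (x, q) * g' (x, q) ∂ν| ≤ 4 := by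
          have h := norm_integral_le_of_norm_le_const (μ := ν) (C := 4)
            (f := fun q => f' (x, q) * g' (x, q)) (Eventually.of_forall fun q => by
              rw [Real.norm_eq_abs]; exact b4 _ _ (bf' _) (bg' _))
          simpa using h
        rw [abs_abs]
        refine (abs_sub _ _).trans ?_
        linarith
    · simp only
      rw [← integral_sub (i1 x) (i2 x)]
      exact abs_integral_le_integral_abs
  rw [← integral_prod _ iD] at h1
  refine h1.trans ?_
  have j1 : Integrable (fun p : X × Q => |f p - f' p|) (μ.prod ν) :=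
    integrable_bdd (hf.sub hf').abs (M := 4) fun p => by
      rw [abs_abs]; refine (abs_sub _ _).trans ?_; linarith [bf p, bf' p]
  have j2 : Integrable (fun p : X × Q => |g p - g' p|) (μ.prod ν) :=
    integrable_bdd (hg.sub hg').abs (M := 4) fun p => by
      rw [abs_abs]; refine (abs_sub _ _).trans ?_; linarith [bg p, bg' p]
  have h2 : ∫ p, |f p * g p - f' p * g' p| ∂(μ.prod ν)
      ≤ ∫ p, (2 * |f p - f' p| + 2 * |g p - g' p|) ∂(μ.prod ν) := by
    refine integral_mono iD ((j1.const_mul 2).add (j2.const_mul 2)) fun p => ?_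
    simp only
    have e : f p * g p - f' p * g' p = (f p - f' p) * g p + f' p * (g p - g' p) := by ring
    rw [e]
    refine (abs_add_le _ _).trans ?_
    rw [abs_mul, abs_mul]
    have c1 := mul_le_mul_of_nonneg_left (bg p) (abs_nonneg (f p - f' p))
    have c2 := mul_le_mul_of_nonneg_right (bf' p) (abs_nonneg (g p - g' p))
    linarith
  rw [integral_add (j1.const_mul 2) (j2.const_mul 2), integral_const_mul, integral_const_mul] at h2
  linarith

section Main

variable (μ : Measure (ModSpace n)) (κ : Measure (SLR n)) [IsProbabilityMeasure μ]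
  [IsProbabilityMeasure κ] {j k l : Fin n} (hjk : j ≠ k) (hkl : k ≠ l) (hjl : j ≠ l) (a b c : ℝ)
  (bs bt : ℕ) [NeZero bs] [NeZero bt]

/-- the posterior spread of the `s`-digit given the whole observation -/
def spS (ω : Om n) : ℝ :=
  spr (cen bs) fun e => pv (rv (PM μ κ) (fun ω => dg bs (ss ω)) (zz hjk hkl hjl a b c)) e
    (zz hjk hkl hjl a b c ω)

/-- the posterior spread of the `t`-digit given the whole observation -/
def spT (ω : Om n) : ℝ :=
  spr (cen bt) fun e => pv (rv (PM μ κ) (fun ω => dg bt (tt ω)) (zz hjk hkl hjl a b c)) e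
    (zz hjk hkl hjl a b c ω)

omit [IsProbabilityMeasure μ] [IsProbabilityMeasure κ] in
theorem measurable_spS : Measurable (spS μ κ hjk hkl hjl a b c bs) := by
  unfold spS spr
  have hz := measurable_zz (n := n) hjk hkl hjl a b c
  exact Finset.measurable_sum _ fun e _ => Finset.measurable_sum _ fun e' _ =>
    (((measurable_pv _ e).comp hz).mul ((measurable_pv _ e').comp hz)).mul_const _

omit [IsProbabilityMeasure μ] [IsProbabilityMeasure κ] in
theorem measurable_spT : Measurable (spT μ κ hjk hkl hjl a b c bt) := by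
  unfold spT spr
  have hz := measurable_zz (n := n) hjk hkl hjl a b c
  exact Finset.measurable_sum _ fun e _ => Finset.measurable_sum _ fun e' _ =>
    (((measurable_pv _ e).comp hz).mul ((measurable_pv _ e').comp hz)).mul_const _

omit [IsProbabilityMeasure μ] [IsProbabilityMeasure κ] in
theorem spS_nonneg (ω : Om n) : 0 ≤ spS μ κ hjk hkl hjl a b c bs ω :=
  spr_nonneg fun e => pv_nonneg _ e _

omit [IsProbabilityMeasure μ] [IsProbabilityMeasure κ] in
theorem spT_nonneg (ω : Om n) : 0 ≤ spT μ κ hjk hkl hjl a b c bt ω :=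
  spr_nonneg fun e => pv_nonneg _ e _

omit [IsProbabilityMeasure μ] [IsProbabilityMeasure κ] in
theorem spS_le (ω : Om n) : spS μ κ hjk hkl hjl a b c bs ω ≤ 2 :=
  spr_le cen_dist (fun e => pv_nonneg _ e _) (sum_pv _ _)

omit [IsProbabilityMeasure μ] [IsProbabilityMeasure κ] in
theorem spT_le (ω : Om n) : spT μ κ hjk hkl hjl a b c bt ω ≤ 2 :=
  spr_le cen_dist (fun e => pv_nonneg _ e _) (sum_pv _ _)

/-- undo `u_pq(2^-a s) u_p'q'(2^-c r)` -/
def Lt {p q p' q' : Fin n} (h : p ≠ q) (h' : p' ≠ q') (a c : ℝ) (v : ModSpace n × (ℝ × ℝ)) :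
    ModSpace n :=
  act v.1 (uu h' (-((2 : ℝ) ^ (-c) * v.2.2)) * uu h (-((2 : ℝ) ^ (-a) * v.2.1)))

theorem measurable_Lt {p q p' q' : Fin n} (h : p ≠ q) (h' : p' ≠ q') (a c : ℝ) :
    Measurable (Lt h h' a c) := by
  have h1 : Measurable fun g : ModSpace n × (ℝ × ℝ) => (uu h' (-((2 : ℝ) ^ (-c) * g.2.2)) : SLR n) :=
    (continuous_uu h').measurable.comp (by fun_prop)
  have h2 : Measurable fun g : ModSpace n × (ℝ × ℝ) => (uu h (-((2 : ℝ) ^ (-a) * g.2.1)) : SLR n) :=
    (continuous_uu h).measurable.comp (by fun_prop)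
  exact measurable_act₂.comp (measurable_fst.prodMk (measurable_mul₂.comp (h1.prodMk h2)))

theorem cancel_two {p q p' q' : Fin n} (h : p ≠ q) (h' : p' ≠ q') (z : SLR n) (s r : ℝ) :
    z * uu h s * uu h' r * (uu h' (-r) * uu h (-s)) = z := by
  have e1 : (uu h' r * uu h' (-r) : SLR n) = 1 := by rw [← uu_add, add_neg_cancel, uu_zero]
  have e2 : (uu h s * uu h (-s) : SLR n) = 1 := by rw [← uu_add, add_neg_cancel, uu_zero]
  calc z * uu h s * uu h' r * (uu h' (-r) * uu h (-s))
      = z * (uu h s * ((uu h' r * uu h' (-r)) * uu h (-s))) := by simp only [mul_assoc]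
    _ = z := by rw [e1, one_mul, e2, mul_one]

/-- `zz` in terms of `y2` -/
theorem y2_of_zz (ω : Om n) :
    Lt hjk hjl a c (zz hjk hkl hjl a b c ω, (ss ω, rr ω)) = y2 hkl b ω := by
  unfold Lt zz y2
  rw [act_act, cancel_two]

/-- `zz` in terms of `y1` -/
theorem y1_of_zz (ω : Om n) :
    Lt hkl hjl b c (zz hjk hkl hjl a b c ω, (tt ω, rp a b c ω)) = y1 hjk a ω := by
  rw [zz_eq]
  unfold Lt y1
  rw [act_act, cancel_two]

/-- posterior of `d_t` -/
theorem eps_t (h : HH (PM μ κ) (fun ω => dg bt (tt ω)) (y2 hkl b)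
      ≤ HH (PM μ κ) (fun ω => dg bt (tt ω)) (fun ω => (zz hjk hkl hjl a b c ω, (ss ω, rr ω)))) :
    ∫ ω, ∑ e, |pv (rv (PM μ κ) (fun ω => dg bt (tt ω)) (zz hjk hkl hjl a b c)) e
        (zz hjk hkl hjl a b c ω) - pv (rv (PM μ κ) (fun ω => dg bt (tt ω)) (y2 hkl b)) e
        (y2 hkl b ω)| ∂(PM μ κ)
      ≤ 2 * √(HH (PM μ κ) (fun ω => dg bt (tt ω)) (zz hjk hkl hjl a b c)
          - HH (PM μ κ) (fun ω => dg bt (tt ω)) (y2 hkl b)) := by
  have hLy : ∀ ω : Om n, Lt hjk hjl a c (zz hjk hkl hjl a b c ω, (ss ω, rr ω)) = y2 hkl b ω :=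
    fun ω => y2_of_zz hjk hkl hjl a b c ω
  have h0 : HH (PM μ κ) (fun ω => dg bt (tt ω)) (y2 hkl b) - 0
      ≤ HH (PM μ κ) (fun ω => dg bt (tt ω)) (fun ω => (zz hjk hkl hjl a b c ω, (ss ω, rr ω))) := by
    rw [sub_zero]; exact h
  have key := eps_near (PM μ κ) (d := fun ω => dg bt (tt ω)) (z := zz hjk hkl hjl a b c)
    (y := y2 hkl b) (g := fun ω => (ss ω, rr ω)) (L := Lt hjk hjl a c)
    ((measurable_dg bt).comp measurable_tt)
    (measurable_zz hjk hkl hjl a b c) (measurable_ss.prodMk measurable_rr)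
    (measurable_Lt hjk hjl a c) hLy (m := 0) h0
  rw [add_zero, Real.sqrt_zero, mul_zero, add_zero] at key
  exact key

/-- posterior of `d_s` -/
theorem eps_s {m : ℝ} (h : HH (PM μ κ) (fun ω => dg bs (ss ω)) (y1 hjk a) - m
      ≤ HH (PM μ κ) (fun ω => dg bs (ss ω))
        (fun ω => (zz hjk hkl hjl a b c ω, (tt ω, rp a b c ω)))) :
    ∫ ω, ∑ e, |pv (rv (PM μ κ) (fun ω => dg bs (ss ω)) (zz hjk hkl hjl a b c)) e
        (zz hjk hkl hjl a b c ω) - pv (rv (PM μ κ) (fun ω => dg bs (ss ω)) (y1 hjk a)) e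
        (y1 hjk a ω)| ∂(PM μ κ)
      ≤ 2 * √(HH (PM μ κ) (fun ω => dg bs (ss ω)) (zz hjk hkl hjl a b c)
          - HH (PM μ κ) (fun ω => dg bs (ss ω)) (y1 hjk a) + m) + 2 * √m := by
  have hLy : ∀ ω : Om n, Lt hkl hjl b c (zz hjk hkl hjl a b c ω, (tt ω, rp a b c ω))
      = y1 hjk a ω := fun ω => y1_of_zz hjk hkl hjl a b c ω
  exact eps_near (PM μ κ) (d := fun ω => dg bs (ss ω)) (z := zz hjk hkl hjl a b c)
    (y := y1 hjk a) (g := fun ω => (tt ω, rp a b c ω)) (L := Lt hkl hjl b c)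
    ((measurable_dg bs).comp measurable_ss)
    (measurable_zz hjk hkl hjl a b c) (measurable_tt.prodMk (measurable_rp a b c))
    (measurable_Lt hkl hjl b c) hLy h

/-- the spread given `zz` versus the spread given `y1`, `L¹` -/
theorem spS_near {m : ℝ} (h : HH (PM μ κ) (fun ω => dg bs (ss ω)) (y1 hjk a) - m
      ≤ HH (PM μ κ) (fun ω => dg bs (ss ω))
        (fun ω => (zz hjk hkl hjl a b c ω, (tt ω, rp a b c ω)))) :
    ∫ ω, |spS μ κ hjk hkl hjl a b c bs ω - ps (lab μ κ hjk a bs) (y1 hjk a ω)| ∂(PM μ κ)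
      ≤ 8 * √(HH (PM μ κ) (fun ω => dg bs (ss ω)) (zz hjk hkl hjl a b c)
          - HH (PM μ κ) (fun ω => dg bs (ss ω)) (y1 hjk a) + m) + 8 * √m := by
  have key := eps_s μ κ hjk hkl hjl a b c bs h
  have hrv : rv (PM μ κ) (fun ω => dg bs (ss ω)) (y1 hjk a) = lab μ κ hjk a bs :=
    funext fun e => rv_y1 μ κ hjk a bs e
  have hzz := measurable_zz (n := n) hjk hkl hjl a b c
  have hy := measurable_y1 (n := n) hjk a
  have mS := measurable_spS μ κ hjk hkl hjl a b c bs
  have mP : Measurable fun ω => ps (lab μ κ hjk a bs) (y1 hjk a ω) :=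
    (measurable_ps _).comp hy
  have mE : Measurable fun ω => ∑ e, |pv (rv (PM μ κ) (fun ω => dg bs (ss ω))
      (zz hjk hkl hjl a b c)) e (zz hjk hkl hjl a b c ω) -
      pv (rv (PM μ κ) (fun ω => dg bs (ss ω)) (y1 hjk a)) e (y1 hjk a ω)| :=
    Finset.measurable_sum _ fun e _ =>
      (((measurable_pv _ e).comp hzz).sub ((measurable_pv _ e).comp hy)).abs
  have h1 : ∫ ω, |spS μ κ hjk hkl hjl a b c bs ω - ps (lab μ κ hjk a bs) (y1 hjk a ω)| ∂(PM μ κ)
      ≤ ∫ ω, 4 * ∑ e, |pv (rv (PM μ κ) (fun ω => dg bs (ss ω)) (zz hjk hkl hjl a b c)) e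
        (zz hjk hkl hjl a b c ω) - pv (rv (PM μ κ) (fun ω => dg bs (ss ω)) (y1 hjk a)) e
        (y1 hjk a ω)| ∂(PM μ κ) := by
    refine integral_mono (integrable_bdd (mS.sub mP).abs (M := 4) fun ω => ?_)
      ((integrable_bdd mE (M := 2) fun ω => ?_).const_mul 4) fun ω => ?_
    · rw [abs_abs]
      refine (abs_sub _ _).trans ?_
      rw [abs_of_nonneg (spS_nonneg μ κ hjk hkl hjl a b c bs ω)]
      linarith [spS_le μ κ hjk hkl hjl a b c bs ω, abs_ps_le (lab μ κ hjk a bs) (y1 hjk a ω)]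
    · rw [abs_of_nonneg (Finset.sum_nonneg fun e _ => abs_nonneg _)]
      exact sum_abs_le_two _ _ _ _
    · simp only
      have h2 := spr_lip (x := cen bs) (D := 2) cen_dist
        (p := fun e => pv (rv (PM μ κ) (fun ω => dg bs (ss ω)) (zz hjk hkl hjl a b c)) e
          (zz hjk hkl hjl a b c ω))
        (q := fun e => pv (rv (PM μ κ) (fun ω => dg bs (ss ω)) (y1 hjk a)) e (y1 hjk a ω))
        (fun e => pv_nonneg _ e _) (sum_pv _ _) (fun e => pv_nonneg _ e _) (sum_pv _ _)
      have h3 : ps (lab μ κ hjk a bs) (y1 hjk a ω) = spr (cen bs) fun e =>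
          pv (rv (PM μ κ) (fun ω => dg bs (ss ω)) (y1 hjk a)) e (y1 hjk a ω) := by
        rw [hrv]; rfl
      rw [h3]
      norm_num at h2
      exact h2
  rw [integral_const_mul] at h1
  linarith

/-- the spread given `zz` versus the spread given `y2`, `L¹` -/
theorem spT_near (h : HH (PM μ κ) (fun ω => dg bt (tt ω)) (y2 hkl b)
      ≤ HH (PM μ κ) (fun ω => dg bt (tt ω)) (fun ω => (zz hjk hkl hjl a b c ω, (ss ω, rr ω)))) :
    ∫ ω, |spT μ κ hjk hkl hjl a b c bt ω - ps (lab μ κ hkl b bt) (y2 hkl b ω)| ∂(PM μ κ)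
      ≤ 8 * √(HH (PM μ κ) (fun ω => dg bt (tt ω)) (zz hjk hkl hjl a b c)
          - HH (PM μ κ) (fun ω => dg bt (tt ω)) (y2 hkl b)) := by
  have key := eps_t μ κ hjk hkl hjl a b c bt h
  have hrv : rv (PM μ κ) (fun ω => dg bt (tt ω)) (y2 hkl b) = lab μ κ hkl b bt :=
    funext fun e => rv_y2 μ κ hkl b bt e
  have hzz := measurable_zz (n := n) hjk hkl hjl a b c
  have hy := measurable_y2 (n := n) hkl b
  have mS := measurable_spT μ κ hjk hkl hjl a b c bt
  have mP : Measurable fun ω => ps (lab μ κ hkl b bt) (y2 hkl b ω) :=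
    (measurable_ps _).comp hy
  have mE : Measurable fun ω => ∑ e, |pv (rv (PM μ κ) (fun ω => dg bt (tt ω))
      (zz hjk hkl hjl a b c)) e (zz hjk hkl hjl a b c ω) -
      pv (rv (PM μ κ) (fun ω => dg bt (tt ω)) (y2 hkl b)) e (y2 hkl b ω)| :=
    Finset.measurable_sum _ fun e _ =>
      (((measurable_pv _ e).comp hzz).sub ((measurable_pv _ e).comp hy)).abs
  have h1 : ∫ ω, |spT μ κ hjk hkl hjl a b c bt ω - ps (lab μ κ hkl b bt) (y2 hkl b ω)| ∂(PM μ κ)
      ≤ ∫ ω, 4 * ∑ e, |pv (rv (PM μ κ) (fun ω => dg bt (tt ω)) (zz hjk hkl hjl a b c)) e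
        (zz hjk hkl hjl a b c ω) - pv (rv (PM μ κ) (fun ω => dg bt (tt ω)) (y2 hkl b)) e
        (y2 hkl b ω)| ∂(PM μ κ) := by
    refine integral_mono (integrable_bdd (mS.sub mP).abs (M := 4) fun ω => ?_)
      ((integrable_bdd mE (M := 2) fun ω => ?_).const_mul 4) fun ω => ?_
    · rw [abs_abs]
      refine (abs_sub _ _).trans ?_
      rw [abs_of_nonneg (spT_nonneg μ κ hjk hkl hjl a b c bt ω)]
      linarith [spT_le μ κ hjk hkl hjl a b c bt ω, abs_ps_le (lab μ κ hkl b bt) (y2 hkl b ω)]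
    · rw [abs_of_nonneg (Finset.sum_nonneg fun e _ => abs_nonneg _)]
      exact sum_abs_le_two _ _ _ _
    · simp only
      have h2 := spr_lip (x := cen bt) (D := 2) cen_dist
        (p := fun e => pv (rv (PM μ κ) (fun ω => dg bt (tt ω)) (zz hjk hkl hjl a b c)) e
          (zz hjk hkl hjl a b c ω))
        (q := fun e => pv (rv (PM μ κ) (fun ω => dg bt (tt ω)) (y2 hkl b)) e (y2 hkl b ω))
        (fun e => pv_nonneg _ e _) (sum_pv _ _) (fun e => pv_nonneg _ e _) (sum_pv _ _)
      have h3 : ps (lab μ κ hkl b bt) (y2 hkl b ω) = spr (cen bt) fun e =>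
          pv (rv (PM μ κ) (fun ω => dg bt (tt ω)) (y2 hkl b)) e (y2 hkl b ω) := by
        rw [hrv]; rfl
      rw [h3]
      norm_num at h2
      exact h2
  rw [integral_const_mul] at h1
  linarith

omit [IsProbabilityMeasure μ] in
/-- the joint average of the one-root spreads is `J2`, every point -/
theorem ps_J2 (x : ModSpace n) :
    ∫ q : SLR n × (ℝ × (ℝ × ℝ)), ps (lab μ κ hjk a bs) (y1 hjk a (x, q)) *
      ps (lab μ κ hkl b bt) (y2 hkl b (x, q)) ∂(κ.prod (uni.prod (uni.prod uni)))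
      = J2 κ hjk hkl a b (lab μ κ hjk a bs) (lab μ κ hkl b bt) x := by
  have h := F1_eq hjk hkl a b κ (lab μ κ hjk a bs) (lab μ κ hkl b bt) (ka := 1) (kb := 1)
    zero_le_one zero_le_one x
  rw [one_mul, one_mul] at h
  rw [← h]
  refine integral_congr_ae (Eventually.of_forall fun q => ?_)
  simp only [one_mul]
  rfl

/-- **(R3s)**. -/
theorem R3s {m : ℝ} (h1 : HH (PM μ κ) (fun ω => dg bs (ss ω)) (y1 hjk a) - m
      ≤ HH (PM μ κ) (fun ω => dg bs (ss ω))
        (fun ω => (zz hjk hkl hjl a b c ω, (tt ω, rp a b c ω))))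
    (h2 : HH (PM μ κ) (fun ω => dg bt (tt ω)) (y2 hkl b)
      ≤ HH (PM μ κ) (fun ω => dg bt (tt ω)) (fun ω => (zz hjk hkl hjl a b c ω, (ss ω, rr ω)))) :
    ∫ x, |(∫ q, spS μ κ hjk hkl hjl a b c bs (x, q) * spT μ κ hjk hkl hjl a b c bt (x, q)
        ∂(κ.prod (uni.prod (uni.prod uni))))
        - J2 κ hjk hkl a b (lab μ κ hjk a bs) (lab μ κ hkl b bt) x| ∂μ
      ≤ 16 * (√(HH (PM μ κ) (fun ω => dg bs (ss ω)) (zz hjk hkl hjl a b c)
          - HH (PM μ κ) (fun ω => dg bs (ss ω)) (y1 hjk a) + m) + √m)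
        + 16 * √(HH (PM μ κ) (fun ω => dg bt (tt ω)) (zz hjk hkl hjl a b c)
          - HH (PM μ κ) (fun ω => dg bt (tt ω)) (y2 hkl b)) := by
  have k1 := spS_near μ κ hjk hkl hjl a b c bs h1
  have k2 := spT_near μ κ hjk hkl hjl a b c bt h2
  have mP1 : Measurable fun ω => ps (lab μ κ hjk a bs) (y1 hjk a ω) :=
    (measurable_ps _).comp (measurable_y1 hjk a)
  have mP2 : Measurable fun ω => ps (lab μ κ hkl b bt) (y2 hkl b ω) :=
    (measurable_ps _).comp (measurable_y2 hkl b)
  have key := joint_replace (μ := μ) (ν := κ.prod (uni.prod (uni.prod uni)))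
    (measurable_spS μ κ hjk hkl hjl a b c bs) (measurable_spT μ κ hjk hkl hjl a b c bt) mP1 mP2
    (fun p => by
      rw [abs_of_nonneg (spS_nonneg μ κ hjk hkl hjl a b c bs p)]
      exact spS_le μ κ hjk hkl hjl a b c bs p)
    (fun p => by
      rw [abs_of_nonneg (spT_nonneg μ κ hjk hkl hjl a b c bt p)]
      exact spT_le μ κ hjk hkl hjl a b c bt p)
    (fun p => abs_ps_le _ _) (fun p => abs_ps_le _ _) k1 k2
  simp only [ps_J2 μ κ hjk hkl a b bs bt] at key
  linarith

end Main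

end Crest.Agent.R014.HR3s_108
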