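import Crest.Agent.R014.HR3s2_108
import Crest.Agent.R014.Nh5_849

/-!
Row 14, block D, section 4, helper108: input (B) of `RAs2_460.Inp` with the function `ST` of
`Nh5_849`.
-/

set_option autoImplicit false

open MeasureTheory Finset Filter Topology Crest.NumberTheoryR.Packets
open Crest.Agent.R014.Nd_837 Crest.Agent.R014.Ne1_567 Crest.Agent.R014.Ne3_567
open Crest.Agent.R014.Ne4_567
open Crest.Agent.R014.NScC_395 (spr spr_nonneg spr_le spr_lip)
open Crest.Agent.R014.NScD_395 Crest.Agent.R014.NScE_395 Crest.Agent.R014.NScG_395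
open Crest.Agent.R014.NScH_395 Crest.Agent.R014.Ms_667
open Crest.Agent.R014.NScG_458 (RN RN_ge)
open Crest.Agent.R014.Prod_108 Crest.Agent.R014.HSp_599 Crest.Agent.R014.Nh5_849
open scoped ENNReal

noncomputable section

namespace Crest.Agent.R014.HR3s_108

variable {n : ℕ}

theorem ST_eq (μ : Measure (ModSpace n)) (κ : Measure (SLR n)) {j k l : Fin n} (hjk : j ≠ k)
    (hkl : k ≠ l) (hjl : j ≠ l) (γ : ℝ) (bs bt : ℕ) [NeZero bs] [NeZero bt] (ω : Om n) :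
    ST μ κ hjk hkl hjl γ bs bt ω =
      1 / 2 ^ 8 * (spS μ κ hjk hkl hjl 4 4 γ bs ω * spT μ κ hjk hkl hjl 4 4 γ bt ω) := by
  have h1 : ∀ {b : ℕ} (p : Fin b → ℝ), spr (fun c => 1 / 16 * cen b c) p =
      1 / 16 * spr (cen b) p := fun {b} p =>
    mdist_smul p (cen b) (by norm_num : (0:ℝ) ≤ 1 / 16)
  unfold Nh5_849.ST spS spT
  rw [h1, h1]
  ring

/-- **(B)**. -/
theorem inB (bs bt : ℕ) [NeZero bs] [NeZero bt] {e : ℝ} (he : 0 < e) :
    ∃ η U : ℝ, 0 < η ∧ 0 < U ∧ ∀ μ : Measure (ModSpace n), IsProbabilityMeasure μ → AInv μ →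
      ∀ u1 u2 M W : ℝ, U ≤ u1 → 100 * (u1 + W) ≤ M → 2 * M ≤ u2 / 20 →
      NC μ u1 u2 {bs, bt} η → 4 ≤ W → ∀ (j k l : Fin n) (hjk : j ≠ k) (hkl : k ≠ l)
      (hjl : j ≠ l) (γ m gS gT : ℝ),
      HH (PM μ (zt (RN j k l M))) (fun ω => dg bs (ss ω)) (y1 hjk 4) - m
        ≤ HH (PM μ (zt (RN j k l M))) (fun ω => dg bs (ss ω))
          (fun ω => (zz hjk hkl hjl 4 4 γ ω, (tt ω, rp 4 4 γ ω))) →
      HH (PM μ (zt (RN j k l M))) (fun ω => dg bt (tt ω)) (y2 hkl 4)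
        ≤ HH (PM μ (zt (RN j k l M))) (fun ω => dg bt (tt ω))
          (fun ω => (zz hjk hkl hjl 4 4 γ ω, (ss ω, rr ω))) →
      HH (PM μ (zt (RN j k l M))) (fun ω => dg bs (ss ω)) (zz hjk hkl hjl 4 4 γ)
        - HH (PM μ (zt (RN j k l M))) (fun ω => dg bs (ss ω)) (y1 hjk 4) ≤ gS →
      HH (PM μ (zt (RN j k l M))) (fun ω => dg bt (tt ω)) (zz hjk hkl hjl 4 4 γ)
        - HH (PM μ (zt (RN j k l M))) (fun ω => dg bt (tt ω)) (y2 hkl 4) ≤ gT →
      ∫ x, |(∫ q, ST μ (zt (RN j k l M)) hjk hkl hjl γ bs bt (x, q)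
            ∂((zt (RN j k l M)).prod (uni.prod (uni.prod uni))))
          - 1 / 2 ^ 8 * (PZ μ u1 bs j k (act x (aT (tI j 4)))
            * PZ μ u1 bt k l (act x (aT (tI k 4))))| ∂μ
        ≤ 1 / 2 ^ 8 * (16 * (√(gS + m) + √m) + 16 * √gT + e) := by
  obtain ⟨η, U, hη, hU, h⟩ := prod_RN (n := n) (NeZero.pos bs) (NeZero.pos bt) he
  refine ⟨η, max U (20 * |c1N n| + 1), hη, lt_of_lt_of_le hU (le_max_left _ _), ?_⟩
  intro μ hμp hμ u1 u2 M W h1 h2 h3 hN hW j k l hjk hkl hjl γ m gS gT g1 g2 g3 g4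
  have hU1 : U ≤ u1 := le_trans (le_max_left _ _) h1
  have hc : 20 * |c1N n| + 1 ≤ u1 := le_trans (le_max_right _ _) h1
  have hc0 := abs_nonneg (c1N n)
  have hc1 := le_abs_self (c1N n)
  have hu1 : 0 ≤ u1 := by linarith
  have hadm : Nz_323.Adm (RN j k l M) := (noiseFam n).adm_of _ fun p q => by
    have h5 := RN_ge (j := j) (k := k) (l := l) (M := M) (by linarith) p q
    linarith
  have := isProb_zt hadm
  set κ := zt (RN j k l M) with hκ
  have key := h μ hμp hμ u1 u2 M W hU1 h2 h3 hN j k l hjk hkl hjl 4 4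
    (by rw [abs_of_pos (by norm_num : (0:ℝ) < 4)]; exact hW)
    (by rw [abs_of_pos (by norm_num : (0:ℝ) < 4)]; exact hW)
  rw [← hκ] at key
  have k2 := R3s μ κ hjk hkl hjl 4 4 γ bs bt g1 g2
  -- the three functions
  set J : ModSpace n → ℝ := J2 κ hjk hkl 4 4 (lab μ κ hjk 4 bs) (lab μ κ hkl 4 bt) with hJ
  set F : ModSpace n → ℝ := fun x => ∫ q, spS μ κ hjk hkl hjl 4 4 γ bs (x, q) *
    spT μ κ hjk hkl hjl 4 4 γ bt (x, q) ∂(κ.prod (uni.prod (uni.prod uni))) with hF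
  set G : ModSpace n → ℝ := fun x => PZ μ u1 bs j k (act x (aT (tI j 4)))
    * PZ μ u1 bt k l (act x (aT (tI k 4))) with hG
  have mF : Measurable F :=
    ((measurable_spS μ κ hjk hkl hjl 4 4 γ bs).mul
      (measurable_spT μ κ hjk hkl hjl 4 4 γ bt)).stronglyMeasurable.integral_prod_right'.measurable
  have mJ : Measurable J := measurable_J2 κ hjk hkl 4 4 _ _
  have hc20 : 20 * c1N n ≤ u1 := by linarith
  have mG : Measurable G :=
    ((measurable_PZ hc20 hu1 bs j k).comp (measurable_act _)).mul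
      ((measurable_PZ hc20 hu1 bt k l).comp (measurable_act _))
  have bF : ∀ x, |F x| ≤ 4 := fun x => by
    have h := norm_integral_le_of_norm_le_const (μ := κ.prod (uni.prod (uni.prod uni))) (C := 4)
      (f := fun q => spS μ κ hjk hkl hjl 4 4 γ bs (x, q) * spT μ κ hjk hkl hjl 4 4 γ bt (x, q))
      (Eventually.of_forall fun q => by
        rw [Real.norm_eq_abs, abs_mul, abs_of_nonneg (spS_nonneg μ κ hjk hkl hjl 4 4 γ bs _),
          abs_of_nonneg (spT_nonneg μ κ hjk hkl hjl 4 4 γ bt _)]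
        have := mul_le_mul (spS_le μ κ hjk hkl hjl 4 4 γ bs (x, q))
          (spT_le μ κ hjk hkl hjl 4 4 γ bt (x, q))
          (spT_nonneg μ κ hjk hkl hjl 4 4 γ bt (x, q)) (by norm_num)
        linarith)
    simpa using h
  have bJ : ∀ x, |J x| ≤ 4 := fun x => by
    rw [abs_of_nonneg (J2_nonneg κ hjk hkl 4 4 _ _ x)]
    exact J2_le κ hjk hkl 4 4 _ _ x
  have bG : ∀ x, |G x| ≤ 4 := fun x => by
    have a1 := PZ_nonneg (μ := μ) hc20 hu1 bs j k (act x (aT (tI j 4)))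
    have a2 := PZ_nonneg (μ := μ) hc20 hu1 bt k l (act x (aT (tI k 4)))
    have a3 := PZ_le (μ := μ) hc20 hu1 bs j k (act x (aT (tI j 4)))
    have a4 := PZ_le (μ := μ) hc20 hu1 bt k l (act x (aT (tI k 4)))
    rw [hG]
    simp only
    rw [abs_mul, abs_of_nonneg a1, abs_of_nonneg a2]
    have := mul_le_mul a3 a4 a2 (by norm_num)
    linarith
  have iF : Integrable F μ := integrable_bdd mF bF
  have iJ : Integrable J μ := integrable_bdd mJ bJ
  have iG : Integrable G μ := integrable_bdd mG bG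
  have e1 : ∫ x, |(∫ q, ST μ κ hjk hkl hjl γ bs bt (x, q)
            ∂(κ.prod (uni.prod (uni.prod uni)))) - 1 / 2 ^ 8 * G x| ∂μ
      = 1 / 2 ^ 8 * ∫ x, |F x - G x| ∂μ := by
    rw [← integral_const_mul]
    refine integral_congr_ae (Eventually.of_forall fun x => ?_)
    simp only [ST_eq]
    rw [integral_const_mul, ← mul_sub, abs_mul, abs_of_pos (by norm_num : (0:ℝ) < 1 / 2 ^ 8)]
  rw [e1]
  refine mul_le_mul_of_nonneg_left ?_ (by norm_num)
  have e2 : ∫ x, |F x - G x| ∂μ ≤ (∫ x, |F x - J x| ∂μ) + ∫ x, |J x - G x| ∂μ := by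
    have i1 : Integrable (fun x => |F x - J x|) μ := (iF.sub iJ).abs
    have i2 : Integrable (fun x => |J x - G x|) μ := (iJ.sub iG).abs
    rw [← integral_add i1 i2]
    exact integral_mono (iF.sub iG).abs (i1.add i2) fun x => abs_sub_le _ _ _
  have s1 : √(HH (PM μ κ) (fun ω => dg bs (ss ω)) (zz hjk hkl hjl 4 4 γ)
      - HH (PM μ κ) (fun ω => dg bs (ss ω)) (y1 hjk 4) + m) ≤ √(gS + m) :=
    Real.sqrt_le_sqrt (by linarith)
  have s2 : √(HH (PM μ κ) (fun ω => dg bt (tt ω)) (zz hjk hkl hjl 4 4 γ)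
      - HH (PM μ κ) (fun ω => dg bt (tt ω)) (y2 hkl 4)) ≤ √gT := Real.sqrt_le_sqrt g4
  linarith

end Crest.Agent.R014.HR3s_108
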