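import Crest.Agent.R014.Ne4_567

/-!
Row 14, block D (noise formalism), section 4: random variable form of conditional laws.
`(Ω, P)` probability, finite labels `d, e`, observations `Y`.
* `pv_unique`, `po_marg`, `po_chain`: a.e. identities of posteriors;
* `ev`: `E G(Y, d) = E Σ_c P(d = c | Y) G(Y, c)`;
* `pin`, `pin2`: L1 comparison of posteriors by entropies;
* `ind`: near independence from entropies.
-/

set_option autoImplicit false
set_option linter.unusedSectionVars false

namespace Crest.Agent.R014.Nh2_849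

open MeasureTheory Finset
open scoped ENNReal
open Crest.Agent.R014.Ne1_567 Crest.Agent.R014.Ne2_567 Crest.Agent.R014.Ne3_567
open Crest.Agent.R014.Ne4_567

variable {Ω ι κ Y Z Z' : Type*} [Fintype ι] [Fintype κ] [MeasurableSpace Ω] [MeasurableSpace Y]
  [MeasurableSpace Z] [MeasurableSpace Z'] [MeasurableSpace ι] [MeasurableSingletonClass ι]
  [MeasurableSpace κ] [MeasurableSingletonClass κ]

variable (P : Measure Ω) [IsProbabilityMeasure P] {d : Ω → ι} {e : Ω → κ} {Yv : Ω → Y}

theorem integrable_of_bdd {f : Ω → ℝ} (hf : Measurable f) {M : ℝ} (hM : ∀ ω, |f ω| ≤ M) :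
    Integrable f P :=
  Integrable.of_bound hf.aestronglyMeasurable M (Filter.Eventually.of_forall fun ω => hM ω)

theorem abs_pv_le_one [Nonempty ι] (ρ : ι → Measure Y) (c : ι) (y : Y) : |pv ρ c y| ≤ 1 := by
  rw [abs_of_nonneg (pv_nonneg ρ c y)]; exact pv_le_one ρ c y

/-- uniqueness of the posterior -/
theorem pv_unique [Nonempty ι] (hd : Measurable d) (hY : Measurable Yv) (c : ι) {q : Y → ℝ}
    (hq : Measurable q) {M : ℝ} (hM : ∀ y, |q y| ≤ M)
    (h : ∀ A : Set Y, MeasurableSet A → ∫ ω, A.indicator 1 (Yv ω) * q (Yv ω) ∂P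
      = P.real (d ⁻¹' {c} ∩ Yv ⁻¹' A)) :
    ∀ᵐ ω ∂P, pv (rv P d Yv) c (Yv ω) = q (Yv ω) := by
  have hprob : IsProbabilityMeasure (P.map Yv) := Measure.isProbabilityMeasure_map hY.aemeasurable
  have hmp := measurable_pv (rv P d Yv) c
  have i1 : Integrable (fun y => pv (rv P d Yv) c y) (P.map Yv) :=
    Integrable.of_bound hmp.aestronglyMeasurable 1
      (Filter.Eventually.of_forall fun y => abs_pv_le_one _ c y)
  have i2 : Integrable q (P.map Yv) :=
    Integrable.of_bound hq.aestronglyMeasurable M (Filter.Eventually.of_forall hM)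
  have key : (fun y => pv (rv P d Yv) c y) =ᵐ[P.map Yv] q := by
    refine Integrable.ae_eq_of_forall_setIntegral_eq _ _ i1 i2 fun A hA _ => ?_
    have e1 : ∫ y in A, pv (rv P d Yv) c y ∂(P.map Yv)
        = ∫ ω, pv (rv P d Yv) c (Yv ω) * A.indicator 1 (Yv ω) ∂P := by
      rw [← integral_indicator hA, integral_map hY.aemeasurable]
      · refine integral_congr_ae (Filter.Eventually.of_forall fun ω => ?_)
        by_cases hω : Yv ω ∈ A
        · simp [hω]
        · simp [hω]
      · exact (hmp.indicator hA).aestronglyMeasurable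
    have e2 : ∫ y in A, q y ∂(P.map Yv) = ∫ ω, A.indicator 1 (Yv ω) * q (Yv ω) ∂P := by
      rw [← integral_indicator hA, integral_map hY.aemeasurable]
      · refine integral_congr_ae (Filter.Eventually.of_forall fun ω => ?_)
        by_cases hω : Yv ω ∈ A
        · simp [hω]
        · simp [hω]
      · exact (hq.indicator hA).aestronglyMeasurable
    have hAm : Measurable (A.indicator (1 : Y → ℝ)) := measurable_one.indicator hA
    rw [e1, e2, h A hA, integral_pv_HH P hd hY c hAm]
    have e3 : (fun ω => A.indicator (1 : Y → ℝ) (Yv ω)) = (Yv ⁻¹' A).indicator 1 := by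
      funext ω
      by_cases hω : Yv ω ∈ A
      · simp [hω]
      · simp [hω]
    rw [e3, integral_indicator_one (hY hA), measureReal_restrict_apply (hY hA), Set.inter_comm]
  exact ae_of_ae_map hY.aemeasurable key

/-- posterior integrated over an event of the observation -/
theorem int_po [Nonempty ι] (hd : Measurable d) (hY : Measurable Yv) (c : ι) {A : Set Y}
    (hA : MeasurableSet A) :
    ∫ ω, A.indicator 1 (Yv ω) * pv (rv P d Yv) c (Yv ω) ∂P = P.real (d ⁻¹' {c} ∩ Yv ⁻¹' A) := by
  have hAm : Measurable (A.indicator (1 : Y → ℝ)) := measurable_one.indicator hA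
  have e3 : (fun ω => A.indicator (1 : Y → ℝ) (Yv ω)) = (Yv ⁻¹' A).indicator 1 := by
    funext ω
    by_cases hω : Yv ω ∈ A
    · simp [hω]
    · simp [hω]
  have h := integral_pv_HH P hd hY c hAm
  rw [e3, integral_indicator_one (hY hA), measureReal_restrict_apply (hY hA), Set.inter_comm] at h
  rw [← h]
  refine integral_congr_ae (Filter.Eventually.of_forall fun ω => ?_)
  simp only
  rw [mul_comm]

/-- posterior of a function of the label -/
theorem po_marg [Nonempty ι] [Nonempty κ] [DecidableEq κ] (hd : Measurable d) (hY : Measurable Yv)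
    (g : ι → κ) :
    ∀ᵐ ω ∂P, ∀ k, pv (rv P (fun ω => g (d ω)) Yv) k (Yv ω)
      = ∑ c, if g c = k then pv (rv P d Yv) c (Yv ω) else 0 := by
  rw [ae_all_iff]
  intro k
  have hg : Measurable fun ω => g (d ω) := (measurable_of_countable g).comp hd
  refine pv_unique P hg hY k (q := fun y => ∑ c, if g c = k then pv (rv P d Yv) c y else 0) ?_
    (M := Fintype.card ι) ?_ ?_
  · refine Finset.measurable_sum _ fun c _ => ?_
    split_ifs
    · exact measurable_pv _ c
    · exact measurable_const
  · intro y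
    refine (Finset.abs_sum_le_sum_abs _ _).trans ?_
    have : ∀ c ∈ (Finset.univ : Finset ι), |if g c = k then pv (rv P d Yv) c y else 0| ≤ 1 := by
      intro c _
      split_ifs
      · exact abs_pv_le_one _ c y
      · simp
    refine (Finset.sum_le_sum this).trans ?_
    simp
  · intro A hA
    have e1 : ∀ ω, A.indicator 1 (Yv ω) * (∑ c, if g c = k then pv (rv P d Yv) c (Yv ω) else 0)
        = ∑ c, if g c = k then A.indicator 1 (Yv ω) * pv (rv P d Yv) c (Yv ω) else 0 := by
      intro ω
      rw [Finset.mul_sum]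
      refine Finset.sum_congr rfl fun c _ => ?_
      split_ifs
      · rfl
      · simp
    simp_rw [e1]
    have hAm : Measurable (A.indicator (1 : Y → ℝ)) := measurable_one.indicator hA
    rw [integral_finsetSum]
    · have e2 : ∀ c, ∫ ω, (if g c = k then A.indicator 1 (Yv ω) * pv (rv P d Yv) c (Yv ω) else 0) ∂P
          = if g c = k then P.real (d ⁻¹' {c} ∩ Yv ⁻¹' A) else 0 := by
        intro c
        by_cases hc : g c = k
        · simp only [hc, if_true]
          exact int_po P hd hY c hA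
        · simp [hc]
      simp_rw [e2]
      rw [← Finset.sum_filter, ← measureReal_biUnion_finset]
      · congr 1
        ext ω
        simp
      · intro a _ b _ hab
        refine Set.disjoint_left.2 fun ω h1 h2 => hab ?_
        rw [← h1.1, ← h2.1]
      · intro c _
        exact (hd (measurableSet_singleton c)).inter (hY hA)
    · intro c _
      split_ifs
      · refine integrable_of_bdd P ((hAm.comp hY).mul ((measurable_pv _ c).comp hY)) (M := 1) ?_
        intro ω
        rw [abs_mul]
        refine mul_le_one₀ ?_ (abs_nonneg _) (abs_pv_le_one _ c _)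
        by_cases hω : Yv ω ∈ A
        · simp [hω]
        · simp [hω]
      · exact integrable_zero _ _ _

/-- `E G(Y, d) = E Σ_c P(d = c | Y) G(Y, c)` -/
theorem ev [Nonempty ι] (hd : Measurable d) (hY : Measurable Yv) {G : Y → ι → ℝ}
    (hG : ∀ c, Measurable fun y => G y c) {M : ℝ} (hM : ∀ y c, |G y c| ≤ M) :
    ∫ ω, G (Yv ω) (d ω) ∂P = ∫ ω, ∑ c, pv (rv P d Yv) c (Yv ω) * G (Yv ω) c ∂P := by
  have hi : ∀ c, Integrable (fun ω => pv (rv P d Yv) c (Yv ω) * G (Yv ω) c) P := by
    intro c
    refine integrable_of_bdd P (((measurable_pv _ c).comp hY).mul ((hG c).comp hY)) (M := 1 * M) ?_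
    intro ω
    rw [abs_mul]
    exact mul_le_mul (abs_pv_le_one _ c _) (hM _ _) (abs_nonneg _) zero_le_one
  rw [integral_finsetSum _ fun c _ => hi c]
  have h1 : ∀ c, ∫ ω, pv (rv P d Yv) c (Yv ω) * G (Yv ω) c ∂P
      = ∫ ω in d ⁻¹' {c}, G (Yv ω) c ∂P := fun c => integral_pv_HH P hd hY c (hG c)
  simp_rw [h1]
  have hGd : Measurable fun ω => G (Yv ω) (d ω) := by
    classical
    have : (fun ω => G (Yv ω) (d ω)) = fun ω => ∑ c, (d ⁻¹' {c}).indicator (fun ω => G (Yv ω) c) ω := by
      funext ω
      rw [Finset.sum_eq_single (d ω)]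
      · rw [Set.indicator_of_mem]
        rfl
      · intro c _ hc
        rw [Set.indicator_of_notMem]
        intro h
        exact hc h.symm
      · intro h
        exact absurd (Finset.mem_univ _) h
    rw [this]
    exact Finset.measurable_sum _ fun c _ =>
      ((hG c).comp hY).indicator (hd (measurableSet_singleton c))
  have h2 : ∀ c, ∫ ω in d ⁻¹' {c}, G (Yv ω) c ∂P = ∫ ω in d ⁻¹' {c}, G (Yv ω) (d ω) ∂P := by
    intro c
    refine setIntegral_congr_fun (hd (measurableSet_singleton c)) fun ω hω => ?_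
    have : d ω = c := hω
    rw [this]
  simp_rw [h2]
  rw [← integral_biUnion_finset]
  · have : (⋃ i ∈ (Finset.univ : Finset ι), d ⁻¹' {i}) = Set.univ := by
      ext ω
      simp
    rw [this, setIntegral_univ]
  · intro c _
    exact hd (measurableSet_singleton c)
  · intro a _ b _ hab
    refine Set.disjoint_left.2 fun ω h1 h2 => hab ?_
    have e1 : d ω = a := h1
    have e2 : d ω = b := h2
    rw [← e1, e2]
  · intro c _
    exact (integrable_of_bdd P hGd (fun ω => hM _ _)).integrableOn

/-- chain rule for posteriors -/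
theorem po_chain [Nonempty ι] [Nonempty κ] (hd : Measurable d) (he : Measurable e)
    (hY : Measurable Yv) :
    ∀ᵐ ω ∂P, ∀ c k, pv (rv P (fun ω => (d ω, e ω)) Yv) (c, k) (Yv ω)
      = pv (rv P e Yv) k (Yv ω) * pv (rv P d (fun ω => (Yv ω, e ω))) c (Yv ω, k) := by
  rw [ae_all_iff]
  intro c
  rw [ae_all_iff]
  intro k
  have hde : Measurable fun ω => (d ω, e ω) := hd.prodMk he
  have hYe : Measurable fun ω => (Yv ω, e ω) := hY.prodMk he
  have hm1 : Measurable fun y : Y => pv (rv P d (fun ω => (Yv ω, e ω))) c (y, k) :=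
    (measurable_pv _ c).comp (measurable_id.prodMk measurable_const)
  refine pv_unique P hde hY (c, k)
    (q := fun y => pv (rv P e Yv) k y * pv (rv P d (fun ω => (Yv ω, e ω))) c (y, k))
    ((measurable_pv _ k).mul hm1) (M := 1) ?_ ?_
  · intro y
    rw [abs_mul]
    exact mul_le_one₀ (abs_pv_le_one _ k y) (abs_nonneg _) (abs_pv_le_one _ c _)
  · intro A hA
    have hAm : Measurable (A.indicator (1 : Y → ℝ)) := measurable_one.indicator hA
    have e1 : ∫ ω, A.indicator 1 (Yv ω) * (pv (rv P e Yv) k (Yv ω) *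
        pv (rv P d (fun ω => (Yv ω, e ω))) c (Yv ω, k)) ∂P
        = ∫ ω, pv (rv P e Yv) k (Yv ω) * (A.indicator 1 (Yv ω) *
        pv (rv P d (fun ω => (Yv ω, e ω))) c (Yv ω, k)) ∂P := by
      refine integral_congr_ae (Filter.Eventually.of_forall fun ω => ?_)
      simp only
      ring
    rw [e1, integral_pv_HH P he hY k (f := fun y => A.indicator 1 y *
        pv (rv P d (fun ω => (Yv ω, e ω))) c (y, k)) (hAm.mul hm1)]
    have e2 : ∫ ω in e ⁻¹' {k}, A.indicator 1 (Yv ω) *
        pv (rv P d (fun ω => (Yv ω, e ω))) c (Yv ω, k) ∂P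
        = ∫ ω, (A ×ˢ ({k} : Set κ)).indicator 1 (Yv ω, e ω) *
          pv (rv P d (fun ω => (Yv ω, e ω))) c (Yv ω, e ω) ∂P := by
      rw [← integral_indicator (he (measurableSet_singleton k))]
      refine integral_congr_ae (Filter.Eventually.of_forall fun ω => ?_)
      by_cases h1 : e ω = k
      · have h2 : ω ∈ e ⁻¹' {k} := h1
        simp only [Set.indicator_of_mem h2]
        rw [h1]
        congr 1
        by_cases hω : Yv ω ∈ A
        · simp [hω, Set.indicator]
        · simp [hω, Set.indicator]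
      · have h2 : ω ∉ e ⁻¹' {k} := h1
        simp only [Set.indicator_of_notMem h2]
        have h3 : (Yv ω, e ω) ∉ A ×ˢ ({k} : Set κ) := fun h => h1 h.2
        rw [Set.indicator_of_notMem h3, zero_mul]
    rw [e2, int_po P hd hYe c (hA.prod (measurableSet_singleton k))]
    congr 1
    ext ω
    simp only [Set.mem_inter_iff, Set.mem_preimage, Set.mem_singleton_iff, Set.mem_prod, Prod.mk.injEq]
    tauto

theorem sum_abs_le_two [Nonempty ι] (ρ : ι → Measure Y) (ρ' : ι → Measure Z) (y : Y) (z : Z) :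
    ∑ c, |pv ρ c y - pv ρ' c z| ≤ 2 := by
  calc ∑ c, |pv ρ c y - pv ρ' c z| ≤ ∑ c, (pv ρ c y + pv ρ' c z) := by
        refine Finset.sum_le_sum fun c _ => ?_
        have e1 := pv_nonneg ρ c y
        have e2 := pv_nonneg ρ' c z
        rw [abs_le]; constructor <;> linarith
    _ = 2 := by rw [Finset.sum_add_distrib, sum_pv, sum_pv]; norm_num

theorem measurable_pvd (hY : Measurable Yv) {K : Y → Z} (hK : Measurable K) :
    Measurable fun ω => ∑ c, |pv (rv P d Yv) c (Yv ω) -
      pv (rv P d (fun ω => K (Yv ω))) c (K (Yv ω))| := by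
  refine Finset.measurable_sum _ fun c _ => ?_
  exact (((measurable_pv _ c).comp hY).sub ((measurable_pv _ c).comp (hK.comp hY))).abs

/-- Pinsker, first power. -/
theorem pin [Nonempty ι] (hd : Measurable d) (hY : Measurable Yv) {K : Y → Z} (hK : Measurable K) :
    ∫ ω, ∑ c, |pv (rv P d Yv) c (Yv ω) - pv (rv P d (fun ω => K (Yv ω))) c (K (Yv ω))| ∂P
      ≤ 2 * √(HH P d (fun ω => K (Yv ω)) - HH P d Yv) := by
  have h := pinsker_HH P (K := K) hK hd hY
  have h2 := integral_le_sqrt (θ := P) (by simp) (measurable_pvd P hY hK) (M := 2) (by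
    intro ω
    rw [abs_of_nonneg (Finset.sum_nonneg fun c _ => abs_nonneg _)]
    exact sum_abs_le_two _ _ _ _) h
  refine h2.trans (le_of_eq ?_)
  rw [Real.sqrt_mul (by norm_num)]
  congr 1
  rw [show (4:ℝ) = 2^2 by norm_num, Real.sqrt_sq (by norm_num)]

/-- two observations computed from a third one. -/
theorem pin2 [Nonempty ι] (hd : Measurable d) (hY : Measurable Yv) {K : Y → Z} {L : Y → Z'}
    (hK : Measurable K) (hL : Measurable L) :
    ∫ ω, ∑ c, |pv (rv P d (fun ω => K (Yv ω))) c (K (Yv ω)) -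
        pv (rv P d (fun ω => L (Yv ω))) c (L (Yv ω))| ∂P
      ≤ 2 * √(HH P d (fun ω => K (Yv ω)) - HH P d Yv) + 2 * √(HH P d (fun ω => L (Yv ω)) - HH P d Yv) := by
  have h1 := pin P hd hY hK
  have h2 := pin P hd hY hL
  have i1 : Integrable (fun ω => ∑ c, |pv (rv P d Yv) c (Yv ω) -
      pv (rv P d (fun ω => K (Yv ω))) c (K (Yv ω))|) P :=
    integrable_of_bdd P (measurable_pvd P hY hK) (M := 2) (by
      intro ω
      rw [abs_of_nonneg (Finset.sum_nonneg fun c _ => abs_nonneg _)]
      exact sum_abs_le_two _ _ _ _)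
  have i2 : Integrable (fun ω => ∑ c, |pv (rv P d Yv) c (Yv ω) -
      pv (rv P d (fun ω => L (Yv ω))) c (L (Yv ω))|) P :=
    integrable_of_bdd P (measurable_pvd P hY hL) (M := 2) (by
      intro ω
      rw [abs_of_nonneg (Finset.sum_nonneg fun c _ => abs_nonneg _)]
      exact sum_abs_le_two _ _ _ _)
  have h3 : ∫ ω, ∑ c, |pv (rv P d (fun ω => K (Yv ω))) c (K (Yv ω)) -
        pv (rv P d (fun ω => L (Yv ω))) c (L (Yv ω))| ∂P
      ≤ ∫ ω, ((∑ c, |pv (rv P d Yv) c (Yv ω) - pv (rv P d (fun ω => K (Yv ω))) c (K (Yv ω))|)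
        + ∑ c, |pv (rv P d Yv) c (Yv ω) - pv (rv P d (fun ω => L (Yv ω))) c (L (Yv ω))|) ∂P := by
    refine integral_mono ?_ (i1.add i2) fun ω => ?_
    · refine integrable_of_bdd P ?_ (M := 2) ?_
      · refine Finset.measurable_sum _ fun c _ => ?_
        exact (((measurable_pv _ c).comp (hK.comp hY)).sub ((measurable_pv _ c).comp (hL.comp hY))).abs
      · intro ω
        rw [abs_of_nonneg (Finset.sum_nonneg fun c _ => abs_nonneg _)]
        exact sum_abs_le_two _ _ _ _
    · simp only
      rw [← Finset.sum_add_distrib]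
      refine Finset.sum_le_sum fun c _ => ?_
      have := abs_sub_le (pv (rv P d (fun ω => K (Yv ω))) c (K (Yv ω))) (pv (rv P d Yv) c (Yv ω))
        (pv (rv P d (fun ω => L (Yv ω))) c (L (Yv ω)))
      rw [abs_sub_comm (pv (rv P d (fun ω => K (Yv ω))) c (K (Yv ω))) (pv (rv P d Yv) c (Yv ω))] at this
      exact this
  rw [integral_add i1 i2] at h3
  linarith

/-- near independence of two labels given the observation. -/
theorem ind [Nonempty ι] [Nonempty κ] (hd : Measurable d) (he : Measurable e) (hY : Measurable Yv) :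
    ∫ ω, ∑ c, ∑ k, |pv (rv P (fun ω => (d ω, e ω)) Yv) (c, k) (Yv ω)
        - pv (rv P d Yv) c (Yv ω) * pv (rv P e Yv) k (Yv ω)| ∂P
      ≤ 2 * √(HH P d Yv - HH P d (fun ω => (Yv ω, e ω))) := by
  have hYe : Measurable fun ω => (Yv ω, e ω) := hY.prodMk he
  have hpin := pin P hd hYe (K := Prod.fst) measurable_fst
  have hmk : ∀ k : κ, Measurable fun y : Y => (y, k) := fun k => measurable_id.prodMk measurable_const
  have hev := ev P he hY (G := fun y k => ∑ c, |pv (rv P d (fun ω => (Yv ω, e ω))) c (y, k)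
      - pv (rv P d Yv) c y|) (by
      intro k
      refine Finset.measurable_sum _ fun c _ => ?_
      exact (((measurable_pv _ c).comp (hmk k)).sub (measurable_pv _ c)).abs) (M := 2) (by
      intro y k
      rw [abs_of_nonneg (Finset.sum_nonneg fun c _ => abs_nonneg _)]
      exact sum_abs_le_two _ _ _ _)
  refine le_trans (le_of_eq ?_) hpin
  rw [show (∫ ω, ∑ c, |pv (rv P d (fun ω => (Yv ω, e ω))) c (Yv ω, e ω) -
      pv (rv P d (fun ω => (Yv ω, e ω).1)) c (Yv ω, e ω).1| ∂P) = ∫ ω, ∑ c, |pv (rv P d (fun ω => (Yv ω, e ω))) c (Yv ω, e ω)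
      - pv (rv P d Yv) c (Yv ω)| ∂P from rfl]
  rw [hev]
  refine integral_congr_ae ?_
  filter_upwards [po_chain P hd he hY] with ω hω
  rw [Finset.sum_comm]
  refine Finset.sum_congr rfl fun k _ => ?_
  rw [Finset.mul_sum]
  refine Finset.sum_congr rfl fun c _ => ?_
  rw [hω c k, mul_comm (pv (rv P d Yv) c (Yv ω)), ← mul_sub, abs_mul,
    abs_of_nonneg (pv_nonneg _ k _)]

end Crest.Agent.R014.Nh2_849
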