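import Crest.Agent.R014.Nh1_849
import Crest.Agent.R014.Nh2_849

/-!
Row 14, block D (noise formalism), section 4: the abstract Heisenberg step for random variables.
-/

set_option autoImplicit false
set_option linter.unusedSectionVars false

namespace Crest.Agent.R014.Nh3_849

open MeasureTheory Finset
open scoped ENNReal
open Crest.Agent.R014.Ne1_567 Crest.Agent.R014.Ne2_567 Crest.Agent.R014.Ne3_567
open Crest.Agent.R014.Ne4_567 Crest.Agent.R014.Nh1_849 Crest.Agent.R014.Nh2_849

noncomputable section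

/-! ### finite lemmas -/

section fin

variable {A ι : Type*} [Fintype A] [Fintype ι]

/-- `mdist` is Lipschitz in the probability vector. -/
theorem mdist_lip {p q x : A → ℝ} {D : ℝ} (hx : ∀ c c', |x c - x c'| ≤ D) (hp0 : ∀ c, 0 ≤ p c)
    (hp1 : ∑ c, p c = 1) (hq0 : ∀ c, 0 ≤ q c) (hq1 : ∑ c, q c = 1) :
    |mdist p x - mdist q x| ≤ 2 * D * ∑ c, |p c - q c| := by
  unfold mdist
  simp_rw [← Finset.sum_sub_distrib]
  have key : ∀ c c', abs (p c * p c' * abs (x c - x c') - q c * q c' * abs (x c - x c')) ≤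
      D * (|p c - q c| * p c' + q c * |p c' - q c'|) := by
    intro c c'
    have e1 : p c * p c' * |x c - x c'| - q c * q c' * |x c - x c'|
        = |x c - x c'| * ((p c - q c) * p c' + q c * (p c' - q c')) := by ring
    rw [e1, abs_mul, abs_abs]
    have h1 : |(p c - q c) * p c' + q c * (p c' - q c')| ≤ |p c - q c| * p c' + q c * |p c' - q c'| := by
      refine (abs_add_le _ _).trans ?_
      rw [abs_mul, abs_mul, abs_of_nonneg (hp0 c'), abs_of_nonneg (hq0 c)]
    have h2 : 0 ≤ |p c - q c| * p c' + q c * |p c' - q c'| :=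
      add_nonneg (mul_nonneg (abs_nonneg _) (hp0 c')) (mul_nonneg (hq0 c) (abs_nonneg _))
    exact mul_le_mul (hx c c') h1 (abs_nonneg _) ((abs_nonneg _).trans (hx c c'))
  refine (Finset.abs_sum_le_sum_abs _ _).trans ?_
  refine (Finset.sum_le_sum fun c _ => (Finset.abs_sum_le_sum_abs _ _).trans
    (Finset.sum_le_sum fun c' _ => key c c')).trans (le_of_eq ?_)
  simp_rw [← Finset.mul_sum, Finset.sum_add_distrib, ← Finset.mul_sum, ← Finset.sum_mul, hp1, hq1]
  ring

theorem mdist_le {p x : A → ℝ} {D : ℝ} (hx : ∀ c c', |x c - x c'| ≤ D) (h0 : ∀ c, 0 ≤ p c)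
    (h1 : ∑ c, p c = 1) : mdist p x ≤ D := by
  unfold mdist
  have : ∑ c, ∑ c', p c * p c' * |x c - x c'| ≤ ∑ c, ∑ c', p c * p c' * D :=
    Finset.sum_le_sum fun c _ => Finset.sum_le_sum fun c' _ =>
      mul_le_mul_of_nonneg_left (hx c c') (mul_nonneg (h0 c) (h0 c'))
  refine this.trans (le_of_eq ?_)
  simp_rw [← Finset.sum_mul, ← Finset.mul_sum, h1]
  simp [h1]

theorem bs_scale (r : A → ℝ) (bl : A → ι) (w : A → ℝ) (c : ℝ) (β : ι) :
    bs r bl (fun a => c * w a) β = c^2 * bs r bl w β := by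
  classical
  unfold bs
  rw [Finset.mul_sum]
  refine Finset.sum_congr rfl fun a _ => ?_
  rw [Finset.mul_sum]
  refine Finset.sum_congr rfl fun a' _ => ?_
  split_ifs
  · ring
  · simp

theorem bm_scale (bl : A → ι) (w : A → ℝ) (c : ℝ) (β : ι) :
    bm bl (fun a => c * w a) β = c * bm bl w β := by
  classical
  unfold bm
  rw [Finset.mul_sum]
  refine Finset.sum_congr rfl fun a _ => ?_
  split_ifs
  · ring
  · simp

theorem spread_scale (r : A → ℝ) (bl : A → ι) (w : A → ℝ) {c : ℝ} (hc : c ≠ 0) (β : ι) :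
    spread r bl (fun a => c * w a) β = spread r bl w β := by
  unfold spread
  rw [bs_scale, bm_scale, mul_pow, mul_div_mul_left _ _ (pow_ne_zero 2 hc)]

theorem bs_le {r : A → ℝ} {bl : A → ι} {w : A → ℝ} {D : ℝ} (hw : ∀ a, 0 ≤ w a) (β : ι)
    (hD : ∀ a a', bl a = β → bl a' = β → |r a - r a'| ≤ D) :
    bs r bl w β ≤ D * (bm bl w β)^2 := by
  classical
  have e1 : (bm bl w β)^2 = ∑ a, ∑ a', (if bl a = β then w a else 0) * (if bl a' = β then w a' else 0) := by
    unfold bm
    rw [pow_two, Finset.sum_mul_sum]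
  rw [e1, Finset.mul_sum]
  unfold bs
  refine Finset.sum_le_sum fun a _ => ?_
  rw [Finset.mul_sum]
  refine Finset.sum_le_sum fun a' _ => ?_
  by_cases h1 : bl a = β
  · by_cases h2 : bl a' = β
    · rw [if_pos ⟨h1, h2⟩, if_pos h1, if_pos h2, mul_comm D]
      exact mul_le_mul_of_nonneg_left (hD a a' h1 h2) (mul_nonneg (hw a) (hw a'))
    · rw [if_neg (fun h => h2 h.2), if_neg h2]
      simp
  · rw [if_neg (fun h => h1 h.1), if_neg h1]
    simp

theorem spread_le {r : A → ℝ} {bl : A → ι} {w : A → ℝ} {D : ℝ} (hw : ∀ a, 0 ≤ w a) (β : ι)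
    (hD0 : 0 ≤ D) (hD : ∀ a a', bl a = β → bl a' = β → |r a - r a'| ≤ D) :
    spread r bl w β ≤ D := by
  unfold spread
  rcases (bm_nonneg hw β).eq_or_lt with h | h
  · rw [← h]
    simp [hD0]
  · rw [div_le_iff₀ (by positivity)]
    exact bs_le hw β hD

/-- comparison of unnormalised spreads -/
theorem bs_sub {r : A → ℝ} {bl : A → ι} {w v : A → ℝ} {D : ℝ} (hw : ∀ a, 0 ≤ w a) (hv : ∀ a, 0 ≤ v a)
    (β : ι) (hD : ∀ a a', bl a = β → bl a' = β → |r a - r a'| ≤ D) (hD0 : 0 ≤ D) :
    |bs r bl w β - bs r bl v β| ≤ D * (bm bl w β + bm bl v β) * bm bl (fun a => |w a - v a|) β := by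
  classical
  have e1 : (bm bl w β + bm bl v β) * bm bl (fun a => |w a - v a|) β
      = (∑ a, ∑ a', (if bl a = β then |w a - v a| else 0) * (if bl a' = β then w a' else 0))
        + ∑ a, ∑ a', (if bl a = β then v a else 0) * (if bl a' = β then |w a' - v a'| else 0) := by
    unfold bm
    rw [add_mul, mul_comm (∑ a, if bl a = β then w a else 0), Finset.sum_mul_sum, Finset.sum_mul_sum]
  rw [mul_assoc, e1, ← Finset.sum_add_distrib, Finset.mul_sum]
  unfold bs
  rw [← Finset.sum_sub_distrib]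
  refine (Finset.abs_sum_le_sum_abs _ _).trans (Finset.sum_le_sum fun a _ => ?_)
  rw [← Finset.sum_sub_distrib, ← Finset.sum_add_distrib, Finset.mul_sum]
  refine (Finset.abs_sum_le_sum_abs _ _).trans (Finset.sum_le_sum fun a' _ => ?_)
  by_cases h1 : bl a = β
  · by_cases h2 : bl a' = β
    · simp only [h1, h2, and_self, if_true]
      have e3 : w a * w a' * |r a - r a'| - v a * v a' * |r a - r a'|
          = |r a - r a'| * ((w a - v a) * w a' + v a * (w a' - v a')) := by ring
      rw [e3, abs_mul, abs_abs]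
      have h3 : |(w a - v a) * w a' + v a * (w a' - v a')| ≤ |w a - v a| * w a' + v a * |w a' - v a'| := by
        refine (abs_add_le _ _).trans ?_
        rw [abs_mul, abs_mul, abs_of_nonneg (hw a'), abs_of_nonneg (hv a)]
      exact mul_le_mul (hD a a' h1 h2) h3 (abs_nonneg _) hD0
    · simp [h2]
  · simp [h1]

theorem bm_sub {bl : A → ι} {w v : A → ℝ} (β : ι) :
    |bm bl w β - bm bl v β| ≤ bm bl (fun a => |w a - v a|) β := by
  classical
  unfold bm
  rw [← Finset.sum_sub_distrib]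
  refine (Finset.abs_sum_le_sum_abs _ _).trans (Finset.sum_le_sum fun a _ => ?_)
  split_ifs
  · exact le_refl _
  · simp

/-- comparison of the spreads of two laws, weighted by the block masses of the second. -/
theorem spread_cmp_one {r : A → ℝ} {bl : A → ι} {w v : A → ℝ} {D : ℝ} (hw : ∀ a, 0 ≤ w a)
    (hv : ∀ a, 0 ≤ v a) (β : ι) (hD0 : 0 ≤ D)
    (hD : ∀ a a', bl a = β → bl a' = β → |r a - r a'| ≤ D) :
    bm bl v β * |spread r bl w β - spread r bl v β| ≤ 4 * D * bm bl (fun a => |w a - v a|) β := by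
  classical
  set x := bm bl w β with hx
  set y := bm bl v β with hy
  set E := bm bl (fun a => |w a - v a|) β with hE
  have hx0 : 0 ≤ x := bm_nonneg hw β
  have hy0 : 0 ≤ y := bm_nonneg hv β
  have hE0 : 0 ≤ E := bm_nonneg (fun a => abs_nonneg _) β
  have hxy : |x - y| ≤ E := bm_sub β
  have hbs := bs_sub (r := r) hw hv β hD hD0
  rw [← hx, ← hy, ← hE] at hbs
  have hSw := spread_le (r := r) hw β hD0 hD
  have hSv := spread_le (r := r) hv β hD0 hD
  have hSw0 := spread_nonneg (r := r) (bl := bl) hw β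
  have hSv0 := spread_nonneg (r := r) (bl := bl) hv β
  have hDE : 0 ≤ D * E := mul_nonneg hD0 hE0
  rcases hy0.eq_or_lt with h | h
  · rw [← h, zero_mul]
    nlinarith
  · rcases hx0.eq_or_lt with h' | h'
    · -- `x = 0`
      have h1 : y ≤ E := by
        rw [← h', zero_sub, abs_neg, abs_of_nonneg hy0] at hxy
        exact hxy
      have h2 : |spread r bl w β - spread r bl v β| ≤ D := by
        rw [abs_le]
        constructor <;> linarith
      calc y * |spread r bl w β - spread r bl v β| ≤ E * D :=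
            mul_le_mul h1 h2 (abs_nonneg _) hE0
        _ ≤ 4 * D * E := by nlinarith
    · -- both positive
      have hbw : bs r bl w β = spread r bl w β * x^2 := by
        unfold spread
        rw [← hx]
        field_simp
      have hbv : bs r bl v β = spread r bl v β * y^2 := by
        unfold spread
        rw [← hy]
        field_simp
      rw [hbw, hbv] at hbs
      have hS : |spread r bl w β - spread r bl v β| * y ≤ 4 * D * E := by
        have hsum : 0 < x + y := by linarith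
        have k1 : |(spread r bl w β - spread r bl v β) * y^2| ≤ 2 * D * E * (x + y) := by
          have e1 : (spread r bl w β - spread r bl v β) * y^2
              = (spread r bl w β * x^2 - spread r bl v β * y^2)
                - spread r bl w β * ((x - y) * (x + y)) := by ring
          rw [e1]
          refine (abs_sub _ _).trans ?_
          have e2 : |spread r bl w β * ((x - y) * (x + y))| ≤ D * (E * (x + y)) := by
            rw [abs_mul, abs_of_nonneg hSw0, abs_mul, abs_of_pos hsum]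
            exact mul_le_mul hSw (mul_le_mul_of_nonneg_right hxy hsum.le)
              (mul_nonneg (abs_nonneg _) hsum.le) hD0
          nlinarith [hbs, e2]
        have k2 : |(spread r bl w β - spread r bl v β) * x^2| ≤ 2 * D * E * (x + y) := by
          have e1 : (spread r bl w β - spread r bl v β) * x^2
              = (spread r bl w β * x^2 - spread r bl v β * y^2)
                - spread r bl v β * ((x - y) * (x + y)) := by ring
          rw [e1]
          refine (abs_sub _ _).trans ?_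
          have e2 : |spread r bl v β * ((x - y) * (x + y))| ≤ D * (E * (x + y)) := by
            rw [abs_mul, abs_of_nonneg hSv0, abs_mul, abs_of_pos hsum]
            exact mul_le_mul hSv (mul_le_mul_of_nonneg_right hxy hsum.le)
              (mul_nonneg (abs_nonneg _) hsum.le) hD0
          nlinarith [hbs, e2]
        rw [abs_mul, abs_of_pos (by positivity : (0:ℝ) < y^2)] at k1
        rw [abs_mul, abs_of_pos (by positivity : (0:ℝ) < x^2)] at k2
        set Δ := |spread r bl w β - spread r bl v β| with hΔ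
        have hΔ0 : 0 ≤ Δ := abs_nonneg _
        rcases le_total x y with hc | hc
        · -- `x ≤ y`
          have h3 : Δ * y * y ≤ 4 * D * E * y := by nlinarith
          exact le_of_mul_le_mul_right h3 h
        · have h3 : Δ * y * x ≤ 4 * D * E * x := by
            have h4 : Δ * x * x ≤ 4 * D * E * x := by nlinarith
            have h5 : Δ * x ≤ 4 * D * E := le_of_mul_le_mul_right h4 h'
            nlinarith [mul_le_mul_of_nonneg_left hc hΔ0]
          exact le_of_mul_le_mul_right h3 h'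
      rw [mul_comm]
      exact hS

theorem sum_bm_mul (bl : A → ι) (w : A → ℝ) (g : ι → ℝ) :
    ∑ β, bm bl w β * g β = ∑ a, w a * g (bl a) := by
  classical
  unfold bm
  simp_rw [Finset.sum_mul]
  rw [Finset.sum_comm]
  refine Finset.sum_congr rfl fun a _ => ?_
  rw [Finset.sum_eq_single (bl a)]
  · simp
  · intro c _ hc
    rw [if_neg (fun h => hc h.symm), zero_mul]
  · intro h
    exact absurd (Finset.mem_univ _) h

/-- the weighted comparison of the spreads of two laws, all blocks. -/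
theorem spread_cmp {r : A → ℝ} {bl : A → ι} {w v : A → ℝ} {D : ℝ} (hw : ∀ a, 0 ≤ w a)
    (hv : ∀ a, 0 ≤ v a) (hD0 : 0 ≤ D) (hD : ∀ a a', bl a = bl a' → |r a - r a'| ≤ D) :
    ∑ a, v a * |spread r bl w (bl a) - spread r bl v (bl a)| ≤ 4 * D * ∑ a, |w a - v a| := by
  rw [← sum_bm_mul bl v (fun β => |spread r bl w β - spread r bl v β|), ← sum_bm (bl := bl), Finset.mul_sum]
  exact Finset.sum_le_sum fun β _ => spread_cmp_one hw hv β hD0
    (fun a a' h h' => hD a a' (h.trans h'.symm))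

end fin

/-! ### measurability -/

section meas

variable {A ι Y : Type*} [Fintype A] [MeasurableSpace Y]

theorem measurable_mdist {w : Y → A → ℝ} (hw : ∀ a, Measurable fun y => w y a) (x : A → ℝ) :
    Measurable fun y => mdist (w y) x := by
  unfold mdist
  exact Finset.measurable_sum _ fun c _ => Finset.measurable_sum _ fun c' _ =>
    ((hw c).mul (hw c')).mul_const _

theorem measurable_bm {w : Y → A → ℝ} (hw : ∀ a, Measurable fun y => w y a) (bl : A → ι) (β : ι) :
    Measurable fun y => bm bl (w y) β := by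
  classical
  unfold bm
  refine Finset.measurable_sum _ fun c _ => ?_
  split_ifs
  · exact hw c
  · exact measurable_const

theorem measurable_bs {w : Y → A → ℝ} (hw : ∀ a, Measurable fun y => w y a) (r : A → ℝ) (bl : A → ι)
    (β : ι) : Measurable fun y => bs r bl (w y) β := by
  classical
  unfold bs
  refine Finset.measurable_sum _ fun c _ => Finset.measurable_sum _ fun c' _ => ?_
  split_ifs
  · exact ((hw c).mul (hw c')).mul_const _
  · exact measurable_const

theorem measurable_spread {w : Y → A → ℝ} (hw : ∀ a, Measurable fun y => w y a) (r : A → ℝ)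
    (bl : A → ι) (β : ι) : Measurable fun y => spread r bl (w y) β := by
  unfold spread
  exact (measurable_bs hw r bl β).div ((measurable_bm hw bl β).pow_const 2)

end meas

/-! ### the abstract Heisenberg step -/

section abs

variable {Ω I J A B Z : Type*} [MeasurableSpace Ω] [MeasurableSpace Z]
  [Fintype I] [MeasurableSpace I] [MeasurableSingletonClass I] [Nonempty I]
  [Fintype J] [MeasurableSpace J] [MeasurableSingletonClass J] [Nonempty J]
  [Fintype A] [MeasurableSpace A] [MeasurableSingletonClass A] [Nonempty A]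
  [Fintype B] [MeasurableSpace B] [MeasurableSingletonClass B] [Nonempty B]

variable (P : Measure Ω) [IsProbabilityMeasure P]

/-- the true label has positive posterior -/
theorem pv_true_ne_zero {d : Ω → I} {Yv : Ω → Z} (hd : Measurable d) (hY : Measurable Yv) :
    ∀ᵐ ω ∂P, pv (rv P d Yv) (d ω) (Yv ω) ≠ 0 := by
  classical
  have h := ev P hd hY (G := fun y c => if pv (rv P d Yv) c y = 0 then (1:ℝ) else 0) (by
    intro c
    exact Measurable.ite (measurableSet_eq_fun (measurable_pv _ c) measurable_const)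
      measurable_const measurable_const) (M := 1) (by
    intro y c
    split_ifs <;> simp)
  have h0 : ∫ ω, ∑ c, pv (rv P d Yv) c (Yv ω) * (if pv (rv P d Yv) c (Yv ω) = 0 then (1:ℝ) else 0) ∂P = 0 := by
    have : ∀ ω, ∑ c, pv (rv P d Yv) c (Yv ω) * (if pv (rv P d Yv) c (Yv ω) = 0 then (1:ℝ) else 0) = 0 := by
      intro ω
      refine Finset.sum_eq_zero fun c _ => ?_
      split_ifs with hc
      · rw [hc, zero_mul]
      · rw [mul_zero]
    rw [integral_congr_ae (Filter.Eventually.of_forall this), integral_zero]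
  rw [h0] at h
  have hnn : ∀ ω, 0 ≤ (if pv (rv P d Yv) (d ω) (Yv ω) = 0 then (1:ℝ) else 0) := by
    intro ω
    split_ifs <;> simp
  have hm : Measurable fun ω => (if pv (rv P d Yv) (d ω) (Yv ω) = 0 then (1:ℝ) else 0) := by
    have hm2 : Measurable fun p : Z × I => pv (rv P d Yv) p.2 p.1 :=
      measurable_from_prod_countable_left fun c => measurable_pv _ c
    exact Measurable.ite (measurableSet_eq_fun (hm2.comp (hY.prodMk hd)) measurable_const)
      measurable_const measurable_const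
  have hint : Integrable (fun ω => (if pv (rv P d Yv) (d ω) (Yv ω) = 0 then (1:ℝ) else 0)) P :=
    integrable_of_bdd P hm (M := 1) (by intro ω; split_ifs <;> simp)
  have h1 := (integral_eq_zero_iff_of_nonneg hnn hint).1 h
  filter_upwards [h1] with ω hω hc
  simp [hc] at hω

/-- an impossible label has posterior zero -/
theorem pv_eq_zero_of_null {d : Ω → I} {Yv : Ω → Z} (hd : Measurable d) (hY : Measurable Yv) (c : I)
    (h : P (d ⁻¹' {c}) = 0) : ∀ᵐ ω ∂P, pv (rv P d Yv) c (Yv ω) = 0 := by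
  have h1 := int_po P hd hY c (A := Set.univ) MeasurableSet.univ
  have h2 : P.real (d ⁻¹' {c} ∩ Yv ⁻¹' Set.univ) = 0 := by
    rw [Set.preimage_univ, Set.inter_univ, measureReal_def, h]
    rfl
  rw [h2] at h1
  simp only [Set.indicator_univ, Pi.one_apply, one_mul] at h1
  exact (integral_eq_zero_iff_of_nonneg (fun ω => pv_nonneg _ c _)
    (integrable_of_bdd P ((measurable_pv _ c).comp hY) (M := 1) fun ω => abs_pv_le_one _ c _)).1 h1

variable {i : Ω → I} {j : Ω → J} {a : Ω → A} {b : Ω → B} {z : Ω → Z}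

/-- the four-label -/
def L4 (i : Ω → I) (j : Ω → J) (a : Ω → A) (b : Ω → B) (ω : Ω) : I × J × A × B :=
  (i ω, j ω, a ω, b ω)

/-- posterior of the four-label -/
def q4 (i : Ω → I) (j : Ω → J) (a : Ω → A) (b : Ω → B) (z : Ω → Z) (y : Z) (i' : I) (j' : J)
    (a' : A) (b' : B) : ℝ := pv (rv P (L4 i j a b) z) (i', j', a', b') y

theorem measurable_L4 (hi : Measurable i) (hj : Measurable j) (ha : Measurable a) (hb : Measurable b) :
    Measurable (L4 i j a b) := hi.prodMk (hj.prodMk (ha.prodMk hb))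

theorem q4_nonneg (y : Z) (i' : I) (j' : J) (a' : A) (b' : B) : 0 ≤ q4 P i j a b z y i' j' a' b' :=
  pv_nonneg _ _ _

theorem sum_q4 (y : Z) : ∑ i', ∑ j', ∑ a', ∑ b', q4 P i j a b z y i' j' a' b' = 1 := by
  have h := sum_pv (rv P (L4 i j a b) z) y
  simp_rw [Fintype.sum_prod_type] at h
  exact h

theorem measurable_q4 (i' : I) (j' : J) (a' : A) (b' : B) :
    Measurable fun y => q4 P i j a b z y i' j' a' b' := measurable_pv _ _

section
variable (hi : Measurable i) (hj : Measurable j) (ha : Measurable a) (hb : Measurable b)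
  (hz : Measurable z)
include hi hj ha hb hz

theorem m1 : ∀ᵐ ω ∂P, ∀ i', pI (q4 P i j a b z (z ω)) i' = pv (rv P i z) i' (z ω) := by
  classical
  have h := po_marg P (measurable_L4 hi hj ha hb) hz (fun c : I × J × A × B => c.1)
  filter_upwards [h] with ω hω i'
  have h1 := hω i'
  rw [show (fun ω => (L4 i j a b ω).1) = i from rfl] at h1
  rw [h1, Fintype.sum_prod_type]
  rw [Finset.sum_eq_single i']
  · simp only [if_true]
    rw [Fintype.sum_prod_type]
    unfold pI
    refine Finset.sum_congr rfl fun j' _ => ?_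
    rw [Fintype.sum_prod_type]
    rfl
  · intro c _ hc
    simp [hc]
  · intro h
    exact absurd (Finset.mem_univ _) h

theorem m2 : ∀ᵐ ω ∂P, ∀ j', pJ (q4 P i j a b z (z ω)) j' = pv (rv P j z) j' (z ω) := by
  classical
  have h := po_marg P (measurable_L4 hi hj ha hb) hz (fun c : I × J × A × B => c.2.1)
  filter_upwards [h] with ω hω j'
  have h1 := hω j'
  rw [show (fun ω => (L4 i j a b ω).2.1) = j from rfl] at h1
  rw [h1, Fintype.sum_prod_type]
  unfold pJ
  refine Finset.sum_congr rfl fun i' _ => ?_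
  rw [Fintype.sum_prod_type, Finset.sum_eq_single j']
  · simp only [if_true]
    rw [Fintype.sum_prod_type]
    rfl
  · intro c _ hc
    simp [hc]
  · intro h
    exact absurd (Finset.mem_univ _) h

theorem m3 : ∀ᵐ ω ∂P, ∀ i' a', pIA (q4 P i j a b z (z ω)) i' a'
    = pv (rv P (fun ω => (a ω, i ω)) z) (a', i') (z ω) := by
  classical
  have h := po_marg P (measurable_L4 hi hj ha hb) hz (fun c : I × J × A × B => (c.2.2.1, c.1))
  filter_upwards [h] with ω hω i' a'
  have h1 := hω (a', i')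
  rw [show (fun ω => ((L4 i j a b ω).2.2.1, (L4 i j a b ω).1)) = fun ω => (a ω, i ω) from rfl] at h1
  rw [h1, Fintype.sum_prod_type, Finset.sum_eq_single i']
  · rw [Fintype.sum_prod_type]
    unfold pIA
    refine Finset.sum_congr rfl fun j' _ => ?_
    rw [Fintype.sum_prod_type, Finset.sum_eq_single a']
    · simp only [if_true]
      rfl
    · intro c _ hc
      simp [hc]
    · intro h
      exact absurd (Finset.mem_univ _) h
  · intro c _ hc
    refine Finset.sum_eq_zero fun x _ => ?_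
    simp [hc]
  · intro h
    exact absurd (Finset.mem_univ _) h

theorem m4 : ∀ᵐ ω ∂P, ∀ j' b', pJB (q4 P i j a b z (z ω)) j' b'
    = pv (rv P (fun ω => (j ω, b ω)) z) (j', b') (z ω) := by
  classical
  have h := po_marg P (measurable_L4 hi hj ha hb) hz (fun c : I × J × A × B => (c.2.1, c.2.2.2))
  filter_upwards [h] with ω hω j' b'
  have h1 := hω (j', b')
  rw [show (fun ω => ((L4 i j a b ω).2.1, (L4 i j a b ω).2.2.2)) = fun ω => (j ω, b ω) from rfl] at h1
  rw [h1, Fintype.sum_prod_type]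
  unfold pJB
  refine Finset.sum_congr rfl fun i' _ => ?_
  rw [Fintype.sum_prod_type, Finset.sum_eq_single j']
  · rw [Fintype.sum_prod_type]
    refine Finset.sum_congr rfl fun a' _ => ?_
    rw [Finset.sum_eq_single b']
    · simp only [if_true]
      rfl
    · intro c _ hc
      simp [hc]
    · intro h
      exact absurd (Finset.mem_univ _) h
  · intro c _ hc
    refine Finset.sum_eq_zero fun x _ => ?_
    simp [hc]
  · intro h
    exact absurd (Finset.mem_univ _) h

theorem m5 : ∀ᵐ ω ∂P, ∀ i' j' a', ∑ b', q4 P i j a b z (z ω) i' j' a' b'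
    = pv (rv P (fun ω => (j ω, (a ω, i ω))) z) (j', (a', i')) (z ω) := by
  classical
  have h := po_marg P (measurable_L4 hi hj ha hb) hz
    (fun c : I × J × A × B => (c.2.1, (c.2.2.1, c.1)))
  filter_upwards [h] with ω hω i' j' a'
  have h1 := hω (j', (a', i'))
  rw [show (fun ω => ((L4 i j a b ω).2.1, ((L4 i j a b ω).2.2.1, (L4 i j a b ω).1)))
    = fun ω => (j ω, (a ω, i ω)) from rfl] at h1
  rw [h1, Fintype.sum_prod_type, Finset.sum_eq_single i']
  · rw [Fintype.sum_prod_type, Finset.sum_eq_single j']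
    · rw [Fintype.sum_prod_type, Finset.sum_eq_single a']
      · simp only [if_true]
        rfl
      · intro c _ hc
        refine Finset.sum_eq_zero fun x _ => ?_
        simp [hc]
      · intro h
        exact absurd (Finset.mem_univ _) h
    · intro c _ hc
      refine Finset.sum_eq_zero fun x _ => ?_
      simp [hc]
    · intro h
      exact absurd (Finset.mem_univ _) h
  · intro c _ hc
    refine Finset.sum_eq_zero fun x _ => ?_
    simp [hc]
  · intro h
    exact absurd (Finset.mem_univ _) h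

theorem m6 : ∀ᵐ ω ∂P, ∀ i' j' b', ∑ a', q4 P i j a b z (z ω) i' j' a' b'
    = pv (rv P (fun ω => (i ω, (j ω, b ω))) z) (i', (j', b')) (z ω) := by
  classical
  have h := po_marg P (measurable_L4 hi hj ha hb) hz
    (fun c : I × J × A × B => (c.1, (c.2.1, c.2.2.2)))
  filter_upwards [h] with ω hω i' j' b'
  have h1 := hω (i', (j', b'))
  rw [show (fun ω => ((L4 i j a b ω).1, ((L4 i j a b ω).2.1, (L4 i j a b ω).2.2.2)))
    = fun ω => (i ω, (j ω, b ω)) from rfl] at h1
  rw [h1, Fintype.sum_prod_type, Finset.sum_eq_single i']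
  · rw [Fintype.sum_prod_type, Finset.sum_eq_single j']
    · rw [Fintype.sum_prod_type]
      refine Finset.sum_congr rfl fun a' _ => ?_
      rw [Finset.sum_eq_single b']
      · simp only [if_true]
        rfl
      · intro c _ hc
        simp [hc]
      · intro h
        exact absurd (Finset.mem_univ _) h
    · intro c _ hc
      refine Finset.sum_eq_zero fun x _ => ?_
      simp [hc]
    · intro h
      exact absurd (Finset.mem_univ _) h
  · intro c _ hc
    refine Finset.sum_eq_zero fun x _ => ?_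
    simp [hc]
  · intro h
    exact absurd (Finset.mem_univ _) h

variable {ι : Type*} [Fintype ι] {sI : I → ℝ} {tJ : J → ℝ} {rA : A → ℝ} {rB : B → ℝ} {k0 δ : ℝ}
  {bl : A → ι} {cB : ι → ℝ}

/-- the relation on the support of the posterior -/
theorem rel_q4 (hrel : ∀ᵐ ω ∂P, |rA (a ω) - rB (b ω) - sI (i ω) * tJ (j ω)| ≤ k0) :
    ∀ᵐ ω ∂P, ∀ i' j' a' b', q4 P i j a b z (z ω) i' j' a' b' ≠ 0 →
      |rA a' - rB b' - sI i' * tJ j'| ≤ k0 := by
  have key : ∀ c : I × J × A × B, ∀ᵐ ω ∂P, pv (rv P (L4 i j a b) z) c (z ω) ≠ 0 →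
      |rA c.2.2.1 - rB c.2.2.2 - sI c.1 * tJ c.2.1| ≤ k0 := by
    intro c
    by_cases hc : |rA c.2.2.1 - rB c.2.2.2 - sI c.1 * tJ c.2.1| ≤ k0
    · exact Filter.Eventually.of_forall fun ω _ => hc
    · have h0 : P ((L4 i j a b) ⁻¹' {c}) = 0 := by
        refine measure_mono_null ?_ (ae_iff.1 hrel)
        intro ω hω
        have : L4 i j a b ω = c := hω
        rw [← this] at hc
        exact hc
      filter_upwards [pv_eq_zero_of_null P (measurable_L4 hi hj ha hb) hz c h0] with ω hω h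
      exact absurd hω h
  filter_upwards [ae_all_iff.2 key] with ω hω i' j' a' b' h
  exact hω (i', j', a', b') h

/-- the finite lemma applied to the posterior, integrated -/
theorem stepA (hδ : 0 < δ) (hδ8 : δ ≤ 1 / 8) (hk0 : 0 ≤ k0) (hs : ∀ i, |sI i| ≤ δ)
    (ht : ∀ j, |tJ j| ≤ δ) (hb1 : ∀ a, |rA a - cB (bl a)| < δ)
    (hb2 : ∀ a β, |rA a - cB β| < δ → bl a = β)
    (hrel : ∀ᵐ ω ∂P, |rA (a ω) - rB (b ω) - sI (i ω) * tJ (j ω)| ≤ k0) {η1 η2 : ℝ}
    (h1 : HH P j z - HH P j (fun ω => (z ω, (a ω, i ω))) ≤ η1)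
    (h2 : HH P i z - HH P i (fun ω => (z ω, (j ω, b ω))) ≤ η2) :
    ∫ ω, ∑ i', ∑ β, bm bl (pIA (q4 P i j a b z (z ω)) i') β *
      max (mdist (pI (q4 P i j a b z (z ω))) sI * mdist (pJ (q4 P i j a b z (z ω))) tJ / 64
        - spread rA bl (pIA (q4 P i j a b z (z ω)) i') β) 0 ∂P
      ≤ 8 * δ^2 * (√η1 + √η2) + k0 / 2 := by
  classical
  -- the two error functions
  set E1 : Ω → ℝ := fun ω => ∑ c : J, ∑ k : A × I,
    |pv (rv P (fun ω => (j ω, (a ω, i ω))) z) (c, k) (z ω)
      - pv (rv P j z) c (z ω) * pv (rv P (fun ω => (a ω, i ω)) z) k (z ω)| with hE1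
  set E2 : Ω → ℝ := fun ω => ∑ c : I, ∑ k : J × B,
    |pv (rv P (fun ω => (i ω, (j ω, b ω))) z) (c, k) (z ω)
      - pv (rv P i z) c (z ω) * pv (rv P (fun ω => (j ω, b ω)) z) k (z ω)| with hE2
  have hbd : ∀ x y w : ℝ, |x| ≤ 1 → |y| ≤ 1 → |w| ≤ 1 → |(|x - y * w|)| ≤ 2 := by
    intro x y w hx hy hw
    rw [abs_abs]
    refine (abs_sub _ _).trans ?_
    have : |y * w| ≤ 1 := by
      rw [abs_mul]
      exact mul_le_one₀ hy (abs_nonneg _) hw
    linarith
  have iE1 : Integrable E1 P := by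
    refine integrable_finsetSum _ fun c _ => integrable_finsetSum _ fun k _ => ?_
    exact integrable_of_bdd P ((((measurable_pv _ _).comp hz).sub
      (((measurable_pv _ _).comp hz).mul ((measurable_pv _ _).comp hz))).abs) (M := 2)
      (fun ω => hbd _ _ _ (abs_pv_le_one _ _ _) (abs_pv_le_one _ _ _) (abs_pv_le_one _ _ _))
  have iE2 : Integrable E2 P := by
    refine integrable_finsetSum _ fun c _ => integrable_finsetSum _ fun k _ => ?_
    exact integrable_of_bdd P ((((measurable_pv _ _).comp hz).sub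
      (((measurable_pv _ _).comp hz).mul ((measurable_pv _ _).comp hz))).abs) (M := 2)
      (fun ω => hbd _ _ _ (abs_pv_le_one _ _ _) (abs_pv_le_one _ _ _) (abs_pv_le_one _ _ _))
  have b1 : ∫ ω, E1 ω ∂P ≤ 2 * √η1 := by
    refine (ind P hj (ha.prodMk hi) hz).trans ?_
    exact mul_le_mul_of_nonneg_left (Real.sqrt_le_sqrt h1) (by norm_num)
  have b2 : ∫ ω, E2 ω ∂P ≤ 2 * √η2 := by
    refine (ind P hi (hj.prodMk hb) hz).trans ?_
    exact mul_le_mul_of_nonneg_left (Real.sqrt_le_sqrt h2) (by norm_num)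
  have hae : ∀ᵐ ω ∂P, ∑ i', ∑ j', (e1 (q4 P i j a b z (z ω)) i' j' + e2 (q4 P i j a b z (z ω)) i' j')
      = E1 ω + E2 ω := by
    filter_upwards [m1 P hi hj ha hb hz, m2 P hi hj ha hb hz, m3 P hi hj ha hb hz,
      m4 P hi hj ha hb hz, m5 P hi hj ha hb hz, m6 P hi hj ha hb hz] with ω w1 w2 w3 w4 w5 w6
    simp_rw [Finset.sum_add_distrib]
    congr 1
    · simp only [hE1]
      rw [Finset.sum_comm]
      refine Finset.sum_congr rfl fun j' _ => ?_
      rw [Fintype.sum_prod_type, Finset.sum_comm]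
      refine Finset.sum_congr rfl fun i' _ => ?_
      unfold e1
      refine Finset.sum_congr rfl fun a' _ => ?_
      rw [w5, w2, w3]
    · simp only [hE2]
      refine Finset.sum_congr rfl fun i' _ => ?_
      rw [Fintype.sum_prod_type]
      refine Finset.sum_congr rfl fun j' _ => ?_
      unfold e2
      refine Finset.sum_congr rfl fun b' _ => ?_
      rw [w6, w1, w4]
  have hpt : ∀ᵐ ω ∂P, ∑ i', ∑ β, bm bl (pIA (q4 P i j a b z (z ω)) i') β *
      max (mdist (pI (q4 P i j a b z (z ω))) sI * mdist (pJ (q4 P i j a b z (z ω))) tJ / 64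
        - spread rA bl (pIA (q4 P i j a b z (z ω)) i') β) 0 ≤ 4 * δ^2 * (E1 ω + E2 ω) + k0 / 2 := by
    filter_upwards [hae, rel_q4 P hi hj ha hb hz hrel] with ω w1 w2
    rw [← w1]
    exact heis (q4_nonneg P (z ω)) (sum_q4 P (z ω)) sI tJ rA rB k0 w2 bl cB hδ hδ8 hk0 hs ht hb1 hb2
  have i3 : Integrable (fun ω => 4 * δ^2 * (E1 ω + E2 ω) + k0 / 2) P :=
    ((iE1.add iE2).const_mul _).add (integrable_const _)
  refine (integral_mono_of_nonneg ?_ i3 hpt).trans ?_
  · refine Filter.Eventually.of_forall fun ω => ?_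
    refine Finset.sum_nonneg fun i' _ => Finset.sum_nonneg fun β _ => ?_
    exact mul_nonneg (bm_nonneg (pIA_nonneg (q4_nonneg P (z ω)) i') β) (le_max_right _ _)
  · have iE : Integrable (fun ω => 4 * δ^2 * (E1 ω + E2 ω)) P := (iE1.add iE2).const_mul _
    rw [integral_add iE (integrable_const _), integral_const_mul, integral_add iE1 iE2]
    simp only [integral_const, probReal_univ, smul_eq_mul, one_mul]
    nlinarith [sq_nonneg δ]

/-- random variable form -/
theorem stepB (hδ : 0 < δ) (hδ8 : δ ≤ 1 / 8) (hk0 : 0 ≤ k0) (hs : ∀ i, |sI i| ≤ δ)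
    (ht : ∀ j, |tJ j| ≤ δ) (hb1 : ∀ a, |rA a - cB (bl a)| < δ)
    (hb2 : ∀ a β, |rA a - cB β| < δ → bl a = β)
    (hrel : ∀ᵐ ω ∂P, |rA (a ω) - rB (b ω) - sI (i ω) * tJ (j ω)| ≤ k0) {η1 η2 : ℝ}
    (h1 : HH P j z - HH P j (fun ω => (z ω, (a ω, i ω))) ≤ η1)
    (h2 : HH P i z - HH P i (fun ω => (z ω, (j ω, b ω))) ≤ η2) :
    ∫ ω, max (mdist (fun c => pv (rv P i z) c (z ω)) sI * mdist (fun c => pv (rv P j z) c (z ω)) tJ / 64
        - spread rA bl (fun a' => pv (rv P (fun ω => (a ω, i ω)) z) (a', i ω) (z ω)) (bl (a ω))) 0 ∂P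
      ≤ 8 * δ^2 * (√η1 + √η2) + k0 / 2 := by
  classical
  have hA := stepA P hi hj ha hb hz hδ hδ8 hk0 hs ht hb1 hb2 hrel h1 h2
  have hmS : Measurable fun y => mdist (fun c => pv (rv P i z) c y) sI :=
    measurable_mdist (fun c => measurable_pv _ c) _
  have hmT : Measurable fun y => mdist (fun c => pv (rv P j z) c y) tJ :=
    measurable_mdist (fun c => measurable_pv _ c) _
  have hmw : ∀ (i' : I) (β : ι), Measurable fun y => spread rA bl
      (fun a' => pv (rv P (fun ω => (a ω, i ω)) z) (a', i') y) β :=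
    fun i' β => measurable_spread (fun a' => measurable_pv _ _) _ _ _
  have hS2 : ∀ y, mdist (fun c => pv (rv P i z) c y) sI ≤ 2 * δ := fun y =>
    mdist_le_width (fun c => pv_nonneg _ c y) (sum_pv _ y) sI hs
  have hT2 : ∀ y, mdist (fun c => pv (rv P j z) c y) tJ ≤ 2 * δ := fun y =>
    mdist_le_width (fun c => pv_nonneg _ c y) (sum_pv _ y) tJ ht
  have hS0 : ∀ y, 0 ≤ mdist (fun c => pv (rv P i z) c y) sI := fun y =>
    mdist_nonneg (fun c => pv_nonneg _ c y) sI
  have hT0 : ∀ y, 0 ≤ mdist (fun c => pv (rv P j z) c y) tJ := fun y =>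
    mdist_nonneg (fun c => pv_nonneg _ c y) tJ
  have hsp0 : ∀ (i' : I) (β : ι) y, 0 ≤ spread rA bl
      (fun a' => pv (rv P (fun ω => (a ω, i ω)) z) (a', i') y) β :=
    fun i' β y => spread_nonneg (fun a' => pv_nonneg _ _ _) β
  have hev := ev P (ha.prodMk hi) hz (G := fun y c =>
    max (mdist (fun c => pv (rv P i z) c y) sI * mdist (fun c => pv (rv P j z) c y) tJ / 64
        - spread rA bl (fun a' => pv (rv P (fun ω => (a ω, i ω)) z) (a', c.2) y) (bl c.1)) 0) (by
      intro c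
      exact (((hmS.mul hmT).div_const 64).sub (hmw c.2 (bl c.1))).max measurable_const)
      (M := 4 * δ^2) (by
      intro y c
      rw [abs_of_nonneg (le_max_right _ _)]
      refine max_le ?_ (by positivity)
      have e1 : mdist (fun c => pv (rv P i z) c y) sI * mdist (fun c => pv (rv P j z) c y) tJ
          ≤ (2 * δ) * (2 * δ) := mul_le_mul (hS2 y) (hT2 y) (hT0 y) (by linarith)
      have e2 := hsp0 c.2 (bl c.1) y
      have e3 := mul_nonneg (hS0 y) (hT0 y)
      nlinarith)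
  rw [show (∫ ω, max (mdist (fun c => pv (rv P i z) c (z ω)) sI * mdist (fun c => pv (rv P j z) c (z ω)) tJ / 64
        - spread rA bl (fun a' => pv (rv P (fun ω => (a ω, i ω)) z) (a', i ω) (z ω)) (bl (a ω))) 0 ∂P) = _
    from hev]
  refine le_trans (le_of_eq ?_) hA
  refine integral_congr_ae ?_
  filter_upwards [m1 P hi hj ha hb hz, m2 P hi hj ha hb hz, m3 P hi hj ha hb hz] with ω w1 w2 w3
  rw [Fintype.sum_prod_type, Finset.sum_comm]
  refine Finset.sum_congr rfl fun i' _ => ?_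
  have e1 : pI (q4 P i j a b z (z ω)) = fun c => pv (rv P i z) c (z ω) := funext w1
  have e2 : pJ (q4 P i j a b z (z ω)) = fun c => pv (rv P j z) c (z ω) := funext w2
  have e3 : pIA (q4 P i j a b z (z ω)) i' = fun a' => pv (rv P (fun ω => (a ω, i ω)) z) (a', i') (z ω) :=
    funext (w3 i')
  rw [e1, e2, e3, sum_bm_mul]

/-- the spread of the joint posterior at the true label is the spread of the conditional one. -/
theorem stepD : ∀ᵐ ω ∂P, ∀ β,
    spread rA bl (fun a' => pv (rv P (fun ω => (a ω, i ω)) z) (a', i ω) (z ω)) β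
      = spread rA bl (fun a' => pv (rv P a (fun ω => (z ω, i ω))) a' (z ω, i ω)) β := by
  filter_upwards [po_chain P ha hi hz, pv_true_ne_zero P hi hz] with ω h1 h2 β
  rw [← spread_scale rA bl (fun a' => pv (rv P a (fun ω => (z ω, i ω))) a' (z ω, i ω)) h2 β]
  congr 1
  funext a'
  exact h1 a' (i ω)

end

/-- comparison of the spreads at the true block -/
theorem spread_ev {Y Y' ι : Type*} [MeasurableSpace Y] [MeasurableSpace Y'] [Fintype ι]
    {a : Ω → A} (ha : Measurable a) {Yv : Ω → Y}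
    (hY : Measurable Yv) {K : Y → Y'} (hK : Measurable K) {rA : A → ℝ} {bl : A → ι} {D : ℝ}
    (hD0 : 0 ≤ D) (hD : ∀ a a', bl a = bl a' → |rA a - rA a'| ≤ D) {h : ℝ}
    (hh : HH P a (fun ω => K (Yv ω)) - HH P a Yv ≤ h) :
    ∫ ω, |spread rA bl (fun a' => pv (rv P a (fun ω => K (Yv ω))) a' (K (Yv ω))) (bl (a ω))
        - spread rA bl (fun a' => pv (rv P a Yv) a' (Yv ω)) (bl (a ω))| ∂P ≤ 8 * D * √h := by
  have hm1 : ∀ β, Measurable fun y => spread rA bl (fun a' => pv (rv P a (fun ω => K (Yv ω))) a' (K y)) β :=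
    fun β => measurable_spread (fun a' => (measurable_pv _ _).comp hK) _ _ _
  have hm2 : ∀ β, Measurable fun y => spread rA bl (fun a' => pv (rv P a Yv) a' y) β :=
    fun β => measurable_spread (fun a' => measurable_pv _ _) _ _ _
  have hs1 : ∀ β y, 0 ≤ spread rA bl (fun a' => pv (rv P a (fun ω => K (Yv ω))) a' (K y)) β :=
    fun β y => spread_nonneg (fun a' => pv_nonneg _ _ _) β
  have hs2 : ∀ β y, 0 ≤ spread rA bl (fun a' => pv (rv P a Yv) a' y) β :=
    fun β y => spread_nonneg (fun a' => pv_nonneg _ _ _) β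
  have hs3 : ∀ β y, spread rA bl (fun a' => pv (rv P a (fun ω => K (Yv ω))) a' (K y)) β ≤ D :=
    fun β y => spread_le (fun a' => pv_nonneg _ _ _) β hD0 (fun a a' h h' => hD a a' (h.trans h'.symm))
  have hs4 : ∀ β y, spread rA bl (fun a' => pv (rv P a Yv) a' y) β ≤ D :=
    fun β y => spread_le (fun a' => pv_nonneg _ _ _) β hD0 (fun a a' h h' => hD a a' (h.trans h'.symm))
  have hev := ev P ha hY (G := fun y c =>
    |spread rA bl (fun a' => pv (rv P a (fun ω => K (Yv ω))) a' (K y)) (bl c)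
        - spread rA bl (fun a' => pv (rv P a Yv) a' y) (bl c)|) (by
      intro c
      exact ((hm1 (bl c)).sub (hm2 (bl c))).abs) (M := D) (by
      intro y c
      rw [abs_abs, abs_le]
      have e1 := hs1 (bl c) y
      have e2 := hs2 (bl c) y
      have e3 := hs3 (bl c) y
      have e4 := hs4 (bl c) y
      constructor <;> linarith)
  rw [show (∫ ω, |spread rA bl (fun a' => pv (rv P a (fun ω => K (Yv ω))) a' (K (Yv ω))) (bl (a ω))
        - spread rA bl (fun a' => pv (rv P a Yv) a' (Yv ω)) (bl (a ω))| ∂P) = _ from hev]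
  have hp := pin P ha hY hK
  have hi : Integrable (fun ω => ∑ c, |pv (rv P a Yv) c (Yv ω)
      - pv (rv P a (fun ω => K (Yv ω))) c (K (Yv ω))|) P :=
    integrable_of_bdd P (measurable_pvd P hY hK) (M := 2) (by
      intro ω
      rw [abs_of_nonneg (Finset.sum_nonneg fun c _ => abs_nonneg _)]
      exact sum_abs_le_two _ _ _ _)
  refine (integral_mono_of_nonneg (Filter.Eventually.of_forall fun ω => ?_) (hi.const_mul (4 * D))
    (Filter.Eventually.of_forall fun ω => ?_)).trans ?_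
  · exact Finset.sum_nonneg fun c _ => mul_nonneg (pv_nonneg _ _ _) (abs_nonneg _)
  · simp only
    refine (spread_cmp (fun a' => pv_nonneg _ _ _) (fun a' => pv_nonneg _ _ _) hD0 hD).trans
      (le_of_eq ?_)
    congr 1
    refine Finset.sum_congr rfl fun c _ => ?_
    rw [abs_sub_comm]
  · rw [integral_const_mul]
    have h4 : √(HH P a (fun ω => K (Yv ω)) - HH P a Yv) ≤ √h := Real.sqrt_le_sqrt hh
    have h5 : ∫ ω, ∑ c, |pv (rv P a Yv) c (Yv ω) - pv (rv P a (fun ω => K (Yv ω))) c (K (Yv ω))| ∂P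
        ≤ 2 * √h := hp.trans (by linarith)
    nlinarith

end abs

/-! ### the abstract step -/

section core

variable {Ω : Type*} [MeasurableSpace Ω] (P : Measure Ω) [IsProbabilityMeasure P]
  {Sz Tz Sy Ty q0 q1 q2 q3 ds dt : Ω → ℝ} {δ M εs εt h1 h2 : ℝ}

theorem core (hδ : 0 < δ) (mSz : Measurable Sz) (mTz : Measurable Tz) (mq0 : Measurable q0)
    (ids : Integrable ds P) (idt : Integrable dt P) (i12 : Integrable (fun ω => |q1 ω - q2 ω|) P)
    (i32 : Integrable (fun ω => |q3 ω - q2 ω|) P)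
    (hds0 : ∀ ω, 0 ≤ ds ω) (hdt0 : ∀ ω, 0 ≤ dt ω)
    (cS : ∀ ω, |Sz ω - Sy ω| ≤ 2 * (2 * δ) * ds ω) (cT : ∀ ω, |Tz ω - Ty ω| ≤ 2 * (2 * δ) * dt ω)
    (hSz2 : ∀ ω, 0 ≤ Sz ω ∧ Sz ω ≤ 2 * δ) (hTz2 : ∀ ω, 0 ≤ Tz ω ∧ Tz ω ≤ 2 * δ)
    (hTy2 : ∀ ω, 0 ≤ Ty ω ∧ Ty ω ≤ 2 * δ)
    (hq0 : ∀ ω, 0 ≤ q0 ω) (h01 : ∀ᵐ ω ∂P, q0 ω = q1 ω)
    (hB : ∫ ω, max (Sz ω * Tz ω / 64 - q0 ω) 0 ∂P ≤ M)
    (c12 : ∫ ω, |q1 ω - q2 ω| ∂P ≤ 8 * (2 * δ) * h1) (c32 : ∫ ω, |q3 ω - q2 ω| ∂P ≤ 8 * (2 * δ) * h2)
    (hεs : ∫ ω, ds ω ∂P ≤ εs) (hεt : ∫ ω, dt ω ∂P ≤ εt) :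
    ∫ ω, max (Sy ω * Ty ω / 64 - q3 ω) 0 ∂P ≤ M + δ^2 / 8 * (εs + εt) + 16 * δ * (h1 + h2) := by
  have iB : Integrable (fun ω => max (Sz ω * Tz ω / 64 - q0 ω) 0) P := by
    refine integrable_of_bdd P ((((mSz.mul mTz).div_const 64).sub mq0).max measurable_const)
      (M := 4 * δ^2) ?_
    intro ω
    rw [abs_of_nonneg (le_max_right _ _)]
    refine max_le ?_ (by positivity)
    have e1 : Sz ω * Tz ω ≤ (2 * δ) * (2 * δ) := mul_le_mul (hSz2 ω).2 (hTz2 ω).2 (hTz2 ω).1 (by linarith)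
    have e2 : 0 ≤ q0 ω := hq0 ω
    have e3 := mul_nonneg (hSz2 ω).1 (hTz2 ω).1
    nlinarith
  have hpt : ∀ᵐ ω ∂P, max (Sy ω * Ty ω / 64 - q3 ω) 0 ≤ max (Sz ω * Tz ω / 64 - q0 ω) 0
      + (δ^2 / 8 * (ds ω + dt ω) + (|q1 ω - q2 ω| + |q3 ω - q2 ω|)) := by
    filter_upwards [h01] with ω e0
    have e1 := abs_le.1 (cS ω)
    have e2 := abs_le.1 (cT ω)
    have hds := hds0 ω
    have hdt := hdt0 ω
    have e3 : Sy ω * Ty ω / 64 ≤ Sz ω * Tz ω / 64 + δ^2 / 8 * (ds ω + dt ω) := by
      have k1 : Sy ω * Ty ω - Sz ω * Tz ω = (Sy ω - Sz ω) * Ty ω + Sz ω * (Ty ω - Tz ω) := by ring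
      have k2 : (Sy ω - Sz ω) * Ty ω ≤ (2 * (2 * δ) * ds ω) * (2 * δ) :=
        mul_le_mul (by linarith) (hTy2 ω).2 (hTy2 ω).1 (by positivity)
      have k3 : Sz ω * (Ty ω - Tz ω) ≤ (2 * δ) * (2 * (2 * δ) * dt ω) := by
        calc Sz ω * (Ty ω - Tz ω) ≤ Sz ω * (2 * (2 * δ) * dt ω) :=
              mul_le_mul_of_nonneg_left (by linarith) (hSz2 ω).1
          _ ≤ (2 * δ) * (2 * (2 * δ) * dt ω) := mul_le_mul_of_nonneg_right (hSz2 ω).2 (by positivity)
      nlinarith
    have e4 : -q3 ω ≤ -q1 ω + (|q1 ω - q2 ω| + |q3 ω - q2 ω|) := by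
      have k1 := le_abs_self (q1 ω - q2 ω)
      have k2 := neg_abs_le (q3 ω - q2 ω)
      linarith
    have e5 : 0 ≤ δ^2 / 8 * (ds ω + dt ω) + (|q1 ω - q2 ω| + |q3 ω - q2 ω|) := by
      positivity
    refine max_le ?_ ?_
    · have := le_max_left (Sz ω * Tz ω / 64 - q0 ω) 0
      linarith
    · have := le_max_right (Sz ω * Tz ω / 64 - q0 ω) 0
      linarith
  have iE : Integrable (fun ω => δ^2 / 8 * (ds ω + dt ω)) P := (ids.add idt).const_mul _
  have iF : Integrable (fun ω => |q1 ω - q2 ω| + |q3 ω - q2 ω|) P := i12.add i32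
  have iG : Integrable (fun ω => δ^2 / 8 * (ds ω + dt ω) + (|q1 ω - q2 ω| + |q3 ω - q2 ω|)) P := iE.add iF
  have hfin := integral_mono_of_nonneg (Filter.Eventually.of_forall fun ω => le_max_right _ _)
    (iB.add iG) hpt
  simp only [Pi.add_apply] at hfin
  rw [integral_add iB iG, integral_add iE iF, integral_add i12 i32, integral_const_mul,
    integral_add ids idt] at hfin
  have hδ2 : 0 ≤ δ^2 / 8 := by positivity
  have := mul_le_mul_of_nonneg_left (add_le_add hεs hεt) hδ2
  refine hfin.trans ?_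
  linarith

end core

section main

variable {Ω I J A B Z Ys Yt Y3 Yr ι : Type*} [MeasurableSpace Ω] [MeasurableSpace Z]
  [MeasurableSpace Ys] [MeasurableSpace Yt] [MeasurableSpace Y3] [MeasurableSpace Yr] [Fintype ι]
  [Fintype I] [MeasurableSpace I] [MeasurableSingletonClass I] [Nonempty I]
  [Fintype J] [MeasurableSpace J] [MeasurableSingletonClass J] [Nonempty J]
  [Fintype A] [MeasurableSpace A] [MeasurableSingletonClass A] [Nonempty A]
  [Fintype B] [MeasurableSpace B] [MeasurableSingletonClass B] [Nonempty B]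

variable (P : Measure Ω) [IsProbabilityMeasure P]

variable {i : Ω → I} {j : Ω → J} {a : Ω → A} {b : Ω → B} {z : Ω → Z} {ys : Ω → Ys} {yt : Ω → Yt}
  {y3 : Ω → Y3} {K : Y3 → Z × I} {L : Y3 → Yr} {sI : I → ℝ} {tJ : J → ℝ} {rA : A → ℝ} {rB : B → ℝ}
  {k0 δ : ℝ} {bl : A → ι} {cB : ι → ℝ}

theorem bsp {Y : Type*} [MeasurableSpace Y] (hδ : 0 < δ)
    (hD : ∀ a a', bl a = bl a' → |rA a - rA a'| ≤ 2 * δ) (ρ : A → Measure Y) (y : Y) (β : ι) :
      0 ≤ spread rA bl (fun a' => pv ρ a' y) β ∧ spread rA bl (fun a' => pv ρ a' y) β ≤ 2 * δ :=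
    ⟨spread_nonneg (fun a' => pv_nonneg _ _ _) β,
      spread_le (fun a' => pv_nonneg _ _ _) β (by linarith) (fun a a' h h' => hD a a' (h.trans h'.symm))⟩

theorem msp {Y : Type*} [MeasurableSpace Y] (ha : Measurable a) (ρ : A → Measure Y) {Yv : Ω → Y}
    (hY : Measurable Yv) :
    Measurable fun ω => spread rA bl (fun a' => pv ρ a' (Yv ω)) (bl (a ω)) := by
  have hm2 : Measurable fun p : Y × A => spread rA bl (fun a' => pv ρ a' p.1) (bl p.2) :=
    measurable_from_prod_countable_left fun c =>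
      measurable_spread (w := fun y a' => pv ρ a' y) (fun a' => measurable_pv ρ a') rA bl (bl c)
  have h3 : Measurable fun ω => (Yv ω, a ω) := hY.prodMk ha
  have h4 := hm2.comp h3
  exact h4

theorem isp {Y Y' : Type*} [MeasurableSpace Y] [MeasurableSpace Y'] (hδ : 0 < δ)
    (hD : ∀ a a', bl a = bl a' → |rA a - rA a'| ≤ 2 * δ) (ha : Measurable a)
    (ρ : A → Measure Y) (ρ' : A → Measure Y') {Yv : Ω → Y} {Yw : Ω → Y'}
    (hY : Measurable Yv) (hY' : Measurable Yw) :
    Integrable (fun ω => |spread rA bl (fun a' => pv ρ a' (Yv ω)) (bl (a ω)) -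
      spread rA bl (fun a' => pv ρ' a' (Yw ω)) (bl (a ω))|) P := by
  have h3 := ((msp (rA := rA) (bl := bl) ha ρ hY).sub (msp (rA := rA) (bl := bl) ha ρ' hY')).abs
  refine integrable_of_bdd P h3 (M := 2 * δ) ?_
  intro ω
  have e1 := bsp hδ hD ρ (Yv ω) (bl (a ω))
  have e2 := bsp hδ hD ρ' (Yw ω) (bl (a ω))
  rw [abs_abs, abs_le]
  constructor <;> linarith [e1.1, e1.2, e2.1, e2.2]

theorem ids {Y Y' : Type*} [MeasurableSpace Y] [MeasurableSpace Y'] (ρ : I → Measure Y)
    (ρ' : I → Measure Y') {Yv : Ω → Y} {Yw : Ω → Y'} (hY : Measurable Yv) (hY' : Measurable Yw) :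
    Integrable (fun ω => ∑ c, |pv ρ c (Yv ω) - pv ρ' c (Yw ω)|) P :=
  integrable_of_bdd P (Finset.measurable_sum _ fun c _ =>
      (((measurable_pv _ c).comp hY).sub ((measurable_pv _ c).comp hY')).abs) (M := 2) (by
      intro ω
      rw [abs_of_nonneg (Finset.sum_nonneg fun c _ => abs_nonneg _)]
      exact sum_abs_le_two _ _ _ _)

/-- the abstract Heisenberg step -/
theorem hr_abs (hi : Measurable i) (hj : Measurable j) (ha : Measurable a) (hb : Measurable b)
    (hz : Measurable z) (hys : Measurable ys) (hyt : Measurable yt) (hy3 : Measurable y3)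
    (hK : Measurable K) (hL : Measurable L) (hKz : ∀ ω, K (y3 ω) = (z ω, i ω))
    (hδ : 0 < δ) (hδ8 : δ ≤ 1 / 8) (hk0 : 0 ≤ k0) (hs : ∀ i, |sI i| ≤ δ)
    (ht : ∀ j, |tJ j| ≤ δ) (hb1 : ∀ a, |rA a - cB (bl a)| < δ)
    (hb2 : ∀ a β, |rA a - cB β| < δ → bl a = β)
    (hrel : ∀ᵐ ω ∂P, |rA (a ω) - rB (b ω) - sI (i ω) * tJ (j ω)| ≤ k0) {η1 η2 εs εt h1 h2 : ℝ}
    (hη1 : HH P j z - HH P j (fun ω => (z ω, (a ω, i ω))) ≤ η1)
    (hη2 : HH P i z - HH P i (fun ω => (z ω, (j ω, b ω))) ≤ η2)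
    (hεs : ∫ ω, ∑ c, |pv (rv P i z) c (z ω) - pv (rv P i ys) c (ys ω)| ∂P ≤ εs)
    (hεt : ∫ ω, ∑ c, |pv (rv P j z) c (z ω) - pv (rv P j yt) c (yt ω)| ∂P ≤ εt)
    (hh1 : HH P a (fun ω => (z ω, i ω)) - HH P a y3 ≤ h1)
    (hh2 : HH P a (fun ω => L (y3 ω)) - HH P a y3 ≤ h2) :
    ∫ ω, max (mdist (fun c => pv (rv P i ys) c (ys ω)) sI * mdist (fun c => pv (rv P j yt) c (yt ω)) tJ / 64
        - spread rA bl (fun a' => pv (rv P a (fun ω => L (y3 ω))) a' (L (y3 ω))) (bl (a ω))) 0 ∂P
      ≤ 8 * δ^2 * (√η1 + √η2) + k0 / 2 + δ^2 / 8 * (εs + εt) + 16 * δ * (√h1 + √h2) := by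
  have hB := stepB P hi hj ha hb hz hδ hδ8 hk0 hs ht hb1 hb2 hrel hη1 hη2
  have hD : ∀ a a', bl a = bl a' → |rA a - rA a'| ≤ 2 * δ := by
    intro a a' h
    have e1 := hb1 a
    have e2 := hb1 a'
    rw [h] at e1
    have e3 := abs_sub_le (rA a) (cB (bl a')) (rA a')
    rw [abs_sub_comm (cB (bl a'))] at e3
    linarith
  have hD0 : (0:ℝ) ≤ 2 * δ := by linarith
  have c12 := spread_ev P ha hy3 hK (rA := rA) (bl := bl) hD0 hD (h := h1) (by
    have hKe : (fun ω => K (y3 ω)) = fun ω => (z ω, i ω) := funext hKz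
    rw [hKe]; exact hh1)
  have c32 := spread_ev P ha hy3 hL (rA := rA) (bl := bl) hD0 hD (h := h2) hh2
  have hsw : ∀ c c' : I, |sI c - sI c'| ≤ 2 * δ := by
    intro c c'
    refine (abs_sub _ _).trans ?_
    linarith [hs c, hs c']
  have htw : ∀ c c' : J, |tJ c - tJ c'| ≤ 2 * δ := by
    intro c c'
    refine (abs_sub _ _).trans ?_
    linarith [ht c, ht c']
  refine core P (Sz := fun ω => mdist (fun c => pv (rv P i z) c (z ω)) sI)
    (Tz := fun ω => mdist (fun c => pv (rv P j z) c (z ω)) tJ)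
    (q0 := fun ω => spread rA bl (fun a' => pv (rv P (fun ω => (a ω, i ω)) z) (a', i ω) (z ω)) (bl (a ω)))
    (q1 := fun ω => spread rA bl (fun a' => pv (rv P a (fun ω => K (y3 ω))) a' (K (y3 ω))) (bl (a ω)))
    (q2 := fun ω => spread rA bl (fun a' => pv (rv P a y3) a' (y3 ω)) (bl (a ω)))
    (ds := fun ω => ∑ c, |pv (rv P i z) c (z ω) - pv (rv P i ys) c (ys ω)|)
    (dt := fun ω => ∑ c, |pv (rv P j z) c (z ω) - pv (rv P j yt) c (yt ω)|)
    hδ ?_ ?_ ?_ ?_ ?_ ?_ ?_ ?_ ?_ ?_ ?_ ?_ ?_ ?_ ?_ ?_ hB c12 c32 hεs hεt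
  · have h3 : Measurable fun y => mdist (fun c => pv (rv P i z) c y) sI :=
      measurable_mdist (fun c => measurable_pv _ c) _
    have h4 := h3.comp hz
    exact h4
  · have h3 : Measurable fun y => mdist (fun c => pv (rv P j z) c y) tJ :=
      measurable_mdist (fun c => measurable_pv _ c) _
    have h4 := h3.comp hz
    exact h4
  · have hm2 : Measurable fun p : Z × (I × A) => spread rA bl
        (fun a' => pv (rv P (fun ω => (a ω, i ω)) z) (a', p.2.1) p.1) (bl p.2.2) :=
      measurable_from_prod_countable_left fun c =>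
        measurable_spread (w := fun y a' => pv (rv P (fun ω => (a ω, i ω)) z) (a', c.1) y)
          (fun a' => measurable_pv (rv P (fun ω => (a ω, i ω)) z) (a', c.1)) rA bl (bl c.2)
    have h3 : Measurable fun ω => (z ω, (i ω, a ω)) := hz.prodMk (hi.prodMk ha)
    have h4 := hm2.comp h3
    exact h4
  · exact ids P _ _ hz hys
  · exact ids P _ _ hz hyt
  · have h3 := isp P (rA := rA) hδ hD ha (rv P a (fun ω => K (y3 ω))) (rv P a y3) (hK.comp hy3) hy3
    exact h3
  · have h3 := isp P (rA := rA) hδ hD ha (rv P a (fun ω => L (y3 ω))) (rv P a y3) (hL.comp hy3) hy3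
    exact h3
  · exact fun ω => Finset.sum_nonneg fun c _ => abs_nonneg _
  · exact fun ω => Finset.sum_nonneg fun c _ => abs_nonneg _
  · exact fun ω => mdist_lip hsw (fun c => pv_nonneg _ _ _) (sum_pv _ _) (fun c => pv_nonneg _ _ _) (sum_pv _ _)
  · exact fun ω => mdist_lip htw (fun c => pv_nonneg _ _ _) (sum_pv _ _) (fun c => pv_nonneg _ _ _) (sum_pv _ _)
  · exact fun ω => ⟨mdist_nonneg (fun c => pv_nonneg _ _ _) _,
      mdist_le hsw (fun c => pv_nonneg _ _ _) (sum_pv _ _)⟩
  · exact fun ω => ⟨mdist_nonneg (fun c => pv_nonneg _ _ _) _,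
      mdist_le htw (fun c => pv_nonneg _ _ _) (sum_pv _ _)⟩
  · exact fun ω => ⟨mdist_nonneg (fun c => pv_nonneg _ _ _) _,
      mdist_le htw (fun c => pv_nonneg _ _ _) (sum_pv _ _)⟩
  · exact fun ω => spread_nonneg (fun a' => pv_nonneg _ _ _) _
  · filter_upwards [stepD P hi hj ha hb hz (rA := rA) (bl := bl)] with ω hω
    have hKe : (fun ω => K (y3 ω)) = fun ω => (z ω, i ω) := funext hKz
    rw [hω (bl (a ω)), hKe, hKz]

end main

end

end Crest.Agent.R014.Nh3_849
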