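import Crest.Agent.R014.Prod3_108
import Crest.Agent.R014.Nh3_849

/-!
Row 14, block D, section 4, (R3s), helper108: the two posterior spreads of `d_s`, `d_t` given the
whole observation, versus the one-root observations `y1`, `y2`, and their joint average.
-/

set_option autoImplicit false

open MeasureTheory Finset Filter Topology ProbabilityTheory Crest.NumberTheoryR.Packets
open Crest.Agent.R014.Nd_837 Crest.Agent.R014.Ne1_567 Crest.Agent.R014.Ne3_567
open Crest.Agent.R014.Ne4_567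
open Crest.Agent.R014.NScC_395 (spr)
open Crest.Agent.R014.NScD_395 Crest.Agent.R014.NScE_395 Crest.Agent.R014.NScG_395
open Crest.Agent.R014.NScH_395 Crest.Agent.R014.Ms_667
open Crest.Agent.R014.NScG_458 (RN RN_ge)
open Crest.Agent.R014.Prod_108 Crest.Agent.R014.Nh1_849 Crest.Agent.R014.Nh2_849
open scoped ENNReal

noncomputable section

namespace Crest.Agent.R014.HR3s_108

/-! ### posteriors from gaps -/

section Abs

variable {Ω ι Y Z Z' G : Type*} [Fintype ι] [Nonempty ι] [MeasurableSpace Ω] [MeasurableSpace Y]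
  [MeasurableSpace Z] [MeasurableSpace Z'] [MeasurableSpace G] [MeasurableSpace ι]
  [MeasurableSingletonClass ι]

variable (P : Measure Ω) [IsProbabilityMeasure P] {d : Ω → ι} {z : Ω → Z} {y : Ω → Y} {g : Ω → G}

/-- `y` and `z` determine each other given `g`, and `g` tells (almost) nothing more on `d` than `y`
does. -/
theorem eps_near (hd : Measurable d) (hz : Measurable z) (hg : Measurable g)
    {L : Z × G → Y} (hL : Measurable L) (hy : ∀ ω, L (z ω, g ω) = y ω) {m : ℝ}
    (hm : HH P d y - m ≤ HH P d (fun ω => (z ω, g ω))) :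
    ∫ ω, ∑ c, |pv (rv P d z) c (z ω) - pv (rv P d y) c (y ω)| ∂P
      ≤ 2 * √(HH P d z - HH P d y + m) + 2 * √m := by
  have h := pin2 P hd (hz.prodMk hg) (K := Prod.fst) (L := L) measurable_fst hL
  simp only [hy] at h
  refine h.trans (add_le_add (mul_le_mul_of_nonneg_left (Real.sqrt_le_sqrt ?_) (by norm_num))
    (mul_le_mul_of_nonneg_left (Real.sqrt_le_sqrt ?_) (by norm_num)))
  · linarith
  · linarith

/-- independent noise -/
theorem eps_indep (hd : Measurable d) (hy : Measurable y) (hg : Measurable g)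
    (hi : IndepFun (fun ω => (d ω, y ω)) g P) {K : Y × G → Z} (hK : Measurable K)
    (hz : ∀ ω, K (y ω, g ω) = z ω) :
    ∫ ω, ∑ c, |pv (rv P d z) c (z ω) - pv (rv P d y) c (y ω)| ∂P
      ≤ 2 * √(HH P d z - HH P d y) := by
  have h := pin2 P hd (hy.prodMk hg) (K := K) (L := Prod.fst) hK measurable_fst
  simp only [hz] at h
  have h2 := HH_indep P hd hy hg inferInstance hi
  rw [h2, sub_self, Real.sqrt_zero, mul_zero, add_zero] at h
  exact h

end Abs

/-! ### the joint average -/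

theorem mdist_smul {ι : Type*} [Fintype ι] (p x : ι → ℝ) {k : ℝ} (hk : 0 ≤ k) :
    mdist p (fun c => k * x c) = k * spr x p := by
  unfold mdist spr
  rw [Finset.mul_sum]
  refine sum_congr rfl fun c _ => ?_
  rw [Finset.mul_sum]
  refine sum_congr rfl fun c' _ => ?_
  rw [← mul_sub, abs_mul, abs_of_nonneg hk]
  ring

section Joint

variable {n : ℕ}

/-- forget `r`, order `(s, t)` -/
theorem mp_pi {S : Type*} [MeasurableSpace S] (κ : Measure S) [IsProbabilityMeasure κ] :
    MeasurePreserving (fun q : S × (ℝ × (ℝ × ℝ)) => (q.1, (q.2.2.1, q.2.1)))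
      (κ.prod (uni.prod (uni.prod uni))) (κ.prod (uni.prod uni)) := by
  have h1 : MeasurePreserving (fun q : ℝ × (ℝ × ℝ) => (q.1, q.2.1))
      (uni.prod (uni.prod uni)) (uni.prod uni) :=
    (MeasurePreserving.id uni).prod measurePreserving_fst
  have h2 : MeasurePreserving (fun q : ℝ × (ℝ × ℝ) => (q.2.1, q.1))
      (uni.prod (uni.prod uni)) (uni.prod uni) :=
    Measure.measurePreserving_swap.comp h1
  exact (MeasurePreserving.id κ).prod h2

variable {j k l : Fin n} (hjk : j ≠ k) (hkl : k ≠ l) (a b : ℝ) {m m' : ℕ} [NeZero m] [NeZero m']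
  (κ : Measure (SLR n)) [IsProbabilityMeasure κ]

/-- **(F1)**, exact, every point. -/
theorem F1_eq (ρ : Fin m → Measure (ModSpace n)) (ρ' : Fin m' → Measure (ModSpace n))
    {ka kb : ℝ} (hka : 0 ≤ ka) (hkb : 0 ≤ kb) (x : ModSpace n) :
    ∫ q : SLR n × (ℝ × (ℝ × ℝ)),
      mdist (fun c => pv ρ c (act x (q.1 * uu hjk ((2 : ℝ) ^ (-a) * q.2.2.1))))
        (fun c => ka * cen m c) *
      mdist (fun c => pv ρ' c (act x (q.1 * uu hkl ((2 : ℝ) ^ (-b) * q.2.1))))
        (fun c => kb * cen m' c) ∂(κ.prod (uni.prod (uni.prod uni)))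
      = ka * kb * J2 κ hjk hkl a b ρ ρ' x := by
  rw [J2_eq, ← integral_const_mul]
  have m1 : Measurable fun q : SLR n × ℝ × ℝ => (x, q.1, q.2.1) := by fun_prop
  have m2 : Measurable fun q : SLR n × ℝ × ℝ => (x, q.1, q.2.2) := by fun_prop
  have hm : Measurable fun q : SLR n × ℝ × ℝ =>
      ka * kb * (ps ρ (ob hjk a (x, q.1, q.2.1)) * ps ρ' (ob hkl b (x, q.1, q.2.2))) :=
    (((measurable_ps ρ).comp ((measurable_ob hjk a).comp m1)).mul
      ((measurable_ps ρ').comp ((measurable_ob hkl b).comp m2))).const_mul _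
  rw [← (mp_pi κ).map_eq, integral_map (mp_pi κ).measurable.aemeasurable
    hm.aestronglyMeasurable]
  refine integral_congr_ae (Eventually.of_forall fun q => ?_)
  simp only [mdist_smul _ _ hka, mdist_smul _ _ hkb]
  unfold ps ob
  ring

/-- **(F1)** for the Heisenberg noise. -/
theorem F1_RN {b b' : ℕ} (hb : 0 < b) (hb' : 0 < b') {e : ℝ} (he : 0 < e) :
    ∃ η U : ℝ, 0 < η ∧ 0 < U ∧ ∀ μ : Measure (ModSpace n), IsProbabilityMeasure μ → AInv μ →
      ∀ u1 u2 M W : ℝ, U ≤ u1 → 100 * (u1 + W) ≤ M → 2 * M ≤ u2 / 20 →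
      NC μ u1 u2 {b, b'} η → ∀ (j k l : Fin n) (hjk : j ≠ k) (hkl : k ≠ l), j ≠ l →
      ∀ r r' : ℝ, |r| ≤ W → |r'| ≤ W → ∀ ka kb : ℝ, 0 ≤ ka → 0 ≤ kb →
      ∫ x, |(∫ q : SLR n × (ℝ × (ℝ × ℝ)),
          mdist (fun c => pv (lab μ (zt (RN j k l M)) hjk r b) c
            (act x (q.1 * uu hjk ((2 : ℝ) ^ (-r) * q.2.2.1)))) (fun c => ka * cen b c) *
          mdist (fun c => pv (lab μ (zt (RN j k l M)) hkl r' b') c
            (act x (q.1 * uu hkl ((2 : ℝ) ^ (-r') * q.2.1)))) (fun c => kb * cen b' c)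
          ∂((zt (RN j k l M)).prod (uni.prod (uni.prod uni))))
        - ka * kb * (PZ μ u1 b j k (act x (aT (tI j r))) * PZ μ u1 b' k l (act x (aT (tI k r'))))|
        ∂μ ≤ ka * kb * e := by
  have : NeZero b := ⟨hb.ne'⟩
  have : NeZero b' := ⟨hb'.ne'⟩
  obtain ⟨η, U, hη, hU, h⟩ := prod_RN (n := n) hb hb' he
  refine ⟨η, max U (20 * |c1N n| + 1), hη, lt_of_lt_of_le hU (le_max_left _ _), ?_⟩
  intro μ hμp hμ u1 u2 M W h1 h2 h3 hN j k l hjk hkl hjl r r' hr hr' ka kb hka hkb
  have hU1 : U ≤ u1 := le_trans (le_max_left _ _) h1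
  have hc : 20 * |c1N n| + 1 ≤ u1 := le_trans (le_max_right _ _) h1
  have hu1 : 0 ≤ u1 := by have := abs_nonneg (c1N n); linarith
  have hW : 0 ≤ W := (abs_nonneg r).trans hr
  have hadm : Nz_323.Adm (RN j k l M) := (noiseFam n).adm_of _ fun p q => by
    have h5 := RN_ge (j := j) (k := k) (l := l) (M := M) (by linarith) p q
    have h6 := le_abs_self (c1N n)
    have h7 := abs_nonneg (c1N n)
    linarith
  have := isProb_zt hadm
  have key := h μ hμp hμ u1 u2 M W hU1 h2 h3 hN j k l hjk hkl hjl r r' hr hr'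
  simp only [F1_eq hjk hkl r r' (zt (RN j k l M)) (lab μ (zt (RN j k l M)) hjk r b)
    (lab μ (zt (RN j k l M)) hkl r' b') hka hkb]
  have e1 : ∀ x, |ka * kb * J2 (zt (RN j k l M)) hjk hkl r r' (lab μ (zt (RN j k l M)) hjk r b)
      (lab μ (zt (RN j k l M)) hkl r' b') x
      - ka * kb * (PZ μ u1 b j k (act x (aT (tI j r))) * PZ μ u1 b' k l (act x (aT (tI k r'))))|
      = ka * kb * |J2 (zt (RN j k l M)) hjk hkl r r' (lab μ (zt (RN j k l M)) hjk r b)
      (lab μ (zt (RN j k l M)) hkl r' b') x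
      - PZ μ u1 b j k (act x (aT (tI j r))) * PZ μ u1 b' k l (act x (aT (tI k r')))| := by
    intro x
    rw [← mul_sub, abs_mul, abs_of_nonneg (mul_nonneg hka hkb)]
  simp only [e1]
  rw [integral_const_mul]
  exact mul_le_mul_of_nonneg_left key (mul_nonneg hka hkb)

end Joint

end Crest.Agent.R014.HR3s_108
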