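import Crest.Agent.R014.HSp_599

set_option autoImplicit false

/-!
Row 14, block D, noise formalism, section 4, (4.3): entropies of the digits `d_s, d_t, D_r` given the
Heisenberg observation, in random variable form, in terms of the families `lab`.
-/

open MeasureTheory ProbabilityTheory Crest.NumberTheoryR.Packets
open scoped ENNReal

namespace Crest.Agent.R014.HSp_599

open Ms_667 Ne1_567 Ne3_567 Ne4_567 Sw1_640 Sw3_640
open Nd_837 hiding uni_ae
open NScD_395 (dl)

/-! ### Measure preserving rearrangements -/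

section Rearr

variable {X A B C D : Type*} [MeasurableSpace X] [MeasurableSpace A] [MeasurableSpace B]
  [MeasurableSpace C] [MeasurableSpace D]

theorem mp_push {μ : Measure X} {ν : Measure A} {ν' : Measure B} {τ : Measure C} [SFinite μ]
    [SFinite ν] [SFinite ν'] [SFinite τ] {g : A → B × C} (hg : MeasurePreserving g ν (ν'.prod τ)) :
    MeasurePreserving (fun p : X × A => ((p.1, (g p.2).1), (g p.2).2)) (μ.prod ν)
      ((μ.prod ν').prod τ) := by
  have h1 : MeasurePreserving (MeasurableEquiv.prodAssoc : (X × B) × C ≃ᵐ X × B × C)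
      ((μ.prod ν').prod τ) (μ.prod (ν'.prod τ)) :=
    ⟨MeasurableEquiv.prodAssoc.measurable, Measure.prodAssoc_prod⟩
  have h2 := (h1.symm).comp ((MeasurePreserving.id μ).prod hg)
  exact h2

theorem mp_swap (μ : Measure A) (ν : Measure B) [SFinite μ] [SFinite ν] :
    MeasurePreserving (fun p : A × B => (p.2, p.1)) (μ.prod ν) (ν.prod μ) :=
  Measure.measurePreserving_swap

theorem mp_assoc (μ : Measure A) (ν : Measure B) (τ : Measure C) [SFinite μ] [SFinite ν]
    [SFinite τ] : MeasurePreserving (fun p : (A × B) × C => (p.1.1, (p.1.2, p.2)))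
      ((μ.prod ν).prod τ) (μ.prod (ν.prod τ)) :=
  ⟨MeasurableEquiv.prodAssoc.measurable, Measure.prodAssoc_prod⟩

end Rearr

section Law

variable {n : ℕ} (μ : Measure (ModSpace n)) (κ : Measure (SLR n)) [IsProbabilityMeasure μ]
  [IsProbabilityMeasure κ]

/-- `r` last -/
theorem mp_r : MeasurePreserving
    (fun ω : Om n => ((ω.1, (ω.2.1, (ω.2.2.1, ω.2.2.2.1))), ω.2.2.2.2)) (PM μ κ)
    ((μ.prod (κ.prod (uni.prod uni))).prod uni) := by
  have h1 : MeasurePreserving (fun p : ℝ × ℝ => (p.1, p.2)) (uni.prod uni) (uni.prod uni) :=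
    MeasurePreserving.id _
  exact mp_push (mp_push (mp_push h1))

/-- `s` last -/
theorem mp_s : MeasurePreserving
    (fun ω : Om n => ((ω.1, (ω.2.1, (ω.2.2.1, ω.2.2.2.2))), ω.2.2.2.1)) (PM μ κ)
    ((μ.prod (κ.prod (uni.prod uni))).prod uni) :=
  mp_push (mp_push (mp_push (mp_swap uni uni)))

/-- `t` last -/
theorem mp_t : MeasurePreserving
    (fun ω : Om n => ((ω.1, (ω.2.1, (ω.2.2.2.1, ω.2.2.2.2))), ω.2.2.1)) (PM μ κ)
    ((μ.prod (κ.prod (uni.prod uni))).prod uni) :=
  mp_push (mp_push (mp_swap uni (uni.prod uni)))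

/-- `(s, r)` last -/
theorem mp_sr : MeasurePreserving
    (fun ω : Om n => ((ω.1, (ω.2.1, ω.2.2.1)), (ω.2.2.2.1, ω.2.2.2.2))) (PM μ κ)
    ((μ.prod (κ.prod uni)).prod (uni.prod uni)) := by
  have h1 : MeasurePreserving (fun p : ℝ × (ℝ × ℝ) => (p.1, p.2)) (uni.prod (uni.prod uni))
      (uni.prod (uni.prod uni)) := MeasurePreserving.id _
  exact mp_push (mp_push h1)

/-- `(t, r)` last -/
theorem mp_tr : MeasurePreserving
    (fun ω : Om n => ((ω.1, (ω.2.1, ω.2.2.2.1)), (ω.2.2.1, ω.2.2.2.2))) (PM μ κ)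
    ((μ.prod (κ.prod uni)).prod (uni.prod uni)) := by
  have h0 : MeasurePreserving (fun p : ℝ × (ℝ × ℝ) => ((p.1, p.2.1), p.2.2))
      (uni.prod (uni.prod uni)) ((uni.prod uni).prod uni) :=
    mp_push (MeasurePreserving.id (uni.prod uni))
  have h1 : MeasurePreserving (fun p : (ℝ × ℝ) × ℝ => ((p.1.2, p.1.1), p.2))
      ((uni.prod uni).prod uni) ((uni.prod uni).prod uni) :=
    (mp_swap uni uni).prod (MeasurePreserving.id uni)
  have h2 := (mp_assoc uni uni uni).comp (h1.comp h0)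
  exact mp_push (mp_push h2)

/-- `(t, s)` last -/
theorem mp_ts : MeasurePreserving
    (fun ω : Om n => ((ω.1, (ω.2.1, ω.2.2.2.2)), (ω.2.2.1, ω.2.2.2.1))) (PM μ κ)
    ((μ.prod (κ.prod uni)).prod (uni.prod uni)) := by
  have h0 : MeasurePreserving (fun p : ℝ × (ℝ × ℝ) => ((p.1, p.2.1), p.2.2))
      (uni.prod (uni.prod uni)) ((uni.prod uni).prod uni) :=
    mp_push (MeasurePreserving.id (uni.prod uni))
  have h2 := (mp_swap (uni.prod uni) uni).comp h0
  exact mp_push (mp_push h2)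

/-- Composition of a map of laws. -/
theorem map_of_mp {A B : Type*} [MeasurableSpace A] [MeasurableSpace B]
    {P : Measure (Om n)} {g : Om n → A} {τ : Measure A} (h : MeasurePreserving g P τ)
    {F : A → B} (hF : Measurable F) : P.map (fun ω => F (g ω)) = τ.map F := by
  rw [← h.map_eq, Measure.map_map hF h.measurable]
  rfl

end Law

/-! ### Laws of points -/

section Pts

variable {n : ℕ} {j k l : Fin n}

theorem stp_map {A : Type*} [MeasurableSpace A] (μ : Measure (ModSpace n)) (ν : Measure A)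
    [SFinite μ] [SFinite ν] {G : A → SLR n} (hG : Measurable G) :
    stp μ (ν.map G) = (μ.prod ν).map fun p => act p.1 (G p.2) := by
  unfold stp
  have h1 : μ.prod (ν.map G) = (μ.prod ν).map (Prod.map id G) := by
    conv_lhs => rw [← Measure.map_id (μ := μ)]
    exact Measure.map_prod_map μ ν measurable_id hG
  rw [h1, Measure.map_map measurable_act₂ (measurable_id.prodMap hG)]
  rfl

theorem cv_dl (κ : Measure (SLR n)) [SFinite κ] {p q : Fin n} (h : p ≠ q) (β : ℝ) :
    cv κ (dl h β) = (κ.prod uni).map fun a => a.1 * uu h ((2 : ℝ) ^ (-β) * a.2) := by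
  have hm := measurable_wn (n := n) h β
  rw [dl_eq_wn]
  unfold cv wn
  have h1 : κ.prod (uni.map fun θ => (uu h ((2 : ℝ) ^ (-β) * θ) : SLR n))
      = (κ.prod uni).map (Prod.map id fun θ => (uu h ((2 : ℝ) ^ (-β) * θ) : SLR n)) := by
    conv_lhs => rw [← Measure.map_id (μ := κ)]
    exact Measure.map_prod_map κ uni measurable_id hm
  rw [h1, Measure.map_map measurable_mul₂ (measurable_id.prodMap hm)]
  rfl

theorem cv_dl_dl (κ : Measure (SLR n)) [IsProbabilityMeasure κ] {p q p' q' : Fin n} (h : p ≠ q)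
    (h' : p' ≠ q') (β γ : ℝ) :
    cv (cv κ (dl h β)) (dl h' γ) = (κ.prod (uni.prod uni)).map fun a =>
      a.1 * uu h ((2 : ℝ) ^ (-β) * a.2.1) * uu h' ((2 : ℝ) ^ (-γ) * a.2.2) := by
  have hm := measurable_wn (n := n) h β
  have hm' := measurable_wn (n := n) h' γ
  have m1 : Measurable fun a : SLR n × ℝ => a.1 * uu h ((2 : ℝ) ^ (-β) * a.2) :=
    measurable_fst.mul (hm.comp measurable_snd)
  rw [cv_dl κ h β]
  have : IsProbabilityMeasure ((κ.prod uni).map fun a : SLR n × ℝ =>
      a.1 * uu h ((2 : ℝ) ^ (-β) * a.2)) := Measure.isProbabilityMeasure_map m1.aemeasurable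
  rw [cv_dl _ h' γ]
  have m2 : Measurable fun a : SLR n × ℝ => a.1 * uu h' ((2 : ℝ) ^ (-γ) * a.2) :=
    measurable_fst.mul (hm'.comp measurable_snd)
  have h1 : ((κ.prod uni).map fun a : SLR n × ℝ => a.1 * uu h ((2 : ℝ) ^ (-β) * a.2)).prod uni
      = ((κ.prod uni).prod uni).map (Prod.map
        (fun a : SLR n × ℝ => a.1 * uu h ((2 : ℝ) ^ (-β) * a.2)) id) := by
    conv_lhs => enter [2]; rw [← Measure.map_id (μ := uni)]
    exact Measure.map_prod_map _ _ m1 measurable_id
  rw [h1, Measure.map_map m2 (m1.prodMap measurable_id)]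
  have m3 : Measurable fun a : SLR n × ℝ × ℝ =>
      a.1 * uu h ((2 : ℝ) ^ (-β) * a.2.1) * uu h' ((2 : ℝ) ^ (-γ) * a.2.2) :=
    (measurable_fst.mul (hm.comp (measurable_fst.comp measurable_snd))).mul
      (hm'.comp (measurable_snd.comp measurable_snd))
  rw [← (mp_assoc κ uni uni).map_eq, Measure.map_map m3 (mp_assoc κ uni uni).measurable]
  rfl

end Pts

/-! ### Digits of a uniform coordinate -/

section Cells

variable {W Y : Type*} [MeasurableSpace W] [MeasurableSpace Y]

/-- **The family of a digit of an independent uniform variable.** -/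
theorem rv_cell {b : ℕ} [NeZero b] (ρ : Measure W) [SFinite ρ] {F : W × ℝ → Y}
    (hF : Measurable F) (d : Fin b) :
    rv (ρ.prod uni) (fun p => dg b p.2) F d
      = (b : ℝ≥0∞)⁻¹ • (ρ.prod uni).map fun p => F (p.1, cen b d + p.2 / b) := by
  have hf : Measurable fun θ : ℝ => cen b d + θ / b := by fun_prop
  have h0 : (fun p : W × ℝ => dg b p.2) ⁻¹' {d} = Set.univ ×ˢ (dg b ⁻¹' {d}) := by
    ext p; simp
  have h1 : (ρ.prod uni).restrict ((fun p : W × ℝ => dg b p.2) ⁻¹' {d})
      = (b : ℝ≥0∞)⁻¹ • (ρ.prod uni).map (Prod.map id fun θ : ℝ => cen b d + θ / b) := by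
    rw [h0, ← Measure.prod_restrict, Measure.restrict_univ, restrict_cell,
      Measure.prod_smul_right]
    congr 1
    conv_lhs => rw [← Measure.map_id (μ := ρ)]
    exact Measure.map_prod_map ρ uni measurable_id hf
  unfold rv
  rw [h1, Measure.map_smul, Measure.map_map hF (measurable_id.prodMap hf)]
  rfl

end Cells

section Lab

variable {n : ℕ} {Ω : Type*} [MeasurableSpace Ω] (P : Measure Ω) [IsProbabilityMeasure P]
  (μ : Measure (ModSpace n)) (κ : Measure (SLR n)) [IsProbabilityMeasure μ]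
  [IsProbabilityMeasure κ]

/-- **Identification of `lab`.** -/
theorem rv_lab {b : ℕ} [NeZero b] {p q : Fin n} (hpq : p ≠ q) (r : ℝ) {Y0 : Ω → ModSpace n}
    {θ : Ω → ℝ} (hY0 : Measurable Y0) (hθ : Measurable θ)
    (h : P.map (fun ω => (Y0 ω, θ ω)) = (stp μ κ).prod uni) (d : Fin b) :
    rv P (fun ω => dg b (θ ω)) (fun ω => act (Y0 ω) (uu hpq ((2 : ℝ) ^ (-r) * θ ω))) d
      = lab μ κ hpq r b d := by
  have mF : Measurable fun p : ModSpace n × ℝ => act p.1 (uu hpq ((2 : ℝ) ^ (-r) * p.2)) :=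
    measurable_act₂.comp (measurable_fst.prodMk ((measurable_wn hpq r).comp measurable_snd))
  have md' : Measurable fun p : ModSpace n × ℝ => dg b p.2 :=
    (measurable_dg b).comp measurable_snd
  have mY : Measurable fun ω => act (Y0 ω) (uu hpq ((2 : ℝ) ^ (-r) * θ ω)) :=
    measurable_act₂.comp (hY0.prodMk ((measurable_wn hpq r).comp hθ))
  have e1 : P.map (fun ω => (dg b (θ ω), act (Y0 ω) (uu hpq ((2 : ℝ) ^ (-r) * θ ω))))
      = ((stp μ κ).prod uni).map
        (fun p => (dg b p.2, act p.1 (uu hpq ((2 : ℝ) ^ (-r) * p.2)))) := by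
    have e2 := Measure.map_map (μ := P) (md'.prodMk mF) (hY0.prodMk hθ)
    rw [h] at e2
    rw [e2, Function.comp_def]
  have h1 := rv_eq_of_law P ((measurable_dg b).comp hθ) mY md' mF e1 d
  have hd := measurable_dlaw (n := n) hpq r b d
  have h2 := stp_map (stp μ κ) uni hd
  have h3 : rv P (fun ω => dg b (θ ω)) (fun ω => act (Y0 ω) (uu hpq ((2 : ℝ) ^ (-r) * θ ω))) d
      = rv ((stp μ κ).prod uni) (fun p => dg b p.2)
        (fun p => act p.1 (uu hpq ((2 : ℝ) ^ (-r) * p.2))) d := h1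
  rw [h3, rv_cell (stp μ κ) mF d]
  unfold lab dlaw
  rw [h2]

theorem HH_lab {b : ℕ} [NeZero b] {p q : Fin n} (hpq : p ≠ q) (r : ℝ) {Y0 : Ω → ModSpace n}
    {θ : Ω → ℝ} (hY0 : Measurable Y0) (hθ : Measurable θ)
    (h : P.map (fun ω => (Y0 ω, θ ω)) = (stp μ κ).prod uni) :
    HH P (fun ω => dg b (θ ω)) (fun ω => act (Y0 ω) (uu hpq ((2 : ℝ) ^ (-r) * θ ω)))
      = Hc (lab μ κ hpq r b) := by
  unfold HH
  congr 1
  funext d
  exact rv_lab P μ κ hpq r hY0 hθ h d

end Lab

end Crest.Agent.R014.HSp_599
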