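import Crest.Agent.R014.HSp2_599

set_option autoImplicit false
set_option linter.unusedSectionVars false

/-!
Row 14, block D, noise formalism, section 4, (4.3): the entropies of the digits `d_s, d_t, D_r`
given the Heisenberg observation and given its pieces.
-/

open MeasureTheory ProbabilityTheory Crest.NumberTheoryR.Packets
open scoped ENNReal

namespace Crest.Agent.R014.HSp_599

open Ms_667 Ne1_567 Ne3_567 Ne4_567 Sw1_640 Sw3_640
open Nd_837 hiding uni_ae
open NScD_395 (dl)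

variable {n : ℕ} {j k l : Fin n} (μ : Measure (ModSpace n)) (κ : Measure (SLR n))
  [IsProbabilityMeasure μ] [IsProbabilityMeasure κ]

/-! ### The single observations -/

/-- law of `x ζ` and one coordinate -/
theorem law_xz {θ : Om n → ℝ} {W : Type*} [MeasurableSpace W] {g : Om n → W} {τ : Measure W}
    [IsProbabilityMeasure τ]
    (h : MeasurePreserving (fun ω : Om n => ((ω.1, (ω.2.1, g ω)), θ ω)) (PM μ κ)
      ((μ.prod (κ.prod τ)).prod uni)) :
    (PM μ κ).map (fun ω => (act (xx ω) (ze ω), θ ω)) = (stp μ κ).prod uni := by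
  have hF : Measurable fun p : (ModSpace n × (SLR n × W)) × ℝ => (act p.1.1 p.1.2.1, p.2) :=
    (measurable_act₂.comp ((measurable_fst.comp measurable_fst).prodMk
      (measurable_fst.comp (measurable_snd.comp measurable_fst)))).prodMk measurable_snd
  have h1 := map_of_mp h hF
  have h2 : (μ.prod (κ.prod τ)).map (fun p : ModSpace n × (SLR n × W) => act p.1 p.2.1)
      = stp μ κ := by
    have e1 : (κ.prod τ).map (fun p : SLR n × W => p.1) = κ := by
      have := Measure.map_fst_prod (μ := κ) (ν := τ)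
      rw [measure_univ, one_smul] at this
      exact this
    have e2 := stp_map μ (κ.prod τ) (G := fun p : SLR n × W => p.1) measurable_fst
    rw [e1] at e2
    exact e2.symm
  have m1 : Measurable fun p : ModSpace n × (SLR n × W) => act p.1 p.2.1 :=
    measurable_act₂.comp (measurable_fst.prodMk (measurable_fst.comp measurable_snd))
  have h3 : ((μ.prod (κ.prod τ)).prod uni).map
      (fun p : (ModSpace n × (SLR n × W)) × ℝ => (act p.1.1 p.1.2.1, p.2))
      = (stp μ κ).prod uni := by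
    have e3 := Measure.map_prod_map (μ.prod (κ.prod τ)) uni m1 measurable_id
    rw [h2, Measure.map_id] at e3
    exact e3.symm
  rw [← h3]
  exact h1

theorem HH_y1 (hjk : j ≠ k) (α : ℝ) (b : ℕ) [NeZero b] :
    HH (PM μ κ) (fun ω => dg b (ss ω)) (y1 hjk α) = Hc (lab μ κ hjk α b) := by
  have h := HH_lab (PM μ κ) μ κ (b := b) hjk α (Y0 := fun ω => act (xx ω) (ze ω)) (θ := ss)
    (measurable_act₂.comp (measurable_xx.prodMk measurable_ze)) measurable_ss
    (law_xz μ κ (g := fun ω => (ω.2.2.1, ω.2.2.2.2)) (mp_s μ κ))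
  rw [← h]
  congr 1
  funext ω
  unfold y1
  rw [act_act]

theorem HH_y2 (hkl : k ≠ l) (β : ℝ) (b : ℕ) [NeZero b] :
    HH (PM μ κ) (fun ω => dg b (tt ω)) (y2 hkl β) = Hc (lab μ κ hkl β b) := by
  have h := HH_lab (PM μ κ) μ κ (b := b) hkl β (Y0 := fun ω => act (xx ω) (ze ω)) (θ := tt)
    (measurable_act₂.comp (measurable_xx.prodMk measurable_ze)) measurable_tt
    (law_xz μ κ (g := fun ω => (ω.2.2.2.1, ω.2.2.2.2)) (mp_t μ κ))
  rw [← h]
  congr 1
  funext ω
  unfold y2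
  rw [act_act]

theorem HH_y3 (hjl : j ≠ l) (γ : ℝ) (b : ℕ) [NeZero b] :
    HH (PM μ κ) (fun ω => dg b (rr ω)) (y3 hjl γ) = Hc (lab μ κ hjl γ b) := by
  have h := HH_lab (PM μ κ) μ κ (b := b) hjl γ (Y0 := fun ω => act (xx ω) (ze ω)) (θ := rr)
    (measurable_act₂.comp (measurable_xx.prodMk measurable_ze)) measurable_rr
    (law_xz μ κ (g := fun ω => (ω.2.2.1, ω.2.2.2.1)) (mp_r μ κ))
  rw [← h]
  congr 1
  funext ω
  unfold y3
  rw [act_act]

/-! ### The digits of one coordinate, the two others as noise -/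

/-- law of `x ζ u(..) u(..)` and one coordinate -/
theorem law_xzz {θ : Om n → ℝ} {g : Om n → ℝ × ℝ}
    (h : MeasurePreserving (fun ω : Om n => ((ω.1, (ω.2.1, g ω)), θ ω)) (PM μ κ)
      ((μ.prod (κ.prod (uni.prod uni))).prod uni)) {p q p' q' : Fin n} (h1 : p ≠ q) (h2 : p' ≠ q')
    (β γ : ℝ) :
    (PM μ κ).map (fun ω => (act (xx ω) (ze ω * uu h1 ((2 : ℝ) ^ (-β) * (g ω).1)
        * uu h2 ((2 : ℝ) ^ (-γ) * (g ω).2)), θ ω))
      = (stp μ (cv (cv κ (dl h1 β)) (dl h2 γ))).prod uni := by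
  have mG : Measurable fun a : SLR n × ℝ × ℝ =>
      a.1 * uu h1 ((2 : ℝ) ^ (-β) * a.2.1) * uu h2 ((2 : ℝ) ^ (-γ) * a.2.2) :=
    (measurable_fst.mul ((measurable_wn h1 β).comp (measurable_fst.comp measurable_snd))).mul
      ((measurable_wn h2 γ).comp (measurable_snd.comp measurable_snd))
  have m1 : Measurable fun a : ModSpace n × (SLR n × ℝ × ℝ) => act a.1
      (a.2.1 * uu h1 ((2 : ℝ) ^ (-β) * a.2.2.1) * uu h2 ((2 : ℝ) ^ (-γ) * a.2.2.2)) :=
    measurable_act₂.comp (measurable_fst.prodMk (mG.comp measurable_snd))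
  have hF : Measurable fun a : (ModSpace n × (SLR n × ℝ × ℝ)) × ℝ => (act a.1.1
      (a.1.2.1 * uu h1 ((2 : ℝ) ^ (-β) * a.1.2.2.1) * uu h2 ((2 : ℝ) ^ (-γ) * a.1.2.2.2)), a.2) :=
    (m1.comp measurable_fst).prodMk measurable_snd
  have e1 := map_of_mp h hF
  have e2 := stp_map μ (κ.prod (uni.prod uni)) mG
  rw [← cv_dl_dl κ h1 h2 β γ] at e2
  have e3 := Measure.map_prod_map (μ.prod (κ.prod (uni.prod uni))) uni m1 measurable_id
  rw [← e2, Measure.map_id] at e3
  rw [e3]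
  exact e1

theorem measurable_act3 {g : Om n → ℝ × ℝ} (hg : Measurable g) {p q p' q' : Fin n} (h1 : p ≠ q)
    (h2 : p' ≠ q') (β γ : ℝ) :
    Measurable fun ω : Om n => act (xx ω) (ze ω * uu h1 ((2 : ℝ) ^ (-β) * (g ω).1)
        * uu h2 ((2 : ℝ) ^ (-γ) * (g ω).2)) :=
  measurable_act₂.comp (measurable_xx.prodMk ((measurable_ze.mul
    ((measurable_wn h1 β).comp (measurable_fst.comp hg))).mul
      ((measurable_wn h2 γ).comp (measurable_snd.comp hg))))

/-- `H(d_r | z)` -/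
theorem HH_r (hjk : j ≠ k) (hkl : k ≠ l) (hjl : j ≠ l) (α β γ : ℝ) (b : ℕ) [NeZero b] :
    HH (PM μ κ) (fun ω => dg b (rr ω)) (zz hjk hkl hjl α β γ)
      = Hc (lab μ (cv (cv κ (dl hkl β)) (dl hjk α)) hjl γ b) := by
  have hg : Measurable fun ω : Om n => ((ω.2.2.1, ω.2.2.2.1) : ℝ × ℝ) :=
    measurable_tt.prodMk measurable_ss
  have h := HH_lab (PM μ κ) μ (cv (cv κ (dl hkl β)) (dl hjk α)) (b := b) hjl γ
    (θ := rr) (measurable_act3 hg hkl hjk β α) measurable_rr
    (law_xzz μ κ (g := fun ω => (ω.2.2.1, ω.2.2.2.1)) (mp_r μ κ) hkl hjk β α)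
  rw [← h]
  congr 1
  funext ω
  unfold zz
  rw [act_act]
  rfl

/-- `H(d_s | z)` -/
theorem HH_s (hjk : j ≠ k) (hkl : k ≠ l) (hjl : j ≠ l) (α β γ : ℝ) (b : ℕ) [NeZero b] :
    HH (PM μ κ) (fun ω => dg b (ss ω)) (zz hjk hkl hjl α β γ)
      = Hc (lab μ (cv (cv κ (dl hkl β)) (dl hjl γ)) hjk α b) := by
  have hg : Measurable fun ω : Om n => ((ω.2.2.1, ω.2.2.2.2) : ℝ × ℝ) :=
    measurable_tt.prodMk measurable_rr
  have h := HH_lab (PM μ κ) μ (cv (cv κ (dl hkl β)) (dl hjl γ)) (b := b) hjk α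
    (θ := ss) (measurable_act3 hg hkl hjl β γ) measurable_ss
    (law_xzz μ κ (g := fun ω => (ω.2.2.1, ω.2.2.2.2)) (mp_s μ κ) hkl hjl β γ)
  rw [← h]
  congr 1
  funext ω
  unfold zz
  rw [act_act, mul_assoc (ze ω * _), comm_jk_jl hjk hjl, ← mul_assoc]
  rfl

/-! ### Adding independent coordinates -/

/-- Adding an independent observation to `(d, Y)`. -/
theorem HH_add {ι A B Y : Type*} [Fintype ι] [MeasurableSpace ι] [MeasurableSingletonClass ι]
    [MeasurableSpace A] [MeasurableSpace B] [MeasurableSpace Y]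
    {g : Om n → A} {f : Om n → B} {ρ : Measure A} {τ : Measure B}
    [IsProbabilityMeasure ρ] [IsProbabilityMeasure τ]
    (h : MeasurePreserving (fun ω => (g ω, f ω)) (PM μ κ) (ρ.prod τ)) {d : A → ι} {Yv : A → Y}
    (hd : Measurable d) (hY : Measurable Yv) :
    HH (PM μ κ) (fun ω => d (g ω)) (fun ω => (Yv (g ω), f ω))
      = HH (PM μ κ) (fun ω => d (g ω)) (fun ω => Yv (g ω)) := by
  have hg : Measurable g := measurable_fst.comp h.measurable
  have hf : Measurable f := measurable_snd.comp h.measurable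
  refine HH_indep (PM μ κ) (hd.comp hg) (hY.comp hg) hf inferInstance ?_
  have h1 := indepFun_prod (μ := ρ) (ν := τ) (X := fun a => (d a, Yv a)) (Y := fun b : B => b)
    (hd.prodMk hY) measurable_id
  rw [← h.map_eq] at h1
  have m1 : Measurable fun p : A × B => (d p.1, Yv p.1) := (hd.prodMk hY).comp measurable_fst
  have m2 : Measurable fun p : A × B => p.2 := measurable_snd
  rw [indepFun_iff_map_prod_eq_prod_map_map m1.aemeasurable m2.aemeasurable] at h1
  have m3 : Measurable fun ω => (d (g ω), Yv (g ω)) := (hd.comp hg).prodMk (hY.comp hg)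
  refine (indepFun_iff_map_prod_eq_prod_map_map m3.aemeasurable hf.aemeasurable).2 ?_
  rw [Measure.map_map (m1.prodMk m2) h.measurable, Measure.map_map m1 h.measurable,
    Measure.map_map m2 h.measurable] at h1
  exact h1

/-- `H(D_r | z, t, s) = H(D_r | x ζ u_jl(r))` -/
theorem HH_r_ts (hjk : j ≠ k) (hkl : k ≠ l) (hjl : j ≠ l) (α β γ : ℝ) (b : ℕ) [NeZero b] :
    HH (PM μ κ) (fun ω => dg b (rr ω)) (fun ω => (zz hjk hkl hjl α β γ ω, (tt ω, ss ω)))
      = HH (PM μ κ) (fun ω => dg b (rr ω)) (y3 hjl γ) := by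
  have mY : Measurable fun p : ModSpace n × (SLR n × ℝ) =>
      act p.1 (p.2.1 * uu hjl ((2 : ℝ) ^ (-γ) * p.2.2)) :=
    measurable_act₂.comp (measurable_fst.prodMk ((measurable_fst.comp measurable_snd).mul
      ((measurable_wn hjl γ).comp (measurable_snd.comp measurable_snd))))
  have md : Measurable fun p : ModSpace n × (SLR n × ℝ) => dg b p.2.2 :=
    (measurable_dg b).comp (measurable_snd.comp measurable_snd)
  have h1 := HH_add μ κ (mp_ts μ κ) md mY
  have h2 : HH (PM μ κ) (fun ω => dg b (rr ω)) (fun ω => (y3 hjl γ ω, (tt ω, ss ω)))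
      = HH (PM μ κ) (fun ω => dg b (rr ω)) (y3 hjl γ) := h1
  rw [← h2]
  have mu2 : Measurable fun p : ℝ × ℝ =>
      (uu hkl ((2 : ℝ) ^ (-β) * p.1) * uu hjk ((2 : ℝ) ^ (-α) * p.2) : SLR n) :=
    ((measurable_wn hkl β).comp measurable_fst).mul ((measurable_wn hjk α).comp measurable_snd)
  have mK : Measurable fun p : ModSpace n × (ℝ × ℝ) =>
      (act p.1 (uu hkl ((2 : ℝ) ^ (-β) * p.2.1) * uu hjk ((2 : ℝ) ^ (-α) * p.2.2))⁻¹, p.2) :=
    (measurable_act₂.comp (measurable_fst.prodMk (mu2.comp measurable_snd).inv)).prodMk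
      measurable_snd
  have mL : Measurable fun p : ModSpace n × (ℝ × ℝ) =>
      (act p.1 (uu hkl ((2 : ℝ) ^ (-β) * p.2.1) * uu hjk ((2 : ℝ) ^ (-α) * p.2.2)), p.2) :=
    (measurable_act₂.comp (measurable_fst.prodMk (mu2.comp measurable_snd))).prodMk
      measurable_snd
  have mts : Measurable fun ω : Om n => (tt ω, ss ω) := measurable_tt.prodMk measurable_ss
  have hz : ∀ ω : Om n, zz hjk hkl hjl α β γ ω = act (y3 hjl γ ω)
      (uu hkl ((2 : ℝ) ^ (-β) * tt ω) * uu hjk ((2 : ℝ) ^ (-α) * ss ω)) := by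
    intro ω
    unfold zz y3
    rw [act_act]
    congr 1
    rw [mul_assoc (ze ω * _), comm_jk_jl hjk hjl, ← mul_assoc, mul_assoc (ze ω),
      comm_kl_jl hkl hjl]
    group
  refine HH_eq_of_comp (PM μ κ) mK mL ((measurable_zz hjk hkl hjl α β γ).prodMk mts)
    ((measurable_y3 hjl γ).prodMk mts) (Filter.Eventually.of_forall fun ω => ?_)
    (Filter.Eventually.of_forall fun ω => ?_)
  · simp only
    rw [hz ω, act_act, mul_inv_cancel, act_one]
  · simp only
    rw [hz ω]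

/-- `H(d_t | z, s, r) = H(d_t | x ζ u_kl(t))` -/
theorem HH_t_sr (hjk : j ≠ k) (hkl : k ≠ l) (hjl : j ≠ l) (α β γ : ℝ) (b : ℕ) [NeZero b] :
    HH (PM μ κ) (fun ω => dg b (tt ω)) (fun ω => (zz hjk hkl hjl α β γ ω, (ss ω, rr ω)))
      = HH (PM μ κ) (fun ω => dg b (tt ω)) (y2 hkl β) := by
  have mY : Measurable fun p : ModSpace n × (SLR n × ℝ) =>
      act p.1 (p.2.1 * uu hkl ((2 : ℝ) ^ (-β) * p.2.2)) :=
    measurable_act₂.comp (measurable_fst.prodMk ((measurable_fst.comp measurable_snd).mul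
      ((measurable_wn hkl β).comp (measurable_snd.comp measurable_snd))))
  have md : Measurable fun p : ModSpace n × (SLR n × ℝ) => dg b p.2.2 :=
    (measurable_dg b).comp (measurable_snd.comp measurable_snd)
  have h1 := HH_add μ κ (mp_sr μ κ) md mY
  have h2 : HH (PM μ κ) (fun ω => dg b (tt ω)) (fun ω => (y2 hkl β ω, (ss ω, rr ω)))
      = HH (PM μ κ) (fun ω => dg b (tt ω)) (y2 hkl β) := h1
  rw [← h2]
  have mu2 : Measurable fun p : ℝ × ℝ =>
      (uu hjk ((2 : ℝ) ^ (-α) * p.1) * uu hjl ((2 : ℝ) ^ (-γ) * p.2) : SLR n) :=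
    ((measurable_wn hjk α).comp measurable_fst).mul ((measurable_wn hjl γ).comp measurable_snd)
  have mK : Measurable fun p : ModSpace n × (ℝ × ℝ) =>
      (act p.1 (uu hjk ((2 : ℝ) ^ (-α) * p.2.1) * uu hjl ((2 : ℝ) ^ (-γ) * p.2.2))⁻¹, p.2) :=
    (measurable_act₂.comp (measurable_fst.prodMk (mu2.comp measurable_snd).inv)).prodMk
      measurable_snd
  have mL : Measurable fun p : ModSpace n × (ℝ × ℝ) =>
      (act p.1 (uu hjk ((2 : ℝ) ^ (-α) * p.2.1) * uu hjl ((2 : ℝ) ^ (-γ) * p.2.2)), p.2) :=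
    (measurable_act₂.comp (measurable_fst.prodMk (mu2.comp measurable_snd))).prodMk
      measurable_snd
  have mts : Measurable fun ω : Om n => (ss ω, rr ω) := measurable_ss.prodMk measurable_rr
  have hz : ∀ ω : Om n, zz hjk hkl hjl α β γ ω = act (y2 hkl β ω)
      (uu hjk ((2 : ℝ) ^ (-α) * ss ω) * uu hjl ((2 : ℝ) ^ (-γ) * rr ω)) := by
    intro ω
    unfold zz y2
    rw [act_act]
    congr 1
    group
  refine HH_eq_of_comp (PM μ κ) mK mL ((measurable_zz hjk hkl hjl α β γ).prodMk mts)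
    ((measurable_y2 hkl β).prodMk mts) (Filter.Eventually.of_forall fun ω => ?_)
    (Filter.Eventually.of_forall fun ω => ?_)
  · simp only
    rw [hz ω, act_act, mul_inv_cancel, act_one]
  · simp only
    rw [hz ω]

end Crest.Agent.R014.HSp_599
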