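import Crest.Agent.R014.HSp3_599

set_option autoImplicit false
set_option linter.unusedSectionVars false

/-!
Row 14, block D, noise formalism, section 4, (4.3): the inequalities (i), (ii), (iii) for the digits.
-/

open MeasureTheory ProbabilityTheory Crest.NumberTheoryR.Packets
open scoped ENNReal

namespace Crest.Agent.R014.HSp_599

open Ms_667 Ne1_567 Ne3_567 Ne4_567 Sw1_640 Sw3_640
open Nd_837 hiding uni_ae
open NScD_395 (dl)

variable {n : ℕ} {j k l : Fin n} (μ : Measure (ModSpace n)) (κ : Measure (SLR n))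
  [IsProbabilityMeasure μ] [IsProbabilityMeasure κ]

/-- Replacing `r` by `rp` costs `2^(γ - α - β) / 2` in total variation. -/
theorem tv_rp (α β γ : ℝ) {Z : Type*} [MeasurableSpace Z]
    {G : (ModSpace n × (SLR n × (ℝ × ℝ))) × ℝ → Z} (hG : Measurable G) :
    TVle ((PM μ κ).map fun ω => G ((ω.1, (ω.2.1, (ω.2.2.1, ω.2.2.2.1))), rp α β γ ω))
      ((PM μ κ).map fun ω => G ((ω.1, (ω.2.1, (ω.2.2.1, ω.2.2.2.1))), rr ω))
      ((2 : ℝ) ^ (γ - α - β) / 2) := by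
  set c : ℝ := (2 : ℝ) ^ (γ - α - β) with hc
  have hc0 : 0 < c := Real.rpow_pos_of_pos two_pos _
  have mF : Measurable fun p : (ModSpace n × (SLR n × (ℝ × ℝ))) × ℝ =>
      G (p.1, p.2 - c * (p.1.2.2.2 * p.1.2.2.1)) := by
    refine hG.comp (measurable_fst.prodMk ?_)
    fun_prop
  have e1 : (PM μ κ).map (fun ω => G ((ω.1, (ω.2.1, (ω.2.2.1, ω.2.2.2.1))), rp α β γ ω))
      = ((μ.prod (κ.prod (uni.prod uni))).prod uni).map
        fun p => G (p.1, p.2 - c * (p.1.2.2.2 * p.1.2.2.1)) :=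
    map_of_mp (mp_r μ κ) mF
  have e2 : (PM μ κ).map (fun ω => G ((ω.1, (ω.2.1, (ω.2.2.1, ω.2.2.2.1))), rr ω))
      = ((μ.prod (κ.prod (uni.prod uni))).prod uni).map fun p => G (p.1, p.2) :=
    map_of_mp (mp_r μ κ) hG
  rw [e1, e2]
  refine TVle.mix mF hG ?_
  have h1 : ∀ᵐ q ∂(uni.prod uni), |q.1| ≤ 1 ∧ |q.2| ≤ 1 := by
    have a1 : ∀ᵐ q ∂(uni.prod uni), |q.1| ≤ 1 :=
      Measure.quasiMeasurePreserving_fst.ae Sw1_640.uni_ae
    have a2 : ∀ᵐ q ∂(uni.prod uni), |q.2| ≤ 1 :=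
      Measure.quasiMeasurePreserving_snd.ae Sw1_640.uni_ae
    filter_upwards [a1, a2] with q h1 h2
    exact ⟨h1, h2⟩
  have h2 : ∀ᵐ q ∂(μ.prod (κ.prod (uni.prod uni))), |q.2.2.1| ≤ 1 ∧ |q.2.2.2| ≤ 1 :=
    Measure.quasiMeasurePreserving_snd.ae (Measure.quasiMeasurePreserving_snd.ae h1)
  filter_upwards [h2] with q hq
  have h3 := uni_shift (-(c * (q.2.2.2 * q.2.2.1)))
  have h4 : |(-(c * (q.2.2.2 * q.2.2.1)))| / 2 ≤ c / 2 := by
    rw [abs_neg, abs_mul, abs_of_pos hc0, abs_mul]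
    have : |q.2.2.2| * |q.2.2.1| ≤ 1 := mul_le_one₀ hq.2 (abs_nonneg _) hq.1
    have h5 : c * (|q.2.2.2| * |q.2.2.1|) ≤ c * 1 := mul_le_mul_of_nonneg_left this hc0.le
    linarith
  have mg : Measurable fun y : ℝ => G (q, y) := hG.comp measurable_prodMk_left
  have h5 := (h3.mono h4).map mg
  rw [Measure.map_map mg (by fun_prop)] at h5
  exact h5

/-- The same for entropies. -/
theorem HH_rp {ι Y : Type*} [Fintype ι] [Nonempty ι] [MeasurableSpace ι]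
    [MeasurableSingletonClass ι] [MeasurableSpace Y] (α β γ : ℝ)
    {d : (ModSpace n × (SLR n × (ℝ × ℝ))) × ℝ → ι}
    {Yv : (ModSpace n × (SLR n × (ℝ × ℝ))) × ℝ → Y} (hd : Measurable d) (hY : Measurable Yv)
    (he : (2 : ℝ) ^ (γ - α - β) / 2 ≤ 1) :
    |HH (PM μ κ) (fun ω => d ((ω.1, (ω.2.1, (ω.2.2.1, ω.2.2.2.1))), rp α β γ ω))
        (fun ω => Yv ((ω.1, (ω.2.1, (ω.2.2.1, ω.2.2.2.1))), rp α β γ ω))
      - HH (PM μ κ) (fun ω => d ((ω.1, (ω.2.1, (ω.2.2.1, ω.2.2.2.1))), rr ω))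
        (fun ω => Yv ((ω.1, (ω.2.1, (ω.2.2.1, ω.2.2.2.1))), rr ω))|
      ≤ md (Fintype.card ι) ((2 : ℝ) ^ (γ - α - β) / 2) := by
  have mrp : Measurable fun ω : Om n =>
      (((ω.1, (ω.2.1, (ω.2.2.1, ω.2.2.2.1))), rp α β γ ω) :
        (ModSpace n × (SLR n × (ℝ × ℝ))) × ℝ) :=
    (measurable_xx.prodMk (measurable_ze.prodMk (measurable_tt.prodMk measurable_ss))).prodMk
      (measurable_rp α β γ)
  have mrr : Measurable fun ω : Om n =>
      (((ω.1, (ω.2.1, (ω.2.2.1, ω.2.2.2.1))), rr ω) :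
        (ModSpace n × (SLR n × (ℝ × ℝ))) × ℝ) :=
    (measurable_xx.prodMk (measurable_ze.prodMk (measurable_tt.prodMk measurable_ss))).prodMk
      measurable_rr
  have htv := tv_rp μ κ α β γ (hd.prodMk hY)
  have m1 : Measurable fun ω : Om n => ((d ((ω.1, (ω.2.1, (ω.2.2.1, ω.2.2.2.1))), rp α β γ ω),
      Yv ((ω.1, (ω.2.1, (ω.2.2.1, ω.2.2.2.1))), rp α β γ ω)) : ι × Y) :=
    (hd.prodMk hY).comp mrp
  have m2 : Measurable fun ω : Om n => ((d ((ω.1, (ω.2.1, (ω.2.2.1, ω.2.2.2.1))), rr ω),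
      Yv ((ω.1, (ω.2.1, (ω.2.2.1, ω.2.2.2.1))), rr ω)) : ι × Y) :=
    (hd.prodMk hY).comp mrr
  have key : ∀ A : Set (ι × Y), MeasurableSet A →
      |(PM μ κ).real ((fun ω : Om n => (d ((ω.1, (ω.2.1, (ω.2.2.1, ω.2.2.2.1))), rp α β γ ω),
        Yv ((ω.1, (ω.2.1, (ω.2.2.1, ω.2.2.2.1))), rp α β γ ω))) ⁻¹' A)
      - (PM μ κ).real ((fun ω : Om n => (d ((ω.1, (ω.2.1, (ω.2.2.1, ω.2.2.2.1))), rr ω),
        Yv ((ω.1, (ω.2.1, (ω.2.2.1, ω.2.2.2.1))), rr ω))) ⁻¹' A)|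
      ≤ (2 : ℝ) ^ (γ - α - β) / 2 := by
    intro A hA
    have h := htv A hA
    rwa [map_measureReal_apply m1 hA, map_measureReal_apply m2 hA] at h
  have hP : (PM μ κ).real Set.univ ≤ 1 := by simp
  have u1 := HH_le_of_tv (PM μ κ) (P' := PM μ κ) hP (hd.comp mrp) (hY.comp mrp) (hd.comp mrr)
    (hY.comp mrr) (e := (2 : ℝ) ^ (γ - α - β) / 2) (fun A hA => by
      have h := (abs_le.1 (key A hA)).2
      have h' : (PM μ κ).real ((fun ω : Om n => (d ((ω.1, (ω.2.1, (ω.2.2.1, ω.2.2.2.1))),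
        rp α β γ ω), Yv ((ω.1, (ω.2.1, (ω.2.2.1, ω.2.2.2.1))), rp α β γ ω))) ⁻¹' A)
        ≤ (PM μ κ).real ((fun ω : Om n => (d ((ω.1, (ω.2.1, (ω.2.2.1, ω.2.2.2.1))), rr ω),
        Yv ((ω.1, (ω.2.1, (ω.2.2.1, ω.2.2.2.1))), rr ω))) ⁻¹' A)
          + (2 : ℝ) ^ (γ - α - β) / 2 := by linarith
      exact h') he
  have u2 := HH_le_of_tv (PM μ κ) (P' := PM μ κ) hP (hd.comp mrr) (hY.comp mrr) (hd.comp mrp)
    (hY.comp mrp) (e := (2 : ℝ) ^ (γ - α - β) / 2) (fun A hA => by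
      have h := (abs_le.1 (key A hA)).1
      have h' : (PM μ κ).real ((fun ω : Om n => (d ((ω.1, (ω.2.1, (ω.2.2.1, ω.2.2.2.1))), rr ω),
        Yv ((ω.1, (ω.2.1, (ω.2.2.1, ω.2.2.2.1))), rr ω))) ⁻¹' A)
        ≤ (PM μ κ).real ((fun ω : Om n => (d ((ω.1, (ω.2.1, (ω.2.2.1, ω.2.2.2.1))),
        rp α β γ ω), Yv ((ω.1, (ω.2.1, (ω.2.2.1, ω.2.2.2.1))), rp α β γ ω))) ⁻¹' A)
          + (2 : ℝ) ^ (γ - α - β) / 2 := by linarith
      exact h') he
  have v1 : HH (PM μ κ) (fun ω => d ((ω.1, (ω.2.1, (ω.2.2.1, ω.2.2.2.1))), rp α β γ ω))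
        (fun ω => Yv ((ω.1, (ω.2.1, (ω.2.2.1, ω.2.2.2.1))), rp α β γ ω))
      ≤ HH (PM μ κ) (fun ω => d ((ω.1, (ω.2.1, (ω.2.2.1, ω.2.2.2.1))), rr ω))
        (fun ω => Yv ((ω.1, (ω.2.1, (ω.2.2.1, ω.2.2.2.1))), rr ω))
        + md (Fintype.card ι) ((2 : ℝ) ^ (γ - α - β) / 2) := u1
  have v2 : HH (PM μ κ) (fun ω => d ((ω.1, (ω.2.1, (ω.2.2.1, ω.2.2.2.1))), rr ω))
        (fun ω => Yv ((ω.1, (ω.2.1, (ω.2.2.1, ω.2.2.2.1))), rr ω))
      ≤ HH (PM μ κ) (fun ω => d ((ω.1, (ω.2.1, (ω.2.2.1, ω.2.2.2.1))), rp α β γ ω))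
        (fun ω => Yv ((ω.1, (ω.2.1, (ω.2.2.1, ω.2.2.2.1))), rp α β γ ω))
        + md (Fintype.card ι) ((2 : ℝ) ^ (γ - α - β) / 2) := u2
  rw [abs_le]
  constructor <;> linarith

/-- **(ii)**: `H(d_s | z, t, r'') ≥ H(d_s | x ζ u_jk(s)) - md`. -/
theorem HH_s_trp (hjk : j ≠ k) (hkl : k ≠ l) (hjl : j ≠ l) (α β γ : ℝ) (b : ℕ) [NeZero b]
    (he : (2 : ℝ) ^ (γ - α - β) / 2 ≤ 1) :
    HH (PM μ κ) (fun ω => dg b (ss ω)) (y1 hjk α) - md b ((2 : ℝ) ^ (γ - α - β) / 2)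
      ≤ HH (PM μ κ) (fun ω => dg b (ss ω))
        (fun ω => (zz hjk hkl hjl α β γ ω, (tt ω, rp α β γ ω))) := by
  -- the observation `(y1, (t, r))`
  have mY : Measurable fun p : ModSpace n × (SLR n × ℝ) =>
      act p.1 (p.2.1 * uu hjk ((2 : ℝ) ^ (-α) * p.2.2)) :=
    measurable_act₂.comp (measurable_fst.prodMk ((measurable_fst.comp measurable_snd).mul
      ((measurable_wn hjk α).comp (measurable_snd.comp measurable_snd))))
  have md0 : Measurable fun p : ModSpace n × (SLR n × ℝ) => dg b p.2.2 :=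
    (measurable_dg b).comp (measurable_snd.comp measurable_snd)
  have h1 : HH (PM μ κ) (fun ω => dg b (ss ω)) (fun ω => (y1 hjk α ω, (tt ω, rr ω)))
      = HH (PM μ κ) (fun ω => dg b (ss ω)) (y1 hjk α) := HH_add μ κ (mp_tr μ κ) md0 mY
  -- change of `r` into `rp`
  have md1 : Measurable fun p : (ModSpace n × (SLR n × (ℝ × ℝ))) × ℝ => dg b p.1.2.2.2 :=
    (measurable_dg b).comp (by fun_prop)
  have mY1 : Measurable fun p : (ModSpace n × (SLR n × (ℝ × ℝ))) × ℝ =>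
      ((act p.1.1 (p.1.2.1 * uu hjk ((2 : ℝ) ^ (-α) * p.1.2.2.2)), (p.1.2.2.1, p.2)) :
        ModSpace n × (ℝ × ℝ)) :=
    (measurable_act₂.comp ((measurable_fst.comp measurable_fst).prodMk
      ((measurable_fst.comp (measurable_snd.comp measurable_fst)).mul
        ((measurable_wn hjk α).comp (by fun_prop))))).prodMk (by fun_prop)
  have h2 := HH_rp μ κ α β γ md1 mY1 he
  rw [Fintype.card_fin] at h2
  have h3 : |HH (PM μ κ) (fun ω => dg b (ss ω)) (fun ω => (y1 hjk α ω, (tt ω, rp α β γ ω)))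
      - HH (PM μ κ) (fun ω => dg b (ss ω)) (fun ω => (y1 hjk α ω, (tt ω, rr ω)))|
      ≤ md b ((2 : ℝ) ^ (γ - α - β) / 2) := h2
  -- the observations `(z, t, rp)` and `(y1, t, rp)` determine each other
  have mu2 : Measurable fun p : ℝ × ℝ =>
      (uu hkl ((2 : ℝ) ^ (-β) * p.1) * uu hjl ((2 : ℝ) ^ (-γ) * p.2) : SLR n) :=
    ((measurable_wn hkl β).comp measurable_fst).mul ((measurable_wn hjl γ).comp measurable_snd)
  have mK : Measurable fun p : ModSpace n × (ℝ × ℝ) =>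
      (act p.1 (uu hkl ((2 : ℝ) ^ (-β) * p.2.1) * uu hjl ((2 : ℝ) ^ (-γ) * p.2.2))⁻¹, p.2) :=
    (measurable_act₂.comp (measurable_fst.prodMk (mu2.comp measurable_snd).inv)).prodMk
      measurable_snd
  have mL : Measurable fun p : ModSpace n × (ℝ × ℝ) =>
      (act p.1 (uu hkl ((2 : ℝ) ^ (-β) * p.2.1) * uu hjl ((2 : ℝ) ^ (-γ) * p.2.2)), p.2) :=
    (measurable_act₂.comp (measurable_fst.prodMk (mu2.comp measurable_snd))).prodMk
      measurable_snd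
  have mtr : Measurable fun ω : Om n => (tt ω, rp α β γ ω) :=
    measurable_tt.prodMk (measurable_rp α β γ)
  have hz : ∀ ω : Om n, zz hjk hkl hjl α β γ ω = act (y1 hjk α ω)
      (uu hkl ((2 : ℝ) ^ (-β) * tt ω) * uu hjl ((2 : ℝ) ^ (-γ) * rp α β γ ω)) := by
    intro ω
    rw [zz_eq]
    unfold y1
    rw [act_act]
    congr 1
    group
  have h4 : HH (PM μ κ) (fun ω => dg b (ss ω))
        (fun ω => (zz hjk hkl hjl α β γ ω, (tt ω, rp α β γ ω)))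
      = HH (PM μ κ) (fun ω => dg b (ss ω)) (fun ω => (y1 hjk α ω, (tt ω, rp α β γ ω))) := by
    refine HH_eq_of_comp (PM μ κ) mK mL ((measurable_zz hjk hkl hjl α β γ).prodMk mtr)
      ((measurable_y1 hjk α).prodMk mtr) (Filter.Eventually.of_forall fun ω => ?_)
      (Filter.Eventually.of_forall fun ω => ?_)
    · simp only
      rw [hz ω, act_act, mul_inv_cancel, act_one]
    · simp only
      rw [hz ω]
  have h5 := (abs_le.1 h3).1
  rw [h4]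
  linarith

/-- **(i)**: `H(d_t | z)` against the entropy for the other order. -/
theorem HH_t (hjk : j ≠ k) (hkl : k ≠ l) (hjl : j ≠ l) (α β γ : ℝ) (b : ℕ) [NeZero b]
    (he : (2 : ℝ) ^ (γ - α - β) / 2 ≤ 1) :
    |HH (PM μ κ) (fun ω => dg b (tt ω)) (zz hjk hkl hjl α β γ)
      - Hc (lab μ (cv (cv κ (dl hjk α)) (dl hjl γ)) hkl β b)|
      ≤ md b ((2 : ℝ) ^ (γ - α - β) / 2) := by
  have md1 : Measurable fun p : (ModSpace n × (SLR n × (ℝ × ℝ))) × ℝ => dg b p.1.2.2.1 :=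
    (measurable_dg b).comp (by fun_prop)
  have mY1 : Measurable fun p : (ModSpace n × (SLR n × (ℝ × ℝ))) × ℝ =>
      act p.1.1 (p.1.2.1 * uu hjk ((2 : ℝ) ^ (-α) * p.1.2.2.2)
        * uu hkl ((2 : ℝ) ^ (-β) * p.1.2.2.1) * uu hjl ((2 : ℝ) ^ (-γ) * p.2)) :=
    measurable_act₂.comp ((measurable_fst.comp measurable_fst).prodMk
      ((((measurable_fst.comp (measurable_snd.comp measurable_fst)).mul
        ((measurable_wn hjk α).comp (by fun_prop))).mul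
        ((measurable_wn hkl β).comp (by fun_prop))).mul
        ((measurable_wn hjl γ).comp (by fun_prop))))
  have h2 := HH_rp μ κ α β γ md1 mY1 he
  rw [Fintype.card_fin] at h2
  have hz : (fun ω : Om n => act ω.1 (ω.2.1 * uu hjk ((2 : ℝ) ^ (-α) * ω.2.2.2.1)
        * uu hkl ((2 : ℝ) ^ (-β) * ω.2.2.1) * uu hjl ((2 : ℝ) ^ (-γ) * rp α β γ ω)))
      = zz hjk hkl hjl α β γ := by
    funext ω
    rw [zz_eq]
    rfl
  have hg : Measurable fun ω : Om n => ((ω.2.2.2.1, ω.2.2.2.2) : ℝ × ℝ) :=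
    measurable_ss.prodMk measurable_rr
  have h := HH_lab (PM μ κ) μ (cv (cv κ (dl hjk α)) (dl hjl γ)) (b := b) hkl β
    (θ := tt) (measurable_act3 hg hjk hjl α γ) measurable_tt
    (law_xzz μ κ (g := fun ω => (ω.2.2.2.1, ω.2.2.2.2)) (mp_t μ κ) hjk hjl α γ)
  have h3 : (fun ω : Om n => act ω.1 (ω.2.1 * uu hjk ((2 : ℝ) ^ (-α) * ω.2.2.2.1)
        * uu hkl ((2 : ℝ) ^ (-β) * ω.2.2.1) * uu hjl ((2 : ℝ) ^ (-γ) * rr ω)))
      = fun ω => act (act (xx ω) (ze ω * uu hjk ((2 : ℝ) ^ (-α) * ω.2.2.2.1)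
        * uu hjl ((2 : ℝ) ^ (-γ) * ω.2.2.2.2))) (uu hkl ((2 : ℝ) ^ (-β) * tt ω)) := by
    funext ω
    rw [act_act, mul_assoc (ze ω * _), mul_assoc (ω.2.1 * _), comm_kl_jl hkl hjl]
    rfl
  rw [← h]
  simp only [hz] at h2
  rw [h3] at h2
  exact h2

theorem mp_sb (b : ℕ) [NeZero b] : MeasurePreserving
    (fun ω : Om n => (((ω.1, (ω.2.1, (ω.2.2.1, ω.2.2.2.2))), sb b ω.2.2.2.1), dg b ω.2.2.2.1))
    (PM μ κ) (((μ.prod (κ.prod (uni.prod uni))).prod uni).prod (uf b)) := by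
  have h1 : MeasurePreserving (fun θ : ℝ => (dg b θ, sb b θ)) uni ((uf b).prod uni) :=
    ⟨(measurable_dg b).prodMk (measurable_sb b), law_dg_sb b⟩
  have h2 := (mp_swap (uf b) uni).comp h1
  exact (mp_push h2).comp (mp_s μ κ)

/-- The observation with the fine part of `s`. -/
noncomputable def zf (hjk : j ≠ k) (hkl : k ≠ l) (hjl : j ≠ l) (α β γ : ℝ) (b : ℕ) [NeZero b]
    (ω : Om n) : ModSpace n :=
  act (xx ω) (ze ω * uu hkl ((2 : ℝ) ^ (-β) * tt ω) * uu hjk ((2 : ℝ) ^ (-α) * sb b (ss ω))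
    * uu hjl ((2 : ℝ) ^ (-γ) * rr ω))

theorem measurable_zf (hjk : j ≠ k) (hkl : k ≠ l) (hjl : j ≠ l) (α β γ : ℝ) (b : ℕ) [NeZero b] :
    Measurable (zf (n := n) hjk hkl hjl α β γ b) :=
  measurable_act₂.comp (measurable_xx.prodMk (((measurable_ze.mul (mu1 hkl measurable_tt β)).mul
    (mu1 hjk ((measurable_sb b).comp measurable_ss) α)).mul (mu1 hjl measurable_rr γ)))

/-- the observation as a function of `((x, ζ, t, r), s)` -/
noncomputable def zg (hjk : j ≠ k) (hkl : k ≠ l) (hjl : j ≠ l) (α β γ : ℝ)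
    (p : (ModSpace n × (SLR n × (ℝ × ℝ))) × ℝ) : ModSpace n :=
  act p.1.1 (p.1.2.1 * uu hkl ((2 : ℝ) ^ (-β) * p.1.2.2.1) * uu hjk ((2 : ℝ) ^ (-α) * p.2)
        * uu hjl ((2 : ℝ) ^ (-γ) * p.1.2.2.2))

theorem measurable_zg (hjk : j ≠ k) (hkl : k ≠ l) (hjl : j ≠ l) (α β γ : ℝ) :
    Measurable (zg (n := n) hjk hkl hjl α β γ) := by
  have m1 : Measurable fun p : (ModSpace n × (SLR n × (ℝ × ℝ))) × ℝ => p.1.2.1 :=
    measurable_fst.comp (measurable_snd.comp measurable_fst)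
  have m2 : Measurable fun p : (ModSpace n × (SLR n × (ℝ × ℝ))) × ℝ => p.1.2.2.1 := by fun_prop
  have m3 : Measurable fun p : (ModSpace n × (SLR n × (ℝ × ℝ))) × ℝ => p.1.2.2.2 := by fun_prop
  exact measurable_act₂.comp ((measurable_fst.comp measurable_fst).prodMk
      (((m1.mul ((measurable_wn hkl β).comp m2)).mul
        ((measurable_wn hjk α).comp measurable_snd)).mul ((measurable_wn hjl γ).comp m3)))

theorem measurable_dgg (b' : ℕ) [NeZero b'] :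
    Measurable fun p : (ModSpace n × (SLR n × (ℝ × ℝ))) × ℝ => dg b' p.1.2.2.2 := by
  have m3 : Measurable fun p : (ModSpace n × (SLR n × (ℝ × ℝ))) × ℝ => p.1.2.2.2 := by fun_prop
  exact (measurable_dg b').comp m3

theorem HH_zf1 (hjk : j ≠ k) (hkl : k ≠ l) (hjl : j ≠ l) (α β γ : ℝ) (b b' : ℕ) [NeZero b]
    [NeZero b'] :
    HH (PM μ κ) (fun ω => dg b' (rr ω)) (fun ω => (zf hjk hkl hjl α β γ b ω, dg b (ss ω)))
      = HH (PM μ κ) (fun ω => dg b' (rr ω)) (zf hjk hkl hjl α β γ b) :=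
  HH_add μ κ (mp_sb μ κ b) (measurable_dgg b') (measurable_zg hjk hkl hjl α β γ)

theorem HH_zf2 (hjk : j ≠ k) (hkl : k ≠ l) (hjl : j ≠ l) (α β γ : ℝ) (b b' : ℕ) [NeZero b]
    [NeZero b'] :
    HH (PM μ κ) (fun ω => dg b' (rr ω)) (zf hjk hkl hjl α β γ b)
      = HH (PM μ κ) (fun ω => dg b' (rr ω)) (zz hjk hkl hjl α β γ) := by
  have hfst : MeasurePreserving
      (fun ω : Om n => ((ω.1, (ω.2.1, (ω.2.2.1, ω.2.2.2.2))), sb b ω.2.2.2.1))
      (PM μ κ) ((μ.prod (κ.prod (uni.prod uni))).prod uni) :=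
    (measurePreserving_fst (μ := (μ.prod (κ.prod (uni.prod uni))).prod uni)
      (ν := uf b)).comp (mp_sb μ κ b)
  have mm := (measurable_dgg (n := n) b').prodMk (measurable_zg hjk hkl hjl α β γ)
  have e1 := map_of_mp hfst mm
  have e2 := map_of_mp (mp_s μ κ) mm
  have e3 : (PM μ κ).map (fun ω => (dg b' (rr ω), zf hjk hkl hjl α β γ b ω))
      = (PM μ κ).map (fun ω => (dg b' (rr ω), zz hjk hkl hjl α β γ ω)) := e1.trans e2.symm
  exact HH_congr_law (PM μ κ) ((measurable_dg b').comp measurable_rr)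
    (measurable_zf hjk hkl hjl α β γ b) ((measurable_dg b').comp measurable_rr)
    (measurable_zz hjk hkl hjl α β γ) e3

theorem zz_zf (hjk : j ≠ k) (hkl : k ≠ l) (hjl : j ≠ l) (α β γ : ℝ) (b : ℕ) [NeZero b]
    (ω : Om n) : zz hjk hkl hjl α β γ ω
      = act (zf hjk hkl hjl (α + Real.logb 2 b) β γ b ω)
        (uu hjk ((2 : ℝ) ^ (-α) * cen b (dg b (ss ω)))) := by
  have hb : 0 < b := NeZero.pos b
  have e1 : (2 : ℝ) ^ (-α) * ss ω
      = (2 : ℝ) ^ (-(α + Real.logb 2 b)) * sb b (ss ω)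
        + (2 : ℝ) ^ (-α) * cen b (dg b (ss ω)) := by
    rw [rpow_sub_logb hb]
    conv_lhs => rw [eq_cen_add (N := b) (ss ω)]
    ring
  have key : ∀ Z A B C D : SLR n, D * C = C * D → Z * A * (B * D) * C = Z * A * B * C * D := by
    intro Z A B C D h
    rw [mul_assoc (Z * A), mul_assoc B D C, h]
    group
  unfold zz zf
  rw [act_act, e1, uu_add]
  congr 1
  exact key _ _ _ _ _ (comm_jk_jl hjk hjl _ _)

/-- **(iii)**: `H(D_r | z, d_s)`: the window of `s` becomes finer. -/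
theorem HH_r_dS (hjk : j ≠ k) (hkl : k ≠ l) (hjl : j ≠ l) (α β γ : ℝ) (b b' : ℕ) [NeZero b]
    [NeZero b'] :
    HH (PM μ κ) (fun ω => dg b' (rr ω)) (fun ω => (zz hjk hkl hjl α β γ ω, dg b (ss ω)))
      = Hc (lab μ (cv (cv κ (dl hkl β)) (dl hjk (α + Real.logb 2 b))) hjl γ b') := by
  rw [← HH_r μ κ hjk hkl hjl (α + Real.logb 2 b) β γ b', ← HH_zf2 μ κ hjk hkl hjl _ β γ b b',
    ← HH_zf1 μ κ hjk hkl hjl _ β γ b b']
  -- `(z, d_s)` and `(zf, d_s)` determine each other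
  have mc : Measurable fun d : Fin b => (uu hjk ((2 : ℝ) ^ (-α) * cen b d) : SLR n) :=
    measurable_of_countable _
  have mK : Measurable fun p : ModSpace n × Fin b =>
      (act p.1 (uu hjk ((2 : ℝ) ^ (-α) * cen b p.2))⁻¹, p.2) :=
    (measurable_act₂.comp (measurable_fst.prodMk (mc.comp measurable_snd).inv)).prodMk
      measurable_snd
  have mL : Measurable fun p : ModSpace n × Fin b =>
      (act p.1 (uu hjk ((2 : ℝ) ^ (-α) * cen b p.2)), p.2) :=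
    (measurable_act₂.comp (measurable_fst.prodMk (mc.comp measurable_snd))).prodMk
      measurable_snd
  have mds : Measurable fun ω : Om n => dg b (ss ω) := (measurable_dg b).comp measurable_ss
  refine HH_eq_of_comp (PM μ κ) mK mL ((measurable_zz hjk hkl hjl α β γ).prodMk mds)
    ((measurable_zf hjk hkl hjl _ β γ b).prodMk mds) (Filter.Eventually.of_forall fun ω => ?_)
    (Filter.Eventually.of_forall fun ω => ?_)
  · simp only
    rw [zz_zf hjk hkl hjl α β γ b ω, act_act, mul_inv_cancel, act_one]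
  · simp only
    rw [zz_zf hjk hkl hjl α β γ b ω]

/-! ### The three gaps -/

/-- **(i)** -/
theorem gap_i (hjk : j ≠ k) (hkl : k ≠ l) (hjl : j ≠ l) (α β γ : ℝ) (bt : ℕ) [NeZero bt]
    (he : (2 : ℝ) ^ (γ - α - β) / 2 ≤ 1) :
    HH (PM μ κ) (fun ω => dg bt (tt ω)) (zz hjk hkl hjl α β γ)
      - HH (PM μ κ) (fun ω => dg bt (tt ω)) (fun ω => (zz hjk hkl hjl α β γ ω, (ss ω, rr ω)))
      ≤ Hc (lab μ (cv (cv κ (dl hjk α)) (dl hjl γ)) hkl β bt) - Hc (lab μ κ hkl β bt)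
        + md bt ((2 : ℝ) ^ (γ - α - β) / 2) := by
  rw [HH_t_sr μ κ hjk hkl hjl α β γ bt, HH_y2 μ κ hkl β bt]
  have h := (abs_le.1 (HH_t μ κ hjk hkl hjl α β γ bt he)).2
  linarith

/-- **(ii)** -/
theorem gap_ii (hjk : j ≠ k) (hkl : k ≠ l) (hjl : j ≠ l) (α β γ : ℝ) (bs : ℕ) [NeZero bs]
    (he : (2 : ℝ) ^ (γ - α - β) / 2 ≤ 1) :
    HH (PM μ κ) (fun ω => dg bs (ss ω)) (zz hjk hkl hjl α β γ)
      - HH (PM μ κ) (fun ω => dg bs (ss ω))
        (fun ω => (zz hjk hkl hjl α β γ ω, (tt ω, rp α β γ ω)))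
      ≤ Hc (lab μ (cv (cv κ (dl hkl β)) (dl hjl γ)) hjk α bs) - Hc (lab μ κ hjk α bs)
        + md bs ((2 : ℝ) ^ (γ - α - β) / 2) := by
  have h := HH_s_trp μ κ hjk hkl hjl α β γ bs he
  rw [HH_y1 μ κ hjk α bs] at h
  rw [HH_s μ κ hjk hkl hjl α β γ bs]
  linarith

/-- **(iii)** -/
theorem gap_iii (hjk : j ≠ k) (hkl : k ≠ l) (hjl : j ≠ l) (α β γ : ℝ) (bs b' : ℕ) [NeZero bs]
    [NeZero b'] :
    HH (PM μ κ) (fun ω => dg b' (rr ω)) (fun ω => (zz hjk hkl hjl α β γ ω, dg bs (ss ω)))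
      - HH (PM μ κ) (fun ω => dg b' (rr ω)) (fun ω => (zz hjk hkl hjl α β γ ω, (tt ω, ss ω)))
      = Hc (lab μ (cv (cv κ (dl hkl β)) (dl hjk (α + Real.logb 2 bs))) hjl γ b')
        - Hc (lab μ κ hjl γ b') := by
  rw [HH_r_ts μ κ hjk hkl hjl α β γ b', HH_y3 μ κ hjl γ b', HH_r_dS μ κ hjk hkl hjl α β γ bs b']

end Crest.Agent.R014.HSp_599
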