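import Crest.Agent.R014.Heis_111

/-!
R014, block D, noise formalism (#3844, section 4.3): the commutator lemma averaged over the
observation point `Z` (helper111, task 991).

`Obs` bundles: the fine observations `Y1` (which sees `Z`, the label `σ`, and `r1 = r'`), `Y2` (which sees
`Z`, the label `τ`, and `r2 = r''`), "posteriors" `p i z`, `q k z` given `Z`, and the fine posteriors
`g k (Y1)` of `τ = k`, `h i (Y2)` of `σ = i` (as densities).

`mainstep`, `four`, `heisZ`.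
-/

set_option autoImplicit false

namespace Crest.Agent.R014.Heis_111

open MeasureTheory

section BM

variable {Ω : Type*} [MeasurableSpace Ω] (P : Measure Ω)

/-- measurable and a.e. bounded -/
def BM (f : Ω → ℝ) : Prop := Measurable f ∧ ∃ C : ℝ, ∀ᵐ ω ∂P, |f ω| ≤ C

variable {P}

lemma BM.mul {f g : Ω → ℝ} (hf : BM P f) (hg : BM P g) : BM P (fun ω => f ω * g ω) := by
  obtain ⟨mf, C, hC⟩ := hf
  obtain ⟨mg, D, hD⟩ := hg
  refine ⟨mf.mul mg, C * D, ?_⟩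
  filter_upwards [hC, hD] with ω h1 h2
  rw [abs_mul]
  exact mul_le_mul h1 h2 (abs_nonneg _) ((abs_nonneg _).trans h1)

lemma BM.add {f g : Ω → ℝ} (hf : BM P f) (hg : BM P g) : BM P (fun ω => f ω + g ω) := by
  obtain ⟨mf, C, hC⟩ := hf
  obtain ⟨mg, D, hD⟩ := hg
  refine ⟨mf.add mg, C + D, ?_⟩
  filter_upwards [hC, hD] with ω h1 h2
  exact (abs_add_le _ _).trans (add_le_add h1 h2)

lemma BM.const (c : ℝ) : BM P (fun _ : Ω => c) := ⟨measurable_const, |c|, by simp⟩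

lemma BM.neg {f : Ω → ℝ} (hf : BM P f) : BM P (fun ω => - f ω) := by
  obtain ⟨mf, C, hC⟩ := hf
  exact ⟨mf.neg, C, by simpa using hC⟩

lemma BM.sub {f g : Ω → ℝ} (hf : BM P f) (hg : BM P g) : BM P (fun ω => f ω - g ω) := by
  simpa [sub_eq_add_neg] using hf.add hg.neg

lemma BM.abs {f : Ω → ℝ} (hf : BM P f) : BM P (fun ω => |f ω|) := by
  obtain ⟨mf, C, hC⟩ := hf
  exact ⟨mf.abs, C, by simpa using hC⟩

lemma BM.sum {α : Type*} (s : Finset α) {f : α → Ω → ℝ} (hf : ∀ i ∈ s, BM P (f i)) :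
    BM P (fun ω => ∑ i ∈ s, f i ω) := by
  classical
  induction s using Finset.induction_on with
  | empty => simpa using BM.const (P := P) 0
  | insert a s ha ih =>
    simp only [Finset.sum_insert ha]
    exact (hf a (Finset.mem_insert_self _ _)).add
      (ih fun i hi => hf i (Finset.mem_insert_of_mem hi))

lemma BM.integrable [IsFiniteMeasure P] {f : Ω → ℝ} (hf : BM P f) : Integrable f P := by
  obtain ⟨mf, C, hC⟩ := hf
  exact Integrable.of_bound mf.aestronglyMeasurable C (by simpa using hC)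

lemma BM.mul_int {f g : Ω → ℝ} (hf : BM P f) (hg : Integrable g P) :
    Integrable (fun ω => f ω * g ω) P := by
  obtain ⟨mf, C, hC⟩ := hf
  exact hg.bdd_mul (c := C) mf.aestronglyMeasurable (by simpa using hC)

lemma BM.indicator {A : Set Ω} (hA : MeasurableSet A) : BM P (A.indicator fun _ => (1 : ℝ)) := by
  refine ⟨measurable_const.indicator hA, 1, Filter.Eventually.of_forall fun ω => ?_⟩
  by_cases h : ω ∈ A <;> simp [h]

/-- density identity -/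
lemma dens {T : Type*} [MeasurableSpace T] [IsFiniteMeasure P] {Y : Ω → T} (hY : Measurable Y)
    {B : Set Ω} (hB : MeasurableSet B) {g : T → ℝ} (hg : Measurable g) (g0 : ∀ y, 0 ≤ g y)
    (hd : (P.restrict B).map Y = (P.map Y).withDensity (fun y => ENNReal.ofReal (g y))) :
    Integrable (fun ω => g (Y ω)) P ∧ ∀ H : T → ℝ, Measurable H →
      ∫ ω, B.indicator (fun _ => (1 : ℝ)) ω * H (Y ω) ∂P = ∫ ω, g (Y ω) * H (Y ω) ∂P := by
  have hofm : Measurable (fun y => ENNReal.ofReal (g y)) := hg.ennreal_ofReal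
  constructor
  · refine ⟨(hg.comp hY).aestronglyMeasurable, ?_⟩
    have h1 : ∫⁻ ω, ENNReal.ofReal (g (Y ω)) ∂P = P B := by
      have e1 : ∫⁻ ω, ENNReal.ofReal (g (Y ω)) ∂P = ∫⁻ y, ENNReal.ofReal (g y) ∂(P.map Y) :=
        (lintegral_map hofm hY).symm
      have e2 : ∫⁻ y, ENNReal.ofReal (g y) ∂(P.map Y) =
          ((P.map Y).withDensity (fun y => ENNReal.ofReal (g y))) Set.univ := by
        rw [withDensity_apply _ MeasurableSet.univ, Measure.restrict_univ]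
      rw [e1, e2, ← hd, Measure.map_apply hY MeasurableSet.univ]
      simp
    rw [hasFiniteIntegral_iff_ofReal (Filter.Eventually.of_forall fun ω => g0 (Y ω))]
    rw [h1]
    exact measure_lt_top P B
  · intro H hH
    have e0 : (fun ω => B.indicator (fun _ => (1 : ℝ)) ω * H (Y ω)) =
        B.indicator (fun ω => H (Y ω)) := by
      funext ω
      by_cases h : ω ∈ B <;> simp [h]
    rw [e0, integral_indicator hB]
    have e1 : ∫ ω in B, H (Y ω) ∂P = ∫ y, H y ∂((P.restrict B).map Y) :=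
      (integral_map hY.aemeasurable hH.aestronglyMeasurable).symm
    rw [e1, hd, integral_withDensity_eq_integral_toReal_smul hofm
      (Filter.Eventually.of_forall fun y => ENNReal.ofReal_lt_top)]
    have e2 : (fun y => (ENNReal.ofReal (g y)).toReal • H y) = fun y => g y * H y := by
      funext y
      rw [ENNReal.toReal_ofReal (g0 y), smul_eq_mul]
    rw [e2]
    exact integral_map hY.aemeasurable (hg.mul hH).aestronglyMeasurable

end BM

/-- The data of the averaged commutator lemma. -/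
structure Obs {Ω : Type*} [MeasurableSpace Ω] (P : Measure Ω) (S T1 T2 ι κ : Type*)
    [MeasurableSpace S] [MeasurableSpace T1] [MeasurableSpace T2] [Fintype ι] [Fintype κ] where
  Y1 : Ω → T1
  Y2 : Ω → T2
  mY1 : Measurable Y1
  mY2 : Measurable Y2
  z1 : T1 → S
  z2 : T2 → S
  mz1 : Measurable z1
  mz2 : Measurable z2
  hz : ∀ ω, z2 (Y2 ω) = z1 (Y1 ω)
  i1 : T1 → ι
  mi1 : ∀ i, MeasurableSet (i1 ⁻¹' {i})
  k2 : T2 → κ
  mk2 : ∀ k, MeasurableSet (k2 ⁻¹' {k})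
  r1 : T1 → ℝ
  mr1 : Measurable r1
  r2 : T2 → ℝ
  mr2 : Measurable r2
  p : ι → S → ℝ
  mp : ∀ i, Measurable (p i)
  p0 : ∀ i z, 0 ≤ p i z
  p1 : ∀ᵐ ω ∂P, ∑ i, p i (z1 (Y1 ω)) ≤ 1
  q : κ → S → ℝ
  mq : ∀ k, Measurable (q k)
  q0 : ∀ k z, 0 ≤ q k z
  q1 : ∀ᵐ ω ∂P, ∑ k, q k (z1 (Y1 ω)) ≤ 1
  g : κ → T1 → ℝ
  mg : ∀ k, Measurable (g k)
  g0 : ∀ k y, 0 ≤ g k y
  hg : ∀ k, (P.restrict ((fun ω => k2 (Y2 ω)) ⁻¹' {k})).map Y1 =
    (P.map Y1).withDensity (fun y => ENNReal.ofReal (g k y))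
  h : ι → T2 → ℝ
  mh : ∀ i, Measurable (h i)
  h0 : ∀ i y, 0 ≤ h i y
  hh : ∀ i, (P.restrict ((fun ω => i1 (Y1 ω)) ⁻¹' {i})).map Y2 =
    (P.map Y2).withDensity (fun y => ENNReal.ofReal (h i y))

/-- families of test functions depending on the observation point -/
def Fam {S : Type*} [MeasurableSpace S] (L : NNReal) (φ : S → ℝ → ℝ) : Prop :=
  Measurable (Function.uncurry φ) ∧ ∀ z, φ z ∈ Psi L

lemma Fam.shift {S : Type*} [MeasurableSpace S] {L : NNReal} {φ : S → ℝ → ℝ} (h : Fam L φ)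
    (u : ℝ) : Fam L (fun z x => φ z (x + u)) := by
  refine ⟨?_, fun z => Psi.shift (h.2 z) u⟩
  have : (Function.uncurry fun z x => φ z (x + u)) =
      (Function.uncurry φ) ∘ (fun zx : S × ℝ => (zx.1, zx.2 + u)) := by
    funext zx; rfl
  rw [this]
  exact h.1.comp (measurable_fst.prodMk (measurable_snd.add_const u))

namespace Obs

variable {Ω : Type*} [MeasurableSpace Ω] {P : Measure Ω} [IsProbabilityMeasure P]
  {S T1 T2 ι κ : Type*} [MeasurableSpace S] [MeasurableSpace T1] [MeasurableSpace T2]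
  [Fintype ι] [Fintype κ] (O : Obs P S T1 T2 ι κ)

/-- the observation point -/
def Z (ω : Ω) : S := O.z1 (O.Y1 ω)
/-- label of `s` -/
def σ (ω : Ω) : ι := O.i1 (O.Y1 ω)
/-- label of `t` -/
def τ (ω : Ω) : κ := O.k2 (O.Y2 ω)
/-- `r'` -/
def R1 (ω : Ω) : ℝ := O.r1 (O.Y1 ω)
/-- `r''` -/
def R2 (ω : Ω) : ℝ := O.r2 (O.Y2 ω)

/-- indicator of `σ = i` -/
noncomputable def a (i : ι) : Ω → ℝ := (O.σ ⁻¹' {i}).indicator fun _ => (1 : ℝ)
/-- indicator of `τ = k` -/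
noncomputable def b (k : κ) : Ω → ℝ := (O.τ ⁻¹' {k}).indicator fun _ => (1 : ℝ)

omit [IsProbabilityMeasure P] in
lemma mZ : Measurable O.Z := O.mz1.comp O.mY1
omit [IsProbabilityMeasure P] in
lemma mR1 : Measurable O.R1 := O.mr1.comp O.mY1
omit [IsProbabilityMeasure P] in
lemma mR2 : Measurable O.R2 := O.mr2.comp O.mY2
omit [IsProbabilityMeasure P] in
lemma mσ (i : ι) : MeasurableSet (O.σ ⁻¹' {i}) := O.mY1 (O.mi1 i)
omit [IsProbabilityMeasure P] in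
lemma mτ (k : κ) : MeasurableSet (O.τ ⁻¹' {k}) := O.mY2 (O.mk2 k)

omit [IsProbabilityMeasure P] in
lemma a_nonneg (i : ι) (ω : Ω) : 0 ≤ O.a i ω := Set.indicator_nonneg (fun _ _ => zero_le_one) _
omit [IsProbabilityMeasure P] in
lemma b_nonneg (k : κ) (ω : Ω) : 0 ≤ O.b k ω := Set.indicator_nonneg (fun _ _ => zero_le_one) _

omit [IsProbabilityMeasure P] in
lemma sum_a (ω : Ω) : ∑ i, O.a i ω = 1 := by
  classical
  have : ∀ i, O.a i ω = if O.σ ω = i then 1 else 0 := fun i => by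
    simp only [a, Set.indicator_apply, Set.mem_preimage, Set.mem_singleton_iff]
  simp [this]

omit [IsProbabilityMeasure P] in
lemma sum_b (ω : Ω) : ∑ k, O.b k ω = 1 := by
  classical
  have : ∀ k, O.b k ω = if O.τ ω = k then 1 else 0 := fun k => by
    simp only [b, Set.indicator_apply, Set.mem_preimage, Set.mem_singleton_iff]
  simp [this]

omit [IsProbabilityMeasure P] in
lemma bm_a (i : ι) : BM P (O.a i) := BM.indicator (O.mσ i)
omit [IsProbabilityMeasure P] in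
lemma bm_b (k : κ) : BM P (O.b k) := BM.indicator (O.mτ k)
omit [IsProbabilityMeasure P] in
lemma bm_p (i : ι) : BM P (fun ω => O.p i (O.Z ω)) := by
  refine ⟨(O.mp i).comp O.mZ, 1, ?_⟩
  filter_upwards [O.p1] with ω hω
  rw [abs_of_nonneg (O.p0 _ _)]
  exact (Finset.single_le_sum (f := fun i => O.p i (O.z1 (O.Y1 ω))) (fun j _ => O.p0 j _)
    (Finset.mem_univ i)).trans hω
omit [IsProbabilityMeasure P] in
lemma bm_q (k : κ) : BM P (fun ω => O.q k (O.Z ω)) := by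
  refine ⟨(O.mq k).comp O.mZ, 1, ?_⟩
  filter_upwards [O.q1] with ω hω
  rw [abs_of_nonneg (O.q0 _ _)]
  exact (Finset.single_le_sum (f := fun k => O.q k (O.z1 (O.Y1 ω))) (fun j _ => O.q0 j _)
    (Finset.mem_univ k)).trans hω

omit [IsProbabilityMeasure P] in
lemma bm_φ {L : NNReal} {φ : S → ℝ → ℝ} (hφ : Fam L φ) {r : Ω → ℝ} (hr : Measurable r) :
    BM P (fun ω => φ (O.Z ω) (r ω)) := by
  refine ⟨?_, 1, Filter.Eventually.of_forall fun ω => Psi.abs_le (hφ.2 _) _⟩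
  exact hφ.1.comp (O.mZ.prodMk hr)

/-- first fine posterior error -/
noncomputable def e1 (i : ι) (k : κ) (ω : Ω) : ℝ := O.a i ω * |O.g k (O.Y1 ω) - O.q k (O.Z ω)|
/-- second fine posterior error -/
noncomputable def e2 (i : ι) (k : κ) (ω : Ω) : ℝ := O.b k ω * |O.h i (O.Y2 ω) - O.p i (O.Z ω)|

lemma int_g (k : κ) : Integrable (fun ω => O.g k (O.Y1 ω)) P :=
  (dens O.mY1 (O.mτ k) (O.mg k) (O.g0 k) (O.hg k)).1

lemma int_h (i : ι) : Integrable (fun ω => O.h i (O.Y2 ω)) P :=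
  (dens O.mY2 (O.mσ i) (O.mh i) (O.h0 i) (O.hh i)).1

lemma int_e1 (i : ι) (k : κ) : Integrable (O.e1 i k) P :=
  (O.bm_a i).mul_int ((O.int_g k).sub (O.bm_q k).integrable).abs

lemma int_e2 (i : ι) (k : κ) : Integrable (O.e2 i k) P :=
  (O.bm_b k).mul_int ((O.int_h i).sub (O.bm_p i).integrable).abs

omit [IsProbabilityMeasure P] in
lemma e1_nonneg (i : ι) (k : κ) (ω : Ω) : 0 ≤ O.e1 i k ω := mul_nonneg (O.a_nonneg _ _) (abs_nonneg _)
omit [IsProbabilityMeasure P] in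
lemma e2_nonneg (i : ι) (k : κ) (ω : Ω) : 0 ≤ O.e2 i k ω := mul_nonneg (O.b_nonneg _ _) (abs_nonneg _)

/-- weights -/
def Wt (w : S → ℝ) : Prop := Measurable w ∧ (∀ z, 0 ≤ w z) ∧ ∃ C : ℝ, ∀ᵐ ω ∂P, w (O.Z ω) ≤ C

omit [IsProbabilityMeasure P] in
lemma Wt.bm {w : S → ℝ} (hw : O.Wt w) : BM P (fun ω => w (O.Z ω)) := by
  obtain ⟨m, h0, C, hC⟩ := hw
  refine ⟨m.comp O.mZ, C, ?_⟩
  filter_upwards [hC] with ω hω
  rwa [abs_of_nonneg (h0 _)]

omit [IsProbabilityMeasure P] in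
lemma Wt.mul {w w' : S → ℝ} (hw : O.Wt w) (hw' : O.Wt w') : O.Wt (fun z => w z * w' z) := by
  obtain ⟨m, h0, C, hC⟩ := hw
  obtain ⟨m', h0', C', hC'⟩ := hw'
  refine ⟨m.mul m', fun z => mul_nonneg (h0 z) (h0' z), C * C', ?_⟩
  filter_upwards [hC, hC'] with ω h1 h2
  exact mul_le_mul h1 h2 (h0' _) ((h0 _).trans h1)

omit [IsProbabilityMeasure P] in
lemma wt_p (i : ι) : O.Wt (O.p i) := by
  refine ⟨O.mp i, O.p0 i, 1, ?_⟩
  filter_upwards [O.p1] with ω hω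
  exact (Finset.single_le_sum (f := fun i => O.p i (O.z1 (O.Y1 ω))) (fun j _ => O.p0 j _)
    (Finset.mem_univ i)).trans hω

omit [IsProbabilityMeasure P] in
lemma wt_q (k : κ) : O.Wt (O.q k) := by
  refine ⟨O.mq k, O.q0 k, 1, ?_⟩
  filter_upwards [O.q1] with ω hω
  exact (Finset.single_le_sum (f := fun k => O.q k (O.z1 (O.Y1 ω))) (fun j _ => O.q0 j _)
    (Finset.mem_univ k)).trans hω

/-- step 1 : the label `τ` is nearly independent of everything seen by `Y1`. -/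
lemma c1 {L : NNReal} {φ : S → ℝ → ℝ} (hφ : Fam L φ) {w : S → ℝ} (hw : O.Wt w) (i : ι) (k : κ) :
    |(∫ ω, O.b k ω * (O.a i ω * w (O.Z ω) * φ (O.Z ω) (O.R1 ω)) ∂P) -
      ∫ ω, O.a i ω * w (O.Z ω) * O.q k (O.Z ω) * φ (O.Z ω) (O.R1 ω) ∂P| ≤
      ∫ ω, w (O.Z ω) * O.e1 i k ω ∂P := by
  set H : T1 → ℝ := fun y => (O.i1 ⁻¹' {i}).indicator (fun _ => (1 : ℝ)) y * w (O.z1 y) *
    φ (O.z1 y) (O.r1 y) with hH
  have mH : Measurable H := by
    refine ((measurable_const.indicator (O.mi1 i)).mul (hw.1.comp O.mz1)).mul ?_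
    exact hφ.1.comp (O.mz1.prodMk O.mr1)
  have ha : ∀ ω, O.a i ω = (O.i1 ⁻¹' {i}).indicator (fun _ => (1 : ℝ)) (O.Y1 ω) := fun ω => rfl
  have e : ∀ ω, O.a i ω * w (O.Z ω) * φ (O.Z ω) (O.R1 ω) = H (O.Y1 ω) := fun ω => by
    simp only [hH, ha, Z, R1]
  have d := (dens O.mY1 (O.mτ k) (O.mg k) (O.g0 k) (O.hg k)).2 H mH
  have e2 : (∫ ω, O.b k ω * (O.a i ω * w (O.Z ω) * φ (O.Z ω) (O.R1 ω)) ∂P) =
      ∫ ω, O.g k (O.Y1 ω) * H (O.Y1 ω) ∂P := by
    rw [← d]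
    refine integral_congr_ae (Filter.Eventually.of_forall fun ω => ?_)
    simp only [e]
    rfl
  rw [e2]
  have bmH : BM P (fun ω => H (O.Y1 ω)) := by
    have := ((O.bm_a i).mul (Wt.bm O hw)).mul (O.bm_φ hφ O.mR1)
    refine (show (fun ω => H (O.Y1 ω)) = _ from ?_) ▸ this
    funext ω
    exact (e ω).symm
  have i1 : Integrable (fun ω => O.g k (O.Y1 ω) * H (O.Y1 ω)) P := by
    have := bmH.mul_int (O.int_g k)
    refine this.congr (Filter.Eventually.of_forall fun ω => ?_)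
    simp only []
    ring
  have i2 : Integrable (fun ω => O.a i ω * w (O.Z ω) * O.q k (O.Z ω) * φ (O.Z ω) (O.R1 ω)) P :=
    ((((O.bm_a i).mul (Wt.bm O hw)).mul (O.bm_q k)).mul (O.bm_φ hφ O.mR1)).integrable
  rw [← integral_sub i1 i2]
  refine (abs_integral_le_integral_abs).trans ?_
  refine integral_mono_of_nonneg (Filter.Eventually.of_forall fun ω => abs_nonneg _)
    ((Wt.bm O hw).mul_int (O.int_e1 i k)) (Filter.Eventually.of_forall fun ω => ?_)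
  simp only [← e]
  have hid : O.g k (O.Y1 ω) * (O.a i ω * w (O.Z ω) * φ (O.Z ω) (O.R1 ω)) -
      O.a i ω * w (O.Z ω) * O.q k (O.Z ω) * φ (O.Z ω) (O.R1 ω) =
      (w (O.Z ω) * (O.a i ω * (O.g k (O.Y1 ω) - O.q k (O.Z ω)))) * φ (O.Z ω) (O.R1 ω) := by ring
  rw [hid, abs_mul, abs_mul, abs_mul, abs_of_nonneg (hw.2.1 _), abs_of_nonneg (O.a_nonneg _ _)]
  have hn : 0 ≤ w (O.Z ω) * (O.a i ω * |O.g k (O.Y1 ω) - O.q k (O.Z ω)|) :=
    mul_nonneg (hw.2.1 _) (mul_nonneg (O.a_nonneg _ _) (abs_nonneg _))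
  have := mul_le_mul_of_nonneg_left (Psi.abs_le (hφ.2 (O.Z ω)) (O.R1 ω)) hn
  simpa [e1] using this

/-- step 2 : the label `σ` is nearly independent of everything seen by `Y2`. -/
lemma c2 {L : NNReal} {φ : S → ℝ → ℝ} (hφ : Fam L φ) {w : S → ℝ} (hw : O.Wt w) (i : ι) (k : κ) :
    |(∫ ω, O.a i ω * (O.b k ω * w (O.Z ω) * φ (O.Z ω) (O.R2 ω)) ∂P) -
      ∫ ω, O.b k ω * w (O.Z ω) * O.p i (O.Z ω) * φ (O.Z ω) (O.R2 ω) ∂P| ≤
      ∫ ω, w (O.Z ω) * O.e2 i k ω ∂P := by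
  have hZ : ∀ ω, O.Z ω = O.z2 (O.Y2 ω) := fun ω => (O.hz ω).symm
  set H : T2 → ℝ := fun y => (O.k2 ⁻¹' {k}).indicator (fun _ => (1 : ℝ)) y * w (O.z2 y) *
    φ (O.z2 y) (O.r2 y) with hH
  have mH : Measurable H := by
    refine ((measurable_const.indicator (O.mk2 k)).mul (hw.1.comp O.mz2)).mul ?_
    exact hφ.1.comp (O.mz2.prodMk O.mr2)
  have hb : ∀ ω, O.b k ω = (O.k2 ⁻¹' {k}).indicator (fun _ => (1 : ℝ)) (O.Y2 ω) := fun ω => rfl
  have e : ∀ ω, O.b k ω * w (O.Z ω) * φ (O.Z ω) (O.R2 ω) = H (O.Y2 ω) := fun ω => by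
    simp only [hH, hb, hZ, R2]
  have d := (dens O.mY2 (O.mσ i) (O.mh i) (O.h0 i) (O.hh i)).2 H mH
  have e2 : (∫ ω, O.a i ω * (O.b k ω * w (O.Z ω) * φ (O.Z ω) (O.R2 ω)) ∂P) =
      ∫ ω, O.h i (O.Y2 ω) * H (O.Y2 ω) ∂P := by
    rw [← d]
    refine integral_congr_ae (Filter.Eventually.of_forall fun ω => ?_)
    simp only [e]
    rfl
  rw [e2]
  have bmH : BM P (fun ω => H (O.Y2 ω)) := by
    have := ((O.bm_b k).mul (Wt.bm O hw)).mul (O.bm_φ hφ O.mR2)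
    refine (show (fun ω => H (O.Y2 ω)) = _ from ?_) ▸ this
    funext ω
    exact (e ω).symm
  have i1 : Integrable (fun ω => O.h i (O.Y2 ω) * H (O.Y2 ω)) P := by
    have := bmH.mul_int (O.int_h i)
    refine this.congr (Filter.Eventually.of_forall fun ω => ?_)
    simp only []
    ring
  have i2 : Integrable (fun ω => O.b k ω * w (O.Z ω) * O.p i (O.Z ω) * φ (O.Z ω) (O.R2 ω)) P :=
    ((((O.bm_b k).mul (Wt.bm O hw)).mul (O.bm_p i)).mul (O.bm_φ hφ O.mR2)).integrable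
  rw [← integral_sub i1 i2]
  refine (abs_integral_le_integral_abs).trans ?_
  refine integral_mono_of_nonneg (Filter.Eventually.of_forall fun ω => abs_nonneg _)
    ((Wt.bm O hw).mul_int (O.int_e2 i k)) (Filter.Eventually.of_forall fun ω => ?_)
  simp only [← e]
  have hid : O.h i (O.Y2 ω) * (O.b k ω * w (O.Z ω) * φ (O.Z ω) (O.R2 ω)) -
      O.b k ω * w (O.Z ω) * O.p i (O.Z ω) * φ (O.Z ω) (O.R2 ω) =
      (w (O.Z ω) * (O.b k ω * (O.h i (O.Y2 ω) - O.p i (O.Z ω)))) * φ (O.Z ω) (O.R2 ω) := by ring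
  rw [hid, abs_mul, abs_mul, abs_mul, abs_of_nonneg (hw.2.1 _), abs_of_nonneg (O.b_nonneg _ _)]
  have hn : 0 ≤ w (O.Z ω) * (O.b k ω * |O.h i (O.Y2 ω) - O.p i (O.Z ω)|) :=
    mul_nonneg (hw.2.1 _) (mul_nonneg (O.b_nonneg _ _) (abs_nonneg _))
  have := mul_le_mul_of_nonneg_left (Psi.abs_le (hφ.2 (O.Z ω)) (O.R2 ω)) hn
  simpa [Obs.e2] using this


/-- error of the relation `r' = r'' + s t`. -/
noncomputable def e3 (L : NNReal) (κ0 : ℝ) (bad : Set Ω) (i : ι) (k : κ) (ω : Ω) : ℝ :=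
  O.a i ω * O.b k ω * (L * κ0 + 2 * bad.indicator (fun _ => (1 : ℝ)) ω)

/-- total error function of a pair of labels -/
noncomputable def Err (L : NNReal) (κ0 : ℝ) (bad : Set Ω) (i : ι) (k : κ) (ω : Ω) : ℝ :=
  O.e1 i k ω + O.e2 i k ω + O.e3 L κ0 bad i k ω

omit [IsProbabilityMeasure P] in
lemma e3_nonneg (L : NNReal) {κ0 : ℝ} (hκ0 : 0 ≤ κ0) (bad : Set Ω) (i : ι) (k : κ) (ω : Ω) :
    0 ≤ O.e3 L κ0 bad i k ω := by
  have h1 : 0 ≤ bad.indicator (fun _ => (1 : ℝ)) ω :=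
    Set.indicator_nonneg (fun _ _ => zero_le_one) _
  have := O.a_nonneg i ω
  have := O.b_nonneg k ω
  have := L.2
  unfold e3
  positivity

omit [IsProbabilityMeasure P] in
lemma bm_e3 (L : NNReal) (κ0 : ℝ) {bad : Set Ω} (hbad : MeasurableSet bad) (i : ι) (k : κ) :
    BM P (O.e3 L κ0 bad i k) :=
  ((O.bm_a i).mul (O.bm_b k)).mul ((BM.const _).add ((BM.const _).mul (BM.indicator hbad)))

omit [IsProbabilityMeasure P] in
lemma Err_nonneg (L : NNReal) {κ0 : ℝ} (hκ0 : 0 ≤ κ0) (bad : Set Ω) (i : ι) (k : κ) (ω : Ω) :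
    0 ≤ O.Err L κ0 bad i k ω :=
  add_nonneg (add_nonneg (O.e1_nonneg _ _ _) (O.e2_nonneg _ _ _)) (O.e3_nonneg L hκ0 _ _ _ _)

lemma int_Err (L : NNReal) (κ0 : ℝ) {bad : Set Ω} (hbad : MeasurableSet bad) (i : ι) (k : κ) :
    Integrable (O.Err L κ0 bad i k) P :=
  ((O.int_e1 i k).add (O.int_e2 i k)).add (O.bm_e3 L κ0 hbad i k).integrable

/-- step 3 : change of coordinate `r' -> r''`. -/
lemma c3 {L : NNReal} {φ : S → ℝ → ℝ} (hφ : Fam L φ) {w : S → ℝ} (hw : O.Wt w) (i : ι) (k : κ)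
    {s : ι → ℝ} {t : κ → ℝ} {κ0 : ℝ} (hκ0 : 0 ≤ κ0) {bad : Set Ω} (hbad : MeasurableSet bad)
    (hrel : ∀ ω ∉ bad, |O.R1 ω - O.R2 ω - s (O.σ ω) * t (O.τ ω)| ≤ κ0) :
    |(∫ ω, O.b k ω * (O.a i ω * w (O.Z ω) * φ (O.Z ω) (O.R1 ω)) ∂P) -
      ∫ ω, O.a i ω * (O.b k ω * w (O.Z ω) * φ (O.Z ω) (O.R2 ω + s i * t k)) ∂P| ≤
      ∫ ω, w (O.Z ω) * O.e3 L κ0 bad i k ω ∂P := by
  have i1 : Integrable (fun ω => O.b k ω * (O.a i ω * w (O.Z ω) * φ (O.Z ω) (O.R1 ω))) P :=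
    ((O.bm_b k).mul (((O.bm_a i).mul (Wt.bm O hw)).mul (O.bm_φ hφ O.mR1))).integrable
  have i2 : Integrable
      (fun ω => O.a i ω * (O.b k ω * w (O.Z ω) * φ (O.Z ω) (O.R2 ω + s i * t k))) P :=
    ((O.bm_a i).mul (((O.bm_b k).mul (Wt.bm O hw)).mul
      (O.bm_φ (hφ.shift (s i * t k)) O.mR2))).integrable
  rw [← integral_sub i1 i2]
  refine (abs_integral_le_integral_abs).trans ?_
  refine integral_mono_of_nonneg (Filter.Eventually.of_forall fun ω => abs_nonneg _)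
    ((Wt.bm O hw).mul (O.bm_e3 L κ0 hbad i k)).integrable
    (Filter.Eventually.of_forall fun ω => ?_)
  have hid : O.b k ω * (O.a i ω * w (O.Z ω) * φ (O.Z ω) (O.R1 ω)) -
      O.a i ω * (O.b k ω * w (O.Z ω) * φ (O.Z ω) (O.R2 ω + s i * t k)) =
      (w (O.Z ω) * (O.a i ω * O.b k ω)) *
        (φ (O.Z ω) (O.R1 ω) - φ (O.Z ω) (O.R2 ω + s i * t k)) := by ring
  simp only [hid]
  rw [abs_mul, abs_mul, abs_mul, abs_of_nonneg (hw.2.1 _), abs_of_nonneg (O.a_nonneg _ _),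
    abs_of_nonneg (O.b_nonneg _ _)]
  unfold e3
  rw [mul_assoc]
  refine mul_le_mul_of_nonneg_left ?_ (hw.2.1 _)
  -- either one of the indicators vanishes, or the labels are `i, k`
  by_cases hi : O.σ ω = i
  · by_cases hk : O.τ ω = k
    · refine mul_le_mul_of_nonneg_left ?_ (mul_nonneg (O.a_nonneg _ _) (O.b_nonneg _ _))
      by_cases hb : ω ∈ bad
      · have h1 := Psi.abs_le (hφ.2 (O.Z ω)) (O.R1 ω)
        have h2 := Psi.abs_le (hφ.2 (O.Z ω)) (O.R2 ω + s i * t k)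
        have h3 := abs_sub (φ (O.Z ω) (O.R1 ω)) (φ (O.Z ω) (O.R2 ω + s i * t k))
        have h4 : 0 ≤ (L : ℝ) * κ0 := mul_nonneg L.2 hκ0
        simp only [Set.indicator_of_mem hb]
        linarith
      · have h1 := Psi.lip (hφ.2 (O.Z ω)) (O.R1 ω) (O.R2 ω + s i * t k)
        have h2 := hrel ω hb
        rw [hi, hk] at h2
        have h3 : |O.R1 ω - (O.R2 ω + s i * t k)| ≤ κ0 := by
          have : O.R1 ω - (O.R2 ω + s i * t k) = O.R1 ω - O.R2 ω - s i * t k := by ring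
          rw [this]; exact h2
        have h4 := mul_le_mul_of_nonneg_left h3 (NNReal.coe_nonneg L)
        simp only [Set.indicator_of_notMem hb]
        linarith
    · have : O.b k ω = 0 := by
        simp [b, hk]
      simp [this]
  · have : O.a i ω = 0 := by
      simp [a, hi]
    simp [this]

/-- The main step. -/
lemma mainstep {L : NNReal} {φ : S → ℝ → ℝ} (hφ : Fam L φ) {w : S → ℝ} (hw : O.Wt w) (i : ι)
    (k : κ) {s : ι → ℝ} {t : κ → ℝ} {κ0 : ℝ} (hκ0 : 0 ≤ κ0) {bad : Set Ω}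
    (hbad : MeasurableSet bad)
    (hrel : ∀ ω ∉ bad, |O.R1 ω - O.R2 ω - s (O.σ ω) * t (O.τ ω)| ≤ κ0) :
    |(∫ ω, O.a i ω * (w (O.Z ω) * O.q k (O.Z ω)) * φ (O.Z ω) (O.R1 ω) ∂P) -
      ∫ ω, O.b k ω * (w (O.Z ω) * O.p i (O.Z ω)) * φ (O.Z ω) (O.R2 ω + s i * t k) ∂P| ≤
      ∫ ω, w (O.Z ω) * O.Err L κ0 bad i k ω ∂P := by
  have h1 := O.c1 hφ hw i k
  have h2 := O.c2 (hφ.shift (s i * t k)) hw i k
  have h3 := O.c3 hφ hw i k hκ0 hbad hrel (s := s) (t := t)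
  have hsum : ∫ ω, w (O.Z ω) * O.Err L κ0 bad i k ω ∂P =
      (∫ ω, w (O.Z ω) * O.e1 i k ω ∂P) + (∫ ω, w (O.Z ω) * O.e2 i k ω ∂P) +
        ∫ ω, w (O.Z ω) * O.e3 L κ0 bad i k ω ∂P := by
    have j1 : Integrable (fun ω => w (O.Z ω) * O.e1 i k ω) P := (Wt.bm O hw).mul_int (O.int_e1 i k)
    have j2 : Integrable (fun ω => w (O.Z ω) * O.e2 i k ω) P := (Wt.bm O hw).mul_int (O.int_e2 i k)
    have j3 : Integrable (fun ω => w (O.Z ω) * O.e3 L κ0 bad i k ω) P :=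
      (Wt.bm O hw).mul_int (O.bm_e3 L κ0 hbad i k).integrable
    have j12 : Integrable (fun ω => w (O.Z ω) * O.e1 i k ω + w (O.Z ω) * O.e2 i k ω) P := j1.add j2
    rw [← integral_add j1 j2, ← integral_add j12 j3]
    refine integral_congr_ae (Filter.Eventually.of_forall fun ω => ?_)
    simp only [Err]
    ring
  rw [hsum]
  have g1 : (∫ ω, O.a i ω * (w (O.Z ω) * O.q k (O.Z ω)) * φ (O.Z ω) (O.R1 ω) ∂P) =
      ∫ ω, O.a i ω * w (O.Z ω) * O.q k (O.Z ω) * φ (O.Z ω) (O.R1 ω) ∂P := by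
    refine integral_congr_ae (Filter.Eventually.of_forall fun ω => ?_)
    simp only []
    ring
  have g2 : (∫ ω, O.b k ω * (w (O.Z ω) * O.p i (O.Z ω)) * φ (O.Z ω) (O.R2 ω + s i * t k) ∂P) =
      ∫ ω, O.b k ω * w (O.Z ω) * O.p i (O.Z ω) * φ (O.Z ω) (O.R2 ω + s i * t k) ∂P := by
    refine integral_congr_ae (Filter.Eventually.of_forall fun ω => ?_)
    simp only []
    ring
  rw [g1, g2]
  set X0 := ∫ ω, O.a i ω * w (O.Z ω) * O.q k (O.Z ω) * φ (O.Z ω) (O.R1 ω) ∂P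
  set X1 := ∫ ω, O.b k ω * (O.a i ω * w (O.Z ω) * φ (O.Z ω) (O.R1 ω)) ∂P
  set X2 := ∫ ω, O.a i ω * (O.b k ω * w (O.Z ω) * φ (O.Z ω) (O.R2 ω + s i * t k)) ∂P
  set X3 := ∫ ω, O.b k ω * w (O.Z ω) * O.p i (O.Z ω) * φ (O.Z ω) (O.R2 ω + s i * t k) ∂P
  rw [abs_sub_comm] at h1
  have t1 := abs_sub_le X0 X1 X3
  have t2 := abs_sub_le X1 X2 X3
  linarith

/-- `J i W φ = E[1_{σ=i} W(Z) φ(Z, r')]`. -/
noncomputable def J (i : ι) (W : S → ℝ) (φ : S → ℝ → ℝ) : ℝ :=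
  ∫ ω, O.a i ω * W (O.Z ω) * φ (O.Z ω) (O.R1 ω) ∂P

/-- `K k W φ = E[1_{τ=k} W(Z) φ(Z, r'')]`. -/
noncomputable def K (k : κ) (W : S → ℝ) (φ : S → ℝ → ℝ) : ℝ :=
  ∫ ω, O.b k ω * W (O.Z ω) * φ (O.Z ω) (O.R2 ω) ∂P

/-- The four-cycle, averaged over `Z`. -/
lemma four {L : NNReal} {φ : S → ℝ → ℝ} (hφ : Fam L φ) {w : S → ℝ} (hw : O.Wt w) (i i' : ι)
    (k k' : κ) {s : ι → ℝ} {t : κ → ℝ} {κ0 : ℝ} (hκ0 : 0 ≤ κ0) {bad : Set Ω}
    (hbad : MeasurableSet bad)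
    (hrel : ∀ ω ∉ bad, |O.R1 ω - O.R2 ω - s (O.σ ω) * t (O.τ ω)| ≤ κ0) :
    |O.J i (fun z => w z * O.p i' z * O.q k z * O.q k' z) φ -
      O.J i (fun z => w z * O.p i' z * O.q k z * O.q k' z)
        (fun z x => φ z (x + (s i - s i') * (t k - t k')))| ≤
      (∫ ω, w (O.Z ω) * O.p i' (O.Z ω) * O.q k' (O.Z ω) * O.Err L κ0 bad i k ω ∂P) +
      (∫ ω, w (O.Z ω) * O.p i (O.Z ω) * O.q k' (O.Z ω) * O.Err L κ0 bad i' k ω ∂P) +
      (∫ ω, w (O.Z ω) * O.p i (O.Z ω) * O.q k (O.Z ω) * O.Err L κ0 bad i' k' ω ∂P) +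
      (∫ ω, w (O.Z ω) * O.p i' (O.Z ω) * O.q k (O.Z ω) * O.Err L κ0 bad i k' ω ∂P) := by
  set φ1 : S → ℝ → ℝ := fun z x => φ z (x + (s i * t k - s i' * t k)) with hφ1
  set φ2 : S → ℝ → ℝ := fun z x => φ z (x + (s i - s i') * (t k - t k')) with hφ2
  have f1 : Fam L φ1 := hφ.shift _
  have f2 : Fam L φ2 := hφ.shift _
  have m1 := O.mainstep hφ ((hw.mul O (O.wt_p i')).mul O (O.wt_q k')) i k hκ0 hbad hrel
  have m2 := O.mainstep f1 ((hw.mul O (O.wt_p i)).mul O (O.wt_q k')) i' k hκ0 hbad hrel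
  have m3 := O.mainstep f1 ((hw.mul O (O.wt_p i)).mul O (O.wt_q k)) i' k' hκ0 hbad hrel
  have m4 := O.mainstep f2 ((hw.mul O (O.wt_p i')).mul O (O.wt_q k)) i k' hκ0 hbad hrel
  -- identify the integrals
  set W : S → ℝ := fun z => w z * O.p i' z * O.q k z * O.q k' z with hW
  have x0 : (∫ ω, O.a i ω * (w (O.Z ω) * O.p i' (O.Z ω) * O.q k' (O.Z ω) * O.q k (O.Z ω)) *
      φ (O.Z ω) (O.R1 ω) ∂P) = O.J i W φ := by
    unfold J
    refine integral_congr_ae (Filter.Eventually.of_forall fun ω => ?_)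
    simp only [hW]; ring
  have x4 : (∫ ω, O.a i ω * (w (O.Z ω) * O.p i' (O.Z ω) * O.q k (O.Z ω) * O.q k' (O.Z ω)) *
      φ2 (O.Z ω) (O.R1 ω) ∂P) = O.J i W φ2 := rfl
  have x2 : (∫ ω, O.a i' ω * (w (O.Z ω) * O.p i (O.Z ω) * O.q k' (O.Z ω) * O.q k (O.Z ω)) *
      φ1 (O.Z ω) (O.R1 ω) ∂P) =
      ∫ ω, O.a i' ω * (w (O.Z ω) * O.p i (O.Z ω) * O.q k (O.Z ω) * O.q k' (O.Z ω)) *
      φ1 (O.Z ω) (O.R1 ω) ∂P := by
    refine integral_congr_ae (Filter.Eventually.of_forall fun ω => ?_)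
    simp only []; ring
  have x1 : (∫ ω, O.b k ω * (w (O.Z ω) * O.p i (O.Z ω) * O.q k' (O.Z ω) * O.p i' (O.Z ω)) *
      φ1 (O.Z ω) (O.R2 ω + s i' * t k) ∂P) =
      ∫ ω, O.b k ω * (w (O.Z ω) * O.p i' (O.Z ω) * O.q k' (O.Z ω) * O.p i (O.Z ω)) *
      φ (O.Z ω) (O.R2 ω + s i * t k) ∂P := by
    refine integral_congr_ae (Filter.Eventually.of_forall fun ω => ?_)
    have : O.R2 ω + s i' * t k + (s i * t k - s i' * t k) = O.R2 ω + s i * t k := by ring
    simp only [hφ1, this]; ring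
  have x3 : (∫ ω, O.b k' ω * (w (O.Z ω) * O.p i' (O.Z ω) * O.q k (O.Z ω) * O.p i (O.Z ω)) *
      φ2 (O.Z ω) (O.R2 ω + s i * t k') ∂P) =
      ∫ ω, O.b k' ω * (w (O.Z ω) * O.p i (O.Z ω) * O.q k (O.Z ω) * O.p i' (O.Z ω)) *
      φ1 (O.Z ω) (O.R2 ω + s i' * t k') ∂P := by
    refine integral_congr_ae (Filter.Eventually.of_forall fun ω => ?_)
    have : O.R2 ω + s i * t k' + (s i - s i') * (t k - t k') =
      O.R2 ω + s i' * t k' + (s i * t k - s i' * t k) := by ring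
    simp only [hφ1, hφ2, this]; ring
  rw [x0] at m1
  rw [x2, x1] at m2
  rw [x4, x3] at m4
  set A0 := O.J i W φ
  set A4 := O.J i W φ2
  set A1 := ∫ ω, O.b k ω * (w (O.Z ω) * O.p i' (O.Z ω) * O.q k' (O.Z ω) * O.p i (O.Z ω)) *
      φ (O.Z ω) (O.R2 ω + s i * t k) ∂P
  set A2 := ∫ ω, O.a i' ω * (w (O.Z ω) * O.p i (O.Z ω) * O.q k (O.Z ω) * O.q k' (O.Z ω)) *
      φ1 (O.Z ω) (O.R1 ω) ∂P
  set A3 := ∫ ω, O.b k' ω * (w (O.Z ω) * O.p i (O.Z ω) * O.q k (O.Z ω) * O.p i' (O.Z ω)) *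
      φ1 (O.Z ω) (O.R2 ω + s i' * t k') ∂P
  have t1 := abs_sub_le A0 A1 A4
  have t2 := abs_sub_le A1 A2 A4
  have t3 := abs_sub_le A2 A3 A4
  rw [abs_sub_comm] at m2 m4
  linarith

end Obs

/-- Iteration, function form. -/
lemma iterate' (F : ℝ → ℝ) (θ δ K : ℝ) (hδ : 0 ≤ δ) (hK : 0 ≤ K) (hθ : θ ≠ 0)
    (h1 : ∀ v, |F v - F (v + θ)| ≤ δ) (h2 : ∀ v v', |F v - F v'| ≤ K * |v - v'|) (u : ℝ) :
    |F 0 - F u| ≤ |u| / |θ| * δ + K * |θ| := by
  have hneg : ∀ v, |F v - F (v + -θ)| ≤ δ := by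
    intro v
    have := h1 (v + -θ)
    rw [neg_add_cancel_right] at this
    rw [abs_sub_comm]; exact this
  obtain ⟨θ', hθ', hdir, hstep⟩ : ∃ θ' : ℝ, |θ'| = |θ| ∧
      u = (|u| / |θ|) * θ' ∧ ∀ v, |F v - F (v + θ')| ≤ δ := by
    have hpos : 0 < |θ| := abs_pos.mpr hθ
    rcases le_or_gt 0 (u * θ) with h | h
    · refine ⟨θ, rfl, ?_, h1⟩
      rw [div_mul_eq_mul_div, eq_div_iff hpos.ne']
      rcases lt_or_gt_of_ne hθ with h0 | h0
      · have hu : u ≤ 0 := by nlinarith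
        rw [abs_of_neg h0, abs_of_nonpos hu]; ring
      · have hu : 0 ≤ u := by nlinarith
        rw [abs_of_pos h0, abs_of_nonneg hu]
    · refine ⟨-θ, abs_neg θ, ?_, hneg⟩
      rw [div_mul_eq_mul_div, eq_div_iff hpos.ne']
      rcases lt_or_gt_of_ne hθ with h0 | h0
      · have hu : 0 ≤ u := by nlinarith
        rw [abs_of_neg h0, abs_of_nonneg hu]
      · have hu : u ≤ 0 := by nlinarith
        rw [abs_of_pos h0, abs_of_nonpos hu]; ring
  have hN : ∀ N : ℕ, |F 0 - F (N * θ')| ≤ N * δ := by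
    intro N
    induction N with
    | zero => simp
    | succ N ih =>
      have a2 := hstep (N * θ')
      have e : (N : ℝ) * θ' + θ' = ((N + 1 : ℕ) : ℝ) * θ' := by push_cast; ring
      rw [e] at a2
      have a3 := abs_sub_le (F 0) (F (N * θ')) (F (((N + 1 : ℕ) : ℝ) * θ'))
      push_cast at ih a2 a3 ⊢
      linarith
  set y := |u| / |θ| with hy
  have hy0 : 0 ≤ y := by positivity
  set N := ⌊y⌋₊ with hNdef
  have hNy : (N : ℝ) ≤ y := Nat.floor_le hy0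
  have hNy' : y < N + 1 := Nat.lt_floor_add_one y
  have b1 := hN N
  have b2 := h2 (N * θ') u
  have hrest : |N * θ' - u| ≤ |θ| := by
    have : N * θ' - u = -((y - N) * θ') := by
      conv_lhs => rw [hdir]
      ring
    rw [this, abs_neg, abs_mul, hθ']
    have h1 : |y - N| ≤ 1 := by
      rw [abs_le]; constructor <;> linarith
    calc |y - N| * |θ| ≤ 1 * |θ| := mul_le_mul_of_nonneg_right h1 (abs_nonneg _)
      _ = |θ| := one_mul _
  have b3 := mul_le_mul_of_nonneg_left hrest hK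
  have b4 : (N : ℝ) * δ ≤ y * δ := mul_le_mul_of_nonneg_right hNy hδ
  have a3 := abs_sub_le (F 0) (F (N * θ')) (F u)
  linarith


/-- algebra of the four error sums -/
lemma sum_four {ι κ : Type*} [Fintype ι] [Fintype κ] (p : ι → ℝ) (q : κ → ℝ) (e : ι → κ → ℝ)
    (hp : ∀ i, 0 ≤ p i) (hq : ∀ k, 0 ≤ q k) (he : ∀ i k, 0 ≤ e i k)
    (hp1 : ∑ i, p i ≤ 1) (hq1 : ∑ k, q k ≤ 1) :
    ∑ i, ∑ x : ι × κ × κ, (p x.1 * q x.2.2 * e i x.2.1 + p i * q x.2.2 * e x.1 x.2.1 +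
      p i * q x.2.1 * e x.1 x.2.2 + p x.1 * q x.2.1 * e i x.2.2) ≤ 4 * ∑ i, ∑ k, e i k := by
  set T := ∑ i, ∑ k, e i k with hT
  have hT0 : 0 ≤ T := Finset.sum_nonneg fun i _ => Finset.sum_nonneg fun k _ => he i k
  have hP0 : 0 ≤ ∑ i, p i := Finset.sum_nonneg fun i _ => hp i
  have hQ0 : 0 ≤ ∑ k, q k := Finset.sum_nonneg fun k _ => hq k
  have hPQ : (∑ i, p i) * (∑ k, q k) ≤ 1 := by
    have := mul_le_mul hp1 hq1 hQ0 zero_le_one
    linarith
  have hPQ0 : 0 ≤ (∑ i, p i) * (∑ k, q k) := mul_nonneg hP0 hQ0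
  have t1 : ∑ i, ∑ i', ∑ k, ∑ k', p i' * q k' * e i k = (∑ i, p i) * (∑ k, q k) * T := by
    have : ∀ i, ∑ i', ∑ k, ∑ k', p i' * q k' * e i k = (∑ i, p i) * (∑ k, q k) * ∑ k, e i k := by
      intro i
      rw [mul_assoc, Finset.sum_mul]
      refine Finset.sum_congr rfl fun i' _ => ?_
      rw [Finset.sum_mul_sum, Finset.mul_sum]
      rw [Finset.sum_comm]
      refine Finset.sum_congr rfl fun k' _ => ?_
      rw [Finset.mul_sum]
      refine Finset.sum_congr rfl fun k _ => ?_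
      ring
    simp only [this]
    rw [← Finset.mul_sum]
  have t2 : ∑ i, ∑ i', ∑ k, ∑ k', p i * q k' * e i' k = (∑ i, p i) * (∑ k, q k) * T := by
    have : ∀ i, ∑ i', ∑ k, ∑ k', p i * q k' * e i' k = p i * ((∑ k, q k) * T) := by
      intro i
      rw [hT, Finset.mul_sum, Finset.mul_sum]
      refine Finset.sum_congr rfl fun i' _ => ?_
      rw [Finset.sum_mul_sum, Finset.mul_sum]
      rw [Finset.sum_comm]
      refine Finset.sum_congr rfl fun k' _ => ?_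
      rw [Finset.mul_sum]
      refine Finset.sum_congr rfl fun k _ => ?_
      ring
    simp only [this]
    rw [← Finset.sum_mul, mul_assoc]
  have t3 : ∑ i, ∑ i', ∑ k, ∑ k', p i * q k * e i' k' = (∑ i, p i) * (∑ k, q k) * T := by
    rw [← t2]
    refine Finset.sum_congr rfl fun i _ => Finset.sum_congr rfl fun i' _ => ?_
    rw [Finset.sum_comm]
  have t4 : ∑ i, ∑ i', ∑ k, ∑ k', p i' * q k * e i k' = (∑ i, p i) * (∑ k, q k) * T := by
    rw [← t1]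
    refine Finset.sum_congr rfl fun i _ => Finset.sum_congr rfl fun i' _ => ?_
    rw [Finset.sum_comm]
  have key : ∑ i, ∑ x : ι × κ × κ, (p x.1 * q x.2.2 * e i x.2.1 + p i * q x.2.2 * e x.1 x.2.1 +
      p i * q x.2.1 * e x.1 x.2.2 + p x.1 * q x.2.1 * e i x.2.2) =
      4 * ((∑ i, p i) * (∑ k, q k) * T) := by
    simp only [Fintype.sum_prod_type, Finset.sum_add_distrib]
    rw [t1, t2, t3, t4]
    ring
  rw [key]
  have := mul_le_mul_of_nonneg_right hPQ hT0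
  linarith

namespace Obs

variable {Ω : Type*} [MeasurableSpace Ω] {P : Measure Ω} [IsProbabilityMeasure P]
  {S T1 T2 ι κ : Type*} [MeasurableSpace S] [MeasurableSpace T1] [MeasurableSpace T2]
  [Fintype ι] [Fintype κ] (O : Obs P S T1 T2 ι κ)

/-- The averaged commutator lemma, weighted form. -/
theorem heisW {L : NNReal} {s : ι → ℝ} {t : κ → ℝ} {κ0 : ℝ} (hκ0 : 0 ≤ κ0) {bad : Set Ω}
    (hbad : MeasurableSet bad)
    (hrel : ∀ ω ∉ bad, |O.R1 ω - O.R2 ω - s (O.σ ω) * t (O.τ ω)| ≤ κ0)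
    {a b η ws wt B : ℝ} (ha : 0 < a) (hb : 0 < b) (hη : 0 < η) (hB : 0 ≤ B)
    {Good : Set S} (hGood : MeasurableSet Good)
    (hns : ∀ z ∈ Good, ∀ c : ℝ, η ≤ ∑ i with a ≤ |s i - c|, O.p i z)
    (hnt : ∀ z ∈ Good, ∀ c : ℝ, η ≤ ∑ k with b ≤ |t k - c|, O.q k z)
    (hws : ∀ i i', |s i - s i'| ≤ ws) (hwt : ∀ k k', |t k - t k'| ≤ wt)
    {w : S → ℝ} (hw : O.Wt w) (φ : ι → S → ℝ → ℝ) (hφ : ∀ i, Fam L (φ i))
    {u : ℝ} (hu : |u| ≤ B) :
    ∑ i, |∫ ω, O.a i ω * (w (O.Z ω) * Good.indicator (fun _ => (1 : ℝ)) (O.Z ω)) *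
        (φ i (O.Z ω) (O.R1 ω + u) - φ i (O.Z ω) (O.R1 ω)) ∂P| ≤
      B / (a * b) * (4 / η ^ 3) * (∫ ω, w (O.Z ω) * ∑ i, ∑ k, O.Err L κ0 bad i k ω ∂P) +
        L * (ws * wt) * ∫ ω, w (O.Z ω) ∂P := by
  classical
  set G : ι → Finset (ι × κ × κ) := fun i =>
    Finset.univ.filter (fun x => a ≤ |s x.1 - s i| ∧ b ≤ |t x.2.2 - t x.2.1|) with hG
  set V : ι × κ × κ → S → ℝ := fun x z => O.p x.1 z * O.q x.2.1 z * O.q x.2.2 z with hV
  have V0 : ∀ x z, 0 ≤ V x z := fun x z => mul_nonneg (mul_nonneg (O.p0 _ _) (O.q0 _ _)) (O.q0 _ _)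
  set W : ι → S → ℝ := fun i z => ∑ x ∈ G i, V x z with hW
  have hη3 : 0 < η ^ 3 := by positivity
  have hWη : ∀ i, ∀ z ∈ Good, η ^ 3 ≤ W i z := by
    intro i z hz
    set A := Finset.univ.filter (fun i' => a ≤ |s i' - s i|) with hA
    set C := (Finset.univ : Finset (κ × κ)).filter (fun kk => b ≤ |t kk.2 - t kk.1|) with hC
    have hGi : G i = A ×ˢ C := by
      ext x
      simp only [hG, hA, hC, Finset.mem_filter, Finset.mem_univ, true_and, Finset.mem_product]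
    have e1 : W i z = (∑ i' ∈ A, O.p i' z) * ∑ kk ∈ C, O.q kk.1 z * O.q kk.2 z := by
      simp only [hW, hGi]
      rw [Finset.sum_product, Finset.sum_mul_sum]
      refine Finset.sum_congr rfl fun x _ => Finset.sum_congr rfl fun y _ => ?_
      simp only [hV]; ring
    have e2 : ∑ kk ∈ C, O.q kk.1 z * O.q kk.2 z =
        ∑ k, O.q k z * ∑ k' with b ≤ |t k' - t k|, O.q k' z := by
      rw [hC, Finset.sum_filter, Fintype.sum_prod_type]
      refine Finset.sum_congr rfl fun k _ => ?_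
      rw [Finset.mul_sum, Finset.sum_filter]
    have l1 : η ≤ ∑ i' ∈ A, O.p i' z := hns z hz (s i)
    have l2 : η * η ≤ ∑ kk ∈ C, O.q kk.1 z * O.q kk.2 z := by
      rw [e2]
      have l3 : η ≤ ∑ k, O.q k z :=
        (hnt z hz 0).trans (Finset.sum_le_sum_of_subset_of_nonneg (Finset.filter_subset _ _)
          (fun k _ _ => O.q0 k z))
      calc η * η ≤ (∑ k, O.q k z) * η := mul_le_mul_of_nonneg_right l3 hη.le
        _ = ∑ k, O.q k z * η := Finset.sum_mul _ _ _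
        _ ≤ _ := Finset.sum_le_sum fun k _ => mul_le_mul_of_nonneg_left (hnt z hz (t k)) (O.q0 k z)
    rw [e1]
    calc η ^ 3 = η * (η * η) := by ring
      _ ≤ _ := mul_le_mul l1 l2 (by positivity) (hη.le.trans l1)
  -- the weights
  set wi : ι → S → ℝ := fun i z => w z * Good.indicator (fun z => (W i z)⁻¹) z with hwi
  have mV : ∀ x, Measurable (V x) := fun x => ((O.mp _).mul (O.mq _)).mul (O.mq _)
  have mW : ∀ i, Measurable (W i) := fun i => Finset.measurable_sum _ fun x _ => mV x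
  have hind : ∀ i z, 0 ≤ Good.indicator (fun z => (W i z)⁻¹) z ∧
      Good.indicator (fun z => (W i z)⁻¹) z ≤ (η ^ 3)⁻¹ := by
    intro i z
    by_cases hz : z ∈ Good
    · rw [Set.indicator_of_mem hz]
      exact ⟨inv_nonneg.mpr (hη3.le.trans (hWη i z hz)), inv_anti₀ hη3 (hWη i z hz)⟩
    · rw [Set.indicator_of_notMem hz]
      exact ⟨le_rfl, inv_nonneg.mpr hη3.le⟩
  have wti : ∀ i, O.Wt (wi i) := by
    intro i
    refine hw.mul O ⟨(mW i).inv.indicator hGood, fun z => (hind i z).1, (η ^ 3)⁻¹,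
      Filter.Eventually.of_forall fun ω => (hind i _).2⟩
  have wile : ∀ i z, wi i z ≤ w z * (η ^ 3)⁻¹ := fun i z =>
    mul_le_mul_of_nonneg_left (hind i z).2 (hw.2.1 z)
  -- the weight of one quadruple
  set Wx : ι → ι × κ × κ → S → ℝ := fun i x z => wi i z * O.p x.1 z * O.q x.2.1 z * O.q x.2.2 z
    with hWx
  have wtx : ∀ i x, O.Wt (Wx i x) := fun i x =>
    (((wti i).mul O (O.wt_p _)).mul O (O.wt_q _)).mul O (O.wt_q _)
  have sumWx : ∀ i z, ∑ x ∈ G i, Wx i x z = w z * Good.indicator (fun _ => (1 : ℝ)) z := by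
    intro i z
    have : ∀ x, Wx i x z = wi i z * V x z := fun x => by simp only [hWx, hV]; ring
    simp only [this]
    rw [← Finset.mul_sum]
    by_cases hz : z ∈ Good
    · have hpos : 0 < W i z := hη3.trans_le (hWη i z hz)
      simp only [hwi, Set.indicator_of_mem hz]
      rw [show ∑ x ∈ G i, V x z = W i z from rfl]
      field_simp
    · simp only [hwi, Set.indicator_of_notMem hz]
      simp
  -- errors of one quadruple
  set D : ι → ι × κ × κ → Ω → ℝ := fun i x ω => wi i (O.Z ω) *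
    (O.p x.1 (O.Z ω) * O.q x.2.2 (O.Z ω) * O.Err L κ0 bad i x.2.1 ω +
     O.p i (O.Z ω) * O.q x.2.2 (O.Z ω) * O.Err L κ0 bad x.1 x.2.1 ω +
     O.p i (O.Z ω) * O.q x.2.1 (O.Z ω) * O.Err L κ0 bad x.1 x.2.2 ω +
     O.p x.1 (O.Z ω) * O.q x.2.1 (O.Z ω) * O.Err L κ0 bad i x.2.2 ω) with hD
  have intD1 : ∀ (i : ι) (i1 : ι) (k1 : κ) (i2 : ι) (k2 : κ), Integrable (fun ω => wi i (O.Z ω) *
      O.p i1 (O.Z ω) * O.q k1 (O.Z ω) * O.Err L κ0 bad i2 k2 ω) P := fun i i1 k1 i2 k2 =>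
    (Wt.bm O (((wti i).mul O (O.wt_p i1)).mul O (O.wt_q k1))).mul_int (O.int_Err L κ0 hbad i2 k2)
  have Deq : ∀ i x, (∫ ω, D i x ω ∂P) =
      (∫ ω, wi i (O.Z ω) * O.p x.1 (O.Z ω) * O.q x.2.2 (O.Z ω) * O.Err L κ0 bad i x.2.1 ω ∂P) +
      (∫ ω, wi i (O.Z ω) * O.p i (O.Z ω) * O.q x.2.2 (O.Z ω) * O.Err L κ0 bad x.1 x.2.1 ω ∂P) +
      (∫ ω, wi i (O.Z ω) * O.p i (O.Z ω) * O.q x.2.1 (O.Z ω) * O.Err L κ0 bad x.1 x.2.2 ω ∂P) +
      (∫ ω, wi i (O.Z ω) * O.p x.1 (O.Z ω) * O.q x.2.1 (O.Z ω) * O.Err L κ0 bad i x.2.2 ω ∂P) := by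
    intro i x
    have j1 := intD1 i x.1 x.2.2 i x.2.1
    have j2 := intD1 i i x.2.2 x.1 x.2.1
    have j3 := intD1 i i x.2.1 x.1 x.2.2
    have j4 := intD1 i x.1 x.2.1 i x.2.2
    have j12 : Integrable (fun ω => wi i (O.Z ω) * O.p x.1 (O.Z ω) * O.q x.2.2 (O.Z ω) *
        O.Err L κ0 bad i x.2.1 ω + wi i (O.Z ω) * O.p i (O.Z ω) * O.q x.2.2 (O.Z ω) *
        O.Err L κ0 bad x.1 x.2.1 ω) P := j1.add j2
    have j123 : Integrable (fun ω => wi i (O.Z ω) * O.p x.1 (O.Z ω) * O.q x.2.2 (O.Z ω) *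
        O.Err L κ0 bad i x.2.1 ω + wi i (O.Z ω) * O.p i (O.Z ω) * O.q x.2.2 (O.Z ω) *
        O.Err L κ0 bad x.1 x.2.1 ω + wi i (O.Z ω) * O.p i (O.Z ω) * O.q x.2.1 (O.Z ω) *
        O.Err L κ0 bad x.1 x.2.2 ω) P := j12.add j3
    rw [← integral_add j1 j2, ← integral_add j12 j3, ← integral_add j123 j4]
    refine integral_congr_ae (Filter.Eventually.of_forall fun ω => ?_)
    simp only [hD]
    ring
  have intD : ∀ i x, Integrable (D i x) P := by
    intro i x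
    have j1 := intD1 i x.1 x.2.2 i x.2.1
    have j2 := intD1 i i x.2.2 x.1 x.2.1
    have j3 := intD1 i i x.2.1 x.1 x.2.2
    have j4 := intD1 i x.1 x.2.1 i x.2.2
    refine (((j1.add j2).add j3).add j4).congr (Filter.Eventually.of_forall fun ω => ?_)
    simp only [hD, Pi.add_apply]
    ring
  have D0 : ∀ i x ω, 0 ≤ D i x ω := by
    intro i x ω
    have h1 := (wti i).2.1 (O.Z ω)
    have e := fun i k => O.Err_nonneg L hκ0 bad i k ω
    have p0 := fun i => O.p0 i (O.Z ω)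
    have q0 := fun k => O.q0 k (O.Z ω)
    simp only [hD]
    refine mul_nonneg h1 (add_nonneg (add_nonneg (add_nonneg ?_ ?_) ?_) ?_) <;>
    exact mul_nonneg (mul_nonneg (p0 _) (q0 _)) (e _ _)
  -- one quadruple
  have one : ∀ i, ∀ x ∈ G i, |O.J i (Wx i x) (φ i) -
      O.J i (Wx i x) (fun z y => φ i z (y + u))| ≤
      B / (a * b) * (∫ ω, D i x ω ∂P) + L * (ws * wt) * ∫ ω, O.a i ω * Wx i x (O.Z ω) ∂P := by
    intro i x hx
    simp only [hG, Finset.mem_filter, Finset.mem_univ, true_and] at hx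
    set θ : ℝ := (s i - s x.1) * (t x.2.1 - t x.2.2) with hθ
    have hθ1 : a * b ≤ |θ| := by
      rw [hθ, abs_mul, abs_sub_comm (s i), abs_sub_comm (t x.2.1)]
      exact mul_le_mul hx.1 hx.2 hb.le (abs_nonneg _)
    have hθ2 : |θ| ≤ ws * wt := by
      rw [hθ, abs_mul]
      exact mul_le_mul (hws _ _) (hwt _ _) (abs_nonneg _) ((abs_nonneg _).trans (hws i x.1))
    have hab : 0 < a * b := mul_pos ha hb
    have hθne : θ ≠ 0 := by
      intro h0
      rw [h0, abs_zero] at hθ1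
      linarith
    set F : ℝ → ℝ := fun v => O.J i (Wx i x) (fun z y => φ i z (y + v)) with hF
    set m := ∫ ω, O.a i ω * Wx i x (O.Z ω) ∂P with hm
    have hm0 : 0 ≤ m := integral_nonneg fun ω => mul_nonneg (O.a_nonneg _ _) ((wtx i x).2.1 _)
    have hδ0 : 0 ≤ ∫ ω, D i x ω ∂P := integral_nonneg (D0 i x)
    have h1 : ∀ v, |F v - F (v + θ)| ≤ ∫ ω, D i x ω ∂P := by
      intro v
      have := O.four ((hφ i).shift v) (wti i) i x.1 x.2.1 x.2.2 hκ0 hbad hrel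
      rw [← Deq i x] at this
      refine le_trans (le_of_eq ?_) this
      congr 1
      simp only [hF]
      congr 1
      congr 1
      funext z y
      congr 1
      ring
    have h2 : ∀ v v', |F v - F v'| ≤ (L * m) * |v - v'| := by
      intro v v'
      simp only [hF, J]
      have b1 : BM P (fun ω => O.a i ω * Wx i x (O.Z ω)) := (O.bm_a i).mul (Wt.bm O (wtx i x))
      have k1 : Integrable (fun ω => O.a i ω * Wx i x (O.Z ω) * φ i (O.Z ω) (O.R1 ω + v)) P :=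
        (b1.mul (O.bm_φ ((hφ i).shift v) O.mR1)).integrable
      have k2 : Integrable (fun ω => O.a i ω * Wx i x (O.Z ω) * φ i (O.Z ω) (O.R1 ω + v')) P :=
        (b1.mul (O.bm_φ ((hφ i).shift v') O.mR1)).integrable
      rw [← integral_sub k1 k2]
      refine (abs_integral_le_integral_abs).trans ?_
      have k3 : Integrable (fun ω => O.a i ω * Wx i x (O.Z ω) * (L * |v - v'|)) P :=
        (b1.mul (BM.const _)).integrable
      have k4 : ∫ ω, O.a i ω * Wx i x (O.Z ω) * (L * |v - v'|) ∂P = (L * m) * |v - v'| := by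
        rw [integral_mul_const, hm]; ring
      rw [← k4]
      refine integral_mono_of_nonneg (Filter.Eventually.of_forall fun ω => abs_nonneg _) k3
        (Filter.Eventually.of_forall fun ω => ?_)
      simp only []
      rw [← mul_sub, abs_mul, abs_of_nonneg (mul_nonneg (O.a_nonneg _ _) ((wtx i x).2.1 _))]
      refine mul_le_mul_of_nonneg_left ?_ (mul_nonneg (O.a_nonneg _ _) ((wtx i x).2.1 _))
      have := Psi.lip ((hφ i).2 (O.Z ω)) (O.R1 ω + v) (O.R1 ω + v')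
      have e : O.R1 ω + v - (O.R1 ω + v') = v - v' := by ring
      rwa [e] at this
    have hit := iterate' F θ (∫ ω, D i x ω ∂P) (L * m) hδ0
      (mul_nonneg (NNReal.coe_nonneg L) hm0) hθne h1 h2 u
    have hF0 : F 0 = O.J i (Wx i x) (φ i) := by
      simp only [hF, add_zero]
    rw [hF0] at hit
    refine hit.trans ?_
    have m1 : |u| / |θ| ≤ B / (a * b) := div_le_div₀ hB hu hab hθ1
    have m2 := mul_le_mul_of_nonneg_right m1 hδ0
    have m3 : (L : ℝ) * m * |θ| ≤ L * (ws * wt) * m := by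
      have := mul_le_mul_of_nonneg_left hθ2 (mul_nonneg (NNReal.coe_nonneg L) hm0)
      linarith
    linarith
  -- sum over the quadruples, for one i
  have onei : ∀ i, |∫ ω, O.a i ω * (w (O.Z ω) * Good.indicator (fun _ => (1 : ℝ)) (O.Z ω)) *
        (φ i (O.Z ω) (O.R1 ω + u) - φ i (O.Z ω) (O.R1 ω)) ∂P| ≤
      B / (a * b) * (∑ x ∈ G i, ∫ ω, D i x ω ∂P) +
        L * (ws * wt) * ∫ ω, O.a i ω * w (O.Z ω) ∂P := by
    intro i
    have b1 : ∀ x, BM P (fun ω => O.a i ω * Wx i x (O.Z ω)) := fun x =>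
      (O.bm_a i).mul (Wt.bm O (wtx i x))
    have hsum : ∀ v, ∫ ω, O.a i ω * (w (O.Z ω) * Good.indicator (fun _ => (1 : ℝ)) (O.Z ω)) *
        φ i (O.Z ω) (O.R1 ω + v) ∂P = ∑ x ∈ G i, O.J i (Wx i x) (fun z y => φ i z (y + v)) := by
      intro v
      simp only [J]
      rw [← integral_finsetSum]
      · refine integral_congr_ae (Filter.Eventually.of_forall fun ω => ?_)
        simp only []
        rw [← sumWx i (O.Z ω), Finset.mul_sum, Finset.sum_mul]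
      · intro x _
        exact ((b1 x).mul (O.bm_φ ((hφ i).shift v) O.mR1)).integrable
    have wg : O.Wt (fun z => w z * Good.indicator (fun _ => (1 : ℝ)) z) :=
      hw.mul O ⟨measurable_const.indicator hGood,
        fun z => Set.indicator_nonneg (fun _ _ => zero_le_one) _, 1,
        Filter.Eventually.of_forall fun ω => by
          by_cases h : O.Z ω ∈ Good <;> simp [h]⟩
    have b2 : BM P (fun ω => O.a i ω * (w (O.Z ω) * Good.indicator (fun _ => (1 : ℝ)) (O.Z ω))) :=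
      (O.bm_a i).mul (Wt.bm O wg)
    have ks : ∀ v, Integrable (fun ω => O.a i ω *
        (w (O.Z ω) * Good.indicator (fun _ => (1 : ℝ)) (O.Z ω)) *
        φ i (O.Z ω) (O.R1 ω + v)) P := fun v =>
      (b2.mul (O.bm_φ ((hφ i).shift v) O.mR1)).integrable
    have hsplit : ∫ ω, O.a i ω * (w (O.Z ω) * Good.indicator (fun _ => (1 : ℝ)) (O.Z ω)) *
        (φ i (O.Z ω) (O.R1 ω + u) - φ i (O.Z ω) (O.R1 ω)) ∂P =
        -∑ x ∈ G i, (O.J i (Wx i x) (φ i) - O.J i (Wx i x) (fun z y => φ i z (y + u))) := by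
      have h0 := hsum 0
      simp only [add_zero] at h0
      have k0 := ks 0
      simp only [add_zero] at k0
      rw [Finset.sum_sub_distrib, ← hsum u, ← h0, neg_sub, ← integral_sub (ks u) k0]
      refine integral_congr_ae (Filter.Eventually.of_forall fun ω => ?_)
      simp only []
      ring
    rw [hsplit, abs_neg]
    refine (Finset.abs_sum_le_sum_abs _ _).trans ?_
    refine (Finset.sum_le_sum (one i)).trans ?_
    rw [Finset.sum_add_distrib, ← Finset.mul_sum, ← Finset.mul_sum]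
    have hmass : ∑ x ∈ G i, ∫ ω, O.a i ω * Wx i x (O.Z ω) ∂P ≤ ∫ ω, O.a i ω * w (O.Z ω) ∂P := by
      rw [← integral_finsetSum _ (fun x _ => (b1 x).integrable)]
      refine integral_mono_of_nonneg (Filter.Eventually.of_forall fun ω =>
        Finset.sum_nonneg fun x _ => mul_nonneg (O.a_nonneg _ _) ((wtx i x).2.1 _))
        ((O.bm_a i).mul (Wt.bm O hw)).integrable (Filter.Eventually.of_forall fun ω => ?_)
      simp only []
      rw [← Finset.mul_sum, sumWx]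
      refine mul_le_mul_of_nonneg_left ?_ (O.a_nonneg _ _)
      have h1 : Good.indicator (fun _ => (1 : ℝ)) (O.Z ω) ≤ 1 := by
        by_cases h : O.Z ω ∈ Good <;> simp [h]
      have := mul_le_mul_of_nonneg_left h1 (hw.2.1 (O.Z ω))
      simpa using this
    have hw' : 0 ≤ ws * wt := by
      by_cases hne : (G i).Nonempty
      · obtain ⟨x, _⟩ := hne
        exact mul_nonneg ((abs_nonneg _).trans (hws i i)) ((abs_nonneg _).trans (hwt x.2.1 x.2.1))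
      · by_cases hk : Nonempty κ
        · obtain ⟨k⟩ := hk
          exact mul_nonneg ((abs_nonneg _).trans (hws i i)) ((abs_nonneg _).trans (hwt k k))
        · -- no labels at all : P is a probability, so some `ω` exists
          exfalso
          have hne : Nonempty Ω := by
            by_contra hcon
            rw [not_nonempty_iff] at hcon
            have := measure_univ (μ := P)
            rw [Set.univ_eq_empty_iff.mpr hcon] at this
            simp at this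
          obtain ⟨ω⟩ := hne
          exact hk ⟨O.τ ω⟩
    have := mul_le_mul_of_nonneg_left hmass (mul_nonneg (NNReal.coe_nonneg L) hw')
    linarith
  -- sum over i
  refine (Finset.sum_le_sum fun i _ => onei i).trans ?_
  rw [Finset.sum_add_distrib, ← Finset.mul_sum, ← Finset.mul_sum]
  have hmass : ∑ i, ∫ ω, O.a i ω * w (O.Z ω) ∂P = ∫ ω, w (O.Z ω) ∂P := by
    rw [← integral_finsetSum _ (fun i _ => ((O.bm_a i).mul (Wt.bm O hw)).integrable)]
    refine integral_congr_ae (Filter.Eventually.of_forall fun ω => ?_)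
    simp only []
    rw [← Finset.sum_mul, O.sum_a, one_mul]
  rw [hmass]
  have herr : ∑ i, ∑ x ∈ G i, ∫ ω, D i x ω ∂P ≤
      (4 / η ^ 3) * ∫ ω, w (O.Z ω) * ∑ i, ∑ k, O.Err L κ0 bad i k ω ∂P := by
    have e1 : ∑ i, ∑ x ∈ G i, ∫ ω, D i x ω ∂P = ∫ ω, ∑ i, ∑ x ∈ G i, D i x ω ∂P := by
      rw [integral_finsetSum]
      · refine Finset.sum_congr rfl fun i _ => ?_
        rw [integral_finsetSum _ (fun x _ => intD i x)]
      · intro i _
        exact integrable_finsetSum _ fun x _ => intD i x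
    rw [e1, ← integral_const_mul]
    refine integral_mono_of_nonneg (Filter.Eventually.of_forall fun ω =>
      Finset.sum_nonneg fun i _ => Finset.sum_nonneg fun x _ => D0 i x ω) ?_ ?_
    · refine Integrable.const_mul ?_ _
      refine (Wt.bm O hw).mul_int ?_
      exact integrable_finsetSum _ fun i _ => integrable_finsetSum _ fun k _ =>
        O.int_Err L κ0 hbad i k
    · filter_upwards [O.p1, O.q1] with ω hp hq
      have e := fun i k => O.Err_nonneg L hκ0 bad i k ω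
      have p0 := fun i => O.p0 i (O.Z ω)
      have q0 := fun k => O.q0 k (O.Z ω)
      have hfour := sum_four (fun i => O.p i (O.Z ω)) (fun k => O.q k (O.Z ω))
        (fun i k => O.Err L κ0 bad i k ω) p0 q0 e hp hq
      have hc : 0 ≤ w (O.Z ω) * (η ^ 3)⁻¹ := mul_nonneg (hw.2.1 _) (inv_nonneg.mpr hη3.le)
      calc ∑ i, ∑ x ∈ G i, D i x ω ≤ ∑ i, ∑ x : ι × κ × κ, D i x ω :=
            Finset.sum_le_sum fun i _ => Finset.sum_le_sum_of_subset_of_nonneg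
              (Finset.filter_subset _ _) (fun x _ _ => D0 i x ω)
        _ ≤ ∑ i, ∑ x : ι × κ × κ, (w (O.Z ω) * (η ^ 3)⁻¹) *
            (O.p x.1 (O.Z ω) * O.q x.2.2 (O.Z ω) * O.Err L κ0 bad i x.2.1 ω +
             O.p i (O.Z ω) * O.q x.2.2 (O.Z ω) * O.Err L κ0 bad x.1 x.2.1 ω +
             O.p i (O.Z ω) * O.q x.2.1 (O.Z ω) * O.Err L κ0 bad x.1 x.2.2 ω +
             O.p x.1 (O.Z ω) * O.q x.2.1 (O.Z ω) * O.Err L κ0 bad i x.2.2 ω) := by
            refine Finset.sum_le_sum fun i _ => Finset.sum_le_sum fun x _ => ?_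
            refine mul_le_mul_of_nonneg_right (wile i _) ?_
            refine (add_nonneg (add_nonneg (add_nonneg ?_ ?_) ?_) ?_) <;>
            exact mul_nonneg (mul_nonneg (p0 _) (q0 _)) (e _ _)
        _ = (w (O.Z ω) * (η ^ 3)⁻¹) * ∑ i, ∑ x : ι × κ × κ,
            (O.p x.1 (O.Z ω) * O.q x.2.2 (O.Z ω) * O.Err L κ0 bad i x.2.1 ω +
             O.p i (O.Z ω) * O.q x.2.2 (O.Z ω) * O.Err L κ0 bad x.1 x.2.1 ω +
             O.p i (O.Z ω) * O.q x.2.1 (O.Z ω) * O.Err L κ0 bad x.1 x.2.2 ω +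
             O.p x.1 (O.Z ω) * O.q x.2.1 (O.Z ω) * O.Err L κ0 bad i x.2.2 ω) := by
            simp only [Finset.mul_sum]
        _ ≤ (w (O.Z ω) * (η ^ 3)⁻¹) * (4 * ∑ i, ∑ k, O.Err L κ0 bad i k ω) :=
            mul_le_mul_of_nonneg_left hfour hc
        _ = 4 / η ^ 3 * (w (O.Z ω) * ∑ i, ∑ k, O.Err L κ0 bad i k ω) := by
            rw [div_eq_mul_inv]; ring
  have := mul_le_mul_of_nonneg_left herr (div_nonneg hB (mul_pos ha hb).le)
  rw [mul_assoc (B / (a * b)) (4 / η ^ 3)]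
  linarith

/-- total weighted error -/
lemma int_sum_Err {L : NNReal} {κ0 : ℝ} (hκ0 : 0 ≤ κ0) {bad : Set Ω}
    (hbad : MeasurableSet bad) {ε1 ε2 : ℝ}
    (hI1 : ∑ k, ∫ ω, |O.g k (O.Y1 ω) - O.q k (O.Z ω)| ∂P ≤ ε1)
    (hI2 : ∑ i, ∫ ω, |O.h i (O.Y2 ω) - O.p i (O.Z ω)| ∂P ≤ ε2) :
    ∫ ω, ∑ i, ∑ k, O.Err L κ0 bad i k ω ∂P ≤ ε1 + ε2 + L * κ0 + 2 * P.real bad := by
  have i1 : ∀ k, Integrable (fun ω => |O.g k (O.Y1 ω) - O.q k (O.Z ω)|) P := fun k =>
    ((O.int_g k).sub (O.bm_q k).integrable).abs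
  have i2 : ∀ i, Integrable (fun ω => |O.h i (O.Y2 ω) - O.p i (O.Z ω)|) P := fun i =>
    ((O.int_h i).sub (O.bm_p i).integrable).abs
  have hpt : ∀ ω, ∑ i, ∑ k, O.Err L κ0 bad i k ω =
      ∑ k, |O.g k (O.Y1 ω) - O.q k (O.Z ω)| + ∑ i, |O.h i (O.Y2 ω) - O.p i (O.Z ω)| +
        (L * κ0 + 2 * bad.indicator (fun _ => (1 : ℝ)) ω) := by
    intro ω
    simp only [Err, e1, e2, e3, Finset.sum_add_distrib]
    congr 1
    · congr 1
      · rw [Finset.sum_comm]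
        refine Finset.sum_congr rfl fun k _ => ?_
        rw [← Finset.sum_mul, O.sum_a, one_mul]
      · refine Finset.sum_congr rfl fun i _ => ?_
        rw [← Finset.sum_mul, O.sum_b, one_mul]
    · have : ∀ i, ∑ k, O.a i ω * O.b k ω * (L * κ0 + 2 * bad.indicator (fun _ => (1 : ℝ)) ω) =
          O.a i ω * (L * κ0 + 2 * bad.indicator (fun _ => (1 : ℝ)) ω) := by
        intro i
        rw [← Finset.sum_mul, ← Finset.mul_sum, O.sum_b, mul_one]
      simp only [this]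
      rw [← Finset.sum_mul, O.sum_a, one_mul]
  simp only [hpt]
  have j3 : BM P (fun ω => L * κ0 + 2 * bad.indicator (fun _ => (1 : ℝ)) ω) :=
    (BM.const _).add ((BM.const _).mul (BM.indicator hbad))
  have j1 : Integrable (fun ω => ∑ k, |O.g k (O.Y1 ω) - O.q k (O.Z ω)|) P :=
    integrable_finsetSum _ fun k _ => i1 k
  have j2 : Integrable (fun ω => ∑ i, |O.h i (O.Y2 ω) - O.p i (O.Z ω)|) P :=
    integrable_finsetSum _ fun i _ => i2 i
  have j12 : Integrable (fun ω => ∑ k, |O.g k (O.Y1 ω) - O.q k (O.Z ω)| +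
    ∑ i, |O.h i (O.Y2 ω) - O.p i (O.Z ω)|) P := j1.add j2
  rw [integral_add j12 j3.integrable, integral_add j1 j2, integral_finsetSum _ (fun k _ => i1 k),
    integral_finsetSum _ (fun i _ => i2 i)]
  have hb : ∫ ω, (L * κ0 + 2 * bad.indicator (fun _ => (1 : ℝ)) ω) ∂P = L * κ0 + 2 * P.real bad := by
    rw [integral_add (integrable_const _) ((BM.indicator hbad).integrable.const_mul 2),
      integral_const, integral_const_mul, integral_indicator_const _ hbad]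
    simp
  rw [hb]
  linarith

/-- The averaged commutator lemma (label `σ` fixed). -/
theorem heisZ {L : NNReal} {s : ι → ℝ} {t : κ → ℝ} {κ0 : ℝ} (hκ0 : 0 ≤ κ0) {bad : Set Ω}
    (hbad : MeasurableSet bad)
    (hrel : ∀ ω ∉ bad, |O.R1 ω - O.R2 ω - s (O.σ ω) * t (O.τ ω)| ≤ κ0)
    {a b η ws wt B : ℝ} (ha : 0 < a) (hb : 0 < b) (hη : 0 < η) (hB : 0 ≤ B)
    {Good : Set S} (hGood : MeasurableSet Good)
    (hns : ∀ z ∈ Good, ∀ c : ℝ, η ≤ ∑ i with a ≤ |s i - c|, O.p i z)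
    (hnt : ∀ z ∈ Good, ∀ c : ℝ, η ≤ ∑ k with b ≤ |t k - c|, O.q k z)
    (hws : ∀ i i', |s i - s i'| ≤ ws) (hwt : ∀ k k', |t k - t k'| ≤ wt)
    {ε1 ε2 : ℝ}
    (hI1 : ∑ k, ∫ ω, |O.g k (O.Y1 ω) - O.q k (O.Z ω)| ∂P ≤ ε1)
    (hI2 : ∑ i, ∫ ω, |O.h i (O.Y2 ω) - O.p i (O.Z ω)| ∂P ≤ ε2)
    (φ : ι → S → ℝ → ℝ) (hφ : ∀ i, Fam L (φ i)) {u : ℝ} (hu : |u| ≤ B) :
    ∑ i, |∫ ω, O.a i ω * Good.indicator (fun _ => (1 : ℝ)) (O.Z ω) *
        (φ i (O.Z ω) (O.R1 ω + u) - φ i (O.Z ω) (O.R1 ω)) ∂P| ≤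
      B / (a * b) * (4 / η ^ 3) * (ε1 + ε2 + L * κ0 + 2 * P.real bad) + L * (ws * wt) := by
  have hw : O.Wt (fun _ => (1 : ℝ)) :=
    ⟨measurable_const, fun _ => zero_le_one, 1, Filter.Eventually.of_forall fun _ => le_rfl⟩
  have h := O.heisW hκ0 hbad hrel ha hb hη hB hGood hns hnt hws hwt hw φ hφ hu
  simp only [one_mul, integral_const, probReal_univ, smul_eq_mul, mul_one] at h
  refine h.trans ?_
  have h2 := O.int_sum_Err (L := L) hκ0 hbad hI1 hI2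
  have hc : 0 ≤ B / (a * b) * (4 / η ^ 3) := by positivity
  have := mul_le_mul_of_nonneg_left h2 hc
  linarith

/-- The averaged commutator lemma (both labels fixed). -/
theorem heisZT {L : NNReal} {s : ι → ℝ} {t : κ → ℝ} {κ0 : ℝ} (hκ0 : 0 ≤ κ0) {bad : Set Ω}
    (hbad : MeasurableSet bad)
    (hrel : ∀ ω ∉ bad, |O.R1 ω - O.R2 ω - s (O.σ ω) * t (O.τ ω)| ≤ κ0)
    {a b η ws wt B : ℝ} (ha : 0 < a) (hb : 0 < b) (hη : 0 < η) (hB : 0 ≤ B)
    {Good : Set S} (hGood : MeasurableSet Good)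
    (hns : ∀ z ∈ Good, ∀ c : ℝ, η ≤ ∑ i with a ≤ |s i - c|, O.p i z)
    (hnt : ∀ z ∈ Good, ∀ c : ℝ, η ≤ ∑ k with b ≤ |t k - c|, O.q k z)
    (hws : ∀ i i', |s i - s i'| ≤ ws) (hwt : ∀ k k', |t k - t k'| ≤ wt)
    {ε1 ε2 : ℝ}
    (hI1 : ∑ k, ∫ ω, |O.g k (O.Y1 ω) - O.q k (O.Z ω)| ∂P ≤ ε1)
    (hI2 : ∑ i, ∫ ω, |O.h i (O.Y2 ω) - O.p i (O.Z ω)| ∂P ≤ ε2)
    (φ : ι → κ → S → ℝ → ℝ) (hφ : ∀ i k, Fam L (φ i k)) {u : ℝ} (hu : |u| ≤ B) :
    ∑ i, ∑ k, |∫ ω, O.a i ω * O.b k ω * Good.indicator (fun _ => (1 : ℝ)) (O.Z ω) *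
        (φ i k (O.Z ω) (O.R1 ω + u) - φ i k (O.Z ω) (O.R1 ω)) ∂P| ≤
      B / (a * b) * (4 / η ^ 3) * (ε1 + ε2 + L * κ0 + 2 * P.real bad) + L * (ws * wt) +
        2 * ε1 := by
  classical
  have wg : O.Wt (Good.indicator (fun _ => (1 : ℝ))) :=
    ⟨measurable_const.indicator hGood,
        fun z => Set.indicator_nonneg (fun _ _ => zero_le_one) _, 1,
        Filter.Eventually.of_forall fun ω => by
          by_cases h : O.Z ω ∈ Good <;> simp [h]⟩
  -- replace the indicator of `τ = k` by the posterior `q k (Z)`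
  have hrep : ∀ i k, |∫ ω, O.a i ω * O.b k ω * Good.indicator (fun _ => (1 : ℝ)) (O.Z ω) *
        (φ i k (O.Z ω) (O.R1 ω + u) - φ i k (O.Z ω) (O.R1 ω)) ∂P| ≤
      |∫ ω, O.a i ω * (O.q k (O.Z ω) * Good.indicator (fun _ => (1 : ℝ)) (O.Z ω)) *
        (φ i k (O.Z ω) (O.R1 ω + u) - φ i k (O.Z ω) (O.R1 ω)) ∂P| +
      2 * ∫ ω, O.e1 i k ω ∂P := by
    intro i k
    have h1 := O.c1 ((hφ i k).shift u) wg i k
    have h2 := O.c1 (hφ i k) wg i k
    have hm : ∫ ω, Good.indicator (fun _ => (1 : ℝ)) (O.Z ω) * O.e1 i k ω ∂P ≤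
        ∫ ω, O.e1 i k ω ∂P := by
      refine integral_mono_of_nonneg (Filter.Eventually.of_forall fun ω =>
        mul_nonneg (wg.2.1 _) (O.e1_nonneg _ _ _)) (O.int_e1 i k)
        (Filter.Eventually.of_forall fun ω => ?_)
      have h1 : Good.indicator (fun _ => (1 : ℝ)) (O.Z ω) ≤ 1 := by
        by_cases h : O.Z ω ∈ Good <;> simp [h]
      have := mul_le_mul_of_nonneg_right h1 (O.e1_nonneg i k ω)
      simpa using this
    have b0 : ∀ v, Integrable (fun ω => O.b k ω * (O.a i ω *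
        Good.indicator (fun _ => (1 : ℝ)) (O.Z ω) * φ i k (O.Z ω) (O.R1 ω + v))) P := fun v =>
      ((O.bm_b k).mul (((O.bm_a i).mul (Wt.bm O wg)).mul
        (O.bm_φ ((hφ i k).shift v) O.mR1))).integrable
    have b1 : ∀ v, Integrable (fun ω => O.a i ω * Good.indicator (fun _ => (1 : ℝ)) (O.Z ω) *
        O.q k (O.Z ω) * φ i k (O.Z ω) (O.R1 ω + v)) P := fun v =>
      ((((O.bm_a i).mul (Wt.bm O wg)).mul (O.bm_q k)).mul
        (O.bm_φ ((hφ i k).shift v) O.mR1)).integrable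
    have b00 := b0 0
    have b10 := b1 0
    simp only [add_zero] at b00 b10
    have x1 : (∫ ω, O.a i ω * O.b k ω * Good.indicator (fun _ => (1 : ℝ)) (O.Z ω) *
        (φ i k (O.Z ω) (O.R1 ω + u) - φ i k (O.Z ω) (O.R1 ω)) ∂P) =
        (∫ ω, O.b k ω * (O.a i ω * Good.indicator (fun _ => (1 : ℝ)) (O.Z ω) *
          φ i k (O.Z ω) (O.R1 ω + u)) ∂P) -
        ∫ ω, O.b k ω * (O.a i ω * Good.indicator (fun _ => (1 : ℝ)) (O.Z ω) *
          φ i k (O.Z ω) (O.R1 ω)) ∂P := by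
      rw [← integral_sub (b0 u) b00]
      refine integral_congr_ae (Filter.Eventually.of_forall fun ω => ?_)
      simp only []; ring
    have x2 : (∫ ω, O.a i ω * (O.q k (O.Z ω) * Good.indicator (fun _ => (1 : ℝ)) (O.Z ω)) *
        (φ i k (O.Z ω) (O.R1 ω + u) - φ i k (O.Z ω) (O.R1 ω)) ∂P) =
        (∫ ω, O.a i ω * Good.indicator (fun _ => (1 : ℝ)) (O.Z ω) * O.q k (O.Z ω) *
          φ i k (O.Z ω) (O.R1 ω + u) ∂P) -
        ∫ ω, O.a i ω * Good.indicator (fun _ => (1 : ℝ)) (O.Z ω) * O.q k (O.Z ω) *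
          φ i k (O.Z ω) (O.R1 ω) ∂P := by
      rw [← integral_sub (b1 u) b10]
      refine integral_congr_ae (Filter.Eventually.of_forall fun ω => ?_)
      simp only []; ring
    rw [x1, x2]
    set A := ∫ ω, O.b k ω * (O.a i ω * Good.indicator (fun _ => (1 : ℝ)) (O.Z ω) *
          φ i k (O.Z ω) (O.R1 ω + u)) ∂P
    set B' := ∫ ω, O.b k ω * (O.a i ω * Good.indicator (fun _ => (1 : ℝ)) (O.Z ω) *
          φ i k (O.Z ω) (O.R1 ω)) ∂P
    set C := ∫ ω, O.a i ω * Good.indicator (fun _ => (1 : ℝ)) (O.Z ω) * O.q k (O.Z ω) *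
          φ i k (O.Z ω) (O.R1 ω + u) ∂P
    set D := ∫ ω, O.a i ω * Good.indicator (fun _ => (1 : ℝ)) (O.Z ω) * O.q k (O.Z ω) *
          φ i k (O.Z ω) (O.R1 ω) ∂P
    have t1 : A - B' = (A - C) + (C - D) + -(B' - D) := by ring
    have t2 := abs_add_le ((A - C) + (C - D)) (-(B' - D))
    have t3 := abs_add_le (A - C) (C - D)
    rw [abs_neg] at t2
    rw [t1]
    linarith
  refine (Finset.sum_le_sum fun i _ => Finset.sum_le_sum fun k _ => hrep i k).trans ?_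
  simp only [Finset.sum_add_distrib]
  have hE1 : ∑ i, ∑ k, 2 * ∫ ω, O.e1 i k ω ∂P ≤ 2 * ε1 := by
    simp only [← Finset.mul_sum]
    rw [Finset.sum_comm]
    have : ∀ k, ∑ i, ∫ ω, O.e1 i k ω ∂P = ∫ ω, |O.g k (O.Y1 ω) - O.q k (O.Z ω)| ∂P := by
      intro k
      rw [← integral_finsetSum _ (fun i _ => O.int_e1 i k)]
      refine integral_congr_ae (Filter.Eventually.of_forall fun ω => ?_)
      simp only [e1]
      rw [← Finset.sum_mul, O.sum_a, one_mul]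
    simp only [this]
    linarith
  have hmain : ∑ i, ∑ k, |∫ ω, O.a i ω * (O.q k (O.Z ω) *
        Good.indicator (fun _ => (1 : ℝ)) (O.Z ω)) *
        (φ i k (O.Z ω) (O.R1 ω + u) - φ i k (O.Z ω) (O.R1 ω)) ∂P| ≤
      B / (a * b) * (4 / η ^ 3) * (ε1 + ε2 + L * κ0 + 2 * P.real bad) + L * (ws * wt) := by
    rw [Finset.sum_comm]
    have hk : ∀ k, ∑ i, |∫ ω, O.a i ω * (O.q k (O.Z ω) *
        Good.indicator (fun _ => (1 : ℝ)) (O.Z ω)) *
        (φ i k (O.Z ω) (O.R1 ω + u) - φ i k (O.Z ω) (O.R1 ω)) ∂P| ≤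
        B / (a * b) * (4 / η ^ 3) *
          (∫ ω, O.q k (O.Z ω) * ∑ i, ∑ k, O.Err L κ0 bad i k ω ∂P) +
        L * (ws * wt) * ∫ ω, O.q k (O.Z ω) ∂P := fun k =>
      O.heisW hκ0 hbad hrel ha hb hη hB hGood hns hnt hws hwt (O.wt_q k) (fun i => φ i k)
        (fun i => hφ i k) hu
    refine (Finset.sum_le_sum fun k _ => hk k).trans ?_
    rw [Finset.sum_add_distrib, ← Finset.mul_sum, ← Finset.mul_sum]
    have intE : Integrable (fun ω => ∑ i, ∑ k, O.Err L κ0 bad i k ω) P :=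
      integrable_finsetSum _ fun i _ => integrable_finsetSum _ fun k _ =>
        O.int_Err L κ0 hbad i k
    have s1 : ∑ k, ∫ ω, O.q k (O.Z ω) * ∑ i, ∑ k, O.Err L κ0 bad i k ω ∂P ≤
        ∫ ω, ∑ i, ∑ k, O.Err L κ0 bad i k ω ∂P := by
      rw [← integral_finsetSum _ (fun k _ => (O.bm_q k).mul_int intE)]
      refine integral_mono_of_nonneg (Filter.Eventually.of_forall fun ω =>
        Finset.sum_nonneg fun k _ => mul_nonneg (O.q0 _ _) (Finset.sum_nonneg fun i _ =>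
          Finset.sum_nonneg fun k _ => O.Err_nonneg L hκ0 bad i k ω)) intE ?_
      filter_upwards [O.q1] with ω hq
      rw [← Finset.sum_mul]
      have hE0 : 0 ≤ ∑ i, ∑ k, O.Err L κ0 bad i k ω := Finset.sum_nonneg fun i _ =>
          Finset.sum_nonneg fun k _ => O.Err_nonneg L hκ0 bad i k ω
      have := mul_le_mul_of_nonneg_right hq hE0
      simpa [Z] using this
    have s2 : ∑ k, ∫ ω, O.q k (O.Z ω) ∂P ≤ 1 := by
      rw [← integral_finsetSum _ (fun k _ => (O.bm_q k).integrable)]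
      have : ∫ ω, ∑ k, O.q k (O.Z ω) ∂P ≤ ∫ _ω, (1 : ℝ) ∂P := by
        refine integral_mono_of_nonneg (Filter.Eventually.of_forall fun ω =>
          Finset.sum_nonneg fun k _ => O.q0 _ _) (integrable_const _) ?_
        filter_upwards [O.q1] with ω hq
        simpa [Z] using hq
      simpa using this
    have h2 := O.int_sum_Err (L := L) hκ0 hbad hI1 hI2
    have hc : 0 ≤ B / (a * b) * (4 / η ^ 3) := by positivity
    have m1 := mul_le_mul_of_nonneg_left (s1.trans h2) hc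
    have hne : Nonempty Ω := by
      by_contra hcon
      rw [not_nonempty_iff] at hcon
      have := measure_univ (μ := P)
      rw [Set.univ_eq_empty_iff.mpr hcon] at this
      simp at this
    obtain ⟨ω⟩ := hne
    have hw' : 0 ≤ ws * wt := mul_nonneg ((abs_nonneg _).trans (hws (O.σ ω) (O.σ ω)))
      ((abs_nonneg _).trans (hwt (O.τ ω) (O.τ ω)))
    have m2 := mul_le_mul_of_nonneg_left s2 (mul_nonneg (NNReal.coe_nonneg L) hw')
    linarith
  linarith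

end Obs

end Crest.Agent.R014.Heis_111
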