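import Mathlib

/-!
R014, block D of #3406: the abstract commutator ("Heisenberg") lemma in finite form (helper111).

`Psi L` = test functions `ψ : ℝ → ℝ`, `|ψ| ≤ 1`, `L`-Lipschitz (closed under translations).
`alg`   : the four-cycle estimate.
`heis`  : near independence of the two digits => near translation invariance.
-/

set_option autoImplicit false

namespace Crest.Agent.R014.Heis_111

open MeasureTheory

/-- Test functions. -/
def Psi (L : NNReal) : Set (ℝ → ℝ) := {ψ | (∀ x, |ψ x| ≤ 1) ∧ LipschitzWith L ψ}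

lemma Psi.abs_le {L : NNReal} {ψ : ℝ → ℝ} (h : ψ ∈ Psi L) (x : ℝ) : |ψ x| ≤ 1 := h.1 x

lemma Psi.lip {L : NNReal} {ψ : ℝ → ℝ} (h : ψ ∈ Psi L) (x y : ℝ) : |ψ x - ψ y| ≤ L * |x - y| := by
  have := h.2.dist_le_mul x y
  simpa [Real.dist_eq] using this

lemma Psi.shift {L : NNReal} {ψ : ℝ → ℝ} (h : ψ ∈ Psi L) (u : ℝ) :
    (fun x => ψ (x + u)) ∈ Psi L := by
  refine ⟨fun x => h.1 _, ?_⟩
  refine LipschitzWith.of_dist_le_mul fun x y => ?_
  have := h.2.dist_le_mul (x + u) (y + u)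
  simpa using this

lemma Psi.continuous {L : NNReal} {ψ : ℝ → ℝ} (h : ψ ∈ Psi L) : Continuous ψ := h.2.continuous

/-- The four-cycle estimate. -/
theorem alg {ι κ : Type*} {L : NNReal} (p : ι → ℝ) (q : κ → ℝ)
    (hp : ∀ i, 0 ≤ p i) (hq : ∀ k, 0 ≤ q k)
    (R : ι → (ℝ → ℝ) → ℝ) (R2 : κ → (ℝ → ℝ) → ℝ) (s : ι → ℝ) (t : κ → ℝ) (e : ι → κ → ℝ)
    {i i' : ι} {k k' : κ}
    (h1 : ∀ ψ ∈ Psi L, |q k * R i ψ - p i * R2 k (fun x => ψ (x + s i * t k))| ≤ e i k)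
    (h2 : ∀ ψ ∈ Psi L, |q k * R i' ψ - p i' * R2 k (fun x => ψ (x + s i' * t k))| ≤ e i' k)
    (h3 : ∀ ψ ∈ Psi L, |q k' * R i' ψ - p i' * R2 k' (fun x => ψ (x + s i' * t k'))| ≤ e i' k')
    (h4 : ∀ ψ ∈ Psi L, |q k' * R i ψ - p i * R2 k' (fun x => ψ (x + s i * t k'))| ≤ e i k')
    {ψ : ℝ → ℝ} (hψ : ψ ∈ Psi L) :
    p i' * q k * q k' * |R i ψ - R i (fun x => ψ (x + (s i - s i') * (t k - t k')))| ≤
      p i' * q k' * e i k + p i * q k' * e i' k + p i * q k * e i' k' + p i' * q k * e i k' := by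
  set φ1 : ℝ → ℝ := fun x => ψ (x + (s i * t k - s i' * t k)) with hφ1
  have hφ1m : φ1 ∈ Psi L := Psi.shift hψ _
  set φ2 : ℝ → ℝ := fun x => ψ (x + (s i - s i') * (t k - t k')) with hφ2
  have hφ2m : φ2 ∈ Psi L := Psi.shift hψ _
  have e1 := h1 ψ hψ
  have e2 := h2 φ1 hφ1m
  have e3 := h3 φ1 hφ1m
  have e4 := h4 φ2 hφ2m
  have g1 : (fun x => φ1 (x + s i' * t k)) = (fun x => ψ (x + s i * t k)) := by
    funext x
    simp only [hφ1]
    congr 1
    ring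
  have g2 : (fun x => φ2 (x + s i * t k')) = (fun x => φ1 (x + s i' * t k')) := by
    funext x
    simp only [hφ1, hφ2]
    congr 1
    ring
  rw [g1] at e2
  rw [g2] at e4
  set A := R i ψ
  set A' := R i φ2
  set Bq := R i' φ1
  set C := R2 k (fun x => ψ (x + s i * t k))
  set D := R2 k' (fun x => φ1 (x + s i' * t k'))
  have n1 : 0 ≤ p i' * q k' := mul_nonneg (hp _) (hq _)
  have n2 : 0 ≤ p i * q k' := mul_nonneg (hp _) (hq _)
  have n3 : 0 ≤ p i * q k := mul_nonneg (hp _) (hq _)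
  have n4 : 0 ≤ p i' * q k := mul_nonneg (hp _) (hq _)
  have f1 := mul_le_mul_of_nonneg_left e1 n1
  have f2 := mul_le_mul_of_nonneg_left e2 n2
  have f3 := mul_le_mul_of_nonneg_left e3 n3
  have f4 := mul_le_mul_of_nonneg_left e4 n4
  have key : p i' * q k * q k' * (A - A') =
      (p i' * q k') * (q k * A - p i * C) - (p i * q k') * (q k * Bq - p i' * C)
        + (p i * q k) * (q k' * Bq - p i' * D) - (p i' * q k) * (q k' * A' - p i * D) := by ring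
  have habs : p i' * q k * q k' * |A - A'| = |p i' * q k * q k' * (A - A')| := by
    rw [abs_mul, abs_of_nonneg (mul_nonneg n4 (hq _))]
  rw [habs, key]
  have t1 : |(p i' * q k') * (q k * A - p i * C)| = (p i' * q k') * |q k * A - p i * C| := by
    rw [abs_mul, abs_of_nonneg n1]
  have t2 : |(p i * q k') * (q k * Bq - p i' * C)| = (p i * q k') * |q k * Bq - p i' * C| := by
    rw [abs_mul, abs_of_nonneg n2]
  have t3 : |(p i * q k) * (q k' * Bq - p i' * D)| = (p i * q k) * |q k' * Bq - p i' * D| := by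
    rw [abs_mul, abs_of_nonneg n3]
  have t4 : |(p i' * q k) * (q k' * A' - p i * D)| = (p i' * q k) * |q k' * A' - p i * D| := by
    rw [abs_mul, abs_of_nonneg n4]
  set X1 := (p i' * q k') * (q k * A - p i * C)
  set X2 := (p i * q k') * (q k * Bq - p i' * C)
  set X3 := (p i * q k) * (q k' * Bq - p i' * D)
  set X4 := (p i' * q k) * (q k' * A' - p i * D)
  have tri : |X1 - X2 + X3 - X4| ≤ |X1| + |X2| + |X3| + |X4| := by
    have a1 := abs_sub (X1 - X2 + X3) X4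
    have a2 := abs_add_le (X1 - X2) X3
    have a3 := abs_sub X1 X2
    linarith
  rw [t1, t2, t3, t4] at tri
  linarith

/-- Weighted pigeonhole. -/
lemma exists_good {α : Type*} (S : Finset α) (w f : α → ℝ) (G E : ℝ) (hG : 0 < G)
    (hw : ∀ x ∈ S, 0 ≤ w x) (hf : ∀ x ∈ S, 0 ≤ f x)
    (hwS : G ≤ ∑ x ∈ S, w x) (hfS : ∑ x ∈ S, f x ≤ E) :
    ∃ x ∈ S, 0 < w x ∧ f x * G ≤ w x * E := by
  classical
  have hE : 0 ≤ E := le_trans (Finset.sum_nonneg hf) hfS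
  set S' := S.filter (fun x => 0 < w x) with hS'
  have hsum : ∑ x ∈ S', w x = ∑ x ∈ S, w x := by
    rw [hS', Finset.sum_filter]
    refine Finset.sum_congr rfl fun x hx => ?_
    split_ifs with h
    · rfl
    · exact le_antisymm (hw x hx) (not_lt.mp h)
  have hne : S'.Nonempty := by
    by_contra hcon
    rw [Finset.not_nonempty_iff_eq_empty] at hcon
    rw [hcon, Finset.sum_empty] at hsum
    linarith
  have hle : ∑ x ∈ S', f x * G ≤ ∑ x ∈ S', w x * E := by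
    rw [← Finset.sum_mul, ← Finset.sum_mul, hsum]
    have h1 : ∑ x ∈ S', f x ≤ ∑ x ∈ S, f x :=
      Finset.sum_le_sum_of_subset_of_nonneg (Finset.filter_subset _ _) (fun x hx _ => hf x hx)
    calc (∑ x ∈ S', f x) * G ≤ E * G := mul_le_mul_of_nonneg_right (h1.trans hfS) hG.le
      _ = G * E := mul_comm _ _
      _ ≤ (∑ x ∈ S, w x) * E := mul_le_mul_of_nonneg_right hwS hE
  obtain ⟨x, hx, hxle⟩ := Finset.exists_le_of_sum_le hne hle
  rw [hS', Finset.mem_filter] at hx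
  exact ⟨x, hx.1, hx.2, hxle⟩

/-- Iteration of one small almost-invariance. -/
lemma iterate {L : NNReal} (R : (ℝ → ℝ) → ℝ) (θ δ m : ℝ) (hδ : 0 ≤ δ) (hm : 0 ≤ m) (hθ : θ ≠ 0)
    (hR : ∀ ψ ∈ Psi L, |R ψ - R (fun x => ψ (x + θ))| ≤ δ)
    (hL : ∀ ψ ∈ Psi L, ∀ v : ℝ, |R ψ - R (fun x => ψ (x + v))| ≤ L * |v| * m)
    (u : ℝ) {ψ : ℝ → ℝ} (hψ : ψ ∈ Psi L) :
    |R ψ - R (fun x => ψ (x + u))| ≤ |u| / |θ| * δ + L * |θ| * m := by
  have hneg : ∀ ψ ∈ Psi L, |R ψ - R (fun x => ψ (x + -θ))| ≤ δ := by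
    intro ψ hψ
    have := hR _ (Psi.shift hψ (-θ))
    have e : (fun x => (fun y => ψ (y + -θ)) (x + θ)) = ψ := by
      funext x; simp
    rw [e] at this
    rw [abs_sub_comm]; exact this
  -- the step in the direction of `u`
  obtain ⟨θ', hθ', hθabs, hdir, hstep⟩ : ∃ θ' : ℝ, |θ'| = |θ| ∧ 0 < |θ'| ∧
      u = (|u| / |θ|) * θ' ∧ ∀ ψ ∈ Psi L, |R ψ - R (fun x => ψ (x + θ'))| ≤ δ := by
    have hpos : 0 < |θ| := abs_pos.mpr hθ
    rcases le_or_gt 0 (u * θ) with h | h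
    · refine ⟨θ, rfl, hpos, ?_, hR⟩
      rw [div_mul_eq_mul_div, eq_div_iff hpos.ne']
      rcases lt_or_gt_of_ne hθ with h0 | h0
      · have hu : u ≤ 0 := by nlinarith
        rw [abs_of_neg h0, abs_of_nonpos hu]; ring
      · have hu : 0 ≤ u := by nlinarith
        rw [abs_of_pos h0, abs_of_nonneg hu]
    · refine ⟨-θ, abs_neg θ, by simpa using hpos, ?_, hneg⟩
      rw [div_mul_eq_mul_div, eq_div_iff hpos.ne']
      rcases lt_or_gt_of_ne hθ with h0 | h0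
      · have hu : 0 ≤ u := by nlinarith
        rw [abs_of_neg h0, abs_of_nonneg hu]
      · have hu : u ≤ 0 := by nlinarith
        rw [abs_of_pos h0, abs_of_nonpos hu]; ring
  have hN : ∀ N : ℕ, ∀ ψ ∈ Psi L, |R ψ - R (fun x => ψ (x + N * θ'))| ≤ N * δ := by
    intro N
    induction N with
    | zero => intro ψ _; simp
    | succ N ih =>
      intro ψ hψ
      have a1 := ih ψ hψ
      have a2 := hstep _ (Psi.shift hψ (N * θ'))
      have e : (fun x => (fun y => ψ (y + N * θ')) (x + θ')) =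
          (fun x => ψ (x + ((N + 1 : ℕ) : ℝ) * θ')) := by
        funext x
        simp only []
        congr 1
        push_cast
        ring
      rw [e] at a2
      have a3 := abs_sub_le (R ψ) (R (fun x => ψ (x + N * θ')))
        (R (fun x => ψ (x + ((N + 1 : ℕ) : ℝ) * θ')))
      push_cast at a1 a2 a3 ⊢
      linarith
  set y := |u| / |θ| with hy
  have hy0 : 0 ≤ y := by positivity
  set N := ⌊y⌋₊ with hNdef
  have hNy : (N : ℝ) ≤ y := Nat.floor_le hy0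
  have hNy' : y < N + 1 := Nat.lt_floor_add_one y
  have b1 := hN N ψ hψ
  have b2 := hL _ (Psi.shift hψ (N * θ')) (u - N * θ')
  have e : (fun x => (fun z => ψ (z + N * θ')) (x + (u - N * θ'))) = (fun x => ψ (x + u)) := by
    funext x
    simp only []
    congr 1
    ring
  rw [e] at b2
  have hrest : |u - N * θ'| ≤ |θ| := by
    have : u - N * θ' = (y - N) * θ' := by
      conv_lhs => rw [hdir]
      ring
    rw [this, abs_mul, hθ']
    have h1 : |y - N| ≤ 1 := by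
      rw [abs_le]; constructor <;> linarith
    calc |y - N| * |θ| ≤ 1 * |θ| := mul_le_mul_of_nonneg_right h1 (abs_nonneg _)
      _ = |θ| := one_mul _
  have b3 : (L : ℝ) * |u - N * θ'| * m ≤ L * |θ| * m := by
    have : (L : ℝ) * |u - N * θ'| ≤ L * |θ| := mul_le_mul_of_nonneg_left hrest L.2
    exact mul_le_mul_of_nonneg_right this hm
  have b4 : (N : ℝ) * δ ≤ y * δ := mul_le_mul_of_nonneg_right hNy hδ
  have a3 := abs_sub_le (R ψ) (R (fun x => ψ (x + N * θ'))) (R (fun x => ψ (x + u)))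
  linarith


section Measure

variable {Ω : Type*} [MeasurableSpace Ω] (P : Measure Ω) [IsProbabilityMeasure P]

lemma integrable_psi {L : NNReal} {ψ : ℝ → ℝ} (hψ : ψ ∈ Psi L) {r : Ω → ℝ} (hr : Measurable r)
    (A : Set Ω) : IntegrableOn (fun ω => ψ (r ω)) A P := by
  refine Integrable.integrableOn ?_
  refine Integrable.of_bound ((Psi.continuous hψ).measurable.comp hr).aestronglyMeasurable 1 ?_
  exact Filter.Eventually.of_forall fun ω => by simpa using Psi.abs_le hψ (r ω)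

lemma abs_setIntegral_le {A : Set Ω} (f : Ω → ℝ) (c : ℝ)
    (hf : ∀ ω ∈ A, |f ω| ≤ c) : |∫ ω in A, f ω ∂P| ≤ c * P.real A := by
  have := norm_setIntegral_le_of_norm_le_const (μ := P) (s := A) (f := f) (C := c)
    (measure_lt_top P A) (fun ω hω => by simpa using hf ω hω)
  simpa using this

/-- Lipschitz continuity of `R ψ = ∫_A ψ (r)` in translations. -/
lemma lip_R {L : NNReal} {ψ : ℝ → ℝ} (hψ : ψ ∈ Psi L) {r : Ω → ℝ} (hr : Measurable r)
    (A : Set Ω) (v : ℝ) :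
    |(∫ ω in A, ψ (r ω) ∂P) - ∫ ω in A, ψ (r ω + v) ∂P| ≤ L * |v| * P.real A := by
  rw [← integral_sub (integrable_psi P hψ hr A) (integrable_psi P (Psi.shift hψ v) hr A)]
  refine abs_setIntegral_le P _ _ fun ω _ => ?_
  have := Psi.lip hψ (r ω) (r ω + v)
  simpa using this

/-- Comparison of two coordinates which agree up to a translation and `κ0` off `bad`. -/
lemma compare {L : NNReal} {ψ : ℝ → ℝ} (hψ : ψ ∈ Psi L) {r1 r2 : Ω → ℝ} (hr1 : Measurable r1)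
    (hr2 : Measurable r2) {A : Set Ω} (hA : MeasurableSet A) {bad : Set Ω}
    (hbad : MeasurableSet bad) (v κ0 : ℝ) (hκ0 : 0 ≤ κ0)
    (hrel : ∀ ω ∈ A, ω ∉ bad → |r1 ω - r2 ω - v| ≤ κ0) :
    |(∫ ω in A, ψ (r1 ω) ∂P) - ∫ ω in A, ψ (r2 ω + v) ∂P| ≤
      L * κ0 * P.real A + 2 * P.real (A ∩ bad) := by
  have i1 := integrable_psi P hψ hr1 A
  have i2 := integrable_psi P (Psi.shift hψ v) hr2 A
  rw [← integral_sub i1 i2]
  have i3 : IntegrableOn (fun ω => ψ (r1 ω) - ψ (r2 ω + v)) A P := i1.sub i2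
  rw [← integral_inter_add_sdiff hbad i3]
  have b1 : |∫ ω in A ∩ bad, ψ (r1 ω) - ψ (r2 ω + v) ∂P| ≤ 2 * P.real (A ∩ bad) := by
    refine abs_setIntegral_le P _ _ fun ω _ => ?_
    have h1 := Psi.abs_le hψ (r1 ω)
    have h2 := Psi.abs_le hψ (r2 ω + v)
    have := abs_sub (ψ (r1 ω)) (ψ (r2 ω + v))
    linarith
  have b2 : |∫ ω in A \ bad, ψ (r1 ω) - ψ (r2 ω + v) ∂P| ≤ L * κ0 * P.real (A \ bad) := by
    refine abs_setIntegral_le P _ _ fun ω hω => ?_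
    have h1 := Psi.lip hψ (r1 ω) (r2 ω + v)
    have h2 := hrel ω hω.1 hω.2
    have h3 : |r1 ω - (r2 ω + v)| ≤ κ0 := by
      have : r1 ω - (r2 ω + v) = r1 ω - r2 ω - v := by ring
      rw [this]; exact h2
    exact h1.trans (mul_le_mul_of_nonneg_left h3 L.2)
  have b3 : P.real (A \ bad) ≤ P.real A := measureReal_mono Set.sdiff_subset
  have b4 : (L : ℝ) * κ0 * P.real (A \ bad) ≤ L * κ0 * P.real A :=
    mul_le_mul_of_nonneg_left b3 (mul_nonneg L.2 hκ0)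
  have tri := abs_add_le (∫ ω in A ∩ bad, ψ (r1 ω) - ψ (r2 ω + v) ∂P)
    (∫ ω in A \ bad, ψ (r1 ω) - ψ (r2 ω + v) ∂P)
  linarith

lemma sum_real_le {α : Type*} (S : Finset α) (f : Ω → α) (hf : ∀ x ∈ S, MeasurableSet (f ⁻¹' {x}))
    (B : Set Ω) (hB : MeasurableSet B) : ∑ x ∈ S, P.real (B ∩ f ⁻¹' {x}) ≤ P.real B := by
  classical
  have hd : Set.PairwiseDisjoint (↑S) (fun x => B ∩ f ⁻¹' {x}) := by
    intro x _ y _ hxy
    simp only [Function.onFun]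
    rw [Set.disjoint_left]
    rintro ω ⟨_, h1⟩ ⟨_, h2⟩
    exact hxy (by rw [← h1, ← h2])
  rw [← measureReal_biUnion_finset hd (fun x hx => hB.inter (hf x hx))]
  exact measureReal_mono (Set.iUnion₂_subset fun x _ => Set.inter_subset_left)

/-- The finite commutator lemma. -/
theorem heis {ι κ : Type*} (I : Finset ι) (J : Finset κ) (σ : Ω → ι) (τ : Ω → κ)
    (hσ : ∀ i ∈ I, MeasurableSet (σ ⁻¹' {i})) (hτ : ∀ k ∈ J, MeasurableSet (τ ⁻¹' {k}))
    (s : ι → ℝ) (t : κ → ℝ) (r1 r2 : Ω → ℝ) (hr1 : Measurable r1) (hr2 : Measurable r2)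
    (L : NNReal) (e1 e2 : ι → κ → ℝ) (ε1 ε2 : ℝ)
    (hI1 : ∀ i ∈ I, ∀ k ∈ J, ∀ ψ ∈ Psi L,
      |(∫ ω in σ ⁻¹' {i} ∩ τ ⁻¹' {k}, ψ (r1 ω) ∂P) -
        P.real (τ ⁻¹' {k}) * ∫ ω in σ ⁻¹' {i}, ψ (r1 ω) ∂P| ≤ e1 i k)
    (hI2 : ∀ i ∈ I, ∀ k ∈ J, ∀ ψ ∈ Psi L,
      |(∫ ω in σ ⁻¹' {i} ∩ τ ⁻¹' {k}, ψ (r2 ω) ∂P) -
        P.real (σ ⁻¹' {i}) * ∫ ω in τ ⁻¹' {k}, ψ (r2 ω) ∂P| ≤ e2 i k)
    (hs1 : ∑ i ∈ I, ∑ k ∈ J, e1 i k ≤ ε1) (hs2 : ∑ i ∈ I, ∑ k ∈ J, e2 i k ≤ ε2)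
    (κ0 : ℝ) (hκ0 : 0 ≤ κ0) (bad : Set Ω) (hbad : MeasurableSet bad)
    (hrel : ∀ ω ∉ bad, |r1 ω - r2 ω - s (σ ω) * t (τ ω)| ≤ κ0)
    (a b η ws wt B : ℝ) (ha : 0 < a) (hb : 0 < b) (hη : 0 < η)
    (hns : ∀ c : ℝ, η ≤ ∑ i ∈ I with a ≤ |s i - c|, P.real (σ ⁻¹' {i}))
    (hnt : ∀ c : ℝ, η ≤ ∑ k ∈ J with b ≤ |t k - c|, P.real (τ ⁻¹' {k}))
    (hws : ∀ i ∈ I, ∀ i' ∈ I, |s i - s i'| ≤ ws) (hwt : ∀ k ∈ J, ∀ k' ∈ J, |t k - t k'| ≤ wt)
    (hB : 0 ≤ B) :
    ∃ e' : ι → ℝ, (∀ i ∈ I, 0 ≤ e' i) ∧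
      ∑ i ∈ I, e' i ≤ B / (a * b) * (4 / η ^ 3) * (ε1 + ε2 + L * κ0 + 2 * P.real bad)
        + L * (ws * wt) ∧
      ∀ i ∈ I, ∀ u : ℝ, |u| ≤ B → ∀ ψ ∈ Psi L,
        |(∫ ω in σ ⁻¹' {i}, ψ (r1 ω + u) ∂P) - ∫ ω in σ ⁻¹' {i}, ψ (r1 ω) ∂P| ≤ e' i := by
  classical
  set p : ι → ℝ := fun i => P.real (σ ⁻¹' {i}) with hp
  set q : κ → ℝ := fun k => P.real (τ ⁻¹' {k}) with hq
  have hp0 : ∀ i, 0 ≤ p i := fun i => measureReal_nonneg
  have hq0 : ∀ k, 0 ≤ q k := fun k => measureReal_nonneg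
  set R : ι → (ℝ → ℝ) → ℝ := fun i ψ => ∫ ω in σ ⁻¹' {i}, ψ (r1 ω) ∂P with hR
  set R2 : κ → (ℝ → ℝ) → ℝ := fun k ψ => ∫ ω in τ ⁻¹' {k}, ψ (r2 ω) ∂P with hR2
  set e : ι → κ → ℝ := fun i k => e1 i k + e2 i k + (L * κ0 * P.real (σ ⁻¹' {i} ∩ τ ⁻¹' {k}) +
    2 * P.real (σ ⁻¹' {i} ∩ τ ⁻¹' {k} ∩ bad)) with he
  -- pointwise bound
  have hmain : ∀ i ∈ I, ∀ k ∈ J, ∀ ψ ∈ Psi L,
      |q k * R i ψ - p i * R2 k (fun x => ψ (x + s i * t k))| ≤ e i k := by
    intro i hi k hk ψ hψ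
    have a1 := hI1 i hi k hk ψ hψ
    have a2 := hI2 i hi k hk _ (Psi.shift hψ (s i * t k))
    have a3 := compare P hψ hr1 hr2 ((hσ i hi).inter (hτ k hk)) hbad (s i * t k) κ0 hκ0
      (fun ω hω hb => by
        have := hrel ω hb
        have h1 : σ ω = i := hω.1
        have h2 : τ ω = k := hω.2
        rw [h1, h2] at this
        exact this)
    have key : q k * R i ψ - p i * R2 k (fun x => ψ (x + s i * t k)) =
        -((∫ ω in σ ⁻¹' {i} ∩ τ ⁻¹' {k}, ψ (r1 ω) ∂P) - q k * R i ψ) +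
        ((∫ ω in σ ⁻¹' {i} ∩ τ ⁻¹' {k}, ψ (r1 ω) ∂P) -
          ∫ ω in σ ⁻¹' {i} ∩ τ ⁻¹' {k}, ψ (r2 ω + s i * t k) ∂P) +
        ((∫ ω in σ ⁻¹' {i} ∩ τ ⁻¹' {k}, ψ (r2 ω + s i * t k) ∂P) -
          p i * R2 k (fun x => ψ (x + s i * t k))) := by ring
    rw [key]
    have t1 := abs_add_le (-((∫ ω in σ ⁻¹' {i} ∩ τ ⁻¹' {k}, ψ (r1 ω) ∂P) - q k * R i ψ) +
        ((∫ ω in σ ⁻¹' {i} ∩ τ ⁻¹' {k}, ψ (r1 ω) ∂P) -
          ∫ ω in σ ⁻¹' {i} ∩ τ ⁻¹' {k}, ψ (r2 ω + s i * t k) ∂P))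
        ((∫ ω in σ ⁻¹' {i} ∩ τ ⁻¹' {k}, ψ (r2 ω + s i * t k) ∂P) -
          p i * R2 k (fun x => ψ (x + s i * t k)))
    have t2 := abs_add_le (-((∫ ω in σ ⁻¹' {i} ∩ τ ⁻¹' {k}, ψ (r1 ω) ∂P) - q k * R i ψ))
        ((∫ ω in σ ⁻¹' {i} ∩ τ ⁻¹' {k}, ψ (r1 ω) ∂P) -
          ∫ ω in σ ⁻¹' {i} ∩ τ ⁻¹' {k}, ψ (r2 ω + s i * t k) ∂P)
    rw [abs_neg] at t2
    simp only [he]
    linarith
  have hzero : (fun _ : ℝ => (0 : ℝ)) ∈ Psi L := by
    refine ⟨fun x => by simp, LipschitzWith.const' 0 |>.weaken bot_le⟩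
  have he0 : ∀ i ∈ I, ∀ k ∈ J, 0 ≤ e i k := fun i hi k hk =>
    le_trans (abs_nonneg _) (hmain i hi k hk _ hzero)
  -- the total error
  set T := ∑ i ∈ I, ∑ k ∈ J, e i k with hT
  have hT0 : 0 ≤ T := Finset.sum_nonneg fun i hi => Finset.sum_nonneg fun k hk => he0 i hi k hk
  have hprob : ∀ A : Set Ω, P.real A ≤ 1 := fun A => measureReal_le_one
  have hP1 : ∑ i ∈ I, p i ≤ 1 := by
    have := sum_real_le P I σ hσ Set.univ MeasurableSet.univ
    simpa using this.trans (hprob _)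
  have hQ1 : ∑ k ∈ J, q k ≤ 1 := by
    have := sum_real_le P J τ hτ Set.univ MeasurableSet.univ
    simpa using this.trans (hprob _)
  have hP0 : 0 ≤ ∑ i ∈ I, p i := Finset.sum_nonneg fun i _ => hp0 i
  have hQ0 : 0 ≤ ∑ k ∈ J, q k := Finset.sum_nonneg fun k _ => hq0 k
  have hTle : T ≤ ε1 + ε2 + L * κ0 + 2 * P.real bad := by
    have s3 : ∑ i ∈ I, ∑ k ∈ J, P.real (σ ⁻¹' {i} ∩ τ ⁻¹' {k}) ≤ 1 := by
      calc ∑ i ∈ I, ∑ k ∈ J, P.real (σ ⁻¹' {i} ∩ τ ⁻¹' {k}) ≤ ∑ i ∈ I, P.real (σ ⁻¹' {i}) :=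
            Finset.sum_le_sum fun i hi => sum_real_le P J τ hτ _ (hσ i hi)
        _ ≤ 1 := hP1
    have s4 : ∑ i ∈ I, ∑ k ∈ J, P.real (σ ⁻¹' {i} ∩ τ ⁻¹' {k} ∩ bad) ≤ P.real bad := by
      calc ∑ i ∈ I, ∑ k ∈ J, P.real (σ ⁻¹' {i} ∩ τ ⁻¹' {k} ∩ bad)
          ≤ ∑ i ∈ I, P.real (bad ∩ σ ⁻¹' {i}) := by
            refine Finset.sum_le_sum fun i hi => ?_
            have := sum_real_le P J τ hτ (bad ∩ σ ⁻¹' {i}) (hbad.inter (hσ i hi))
            refine le_trans (le_of_eq ?_) this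
            refine Finset.sum_congr rfl fun k _ => ?_
            congr 1
            ext ω
            simp only [Set.mem_inter_iff]
            tauto
        _ ≤ P.real bad := sum_real_le P I σ hσ bad hbad
    have expand : T = ∑ i ∈ I, ∑ k ∈ J, e1 i k + ∑ i ∈ I, ∑ k ∈ J, e2 i k +
        (L * κ0 * ∑ i ∈ I, ∑ k ∈ J, P.real (σ ⁻¹' {i} ∩ τ ⁻¹' {k}) +
          2 * ∑ i ∈ I, ∑ k ∈ J, P.real (σ ⁻¹' {i} ∩ τ ⁻¹' {k} ∩ bad)) := by
      simp only [hT, he, Finset.sum_add_distrib, Finset.mul_sum]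
    rw [expand]
    have n1 : (L : ℝ) * κ0 * ∑ i ∈ I, ∑ k ∈ J, P.real (σ ⁻¹' {i} ∩ τ ⁻¹' {k}) ≤ L * κ0 * 1 :=
      mul_le_mul_of_nonneg_left s3 (mul_nonneg L.2 hκ0)
    linarith
  -- choice of the good triple
  have hchoice : ∀ i ∈ I, ∃ θ : ℝ, a * b ≤ |θ| ∧ |θ| ≤ ws * wt ∧
      ∀ ψ ∈ Psi L, |R i ψ - R i (fun x => ψ (x + θ))| ≤
        (2 * ∑ k ∈ J, e i k + 2 * (p i * T)) / η ^ 3 := by
    intro i hi
    set I' := I.filter (fun i' => a ≤ |s i' - s i|) with hI'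
    set K' := (J ×ˢ J).filter (fun kk => b ≤ |t kk.2 - t kk.1|) with hK'
    set w : ι × κ × κ → ℝ := fun x => p x.1 * q x.2.1 * q x.2.2 with hw
    set f : ι × κ × κ → ℝ := fun x => p x.1 * q x.2.2 * e i x.2.1 + p i * q x.2.2 * e x.1 x.2.1 +
      p i * q x.2.1 * e x.1 x.2.2 + p x.1 * q x.2.1 * e i x.2.2 with hf
    have hw0 : ∀ x ∈ I' ×ˢ K', 0 ≤ w x := fun x _ =>
      mul_nonneg (mul_nonneg (hp0 _) (hq0 _)) (hq0 _)
    have hf0' : ∀ x ∈ I ×ˢ (J ×ˢ J), 0 ≤ f x := by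
      intro x hx
      simp only [Finset.mem_product] at hx
      obtain ⟨h1, h2, h3⟩ := hx
      have g1 := mul_nonneg (mul_nonneg (hp0 x.1) (hq0 x.2.2)) (he0 i hi _ h2)
      have g2 := mul_nonneg (mul_nonneg (hp0 i) (hq0 x.2.2)) (he0 _ h1 _ h2)
      have g3 := mul_nonneg (mul_nonneg (hp0 i) (hq0 x.2.1)) (he0 _ h1 _ h3)
      have g4 := mul_nonneg (mul_nonneg (hp0 x.1) (hq0 x.2.1)) (he0 i hi _ h3)
      simp only [hf]
      linarith
    have hsub : I' ×ˢ K' ⊆ I ×ˢ (J ×ˢ J) :=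
      Finset.product_subset_product (Finset.filter_subset _ _) (Finset.filter_subset _ _)
    have hf0 : ∀ x ∈ I' ×ˢ K', 0 ≤ f x := fun x hx => hf0' x (hsub hx)
    have hwS : η ^ 3 ≤ ∑ x ∈ I' ×ˢ K', w x := by
      have e1 : ∑ x ∈ I' ×ˢ K', w x = (∑ i' ∈ I', p i') * ∑ kk ∈ K', q kk.1 * q kk.2 := by
        rw [Finset.sum_product, Finset.sum_mul_sum]
        refine Finset.sum_congr rfl fun x _ => Finset.sum_congr rfl fun y _ => ?_
        simp only [hw]; ring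
      have e2 : ∑ kk ∈ K', q kk.1 * q kk.2 =
          ∑ k ∈ J, q k * ∑ k' ∈ J with b ≤ |t k' - t k|, q k' := by
        rw [hK', Finset.sum_filter, Finset.sum_product]
        refine Finset.sum_congr rfl fun k _ => ?_
        rw [Finset.mul_sum, Finset.sum_filter]
      have l1 : η ≤ ∑ i' ∈ I', p i' := hns (s i)
      have l2 : η * η ≤ ∑ kk ∈ K', q kk.1 * q kk.2 := by
        rw [e2]
        have l3 : η ≤ ∑ k ∈ J, q k :=
          (hnt 0).trans (Finset.sum_le_sum_of_subset_of_nonneg (Finset.filter_subset _ _)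
            (fun k _ _ => hq0 k))
        calc η * η ≤ (∑ k ∈ J, q k) * η := mul_le_mul_of_nonneg_right l3 hη.le
          _ = ∑ k ∈ J, q k * η := Finset.sum_mul _ _ _
          _ ≤ _ := Finset.sum_le_sum fun k _ => mul_le_mul_of_nonneg_left (hnt (t k)) (hq0 k)
      rw [e1]
      calc η ^ 3 = η * (η * η) := by ring
        _ ≤ _ := mul_le_mul l1 l2 (by positivity) (hη.le.trans l1)
    have hfS : ∑ x ∈ I' ×ˢ K', f x ≤ 2 * ∑ k ∈ J, e i k + 2 * (p i * T) := by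
      have l0 : ∑ x ∈ I' ×ˢ K', f x ≤ ∑ x ∈ I ×ˢ (J ×ˢ J), f x :=
        Finset.sum_le_sum_of_subset_of_nonneg hsub (fun x hx _ => hf0' x hx)
      have l1 : ∑ x ∈ I ×ˢ (J ×ˢ J), f x =
          (∑ i' ∈ I, p i') * ((∑ k ∈ J, e i k) * ∑ k' ∈ J, q k') +
          p i * (T * ∑ k' ∈ J, q k') + p i * ((∑ k ∈ J, q k) * T) +
          (∑ i' ∈ I, p i') * ((∑ k ∈ J, q k) * ∑ k' ∈ J, e i k') := by
        rw [Finset.sum_product]
        simp only [Finset.sum_product, hf, Finset.sum_add_distrib]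
        congr 1
        · congr 1
          · congr 1
            · rw [Finset.sum_mul]
              refine Finset.sum_congr rfl fun x _ => ?_
              rw [Finset.sum_mul_sum, Finset.mul_sum]
              refine Finset.sum_congr rfl fun y _ => ?_
              rw [Finset.mul_sum]
              refine Finset.sum_congr rfl fun z _ => ?_
              ring
            · rw [hT, Finset.sum_mul, Finset.mul_sum]
              refine Finset.sum_congr rfl fun x _ => ?_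
              rw [Finset.sum_mul_sum, Finset.mul_sum]
              refine Finset.sum_congr rfl fun y _ => ?_
              rw [Finset.mul_sum]
              refine Finset.sum_congr rfl fun z _ => ?_
              ring
          · rw [hT, Finset.mul_sum, Finset.mul_sum]
            refine Finset.sum_congr rfl fun x _ => ?_
            rw [Finset.sum_mul_sum, Finset.mul_sum]
            refine Finset.sum_congr rfl fun y _ => ?_
            rw [Finset.mul_sum]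
            refine Finset.sum_congr rfl fun z _ => ?_
            ring
        · rw [Finset.sum_mul]
          refine Finset.sum_congr rfl fun x _ => ?_
          rw [Finset.sum_mul_sum, Finset.mul_sum]
          refine Finset.sum_congr rfl fun y _ => ?_
          rw [Finset.mul_sum]
          refine Finset.sum_congr rfl fun z _ => ?_
          ring
      have hei : 0 ≤ ∑ k ∈ J, e i k := Finset.sum_nonneg fun k hk => he0 i hi k hk
      have m1 : (∑ i' ∈ I, p i') * ((∑ k ∈ J, e i k) * ∑ k' ∈ J, q k') ≤ ∑ k ∈ J, e i k := by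
        have := mul_le_mul hP1 (mul_le_mul_of_nonneg_left hQ1 hei) (mul_nonneg hei hQ0)
          zero_le_one
        linarith
      have m2 : p i * (T * ∑ k' ∈ J, q k') ≤ p i * T := by
        have := mul_le_mul_of_nonneg_left (mul_le_mul_of_nonneg_left hQ1 hT0) (hp0 i)
        linarith
      have m3 : p i * ((∑ k ∈ J, q k) * T) ≤ p i * T := by
        have := mul_le_mul_of_nonneg_left (mul_le_mul_of_nonneg_right hQ1 hT0) (hp0 i)
        linarith
      have m4 : (∑ i' ∈ I, p i') * ((∑ k ∈ J, q k) * ∑ k' ∈ J, e i k') ≤ ∑ k ∈ J, e i k := by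
        have := mul_le_mul hP1 (mul_le_mul_of_nonneg_right hQ1 hei) (mul_nonneg hQ0 hei)
          zero_le_one
        linarith
      rw [l1] at l0
      linarith
    obtain ⟨x, hx, hwx, hfx⟩ := exists_good (I' ×ˢ K') w f (η ^ 3)
      (2 * ∑ k ∈ J, e i k + 2 * (p i * T)) (by positivity) hw0 hf0 hwS hfS
    obtain ⟨i', k, k'⟩ := x
    simp only [Finset.mem_product, hI', hK', Finset.mem_filter] at hx
    obtain ⟨⟨hi', has⟩, ⟨hk, hk'⟩, hbt⟩ := hx
    refine ⟨(s i - s i') * (t k - t k'), ?_, ?_, ?_⟩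
    · rw [abs_mul, abs_sub_comm (s i), abs_sub_comm (t k)]
      exact mul_le_mul has hbt hb.le (abs_nonneg _)
    · rw [abs_mul]
      exact mul_le_mul (hws i hi i' hi') (hwt k hk k' hk') (abs_nonneg _)
        ((abs_nonneg _).trans (hws i hi i' hi'))
    · intro ψ hψ
      have hal := alg p q hp0 hq0 R R2 s t e (i := i) (i' := i') (k := k) (k' := k')
        (hmain i hi k hk) (hmain i' hi' k hk) (hmain i' hi' k' hk') (hmain i hi k' hk') hψ
      set D := |R i ψ - R i (fun x => ψ (x + (s i - s i') * (t k - t k')))| with hD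
      have hη3 : 0 < η ^ 3 := by positivity
      rw [le_div_iff₀ hη3]
      simp only [hw, hf] at hwx hfx
      have : (p i' * q k * q k') * (D * η ^ 3) ≤
          (p i' * q k * q k') * (2 * ∑ k ∈ J, e i k + 2 * (p i * T)) := by
        calc (p i' * q k * q k') * (D * η ^ 3) = (p i' * q k * q k' * D) * η ^ 3 := by ring
          _ ≤ (p i' * q k' * e i k + p i * q k' * e i' k + p i * q k * e i' k' +
                p i' * q k * e i k') * η ^ 3 := mul_le_mul_of_nonneg_right hal hη3.le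
          _ ≤ _ := hfx
      exact le_of_mul_le_mul_left this hwx
  choose! θ hθ1 hθ2 hθ3 using hchoice
  have hab : 0 < a * b := mul_pos ha hb
  refine ⟨fun i => B / (a * b) * ((2 * ∑ k ∈ J, e i k + 2 * (p i * T)) / η ^ 3) +
    L * (ws * wt) * p i, ?_, ?_, ?_⟩
  · intro i hi
    have hei : 0 ≤ ∑ k ∈ J, e i k := Finset.sum_nonneg fun k hk => he0 i hi k hk
    have hw' : 0 ≤ ws * wt := le_trans (abs_nonneg _) (hθ2 i hi)
    have := hp0 i
    positivity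
  · rw [Finset.sum_add_distrib, ← Finset.mul_sum, ← Finset.mul_sum, ← Finset.sum_div,
      Finset.sum_add_distrib, ← Finset.mul_sum, ← Finset.mul_sum, ← Finset.sum_mul]
    have hw' : I.Nonempty → 0 ≤ ws * wt := fun ⟨i, hi⟩ => le_trans (abs_nonneg _) (hθ2 i hi)
    have m1 : (∑ i ∈ I, p i) * T ≤ T := by
      have := mul_le_mul_of_nonneg_right hP1 hT0
      linarith
    have hηp : 0 < η ^ 3 := by positivity
    have m2 : (2 * ∑ i ∈ I, ∑ k ∈ J, e i k + 2 * ((∑ i ∈ I, p i) * T)) / η ^ 3 ≤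
        (4 / η ^ 3) * (ε1 + ε2 + L * κ0 + 2 * P.real bad) := by
      rw [div_mul_eq_mul_div]
      refine div_le_div_of_nonneg_right ?_ hηp.le
      rw [← hT]
      linarith
    have m3 : B / (a * b) * ((2 * ∑ i ∈ I, ∑ k ∈ J, e i k + 2 * ((∑ i ∈ I, p i) * T)) / η ^ 3) ≤
        B / (a * b) * ((4 / η ^ 3) * (ε1 + ε2 + L * κ0 + 2 * P.real bad)) :=
      mul_le_mul_of_nonneg_left m2 (by positivity)
    have hIne : I.Nonempty := by
      by_contra hcon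
      rw [Finset.not_nonempty_iff_eq_empty] at hcon
      have := hns 0
      rw [hcon] at this
      simp at this
      linarith
    have m4 : (L : ℝ) * (ws * wt) * ∑ i ∈ I, p i ≤ L * (ws * wt) := by
      have := mul_le_mul_of_nonneg_left hP1 (mul_nonneg L.2 (hw' hIne))
      simpa using this
    have : B / (a * b) * (4 / η ^ 3) * (ε1 + ε2 + L * κ0 + 2 * P.real bad) =
      B / (a * b) * ((4 / η ^ 3) * (ε1 + ε2 + L * κ0 + 2 * P.real bad)) := by ring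
    rw [this]
    linarith
  · intro i hi u hu ψ hψ
    have hθne : θ i ≠ 0 := by
      intro h0
      have := hθ1 i hi
      rw [h0, abs_zero] at this
      linarith
    have hei : 0 ≤ ∑ k ∈ J, e i k := Finset.sum_nonneg fun k hk => he0 i hi k hk
    have hδ : 0 ≤ (2 * ∑ k ∈ J, e i k + 2 * (p i * T)) / η ^ 3 := by
      have := hp0 i
      positivity
    have hit := iterate (L := L) (R i) (θ i) _ (p i) hδ (hp0 i) hθne (hθ3 i hi)
      (fun ψ hψ v => lip_R P hψ hr1 _ v) u hψ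
    rw [abs_sub_comm]
    refine hit.trans ?_
    have hpos : 0 < |θ i| := abs_pos.mpr hθne
    have m1 : |u| / |θ i| ≤ B / (a * b) :=
      div_le_div₀ hB hu hab (hθ1 i hi)
    have m2 := mul_le_mul_of_nonneg_right m1 hδ
    have m3 : (L : ℝ) * |θ i| * p i ≤ L * (ws * wt) * p i :=
      mul_le_mul_of_nonneg_right (mul_le_mul_of_nonneg_left (hθ2 i hi) L.2) (hp0 i)
    linarith

end Measure

end Crest.Agent.R014.Heis_111
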