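import Mathlib

/-!
# Row 14, N1: from Riesz means to L-series (helper550)

Abstract setting (log scale): `u i = log N(a_i) ≥ 0`, `|c i| ≤ 1`,
`A t = ∑_i c_i (t - u_i)_+^r` (Riesz mean of order `r`).
If `|A t - M e^t| ≤ Q e^{(1-δ)t}` for all `t ≥ 0` and `#{u_i ≤ t} ≤ B e^t (1+t)^m`, then for
`0 < s ≤ 1`: `|∑ c_i e^{-(1+s)u_i} - (M/r!)/s| ≤ 2^{r+1}(1/δ + 3B + 2)(1 + (log Q)/δ)^{m+r+1}`.
-/

set_option autoImplicit false

noncomputable section

namespace Crest.Agent.R014.Ic1_550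

open MeasureTheory Set Filter Topology Real

/-- `(t-u)_+^r` with the convention `0^0 = 1` -/
def pw (r : ℕ) (u t : ℝ) : ℝ := if u ≤ t then (t - u) ^ r else 0

theorem pw_nonneg (r : ℕ) (u t : ℝ) : 0 ≤ pw r u t := by
  unfold pw; split_ifs with h
  · exact pow_nonneg (by linarith) _
  · exact le_rfl

theorem pw_le {r : ℕ} {u t : ℝ} (hu : 0 ≤ u) (ht : 0 ≤ t) : pw r u t ≤ t ^ r := by
  unfold pw; split_ifs with h
  · exact pow_le_pow_left₀ (by linarith) (by linarith) _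
  · positivity

theorem measurable_pw (r : ℕ) (u : ℝ) : Measurable (pw r u) := by
  unfold pw
  exact Measurable.ite measurableSet_Ici (by fun_prop) measurable_const

/-- `∫_0^∞ (t-u)_+^r e^{-zt} dt = e^{-zu} r!/z^{r+1}` -/
theorem integral_pw (r : ℕ) {u z : ℝ} (hu : 0 ≤ u) (hz : 0 < z) :
    ∫ t in Ioi (0:ℝ), pw r u t * exp (-(z * t)) = exp (-(z * u)) * (r.factorial / z ^ (r + 1)) := by
  have h1 : ∫ t in Ioi (0:ℝ), pw r u t * exp (-(z * t))
      = ∫ t, pw r u t * exp (-(z * t)) := by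
    rw [← integral_Ici_eq_integral_Ioi]
    refine setIntegral_eq_integral_of_forall_compl_eq_zero fun t ht => ?_
    simp only [mem_Ici, not_le] at ht
    simp [pw, not_le.mpr (ht.trans_le hu)]
  have h2 : ∫ t, pw r u t * exp (-(z * t)) = ∫ t, pw r u (t + u) * exp (-(z * (t + u))) :=
    (integral_add_right_eq_self (fun t => pw r u t * exp (-(z * t))) u).symm
  have h3 : ∀ t : ℝ, pw r u (t + u) * exp (-(z * (t + u)))
      = exp (-(z * u)) * (pw r 0 t * exp (-(z * t))) := by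
    intro t
    rw [show -(z * (t + u)) = -(z * u) + -(z * t) by ring, exp_add]
    simp only [pw, le_add_iff_nonneg_left, add_sub_cancel_right, sub_zero]
    split_ifs
    · ring
    · ring
  have h6 : ∫ t, pw r 0 t * exp (-(z * t)) = ∫ t in Ioi (0:ℝ), pw r 0 t * exp (-(z * t)) := by
    symm
    rw [← integral_Ici_eq_integral_Ioi]
    refine setIntegral_eq_integral_of_forall_compl_eq_zero fun t ht => ?_
    simp only [mem_Ici, not_le] at ht
    simp [pw, not_le.mpr ht]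
  rw [h1, h2]
  simp_rw [h3]
  rw [integral_const_mul, h6]
  congr 1
  have h4 := Real.integral_rpow_mul_exp_neg_mul_Ioi (a := (r:ℝ) + 1) (r := z) (by positivity) hz
  simp only [add_sub_cancel_right] at h4
  rw [Real.Gamma_nat_eq_factorial] at h4
  have h5 : ∫ t in Ioi (0:ℝ), pw r 0 t * exp (-(z * t))
      = ∫ t in Ioi (0:ℝ), t ^ (r:ℝ) * exp (-(z * t)) := by
    refine setIntegral_congr_fun measurableSet_Ioi fun t ht => ?_
    simp only [mem_Ioi] at ht
    simp only [pw, if_pos ht.le, sub_zero, rpow_natCast]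
  rw [h5, h4, one_div, inv_rpow hz.le, ← rpow_natCast z (r+1)]
  push_cast
  rw [div_eq_mul_inv, mul_comm]

theorem integrableOn_pw (r : ℕ) {u z : ℝ} (hu : 0 ≤ u) (hz : 0 < z) :
    IntegrableOn (fun t => pw r u t * exp (-(z * t))) (Ioi 0) := by
  by_contra h
  have h1 := integral_pw r hu hz
  rw [integral_undef h] at h1
  have : 0 < exp (-(z * u)) * (r.factorial / z ^ (r + 1)) := by positivity
  linarith

section main

variable {ι : Type*} (u : ι → ℝ) (c : ι → ℂ) (r : ℕ)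

/-- the Riesz mean of order `r` in log scale -/
def A (t : ℝ) : ℂ := ∑' i, c i * (pw r (u i) t : ℂ)

/-- number of `i` with `u i ≤ t` -/
def cnt (t : ℝ) : ℕ := Nat.card {i // u i ≤ t}

variable {u c r}

theorem A_support (hfin : ∀ t, {i | u i ≤ t}.Finite) (t : ℝ) :
    ∀ i ∉ (hfin t).toFinset, c i * (pw r (u i) t : ℂ) = 0 := by
  intro i hi
  rw [Finite.mem_toFinset] at hi
  have hi' : ¬ (u i ≤ t) := hi
  simp [pw, hi']

theorem A_bound (hu : ∀ i, 0 ≤ u i) (hc : ∀ i, ‖c i‖ ≤ 1)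
    (hfin : ∀ t, {i | u i ≤ t}.Finite) {t : ℝ} (ht : 0 ≤ t) :
    ‖A u c r t‖ ≤ cnt u t * t ^ r := by
  unfold A
  rw [tsum_eq_sum (A_support hfin t)]
  have h1 : ‖∑ i ∈ (hfin t).toFinset, c i * (pw r (u i) t : ℂ)‖
      ≤ ∑ i ∈ (hfin t).toFinset, t ^ r := by
    refine (norm_sum_le _ _).trans (Finset.sum_le_sum fun i _ => ?_)
    rw [norm_mul, Complex.norm_real, Real.norm_of_nonneg (pw_nonneg _ _ _)]
    calc ‖c i‖ * pw r (u i) t ≤ 1 * t ^ r := by
          gcongr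
          · exact pw_nonneg _ _ _
          · exact hc i
          · exact pw_le (hu i) ht
      _ = t ^ r := one_mul _
  refine h1.trans (le_of_eq ?_)
  rw [Finset.sum_const, nsmul_eq_mul]
  congr 2
  unfold cnt
  rw [← Set.ncard_eq_toFinset_card _ (hfin t)]
  rfl

theorem measurable_A [Countable ι] (hfin : ∀ t, {i | u i ≤ t}.Finite) :
    Measurable (A u c r) := by
  have h : Tendsto (fun (s : Finset ι) t => ∑ i ∈ s, c i * (pw r (u i) t : ℂ)) atTop
      (𝓝 (A u c r)) := by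
    rw [tendsto_pi_nhds]
    intro t
    have h : HasSum (fun i => c i * (pw r (u i) t : ℂ))
        (∑ i ∈ (hfin t).toFinset, c i * (pw r (u i) t : ℂ)) :=
      hasSum_sum_of_ne_finset_zero (A_support (c := c) (r := r) hfin t)
    unfold A
    rw [h.tsum_eq]
    exact h
  refine measurable_of_tendsto_metrizable' atTop (fun s => ?_) h
  refine Finset.measurable_sum _ fun i _ => ?_
  exact (Complex.measurable_ofReal.comp (measurable_pw r (u i))).const_mul (c i)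

theorem laplace [Countable ι] (hu : ∀ i, 0 ≤ u i) (hc : ∀ i, ‖c i‖ ≤ 1) {z : ℝ} (hz : 0 < z)
    (hs : Summable fun i => exp (-(z * u i))) :
    ∫ t in Ioi (0:ℝ), A u c r t * (exp (-(z * t)) : ℝ)
      = (∑' i, c i * (exp (-(z * u i)) : ℝ)) * ((r.factorial / z ^ (r + 1) : ℝ) : ℂ) := by
  set F : ι → ℝ → ℂ := fun i t => c i * ((pw r (u i) t * exp (-(z * t)) : ℝ) : ℂ) with hF
  have hint : ∀ i, Integrable (F i) (volume.restrict (Ioi 0)) := fun i =>
    ((integrableOn_pw r (hu i) hz).ofReal).const_mul (c i)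
  have hnorm : ∀ i t, ‖F i t‖ = ‖c i‖ * (pw r (u i) t * exp (-(z * t))) := by
    intro i t
    rw [hF]
    simp only [norm_mul, Complex.norm_real]
    rw [Real.norm_of_nonneg (pw_nonneg _ _ _), Real.norm_of_nonneg (exp_pos _).le]
  have hinorm : ∀ i, ∫ t in Ioi (0:ℝ), ‖F i t‖
      = ‖c i‖ * (exp (-(z * u i)) * (r.factorial / z ^ (r + 1))) := by
    intro i
    simp_rw [hnorm]
    rw [integral_const_mul, integral_pw r (hu i) hz]
  have hsum : Summable fun i => ∫ t in Ioi (0:ℝ), ‖F i t‖ := by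
    simp_rw [hinorm]
    refine Summable.of_nonneg_of_le (fun i => by positivity) (fun i => ?_)
      (hs.mul_right ((r.factorial : ℝ) / z ^ (r + 1)))
    calc ‖c i‖ * (exp (-(z * u i)) * (r.factorial / z ^ (r + 1)))
        ≤ 1 * (exp (-(z * u i)) * (r.factorial / z ^ (r + 1))) := by
          gcongr; exact hc i
      _ = _ := by ring
  have hA : ∀ t, ∑' i, F i t = A u c r t * (exp (-(z * t)) : ℝ) := by
    intro t
    unfold A
    rw [← tsum_mul_right]
    refine tsum_congr fun i => ?_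
    rw [hF]; push_cast; ring
  have h1 := hasSum_integral_of_summable_integral_norm hint hsum
  have h2 := h1.tsum_eq
  simp_rw [hA] at h2
  rw [← h2, ← tsum_mul_right]
  refine tsum_congr fun i => ?_
  rw [hF]
  simp only
  rw [integral_const_mul, integral_complex_ofReal, integral_pw r (hu i) hz]
  push_cast; ring

end main

/-- the hypotheses: Riesz mean asymptotics with error `Q e^{(1-δ)t}` and a trivial bound for the
counting function -/
structure Dat {ι : Type*} (u : ι → ℝ) (c : ι → ℂ) (r : ℕ) (M : ℂ) (Q δ B : ℝ) (m : ℕ) : Prop where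
  hu : ∀ i, 0 ≤ u i
  hc : ∀ i, ‖c i‖ ≤ 1
  fin : ∀ t, {i | u i ≤ t}.Finite
  sum : ∀ z, 1 < z → Summable fun i => exp (-(z * u i))
  cnt_le : ∀ t, 0 ≤ t → (cnt u t : ℝ) ≤ B * (exp t * (1 + t) ^ m)
  riesz : ∀ t, 0 ≤ t → ‖A u c r t - M * (exp t : ℝ)‖ ≤ Q * exp ((1 - δ) * t)
  Q_ge : 1 ≤ Q
  δ_pos : 0 < δ
  B_nonneg : 0 ≤ B

namespace Dat

variable {ι : Type*} {u : ι → ℝ} {c : ι → ℂ} {r : ℕ} {M : ℂ} {Q δ B : ℝ} {m : ℕ}

/-- `T0 = log Q / δ` -/
def T0 (Q δ : ℝ) : ℝ := log Q / δ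

/-- the constant `K` -/
def K (Q δ B : ℝ) (m r : ℕ) : ℝ := 2 * (B * (1 + T0 Q δ) ^ (m + r)) + 1

theorem T0_nonneg (h : Dat u c r M Q δ B m) : 0 ≤ T0 Q δ :=
  div_nonneg (log_nonneg h.Q_ge) h.δ_pos.le

theorem K_ge (h : Dat u c r M Q δ B m) : 1 ≤ K Q δ B m r := by
  unfold K
  have h1 := h.T0_nonneg
  have h2 := h.B_nonneg
  have : 0 ≤ B * (1 + T0 Q δ) ^ (m + r) := by positivity
  linarith

theorem Q_eq (h : Dat u c r M Q δ B m) : Q = exp (δ * T0 Q δ) := by
  have h1 := h.δ_pos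
  have h2 := h.Q_ge
  unfold T0
  rw [mul_div_cancel₀ _ h1.ne', exp_log (by linarith)]

theorem A_le (h : Dat u c r M Q δ B m) {t : ℝ} (ht : 0 ≤ t) (ht' : t ≤ T0 Q δ) :
    ‖A u c r t‖ ≤ exp t * (B * (1 + T0 Q δ) ^ (m + r)) := by
  have h1 := A_bound (r := r) h.hu h.hc h.fin ht
  have h2 := h.cnt_le t ht
  have hB := h.B_nonneg
  have h0 := h.T0_nonneg
  have h3 : 0 ≤ B * (exp t * (1 + T0 Q δ) ^ m) := by positivity
  calc ‖A u c r t‖ ≤ cnt u t * t ^ r := h1
    _ ≤ (B * (exp t * (1 + t) ^ m)) * t ^ r := by gcongr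
    _ ≤ (B * (exp t * (1 + T0 Q δ) ^ m)) * (1 + T0 Q δ) ^ r := by
        gcongr
        linarith
    _ = exp t * (B * (1 + T0 Q δ) ^ (m + r)) := by ring

/-- the bound for the leading coefficient -/
theorem M_le (h : Dat u c r M Q δ B m) : ‖M‖ ≤ B * (1 + T0 Q δ) ^ (m + r) + 1 := by
  have h0 := h.T0_nonneg
  have h1 := h.A_le h0 le_rfl
  have h2 := h.riesz _ h0
  have h3 : Q * exp ((1 - δ) * T0 Q δ) = exp (T0 Q δ) := by
    have h4 := h.Q_eq
    calc Q * exp ((1 - δ) * T0 Q δ) = exp (δ * T0 Q δ) * exp ((1 - δ) * T0 Q δ) := by rw [← h4]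
      _ = exp (T0 Q δ) := by rw [← exp_add]; congr 1; ring
  rw [h3] at h2
  have h4 : ‖M * (exp (T0 Q δ) : ℝ)‖ ≤ exp (T0 Q δ) * (B * (1 + T0 Q δ) ^ (m + r)) + exp (T0 Q δ) := by
    have : M * (exp (T0 Q δ) : ℝ) = A u c r (T0 Q δ) - (A u c r (T0 Q δ) - M * (exp (T0 Q δ) : ℝ)) := by
      ring
    rw [this]
    exact (norm_sub_le _ _).trans (add_le_add h1 h2)
  rw [norm_mul, Complex.norm_real, Real.norm_of_nonneg (exp_pos _).le] at h4
  have h5 := exp_pos (T0 Q δ)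
  have h6 : exp (T0 Q δ) * (B * (1 + T0 Q δ) ^ (m + r)) + exp (T0 Q δ)
      = (B * (1 + T0 Q δ) ^ (m + r) + 1) * exp (T0 Q δ) := by ring
  rw [h6] at h4
  exact le_of_mul_le_mul_right h4 h5

/-- dominating function of order `0` -/
def g0 (Q δ B : ℝ) (m r : ℕ) (t : ℝ) : ℝ :=
  (Ioc 0 (T0 Q δ)).indicator (fun _ => K Q δ B m r) t
    + exp (δ * T0 Q δ) * (pw 0 (T0 Q δ) t * exp (-(δ * t)))

/-- dominating function of order `1` -/
def g1 (Q δ B : ℝ) (m r : ℕ) (t : ℝ) : ℝ :=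
  (Ioc 0 (T0 Q δ)).indicator (fun _ => K Q δ B m r * T0 Q δ) t
    + exp (δ * T0 Q δ) * (pw 1 (T0 Q δ) t * exp (-(δ * t))
      + T0 Q δ * (pw 0 (T0 Q δ) t * exp (-(δ * t))))

theorem R_le (h : Dat u c r M Q δ B m) {t : ℝ} (ht : 0 < t) :
    ‖A u c r t - M * (exp t : ℝ)‖ * exp (-t) ≤ g0 Q δ B m r t := by
  have h0 := h.T0_nonneg
  unfold g0
  by_cases htT : t ≤ T0 Q δ
  · have h1 : ‖A u c r t - M * (exp t : ℝ)‖ ≤ exp t * K Q δ B m r := by
      refine (norm_sub_le _ _).trans ?_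
      rw [norm_mul, Complex.norm_real, Real.norm_of_nonneg (exp_pos _).le]
      have h2 := h.A_le ht.le htT
      have h3 := mul_le_mul_of_nonneg_right h.M_le (exp_pos t).le
      unfold K
      linarith
    have h2 : ‖A u c r t - M * (exp t : ℝ)‖ * exp (-t) ≤ K Q δ B m r := by
      calc _ ≤ (exp t * K Q δ B m r) * exp (-t) := by gcongr
        _ = (exp t * exp (-t)) * K Q δ B m r := by ring
        _ = K Q δ B m r := by rw [← exp_add]; simp
    have h3 : (Ioc 0 (T0 Q δ)).indicator (fun _ => K Q δ B m r) t = K Q δ B m r :=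
      indicator_of_mem (by exact ⟨ht, htT⟩) _
    rw [h3]
    have h4 : 0 ≤ exp (δ * T0 Q δ) * (pw 0 (T0 Q δ) t * exp (-(δ * t))) := by
      have := pw_nonneg 0 (T0 Q δ) t
      positivity
    linarith
  · have h3 : (Ioc 0 (T0 Q δ)).indicator (fun _ => K Q δ B m r) t = 0 :=
      indicator_of_notMem (by simp [htT]) _
    rw [h3, zero_add]
    have h4 : pw 0 (T0 Q δ) t = 1 := by simp [pw, (not_le.mp htT).le]
    rw [h4, one_mul]
    have h5 := h.riesz t ht.le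
    calc ‖A u c r t - M * (exp t : ℝ)‖ * exp (-t) ≤ (Q * exp ((1 - δ) * t)) * exp (-t) := by gcongr
      _ = Q * exp (-(δ * t)) := by rw [mul_assoc, ← exp_add]; ring_nf
      _ = _ := by rw [← h.Q_eq]

theorem t_mul_g0_le (h : Dat u c r M Q δ B m) {t : ℝ} (ht : 0 < t) :
    t * g0 Q δ B m r t ≤ g1 Q δ B m r t := by
  have h0 := h.T0_nonneg
  unfold g0 g1
  have e1 : t * (Ioc 0 (T0 Q δ)).indicator (fun _ => K Q δ B m r) t
      ≤ (Ioc 0 (T0 Q δ)).indicator (fun _ => K Q δ B m r * T0 Q δ) t := by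
    by_cases htT : t ≤ T0 Q δ
    · rw [indicator_of_mem (by exact ⟨ht, htT⟩), indicator_of_mem (by exact ⟨ht, htT⟩)]
      have := h.K_ge
      rw [mul_comm]
      gcongr
    · rw [indicator_of_notMem (by simp [htT]), indicator_of_notMem (by simp [htT])]
      simp
  have e2 : t * pw 0 (T0 Q δ) t = pw 1 (T0 Q δ) t + T0 Q δ * pw 0 (T0 Q δ) t := by
    unfold pw
    split_ifs
    · ring
    · ring
  calc t * ((Ioc 0 (T0 Q δ)).indicator (fun _ => K Q δ B m r) t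
        + exp (δ * T0 Q δ) * (pw 0 (T0 Q δ) t * exp (-(δ * t))))
      = t * (Ioc 0 (T0 Q δ)).indicator (fun _ => K Q δ B m r) t
        + exp (δ * T0 Q δ) * ((t * pw 0 (T0 Q δ) t) * exp (-(δ * t))) := by ring
    _ ≤ (Ioc 0 (T0 Q δ)).indicator (fun _ => K Q δ B m r * T0 Q δ) t
        + exp (δ * T0 Q δ) * ((t * pw 0 (T0 Q δ) t) * exp (-(δ * t))) := by gcongr
    _ = _ := by rw [e2]; ring

theorem g0_integrable (h : Dat u c r M Q δ B m) : IntegrableOn (g0 Q δ B m r) (Ioi 0) := by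
  unfold g0
  refine Integrable.add ?_ ?_
  · rw [integrable_indicator_iff measurableSet_Ioc]
    exact (integrableOn_const (by
      rw [Measure.restrict_apply measurableSet_Ioc]
      exact ((measure_mono inter_subset_left).trans_lt measure_Ioc_lt_top).ne))
  · exact (integrableOn_pw 0 h.T0_nonneg h.δ_pos).const_mul _

theorem g0_integral (h : Dat u c r M Q δ B m) :
    ∫ t in Ioi (0:ℝ), g0 Q δ B m r t = K Q δ B m r * T0 Q δ + 1 / δ := by
  unfold g0
  rw [integral_add]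
  · rw [integral_const_mul, integral_pw 0 h.T0_nonneg h.δ_pos,
      integral_indicator measurableSet_Ioc, Measure.restrict_restrict measurableSet_Ioc,
      inter_eq_left.mpr Ioc_subset_Ioi_self]
    have h1 := h.T0_nonneg
    have h2 : exp (δ * T0 Q δ) * exp (-(δ * T0 Q δ)) = 1 := by rw [← exp_add]; simp
    rw [setIntegral_const]
    simp only [smul_eq_mul, Nat.factorial_zero, zero_add, pow_one, Nat.cast_one]
    rw [← mul_assoc, h2, measureReal_def, Real.volume_Ioc, ENNReal.toReal_ofReal (by linarith)]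
    ring
  · rw [integrable_indicator_iff measurableSet_Ioc]
    exact (integrableOn_const (by
      rw [Measure.restrict_apply measurableSet_Ioc]
      exact ((measure_mono inter_subset_left).trans_lt measure_Ioc_lt_top).ne))
  · exact (integrableOn_pw 0 h.T0_nonneg h.δ_pos).const_mul _

theorem g1_integrable (h : Dat u c r M Q δ B m) : IntegrableOn (g1 Q δ B m r) (Ioi 0) := by
  unfold g1
  refine Integrable.add ?_ ?_
  · rw [integrable_indicator_iff measurableSet_Ioc]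
    exact (integrableOn_const (by
      rw [Measure.restrict_apply measurableSet_Ioc]
      exact ((measure_mono inter_subset_left).trans_lt measure_Ioc_lt_top).ne))
  · exact ((integrableOn_pw 1 h.T0_nonneg h.δ_pos).add
      ((integrableOn_pw 0 h.T0_nonneg h.δ_pos).const_mul _)).const_mul _

theorem g1_integral (h : Dat u c r M Q δ B m) :
    ∫ t in Ioi (0:ℝ), g1 Q δ B m r t
      = K Q δ B m r * T0 Q δ ^ 2 + 1 / δ ^ 2 + T0 Q δ / δ := by
  unfold g1
  rw [integral_add]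
  · rw [integral_const_mul, integral_add (integrableOn_pw 1 h.T0_nonneg h.δ_pos)
      ((integrableOn_pw 0 h.T0_nonneg h.δ_pos).const_mul _),
      integral_const_mul, integral_pw 0 h.T0_nonneg h.δ_pos, integral_pw 1 h.T0_nonneg h.δ_pos,
      integral_indicator measurableSet_Ioc, Measure.restrict_restrict measurableSet_Ioc,
      inter_eq_left.mpr Ioc_subset_Ioi_self]
    have h1 := h.T0_nonneg
    have h2 : exp (δ * T0 Q δ) * exp (-(δ * T0 Q δ)) = 1 := by rw [← exp_add]; simp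
    rw [setIntegral_const]
    simp only [smul_eq_mul, Nat.factorial_zero, zero_add, pow_one, Nat.cast_one, Nat.factorial_one,
      one_add_one_eq_two]
    rw [measureReal_def, Real.volume_Ioc, ENNReal.toReal_ofReal (by linarith)]
    calc _ = K Q δ B m r * T0 Q δ ^ 2 + (exp (δ * T0 Q δ) * exp (-(δ * T0 Q δ)))
          * (1 / δ ^ 2 + T0 Q δ / δ) := by ring
      _ = _ := by rw [h2]; ring
  · rw [integrable_indicator_iff measurableSet_Ioc]
    exact (integrableOn_const (by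
      rw [Measure.restrict_apply measurableSet_Ioc]
      exact ((measure_mono inter_subset_left).trans_lt measure_Ioc_lt_top).ne))
  · exact ((integrableOn_pw 1 h.T0_nonneg h.δ_pos).add
      ((integrableOn_pw 0 h.T0_nonneg h.δ_pos).const_mul _)).const_mul _

theorem R_bound (h : Dat u c r M Q δ B m) {s t : ℝ} (hs : 0 ≤ s) (ht : 0 < t) :
    ‖(A u c r t - M * (exp t : ℝ)) * (exp (-((1 + s) * t)) : ℝ)‖ ≤ g0 Q δ B m r t := by
  rw [norm_mul, Complex.norm_real, Real.norm_of_nonneg (exp_pos _).le]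
  refine le_trans ?_ (h.R_le ht)
  gcongr
  nlinarith

theorem R_meas [Countable ι] (h : Dat u c r M Q δ B m) (s : ℝ) :
    Measurable fun t => (A u c r t - M * (exp t : ℝ)) * ((exp (-((1 + s) * t)) : ℝ) : ℂ) := by
  have := measurable_A (c := c) (r := r) h.fin
  fun_prop

theorem R_integrable [Countable ι] (h : Dat u c r M Q δ B m) {s : ℝ} (hs : 0 ≤ s) :
    IntegrableOn (fun t => (A u c r t - M * (exp t : ℝ)) * ((exp (-((1 + s) * t)) : ℝ) : ℂ))
      (Ioi 0) := by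
  refine Integrable.mono' h.g0_integrable (h.R_meas s).aestronglyMeasurable ?_
  filter_upwards [ae_restrict_mem measurableSet_Ioi] with t ht
  exact h.R_bound hs ht

/-- the remainder integral -/
def I (u : ι → ℝ) (c : ι → ℂ) (r : ℕ) (M : ℂ) (s : ℝ) : ℂ :=
  ∫ t in Ioi (0:ℝ), (A u c r t - M * (exp t : ℝ)) * ((exp (-((1 + s) * t)) : ℝ) : ℂ)

theorem I_norm (h : Dat u c r M Q δ B m) {s : ℝ} (hs : 0 ≤ s) :
    ‖I u c r M s‖ ≤ K Q δ B m r * T0 Q δ + 1 / δ := by
  rw [← h.g0_integral]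
  refine norm_integral_le_of_norm_le h.g0_integrable ?_
  filter_upwards [ae_restrict_mem measurableSet_Ioi] with t ht
  exact h.R_bound hs ht

theorem exp_sub_le {a b : ℝ} (ha : 0 ≤ a) (hb : 0 ≤ b) : |exp (-a) - exp (-b)| ≤ |a - b| := by
  wlog hab : a ≤ b generalizing a b
  · rw [abs_sub_comm, abs_sub_comm a b]
    exact this hb ha (le_of_not_ge hab)
  have h1 : exp (-b) = exp (-a) * exp (-(b - a)) := by rw [← exp_add]; congr 1; ring
  have h2 : 1 - (b - a) ≤ exp (-(b - a)) := by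
    have := add_one_le_exp (-(b - a)); linarith
  have h3 : exp (-a) ≤ 1 := exp_le_one_iff.mpr (by linarith)
  have h4 : exp (-(b - a)) ≤ 1 := exp_le_one_iff.mpr (by linarith)
  have h5 : exp (-b) ≤ exp (-a) := exp_le_exp.mpr (by linarith)
  rw [abs_of_nonneg (by linarith), abs_of_nonpos (by linarith), h1]
  have h6 := exp_pos (-a)
  nlinarith

theorem I_lip [Countable ι] (h : Dat u c r M Q δ B m) {s s' : ℝ} (hs : 0 ≤ s) (hs' : 0 ≤ s') :
    ‖I u c r M s - I u c r M s'‖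
      ≤ |s - s'| * (K Q δ B m r * T0 Q δ ^ 2 + 1 / δ ^ 2 + T0 Q δ / δ) := by
  unfold I
  rw [← integral_sub (h.R_integrable hs) (h.R_integrable hs'), ← h.g1_integral,
    ← integral_const_mul]
  refine norm_integral_le_of_norm_le (h.g1_integrable.const_mul _) ?_
  filter_upwards [ae_restrict_mem measurableSet_Ioi] with t ht
  have ht' : 0 < t := ht
  have h1 : (A u c r t - M * (exp t : ℝ)) * ((exp (-((1 + s) * t)) : ℝ) : ℂ)
      - (A u c r t - M * (exp t : ℝ)) * ((exp (-((1 + s') * t)) : ℝ) : ℂ)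
      = (A u c r t - M * (exp t : ℝ)) * ((exp (-t) * (exp (-(s * t)) - exp (-(s' * t))) : ℝ) : ℂ) := by
    rw [← mul_sub, ← Complex.ofReal_sub]
    congr 2
    rw [mul_sub, ← exp_add, ← exp_add]
    ring_nf
  rw [h1, norm_mul, Complex.norm_real, Real.norm_eq_abs, abs_mul, abs_of_pos (exp_pos _)]
  have h2 := exp_sub_le (mul_nonneg hs ht'.le) (mul_nonneg hs' ht'.le)
  have h3 : |s * t - s' * t| = |s - s'| * t := by
    rw [← sub_mul, abs_mul, abs_of_pos ht']
  rw [h3] at h2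
  calc ‖A u c r t - M * (exp t : ℝ)‖ * (exp (-t) * |exp (-(s * t)) - exp (-(s' * t))|)
      = (‖A u c r t - M * (exp t : ℝ)‖ * exp (-t)) * |exp (-(s * t)) - exp (-(s' * t))| := by ring
    _ ≤ g0 Q δ B m r t * (|s - s'| * t) := by
        have := h.R_le ht'
        have h5 : 0 ≤ ‖A u c r t - M * (exp t : ℝ)‖ * exp (-t) := by positivity
        gcongr
        linarith
    _ = |s - s'| * (t * g0 Q δ B m r t) := by ring
    _ ≤ |s - s'| * g1 Q δ B m r t := by
        have := h.t_mul_g0_le ht'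
        gcongr

/-- the regular part of the Dirichlet series at `1+s` -/
def f (u : ι → ℝ) (c : ι → ℂ) (r : ℕ) (M : ℂ) (s : ℝ) : ℂ :=
  (((1 + s) ^ (r + 1) / r.factorial : ℝ) : ℂ) * I u c r M s

/-- **decomposition** `L(1+s) = f(s) + M (1+s)^{r+1} / (r! s)` -/
theorem L_eq [Countable ι] (h : Dat u c r M Q δ B m) {s : ℝ} (hs : 0 < s) :
    ∑' i, c i * (exp (-((1 + s) * u i)) : ℝ)
      = f u c r M s + M * (((1 + s) ^ (r + 1) / (r.factorial * s) : ℝ) : ℂ) := by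
  have h1 := laplace (r := r) h.hu h.hc (z := 1 + s) (by linarith) (h.sum _ (by linarith))
  have h2 : ∫ t in Ioi (0:ℝ), M * (exp t : ℝ) * ((exp (-((1 + s) * t)) : ℝ) : ℂ) = M * (1 / s : ℝ) := by
    have h3 : ∀ t : ℝ, M * (exp t : ℝ) * ((exp (-((1 + s) * t)) : ℝ) : ℂ)
        = M * ((exp (-s * t) : ℝ) : ℂ) := by
      intro t
      rw [mul_assoc, ← Complex.ofReal_mul, ← exp_add]
      congr 3; ring
    simp_rw [h3]
    rw [integral_const_mul, integral_complex_ofReal, integral_exp_mul_Ioi (by linarith)]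
    simp
  have hMint : IntegrableOn (fun t => M * (exp t : ℝ) * ((exp (-((1 + s) * t)) : ℝ) : ℂ))
      (Ioi 0) := by
    have h3 : ∀ t : ℝ, M * (exp t : ℝ) * ((exp (-((1 + s) * t)) : ℝ) : ℂ)
        = M * ((exp (-s * t) : ℝ) : ℂ) := by
      intro t
      rw [mul_assoc, ← Complex.ofReal_mul, ← exp_add]
      congr 3; ring
    simp_rw [h3]
    exact ((integrableOn_exp_mul_Ioi (by linarith) 0).ofReal).const_mul M
  have h4 : I u c r M s + M * (1 / s : ℝ)
      = ∫ t in Ioi (0:ℝ), A u c r t * ((exp (-((1 + s) * t)) : ℝ) : ℂ) := by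
    rw [← h2]
    unfold I
    rw [← integral_add (h.R_integrable hs.le) hMint]
    congr 1
    ext t
    ring
  rw [h1] at h4
  have h5 : (((1 + s) ^ (r + 1) / r.factorial : ℝ) : ℂ)
      * ((r.factorial / (1 + s) ^ (r + 1) : ℝ) : ℂ) = 1 := by
    rw [← Complex.ofReal_mul]
    have : (1 + s) ^ (r + 1) ≠ 0 := by positivity
    have h6 : (r.factorial : ℝ) ≠ 0 := by positivity
    rw [div_mul_div_comm, mul_comm, div_self (by positivity)]
    simp
  unfold f
  calc ∑' i, c i * (exp (-((1 + s) * u i)) : ℝ)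
      = (((1 + s) ^ (r + 1) / r.factorial : ℝ) : ℂ)
          * ((∑' i, c i * (exp (-((1 + s) * u i)) : ℝ))
            * ((r.factorial / (1 + s) ^ (r + 1) : ℝ) : ℂ)) := by
        rw [mul_comm (∑' i, c i * (exp (-((1 + s) * u i)) : ℝ) : ℂ), ← mul_assoc, h5, one_mul]
    _ = (((1 + s) ^ (r + 1) / r.factorial : ℝ) : ℂ) * (I u c r M s + M * (1 / s : ℝ)) := by rw [h4]
    _ = _ := by
        push_cast
        have : (s : ℂ) ≠ 0 := by exact_mod_cast hs.ne'
        field_simp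

theorem f_norm (h : Dat u c r M Q δ B m) {s : ℝ} (hs : 0 ≤ s) (hs1 : s ≤ 1) :
    ‖f u c r M s‖ ≤ 2 ^ (r + 1) * (K Q δ B m r * T0 Q δ + 1 / δ) := by
  unfold f
  rw [norm_mul, Complex.norm_real, Real.norm_of_nonneg (by positivity)]
  have h1 := h.I_norm hs
  have h2 : (1 + s) ^ (r + 1) / r.factorial ≤ 2 ^ (r + 1) := by
    have : (1:ℝ) ≤ r.factorial := by exact_mod_cast Nat.one_le_iff_ne_zero.mpr (Nat.factorial_ne_zero r)
    rw [div_le_iff₀ (by positivity)]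
    calc (1 + s) ^ (r + 1) ≤ (2:ℝ) ^ (r + 1) := by gcongr; linarith
      _ = 2 ^ (r + 1) * 1 := by ring
      _ ≤ 2 ^ (r + 1) * r.factorial := by gcongr
  gcongr

/-- `|(1+s)^n - (1+s')^n| ≤ n 2^n |s-s'|` -/
theorem pow_lip (n : ℕ) {s s' : ℝ} (hs : 0 ≤ s) (hs1 : s ≤ 1) (hs' : 0 ≤ s') (hs1' : s' ≤ 1) :
    |(1 + s) ^ n - (1 + s') ^ n| ≤ n * 2 ^ n * |s - s'| := by
  induction n with
  | zero => simp
  | succ n ih =>
    have h1 : (1 + s) ^ (n + 1) - (1 + s') ^ (n + 1)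
        = (1 + s) * ((1 + s) ^ n - (1 + s') ^ n) + (s - s') * (1 + s') ^ n := by ring
    rw [h1]
    refine (abs_add_le _ _).trans ?_
    rw [abs_mul, abs_mul, abs_of_nonneg (show 0 ≤ 1 + s by linarith),
      abs_of_nonneg (show 0 ≤ (1 + s') ^ n by positivity)]
    have h2 : (1 + s') ^ n ≤ 2 ^ n := by gcongr; linarith
    have h3 := abs_nonneg (s - s')
    calc (1 + s) * |(1 + s) ^ n - (1 + s') ^ n| + |s - s'| * (1 + s') ^ n
        ≤ 2 * (n * 2 ^ n * |s - s'|) + |s - s'| * 2 ^ n := by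
          gcongr; linarith
      _ ≤ _ := by
          push_cast
          have : (0:ℝ) ≤ 2 ^ n * |s - s'| := by positivity
          ring_nf
          nlinarith

theorem f_lip [Countable ι] (h : Dat u c r M Q δ B m) {s s' : ℝ} (hs : 0 ≤ s) (hs1 : s ≤ 1)
    (hs' : 0 ≤ s') (hs1' : s' ≤ 1) :
    ‖f u c r M s - f u c r M s'‖
      ≤ |s - s'| * (2 ^ (r + 1) * ((r + 1) * (K Q δ B m r * T0 Q δ + 1 / δ)
        + (K Q δ B m r * T0 Q δ ^ 2 + 1 / δ ^ 2 + T0 Q δ / δ))) := by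
  have hf : (1:ℝ) ≤ r.factorial := by
    exact_mod_cast Nat.one_le_iff_ne_zero.mpr (Nat.factorial_ne_zero r)
  have h1 : f u c r M s - f u c r M s'
      = ((((1 + s) ^ (r + 1) - (1 + s') ^ (r + 1)) / r.factorial : ℝ) : ℂ) * I u c r M s
        + (((1 + s') ^ (r + 1) / r.factorial : ℝ) : ℂ) * (I u c r M s - I u c r M s') := by
    unfold f; push_cast; ring
  rw [h1]
  refine (norm_add_le _ _).trans ?_
  rw [norm_mul, norm_mul, Complex.norm_real, Complex.norm_real, Real.norm_eq_abs,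
    Real.norm_of_nonneg (show 0 ≤ (1 + s') ^ (r + 1) / (r.factorial : ℝ) by positivity), abs_div,
    abs_of_nonneg (show (0:ℝ) ≤ r.factorial by positivity)]
  have h2 := pow_lip (r + 1) hs hs1 hs' hs1'
  have h3 := h.I_norm hs
  have h4 := h.I_lip hs hs'
  have h5 : (1 + s') ^ (r + 1) / r.factorial ≤ 2 ^ (r + 1) := by
    rw [div_le_iff₀ (by positivity)]
    calc (1 + s') ^ (r + 1) ≤ (2:ℝ) ^ (r + 1) := by gcongr; linarith
      _ = 2 ^ (r + 1) * 1 := by ring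
      _ ≤ 2 ^ (r + 1) * r.factorial := by gcongr
  have h6 : |(1 + s) ^ (r + 1) - (1 + s') ^ (r + 1)| / r.factorial
      ≤ (r + 1) * 2 ^ (r + 1) * |s - s'| := by
    refine (div_le_self (abs_nonneg _) hf).trans ?_
    push_cast at h2
    exact h2
  have h7 : 0 ≤ K Q δ B m r * T0 Q δ + 1 / δ := (norm_nonneg _).trans h3
  calc |(1 + s) ^ (r + 1) - (1 + s') ^ (r + 1)| / r.factorial * ‖I u c r M s‖
      + (1 + s') ^ (r + 1) / r.factorial * ‖I u c r M s - I u c r M s'‖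
      ≤ ((r + 1) * 2 ^ (r + 1) * |s - s'|) * (K Q δ B m r * T0 Q δ + 1 / δ)
        + 2 ^ (r + 1) * (|s - s'| * (K Q δ B m r * T0 Q δ ^ 2 + 1 / δ ^ 2 + T0 Q δ / δ)) := by
        gcongr
    _ = _ := by ring

/-- the explicit constant of the final bounds -/
def cC (r m : ℕ) (δ B : ℝ) : ℝ :=
  2 ^ (r + 1) * ((r + 2) * ((2 * B + 1 + 1 / δ + 1 / δ ^ 2) * (1 + 1 / δ) ^ (m + r + 2)))

/-- the logarithmic factor -/
def lg (Q : ℝ) (m r : ℕ) : ℝ := (1 + log Q) ^ (m + r + 2)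

theorem bounds (h : Dat u c r M Q δ B m) :
    K Q δ B m r * T0 Q δ + 1 / δ
        ≤ (2 * B + 1 + 1 / δ + 1 / δ ^ 2) * (1 + 1 / δ) ^ (m + r + 2) * lg Q m r ∧
    K Q δ B m r * T0 Q δ ^ 2 + 1 / δ ^ 2 + T0 Q δ / δ
        ≤ (2 * B + 1 + 1 / δ + 1 / δ ^ 2) * (1 + 1 / δ) ^ (m + r + 2) * lg Q m r ∧
    ‖M‖ ≤ (2 * B + 1 + 1 / δ + 1 / δ ^ 2) * (1 + 1 / δ) ^ (m + r + 2) * lg Q m r := by
  have hT := h.T0_nonneg
  have hδ := h.δ_pos
  have hB := h.B_nonneg
  have hlog : 0 ≤ log Q := log_nonneg h.Q_ge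
  have hM := h.M_le
  have h1 : 1 + T0 Q δ ≤ (1 + 1 / δ) * (1 + log Q) := by
    unfold T0
    have : 0 ≤ 1 / δ := by positivity
    have e : log Q / δ = 1 / δ * log Q := by ring
    rw [e]
    nlinarith
  have hP : (1 + T0 Q δ) ^ (m + r + 2) ≤ (1 + 1 / δ) ^ (m + r + 2) * lg Q m r := by
    unfold lg
    rw [← mul_pow]
    gcongr
  set P := (1 + T0 Q δ) ^ (m + r + 2) with hPdef
  set T := T0 Q δ with hTdef
  have hP0 : (1 + T) ^ (m + r) ≤ P := by
    rw [hPdef]; exact pow_le_pow_right₀ (by linarith) (by omega)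
  have hP1 : 1 ≤ (1 + T) ^ (m + r) := one_le_pow₀ (by linarith)
  have hP2 : T ≤ P := by
    calc T ≤ 1 + T := by linarith
      _ = (1 + T) ^ 1 := (pow_one _).symm
      _ ≤ P := by rw [hPdef]; exact pow_le_pow_right₀ (by linarith) (by omega)
  have hP3 : (1 + T) ^ (m + r) * T ^ 2 ≤ P := by
    calc (1 + T) ^ (m + r) * T ^ 2 ≤ (1 + T) ^ (m + r) * (1 + T) ^ 2 := by gcongr; linarith
      _ = P := by rw [hPdef]; ring
  have hP4 : (1 + T) ^ (m + r) * T ≤ P := by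
    calc (1 + T) ^ (m + r) * T ≤ (1 + T) ^ (m + r) * (1 + T) := by gcongr; linarith
      _ = (1 + T) ^ (m + r + 1) := by ring
      _ ≤ P := by rw [hPdef]; exact pow_le_pow_right₀ (by linarith) (by omega)
  have hP5 : T ^ 2 ≤ P := by
    calc T ^ 2 ≤ (1 + T) ^ (m + r) * T ^ 2 := le_mul_of_one_le_left (by positivity) hP1
      _ ≤ P := hP3
  have hPpos : 0 < P := by linarith
  have hd1 : 0 ≤ 1 / δ := by positivity
  have hd2 : 0 ≤ 1 / δ ^ 2 := by positivity
  have main : ∀ x, x ≤ (2 * B + 1 + 1 / δ + 1 / δ ^ 2) * P →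
      x ≤ (2 * B + 1 + 1 / δ + 1 / δ ^ 2) * (1 + 1 / δ) ^ (m + r + 2) * lg Q m r := by
    intro x hx
    refine hx.trans ?_
    rw [mul_assoc]
    gcongr
  have hP1' : 1 ≤ P := hP1.trans hP0
  refine ⟨main _ ?_, main _ ?_, main _ ?_⟩
  · unfold K
    rw [← hTdef]
    have e1 : (2 * (B * (1 + T) ^ (m + r)) + 1) * T + 1 / δ
        = 2 * B * ((1 + T) ^ (m + r) * T) + T + 1 / δ := by ring
    rw [e1]
    have e2 : 2 * B * ((1 + T) ^ (m + r) * T) ≤ 2 * B * P := by gcongr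
    have e3 : 1 / δ ≤ 1 / δ * P := le_mul_of_one_le_right hd1 hP1'
    have e4 : 0 ≤ 1 / δ ^ 2 * P := by positivity
    nlinarith
  · unfold K
    rw [← hTdef]
    have e1 : (2 * (B * (1 + T) ^ (m + r)) + 1) * T ^ 2 + 1 / δ ^ 2 + T / δ
        = 2 * B * ((1 + T) ^ (m + r) * T ^ 2) + T ^ 2 + 1 / δ ^ 2 + 1 / δ * T := by ring
    rw [e1]
    have e2 : 2 * B * ((1 + T) ^ (m + r) * T ^ 2) ≤ 2 * B * P := by gcongr
    have e3 : 1 / δ * T ≤ 1 / δ * P := by gcongr
    have e4 : 1 / δ ^ 2 ≤ 1 / δ ^ 2 * P := le_mul_of_one_le_right hd2 hP1'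
    nlinarith
  · refine hM.trans ?_
    have e2 : B * (1 + T) ^ (m + r) ≤ B * P := by gcongr
    have e3 : 0 ≤ 1 / δ * P := by positivity
    have e4 : 0 ≤ 1 / δ ^ 2 * P := by positivity
    have e5 : 0 ≤ B * P := by positivity
    nlinarith

theorem lg_nonneg (h : Dat u c r M Q δ B m) : 0 ≤ lg Q m r := by
  have hlog : 0 ≤ log Q := log_nonneg h.Q_ge
  unfold lg; positivity

theorem one_le_r2 : (1:ℝ) ≤ 2 ^ (r + 1) * (r + 2) := by
  have h1 : (1:ℝ) ≤ 2 ^ (r + 1) := one_le_pow₀ (by norm_num)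
  have h2 : (1:ℝ) ≤ r + 2 := by
    have : (0:ℝ) ≤ r := by positivity
    linarith
  exact one_le_mul_of_one_le_of_one_le h1 h2

theorem f_norm_le (h : Dat u c r M Q δ B m) {s : ℝ} (hs : 0 ≤ s) (hs1 : s ≤ 1) :
    ‖f u c r M s‖ ≤ cC r m δ B * lg Q m r := by
  have h1 := h.f_norm hs hs1
  obtain ⟨h2, _, _⟩ := h.bounds
  have h0 : 0 ≤ K Q δ B m r * T0 Q δ + 1 / δ := (norm_nonneg _).trans (h.I_norm hs)
  have h4 : (0:ℝ) ≤ r := by positivity
  refine h1.trans ?_
  unfold cC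
  calc 2 ^ (r + 1) * (K Q δ B m r * T0 Q δ + 1 / δ)
      ≤ 2 ^ (r + 1) * ((r + 2) * (K Q δ B m r * T0 Q δ + 1 / δ)) := by
        gcongr
        exact le_mul_of_one_le_left h0 (by linarith)
    _ ≤ 2 ^ (r + 1) * ((r + 2) * ((2 * B + 1 + 1 / δ + 1 / δ ^ 2) * (1 + 1 / δ) ^ (m + r + 2)
          * lg Q m r)) := by gcongr
    _ = _ := by ring

theorem f_lip_le [Countable ι] (h : Dat u c r M Q δ B m) {s s' : ℝ} (hs : 0 ≤ s) (hs1 : s ≤ 1)
    (hs' : 0 ≤ s') (hs1' : s' ≤ 1) :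
    ‖f u c r M s - f u c r M s'‖ ≤ cC r m δ B * lg Q m r * |s - s'| := by
  refine (h.f_lip hs hs1 hs' hs1').trans ?_
  obtain ⟨h2, h3, _⟩ := h.bounds
  have h4 : (0:ℝ) ≤ r := by positivity
  rw [mul_comm]
  refine mul_le_mul_of_nonneg_right ?_ (abs_nonneg _)
  unfold cC
  set Z := (2 * B + 1 + 1 / δ + 1 / δ ^ 2) * (1 + 1 / δ) ^ (m + r + 2) * lg Q m r
  calc 2 ^ (r + 1) * ((r + 1) * (K Q δ B m r * T0 Q δ + 1 / δ)
        + (K Q δ B m r * T0 Q δ ^ 2 + 1 / δ ^ 2 + T0 Q δ / δ))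
      ≤ 2 ^ (r + 1) * ((r + 1) * Z + Z) := by gcongr
    _ = 2 ^ (r + 1) * ((r + 2) * Z) := by ring
    _ = _ := by ring

theorem M_norm_le (h : Dat u c r M Q δ B m) : ‖M‖ ≤ cC r m δ B * lg Q m r := by
  obtain ⟨_, _, h3⟩ := h.bounds
  have h0 := (norm_nonneg _).trans h3
  unfold cC
  calc ‖M‖ ≤ (2 * B + 1 + 1 / δ + 1 / δ ^ 2) * (1 + 1 / δ) ^ (m + r + 2) * lg Q m r := h3
    _ ≤ (2 ^ (r + 1) * (r + 2)) *
        ((2 * B + 1 + 1 / δ + 1 / δ ^ 2) * (1 + 1 / δ) ^ (m + r + 2) * lg Q m r) :=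
        le_mul_of_one_le_left h0 one_le_r2
    _ = _ := by ring

/-- **the final bound** for the Dirichlet series -/
theorem L_sub_le [Countable ι] (h : Dat u c r M Q δ B m) {s : ℝ} (hs : 0 < s) (hs1 : s ≤ 1) :
    ‖∑' i, c i * (exp (-((1 + s) * u i)) : ℝ) - M / (r.factorial * s : ℝ)‖
      ≤ cC r m δ B * lg Q m r := by
  rw [h.L_eq hs]
  have e : f u c r M s + M * (((1 + s) ^ (r + 1) / (r.factorial * s) : ℝ) : ℂ)
        - M / (r.factorial * s : ℝ)
      = f u c r M s + M * (((((1 + s) ^ (r + 1) - 1) / (r.factorial * s)) : ℝ) : ℂ) := by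
    push_cast; ring
  rw [e]
  have h1 := h.f_norm hs.le hs1
  obtain ⟨h2, _, h3⟩ := h.bounds
  have hf : (1:ℝ) ≤ r.factorial := by
    exact_mod_cast Nat.one_le_iff_ne_zero.mpr (Nat.factorial_ne_zero r)
  have h4 := pow_lip (r + 1) hs.le hs1 le_rfl zero_le_one
  simp only [add_zero, one_pow, sub_zero] at h4
  rw [abs_of_pos hs] at h4
  have h5 : |((1 + s) ^ (r + 1) - 1) / (r.factorial * s)| ≤ (r + 1) * 2 ^ (r + 1) := by
    rw [abs_div, abs_of_pos (show 0 < r.factorial * s by positivity), div_le_iff₀ (by positivity)]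
    push_cast at h4
    calc |(1 + s) ^ (r + 1) - 1| ≤ (r + 1) * 2 ^ (r + 1) * s := h4
      _ = (r + 1) * 2 ^ (r + 1) * (1 * s) := by ring
      _ ≤ (r + 1) * 2 ^ (r + 1) * (r.factorial * s) := by gcongr
  refine (norm_add_le _ _).trans ?_
  rw [norm_mul, Complex.norm_real, Real.norm_eq_abs]
  unfold cC
  set Z := (2 * B + 1 + 1 / δ + 1 / δ ^ 2) * (1 + 1 / δ) ^ (m + r + 2) * lg Q m r
  calc ‖f u c r M s‖ + ‖M‖ * |((1 + s) ^ (r + 1) - 1) / (r.factorial * s)|
      ≤ 2 ^ (r + 1) * Z + Z * ((r + 1) * 2 ^ (r + 1)) := by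
        have : ‖f u c r M s‖ ≤ 2 ^ (r + 1) * Z := h1.trans (by gcongr)
        gcongr
        exact (norm_nonneg _).trans h3
    _ = _ := by ring

end Dat

end Crest.Agent.R014.Ic1_550
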