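import Crest.Agent.R014.Ic1_550
import Crest.Agent.R014.Ic2_550
import Crest.Agent.R014.LDef_550

/-!
# Row 14, N1: the Dirichlet series of ideals as an instance of `Ic1_550.Dat` (helper550)
-/

set_option autoImplicit false

open NumberField Ideal Filter Topology

noncomputable section

namespace Crest.Agent.R014.Ic3_550

open Crest.Agent.R014.Ic1_550 Crest.Agent.R014.LDef_550

universe u

variable (E : Type u) [Field E] [NumberField E]

/-- nonzero ideals -/
abbrev Idl := {a : Ideal (𝓞 E) // a ≠ ⊥}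

/-- the logarithm of the norm -/
def uu (a : Idl E) : ℝ := Real.log (absNorm a.1)

/-- the coefficients -/
def cc {q : ℕ} (f : ZMod q → ℂ) (a : Idl E) : ℂ := f (absNorm a.1 : ZMod q)

variable {E}

theorem absNorm_pos (a : Idl E) : 0 < absNorm a.1 :=
  Nat.pos_of_ne_zero (by rw [Ne, absNorm_eq_zero_iff]; exact a.2)

theorem one_le_absNorm (a : Idl E) : (1:ℝ) ≤ absNorm a.1 := by
  exact_mod_cast absNorm_pos a

theorem uu_nonneg (a : Idl E) : 0 ≤ uu E a := Real.log_nonneg (one_le_absNorm a)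

theorem exp_uu (z : ℝ) (a : Idl E) : Real.exp (-(z * uu E a)) = (absNorm a.1 : ℝ) ^ (-z) := by
  have h := one_le_absNorm a
  rw [Real.rpow_def_of_pos (by linarith)]
  unfold uu
  congr 1; ring

theorem uu_le_iff (a : Idl E) (t : ℝ) : uu E a ≤ t ↔ (absNorm a.1 : ℝ) ≤ Real.exp t := by
  have h := one_le_absNorm a
  unfold uu
  rw [Real.log_le_iff_le_exp (by linarith)]

theorem finite_uu (t : ℝ) : {a : Idl E | uu E a ≤ t}.Finite := by
  have h := Ic2_550.finite_norm_le (E := E) (Real.exp t)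
  refine Set.Finite.of_finite_image (f := Subtype.val) (h.subset ?_) Subtype.val_injective.injOn
  rintro _ ⟨a, ha, rfl⟩
  exact ⟨a.2, (uu_le_iff a t).mp ha⟩

theorem cnt_le {t : ℝ} (ht : 0 ≤ t) :
    (cnt (uu E) t : ℝ) ≤ 1 * (Real.exp t * (1 + t) ^ Module.finrank ℚ E) := by
  have h := Ic2_550.card_norm_le_log (E := E) (Real.one_le_exp ht)
  rw [Real.log_exp] at h
  rw [one_mul]
  refine le_trans ?_ h
  unfold cnt
  have h1 : Nat.card {a : Idl E // uu E a ≤ t} = {a : Idl E | uu E a ≤ t}.ncard := rfl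
  rw [h1, ← Set.ncard_image_of_injective _ Subtype.val_injective]
  exact_mod_cast Set.ncard_le_ncard (by
    rintro _ ⟨a, ha, rfl⟩
    exact ⟨a.2, (uu_le_iff a t).mp ha⟩) (Ic2_550.finite_norm_le (E := E) (Real.exp t))

theorem summable_uu {z : ℝ} (hz : 1 < z) : Summable fun a : Idl E => Real.exp (-(z * uu E a)) := by
  simp_rw [exp_uu]
  exact Ic2_550.summable_norm hz

theorem finrank_pos' : (0:ℝ) < Module.finrank ℚ E := by
  exact_mod_cast Module.finrank_pos

/-- the number field instance of `Dat` -/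
theorem dat {q : ℕ} {f : ZMod q → ℂ} (hf : ∀ z, ‖f z‖ ≤ 1) {r : ℕ} {M : ℂ} {Q : ℝ} (hQ : 1 ≤ Q)
    (h : ∀ t, 0 ≤ t → ‖A (uu E) (cc E f) r t - M * (Real.exp t : ℝ)‖
      ≤ Q * Real.exp ((1 - 1 / (Module.finrank ℚ E : ℝ)) * t)) :
    Dat (uu E) (cc E f) r M Q (1 / (Module.finrank ℚ E : ℝ)) 1 (Module.finrank ℚ E) where
  hu := uu_nonneg
  hc := fun a => hf _
  fin := finite_uu
  sum := fun z hz => summable_uu hz
  cnt_le := fun t ht => cnt_le ht
  riesz := h
  Q_ge := hQ
  δ_pos := by have := finrank_pos' (E := E); positivity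
  B_nonneg := zero_le_one

theorem card_fiber {n : ℕ} (hn : 0 < n) :
    Nat.card {a : Idl E // absNorm a.1 = n} = Nat.card {I : Ideal (𝓞 E) // absNorm I = n} := by
  refine Nat.card_eq_of_bijective
    (fun a : {a : Idl E // absNorm a.1 = n} => (⟨a.1.1, a.2⟩ : {I : Ideal (𝓞 E) // absNorm I = n}))
    ⟨?_, ?_⟩
  · intro a b hab
    have := congrArg Subtype.val hab
    exact Subtype.ext (Subtype.ext this)
  · intro I
    have hI : I.1 ≠ ⊥ := by
      intro h
      have := I.2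
      rw [h, absNorm_bot] at this
      omega
    exact ⟨⟨⟨I.1, hI⟩, I.2⟩, rfl⟩

theorem sigmaFiberEquiv_val (p : (Σ n, {a : Idl E // absNorm a.1 = n})) :
    Equiv.sigmaFiberEquiv (fun a : Idl E => absNorm a.1) p = p.2.1 := rfl

/-- from sums over ideals to sums over integers -/
theorem tsum_ideals {F : ℕ → ℂ} (hF0 : F 0 = 0) (hs : Summable fun a : Idl E => F (absNorm a.1)) :
    ∑' a : Idl E, F (absNorm a.1) = ∑' n : ℕ, (rE E n : ℂ) * F n := by
  have h1 := (Equiv.sigmaFiberEquiv (fun a : Idl E => absNorm a.1)).tsum_eq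
      (fun a : Idl E => F (absNorm a.1))
  have hs' := (Equiv.sigmaFiberEquiv (fun a : Idl E => absNorm a.1)).summable_iff.mpr hs
  simp only [Function.comp_def, sigmaFiberEquiv_val] at h1 hs'
  rw [← h1, hs'.tsum_sigma]
  refine tsum_congr fun n => ?_
  have h2 : ∀ a : {a : Idl E // absNorm a.1 = n}, F (absNorm a.1.1) = F n := fun a => by rw [a.2]
  simp_rw [h2]
  rw [tsum_const, nsmul_eq_mul]
  rcases Nat.eq_zero_or_pos n with rfl | hn
  · rw [hF0]; simp
  · congr 2
    unfold rE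
    exact card_fiber hn

theorem tsum_fiber {F : ℕ → ℝ} (hF0 : F 0 = 0) (n : ℕ) :
    ∑' a : {a : Idl E // absNorm a.1 = n}, F (absNorm a.1.1) = (rE E n : ℝ) * F n := by
  have h2 : ∀ a : {a : Idl E // absNorm a.1 = n}, F (absNorm a.1.1) = F n := fun a => by rw [a.2]
  simp_rw [h2]
  rw [tsum_const, nsmul_eq_mul]
  rcases Nat.eq_zero_or_pos n with rfl | hn
  · rw [hF0]; simp
  · congr 2
    unfold rE
    exact card_fiber hn

/-- summability over the integers -/
theorem summable_ints {F : ℕ → ℝ} (hF0 : F 0 = 0) (hs : Summable fun a : Idl E => F (absNorm a.1)) :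
    Summable fun n : ℕ => (rE E n : ℝ) * F n := by
  have hs' := (Equiv.sigmaFiberEquiv (fun a : Idl E => absNorm a.1)).summable_iff.mpr hs
  simp only [Function.comp_def, sigmaFiberEquiv_val] at hs'
  exact hs'.sigma.congr fun n => tsum_fiber hF0 n

theorem summable_zE {s : ℝ} (hs : 0 < s) : Summable fun n : ℕ => (rE E n : ℝ) * (n : ℝ) ^ (-(1 + s)) := by
  refine summable_ints (F := fun n : ℕ => (n : ℝ) ^ (-(1 + s))) ?_
    (Ic2_550.summable_norm (E := E) (z := 1 + s) (by linarith))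
  rw [Nat.cast_zero]
  exact Real.zero_rpow (by linarith)

theorem summable_psi {q : ℕ} {f : ZMod q → ℂ} (hf : ∀ z, ‖f z‖ ≤ 1) {s : ℝ} (hs : 0 < s) :
    Summable fun a : Idl E => f (absNorm a.1 : ZMod q) * (((absNorm a.1 : ℝ) ^ (-(1 + s)) : ℝ) : ℂ) := by
  refine Summable.of_norm_bounded (Ic2_550.summable_norm (E := E) (z := 1 + s) (by linarith)) fun a => ?_
  rw [norm_mul, Complex.norm_real, Real.norm_of_nonneg (by positivity)]
  exact mul_le_of_le_one_left (by positivity) (hf _)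

theorem LEpsi_eq {q : ℕ} (psi : DirichletCharacter ℂ q) {s : ℝ} (hs : 0 < s) :
    ∑' a : Idl E, cc E psi a * (Real.exp (-((1 + s) * uu E a)) : ℝ) = LEpsi E psi s := by
  simp_rw [exp_uu]
  unfold cc LEpsi
  have h := tsum_ideals (E := E)
    (F := fun n : ℕ => psi (n : ZMod q) * (((n : ℝ) ^ (-(1 + s)) : ℝ) : ℂ)) (by
      have : ((0:ℕ):ℝ) ^ (-(1 + s)) = 0 := by
        rw [Nat.cast_zero]
        exact Real.zero_rpow (by linarith)
      rw [this]; simp) (summable_psi (f := psi) (fun z => DirichletCharacter.norm_le_one psi z) hs)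
  refine h.trans (tsum_congr fun n => ?_)
  ring

theorem zE_eq {s : ℝ} (hs : 0 < s) :
    ∑' a : Idl E, cc E (fun _ : ZMod 1 => (1:ℂ)) a * (Real.exp (-((1 + s) * uu E a)) : ℝ)
      = (zE E s : ℂ) := by
  have h0 : ∀ a : Idl E, cc E (fun _ : ZMod 1 => (1:ℂ)) a * (Real.exp (-((1 + s) * uu E a)) : ℝ)
      = (fun _ : ZMod 1 => (1:ℂ)) (absNorm a.1 : ZMod 1) * (((absNorm a.1 : ℝ) ^ (-(1 + s)) : ℝ) : ℂ) := by
    intro a
    rw [exp_uu]
    rfl
  rw [tsum_congr h0]
  unfold zE
  have h := tsum_ideals (E := E)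
    (F := fun n : ℕ => (fun _ : ZMod 1 => (1:ℂ)) n * (((n : ℝ) ^ (-(1 + s)) : ℝ) : ℂ)) (by
      have : ((0:ℕ):ℝ) ^ (-(1 + s)) = 0 := by
        rw [Nat.cast_zero]
        exact Real.zero_rpow (by linarith)
      rw [this]; simp) (summable_psi (f := fun _ : ZMod 1 => (1:ℂ)) (fun z => by simp) hs)
  refine h.trans ?_
  rw [Complex.ofReal_tsum]
  refine tsum_congr fun n => ?_
  push_cast
  ring

/-- `zE` is the Dedekind zeta function of Mathlib -/
theorem zE_eq_dedekindZeta {s : ℝ} (hs : 0 < s) : (zE E s : ℂ) = dedekindZeta E ((1 + s : ℝ) : ℂ) := by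
  unfold zE dedekindZeta LSeries
  rw [Complex.ofReal_tsum]
  refine tsum_congr fun n => ?_
  rcases Nat.eq_zero_or_pos n with rfl | hn
  · have : ((0:ℕ):ℝ) ^ (-(1 + s)) = 0 := by
      rw [Nat.cast_zero]
      exact Real.zero_rpow (by linarith)
    rw [this]; simp
  · rw [LSeries.term_of_ne_zero hn.ne', div_eq_mul_inv, ← Complex.cpow_neg]
    unfold rE
    push_cast
    rw [Complex.ofReal_cpow (by positivity)]
    push_cast
    rfl

/-- the pole of `zE` -/
theorem tendsto_zE : Tendsto (fun s : ℝ => s * zE E s) (𝓝[>] 0) (𝓝 (dedekindZeta_residue E)) := by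
  have h := tendsto_sub_one_mul_dedekindZeta_nhdsGT E
  have h1 : Tendsto (fun s : ℝ => 1 + s) (𝓝[>] 0) (𝓝[>] 1) := by
    refine tendsto_nhdsWithin_iff.mpr ⟨?_, ?_⟩
    · have : Tendsto (fun s : ℝ => 1 + s) (𝓝 0) (𝓝 (1 + 0)) := (continuous_const.add continuous_id).tendsto 0
      rw [add_zero] at this
      exact this.mono_left nhdsWithin_le_nhds
    · filter_upwards [self_mem_nhdsWithin] with s hs
      simp only [Set.mem_Ioi] at hs ⊢
      linarith
  have h2 := h.comp h1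
  have h3 : Tendsto (fun s : ℝ => ((s * zE E s : ℝ) : ℂ)) (𝓝[>] 0) (𝓝 ((dedekindZeta_residue E : ℝ) : ℂ)) := by
    refine h2.congr' ?_
    filter_upwards [self_mem_nhdsWithin] with s hs
    simp only [Set.mem_Ioi] at hs
    simp only [Function.comp_apply]
    rw [← zE_eq_dedekindZeta hs]
    push_cast
    ring
  exact (Complex.continuous_re.tendsto _).comp h3 |>.congr (fun s => by simp)

/-- `ζ_E(1+s) ≥ 1` -/
theorem one_le_zE {s : ℝ} (hs : 0 < s) : 1 ≤ zE E s := by
  have hsum := summable_zE (E := E) hs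
  have h1 : (rE E 1 : ℝ) * ((1:ℕ) : ℝ) ^ (-(1 + s)) = 1 := by
    have : rE E 1 = 1 := by
      unfold rE
      simp [absNorm_eq_one_iff]
    rw [this]; simp
  have h2 := hsum.le_tsum 1 (fun n _ => by positivity)
  rw [h1] at h2
  exact h2

end Crest.Agent.R014.Ic3_550
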