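import Crest.Agent.R014.Ic3_550

/-!
# Row 14, N1: final bounds from the Riesz mean asymptotics (helper550)

`Riesz E q f r M Q`: `|∑_{a} f(N a) (t - log N a)_+^r - M e^t| ≤ Q e^{(1-1/d)t}` for `t ≥ 0`.
-/

set_option autoImplicit false

open NumberField Ideal Filter Topology

noncomputable section

namespace Crest.Agent.R014.Ic4_550

open Crest.Agent.R014.Ic1_550 Crest.Agent.R014.LDef_550 Crest.Agent.R014.Ic3_550
open Crest.Agent.R014.Ic1_550.Dat (cC lg)

universe u

/-- asymptotics of the Riesz mean of order `r` over all ideals -/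
def Riesz (E : Type u) [Field E] [NumberField E] {q : ℕ} (f : ZMod q → ℂ) (r : ℕ) (M : ℂ) (Q : ℝ) :
    Prop :=
  ∀ t, 0 ≤ t → ‖A (uu E) (cc E f) r t - M * (Real.exp t : ℝ)‖
      ≤ Q * Real.exp ((1 - 1 / (Module.finrank ℚ E : ℝ)) * t)

variable {E : Type u} [Field E] [NumberField E]

instance : Countable (Idl E) := by
  have : Function.Injective fun a : Idl E => Ic2_550.code a.1 := by
    intro a b hab
    exact Subtype.ext (Ic2_550.code_injOn a.2 b.2 hab)
  exact this.countable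

/-- the constant, depending only on the degree `d` and the order `r` -/
def CC (d r : ℕ) : ℝ := cC r d (1 / (d:ℝ)) 1

theorem CC_nonneg (d r : ℕ) : 0 ≤ CC d r := by
  unfold CC cC; positivity

theorem zE_lim {r : ℕ} {M : ℂ} {Q : ℝ} (hQ : 1 ≤ Q)
    (h : Riesz E (fun _ : ZMod 1 => (1:ℂ)) r M Q) :
    M = ((r.factorial * dedekindZeta_residue E : ℝ) : ℂ) := by
  have hd := dat (E := E) (f := fun _ : ZMod 1 => (1:ℂ)) (fun z => by simp) hQ h
  have h1 : Tendsto (fun s : ℝ => ((r.factorial * (s * zE E s) : ℝ) : ℂ)) (𝓝[>] 0)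
      (𝓝 ((r.factorial * dedekindZeta_residue E : ℝ) : ℂ)) :=
    (Complex.continuous_ofReal.tendsto _).comp (tendsto_zE.const_mul _)
  have h2 : Tendsto (fun s : ℝ => ((r.factorial * (s * zE E s) : ℝ) : ℂ)) (𝓝[>] 0) (𝓝 M) := by
    rw [tendsto_iff_norm_sub_tendsto_zero]
    have h3 : Tendsto (fun s : ℝ => r.factorial * s * (cC r (Module.finrank ℚ E)
        (1 / (Module.finrank ℚ E : ℝ)) 1 * lg Q (Module.finrank ℚ E) r)) (𝓝[>] 0) (𝓝 0) := by
      have : Tendsto (fun s : ℝ => r.factorial * s * (cC r (Module.finrank ℚ E)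
        (1 / (Module.finrank ℚ E : ℝ)) 1 * lg Q (Module.finrank ℚ E) r)) (𝓝 0)
        (𝓝 (r.factorial * 0 * (cC r (Module.finrank ℚ E)
        (1 / (Module.finrank ℚ E : ℝ)) 1 * lg Q (Module.finrank ℚ E) r))) := by
        apply Continuous.tendsto; fun_prop
      simp only [mul_zero, zero_mul] at this
      exact this.mono_left nhdsWithin_le_nhds
    refine squeeze_zero' (Eventually.of_forall fun s => norm_nonneg _) ?_ h3
    have h4 : ∀ᶠ s : ℝ in 𝓝[>] 0, s < 1 :=
      (Filter.tendsto_id.mono_left nhdsWithin_le_nhds : Tendsto id (𝓝[>] (0:ℝ)) (𝓝 0)).eventually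
        (gt_mem_nhds zero_lt_one)
    filter_upwards [self_mem_nhdsWithin, h4] with s hs hs1
    simp only [Set.mem_Ioi] at hs
    have h5 := hd.L_sub_le hs hs1.le
    rw [zE_eq hs] at h5
    have h6 : ((r.factorial * (s * zE E s) : ℝ) : ℂ) - M
        = ((r.factorial * s : ℝ) : ℂ) * ((zE E s : ℂ) - M / (r.factorial * s : ℝ)) := by
      have : ((r.factorial * s : ℝ) : ℂ) ≠ 0 := by
        have : (r.factorial * s : ℝ) ≠ 0 := by positivity
        exact_mod_cast this
      rw [mul_sub, mul_div_cancel₀ _ this]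
      push_cast; ring
    rw [h6, norm_mul, Complex.norm_real, Real.norm_of_nonneg (by positivity)]
    gcongr
  exact tendsto_nhds_unique h2 h1

/-- (A1), explicit form -/
theorem A1_explicit {r : ℕ} {M : ℂ} {Q : ℝ} (hQ : 1 ≤ Q)
    (h : Riesz E (fun _ : ZMod 1 => (1:ℂ)) r M Q) {s : ℝ} (hs : 0 < s) (hs1 : s ≤ 1) :
    |zE E s - dedekindZeta_residue E / s|
      ≤ CC (Module.finrank ℚ E) r * lg Q (Module.finrank ℚ E) r := by
  have hd := dat (E := E) (f := fun _ : ZMod 1 => (1:ℂ)) (fun z => by simp) hQ h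
  have h1 := hd.L_sub_le hs hs1
  rw [zE_eq hs, zE_lim hQ h] at h1
  have h2 : (zE E s : ℂ) - ((r.factorial * dedekindZeta_residue E : ℝ) : ℂ) / (r.factorial * s : ℝ)
      = ((zE E s - dedekindZeta_residue E / s : ℝ) : ℂ) := by
    have : (r.factorial : ℂ) ≠ 0 := by exact_mod_cast Nat.factorial_ne_zero r
    have hs' : (s : ℂ) ≠ 0 := by exact_mod_cast hs.ne'
    push_cast
    field_simp
  rw [h2, Complex.norm_real] at h1
  exact h1

/-- (A2), explicit form: bound -/
theorem A2_explicit {q : ℕ} (psi : DirichletCharacter ℂ q) {r : ℕ} {Q : ℝ} (hQ : 1 ≤ Q)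
    (h : Riesz E psi r 0 Q) {s : ℝ} (hs : 0 < s) (hs1 : s ≤ 1) :
    ‖LEpsi E psi s‖ ≤ CC (Module.finrank ℚ E) r * lg Q (Module.finrank ℚ E) r := by
  have hd := dat (E := E) (f := psi) (fun z => DirichletCharacter.norm_le_one psi z) hQ h
  have h1 := hd.L_eq hs
  rw [LEpsi_eq psi hs] at h1
  rw [h1, zero_mul, add_zero]
  exact hd.f_norm_le hs.le hs1

/-- (A2), explicit form: Lipschitz bound -/
theorem A2_lip_explicit {q : ℕ} (psi : DirichletCharacter ℂ q) {r : ℕ} {Q : ℝ} (hQ : 1 ≤ Q)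
    (h : Riesz E psi r 0 Q) {s s' : ℝ} (hs : 0 < s) (hs1 : s ≤ 1) (hs' : 0 < s') (hs1' : s' ≤ 1) :
    ‖LEpsi E psi s - LEpsi E psi s'‖
      ≤ CC (Module.finrank ℚ E) r * lg Q (Module.finrank ℚ E) r * |s - s'| := by
  have hd := dat (E := E) (f := psi) (fun z => DirichletCharacter.norm_le_one psi z) hQ h
  have h1 := hd.L_eq hs
  have h2 := hd.L_eq hs'
  rw [LEpsi_eq psi hs] at h1
  rw [LEpsi_eq psi hs'] at h2
  rw [h1, h2, zero_mul, zero_mul, add_zero, add_zero]
  exact hd.f_lip_le hs.le hs1 hs'.le hs1'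

end Crest.Agent.R014.Ic4_550
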