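import Crest.Agent.R014.Ic4_550

/-!
# Row 14, N1: sum over the ideal classes (helper550)

* `classNumber_le`: `h ≤ (2^d √|D|)^(d+1)`;
* `Acl c t`: Riesz mean over the class `c`; `A_eq_sum`: `A t = ∑_c Acl c t`;
* `riesz_of_classes`: class asymptotics give `Riesz` with `M = ∑_c M_c`.
-/

set_option autoImplicit false

open NumberField Ideal Filter Topology
open scoped nonZeroDivisors

noncomputable section

namespace Crest.Agent.R014.Ic5_550

open Crest.Agent.R014.Ic1_550 Crest.Agent.R014.LDef_550 Crest.Agent.R014.Ic3_550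
open Crest.Agent.R014.Ic4_550
open Crest.Agent.R014.Ic1_550.Dat (cC lg)

universe u

variable {E : Type u} [Field E] [NumberField E]

theorem one_le_abs_discr : (1:ℝ) ≤ |(discr E : ℝ)| := by
  have : (1:ℤ) ≤ |discr E| := Int.one_le_abs (discr_ne_zero E)
  exact_mod_cast this

theorem exists_norm_le (c : ClassGroup (𝓞 E)) :
    ∃ a : Ideal (𝓞 E), ∃ h : a ≠ ⊥, ClassGroup.mk0 ⟨a, mem_nonZeroDivisors_iff_ne_zero.mpr h⟩ = c ∧
      (absNorm a : ℝ) ≤ 2 ^ Module.finrank ℚ E * Real.sqrt |(discr E : ℝ)| := by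
  obtain ⟨I, hI, hN⟩ := exists_ideal_in_class_of_norm_le c
  refine ⟨I.1, nonZeroDivisors.coe_ne_zero I, hI, hN.trans ?_⟩
  have h1 : (4 / Real.pi) ^ InfinitePlace.nrComplexPlaces E ≤ (2:ℝ) ^ Module.finrank ℚ E := by
    have hpi := Real.pi_gt_three
    have h2 : 4 / Real.pi ≤ 2 := by rw [div_le_iff₀ (by linarith)]; linarith
    have h3 : InfinitePlace.nrComplexPlaces E ≤ Module.finrank ℚ E := by
      have := InfinitePlace.card_add_two_mul_card_eq_rank E
      omega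
    calc (4 / Real.pi) ^ InfinitePlace.nrComplexPlaces E
        ≤ (2:ℝ) ^ InfinitePlace.nrComplexPlaces E := by gcongr
      _ ≤ _ := pow_le_pow_right₀ (by norm_num) h3
  have h2 : ((Module.finrank ℚ E).factorial : ℝ) / (Module.finrank ℚ E : ℝ) ^ Module.finrank ℚ E ≤ 1 := by
    apply div_le_one_of_le₀
    · exact_mod_cast Nat.factorial_le_pow _
    · positivity
  calc _ ≤ (2:ℝ) ^ Module.finrank ℚ E * (1 * Real.sqrt |(discr E : ℝ)|) := by
        gcongr
    _ = _ := by ring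

/-- the class number is polynomially bounded -/
theorem classNumber_le :
    (Nat.card (ClassGroup (𝓞 E)) : ℝ)
      ≤ (2 ^ Module.finrank ℚ E * Real.sqrt |(discr E : ℝ)|) ^ (Module.finrank ℚ E + 1) := by
  set X : ℝ := 2 ^ Module.finrank ℚ E * Real.sqrt |(discr E : ℝ)| with hX
  have hX1 : 1 ≤ X := by
    have h1 : (1:ℝ) ≤ 2 ^ Module.finrank ℚ E := one_le_pow₀ (by norm_num)
    have h2 : 1 ≤ Real.sqrt |(discr E : ℝ)| := by
      rw [Real.one_le_sqrt]; exact one_le_abs_discr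
    exact one_le_mul_of_one_le_of_one_le h1 h2
  have h1 := Ic2_550.card_norm_le_log (E := E) hX1
  choose g hg0 hg1 hg2 using exists_norm_le (E := E)
  have hinj : Function.Injective g := by
    intro c c' h
    rw [← hg1 c, ← hg1 c']
    congr 2
  have h2 : Nat.card (ClassGroup (𝓞 E))
      ≤ {a : Ideal (𝓞 E) | a ≠ ⊥ ∧ (absNorm a : ℝ) ≤ X}.ncard := by
    rw [← Set.ncard_univ, ← Set.ncard_image_of_injective _ hinj]
    refine Set.ncard_le_ncard ?_ (Ic2_550.finite_norm_le (E := E) X)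
    rintro _ ⟨c, _, rfl⟩
    exact ⟨hg0 c, hg2 c⟩
  have h3 : 1 + Real.log X ≤ X := by
    have := Real.log_le_sub_one_of_pos (show 0 < X by linarith)
    linarith
  have h4 : 0 ≤ Real.log X := Real.log_nonneg hX1
  calc (Nat.card (ClassGroup (𝓞 E)) : ℝ)
      ≤ ({a : Ideal (𝓞 E) | a ≠ ⊥ ∧ (absNorm a : ℝ) ≤ X}.ncard : ℝ) := by exact_mod_cast h2
    _ ≤ X * (1 + Real.log X) ^ Module.finrank ℚ E := h1
    _ ≤ X * X ^ Module.finrank ℚ E := by gcongr
    _ = _ := by ring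

/-- the class of a nonzero ideal -/
def cls (a : Idl E) : ClassGroup (𝓞 E) :=
  ClassGroup.mk0 ⟨a.1, mem_nonZeroDivisors_iff_ne_zero.mpr a.2⟩

/-- Riesz mean over one class -/
def Acl {q : ℕ} (f : ZMod q → ℂ) (r : ℕ) (c : ClassGroup (𝓞 E)) (t : ℝ) : ℂ :=
  ∑' a : {a : Idl E // cls a = c}, cc E f a.1 * (pw r (uu E a.1) t : ℂ)

theorem summable_A {q : ℕ} (f : ZMod q → ℂ) (r : ℕ) (t : ℝ) :
    Summable fun a : Idl E => cc E f a * (pw r (uu E a) t : ℂ) :=
  summable_of_ne_finset_zero (s := (finite_uu (E := E) t).toFinset)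
    (A_support (c := cc E f) (r := r) finite_uu t)

theorem sigmaFiberEquiv_val (p : (Σ c, {a : Idl E // cls a = c})) :
    Equiv.sigmaFiberEquiv (cls (E := E)) p = p.2.1 := rfl

theorem A_eq_sum {q : ℕ} (f : ZMod q → ℂ) (r : ℕ) (t : ℝ) :
    A (uu E) (cc E f) r t = ∑ c : ClassGroup (𝓞 E), Acl f r c t := by
  unfold A Acl
  have hs := summable_A (E := E) f r t
  have h1 := (Equiv.sigmaFiberEquiv (cls (E := E))).tsum_eq
      (fun a : Idl E => cc E f a * (pw r (uu E a) t : ℂ))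
  have hs' := (Equiv.sigmaFiberEquiv (cls (E := E))).summable_iff.mpr hs
  simp only [Function.comp_def, sigmaFiberEquiv_val] at h1 hs'
  rw [← h1, hs'.tsum_sigma, tsum_fintype]

theorem riesz_of_classes {q : ℕ} {f : ZMod q → ℂ} {r : ℕ} {M : ClassGroup (𝓞 E) → ℂ} {Q : ℝ}
    (hQ : 0 ≤ Q)
    (h : ∀ c t, 0 ≤ t → ‖Acl f r c t - M c * (Real.exp t : ℝ)‖
      ≤ Q * Real.exp ((1 - 1 / (Module.finrank ℚ E : ℝ)) * t)) :
    Riesz E f r (∑ c, M c)
      ((2 ^ Module.finrank ℚ E * Real.sqrt |(discr E : ℝ)|) ^ (Module.finrank ℚ E + 1) * Q) := by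
  intro t ht
  rw [A_eq_sum, Finset.sum_mul, ← Finset.sum_sub_distrib]
  refine (norm_sum_le _ _).trans ?_
  refine (Finset.sum_le_sum fun c _ => h c t ht).trans ?_
  rw [Finset.sum_const, nsmul_eq_mul, Finset.card_univ, ← Nat.card_eq_fintype_card, ← mul_assoc]
  have := classNumber_le (E := E)
  gcongr

end Crest.Agent.R014.Ic5_550
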