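import Crest.Agent.R014.Cnt5_726

/-!
# Row 14, N1: the norm form modulo `q` of `a J` and of `J` (helper550)

For `a` prime to `q` and `f` even: `∑_k f (nuq J q k) = ∑_k f (N a * nuq (a J) q k)`.
-/

set_option autoImplicit false

namespace Crest.Agent.R014.Ic6_550

open NumberField Module Crest.Agent.R014.Cnt5_726
open scoped nonZeroDivisors

variable {K : Type*} [Field K] [NumberField K]

/-- the inclusion `J' → J` for `J' = a J` -/
def incl {J' J : (Ideal (𝓞 K))⁰} (h : (J' : Ideal (𝓞 K)) ≤ (J : Ideal (𝓞 K)))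
    (v : (J' : Ideal (𝓞 K))) : (J : Ideal (𝓞 K)) := ⟨v.1, h v.2⟩

omit [NumberField K] in
theorem incl_val {J' J : (Ideal (𝓞 K))⁰} (h : (J' : Ideal (𝓞 K)) ≤ (J : Ideal (𝓞 K)))
    (v : (J' : Ideal (𝓞 K))) : ((incl h v : (J : Ideal (𝓞 K))) : 𝓞 K) = v := rfl

theorem exists_sign {a : Ideal (𝓞 K)} {J' J : (Ideal (𝓞 K))⁰}
    (h : (J' : Ideal (𝓞 K)) ≤ (J : Ideal (𝓞 K))) (hJ : (J' : Ideal (𝓞 K)) = a * J) :
    ∃ s : ℤ, (s = 1 ∨ s = -1) ∧ ∀ v : (J' : Ideal (𝓞 K)),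
      nu J (incl h v) = s * (Ideal.absNorm a : ℤ) * nu J' v := by
  have h1 := natAbs_dJ J
  have h2 := natAbs_dJ J'
  have h3 : Ideal.absNorm (J' : Ideal (𝓞 K)) = Ideal.absNorm a * Ideal.absNorm (J : Ideal (𝓞 K)) := by
    rw [hJ, map_mul]
  have h4 : (dJ J').natAbs = ((Ideal.absNorm a : ℤ) * dJ J).natAbs := by
    rw [h2, h3, Int.natAbs_mul, h1]
    simp
  have h5 : ∃ s : ℤ, (s = 1 ∨ s = -1) ∧ dJ J' = s * ((Ideal.absNorm a : ℤ) * dJ J) := by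
    rcases Int.natAbs_eq_natAbs_iff.mp h4 with h | h
    · exact ⟨1, Or.inl rfl, by rw [h]; ring⟩
    · exact ⟨-1, Or.inr rfl, by rw [h]; ring⟩
  obtain ⟨s, hs, hd⟩ := h5
  refine ⟨s, hs, fun v => ?_⟩
  have e1 := norm_eq J (incl h v)
  have e2 := norm_eq J' v
  rw [incl_val, e2, hd] at e1
  have h6 := dJ_ne_zero J
  apply mul_left_cancel₀ h6
  rw [← e1]
  ring

/-- change of coordinates -/
noncomputable def Phi {J' J : (Ideal (𝓞 K))⁰} (h : (J' : Ideal (𝓞 K)) ≤ (J : Ideal (𝓞 K)))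
    (q : ℕ) [NeZero q] (k : Ix K → ZMod q) : Ix K → ZMod q :=
  cq J q (incl h (rep J' q k))

theorem cq_rep (J : (Ideal (𝓞 K))⁰) (q : ℕ) [NeZero q] (k : Ix K → ZMod q) :
    cq J q (rep J q k) = k := by
  have := cq_rep_add J q k 0
  rwa [smul_zero, add_zero] at this

theorem even_Phi {a : Ideal (𝓞 K)} {J' J : (Ideal (𝓞 K))⁰}
    (h : (J' : Ideal (𝓞 K)) ≤ (J : Ideal (𝓞 K))) (hJ : (J' : Ideal (𝓞 K)) = a * J)
    (q : ℕ) [NeZero q] {R : Type*} {f : ZMod q → R}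
    (hf : ∀ z, f (-z) = f z) (k : Ix K → ZMod q) :
    f (nuq J q (Phi h q k)) = f ((Ideal.absNorm a : ZMod q) * nuq J' q k) := by
  obtain ⟨s, hs, h'⟩ := exists_sign h hJ
  have h1 := h' (rep J' q k)
  have h2 : nuq J q (Phi h q k) = (s : ZMod q) * ((Ideal.absNorm a : ZMod q) * nuq J' q k) := by
    unfold Phi
    rw [← cast_nu, h1]
    push_cast
    rw [cast_nu J' q, cq_rep]
    ring
  rw [h2]
  rcases hs with rfl | rfl
  · simp
  · push_cast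
    rw [neg_one_mul, hf]

theorem exists_eq_smul_of_cq_eq (J : (Ideal (𝓞 K))⁰) (q : ℕ) [NeZero q]
    {v w : (J : Ideal (𝓞 K))} (h : cq J q v = cq J q w) :
    ∃ m : (J : Ideal (𝓞 K)), v - w = (q : ℤ) • m := by
  refine ⟨∑ i, ((bas J).repr (v - w) i / (q : ℤ)) • bas J i, ?_⟩
  refine (bas J).ext_elem fun i => ?_
  rw [map_zsmul, Finsupp.smul_apply, Basis.repr_sum_self, smul_eq_mul]
  have h1 := congrFun h i
  unfold cq at h1
  have h2 : (q : ℤ) ∣ (bas J).repr (v - w) i := by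
    rw [map_sub, Finsupp.sub_apply, ← ZMod.intCast_zmod_eq_zero_iff_dvd, Int.cast_sub, sub_eq_zero]
    exact h1
  rw [Int.mul_ediv_cancel' h2]

theorem mem_of_coprime {a : Ideal (𝓞 K)} {J' J : Ideal (𝓞 K)} (hJ : J' = a * J) {q : ℕ}
    (hq : (Ideal.absNorm a).Coprime q) {m : 𝓞 K} (hm : m ∈ J) (hqm : (q : 𝓞 K) * m ∈ J') :
    m ∈ J' := by
  have h2 : (Ideal.absNorm a : 𝓞 K) * m ∈ J' := by
    rw [hJ]
    exact Ideal.mul_mem_mul (Ideal.absNorm_mem _) hm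
  have h3 : IsCoprime (Ideal.absNorm a : ℤ) (q : ℤ) := Nat.isCoprime_iff_coprime.mpr hq
  obtain ⟨x, y, hxy⟩ := h3
  have h4 : m = (x : 𝓞 K) * ((Ideal.absNorm a : 𝓞 K) * m) + (y : 𝓞 K) * ((q : 𝓞 K) * m) := by
    have h5 : ((x * (Ideal.absNorm a : ℤ) + y * (q : ℤ) : ℤ) : 𝓞 K) = 1 := by
      rw [hxy]; simp
    push_cast at h5
    calc m = 1 * m := (one_mul _).symm
      _ = _ := by rw [← h5]; ring
  rw [h4]
  exact Ideal.add_mem _ (Ideal.mul_mem_left _ _ h2) (Ideal.mul_mem_left _ _ hqm)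

theorem Phi_injective {a : Ideal (𝓞 K)} {J' J : (Ideal (𝓞 K))⁰}
    (h : (J' : Ideal (𝓞 K)) ≤ (J : Ideal (𝓞 K))) (hJ : (J' : Ideal (𝓞 K)) = a * J)
    (q : ℕ) [NeZero q] (hq : (Ideal.absNorm a).Coprime q) : Function.Injective (Phi h q) := by
  intro k k' hk
  unfold Phi at hk
  obtain ⟨m, hm⟩ := exists_eq_smul_of_cq_eq J q hk
  have hm' : ((rep J' q k : 𝓞 K)) - (rep J' q k' : 𝓞 K) = (q : 𝓞 K) * (m : 𝓞 K) := by
    have h0 : ((incl h (rep J' q k) - incl h (rep J' q k') : (J : Ideal (𝓞 K))) : 𝓞 K)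
        = (((q : ℤ) • m : (J : Ideal (𝓞 K))) : 𝓞 K) := by rw [hm]
    have h1 : ((incl h (rep J' q k) - incl h (rep J' q k') : (J : Ideal (𝓞 K))) : 𝓞 K)
        = (rep J' q k : 𝓞 K) - (rep J' q k' : 𝓞 K) := rfl
    have h2 : (((q : ℤ) • m : (J : Ideal (𝓞 K))) : 𝓞 K) = (q : 𝓞 K) * (m : 𝓞 K) := by
      rw [Submodule.coe_smul_of_tower, zsmul_eq_mul]
      simp
    rw [← h1, ← h2]
    exact h0
  have hmem : (m : 𝓞 K) ∈ (J' : Ideal (𝓞 K)) := by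
    refine mem_of_coprime hJ hq m.2 ?_
    rw [← hm']
    exact Ideal.sub_mem _ (rep J' q k).2 (rep J' q k').2
  have h6 : rep J' q k = rep J' q k' + (q : ℤ) • (⟨m, hmem⟩ : (J' : Ideal (𝓞 K))) := by
    apply Subtype.ext
    have h7 : ((rep J' q k' + (q : ℤ) • (⟨m, hmem⟩ : (J' : Ideal (𝓞 K))) :
        (J' : Ideal (𝓞 K))) : 𝓞 K) = (rep J' q k' : 𝓞 K) + (q : 𝓞 K) * m := by
      rw [Submodule.coe_add, Submodule.coe_smul_of_tower, zsmul_eq_mul]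
      simp
    rw [h7, ← hm']
    ring
  rw [← cq_rep J' q k, h6, cq_rep_add]

theorem sum_nuq {a : Ideal (𝓞 K)} {J' J : (Ideal (𝓞 K))⁰} (hJ : (J' : Ideal (𝓞 K)) = a * J)
    (q : ℕ) [NeZero q] (hq : (Ideal.absNorm a).Coprime q) {R : Type*} [AddCommMonoid R]
    {f : ZMod q → R} (hf : ∀ z, f (-z) = f z) :
    ∑ k, f (nuq J q k) = ∑ k, f ((Ideal.absNorm a : ZMod q) * nuq J' q k) := by
  have h : (J' : Ideal (𝓞 K)) ≤ (J : Ideal (𝓞 K)) := by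
    rw [hJ]; exact Ideal.mul_le_right (I := a) (J := (J : Ideal (𝓞 K)))
  have hb : Function.Bijective (Phi h q) :=
    Finite.injective_iff_bijective.mp (Phi_injective h hJ q hq)
  rw [← (Equiv.ofBijective _ hb).sum_comp]
  refine Finset.sum_congr rfl fun k _ => ?_
  exact even_Phi h hJ q hf k

end Crest.Agent.R014.Ic6_550
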