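import Crest.Agent.R014.Ic5_550
import Crest.Agent.R014.Ic6_550
import Crest.Agent.R014.Cnt3_726

/-!
# Row 14, N1: (A1) and (A2) of 479 from 726's `riesz_class` (helper550)
-/

set_option autoImplicit false

open NumberField Ideal Filter Topology
open scoped nonZeroDivisors

noncomputable section

namespace Crest.Agent.R014.Ic7_550

open Crest.Agent.R014.Ic1_550 Crest.Agent.R014.LDef_550 Crest.Agent.R014.Ic3_550
open Crest.Agent.R014.Ic4_550 Crest.Agent.R014.Ic5_550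
open Crest.Agent.R014.Ic1_550.Dat (cC lg)
open Crest.Agent.R014.Cnt2_726 Crest.Agent.R014.Cnt3_726 Crest.Agent.R014.Cnt5_726

universe u

variable {E : Type u} [Field E] [NumberField E]

/-- Riesz mean over a class (726) -/
def rz (c : ClassGroup (𝓞 E)) {q : ℕ} (f : ZMod q → ℂ) (x : ℝ) : ℂ :=
  ∑' a : clsI E c, f (absNorm (a.1 : Ideal (𝓞 E)) : ZMod q)
    * (wt (Units.rank E) (Real.log (x / absNorm (a.1 : Ideal (𝓞 E)))) : ℂ)

/-- the equivalence of the two index types -/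
def eqv (c : ClassGroup (𝓞 E)) : {a : Idl E // cls a = c} ≃ clsI E c where
  toFun a := ⟨⟨a.1.1, mem_nonZeroDivisors_iff_ne_zero.mpr a.1.2⟩, a.2⟩
  invFun a := ⟨⟨a.1.1, nonZeroDivisors.coe_ne_zero a.1⟩, a.2⟩
  left_inv _ := rfl
  right_inv _ := rfl

theorem pw_eq (r : ℕ) (a : Idl E) (t : ℝ) :
    pw r (uu E a) t = r.factorial * wt r (Real.log (Real.exp t / absNorm a.1)) := by
  have h := one_le_absNorm a
  have h1 : Real.log (Real.exp t / absNorm a.1) = t - uu E a := by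
    rw [Real.log_div (Real.exp_pos t).ne' (by positivity), Real.log_exp]
    rfl
  rw [h1]
  unfold pw wt
  by_cases h2 : uu E a ≤ t
  · rw [if_pos h2, if_pos (by linarith)]
    field_simp
  · rw [if_neg h2, if_neg (by linarith), mul_zero]

theorem Acl_eq (c : ClassGroup (𝓞 E)) {q : ℕ} (f : ZMod q → ℂ) (t : ℝ) :
    Acl f (Units.rank E) c t = (Units.rank E).factorial * rz c f (Real.exp t) := by
  unfold Acl rz
  rw [← (eqv c).tsum_eq, ← tsum_mul_left]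
  refine tsum_congr fun a => ?_
  rw [pw_eq]
  unfold cc
  push_cast
  have h1 : ((((eqv c) a).1 : (Ideal (𝓞 E))⁰) : Ideal (𝓞 E)) = a.1.1 := rfl
  rw [h1]
  ring

theorem unique_M {z w : ℂ} {F : ℝ → ℂ} {Q δ : ℝ} (hδ : 0 < δ)
    (h1 : ∀ t, 0 ≤ t → ‖F t - z * (Real.exp t : ℝ)‖ ≤ Q * Real.exp ((1 - δ) * t))
    (h2 : ∀ t, 0 ≤ t → ‖F t - w * (Real.exp t : ℝ)‖ ≤ Q * Real.exp ((1 - δ) * t)) : z = w := by
  have h3 : ∀ t, 0 ≤ t → ‖z - w‖ ≤ 2 * Q * Real.exp (-(δ * t)) := by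
    intro t ht
    have e1 : (z - w) * (Real.exp t : ℝ) = (F t - w * (Real.exp t : ℝ)) - (F t - z * (Real.exp t : ℝ)) := by
      ring
    have e2 : ‖z - w‖ * Real.exp t ≤ 2 * Q * Real.exp ((1 - δ) * t) := by
      have : ‖(z - w) * (Real.exp t : ℝ)‖ = ‖z - w‖ * Real.exp t := by
        rw [norm_mul, Complex.norm_real, Real.norm_of_nonneg (Real.exp_pos t).le]
      rw [← this, e1]
      refine (norm_sub_le _ _).trans ?_
      have := h1 t ht
      have := h2 t ht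
      linarith
    have e3 : 2 * Q * Real.exp ((1 - δ) * t) = (2 * Q * Real.exp (-(δ * t))) * Real.exp t := by
      rw [mul_assoc (2 * Q), ← Real.exp_add]; ring_nf
    rw [e3] at e2
    exact le_of_mul_le_mul_right e2 (Real.exp_pos t)
  have h4 : Tendsto (fun t : ℝ => 2 * Q * Real.exp (-(δ * t))) atTop (𝓝 (2 * Q * 0)) := by
    refine Tendsto.const_mul _ ?_
    exact Real.tendsto_exp_neg_atTop_nhds_zero.comp (tendsto_id.const_mul_atTop hδ)
  rw [mul_zero] at h4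
  have h5 : ‖z - w‖ ≤ 0 := ge_of_tendsto h4 (by
    filter_upwards [eventually_ge_atTop (0:ℝ)] with t ht
    exact h3 t ht)
  have h6 : ‖z - w‖ = 0 := le_antisymm h5 (norm_nonneg _)
  rw [norm_eq_zero] at h6
  exact sub_eq_zero.mp h6

/-- average of `f` over the norm form of `J` -/
def av (J : (Ideal (𝓞 E))⁰) (q : ℕ) [NeZero q] (f : ZMod q → ℂ) : ℂ :=
  ((q : ℂ) ^ Module.finrank ℚ E)⁻¹ * ∑ k, f (nuq J q k)

/-- 726's asymptotics for one field (`κ₀ = kap0 E`, `Q = C (q D)^C`) -/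
def ClassAsymp (E : Type u) [Field E] [NumberField E] {q : ℕ} [NeZero q] (f : ZMod q → ℂ)
    (κ₀ Q : ℝ) : Prop :=
  ∀ (c : ClassGroup (𝓞 E)) (J : (Ideal (𝓞 E))⁰), ClassGroup.mk0 J = c⁻¹ → ∀ x : ℝ, 1 ≤ x →
    ‖rz c f x - κ₀ * av J q f * x‖ ≤ Q * x ^ (1 - 1 / (Module.finrank ℚ E : ℝ))

theorem classAsymp_exp {q : ℕ} [NeZero q] {f : ZMod q → ℂ} {κ₀ Q : ℝ}
    (h : ClassAsymp E f κ₀ Q) (c : ClassGroup (𝓞 E)) (J : (Ideal (𝓞 E))⁰)
    (hJ : ClassGroup.mk0 J = c⁻¹) (t : ℝ) (ht : 0 ≤ t) :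
    ‖Acl f (Units.rank E) c t
        - ((Units.rank E).factorial * (κ₀ * av J q f)) * (Real.exp t : ℝ)‖
      ≤ ((Units.rank E).factorial * Q) * Real.exp ((1 - 1 / (Module.finrank ℚ E : ℝ)) * t) := by
  have h1 := h c J hJ (Real.exp t) (Real.one_le_exp ht)
  rw [Acl_eq]
  have e1 : ((Units.rank E).factorial : ℂ) * rz c f (Real.exp t)
      - ((Units.rank E).factorial * (κ₀ * av J q f)) * (Real.exp t : ℝ)
      = ((Units.rank E).factorial : ℂ) * (rz c f (Real.exp t) - κ₀ * av J q f * (Real.exp t : ℝ)) := by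
    ring
  rw [e1, norm_mul, Complex.norm_natCast]
  have e2 : Real.exp t ^ (1 - 1 / (Module.finrank ℚ E : ℝ))
      = Real.exp ((1 - 1 / (Module.finrank ℚ E : ℝ)) * t) := by
    rw [← Real.exp_mul, mul_comm]
  rw [e2] at h1
  exact (mul_le_mul_of_nonneg_left h1 (Nat.cast_nonneg _)).trans (le_of_eq (by ring))

/-- a representative of the inverse class -/
def repJ (c : ClassGroup (𝓞 E)) : (Ideal (𝓞 E))⁰ := (ClassGroup.mk0_surjective c⁻¹).choose

theorem repJ_spec (c : ClassGroup (𝓞 E)) : ClassGroup.mk0 (repJ c) = c⁻¹ :=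
  (ClassGroup.mk0_surjective c⁻¹).choose_spec

/-- the leading coefficient of a class -/
def Mc {q : ℕ} [NeZero q] (f : ZMod q → ℂ) (κ₀ : ℝ) (c : ClassGroup (𝓞 E)) : ℂ :=
  (Units.rank E).factorial * (κ₀ * av (repJ c) q f)

theorem riesz_total {q : ℕ} [NeZero q] {f : ZMod q → ℂ} {κ₀ Q : ℝ} (hQ : 0 ≤ Q)
    (h : ClassAsymp E f κ₀ Q) :
    Riesz E f (Units.rank E) (∑ c : ClassGroup (𝓞 E), Mc f κ₀ c)
      ((2 ^ Module.finrank ℚ E * Real.sqrt |(discr E : ℝ)|) ^ (Module.finrank ℚ E + 1)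
        * ((Units.rank E).factorial * Q)) :=
  riesz_of_classes (by positivity) fun c t ht => classAsymp_exp h c _ (repJ_spec c) t ht

theorem Mc_eq {q : ℕ} [NeZero q] {f : ZMod q → ℂ} {κ₀ Q : ℝ}
    (h : ClassAsymp E f κ₀ Q) (c : ClassGroup (𝓞 E)) (J : (Ideal (𝓞 E))⁰)
    (hJ : ClassGroup.mk0 J = c⁻¹) :
    Mc f κ₀ c = (Units.rank E).factorial * (κ₀ * av J q f) := by
  refine unique_M (δ := 1 / (Module.finrank ℚ E : ℝ)) ?_
    (fun t ht => classAsymp_exp h c _ (repJ_spec c) t ht) (fun t ht => classAsymp_exp h c J hJ t ht)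
  have := finrank_pos' (E := E)
  positivity

/-- **vanishing** of the total leading coefficient -/
theorem sum_Mc_eq_zero {q : ℕ} [NeZero q] (psi : DirichletCharacter ℂ q) (hpsi : psi.Even)
    {κ₀ Q : ℝ} (h : ClassAsymp E psi κ₀ Q) {a : Ideal (𝓞 E)} (ha : a ≠ ⊥)
    (hq : (absNorm a).Coprime q) (h1 : psi (absNorm a : ZMod q) ≠ 1) :
    ∑ c : ClassGroup (𝓞 E), Mc psi κ₀ c = 0 := by
  have hev : ∀ z, psi (-z) = psi z := fun z => DirichletCharacter.Even.eval_neg psi z hpsi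
  set A0 : (Ideal (𝓞 E))⁰ := ⟨a, mem_nonZeroDivisors_iff_ne_zero.mpr ha⟩ with hA0
  set g : ClassGroup (𝓞 E) := ClassGroup.mk0 A0 with hg
  have key : ∀ c : ClassGroup (𝓞 E), Mc psi κ₀ c = psi (absNorm a : ZMod q) * Mc psi κ₀ (c * g⁻¹) := by
    intro c
    have h2 : ClassGroup.mk0 (A0 * repJ c) = (c * g⁻¹)⁻¹ := by
      rw [map_mul, repJ_spec, ← hg]
      group
    rw [Mc_eq h (c * g⁻¹) (A0 * repJ c) h2]
    have h3 : av (repJ c) q psi = psi (absNorm a : ZMod q) * av (A0 * repJ c) q psi := by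
      unfold av
      rw [Ic6_550.sum_nuq (a := a) (J' := A0 * repJ c) (J := repJ c) (by
        rw [Submonoid.coe_mul]) q hq hev]
      simp_rw [map_mul]
      rw [← Finset.mul_sum]
      ring
    unfold Mc
    rw [h3]
    ring
  have h4 : ∑ c : ClassGroup (𝓞 E), Mc psi κ₀ c
      = psi (absNorm a : ZMod q) * ∑ c : ClassGroup (𝓞 E), Mc psi κ₀ c := by
    have e1 : ∑ c : ClassGroup (𝓞 E), Mc psi κ₀ (c * g⁻¹) = ∑ c : ClassGroup (𝓞 E), Mc psi κ₀ c :=
      Equiv.sum_comp (Equiv.mulRight g⁻¹) (fun c => Mc (⇑psi) κ₀ c)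
    have e2 : ∑ c : ClassGroup (𝓞 E), Mc psi κ₀ c
        = ∑ c : ClassGroup (𝓞 E), psi (absNorm a : ZMod q) * Mc psi κ₀ (c * g⁻¹) :=
      Finset.sum_congr rfl fun c _ => key c
    rw [← Finset.mul_sum, e1] at e2
    exact e2
  have h5 : (1 - psi (absNorm a : ZMod q)) * ∑ c : ClassGroup (𝓞 E), Mc psi κ₀ c = 0 := by
    rw [sub_mul, one_mul, ← h4, sub_self]
  rcases mul_eq_zero.mp h5 with h6 | h6
  · exact absurd (sub_eq_zero.mp h6).symm h1
  · exact h6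

end Crest.Agent.R014.Ic7_550
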