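import Crest.Agent.R014.Ic7_550
import Crest.Agent.R014.Cnt8_726

/-!
# Row 14, N1: (A1) and (A2) (helper550)

* `A1`: `|ζ_E(1+s) - κ_E/s| ≤ C(d) (1 + log|disc E|)^(2d+2)` for `0 < s ≤ 1`, every number field;
* `A2`, `A2_lip`: `‖L_E(1+s, ψ∘N)‖ ≤ C(d,q) (1 + log|disc E|)^(2d+2)` and the Lipschitz bound, for
  every even Dirichlet character `ψ` mod `q` such that `ψ(N a) ≠ 1` for an ideal `a` prime to `q`.
-/

set_option autoImplicit false

open NumberField Ideal Filter Topology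
open scoped nonZeroDivisors

noncomputable section

namespace Crest.Agent.R014.Ic8_550

open Crest.Agent.R014.Ic1_550 Crest.Agent.R014.LDef_550 Crest.Agent.R014.Ic3_550
open Crest.Agent.R014.Ic4_550 Crest.Agent.R014.Ic5_550 Crest.Agent.R014.Ic7_550
open Crest.Agent.R014.Ic1_550.Dat (cC lg)
open Crest.Agent.R014.Cnt2_726 Crest.Agent.R014.Cnt3_726 Crest.Agent.R014.Cnt5_726
open Crest.Agent.R014.Cnt7_726 Crest.Agent.R014.Cnt8_726

universe u

/-- field independent part of the constant -/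
def B0 (d q : ℕ) : ℝ :=
  (2 ^ d) ^ (d + 1) * (d.factorial * (Cst d * (q:ℝ) ^ (Cst d)))

/-- exponent of the discriminant -/
def kk (d : ℕ) : ℕ := d + 1 + Cst d

/-- the final constant -/
def Cfin (d q : ℕ) : ℝ := CC d d * (1 + Real.log (B0 d q) + kk d) ^ (2 * d + 2)

theorem one_le_Cst (d : ℕ) : 1 ≤ Cst d := by
  unfold Cst
  refine le_trans ?_ (le_max_right _ _)
  exact Nat.one_le_pow _ _ (by omega)

theorem one_le_B0 (d q : ℕ) (hq : 0 < q) : 1 ≤ B0 d q := by
  unfold B0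
  have h1 : (1:ℝ) ≤ (2 ^ d) ^ (d + 1) := one_le_pow₀ (one_le_pow₀ (by norm_num))
  have h2 : (1:ℝ) ≤ d.factorial := by exact_mod_cast Nat.one_le_iff_ne_zero.mpr (Nat.factorial_ne_zero d)
  have h3 : (1:ℝ) ≤ Cst d := by exact_mod_cast one_le_Cst d
  have h4 : (1:ℝ) ≤ (q:ℝ) ^ (Cst d) := one_le_pow₀ (by exact_mod_cast hq)
  exact one_le_mul_of_one_le_of_one_le h1 (one_le_mul_of_one_le_of_one_le h2
    (one_le_mul_of_one_le_of_one_le h3 h4))

theorem CC_mono {d r : ℕ} (hr : r ≤ d) : CC d r ≤ CC d d := by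
  unfold CC cC
  have h1 : (1:ℝ) ≤ 1 + 1 / (1 / (d:ℝ)) := by
    have : 0 ≤ 1 / (1 / (d:ℝ)) := by positivity
    linarith
  have h2 : (2:ℝ) ^ (r + 1) ≤ 2 ^ (d + 1) := pow_le_pow_right₀ (by norm_num) (by omega)
  have h3 : (1 + 1 / (1 / (d:ℝ))) ^ (d + r + 2) ≤ (1 + 1 / (1 / (d:ℝ))) ^ (d + d + 2) :=
    pow_le_pow_right₀ h1 (by omega)
  have h4 : (r:ℝ) ≤ d := by exact_mod_cast hr
  gcongr

variable {E : Type u} [Field E] [NumberField E]

theorem riesz_mono {q : ℕ} {f : ZMod q → ℂ} {r : ℕ} {M : ℂ} {Q Q' : ℝ} (hQ : Q ≤ Q')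
    (h : Riesz E f r M Q) : Riesz E f r M Q' := by
  intro t ht
  refine (h t ht).trans ?_
  gcongr

theorem classAsymp {q : ℕ} [NeZero q] {f : ZMod q → ℂ} (hf : ∀ z, f (-z) = f z)
    (hf1 : ∀ z, ‖f z‖ ≤ 1) :
    ClassAsymp E f (kap0 E) (Cst (Module.finrank ℚ E)
      * (q * |(discr E : ℝ)|) ^ (Cst (Module.finrank ℚ E))) := by
  intro c J hJ x hx
  exact riesz_class hJ q hf hf1 hx

theorem rank_le' : Units.rank E ≤ Module.finrank ℚ E := by
  have := rank_le E
  omega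

theorem Q_le {q : ℕ} (hq : 0 < q) :
    (2 ^ Module.finrank ℚ E * Real.sqrt |(discr E : ℝ)|) ^ (Module.finrank ℚ E + 1)
        * ((Units.rank E).factorial * (Cst (Module.finrank ℚ E)
      * (q * |(discr E : ℝ)|) ^ (Cst (Module.finrank ℚ E))))
      ≤ B0 (Module.finrank ℚ E) q * |(discr E : ℝ)| ^ kk (Module.finrank ℚ E) := by
  have hD := one_le_abs_discr (E := E)
  have hs : Real.sqrt |(discr E : ℝ)| ≤ |(discr E : ℝ)| := by
    rw [Real.sqrt_le_left (by positivity)]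
    nlinarith
  have hfac : ((Units.rank E).factorial : ℝ) ≤ (Module.finrank ℚ E).factorial := by
    exact_mod_cast Nat.factorial_le rank_le'
  unfold B0 kk
  set D := |(discr E : ℝ)|
  set d := Module.finrank ℚ E
  calc (2 ^ d * Real.sqrt D) ^ (d + 1) * ((Units.rank E).factorial * (Cst d * (q * D) ^ (Cst d)))
      ≤ (2 ^ d * D) ^ (d + 1) * (d.factorial * (Cst d * (q * D) ^ (Cst d))) := by gcongr
    _ = _ := by rw [mul_pow, mul_pow, pow_add]; ring

theorem lg_le {q : ℕ} (hq : 0 < q) :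
    lg (B0 (Module.finrank ℚ E) q * |(discr E : ℝ)| ^ kk (Module.finrank ℚ E))
        (Module.finrank ℚ E) (Units.rank E)
      ≤ ((1 + Real.log (B0 (Module.finrank ℚ E) q) + kk (Module.finrank ℚ E))
        * (1 + Real.log |(discr E : ℝ)|)) ^ (2 * Module.finrank ℚ E + 2) := by
  have hD := one_le_abs_discr (E := E)
  have hB := one_le_B0 (Module.finrank ℚ E) q hq
  have h1 : 0 ≤ Real.log (B0 (Module.finrank ℚ E) q) := Real.log_nonneg hB
  have h2 : 0 ≤ Real.log |(discr E : ℝ)| := Real.log_nonneg hD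
  have h3 : Real.log (B0 (Module.finrank ℚ E) q * |(discr E : ℝ)| ^ kk (Module.finrank ℚ E))
      = Real.log (B0 (Module.finrank ℚ E) q) + kk (Module.finrank ℚ E) * Real.log |(discr E : ℝ)| := by
    rw [Real.log_mul (by positivity) (by positivity), Real.log_pow]
  unfold lg
  rw [h3]
  set b := Real.log (B0 (Module.finrank ℚ E) q)
  set l := Real.log |(discr E : ℝ)|
  have h4 : 1 + (b + kk (Module.finrank ℚ E) * l)
      ≤ (1 + b + kk (Module.finrank ℚ E)) * (1 + l) := by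
    have h5 : (0:ℝ) ≤ kk (Module.finrank ℚ E) := by positivity
    nlinarith [mul_nonneg h1 h2]
  have h6 : 1 ≤ (1 + b + kk (Module.finrank ℚ E)) * (1 + l) := by
    have h5 : (0:ℝ) ≤ kk (Module.finrank ℚ E) := by positivity
    refine le_trans ?_ h4
    nlinarith [mul_nonneg h5 h2]
  have h7 := rank_le' (E := E)
  calc (1 + (b + kk (Module.finrank ℚ E) * l)) ^ (Module.finrank ℚ E + Units.rank E + 2)
      ≤ ((1 + b + kk (Module.finrank ℚ E)) * (1 + l)) ^ (Module.finrank ℚ E + Units.rank E + 2) := by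
        gcongr
    _ ≤ _ := pow_le_pow_right₀ h6 (by omega)

theorem final_le {q : ℕ} (hq : 0 < q) :
    CC (Module.finrank ℚ E) (Units.rank E)
      * lg (B0 (Module.finrank ℚ E) q * |(discr E : ℝ)| ^ kk (Module.finrank ℚ E))
        (Module.finrank ℚ E) (Units.rank E)
      ≤ Cfin (Module.finrank ℚ E) q * (1 + Real.log |(discr E : ℝ)|) ^ (2 * Module.finrank ℚ E + 2) := by
  have h1 := lg_le (E := E) hq
  have h2 := CC_mono (rank_le' (E := E))
  have h3 := CC_nonneg (Module.finrank ℚ E) (Module.finrank ℚ E)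
  have hD := one_le_abs_discr (E := E)
  have h4 : 0 ≤ Real.log |(discr E : ℝ)| := Real.log_nonneg hD
  have hB := one_le_B0 (Module.finrank ℚ E) q hq
  have h5 : 0 ≤ Real.log (B0 (Module.finrank ℚ E) q) := Real.log_nonneg hB
  have hlog : 0 ≤ Real.log (B0 (Module.finrank ℚ E) q * |(discr E : ℝ)| ^ kk (Module.finrank ℚ E)) :=
    Real.log_nonneg (one_le_mul_of_one_le_of_one_le hB (one_le_pow₀ hD))
  have h6 : 0 ≤ lg (B0 (Module.finrank ℚ E) q * |(discr E : ℝ)| ^ kk (Module.finrank ℚ E))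
        (Module.finrank ℚ E) (Units.rank E) := by
    unfold lg
    positivity
  unfold Cfin
  rw [mul_pow] at h1
  calc _ ≤ CC (Module.finrank ℚ E) (Module.finrank ℚ E)
        * ((1 + Real.log (B0 (Module.finrank ℚ E) q) + kk (Module.finrank ℚ E)) ^ (2 * Module.finrank ℚ E + 2)
          * (1 + Real.log |(discr E : ℝ)|) ^ (2 * Module.finrank ℚ E + 2)) := by gcongr
    _ = _ := by ring

theorem one_le_Q {q : ℕ} (hq : 0 < q) :
    1 ≤ B0 (Module.finrank ℚ E) q * |(discr E : ℝ)| ^ kk (Module.finrank ℚ E) :=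
  one_le_mul_of_one_le_of_one_le (one_le_B0 _ q hq) (one_le_pow₀ one_le_abs_discr)

/-- **(A1)** -/
theorem A1 {s : ℝ} (hs : 0 < s) (hs1 : s ≤ 1) :
    |zE E s - dedekindZeta_residue E / s|
      ≤ Cfin (Module.finrank ℚ E) 1 * (1 + Real.log |(discr E : ℝ)|) ^ (2 * Module.finrank ℚ E + 2) := by
  have h1 := riesz_total (E := E) (q := 1) (f := fun _ => (1:ℂ)) (by positivity)
    (classAsymp (E := E) (q := 1) (f := fun _ => (1:ℂ)) (fun _ => rfl) (fun _ => by simp))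
  have h2 := riesz_mono (Q_le (E := E) (q := 1) one_pos) h1
  exact (A1_explicit (one_le_Q one_pos) h2 hs hs1).trans (final_le one_pos)

theorem riesz_psi {q : ℕ} [NeZero q] (psi : DirichletCharacter ℂ q) (hpsi : psi.Even)
    {a : Ideal (𝓞 E)} (ha : a ≠ ⊥) (hq : (absNorm a).Coprime q) (h1 : psi (absNorm a : ZMod q) ≠ 1) :
    Riesz E psi (Units.rank E) 0
      (B0 (Module.finrank ℚ E) q * |(discr E : ℝ)| ^ kk (Module.finrank ℚ E)) := by
  have hA := classAsymp (E := E) (q := q) (f := psi)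
    (fun z => DirichletCharacter.Even.eval_neg psi z hpsi)
    (fun z => DirichletCharacter.norm_le_one psi z)
  have h2 := riesz_total (by positivity) hA
  rw [sum_Mc_eq_zero psi hpsi hA ha hq h1] at h2
  exact riesz_mono (Q_le (Nat.pos_of_ne_zero (NeZero.ne q))) h2

/-- **(A2)**, bound -/
theorem A2 {q : ℕ} [NeZero q] (psi : DirichletCharacter ℂ q) (hpsi : psi.Even)
    {a : Ideal (𝓞 E)} (ha : a ≠ ⊥) (hq : (absNorm a).Coprime q) (h1 : psi (absNorm a : ZMod q) ≠ 1)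
    {s : ℝ} (hs : 0 < s) (hs1 : s ≤ 1) :
    ‖LEpsi E psi s‖
      ≤ Cfin (Module.finrank ℚ E) q * (1 + Real.log |(discr E : ℝ)|) ^ (2 * Module.finrank ℚ E + 2) := by
  have hq0 : 0 < q := Nat.pos_of_ne_zero (NeZero.ne q)
  exact (A2_explicit psi (one_le_Q hq0) (riesz_psi psi hpsi ha hq h1) hs hs1).trans (final_le hq0)

/-- **(A2)**, Lipschitz bound -/
theorem A2_lip {q : ℕ} [NeZero q] (psi : DirichletCharacter ℂ q) (hpsi : psi.Even)
    {a : Ideal (𝓞 E)} (ha : a ≠ ⊥) (hq : (absNorm a).Coprime q) (h1 : psi (absNorm a : ZMod q) ≠ 1)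
    {s s' : ℝ} (hs : 0 < s) (hs1 : s ≤ 1) (hs' : 0 < s') (hs1' : s' ≤ 1) :
    ‖LEpsi E psi s - LEpsi E psi s'‖
      ≤ Cfin (Module.finrank ℚ E) q * (1 + Real.log |(discr E : ℝ)|) ^ (2 * Module.finrank ℚ E + 2)
        * |s - s'| := by
  have hq0 : 0 < q := Nat.pos_of_ne_zero (NeZero.ne q)
  refine (A2_lip_explicit psi (one_le_Q hq0) (riesz_psi psi hpsi ha hq h1) hs hs1 hs' hs1').trans ?_
  have := final_le (E := E) hq0
  gcongr

end Crest.Agent.R014.Ic8_550
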