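import Crest.Agent.R014.Nd4_837
import Crest.Agent.R014.NS0_373

/-!
Row 14, block D, noise formalism (#3844), lemma (L3) of #4363/#4601 (helper884): the law of
`ζ_R v(s)`, `s` uniform in the box of radii `2^(-r)` in the crossing group, is the uniform noise of the
metric `R` with the crossing entries replaced by `r`, up to `C 2^(-w)` in total variation.
-/

set_option autoImplicit false

open MeasureTheory Crest.NumberTheoryR.Packets
open scoped ENNReal

noncomputable section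

namespace Crest.Agent.R014.L3_884

open Ms_667 Nd_837 NS_373
open Nz_323 (bx bxc Adm un haar vb isProb_un)

section Lin

variable {ι : Type*} [Fintype ι]

/-- Linear maps close to the identity distort volumes a little. -/
theorem lin_bounds {f : (ι → ℝ) →ₗ[ℝ] (ι → ℝ)} {δ : ℝ} (h0 : 0 ≤ δ) (h1 : δ < 1)
    (hf : ∀ θ, ‖f θ - θ‖ ≤ δ * ‖θ‖) :
    LinearMap.det f ≠ 0 ∧ |(LinearMap.det f)⁻¹| * (1 - δ) ^ Fintype.card ι ≤ 1 ∧
      1 ≤ |(LinearMap.det f)⁻¹| * (1 + δ) ^ Fintype.card ι := by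
  have hd : 0 < 1 - δ := by linarith
  have hlow : ∀ θ, (1 - δ) * ‖θ‖ ≤ ‖f θ‖ := by
    intro θ
    have h2 : ‖θ‖ ≤ ‖f θ‖ + ‖f θ - θ‖ := by
      have := norm_sub_le (f θ) (f θ - θ)
      rwa [sub_sub_cancel] at this
    linarith [hf θ]
  have hup : ∀ θ, ‖f θ‖ ≤ (1 + δ) * ‖θ‖ := by
    intro θ
    have h2 : ‖f θ‖ ≤ ‖f θ - θ‖ + ‖θ‖ := by
      have := norm_add_le (f θ - θ) θ
      rwa [sub_add_cancel] at this
    linarith [hf θ]
  have hker : LinearMap.ker f = ⊥ := by
    rw [LinearMap.ker_eq_bot']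
    intro θ hθ
    have h2 := hlow θ
    rw [hθ, norm_zero] at h2
    have h3 : ‖θ‖ ≤ 0 := by
      by_contra hcon
      push Not at hcon
      nlinarith
    exact norm_le_zero_iff.1 h3
  have hdet : LinearMap.det f ≠ 0 := by
    have h2 : IsUnit f := (LinearMap.isUnit_iff_ker_eq_bot f).2 hker
    have h3 := (LinearMap.isUnit_iff_isUnit_det f).1 h2
    exact h3.ne_zero
  have hV0 : (volume : Measure (ι → ℝ)) (Metric.ball 0 1) ≠ 0 :=
    (Metric.measure_ball_pos _ _ one_pos).ne'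
  have hVt : (volume : Measure (ι → ℝ)) (Metric.ball 0 1) ≠ ⊤ := measure_ball_lt_top.ne
  have hvol : ∀ r : ℝ, 0 ≤ r → (volume : Measure (ι → ℝ)) (Metric.closedBall 0 r)
      = ENNReal.ofReal (r ^ Fintype.card ι) * volume (Metric.ball (0 : ι → ℝ) 1) := by
    intro r hr
    rw [Measure.addHaar_closedBall _ _ hr, Module.finrank_fintype_fun_eq_card]
  have hpre : ∀ s : Set (ι → ℝ), (volume : Measure (ι → ℝ)) (f ⁻¹' s)
      = ENNReal.ofReal |(LinearMap.det f)⁻¹| * volume s := fun s =>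
    Measure.addHaar_preimage_linearMap _ hdet s
  refine ⟨hdet, ?_, ?_⟩
  · have hsub : f ⁻¹' (Metric.closedBall 0 (1 - δ)) ⊆ Metric.closedBall 0 1 := by
      intro θ hθ
      rw [Set.mem_preimage, mem_closedBall_zero_iff] at hθ
      rw [mem_closedBall_zero_iff]
      have h2 := (hlow θ).trans hθ
      by_contra hcon
      push Not at hcon
      nlinarith
    have h2 := measure_mono (μ := (volume : Measure (ι → ℝ))) hsub
    rw [hpre, hvol _ hd.le, hvol 1 zero_le_one, ← mul_assoc, one_pow,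
      ENNReal.mul_le_mul_iff_left hV0 hVt, ← ENNReal.ofReal_mul (abs_nonneg _)] at h2
    exact (ENNReal.ofReal_le_ofReal_iff zero_le_one).1 h2
  · have hsub : Metric.closedBall 0 1 ⊆ f ⁻¹' (Metric.closedBall 0 (1 + δ)) := by
      intro θ hθ
      rw [mem_closedBall_zero_iff] at hθ
      rw [Set.mem_preimage, mem_closedBall_zero_iff]
      have h2 := hup θ
      nlinarith
    have h2 := measure_mono (μ := (volume : Measure (ι → ℝ))) hsub
    rw [hpre, hvol (1 + δ) (by linarith), hvol 1 zero_le_one, ← mul_assoc, one_pow,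
      ENNReal.mul_le_mul_iff_left hV0 hVt, ← ENNReal.ofReal_mul (abs_nonneg _)] at h2
    exact (ENNReal.ofReal_le_ofReal_iff (by positivity)).1 h2

end Lin


variable {n : ℕ}

/-- `R` with the crossing entries replaced by `r`. -/
def ovr (S : Finset (Fin n)) (R : Fin n → Fin n → ℝ) (r : CC S → ℝ) : Fin n → Fin n → ℝ :=
  fun i j => if h : i ∈ S ∧ j ∉ S then r ⟨(i, j), h⟩ else R i j

theorem ovr_cross (S : Finset (Fin n)) (R : Fin n → Fin n → ℝ) (r : CC S → ℝ) (c : CC S) :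
    ovr S R r c.1.1 c.1.2 = r c := by
  unfold ovr
  rw [dif_pos c.2]

theorem ovr_not {S : Finset (Fin n)} (R : Fin n → Fin n → ℝ) (r : CC S → ℝ) {i j : Fin n}
    (h : ¬ (i ∈ S ∧ j ∉ S)) : ovr S R r i j = R i j := by
  unfold ovr
  rw [dif_neg h]

/-- the scaled vector. -/
def sc {S : Finset (Fin n)} (r θ : CC S → ℝ) : CC S → ℝ := fun c => 2 ^ (-r c) * θ c

/-- the hypotheses of (L3). -/
structure Hyp (S : Finset (Fin n)) (R : Fin n → Fin n → ℝ) (r : CC S → ℝ) (w : ℝ) : Prop where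
  hw : 0 ≤ w
  h1 : ∀ c : CC S, r c + w ≤ R c.1.1 c.1.2
  h2 : ∀ (k i j : Fin n) (hk : k ∈ S) (hi : i ∈ S) (hj : j ∉ S),
    r ⟨(k, j), hk, hj⟩ + w ≤ R k i + r ⟨(i, j), hi, hj⟩
  h3 : ∀ (i k j : Fin n) (hi : i ∈ S) (_ : k ∉ S) (hj : j ∉ S),
    R k j + w ≤ R k i + r ⟨(i, j), hi, hj⟩

variable {S : Finset (Fin n)} {R : Fin n → Fin n → ℝ} {r : CC S → ℝ} {w : ℝ}

theorem mul_nn_le (H : Hyp S R r w) {m : Mt n} {a : ℝ} (ha : 0 ≤ a)
    (hm : ∀ i j, |m i j| ≤ a * 2 ^ (-(ovr S R r i j))) {s : CC S → ℝ} {T : ℝ} (hT : 0 ≤ T)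
    (hs : ∀ c, |s c| ≤ T * 2 ^ (-(r c))) (k j : Fin n) :
    |(m * nn S s) k j| ≤ (n * 2 ^ (-w) * (a * T)) * 2 ^ (-(ovr S R r k j)) := by
  by_cases hj : j ∈ S
  · have h0 : (m * nn S s) k j = 0 := by
      rw [Matrix.mul_apply]
      exact Finset.sum_eq_zero fun i _ => by rw [nn_of_mem s i hj, mul_zero]
    rw [h0, abs_zero]
    positivity
  · rw [Matrix.mul_apply]
    refine (Finset.abs_sum_le_sum_abs _ _).trans ?_
    have key : ∀ i, |m k i * nn S s i j| ≤ 2 ^ (-w) * (a * T) * 2 ^ (-(ovr S R r k j)) := by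
      intro i
      by_cases hi : i ∈ S
      · have e1 : nn S s i j = s ⟨(i, j), hi, hj⟩ := nn_cross S s ⟨(i, j), hi, hj⟩
        have e2 : ovr S R r k i = R k i := ovr_not R r (fun h => h.2 hi)
        rw [abs_mul, e1]
        have e3 := hm k i
        rw [e2] at e3
        have e4 := hs ⟨(i, j), hi, hj⟩
        have e5 : w + ovr S R r k j ≤ R k i + r ⟨(i, j), hi, hj⟩ := by
          by_cases hk : k ∈ S
          · have h6 : ovr S R r k j = r ⟨(k, j), hk, hj⟩ := ovr_cross S R r ⟨(k, j), hk, hj⟩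
            rw [h6, add_comm]
            exact H.h2 k i j hk hi hj
          · rw [ovr_not R r (fun h => hk h.1), add_comm]
            exact H.h3 i k j hi hk hj
        calc |m k i| * |s ⟨(i, j), hi, hj⟩|
            ≤ (a * 2 ^ (-(R k i))) * (T * 2 ^ (-(r ⟨(i, j), hi, hj⟩))) :=
              mul_le_mul e3 e4 (abs_nonneg _) (by positivity)
          _ = (a * T) * 2 ^ (-(R k i + r ⟨(i, j), hi, hj⟩)) := by
              rw [neg_add, Real.rpow_add two_pos]; ring
          _ ≤ (a * T) * 2 ^ (-(w + ovr S R r k j)) := by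
              have h7 : (2:ℝ) ^ (-(R k i + r ⟨(i, j), hi, hj⟩)) ≤ 2 ^ (-(w + ovr S R r k j)) :=
                Real.rpow_le_rpow_of_exponent_le one_le_two (by linarith)
              exact mul_le_mul_of_nonneg_left h7 (mul_nonneg ha hT)
          _ = _ := by rw [neg_add, Real.rpow_add two_pos]; ring
      · rw [nn_of_notMem s hi, mul_zero, abs_zero]
        positivity
    calc ∑ i, |m k i * nn S s i j| ≤ ∑ _i : Fin n, 2 ^ (-w) * (a * T) * 2 ^ (-(ovr S R r k j)) :=
          Finset.sum_le_sum fun i _ => key i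
      _ = _ := by
          rw [Finset.sum_const, Finset.card_univ, Fintype.card_fin, nsmul_eq_mul]
          ring

theorem nn_smul (S : Finset (Fin n)) (a : ℝ) (s : CC S → ℝ) : nn S (a • s) = a • nn S s := by
  ext i j
  simp only [nn_apply, Matrix.smul_apply, Pi.smul_apply, smul_eq_mul]
  split_ifs <;> simp

theorem nn_neg (S : Finset (Fin n)) (s : CC S → ℝ) : nn S (-s) = -nn S s := by
  ext i j
  simp only [nn_apply, Matrix.neg_apply, Pi.neg_apply]
  split_ifs <;> simp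

theorem sc_add (θ θ' : CC S → ℝ) : sc r (θ + θ') = sc r θ + sc r θ' := by
  funext c
  simp only [sc, Pi.add_apply]
  ring

theorem sc_smul (a : ℝ) (θ : CC S → ℝ) : sc r (a • θ) = a • sc r θ := by
  funext c
  simp only [sc, Pi.smul_apply, smul_eq_mul]
  ring

theorem two_rpow_mul_neg (x : ℝ) : (2:ℝ) ^ x * 2 ^ (-x) = 1 := by
  rw [← Real.rpow_add two_pos, add_neg_cancel, Real.rpow_zero]

/-- the linear map `θ ↦ 2^r (1 + m) (2^(-r) θ)` on the crossing vectors. -/
def fh (S : Finset (Fin n)) (r : CC S → ℝ) (m : Mt n) : (CC S → ℝ) →ₗ[ℝ] (CC S → ℝ) where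
  toFun θ := fun c => θ c + 2 ^ (r c) * (m * nn S (sc r θ)) c.1.1 c.1.2
  map_add' θ θ' := by
    funext c
    simp only [Pi.add_apply]
    rw [sc_add, nn_add, mul_add, Matrix.add_apply]
    ring
  map_smul' a θ := by
    funext c
    simp only [Pi.smul_apply, smul_eq_mul, RingHom.id_apply]
    rw [sc_smul, nn_smul, Matrix.mul_smul, Matrix.smul_apply, smul_eq_mul]
    ring

theorem fh_apply (m : Mt n) (θ : CC S → ℝ) (c : CC S) :
    fh S r m θ c = θ c + 2 ^ (r c) * (m * nn S (sc r θ)) c.1.1 c.1.2 := rfl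

theorem abs_sc_le (θ : CC S → ℝ) (c : CC S) : |sc r θ c| ≤ ‖θ‖ * 2 ^ (-(r c)) := by
  unfold sc
  rw [abs_mul, abs_of_pos (Real.rpow_pos_of_pos two_pos _), mul_comm]
  exact mul_le_mul_of_nonneg_right (norm_le_pi_norm θ c) (Real.rpow_nonneg two_pos.le _)

theorem fh_sub_le (H : Hyp S R r w) {m : Mt n} {a δ : ℝ} (ha : 0 ≤ a)
    (hm : ∀ i j, |m i j| ≤ a * 2 ^ (-(ovr S R r i j))) (hδ : n * 2 ^ (-w) * a ≤ δ)
    (θ : CC S → ℝ) : ‖fh S r m θ - θ‖ ≤ δ * ‖θ‖ := by
  have hδ0 : 0 ≤ δ := le_trans (by positivity) hδ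
  rw [pi_norm_le_iff_of_nonneg (by positivity)]
  intro c
  rw [Pi.sub_apply, fh_apply, add_sub_cancel_left, Real.norm_eq_abs, abs_mul,
    abs_of_pos (Real.rpow_pos_of_pos two_pos _)]
  have h1 := mul_nn_le H ha hm (norm_nonneg θ) (abs_sc_le (r := r) θ) c.1.1 c.1.2
  rw [ovr_cross] at h1
  calc (2:ℝ) ^ (r c) * |(m * nn S (sc r θ)) c.1.1 c.1.2|
      ≤ 2 ^ (r c) * ((n * 2 ^ (-w) * (a * ‖θ‖)) * 2 ^ (-(r c))) :=
        mul_le_mul_of_nonneg_left h1 (Real.rpow_nonneg two_pos.le _)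
    _ = (n * 2 ^ (-w) * a) * ‖θ‖ * (2 ^ (r c) * 2 ^ (-(r c))) := by ring
    _ = (n * 2 ^ (-w) * a) * ‖θ‖ := by rw [two_rpow_mul_neg, mul_one]
    _ ≤ δ * ‖θ‖ := mul_le_mul_of_nonneg_right hδ (norm_nonneg _)

/-- the cube. -/
def cube (S : Finset (Fin n)) : Set (CC S → ℝ) := Set.univ.pi fun _ => Set.Icc (-1 : ℝ) 1

theorem measurableSet_cube : MeasurableSet (cube S) :=
  MeasurableSet.univ_pi fun _ => measurableSet_Icc

theorem uniC_eq_restrict : uniC S = ((2 : ℝ≥0∞)⁻¹) ^ Fintype.card (CC S) •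
    (volume : Measure (CC S → ℝ)).restrict (cube S) := by
  unfold uniC
  refine Measure.pi_eq fun s hs => ?_
  rw [Measure.smul_apply, cube]
  have h1 : (volume : Measure (CC S → ℝ)).restrict (Set.univ.pi fun _ => Set.Icc (-1 : ℝ) 1)
      = Measure.pi fun _ => (volume : Measure ℝ).restrict (Set.Icc (-1 : ℝ) 1) := by
    rw [volume_pi, Measure.restrict_pi_pi]
  rw [h1, Measure.pi_pi]
  unfold uni
  simp_rw [Measure.smul_apply]
  rw [smul_eq_mul]
  simp_rw [smul_eq_mul]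
  rw [Finset.prod_mul_distrib]
  simp

theorem uniC_le (X : Set (CC S → ℝ)) :
    uniC S X ≤ ((2 : ℝ≥0∞)⁻¹) ^ Fintype.card (CC S) * volume X := by
  rw [uniC_eq_restrict, Measure.smul_apply, smul_eq_mul]
  gcongr
  exact Measure.restrict_le_self

theorem uniC_eq {X : Set (CC S → ℝ)} (hX : MeasurableSet X) (h : X ⊆ cube S) :
    uniC S X = ((2 : ℝ≥0∞)⁻¹) ^ Fintype.card (CC S) * volume X := by
  rw [uniC_eq_restrict, Measure.smul_apply, smul_eq_mul, Measure.restrict_apply hX,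
    Set.inter_eq_left.2 h]

/-- the normalising constant. -/
def kap (S : Finset (Fin n)) (R : Fin n → Fin n → ℝ) (r : CC S → ℝ) : ℝ :=
  ∏ c : CC S, 2 ^ (r c - R c.1.1 c.1.2)

theorem kap_pos : 0 < kap S R r := Finset.prod_pos fun _ _ => by positivity

/-- the set of the `θ` which satisfy the crossing constraint. -/
def Q (S : Finset (Fin n)) (R : Fin n → Fin n → ℝ) (r : CC S → ℝ) (m : Mt n) : Set (CC S → ℝ) :=
  fh S r m ⁻¹' Set.Icc (fun c => 2 ^ (r c) * m c.1.1 c.1.2 - 2 ^ (r c - R c.1.1 c.1.2))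
    (fun c => 2 ^ (r c) * m c.1.1 c.1.2 + 2 ^ (r c - R c.1.1 c.1.2))

theorem measurableSet_Q (m : Mt n) : MeasurableSet (Q S R r m) :=
  (LinearMap.continuous_of_finiteDimensional (fh S r m)).measurable measurableSet_Icc

theorem volume_Q {m : Mt n} (hdet : LinearMap.det (fh S r m) ≠ 0) :
    ((2 : ℝ≥0∞)⁻¹) ^ Fintype.card (CC S) * volume (Q S R r m)
      = ENNReal.ofReal (|(LinearMap.det (fh S r m))⁻¹| * kap S R r) := by
  unfold Q
  rw [Measure.addHaar_preimage_linearMap _ hdet, Real.volume_Icc_pi]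
  have h1 : ∀ c : CC S, ENNReal.ofReal ((2 ^ (r c) * m c.1.1 c.1.2 + 2 ^ (r c - R c.1.1 c.1.2))
      - (2 ^ (r c) * m c.1.1 c.1.2 - 2 ^ (r c - R c.1.1 c.1.2)))
      = 2 * ENNReal.ofReal (2 ^ (r c - R c.1.1 c.1.2)) := by
    intro c
    rw [show (2:ℝ) ^ (r c) * m c.1.1 c.1.2 + 2 ^ (r c - R c.1.1 c.1.2)
      - (2 ^ (r c) * m c.1.1 c.1.2 - 2 ^ (r c - R c.1.1 c.1.2)) = 2 * 2 ^ (r c - R c.1.1 c.1.2)
      by ring, ENNReal.ofReal_mul zero_le_two]
    simp
  simp_rw [h1]
  rw [Finset.prod_mul_distrib, Finset.prod_const, Finset.card_univ, kap,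
    ENNReal.ofReal_mul (abs_nonneg _), ENNReal.ofReal_prod_of_nonneg (fun c _ => by positivity),
    ← ENNReal.inv_pow]
  rw [mul_left_comm, ← mul_assoc _ ((2 : ℝ≥0∞) ^ Fintype.card (CC S)),
    ENNReal.inv_mul_cancel (by positivity) (ENNReal.pow_ne_top (by simp)), one_mul]

/-- `h v(-s) - 1`. -/
theorem hv_sub (h : Mt n) (s : CC S → ℝ) :
    h * (1 + nn S (-s)) - 1 = (h - 1) - nn S s - (h - 1) * nn S s := by
  rw [nn_neg]
  noncomm_ring

/-- the crossing constraint. -/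
theorem cross_iff (h : Mt n) (θ : CC S → ℝ) :
    (∀ c : CC S, |(h * (1 + nn S (-(sc r θ))) - 1) c.1.1 c.1.2| ≤ 2 ^ (-(R c.1.1 c.1.2)))
      ↔ θ ∈ Q S R r (h - 1) := by
  unfold Q
  rw [Set.mem_preimage, Set.mem_Icc, Pi.le_def, Pi.le_def, ← forall_and]
  refine forall_congr' fun c => ?_
  rw [hv_sub, Matrix.sub_apply, Matrix.sub_apply, nn_cross, fh_apply]
  have h1 : (2:ℝ) ^ (r c - R c.1.1 c.1.2) = 2 ^ (r c) * 2 ^ (-(R c.1.1 c.1.2)) := by
    rw [sub_eq_add_neg, Real.rpow_add two_pos]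
  have h2 : sc r θ c = 2 ^ (-(r c)) * θ c := rfl
  have h3 : (0:ℝ) < 2 ^ (r c) := Real.rpow_pos_of_pos two_pos _
  have h4 : (2:ℝ) ^ (r c) * (2 ^ (-(r c)) * θ c) = θ c := by
    rw [← mul_assoc, two_rpow_mul_neg, one_mul]
  rw [h1, h2, abs_le]
  set x := (h - 1) c.1.1 c.1.2
  set y := ((h - 1) * nn S (sc r θ)) c.1.1 c.1.2
  set u := (2:ℝ) ^ (-(r c)) * θ c
  set v := (2:ℝ) ^ (-(R c.1.1 c.1.2))
  set z := (2:ℝ) ^ (r c)
  rw [← h4]
  constructor
  · rintro ⟨e1, e2⟩
    constructor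
    · have := mul_le_mul_of_nonneg_left e2 h3.le
      linarith
    · have := mul_le_mul_of_nonneg_left e1 h3.le
      linarith
  · rintro ⟨e1, e2⟩
    constructor
    · refine le_of_mul_le_mul_left ?_ h3
      linarith
    · refine le_of_mul_le_mul_left ?_ h3
      linarith

/-- the probability (over `s`) that `h v(-s)` lies in the box of `R`. -/
def P (S : Finset (Fin n)) (R : Fin n → Fin n → ℝ) (r : CC S → ℝ) (h : Mt n) : ℝ≥0∞ :=
  uniC S {θ | h * (1 + nn S (-(sc r θ))) ∈ bx R}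

theorem P_le (H : Hyp S R r w) {h : Mt n} {a δ : ℝ} (ha : 0 ≤ a) (hh : h ∈ bxc a (ovr S R r))
    (hδ : n * 2 ^ (-w) * a ≤ δ) (hδ1 : δ < 1) :
    P S R r h * ENNReal.ofReal ((1 - δ) ^ Fintype.card (CC S)) ≤ ENNReal.ofReal (kap S R r) := by
  have hδ0 : 0 ≤ δ := le_trans (by positivity) hδ
  have hf := fh_sub_le H (m := h - 1) ha hh hδ
  obtain ⟨h1, h2, h3⟩ := lin_bounds hδ0 hδ1 hf
  have h4 : P S R r h ≤ ENNReal.ofReal (|(LinearMap.det (fh S r (h - 1)))⁻¹| * kap S R r) := by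
    rw [← volume_Q h1]
    refine le_trans (measure_mono ?_) (uniC_le _)
    intro θ hθ
    exact (cross_iff h θ).1 fun c => hθ c.1.1 c.1.2
  have h5 : 0 ≤ (1 - δ) ^ Fintype.card (CC S) := pow_nonneg (by linarith) _
  calc P S R r h * ENNReal.ofReal ((1 - δ) ^ Fintype.card (CC S))
      ≤ ENNReal.ofReal (|(LinearMap.det (fh S r (h - 1)))⁻¹| * kap S R r)
        * ENNReal.ofReal ((1 - δ) ^ Fintype.card (CC S)) := by gcongr
    _ = ENNReal.ofReal ((|(LinearMap.det (fh S r (h - 1)))⁻¹| * (1 - δ) ^ Fintype.card (CC S))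
        * kap S R r) := by
        rw [← ENNReal.ofReal_mul (mul_nonneg (abs_nonneg _) kap_pos.le)]
        congr 1
        ring
    _ ≤ ENNReal.ofReal (kap S R r) := by
        refine ENNReal.ofReal_le_ofReal ?_
        exact mul_le_of_le_one_left kap_pos.le h2

theorem le_P (H : Hyp S R r w) {h : Mt n} {a δ : ℝ} (ha : 0 ≤ a) (hh : h ∈ bxc a (ovr S R r))
    (hδ : n * 2 ^ (-w) * a ≤ δ) (hδ1 : δ < 1) (h1' : a + 2 ^ (-w) + δ ≤ 1) :
    ENNReal.ofReal (kap S R r) ≤ P S R r h * ENNReal.ofReal ((1 + δ) ^ Fintype.card (CC S)) := by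
  have hδ0 : 0 ≤ δ := le_trans (by positivity) hδ
  have hf := fh_sub_le H (m := h - 1) ha hh hδ
  obtain ⟨h1, h2, h3⟩ := lin_bounds hδ0 hδ1 hf
  have hw0 : (0:ℝ) < 2 ^ (-w) := Real.rpow_pos_of_pos two_pos _
  -- the solutions are in the cube
  have hQn : ∀ θ ∈ Q S R r (h - 1), ‖θ‖ ≤ 1 := by
    intro θ hθ
    have h4 : ‖fh S r (h - 1) θ‖ ≤ a + 2 ^ (-w) := by
      rw [pi_norm_le_iff_of_nonneg (by positivity)]
      intro c
      have h5 := hθ.1 c
      have h6 := hθ.2 c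
      simp only at h5 h6
      have h7 := hh c.1.1 c.1.2
      rw [ovr_cross] at h7
      have h8 : |2 ^ (r c) * (h - 1) c.1.1 c.1.2| ≤ a := by
        rw [abs_mul, abs_of_pos (Real.rpow_pos_of_pos two_pos _)]
        calc (2:ℝ) ^ (r c) * |(h - 1) c.1.1 c.1.2| ≤ 2 ^ (r c) * (a * 2 ^ (-(r c))) :=
              mul_le_mul_of_nonneg_left h7 (Real.rpow_nonneg two_pos.le _)
          _ = a * (2 ^ (r c) * 2 ^ (-(r c))) := by ring
          _ = a := by rw [two_rpow_mul_neg, mul_one]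
      have h9 : (2:ℝ) ^ (r c - R c.1.1 c.1.2) ≤ 2 ^ (-w) :=
        Real.rpow_le_rpow_of_exponent_le one_le_two (by linarith [H.h1 c])
      rw [Real.norm_eq_abs, abs_le]
      rw [abs_le] at h8
      constructor <;> linarith [h8.1, h8.2]
    have h10 : (1 - δ) * ‖θ‖ ≤ 1 - δ := by
      have e1 : ‖θ‖ ≤ ‖fh S r (h - 1) θ‖ + ‖fh S r (h - 1) θ - θ‖ := by
        have := norm_sub_le (fh S r (h - 1) θ) (fh S r (h - 1) θ - θ)
        rwa [sub_sub_cancel] at this
      linarith [hf θ]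
    by_contra hcon
    push Not at hcon
    nlinarith
  have hsub : Q S R r (h - 1) ⊆ cube S := by
    intro θ hθ c _
    have := (norm_le_pi_norm θ c).trans (hQn θ hθ)
    exact abs_le.1 this
  have hsub2 : Q S R r (h - 1) ⊆ {θ | h * (1 + nn S (-(sc r θ))) ∈ bx R} := by
    intro θ hθ i j
    by_cases hij : i ∈ S ∧ j ∉ S
    · exact (cross_iff h θ).2 hθ ⟨(i, j), hij⟩
    · rw [hv_sub, Matrix.sub_apply, Matrix.sub_apply, nn_apply, dif_neg hij, sub_zero]
      have h4 := hh i j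
      rw [ovr_not R r hij] at h4
      have h5 := mul_nn_le H ha hh (norm_nonneg θ) (abs_sc_le (r := r) θ) i j
      rw [ovr_not R r hij] at h5
      have h6 := hQn θ hθ
      have h7 : (0:ℝ) < 2 ^ (-(R i j)) := Real.rpow_pos_of_pos two_pos _
      have h8 : n * 2 ^ (-w) * (a * ‖θ‖) ≤ δ := by
        calc n * 2 ^ (-w) * (a * ‖θ‖) = (n * 2 ^ (-w) * a) * ‖θ‖ := by ring
          _ ≤ (n * 2 ^ (-w) * a) * 1 := mul_le_mul_of_nonneg_left h6 (by positivity)
          _ ≤ δ := by rw [mul_one]; exact hδ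
      calc |(h - 1) i j - ((h - 1) * nn S (sc r θ)) i j|
          ≤ |(h - 1) i j| + |((h - 1) * nn S (sc r θ)) i j| := abs_sub _ _
        _ ≤ a * 2 ^ (-(R i j)) + δ * 2 ^ (-(R i j)) := by
            refine add_le_add h4 (h5.trans ?_)
            exact mul_le_mul_of_nonneg_right h8 h7.le
        _ = (a + δ) * 2 ^ (-(R i j)) := by ring
        _ ≤ 1 * 2 ^ (-(R i j)) := by
            refine mul_le_mul_of_nonneg_right (by linarith) h7.le
        _ = _ := one_mul _
  have h4 : ENNReal.ofReal (|(LinearMap.det (fh S r (h - 1)))⁻¹| * kap S R r) ≤ P S R r h := by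
    rw [← volume_Q h1, ← uniC_eq (measurableSet_Q _) hsub]
    exact measure_mono hsub2
  calc ENNReal.ofReal (kap S R r)
      ≤ ENNReal.ofReal ((|(LinearMap.det (fh S r (h - 1)))⁻¹| * (1 + δ) ^ Fintype.card (CC S))
        * kap S R r) := by
        refine ENNReal.ofReal_le_ofReal ?_
        exact le_mul_of_one_le_left kap_pos.le h3
    _ = ENNReal.ofReal (|(LinearMap.det (fh S r (h - 1)))⁻¹| * kap S R r)
        * ENNReal.ofReal ((1 + δ) ^ Fintype.card (CC S)) := by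
        rw [← ENNReal.ofReal_mul (mul_nonneg (abs_nonneg _) kap_pos.le)]
        congr 1
        ring
    _ ≤ _ := by gcongr


theorem measurable_sc : Measurable (sc r : (CC S → ℝ) → (CC S → ℝ)) := by
  unfold sc
  fun_prop

theorem continuous_nn : Continuous (nn S : (CC S → ℝ) → Mt n) := by
  refine continuous_matrix fun a b => ?_
  simp only [nn_apply]
  split_ifs with h
  · exact continuous_apply _
  · exact continuous_const

theorem measurable_mul_aux {X : Type*} [MeasurableSpace X] {f g : X → Mt n} (hf : Measurable f)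
    (hg : Measurable g) : Measurable fun x => f x * g x := by
  refine measurable_pi_iff.2 fun i => measurable_pi_iff.2 fun j => ?_
  have h : Measurable fun x => ∑ k, f x i k * g x k j := Finset.measurable_sum _ fun k _ =>
    ((Nz_323.measurable_entry i k).comp hf).mul ((Nz_323.measurable_entry k j).comp hg)
  exact h

theorem measurable_mulv {s : (CC S → ℝ) → (CC S → ℝ)} (hs : Measurable s) :
    Measurable fun p : Mt n × (CC S → ℝ) => p.1 * (1 + nn S (s p.2)) := by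
  have h1 : Measurable fun p : Mt n × (CC S → ℝ) => (1 : Mt n) + nn S (s p.2) := by
    have h2 : Continuous fun v : CC S → ℝ => (1 : Mt n) + nn S v :=
      continuous_const.add continuous_nn
    exact h2.measurable.comp (hs.comp measurable_snd)
  exact measurable_mul_aux measurable_fst h1

/-- the law of `ζ_R v(s)` on matrices. -/
def lw (S : Finset (Fin n)) (R : Fin n → Fin n → ℝ) (r : CC S → ℝ) : Measure (Mt n) :=
  ((un R).prod (uniC S)).map fun p => p.1 * (1 + nn S (sc r p.2))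

instance instSFiniteHaar : SFinite (haar n) := by unfold haar; infer_instance

theorem lw_apply {A : Set (Mt n)} (hA : MeasurableSet A) :
    lw S R r A = (haar n (bx R))⁻¹ * ∫⁻ h in A, P S R r h ∂(haar n) := by
  have hF : Measurable fun p : Mt n × (CC S → ℝ) => p.1 * (1 + nn S (sc r p.2)) :=
    measurable_mulv measurable_sc
  have hG : Measurable fun p : Mt n × (CC S → ℝ) => p.1 * (1 + nn S (-(sc r p.2))) :=
    measurable_mulv (s := fun θ => -(sc r θ)) measurable_sc.neg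
  set E : Set (Mt n × (CC S → ℝ)) := {p | p.1 ∈ A ∧ p.1 * (1 + nn S (-(sc r p.2))) ∈ bx R} with hEdef
  have hE : MeasurableSet E := (measurable_fst hA).inter (hG (Nz_323.measurableSet_bx R))
  have h1 : ∫⁻ h in A, P S R r h ∂(haar n) = ((haar n).prod (uniC S)) E := by
    rw [Measure.prod_apply hE, ← lintegral_indicator hA]
    refine lintegral_congr fun h => ?_
    by_cases hh : h ∈ A
    · rw [Set.indicator_of_mem hh]
      unfold P
      congr 1
      ext θ
      simp [hEdef, hh]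
    · rw [Set.indicator_of_notMem hh]
      have : Prod.mk h ⁻¹' E = ∅ := by
        ext θ
        simp [hEdef, hh]
      rw [this, measure_empty]
  unfold lw un
  rw [Measure.map_apply hF hA, Measure.prod_smul_left, Measure.smul_apply, smul_eq_mul]
  congr 1
  rw [h1, Measure.prod_apply_symm (hF hA), Measure.prod_apply_symm hE]
  refine lintegral_congr fun θ => ?_
  have hv : 0 < (1 + nn S (sc r θ)).det := by rw [det_one_add_nn]; exact one_pos
  have hinv : (1 + nn S (sc r θ)) * (1 + nn S (-(sc r θ))) = 1 := by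
    rw [one_add_mul, add_neg_cancel, nn_zero, add_zero]
  have hEs : MeasurableSet ((fun g : Mt n => (g, θ)) ⁻¹' E) := measurable_prodMk_right hE
  conv_rhs => rw [← Nz_323.haar_mul_right hv]
  rw [Measure.map_apply (Nz_323.measurable_mul_right _) hEs,
    Measure.restrict_apply (measurable_prodMk_right (hF hA))]
  congr 1
  ext g
  have h2 : g * (1 + nn S (sc r θ)) * (1 + nn S (-(sc r θ))) = g := by
    rw [mul_assoc, hinv, mul_one]
  simp only [Set.mem_inter_iff, Set.mem_preimage, hEdef, Set.mem_ofPred_eq, h2]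

theorem isProb_lw (hR : Adm R) : IsProbabilityMeasure (lw S R r) := by
  have := isProb_un hR
  exact Measure.isProbabilityMeasure_map (measurable_mulv measurable_sc).aemeasurable

/-- `ζ v(s)` is in the dilated box. -/
theorem mem_dilated (H : Hyp S R r w) {g : Mt n} (hg : g ∈ bx R) {θ : CC S → ℝ} (hθ : ‖θ‖ ≤ 1) :
    g * (1 + nn S (sc r θ)) ∈ bxc (1 + (n + 1) * 2 ^ (-w)) (ovr S R r) := by
  have hw0 : (0:ℝ) < 2 ^ (-w) := Real.rpow_pos_of_pos two_pos _
  have hw1 : (2:ℝ) ^ (-w) ≤ 1 := Real.rpow_le_one_of_one_le_of_nonpos one_le_two (by linarith [H.hw])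
  have hm : ∀ i j, |(g - 1) i j| ≤ 1 * 2 ^ (-(ovr S R r i j)) := by
    intro i j
    rw [one_mul]
    refine (hg i j).trans ?_
    refine Real.rpow_le_rpow_of_exponent_le one_le_two ?_
    by_cases hij : i ∈ S ∧ j ∉ S
    · have h1 : ovr S R r i j = r ⟨(i, j), hij⟩ := ovr_cross S R r ⟨(i, j), hij⟩
      have h2 := H.h1 ⟨(i, j), hij⟩
      simp only at h2
      linarith [H.hw]
    · rw [ovr_not R r hij]
  intro i j
  have h0 : g * (1 + nn S (sc r θ)) - 1 = (g - 1) + nn S (sc r θ) + (g - 1) * nn S (sc r θ) := by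
    noncomm_ring
  rw [h0, Matrix.add_apply, Matrix.add_apply]
  have h5 := mul_nn_le H zero_le_one hm (norm_nonneg θ) (abs_sc_le (r := r) θ) i j
  have h7 : (0:ℝ) < 2 ^ (-(ovr S R r i j)) := Real.rpow_pos_of_pos two_pos _
  have h8 : n * 2 ^ (-w) * (1 * ‖θ‖) ≤ n * 2 ^ (-w) := by
    rw [one_mul]
    exact mul_le_of_le_one_right (by positivity) hθ
  have h9 : |((g - 1) * nn S (sc r θ)) i j| ≤ (n * 2 ^ (-w)) * 2 ^ (-(ovr S R r i j)) :=
    h5.trans (mul_le_mul_of_nonneg_right h8 h7.le)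
  have h10 : |(g - 1) i j| + |nn S (sc r θ) i j| ≤ (1 + 2 ^ (-w)) * 2 ^ (-(ovr S R r i j)) := by
    by_cases hij : i ∈ S ∧ j ∉ S
    · have e1 : ovr S R r i j = r ⟨(i, j), hij⟩ := ovr_cross S R r ⟨(i, j), hij⟩
      have e2 := H.h1 ⟨(i, j), hij⟩
      simp only at e2
      have e3 : |(g - 1) i j| ≤ 2 ^ (-w) * 2 ^ (-(ovr S R r i j)) := by
        refine (hg i j).trans ?_
        rw [← Real.rpow_add two_pos]
        exact Real.rpow_le_rpow_of_exponent_le one_le_two (by linarith)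
      have e4 : |nn S (sc r θ) i j| ≤ 1 * 2 ^ (-(ovr S R r i j)) := by
        rw [nn_apply, dif_pos hij, e1]
        exact (abs_sc_le (r := r) θ ⟨(i, j), hij⟩).trans
          (mul_le_mul_of_nonneg_right hθ (Real.rpow_nonneg two_pos.le _))
      linarith
    · rw [nn_apply, dif_neg hij, abs_zero, add_zero]
      have e1 := hm i j
      nlinarith
  calc |(g - 1) i j + nn S (sc r θ) i j + ((g - 1) * nn S (sc r θ)) i j|
      ≤ |(g - 1) i j| + |nn S (sc r θ) i j| + |((g - 1) * nn S (sc r θ)) i j| := abs_add_three _ _ _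
    _ ≤ (1 + 2 ^ (-w)) * 2 ^ (-(ovr S R r i j)) + (n * 2 ^ (-w)) * 2 ^ (-(ovr S R r i j)) :=
        add_le_add h10 h9
    _ = _ := by ring

theorem uniC_cube_compl : uniC S (cube S)ᶜ = 0 := by
  rw [uniC_eq_restrict, Measure.smul_apply, Measure.restrict_apply measurableSet_cube.compl,
    Set.compl_inter_self]
  simp

theorem norm_le_one_of_mem_cube {θ : CC S → ℝ} (h : θ ∈ cube S) : ‖θ‖ ≤ 1 := by
  rw [pi_norm_le_iff_of_nonneg zero_le_one]
  intro c
  exact abs_le.2 (h c (Set.mem_univ c))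

/-- the dilated box, with control of the determinant. -/
def Bp (R : Fin n → Fin n → ℝ) (e : ℝ) : Set (Mt n) := bxc (1 + e) R ∩ {h | 1 / 2 ≤ h.det}

theorem measurableSet_Bp (R : Fin n → Fin n → ℝ) (e : ℝ) : MeasurableSet (Bp R e) :=
  (Nz_323.measurableSet_bxc _ _).inter (measurableSet_le measurable_const Nz_323.measurable_det)

theorem P_eq_zero (H : Hyp S R r w) (hR : Adm R) {h : Mt n}
    (hh : h ∉ Bp (ovr S R r) ((n + 1) * 2 ^ (-w))) : P S R r h = 0 := by
  refine measure_mono_null ?_ (uniC_cube_compl (S := S))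
  intro θ hθ hc
  refine hh ?_
  have hθ' : h * (1 + nn S (-(sc r θ))) ∈ bx R := hθ
  have hinv : (1 + nn S (-(sc r θ))) * (1 + nn S (sc r θ)) = 1 := by
    rw [one_add_mul, neg_add_cancel, nn_zero, add_zero]
  have h1 : h * (1 + nn S (-(sc r θ))) * (1 + nn S (sc r θ)) = h := by
    rw [mul_assoc, hinv, mul_one]
  have h2 := mem_dilated H hθ' (norm_le_one_of_mem_cube hc)
  rw [h1] at h2
  refine ⟨h2, ?_⟩
  have h3 := (hR _ hθ').1
  rwa [Matrix.det_mul, det_one_add_nn, mul_one] at h3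


/-- the constant of (L3). -/
def C3 (n : ℕ) : ℝ := 4 * n ^ 3 + 4 ^ n * (2 ^ (n ^ 2) + n ^ 2) * (n + 1)

theorem card_CC_le (S : Finset (Fin n)) : Fintype.card (CC S) ≤ n ^ 2 := by
  refine (Fintype.card_subtype_le _).trans ?_
  rw [Fintype.card_prod, Fintype.card_fin, sq]

theorem haar_Bp_le {R : Fin n → Fin n → ℝ} (hR : Adm R) {e : ℝ} (he0 : 0 ≤ e) (he1 : e ≤ 1) :
    (haar n).real (Bp R e) ≤ (haar n).real (bx R) * (1 + 4 ^ n * 2 ^ (n ^ 2) * e) := by
  have hsub : Bp R e ⊆ bx R ∪ (Bp R e \ bx R) := fun x hx => by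
    by_cases hxB : x ∈ bx R
    · exact Or.inl hxB
    · exact Or.inr ⟨hx, hxB⟩
  have hv := Nz_323.vb_pos R
  have hBsub : bx R ⊆ bxc (1 + e) R := by
    intro g hg i j
    refine (hg i j).trans ?_
    have : (0:ℝ) < (2:ℝ) ^ (-(R i j)) := by positivity
    nlinarith
  have h7 : haar n (Bp R e \ bx R) ≤ ENNReal.ofReal ((2:ℝ) ^ n * (((1 + e) ^ (n ^ 2) - 1) * vb R)) := by
    unfold haar
    rw [withDensity_apply _ ((measurableSet_Bp R e).diff (Nz_323.measurableSet_bx R))]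
    calc ∫⁻ g in Bp R e \ bx R, Nz_323.rho g ≤ ∫⁻ _ in Bp R e \ bx R, ENNReal.ofReal ((2:ℝ) ^ n) := by
          refine setLIntegral_mono measurable_const fun g hg => ?_
          have := Nz_323.rho_le_of_det (by norm_num : (0:ℝ) < 1 / 2) hg.1.2
          simpa using this
      _ ≤ ENNReal.ofReal ((2:ℝ) ^ n) * volume (bxc (1 + e) R \ bx R) := by
          rw [setLIntegral_const]
          gcongr
          exact fun g hg => hg.1
      _ = ENNReal.ofReal ((2:ℝ) ^ n * (((1 + e) ^ (n ^ 2) - 1) * vb R)) := by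
          rw [measure_sdiff hBsub (Nz_323.measurableSet_bx R).nullMeasurableSet ?_, Nz_323.bx_eq_bxc,
            Nz_323.volume_bxc (by linarith), Nz_323.volume_bxc (by norm_num), ← ENNReal.ofReal_sub,
            ← ENNReal.ofReal_mul (by positivity)]
          · congr 1
            ring
          · positivity
          · rw [Nz_323.bx_eq_bxc, Nz_323.volume_bxc (by norm_num)]
            exact ENNReal.ofReal_ne_top
  have hpw : (1:ℝ) ≤ (1 + e) ^ (n ^ 2) := one_le_pow₀ (by linarith)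
  have h8 : (haar n).real (Bp R e \ bx R) ≤ (2:ℝ) ^ n * (((1 + e) ^ (n ^ 2) - 1) * vb R) := by
    have := ENNReal.toReal_mono ENNReal.ofReal_ne_top h7
    rwa [ENNReal.toReal_ofReal] at this
    have h9 : (0:ℝ) ≤ (1 + e) ^ (n ^ 2) - 1 := by linarith
    positivity
  have hfin : haar n (bx R ∪ (Bp R e \ bx R)) ≠ ⊤ :=
    ((measure_union_le _ _).trans_lt (ENNReal.add_lt_top.2
      ⟨Nz_323.haar_bx_lt_top hR, h7.trans_lt ENNReal.ofReal_lt_top⟩)).ne
  have h6 : (2:ℝ)⁻¹ ^ n * vb R ≤ (haar n).real (bx R) := by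
    have := ENNReal.toReal_mono (Nz_323.haar_bx_lt_top hR).ne (Nz_323.le_haar_bx hR)
    rwa [ENNReal.toReal_ofReal (by positivity)] at this
  have h10 := Nz_323.one_add_pow_le he0 he1 (n ^ 2)
  have h2n : (2:ℝ) ^ n * (2:ℝ)⁻¹ ^ n = 1 := by rw [← mul_pow]; simp
  have h4n : (4:ℝ) ^ n = 2 ^ n * 2 ^ n := by rw [← mul_pow]; norm_num
  calc (haar n).real (Bp R e) ≤ (haar n).real (bx R) + (haar n).real (Bp R e \ bx R) :=
        (measureReal_mono hsub hfin).trans (measureReal_union_le _ _)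
    _ ≤ (haar n).real (bx R) + 2 ^ n * ((2 ^ (n ^ 2) * e) * vb R) := by
        refine add_le_add le_rfl (h8.trans ?_)
        gcongr
        nlinarith
    _ = (haar n).real (bx R) + (4 ^ n * 2 ^ (n ^ 2) * e) * ((2:ℝ)⁻¹ ^ n * vb R) := by
        rw [h4n]
        linear_combination (-(2 ^ n * 2 ^ (n ^ 2) * e * vb R)) * h2n
    _ ≤ (haar n).real (bx R) + (4 ^ n * 2 ^ (n ^ 2) * e) * (haar n).real (bx R) := by gcongr
    _ = _ := by ring

theorem haar_Bm_ge {R : Fin n → Fin n → ℝ} (hR : Adm R) {e : ℝ} (he0 : 0 ≤ e) (he1 : e ≤ 1)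
    (A : Set (Mt n)) :
    (haar n).real (A ∩ bx R) - 4 ^ n * n ^ 2 * e * (haar n).real (bx R)
      ≤ (haar n).real (A ∩ bxc (1 - e) R) := by
  have hv := Nz_323.vb_pos R
  have hBsub : bxc (1 - e) R ⊆ bx R := by
    intro g hg i j
    refine (hg i j).trans ?_
    have : (0:ℝ) < (2:ℝ) ^ (-(R i j)) := by positivity
    nlinarith
  have hsub : A ∩ bx R ⊆ (A ∩ bxc (1 - e) R) ∪ (bx R \ bxc (1 - e) R) := fun x hx => by
    by_cases hxB : x ∈ bxc (1 - e) R
    · exact Or.inl ⟨hx.1, hxB⟩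
    · exact Or.inr ⟨hx.2, hxB⟩
  have hfin0 : haar n (bx R) ≠ ⊤ := (Nz_323.haar_bx_lt_top hR).ne
  have h7 : haar n (bx R \ bxc (1 - e) R)
      ≤ ENNReal.ofReal ((2:ℝ) ^ n * ((1 - (1 - e) ^ (n ^ 2)) * vb R)) := by
    unfold haar
    rw [withDensity_apply _ ((Nz_323.measurableSet_bx R).diff (Nz_323.measurableSet_bxc _ R))]
    calc ∫⁻ g in bx R \ bxc (1 - e) R, Nz_323.rho g
        ≤ ∫⁻ _ in bx R \ bxc (1 - e) R, ENNReal.ofReal ((2:ℝ) ^ n) := by
          refine setLIntegral_mono measurable_const fun g hg => ?_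
          have := Nz_323.rho_le_of_det (by norm_num : (0:ℝ) < 1 / 2) (hR g hg.1).1
          simpa using this
      _ = ENNReal.ofReal ((2:ℝ) ^ n) * volume (bx R \ bxc (1 - e) R) := by
          rw [setLIntegral_const]
      _ = ENNReal.ofReal ((2:ℝ) ^ n * ((1 - (1 - e) ^ (n ^ 2)) * vb R)) := by
          rw [measure_sdiff hBsub (Nz_323.measurableSet_bxc _ R).nullMeasurableSet ?_,
            Nz_323.bx_eq_bxc, Nz_323.volume_bxc zero_le_one, Nz_323.volume_bxc (by linarith),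
            ← ENNReal.ofReal_sub, ← ENNReal.ofReal_mul (by positivity)]
          · congr 1
            ring
          · have : 0 ≤ 1 - e := by linarith
            positivity
          · rw [Nz_323.volume_bxc (by linarith)]
            exact ENNReal.ofReal_ne_top
  have hpw : 1 - n ^ 2 * e ≤ (1 - e) ^ (n ^ 2) := by
    have := one_add_mul_le_pow (a := -e) (by linarith) (n ^ 2)
    push_cast at this
    calc 1 - n ^ 2 * e = 1 + n ^ 2 * -e := by ring
      _ ≤ (1 + -e) ^ (n ^ 2) := this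
      _ = _ := by ring
  have hpw2 : (1 - e) ^ (n ^ 2) ≤ 1 := pow_le_one₀ (by linarith) (by linarith)
  have h8 : (haar n).real (bx R \ bxc (1 - e) R) ≤ (2:ℝ) ^ n * ((1 - (1 - e) ^ (n ^ 2)) * vb R) := by
    have := ENNReal.toReal_mono ENNReal.ofReal_ne_top h7
    rwa [ENNReal.toReal_ofReal] at this
    have h9 : (0:ℝ) ≤ 1 - (1 - e) ^ (n ^ 2) := by linarith
    positivity
  have h6 : (2:ℝ)⁻¹ ^ n * vb R ≤ (haar n).real (bx R) := by
    have := ENNReal.toReal_mono hfin0 (Nz_323.le_haar_bx hR)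
    rwa [ENNReal.toReal_ofReal (by positivity)] at this
  have h2n : (2:ℝ) ^ n * (2:ℝ)⁻¹ ^ n = 1 := by rw [← mul_pow]; simp
  have h4n : (4:ℝ) ^ n = 2 ^ n * 2 ^ n := by rw [← mul_pow]; norm_num
  have hfin : haar n ((A ∩ bxc (1 - e) R) ∪ (bx R \ bxc (1 - e) R)) ≠ ⊤ := by
    refine ne_top_of_le_ne_top hfin0 (measure_mono ?_)
    rintro x (hx | hx)
    · exact hBsub hx.2
    · exact hx.1
  have h11 : (haar n).real (A ∩ bx R)
      ≤ (haar n).real (A ∩ bxc (1 - e) R) + (haar n).real (bx R \ bxc (1 - e) R) :=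
    (measureReal_mono hsub hfin).trans (measureReal_union_le _ _)
  have h12 : (haar n).real (bx R \ bxc (1 - e) R) ≤ 4 ^ n * n ^ 2 * e * (haar n).real (bx R) := by
    calc (haar n).real (bx R \ bxc (1 - e) R) ≤ 2 ^ n * ((1 - (1 - e) ^ (n ^ 2)) * vb R) := h8
      _ ≤ 2 ^ n * ((n ^ 2 * e) * vb R) := by
          gcongr
          linarith
      _ = (4 ^ n * n ^ 2 * e) * ((2:ℝ)⁻¹ ^ n * vb R) := by
          rw [h4n]
          linear_combination (-(2 ^ n * n ^ 2 * e * vb R)) * h2n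
      _ ≤ (4 ^ n * n ^ 2 * e) * (haar n).real (bx R) := by gcongr
  linarith

theorem tvle_of_le {Y : Type*} [MeasurableSpace Y] {μ ν : Measure Y} [IsProbabilityMeasure μ]
    [IsProbabilityMeasure ν] {c : ℝ} (h : ∀ A, MeasurableSet A → ν.real A ≤ μ.real A + c) :
    TVle μ ν c := by
  intro A hA
  have h1 := h A hA
  have h2 := h Aᶜ hA.compl
  rw [probReal_compl_eq_one_sub hA, probReal_compl_eq_one_sub hA] at h2
  rw [abs_le]
  constructor <;> linarith


theorem num_main {N : ℕ} {δ y z b t κ H0 L : ℝ} (hy0 : 0 ≤ y) (hH0p : 0 < H0) (ht0 : 0 ≤ t)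
    (hzt : z = t * b) (hup : (1 - 2 * δ) ^ N * H0 ≤ κ * (b * (1 + y)))
    (hlow : κ * z ≤ (1 + δ) ^ N * (H0 * L)) :
    (1 - 2 * δ) ^ N * t ≤ (1 + y) * (1 + δ) ^ N * L := by
  have e1 : (1 - 2 * δ) ^ N * H0 * t ≤ κ * (b * (1 + y)) * t :=
    mul_le_mul_of_nonneg_right hup ht0
  have e2 : κ * (b * (1 + y)) * t = (1 + y) * (κ * z) := by rw [hzt]; ring
  have e3 : (1 + y) * (κ * z) ≤ (1 + y) * ((1 + δ) ^ N * (H0 * L)) :=
    mul_le_mul_of_nonneg_left hlow (by linarith)
  have e4 : ((1 - 2 * δ) ^ N * t) * H0 ≤ ((1 + y) * (1 + δ) ^ N * L) * H0 := by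
    calc ((1 - 2 * δ) ^ N * t) * H0 = (1 - 2 * δ) ^ N * H0 * t := by ring
      _ ≤ (1 + y) * (κ * z) := e1.trans e2.le
      _ ≤ _ := e3
      _ = _ := by ring
  exact le_of_mul_le_mul_right e4 hH0p

theorem num_final {N : ℕ} {δ y t L : ℝ} (hδ0 : 0 ≤ δ) (hδ1 : 2 * δ < 1) (hy0 : 0 ≤ y)
    (hy1 : y ≤ 1) (hNδ : 2 * (N * δ) ≤ 1) (ht0 : 0 ≤ t) (ht1 : t ≤ 1) (hL0 : 0 ≤ L)
    (hmain : (1 - 2 * δ) ^ N * t ≤ (1 + y) * (1 + δ) ^ N * L) :
    t - (N * δ + y + N * (2 * δ)) ≤ L := by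
  have hNδ0 : 0 ≤ N * δ := by positivity
  have hp1 : 1 - N * (2 * δ) ≤ (1 - 2 * δ) ^ N := by
    have := one_add_mul_le_pow (a := -(2 * δ)) (by linarith) N
    calc 1 - N * (2 * δ) = 1 + N * -(2 * δ) := by ring
      _ ≤ (1 + -(2 * δ)) ^ N := this
      _ = _ := by ring
  have hp2 : 1 - N * δ ≤ (1 - δ) ^ N := by
    have := one_add_mul_le_pow (a := -δ) (by linarith) N
    calc 1 - N * δ = 1 + N * -δ := by ring
      _ ≤ (1 + -δ) ^ N := this
      _ = _ := by ring
  have hp3 : (1 - δ) ^ N * (1 + δ) ^ N ≤ 1 := by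
    rw [← mul_pow]
    exact pow_le_one₀ (by nlinarith) (by nlinarith)
  have hp4 : (1 - y) * (1 + y) ≤ 1 := by nlinarith
  have hδN0 : 0 ≤ (1 - δ) ^ N := pow_nonneg (by linarith) _
  have hfin : (1 - δ) ^ N * (1 - y) * ((1 - 2 * δ) ^ N * t) ≤ L := by
    calc (1 - δ) ^ N * (1 - y) * ((1 - 2 * δ) ^ N * t)
        ≤ (1 - δ) ^ N * (1 - y) * ((1 + y) * (1 + δ) ^ N * L) :=
          mul_le_mul_of_nonneg_left hmain (mul_nonneg hδN0 (by linarith))
      _ = ((1 - δ) ^ N * (1 + δ) ^ N) * (((1 - y) * (1 + y)) * L) := by ring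
      _ ≤ 1 * (1 * L) := by
          refine mul_le_mul hp3 (mul_le_mul_of_nonneg_right hp4 hL0) ?_ zero_le_one
          exact mul_nonneg (mul_nonneg (by linarith) (by linarith)) hL0
      _ = L := by ring
  have hprod : 1 - N * δ - y - N * (2 * δ) ≤ (1 - δ) ^ N * (1 - y) * (1 - 2 * δ) ^ N := by
    have a1 : 0 ≤ 1 - N * (2 * δ) := by linarith
    have a2 : 0 ≤ 1 - N * δ := by linarith
    have a3 : 0 ≤ 1 - y := by linarith
    have b1 : (1 - N * δ) * (1 - y) ≤ (1 - δ) ^ N * (1 - y) :=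
      mul_le_mul_of_nonneg_right hp2 a3
    have b2 : (1 - N * δ) * (1 - y) * (1 - N * (2 * δ)) ≤ (1 - δ) ^ N * (1 - y) * (1 - 2 * δ) ^ N :=
      mul_le_mul b1 hp1 a1 (mul_nonneg hδN0 a3)
    refine le_trans ?_ b2
    have c1 : 1 - N * δ - y ≤ (1 - N * δ) * (1 - y) := by nlinarith
    have c2 : (1 - N * δ) * (1 - y) ≤ 1 := by nlinarith
    nlinarith
  have hfin2 : (1 - N * δ - y - N * (2 * δ)) * t ≤ L := by
    refine le_trans (mul_le_mul_of_nonneg_right hprod ht0) (le_trans (le_of_eq ?_) hfin)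
    ring
  have : 0 ≤ N * δ + y + N * (2 * δ) := by positivity
  nlinarith

/-- **(L3)** on matrices. -/
theorem L3_mt (H : Hyp S R r w) (hR : Adm R) (hR' : Adm (ovr S R r)) :
    TVle (lw S R r) (un (ovr S R r)) (C3 n * 2 ^ (-w)) := by
  have := isProb_lw (S := S) (r := r) hR
  have := isProb_un hR'
  set R' := ovr S R r with hR'def
  set ε : ℝ := 2 ^ (-w) with hε
  have hε0 : 0 < ε := Real.rpow_pos_of_pos two_pos _
  refine tvle_of_le fun A hA => ?_
  rcases le_or_gt 1 (C3 n * ε) with hbig | hsmall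
  · have h1 : (un R').real A ≤ 1 := measureReal_le_one
    have h2 : 0 ≤ (lw S R r).real A := measureReal_nonneg
    linarith
  -- the small parameters
  set N := Fintype.card (CC S) with hN
  have hNn : (N : ℝ) ≤ n ^ 2 := by
    have := card_CC_le S
    exact_mod_cast this
  have hn0 : (0:ℝ) ≤ n := Nat.cast_nonneg n
  have h4 : (1:ℝ) ≤ 4 ^ n := one_le_pow₀ (by norm_num)
  have h2n : (1:ℝ) ≤ 2 ^ (n ^ 2) := one_le_pow₀ (by norm_num)
  have hC : C3 n * ε = 4 * n ^ 3 * ε + 4 ^ n * 2 ^ (n ^ 2) * ((n + 1) * ε)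
      + 4 ^ n * n ^ 2 * ((n + 1) * ε) := by unfold C3; ring
  set e : ℝ := (n + 1) * ε with he
  have he0 : 0 < e := by positivity
  set x : ℝ := 4 ^ n * n ^ 2 * e with hx
  set y : ℝ := 4 ^ n * 2 ^ (n ^ 2) * e with hy
  have hx0 : 0 ≤ x := by positivity
  have hy0 : 0 ≤ y := by positivity
  have hey : e ≤ y := by
    have : 1 * e ≤ (4 ^ n * 2 ^ (n ^ 2)) * e := by
      refine mul_le_mul_of_nonneg_right ?_ he0.le
      nlinarith
    linarith
  have hn3 : (n:ℝ) * ε ≤ n ^ 3 * ε := by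
    refine mul_le_mul_of_nonneg_right ?_ hε0.le
    rcases Nat.eq_zero_or_pos n with h0 | h0
    · rw [h0]; simp
    · have h1 : (1:ℝ) ≤ n := by exact_mod_cast h0
      exact le_self_pow₀ h1 (by norm_num)
  have hn3' : 0 ≤ (n:ℝ) ^ 3 * ε := by positivity
  have he1 : e ≤ 1 := by linarith
  have hy1 : y ≤ 1 := by linarith
  set δ : ℝ := n * ε with hδ
  have hδ0 : 0 ≤ δ := by positivity
  have hδ1 : 2 * δ < 1 := by linarith
  have hNδ : N * δ ≤ n ^ 3 * ε := by
    calc (N:ℝ) * δ ≤ n ^ 2 * δ := mul_le_mul_of_nonneg_right hNn hδ0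
      _ = n ^ 3 * ε := by rw [hδ]; ring
  -- measures
  have hBt : haar n (bx R) ≠ ⊤ := (Nz_323.haar_bx_lt_top hR).ne
  have hB0 : haar n (bx R) ≠ 0 := (Nz_323.haar_bx_pos hR).ne'
  have hB't : haar n (bx R') ≠ ⊤ := (Nz_323.haar_bx_lt_top hR').ne
  set H0 : ℝ := (haar n).real (bx R) with hH0
  set b : ℝ := (haar n).real (bx R') with hb
  have hH0p : 0 < H0 := ENNReal.toReal_pos hB0 hBt
  have hbp : 0 < b := ENNReal.toReal_pos (Nz_323.haar_bx_pos hR').ne' hB't
  have hκ := kap_pos (S := S) (R := R) (r := r)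
  set κ := kap S R r with hκdef
  -- upper bound
  have hup : (1 - 2 * δ) ^ N * H0 ≤ κ * (b * (1 + y)) := by
    have h1 : lw S R r Set.univ = 1 := measure_univ
    rw [lw_apply MeasurableSet.univ, Measure.restrict_univ] at h1
    have h2 : haar n (bx R) = ∫⁻ h, P S R r h ∂(haar n) := by
      rw [mul_comm, ← div_eq_mul_inv, ENNReal.div_eq_one_iff hB0 hBt] at h1
      exact h1.symm
    have hBpm := measurableSet_Bp R' e
    have h3 : haar n (bx R) * ENNReal.ofReal ((1 - 2 * δ) ^ N) ≤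
        ENNReal.ofReal κ * haar n (Bp R' e) := by
      rw [h2, ← lintegral_mul_const']
      · calc ∫⁻ h, P S R r h * ENNReal.ofReal ((1 - 2 * δ) ^ N) ∂(haar n)
            ≤ ∫⁻ h, (Bp R' e).indicator (fun _ => ENNReal.ofReal κ) h ∂(haar n) := by
              refine lintegral_mono fun h => ?_
              by_cases hh : h ∈ Bp R' e
              · rw [Set.indicator_of_mem hh]
                refine P_le H (a := 1 + e) (by linarith) hh.1 ?_ hδ1
                calc n * 2 ^ (-w) * (1 + e) ≤ n * 2 ^ (-w) * 2 :=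
                      mul_le_mul_of_nonneg_left (by linarith) (by positivity)
                  _ = 2 * δ := by rw [hδ, hε]; ring
              · rw [P_eq_zero H hR hh, zero_mul]
                exact zero_le
          _ = ENNReal.ofReal κ * haar n (Bp R' e) := by
              rw [lintegral_indicator hBpm, setLIntegral_const]
      · exact ENNReal.ofReal_ne_top
    have hBpt : haar n (Bp R' e) ≠ ⊤ := by
      have hsub : Bp R' e ⊆ bxc (1 + e) R' := fun g hg => hg.1
      have h5 : haar n (Bp R' e) ≤ ENNReal.ofReal ((2:ℝ) ^ n) * volume (bxc (1 + e) R') := by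
        unfold haar
        rw [withDensity_apply _ hBpm]
        calc ∫⁻ g in Bp R' e, Nz_323.rho g ≤ ∫⁻ _ in Bp R' e, ENNReal.ofReal ((2:ℝ) ^ n) := by
              refine setLIntegral_mono measurable_const fun g hg => ?_
              have := Nz_323.rho_le_of_det (by norm_num : (0:ℝ) < 1 / 2) hg.2
              simpa using this
          _ ≤ _ := by
              rw [setLIntegral_const]
              gcongr
      refine ne_top_of_le_ne_top ?_ h5
      rw [Nz_323.volume_bxc (by linarith)]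
      exact ENNReal.mul_ne_top ENNReal.ofReal_ne_top ENNReal.ofReal_ne_top
    have h4' := ENNReal.toReal_mono (ENNReal.mul_ne_top ENNReal.ofReal_ne_top hBpt) h3
    rw [ENNReal.toReal_mul, ENNReal.toReal_mul, ENNReal.toReal_ofReal hκ.le,
      ENNReal.toReal_ofReal (pow_nonneg (by linarith) _)] at h4'
    have h5 := haar_Bp_le hR' he0.le he1
    calc (1 - 2 * δ) ^ N * H0 = H0 * (1 - 2 * δ) ^ N := mul_comm _ _
      _ ≤ κ * (haar n).real (Bp R' e) := h4'
      _ ≤ κ * (b * (1 + y)) := by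
          refine mul_le_mul_of_nonneg_left h5 hκ.le
  -- lower bound
  set Bm : Set (Mt n) := bxc (1 - e) R' with hBm
  have hBmm : MeasurableSet Bm := Nz_323.measurableSet_bxc _ _
  have hBmB' : Bm ⊆ bx R' := by
    intro g hg i j
    refine (hg i j).trans ?_
    have : (0:ℝ) < (2:ℝ) ^ (-(R' i j)) := by positivity
    nlinarith
  set z : ℝ := (haar n).real (A ∩ Bm) with hz
  have hz0 : 0 ≤ z := measureReal_nonneg
  have hzb : z ≤ b := measureReal_mono (fun g hg => hBmB' hg.2) hB't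
  have hlow : κ * z ≤ (1 + δ) ^ N * (H0 * (lw S R r).real A) := by
    have h3 : ENNReal.ofReal κ * haar n (A ∩ Bm) ≤
        ENNReal.ofReal ((1 + δ) ^ N) * (haar n (bx R) * lw S R r A) := by
      rw [lw_apply hA, ← mul_assoc (haar n (bx R)), ENNReal.mul_inv_cancel hB0 hBt, one_mul,
        mul_comm (ENNReal.ofReal ((1 + δ) ^ N)), ← lintegral_mul_const']
      · calc ENNReal.ofReal κ * haar n (A ∩ Bm) = ∫⁻ _ in A ∩ Bm, ENNReal.ofReal κ ∂(haar n) := by
              rw [setLIntegral_const]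
          _ ≤ ∫⁻ h in A ∩ Bm, P S R r h * ENNReal.ofReal ((1 + δ) ^ N) ∂(haar n) := by
              refine setLIntegral_mono' (hA.inter hBmm) fun h hh => ?_
              refine le_P H (a := 1 - e) (by linarith) hh.2 ?_ (by linarith) ?_
              · calc n * 2 ^ (-w) * (1 - e) ≤ n * 2 ^ (-w) * 1 :=
                      mul_le_mul_of_nonneg_left (by linarith) (by positivity)
                  _ = δ := by rw [hδ, hε]; ring
              · have : e = δ + ε := by rw [he, hδ]; ring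
                rw [← hε]
                linarith
          _ ≤ ∫⁻ h in A, P S R r h * ENNReal.ofReal ((1 + δ) ^ N) ∂(haar n) :=
              lintegral_mono_set Set.inter_subset_left
      · exact ENNReal.ofReal_ne_top
    have h4' := ENNReal.toReal_mono (ENNReal.mul_ne_top ENNReal.ofReal_ne_top
      (ENNReal.mul_ne_top hBt (measure_ne_top _ _))) h3
    rwa [ENNReal.toReal_mul, ENNReal.toReal_mul, ENNReal.toReal_mul, ENNReal.toReal_ofReal hκ.le,
      ENNReal.toReal_ofReal (pow_nonneg (by linarith) _)] at h4'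
  -- the other law
  have hzA : (haar n).real (A ∩ bx R') - x * b ≤ z := by
    have := haar_Bm_ge hR' he0.le he1 A
    exact this
  have hun : (un R').real A = (haar n).real (A ∩ bx R') / b := Nz_323.un_real R' hA
  -- conclusion
  set t : ℝ := z / b with ht
  have ht0 : 0 ≤ t := div_nonneg hz0 hbp.le
  have ht1 : t ≤ 1 := (div_le_one hbp).2 hzb
  have hzt : z = t * b := by rw [ht, div_mul_cancel₀ _ hbp.ne']
  have htA : (un R').real A - x ≤ t := by
    rw [hun, ht, sub_le_iff_le_add, ← sub_le_iff_le_add', div_sub_div_same, div_le_iff₀ hbp]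
    linarith
  set L : ℝ := (lw S R r).real A with hL
  have hL0 : 0 ≤ L := measureReal_nonneg
  have hmain : (1 - 2 * δ) ^ N * t ≤ (1 + y) * (1 + δ) ^ N * L :=
    num_main hy0 hH0p ht0 hzt hup hlow
  have hfin3 := num_final hδ0 hδ1 hy0 hy1 (by linarith) ht0 ht1 hL0 hmain
  rw [hC]
  linarith

/-- the law of `v(s)`, `s` uniform in the box of radii `2^(-r)`. -/
def vl (S : Finset (Fin n)) (r : CC S → ℝ) : Measure (SLR n) := (uniC S).map fun θ => vv S (sc r θ)

theorem measurable_vl : Measurable fun θ : CC S → ℝ => (vv S (sc r θ) : SLR n) :=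
  (measurable_vv S).comp measurable_sc

instance instProbVl : IsProbabilityMeasure (vl S r) :=
  Measure.isProbabilityMeasure_map measurable_vl.aemeasurable

theorem cv_vl (hR : Adm R) : cv (zt R) (vl S r) = (lw S R r).map toSL := by
  have := isProb_un hR
  unfold cv zt vl lw
  rw [Measure.map_prod_map _ _ measurable_toSL measurable_vl,
    Measure.map_map measurable_mul₂ (measurable_toSL.prodMap measurable_vl),
    Measure.map_map measurable_toSL (measurable_mulv measurable_sc)]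
  refine Measure.map_congr ?_
  have h1 : ∀ᵐ p ∂((un R).prod (uniC S)), p.1 ∈ bx R := by
    have := (Measure.quasiMeasurePreserving_fst (μ := un R) (ν := uniC S)).ae (un_ae (R := R))
    exact this
  filter_upwards [h1] with p hp
  simp only [Function.comp_apply, Prod.map_fst, Prod.map_snd]
  have hd : 0 < (1 + nn S (sc r p.2)).det := by rw [det_one_add_nn]; exact one_pos
  rw [toSL_mul (det_pos_of_adm hR hp) hd]
  congr 1
  exact (toSL_coe (vv S (sc r p.2))).symm

/-- **(L3)**. -/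
theorem L3' (H : Hyp S R r w) (hR : Adm R) (hR' : Adm (ovr S R r)) :
    TVle (cv (zt R) (vl S r)) (zt (ovr S R r)) (C3 n * 2 ^ (-w)) := by
  rw [cv_vl hR]
  exact (L3_mt H hR hR').map measurable_toSL

/-- **(L3)**, with the hypotheses spelled out. -/
theorem L3 (hw : 0 ≤ w) (hR : Adm R) (hR' : Adm (ovr S R r))
    (h1 : ∀ c : CC S, r c + w ≤ R c.1.1 c.1.2)
    (h2 : ∀ (k i j : Fin n) (hk : k ∈ S) (hi : i ∈ S) (hj : j ∉ S),
      r ⟨(k, j), hk, hj⟩ + w ≤ R k i + r ⟨(i, j), hi, hj⟩)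
    (h3 : ∀ (i k j : Fin n) (hi : i ∈ S) (_ : k ∉ S) (hj : j ∉ S),
      R k j + w ≤ R k i + r ⟨(i, j), hi, hj⟩) :
    TVle (cv (zt R) ((uniC S).map fun θ => vv S fun c => 2 ^ (-r c) * θ c)) (zt (ovr S R r))
      (C3 n * 2 ^ (-w)) := L3' ⟨hw, h1, h2, h3⟩ hR hR'

end Crest.Agent.R014.L3_884
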