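import Mathlib

/-!
Row 14, block N2 (helper524), part 1: counting units in finite commutative rings.
-/

set_option autoImplicit false

namespace Crest.Agent.R014.Loc1_524

open Finset

section ring

variable {R : Type*} [CommRing R] [Finite R]

/-- Avoiding one more maximal ideal costs a factor at most two. -/
theorem card_le_two_pow_mul_avoid (S : Finset (Ideal R)) (hS : ∀ I ∈ S, I.IsMaximal) :
    Nat.card R ≤ 2 ^ S.card * {x : R | ∀ I ∈ S, x ∉ I}.ncard := by
  classical
  induction S using Finset.induction_on with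
  | empty =>
    have : {x : R | ∀ I ∈ (∅ : Finset (Ideal R)), x ∉ I} = Set.univ := by
      ext x; simp
    rw [this, Set.ncard_univ]; simp
  | insert J S hJ ih =>
    have ih' := ih (fun I hI => hS I (Finset.mem_insert_of_mem hI))
    have hJm : J.IsMaximal := hS J (Finset.mem_insert_self _ _)
    -- an element `e` in all `I ∈ S` with `e ∉ J`
    have hne : ¬ (∏ I ∈ S, I) ≤ J := by
      intro h
      rw [Ideal.IsPrime.prod_le hJm.isPrime] at h
      obtain ⟨I, hI, hIJ⟩ := h
      have hIm := hS I (Finset.mem_insert_of_mem hI)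
      have : I = J := hIm.eq_of_le hJm.ne_top hIJ
      exact hJ (this ▸ hI)
    obtain ⟨e, he, heJ⟩ := SetLike.not_le_iff_exists.1 hne
    have heI : ∀ I ∈ S, e ∈ I := fun I hI =>
      (Ideal.prod_le_inf.trans (Finset.inf_le hI)) he
    set A := {x : R | ∀ I ∈ S, x ∉ I} with hA
    set B := {x : R | ∀ I ∈ insert J S, x ∉ I} with hB
    have hfin : ∀ s : Set R, s.Finite := fun s => Set.toFinite s
    have hsub : A ⊆ B ∪ (fun x => x - e) '' B := by
      intro x hx
      by_cases hxJ : x ∈ J
      · right
        refine ⟨x + e, ?_, by simp⟩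
        intro I hI
        rcases Finset.mem_insert.1 hI with rfl | hI
        · intro h
          exact heJ ((Ideal.add_mem_iff_right _ hxJ).1 h)
        · intro h
          exact hx I hI ((Ideal.add_mem_iff_left _ (heI I hI)).1 h)
      · left
        intro I hI
        rcases Finset.mem_insert.1 hI with rfl | hI
        · exact hxJ
        · exact hx I hI
    have h1 : A.ncard ≤ B.ncard + B.ncard := by
      calc A.ncard ≤ (B ∪ (fun x => x - e) '' B).ncard := Set.ncard_le_ncard hsub (hfin _)
        _ ≤ B.ncard + ((fun x => x - e) '' B).ncard := Set.ncard_union_le _ _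
        _ ≤ B.ncard + B.ncard := Nat.add_le_add_left (Set.ncard_image_le (hfin _)) _
    rw [Finset.card_insert_of_notMem hJ, pow_succ]
    calc Nat.card R ≤ 2 ^ S.card * A.ncard := ih'
      _ ≤ 2 ^ S.card * (B.ncard + B.ncard) := Nat.mul_le_mul_left _ h1
      _ = 2 ^ S.card * 2 * B.ncard := by ring

/-- In a finite commutative ring, `|R| ≤ 2 ^ #MaxSpec · #units`. -/
theorem card_le_two_pow_mul_units (k : ℕ)
    (hk : ∀ S : Finset (Ideal R), (∀ I ∈ S, I.IsMaximal) → S.card ≤ k) :
    Nat.card R ≤ 2 ^ k * {x : R | IsUnit x}.ncard := by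
  classical
  have hfinI : Finite (Ideal R) := by
    have : Function.Injective (fun I : Ideal R => (I : Set R)) := SetLike.coe_injective
    exact Finite.of_injective _ this
  have hfin : {I : Ideal R | I.IsMaximal}.Finite := Set.toFinite _
  set S := hfin.toFinset with hS
  have hSm : ∀ I, I ∈ S ↔ I.IsMaximal := by
    intro I; rw [hS, Set.Finite.mem_toFinset]; rfl
  have h1 := card_le_two_pow_mul_avoid S (fun I hI => (hSm I).1 hI)
  have h2 : {x : R | ∀ I ∈ S, x ∉ I} = {x : R | IsUnit x} := by
    ext x
    simp only [Set.mem_ofPred_eq]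
    constructor
    · intro h
      by_contra hu
      obtain ⟨I, hI, hxI⟩ := exists_max_ideal_of_mem_nonunits hu
      exact h I ((hSm I).2 hI) hxI
    · intro h I hI hx
      exact ((hSm I).1 hI).ne_top (Ideal.eq_top_of_isUnit_mem _ hx h)
  rw [h2] at h1
  refine h1.trans (Nat.mul_le_mul_right _ ?_)
  exact Nat.pow_le_pow_right (by norm_num) (hk S (fun I hI => (hSm I).1 hI))

/-- The product of the residue fields of distinct maximal ideals. -/
theorem prod_card_quot_le (S : Finset (Ideal R)) (hS : ∀ I ∈ S, I.IsMaximal) (J : Ideal R)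
    (hJ : ∀ I ∈ S, J ≤ I) : ∏ I ∈ S, Nat.card (R ⧸ I) ≤ Nat.card (R ⧸ J) := by
  classical
  have hcop : Pairwise (Function.onFun IsCoprime (fun I : S => (I : Ideal R))) := by
    intro I I' hne
    have h1 := hS I I.2
    have h2 := hS I' I'.2
    exact Ideal.isCoprime_iff_sup_eq.2 (h1.coprime_of_ne h2 (fun h => hne (Subtype.ext h)))
  let e := Ideal.quotientInfRingEquivPiQuotient (fun I : S => (I : Ideal R)) hcop
  have h1 : Nat.card (R ⧸ (⨅ I : S, (I : Ideal R))) = ∏ I ∈ S, Nat.card (R ⧸ I) := by
    rw [Nat.card_congr e.toEquiv, Nat.card_pi, Finset.prod_coe_sort S (fun I => Nat.card (R ⧸ I))]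
  rw [← h1]
  have hle : J ≤ ⨅ I : S, (I : Ideal R) := le_iInf fun I => hJ I I.2
  have hs : Function.Surjective (Ideal.Quotient.factor hle) := Ideal.Quotient.factor_surjective hle
  have : Finite (R ⧸ J) := Finite.of_surjective _ Ideal.Quotient.mk_surjective
  exact Nat.card_le_card_of_surjective _ hs

/-- The residue field of a maximal ideal containing the prime `p` has at least `p` elements. -/
theorem prime_le_card_quot {p : ℕ} (hp : p.Prime) (I : Ideal R) (hI : I.IsMaximal)
    (hpI : (p : R) ∈ I) : p ≤ Nat.card (R ⧸ I) := by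
  have : Fact p.Prime := ⟨hp⟩
  have : Finite (R ⧸ I) := Finite.of_surjective _ Ideal.Quotient.mk_surjective
  have : Nontrivial (R ⧸ I) := Ideal.Quotient.nontrivial_iff.2 hI.ne_top
  have h0 : ((p : ℕ) : R ⧸ I) = 0 := by
    have := Ideal.Quotient.eq_zero_iff_mem.2 hpI
    simpa using this
  have hadd : addOrderOf (1 : R ⧸ I) = p := by
    apply addOrderOf_eq_prime
    · rw [nsmul_eq_mul, mul_one, h0]
    · exact one_ne_zero
  have := addOrderOf_dvd_natCard (1 : R ⧸ I)
  rw [hadd] at this
  exact Nat.le_of_dvd Nat.card_pos this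

/-- UNIT DENSITY: if `q = 0` in the finite ring `R` and `|R/pR| ≤ p^n` for the primes `p ∣ q`, then
`|R| ≤ 2^(n ω(q)) |R^×|`. -/
theorem card_le_units (n q : ℕ) (hq : q ≠ 0) (hq0 : (q : R) = 0)
    (hR : ∀ p ∈ q.primeFactors, Nat.card (R ⧸ Ideal.span {(p : R)}) ≤ p ^ n) :
    Nat.card R ≤ 2 ^ (n * q.primeFactors.card) * {x : R | IsUnit x}.ncard := by
  classical
  apply card_le_two_pow_mul_units
  intro S hS
  -- every maximal ideal contains a prime divisor of q
  have hex : ∀ I ∈ S, ∃ p ∈ q.primeFactors, (p : R) ∈ I := by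
    intro I hI
    have hIm := hS I hI
    have hqI : ((∏ p ∈ q.primeFactors, p ^ q.factorization p : ℕ) : R) ∈ I := by
      have : ∏ p ∈ q.primeFactors, p ^ q.factorization p = q :=
        Nat.prod_factorization_pow_eq_self hq
      rw [this, hq0]
      exact I.zero_mem
    push_cast at hqI
    rw [hIm.isPrime.prod_mem_iff] at hqI
    obtain ⟨p, hp, hpI⟩ := hqI
    exact ⟨p, hp, hIm.isPrime.mem_of_pow_mem _ hpI⟩
  have hsub : S ⊆ q.primeFactors.biUnion (fun p => S.filter (fun I => (p : R) ∈ I)) := by
    intro I hI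
    obtain ⟨p, hp, hpI⟩ := hex I hI
    exact Finset.mem_biUnion.2 ⟨p, hp, Finset.mem_filter.2 ⟨hI, hpI⟩⟩
  refine (Finset.card_le_card hsub).trans (Finset.card_biUnion_le.trans ?_)
  rw [mul_comm n, ← smul_eq_mul, ← Finset.sum_const]
  apply Finset.sum_le_sum
  intro p hp
  have hpp := Nat.prime_of_mem_primeFactors hp
  set T := S.filter (fun I => (p : R) ∈ I) with hT
  have hTm : ∀ I ∈ T, I.IsMaximal ∧ (p : R) ∈ I := fun I hI =>
    ⟨hS I (Finset.mem_filter.1 hI).1, (Finset.mem_filter.1 hI).2⟩
  have h1 : p ^ T.card ≤ p ^ n := by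
    calc p ^ T.card = ∏ _I ∈ T, p := by rw [Finset.prod_const]
      _ ≤ ∏ I ∈ T, Nat.card (R ⧸ I) := Finset.prod_le_prod' fun I hI =>
          prime_le_card_quot hpp I (hTm I hI).1 (hTm I hI).2
      _ ≤ Nat.card (R ⧸ Ideal.span {(p : R)}) := prod_card_quot_le T (fun I hI => (hTm I hI).1) _
          (fun I hI => by
            rw [Ideal.span_singleton_le_iff_mem]
            exact (hTm I hI).2)
      _ ≤ p ^ n := hR p hp
  exact (Nat.pow_le_pow_iff_right hpp.one_lt).1 h1

end ring

section group

/-- Image of a subset under a homomorphism of finite groups: `|S| · |range| ≤ |φ(S)| · |A|`. -/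
theorem card_mul_range_le {A B : Type*} [AddCommGroup A] [AddCommGroup B] [Finite A]
    (φ : A →+ B) (S : Set A) :
    S.ncard * Nat.card φ.range ≤ (φ '' S).ncard * Nat.card A := by
  classical
  have h1 : Nat.card A = Nat.card φ.range * Nat.card φ.ker := by
    have := AddSubgroup.card_eq_card_quotient_mul_card_addSubgroup φ.ker
    rw [this, Nat.card_congr (QuotientAddGroup.quotientKerEquivRange φ).toEquiv]
  have h2 : S.ncard ≤ (φ '' S).ncard * Nat.card φ.ker := by
    have hfin : S.Finite := Set.toFinite _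
    have h3 : ∀ b ∈ hfin.toFinset.image φ,
        (hfin.toFinset.filter (fun a => φ a = b)).card ≤ Nat.card φ.ker := by
      intro b hb
      obtain ⟨a, ha, rfl⟩ := Finset.mem_image.1 hb
      have hinj : Set.InjOn (fun x : A => x - a)
          (hfin.toFinset.filter (fun x => φ x = φ a) : Set A) := by
        intro x _ y _ hxy
        simpa using hxy
      have hmaps : ∀ x ∈ (hfin.toFinset.filter (fun x => φ x = φ a) : Set A),
          x - a ∈ (φ.ker : Set A) := by
        intro x hx
        have := (Finset.mem_filter.1 (Finset.mem_coe.1 hx)).2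
        rw [SetLike.mem_coe, AddMonoidHom.mem_ker, map_sub, this, sub_self]
      have := Set.ncard_le_ncard_of_injOn _ hmaps hinj (Set.toFinite _)
      rw [Set.ncard_coe_finset] at this
      rw [← Nat.card_coe_set_eq] at this
      exact this
    have h4 := Finset.card_le_mul_card_image hfin.toFinset (Nat.card φ.ker) h3
    have h5 : (hfin.toFinset.image φ).card = (φ '' S).ncard := by
      rw [← Set.ncard_coe_finset]
      simp
    rw [Set.ncard_eq_toFinset_card S hfin, ← h5, mul_comm]
    exact h4
  calc S.ncard * Nat.card φ.range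
      ≤ (φ '' S).ncard * Nat.card φ.ker * Nat.card φ.range := Nat.mul_le_mul_right _ h2
    _ = (φ '' S).ncard * Nat.card A := by rw [h1]; ring

end group

end Crest.Agent.R014.Loc1_524
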