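import Crest.Prelude.Def_TorusPacket

/-!
Row 14, block N2 (helper524): definitions of the local part: the index `fIdx m` of the multiplier
order, the `f`-part of a lattice, and the predicate `IsTy m P` ("`P` is a possible `f`-part").
-/

set_option autoImplicit false
set_option linter.unusedSectionVars false

namespace Crest.Agent.R014.LocDefs_524

open Crest.NumberTheoryR.Packets

variable {n : ℕ} {K : Type*} [Field K] [NumberField K]

/-- The index of the multiplier order in the ring of integers. -/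
noncomputable def fIdx (m : LatticeBasis n K) : ℕ :=
  (multiplierOrder m).relIndex (integralClosure ℤ K).toSubring.toAddSubgroup

theorem latticeDisc_eq (m : LatticeBasis n K) :
    latticeDisc m = |(NumberField.discr K : ℝ)| * (fIdx m : ℝ) ^ 2 := rfl

theorem nat_mul_mem (A : AddSubgroup K) (N : ℕ) {x : K} (hx : x ∈ A) : (N : K) * x ∈ A := by
  rw [← nsmul_eq_mul]
  exact A.nsmul_mem hx N

theorem nat_pow_mul_mem (A : AddSubgroup K) (N k : ℕ) {x : K} (hx : x ∈ A) :
    (N : K) ^ k * x ∈ A := by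
  have := nat_mul_mem A (N ^ k) hx
  rwa [Nat.cast_pow] at this

/-- The elements of `K` which lie in the order `O = multiplierOrder m` away from `f`, `O[1/f]`. -/
noncomputable def awayO (m : LatticeBasis n K) : AddSubgroup K where
  carrier := {x | ∃ k : ℕ, (fIdx m : K) ^ k * x ∈ multiplierOrder m}
  zero_mem' := ⟨0, by rw [mul_zero]; exact (multiplierOrder m).zero_mem⟩
  add_mem' := by
    rintro a b ⟨k, hk⟩ ⟨l, hl⟩
    refine ⟨k + l, ?_⟩
    have e : (fIdx m : K) ^ (k + l) * (a + b) =
        (fIdx m : K) ^ l * ((fIdx m : K) ^ k * a) + (fIdx m : K) ^ k * ((fIdx m : K) ^ l * b) := by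
      ring
    rw [e]
    exact (multiplierOrder m).add_mem (nat_pow_mul_mem _ _ _ hk) (nat_pow_mul_mem _ _ _ hl)
  neg_mem' := by
    rintro a ⟨k, hk⟩
    refine ⟨k, ?_⟩
    rw [mul_neg]
    exact (multiplierOrder m).neg_mem hk

theorem mem_awayO {m : LatticeBasis n K} {x : K} :
    x ∈ awayO m ↔ ∃ k : ℕ, (fIdx m : K) ^ k * x ∈ multiplierOrder m := Iff.rfl

/-- The `f`-part of the lattice `m1`: its elements which are in `O[1/f]`. -/
noncomputable def fPart (m m1 : LatticeBasis n K) : AddSubgroup K := m1.lattice.toAddSubgroup ⊓ awayO m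

theorem mem_fPart {m m1 : LatticeBasis n K} {x : K} :
    x ∈ fPart m m1 ↔ x ∈ m1.lattice ∧ ∃ k : ℕ, (fIdx m : K) ^ k * x ∈ multiplierOrder m := Iff.rfl

/-- `P` is a possible `f`-part of a lattice containing `1` locally homothetic to `m`. -/
structure IsTy (m : LatticeBasis n K) (P : AddSubgroup K) : Prop where
  order_le : multiplierOrder m ≤ P
  away : ∀ x ∈ P, ∃ k : ℕ, (fIdx m : K) ^ k * x ∈ multiplierOrder m
  loc : ∃ c : K, c ≠ 0 ∧ ∃ N : ℕ, N.Coprime (fIdx m) ∧
    (∀ x ∈ P, ∃ y ∈ m.lattice, (N : K) * x = c * y) ∧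
    (∀ x ∈ m.lattice, (N : K) * (c * x) ∈ P)

end Crest.Agent.R014.LocDefs_524
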