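import Crest.Agent.R014.Sl1_652
import Crest.Agent.R014.LocDefs_524
import Crest.Agent.R014.Loc1_524

/-!
Row 14, block N2 (helper524), part 2: local algebra of the types `P`, without localisations.
-/

set_option autoImplicit false
set_option linter.unusedSectionVars false

namespace Crest.Agent.R014.Loc2_524

open Crest.NumberTheoryR.Packets Module
open Crest.Agent.R014.LocDefs_524 Crest.Agent.R014.Loc1_524
open Crest.Agent.R014.Sl_652 (one_mem_order mul_mem_order lattice_fg exists_latticeBasis finrank_eq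
  order_basis ordSub mem_ordSub ordSub_fg exists_mul_mem_order n_pos exists_mul_mem relIndex_eq)

variable {n : ℕ} {K : Type*} [Field K] [NumberField K]

/-! ### Coprimality -/

/-- If `N x, f x ∈ A` with `N, f` coprime then `x ∈ A`. -/
theorem mem_of_coprime (A : AddSubgroup K) {N f : ℕ} (h : N.Coprime f) {x : K}
    (h1 : (N : K) * x ∈ A) (h2 : (f : K) * x ∈ A) : x ∈ A := by
  have e := Nat.gcd_eq_gcd_ab N f
  rw [h] at e
  have e1 : x = (N.gcdA f : ℤ) • ((N : K) * x) + (N.gcdB f : ℤ) • ((f : K) * x) := by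
    have e2 : (1 : K) = (N : K) * ((N.gcdA f : ℤ) : K) + (f : K) * ((N.gcdB f : ℤ) : K) := by
      exact_mod_cast congrArg (fun z : ℤ => (z : K)) e
    rw [zsmul_eq_mul, zsmul_eq_mul]
    linear_combination x * e2
  rw [e1]
  exact A.add_mem (A.zsmul_mem h1 _) (A.zsmul_mem h2 _)

theorem mem_of_coprime_pow (A : AddSubgroup K) {N f k : ℕ} (h : N.Coprime f) {x : K}
    (h1 : (N : K) * x ∈ A) (h2 : (f : K) ^ k * x ∈ A) : x ∈ A := by
  refine mem_of_coprime A (Nat.Coprime.pow_right k h) h1 ?_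
  push_cast
  exact h2

/-- Bezout: an `N` coprime to `q` has an inverse modulo `q`. -/
theorem exists_inv_mod {N q : ℕ} (h : N.Coprime q) :
    ∃ a : ℕ, ∃ b : ℤ, (N : K) * (a : K) = 1 + (q : K) * (b : K) := by
  rcases Nat.eq_zero_or_pos q with rfl | hq
  · have : N = 1 := by simpa using h
    subst this
    exact ⟨1, 0, by simp⟩
  have e := Nat.gcd_eq_gcd_ab N q
  rw [h] at e
  -- make the coefficient nonnegative
  set a0 := N.gcdA q
  set b0 := N.gcdB q
  have hq' : (0 : ℤ) < q := by exact_mod_cast hq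
  refine ⟨(a0 + q * |a0|).toNat, N * |a0| - b0, ?_⟩
  have hnn : 0 ≤ a0 + q * |a0| := by
    have h1 : |a0| ≤ q * |a0| := le_mul_of_one_le_left (abs_nonneg _) hq'
    have h2 := neg_abs_le a0
    linarith
  have h3 : (((a0 + q * |a0|).toNat : ℕ) : K) = ((a0 + q * |a0| : ℤ) : K) := by
    have : (((a0 + q * |a0|).toNat : ℤ)) = a0 + q * |a0| := Int.toNat_of_nonneg hnn
    exact_mod_cast congrArg (fun z : ℤ => (z : K)) this
  rw [h3]
  have e2 : (1 : K) = (N : K) * (a0 : K) + (q : K) * (b0 : K) := by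
    exact_mod_cast congrArg (fun z : ℤ => (z : K)) e
  push_cast
  linear_combination -e2

/-! ### The index `f` -/

theorem order_le_int (m : LatticeBasis n K) :
    multiplierOrder m ≤ (integralClosure ℤ K).toSubring.toAddSubgroup := by
  intro x hx
  exact Sl_652.order_isIntegral hx

theorem fIdx_ne_zero (m : LatticeBasis n K) : fIdx m ≠ 0 := by
  obtain ⟨o, ho⟩ := Sl_652.maxBasis_exists (K := K) (finrank_eq m)
  obtain ⟨o', ho'⟩ := order_basis m
  have h1 : (multiplierOrder m) = o'.lattice.toAddSubgroup := by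
    rw [ho']; rfl
  have h2 : (integralClosure ℤ K).toSubring.toAddSubgroup = o.lattice.toAddSubgroup := by
    ext x
    exact (ho.1 x).symm
  have hle : o'.lattice ≤ o.lattice := by
    intro x hx
    have h3 : x ∈ multiplierOrder m := by rw [h1]; exact hx
    have h4 := order_le_int m h3
    rw [h2] at h4
    exact h4
  intro h0
  have h3 := relIndex_eq o o' hle
  unfold fIdx at h0
  rw [h1, h2] at h0
  rw [h0] at h3
  have h4 : (Sl_652.qBasis o).det o'.vec ≠ 0 := by
    rw [← Sl_652.coe_qBasis o']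
    exact (Basis.isUnit_det _ _).ne_zero
  exact h4 (abs_eq_zero.1 (by rw [← h3]; simp))

theorem fIdx_pos (m : LatticeBasis n K) : 0 < fIdx m := Nat.pos_of_ne_zero (fIdx_ne_zero m)

theorem f_mul_mem_order (m : LatticeBasis n K) {x : K} (hx : IsIntegral ℤ x) :
    (fIdx m : K) * x ∈ multiplierOrder m := by
  have : x ∈ (integralClosure ℤ K).toSubring.toAddSubgroup := hx
  have h := AddSubgroup.nsmul_relIndex_mem (multiplierOrder m) this
  rwa [nsmul_eq_mul] at h

/-- An element integral up to a power of `f` is in `O[1/f]`. -/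
theorem mem_awayO_iff {m : LatticeBasis n K} {x : K} :
    x ∈ awayO m ↔ ∃ k : ℕ, IsIntegral ℤ ((fIdx m : K) ^ k * x) := by
  constructor
  · rintro ⟨k, hk⟩
    exact ⟨k, Sl_652.order_isIntegral hk⟩
  · rintro ⟨k, hk⟩
    refine ⟨k + 1, ?_⟩
    rw [pow_succ', mul_assoc]
    exact f_mul_mem_order m hk

theorem mul_mem_awayO {m : LatticeBasis n K} {x y : K} (hx : x ∈ awayO m) (hy : y ∈ awayO m) :
    x * y ∈ awayO m := by
  obtain ⟨k, hk⟩ := hx
  obtain ⟨l, hl⟩ := hy
  refine ⟨k + l, ?_⟩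
  have e : (fIdx m : K) ^ (k + l) * (x * y) =
      ((fIdx m : K) ^ k * x) * ((fIdx m : K) ^ l * y) := by ring
  rw [e]
  exact mul_mem_order hk hl

theorem order_le_awayO (m : LatticeBasis n K) : multiplierOrder m ≤ awayO m := by
  intro x hx
  exact ⟨0, by simpa using hx⟩

/-! ### Types -/

/-- A member of `O[1/f]` in `A ⊇ O` up to an integer coprime to `f` is in `A`. -/
theorem mem_of_away {m : LatticeBasis n K} {A : AddSubgroup K} (hA : multiplierOrder m ≤ A)
    {N : ℕ} (hN : N.Coprime (fIdx m)) {x : K} (h1 : (N : K) * x ∈ A) (h2 : x ∈ awayO m) :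
    x ∈ A := by
  obtain ⟨k, hk⟩ := h2
  exact mem_of_coprime_pow A hN h1 (hA hk)

theorem coprime_ne_zero {N f : ℕ} (h : N.Coprime f) (hf : f ≠ 1) : N ≠ 0 := by
  rintro rfl
  exact hf (by simpa using h)

/-- If `f = 1` the only type is the order itself. -/
theorem eq_order_of_fIdx_eq_one {m : LatticeBasis n K} {P : AddSubgroup K} (hP : IsTy m P)
    (hf : fIdx m = 1) : P = multiplierOrder m := by
  apply le_antisymm _ hP.order_le
  intro x hx
  obtain ⟨k, hk⟩ := hP.away x hx
  rw [hf] at hk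
  simpa using hk

/-- A type is generated, near `f`, by an element of the lattice: `g P_(f) = M_(f)`. -/
theorem exists_gen {m : LatticeBasis n K} {P : AddSubgroup K} (hP : IsTy m P) (hf : fIdx m ≠ 1) :
    ∃ g ∈ m.lattice, g ≠ 0 ∧ ∃ N : ℕ, N.Coprime (fIdx m) ∧ (∀ x ∈ P, g * x ∈ m.lattice) ∧
      ∀ z ∈ m.lattice, ∃ y ∈ P, g * y = (N : K) * z := by
  obtain ⟨c, hc, N, hN, h1, h2⟩ := hP.loc
  obtain ⟨g, hg, hgc⟩ := h1 1 (hP.order_le (one_mem_order m))
  rw [mul_one] at hgc
  have hN0 : (N : K) ≠ 0 := by exact_mod_cast coprime_ne_zero hN hf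
  have hg0 : g ≠ 0 := by
    rintro rfl
    rw [mul_zero] at hgc
    exact hN0 hgc
  refine ⟨g, hg, hg0, N * N, Nat.Coprime.mul_left hN hN, ?_, ?_⟩
  · intro x hx
    obtain ⟨y, hy, hxy⟩ := h1 x hx
    have : g * x = y := by
      have h3 : c * (g * x) = c * y := by
        rw [← hxy, ← mul_assoc, ← hgc]
      exact mul_left_cancel₀ hc h3
    rw [this]; exact hy
  · intro z hz
    refine ⟨(N : K) * (c * z), h2 z hz, ?_⟩
    push_cast
    linear_combination -(N : K) * z * hgc

/-- Types are modules over the order. -/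
theorem mul_mem_ty {m : LatticeBasis n K} {P : AddSubgroup K} (hP : IsTy m P) {u x : K}
    (hu : u ∈ multiplierOrder m) (hx : x ∈ P) : u * x ∈ P := by
  have h0 : u * x ∈ awayO m := mul_mem_awayO (order_le_awayO m hu) (hP.away x hx)
  by_cases hf : fIdx m = 1
  · have := eq_order_of_fIdx_eq_one hP hf
    rw [this] at hx ⊢
    exact mul_mem_order hu hx
  obtain ⟨g, hg, hg0, N, hN, h1, h2⟩ := exists_gen hP hf
  have h3 := h1 x hx
  have h4 := hu _ h3
  obtain ⟨y, hy, hgy⟩ := h2 _ h4
  have : y = (N : K) * (u * x) := by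
    have : g * y = g * ((N : K) * (u * x)) := by rw [hgy]; ring
    exact mul_left_cancel₀ hg0 this
  rw [this] at hy
  exact mem_of_away hP.order_le hN hy h0

/-- Units near `r` stay units after adding multiples of `r`: if `t v = N + r s` in the order, with
`N` coprime to `r ≠ 0, 1`, then `t ≠ 0` and `t v' = d` for some `v'` in the order and `d` coprime to
`r`. -/
theorem exists_coprime_mul_gen (m : LatticeBasis n K) {r : ℕ} (hr0 : r ≠ 0) (hr : r ≠ 1)
    {t v s : K} (hv : v ∈ multiplierOrder m)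
    (hs : s ∈ multiplierOrder m) {N : ℕ} (hN : N.Coprime r) (h : t * v = (N : K) + (r : K) * s) :
    t ≠ 0 ∧ ∃ d : ℕ, d.Coprime r ∧ ∃ v' ∈ multiplierOrder m, t * v' = (d : K) := by
  have ht0 : t ≠ 0 := by
    rintro rfl
    rw [zero_mul] at h
    -- N = - r s, so 1/r ∈ O, contradiction with integrality
    have hfi : (r : K) ≠ 0 := by exact_mod_cast hr0
    have h1 : (r : K)⁻¹ ∈ multiplierOrder m := by
      refine mem_of_coprime (multiplierOrder m) hN ?_ ?_
      · have : (N : K) * (r : K)⁻¹ = -s := by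
          field_simp
          linear_combination -h
        rw [this]
        exact (multiplierOrder m).neg_mem hs
      · rw [mul_inv_cancel₀ hfi]
        exact one_mem_order m
    have h2 : IsIntegral ℤ ((r : K)⁻¹) := Sl_652.order_isIntegral h1
    have h3 : IsIntegral ℤ (((r : ℚ))⁻¹) := by
      have h4 : (algebraMap ℚ K) ((r : ℚ))⁻¹ = (r : K)⁻¹ := by simp
      rw [← h4] at h2
      exact (isIntegral_algebraMap_iff (algebraMap ℚ K).injective).1 h2
    obtain ⟨z, hz⟩ := IsIntegrallyClosed.isIntegral_iff.1 h3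
    have hfq : (r : ℚ) ≠ 0 := by exact_mod_cast hr0
    have h5 : (z : ℚ) * (r : ℚ) = 1 := by
      have : (z : ℚ) = ((r : ℚ))⁻¹ := by simpa using hz
      rw [this, inv_mul_cancel₀ hfq]
    have h6 : z * (r : ℤ) = 1 := by exact_mod_cast h5
    have h7 : IsUnit (r : ℤ) := IsUnit.of_mul_eq_one_right _ h6
    have h8 := Int.isUnit_iff_natAbs_eq.1 h7
    exact hr (by simpa using h8)
  refine ⟨ht0, ?_⟩
  classical
  have hex : ∃ j : ℕ, j ≠ 0 ∧ (j : K) * t⁻¹ ∈ multiplierOrder m := by
    obtain ⟨j, hj, hjm⟩ := exists_mul_mem_order m t⁻¹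
    exact ⟨j, hj, hjm⟩
  set j := Nat.find hex with hj
  obtain ⟨hj0, hjm⟩ := Nat.find_spec hex
  rw [← hj] at hj0 hjm
  refine ⟨j, ?_, (j : K) * t⁻¹, hjm, by field_simp⟩
  -- coprimality
  by_contra hcop
  obtain ⟨p, hp, hpj, hpf⟩ := Nat.Prime.not_coprime_iff_dvd.1 hcop
  obtain ⟨j', hj'⟩ := hpj
  obtain ⟨f', hf'⟩ := hpf
  have hj'0 : j' ≠ 0 := by
    rintro rfl
    exact hj0 (by rw [hj']; simp)
  have hj'lt : j' < j := by
    rw [hj']
    have := hp.two_le
    nlinarith [Nat.pos_of_ne_zero hj'0]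
  apply Nat.find_min hex (hj ▸ hj'lt)
  refine ⟨hj'0, ?_⟩
  have h1 : (p : K) * ((j' : K) * t⁻¹) ∈ multiplierOrder m := by
    have : (p : K) * ((j' : K) * t⁻¹) = (j : K) * t⁻¹ := by rw [hj']; push_cast; ring
    rw [this]; exact hjm
  refine mem_of_coprime (multiplierOrder m) (N := N) (f := p) ?_ ?_ h1
  · exact Nat.Coprime.coprime_dvd_right ⟨f', hf'⟩ hN
  · -- N e = (t v - r s) e
    have e1 : (N : K) * ((j' : K) * t⁻¹) =
        (j' : K) * v - ((f' : K)) * (s * ((p : K) * ((j' : K) * t⁻¹))) := by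
      have h2 : (N : K) = t * v - ((p : K) * (f' : K)) * s := by
        rw [h, hf']; push_cast; ring
      rw [h2]
      field_simp
    rw [e1]
    exact (multiplierOrder m).sub_mem (nat_mul_mem _ _ hv)
      (nat_mul_mem _ _ (mul_mem_order hs h1))

/-- Units near `f` stay units after adding multiples of `f`: if `t v = N + f s` in the order, with
`N` coprime to `f ≠ 1`, then `t ≠ 0` and `t v' = d` for some `v'` in the order and `d` coprime to
`f`. -/
theorem exists_coprime_mul (m : LatticeBasis n K) (hf : fIdx m ≠ 1) {t v s : K}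
    (hv : v ∈ multiplierOrder m) (hs : s ∈ multiplierOrder m)
    {N : ℕ} (hN : N.Coprime (fIdx m)) (h : t * v = (N : K) + (fIdx m : K) * s) :
    t ≠ 0 ∧ ∃ d : ℕ, d.Coprime (fIdx m) ∧ ∃ v' ∈ multiplierOrder m, t * v' = (d : K) :=
  exists_coprime_mul_gen m (fIdx_ne_zero m) hf hv hs hN h

end Crest.Agent.R014.Loc2_524
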