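import Crest.Agent.R014.Loc2_524

/-!
Row 14, block N2 (helper524), part 3: counting modulo `q = f^k`.
-/

set_option autoImplicit false
set_option linter.unusedSectionVars false

namespace Crest.Agent.R014.Loc3_524

open Crest.NumberTheoryR.Packets Module
open Crest.Agent.R014.LocDefs_524 Crest.Agent.R014.Loc1_524 Crest.Agent.R014.Loc2_524
open Crest.Agent.R014.Sl_652 (one_mem_order mul_mem_order lattice_fg exists_latticeBasis finrank_eq
  order_basis ordSub mem_ordSub ordSub_fg exists_mul_mem_order n_pos exists_mul_mem relIndex_eq)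

variable {n : ℕ} {K : Type*} [Field K] [NumberField K]

/-- The subgroup `q A`. -/
def qA (q : ℕ) (A : AddSubgroup K) : AddSubgroup K := A.map (nsmulAddMonoidHom (α := K) q)

theorem mem_qA {q : ℕ} {A : AddSubgroup K} {x : K} : x ∈ qA q A ↔ ∃ y ∈ A, (q : K) * y = x := by
  unfold qA
  rw [AddSubgroup.mem_map]
  simp only [nsmulAddMonoidHom_apply, nsmul_eq_mul]

theorem qA_le (q : ℕ) (A : AddSubgroup K) : qA q A ≤ A := by
  intro x hx
  obtain ⟨y, hy, rfl⟩ := mem_qA.1 hx
  exact nat_mul_mem A q hy

/-- The lattice as an additive group. -/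
def lt (m : LatticeBasis n K) : AddSubgroup K := m.lattice.toAddSubgroup

theorem mem_lt {m : LatticeBasis n K} {x : K} : x ∈ lt m ↔ x ∈ m.lattice := Iff.rfl

theorem relIndex_qA_lt (m : LatticeBasis n K) (q : ℕ) : (qA q (lt m)).relIndex (lt m) = q ^ n := by
  have hfin : Module.Finite ℤ m.lattice := Module.Finite.iff_fg.mpr (lattice_fg m)
  have b : Basis (Fin n) ℤ m.lattice := Basis.span m.linIndep
  have hfree : Module.Free ℤ m.lattice := Module.Free.of_basis b
  have hr : finrank ℤ m.lattice = n := by rw [finrank_eq_card_basis b, Fintype.card_fin]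
  have h1 : Module.Finite ℤ ↥((lt m).toIntSubmodule) := hfin
  have h2 : Module.Free ℤ ↥((lt m).toIntSubmodule) := hfree
  have := AddSubgroup.relIndex_map_nsmul q (lt m)
  unfold qA
  rw [this]
  congr 1

theorem exists_order_basis (m : LatticeBasis n K) :
    ∃ o : LatticeBasis n K, lt o = multiplierOrder m := by
  obtain ⟨o, ho⟩ := order_basis m
  refine ⟨o, ?_⟩
  ext x
  rw [mem_lt, ho]
  rfl

theorem relIndex_qA_order (m : LatticeBasis n K) (q : ℕ) :
    (qA q (multiplierOrder m)).relIndex (multiplierOrder m) = q ^ n := by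
  obtain ⟨o, ho⟩ := exists_order_basis m
  rw [← ho]
  exact relIndex_qA_lt o q

/-- The multiplier order as a ring. -/
def ordRing (m : LatticeBasis n K) : Subring K where
  carrier := multiplierOrder m
  mul_mem' := fun ha hb => mul_mem_order ha hb
  one_mem' := one_mem_order m
  add_mem' := fun ha hb => (multiplierOrder m).add_mem ha hb
  zero_mem' := (multiplierOrder m).zero_mem
  neg_mem' := fun ha => (multiplierOrder m).neg_mem ha

theorem mem_ordRing {m : LatticeBasis n K} {x : K} : x ∈ ordRing m ↔ x ∈ multiplierOrder m :=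
  Iff.rfl

theorem card_ordRing_quot (m : LatticeBasis n K) (q : ℕ) :
    Nat.card (ordRing m ⧸ Ideal.span {(q : ordRing m)}) = q ^ n := by
  obtain ⟨o, ho⟩ := order_basis m
  have hfin : Module.Finite ℤ o.lattice := Module.Finite.iff_fg.mpr (lattice_fg o)
  have b : Basis (Fin n) ℤ o.lattice := Basis.span o.linIndep
  have hfree : Module.Free ℤ o.lattice := Module.Free.of_basis b
  have hr : finrank ℤ o.lattice = n := by rw [finrank_eq_card_basis b, Fintype.card_fin]
  have hmem : ∀ x : K, x ∈ o.lattice → x ∈ ordRing m := fun x hx => by rw [ho] at hx; exact hx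
  have hmem' : ∀ x : K, x ∈ ordRing m → x ∈ o.lattice := fun x hx => by rw [ho]; exact hx
  let e0 : o.lattice ≃+ ordRing m :=
    { toFun := fun x => ⟨x.1, hmem x.1 x.2⟩
      invFun := fun x => ⟨x.1, hmem' x.1 x.2⟩
      left_inv := fun x => rfl
      right_inv := fun x => rfl
      map_add' := fun x y => rfl }
  let e : o.lattice ≃ₗ[ℤ] ordRing m := e0.toIntLinearEquiv
  have h1 : Module.Finite ℤ (ordRing m) := Module.Finite.equiv e
  have h2 : Module.Free ℤ (ordRing m) := Module.Free.of_equiv e
  have h3 : finrank ℤ (ordRing m) = n := by rw [← e.finrank_eq, hr]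
  have h4 := AddSubgroup.index_range_nsmul (ordRing m) q
  rw [h3] at h4
  have h5 : (Ideal.span {(q : ordRing m)}).toAddSubgroup =
      (nsmulAddMonoidHom (α := ordRing m) q).range := by
    ext x
    rw [AddMonoidHom.mem_range]
    constructor
    · intro hx
      obtain ⟨y, hy⟩ := Ideal.mem_span_singleton'.1 hx
      exact ⟨y, by rw [nsmulAddMonoidHom_apply, nsmul_eq_mul, mul_comm]; exact hy⟩
    · rintro ⟨y, hy⟩
      rw [nsmulAddMonoidHom_apply, nsmul_eq_mul] at hy
      exact Ideal.mem_span_singleton'.2 ⟨y, by rw [mul_comm]; exact hy⟩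
  have h6 : Nat.card (ordRing m ⧸ Ideal.span {(q : ordRing m)}) =
      (Ideal.span {(q : ordRing m)}).toAddSubgroup.index := rfl
  rw [h6, h5, h4]

/-- Elements of the order which are units modulo `q`. -/
def uSet (m : LatticeBasis n K) (q : ℕ) : Set K :=
  {u | u ∈ multiplierOrder m ∧ ∃ v ∈ multiplierOrder m, ∃ w ∈ multiplierOrder m,
    u * v = 1 + (q : K) * w}

/-- The order modulo `q`. -/
abbrev Oq (m : LatticeBasis n K) (q : ℕ) : Type _ :=
  ↥(multiplierOrder m) ⧸ (qA q (multiplierOrder m)).addSubgroupOf (multiplierOrder m)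

/-- The lattice modulo `q`. -/
abbrev Mq (m : LatticeBasis n K) (q : ℕ) : Type _ :=
  ↥(lt m) ⧸ (qA q (lt m)).addSubgroupOf (lt m)

theorem card_Oq (m : LatticeBasis n K) (q : ℕ) : Nat.card (Oq m q) = q ^ n :=
  relIndex_qA_order m q

theorem card_Mq (m : LatticeBasis n K) (q : ℕ) : Nat.card (Mq m q) = q ^ n :=
  relIndex_qA_lt m q

/-- The classes of the units modulo `q`. -/
def uBar (m : LatticeBasis n K) (q : ℕ) : Set (Oq m q) :=
  (fun u : ↥(multiplierOrder m) => (QuotientAddGroup.mk u : Oq m q)) ''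
    {u | (u : K) ∈ uSet m q}

theorem card_le_uBar (m : LatticeBasis n K) {q : ℕ} (hq : q ≠ 0) :
    q ^ n ≤ 2 ^ (n * q.primeFactors.card) * (uBar m q).ncard := by
  classical
  set R := ordRing m ⧸ Ideal.span {(q : ordRing m)} with hR
  have hcard : Nat.card R = q ^ n := card_ordRing_quot m q
  have hfinR : Finite R := Nat.finite_of_card_ne_zero (by rw [hcard]; positivity)
  have hfinQ : Finite (Oq m q) := Nat.finite_of_card_ne_zero (by rw [card_Oq]; positivity)
  have hq0 : (q : R) = 0 := by
    have : (Ideal.Quotient.mk (Ideal.span {(q : ordRing m)}) (q : ordRing m)) = 0 :=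
      Ideal.Quotient.eq_zero_iff_mem.2 (Ideal.mem_span_singleton_self _)
    simpa using this
  have h1 := card_le_units (R := R) n q hq hq0 (by
    intro p hp
    have hp0 : p ≠ 0 := (Nat.prime_of_mem_primeFactors hp).ne_zero
    have hcp := card_ordRing_quot m p
    have hfinp : Finite (ordRing m ⧸ Ideal.span {(p : ordRing m)}) :=
      Nat.finite_of_card_ne_zero (by rw [hcp]; positivity)
    rw [← hcp]
    let g : ordRing m →+* R ⧸ Ideal.span {(p : R)} :=
      (Ideal.Quotient.mk (Ideal.span {(p : R)})).comp (Ideal.Quotient.mk _)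
    have hg : Function.Surjective g :=
      Ideal.Quotient.mk_surjective.comp Ideal.Quotient.mk_surjective
    have hk : ∀ a ∈ Ideal.span {(p : ordRing m)}, g a = 0 := by
      intro a ha
      obtain ⟨b, rfl⟩ := Ideal.mem_span_singleton'.1 ha
      rw [map_mul]
      have : g (p : ordRing m) = 0 := by
        have h : g (p : ordRing m) = Ideal.Quotient.mk (Ideal.span {(p : R)}) (p : R) := by
          simp [g]
        rw [h]
        exact Ideal.Quotient.eq_zero_iff_mem.2 (Ideal.mem_span_singleton_self _)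
      rw [this]
      exact mul_zero (g b)
    exact Nat.card_le_card_of_surjective (Ideal.Quotient.lift _ g hk)
      (Ideal.Quotient.lift_surjective_of_surjective _ hk hg))
  rw [hcard] at h1
  refine h1.trans (Nat.mul_le_mul_left _ ?_)
  -- lifts of units
  have hlift : ∀ r : R, ∃ a : ordRing m, Ideal.Quotient.mk (Ideal.span {(q : ordRing m)}) a = r :=
    Ideal.Quotient.mk_surjective
  choose l hl using hlift
  apply Set.ncard_le_ncard_of_injOn (fun r => (QuotientAddGroup.mk
    (⟨(l r : K), (l r).2⟩ : ↥(multiplierOrder m)) : Oq m q))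
  · intro r hr
    obtain ⟨s, hs⟩ := IsUnit.exists_right_inv (show IsUnit r from hr)
    refine ⟨⟨(l r : K), (l r).2⟩, ⟨(l r).2, ?_⟩, rfl⟩
    have h2 : Ideal.Quotient.mk (Ideal.span {(q : ordRing m)}) (l r * l s - 1) = 0 := by
      rw [map_sub, map_mul, hl, hl, hs, map_one, sub_self]
    obtain ⟨w, hw⟩ := Ideal.mem_span_singleton'.1 (Ideal.Quotient.eq_zero_iff_mem.1 h2)
    refine ⟨(l s : K), (l s).2, (w : K), w.2, ?_⟩
    have h3 := congrArg (fun z : ordRing m => (z : K)) hw
    have h4 : (w : K) * (q : K) = (l r : K) * (l s : K) - 1 := h3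
    linear_combination -h4
  · intro r _ s _ hrs
    have h2 := QuotientAddGroup.eq.1 hrs
    rw [AddSubgroup.mem_addSubgroupOf] at h2
    obtain ⟨y, hy, hyq⟩ := mem_qA.1 h2
    rw [← hl r, ← hl s, Ideal.Quotient.eq]
    refine Ideal.mem_span_singleton'.2 ⟨-⟨y, hy⟩, ?_⟩
    apply Subtype.ext
    simp only [AddSubgroup.coe_add, AddSubgroup.coe_neg] at hyq
    show (-y) * (q : K) = (l r : K) - (l s : K)
    linear_combination -hyq

end Crest.Agent.R014.Loc3_524
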