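import Crest.Agent.R014.Loc3_524

/-!
Row 14, block N2 (helper524), part 4: the packing bound.
-/

set_option autoImplicit false
set_option linter.unusedSectionVars false

namespace Crest.Agent.R014.Loc4_524

open Crest.NumberTheoryR.Packets Module
open Crest.Agent.R014.LocDefs_524 Crest.Agent.R014.Loc1_524 Crest.Agent.R014.Loc2_524
open Crest.Agent.R014.Loc3_524
open Crest.Agent.R014.Sl_652 (one_mem_order mul_mem_order lattice_fg exists_latticeBasis finrank_eq
  order_basis ordSub mem_ordSub ordSub_fg exists_mul_mem_order n_pos exists_mul_mem relIndex_eq)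

variable {n : ℕ} {K : Type*} [Field K] [NumberField K]

/-- Types are lattices. -/
theorem exists_ty_basis {m : LatticeBasis n K} {P : AddSubgroup K} (hP : IsTy m P) :
    ∃ p : LatticeBasis n K, lt p = P := by
  by_cases hf : fIdx m = 1
  · obtain ⟨o, ho⟩ := exists_order_basis m
    exact ⟨o, by rw [ho, eq_order_of_fIdx_eq_one hP hf]⟩
  obtain ⟨g, hg, hg0, N, hN, h1, h2⟩ := exists_gen hP hf
  let f : K →ₗ[ℤ] K := LinearMap.mulLeft ℤ g
  have hfi : Function.Injective f := by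
    intro a b hab
    exact mul_left_cancel₀ hg0 hab
  have h3 : (P.toIntSubmodule).map f ≤ m.lattice := by
    rintro _ ⟨x, hx, rfl⟩
    exact h1 x hx
  have : IsNoetherian ℤ m.lattice := by
    have : Module.Finite ℤ m.lattice := Module.Finite.iff_fg.mpr (lattice_fg m)
    infer_instance
  have h4 : ((P.toIntSubmodule).map f).FG := by
    have h5 : IsNoetherian ℤ ((P.toIntSubmodule).map f) := isNoetherian_of_le h3
    exact (Submodule.fg_top _).mp (h5.noetherian ⊤)
  have h6 : (P.toIntSubmodule).FG := Submodule.fg_of_fg_map_injective f hfi h4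
  obtain ⟨p, hp⟩ := exists_latticeBasis (finrank_eq m) P.toIntSubmodule h6 (by
    intro x
    obtain ⟨N, hN, h⟩ := exists_mul_mem_order m x
    exact ⟨N, hN, hP.order_le h⟩)
  refine ⟨p, ?_⟩
  ext x
  rw [mem_lt, hp]
  rfl

theorem relIndex_lt_ne_zero {a b : LatticeBasis n K} (h : lt a ≤ lt b) :
    (lt a).relIndex (lt b) ≠ 0 := by
  have h1 := relIndex_eq b a h
  intro h0
  unfold lt at h0
  rw [h0] at h1
  have h4 : (Sl_652.qBasis b).det a.vec ≠ 0 := by
    rw [← Sl_652.coe_qBasis a]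
    exact (Basis.isUnit_det _ _).ne_zero
  exact h4 (abs_eq_zero.1 (by rw [← h1]; simp))

theorem relIndex_ne_zero {m : LatticeBasis n K} {P : AddSubgroup K} (hP : IsTy m P) :
    (multiplierOrder m).relIndex P ≠ 0 := by
  obtain ⟨p, hp⟩ := exists_ty_basis hP
  obtain ⟨o, ho⟩ := exists_order_basis m
  rw [← hp, ← ho]
  apply relIndex_lt_ne_zero
  rw [hp, ho]
  exact hP.order_le

/-- A power of `f` maps a type into the order. -/
theorem exists_pow_mul_mem {m : LatticeBasis n K} {P : AddSubgroup K} (hP : IsTy m P) :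
    ∃ k : ℕ, ∀ x ∈ P, (fIdx m : K) ^ k * x ∈ multiplierOrder m := by
  obtain ⟨p, hp⟩ := exists_ty_basis hP
  have h1 : ∀ i, p.vec i ∈ P := by
    intro i
    rw [← hp]
    exact Sl_652.vec_mem p i
  choose k hk using fun i => hP.away _ (h1 i)
  refine ⟨∑ i, k i, ?_⟩
  intro x hx
  rw [← hp] at hx
  have hx' : x ∈ Submodule.span ℤ (Set.range p.vec) := hx
  induction hx' using Submodule.span_induction with
  | mem y hy =>
    obtain ⟨i, rfl⟩ := hy
    have h2 : k i ≤ ∑ i, k i := Finset.single_le_sum (f := k) (fun _ _ => Nat.zero_le _)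
      (Finset.mem_univ i)
    obtain ⟨j, hj⟩ := Nat.exists_eq_add_of_le h2
    rw [hj, pow_add, mul_comm ((fIdx m : K) ^ k i), mul_assoc]
    exact nat_pow_mul_mem _ _ _ (hk i)
  | zero => rw [mul_zero]; exact (multiplierOrder m).zero_mem
  | add a b ha' hb' ha hb =>
    rw [mul_add]
    exact (multiplierOrder m).add_mem (ha (show a ∈ lt p from ha')) (hb (show b ∈ lt p from hb'))
  | smul c a ha' ha =>
    rw [mul_smul_comm]
    exact (multiplierOrder m).zsmul_mem (ha (show a ∈ lt p from ha')) c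

/-- Multiplication by an element `g` of the lattice. -/
def mulG (m : LatticeBasis n K) {g : K} (hg : g ∈ m.lattice) :
    ↥(multiplierOrder m) →+ ↥(lt m) where
  toFun u := ⟨(u : K) * g, u.2 g hg⟩
  map_zero' := by apply Subtype.ext; show (0 : K) * g = 0; rw [zero_mul]
  map_add' a b := by apply Subtype.ext; show ((a : K) + b) * g = a * g + b * g; ring

/-- Multiplication by `g`, modulo `q`. -/
def phi (m : LatticeBasis n K) (q : ℕ) {g : K} (hg : g ∈ m.lattice) : Oq m q →+ Mq m q :=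
  QuotientAddGroup.map _ _ (mulG m hg) (by
    intro u hu
    rw [AddSubgroup.mem_addSubgroupOf] at hu
    rw [AddSubgroup.mem_comap, AddSubgroup.mem_addSubgroupOf]
    obtain ⟨y, hy, hyu⟩ := mem_qA.1 hu
    refine mem_qA.2 ⟨y * g, hy g hg, ?_⟩
    show (q : K) * (y * g) = (u : K) * g
    rw [← hyu]; ring)

theorem phi_mk (m : LatticeBasis n K) (q : ℕ) {g : K} (hg : g ∈ m.lattice)
    (u : ↥(multiplierOrder m)) :
    phi m q hg (QuotientAddGroup.mk u) = QuotientAddGroup.mk (mulG m hg u) := rfl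

/-- The image of the order has index at most `[P : O]` in the lattice modulo `q`. -/
theorem range_index_le {m : LatticeBasis n K} {P : AddSubgroup K} (hP : IsTy m P) (q : ℕ)
    {g : K} (hg : g ∈ m.lattice) {N : ℕ} (hN : N.Coprime q)
    (h1 : ∀ x ∈ P, g * x ∈ m.lattice) (h2 : ∀ z ∈ m.lattice, ∃ y ∈ P, g * y = (N : K) * z) :
    (phi m q hg).range.index ≤ (multiplierOrder m).relIndex P := by
  let Φ0 : ↥P →+ ↥(lt m) :=
    { toFun := fun x => ⟨g * (x : K), h1 x x.2⟩
      map_zero' := by apply Subtype.ext; show g * (0 : K) = 0; rw [mul_zero]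
      map_add' := fun a b => by apply Subtype.ext; show g * ((a : K) + b) = g * a + g * b; ring }
  let Φ : ↥P →+ Mq m q := (QuotientAddGroup.mk' _).comp Φ0
  have hs : Function.Surjective Φ := by
    intro z'
    obtain ⟨z, rfl⟩ := QuotientAddGroup.mk_surjective z'
    obtain ⟨y, hy, hgy⟩ := h2 z z.2
    obtain ⟨a, b, hab⟩ := exists_inv_mod (K := K) hN
    refine ⟨⟨(a : K) * y, nat_mul_mem P a hy⟩, ?_⟩
    show QuotientAddGroup.mk (Φ0 ⟨(a : K) * y, _⟩) = QuotientAddGroup.mk z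
    rw [QuotientAddGroup.eq, AddSubgroup.mem_addSubgroupOf]
    refine mem_qA.2 ⟨-((b : ℤ) • (z : K)), (lt m).neg_mem ((lt m).zsmul_mem z.2 b), ?_⟩
    show (q : K) * (-((b : ℤ) • (z : K))) = -(g * ((a : K) * y)) + (z : K)
    rw [zsmul_eq_mul]
    linear_combination (a : K) * hgy + (z : K) * hab
  have h3 := AddSubgroup.index_map_dvd ((multiplierOrder m).addSubgroupOf P) hs
  have h4 : ((multiplierOrder m).addSubgroupOf P).map Φ ≤ (phi m q hg).range := by
    rintro _ ⟨x, hx, rfl⟩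
    have hx' : (x : K) ∈ multiplierOrder m := AddSubgroup.mem_addSubgroupOf.1 hx
    refine ⟨QuotientAddGroup.mk ⟨(x : K), hx'⟩, ?_⟩
    rw [phi_mk]
    show QuotientAddGroup.mk (mulG m hg ⟨(x : K), hx'⟩) = QuotientAddGroup.mk (Φ0 x)
    congr 1
    apply Subtype.ext
    show (x : K) * g = g * (x : K)
    ring
  have h5 := AddSubgroup.index_dvd_of_le h4
  exact Nat.le_of_dvd (Nat.pos_of_ne_zero (relIndex_ne_zero hP)) (h5.trans h3)

/-- Each type occupies at least a proportion `2^(-n ω(q)) / [P : O]` of the classes mod `q`. -/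
theorem card_le_phi {m : LatticeBasis n K} {P : AddSubgroup K} (hP : IsTy m P) {q : ℕ}
    (hq : q ≠ 0) {g : K} (hg : g ∈ m.lattice) {N : ℕ} (hN : N.Coprime q)
    (h1 : ∀ x ∈ P, g * x ∈ m.lattice) (h2 : ∀ z ∈ m.lattice, ∃ y ∈ P, g * y = (N : K) * z) :
    q ^ n ≤ 2 ^ (n * q.primeFactors.card) *
      ((phi m q hg '' uBar m q).ncard * (multiplierOrder m).relIndex P) := by
  have hfinQ : Finite (Oq m q) := Nat.finite_of_card_ne_zero (by rw [card_Oq]; positivity)
  have hfinM : Finite (Mq m q) := Nat.finite_of_card_ne_zero (by rw [card_Mq]; positivity)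
  have e1 := card_le_uBar m hq
  have e2 := card_mul_range_le (phi m q hg) (uBar m q)
  rw [card_Oq] at e2
  have e3 := AddSubgroup.card_mul_index (phi m q hg).range
  rw [card_Mq] at e3
  have e4 := range_index_le hP q hg hN h1 h2
  set a := (uBar m q).ncard
  set r := Nat.card (phi m q hg).range
  set ι := (phi m q hg).range.index
  set s := (phi m q hg '' uBar m q).ncard
  set j := (multiplierOrder m).relIndex P
  have hq' : 0 < q ^ n := by positivity
  -- a r ≤ s q^n, r ι = q^n, ι ≤ j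
  have e5 : a ≤ s * j := by
    have h3 : a * q ^ n ≤ s * j * q ^ n := by
      calc a * q ^ n = a * r * ι := by rw [← e3]; ring
        _ ≤ s * q ^ n * ι := Nat.mul_le_mul_right _ e2
        _ ≤ s * q ^ n * j := Nat.mul_le_mul_left _ e4
        _ = s * j * q ^ n := by ring
    exact Nat.le_of_mul_le_mul_right h3 hq'
  exact e1.trans (Nat.mul_le_mul_left _ e5)

/-- `x ∈ M` generates `M` near `f` over `P`: `x P_(f) = M_(f)`. -/
structure IsGen (m : LatticeBasis n K) (P : AddSubgroup K) (x : K) : Prop where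
  ne : x ≠ 0
  le : ∀ y ∈ P, x * y ∈ m.lattice
  ge : ∃ N : ℕ, N.Coprime (fIdx m) ∧ ∀ z ∈ m.lattice, ∃ y ∈ P, x * y = (N : K) * z

theorem IsGen.ty_le {m : LatticeBasis n K} {P P' : AddSubgroup K} (hP : IsTy m P)
    (hP' : IsTy m P') {x : K} (h : IsGen m P x) (h' : IsGen m P' x) : P ≤ P' := by
  intro y hy
  obtain ⟨N, hN, h2⟩ := h'.ge
  obtain ⟨y', hy', hxy⟩ := h2 _ (h.le y hy)
  have : y' = (N : K) * y := by
    have h3 : x * y' = x * ((N : K) * y) := by rw [hxy]; ring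
    exact mul_left_cancel₀ h.ne h3
  rw [this] at hy'
  exact mem_of_away hP'.order_le hN hy' (hP.away y hy)

theorem IsGen.ty_eq {m : LatticeBasis n K} {P P' : AddSubgroup K} (hP : IsTy m P)
    (hP' : IsTy m P') {x : K} (h : IsGen m P x) (h' : IsGen m P' x) : P = P' :=
  le_antisymm (h.ty_le hP hP' h') (h'.ty_le hP' hP h)

theorem isGen_of_eq {m : LatticeBasis n K} {P : AddSubgroup K} (hP : IsTy m P) (hf : fIdx m ≠ 1)
    {q : ℕ} (hfq : fIdx m ∣ q) (hqP : ∀ y ∈ P, ∃ s ∈ multiplierOrder m,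
      (q : K) * y = (fIdx m : K) * s)
    {g : K} (hg0 : g ≠ 0) {N : ℕ} (hN : N.Coprime (fIdx m))
    (h1 : ∀ x ∈ P, g * x ∈ m.lattice) (h2 : ∀ z ∈ m.lattice, ∃ y ∈ P, g * y = (N : K) * z)
    {u a x : K} (hu : u ∈ uSet m q) (ha : a ∈ m.lattice) (hx : x = u * g + (q : K) * a) :
    IsGen m P x := by
  obtain ⟨huO, v, hv, w, hw, huv⟩ := hu
  obtain ⟨q', hq'⟩ := hfq
  obtain ⟨b, hb, hgb⟩ := h2 a ha
  obtain ⟨s, hs, hqb⟩ := hqP b hb
  have hN0 : (N : K) ≠ 0 := by exact_mod_cast coprime_ne_zero hN hf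
  set t := (N : K) * u + (fIdx m : K) * s with ht
  have hNx : (N : K) * x = g * t := by
    rw [hx, ht]
    linear_combination -(q : K) * hgb + g * hqb
  have htv : t * v = (N : K) + (fIdx m : K) * ((N : K) * ((q' : K) * w) + s * v) := by
    have hqc : (q : K) = (fIdx m : K) * (q' : K) := by rw [hq']; push_cast; ring
    rw [ht]
    linear_combination (N : K) * huv + (N : K) * w * hqc
  obtain ⟨ht0, d, hd, v', hv', htd⟩ := exists_coprime_mul m hf hv
    ((multiplierOrder m).add_mem (nat_mul_mem _ _ (nat_mul_mem _ _ hw)) (mul_mem_order hs hv))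
    hN htv
  refine ⟨?_, ?_, ?_⟩
  · rintro rfl
    rw [mul_zero] at hNx
    exact (mul_ne_zero hg0 ht0) hNx.symm
  · intro y hy
    have e : x * y = g * (u * y) + ((q : K) * y) * a := by rw [hx]; ring
    rw [e]
    refine m.lattice.add_mem (h1 _ (mul_mem_ty hP huO hy)) ?_
    obtain ⟨s', hs', hqy⟩ := hqP y hy
    rw [hqy]
    exact (nat_mul_mem _ (fIdx m) hs') a ha
  · refine ⟨d * N, Nat.Coprime.mul_left hd hN, ?_⟩
    intro z hz
    obtain ⟨b', hb', hgb'⟩ := h2 z hz
    refine ⟨(N : K) * (v' * b'), nat_mul_mem _ _ (mul_mem_ty hP hv' hb'), ?_⟩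
    push_cast
    linear_combination (v' * b') * hNx + (g * b') * htd + (d : K) * hgb'

/-- The classes modulo `q` all of whose members generate `M` over `P`. -/
def sP (m : LatticeBasis n K) (q : ℕ) (P : AddSubgroup K) : Set (Mq m q) :=
  {c | ∀ x : ↥(lt m), (QuotientAddGroup.mk x : Mq m q) = c → IsGen m P x}

theorem card_le_sP {m : LatticeBasis n K} {P : AddSubgroup K} (hP : IsTy m P) (hf : fIdx m ≠ 1)
    {k : ℕ} (hk : k ≠ 0) (hqP : ∀ y ∈ P, ∃ s ∈ multiplierOrder m,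
      ((fIdx m ^ k : ℕ) : K) * y = (fIdx m : K) * s) :
    (fIdx m ^ k) ^ n ≤ 2 ^ (n * (fIdx m).primeFactors.card) *
      ((sP m (fIdx m ^ k) P).ncard * (multiplierOrder m).relIndex P) := by
  obtain ⟨g, hg, hg0, N, hN, h1, h2⟩ := exists_gen hP hf
  set q := fIdx m ^ k with hq
  have hq0 : q ≠ 0 := pow_ne_zero _ (fIdx_ne_zero m)
  have hfinM : Finite (Mq m q) := Nat.finite_of_card_ne_zero (by rw [card_Mq]; positivity)
  have hNq : N.Coprime q := Nat.Coprime.pow_right k hN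
  have e := card_le_phi hP hq0 hg hNq h1 h2
  have e1 : q.primeFactors = (fIdx m).primeFactors := by
    rw [hq]; exact Nat.primeFactors_pow _ hk
  rw [e1] at e
  refine e.trans (Nat.mul_le_mul_left _ (Nat.mul_le_mul_right _ ?_))
  apply Set.ncard_le_ncard _ (Set.toFinite _)
  rintro _ ⟨_, ⟨u, hu, rfl⟩, rfl⟩
  intro x hx
  rw [phi_mk, QuotientAddGroup.eq, AddSubgroup.mem_addSubgroupOf] at hx
  obtain ⟨y, hy, hyx⟩ := mem_qA.1 hx
  have hyx' : (q : K) * y = -(x : K) + (u : K) * g := hyx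
  refine isGen_of_eq hP hf (dvd_pow_self _ hk) hqP hg0 hN h1 h2 (u := (u : K)) (a := -y) hu
    (m.lattice.neg_mem hy) ?_
  linear_combination hyx'

/-- The image of a subgroup `H ⊇ qM` modulo `q` has `q^n / [M : H]` elements. -/
theorem ncard_image_mul_le (m : LatticeBasis n K) {q : ℕ} (hq : q ≠ 0) {H : AddSubgroup K}
    (hH : H ≤ lt m) (hqH : qA q (lt m) ≤ H) :
    {c : Mq m q | ∃ x : ↥(lt m), (x : K) ∈ H ∧ (QuotientAddGroup.mk x : Mq m q) = c}.ncard *
      H.relIndex (lt m) ≤ q ^ n := by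
  have h1 := AddSubgroup.relIndex_mul_relIndex (qA q (lt m)) H (lt m) hqH hH
  rw [relIndex_qA_lt] at h1
  rw [← h1]
  apply Nat.mul_le_mul_right
  have hne : (qA q (lt m)).relIndex H ≠ 0 := by
    intro h0
    rw [h0, zero_mul] at h1
    exact (pow_ne_zero n hq) h1.symm
  have hcard : Nat.card (↥H ⧸ (qA q (lt m)).addSubgroupOf H) = (qA q (lt m)).relIndex H := rfl
  have hfin : Finite (↥H ⧸ (qA q (lt m)).addSubgroupOf H) :=
    Nat.finite_of_card_ne_zero (by rw [hcard]; exact hne)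
  let ψ : (↥H ⧸ (qA q (lt m)).addSubgroupOf H) →+ Mq m q :=
    QuotientAddGroup.map _ _ (AddSubgroup.inclusion hH) (by
      intro u hu
      rw [AddSubgroup.mem_addSubgroupOf] at hu
      rw [AddSubgroup.mem_comap, AddSubgroup.mem_addSubgroupOf]
      exact hu)
  have hsub : {c : Mq m q | ∃ x : ↥(lt m), (x : K) ∈ H ∧
      (QuotientAddGroup.mk x : Mq m q) = c} ⊆ Set.range ψ := by
    rintro _ ⟨x, hx, rfl⟩
    exact ⟨QuotientAddGroup.mk ⟨(x : K), hx⟩, rfl⟩
  rw [← hcard]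
  refine (Set.ncard_le_ncard hsub (Set.finite_range _)).trans ?_
  rw [← Set.image_univ]
  refine (Set.ncard_image_le (Set.toFinite _)).trans ?_
  rw [Set.ncard_univ]

/-- PACKING: if the generators of `M` over the members of `B` are covered by finitely many subgroups
`H` of `M`, the sum of `1/[P : O]` over `B` is at most `2^(n ω(f))` times that of `1/[M : H]`. -/
theorem packing (m : LatticeBasis n K) (hf : fIdx m ≠ 1) (B : Finset (AddSubgroup K))
    (hB : ∀ P ∈ B, IsTy m P) (I : Finset (AddSubgroup K))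
    (hI : ∀ H ∈ I, H ≤ lt m ∧ ∃ k : ℕ, ∀ x ∈ m.lattice, (fIdx m : K) ^ k * x ∈ H)
    (hcov : ∀ P ∈ B, ∀ x ∈ m.lattice, IsGen m P x → ∃ H ∈ I, x ∈ H) :
    ∑ P ∈ B, (((multiplierOrder m).relIndex P : ℕ) : ℝ)⁻¹ ≤
      2 ^ (n * (fIdx m).primeFactors.card) * ∑ H ∈ I, ((H.relIndex (lt m) : ℕ) : ℝ)⁻¹ := by
  classical
  -- a common exponent
  have hex1 : ∀ P : AddSubgroup K, ∃ k : ℕ, P ∈ B → ∀ x ∈ P,
      (fIdx m : K) ^ k * x ∈ multiplierOrder m := by
    intro P
    by_cases hP : P ∈ B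
    · obtain ⟨k, hk⟩ := exists_pow_mul_mem (hB P hP)
      exact ⟨k, fun _ => hk⟩
    · exact ⟨0, fun h => absurd h hP⟩
  choose k1 hk1 using hex1
  have hex2 : ∀ H : AddSubgroup K, ∃ k : ℕ, H ∈ I → ∀ x ∈ m.lattice,
      (fIdx m : K) ^ k * x ∈ H := by
    intro H
    by_cases hH : H ∈ I
    · obtain ⟨k, hk⟩ := (hI H hH).2
      exact ⟨k, fun _ => hk⟩
    · exact ⟨0, fun h => absurd h hH⟩
  choose k2 hk2 using hex2
  set k := (∑ P ∈ B, k1 P) + (∑ H ∈ I, k2 H) + 1 with hk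
  have hk0 : k ≠ 0 := by omega
  set q := fIdx m ^ k with hq
  have hq0 : q ≠ 0 := pow_ne_zero _ (fIdx_ne_zero m)
  have hfinM : Finite (Mq m q) := Nat.finite_of_card_ne_zero (by rw [card_Mq]; positivity)
  -- the types
  have hA : ∀ P ∈ B, (((multiplierOrder m).relIndex P : ℕ) : ℝ)⁻¹ ≤
      2 ^ (n * (fIdx m).primeFactors.card) * ((sP m q P).ncard : ℝ) / (q : ℝ) ^ n := by
    intro P hP
    have hj0 := relIndex_ne_zero (hB P hP)
    have h := card_le_sP (hB P hP) hf hk0 (by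
      intro y hy
      have h1 : k1 P ≤ ∑ P ∈ B, k1 P :=
        Finset.single_le_sum (f := k1) (fun _ _ => Nat.zero_le _) hP
      obtain ⟨l, hl⟩ := Nat.exists_eq_add_of_le h1
      refine ⟨(fIdx m : K) ^ (l + ∑ H ∈ I, k2 H) * ((fIdx m : K) ^ k1 P * y),
        nat_pow_mul_mem _ _ _ (hk1 P hP y hy), ?_⟩
      rw [hk, hl]
      push_cast
      ring)
    rw [← hq] at h
    have h' : (q : ℝ) ^ n ≤ 2 ^ (n * (fIdx m).primeFactors.card) *
        (((sP m q P).ncard : ℝ) * (((multiplierOrder m).relIndex P : ℕ) : ℝ)) := by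
      exact_mod_cast h
    have hj : (0 : ℝ) < (((multiplierOrder m).relIndex P : ℕ) : ℝ) := by
      exact_mod_cast Nat.pos_of_ne_zero hj0
    have hqn : (0 : ℝ) < (q : ℝ) ^ n := by
      have : (0 : ℝ) < (q : ℝ) := by exact_mod_cast Nat.pos_of_ne_zero hq0
      positivity
    rw [inv_eq_one_div, div_le_div_iff₀ hj hqn]
    linarith
  -- disjointness
  have hdisj : ∀ P ∈ B, ∀ P' ∈ B, P ≠ P' → Disjoint (sP m q P) (sP m q P') := by
    intro P hP P' hP' hne
    rw [Set.disjoint_left]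
    intro c hc hc'
    obtain ⟨x, rfl⟩ := QuotientAddGroup.mk_surjective c
    exact hne ((hc x rfl).ty_eq (hB P hP) (hB P' hP') (hc' x rfl))
  have hS : ∑ P ∈ B, (sP m q P).ncard ≤ ∑ H ∈ I,
      {c : Mq m q | ∃ x : ↥(lt m), (x : K) ∈ H ∧ (QuotientAddGroup.mk x : Mq m q) = c}.ncard := by
    have hfin : ∀ s : Set (Mq m q), s.Finite := fun s => Set.toFinite s
    have e1 : ∑ P ∈ B, (sP m q P).ncard = (B.biUnion (fun P => (hfin (sP m q P)).toFinset)).card := by
      rw [Finset.card_biUnion]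
      · exact Finset.sum_congr rfl fun P _ => Set.ncard_eq_toFinset_card _ (hfin _)
      · intro P hP P' hP' hne
        exact (Set.Finite.disjoint_toFinset).2 (hdisj P hP P' hP' hne)
    rw [e1]
    have e2 : B.biUnion (fun P => (hfin (sP m q P)).toFinset) ⊆
        I.biUnion (fun H => (hfin {c : Mq m q | ∃ x : ↥(lt m), (x : K) ∈ H ∧
          (QuotientAddGroup.mk x : Mq m q) = c}).toFinset) := by
      intro c hc
      obtain ⟨P, hP, hcP⟩ := Finset.mem_biUnion.1 hc
      rw [Set.Finite.mem_toFinset] at hcP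
      obtain ⟨x, rfl⟩ := QuotientAddGroup.mk_surjective c
      obtain ⟨H, hH, hxH⟩ := hcov P hP x x.2 (hcP x rfl)
      refine Finset.mem_biUnion.2 ⟨H, hH, ?_⟩
      rw [Set.Finite.mem_toFinset]
      exact ⟨x, hxH, rfl⟩
    refine (Finset.card_le_card e2).trans (Finset.card_biUnion_le.trans ?_)
    exact Finset.sum_le_sum fun H _ => (Set.ncard_eq_toFinset_card _ (hfin _)).ge
  have hqn : (0 : ℝ) < (q : ℝ) ^ n := by
    have : (0 : ℝ) < (q : ℝ) := by exact_mod_cast Nat.pos_of_ne_zero hq0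
    positivity
  have hH : ∀ H ∈ I, (({c : Mq m q | ∃ x : ↥(lt m), (x : K) ∈ H ∧
      (QuotientAddGroup.mk x : Mq m q) = c}.ncard : ℕ) : ℝ) ≤
        (q : ℝ) ^ n * ((H.relIndex (lt m) : ℕ) : ℝ)⁻¹ := by
    intro H hHI
    have hqH : qA q (lt m) ≤ H := by
      intro x hx
      obtain ⟨y, hy, rfl⟩ := mem_qA.1 hx
      have h1 : k2 H ≤ ∑ H ∈ I, k2 H :=
        Finset.single_le_sum (f := k2) (fun _ _ => Nat.zero_le _) hHI
      obtain ⟨l, hl⟩ := Nat.exists_eq_add_of_le h1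
      have h3 : ((q : ℕ) : K) * y = (fIdx m : K) ^ ((∑ P ∈ B, k1 P) + l + 1) *
          ((fIdx m : K) ^ k2 H * y) := by
        rw [hq, hk, hl]; push_cast; ring
      rw [h3]
      exact nat_pow_mul_mem _ _ _ (hk2 H hHI y hy)
    have h := ncard_image_mul_le m hq0 (hI H hHI).1 hqH
    have hj0 : H.relIndex (lt m) ≠ 0 := by
      intro h0
      have h1 := AddSubgroup.relIndex_mul_relIndex (qA q (lt m)) H (lt m) hqH (hI H hHI).1
      rw [relIndex_qA_lt, h0, mul_zero] at h1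
      exact (pow_ne_zero n hq0) h1.symm
    have hj : (0 : ℝ) < ((H.relIndex (lt m) : ℕ) : ℝ) := by
      exact_mod_cast Nat.pos_of_ne_zero hj0
    rw [← div_eq_mul_inv, le_div_iff₀ hj]
    exact_mod_cast h
  have hS' : ∑ P ∈ B, ((sP m q P).ncard : ℝ) ≤ (q : ℝ) ^ n *
      ∑ H ∈ I, ((H.relIndex (lt m) : ℕ) : ℝ)⁻¹ := by
    have h1 : ∑ P ∈ B, ((sP m q P).ncard : ℝ) ≤ ∑ H ∈ I,
      (({c : Mq m q | ∃ x : ↥(lt m), (x : K) ∈ H ∧
        (QuotientAddGroup.mk x : Mq m q) = c}.ncard : ℕ) : ℝ) := by exact_mod_cast hS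
    rw [Finset.mul_sum]
    exact h1.trans (Finset.sum_le_sum hH)
  calc ∑ P ∈ B, (((multiplierOrder m).relIndex P : ℕ) : ℝ)⁻¹
      ≤ ∑ P ∈ B, 2 ^ (n * (fIdx m).primeFactors.card) * ((sP m q P).ncard : ℝ) / (q : ℝ) ^ n :=
        Finset.sum_le_sum hA
    _ = 2 ^ (n * (fIdx m).primeFactors.card) / (q : ℝ) ^ n * ∑ P ∈ B, ((sP m q P).ncard : ℝ) := by
        rw [Finset.mul_sum]
        exact Finset.sum_congr rfl fun P _ => by ring
    _ ≤ 2 ^ (n * (fIdx m).primeFactors.card) / (q : ℝ) ^ n * ((q : ℝ) ^ n *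
      ∑ H ∈ I, ((H.relIndex (lt m) : ℕ) : ℝ)⁻¹) :=
        mul_le_mul_of_nonneg_left hS' (by positivity)
    _ = 2 ^ (n * (fIdx m).primeFactors.card) * ∑ H ∈ I, ((H.relIndex (lt m) : ℕ) : ℝ)⁻¹ := by
        field_simp

/-- THE PACKING BOUND: `∑ 1/[P : O] ≤ 2^(n ω(f))` over types `P`. -/
theorem ty_sum_le (m : LatticeBasis n K) (B : Finset (AddSubgroup K)) (hB : ∀ P ∈ B, IsTy m P) :
    ∑ P ∈ B, (((multiplierOrder m).relIndex P : ℕ) : ℝ)⁻¹ ≤
      2 ^ (n * (fIdx m).primeFactors.card) := by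
  classical
  by_cases hf : fIdx m = 1
  · have hsub : B ⊆ {multiplierOrder m} := by
      intro P hP
      rw [Finset.mem_singleton]
      exact eq_order_of_fIdx_eq_one (hB P hP) hf
    calc ∑ P ∈ B, (((multiplierOrder m).relIndex P : ℕ) : ℝ)⁻¹
        ≤ ∑ P ∈ {multiplierOrder m}, (((multiplierOrder m).relIndex P : ℕ) : ℝ)⁻¹ :=
          Finset.sum_le_sum_of_subset_of_nonneg hsub (fun _ _ _ => by positivity)
      _ = 1 := by rw [Finset.sum_singleton, AddSubgroup.relIndex_self]; simp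
      _ ≤ 2 ^ (n * (fIdx m).primeFactors.card) := one_le_pow₀ (by norm_num)
  · have h := packing m hf B hB {lt m} (by
      intro H hH
      rw [Finset.mem_singleton] at hH
      subst hH
      exact ⟨le_rfl, 0, fun x hx => by rw [pow_zero, one_mul]; exact hx⟩) (by
      intro P _ x hx _
      exact ⟨lt m, Finset.mem_singleton_self _, hx⟩)
    rw [Finset.sum_singleton, AddSubgroup.relIndex_self] at h
    simpa using h

end Crest.Agent.R014.Loc4_524
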