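import Crest.Agent.R014.Loc4_524
import Crest.Agent.R014.Pk2_349

/-!
Row 14, block N2 (helper524), part 5: the `f`-part of a lattice locally homothetic to `M` which
contains `1` is a type.
-/

set_option autoImplicit false
set_option linter.unusedSectionVars false

namespace Crest.Agent.R014.Loc5_524

open Crest.NumberTheoryR.Packets Module
open Crest.Agent.R014.LocDefs_524 Crest.Agent.R014.Loc1_524 Crest.Agent.R014.Loc2_524
open Crest.Agent.R014.Loc3_524 Crest.Agent.R014.Loc4_524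
open Crest.Agent.R014.Sl_652 (one_mem_order mul_mem_order lattice_fg exists_latticeBasis finrank_eq
  order_basis ordSub mem_ordSub ordSub_fg exists_mul_mem_order n_pos exists_mul_mem relIndex_eq)

variable {n : ℕ} {K : Type*} [Field K] [NumberField K]

/-- A set of integers closed under addition and multiples which contains, for each prime `p ∣ f`,
an element prime to `p`, contains an element coprime to `f`. -/
theorem exists_coprime_of_local {f : ℕ} (J : Ideal ℤ) (hJ0 : ∃ N : ℕ, N ≠ 0 ∧ (N : ℤ) ∈ J)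
    (h : ∀ p : ℕ, p.Prime → p ∣ f → ∃ N : ℕ, ¬ p ∣ N ∧ (N : ℤ) ∈ J) :
    ∃ N : ℕ, N ≠ 0 ∧ N.Coprime f ∧ (N : ℤ) ∈ J := by
  obtain ⟨g, hg⟩ : ∃ g : ℤ, J = Ideal.span {g} := (IsPrincipalIdealRing.principal J).principal
  have hgJ : (g.natAbs : ℤ) ∈ J := by
    rw [hg, Ideal.mem_span_singleton]
    exact Int.dvd_natAbs_self
  refine ⟨g.natAbs, ?_, ?_, hgJ⟩
  · obtain ⟨N, hN, hNJ⟩ := hJ0
    rw [hg, Ideal.mem_span_singleton] at hNJ
    rw [Int.natAbs_ne_zero]
    rintro rfl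
    exact hN (by exact_mod_cast (zero_dvd_iff.1 hNJ))
  · by_contra hcop
    obtain ⟨p, hp, hpg, hpf⟩ := Nat.Prime.not_coprime_iff_dvd.1 hcop
    obtain ⟨N, hN, hNJ⟩ := h p hp hpf
    rw [hg, Ideal.mem_span_singleton] at hNJ
    apply hN
    have : g.natAbs ∣ N := by simpa using Int.natAbs_dvd_natAbs.2 hNJ
    exact hpg.trans this

/-- Split an integer into a part dividing a power of `p` and a part prime to `p`. -/
theorem exists_split {p : ℕ} (hp : p.Prime) {N : ℕ} (hN : N ≠ 0) :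
    ∃ k N' : ℕ, ¬ p ∣ N' ∧ N = p ^ k * N' :=
  Nat.exists_eq_pow_mul_and_not_dvd hN p hp.ne_one

/-- `N0 · M1 ⊆ O`. -/
theorem exists_mul_le_order (m m1 : LatticeBasis n K) :
    ∃ N : ℕ, N ≠ 0 ∧ ∀ x ∈ m1.lattice, (N : K) * x ∈ multiplierOrder m := by
  choose N hN h using fun i => exists_mul_mem_order m (m1.vec i)
  refine ⟨∏ i, N i, Finset.prod_ne_zero_iff.mpr fun i _ => hN i, ?_⟩
  intro x hx
  have hx' : x ∈ Submodule.span ℤ (Set.range m1.vec) := hx
  induction hx' using Submodule.span_induction with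
  | mem y hy =>
    obtain ⟨i, rfl⟩ := hy
    rw [← Finset.mul_prod_erase Finset.univ N (Finset.mem_univ i)]
    have e : ((N i * ∏ j ∈ Finset.univ.erase i, N j : ℕ) : K) * m1.vec i =
        ((∏ j ∈ Finset.univ.erase i, N j : ℕ) : K) * ((N i : K) * m1.vec i) := by
      push_cast; ring
    rw [e]
    exact nat_mul_mem _ _ (h i)
  | zero => rw [mul_zero]; exact (multiplierOrder m).zero_mem
  | add a b ha' hb' ha hb => rw [mul_add]; exact (multiplierOrder m).add_mem (ha ha') (hb hb')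
  | smul c a ha' ha => rw [mul_smul_comm]; exact (multiplierOrder m).zsmul_mem (ha ha') c

/-- `g` generates `M` over `M1` near the prime `p`. -/
structure GenAt (m m1 : LatticeBasis n K) (p : ℕ) (g : K) : Prop where
  ne : g ≠ 0
  le : ∃ N : ℕ, ¬ p ∣ N ∧ ∀ y ∈ m1.lattice, (N : K) * (g * y) ∈ m.lattice
  ge : ∃ N : ℕ, ¬ p ∣ N ∧ ∀ z ∈ m.lattice, ∃ y ∈ m1.lattice, g * y = (N : K) * z

theorem not_dvd_mul {p a b : ℕ} (hp : p.Prime) (ha : ¬ p ∣ a) (hb : ¬ p ∣ b) : ¬ p ∣ a * b :=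
  fun h => ((Nat.Prime.dvd_mul hp).1 h).elim ha hb

/-- Local generators can be moved `p`-adically a little. -/
theorem GenAt.add {m m1 : LatticeBasis n K} {p : ℕ} (hp : p.Prime)
    (hO : multiplierOrder m1 = multiplierOrder m) {g a : K} (hg : GenAt m m1 p g)
    {k N' N'' : ℕ} (hN' : ¬ p ∣ N') (hN'' : ¬ p ∣ N'')
    (hk : ∀ x ∈ m1.lattice, ((p ^ k * N'' : ℕ) : K) * x ∈ multiplierOrder m)
    (ha : a ∈ m.lattice) : GenAt m m1 p ((N' : K) * g + (p : K) ^ (k + 1) * a) := by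
  obtain ⟨NA, hNA, hA⟩ := hg.le
  obtain ⟨NB, hNB, hB⟩ := hg.ge
  obtain ⟨b, hb, hgb⟩ := hB a ha
  set g' := (N' : K) * g + (p : K) ^ (k + 1) * a with hg'
  set s := ((p ^ k * N'' : ℕ) : K) * b with hs
  have hsO : s ∈ multiplierOrder m := hk b hb
  set t := ((N'' * NB * N' : ℕ) : K) + (p : K) * s with ht
  have htO : t ∈ multiplierOrder m := by
    refine (multiplierOrder m).add_mem ?_ (nat_mul_mem _ _ hsO)
    have := nat_mul_mem (multiplierOrder m) (N'' * NB * N') (one_mem_order m)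
    rwa [mul_one] at this
  have hNg : ((N'' * NB : ℕ) : K) * g' = g * t := by
    rw [hg', ht, hs]
    push_cast
    linear_combination -((N'' : K) * (p : K) ^ (k + 1)) * hgb
  have hcop : (N'' * NB * N').Coprime p :=
    ((Nat.Prime.coprime_iff_not_dvd hp).2
      (not_dvd_mul hp (not_dvd_mul hp hN'' hNB) hN')).symm
  obtain ⟨ht0, d, hd, v', hv', htd⟩ := exists_coprime_mul_gen m hp.ne_zero hp.ne_one
    (t := t) (v := 1) (s := s) (one_mem_order m) hsO hcop (by rw [mul_one])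
  have hdp : ¬ p ∣ d := (Nat.Prime.coprime_iff_not_dvd hp).1 hd.symm
  have hmod : ∀ u ∈ multiplierOrder m, ∀ y ∈ m1.lattice, u * y ∈ m1.lattice := by
    intro u hu y hy
    rw [← hO] at hu
    exact hu y hy
  refine ⟨?_, ?_, ?_⟩
  · intro h0
    rw [h0, mul_zero] at hNg
    exact (mul_ne_zero hg.ne ht0) hNg.symm
  · refine ⟨NA * (N'' * NB), not_dvd_mul hp hNA (not_dvd_mul hp hN'' hNB), ?_⟩
    intro y hy
    have e : ((NA * (N'' * NB) : ℕ) : K) * (g' * y) = (NA : K) * (g * (t * y)) := by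
      push_cast at hNg ⊢
      linear_combination ((NA : K) * y) * hNg
    rw [e]
    exact hA _ (hmod t htO y hy)
  · refine ⟨d * NB, not_dvd_mul hp hdp hNB, ?_⟩
    intro z hz
    obtain ⟨y', hy', hgy'⟩ := hB z hz
    refine ⟨((N'' * NB : ℕ) : K) * (v' * y'), ?_, ?_⟩
    · exact nat_mul_mem m1.lattice.toAddSubgroup _ (hmod v' hv' y' hy')
    · push_cast at hNg ⊢
      linear_combination (v' * y') * hNg + (g * y') * htd + (d : K) * hgy'

/-- Existence of a local generator. -/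
theorem exists_genAt {m m1 : LatticeBasis n K} (h : LocallyHomothetic m m1)
    (h1 : (1 : K) ∈ m1.lattice) {p : ℕ} (hp : p.Prime) :
    ∃ g ∈ m.lattice, GenAt m m1 p g := by
  obtain ⟨c, hc, N, hN, ha, hb⟩ := h p hp
  obtain ⟨g, hg, hgc⟩ := ha 1 h1
  rw [mul_one] at hgc
  have hN0 : (N : K) ≠ 0 := by
    have : N ≠ 0 := by rintro rfl; exact hN (dvd_zero p)
    exact_mod_cast this
  have hg0 : g ≠ 0 := by
    rintro rfl
    rw [mul_zero] at hgc
    exact hN0 hgc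
  refine ⟨g, hg, hg0, ⟨1, fun h => hp.one_lt.ne' (Nat.dvd_one.1 h), ?_⟩,
    ⟨N * N, not_dvd_mul hp hN hN, ?_⟩⟩
  · intro x hx
    obtain ⟨y, hy, hxy⟩ := ha x hx
    have : g * x = y := by
      have h3 : c * (g * x) = c * y := by
        rw [← hxy, ← mul_assoc, ← hgc]
      exact mul_left_cancel₀ hc h3
    rw [this, Nat.cast_one, one_mul]; exact hy
  · intro z hz
    refine ⟨(N : K) * (c * z), hb z hz, ?_⟩
    push_cast
    linear_combination -(N : K) * z * hgc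

/-- A generator near all primes dividing `f`. -/
theorem exists_genAt_all {m m1 : LatticeBasis n K} (h : LocallyHomothetic m m1)
    (hO : multiplierOrder m1 = multiplierOrder m)
    (h1 : (1 : K) ∈ m1.lattice) (S : Finset ℕ) (hS : ∀ p ∈ S, p.Prime) :
    ∃ g ∈ m.lattice, ∀ p ∈ S, GenAt m m1 p g := by
  classical
  obtain ⟨N0, hN0, hN0m⟩ := exists_mul_le_order m m1
  have hex : ∀ p : ℕ, ∃ g ∈ m.lattice, p ∈ S → GenAt m m1 p g := by
    intro p
    by_cases hp : p ∈ S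
    · obtain ⟨g, hg, hgp⟩ := exists_genAt h h1 (hS p hp)
      exact ⟨g, hg, fun _ => hgp⟩
    · exact ⟨0, m.lattice.zero_mem, fun h => absurd h hp⟩
  choose G hG hGp using hex
  have hex2 : ∀ p : ℕ, ∃ k N'' : ℕ, p ∈ S → ¬ p ∣ N'' ∧ N0 = p ^ k * N'' := by
    intro p
    by_cases hp : p ∈ S
    · obtain ⟨k, N'', h1, h2⟩ := exists_split (hS p hp) hN0
      exact ⟨k, N'', fun _ => ⟨h1, h2⟩⟩
    · exact ⟨0, 0, fun h => absurd h hp⟩
  choose k N'' hkN using hex2
  refine ⟨∑ p ∈ S, (∏ r ∈ S.erase p, (r : K) ^ (k r + 1)) * G p, ?_, ?_⟩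
  · refine m.lattice.sum_mem fun p _ => ?_
    have e : (∏ r ∈ S.erase p, (r : K) ^ (k r + 1)) * G p =
        ((∏ r ∈ S.erase p, r ^ (k r + 1) : ℕ) : K) * G p := by push_cast; rfl
    rw [e]
    exact nat_mul_mem m.lattice.toAddSubgroup _ (hG p)
  · intro p hp
    have hpp := hS p hp
    have e1 : ∑ r ∈ S, (∏ l ∈ S.erase r, (l : K) ^ (k l + 1)) * G r =
        ((∏ r ∈ S.erase p, r ^ (k r + 1) : ℕ) : K) * G p + (p : K) ^ (k p + 1) *
          ∑ r ∈ S.erase p, ((∏ l ∈ (S.erase r).erase p, l ^ (k l + 1) : ℕ) : K) * G r := by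
      rw [← Finset.add_sum_erase S _ hp]
      push_cast
      congr 1
      rw [Finset.mul_sum]
      refine Finset.sum_congr rfl fun r hr => ?_
      have hpr : p ∈ S.erase r := Finset.mem_erase.2 ⟨(Finset.ne_of_mem_erase hr).symm, hp⟩
      rw [← Finset.mul_prod_erase (S.erase r) _ hpr]
      ring
    rw [e1]
    obtain ⟨h2, h3⟩ := hkN p hp
    refine (hGp p hp).add hpp hO ?_ h2 (fun x hx => ?_) ?_
    · intro hdvd
      rw [Prime.dvd_finsetProd_iff hpp.prime] at hdvd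
      obtain ⟨r, hr, hdr⟩ := hdvd
      have h4 := (Nat.prime_dvd_prime_iff_eq hpp (hS r (Finset.mem_of_mem_erase hr))).1
        (hpp.dvd_of_dvd_pow hdr)
      exact (Finset.ne_of_mem_erase hr) h4.symm
    · rw [← h3]
      exact hN0m x hx
    · refine m.lattice.sum_mem fun r _ => ?_
      exact nat_mul_mem m.lattice.toAddSubgroup _ (hG r)

/-- From local statements at the primes dividing `f` to one integer coprime to `f`. -/
theorem exists_coprime_forall {f : ℕ} (A B : AddSubgroup K)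
    (h0 : ∃ N : ℕ, N ≠ 0 ∧ ∀ x ∈ A, (N : K) * x ∈ B)
    (h : ∀ p : ℕ, p.Prime → p ∣ f → ∃ N : ℕ, ¬ p ∣ N ∧ ∀ x ∈ A, (N : K) * x ∈ B) :
    ∃ N : ℕ, N ≠ 0 ∧ N.Coprime f ∧ ∀ x ∈ A, (N : K) * x ∈ B := by
  let J : Ideal ℤ :=
    { carrier := {N : ℤ | ∀ x ∈ A, (N : K) * x ∈ B}
      add_mem' := by
        intro a b ha hb x hx
        rw [Int.cast_add, add_mul]
        exact B.add_mem (ha x hx) (hb x hx)
      zero_mem' := by intro x hx; simp
      smul_mem' := by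
        intro c a ha x hx
        rw [smul_eq_mul, Int.cast_mul, mul_assoc, ← zsmul_eq_mul]
        exact B.zsmul_mem (ha x hx) c }
  have hJ : ∀ N : ℕ, (N : ℤ) ∈ J ↔ ∀ x ∈ A, (N : K) * x ∈ B := by
    intro N
    show (∀ x ∈ A, (((N : ℕ) : ℤ) : K) * x ∈ B) ↔ _
    simp only [Int.cast_natCast]
  obtain ⟨N, hN0, hN, hNJ⟩ := exists_coprime_of_local J
    (by obtain ⟨N, hN, hx⟩ := h0; exact ⟨N, hN, (hJ N).2 hx⟩)
    (fun p hp hpf => by obtain ⟨N, hN, hx⟩ := h p hp hpf; exact ⟨N, hN, (hJ N).2 hx⟩)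
  exact ⟨N, hN0, hN, (hJ N).1 hNJ⟩

/-- THE BRIDGE: the `f`-part of a member of the class of `M` containing `1` is a type. -/
theorem isTy_fPart {m m1 : LatticeBasis n K} (h : LocallyHomothetic m m1)
    (h1 : (1 : K) ∈ m1.lattice) : IsTy m (fPart m m1) := by
  have hO : multiplierOrder m1 = multiplierOrder m := (Pk2_349.mult_eq_of_lh h).symm
  have hf0 := fIdx_ne_zero m
  obtain ⟨g, hg, hgen⟩ := exists_genAt_all h hO h1 (fIdx m).primeFactors
    (fun p hp => Nat.prime_of_mem_primeFactors hp)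
  by_cases hf1 : fIdx m = 1
  · refine ⟨?_, fun x hx => (mem_fPart.1 hx).2, 1, one_ne_zero, 0, ?_, ?_, ?_⟩
    · intro u hu
      refine mem_fPart.2 ⟨?_, ⟨0, by simpa using hu⟩⟩
      have := (hO ▸ hu : u ∈ multiplierOrder m1) 1 h1
      rwa [mul_one] at this
    · rw [hf1]; exact Nat.coprime_one_right 0
    · intro x _
      exact ⟨0, m.lattice.zero_mem, by simp⟩
    · intro x _
      rw [Nat.cast_zero, zero_mul]
      exact (fPart m m1).zero_mem
  have hex : ∃ p, p.Prime ∧ p ∣ fIdx m := Nat.exists_prime_and_dvd hf1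
  have hg0 : g ≠ 0 := by
    obtain ⟨p, hp, hpf⟩ := hex
    exact (hgen p (Nat.mem_primeFactors.2 ⟨hp, hpf, hf0⟩)).ne
  -- (A): N (g y) ∈ M for y ∈ M1
  obtain ⟨NA, hNA0, hNA, hA⟩ := exists_coprime_forall (f := fIdx m)
    (m1.lattice.toAddSubgroup.map (AddMonoidHom.mulLeft g)) (m.lattice.toAddSubgroup) (by
      obtain ⟨p, hp, hpf⟩ := hex
      obtain ⟨N, hN, hx⟩ := (hgen p (Nat.mem_primeFactors.2 ⟨hp, hpf, hf0⟩)).le
      refine ⟨N, fun h => hN (h ▸ dvd_zero p), ?_⟩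
      rintro _ ⟨y, hy, rfl⟩
      exact hx y hy) (by
      intro p hp hpf
      obtain ⟨N, hN, hx⟩ := (hgen p (Nat.mem_primeFactors.2 ⟨hp, hpf, hf0⟩)).le
      refine ⟨N, hN, ?_⟩
      rintro _ ⟨y, hy, rfl⟩
      exact hx y hy)
  -- (B): N g⁻¹ z ∈ M1 for z ∈ M
  obtain ⟨NB, hNB0, hNB, hB⟩ := exists_coprime_forall (f := fIdx m)
    (m.lattice.toAddSubgroup.map (AddMonoidHom.mulLeft g⁻¹)) (m1.lattice.toAddSubgroup) (by
      obtain ⟨p, hp, hpf⟩ := hex
      obtain ⟨N, hN, hx⟩ := (hgen p (Nat.mem_primeFactors.2 ⟨hp, hpf, hf0⟩)).ge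
      refine ⟨N, fun h => hN (h ▸ dvd_zero p), ?_⟩
      rintro _ ⟨z, hz, rfl⟩
      obtain ⟨y, hy, hgy⟩ := hx z hz
      have : (N : K) * (g⁻¹ * z) = y := by field_simp; rw [hgy]
      show (N : K) * (g⁻¹ * z) ∈ m1.lattice
      rw [this]; exact hy) (by
      intro p hp hpf
      obtain ⟨N, hN, hx⟩ := (hgen p (Nat.mem_primeFactors.2 ⟨hp, hpf, hf0⟩)).ge
      refine ⟨N, hN, ?_⟩
      rintro _ ⟨z, hz, rfl⟩
      obtain ⟨y, hy, hgy⟩ := hx z hz
      have : (N : K) * (g⁻¹ * z) = y := by field_simp; rw [hgy]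
      show (N : K) * (g⁻¹ * z) ∈ m1.lattice
      rw [this]; exact hy)
  -- (C): N y ∈ O[1/f] for y ∈ M1
  obtain ⟨N0, hN0, hN0m⟩ := exists_mul_le_order m m1
  obtain ⟨NC, hNC0, hNC, hC⟩ := exists_coprime_forall (f := fIdx m)
    (m1.lattice.toAddSubgroup) (awayO m) ⟨N0, hN0, fun x hx => order_le_awayO m (hN0m x hx)⟩ (by
      intro p hp hpf
      obtain ⟨k, N', hN', hk⟩ := exists_split hp hN0
      refine ⟨N', hN', fun x hx => ?_⟩
      obtain ⟨f', hf'⟩ := hpf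
      refine ⟨k, ?_⟩
      have e : (fIdx m : K) ^ k * ((N' : K) * x) = (f' : K) ^ k * ((N0 : K) * x) := by
        rw [hf', hk]; push_cast; ring
      rw [e]
      exact nat_pow_mul_mem _ _ _ (hN0m x hx))
  refine ⟨?_, fun x hx => (mem_fPart.1 hx).2, g⁻¹, inv_ne_zero hg0, NA * (NB * NC),
    Nat.Coprime.mul_left hNA (Nat.Coprime.mul_left hNB hNC), ?_, ?_⟩
  · intro u hu
    refine mem_fPart.2 ⟨?_, ⟨0, by simpa using hu⟩⟩
    have := (hO ▸ hu : u ∈ multiplierOrder m1) 1 h1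
    rwa [mul_one] at this
  · intro x hx
    have h2 := hA _ ⟨x, (mem_fPart.1 hx).1, rfl⟩
    refine ⟨((NB * NC : ℕ) : K) * ((NA : K) * (g * x)),
      nat_mul_mem m.lattice.toAddSubgroup _ h2, ?_⟩
    field_simp
    push_cast
    ring
  · intro x hx
    have h2 : (NB : K) * (g⁻¹ * x) ∈ m1.lattice := hB _ ⟨x, hx, rfl⟩
    have h3 := hC _ h2
    have e : ((NA * (NB * NC) : ℕ) : K) * (g⁻¹ * x) =
        (NA : K) * ((NC : K) * ((NB : K) * (g⁻¹ * x))) := by push_cast; ring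
    rw [e]
    refine nat_mul_mem _ _ (mem_fPart.2 ⟨nat_mul_mem m1.lattice.toAddSubgroup _ h2, h3⟩)

end Crest.Agent.R014.Loc5_524
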