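import Crest.Agent.R014.Loc4_524
import Crest.Agent.R014.DivB_684

/-!
Row 14, block N2 (helper524), part 6: the ideal `b(P)` of denominators of a type, the subgroups
`H_b` and `H_y` of `M`, and their indices.
-/

set_option autoImplicit false
set_option linter.unusedSectionVars false

open scoped nonZeroDivisors

namespace Crest.Agent.R014.Loc6_524

open Crest.NumberTheoryR.Packets Module NumberField
open Crest.Agent.R014.LocDefs_524 Crest.Agent.R014.Loc1_524 Crest.Agent.R014.Loc2_524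
open Crest.Agent.R014.Loc3_524 Crest.Agent.R014.Loc4_524
open Crest.Agent.R014.Sl_652 (one_mem_order mul_mem_order lattice_fg exists_latticeBasis finrank_eq
  order_basis ordSub mem_ordSub ordSub_fg exists_mul_mem_order n_pos exists_mul_mem relIndex_eq)

variable {n : ℕ} {K : Type*} [Field K] [NumberField K]

noncomputable section

/-- The fractional ideal generated by a lattice. -/
def FI (p : LatticeBasis n K) : FractionalIdeal (𝓞 K)⁰ K :=
  ⟨Submodule.span (𝓞 K) (Set.range p.vec),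
    FractionalIdeal.isFractional_of_fg (Submodule.fg_span (Set.finite_range _))⟩

theorem mem_FI {p : LatticeBasis n K} {x : K} :
    x ∈ FI p ↔ x ∈ Submodule.span (𝓞 K) (Set.range p.vec) := Iff.rfl

theorem lt_mem_FI {p : LatticeBasis n K} {x : K} (hx : x ∈ lt p) : x ∈ FI p := by
  have hx' : x ∈ Submodule.span ℤ (Set.range p.vec) := hx
  rw [mem_FI]
  induction hx' using Submodule.span_induction with
  | mem y hy => exact Submodule.subset_span hy
  | zero => exact Submodule.zero_mem _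
  | add a b ha' hb' ha hb => exact Submodule.add_mem _ (ha ha') (hb hb')
  | smul c a ha' ha =>
    rw [← Int.cast_smul_eq_zsmul (𝓞 K)]
    exact Submodule.smul_mem _ _ (ha ha')

theorem mul_FI_le {p : LatticeBasis n K} {J : FractionalIdeal (𝓞 K)⁰ K} {x : K}
    (h : ∀ y ∈ lt p, x * y ∈ J) : FractionalIdeal.spanSingleton (𝓞 K)⁰ x * FI p ≤ J := by
  rw [FractionalIdeal.spanSingleton_mul_le_iff]
  intro z hz
  rw [mem_FI] at hz
  induction hz using Submodule.span_induction with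
  | mem y hy =>
    obtain ⟨i, rfl⟩ := hy
    exact h _ (Sl_652.vec_mem p i)
  | zero => rw [mul_zero]; exact (J : Submodule (𝓞 K) K).zero_mem
  | add a b _ _ ha hb => rw [mul_add]; exact (J : Submodule (𝓞 K) K).add_mem ha hb
  | smul c a _ ha => rw [mul_smul_comm]; exact (J : Submodule (𝓞 K) K).smul_mem c ha

theorem FI_ne_zero (p : LatticeBasis n K) : FI p ≠ 0 := by
  intro h
  have h1 : p.vec ⟨0, n_pos p⟩ ∈ FI p := lt_mem_FI (Sl_652.vec_mem p _)
  rw [h, FractionalIdeal.mem_zero_iff] at h1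
  exact Sl_652.vec_ne_zero p _ h1

/-- The subgroup `H_b` of the lattice: its elements in `b · (O_K M)`. -/
def Hb (m : LatticeBasis n K) (b : Ideal (𝓞 K)) : AddSubgroup K :=
  lt m ⊓ ((FI m * (b : FractionalIdeal (𝓞 K)⁰ K) : FractionalIdeal (𝓞 K)⁰ K) :
    Submodule (𝓞 K) K).toAddSubgroup

theorem mem_Hb {m : LatticeBasis n K} {b : Ideal (𝓞 K)} {x : K} :
    x ∈ Hb m b ↔ x ∈ m.lattice ∧ x ∈ FI m * (b : FractionalIdeal (𝓞 K)⁰ K) := Iff.rfl

theorem Hb_le (m : LatticeBasis n K) (b : Ideal (𝓞 K)) : Hb m b ≤ lt m := inf_le_left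

theorem coe_mem_coeIdeal {b : Ideal (𝓞 K)} {a : 𝓞 K} (ha : a ∈ b) :
    (a : K) ∈ (b : FractionalIdeal (𝓞 K)⁰ K) :=
  FractionalIdeal.mem_coeIdeal_of_mem (𝓞 K)⁰ ha

theorem pow_mul_mem_Hb {m : LatticeBasis n K} {b : Ideal (𝓞 K)} {N : ℕ}
    (hN : (N : 𝓞 K) ∈ b) {x : K} (hx : x ∈ m.lattice) : (N : K) * x ∈ Hb m b := by
  refine mem_Hb.2 ⟨nat_mul_mem (lt m) N hx, ?_⟩
  rw [mul_comm (N : K) x]
  have h := coe_mem_coeIdeal hN
  have h2 : ((N : 𝓞 K) : K) = (N : K) := by simp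
  rw [h2] at h
  exact FractionalIdeal.mul_mem_mul (lt_mem_FI hx) h

/-- `N(b) ≤ [M : H_b]^n`. -/
theorem absNorm_le (m : LatticeBasis n K) {b : Ideal (𝓞 K)} (hne : (Hb m b).relIndex (lt m) ≠ 0) :
    Ideal.absNorm b ≤ (Hb m b).relIndex (lt m) ^ n := by
  set h := (Hb m b).relIndex (lt m) with hh
  have h1 : ∀ x ∈ lt m, (h : K) * x ∈ FI m * (b : FractionalIdeal (𝓞 K)⁰ K) := by
    intro x hx
    have := AddSubgroup.nsmul_relIndex_mem (Hb m b) hx
    rw [nsmul_eq_mul] at this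
    exact (mem_Hb.1 this).2
  have h2 := mul_FI_le h1
  have h3 : FractionalIdeal.spanSingleton (𝓞 K)⁰ (h : K) ≤ (b : FractionalIdeal (𝓞 K)⁰ K) := by
    have h4 := mul_le_mul_left h2 (FI m)⁻¹
    rw [mul_assoc, mul_inv_cancel₀ (FI_ne_zero m), mul_one, mul_comm (FI m), mul_assoc,
      mul_inv_cancel₀ (FI_ne_zero m), mul_one] at h4
    exact h4
  have h4 : (h : 𝓞 K) ∈ b := by
    have h5 : (h : K) ∈ (b : FractionalIdeal (𝓞 K)⁰ K) :=
      h3 (FractionalIdeal.mem_spanSingleton_self _ _)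
    rw [FractionalIdeal.mem_coeIdeal] at h5
    obtain ⟨a, ha, hah⟩ := h5
    have : a = (h : 𝓞 K) := by
      apply RingOfIntegers.ext
      show (algebraMap (𝓞 K) K) a = _
      rw [hah]; simp
    rw [← this]; exact ha
  have h5 : Ideal.absNorm b ∣ h ^ n := by
    have h6 := Ideal.absNorm_dvd_absNorm_of_le (I := b) (J := Ideal.span {(h : 𝓞 K)})
      ((Ideal.span_singleton_le_iff_mem _).2 h4)
    rw [DivB_684.absNorm_span_nat, finrank_eq m] at h6
    exact h6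
  exact Nat.le_of_dvd (Nat.pos_of_ne_zero (pow_ne_zero n hne)) h5

/-- The denominator ideal of a type. -/
theorem exists_denIdeal {m : LatticeBasis n K} {P : AddSubgroup K} (hP : IsTy m P) :
    ∃ b : Ideal (𝓞 K), b ≠ ⊥ ∧ (∃ k : ℕ, ((fIdx m : 𝓞 K)) ^ k ∈ b) ∧
      (∀ a ∈ b, ∀ y ∈ P, IsIntegral ℤ ((a : K) * y)) ∧
      (∀ x ∈ m.lattice, (∀ y ∈ P, x * y ∈ m.lattice) → ∀ c : Ideal (𝓞 K), b ≤ c → x ∈ Hb m c) := by
  obtain ⟨p, hp⟩ := exists_ty_basis hP
  have hle : (FI p)⁻¹ ≤ 1 := by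
    intro z hz
    have h1 := (FractionalIdeal.mem_inv_iff (FI_ne_zero p)).1 hz 1
      (lt_mem_FI (by rw [hp]; exact hP.order_le (one_mem_order m)))
    rwa [mul_one] at h1
  obtain ⟨b, hb⟩ := FractionalIdeal.le_one_iff_exists_coeIdeal.1 hle
  have hmul : FI p * (b : FractionalIdeal (𝓞 K)⁰ K) = 1 := by
    rw [hb]; exact mul_inv_cancel₀ (FI_ne_zero p)
  have hmem : ∀ a : 𝓞 K, (∀ y ∈ P, IsIntegral ℤ ((a : K) * y)) → a ∈ b := by
    intro a ha
    have h1 : (a : K) ∈ (FI p)⁻¹ := by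
      rw [FractionalIdeal.mem_inv_iff (FI_ne_zero p)]
      intro y hy
      have h2 := mul_FI_le (p := p) (J := 1) (x := (a : K)) (by
        intro y hy
        rw [hp] at hy
        rw [FractionalIdeal.mem_one_iff]
        exact ⟨⟨_, ha y hy⟩, rfl⟩)
      rw [FractionalIdeal.spanSingleton_mul_le_iff] at h2
      exact h2 y hy
    rw [← hb, FractionalIdeal.mem_coeIdeal] at h1
    obtain ⟨a', ha', haa⟩ := h1
    have : a' = a := RingOfIntegers.ext haa
    rw [← this]; exact ha'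
  obtain ⟨k, hk⟩ := exists_pow_mul_mem hP
  have hfk : ((fIdx m : 𝓞 K)) ^ k ∈ b := by
    apply hmem
    intro y hy
    have := Sl_652.order_isIntegral (hk y hy)
    have e : (((fIdx m : 𝓞 K) ^ k : 𝓞 K) : K) = (fIdx m : K) ^ k := by simp
    rw [e]; exact this
  refine ⟨b, ?_, ⟨k, hfk⟩, ?_, ?_⟩
  · rintro rfl
    rw [Ideal.mem_bot] at hfk
    have := pow_ne_zero k (show (fIdx m : 𝓞 K) ≠ 0 by exact_mod_cast fIdx_ne_zero m)
    exact this hfk
  · intro a ha y hy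
    have h1 : y * (a : K) ∈ FI p * (b : FractionalIdeal (𝓞 K)⁰ K) :=
      FractionalIdeal.mul_mem_mul (lt_mem_FI (by rw [hp]; exact hy)) (coe_mem_coeIdeal ha)
    rw [hmul, FractionalIdeal.mem_one_iff] at h1
    obtain ⟨z, hz⟩ := h1
    rw [mul_comm, ← hz]
    exact z.2
  · intro x hx hxP c hbc
    refine mem_Hb.2 ⟨hx, ?_⟩
    have h1 : FractionalIdeal.spanSingleton (𝓞 K)⁰ x * FI p ≤ FI m :=
      mul_FI_le (fun y hy => lt_mem_FI (hxP y (by rw [← hp]; exact hy)))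
    have h2 := mul_le_mul_left h1 (b : FractionalIdeal (𝓞 K)⁰ K)
    rw [mul_assoc, hmul, mul_one] at h2
    have h3 : (b : FractionalIdeal (𝓞 K)⁰ K) ≤ (c : FractionalIdeal (𝓞 K)⁰ K) :=
      FractionalIdeal.coeIdeal_le_coeIdeal _ |>.2 hbc
    have h4 := h2.trans (mul_le_mul_right h3 (FI m))
    exact h4 (FractionalIdeal.mem_spanSingleton_self _ _)

/-- Divisors of controlled norm. -/
theorem exists_dvd_norm {b0 : Ideal (𝓞 K)} (hb0 : b0 ≠ ⊥) {R : ℕ} {Y : ℝ} (hY : 1 ≤ Y)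
    (hR : ∀ p : Ideal (𝓞 K), p.IsPrime → p ≠ ⊥ → b0 ≤ p → Ideal.absNorm p ≤ R)
    (hN : Y < Ideal.absNorm b0) :
    ∃ b : Ideal (𝓞 K), b0 ≤ b ∧ b ≠ ⊥ ∧ Y < Ideal.absNorm b ∧ (Ideal.absNorm b : ℝ) ≤ Y * R := by
  classical
  have hex : ∃ N : ℕ, ∃ b : Ideal (𝓞 K), b0 ≤ b ∧ b ≠ ⊥ ∧ Y < Ideal.absNorm b ∧
      Ideal.absNorm b = N := ⟨_, b0, le_rfl, hb0, hN, rfl⟩
  obtain ⟨b, hle, hbne, hbY, hbN⟩ := Nat.find_spec hex
  refine ⟨b, hle, hbne, hbY, ?_⟩
  have hb1 : b ≠ ⊤ := by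
    rintro rfl
    rw [Ideal.absNorm_top] at hbY
    push_cast at hbY
    linarith
  obtain ⟨p, hpmax, hbp⟩ := Ideal.exists_le_maximal b hb1
  have hp0 : p ≠ ⊥ := by
    rintro rfl
    exact hbne (le_bot_iff.1 hbp)
  obtain ⟨c, hc⟩ := Ideal.dvd_iff_le.2 hbp
  have hcne : c ≠ ⊥ := by
    rintro rfl
    rw [Ideal.mul_bot] at hc
    exact hbne hc
  have hNp : 2 ≤ Ideal.absNorm p := DivB_684.two_le_absNorm hpmax.isPrime hp0
  have hNb : Ideal.absNorm b = Ideal.absNorm p * Ideal.absNorm c := by rw [hc, map_mul]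
  have hNc : Ideal.absNorm c ≠ 0 := by rw [Ne, Ideal.absNorm_eq_zero_iff]; exact hcne
  have hlt : Ideal.absNorm c < Nat.find hex := by
    rw [← hbN, hNb]
    have : 0 < Ideal.absNorm c := Nat.pos_of_ne_zero hNc
    nlinarith
  have hcY : (Ideal.absNorm c : ℝ) ≤ Y := by
    by_contra hcon
    rw [not_le] at hcon
    refine Nat.find_min hex hlt ⟨c, ?_, hcne, hcon, rfl⟩
    exact hle.trans (hc ▸ Ideal.mul_le_right)
  have hRp := hR p hpmax.isPrime hp0 (hle.trans hbp)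
  have hRp' : (Ideal.absNorm p : ℝ) ≤ R := by exact_mod_cast hRp
  rw [hNb]
  push_cast
  calc (Ideal.absNorm p : ℝ) * Ideal.absNorm c ≤ R * Y :=
        mul_le_mul hRp' hcY (Nat.cast_nonneg _) (Nat.cast_nonneg _)
    _ = Y * R := mul_comm _ _

/-- The subgroup `H_y` of the lattice: `x ∈ M` with `x y ∈ M`. -/
def Hy (m : LatticeBasis n K) (y : K) : AddSubgroup K :=
  lt m ⊓ (lt m).comap (AddMonoidHom.mulRight y)

theorem mem_Hy {m : LatticeBasis n K} {y x : K} :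
    x ∈ Hy m y ↔ x ∈ m.lattice ∧ x * y ∈ m.lattice := Iff.rfl

theorem Hy_le (m : LatticeBasis n K) (y : K) : Hy m y ≤ lt m := inf_le_left

theorem mul_mem_Hy {m : LatticeBasis n K} {y : K} {N : ℕ} (hN : (N : K) * y ∈ multiplierOrder m)
    {x : K} (hx : x ∈ m.lattice) : (N : K) * x ∈ Hy m y := by
  refine mem_Hy.2 ⟨nat_mul_mem (lt m) N hx, ?_⟩
  have e : (N : K) * x * y = ((N : K) * y) * x := by ring
  rw [e]
  exact hN x hx

theorem relIndex_Hy_mul_mem (m : LatticeBasis n K) (y : K) :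
    (((Hy m y).relIndex (lt m) : ℕ) : K) * y ∈ multiplierOrder m := by
  intro x hx
  have := AddSubgroup.nsmul_relIndex_mem (Hy m y) (show x ∈ lt m from hx)
  rw [nsmul_eq_mul] at this
  have h2 := (mem_Hy.1 this).2
  have e : (((Hy m y).relIndex (lt m) : ℕ) : K) * y * x =
    (((Hy m y).relIndex (lt m) : ℕ) : K) * x * y := by ring
  rw [e]
  exact h2

/-- A lower bound for the index of `H_y`. -/
theorem le_relIndex_Hy (hprim : IsPrimitiveField K) (hn : 2 ≤ n) (m : LatticeBasis n K)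
    (σ : Fin n ≃ (K →+* ℝ)) {y : K} (hy : ∀ r : ℚ, y ≠ r) {T : ℝ} (hT : ∀ i, |σ i y| ≤ T)
    (hne : (Hy m y).relIndex (lt m) ≠ 0) :
    latticeDisc m ^ (1 / ((n : ℝ) * ((n : ℝ) - 1))) ≤
      2 * T * ((Hy m y).relIndex (lt m) : ℕ) := by
  set J := (Hy m y).relIndex (lt m) with hJ
  have h1 := relIndex_Hy_mul_mem m y
  rw [← hJ] at h1
  obtain ⟨i, j, hij⟩ := Sl_652.order_diff hprim hn m σ h1 (by
    intro k hk
    have hJ0 : (J : K) ≠ 0 := by exact_mod_cast hne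
    apply hy ((k : ℚ) / (J : ℚ))
    push_cast
    rw [eq_div_iff hJ0, mul_comm]
    exact hk)
  refine hij.trans ?_
  rw [map_mul, map_mul, map_natCast, map_natCast, ← mul_sub, abs_mul,
    abs_of_nonneg (Nat.cast_nonneg J)]
  have h2 : |σ i y - σ j y| ≤ T + T := (abs_sub _ _).trans (add_le_add (hT i) (hT j))
  have h3 : (0 : ℝ) ≤ (J : ℝ) := Nat.cast_nonneg J
  nlinarith

end

end Crest.Agent.R014.Loc6_524
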