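import Crest.Agent.R014.Loc6_524

/-!
Row 14, block N2 (helper524), part 7: counting (Rankin, ideals dividing a power of `f`, small
elements with bounded denominator).
-/

set_option autoImplicit false
set_option linter.unusedSectionVars false

open scoped nonZeroDivisors

namespace Crest.Agent.R014.Loc7_524

open Crest.NumberTheoryR.Packets Module NumberField
open Crest.Agent.R014.Sl_652 (finrank_eq norm_eq_prod)

noncomputable section

/-! ### Rankin -/

/-- The completely multiplicative function `m ↦ m^(-ε)`. -/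
def powHom (ε : ℝ) : ℕ →* ℝ where
  toFun m := (m : ℝ) ^ (-ε)
  map_one' := by simp
  map_mul' a b := by
    push_cast
    rw [Real.mul_rpow (Nat.cast_nonneg a) (Nat.cast_nonneg b)]

theorem powHom_apply (ε : ℝ) (m : ℕ) : powHom ε m = (m : ℝ) ^ (-ε) := rfl

/-- The constant of Rankin's bound. -/
def cR (ε : ℝ) : ℝ := (1 - (2 : ℝ) ^ (-ε))⁻¹

theorem two_rpow_lt_one {ε : ℝ} (hε : 0 < ε) : (2 : ℝ) ^ (-ε) < 1 :=
  Real.rpow_lt_one_of_one_lt_of_neg (by norm_num) (by linarith)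

theorem one_le_cR {ε : ℝ} (hε : 0 < ε) : 1 ≤ cR ε := by
  unfold cR
  have h1 := two_rpow_lt_one hε
  have h2 : (0 : ℝ) < (2 : ℝ) ^ (-ε) := by positivity
  rw [one_le_inv₀ (by linarith)]
  linarith

theorem card_factored_le {ε : ℝ} (hε : 0 < ε) (f : ℕ) (T : Finset ℕ) {X : ℝ} (hX : 0 ≤ X)
    (hT : ∀ a ∈ T, a ≠ 0 ∧ (a : ℝ) ≤ X ∧ a.primeFactors ⊆ f.primeFactors) :
    (T.card : ℝ) ≤ X ^ ε * cR ε ^ f.primeFactors.card := by
  classical
  have hnorm : ∀ {p : ℕ}, p.Prime → ‖powHom ε p‖ < 1 := by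
    intro p hp
    have hp1 : (1 : ℝ) < p := by exact_mod_cast hp.one_lt
    rw [powHom_apply, Real.norm_of_nonneg (by positivity)]
    exact Real.rpow_lt_one_of_one_lt_of_neg hp1 (by linarith)
  obtain ⟨-, hsum⟩ := EulerProduct.summable_and_hasSum_factoredNumbers_prod_filter_prime_geometric
    (f := powHom ε) hnorm f.primeFactors
  have hmem : ∀ a ∈ T, a ∈ Nat.factoredNumbers f.primeFactors := by
    intro a ha
    rw [Nat.mem_factoredNumbers]
    refine ⟨(hT a ha).1, fun p hp => (hT a ha).2.2 ?_⟩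
    rw [Nat.mem_primeFactors_iff_mem_primeFactorsList]
    exact hp
  have h1 : ∑ a ∈ T, (a : ℝ) ^ (-ε) ≤ ∏ p ∈ f.primeFactors with p.Prime, (1 - powHom ε p)⁻¹ := by
    have h2 := sum_le_hasSum (T.subtype (fun a => a ∈ Nat.factoredNumbers f.primeFactors))
      (fun i _ => by rw [powHom_apply]; positivity) hsum
    have h3 := Finset.sum_subtype_of_mem (s := T) (p := fun a => a ∈ Nat.factoredNumbers f.primeFactors)
      (fun a : ℕ => (powHom ε a : ℝ)) hmem
    rw [h3] at h2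
    exact h2
  have h2 : ∏ p ∈ f.primeFactors with p.Prime, (1 - powHom ε p)⁻¹ ≤
      cR ε ^ f.primeFactors.card := by
    have hfil : f.primeFactors.filter (fun p => p.Prime) = f.primeFactors := by
      apply Finset.filter_true_of_mem
      intro p hp
      exact Nat.prime_of_mem_primeFactors hp
    rw [hfil, ← Finset.prod_const]
    apply Finset.prod_le_prod
    · intro p hp
      have := hnorm (Nat.prime_of_mem_primeFactors hp)
      rw [powHom_apply, Real.norm_of_nonneg (by positivity)] at this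
      rw [powHom_apply]
      exact inv_nonneg.2 (by linarith)
    · intro p hp
      have hp2 : (2 : ℝ) ≤ p := by
        exact_mod_cast (Nat.prime_of_mem_primeFactors hp).two_le
      rw [powHom_apply]
      unfold cR
      have h3 : (p : ℝ) ^ (-ε) ≤ (2 : ℝ) ^ (-ε) :=
        Real.rpow_le_rpow_of_nonpos (by norm_num) hp2 (by linarith)
      have h4 := two_rpow_lt_one hε
      exact inv_anti₀ (by linarith) (by linarith)
  have h3 : (T.card : ℝ) ≤ X ^ ε * ∑ a ∈ T, (a : ℝ) ^ (-ε) := by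
    rw [Finset.mul_sum, Finset.card_eq_sum_ones]
    push_cast
    apply Finset.sum_le_sum
    intro a ha
    obtain ⟨ha0, haX, -⟩ := hT a ha
    have ha1 : (0 : ℝ) < a := by exact_mod_cast Nat.pos_of_ne_zero ha0
    have h4 : (a : ℝ) ^ ε ≤ X ^ ε := Real.rpow_le_rpow ha1.le haX hε.le
    rw [Real.rpow_neg ha1.le, ← div_eq_mul_inv, le_div_iff₀ (by positivity), one_mul]
    exact h4
  calc (T.card : ℝ) ≤ X ^ ε * ∑ a ∈ T, (a : ℝ) ^ (-ε) := h3
    _ ≤ X ^ ε * cR ε ^ f.primeFactors.card :=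
        mul_le_mul_of_nonneg_left (h1.trans h2) (by positivity)

/-! ### Ideals dividing a power of `f` -/

variable {n : ℕ} {K : Type*} [Field K] [NumberField K]

theorem card_ideal_le {ε : ℝ} (hε : 0 < ε) {f : ℕ} (hf : f ≠ 0) (T : Finset (Ideal (𝓞 K)))
    {X : ℝ} (hX : 0 ≤ X)
    (hT : ∀ b ∈ T, b ≠ ⊥ ∧ (Ideal.absNorm b : ℝ) ≤ X ∧ ∃ k : ℕ, (f : 𝓞 K) ^ k ∈ b) :
    (T.card : ℝ) ≤ DivB_684.CDiv (finrank ℚ K) (ε / finrank ℚ K) * X ^ ε *
      (X ^ ε * cR ε ^ f.primeFactors.card) := by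
  classical
  have hn : 0 < finrank ℚ K := finrank_pos
  have hn' : (0 : ℝ) < finrank ℚ K := by exact_mod_cast hn
  set C := DivB_684.CDiv (finrank ℚ K) (ε / finrank ℚ K) with hC
  have hC1 : 1 ≤ C := DivB_684.one_le_CDiv _ (by positivity)
  have h0 : ∀ b ∈ T, Ideal.absNorm b ≠ 0 := by
    intro b hb
    rw [Ne, Ideal.absNorm_eq_zero_iff]; exact (hT b hb).1
  have h1 : T.card = ∑ m ∈ T.image Ideal.absNorm, (T.filter (fun b => Ideal.absNorm b = m)).card :=
    Finset.card_eq_sum_card_image _ _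
  have h2 : ∀ m ∈ T.image Ideal.absNorm,
      ((T.filter (fun b => Ideal.absNorm b = m)).card : ℝ) ≤ C * X ^ ε := by
    intro m hm
    obtain ⟨b, hb, hbm⟩ := Finset.mem_image.1 hm
    have hm0 : m ≠ 0 := by rw [← hbm]; exact h0 b hb
    have hmX : (m : ℝ) ≤ X := by rw [← hbm]; exact (hT b hb).2.1
    have h3 := DivB_684.card_norm_le (K := K) hε m hm0
    have h4 : ((T.filter (fun b => Ideal.absNorm b = m)).card : ℝ) ≤
        ({a : Ideal (𝓞 K) | Ideal.absNorm a = m}.ncard : ℝ) := by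
      rw [← Set.ncard_coe_finset]
      have : (↑(T.filter (fun b => Ideal.absNorm b = m)) : Set (Ideal (𝓞 K))) ⊆
          {a : Ideal (𝓞 K) | Ideal.absNorm a = m} := by
        intro a ha
        exact (Finset.mem_filter.1 (Finset.mem_coe.1 ha)).2
      exact_mod_cast Set.ncard_le_ncard this (DivB_684.finite_norm_eq m hm0)
    have h5 : (m : ℝ) ^ ε ≤ X ^ ε := Real.rpow_le_rpow (Nat.cast_nonneg m) hmX hε.le
    calc _ ≤ _ := h4
      _ ≤ _ := h3
      _ ≤ C * X ^ ε := mul_le_mul_of_nonneg_left h5 (by linarith)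
  have h3 : ((T.image Ideal.absNorm).card : ℝ) ≤ X ^ ε * cR ε ^ f.primeFactors.card := by
    apply card_factored_le hε f _ hX
    intro a ha
    obtain ⟨b, hb, rfl⟩ := Finset.mem_image.1 ha
    refine ⟨h0 b hb, (hT b hb).2.1, ?_⟩
    obtain ⟨k, hk⟩ := (hT b hb).2.2
    intro p hp
    have h6 := Ideal.absNorm_dvd_absNorm_of_le (I := b) (J := Ideal.span {((f ^ k : ℕ) : 𝓞 K)})
      ((Ideal.span_singleton_le_iff_mem _).2 (by push_cast; exact hk))
    rw [DivB_684.absNorm_span_nat] at h6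
    have hpp := Nat.prime_of_mem_primeFactors hp
    have h7 := (Nat.dvd_of_mem_primeFactors hp).trans h6
    exact Nat.mem_primeFactors.2 ⟨hpp, hpp.dvd_of_dvd_pow (hpp.dvd_of_dvd_pow h7), hf⟩
  have h1' : (T.card : ℝ) = ∑ m ∈ T.image Ideal.absNorm,
      ((T.filter (fun b => Ideal.absNorm b = m)).card : ℝ) := by exact_mod_cast h1
  have hXε : 0 ≤ X ^ ε := by positivity
  calc (T.card : ℝ) ≤ ∑ _m ∈ T.image Ideal.absNorm, C * X ^ ε := by
        rw [h1']; exact Finset.sum_le_sum h2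
    _ = C * X ^ ε * ((T.image Ideal.absNorm).card : ℝ) := by
        rw [Finset.sum_const, nsmul_eq_mul]; ring
    _ ≤ C * X ^ ε * (X ^ ε * cR ε ^ f.primeFactors.card) :=
        mul_le_mul_of_nonneg_left h3 (by positivity)

/-! ### Small elements -/

/-- An integral element all of whose embeddings are less than one in absolute value is zero. -/
theorem eq_zero_of_lt_one (hn : finrank ℚ K = n) (hn0 : 0 < n) (σ : Fin n ≃ (K →+* ℝ)) {z : K}
    (hz : IsIntegral ℤ z) (h : ∀ i, |σ i z| < 1) : z = 0 := by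
  by_contra hz0
  have h1 : IsIntegral ℤ (Algebra.norm ℚ z) := Algebra.isIntegral_norm ℚ hz
  obtain ⟨a, ha⟩ := IsIntegrallyClosed.isIntegral_iff.1 h1
  have ha' : (a : ℚ) = Algebra.norm ℚ z := by simpa using ha
  have h2 : (a : ℝ) = ∏ i, σ i z := by
    rw [← norm_eq_prod hn σ z, ← ha']
    simp
  have h3 : a ≠ 0 := by
    rintro rfl
    rw [Int.cast_zero] at ha'
    exact hz0 (Algebra.norm_eq_zero_iff.1 ha'.symm)
  have h4 : (1 : ℝ) ≤ |(a : ℝ)| := by
    have : (1 : ℤ) ≤ |a| := Int.one_le_abs h3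
    exact_mod_cast this
  rw [h2, Finset.abs_prod] at h4
  have h5 : ∏ i, |σ i z| < 1 := by
    have : Nonempty (Fin n) := ⟨⟨0, hn0⟩⟩
    calc ∏ i, |σ i z| < ∏ _i : Fin n, (1 : ℝ) := by
          apply Finset.prod_lt_prod_of_nonempty
          · intro i _
            exact abs_pos.2 ((map_ne_zero (σ i)).2 hz0)
          · intro i _; exact h i
          · exact Finset.univ_nonempty
      _ = 1 := by simp
  linarith

theorem card_int_le (hn : finrank ℚ K = n) (hn0 : 0 < n) (σ : Fin n ≃ (K →+* ℝ)) {R : ℝ}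
    (hR : 0 ≤ R) (T : Finset K) (hT : ∀ z ∈ T, IsIntegral ℤ z ∧ ∀ i, |σ i z| ≤ R) :
    (T.card : ℝ) ≤ (2 * R + 2) ^ n := by
  classical
  have hinj : Set.InjOn (fun z : K => fun i : Fin n => ⌊σ i z⌋) T := by
    intro z hz w hw hzw
    have h1 : z - w = 0 := by
      apply eq_zero_of_lt_one hn hn0 σ ((hT z hz).1.sub (hT w hw).1)
      intro i
      rw [map_sub]
      exact Int.abs_sub_lt_one_of_floor_eq_floor (congrFun hzw i)
    exact sub_eq_zero.1 h1
  have hmaps : ∀ z ∈ T, (fun i : Fin n => ⌊σ i z⌋) ∈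
      Fintype.piFinset (fun _ : Fin n => Finset.Icc ⌊-R⌋ ⌊R⌋) := by
    intro z hz
    rw [Fintype.mem_piFinset]
    intro i
    have := abs_le.1 ((hT z hz).2 i)
    rw [Finset.mem_Icc]
    exact ⟨Int.floor_le_floor this.1, Int.floor_le_floor this.2⟩
  have h1 := Finset.card_le_card_of_injOn _ hmaps hinj
  rw [Fintype.card_piFinset_const, Int.card_Icc] at h1
  have h2 : (((⌊R⌋ + 1 - ⌊-R⌋).toNat : ℕ) : ℝ) ≤ 2 * R + 2 := by
    have h3 : 0 ≤ ⌊R⌋ + 1 - ⌊-R⌋ := by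
      have : ⌊-R⌋ ≤ ⌊R⌋ := Int.floor_le_floor (by linarith)
      linarith
    have h4 : (((⌊R⌋ + 1 - ⌊-R⌋).toNat : ℕ) : ℝ) = ((⌊R⌋ + 1 - ⌊-R⌋ : ℤ) : ℝ) := by
      exact_mod_cast congrArg (fun z : ℤ => (z : ℝ)) (Int.toNat_of_nonneg h3)
    rw [h4]
    push_cast
    have h5 := Int.floor_le R
    have h6 := Int.lt_floor_add_one (-R)
    linarith
  calc (T.card : ℝ) ≤ (((⌊R⌋ + 1 - ⌊-R⌋).toNat ^ n : ℕ) : ℝ) := by exact_mod_cast h1
    _ = (((⌊R⌋ + 1 - ⌊-R⌋).toNat : ℕ) : ℝ) ^ n := by push_cast; rfl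
    _ ≤ (2 * R + 2) ^ n := pow_le_pow_left₀ (Nat.cast_nonneg _) h2 n

theorem card_den_le (hn : finrank ℚ K = n) (hn0 : 0 < n) (σ : Fin n ≃ (K →+* ℝ)) {Y T0 : ℝ}
    (hY : 0 ≤ Y) (hT0 : 0 ≤ T0) (T : Finset K)
    (hT : ∀ y ∈ T, (∃ g : ℕ, g ≠ 0 ∧ (g : ℝ) ≤ Y ∧ IsIntegral ℤ ((g : K) * y)) ∧
      ∀ i, |σ i y| ≤ T0) :
    (T.card : ℝ) ≤ Y * (2 * (Y * T0) + 2) ^ n := by
  classical
  have hsub : T ⊆ (Finset.Icc 1 ⌊Y⌋₊).biUnion
      (fun g => T.filter (fun y => IsIntegral ℤ ((g : K) * y))) := by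
    intro y hy
    obtain ⟨⟨g, hg0, hgY, hgi⟩, -⟩ := hT y hy
    refine Finset.mem_biUnion.2 ⟨g, Finset.mem_Icc.2 ⟨Nat.one_le_iff_ne_zero.2 hg0,
      Nat.le_floor hgY⟩, Finset.mem_filter.2 ⟨hy, hgi⟩⟩
  have h1 : ∀ g ∈ Finset.Icc 1 ⌊Y⌋₊,
      ((T.filter (fun y => IsIntegral ℤ ((g : K) * y))).card : ℝ) ≤ (2 * (Y * T0) + 2) ^ n := by
    intro g hg
    obtain ⟨hg1, hg2⟩ := Finset.mem_Icc.1 hg
    have hgY : (g : ℝ) ≤ Y := (Nat.le_floor_iff hY).1 hg2
    have hg0 : (g : K) ≠ 0 := by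
      have : g ≠ 0 := by omega
      exact_mod_cast this
    have hinj : Function.Injective (fun y : K => (g : K) * y) := mul_right_injective₀ hg0
    rw [← Finset.card_image_of_injective _ hinj]
    apply card_int_le hn hn0 σ (by positivity)
    intro z hz
    obtain ⟨y, hy, rfl⟩ := Finset.mem_image.1 hz
    obtain ⟨hyT, hyi⟩ := Finset.mem_filter.1 hy
    refine ⟨hyi, fun i => ?_⟩
    rw [map_mul, map_natCast, abs_mul, abs_of_nonneg (Nat.cast_nonneg g)]
    exact mul_le_mul hgY ((hT y hyT).2 i) (abs_nonneg _) hY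
  calc (T.card : ℝ) ≤ (((Finset.Icc 1 ⌊Y⌋₊).biUnion
      (fun g => T.filter (fun y => IsIntegral ℤ ((g : K) * y)))).card : ℝ) := by
        exact_mod_cast Finset.card_le_card hsub
    _ ≤ ∑ g ∈ Finset.Icc 1 ⌊Y⌋₊,
        ((T.filter (fun y => IsIntegral ℤ ((g : K) * y))).card : ℝ) := by
        exact_mod_cast Finset.card_biUnion_le
    _ ≤ ∑ _g ∈ Finset.Icc 1 ⌊Y⌋₊, (2 * (Y * T0) + 2) ^ n := Finset.sum_le_sum h1
    _ = (⌊Y⌋₊ : ℝ) * (2 * (Y * T0) + 2) ^ n := by simp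
    _ ≤ Y * (2 * (Y * T0) + 2) ^ n :=
        mul_le_mul_of_nonneg_right (Nat.floor_le hY) (by positivity)

end

end Crest.Agent.R014.Loc7_524
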