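import Crest.Agent.R014.Loc5_524
import Crest.Agent.R014.Loc7_524

/-!
Row 14, block N2 (helper524), part 8: bad types have small total weight.
-/

set_option autoImplicit false
set_option linter.unusedSectionVars false

open scoped nonZeroDivisors

namespace Crest.Agent.R014.Loc8_524

open Crest.NumberTheoryR.Packets Module NumberField
open Crest.Agent.R014.LocDefs_524 Crest.Agent.R014.Loc1_524 Crest.Agent.R014.Loc2_524
open Crest.Agent.R014.Loc3_524 Crest.Agent.R014.Loc4_524 Crest.Agent.R014.Loc6_524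
open Crest.Agent.R014.Loc7_524
open Crest.Agent.R014.Sl_652 (one_mem_order finrank_eq n_pos)

noncomputable section

section core

variable {n : ℕ} {K : Type*} [Field K] [NumberField K]

theorem relIndex_ne_zero_of_pow (m : LatticeBasis n K) {H : AddSubgroup K} (hH : H ≤ lt m)
    {N : ℕ} (hN : N ≠ 0) (h : ∀ x ∈ m.lattice, (N : K) * x ∈ H) : H.relIndex (lt m) ≠ 0 := by
  have hqH : qA N (lt m) ≤ H := by
    intro x hx
    obtain ⟨y, hy, rfl⟩ := mem_qA.1 hx
    exact h y hy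
  intro h0
  have h1 := AddSubgroup.relIndex_mul_relIndex (qA N (lt m)) H (lt m) hqH hH
  rw [relIndex_qA_lt, h0, mul_zero] at h1
  exact (pow_ne_zero n hN) h1.symm

/-- The core inequality for bad types. -/
theorem bad_core (hprim : IsPrimitiveField K) (hn : 2 ≤ n) (m : LatticeBasis n K)
    (σ : Fin n ≃ (K →+* ℝ)) (hf : fIdx m ≠ 1) {Y T0 ε : ℝ} (hY : 1 ≤ Y) (hT0 : 0 < T0)
    (hε : 0 < ε) (B : Finset (AddSubgroup K))
    (hB : ∀ P ∈ B, IsTy m P ∧ ∃ y ∈ P, (∀ r : ℚ, y ≠ r) ∧ ∀ i, |σ i y| ≤ T0) :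
    ∑ P ∈ B, (((multiplierOrder m).relIndex P : ℕ) : ℝ)⁻¹ ≤
      2 ^ (n * (fIdx m).primeFactors.card) *
        (DivB_684.CDiv n (ε / n) * (Y * (fIdx m : ℝ) ^ n) ^ ε *
          ((Y * (fIdx m : ℝ) ^ n) ^ ε * cR ε ^ (fIdx m).primeFactors.card) * Y ^ (-(1 : ℝ) / n) +
          Y * (2 * (Y * T0) + 2) ^ n *
            (2 * T0 * latticeDisc m ^ (-(1 / ((n : ℝ) * ((n : ℝ) - 1)))))) := by
  classical
  have hn0 : 0 < n := by omega
  have hnR : (0 : ℝ) < n := by exact_mod_cast hn0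
  have hf0 := fIdx_ne_zero m
  have hfr := finrank_eq m
  have hD : 0 < latticeDisc m := Sl_652.latticeDisc_pos m σ
  set X := Y * (fIdx m : ℝ) ^ n with hX
  have hX0 : 0 ≤ X := by positivity
  -- the dichotomy
  let L : AddSubgroup K → Ideal (𝓞 K) → Prop := fun P b =>
    b ≠ ⊥ ∧ Y < Ideal.absNorm b ∧ (Ideal.absNorm b : ℝ) ≤ X ∧ (∃ k : ℕ, (fIdx m : 𝓞 K) ^ k ∈ b) ∧
      ∀ x ∈ m.lattice, IsGen m P x → x ∈ Hb m b
  let Rr : AddSubgroup K → K → Prop := fun P y =>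
    ((∃ g : ℕ, g ≠ 0 ∧ (g : ℝ) ≤ Y ∧ IsIntegral ℤ ((g : K) * y)) ∧ ∀ i, |σ i y| ≤ T0) ∧
      (∀ r : ℚ, y ≠ r) ∧ (∃ k : ℕ, (fIdx m : K) ^ k * y ∈ multiplierOrder m) ∧
      ∀ x ∈ m.lattice, IsGen m P x → x ∈ Hy m y
  have hdich : ∀ P ∈ B, (∃ b, L P b) ∨ (∃ y, Rr P y) := by
    intro P hP
    obtain ⟨hTy, y, hyP, hyr, hyT⟩ := hB P hP
    obtain ⟨b0, hb0, ⟨k, hk⟩, hbi, hbH⟩ := exists_denIdeal hTy
    by_cases hN : Y < Ideal.absNorm b0
    · left
      obtain ⟨b, hle, hb, hbY, hbX⟩ := exists_dvd_norm hb0 (R := fIdx m ^ n) hY (by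
        intro p hp hp0 hbp
        have h1 : (fIdx m : 𝓞 K) ∈ p := hp.mem_of_pow_mem _ (hbp hk)
        have h2 := Ideal.absNorm_dvd_absNorm_of_le (I := p) (J := Ideal.span {(fIdx m : 𝓞 K)})
          ((Ideal.span_singleton_le_iff_mem _).2 h1)
        rw [DivB_684.absNorm_span_nat, hfr] at h2
        exact Nat.le_of_dvd (Nat.pos_of_ne_zero (pow_ne_zero n hf0)) h2) hN
      refine ⟨b, hb, hbY, ?_, ⟨k, hle hk⟩, ?_⟩
      · rw [hX]; push_cast at hbX; exact hbX
      · intro x hx hg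
        exact hbH x hx hg.le b hle
    · right
      rw [not_lt] at hN
      refine ⟨y, ⟨⟨Ideal.absNorm b0, ?_, hN, ?_⟩, hyT⟩, hyr, hTy.away y hyP, ?_⟩
      · rw [Ne, Ideal.absNorm_eq_zero_iff]; exact hb0
      · have := hbi _ (Ideal.absNorm_mem b0) y hyP
        have e : (((Ideal.absNorm b0 : ℕ) : 𝓞 K) : K) = ((Ideal.absNorm b0 : ℕ) : K) := by simp
        rw [e] at this
        exact this
      · intro x hx hg
        exact mem_Hy.2 ⟨hx, hg.le y hyP⟩
  have hexb : ∀ P : AddSubgroup K, ∃ b, (∃ b, L P b) → L P b := by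
    intro P
    by_cases h : ∃ b, L P b
    · obtain ⟨b, hb⟩ := h
      exact ⟨b, fun _ => hb⟩
    · exact ⟨⊤, fun h' => absurd h' h⟩
  choose β hβ using hexb
  have hexy : ∀ P : AddSubgroup K, ∃ y, (∃ y, Rr P y) → Rr P y := by
    intro P
    by_cases h : ∃ y, Rr P y
    · obtain ⟨y, hy⟩ := h
      exact ⟨y, fun _ => hy⟩
    · exact ⟨0, fun h' => absurd h' h⟩
  choose υ hυ using hexy
  set T1 := (B.filter (fun P => ∃ b, L P b)).image β with hT1
  set T2 := (B.filter (fun P => ∃ y, Rr P y)).image υ with hT2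
  have hT1' : ∀ b ∈ T1, ∃ P, L P b := by
    intro b hb
    obtain ⟨P, hP, rfl⟩ := Finset.mem_image.1 hb
    exact ⟨P, hβ P (Finset.mem_filter.1 hP).2⟩
  have hT2' : ∀ y ∈ T2, ∃ P, Rr P y := by
    intro y hy
    obtain ⟨P, hP, rfl⟩ := Finset.mem_image.1 hy
    exact ⟨P, hυ P (Finset.mem_filter.1 hP).2⟩
  -- elements of the covering family
  have hHb : ∀ b ∈ T1, ∀ k : ℕ, (fIdx m : 𝓞 K) ^ k ∈ b → ∀ x ∈ m.lattice,
      ((fIdx m ^ k : ℕ) : K) * x ∈ Hb m b := by
    intro b _ k hk x hx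
    exact pow_mul_mem_Hb (by push_cast; exact hk) hx
  have hHy : ∀ y : K, ∀ k : ℕ, (fIdx m : K) ^ k * y ∈ multiplierOrder m → ∀ x ∈ m.lattice,
      ((fIdx m ^ k : ℕ) : K) * x ∈ Hy m y := by
    intro y k hk x hx
    exact mul_mem_Hy (by push_cast; exact hk) hx
  set I := T1.image (Hb m) ∪ T2.image (Hy m) with hI
  have hpack := packing m hf B (fun P hP => (hB P hP).1) I (by
    intro H hH
    rcases Finset.mem_union.1 hH with h | h
    · obtain ⟨b, hb, rfl⟩ := Finset.mem_image.1 h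
      obtain ⟨P, -, -, -, ⟨k, hk⟩, -⟩ := hT1' b hb
      refine ⟨Hb_le m b, k, fun x hx => ?_⟩
      have := hHb b hb k hk x hx
      rwa [Nat.cast_pow] at this
    · obtain ⟨y, hy, rfl⟩ := Finset.mem_image.1 h
      obtain ⟨P, -, -, ⟨k, hk⟩, -⟩ := hT2' y hy
      refine ⟨Hy_le m y, k, fun x hx => ?_⟩
      have := hHy y k hk x hx
      rwa [Nat.cast_pow] at this) (by
    intro P hP x hx hg
    rcases hdich P hP with h | h
    · refine ⟨Hb m (β P), Finset.mem_union_left _ (Finset.mem_image_of_mem _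
        (Finset.mem_image_of_mem _ (Finset.mem_filter.2 ⟨hP, h⟩))), ?_⟩
      exact (hβ P h).2.2.2.2 x hx hg
    · refine ⟨Hy m (υ P), Finset.mem_union_right _ (Finset.mem_image_of_mem _
        (Finset.mem_image_of_mem _ (Finset.mem_filter.2 ⟨hP, h⟩))), ?_⟩
      exact (hυ P h).2.2.2 x hx hg)
  refine hpack.trans (mul_le_mul_of_nonneg_left ?_ (by positivity))
  have hsplit : ∑ H ∈ I, ((H.relIndex (lt m) : ℕ) : ℝ)⁻¹ ≤
      ∑ b ∈ T1, (((Hb m b).relIndex (lt m) : ℕ) : ℝ)⁻¹ +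
        ∑ y ∈ T2, (((Hy m y).relIndex (lt m) : ℕ) : ℝ)⁻¹ := by
    have h1 : ∑ H ∈ I, ((H.relIndex (lt m) : ℕ) : ℝ)⁻¹ ≤
        ∑ H ∈ T1.image (Hb m), ((H.relIndex (lt m) : ℕ) : ℝ)⁻¹ +
          ∑ H ∈ T2.image (Hy m), ((H.relIndex (lt m) : ℕ) : ℝ)⁻¹ := by
      rw [hI, ← Finset.sum_union_inter]
      exact le_add_of_nonneg_right (Finset.sum_nonneg fun _ _ => by positivity)
    refine h1.trans (add_le_add ?_ ?_)
    · exact Finset.sum_image_le_of_nonneg (f := fun H : AddSubgroup K =>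
        ((H.relIndex (lt m) : ℕ) : ℝ)⁻¹) (fun _ _ => by positivity)
    · exact Finset.sum_image_le_of_nonneg (f := fun H : AddSubgroup K =>
        ((H.relIndex (lt m) : ℕ) : ℝ)⁻¹) (fun _ _ => by positivity)
  refine hsplit.trans (add_le_add ?_ ?_)
  · -- ideals
    have h1 : ∀ b ∈ T1, (((Hb m b).relIndex (lt m) : ℕ) : ℝ)⁻¹ ≤ Y ^ (-(1 : ℝ) / n) := by
      intro b hb
      obtain ⟨P, -, hbY, -, ⟨k, hk⟩, -⟩ := hT1' b hb
      have hne : (Hb m b).relIndex (lt m) ≠ 0 :=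
        relIndex_ne_zero_of_pow m (Hb_le m b) (pow_ne_zero k hf0) (hHb b hb k hk)
      have h2 := absNorm_le m hne
      set h := (Hb m b).relIndex (lt m)
      have h3 : Y ≤ (h : ℝ) ^ n := by
        have : (Ideal.absNorm b : ℝ) ≤ (h : ℝ) ^ n := by exact_mod_cast h2
        linarith
      have hh : (0 : ℝ) < h := by exact_mod_cast Nat.pos_of_ne_zero hne
      have h4 : Y ^ ((1 : ℝ) / n) ≤ h := by
        calc Y ^ ((1 : ℝ) / n) ≤ ((h : ℝ) ^ n) ^ ((1 : ℝ) / n) :=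
              Real.rpow_le_rpow (by linarith) h3 (by positivity)
          _ = h := by
              rw [← Real.rpow_natCast, ← Real.rpow_mul hh.le, mul_one_div_cancel hnR.ne',
                Real.rpow_one]
      rw [neg_div, Real.rpow_neg (by linarith)]
      exact inv_anti₀ (by positivity) h4
    have h2 := card_ideal_le hε hf0 T1 hX0 (by
      intro b hb
      obtain ⟨P, hb0, -, hbX, hbk, -⟩ := hT1' b hb
      exact ⟨hb0, hbX, hbk⟩)
    rw [hfr] at h2
    calc ∑ b ∈ T1, (((Hb m b).relIndex (lt m) : ℕ) : ℝ)⁻¹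
        ≤ ∑ _b ∈ T1, Y ^ (-(1 : ℝ) / n) := Finset.sum_le_sum h1
      _ = (T1.card : ℝ) * Y ^ (-(1 : ℝ) / n) := by rw [Finset.sum_const, nsmul_eq_mul]
      _ ≤ _ := mul_le_mul_of_nonneg_right h2 (by positivity)
  · have h1 : ∀ y ∈ T2, (((Hy m y).relIndex (lt m) : ℕ) : ℝ)⁻¹ ≤
        2 * T0 * latticeDisc m ^ (-(1 / ((n : ℝ) * ((n : ℝ) - 1)))) := by
      intro y hy
      obtain ⟨P, ⟨-, hyT⟩, hyr, ⟨k, hk⟩, -⟩ := hT2' y hy
      have hne : (Hy m y).relIndex (lt m) ≠ 0 :=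
        relIndex_ne_zero_of_pow m (Hy_le m y) (pow_ne_zero k hf0) (hHy y k hk)
      have h2 := le_relIndex_Hy hprim hn m σ hyr hyT hne
      set h := (Hy m y).relIndex (lt m)
      have hh : (0 : ℝ) < h := by exact_mod_cast Nat.pos_of_ne_zero hne
      rw [Real.rpow_neg hD.le, inv_eq_one_div, div_le_iff₀ hh]
      have hpos : 0 < latticeDisc m ^ (1 / ((n : ℝ) * ((n : ℝ) - 1))) := by positivity
      have e : 2 * T0 * (latticeDisc m ^ (1 / ((n : ℝ) * ((n : ℝ) - 1))))⁻¹ * (h : ℝ) =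
          (2 * T0 * h) / latticeDisc m ^ (1 / ((n : ℝ) * ((n : ℝ) - 1))) := by
        rw [div_eq_mul_inv]; ring
      rw [e, le_div_iff₀ hpos, one_mul]
      exact h2
    have h2 := card_den_le hfr hn0 σ (Y := Y) (T0 := T0) (by linarith) hT0.le T2 (by
      intro y hy
      obtain ⟨P, hyY, -⟩ := hT2' y hy
      exact hyY)
    calc ∑ y ∈ T2, (((Hy m y).relIndex (lt m) : ℕ) : ℝ)⁻¹
        ≤ ∑ _y ∈ T2, 2 * T0 * latticeDisc m ^ (-(1 / ((n : ℝ) * ((n : ℝ) - 1)))) :=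
          Finset.sum_le_sum h1
      _ = (T2.card : ℝ) * (2 * T0 * latticeDisc m ^ (-(1 / ((n : ℝ) * ((n : ℝ) - 1))))) := by
          rw [Finset.sum_const, nsmul_eq_mul]
      _ ≤ _ := mul_le_mul_of_nonneg_right h2 (by positivity)

end core

/-! ### Constants -/

/-- `κ = 1/(n(n-1))`. -/
def kap (n : ℕ) : ℝ := 1 / ((n : ℝ) * ((n : ℝ) - 1))

/-- The exponent `δ` of the threshold (and of the denominators). -/
def dl (n : ℕ) : ℝ := kap n / (4 * (n + 1))

/-- The exponent `η` of the saving. -/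
def et (n : ℕ) : ℝ := dl n / (2 * n)

/-- The auxiliary `ε`. -/
def ep (n : ℕ) : ℝ := dl n / (2 * n * (n + 3))

/-- An exponent `j` with `2^n cR ≤ 2^j`. -/
def jj (n : ℕ) : ℕ := n + ⌈cR (ep n)⌉₊

/-- The constant for the `ω(f)` factors. -/
def cw (n : ℕ) : ℝ := (DivB_684.CDiv 1 (ep n / (jj n + 1))) ^ (jj n)

/-- The constant of `bad_sum_le`. -/
def Cbad (n : ℕ) : ℝ := DivB_684.CDiv n (ep n / n) * cw n + 2 * 4 ^ n * cw n

theorem kap_pos {n : ℕ} (hn : 2 ≤ n) : 0 < kap n := by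
  have : (2 : ℝ) ≤ n := by exact_mod_cast hn
  unfold kap
  have : 0 < (n : ℝ) * ((n : ℝ) - 1) := by nlinarith
  positivity

theorem kap_le {n : ℕ} (hn : 2 ≤ n) : kap n ≤ 1 / 2 := by
  have h2 : (2 : ℝ) ≤ n := by exact_mod_cast hn
  unfold kap
  have : 2 ≤ (n : ℝ) * ((n : ℝ) - 1) := by nlinarith
  exact one_div_le_one_div_of_le (by norm_num) this

theorem dl_pos {n : ℕ} (hn : 2 ≤ n) : 0 < dl n := by
  have := kap_pos hn
  unfold dl
  positivity

theorem et_pos {n : ℕ} (hn : 2 ≤ n) : 0 < et n := by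
  have := dl_pos hn
  have : (0 : ℝ) < n := by exact_mod_cast (by omega : 0 < n)
  unfold et
  positivity

theorem ep_pos {n : ℕ} (hn : 2 ≤ n) : 0 < ep n := by
  have := dl_pos hn
  have : (0 : ℝ) < n := by exact_mod_cast (by omega : 0 < n)
  unfold ep
  positivity

theorem four_dl {n : ℕ} : 4 * ((n : ℝ) + 1) * dl n = kap n := by
  unfold dl
  have : (0 : ℝ) < (n : ℝ) + 1 := by positivity
  field_simp

theorem two_et {n : ℕ} (hn : 2 ≤ n) : 2 * (n : ℝ) * et n = dl n := by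
  unfold et
  have : (0 : ℝ) < n := by exact_mod_cast (by omega : 0 < n)
  field_simp

theorem ep_eq {n : ℕ} (hn : 2 ≤ n) : ((n : ℝ) + 3) * ep n = et n := by
  unfold ep et
  have : (0 : ℝ) < n := by exact_mod_cast (by omega : 0 < n)
  have h3 : (0 : ℝ) < (n : ℝ) + 3 := by positivity
  field_simp

theorem one_le_cw {n : ℕ} (hn : 2 ≤ n) : 1 ≤ cw n := by
  unfold cw
  apply one_le_pow₀
  apply DivB_684.one_le_CDiv
  have := ep_pos hn
  positivity

theorem Cbad_ge {n : ℕ} (hn : 2 ≤ n) : 2 ≤ Cbad n := by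
  unfold Cbad
  have h1 := one_le_cw hn
  have h2 : 1 ≤ DivB_684.CDiv n (ep n / n) := by
    apply DivB_684.one_le_CDiv
    have := ep_pos hn
    have : (0 : ℝ) < n := by exact_mod_cast (by omega : 0 < n)
    positivity
  have h3 : (1 : ℝ) ≤ 4 ^ n := one_le_pow₀ (by norm_num)
  have h4 : 1 ≤ DivB_684.CDiv n (ep n / n) * cw n := one_le_mul_of_one_le_of_one_le h2 h1
  have h5 : 1 ≤ 4 ^ n * cw n := one_le_mul_of_one_le_of_one_le h3 h1
  nlinarith

/-- `2^(n ω(f)) cR^ω(f) ≤ cw f^ε`. -/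
theorem omega_le {n : ℕ} (hn : 2 ≤ n) {f : ℕ} (hf : f ≠ 0) :
    (2 : ℝ) ^ (n * f.primeFactors.card) * cR (ep n) ^ f.primeFactors.card ≤
      cw n * (f : ℝ) ^ ep n := by
  have h1 : (2 : ℝ) ^ (n * f.primeFactors.card) * cR (ep n) ^ f.primeFactors.card ≤
      ((2 : ℝ) ^ jj n) ^ f.primeFactors.card := by
    rw [pow_mul, ← mul_pow]
    have h0 := one_le_cR (ep_pos hn)
    apply pow_le_pow_left₀ (by positivity)
    unfold jj
    rw [pow_add]
    apply mul_le_mul_of_nonneg_left _ (by positivity)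
    calc cR (ep n) ≤ (⌈cR (ep n)⌉₊ : ℝ) := Nat.le_ceil _
      _ ≤ 2 ^ ⌈cR (ep n)⌉₊ := by exact_mod_cast (Nat.lt_two_pow_self).le
  exact h1.trans (DivB_684.pow_omega_le (ep_pos hn) (jj n) f hf)

/-- BAD TYPES HAVE SMALL WEIGHT. -/
theorem bad_sum_le {n : ℕ} {K : Type*} [Field K] [NumberField K] (hprim : IsPrimitiveField K)
    (hn : 2 ≤ n) (m : LatticeBasis n K) (σ : Fin n ≃ (K →+* ℝ)) (B : Finset (AddSubgroup K))
    (hB : ∀ P ∈ B, IsTy m P ∧ ∃ y ∈ P, (∀ r : ℚ, y ≠ r) ∧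
      ∀ i, |σ i y| ≤ latticeDisc m ^ dl n) :
    ∑ P ∈ B, (((multiplierOrder m).relIndex P : ℕ) : ℝ)⁻¹ ≤
      Cbad n * latticeDisc m ^ (-et n) := by
  classical
  have hn2 : (2 : ℝ) ≤ n := by exact_mod_cast hn
  have hnR : (0 : ℝ) < n := by linarith
  have hn0 : n ≠ 0 := by omega
  have hD1 := Sl_652.one_le_latticeDisc m σ
  have hD : 0 < latticeDisc m := by linarith
  have hκ := kap_pos hn
  have hdl := dl_pos hn
  have het := et_pos hn
  have hep := ep_pos hn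
  have e1 := four_dl (n := n)
  have e2 := two_et hn
  have e3 := ep_eq hn
  have hetdl : et n ≤ dl n / 4 := by nlinarith
  have hdlk : 12 * dl n ≤ kap n := by nlinarith
  have hepet : ep n ≤ et n := by nlinarith
  set D := latticeDisc m with hDdef
  by_cases hf : fIdx m = 1
  · -- only the order itself, which is bad for bounded discriminant only
    by_cases hBe : B = ∅
    · subst hBe
      have := Cbad_ge hn
      simp only [Finset.sum_empty]
      positivity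
    obtain ⟨P, hP⟩ := Finset.nonempty_iff_ne_empty.2 hBe
    obtain ⟨hTy, y, hyP, hyr, hyT⟩ := hB P hP
    rw [eq_order_of_fIdx_eq_one hTy hf] at hyP
    obtain ⟨i, j, hij⟩ := Sl_652.order_diff hprim hn m σ hyP (fun k hk => hyr k (by
      rw [hk]; simp))
    have h1 : D ^ kap n ≤ 2 * D ^ dl n := by
      have h2 : |σ i y - σ j y| ≤ D ^ dl n + D ^ dl n :=
        (abs_sub _ _).trans (add_le_add (hyT i) (hyT j))
      have h3 : D ^ kap n ≤ |σ i y - σ j y| := hij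
      linarith
    have h2 : D ^ et n ≤ 2 := by
      have h3 : D ^ (kap n - dl n) ≤ 2 := by
        rw [Real.rpow_sub hD, div_le_iff₀ (by positivity)]
        exact h1
      have h4 : D ^ et n ≤ D ^ (kap n - dl n) :=
        Real.rpow_le_rpow_of_exponent_le hD1 (by linarith)
      exact h4.trans h3
    have h5 : (1 : ℝ) ≤ Cbad n * D ^ (-et n) := by
      rw [Real.rpow_neg hD.le, ← div_eq_mul_inv, le_div_iff₀ (by positivity), one_mul]
      exact h2.trans (Cbad_ge hn)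
    have h6 := ty_sum_le m B (fun P hP => (hB P hP).1)
    rw [hf] at h6
    simp only [Nat.primeFactors_one, Finset.card_empty, mul_zero, pow_zero] at h6
    exact h6.trans h5
  · have hf0 := fIdx_ne_zero m
    have hf1 : (1 : ℝ) ≤ (fIdx m : ℝ) := by exact_mod_cast Nat.one_le_iff_ne_zero.2 hf0
    -- f ≤ D^(1/2)
    have hfD : (fIdx m : ℝ) ≤ D ^ ((1 : ℝ) / 2) := by
      have h1 : (1 : ℝ) ≤ |(NumberField.discr K : ℝ)| := by
        have : (1 : ℤ) ≤ |NumberField.discr K| := Int.one_le_abs (NumberField.discr_ne_zero K)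
        exact_mod_cast this
      have h2 : (fIdx m : ℝ) ^ 2 ≤ D := by
        rw [hDdef, latticeDisc_eq]
        nlinarith [sq_nonneg (fIdx m : ℝ)]
      rw [← Real.sqrt_eq_rpow]
      exact Real.le_sqrt_of_sq_le h2
    set Y := D ^ dl n with hY
    have hY1 : 1 ≤ Y := Real.one_le_rpow hD1 hdl.le
    have hcore := bad_core hprim hn m σ hf hY1 (T0 := D ^ dl n) (by positivity) hep B hB
    rw [← hY] at hcore
    refine hcore.trans ?_
    set ω := (fIdx m).primeFactors.card with hω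
    have hcR := one_le_cR hep
    have hCD : 1 ≤ DivB_684.CDiv n (ep n / n) := DivB_684.one_le_CDiv _ (by positivity)
    have hcw := one_le_cw hn
    have hom := omega_le hn hf0
    rw [← hω] at hom
    -- f^ε ≤ D^(ε/2)
    have hfe : (fIdx m : ℝ) ^ ep n ≤ D ^ (ep n / 2) := by
      calc (fIdx m : ℝ) ^ ep n ≤ (D ^ ((1 : ℝ) / 2)) ^ ep n :=
            Real.rpow_le_rpow (by linarith) hfD hep.le
        _ = D ^ (ep n / 2) := by rw [← Real.rpow_mul hD.le]; congr 1; ring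
    have hom1 : (2 : ℝ) ^ (n * ω) * cR (ep n) ^ ω ≤ cw n * D ^ (ep n / 2) :=
      hom.trans (mul_le_mul_of_nonneg_left hfe (by linarith))
    have hom2 : (2 : ℝ) ^ (n * ω) ≤ cw n * D ^ (ep n / 2) := by
      refine le_trans ?_ hom1
      exact le_mul_of_one_le_right (by positivity) (one_le_pow₀ hcR)
    -- X^ε ≤ D^(ε (dl + n/2))
    have hXe : (Y * (fIdx m : ℝ) ^ n) ^ ep n ≤ D ^ (ep n * (dl n + n / 2)) := by
      have h1 : Y * (fIdx m : ℝ) ^ n ≤ D ^ (dl n + n / 2) := by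
        rw [Real.rpow_add hD, ← hY]
        apply mul_le_mul_of_nonneg_left _ (by positivity)
        calc (fIdx m : ℝ) ^ n ≤ (D ^ ((1 : ℝ) / 2)) ^ n := pow_le_pow_left₀ (by linarith) hfD n
          _ = D ^ ((n : ℝ) / 2) := by
              rw [← Real.rpow_natCast, ← Real.rpow_mul hD.le]; congr 1; ring
      calc (Y * (fIdx m : ℝ) ^ n) ^ ep n ≤ (D ^ (dl n + n / 2)) ^ ep n :=
            Real.rpow_le_rpow (by positivity) h1 hep.le
        _ = D ^ (ep n * (dl n + n / 2)) := by rw [← Real.rpow_mul hD.le]; congr 1; ring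
    have hYn : Y ^ (-(1 : ℝ) / n) = D ^ (-(dl n) / n) := by
      rw [hY, ← Real.rpow_mul hD.le]; congr 1; ring
    -- first term
    have ht1 : (2 : ℝ) ^ (n * ω) * (DivB_684.CDiv n (ep n / n) * (Y * (fIdx m : ℝ) ^ n) ^ ep n *
        ((Y * (fIdx m : ℝ) ^ n) ^ ep n * cR (ep n) ^ ω) * Y ^ (-(1 : ℝ) / n)) ≤
        DivB_684.CDiv n (ep n / n) * cw n * D ^ (-et n) := by
      have hx0 : 0 ≤ (Y * (fIdx m : ℝ) ^ n) ^ ep n := by positivity
      calc (2 : ℝ) ^ (n * ω) * (DivB_684.CDiv n (ep n / n) * (Y * (fIdx m : ℝ) ^ n) ^ ep n *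
        ((Y * (fIdx m : ℝ) ^ n) ^ ep n * cR (ep n) ^ ω) * Y ^ (-(1 : ℝ) / n))
          = DivB_684.CDiv n (ep n / n) * ((2 : ℝ) ^ (n * ω) * cR (ep n) ^ ω) *
            ((Y * (fIdx m : ℝ) ^ n) ^ ep n * (Y * (fIdx m : ℝ) ^ n) ^ ep n) *
              Y ^ (-(1 : ℝ) / n) := by ring
        _ ≤ DivB_684.CDiv n (ep n / n) * (cw n * D ^ (ep n / 2)) *
            (D ^ (ep n * (dl n + n / 2)) * D ^ (ep n * (dl n + n / 2))) *
              D ^ (-(dl n) / n) := by
            rw [hYn]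
            gcongr
        _ = DivB_684.CDiv n (ep n / n) * cw n *
            D ^ (ep n / 2 + (ep n * (dl n + n / 2) + ep n * (dl n + n / 2)) + -(dl n) / n) := by
            rw [Real.rpow_add hD, Real.rpow_add hD, Real.rpow_add hD]; ring
        _ ≤ DivB_684.CDiv n (ep n / n) * cw n * D ^ (-et n) := by
            apply mul_le_mul_of_nonneg_left _ (by positivity)
            apply Real.rpow_le_rpow_of_exponent_le hD1
            have h1 : -(dl n) / n = -(2 * et n) := by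
              rw [← e2]; field_simp
            rw [h1]
            have h2 : ep n * dl n ≤ ep n * (1 / 24) := by
              apply mul_le_mul_of_nonneg_left _ hep.le
              have := kap_le hn
              linarith
            nlinarith
    -- second term
    have ht2 : (2 : ℝ) ^ (n * ω) * (Y * (2 * (Y * D ^ dl n) + 2) ^ n *
        (2 * D ^ dl n * D ^ (-(1 / ((n : ℝ) * ((n : ℝ) - 1)))))) ≤
        2 * 4 ^ n * cw n * D ^ (-et n) := by
      have h1 : 2 * (Y * D ^ dl n) + 2 ≤ 4 * D ^ (2 * dl n) := by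
        have h2 : Y * D ^ dl n = D ^ (2 * dl n) := by
          rw [hY, ← Real.rpow_add hD]; congr 1; ring
        rw [h2]
        have : 1 ≤ D ^ (2 * dl n) := Real.one_le_rpow hD1 (by linarith)
        linarith
      have h2 : (2 * (Y * D ^ dl n) + 2) ^ n ≤ 4 ^ n * D ^ (2 * n * dl n) := by
        calc (2 * (Y * D ^ dl n) + 2) ^ n ≤ (4 * D ^ (2 * dl n)) ^ n :=
              pow_le_pow_left₀ (by positivity) h1 n
          _ = 4 ^ n * D ^ (2 * n * dl n) := by
              rw [mul_pow, ← Real.rpow_natCast (D ^ (2 * dl n)), ← Real.rpow_mul hD.le]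
              congr 2; ring
      have hk : -(1 / ((n : ℝ) * ((n : ℝ) - 1))) = -kap n := rfl
      rw [hk]
      calc (2 : ℝ) ^ (n * ω) * (Y * (2 * (Y * D ^ dl n) + 2) ^ n *
            (2 * D ^ dl n * D ^ (-kap n)))
          ≤ (cw n * D ^ (ep n / 2)) * (D ^ dl n * (4 ^ n * D ^ (2 * n * dl n)) *
            (2 * D ^ dl n * D ^ (-kap n))) := by
            gcongr
        _ = 2 * 4 ^ n * cw n *
            D ^ (ep n / 2 + (dl n + 2 * n * dl n + dl n + -kap n)) := by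
            rw [Real.rpow_add hD, Real.rpow_add hD, Real.rpow_add hD, Real.rpow_add hD]; ring
        _ ≤ 2 * 4 ^ n * cw n * D ^ (-et n) := by
            apply mul_le_mul_of_nonneg_left _ (by positivity)
            apply Real.rpow_le_rpow_of_exponent_le hD1
            nlinarith
    rw [mul_add]
    unfold Cbad
    rw [add_mul]
    exact add_le_add ht1 ht2

end

end Crest.Agent.R014.Loc8_524
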