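import Mathlib

/-!
Row 14, block D: pointwise chain rule.  Nested countable names `X m`; information of the
refinement = conditional entropy + a martingale difference; the L2 norm of the sum of the
martingale differences is `≤ 4 * B * N` when every atom splits into at most `B` atoms.
-/

set_option linter.unusedSectionVars false

open MeasureTheory Real

namespace Crest.Agent.R014.Mart_715

variable {Ω ι κ : Type*} [MeasurableSpace Ω]

/-- mass of the atom of `X` containing `x` -/
noncomputable def am (μ : Measure Ω) (X : Ω → ι) (x : Ω) : ℝ := μ.real (X ⁻¹' {X x})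

/-- conditional entropy of `Y` given the `X`-atom of `x` -/
noncomputable def ce (μ : Measure Ω) (X : Ω → ι) (Y : Ω → κ) (x : Ω) : ℝ :=
  ∑' j, negMulLog (μ.real (X ⁻¹' {X x} ∩ Y ⁻¹' {j}) / am μ X x)

/-- information of `Y` given `X` (`Y` finer than `X`) -/
noncomputable def inf (μ : Measure Ω) (X : Ω → ι) (Y : Ω → κ) (x : Ω) : ℝ :=
  log (am μ X x) - log (am μ Y x)

/-- the martingale difference -/
noncomputable def md (μ : Measure Ω) (X : Ω → ι) (Y : Ω → κ) (x : Ω) : ℝ :=
  inf μ X Y x - ce μ X Y x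

/-- every atom of `X` (essentially) meets at most `B` atoms of `Y` -/
def Mult (μ : Measure Ω) (X : Ω → ι) (Y : Ω → κ) (B : ℕ) : Prop :=
  ∀ i, ∃ J : Finset κ, J.card ≤ B ∧ ∀ j ∉ J, μ (X ⁻¹' {i} ∩ Y ⁻¹' {j}) = 0

/-- `p (log p)^2 ≤ 4` on `[0,1]` -/
theorem mul_log_sq_le {p : ℝ} (h0 : 0 ≤ p) (h1 : p ≤ 1) : p * (log p) ^ 2 ≤ 4 := by
  rcases eq_or_lt_of_le h0 with h | h
  · rw [← h]; simp
  · have hs : 0 < √p := Real.sqrt_pos.mpr h
    have hs1 : √p ≤ 1 := Real.sqrt_le_one.mpr h1
    have e1 : log p = 2 * log (√p) := by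
      rw [Real.log_sqrt h0]; ring
    have h2 : |log (√p) * √p| < 1 := Real.abs_log_mul_self_lt (√p) hs hs1
    have h3 : (log (√p) * √p) ^ 2 < 1 := by
      rw [← sq_abs]
      have := abs_nonneg (log (√p) * √p)
      nlinarith
    have e2 : √p ^ 2 = p := Real.sq_sqrt h0
    rw [e1]
    calc p * (2 * log (√p)) ^ 2 = 4 * (log (√p) * √p) ^ 2 := by
          rw [mul_pow (log (√p)), e2]; ring
      _ ≤ 4 := by linarith

section atom

variable {μ : Measure Ω} [IsFiniteMeasure μ]
  [MeasurableSpace ι] [MeasurableSingletonClass ι]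
  [MeasurableSpace κ] [MeasurableSingletonClass κ] [Countable κ]
  {Y : Ω → κ} (hY : Measurable Y) {A : Set Ω} (hA : MeasurableSet A)
  {J : Finset κ} (hJ : ∀ j ∉ J, μ (A ∩ Y ⁻¹' {j}) = 0)

include hY hA hJ

theorem atom_int (G : κ → ℝ) :
    IntegrableOn (fun x => G (Y x)) A μ ∧
      ∫ x in A, G (Y x) ∂μ = ∑ j ∈ J, μ.real (A ∩ Y ⁻¹' {j}) * G j := by
  set ν : Measure κ := (μ.restrict A).map Y with hν
  have hν1 : ∀ s : Set κ, ν s = μ (A ∩ Y ⁻¹' s) := by
    intro s
    have hs : MeasurableSet s := s.to_countable.measurableSet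
    rw [hν, Measure.map_apply hY hs, Measure.restrict_apply (hY hs), Set.inter_comm]
  have hJc : ν ((J : Set κ)ᶜ) = 0 := by
    have : ((J : Set κ)ᶜ) = ⋃ j ∈ ((J : Set κ)ᶜ), {j} := by
      rw [Set.biUnion_of_singleton]
    rw [this, measure_biUnion_null_iff (Set.to_countable _)]
    intro j hj
    rw [hν1]
    exact hJ j (by simpa using hj)
  have hrestr : ν.restrict (J : Set κ) = ν := by
    rw [Measure.restrict_eq_self_of_ae_mem]
    rw [ae_iff]
    exact hJc
  have hint : Integrable G ν := by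
    rw [← hrestr]
    exact IntegrableOn.finset
  have hGm : AEStronglyMeasurable G ν := hint.aestronglyMeasurable
  constructor
  · exact (integrable_map_measure hGm hY.aemeasurable).mp hint
  · have h1 : ∫ x in A, G (Y x) ∂μ = ∫ y, G y ∂ν := by
      rw [hν, integral_map hY.aemeasurable hGm]
    have h2 : ∫ y, G y ∂ν = ∫ y in (J : Set κ), G y ∂ν := by rw [hrestr]
    rw [h1, h2, setIntegral_finset J (by rw [IntegrableOn, hrestr]; exact hint)]
    refine Finset.sum_congr rfl fun j _ => ?_
    rw [smul_eq_mul, measureReal_def, hν1, ← measureReal_def]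

theorem atom_mass : μ.real A = ∑ j ∈ J, μ.real (A ∩ Y ⁻¹' {j}) := by
  have := (atom_int hY hA hJ (fun _ => (1 : ℝ))).2
  simpa using this

end atom

section step

variable {μ : Measure Ω} [IsProbabilityMeasure μ]
  [MeasurableSpace ι] [MeasurableSingletonClass ι] [Countable ι]
  [MeasurableSpace κ] [MeasurableSingletonClass κ] [Countable κ]
  {X : Ω → ι} {Y : Ω → κ} (hX : Measurable X) (hY : Measurable Y)
  (hXY : ∀ x y, Y x = Y y → X x = X y) {B : ℕ} (hB : Mult μ X Y B)

include hX hY hXY hB

/-- on one atom: the mean of the martingale difference is zero, its second moment is at most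
`4 B` times the mass of the atom -/
theorem atom_md (i : ι) :
    IntegrableOn (md μ X Y) (X ⁻¹' {i}) μ ∧ ∫ x in X ⁻¹' {i}, md μ X Y x ∂μ = 0 ∧
      IntegrableOn (fun x => md μ X Y x ^ 2) (X ⁻¹' {i}) μ ∧
      ∫ x in X ⁻¹' {i}, md μ X Y x ^ 2 ∂μ ≤ 4 * B * μ.real (X ⁻¹' {i}) := by
  obtain ⟨J, hJB, hJ⟩ := hB i
  set A : Set Ω := X ⁻¹' {i} with hAdef
  have hA : MeasurableSet A := hX (measurableSet_singleton i)
  set q : ℝ := μ.real A with hq
  set p : κ → ℝ := fun j => μ.real (A ∩ Y ⁻¹' {j}) with hp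
  set H : ℝ := ∑' j, negMulLog (p j / q) with hH
  have hp0 : ∀ j ∉ J, p j = 0 := fun j hj => by
    simp only [hp, measureReal_def, hJ j hj, ENNReal.toReal_zero]
  have hHs : H = ∑ j ∈ J, negMulLog (p j / q) := by
    rw [hH]
    refine tsum_eq_sum fun j hj => ?_
    rw [hp0 j hj]; simp
  set G : κ → ℝ := fun j => log q - log (p j) - H with hG
  -- on A: md = G ∘ Y
  have hEq : ∀ x ∈ A, md μ X Y x = G (Y x) := by
    intro x hx
    have hx' : X x = i := hx
    have e1 : am μ X x = q := by simp only [am, hx', hq, hAdef]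
    have e2 : am μ Y x = p (Y x) := by
      simp only [am, hp]
      congr 1
      ext y
      simp only [Set.mem_preimage, Set.mem_singleton_iff, Set.mem_inter_iff, hAdef]
      constructor
      · intro h; exact ⟨by rw [hXY y x h, hx'], h⟩
      · intro h; exact h.2
    have e3 : ce μ X Y x = H := by
      simp only [ce, e1, hH, hp, hx', hAdef]
    simp only [md, inf, e1, e2, e3, hG]
  have hEqOn : Set.EqOn (fun x => G (Y x)) (md μ X Y) A := fun x hx => (hEq x hx).symm
  have hEqOn2 : Set.EqOn (fun x => G (Y x) ^ 2) (fun x => md μ X Y x ^ 2) A := fun x hx => by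
    simp only [hEq x hx]
  obtain ⟨i1, v1⟩ := atom_int hY hA hJ G
  obtain ⟨i2, v2⟩ := atom_int hY hA hJ (fun j => G j ^ 2)
  have hmass : q = ∑ j ∈ J, p j := atom_mass hY hA hJ
  have hpnn : ∀ j, 0 ≤ p j := fun j => measureReal_nonneg
  have hqnn : 0 ≤ q := measureReal_nonneg
  have hpq : ∀ j, p j ≤ q := fun j => measureReal_mono Set.inter_subset_left
  -- key identities
  rcases eq_or_lt_of_le hqnn with hq0 | hqpos
  · -- null atom
    have hz : ∀ j, p j = 0 := fun j => le_antisymm (by rw [hq0]; exact hpq j) (hpnn j)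
    refine ⟨(integrableOn_congr_fun hEqOn hA).mp i1, ?_,
      (integrableOn_congr_fun hEqOn2 hA).mp i2, ?_⟩
    · rw [← setIntegral_congr_fun hA hEqOn, v1]
      refine Finset.sum_eq_zero fun j _ => ?_
      have : μ.real (A ∩ Y ⁻¹' {j}) = 0 := hz j
      rw [this, zero_mul]
    · rw [← setIntegral_congr_fun hA hEqOn2, v2]
      have : ∑ j ∈ J, μ.real (A ∩ Y ⁻¹' {j}) * G j ^ 2 = 0 := by
        refine Finset.sum_eq_zero fun j _ => ?_
        have : μ.real (A ∩ Y ⁻¹' {j}) = 0 := hz j
        rw [this, zero_mul]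
      rw [this]
      positivity
  · have hterm : ∀ j, p j * (log q - log (p j)) = q * negMulLog (p j / q) := by
      intro j
      rcases eq_or_lt_of_le (hpnn j) with h0 | hpos
      · rw [← h0]; simp
      · rw [negMulLog, Real.log_div hpos.ne' hqpos.ne']
        field_simp
        ring
    have hmean : ∑ j ∈ J, p j * (log q - log (p j)) = q * H := by
      rw [hHs, Finset.mul_sum]
      exact Finset.sum_congr rfl fun j _ => hterm j
    refine ⟨(integrableOn_congr_fun hEqOn hA).mp i1, ?_,
      (integrableOn_congr_fun hEqOn2 hA).mp i2, ?_⟩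
    · rw [← setIntegral_congr_fun hA hEqOn, v1]
      have : ∑ j ∈ J, μ.real (A ∩ Y ⁻¹' {j}) * G j
          = ∑ j ∈ J, p j * (log q - log (p j)) - (∑ j ∈ J, p j) * H := by
        rw [Finset.sum_mul, ← Finset.sum_sub_distrib]
        exact Finset.sum_congr rfl fun j _ => by simp only [hG, hp]; ring
      rw [this, hmean, ← hmass]; ring
    · rw [← setIntegral_congr_fun hA hEqOn2, v2]
      have e : ∑ j ∈ J, μ.real (A ∩ Y ⁻¹' {j}) * G j ^ 2
          = ∑ j ∈ J, p j * (log q - log (p j)) ^ 2
            - 2 * H * (∑ j ∈ J, p j * (log q - log (p j))) + (∑ j ∈ J, p j) * H ^ 2 := by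
        rw [Finset.mul_sum, Finset.sum_mul, ← Finset.sum_sub_distrib, ← Finset.sum_add_distrib]
        exact Finset.sum_congr rfl fun j _ => by simp only [hG, hp]; ring
      rw [e, hmean, ← hmass]
      have hb : ∑ j ∈ J, p j * (log q - log (p j)) ^ 2 ≤ 4 * B * q := by
        calc ∑ j ∈ J, p j * (log q - log (p j)) ^ 2 ≤ ∑ _j ∈ J, 4 * q := by
              refine Finset.sum_le_sum fun j _ => ?_
              rcases eq_or_lt_of_le (hpnn j) with h0 | hpos
              · rw [← h0]; simp; positivity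
              · have h1 : p j / q ≤ 1 := (div_le_one hqpos).mpr (hpq j)
                have h2 := mul_log_sq_le (div_nonneg (hpnn j) hqnn) h1
                rw [Real.log_div hpos.ne' hqpos.ne'] at h2
                have h3 : p j * (log q - log (p j)) ^ 2
                    = q * (p j / q * (log (p j) - log q) ^ 2) := by
                  field_simp
                  ring
                rw [h3]
                nlinarith
          _ = (J.card : ℝ) * (4 * q) := by rw [Finset.sum_const, nsmul_eq_mul]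
          _ ≤ (B : ℝ) * (4 * q) := by
              have : (J.card : ℝ) ≤ B := by exact_mod_cast hJB
              nlinarith
          _ = 4 * B * q := by ring
      nlinarith [sq_nonneg H]


theorem atom_ce_le (hB1 : 1 ≤ B) (x : Ω) : 0 ≤ ce μ X Y x ∧ ce μ X Y x ≤ log B := by
  have hB := hB
  obtain ⟨J, hJB, hJ⟩ := hB (X x)
  set A : Set Ω := X ⁻¹' {X x} with hAdef
  have hA : MeasurableSet A := hX (measurableSet_singleton (X x))
  have hq : am μ X x = μ.real A := rfl
  set q : ℝ := μ.real A
  set p : κ → ℝ := fun j => μ.real (A ∩ Y ⁻¹' {j}) with hp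
  have hp0 : ∀ j ∉ J, p j = 0 := fun j hj => by
    simp only [hp, measureReal_def, hJ j hj, ENNReal.toReal_zero]
  have hHs : ce μ X Y x = ∑ j ∈ J, negMulLog (p j / q) := by
    simp only [ce, hq]
    refine tsum_eq_sum fun j hj => ?_
    have : μ.real (A ∩ Y ⁻¹' {j}) = 0 := hp0 j hj
    rw [this]; simp
  have hmass : q = ∑ j ∈ J, p j := atom_mass hY hA hJ
  have hpnn : ∀ j, 0 ≤ p j := fun j => measureReal_nonneg
  have hqnn : 0 ≤ q := measureReal_nonneg
  have hpq : ∀ j, p j ≤ q := fun j => measureReal_mono Set.inter_subset_left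
  have hBpos : (0 : ℝ) < B := by exact_mod_cast hB1
  have hlogB : 0 ≤ log B := Real.log_nonneg (by exact_mod_cast hB1)
  rw [hHs]
  constructor
  · refine Finset.sum_nonneg fun j _ => ?_
    rcases eq_or_lt_of_le hqnn with hq0 | hqpos
    · rw [← hq0]; simp
    · exact negMulLog_nonneg (div_nonneg (hpnn j) hqnn) ((div_le_one hqpos).mpr (hpq j))
  · rcases eq_or_lt_of_le hqnn with hq0 | hqpos
    · rw [← hq0]; simpa using hlogB
    · have hterm : ∀ j, negMulLog (p j / q) ≤ p j / q * log B + (1 / B - p j / q) := by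
        intro j
        rcases eq_or_lt_of_le (hpnn j) with h0 | hpos
        · rw [← h0]; simp
        · set r := p j / q with hr
          have hrpos : 0 < r := div_pos hpos hqpos
          have h1 : log (1 / (r * B)) ≤ 1 / (r * B) - 1 :=
            Real.log_le_sub_one_of_pos (by positivity)
          rw [one_div, Real.log_inv, Real.log_mul hrpos.ne' hBpos.ne'] at h1
          have h2 : r * (-(log r + log B)) ≤ r * ((r * B)⁻¹ - 1) :=
            mul_le_mul_of_nonneg_left h1 hrpos.le
          have h3 : r * ((r * B)⁻¹ - 1) = 1 / B - r := by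
            field_simp
          rw [h3] at h2
          rw [negMulLog]
          linarith
      calc ∑ j ∈ J, negMulLog (p j / q)
          ≤ ∑ j ∈ J, (p j / q * log B + (1 / B - p j / q)) :=
            Finset.sum_le_sum fun j _ => hterm j
        _ = (∑ j ∈ J, p j) / q * log B + ((J.card : ℝ) / B - (∑ j ∈ J, p j) / q) := by
            rw [Finset.sum_add_distrib, ← Finset.sum_mul, Finset.sum_sub_distrib,
              Finset.sum_const, nsmul_eq_mul, Finset.sum_div]
            ring
        _ = log B + ((J.card : ℝ) / B - 1) := by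
            rw [← hmass, div_self hqpos.ne']; ring
        _ ≤ log B := by
            have : (J.card : ℝ) / B ≤ 1 := (div_le_one hBpos).mpr (by exact_mod_cast hJB)
            linarith

theorem md_factors (x y : Ω) (h : Y x = Y y) : md μ X Y x = md μ X Y y := by
  simp only [md, inf, ce, am, h, hXY x y h]

theorem md_meas : Measurable (md μ X Y) := by
  classical
  have : md μ X Y = (Function.extend Y (md μ X Y) 0) ∘ Y := by
    funext x
    refine (Function.FactorsThrough.extend_apply (f := Y) (g := md μ X Y) ?_ 0 x).symm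
    intro a b hab
    exact md_factors hX hY hXY hB a b hab
  rw [this]
  exact (measurable_of_countable _).comp hY

theorem md_sq : Integrable (fun x => md μ X Y x ^ 2) μ ∧ ∫ x, md μ X Y x ^ 2 ∂μ ≤ 4 * B := by
  have hm : ∀ i : ι, MeasurableSet (X ⁻¹' {i}) := fun i => hX (measurableSet_singleton i)
  have hd : Pairwise (Function.onFun Disjoint fun i : ι => X ⁻¹' {i}) := by
    intro i j hij
    refine Set.disjoint_left.mpr fun x hx hx' => hij ?_
    have h1 : X x = i := hx
    have h2 : X x = j := hx'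
    rw [← h1, ← h2]
  have hU : (⋃ i : ι, X ⁻¹' {i}) = Set.univ := by
    ext x; simp
  have hsum : HasSum (fun i : ι => μ.real (X ⁻¹' {i})) (μ.real (Set.univ : Set Ω)) := by
    have h := hasSum_integral_iUnion (μ := μ) (f := fun _ => (1 : ℝ)) hm hd
      (integrableOn_const (by simp))
    simpa [hU] using h
  have hle : ∀ i : ι, ∫ x in X ⁻¹' {i}, md μ X Y x ^ 2 ∂μ ≤ 4 * B * μ.real (X ⁻¹' {i}) :=
    fun i => (atom_md hX hY hXY hB i).2.2.2
  have hnn : ∀ i : ι, 0 ≤ ∫ x in X ⁻¹' {i}, md μ X Y x ^ 2 ∂μ := fun i =>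
    integral_nonneg fun x => sq_nonneg _
  have hs2 : Summable fun i : ι => ∫ x in X ⁻¹' {i}, md μ X Y x ^ 2 ∂μ :=
    Summable.of_nonneg_of_le hnn hle (hsum.summable.mul_left (4 * (B : ℝ)))
  have hint : IntegrableOn (fun x => md μ X Y x ^ 2) (⋃ i : ι, X ⁻¹' {i}) μ := by
    refine integrableOn_iUnion_of_summable_integral_norm
      (fun i => (atom_md hX hY hXY hB i).2.2.1) ?_
    refine hs2.congr fun i => ?_
    refine integral_congr_ae (Filter.Eventually.of_forall fun x => ?_)
    simp only [Real.norm_eq_abs, abs_of_nonneg (sq_nonneg (md μ X Y x))]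
  have hi := hasSum_integral_iUnion hm hd hint
  rw [hU] at hint hi
  rw [integrableOn_univ] at hint
  refine ⟨hint, ?_⟩
  rw [Measure.restrict_univ] at hi
  rw [← hi.tsum_eq]
  calc ∑' i : ι, ∫ x in X ⁻¹' {i}, md μ X Y x ^ 2 ∂μ
      ≤ ∑' i : ι, 4 * B * μ.real (X ⁻¹' {i}) :=
        hs2.tsum_le_tsum hle (hsum.summable.mul_left _)
    _ = 4 * B * ∑' i : ι, μ.real (X ⁻¹' {i}) := tsum_mul_left
    _ = 4 * B := by rw [hsum.tsum_eq]; simp

/-- orthogonality to functions of the coarser name -/
theorem md_orth {F : Ω → ℝ} (hF : ∀ x y, X x = X y → F x = F y)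
    (hF2 : Integrable (fun x => F x ^ 2) μ) :
    Integrable (fun x => F x * md μ X Y x) μ ∧ ∫ x, F x * md μ X Y x ∂μ = 0 := by
  classical
  have hm : ∀ i : ι, MeasurableSet (X ⁻¹' {i}) := fun i => hX (measurableSet_singleton i)
  have hd : Pairwise (Function.onFun Disjoint fun i : ι => X ⁻¹' {i}) := by
    intro i j hij
    refine Set.disjoint_left.mpr fun x hx hx' => hij ?_
    have h1 : X x = i := hx
    have h2 : X x = j := hx'
    rw [← h1, ← h2]
  have hU : (⋃ i : ι, X ⁻¹' {i}) = Set.univ := by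
    ext x; simp
  have hFm : Measurable F := by
    have : F = (Function.extend X F 0) ∘ X := by
      funext x
      exact (Function.FactorsThrough.extend_apply (f := X) (g := F)
        (fun a b hab => hF a b hab) 0 x).symm
    rw [this]
    exact (measurable_of_countable _).comp hX
  have hMm : Measurable (md μ X Y) := md_meas hX hY hXY hB
  have hint : Integrable (fun x => F x * md μ X Y x) μ := by
    refine Integrable.mono' (hF2.add (md_sq hX hY hXY hB).1) (hFm.mul hMm).aestronglyMeasurable
      (Filter.Eventually.of_forall fun x => ?_)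
    simp only [Pi.add_apply, Real.norm_eq_abs, abs_mul]
    nlinarith [sq_nonneg (|F x| - |md μ X Y x|), sq_abs (F x), sq_abs (md μ X Y x),
      sq_nonneg (F x), sq_nonneg (md μ X Y x)]
  refine ⟨hint, ?_⟩
  have hi := hasSum_integral_iUnion (μ := μ) (f := fun x => F x * md μ X Y x) hm hd
    (by rw [hU, integrableOn_univ]; exact hint)
  rw [hU, Measure.restrict_univ] at hi
  rw [← hi.tsum_eq]
  have hz : ∀ i : ι, ∫ x in X ⁻¹' {i}, F x * md μ X Y x ∂μ = 0 := by
    intro i
    rcases (X ⁻¹' {i}).eq_empty_or_nonempty with he | ⟨x0, hx0⟩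
    · rw [he]; simp
    · have h1 : Set.EqOn (fun x => F x * md μ X Y x) (fun x => F x0 * md μ X Y x) (X ⁻¹' {i}) := by
        intro x hx
        have hx1 : X x = i := hx
        have hx2 : X x0 = i := hx0
        simp only [hF x x0 (by rw [hx1, hx2])]
      rw [setIntegral_congr_fun (hm i) h1, integral_const_mul,
        (atom_md hX hY hXY hB i).2.1, mul_zero]
  simp [hz]

end step

section chain

variable {μ : Measure Ω} [IsProbabilityMeasure μ] {τ : ℕ → Type*}
  [∀ m, MeasurableSpace (τ m)] [∀ m, MeasurableSingletonClass (τ m)] [∀ m, Countable (τ m)]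
  {X : ∀ m, Ω → τ m} (hX : ∀ m, Measurable (X m))
  (hXX : ∀ m x y, X (m + 1) x = X (m + 1) y → X m x = X m y) {B : ℕ}
  (hB : ∀ m, Mult μ (X m) (X (m + 1)) B)

omit [IsProbabilityMeasure μ] [∀ m, MeasurableSpace (τ m)]
  [∀ m, MeasurableSingletonClass (τ m)] [∀ m, Countable (τ m)] [MeasurableSpace Ω] in
theorem nested_le (hXX : ∀ m x y, X (m + 1) x = X (m + 1) y → X m x = X m y)
    {m n : ℕ} (h : m ≤ n) (x y : Ω) (hxy : X n x = X n y) : X m x = X m y := by
  induction h with
  | refl => exact hxy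
  | step _ ih => exact ih (hXX _ x y hxy)

/-- telescoping -/
theorem sum_inf (N : ℕ) (x : Ω) :
    ∑ m ∈ Finset.range N, inf μ (X m) (X (m + 1)) x = log (am μ (X 0) x) - log (am μ (X N) x) := by
  simp only [inf]
  rw [Finset.sum_range_sub']

include hX hXX hB

/-- **pointwise chain rule**: the sum of the martingale differences is `O(√N)` in `L²` -/
theorem sum_md_sq (N : ℕ) :
    Integrable (fun x => (∑ m ∈ Finset.range N, md μ (X m) (X (m + 1)) x) ^ 2) μ ∧
      ∫ x, (∑ m ∈ Finset.range N, md μ (X m) (X (m + 1)) x) ^ 2 ∂μ ≤ 4 * B * N := by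
  induction N with
  | zero => simp
  | succ N ih =>
    set S : Ω → ℝ := fun x => ∑ m ∈ Finset.range N, md μ (X m) (X (m + 1)) x with hS
    have hSf : ∀ x y, X N x = X N y → S x = S y := by
      intro x y hxy
      refine Finset.sum_congr rfl fun m hm => ?_
      have hm' : m + 1 ≤ N := Finset.mem_range.mp hm
      exact md_factors (hX m) (hX (m + 1)) (hXX m) (hB m) x y (nested_le hXX hm' x y hxy)
    obtain ⟨o1, o2⟩ := md_orth (hX N) (hX (N + 1)) (hXX N) (hB N) hSf ih.1
    obtain ⟨q1, q2⟩ := md_sq (hX N) (hX (N + 1)) (hXX N) (hB N)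
    have e : (fun x => (∑ m ∈ Finset.range (N + 1), md μ (X m) (X (m + 1)) x) ^ 2)
        = fun x => S x ^ 2 + 2 * (S x * md μ (X N) (X (N + 1)) x)
          + md μ (X N) (X (N + 1)) x ^ 2 := by
      funext x
      rw [Finset.sum_range_succ]
      simp only [hS]
      ring
    rw [e]
    have i12 : Integrable (fun x => S x ^ 2 + 2 * (S x * md μ (X N) (X (N + 1)) x)) μ :=
      ih.1.add (o1.const_mul 2)
    refine ⟨i12.add q1, ?_⟩
    rw [integral_add i12 q1, integral_add ih.1 (o1.const_mul 2), integral_const_mul, o2]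
    push_cast
    linarith [ih.2]

/-- Chebyshev form -/
theorem cheb (N : ℕ) {u : ℝ} (hu : 0 < u) :
    μ.real {x | u ≤ |∑ m ∈ Finset.range N, md μ (X m) (X (m + 1)) x|} ≤ 4 * B * N / u ^ 2 := by
  obtain ⟨h1, h2⟩ := sum_md_sq hX hXX hB N
  have h3 := mul_meas_ge_le_integral_of_nonneg
    (Filter.Eventually.of_forall fun x =>
      sq_nonneg (∑ m ∈ Finset.range N, md μ (X m) (X (m + 1)) x)) h1 (u ^ 2)
  rw [le_div_iff₀ (by positivity)]
  have h4 : {x | u ≤ |∑ m ∈ Finset.range N, md μ (X m) (X (m + 1)) x|}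
      ⊆ {x | u ^ 2 ≤ (∑ m ∈ Finset.range N, md μ (X m) (X (m + 1)) x) ^ 2} := by
    intro x hx
    have hx' : u ≤ |∑ m ∈ Finset.range N, md μ (X m) (X (m + 1)) x| := hx
    simp only [Set.mem_ofPred_eq]
    rw [← sq_abs (∑ m ∈ Finset.range N, md μ (X m) (X (m + 1)) x)]
    exact pow_le_pow_left₀ hu.le hx' 2
  have h5 := measureReal_mono (μ := μ) h4
  nlinarith [sq_nonneg u]

/-- **information versus conditional entropies**: outside a set of measure `≤ 4 B N / u²`,
`log (μ(atom₀)/μ(atom_N))` and the sum of the conditional entropies differ by less than `u` -/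
theorem info_entropy (N : ℕ) {u : ℝ} (hu : 0 < u) :
    μ.real {x | u ≤ |log (am μ (X 0) x) - log (am μ (X N) x)
      - ∑ m ∈ Finset.range N, ce μ (X m) (X (m + 1)) x|} ≤ 4 * B * N / u ^ 2 := by
  have h := cheb hX hXX hB N hu
  convert h using 6 with x
  rw [← sum_inf N x, ← Finset.sum_sub_distrib]
  rfl

/-- number of steps of positive conditional entropy -/
theorem count_pos (hB1 : 1 ≤ B) (N : ℕ) (η : ℝ) (hη : 0 ≤ η) (x : Ω) :
    ∑ m ∈ Finset.range N, ce μ (X m) (X (m + 1)) x ≤
      log B * ((Finset.range N).filter fun m => η ≤ ce μ (X m) (X (m + 1)) x).card + η * N := by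
  classical
  calc ∑ m ∈ Finset.range N, ce μ (X m) (X (m + 1)) x
      ≤ ∑ m ∈ Finset.range N, ((if η ≤ ce μ (X m) (X (m + 1)) x then log B else 0) + η) := by
        refine Finset.sum_le_sum fun m _ => ?_
        have h1 := (atom_ce_le (hX m) (hX (m + 1)) (hXX m) (hB m) hB1 x).2
        split_ifs with h
        · linarith
        · rw [not_le] at h
          linarith
    _ = log B * ((Finset.range N).filter fun m => η ≤ ce μ (X m) (X (m + 1)) x).card
        + η * N := by
        rw [Finset.sum_add_distrib, Finset.sum_const, Finset.card_range, nsmul_eq_mul,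
          ← Finset.sum_filter, Finset.sum_const, nsmul_eq_mul]
        ring

end chain

end Crest.Agent.R014.Mart_715
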