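import Crest.Prelude.Def_TorusPacket

/-!
Row 14, leaf MODSPACE (helper667), part 1: the space `ModSpace n = SL_n(ℤ)\SL_n(ℝ)`:
quotient map `q`, action, Hausdorff, locally compact, second countable.
-/

set_option autoImplicit false

open MeasureTheory Filter Topology
open Crest.NumberTheoryR.Packets

namespace Crest.Agent.R014.Ms_667

variable {n : ℕ}

/-- The quotient map `g ↦ Γ g`. -/
def q (g : SLR n) : ModSpace n := Quotient.mk _ g

lemma q_surjective : Function.Surjective (q (n := n)) := fun x => Quotient.exists_rep x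

lemma q_eq_iff {g h : SLR n} : q g = q h ↔ h * g⁻¹ ∈ intPoints n := by
  unfold q
  rw [Quotient.eq]
  exact QuotientGroup.rightRel_apply

lemma q_eq_iff' {g h : SLR n} : q g = q h ↔ ∃ γ ∈ intPoints n, h = γ * g := by
  rw [q_eq_iff]
  constructor
  · intro H
    exact ⟨h * g⁻¹, H, by group⟩
  · rintro ⟨γ, hγ, rfl⟩
    simpa using hγ

lemma q_mul_left {γ : SLR n} (hγ : γ ∈ intPoints n) (g : SLR n) : q (γ * g) = q g :=
  (q_eq_iff'.2 ⟨γ, hγ, rfl⟩).symm

@[simp] lemma act_q (g h : SLR n) : act (q g) h = q (g * h) := rfl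

@[simp] lemma act_one (x : ModSpace n) : act x 1 = x := by
  obtain ⟨g, rfl⟩ := q_surjective x
  rw [act_q, mul_one]

lemma act_act (x : ModSpace n) (g h : SLR n) : act (act x g) h = act x (g * h) := by
  obtain ⟨a, rfl⟩ := q_surjective x
  rw [act_q, act_q, act_q, mul_assoc]

lemma continuous_q : Continuous (q (n := n)) := continuous_quotient_mk'

lemma isOpenMap_q : IsOpenMap (q (n := n)) := by
  intro U hU
  have : IsOpen (q ⁻¹' (q '' U)) := by
    have h : q ⁻¹' (q '' U) = ⋃ γ ∈ (intPoints n : Set (SLR n)), (fun g => γ * g) '' U := by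
      ext g
      simp only [Set.mem_preimage, Set.mem_image, Set.mem_iUnion, SetLike.mem_coe, exists_prop]
      constructor
      · rintro ⟨u, hu, h⟩
        obtain ⟨γ, hγ, rfl⟩ := q_eq_iff'.1 h
        exact ⟨γ, hγ, u, hu, rfl⟩
      · rintro ⟨γ, hγ, u, hu, rfl⟩
        exact ⟨u, hu, (q_mul_left hγ u).symm⟩
    rw [h]
    exact isOpen_biUnion fun γ _ => (Homeomorph.mulLeft γ).isOpenMap U hU
  exact isQuotientMap_quotient_mk'.isOpen_preimage.1 this

lemma isOpenQuotientMap_q : IsOpenQuotientMap (q (n := n)) :=
  ⟨q_surjective, continuous_q, isOpenMap_q⟩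

/-- membership in `SL_n(ℤ)`: all entries are integers. -/
lemma mem_intPoints {g : SLR n} : g ∈ intPoints n ↔ ∀ i j, ∃ z : ℤ, (z : ℝ) = g.1 i j := by
  constructor
  · rintro ⟨γ, rfl⟩ i j
    exact ⟨γ.1 i j, rfl⟩
  · intro h
    choose z hz using h
    have hmat : (Matrix.of z).map (Int.castRingHom ℝ) = g.1 := by
      ext i j
      simp [hz]
    have hdet : (Matrix.of z).det = 1 := by
      have h1 : ((Matrix.of z).map (Int.castRingHom ℝ)).det = 1 := by rw [hmat]; exact g.2
      have h2 : (((Matrix.of z).det : ℤ) : ℝ) = 1 := by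
        rw [← h1]
        exact (RingHom.map_det (Int.castRingHom ℝ) (Matrix.of z))
      exact_mod_cast h2
    refine ⟨⟨Matrix.of z, hdet⟩, ?_⟩
    apply Subtype.ext
    rw [← hmat]
    rfl

lemma isClosed_intPoints : IsClosed (intPoints n : Set (SLR n)) := by
  have h : (intPoints n : Set (SLR n)) =
      ⋂ i, ⋂ j, (fun g : SLR n => g.1 i j) ⁻¹' (Set.range ((↑) : ℤ → ℝ)) := by
    ext g
    simp only [SetLike.mem_coe, mem_intPoints, Set.mem_iInter, Set.mem_preimage, Set.mem_range]
  rw [h]
  refine isClosed_iInter fun i => isClosed_iInter fun j => ?_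
  refine IsClosed.preimage ?_ Int.isClosedEmbedding_coe_real.isClosed_range
  exact (continuous_apply j).comp ((continuous_apply i).comp continuous_subtype_val)

instance instLocallyCompactSLR : LocallyCompactSpace (SLR n) :=
  haveI : LocallyCompactSpace (Matrix (Fin n) (Fin n) ℝ) :=
    inferInstanceAs (LocallyCompactSpace (Fin n → Fin n → ℝ))
  (Matrix.SpecialLinearGroup.isClosedEmbedding_val (n := Fin n) (R := ℝ)).locallyCompactSpace

instance instSecondCountableSLR : SecondCountableTopology (SLR n) :=
  haveI : SecondCountableTopology (Matrix (Fin n) (Fin n) ℝ) :=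
    inferInstanceAs (SecondCountableTopology (Fin n → Fin n → ℝ))
  (Matrix.SpecialLinearGroup.isClosedEmbedding_val (n := Fin n) (R := ℝ)).isEmbedding.secondCountableTopology

instance instT2SLR : T2Space (SLR n) :=
  (Matrix.SpecialLinearGroup.isClosedEmbedding_val (n := Fin n) (R := ℝ)).isEmbedding.t2Space

instance instT2 : T2Space (ModSpace n) := by
  rw [t2Space_iff_of_isOpenQuotientMap isOpenQuotientMap_q]
  have h : {p : SLR n × SLR n | q p.1 = q p.2} =
      (fun p : SLR n × SLR n => p.2 * p.1⁻¹) ⁻¹' (intPoints n : Set (SLR n)) := by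
    ext p
    simp only [Set.mem_ofPred_eq, Set.mem_preimage, SetLike.mem_coe, q_eq_iff]
  rw [h]
  exact isClosed_intPoints.preimage (by fun_prop)

instance instLocallyCompact : LocallyCompactSpace (ModSpace n) :=
  isOpenQuotientMap_q.locallyCompactSpace

instance instSecondCountable : SecondCountableTopology (ModSpace n) :=
  isOpenQuotientMap_q.isQuotientMap.secondCountableTopology isOpenMap_q

lemma continuous_act : Continuous fun p : ModSpace n × SLR n => act p.1 p.2 := by
  have h : IsOpenQuotientMap (Prod.map (q (n := n)) (id : SLR n → SLR n)) :=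
    isOpenQuotientMap_q.prodMap IsOpenQuotientMap.id
  rw [← h.continuous_comp_iff]
  exact continuous_q.comp (continuous_fst.mul continuous_snd)

/-- right translation by `g` as a homeomorphism. -/
def actHomeo (g : SLR n) : ModSpace n ≃ₜ ModSpace n where
  toFun x := act x g
  invFun x := act x g⁻¹
  left_inv x := by
    show act (act x g) g⁻¹ = x
    rw [act_act, mul_inv_cancel, act_one]
  right_inv x := by
    show act (act x g⁻¹) g = x
    rw [act_act, inv_mul_cancel, act_one]
  continuous_toFun := continuous_act.comp (continuous_id.prodMk continuous_const)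
  continuous_invFun := continuous_act.comp (continuous_id.prodMk continuous_const)

@[simp] lemma actHomeo_apply (g : SLR n) (x : ModSpace n) : actHomeo g x = act x g := rfl

lemma measurable_act (g : SLR n) : Measurable fun x : ModSpace n => act x g :=
  (actHomeo g).continuous.measurable

instance instCountable_intPoints : Countable (intPoints n) := by
  have : Countable (Matrix (Fin n) (Fin n) ℤ) :=
    inferInstanceAs (Countable (Fin n → Fin n → ℤ))
  have : Countable (Matrix.SpecialLinearGroup (Fin n) ℤ) :=
    inferInstanceAs (Countable {A : Matrix (Fin n) (Fin n) ℤ // A.det = 1})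
  have : Function.Surjective (fun γ : Matrix.SpecialLinearGroup (Fin n) ℤ =>
      (⟨Matrix.SpecialLinearGroup.map (Int.castRingHom ℝ) γ, ⟨γ, rfl⟩⟩ : intPoints n)) := by
    rintro ⟨g, γ, rfl⟩
    exact ⟨γ, rfl⟩
  exact this.countable

end Crest.Agent.R014.Ms_667
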