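import Crest.Agent.R014.Ms2_667

/-!
Row 14, leaf MODSPACE (helper667), part 3: uniqueness of the right-invariant probability measure
on `ModSpace n`; criterion for `IsHaarProbability` through the lift.
-/

set_option autoImplicit false

open MeasureTheory Filter Topology
open Crest.NumberTheoryR.Packets
open scoped ENNReal

namespace Crest.Agent.R014.Ms_667

variable {n : ℕ}

lemma lift_isMulRightInvariant {ν : Measure (ModSpace n)}
    (h : ∀ g : SLR n, Measure.map (fun x => act x g) ν = ν) :
    (lift ν).IsMulRightInvariant := by
  constructor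
  intro g
  rw [← lift_map_act, h g]

/-- if the lift is right invariant under `g`, then so is `ν`. -/
lemma map_act_eq_of_lift {ν : Measure (ModSpace n)} {g : SLR n}
    (h : (lift ν).map (fun a => a * g) = lift ν) : Measure.map (fun x => act x g) ν = ν := by
  apply lift_injective
  rw [lift_map_act, h]

/-- a right-invariant finite measure on `ModSpace n` lifts to a multiple of the inverse of the
Haar measure. -/
lemma exists_smul_of_invariant {ν : Measure (ModSpace n)} [IsFiniteMeasure ν]
    (h : ∀ g : SLR n, Measure.map (fun x => act x g) ν = ν) :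
    ∃ c : ℝ≥0∞, lift ν = c • (Measure.haar : Measure (SLR n)).inv := by
  have : (lift ν).IsMulRightInvariant := lift_isMulRightInvariant h
  have : (lift ν).inv.IsMulLeftInvariant := inferInstance
  have : IsFiniteMeasureOnCompacts (lift ν).inv := inferInstance
  have key := Measure.isMulLeftInvariant_eq_smul (lift ν).inv (Measure.haar : Measure (SLR n))
  generalize Measure.haarScalarFactor (lift ν).inv (Measure.haar : Measure (SLR n)) = c at key
  refine ⟨(c : ℝ≥0∞), ?_⟩
  calc lift ν = (lift ν).inv.inv := (Measure.inv_inv _).symm
    _ = _ := by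
      rw [key]
      unfold Measure.inv
      rw [Measure.map_smul]
      rfl

/-- **uniqueness of the invariant probability measure.** -/
theorem haarProbability_unique {ν₁ ν₂ : Measure (ModSpace n)} (h₁ : IsHaarProbability ν₁)
    (h₂ : IsHaarProbability ν₂) : ν₁ = ν₂ := by
  have := h₁.1
  have := h₂.1
  obtain ⟨c₁, hc₁⟩ := exists_smul_of_invariant h₁.2
  obtain ⟨c₂, hc₂⟩ := exists_smul_of_invariant h₂.2
  set m := (Measure.haar : Measure (SLR n)).inv
  have e1 : c₁ * m (fund n) = 1 := by
    have := lift_fund ν₁ (E := Set.univ) MeasurableSet.univ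
    rw [Set.preimage_univ, Set.inter_univ, hc₁, measure_univ] at this
    exact this
  have e2 : c₂ * m (fund n) = 1 := by
    have := lift_fund ν₂ (E := Set.univ) MeasurableSet.univ
    rw [Set.preimage_univ, Set.inter_univ, hc₂, measure_univ] at this
    exact this
  have hm0 : m (fund n) ≠ 0 := by
    intro h0
    rw [h0, mul_zero] at e1
    exact zero_ne_one e1
  have hmt : m (fund n) ≠ ⊤ := by
    intro h0
    rw [h0] at e1
    by_cases hc : c₁ = 0
    · rw [hc, zero_mul] at e1
      exact zero_ne_one e1
    · rw [ENNReal.mul_top hc] at e1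
      exact ENNReal.top_ne_one e1
  have hc : c₁ = c₂ := by
    have := e1.trans e2.symm
    exact (ENNReal.mul_left_inj hm0 hmt).1 this
  apply lift_injective
  rw [hc₁, hc₂, hc]

end Crest.Agent.R014.Ms_667
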