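import Crest.Agent.R014.Ms3_667

/-!
Row 14, leaf MODSPACE (helper667), part 4: Mahler's compactness criterion on `ModSpace n`.
-/

set_option autoImplicit false

open MeasureTheory Filter Topology Matrix
open Crest.NumberTheoryR.Packets
open scoped ENNReal

namespace Crest.Agent.R014.Ms_667

variable {n : ℕ}

/-- the real row vector of an integer vector. -/
def rv (v : Fin n → ℤ) : Fin n → ℝ := fun i => (v i : ℝ)

lemma rv_injective : Function.Injective (rv (n := n)) := by
  intro v w h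
  funext i
  have := congrFun h i
  unfold rv at this
  exact_mod_cast this

lemma rv_zero : rv (0 : Fin n → ℤ) = 0 := by
  funext i
  simp [rv]

lemma rv_ne_zero {v : Fin n → ℤ} (hv : v ≠ 0) : rv v ≠ 0 := by
  intro h
  exact hv (rv_injective (h.trans rv_zero.symm))

/-- **Minkowski's theorem on linear forms**, strict version. -/
lemma minkowski_forms (G : Matrix (Fin n) (Fin n) ℝ) (hG : |G.det| = 1) (c : Fin n → ℝ)
    (hc : ∀ i, 0 < c i) (hprod : 1 < ∏ i, c i) :
    ∃ v : Fin n → ℤ, v ≠ 0 ∧ ∀ i, |(rv v ᵥ* G) i| ≤ c i := by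
  classical
  set b := Pi.basisFun ℝ (Fin n) with hb
  set L := (Submodule.span ℤ (Set.range b)).toAddSubgroup with hL
  set f : (Fin n → ℝ) →ₗ[ℝ] (Fin n → ℝ) := Matrix.toLin' Gᵀ with hf
  have hfx : ∀ x, f x = x ᵥ* G := by
    intro x
    rw [hf, Matrix.toLin'_apply, Matrix.mulVec_transpose]
  have hfdet : LinearMap.det f = G.det := by
    rw [hf, LinearMap.det_toLin', Matrix.det_transpose]
  have hfdet0 : LinearMap.det f ≠ 0 := by
    intro h0
    rw [← hfdet, h0] at hG
    simp at hG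
  set box : Set (Fin n → ℝ) := Set.Icc (-c) c with hbox
  have hvol : volume (f ⁻¹' box) = ENNReal.ofReal (∏ i, (2 * c i)) := by
    rw [Measure.addHaar_preimage_linearMap volume hfdet0, hfdet, abs_inv, hG, inv_one,
      ENNReal.ofReal_one, one_mul, hbox, Real.volume_Icc_pi, ENNReal.ofReal_prod_of_nonneg]
    · refine Finset.prod_congr rfl fun i _ => ?_
      congr 1
      simp only [Pi.neg_apply]
      ring
    · intro i _
      have := (hc i).le
      positivity
  have hfund := ZSpan.isAddFundamentalDomain' b (volume : Measure (Fin n → ℝ))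
  have hF1 : volume (ZSpan.fundamentalDomain b) = 1 := by
    rw [ZSpan.volume_fundamentalDomain]
    have : Matrix.of (⇑b) = (1 : Matrix (Fin n) (Fin n) ℝ) := by
      ext i j
      rw [hb]
      simp [Matrix.one_apply, Pi.single_apply, eq_comm]
    rw [this, Matrix.det_one]
    simp
  have hlt : volume (ZSpan.fundamentalDomain b) * 2 ^ Module.finrank ℝ (Fin n → ℝ) <
      volume (f ⁻¹' box) := by
    rw [hF1, hvol, one_mul, Module.finrank_fin_fun, Finset.prod_mul_distrib, Finset.prod_const,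
      Finset.card_univ, Fintype.card_fin]
    rw [show (2 : ℝ≥0∞) ^ n = ENNReal.ofReal ((2 : ℝ) ^ n) by
      rw [ENNReal.ofReal_pow (by norm_num)]; simp]
    rw [ENNReal.ofReal_lt_ofReal_iff]
    · nlinarith [pow_pos (show (0 : ℝ) < 2 by norm_num) n]
    · have := Finset.prod_pos (fun i (_ : i ∈ (Finset.univ : Finset (Fin n))) => hc i)
      positivity
  have hsymm : ∀ x ∈ f ⁻¹' box, -x ∈ f ⁻¹' box := by
    intro x hx
    rw [Set.mem_preimage, hbox, Set.mem_Icc] at hx ⊢
    rw [map_neg]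
    exact ⟨neg_le_neg hx.2, neg_le.1 hx.1⟩
  have hconv : Convex ℝ (f ⁻¹' box) := (convex_Icc _ _).linear_preimage f
  have hcount : Countable ↥(Submodule.span ℤ (Set.range ⇑b)).toAddSubgroup :=
    inferInstanceAs (Countable (Submodule.span ℤ (Set.range b)))
  obtain ⟨x, hx0, hx⟩ := exists_ne_zero_mem_lattice_of_measure_mul_two_pow_lt_measure
    hfund hsymm hconv hlt
  have hxL : (x : Fin n → ℝ) ∈ Submodule.span ℤ (Set.range b) := x.2
  have hint : ∀ i, ∃ z : ℤ, (z : ℝ) = (x : Fin n → ℝ) i := by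
    intro i
    have := (b.mem_span_iff_repr_mem ℤ (x : Fin n → ℝ)).1 hxL i
    obtain ⟨z, hz⟩ := this
    refine ⟨z, ?_⟩
    have e : b.repr (x : Fin n → ℝ) i = (x : Fin n → ℝ) i := Pi.basisFun_repr ℝ (Fin n) _ i
    rw [← e]
    exact hz
  choose z hz using hint
  have hzx : rv z = (x : Fin n → ℝ) := by
    funext i
    exact hz i
  refine ⟨z, ?_, ?_⟩
  · rintro rfl
    apply hx0
    apply Subtype.ext
    rw [← hzx, rv_zero]
    rfl
  · intro i
    rw [hzx, ← hfx]
    rw [Set.mem_preimage, hbox, Set.mem_Icc] at hx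
    rw [abs_le]
    exact ⟨hx.1 i, hx.2 i⟩

/-- a lattice of covolume one without vectors shorter than `ε` has, outside every hyperplane,
a vector of norm at most `R`. -/
lemma exists_vec_outside (n : ℕ) (ε : ℝ) (hε : 0 < ε) : ∃ R : ℝ, 0 < R ∧
    ∀ G : Matrix (Fin n) (Fin n) ℝ, |G.det| = 1 →
      (∀ v : Fin n → ℤ, v ≠ 0 → ε ≤ ‖rv v ᵥ* G‖) →
      ∀ a : Fin n → ℝ, a ≠ 0 → ∃ v : Fin n → ℤ, ‖rv v ᵥ* G‖ ≤ R ∧ a ⬝ᵥ (rv v ᵥ* G) ≠ 0 := by
  classical
  set δ : ℝ := ε / (n + 1) with hδ
  have hn1 : (0 : ℝ) < n + 1 := by positivity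
  have hδ0 : 0 < δ := div_pos hε hn1
  set R' : ℝ := 2 / δ ^ (n - 1) with hR'
  have hR'0 : 0 < R' := by positivity
  refine ⟨R' + n * δ + δ, by positivity, ?_⟩
  intro G hG hshort a ha
  -- the largest coordinate of `a`
  obtain ⟨i₁, hi₁⟩ := Function.ne_iff.1 ha
  have : Nonempty (Fin n) := ⟨i₁⟩
  obtain ⟨i₀, -, hi₀⟩ := Finset.exists_max_image (Finset.univ : Finset (Fin n)) (fun i => |a i|)
    ⟨i₁, Finset.mem_univ _⟩
  have hai₀ : 0 < |a i₀| := lt_of_lt_of_le (abs_pos.2 hi₁) (hi₀ i₁ (Finset.mem_univ _))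
  set a' : Fin n → ℝ := (|a i₀|)⁻¹ • a with ha'
  have ha'i₀ : |a' i₀| = 1 := by
    rw [ha', Pi.smul_apply, smul_eq_mul, abs_mul, abs_inv, abs_abs, inv_mul_cancel₀ hai₀.ne']
  have ha'le : ∀ i, |a' i| ≤ 1 := by
    intro i
    rw [ha', Pi.smul_apply, smul_eq_mul, abs_mul, abs_inv, abs_abs, inv_mul_le_one₀ hai₀]
    exact hi₀ i (Finset.mem_univ _)
  set P : Matrix (Fin n) (Fin n) ℝ := (1 : Matrix (Fin n) (Fin n) ℝ).updateCol i₀ a' with hP
  have hPdet : P.det = a' i₀ := by
    rw [hP, ← Matrix.cramer_apply, Matrix.cramer_one]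
    rfl
  have hGP : |(G * P).det| = 1 := by
    rw [Matrix.det_mul, abs_mul, hG, hPdet, ha'i₀, one_mul]
  set c : Fin n → ℝ := fun i => if i = i₀ then R' else δ with hc
  have hcpos : ∀ i, 0 < c i := by
    intro i
    rw [hc]
    simp only
    split_ifs
    · exact hR'0
    · exact hδ0
  have hcard : (Finset.univ.erase i₀ : Finset (Fin n)).card = n - 1 := by
    rw [Finset.card_erase_of_mem (Finset.mem_univ _), Finset.card_univ, Fintype.card_fin]
  have hcprod : 1 < ∏ i, c i := by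
    rw [← Finset.mul_prod_erase Finset.univ c (Finset.mem_univ i₀)]
    have h1 : ∏ i ∈ Finset.univ.erase i₀, c i = δ ^ (n - 1) := by
      rw [Finset.prod_congr rfl (g := fun _ => δ), Finset.prod_const, hcard]
      intro i hi
      rw [hc]
      simp only
      rw [if_neg (Finset.ne_of_mem_erase hi)]
    have h2 : c i₀ = R' := by
      rw [hc]
      simp
    rw [h1, h2, hR', div_mul_cancel₀ _ (pow_pos hδ0 _).ne']
    norm_num
  obtain ⟨v, hv0, hv⟩ := minkowski_forms (G * P) hGP c hcpos hcprod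
  set y : Fin n → ℝ := rv v ᵥ* G with hy
  have hyP : ∀ i, (rv v ᵥ* (G * P)) i = if i = i₀ then a' ⬝ᵥ y else y i := by
    intro i
    rw [← Matrix.vecMul_vecMul, ← hy]
    rw [hP]
    simp only [Matrix.vecMul, dotProduct, Matrix.updateCol_apply]
    split_ifs with h
    · exact Finset.sum_congr rfl fun j _ => mul_comm _ _
    · simp [Matrix.one_apply]
  have hyi : ∀ i, i ≠ i₀ → |y i| ≤ δ := by
    intro i hi
    have := hv i
    rw [hyP, if_neg hi, hc] at this
    simpa [hi] using this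
  have hya : |a' ⬝ᵥ y| ≤ R' := by
    have := hv i₀
    rw [hyP, if_pos rfl, hc] at this
    simpa using this
  -- bound of the remaining coordinate
  have hsplit : a' ⬝ᵥ y = a' i₀ * y i₀ + ∑ i ∈ Finset.univ.erase i₀, a' i * y i := by
    rw [dotProduct, ← Finset.add_sum_erase Finset.univ (fun i => a' i * y i)
      (Finset.mem_univ i₀)]
  have hrest : |∑ i ∈ Finset.univ.erase i₀, a' i * y i| ≤ n * δ := by
    refine (Finset.abs_sum_le_sum_abs _ _).trans ?_
    calc ∑ i ∈ Finset.univ.erase i₀, |a' i * y i| ≤ ∑ i ∈ Finset.univ.erase i₀, δ := by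
          refine Finset.sum_le_sum fun i hi => ?_
          rw [abs_mul]
          calc |a' i| * |y i| ≤ 1 * δ :=
                mul_le_mul (ha'le i) (hyi i (Finset.ne_of_mem_erase hi)) (abs_nonneg _) zero_le_one
            _ = δ := one_mul _
      _ = (n - 1 : ℕ) * δ := by rw [Finset.sum_const, hcard, nsmul_eq_mul]
      _ ≤ n * δ := by
          have : ((n - 1 : ℕ) : ℝ) ≤ n := by exact_mod_cast Nat.sub_le n 1
          exact mul_le_mul_of_nonneg_right this hδ0.le
  have hyi₀ : |y i₀| ≤ |a' ⬝ᵥ y| + n * δ := by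
    have h1 : |y i₀| = |a' i₀ * y i₀| := by rw [abs_mul, ha'i₀, one_mul]
    rw [h1]
    have h2 : a' i₀ * y i₀ = a' ⬝ᵥ y - ∑ i ∈ Finset.univ.erase i₀, a' i * y i := by
      rw [hsplit]; ring
    rw [h2]
    refine (abs_sub _ _).trans ?_
    linarith
  have hnorm : ‖y‖ ≤ max δ (|a' ⬝ᵥ y| + n * δ) := by
    rw [pi_norm_le_iff_of_nonneg (le_max_of_le_left hδ0.le)]
    intro i
    rw [Real.norm_eq_abs]
    by_cases hi : i = i₀
    · rw [hi]; exact le_max_of_le_right hyi₀
    · exact le_max_of_le_left (hyi i hi)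
  refine ⟨v, ?_, ?_⟩
  · refine hnorm.trans (max_le ?_ ?_)
    · have : 0 ≤ R' + n * δ := by positivity
      linarith
    · linarith
  · intro h0
    have h1 : a' ⬝ᵥ y = 0 := by
      rw [ha', smul_dotProduct, h0, smul_zero]
    rw [h1, abs_zero, zero_add] at hnorm
    have h2 := hshort v hv0
    have h3 : max δ (n * δ) < ε := by
      have h4 : (n + 1) * δ = ε := by
        rw [hδ, mul_div_cancel₀ _ hn1.ne']
      have h5 : (n : ℝ) * δ < ε := by nlinarith
      have h6 : δ < ε := by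
        have hn : (1 : ℝ) ≤ n := by
          have : 0 < n := Fin.pos i₀
          exact_mod_cast this
        nlinarith
      exact max_lt h6 h5
    linarith

/-- a lattice of covolume one without vectors shorter than `ε` has `n` linearly independent
vectors of norm at most `R`. -/
lemma exists_indep_vecs (n : ℕ) (ε : ℝ) (hε : 0 < ε) : ∃ R : ℝ, 0 < R ∧
    ∀ G : Matrix (Fin n) (Fin n) ℝ, |G.det| = 1 →
      (∀ v : Fin n → ℤ, v ≠ 0 → ε ≤ ‖rv v ᵥ* G‖) →
      ∃ N : Matrix (Fin n) (Fin n) ℤ, N.det ≠ 0 ∧ ∀ i, ‖rv (N i) ᵥ* G‖ ≤ R := by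
  classical
  obtain ⟨R, hR, H⟩ := exists_vec_outside n ε hε
  refine ⟨R, hR, ?_⟩
  intro G hG hshort
  set S : Set (Fin n → ℝ) := {x | ∃ v : Fin n → ℤ, x = rv v ∧ ‖rv v ᵥ* G‖ ≤ R} with hS
  have hGdet : G.det ≠ 0 := by
    intro h0
    rw [h0] at hG
    simp at hG
  have hspan : Submodule.span ℝ S = ⊤ := by
    by_contra hne
    obtain ⟨f, hf0, hf⟩ := Submodule.exists_le_ker_of_lt_top _ (lt_top_iff_ne_top.2 hne)
    -- write `f x = ∑ w_i x_i`
    set w : Fin n → ℝ := fun i => f (fun j => if i = j then 1 else 0) with hw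
    have hfw : ∀ x, f x = x ⬝ᵥ w := by
      intro x
      rw [LinearMap.pi_apply_eq_sum_univ f x]
      rfl
    have hwne : w ≠ 0 := by
      intro h0
      apply hf0
      refine LinearMap.ext fun x => ?_
      rw [hfw, h0]
      simp
    set a : Fin n → ℝ := G⁻¹ *ᵥ w with ha
    have hGa : G *ᵥ a = w := by
      rw [ha, Matrix.mulVec_mulVec, Matrix.mul_nonsing_inv _ (isUnit_iff_ne_zero.2 hGdet),
        Matrix.one_mulVec]
    have hane : a ≠ 0 := by
      intro h0
      apply hwne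
      rw [← hGa, h0, Matrix.mulVec_zero]
    obtain ⟨v, hvR, hva⟩ := H G hG hshort a hane
    apply hva
    have h1 : rv v ∈ Submodule.span ℝ S := Submodule.subset_span ⟨v, rfl, hvR⟩
    have h2 : f (rv v) = 0 := hf h1
    rw [dotProduct_comm, ← Matrix.dotProduct_mulVec, hGa, ← hfw]
    exact h2
  obtain ⟨b, hbS, hbspan, hbli⟩ := exists_linearIndependent ℝ S
  rw [hspan] at hbspan
  set B : Module.Basis b ℝ (Fin n → ℝ) := Module.Basis.mk hbli (by
    rw [Subtype.range_coe_subtype, Set.ofPred_mem_eq, hbspan]) with hB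
  have : Fintype b := FiniteDimensional.fintypeBasisIndex B
  have hcard : Fintype.card b = n := by
    rw [← Module.finrank_eq_card_basis B, Module.finrank_fin_fun]
  set e : Fin n ≃ b := (Fintype.equivFinOfCardEq hcard).symm with he
  have hch : ∀ i : Fin n, ∃ v : Fin n → ℤ, ((e i : b) : Fin n → ℝ) = rv v ∧
      ‖rv v ᵥ* G‖ ≤ R := fun i => hbS (e i).2
  choose N hN hNR using hch
  refine ⟨Matrix.of N, ?_, fun i => hNR i⟩
  intro hdet
  have hli : LinearIndependent ℝ (fun i : Fin n => rv (N i)) := by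
    have h1 : LinearIndependent ℝ (fun i : Fin n => ((e i : b) : Fin n → ℝ)) :=
      hbli.comp e e.injective
    have h2 : (fun i : Fin n => ((e i : b) : Fin n → ℝ)) = fun i => rv (N i) := by
      funext i
      exact hN i
    rw [h2] at h1
    exact h1
  have hdet2 : ((Matrix.of N).map (Int.castRingHom ℝ)).det ≠ 0 := by
    have h3 : LinearIndependent ℝ ((Matrix.of N).map (Int.castRingHom ℝ)).row := hli
    rw [Matrix.linearIndependent_rows_iff_isUnit] at h3
    exact ((Matrix.isUnit_iff_isUnit_det _).1 h3).ne_zero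
  apply hdet2
  have h4 := (RingHom.map_det (Int.castRingHom ℝ) (Matrix.of N)).symm
  rw [hdet] at h4
  rw [map_zero] at h4
  exact h4

end Crest.Agent.R014.Ms_667
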