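import Mathlib

/-!
# Theorem N1, finite group part (row 14)

`fx H y` = number of fixed points of `y` on `Γ ⧸ H`, `th ν x = ∑ g, ν (g x g⁻¹)`.
-/

namespace Crest.Agent.R014.N1G_202

open Finset

section General

variable {Γ : Type*} [Group Γ] [Fintype Γ]

/-- number of fixed points of `y` on `Γ ⧸ H` -/
noncomputable def fx (H : Subgroup Γ) (y : Γ) : ℕ := Nat.card (MulAction.fixedBy (Γ ⧸ H) y)

omit [Fintype Γ] in
lemma mem_fixedBy_mk {H : Subgroup Γ} {y g : Γ} :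
    (QuotientGroup.mk g : Γ ⧸ H) ∈ MulAction.fixedBy (Γ ⧸ H) y ↔ g⁻¹ * y * g ∈ H := by
  rw [MulAction.mem_fixedBy]
  have h1 : y • (QuotientGroup.mk g : Γ ⧸ H) = QuotientGroup.mk (y * g) := rfl
  rw [h1, eq_comm, QuotientGroup.eq, mul_assoc]

omit [Fintype Γ] in
lemma fx_mul_card (H : Subgroup Γ) (y : Γ) :
    fx H y * Nat.card H = Nat.card {g : Γ // g⁻¹ * y * g ∈ H} := by
  classical
  have e : {g : Γ // g⁻¹ * y * g ∈ H} ≃ (MulAction.fixedBy (Γ ⧸ H) y) × H := by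
    refine (Equiv.subtypeEquiv (Subgroup.groupEquivQuotientProdSubgroup (s := H))
      (q := fun z => z.1 ∈ MulAction.fixedBy (Γ ⧸ H) y) ?_).trans
      (Equiv.prodSubtypeFstEquivSubtypeProd (p := fun z => z ∈ MulAction.fixedBy (Γ ⧸ H) y))
    intro g
    have : (Subgroup.groupEquivQuotientProdSubgroup (s := H) g).1 = QuotientGroup.mk g := by
      rfl
    rw [this, mem_fixedBy_mk]
  rw [Nat.card_congr e, Nat.card_prod]
  rfl

/-- class sums of a weight -/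
noncomputable def th (ν : Γ → ℝ) (x : Γ) : ℝ := ∑ g : Γ, ν (g * x * g⁻¹)

lemma th_conj (ν : Γ → ℝ) (x h : Γ) : th ν (h * x * h⁻¹) = th ν x := by
  unfold th
  refine Fintype.sum_equiv (Equiv.mulRight h) _ _ ?_
  intro g
  simp [mul_assoc]

lemma th_nonneg {ν : Γ → ℝ} (h : ∀ x, 0 ≤ ν x) (x : Γ) : 0 ≤ th ν x :=
  Finset.sum_nonneg fun _ _ => h _

open scoped Classical in
/-- averages of class functions -/
lemma sum_class {ν : Γ → ℝ} {φ : Γ → ℂ} (hφ : ∀ g x, φ (g * x * g⁻¹) = φ x) (H : Subgroup Γ) :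
    (∑ y, (ν y : ℂ) * φ y * (fx H y : ℂ)) * (Nat.card H : ℂ) =
      ∑ x with x ∈ H, φ x * (th ν x : ℂ) := by
  have h1 : (∑ y, (ν y : ℂ) * φ y * (fx H y : ℂ)) * (Nat.card H : ℂ) =
      ∑ y, ∑ g : Γ, if g⁻¹ * y * g ∈ H then (ν y : ℂ) * φ y else 0 := by
    rw [Finset.sum_mul]
    refine Finset.sum_congr rfl fun y _ => ?_
    rw [mul_assoc, ← Nat.cast_mul, fx_mul_card, Nat.card_eq_fintype_card, Fintype.card_subtype,
      Finset.sum_ite, Finset.sum_const_zero, add_zero, Finset.sum_const, nsmul_eq_mul, mul_comm]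
  rw [h1, Finset.sum_comm]
  have h2 : ∀ g : Γ, (∑ y, if g⁻¹ * y * g ∈ H then (ν y : ℂ) * φ y else 0) =
      ∑ x, if x ∈ H then (ν (g * x * g⁻¹) : ℂ) * φ x else 0 := by
    intro g
    refine Fintype.sum_equiv ((MulAut.conj g⁻¹).toEquiv) _ _ ?_
    intro y
    have h3 : (MulAut.conj g⁻¹).toEquiv y = g⁻¹ * y * g := by simp
    rw [h3]
    have h4 : g * (g⁻¹ * y * g) * g⁻¹ = y := by group
    rw [h4]
    by_cases hy : g⁻¹ * y * g ∈ H
    · rw [if_pos hy, if_pos hy]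
      congr 1
      have := hφ g⁻¹ y
      rw [inv_inv] at this
      exact this.symm
    · rw [if_neg hy, if_neg hy]
  rw [Finset.sum_congr rfl fun g _ => h2 g, Finset.sum_comm]
  have h5 : ∀ x : Γ, (∑ g : Γ, if x ∈ H then (ν (g * x * g⁻¹) : ℂ) * φ x else 0) =
      if x ∈ H then φ x * (th ν x : ℂ) else 0 := by
    intro x
    by_cases hx : x ∈ H
    · simp only [if_pos hx]
      rw [← Finset.sum_mul, mul_comm]
      congr 1
      unfold th
      push_cast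
      rfl
    · simp [hx]
  rw [Finset.sum_congr rfl fun x _ => h5 x, ← Finset.sum_filter]

open scoped Classical in
lemma sum_class_real {ν : Γ → ℝ} {φ : Γ → ℝ} (hφ : ∀ g x, φ (g * x * g⁻¹) = φ x) (H : Subgroup Γ) :
    (∑ y, ν y * φ y * (fx H y : ℝ)) * (Nat.card H : ℝ) =
      ∑ x with x ∈ H, φ x * th ν x := by
  have := sum_class (ν := ν) (φ := fun x => (φ x : ℂ)) (by intro g x; simp [hφ]) H
  exact_mod_cast this

omit [Fintype Γ] in
lemma fx_top (y : Γ) : fx (⊤ : Subgroup Γ) y = 1 := by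
  unfold fx
  have : Subsingleton (Γ ⧸ (⊤ : Subgroup Γ)) := QuotientGroup.subsingleton_quotient_top
  rw [Nat.card_eq_one_iff_unique]
  refine ⟨inferInstance, ⟨⟨QuotientGroup.mk 1, ?_⟩⟩⟩
  exact Subsingleton.elim _ _

/-- `|Γ| ∑ ν φ = ∑ φ θ` for class functions `φ` -/
lemma sum_mul_class {ν : Γ → ℝ} {φ : Γ → ℝ} (hφ : ∀ g x, φ (g * x * g⁻¹) = φ x) :
    (∑ y, ν y * φ y) * (Fintype.card Γ : ℝ) = ∑ x, φ x * th ν x := by
  have := sum_class_real (ν := ν) hφ (⊤ : Subgroup Γ)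
  simp only [fx_top, Nat.cast_one, mul_one] at this
  rw [Subgroup.card_top, Nat.card_eq_fintype_card] at this
  rw [this]
  simp

end General

section Char

variable {C : Type*} [CommGroup C] [Finite C]

lemma exists_char (c : C) : ∃ ψ : C →* ℂˣ, IsPrimitiveRoot ((ψ c : ℂˣ) : ℂ) (orderOf c) := by
  classical
  have hr : orderOf c ≠ 0 := (orderOf_pos c).ne'
  obtain ⟨ζ, hζ⟩ : ∃ ζ : ℂˣ, IsPrimitiveRoot ζ (orderOf c) :=
    ⟨_, (Complex.isPrimitiveRoot_exp _ hr).isUnit_unit' hr⟩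
  let e : Subgroup.zpowers c ≃* Subgroup.zpowers ζ :=
    mulEquivOfOrderOfEq (g := (⟨c, Subgroup.mem_zpowers c⟩ : Subgroup.zpowers c))
      (g' := (⟨ζ, Subgroup.mem_zpowers ζ⟩ : Subgroup.zpowers ζ))
      (by
        rintro ⟨y, hy⟩
        obtain ⟨k, rfl⟩ := Subgroup.mem_zpowers_iff.1 hy
        exact Subgroup.mem_zpowers_iff.2 ⟨k, rfl⟩)
      (by
        rintro ⟨y, hy⟩
        obtain ⟨k, rfl⟩ := Subgroup.mem_zpowers_iff.1 hy
        exact Subgroup.mem_zpowers_iff.2 ⟨k, rfl⟩)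
      (by rw [Subgroup.orderOf_mk, Subgroup.orderOf_mk, ← hζ.eq_orderOf])
  obtain ⟨ψ, hψ⟩ := MonoidHom.domRestrict_surjective ℂ (Subgroup.zpowers c)
    ((Subgroup.zpowers ζ).subtype.comp e.toMonoidHom)
  refine ⟨ψ, ?_⟩
  have h1 : ψ c = ζ := by
    have h2 := DFunLike.congr_fun hψ (⟨c, Subgroup.mem_zpowers c⟩ : Subgroup.zpowers c)
    have h3 : e ⟨c, Subgroup.mem_zpowers c⟩ = ⟨ζ, Subgroup.mem_zpowers ζ⟩ :=
      mulEquivOfOrderOfEq_apply_gen _ _ _
    simpa [h3] using h2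
  rw [h1]
  exact IsPrimitiveRoot.coe_units_iff.2 hζ

end Char

section Fourier

lemma orth {ζ : ℂ} {r : ℕ} (hζ : IsPrimitiveRoot ζ r) (m : ℤ) :
    ∑ k ∈ range r, (ζ ^ m) ^ k = if (r : ℤ) ∣ m then (r : ℂ) else 0 := by
  split_ifs with h
  · rw [(hζ.zpow_eq_one_iff_dvd m).2 h]
    simp
  · have h1 : ζ ^ m ≠ 1 := fun h' => h ((hζ.zpow_eq_one_iff_dvd m).1 h')
    have h2 : (ζ ^ m) ^ r = 1 := by
      rw [← zpow_natCast, ← zpow_mul, mul_comm, zpow_mul, zpow_natCast, hζ.pow_eq_one, one_zpow]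
    have h3 := geom_sum_mul (ζ ^ m) r
    rw [h2, sub_self] at h3
    exact (mul_eq_zero.1 h3).resolve_right (sub_ne_zero.2 h1)

lemma inversion {ζ : ℂ} {r : ℕ} (hr : 0 < r) (hζ : IsPrimitiveRoot ζ r) (a : ℕ → ℝ)
    (ha : ∀ j, a (j % r) = a j) (m : ℕ) :
    ∑ k ∈ range r, (∑ j ∈ range r, (a j : ℂ) * (ζ ^ k) ^ j) * (ζ ^ (-(m : ℤ))) ^ k =
      r * (a m : ℂ) := by
  have hζ0 : ζ ≠ 0 := hζ.ne_zero hr.ne'
  have h1 : ∀ k ∈ range r, (∑ j ∈ range r, (a j : ℂ) * (ζ ^ k) ^ j) * (ζ ^ (-(m : ℤ))) ^ k =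
      ∑ j ∈ range r, (a j : ℂ) * (ζ ^ ((j : ℤ) - m)) ^ k := by
    intro k _
    rw [Finset.sum_mul]
    refine Finset.sum_congr rfl fun j _ => ?_
    rw [mul_assoc]
    congr 1
    rw [sub_eq_add_neg, zpow_add₀ hζ0, mul_pow, zpow_natCast, ← pow_mul, ← pow_mul, mul_comm k j]
  rw [Finset.sum_congr rfl h1, Finset.sum_comm]
  have h2 : ∀ j ∈ range r, ∑ k ∈ range r, (a j : ℂ) * (ζ ^ ((j : ℤ) - m)) ^ k =
      if j = m % r then (r : ℂ) * (a m : ℂ) else 0 := by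
    intro j hj
    rw [← Finset.mul_sum, orth hζ]
    have hj' : j < r := Finset.mem_range.1 hj
    have h3 : (r : ℤ) ∣ (j : ℤ) - m ↔ j = m % r := by
      constructor
      · intro h
        have h4 := (Nat.modEq_iff_dvd.2 (show (r : ℤ) ∣ (j : ℤ) - m from h))
        have h5 : m % r = j % r := h4
        rw [h5, Nat.mod_eq_of_lt hj']
      · intro h
        refine Nat.modEq_iff_dvd.1 ?_
        show m % r = j % r
        rw [← h, Nat.mod_eq_of_lt hj']
    by_cases h : j = m % r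
    · rw [if_pos (h3.2 h), if_pos h, h, ha, mul_comm]
    · rw [if_neg (fun h' => h (h3.1 h')), if_neg h, mul_zero]
  rw [Finset.sum_congr rfl h2, Finset.sum_ite_eq' (range r) (m % r),
    if_pos (Finset.mem_range.2 (Nat.mod_lt _ hr))]

/-- the two term formula -/
lemma fourier {ζ : ℂ} {r : ℕ} (hr : 0 < r) (hζ : IsPrimitiveRoot ζ r) (a : ℕ → ℝ)
    (ha : ∀ j, a (j % r) = a j) {ε : ℝ} (hε : 0 ≤ ε)
    (h : ∀ k < r, (ζ ^ k) ^ 2 ≠ 1 → ‖∑ j ∈ range r, (a j : ℂ) * (ζ ^ k) ^ j‖ ≤ r * ε)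
    {i : ℕ} (hi : Odd i) :
    |(a 0 + a i) * r - 2 * ∑ j ∈ range r, a j| ≤ 2 * r * (r * ε) := by
  classical
  set T : ℕ → ℂ := fun k => ∑ j ∈ range r, (a j : ℂ) * (ζ ^ k) ^ j with hT
  have hζn : ‖ζ‖ = 1 := hζ.norm'_eq_one hr.ne'
  have h0 := inversion hr hζ a ha 0
  have h1 := inversion hr hζ a ha i
  simp only [Nat.cast_zero, neg_zero, zpow_zero, one_pow, mul_one] at h0
  have hkey : (((a 0 + a i) * r - 2 * ∑ j ∈ range r, a j : ℝ) : ℂ) =
      ∑ k ∈ (range r).erase 0, T k * (1 + (ζ ^ (-(i : ℤ))) ^ k) := by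
    have h2 : ∑ k ∈ range r, T k * (1 + (ζ ^ (-(i : ℤ))) ^ k) = ((a 0 : ℂ) + a i) * r := by
      simp only [mul_add, mul_one, Finset.sum_add_distrib]
      rw [hT, h0, h1]
      ring
    rw [← Finset.add_sum_erase _ _ (Finset.mem_range.2 hr)] at h2
    have h3 : T 0 * (1 + (ζ ^ (-(i : ℤ))) ^ 0) = 2 * ∑ j ∈ range r, (a j : ℂ) := by
      simp only [hT, pow_zero, one_pow, mul_one]
      ring
    rw [h3] at h2
    push_cast
    linear_combination -h2
  have hb : ∀ k ∈ (range r).erase 0, ‖T k * (1 + (ζ ^ (-(i : ℤ))) ^ k)‖ ≤ 2 * (r * ε) := by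
    intro k hk
    have hk0 : k ≠ 0 := (Finset.mem_erase.1 hk).1
    have hkr : k < r := Finset.mem_range.1 (Finset.mem_erase.1 hk).2
    by_cases h2 : (ζ ^ k) ^ 2 = 1
    · have h3 : ζ ^ k = -1 := by
        have h4 : (ζ ^ k - 1) * (ζ ^ k + 1) = 0 := by linear_combination h2
        rcases mul_eq_zero.1 h4 with h5 | h5
        · exact absurd (sub_eq_zero.1 h5) (hζ.pow_ne_one_of_pos_of_lt hk0 hkr)
        · exact eq_neg_of_add_eq_zero_left h5
      have h4 : (ζ ^ (-(i : ℤ))) ^ k = -1 := by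
        rw [← zpow_natCast, ← zpow_mul, mul_comm, zpow_mul, zpow_natCast, h3, zpow_neg,
          zpow_natCast, hi.neg_one_pow]
        norm_num
      rw [h4]
      simp only [add_neg_cancel, mul_zero, norm_zero]
      positivity
    · rw [norm_mul]
      have h3 := h k hkr h2
      have h4 : ‖1 + (ζ ^ (-(i : ℤ))) ^ k‖ ≤ 2 := by
        refine (norm_add_le _ _).trans ?_
        rw [norm_pow, norm_zpow, hζn]
        norm_num
      calc ‖T k‖ * ‖1 + (ζ ^ (-(i : ℤ))) ^ k‖ ≤ (r * ε) * 2 :=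
            mul_le_mul h3 h4 (norm_nonneg _) (by positivity)
        _ = 2 * (r * ε) := by ring
  have h5 : ‖(((a 0 + a i) * r - 2 * ∑ j ∈ range r, a j : ℝ) : ℂ)‖ ≤
      ∑ k ∈ (range r).erase 0, 2 * (r * ε) := by
    rw [hkey]
    exact (norm_sum_le _ _).trans (Finset.sum_le_sum hb)
  rw [Complex.norm_real, Real.norm_eq_abs, Finset.sum_const, nsmul_eq_mul] at h5
  refine h5.trans ?_
  have h6 : (((range r).erase 0).card : ℝ) ≤ r := by
    exact_mod_cast (Finset.card_erase_le.trans (Finset.card_range r).le)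
  have h7 : (0 : ℝ) ≤ 2 * (r * ε) := by positivity
  calc (((range r).erase 0).card : ℝ) * (2 * (r * ε)) ≤ r * (2 * (r * ε)) :=
        mul_le_mul_of_nonneg_right h6 h7
    _ = 2 * r * (r * ε) := by ring

end Fourier

section TwoTerm

variable {Γ A : Type*} [Group Γ] [Fintype Γ] [CommGroup A] [Finite A]

open scoped Classical in
lemma sum_zpowers (x : Γ) (F : Γ → ℂ) :
    ∑ y with y ∈ Subgroup.zpowers x, F y = ∑ j ∈ range (orderOf x), F (x ^ j) := by
  have h1 : (Finset.univ.filter fun y => y ∈ Subgroup.zpowers x) =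
      (range (orderOf x)).image (x ^ ·) := by
    ext y
    simp only [Finset.mem_filter, Finset.mem_univ, true_and, Finset.mem_image, Finset.mem_range]
    rw [mem_zpowers_iff_mem_range_orderOf]
    simp
  rw [h1, Finset.sum_image]
  intro a ha b hb hab
  exact pow_injOn_Iio_orderOf (by simpa using ha) (by simpa using hb) hab

/-- degree one average of `ν` over `Γ ⧸ H` -/
noncomputable def mm (ν : Γ → ℝ) (H : Subgroup Γ) : ℝ := ∑ y, ν y * (fx H y : ℝ)

/-- the two term formula: `θ(1) + θ(g^i) = 2 m(⟨g⟩)` for odd `i` -/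
theorem two_term (π : Γ →* A) (ν : Γ → ℝ) {ε : ℝ} (hε : 0 ≤ ε) (g : Γ)
    (hg : orderOf (π g) = orderOf g)
    (h : ∀ ψ : A →* ℂˣ, (((ψ (π g) : ℂˣ) : ℂ)) ^ 2 ≠ 1 →
      ‖∑ y, (ν y : ℂ) * ((ψ (π y) : ℂˣ) : ℂ) * (fx (Subgroup.zpowers g) y : ℂ)‖ ≤ ε)
    {i : ℕ} (hi : Odd i) :
    |th ν 1 + th ν (g ^ i) - 2 * mm ν (Subgroup.zpowers g)| ≤ 2 * (orderOf g * ε) := by
  classical
  set r := orderOf g with hr
  have hr0 : 0 < r := orderOf_pos g
  have hcard : Nat.card (Subgroup.zpowers g) = r := Nat.card_zpowers g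
  obtain ⟨ψ, hψ⟩ := exists_char (π g)
  rw [hg] at hψ
  have hclass : ∀ (χ : A →* ℂˣ) (x y : Γ), ((χ (π (x * y * x⁻¹)) : ℂˣ) : ℂ) =
      ((χ (π y) : ℂˣ) : ℂ) := by
    intro χ x y
    have h : π (x * y * x⁻¹) = π y := by
      rw [map_mul, map_mul, map_inv, mul_comm (π x), mul_assoc, mul_inv_cancel, mul_one]
    rw [h]
  have h1 : ∀ k < r, (((ψ (π g) : ℂˣ) : ℂ) ^ k) ^ 2 ≠ 1 →
      ‖∑ j ∈ range r, (th ν (g ^ j) : ℂ) * (((ψ (π g) : ℂˣ) : ℂ) ^ k) ^ j‖ ≤ r * ε := by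
    intro k _ hk2
    have h2 := sum_class (ν := ν) (φ := fun y => (((ψ ^ k) (π y) : ℂˣ) : ℂ)) (hclass (ψ ^ k))
      (Subgroup.zpowers g)
    rw [sum_zpowers, hcard] at h2
    have h3 : ∑ j ∈ range (orderOf g), (((ψ ^ k) (π (g ^ j)) : ℂˣ) : ℂ) * (th ν (g ^ j) : ℂ) =
        ∑ j ∈ range r, (th ν (g ^ j) : ℂ) * (((ψ (π g) : ℂˣ) : ℂ) ^ k) ^ j := by
      refine Finset.sum_congr rfl fun j _ => ?_
      rw [map_pow, map_pow, MonoidHom.pow_apply, mul_comm]
      push_cast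
      rfl
    rw [← h3, ← h2, norm_mul, Complex.norm_natCast, mul_comm]
    refine mul_le_mul_of_nonneg_left ?_ (Nat.cast_nonneg _)
    refine h (ψ ^ k) ?_
    rw [MonoidHom.pow_apply]
    push_cast
    exact hk2
  have h4 := fourier hr0 hψ (fun j => th ν (g ^ j)) (fun j => by rw [hr, pow_mod_orderOf]) hε h1 hi
  have h5 : ∑ j ∈ range r, th ν (g ^ j) = mm ν (Subgroup.zpowers g) * r := by
    have h6 := sum_class (ν := ν) (φ := fun _ => (1 : ℂ)) (fun _ _ => rfl) (Subgroup.zpowers g)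
    rw [sum_zpowers, hcard] at h6
    simp only [mul_one, one_mul] at h6
    have h7 : ((∑ j ∈ range r, th ν (g ^ j) : ℝ) : ℂ) =
        ((mm ν (Subgroup.zpowers g) * r : ℝ) : ℂ) := by
      unfold mm
      push_cast
      exact h6.symm
    exact_mod_cast h7
  simp only [pow_zero] at h4
  rw [h5] at h4
  have hr' : (0 : ℝ) < r := by exact_mod_cast hr0
  have h8 : (th ν 1 + th ν (g ^ i)) * (r : ℝ) - 2 * (mm ν (Subgroup.zpowers g) * r) =
      r * (th ν 1 + th ν (g ^ i) - 2 * mm ν (Subgroup.zpowers g)) := by ring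
  rw [h8, abs_mul, abs_of_pos hr'] at h4
  have h9 : 2 * (r : ℝ) * (r * ε) = r * (2 * (r * ε)) := by ring
  rw [h9] at h4
  exact le_of_mul_le_mul_left h4 hr'

end TwoTerm

section Symm

variable {Γ A : Type*} [Group Γ] [Fintype Γ] [CommGroup A] [Finite A]

/-- symmetrised weight -/
noncomputable def sy (ν : Γ → ℝ) (x : Γ) : ℝ := (ν x + ν x⁻¹) / 2

omit [Fintype Γ] in
lemma sy_nonneg {ν : Γ → ℝ} (h : ∀ x, 0 ≤ ν x) (x : Γ) : 0 ≤ sy ν x := by
  have h1 := h x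
  have h2 := h x⁻¹
  unfold sy
  positivity

omit [Fintype Γ] in
lemma fx_inv (H : Subgroup Γ) (y : Γ) : fx H y⁻¹ = fx H y := by
  unfold fx
  congr 2
  ext z
  simp only [MulAction.mem_fixedBy]
  constructor
  · intro h
    conv_lhs => rw [← h, smul_inv_smul]
  · intro h
    conv_lhs => rw [← h, inv_smul_smul]

lemma sum_sy (ν : Γ → ℝ) (φ : Γ → ℝ) (h : ∀ x, φ x⁻¹ = φ x) :
    ∑ y, sy ν y * φ y = ∑ y, ν y * φ y := by
  have h1 : ∑ y, ν y⁻¹ * φ y = ∑ y, ν y * φ y := by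
    refine Fintype.sum_equiv (Equiv.inv Γ) _ _ fun y => ?_
    simp [h]
  unfold sy
  have h2 : ∀ y, (ν y + ν y⁻¹) / 2 * φ y = (ν y * φ y) / 2 + (ν y⁻¹ * φ y) / 2 := by
    intro y; ring
  rw [Finset.sum_congr rfl fun y _ => h2 y, Finset.sum_add_distrib, ← Finset.sum_div,
    ← Finset.sum_div, h1]
  ring

lemma mm_sy (ν : Γ → ℝ) (H : Subgroup Γ) : mm (sy ν) H = mm ν H :=
  sum_sy ν (fun y => (fx H y : ℝ)) fun x => by rw [fx_inv]

lemma star_char (ψ : A →* ℂˣ) (a : A) : ((ψ a⁻¹ : ℂˣ) : ℂ) = starRingEnd ℂ ((ψ a : ℂˣ) : ℂ) := by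
  have h1 : ((ψ a : ℂˣ) : ℂ) ^ (Nat.card A) = 1 := by
    rw [← Units.val_pow_eq_pow_val, ← map_pow, pow_card_eq_one', map_one, Units.val_one]
  have h2 : ‖((ψ a : ℂˣ) : ℂ)‖ = 1 := Complex.norm_eq_one_of_pow_eq_one h1 Nat.card_pos.ne'
  rw [map_inv, Units.val_inv_eq_inv_val, Complex.inv_eq_conj h2]

lemma sum_sy_char (π : Γ →* A) (ν : Γ → ℝ) (H : Subgroup Γ) (ψ : A →* ℂˣ) :
    ∑ y, (sy ν y : ℂ) * ((ψ (π y) : ℂˣ) : ℂ) * (fx H y : ℂ) =
      ((∑ y, (ν y : ℂ) * ((ψ (π y) : ℂˣ) : ℂ) * (fx H y : ℂ)).re : ℂ) := by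
  have h1 : ∑ y, (ν y⁻¹ : ℂ) * ((ψ (π y) : ℂˣ) : ℂ) * (fx H y : ℂ) =
      starRingEnd ℂ (∑ y, (ν y : ℂ) * ((ψ (π y) : ℂˣ) : ℂ) * (fx H y : ℂ)) := by
    rw [map_sum]
    refine Fintype.sum_equiv (Equiv.inv Γ) _ _ fun y => ?_
    simp only [Equiv.inv_apply, map_mul, Complex.conj_ofReal, map_natCast, fx_inv, map_inv π]
    rw [← star_char, inv_inv]
  have h2 : ∑ y, (sy ν y : ℂ) * ((ψ (π y) : ℂˣ) : ℂ) * (fx H y : ℂ) =
      (∑ y, (ν y : ℂ) * ((ψ (π y) : ℂˣ) : ℂ) * (fx H y : ℂ) +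
        ∑ y, (ν y⁻¹ : ℂ) * ((ψ (π y) : ℂˣ) : ℂ) * (fx H y : ℂ)) / 2 := by
    rw [← Finset.sum_add_distrib, Finset.sum_div]
    refine Finset.sum_congr rfl fun y _ => ?_
    unfold sy
    push_cast
    ring
  rw [h2, h1, Complex.add_conj]
  push_cast
  ring

end Symm

section Main

variable {Γ A Ω : Type*} [Group Γ] [Fintype Γ] [CommGroup A] [Finite A] [MulAction Γ Ω]
  [Finite Ω]

/-- number of fixed points on `Ω` -/
noncomputable def fo (Ω : Type*) [MulAction Γ Ω] (y : Γ) : ℕ := Nat.card (MulAction.fixedBy Ω y)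

omit [Fintype Γ] [Finite Ω] in
lemma fo_conj (g x : Γ) : fo Ω (g * x * g⁻¹) = fo Ω x := by
  unfold fo
  refine Nat.card_congr ((MulAction.toPerm g⁻¹).subtypeEquiv ?_)
  intro a
  show a ∈ MulAction.fixedBy Ω (g * x * g⁻¹) ↔ g⁻¹ • a ∈ MulAction.fixedBy Ω x
  simp only [MulAction.mem_fixedBy, mul_smul]
  exact smul_eq_iff_eq_inv_smul g

omit [Fintype Γ] [Finite Ω] in
lemma fo_inv (y : Γ) : fo Ω y⁻¹ = fo Ω y := by
  unfold fo
  congr 2
  ext z
  simp only [MulAction.mem_fixedBy]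
  constructor
  · intro h
    conv_lhs => rw [← h, smul_inv_smul]
  · intro h
    conv_lhs => rw [← h, inv_smul_smul]

omit [Finite Ω] in
/-- `θ` is small on elements with a fixed point -/
lemma th_le {ν : Γ → ℝ} (hν : ∀ x, 0 ≤ ν x) {ε : ℝ}
    (h4 : ∑ y, ν y * (fo Ω y : ℝ) ≤ ε) {x : Γ} (hx : 1 ≤ fo Ω x) :
    th ν x ≤ Fintype.card Γ * ε := by
  have h1 := sum_mul_class (ν := ν) (φ := fun y => (fo Ω y : ℝ)) (fun g y => by rw [fo_conj])
  have h2 : (fo Ω x : ℝ) * th ν x ≤ ∑ y, (fo Ω y : ℝ) * th ν y :=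
    Finset.single_le_sum (f := fun y => (fo Ω y : ℝ) * th ν y)
      (fun y _ => mul_nonneg (Nat.cast_nonneg _) (th_nonneg hν y)) (Finset.mem_univ x)
  have h3 : th ν x ≤ (fo Ω x : ℝ) * th ν x := by
    have : (1 : ℝ) ≤ fo Ω x := by exact_mod_cast hx
    exact le_mul_of_one_le_left (th_nonneg hν x) this
  rw [← h1] at h2
  calc th ν x ≤ _ := h3
    _ ≤ _ := h2
    _ ≤ ε * Fintype.card Γ := mul_le_mul_of_nonneg_right h4 (Nat.cast_nonneg _)
    _ = _ := mul_comm _ _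

/-- consequence of the two term formula and of `hK` for the symmetrised weight -/
lemma common (π : Γ →* A) (τ : A) (hord : ∀ g, π g = τ → orderOf g = orderOf τ) (ν : Γ → ℝ)
    (ε : ℝ) (hε : 0 ≤ ε)
    (hc : ∀ g, π g = τ → ∀ ψ : A →* ℂˣ, ((ψ τ : ℂˣ) : ℂ) ^ 2 ≠ 1 →
      |(∑ y, (ν y : ℂ) * ((ψ (π y) : ℂˣ) : ℂ) * (fx (Subgroup.zpowers g) y : ℂ)).re| ≤ ε)
    {g : Γ} (hg : π g = τ) {i : ℕ} (hi : Odd i) :
    |th (sy ν) 1 + th (sy ν) (g ^ i) - 2 * mm ν (Subgroup.zpowers g)| ≤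
      2 * (Fintype.card Γ * ε) := by
  have h1 := two_term π (sy ν) hε g (by rw [hg, hord g hg]) (by
    intro ψ hψ
    rw [sum_sy_char, Complex.norm_real, Real.norm_eq_abs]
    rw [hg] at hψ
    exact hc g hg ψ hψ) hi
  rw [mm_sy] at h1
  refine h1.trans ?_
  have h2 : (orderOf g : ℝ) ≤ Fintype.card Γ := by exact_mod_cast orderOf_le_card_univ
  nlinarith

omit [Finite Ω] in
lemma hK_sy (ν : Γ → ℝ) {ε : ℝ} (hK : ∑ y, ν y * (fo Ω y : ℝ) ≤ ε) :
    ∑ y, sy ν y * (fo Ω y : ℝ) ≤ ε := by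
  rw [sum_sy ν (fun y => (fo Ω y : ℝ)) fun x => by rw [fo_inv]]
  exact hK

omit [Finite A] in
open scoped Classical in
lemma mass_eq (π : Γ →* A) (τ : A) (ν : Γ → ℝ) :
    (∑ y with π y = τ, ν y) * (Fintype.card Γ : ℝ) = ∑ y with π y = τ, th ν y := by
  have h1 := sum_mul_class (ν := ν) (φ := fun y => if π y = τ then (1 : ℝ) else 0) (fun g y => by
    have : π (g * y * g⁻¹) = π y := by
      rw [map_mul, map_mul, map_inv, mul_comm (π g), mul_assoc, mul_inv_cancel, mul_one]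
    rw [this])
  simp only [mul_ite, mul_one, mul_zero, ite_mul, one_mul, zero_mul] at h1
  rw [Finset.sum_filter, Finset.sum_filter, h1]

omit [Fintype Γ] in
/-- a `2`-element has a fixed point on a set of odd cardinality -/
lemma one_le_fo_of_odd (hodd : Odd (Nat.card Ω)) {x : Γ} {k : ℕ} (hx : x ^ 2 ^ k = 1) :
    1 ≤ fo Ω x := by
  have h2 : IsPGroup 2 (Subgroup.zpowers x) := by
    rintro ⟨y, hy⟩
    obtain ⟨m, rfl⟩ := Subgroup.mem_zpowers_iff.1 hy
    refine ⟨k, ?_⟩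
    ext
    show (x ^ m) ^ 2 ^ k = 1
    rw [← zpow_natCast, ← zpow_mul, mul_comm, zpow_mul, zpow_natCast, hx, one_zpow]
  obtain ⟨a, ha⟩ := h2.nonempty_fixed_point_of_prime_not_dvd_card Ω (by
    rw [← even_iff_two_dvd, Nat.not_even_iff_odd]; exact hodd)
  have h3 : x • a = a := ha ⟨x, Subgroup.mem_zpowers x⟩
  have h4 : Nonempty (MulAction.fixedBy Ω x) := ⟨⟨a, h3⟩⟩
  exact Nat.card_pos

open scoped Classical in
/-- **odd degree** -/
theorem contra_odd (hodd : Odd (Nat.card Ω)) (π : Γ →* A) (τ : A)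
    (hord : ∀ g, π g = τ → orderOf g = orderOf τ) (ν : Γ → ℝ) (hν : ∀ x, 0 ≤ ν x)
    (ε : ℝ) (hε : 0 ≤ ε)
    (hc : ∀ g, π g = τ → ∀ ψ : A →* ℂˣ, ((ψ τ : ℂˣ) : ℂ) ^ 2 ≠ 1 →
      |(∑ y, (ν y : ℂ) * ((ψ (π y) : ℂˣ) : ℂ) * (fx (Subgroup.zpowers g) y : ℂ)).re| ≤ ε)
    (hK : ∑ y, ν y * (fo Ω y : ℝ) ≤ ε) :
    ∑ y with π y = τ, ν y ≤ 10 * (Fintype.card Γ * ε) := by
  have hN : (1 : ℝ) ≤ Fintype.card Γ := by exact_mod_cast Fintype.card_pos
  have hs : ∀ x, 0 ≤ sy ν x := sy_nonneg hν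
  have h1 : ∀ g, π g = τ → th (sy ν) g ≤ 5 * (Fintype.card Γ * ε) := by
    intro g hg
    obtain ⟨k, m, hm, hkm⟩ := Nat.exists_eq_two_pow_mul_odd (n := orderOf g) (orderOf_pos g).ne'
    have h2 := common π τ hord ν ε hε hc hg odd_one
    have h3 := common π τ hord ν ε hε hc hg hm
    rw [pow_one] at h2
    have h4 : (g ^ m) ^ 2 ^ k = 1 := by
      rw [← pow_mul, mul_comm, ← hkm, pow_orderOf_eq_one]
    have h5 := th_le hs (hK_sy (Ω := Ω) ν hK) (one_le_fo_of_odd hodd h4)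
    rw [abs_le] at h2 h3
    linarith [h2.1, h2.2, h3.1, h3.2]
  have h2 : (∑ y with π y = τ, sy ν y) * (Fintype.card Γ : ℝ) ≤
      (Fintype.card Γ : ℝ) * (5 * (Fintype.card Γ * ε)) := by
    rw [mass_eq]
    calc ∑ y with π y = τ, th (sy ν) y ≤ ∑ y with π y = τ, 5 * (Fintype.card Γ * ε) :=
          Finset.sum_le_sum fun y hy => h1 y (by simpa using hy)
      _ = ((Finset.univ.filter fun y : Γ => π y = τ).card : ℝ) * (5 * (Fintype.card Γ * ε)) := by
          rw [Finset.sum_const, nsmul_eq_mul]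
      _ ≤ _ := by
          refine mul_le_mul_of_nonneg_right ?_ (by positivity)
          exact_mod_cast Finset.card_le_univ _
  have h3 : ∑ y with π y = τ, sy ν y ≤ 5 * (Fintype.card Γ * ε) := by
    have hN0 : (0 : ℝ) < Fintype.card Γ := by linarith
    rw [mul_comm] at h2
    exact le_of_mul_le_mul_left h2 hN0
  have h4 : ∑ y with π y = τ, ν y / 2 ≤ ∑ y with π y = τ, sy ν y := by
    refine Finset.sum_le_sum fun y _ => ?_
    unfold sy
    linarith [hν y⁻¹]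
  rw [← Finset.sum_div] at h4
  linarith

lemma burnside_two {K : Type*} [Group K] [Fintype K] [MulAction K Ω]
    (hΩ : 3 ≤ Nat.card Ω)
    (h2 : ∀ a b c d : Ω, a ≠ b → c ≠ d → ∃ k : K, k • a = c ∧ k • b = d) :
    ∑ k : K, (fo Ω k : ℝ) = Fintype.card K ∧ ∑ k : K, (fo Ω k : ℝ) ^ 2 = 2 * Fintype.card K := by
  classical
  have : Fintype Ω := Fintype.ofFinite Ω
  have hex : ∀ a : Ω, ∃ b, b ≠ a := by
    intro a
    have : Nontrivial Ω := by
      rw [← Fintype.one_lt_card_iff_nontrivial, ← Nat.card_eq_fintype_card]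
      omega
    exact exists_ne a
  have h1 : ∀ a c : Ω, ∃ k : K, k • a = c := by
    intro a c
    obtain ⟨b, hb⟩ := hex a
    obtain ⟨d, hd⟩ := hex c
    obtain ⟨k, hk, _⟩ := h2 a b c d hb.symm hd.symm
    exact ⟨k, hk⟩
  obtain ⟨a0⟩ : Nonempty Ω := by
    rw [← Finite.card_pos_iff]
    omega
  constructor
  · have h3 := MulAction.sum_card_fixedBy_eq_card_orbits_mul_card_group K Ω
    have h4 : Fintype.card (Quotient (MulAction.orbitRel K Ω)) = 1 := by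
      rw [Fintype.card_eq_one_iff]
      refine ⟨Quotient.mk _ a0, fun y => ?_⟩
      induction y using Quotient.inductionOn with
      | h y => exact Quotient.sound (h1 a0 y)
    rw [h4, one_mul] at h3
    have h5 : ∑ k : K, fo Ω k = Fintype.card K := by
      rw [← h3]
      refine Finset.sum_congr rfl fun k _ => ?_
      unfold fo
      rw [Nat.card_eq_fintype_card]
    exact_mod_cast h5
  · have h3 := MulAction.sum_card_fixedBy_eq_card_orbits_mul_card_group K (Ω × Ω)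
    have h4 : Fintype.card (Quotient (MulAction.orbitRel K (Ω × Ω))) = 2 := by
      obtain ⟨b0, hb0⟩ := hex a0
      have h5 : Fintype.card Bool = 2 := rfl
      rw [← h5]
      refine (Fintype.card_of_bijective (f := fun b : Bool =>
        (if b then Quotient.mk _ (a0, a0) else Quotient.mk _ (a0, b0) :
          Quotient (MulAction.orbitRel K (Ω × Ω)))) ?_).symm
      constructor
      · have hne : (Quotient.mk _ (a0, a0) : Quotient (MulAction.orbitRel K (Ω × Ω))) ≠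
            Quotient.mk _ (a0, b0) := by
          intro h
          obtain ⟨k, hk⟩ := Quotient.exact h
          have h6 : k • a0 = a0 := congrArg Prod.fst hk
          have h7 : k • b0 = a0 := congrArg Prod.snd hk
          exact hb0 (smul_left_cancel k (h7.trans h6.symm))
        intro x y hxy
        cases x <;> cases y <;> simp_all
      · intro y
        induction y using Quotient.inductionOn with
        | h y =>
          obtain ⟨c, d⟩ := y
          by_cases hcd : c = d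
          · refine ⟨true, ?_⟩
            subst hcd
            obtain ⟨k, hk⟩ := h1 c a0
            exact Quotient.sound ⟨k, by simp [hk]⟩
          · refine ⟨false, ?_⟩
            obtain ⟨k, hk, hk'⟩ := h2 c d a0 b0 hcd hb0.symm
            exact Quotient.sound ⟨k, by simp [hk, hk']⟩
    rw [h4] at h3
    have h5 : ∑ k : K, (fo Ω k) ^ 2 = 2 * Fintype.card K := by
      rw [← h3]
      refine Finset.sum_congr rfl fun k _ => ?_
      unfold fo
      rw [sq, ← Nat.card_prod, ← Nat.card_eq_fintype_card]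
      refine Nat.card_congr
        { toFun := fun z => ⟨(z.1.1, z.2.1), Prod.ext z.1.2 z.2.2⟩
          invFun := fun z => (⟨z.1.1, congrArg Prod.fst z.2⟩, ⟨z.1.2, congrArg Prod.snd z.2⟩)
          left_inv := fun z => rfl
          right_inv := fun z => rfl }
    exact_mod_cast h5

omit [Finite A] in
open scoped Classical in
/-- sums over the fibre of `τ` are sums over the kernel -/
lemma sum_fibre (π : Γ →* A) {τ : A} {t : Γ} (ht : π t = τ) (F : Γ → ℝ) :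
    ∑ y with π y = τ, F y = ∑ k : π.ker, F (k * t) := by
  symm
  refine Finset.sum_bij' (i := fun (k : π.ker) _ => (k : Γ) * t)
    (j := fun y hy => (⟨y * t⁻¹, by
      have : π y = τ := by simpa using hy
      rw [MonoidHom.mem_ker, map_mul, map_inv, this, ht, mul_inv_cancel]⟩ : π.ker))
    ?_ ?_ ?_ ?_ ?_
  · rintro ⟨k, hk⟩ _
    have hk' : π k = 1 := hk
    simp [hk', ht]
  · intro y _
    exact Finset.mem_univ _
  · intro k _
    ext
    simp
  · intro y _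
    simp
  · intro k _
    rfl

open scoped Classical in
/-- **2-transitive case** -/
theorem contra_two (hΩ : 3 ≤ Nat.card Ω) (π : Γ →* A) (hπ : Function.Surjective π) (τ : A)
    (h2 : ∀ a b c d : Ω, a ≠ b → c ≠ d → ∃ k : Γ, π k = 1 ∧ k • a = c ∧ k • b = d)
    (t : Γ) (ht : π t = τ) (htr : ∀ a : Ω, t • a = a)
    (hord : ∀ g, π g = τ → orderOf g = orderOf τ) (ν : Γ → ℝ) (hν : ∀ x, 0 ≤ ν x)
    (ε : ℝ) (hε : 0 ≤ ε) (hε1 : ε * (100 * (Fintype.card Γ : ℝ) ^ 2) ≤ 1)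
    (hc : ∀ g, π g = τ → ∀ ψ : A →* ℂˣ, ((ψ τ : ℂˣ) : ℂ) ^ 2 ≠ 1 →
      |(∑ y, (ν y : ℂ) * ((ψ (π y) : ℂˣ) : ℂ) * (fx (Subgroup.zpowers g) y : ℂ)).re| ≤ ε)
    (hK : ∑ y, ν y * (fo Ω y : ℝ) ≤ ε)
    (hm : ∀ g, π g = τ → ∑ y, ν y * (fx (Subgroup.zpowers g) y : ℝ) ≤ 1 + ε)
    (hτ : (1 - ε) / Nat.card A ≤ ∑ y with π y = τ, ν y)
    (hτ' : (1 - ε) / Nat.card A ≤ ∑ y with π y = τ⁻¹, ν y) : False := by
  have hN : (1 : ℝ) ≤ Fintype.card Γ := by exact_mod_cast Fintype.card_pos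
  set N : ℝ := ((Fintype.card Γ : ℕ) : ℝ) with hNdef
  have hs : ∀ x, 0 ≤ sy ν x := sy_nonneg hν
  set D : Finset Γ := Finset.univ.filter fun y => π y = τ with hD
  -- cardinality of the fibre
  have hDker : (D.card : ℝ) = Fintype.card π.ker := by
    have h := sum_fibre π ht (fun _ => (1 : ℝ))
    simpa using h
  have hDA : (D.card : ℝ) * Nat.card A = N := by
    rw [hDker, hNdef]
    have h := Subgroup.card_mul_index π.ker
    rw [Subgroup.index_ker, MonoidHom.range_eq_top.2 hπ, Subgroup.card_top] at h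
    rw [Nat.card_eq_fintype_card (α := Γ), Nat.card_eq_fintype_card (α := π.ker)] at h
    exact_mod_cast h
  have hA0 : (0 : ℝ) < Nat.card A := by exact_mod_cast Nat.card_pos
  have hD0 : (1 : ℝ) ≤ D.card := by
    rw [hDker]
    exact_mod_cast Fintype.card_pos
  have hDN : (D.card : ℝ) ≤ N := by
    rw [hNdef]
    exact Nat.cast_le.2 (Finset.card_le_univ _)
  -- Burnside on the fibre
  have hb := burnside_two (K := π.ker) hΩ (by
    intro a b c d hab hcd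
    obtain ⟨k, hk, hk1, hk2⟩ := h2 a b c d hab hcd
    exact ⟨⟨k, hk⟩, hk1, hk2⟩)
  have hfo : ∀ k : π.ker, fo Ω ((k : Γ) * t) = fo Ω k := by
    intro k
    unfold fo
    congr 2
    ext z
    simp only [MulAction.mem_fixedBy, mul_smul, htr]
    rfl
  have hfo1 : ∑ y ∈ D, (fo Ω y : ℝ) = D.card := by
    rw [hD, sum_fibre π ht (fun y => (fo Ω y : ℝ)), ← hD, hDker, ← hb.1]
    exact Finset.sum_congr rfl fun k _ => by rw [hfo k]
  have hfo2 : ∑ y ∈ D, (fo Ω y : ℝ) ^ 2 = 2 * D.card := by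
    rw [hD, sum_fibre π ht (fun y => (fo Ω y : ℝ) ^ 2), ← hD, hDker, ← hb.2]
    exact Finset.sum_congr rfl fun k _ => by rw [hfo k]
  -- derangements
  set E : Finset Γ := D.filter fun y => fo Ω y = 0 with hE
  have hder : 4 * (E.card : ℝ) + 1 ≤ 2 * D.card := by
    have h3 : ∑ y ∈ D, ((fo Ω y : ℝ) - 2) ^ 2 = 2 * (D.card : ℝ) := by
      have h4 : ∀ y ∈ D, ((fo Ω y : ℝ) - 2) ^ 2 = (fo Ω y : ℝ) ^ 2 - 4 * fo Ω y + 4 := by
        intro y _; ring
      rw [Finset.sum_congr rfl h4, Finset.sum_add_distrib, Finset.sum_sub_distrib,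
        ← Finset.mul_sum, hfo1, hfo2, Finset.sum_const, nsmul_eq_mul]
      ring
    rw [← h3]
    have htD : t ∈ D := by simp [hD, ht]
    have hfot : fo Ω t = Nat.card Ω := by
      unfold fo
      have : MulAction.fixedBy Ω t = Set.univ := by
        ext z; simp [htr]
      rw [this]
      simp
    have htE : t ∉ E := by
      rw [hE, Finset.mem_filter, hfot]
      rintro ⟨_, h⟩
      omega
    have h5 : insert t E ⊆ D := by
      rw [Finset.insert_subset_iff]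
      exact ⟨htD, Finset.filter_subset _ _⟩
    have h6 : ∑ y ∈ insert t E, ((fo Ω y : ℝ) - 2) ^ 2 ≤ ∑ y ∈ D, ((fo Ω y : ℝ) - 2) ^ 2 :=
      Finset.sum_le_sum_of_subset_of_nonneg h5 fun _ _ _ => sq_nonneg _
    rw [Finset.sum_insert htE] at h6
    have h7 : ∑ y ∈ E, ((fo Ω y : ℝ) - 2) ^ 2 = 4 * (E.card : ℝ) := by
      have h8 : ∀ y ∈ E, ((fo Ω y : ℝ) - 2) ^ 2 = 4 := by
        intro y hy
        have : fo Ω y = 0 := (Finset.mem_filter.1 hy).2
        rw [this]; norm_num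
      rw [Finset.sum_congr rfl h8, Finset.sum_const, nsmul_eq_mul, mul_comm]
    have h9 : (1 : ℝ) ≤ ((fo Ω t : ℝ) - 2) ^ 2 := by
      rw [hfot]
      have : (3 : ℝ) ≤ Nat.card Ω := by exact_mod_cast hΩ
      nlinarith
    linarith
  -- upper bounds
  have hup : ∀ y ∈ D, th (sy ν) y ≤ 2 + 4 * (N * ε) := by
    intro y hy
    have hy' : π y = τ := (Finset.mem_filter.1 hy).2
    have h3 := common π τ hord ν ε hε hc hy' odd_one
    rw [pow_one, abs_le] at h3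
    have h4 := hm y hy'
    have h5 : mm ν (Subgroup.zpowers y) ≤ 1 + ε := h4
    have h6 := th_nonneg hs 1
    have h7 : ε ≤ N * ε := le_mul_of_one_le_left hε hN
    linarith [h3.2]
  have hup2 : ∀ y ∈ D, y ∉ E → th (sy ν) y ≤ N * ε := by
    intro y hy hyE
    refine th_le hs (hK_sy (Ω := Ω) ν hK) ?_
    rw [hE, Finset.mem_filter, not_and] at hyE
    exact Nat.one_le_iff_ne_zero.2 (hyE hy)
  have hsum : ∑ y ∈ D, th (sy ν) y ≤ E.card * (2 + 4 * (N * ε)) + D.card * (N * ε) := by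
    have h3 : ∑ y ∈ D, th (sy ν) y ≤
        ∑ y ∈ D, ((if y ∈ E then 2 + 4 * (N * ε) else 0) + N * ε) := by
      refine Finset.sum_le_sum fun y hy => ?_
      by_cases hyE : y ∈ E
      · rw [if_pos hyE]
        have : 0 ≤ N * ε := by positivity
        linarith [hup y hy]
      · rw [if_neg hyE, zero_add]
        exact hup2 y hy hyE
    refine h3.trans (le_of_eq ?_)
    rw [Finset.sum_add_distrib, Finset.sum_const, nsmul_eq_mul, Finset.sum_ite_mem,
      Finset.sum_const, nsmul_eq_mul, Finset.inter_eq_right.2 (Finset.filter_subset _ _)]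
  have hlow : (D.card : ℝ) * (1 - ε) ≤ ∑ y ∈ D, th (sy ν) y := by
    rw [hD, ← mass_eq, ← hD]
    have h3 : ∑ y ∈ D, sy ν y = (∑ y ∈ D, ν y + ∑ y with π y = τ⁻¹, ν y) / 2 := by
      have h4 : ∑ y ∈ D, ν y⁻¹ = ∑ y with π y = τ⁻¹, ν y := by
        refine Finset.sum_bij' (i := fun y _ => y⁻¹) (j := fun y _ => y⁻¹) ?_ ?_ ?_ ?_ ?_
        · intro y hy
          have : π y = τ := (Finset.mem_filter.1 hy).2
          simp [this]
        · intro y hy
          have : π y = τ⁻¹ := (Finset.mem_filter.1 hy).2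
          simp [hD, this]
        · intro y _; simp
        · intro y _; simp
        · intro y _; rfl
      rw [← h4, ← Finset.sum_add_distrib, Finset.sum_div]
      rfl
    have h5 : (1 - ε) / Nat.card A ≤ ∑ y ∈ D, sy ν y := by
      rw [h3]
      linarith
    have h6 : (D.card : ℝ) * (1 - ε) = (1 - ε) / Nat.card A * N := by
      rw [← hDA]
      field_simp
    rw [h6]
    exact mul_le_mul_of_nonneg_right h5 (by linarith)
  have hEc : (E.card : ℝ) ≤ (2 * D.card - 1) / 4 := by linarith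
  have hNε : 0 ≤ N * ε := by positivity
  have h3 : (E.card : ℝ) * (2 + 4 * (N * ε)) ≤ (2 * D.card - 1) / 4 * (2 + 4 * (N * ε)) :=
    mul_le_mul_of_nonneg_right hEc (by positivity)
  have h4 : (D.card : ℝ) * ε ≤ N * ε := mul_le_mul_of_nonneg_right hDN hε
  have h5 : (D.card : ℝ) * (N * ε) ≤ N * (N * ε) := mul_le_mul_of_nonneg_right hDN hNε
  have h6 : N * ε ≤ N * (N * ε) := le_mul_of_one_le_left hNε hN
  have h7 : N * (N * ε) * 100 ≤ 1 := by
    have : N * (N * ε) * 100 = ε * (100 * N ^ 2) := by ring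
    rw [this]; exact hε1
  nlinarith

end Main

end Crest.Agent.R014.N1G_202
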