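import Mathlib
import Crest.Agent.R014.N1G_202

/-!
N1-MAIN (row 14), the field-free core: from bounds for the `L`-values at real points to the
contradiction of 202's `contra_odd` / `contra_two`.  Helper479.
-/

set_option autoImplicit false

namespace Crest.Agent.R014.N1C_479

open Real Finset Crest.Agent.R014.N1G_202

section Core

variable {Γ A Ω : Type*} [Group Γ] [Fintype Γ] [CommGroup A] [Finite A] [MulAction Γ Ω]
  [Finite Ω]

/-- the real part of the character sum -/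
noncomputable def R (pr : Γ →* A) (v : Γ → ℝ) (H : Subgroup Γ) (ψ : A →* ℂˣ) : ℝ :=
  (∑ y, (v y : ℂ) * ((ψ (pr y) : ℂˣ) : ℂ) * (fx H y : ℂ)).re

omit [Finite A] in
theorem R_eq (pr : Γ →* A) (v : Γ → ℝ) (H : Subgroup Γ) (ψ : A →* ℂˣ) :
    R pr v H ψ = ∑ y, v y * (fx H y : ℝ) * ((ψ (pr y) : ℂˣ) : ℂ).re := by
  unfold R
  rw [Complex.re_sum]
  refine Finset.sum_congr rfl fun y _ => ?_
  have : (v y : ℂ) * ((ψ (pr y) : ℂˣ) : ℂ) * (fx H y : ℂ)
      = ((v y * (fx H y : ℝ) : ℝ) : ℂ) * ((ψ (pr y) : ℂˣ) : ℂ) := by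
    push_cast; ring
  rw [this, Complex.re_ofReal_mul]

theorem R_inv (pr : Γ →* A) (v : Γ → ℝ) (H : Subgroup Γ) (ψ : A →* ℂˣ) :
    R pr v H ψ⁻¹ = R pr v H ψ := by
  rw [R_eq, R_eq]
  refine Finset.sum_congr rfl fun y _ => ?_
  have h1 : ((ψ⁻¹ (pr y) : ℂˣ) : ℂ) = starRingEnd ℂ ((ψ (pr y) : ℂˣ) : ℂ) := by
    rw [← star_char]
    simp
  rw [h1, Complex.conj_re]

omit [Finite A] in
theorem R_one (pr : Γ →* A) (v : Γ → ℝ) (H : Subgroup Γ) :
    R pr v H 1 = ∑ y, v y * (fx H y : ℝ) := by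
  rw [R_eq]
  refine Finset.sum_congr rfl fun y _ => ?_
  simp

omit [Finite A] in
theorem R_div (pr : Γ →* A) (v : Γ → ℝ) (H : Subgroup Γ) (ψ : A →* ℂˣ) (l : ℝ) :
    R pr (fun x => v x / l) H ψ = R pr v H ψ / l := by
  rw [R_eq, R_eq, Finset.sum_div]
  refine Finset.sum_congr rfl fun y _ => ?_
  ring

omit [Finite A] in
/-- sum over the powers of a character is nonnegative -/
theorem sum_pow_nonneg (pr : Γ →* A) (v : Γ → ℝ) (hv : ∀ x, 0 ≤ v x) (H : Subgroup Γ)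
    (ψ : A →* ℂˣ) {r : ℕ} (hr : ψ ^ r = 1) :
    0 ≤ ∑ j ∈ range r, R pr v H (ψ ^ j) := by
  have h1 : ∑ j ∈ range r, R pr v H (ψ ^ j)
      = ∑ y, v y * (fx H y : ℝ) * (∑ j ∈ range r, ((ψ (pr y) : ℂˣ) : ℂ) ^ j).re := by
    simp_rw [R_eq]
    rw [Finset.sum_comm]
    refine Finset.sum_congr rfl fun y _ => ?_
    rw [Complex.re_sum, Finset.mul_sum]
    refine Finset.sum_congr rfl fun j _ => ?_
    simp
  rw [h1]
  refine Finset.sum_nonneg fun y _ => ?_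
  refine mul_nonneg (mul_nonneg (hv y) (Nat.cast_nonneg _)) ?_
  set z : ℂ := ((ψ (pr y) : ℂˣ) : ℂ) with hz
  have hzr : z ^ r = 1 := by
    have h2 : (ψ ^ r) (pr y) = 1 := by rw [hr]; rfl
    have h3 : (ψ (pr y)) ^ r = 1 := h2
    rw [hz, ← Units.val_pow_eq_pow_val, h3, Units.val_one]
  by_cases h : z = 1
  · rw [h]; simp
  · have h4 := geom_sum_eq h r
    rw [hzr, sub_self, zero_div] at h4
    rw [h4]; simp

/-- lower bound for `R` at a complex character -/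
theorem R_lower (pr : Γ →* A) (v : Γ → ℝ) (hv : ∀ x, 0 ≤ v x) (H : Subgroup Γ)
    (ψ : A →* ℂˣ) (hψ : ψ ^ 2 ≠ 1) (b c : ℝ) (hb : 0 ≤ b)
    (h1 : R pr v H 1 ≤ c) (hne : ∀ χ : A →* ℂˣ, χ ≠ 1 → R pr v H χ ≤ b) :
    -c - Nat.card A * b ≤ 2 * R pr v H ψ := by
  have hcard : ψ ^ Nat.card A = 1 := by
    ext x
    have : (ψ ^ Nat.card A) x = (ψ x) ^ Nat.card A := rfl
    rw [this, ← map_pow, pow_card_eq_one', map_one]
    rfl
  have hApos : 0 < Nat.card A := Nat.card_pos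
  set r := orderOf ψ with hr
  have hrpos : 0 < r := orderOf_pos_iff.2 (isOfFinOrder_iff_pow_eq_one.2 ⟨_, hApos, hcard⟩)
  have hrle : r ≤ Nat.card A := Nat.le_of_dvd hApos (orderOf_dvd_of_pow_eq_one hcard)
  have hr3 : 3 ≤ r := by
    by_contra hlt
    push Not at hlt
    apply hψ
    apply orderOf_dvd_iff_pow_eq_one.1
    rw [← hr]
    interval_cases r
    · exact one_dvd _
    · exact dvd_rfl
  have hsum := sum_pow_nonneg pr v hv H ψ (pow_orderOf_eq_one ψ)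
  rw [← hr] at hsum
  obtain ⟨k, hk⟩ : ∃ k, r = k + 3 := ⟨r - 3, by omega⟩
  have hpow : ψ ^ (k + 2) = ψ⁻¹ := by
    have h3 := pow_orderOf_eq_one ψ
    rw [← hr, hk] at h3
    refine MonoidHom.ext fun x => ?_
    have h4 : (ψ x) ^ (k + 3) = 1 := by
      have : (ψ ^ (k + 3)) x = (1 : A →* ℂˣ) x := by rw [h3]
      exact this
    have h5 : (ψ x) ^ (k + 2) * ψ x = 1 := by rw [← pow_succ]; exact h4
    exact eq_inv_of_mul_eq_one_left h5
  have h0 : (ψ ^ 0 : A →* ℂˣ) = 1 := pow_zero ψ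
  have h01 : (ψ ^ (0 + 1) : A →* ℂˣ) = ψ := by rw [zero_add]; exact pow_one ψ
  rw [hk, Finset.sum_range_succ, hpow, R_inv, Finset.sum_range_succ', h0] at hsum
  rw [Finset.sum_range_succ', h01] at hsum
  have hmid : ∑ j ∈ range k, R pr v H (ψ ^ (j + 1 + 1)) ≤ k * b := by
    calc ∑ j ∈ range k, R pr v H (ψ ^ (j + 1 + 1)) ≤ ∑ _j ∈ range k, b := by
          refine Finset.sum_le_sum fun j hj => hne _ ?_
          have h5 : j + 1 + 1 < orderOf ψ := by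
            have := Finset.mem_range.1 hj
            omega
          exact pow_ne_one_of_lt_orderOf (x := ψ) (by omega) h5
      _ = k * b := by simp
  have hkb : (k : ℝ) * b ≤ Nat.card A * b := by
    apply mul_le_mul_of_nonneg_right _ hb
    exact_mod_cast (by omega : k ≤ Nat.card A)
  linarith

/-- the field-free data at real points `1 + s` -/
structure Dat (pr : Γ →* A) (τ : A) (V : ℝ → Γ → ℝ) (F : Subgroup Γ → (A →* ℂˣ) → ℝ → ℂ)
    (a e : ℝ) : Prop where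
  hV : ∀ s x, 0 ≤ V s x
  ha : 1 ≤ a
  he : 0 ≤ e
  hne : ∀ H ψ s, s ∈ Set.Ioc (0:ℝ) 1 → F H ψ s ≠ 0
  hE : ∀ H ψ s, s ∈ Set.Ioc (0:ℝ) 1 → |log ‖F H ψ s‖ - R pr (V s) H ψ| ≤ e
  hZ : ∀ H s, s ∈ Set.Ioc (0:ℝ) 1 → ‖F H 1 s‖ ≤ a / s
  hB : ∀ g, pr g = τ → ∀ ψ : A →* ℂˣ, ψ ≠ 1 → ∀ s ∈ Set.Ioc (0:ℝ) 1,
    ‖F (Subgroup.zpowers g) ψ s‖ ≤ a
  hLip : ∀ g, pr g = τ → ∀ ψ : A →* ℂˣ, ψ ≠ 1 → ∀ s ∈ Set.Ioc (0:ℝ) 1, ∀ t ∈ Set.Ioc (0:ℝ) 1,
    ‖F (Subgroup.zpowers g) ψ s - F (Subgroup.zpowers g) ψ t‖ ≤ a * |s - t|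

/-- the total loss -/
noncomputable def W (A : Type*) (a e : ℝ) : ℝ := (Nat.card A + 4) * (e + log a + 1)

variable {pr : Γ →* A} {τ : A} {V : ℝ → Γ → ℝ} {F : Subgroup Γ → (A →* ℂˣ) → ℝ → ℂ} {a e : ℝ}

omit [Finite A] [CommGroup A] in
theorem W_ge (ha : 1 ≤ a) (he : 0 ≤ e) : 4 * (e + log a + 1) ≤ W A a e := by
  unfold W
  have h1 : 0 ≤ log a := log_nonneg ha
  have h2 : (0:ℝ) ≤ Nat.card A := Nat.cast_nonneg _
  nlinarith

/-- the value at a complex character is neither small nor large -/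
theorem Dat.complex (h : Dat pr τ V F a e) {g : Γ} (hg : pr g = τ) {ψ : A →* ℂˣ}
    (hψ : ((ψ τ : ℂˣ) : ℂ) ^ 2 ≠ 1) {s0 : ℝ} (hs0 : 0 < s0) (hs : s0 ≤ exp (-(W A a e))) :
    |R pr (V s0) (Subgroup.zpowers g) ψ| ≤ W A a e := by
  have ha := h.ha
  have he := h.he
  have ha0 : (0:ℝ) < a := by linarith
  have hla : 0 ≤ log a := log_nonneg ha
  have hl2 : log 2 ≤ 1 / 2 + 1 / 4 := by have := Real.log_two_lt_d9; linarith
  have hl20 : 0 ≤ log 2 := log_nonneg (by norm_num)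
  have hNA : (0:ℝ) ≤ Nat.card A := Nat.cast_nonneg _
  set NA : ℝ := (Nat.card A : ℝ) with hNAdef
  set T1 : ℝ := 2 * log a + 2 * log 2 + (NA + 1) * (log a + e) + 2 * e with hT1
  have hT1W : T1 + e ≤ W A a e := by
    unfold W
    rw [← hNAdef, hT1]
    nlinarith
  have hT10 : 0 ≤ T1 := by positivity
  have hψ2 : ψ ^ 2 ≠ 1 := by
    intro h2
    apply hψ
    have h3 : (ψ ^ 2) τ = (1 : A →* ℂˣ) τ := by rw [h2]
    have h4 : (ψ τ) ^ 2 = 1 := h3
    rw [← Units.val_pow_eq_pow_val, h4, Units.val_one]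
  have hψ1 : ψ ≠ 1 := by
    rintro rfl
    apply hψ
    simp
  set s1 : ℝ := exp (-T1) with hs1
  have hs1m : s1 ∈ Set.Ioc (0:ℝ) 1 := ⟨exp_pos _, by rw [hs1, exp_le_one_iff]; linarith⟩
  have hs01 : s0 ≤ s1 := hs.trans (by rw [hs1, exp_le_exp]; linarith)
  have hs0m : s0 ∈ Set.Ioc (0:ℝ) 1 := ⟨hs0, hs01.trans hs1m.2⟩
  set H := Subgroup.zpowers g with hH
  -- upper bounds for R at s1
  have hR1 : R pr (V s1) H 1 ≤ log a + T1 + e := by
    have h1 := (abs_le.mp (h.hE H 1 s1 hs1m)).1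
    have h2 : log ‖F H 1 s1‖ ≤ log (a / s1) :=
      log_le_log (norm_pos_iff.2 (h.hne H 1 s1 hs1m)) (h.hZ H s1 hs1m)
    rw [log_div ha0.ne' hs1m.1.ne', hs1, log_exp] at h2
    rw [← hs1] at h2
    linarith
  have hRne : ∀ χ : A →* ℂˣ, χ ≠ 1 → R pr (V s1) H χ ≤ log a + e := by
    intro χ hχ
    have h1 := (abs_le.mp (h.hE H χ s1 hs1m)).1
    have h2 : log ‖F H χ s1‖ ≤ log a :=
      log_le_log (norm_pos_iff.2 (h.hne H χ s1 hs1m)) (h.hB g hg χ hχ s1 hs1m)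
    linarith
  have hlow := R_lower pr (V s1) (h.hV s1) H ψ hψ2 (log a + e) (log a + T1 + e) (by linarith)
    hR1 hRne
  rw [← hNAdef] at hlow
  -- lower bound for the norm at s1
  have hf1 : 2 * (a * s1) ≤ ‖F H ψ s1‖ := by
    have h1 := (abs_le.mp (h.hE H ψ s1 hs1m)).1
    have hpos : 0 < ‖F H ψ s1‖ := norm_pos_iff.2 (h.hne H ψ s1 hs1m)
    rw [← log_le_log_iff (by have := hs1m.1; positivity) hpos,
      log_mul (by norm_num) (mul_pos ha0 hs1m.1).ne', log_mul ha0.ne' hs1m.1.ne', hs1, log_exp,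
      ← hs1]
    nlinarith
  -- transfer to s0
  have hf0 : a * s1 ≤ ‖F H ψ s0‖ := by
    have h1 := h.hLip g hg ψ hψ1 s1 hs1m s0 hs0m
    have h2 : |s1 - s0| ≤ s1 := by
      rw [abs_le]; constructor <;> linarith
    have h3 : ‖F H ψ s1‖ - ‖F H ψ s0‖ ≤ ‖F H ψ s1 - F H ψ s0‖ := norm_sub_norm_le _ _
    have h4 : a * |s1 - s0| ≤ a * s1 := mul_le_mul_of_nonneg_left h2 ha0.le
    linarith
  have hpos0 : 0 < ‖F H ψ s0‖ := norm_pos_iff.2 (h.hne H ψ s0 hs0m)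
  have hlog0 : log a - T1 ≤ log ‖F H ψ s0‖ := by
    have h1 := log_le_log (mul_pos ha0 hs1m.1) hf0
    rw [log_mul ha0.ne' hs1m.1.ne', hs1, log_exp] at h1
    linarith
  have hlog0' : log ‖F H ψ s0‖ ≤ log a := log_le_log hpos0 (h.hB g hg ψ hψ1 s0 hs0m)
  obtain ⟨h5, h6⟩ := abs_le.mp (h.hE H ψ s0 hs0m)
  have hW4 := W_ge (A := A) ha he
  rw [abs_le]
  constructor
  · linarith
  · linarith

/-- the weight of 202 -/
noncomputable def nu (V : ℝ → Γ → ℝ) (s0 : ℝ) (x : Γ) : ℝ := V s0 x / log (1 / s0)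

theorem Dat.final_hc (h : Dat pr τ V F a e) {s0 : ℝ} (hs0 : 0 < s0) (hs : s0 ≤ exp (-(W A a e)))
    (hl : 0 < log (1 / s0)) :
    ∀ g, pr g = τ → ∀ ψ : A →* ℂˣ, ((ψ τ : ℂˣ) : ℂ) ^ 2 ≠ 1 →
      |(∑ y, (nu V s0 y : ℂ) * ((ψ (pr y) : ℂˣ) : ℂ) *
        (fx (Subgroup.zpowers g) y : ℂ)).re| ≤ W A a e / log (1 / s0) := by
  intro g hg ψ hψ
  have h1 := R_div pr (V s0) (Subgroup.zpowers g) ψ (log (1 / s0))
  have h2 : (∑ y, (nu V s0 y : ℂ) * ((ψ (pr y) : ℂˣ) : ℂ) *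
        (fx (Subgroup.zpowers g) y : ℂ)).re = R pr (V s0) (Subgroup.zpowers g) ψ / log (1 / s0) :=
    h1
  rw [h2, abs_div, abs_of_pos hl]
  exact div_le_div_of_nonneg_right (h.complex hg hψ hs0 hs) hl.le

omit [Group Γ] [Fintype Γ] in
theorem nu_nonneg (hV : ∀ s x, 0 ≤ V s x) {s0 : ℝ} (hl : 0 < log (1 / s0)) (x : Γ) :
    0 ≤ nu V s0 x := div_nonneg (hV _ _) hl.le

omit [Finite A] [CommGroup A] [Finite Ω] in
theorem final_hK {κ s0 : ℝ} (ha : 1 ≤ a) (he : 0 ≤ e) (hs0 : 0 < s0) (hl : 0 < log (1 / s0))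
    (hκ0 : 0 < κ) (hκ : κ ≤ s0) 
    (hK : ∑ y, V s0 y * (fo Ω y : ℝ) ≤ log (κ / s0 + a) + e) :
    ∑ y, nu V s0 y * (fo Ω y : ℝ) ≤ W A a e / log (1 / s0) := by
  have h1 : ∑ y, nu V s0 y * (fo Ω y : ℝ) = (∑ y, V s0 y * (fo Ω y : ℝ)) / log (1 / s0) := by
    rw [Finset.sum_div]
    refine Finset.sum_congr rfl fun y _ => ?_
    unfold nu; ring
  rw [h1]
  apply div_le_div_of_nonneg_right _ hl.le
  refine hK.trans ?_
  have h2 : κ / s0 ≤ 1 := by rw [div_le_one hs0]; exact hκ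
  have h3 : κ / s0 + a ≤ 2 * a := by linarith
  have h4 : log (κ / s0 + a) ≤ log 2 + log a := by
    rw [← log_mul (by norm_num) (by linarith)]
    exact log_le_log (by positivity) h3
  have h5 := W_ge (A := A) ha he
  have hl2 : log 2 ≤ 1 := by have := Real.log_two_lt_d9; linarith
  have hla : 0 ≤ log a := log_nonneg ha
  linarith

omit [Finite A] in
theorem Dat.final_hm (h : Dat pr τ V F a e) {s0 : ℝ} (hs0 : s0 ∈ Set.Ioc (0:ℝ) 1)
    (hl : 0 < log (1 / s0)) (H : Subgroup Γ) :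
    ∑ y, nu V s0 y * (fx H y : ℝ) ≤ 1 + W A a e / log (1 / s0) := by
  have h1 : ∑ y, nu V s0 y * (fx H y : ℝ) = R pr (V s0) H 1 / log (1 / s0) := by
    rw [R_one, Finset.sum_div]
    refine Finset.sum_congr rfl fun y _ => ?_
    unfold nu; ring
  rw [h1]
  have h2 : (1:ℝ) + W A a e / log (1 / s0) = (log (1 / s0) + W A a e) / log (1 / s0) := by
    field_simp
  rw [h2]
  apply div_le_div_of_nonneg_right _ hl.le
  have h3 := (abs_le.mp (h.hE H 1 s0 hs0)).1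
  have ha0 : 0 < a := by linarith [h.ha]
  have h4 : log ‖F H 1 s0‖ ≤ log (a / s0) :=
    log_le_log (norm_pos_iff.2 (h.hne H 1 s0 hs0)) (h.hZ H s0 hs0)
  have h5 : log (a / s0) = log a + log (1 / s0) := by
    rw [div_eq_mul_one_div, log_mul ha0.ne' (by have := hs0.1; positivity)]
  have h6 := W_ge (A := A) h.ha h.he
  have hla : 0 ≤ log a := log_nonneg h.ha
  have he := h.he
  linarith

open scoped Classical in
omit [Finite A] in
theorem final_mass {s0 : ℝ} (ha : 1 ≤ a) (he : 0 ≤ e) (hA : 0 < Nat.card A)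
    (hl : 0 < log (1 / s0)) (b : A)
    (hAP : log (1 / s0) / Nat.card A - e ≤ ∑ y with pr y = b, V s0 y) :
    (1 - W A a e / log (1 / s0)) / Nat.card A ≤ ∑ y with pr y = b, nu V s0 y := by
  have hA0 : (0:ℝ) < Nat.card A := by exact_mod_cast hA
  have h1 : ∑ y with pr y = b, nu V s0 y = (∑ y with pr y = b, V s0 y) / log (1 / s0) := by
    rw [Finset.sum_div]
    rfl
  rw [h1, le_div_iff₀ hl]
  refine le_trans ?_ hAP
  have h2 : (1 - W A a e / log (1 / s0)) / Nat.card A * log (1 / s0)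
      = log (1 / s0) / Nat.card A - W A a e / Nat.card A := by
    field_simp
  rw [h2]
  have h3 : e ≤ W A a e / Nat.card A := by
    rw [le_div_iff₀ hA0]
    unfold W
    have hla : 0 ≤ log a := log_nonneg ha
    nlinarith
  linarith

open scoped Classical in
/-- the residue is not too small: odd degree -/
theorem Dat.core_odd (h : Dat pr τ V F a e) (hodd : Odd (Nat.card Ω))
    (hsurj : Function.Surjective pr)
    (hord : ∀ g, pr g = τ → orderOf g = orderOf τ) {κ s0 : ℝ} (hs0 : 0 < s0)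
    (hbig : 100 * (Fintype.card Γ : ℝ) ^ 2 * W A a e ≤ log (1 / s0))
    (hκ0 : 0 < κ) (hκ : κ ≤ s0)
    (hK : ∑ y, V s0 y * (fo Ω y : ℝ) ≤ log (κ / s0 + a) + e)
    (hAP : ∀ b : A, log (1 / s0) / Nat.card A - e ≤
      ∑ y ∈ Finset.univ.filter (fun y => pr y = b), V s0 y) : False := by
  have hG : (1:ℝ) ≤ Fintype.card Γ := by exact_mod_cast Fintype.card_pos
  have hG2 : (1:ℝ) ≤ (Fintype.card Γ : ℝ) ^ 2 := one_le_pow₀ hG
  have hW := W_ge (A := A) h.ha h.he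
  have hla : 0 ≤ log a := log_nonneg h.ha
  have he := h.he
  have hW4 : 4 ≤ W A a e := by linarith
  have hWl : W A a e ≤ log (1 / s0) := by
    refine le_trans ?_ hbig
    have : 1 * W A a e ≤ 100 * (Fintype.card Γ : ℝ) ^ 2 * W A a e :=
      mul_le_mul_of_nonneg_right (by linarith) (by linarith)
    linarith
  have hl : 0 < log (1 / s0) := by linarith
  have hs : s0 ≤ exp (-(W A a e)) := by
    rw [← log_le_iff_le_exp hs0]
    rw [one_div, log_inv] at hWl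
    linarith
  have hs1 : s0 ∈ Set.Ioc (0:ℝ) 1 := ⟨hs0, hs.trans (by rw [exp_le_one_iff]; linarith)⟩
  set ε := W A a e / log (1 / s0) with hε
  have hε0 : 0 ≤ ε := div_nonneg (by linarith) hl.le
  have hε1 : 100 * (Fintype.card Γ : ℝ) ^ 2 * ε ≤ 1 := by
    rw [hε, ← mul_div_assoc, div_le_one hl]
    exact hbig
  have key := contra_odd (Ω := Ω) hodd pr τ hord (nu V s0) (nu_nonneg h.hV hl) ε hε0
    (h.final_hc hs0 hs hl) (final_hK h.ha h.he hs0 hl hκ0 hκ hK)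
  have hAcard : Nat.card A ≤ Fintype.card Γ := by
    rw [← Nat.card_eq_fintype_card]
    exact Nat.card_le_card_of_surjective pr hsurj
  have hA : 0 < Nat.card A := Nat.card_pos
  have hA0 : (0:ℝ) < Nat.card A := by exact_mod_cast hA
  have hmass := final_mass (V := V) (pr := pr) h.ha h.he hA hl τ (by convert hAP τ)
  have h3 : (1 - ε) / Nat.card A ≤ 10 * (Fintype.card Γ * ε) := hmass.trans key
  rw [div_le_iff₀ hA0] at h3
  have h4 : (Nat.card A : ℝ) ≤ Fintype.card Γ := by exact_mod_cast hAcard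
  have h5 : 10 * (Fintype.card Γ * ε) * Nat.card A ≤ 10 * (Fintype.card Γ * ε) * Fintype.card Γ :=
    mul_le_mul_of_nonneg_left h4 (by positivity)
  have h6 : 10 * (Fintype.card Γ * ε) * Fintype.card Γ = (100 * (Fintype.card Γ : ℝ) ^ 2 * ε) / 10 := by
    ring
  have h7 : ε ≤ (Fintype.card Γ : ℝ) ^ 2 * ε := le_mul_of_one_le_left hε0 hG2
  nlinarith

open scoped Classical in
/-- the residue is not too small: 2-transitive case -/
theorem Dat.core_two (h : Dat pr τ V F a e) (hΩ : 3 ≤ Nat.card Ω)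
    (hsurj : Function.Surjective pr)
    (h2 : ∀ a b c d : Ω, a ≠ b → c ≠ d → ∃ k : Γ, pr k = 1 ∧ k • a = c ∧ k • b = d)
    (t : Γ) (ht : pr t = τ) (htr : ∀ a : Ω, t • a = a)
    (hord : ∀ g, pr g = τ → orderOf g = orderOf τ) {κ s0 : ℝ} (hs0 : 0 < s0)
    (hbig : 100 * (Fintype.card Γ : ℝ) ^ 2 * W A a e ≤ log (1 / s0))
    (hκ0 : 0 < κ) (hκ : κ ≤ s0)
    (hK : ∑ y, V s0 y * (fo Ω y : ℝ) ≤ log (κ / s0 + a) + e)
    (hAP : ∀ b : A, log (1 / s0) / Nat.card A - e ≤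
      ∑ y ∈ Finset.univ.filter (fun y => pr y = b), V s0 y) : False := by
  have hG : (1:ℝ) ≤ Fintype.card Γ := by exact_mod_cast Fintype.card_pos
  have hG2 : (1:ℝ) ≤ (Fintype.card Γ : ℝ) ^ 2 := one_le_pow₀ hG
  have hW := W_ge (A := A) h.ha h.he
  have hla : 0 ≤ log a := log_nonneg h.ha
  have he := h.he
  have hW4 : 4 ≤ W A a e := by linarith
  have hWl : W A a e ≤ log (1 / s0) := by
    refine le_trans ?_ hbig
    have : 1 * W A a e ≤ 100 * (Fintype.card Γ : ℝ) ^ 2 * W A a e :=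
      mul_le_mul_of_nonneg_right (by linarith) (by linarith)
    linarith
  have hl : 0 < log (1 / s0) := by linarith
  have hs : s0 ≤ exp (-(W A a e)) := by
    rw [← log_le_iff_le_exp hs0]
    rw [one_div, log_inv] at hWl
    linarith
  have hs1 : s0 ∈ Set.Ioc (0:ℝ) 1 := ⟨hs0, hs.trans (by rw [exp_le_one_iff]; linarith)⟩
  set ε := W A a e / log (1 / s0) with hε
  have hε0 : 0 ≤ ε := div_nonneg (by linarith) hl.le
  have hε1 : 100 * (Fintype.card Γ : ℝ) ^ 2 * ε ≤ 1 := by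
    rw [hε, ← mul_div_assoc, div_le_one hl]
    exact hbig
  have hA : 0 < Nat.card A := Nat.card_pos
  refine contra_two (Ω := Ω) hΩ pr hsurj τ h2 t ht htr hord (nu V s0) (nu_nonneg h.hV hl) ε hε0
    (by linarith) (h.final_hc hs0 hs hl) (final_hK h.ha h.he hs0 hl hκ0 hκ hK)
    (fun g _ => h.final_hm hs1 hl _) ?_ ?_
  · exact final_mass (V := V) (pr := pr) h.ha h.he hA hl τ (by convert hAP τ)
  · exact final_mass (V := V) (pr := pr) h.ha h.he hA hl τ⁻¹ (by convert hAP τ⁻¹)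

end Core

end Crest.Agent.R014.N1C_479
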