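import Mathlib
import Crest.Agent.R014.LDef_550
import Crest.Agent.R014.N1C_479

/-!
N1-MAIN (row 14): the data of one auxiliary field `M` and the weight `V`.  Helper479.
-/

set_option autoImplicit false

namespace Crest.Agent.R014.N1D_479

open NumberField Crest.Agent.R014.N1G_202 Crest.Agent.R014.LDef_550 Crest.Agent.R014.N1C_479

/-- Galois group, projection to the cyclotomic part, Frobenius elements. -/
structure FldData (M : Type) [Field M] [NumberField M] (q : ℕ) (A : Type) [CommGroup A] where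
  /-- projection of the Galois group to the cyclotomic part -/
  pr : (M ≃ₐ[ℚ] M) →* A
  /-- reciprocity map of the cyclotomic part -/
  χ : (ZMod q)ˣ →* A
  /-- a Frobenius element at each prime -/
  φ : ℕ → (M ≃ₐ[ℚ] M)
  hpr : Function.Surjective pr
  hχs : Function.Surjective χ
  hfix : ∀ p : ℕ, p.Prime → ¬ (p : ℤ) ∣ discr M → ∀ H : Subgroup (M ≃ₐ[ℚ] M),
    rE (IntermediateField.fixedField H) p = fx H (φ p)
  hχ : ∀ (p : ℕ) (_ : p.Prime) (hq : p.Coprime q), ¬ (p : ℤ) ∣ discr M →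
    pr (φ p) = χ (ZMod.unitOfCoprime p hq)

variable {M : Type} [Field M] [NumberField M] {q : ℕ} {A : Type} [CommGroup A]

/-- primes which are used -/
def Good (M : Type) [Field M] [NumberField M] (q : ℕ) (p : ℕ) : Prop :=
  p.Prime ∧ p.Coprime q ∧ ¬ (p : ℤ) ∣ discr M

open scoped Classical in
/-- weight of an element of the Galois group -/
noncomputable def FldData.V (d : FldData M q A) (s : ℝ) (x : M ≃ₐ[ℚ] M) : ℝ :=
  ∑' p : ℕ, if Good M q p ∧ d.φ p = x then (p : ℝ) ^ (-(1 + s)) else 0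

/-- the Dirichlet character attached to a character of `A` -/
noncomputable def FldData.dir (d : FldData M q A) (ψ : A →* ℂˣ) : DirichletCharacter ℂ q :=
  MulChar.ofUnitHom (ψ.comp d.χ)

/-- the `L`-function attached to a subgroup and a character of `A` (for `ψ = 1` the full Dedekind
zeta function) -/
noncomputable def FldData.F (d : FldData M q A) (H : Subgroup (M ≃ₐ[ℚ] M)) (ψ : A →* ℂˣ)
    (s : ℝ) : ℂ :=
  open scoped Classical in
  if ψ = 1 then (zE (IntermediateField.fixedField H) s : ℂ)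
  else LEpsi (IntermediateField.fixedField H) (d.dir ψ) s

/-- BRIDGE: the hypothesis `hE` (and `hne`) of `N1C_479.Dat`, with `C` independent of `s`, `H`, `ψ`;
depends on the degree only, the rest is `[M:ℚ] * log (1 + log₂ (q |disc M|))`. -/
def Bridge (C : ℝ) (d : FldData M q A) : Prop :=
  ∀ (H : Subgroup (M ≃ₐ[ℚ] M)) (ψ : A →* ℂˣ) (s : ℝ), s ∈ Set.Ioc (0:ℝ) 1 →
    d.F H ψ s ≠ 0 ∧
    |Real.log ‖d.F H ψ s‖ - R d.pr (d.V s) H ψ| ≤
      C + Module.finrank ℚ M * Real.log (1 + Real.logb 2 (q * |(discr M : ℝ)|))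

/-- NONTRIVIALITY: the hypothesis of (A2). -/
def Nontriv (d : FldData M q A) (τ : A) : Prop :=
  ∀ g : M ≃ₐ[ℚ] M, d.pr g = τ → ∀ ψ : A →* ℂˣ, ψ ≠ 1 →
    ∃ a : Ideal (𝓞 (IntermediateField.fixedField (Subgroup.zpowers g))), a ≠ ⊥ ∧
      (Ideal.absNorm a).Coprime q ∧ d.dir ψ (Ideal.absNorm a : ZMod q) ≠ 1

end Crest.Agent.R014.N1D_479
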