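import Mathlib

/-!
Row 14, Theorem N1: primes in residue classes, quantitative form near `s = 1`:
`∑_{p ≡ a mod q} p^{-1-s} = log(1/s) / φ(q) + O_q(1)` for `0 < s ≤ 1`, and the elementary bound
`∑_{p ∣ m} 1/p ≤ log (1 + log m) + O(1)`.
-/

set_option autoImplicit false

open Complex LSeries ArithmeticFunction

namespace Crest.Agent.R014.N1P_693

variable {q : ℕ}

/-- indicator of the primes in the class `a`. -/
noncomputable def ind (a : ZMod q) (n : ℕ) : ℂ := if n.Prime ∧ (n : ZMod q) = a then 1 else 0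

theorem abscissa_ind (a : ZMod q) : abscissaOfAbsConv (ind a) ≤ 1 :=
  abscissaOfAbsConv_le_of_le_const ⟨1, fun n _ => by
    unfold ind; split_ifs <;> simp⟩

theorem logMul_ind (a : ZMod q) (n : ℕ) :
    logMul (ind a) n = ((if n.Prime then vonMangoldt.residueClass a n else 0 : ℝ) : ℂ) := by
  unfold logMul ind
  by_cases hn : n.Prime
  · by_cases ha : (n : ZMod q) = a
    · simp only [hn, ha, and_self, if_true, mul_one]
      rw [vonMangoldt.residueClass, Set.indicator_of_mem (by exact ha), vonMangoldt_apply_prime hn]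
      exact (natCast_log (n := n)).symm
    · simp only [hn, ha, and_false, if_false, mul_zero, if_true]
      rw [vonMangoldt.residueClass, Set.indicator_of_notMem (by exact ha)]
      simp
  · simp [hn]

/-- the real function `∑_{p ≡ a} p^{-x}`. -/
noncomputable def F (a : ZMod q) (x : ℝ) : ℝ := ∑' n : ℕ, if n.Prime ∧ (n : ZMod q) = a then
  (n : ℝ) ^ (-x) else 0

theorem LSeries_ind_eq (a : ZMod q) (x : ℝ) : LSeries (ind a) x = (F a x : ℂ) := by
  rw [F, LSeries, ofReal_tsum]
  refine tsum_congr fun n => ?_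
  unfold LSeries.term ind
  by_cases hn : n = 0
  · subst hn; simp [Nat.not_prime_zero]
  · rw [if_neg hn]
    by_cases h : n.Prime ∧ (n : ZMod q) = a
    · rw [if_pos h, if_pos h, ofReal_cpow (Nat.cast_nonneg n), ofReal_neg, ofReal_natCast,
        cpow_neg, one_div]
    · rw [if_neg h, if_neg h]; simp

/-- the real function `∑_{p ≡ a} log p p^{-x}`. -/
noncomputable def G (a : ZMod q) (x : ℝ) : ℝ := ∑' n : ℕ,
  (if n.Prime then vonMangoldt.residueClass a n else 0) / (n : ℝ) ^ x

theorem LSeries_logMul_eq (a : ZMod q) (x : ℝ) :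
    LSeries (logMul (ind a)) x = (G a x : ℂ) := by
  rw [G, LSeries, ofReal_tsum]
  refine tsum_congr fun n => ?_
  unfold LSeries.term
  by_cases hn : n = 0
  · subst hn; simp
  · rw [if_neg hn, logMul_ind, ofReal_div, ofReal_cpow (Nat.cast_nonneg n), ofReal_natCast]

theorem hasDerivAt_F (a : ZMod q) {x : ℝ} (hx : 1 < x) : HasDerivAt (F a) (-(G a x)) x := by
  have h1 : abscissaOfAbsConv (ind a) < (x : ℂ).re :=
    (abscissa_ind a).trans_lt (by rw [ofReal_re]; exact_mod_cast hx)
  have h2 := (LSeries_hasDerivAt h1).real_of_complex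
  rw [LSeries_logMul_eq] at h2
  have h3 : (fun y : ℝ => (LSeries (ind a) (y : ℂ)).re) = F a := by
    funext y
    rw [LSeries_ind_eq, ofReal_re]
  rw [h3] at h2
  simpa using h2

theorem summable_residue (a : ZMod q) {x : ℝ} (hx : 1 < x) :
    Summable (fun n : ℕ => vonMangoldt.residueClass a n / (n : ℝ) ^ x) :=
  LSeries.summable_real_of_abscissaOfAbsConv_lt <|
    (vonMangoldt.abscissaOfAbsConv_residueClass_le_one a).trans_lt <| by exact_mod_cast hx

/-- `G a x = 1 / (φ(q) (x-1)) + O(1)` on `(1,2]`. -/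
theorem G_bound [NeZero q] {a : ZMod q} (ha : IsUnit a) :
    ∃ C : ℝ, ∀ x : ℝ, x ∈ Set.Ioc (1 : ℝ) 2 → |G a x - (q.totient : ℝ)⁻¹ / (x - 1)| ≤ C := by
  have H {x : ℝ} (hx : 1 < x) :
      ∑' n, vonMangoldt.residueClass a n / (n : ℝ) ^ x =
        (vonMangoldt.LFunctionResidueClassAux a x).re + (q.totient : ℝ)⁻¹ / (x - 1) := by
    refine ofReal_injective ?_
    simp only [ofReal_tsum, ofReal_div, ofReal_cpow (Nat.cast_nonneg _), ofReal_natCast,
      ofReal_add, ofReal_inv, ofReal_sub, ofReal_one]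
    simp_rw [← vonMangoldt.LFunctionResidueClassAux_real ha hx,
      vonMangoldt.eqOn_LFunctionResidueClassAux ha <| Set.mem_ofPred.mpr (ofReal_re x ▸ hx),
      sub_add_cancel, LSeries, term]
    refine tsum_congr fun n ↦ ?_
    split_ifs with hn
    · simp only [hn, vonMangoldt.residueClass_apply_zero, ofReal_zero, zero_div]
    · rfl
  have hcont : ContinuousOn (fun x : ℝ ↦ (vonMangoldt.LFunctionResidueClassAux a x).re)
      (Set.Icc 1 2) :=
    continuous_re.continuousOn.comp (t := Set.univ)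
      (vonMangoldt.continuousOn_LFunctionResidueClassAux a)
      (fun ⦃x⦄ a ↦ trivial) |>.comp continuous_ofReal.continuousOn fun x hx ↦ by
        simpa only [Set.mem_ofPred_eq, ofReal_re] using hx.1
  obtain ⟨C, hC⟩ := (isCompact_Icc (a := (1 : ℝ)) (b := 2)).exists_bound_of_continuousOn hcont
  have hnp := vonMangoldt.summable_residueClass_non_primes_div a
  refine ⟨C + ∑' n : ℕ, (if n.Prime then 0 else vonMangoldt.residueClass a n) / n, ?_⟩
  intro x hx
  have hx1 : 1 < x := hx.1
  have hle : ∀ n : ℕ, (if n.Prime then 0 else vonMangoldt.residueClass a n) / (n : ℝ) ^ x ≤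
      (if n.Prime then 0 else vonMangoldt.residueClass a n) / n := by
    intro n
    rcases n.eq_zero_or_pos with rfl | hn
    · simp
    · refine div_le_div_of_nonneg_left ?_ (mod_cast hn) ?_
      · split_ifs
        · exact le_rfl
        · exact vonMangoldt.residueClass_nonneg a n
      · conv_lhs => rw [← Real.rpow_one n]
        exact Real.rpow_le_rpow_of_exponent_le (by exact_mod_cast hn) hx1.le
  have hnn : ∀ n : ℕ, 0 ≤ (if n.Prime then 0 else vonMangoldt.residueClass a n) / (n : ℝ) ^ x := by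
    intro n
    have : 0 ≤ (if n.Prime then 0 else vonMangoldt.residueClass a n) := by
      split_ifs
      · exact le_rfl
      · exact vonMangoldt.residueClass_nonneg a n
    positivity
  have hs1 : Summable (fun n : ℕ =>
      (if n.Prime then 0 else vonMangoldt.residueClass a n) / (n : ℝ) ^ x) :=
    Summable.of_nonneg_of_le hnn hle hnp
  have hs2 := summable_residue a hx1
  have hG : G a x = ∑' n, vonMangoldt.residueClass a n / (n : ℝ) ^ x -
      ∑' n : ℕ, (if n.Prime then 0 else vonMangoldt.residueClass a n) / (n : ℝ) ^ x := by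
    rw [← hs2.tsum_sub hs1, G]
    refine tsum_congr fun n => ?_
    by_cases hn : n.Prime <;> simp [hn]
  rw [hG, H hx1]
  have h1 := hC x ⟨hx1.le, hx.2⟩
  rw [Real.norm_eq_abs] at h1
  have h2 : ∑' n : ℕ, (if n.Prime then 0 else vonMangoldt.residueClass a n) / (n : ℝ) ^ x ≤
      ∑' n : ℕ, (if n.Prime then 0 else vonMangoldt.residueClass a n) / n :=
    hs1.tsum_le_tsum hle hnp
  have h3 : 0 ≤ ∑' n : ℕ, (if n.Prime then 0 else vonMangoldt.residueClass a n) / (n : ℝ) ^ x :=
    tsum_nonneg hnn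
  rw [abs_le] at h1 ⊢
  constructor <;> linarith [h1.1, h1.2]

/-- **Dirichlet, quantitative near `1`**. -/
theorem F_bound [NeZero q] {a : ZMod q} (ha : IsUnit a) :
    ∃ C : ℝ, ∀ s : ℝ, 0 < s → s ≤ 1 →
      |F a (1 + s) - (q.totient : ℝ)⁻¹ * Real.log (1 / s)| ≤ C := by
  obtain ⟨C, hC⟩ := G_bound ha
  refine ⟨C + |F a 2|, ?_⟩
  intro s hs0 hs1
  let H : ℝ → ℝ := fun x => F a x + (q.totient : ℝ)⁻¹ * Real.log (x - 1)
  have hder : ∀ x ∈ Set.Ioc (1 : ℝ) 2, HasDerivAt H (-(G a x) + (q.totient : ℝ)⁻¹ * (1 / (x - 1))) x := by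
    intro x hx
    have h1 := hasDerivAt_F a hx.1
    have h2 : HasDerivAt (fun x : ℝ => Real.log (x - 1)) (1 / (x - 1)) x := by
      have := ((hasDerivAt_id x).sub_const 1).log (by simpa using (sub_pos.mpr hx.1).ne')
      simpa using this
    exact h1.add (h2.const_mul _)
  have hconv : Convex ℝ (Set.Icc (1 + s) 2) := convex_Icc _ _
  have hb := Convex.norm_image_sub_le_of_norm_hasDerivWithin_le (f := H) (C := C)
    (f' := fun x => -(G a x) + (q.totient : ℝ)⁻¹ * (1 / (x - 1))) (s := Set.Icc (1 + s) 2)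
    (x := 2) (y := 1 + s)
    (fun x hx => (hder x ⟨by linarith [hx.1], hx.2⟩).hasDerivWithinAt)
    (fun x hx => by
      have := hC x ⟨by linarith [hx.1], hx.2⟩
      rw [Real.norm_eq_abs, ← abs_neg]
      convert this using 2
      ring)
    hconv ⟨by linarith, le_rfl⟩ ⟨le_rfl, by linarith⟩
  have hC0 : 0 ≤ C := (abs_nonneg _).trans (hC 2 ⟨by norm_num, le_rfl⟩)
  have h2 : H 2 = F a 2 := by simp [H]; norm_num
  have h3 : H (1 + s) = F a (1 + s) - (q.totient : ℝ)⁻¹ * Real.log (1 / s) := by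
    simp only [H, add_sub_cancel_left, one_div, Real.log_inv]
    ring
  rw [h2, h3, Real.norm_eq_abs, Real.norm_eq_abs] at hb
  have h4 : |1 + s - 2| ≤ 1 := by rw [abs_le]; constructor <;> linarith
  have h5 : C * |1 + s - 2| ≤ C := by nlinarith
  calc |F a (1 + s) - (q.totient : ℝ)⁻¹ * Real.log (1 / s)|
      = |(F a (1 + s) - (q.totient : ℝ)⁻¹ * Real.log (1 / s) - F a 2) + F a 2| := by ring_nf
    _ ≤ |F a (1 + s) - (q.totient : ℝ)⁻¹ * Real.log (1 / s) - F a 2| + |F a 2| := abs_add_le _ _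
    _ ≤ C + |F a 2| := by linarith

theorem F_eq_primes (a : ZMod q) (x : ℝ) :
    F a x = ∑' p : Nat.Primes, if ((p : ℕ) : ZMod q) = a then ((p : ℕ) : ℝ) ^ (-x) else 0 := by
  have h : ∀ n : ℕ, (if n.Prime ∧ (n : ZMod q) = a then (n : ℝ) ^ (-x) else 0) =
      Set.indicator {p : ℕ | p.Prime} (fun n : ℕ => if (n : ZMod q) = a then (n : ℝ) ^ (-x) else 0) n := by
    intro n
    by_cases hn : n.Prime
    · rw [Set.indicator_of_mem (by exact hn)]; simp [hn]
    · rw [Set.indicator_of_notMem (by exact hn)]; simp [hn]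
  rw [F, tsum_congr h, ← tsum_subtype]
  rfl

theorem summable_F (a : ZMod q) {x : ℝ} (hx : 1 < x) :
    Summable (fun n : ℕ => if n.Prime ∧ (n : ZMod q) = a then (n : ℝ) ^ (-x) else 0) := by
  refine Summable.of_nonneg_of_le (fun n => ?_) (fun n => ?_) (Real.summable_nat_rpow.mpr (by linarith : -x < -1))
  · split_ifs <;> positivity
  · split_ifs
    · exact le_rfl
    · positivity

/-- `∑_{p ∣ m} 1/p ≤ 3 + log (1 + log m)`. -/
theorem sum_primeFactors_le {m : ℕ} (hm : m ≠ 0) :
    ∑ p ∈ m.primeFactors, (1 / (p : ℝ)) ≤ 3 + Real.log (1 + Real.log m) := by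
  have hm1 : (1 : ℝ) ≤ m := by exact_mod_cast Nat.one_le_iff_ne_zero.mpr hm
  have hlog : 0 ≤ Real.log m := Real.log_nonneg hm1
  set y : ℝ := 1 + Real.log m with hy
  have hy1 : 1 ≤ y := by linarith
  rw [← Finset.sum_filter_add_sum_filter_not m.primeFactors (fun p : ℕ => (p : ℝ) ≤ y)]
  have h1 : ∑ p ∈ m.primeFactors.filter (fun p : ℕ => (p : ℝ) ≤ y), (1 / (p : ℝ)) ≤ 1 + Real.log y := by
    have hsub : m.primeFactors.filter (fun p : ℕ => (p : ℝ) ≤ y) ⊆ Finset.Icc 1 ⌊y⌋₊ := by
      intro p hp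
      rw [Finset.mem_filter] at hp
      rw [Finset.mem_Icc]
      exact ⟨(Nat.prime_of_mem_primeFactors hp.1).one_lt.le, Nat.le_floor hp.2⟩
    calc ∑ p ∈ m.primeFactors.filter (fun p : ℕ => (p : ℝ) ≤ y), (1 / (p : ℝ))
        ≤ ∑ p ∈ Finset.Icc 1 ⌊y⌋₊, (1 / (p : ℝ)) :=
          Finset.sum_le_sum_of_subset_of_nonneg hsub (fun _ _ _ => by positivity)
      _ = (harmonic ⌊y⌋₊ : ℝ) := by
          rw [harmonic_eq_sum_Icc]
          push_cast
          simp only [one_div]
      _ ≤ 1 + Real.log y := harmonic_floor_le_one_add_log y hy1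
  have h2 : ∑ p ∈ m.primeFactors.filter (fun p : ℕ => ¬ (p : ℝ) ≤ y), (1 / (p : ℝ)) ≤ 2 := by
    have hcard : (m.primeFactors.card : ℝ) * Real.log 2 ≤ Real.log m := by
      have h3 : 2 ^ m.primeFactors.card ≤ m := by
        calc 2 ^ m.primeFactors.card = ∏ _p ∈ m.primeFactors, 2 := by rw [Finset.prod_const]
          _ ≤ ∏ p ∈ m.primeFactors, p :=
            Finset.prod_le_prod' fun p hp => (Nat.prime_of_mem_primeFactors hp).two_le
          _ ≤ m := Nat.le_of_dvd (Nat.pos_of_ne_zero hm) (Nat.prod_primeFactors_dvd m)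
      have h4 : ((2 : ℝ) ^ m.primeFactors.card) ≤ m := by exact_mod_cast h3
      have := Real.log_le_log (by positivity) h4
      rwa [Real.log_pow] at this
    have hl2 : (0.5 : ℝ) ≤ Real.log 2 := by linarith [Real.log_two_gt_d9]
    calc ∑ p ∈ m.primeFactors.filter (fun p : ℕ => ¬ (p : ℝ) ≤ y), (1 / (p : ℝ))
        ≤ ∑ p ∈ m.primeFactors.filter (fun p : ℕ => ¬ (p : ℝ) ≤ y), (1 / y) := by
          refine Finset.sum_le_sum fun p hp => ?_
          rw [Finset.mem_filter, not_le] at hp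
          exact one_div_le_one_div_of_le (by linarith) hp.2.le
      _ ≤ m.primeFactors.card * (1 / y) := by
          rw [Finset.sum_const, nsmul_eq_mul]
          exact mul_le_mul_of_nonneg_right (by exact_mod_cast Finset.card_filter_le _ _)
            (by positivity)
      _ ≤ 2 := by
          rw [mul_one_div, div_le_iff₀ (by linarith)]
          have : (0 : ℝ) ≤ m.primeFactors.card := Nat.cast_nonneg _
          nlinarith
  linarith

end Crest.Agent.R014.N1P_693
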