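import Mathlib
import Crest.Agent.R014.N1D_479
import Crest.Agent.R014.N1P_693

/-!
N1-MAIN (row 14): the marginal of the weight `V` on the cyclotomic part.  Helper479.
-/

set_option autoImplicit false

namespace Crest.Agent.R014.N1A_479

open NumberField Crest.Agent.R014.N1G_202 Crest.Agent.R014.LDef_550 Crest.Agent.R014.N1C_479
  Crest.Agent.R014.N1D_479

variable {M : Type} [Field M] [NumberField M] {q : ℕ} {A : Type} [CommGroup A]

open scoped Classical in
/-- summand of `V` -/
noncomputable def vt (d : FldData M q A) (s : ℝ) (x : M ≃ₐ[ℚ] M) (p : ℕ) : ℝ :=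
  if Good M q p ∧ d.φ p = x then (p : ℝ) ^ (-(1 + s)) else 0

theorem V_eq (d : FldData M q A) (s : ℝ) (x : M ≃ₐ[ℚ] M) : d.V s x = ∑' p, vt d s x p := rfl

theorem vt_nonneg (d : FldData M q A) (s : ℝ) (x : M ≃ₐ[ℚ] M) (p : ℕ) : 0 ≤ vt d s x p := by
  unfold vt
  split_ifs
  · positivity
  · exact le_rfl

theorem vt_le (d : FldData M q A) (s : ℝ) (x : M ≃ₐ[ℚ] M) (p : ℕ) :
    vt d s x p ≤ (p : ℝ) ^ (-(1 + s)) := by
  unfold vt
  split_ifs
  · exact le_rfl
  · positivity

theorem summable_vt (d : FldData M q A) {s : ℝ} (hs : 0 < s) (x : M ≃ₐ[ℚ] M) :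
    Summable (vt d s x) :=
  Summable.of_nonneg_of_le (vt_nonneg d s x) (vt_le d s x)
    (Real.summable_nat_rpow.mpr (by linarith : -(1 + s) < -1))

theorem V_nonneg (d : FldData M q A) (s : ℝ) (x : M ≃ₐ[ℚ] M) : 0 ≤ d.V s x := by
  rw [V_eq]
  exact tsum_nonneg (vt_nonneg d s x)

/-- fibres of a surjective hom of finite groups -/
theorem card_fibre {G B : Type*} [Group G] [Fintype G] [Group B] [DecidableEq B]
    (χ : G →* B) (hχ : Function.Surjective χ) (b : B) :
    (Finset.univ.filter fun a => χ a = b).card * Nat.card B = Fintype.card G := by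
  have hB : Finite B := Finite.of_surjective χ hχ
  have hBf : Fintype B := Fintype.ofFinite B
  have h1 : Fintype.card G = ∑ c : B, (Finset.univ.filter fun a => χ a = c).card := by
    rw [← Finset.card_univ]
    exact Finset.card_eq_sum_card_fiberwise (fun a _ => Finset.mem_univ _)
  have h2 : ∀ c : B, (Finset.univ.filter fun a => χ a = c).card
      = (Finset.univ.filter fun a => χ a = b).card := fun c =>
    MonoidHom.card_fiber_eq_of_mem_range χ (hχ c) (hχ b)
  rw [h1, Finset.sum_congr rfl fun c _ => h2 c, Finset.sum_const, Finset.card_univ,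
    Nat.card_eq_fintype_card, smul_eq_mul, mul_comm]

open scoped Classical in
/-- the marginal of `V` -/
theorem apBound (q : ℕ) [NeZero q] (A : Type) [CommGroup A] : ∃ C : ℝ, 0 ≤ C ∧
    ∀ (M : Type) [Field M] [NumberField M] (d : FldData M q A) (s : ℝ), s ∈ Set.Ioc (0:ℝ) 1 →
      ∀ b : A, Real.log (1 / s) / Nat.card A
        - (C + (3 + Real.log (1 + Real.log |(discr M : ℝ)|)))
        ≤ ∑ y ∈ Finset.univ.filter (fun y => d.pr y = b), d.V s y := by
  have hF : ∀ a : (ZMod q)ˣ, ∃ C : ℝ, ∀ s : ℝ, 0 < s → s ≤ 1 →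
      |N1P_693.F (a : ZMod q) (1 + s) - (q.totient : ℝ)⁻¹ * Real.log (1 / s)| ≤ C :=
    fun a => N1P_693.F_bound a.isUnit
  choose Cf hCf using hF
  have hCf0 : ∀ a, 0 ≤ Cf a := fun a => (abs_nonneg _).trans (hCf a 1 one_pos le_rfl)
  refine ⟨∑ a, Cf a, Finset.sum_nonneg fun a _ => hCf0 a, ?_⟩
  intro M _ _ d s hs b
  set S : Finset (ZMod q)ˣ := Finset.univ.filter fun a => d.χ a = b with hS
  set m : ℕ := (discr M).natAbs with hm
  have hm0 : m ≠ 0 := by
    rw [hm]
    exact Int.natAbs_ne_zero.2 (discr_ne_zero M)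
  have hmR : (m : ℝ) = |(discr M : ℝ)| := by
    rw [hm, Nat.cast_natAbs, Int.cast_abs]
  -- upper bound of the class sums by the marginal
  have hsumV : ∑ y ∈ Finset.univ.filter (fun y => d.pr y = b), d.V s y
      = ∑' p, ∑ y ∈ Finset.univ.filter (fun y => d.pr y = b), vt d s y p := by
    simp_rw [V_eq]
    exact (Summable.tsum_finsetSum fun y _ => summable_vt d hs.1 y).symm
  have hsV : Summable fun p => ∑ y ∈ Finset.univ.filter (fun y => d.pr y = b), vt d s y p :=
    summable_sum fun y _ => summable_vt d hs.1 y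
  have hsumF : ∑ a ∈ S, N1P_693.F (a : ZMod q) (1 + s)
      = ∑' p : ℕ, ∑ a ∈ S, (if p.Prime ∧ (p : ZMod q) = a then (p : ℝ) ^ (-(1 + s)) else 0) := by
    unfold N1P_693.F
    exact (Summable.tsum_finsetSum fun a _ => N1P_693.summable_F _ (by linarith [hs.1])).symm
  have hsF : Summable fun p : ℕ =>
      ∑ a ∈ S, (if p.Prime ∧ (p : ZMod q) = a then (p : ℝ) ^ (-(1 + s)) else 0) :=
    summable_sum fun a _ => N1P_693.summable_F _ (by linarith [hs.1])
  have hbad : Summable fun p : ℕ => if p ∈ m.primeFactors then (1 / (p : ℝ)) else 0 := by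
    apply summable_of_ne_finset_zero (s := m.primeFactors)
    intro p hp
    rw [if_neg hp]
  have hpt : ∀ p : ℕ,
      ∑ a ∈ S, (if p.Prime ∧ (p : ZMod q) = a then (p : ℝ) ^ (-(1 + s)) else 0)
      ≤ (∑ y ∈ Finset.univ.filter (fun y => d.pr y = b), vt d s y p)
        + if p ∈ m.primeFactors then (1 / (p : ℝ)) else 0 := by
    intro p
    have hn1 : 0 ≤ ∑ y ∈ Finset.univ.filter (fun y => d.pr y = b), vt d s y p :=
      Finset.sum_nonneg fun y _ => vt_nonneg d s y p
    have hn2 : 0 ≤ if p ∈ m.primeFactors then (1 / (p : ℝ)) else 0 := by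
      split_ifs
      · positivity
      · exact le_rfl
    by_cases hex : ∃ a ∈ S, p.Prime ∧ (p : ZMod q) = ((a : (ZMod q)ˣ) : ZMod q)
    · obtain ⟨a, haS, hp, hpa⟩ := hex
      have h1 : ∑ a ∈ S, (if p.Prime ∧ (p : ZMod q) = ((a : (ZMod q)ˣ) : ZMod q)
          then (p : ℝ) ^ (-(1 + s)) else 0) = (p : ℝ) ^ (-(1 + s)) := by
        rw [Finset.sum_eq_single a]
        · rw [if_pos ⟨hp, hpa⟩]
        · intro c _ hca
          rw [if_neg]
          rintro ⟨_, hc⟩
          exact hca (Units.ext (hc.symm.trans hpa))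
        · intro h; exact absurd haS h
      rw [h1]
      by_cases hbadp : p ∈ m.primeFactors
      · rw [if_pos hbadp]
        have hp1 : (1:ℝ) ≤ p := by exact_mod_cast hp.one_lt.le
        have h2 : (p : ℝ) ^ (-(1 + s)) ≤ 1 / (p : ℝ) := by
          rw [one_div, ← Real.rpow_neg_one]
          exact Real.rpow_le_rpow_of_exponent_le hp1 (by linarith [hs.1])
        linarith
      · rw [if_neg hbadp, add_zero]
        have hndvd : ¬ (p : ℤ) ∣ discr M := by
          intro h
          apply hbadp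
          rw [Nat.mem_primeFactors]
          exact ⟨hp, by rw [hm]; exact Int.natCast_dvd.1 h, hm0⟩
        have hcop : p.Coprime q := by
          rw [← ZMod.isUnit_iff_coprime]
          rw [hpa]; exact a.isUnit
        have hau : ZMod.unitOfCoprime p hcop = a := by
          apply Units.ext
          rw [ZMod.coe_unitOfCoprime, hpa]
        have hpr : d.pr (d.φ p) = b := by
          rw [d.hχ p hp hcop hndvd, hau]
          exact (Finset.mem_filter.1 haS).2
        have h3 : vt d s (d.φ p) p = (p : ℝ) ^ (-(1 + s)) := by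
          unfold vt
          rw [if_pos ⟨⟨hp, hcop, hndvd⟩, rfl⟩]
        rw [← h3]
        exact Finset.single_le_sum (f := fun y => vt d s y p) (fun y _ => vt_nonneg d s y p)
          (Finset.mem_filter.2 ⟨Finset.mem_univ _, hpr⟩)
    · have h1 : ∑ a ∈ S, (if p.Prime ∧ (p : ZMod q) = ((a : (ZMod q)ˣ) : ZMod q)
          then (p : ℝ) ^ (-(1 + s)) else 0) = 0 := by
        refine Finset.sum_eq_zero fun a ha => ?_
        rw [if_neg]
        intro h
        exact hex ⟨a, ha, h⟩
      rw [h1]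
      linarith
  have hcmp : ∑ a ∈ S, N1P_693.F (a : ZMod q) (1 + s)
      ≤ (∑ y ∈ Finset.univ.filter (fun y => d.pr y = b), d.V s y)
        + ∑ p ∈ m.primeFactors, (1 / (p : ℝ)) := by
    rw [hsumF, hsumV]
    have h2 : ∑' p : ℕ, (if p ∈ m.primeFactors then (1 / (p : ℝ)) else 0)
        = ∑ p ∈ m.primeFactors, (1 / (p : ℝ)) := by
      rw [tsum_eq_sum (s := m.primeFactors) (fun p hp => if_neg hp)]
      exact Finset.sum_congr rfl fun p hp => if_pos hp
    rw [← h2, ← hsV.tsum_add hbad]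
    exact hsF.tsum_le_tsum hpt (hsV.add hbad)
  have hlow : (S.card : ℝ) * ((q.totient : ℝ)⁻¹ * Real.log (1 / s)) - ∑ a, Cf a
      ≤ ∑ a ∈ S, N1P_693.F (a : ZMod q) (1 + s) := by
    have h3 : ∑ a ∈ S, ((q.totient : ℝ)⁻¹ * Real.log (1 / s) - Cf a)
        ≤ ∑ a ∈ S, N1P_693.F (a : ZMod q) (1 + s) := by
      refine Finset.sum_le_sum fun a _ => ?_
      have := (abs_le.1 (hCf a s hs.1 hs.2)).1
      linarith
    rw [Finset.sum_sub_distrib, Finset.sum_const, nsmul_eq_mul] at h3
    have h4 : ∑ a ∈ S, Cf a ≤ ∑ a, Cf a :=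
      Finset.sum_le_univ_sum_of_nonneg hCf0
    linarith
  have hcard : (S.card : ℝ) * ((q.totient : ℝ)⁻¹ * Real.log (1 / s))
      = Real.log (1 / s) / Nat.card A := by
    have h5 := card_fibre d.χ d.hχs b
    rw [ZMod.card_units_eq_totient] at h5
    have hq0 : (q.totient : ℝ) ≠ 0 := by
      have := Nat.totient_pos.2 (Nat.pos_of_ne_zero (NeZero.ne q))
      positivity
    have hA : Finite A := Finite.of_surjective d.χ d.hχs
    have hA0 : (Nat.card A : ℝ) ≠ 0 := by
      have : 0 < Nat.card A := Nat.card_pos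
      positivity
    have h6 : (S.card : ℝ) * Nat.card A = q.totient := by
      rw [← h5, hS]; push_cast; rfl
    rw [← h6]
    have hS0 : (S.card : ℝ) ≠ 0 := by
      intro h
      rw [h, zero_mul] at h6
      exact hq0 h6.symm
    field_simp
  have hbadsum := N1P_693.sum_primeFactors_le hm0
  rw [hmR] at hbadsum
  rw [hcard] at hlow
  linarith

end Crest.Agent.R014.N1A_479
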