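import Mathlib
set_option autoImplicit false
open IntermediateField Polynomial

namespace Crest.Agent.R014.N1B_693

/-- In `(ZMod q)ˣ` (`q` prime, `2 N ∣ q - 1`), `-1` is an `N`-th power. -/
theorem neg_one_pow {q N : ℕ} (hq : q.Prime) (hN : 2 * N ∣ q - 1) :
    ∃ b : (ZMod q)ˣ, b ^ N = -1 := by
  have : Fact q.Prime := ⟨hq⟩
  obtain ⟨k, hk⟩ := hN
  have hq1 : 0 < q - 1 := by have := hq.two_le; omega
  have hk0 : 0 < k := Nat.pos_of_ne_zero (by rintro rfl; simp at hk; omega)
  have hN0 : 0 < N := Nat.pos_of_ne_zero (by rintro rfl; simp at hk; omega)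
  obtain ⟨g, hg⟩ := IsCyclic.exists_generator (α := (ZMod q)ˣ)
  have hord : orderOf g = q - 1 := by
    rw [orderOf_eq_card_of_forall_mem_zpowers hg, Nat.card_eq_fintype_card, ZMod.card_units]
  refine ⟨g ^ k, ?_⟩
  have h2 : (g ^ (k * N)) ^ 2 = 1 := by
    rw [← pow_mul]
    have : k * N * 2 = orderOf g := by rw [hord, hk]; ring
    rw [this, pow_orderOf_eq_one]
  have h1 : g ^ (k * N) ≠ 1 := by
    intro h
    have := orderOf_dvd_of_pow_eq_one h
    rw [hord, hk] at this
    have := Nat.le_of_dvd (by positivity) this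
    nlinarith [Nat.mul_pos hk0 hN0]
  rw [← pow_mul]
  have h3 : ((g ^ (k * N) : (ZMod q)ˣ) : ZMod q) ^ 2 = 1 := by
    rw [← Units.val_pow_eq_pow_val, h2, Units.val_one]
  rcases sq_eq_one_iff.mp h3 with h | h
  · exact absurd (Units.ext h) h1
  · exact Units.ext h

/-- The image of `x ↦ x ^ N` on `(ZMod q)ˣ` has index `N` when `N ∣ q - 1`. -/
theorem index_powRange {q N : ℕ} (hq : q.Prime) (hN : N ∣ q - 1) :
    (powMonoidHom N : (ZMod q)ˣ →* (ZMod q)ˣ).range.index = N := by
  have : Fact q.Prime := ⟨hq⟩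
  have hcard : Nat.card (ZMod q)ˣ = q - 1 := by
    rw [Nat.card_eq_fintype_card, ZMod.card_units]
  have h := IsCyclic.index_powMonoidHom_range (G := (ZMod q)ˣ) N
  rw [h, hcard]
  exact Nat.gcd_eq_right hN

section cyc

theorem isMulCommutative_gal (C : Type*) [Field C] [NumberField C] (q : ℕ) [NeZero q]
    [IsCyclotomicExtension {q} ℚ C] (σ τ : Gal(C/ℚ)) : σ * τ = τ * σ := by
  apply (IsCyclotomicExtension.Rat.galEquivZMod q C).injective
  rw [map_mul, map_mul, mul_comm]

theorem isGalois_C (C : Type*) [Field C] [NumberField C] (q : ℕ) [NeZero q]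
    [IsCyclotomicExtension {q} ℚ C] : IsGalois ℚ C := IsCyclotomicExtension.isGalois {q} ℚ C

variable (C : Type*) [Field C] [NumberField C] (q N : ℕ) [NeZero q] [IsCyclotomicExtension {q} ℚ C]

/-- Automorphisms of the cyclotomic field which are `N`-th powers. -/
noncomputable def powGal : Subgroup Gal(C/ℚ) :=
  ((powMonoidHom N : (ZMod q)ˣ →* (ZMod q)ˣ).range).comap
    (IsCyclotomicExtension.Rat.galEquivZMod q C).toMonoidHom

instance powGal_normal : (powGal C q N).Normal := by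
  refine ⟨fun n hn g => ?_⟩
  rw [isMulCommutative_gal C q g n, mul_assoc, mul_inv_cancel, mul_one]
  exact hn

/-- The subfield of degree `N`. -/
noncomputable def subB : IntermediateField ℚ C := fixedField (powGal C q N)

instance isGalois_subB : IsGalois ℚ (subB C q N) := by
  have := isGalois_C C q
  exact IsGalois.of_fixedField_normal_subgroup (powGal C q N)

theorem finrank_subB {q N : ℕ} [NeZero q] [IsCyclotomicExtension {q} ℚ C] (hq : q.Prime)
    (hN : N ∣ q - 1) : Module.finrank ℚ (subB C q N) = N := by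
  have := isGalois_C C q
  have h1 : (powGal C q N).index = N := by
    rw [powGal, Subgroup.index_comap_of_surjective]
    · exact index_powRange hq hN
    · exact (IsCyclotomicExtension.Rat.galEquivZMod q C).surjective
  have h2 := (powGal C q N).card_mul_index
  have h3 : Module.finrank (subB C q N) C = Nat.card (powGal C q N) :=
    IntermediateField.finrank_fixedField_eq_card _
  have h4 := Module.finrank_mul_finrank ℚ (subB C q N) C
  have h5 : Nat.card Gal(C/ℚ) = Module.finrank ℚ C := IsGalois.card_aut_eq_finrank ℚ C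
  rw [h1, h5, ← h4, h3, mul_comm] at h2
  have h6 : 0 < Nat.card (powGal C q N) := Nat.card_pos
  exact (Nat.eq_of_mul_eq_mul_right h6 h2).symm

instance normal_subB : Normal ℚ (subB C q N) := IsGalois.to_normal

/-- The (Artin) map `(ZMod q)ˣ → Gal(B/ℚ)`. -/
noncomputable def art : (ZMod q)ˣ →* Gal(subB C q N/ℚ) :=
  (AlgEquiv.restrictNormalHom (subB C q N)).comp
    (IsCyclotomicExtension.Rat.galEquivZMod q C).symm.toMonoidHom

set_option backward.isDefEq.respectTransparency false in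
theorem art_apply (a : (ZMod q)ˣ) (x : subB C q N) :
    (art C q N a x : C) = (IsCyclotomicExtension.Rat.galEquivZMod q C).symm a (x : C) :=
  AlgEquiv.restrictNormalHom_apply (subB C q N) _ x

theorem art_surjective : Function.Surjective (art C q N) := by
  have := isGalois_C C q
  exact (AlgEquiv.restrictNormalHom_surjective C).comp
    (IsCyclotomicExtension.Rat.galEquivZMod q C).symm.surjective

set_option backward.isDefEq.respectTransparency false in
theorem art_eq_one_iff (a : (ZMod q)ˣ) : art C q N a = 1 ↔ ∃ b : (ZMod q)ˣ, b ^ N = a := by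
  have := isGalois_C C q
  have h1 : art C q N a = 1 ↔ (IsCyclotomicExtension.Rat.galEquivZMod q C).symm a ∈
      (subB C q N).fixingSubgroup := by
    rw [← IntermediateField.restrictNormalHom_ker, MonoidHom.mem_ker]
    rfl
  rw [h1, subB, IntermediateField.fixingSubgroup_fixedField, powGal, Subgroup.mem_comap]
  have h2 : (IsCyclotomicExtension.Rat.galEquivZMod q C).toMonoidHom
      ((IsCyclotomicExtension.Rat.galEquivZMod q C).symm a) = a :=
    (IsCyclotomicExtension.Rat.galEquivZMod q C).apply_symm_apply a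
  rw [h2, MonoidHom.mem_range]
  rfl

/-- If `2 N ∣ q - 1` the subfield of degree `N` is totally real. -/
theorem isTotallyReal_subB {q N : ℕ} [NeZero q] [IsCyclotomicExtension {q} ℚ C] (hq : q.Prime)
    (hN : 2 * N ∣ q - 1) : NumberField.IsTotallyReal (subB C q N) := by
  have := isGalois_C C q
  refine ⟨fun v => ?_⟩
  -- extend the embedding to C
  let φ : C →+* ℂ := NumberField.ComplexEmbedding.lift C v.embedding
  have hφ : ∀ x : subB C q N, φ (x : C) = v.embedding x := fun x =>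
    NumberField.ComplexEmbedding.lift_algebraMap_apply (K := C) v.embedding x
  obtain ⟨σ, hσ⟩ := NumberField.ComplexEmbedding.exists_comp_symm_eq_of_comp_eq (k := ℚ) φ
    (NumberField.ComplexEmbedding.conjugate φ) (Subsingleton.elim _ _)
  obtain ⟨b, hb⟩ := neg_one_pow hq hN
  set ζ := IsCyclotomicExtension.zeta q ℚ C with hζdef
  have hζ : IsPrimitiveRoot ζ q := IsCyclotomicExtension.zeta_spec q ℚ C
  have hinv : (starRingEnd ℂ) (φ ζ) = (φ ζ)⁻¹ := by
    have h1 : (φ ζ) ^ q = 1 := by rw [← map_pow, hζ.pow_eq_one, map_one]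
    have h2 : ‖φ ζ‖ = 1 := Complex.norm_eq_one_of_pow_eq_one h1 (NeZero.ne q)
    rw [Complex.inv_def, Complex.normSq_eq_norm_sq, h2]
    simp
  have hσζ : σ.symm ζ = ζ⁻¹ := by
    apply φ.injective
    have := RingHom.congr_fun hσ ζ
    simp only [RingHom.comp_apply, NumberField.ComplexEmbedding.conjugate_coe_eq] at this
    rw [map_inv₀, ← hinv, ← this]
    rfl
  have hσ1 : IsCyclotomicExtension.Rat.galEquivZMod q C σ.symm = -1 := by
    have h1 := IsCyclotomicExtension.Rat.galEquivZMod_apply_of_pow_eq q C σ.symm hζ.pow_eq_one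
    rw [hσζ] at h1
    have h2 : ζ ^ ((IsCyclotomicExtension.Rat.galEquivZMod q C σ.symm).val.val + 1) = 1 := by
      rw [pow_succ, ← h1, inv_mul_cancel₀ (hζ.ne_zero (NeZero.ne q))]
    have h3 : q ∣ (IsCyclotomicExtension.Rat.galEquivZMod q C σ.symm).val.val + 1 :=
      (hζ.pow_eq_one_iff_dvd _).mp h2
    apply Units.ext
    have h4 : ((((IsCyclotomicExtension.Rat.galEquivZMod q C σ.symm).val.val + 1 : ℕ)) : ZMod q) = 0 :=
      (ZMod.natCast_eq_zero_iff _ _).mpr h3
    rw [Nat.cast_add, ZMod.natCast_val, ZMod.cast_id', id_eq, Nat.cast_one] at h4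
    rw [Units.val_neg, Units.val_one]
    exact eq_neg_of_add_eq_zero_left h4
  have hmem : σ.symm ∈ powGal C q N := by
    rw [powGal, Subgroup.mem_comap]
    exact ⟨b, by rw [powMonoidHom_apply, hb]; exact hσ1.symm⟩
  rw [NumberField.InfinitePlace.isReal_iff, NumberField.ComplexEmbedding.isReal_iff]
  ext x
  rw [NumberField.ComplexEmbedding.conjugate_coe_eq, ← hφ x]
  have := RingHom.congr_fun hσ (x : C)
  simp only [RingHom.comp_apply, NumberField.ComplexEmbedding.conjugate_coe_eq] at this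
  rw [← this]
  congr 1
  exact (IntermediateField.mem_fixedField_iff _ _).mp x.2 _ hmem

/-- Frobenius congruence on the ring of integers of the cyclotomic field. -/
theorem frob_C {q : ℕ} [NeZero q] [IsCyclotomicExtension {q} ℚ C]
    {p : ℕ} (hp : p.Prime) (hpq : p.Coprime q) (x : C) (hx : IsIntegral ℤ x) :
    ∃ y : C, IsIntegral ℤ y ∧
      (IsCyclotomicExtension.Rat.galEquivZMod q C).symm (ZMod.unitOfCoprime p hpq) x - x ^ p
        = p * y := by
  classical
  have : Fact p.Prime := ⟨hp⟩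
  set σ := (IsCyclotomicExtension.Rat.galEquivZMod q C).symm (ZMod.unitOfCoprime p hpq) with hσ
  have hζ : IsPrimitiveRoot (IsCyclotomicExtension.zeta q ℚ C) q := IsCyclotomicExtension.zeta_spec q ℚ C
  set ζ := IsCyclotomicExtension.zeta q ℚ C with hζdef
  have hσζ : σ ζ = ζ ^ p := by
    rw [IsCyclotomicExtension.Rat.galEquivZMod_apply_of_pow_eq q C σ hζ.pow_eq_one, hσ,
      MulEquiv.apply_symm_apply, ZMod.coe_unitOfCoprime]
    rw [ZMod.val_natCast]
    conv_rhs => rw [← Nat.mod_add_div p q]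
    rw [pow_add, pow_mul, hζ.pow_eq_one, one_pow, mul_one]
  -- the set of integers with the property is a subring containing ζ
  have key : ∀ x ∈ Algebra.adjoin ℤ ({ζ} : Set C), ∃ y ∈ Algebra.adjoin ℤ ({ζ} : Set C),
      σ x - x ^ p = p * y := by
    intro x hx
    induction hx using Algebra.adjoin_induction with
    | mem x hx =>
      rw [Set.mem_singleton_iff] at hx
      subst hx
      exact ⟨0, Subalgebra.zero_mem _, by rw [hσζ]; ring⟩
    | algebraMap r =>
      obtain ⟨k, hk⟩ : (p : ℤ) ∣ r - r ^ p := by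
        rw [← ZMod.intCast_eq_intCast_iff_dvd_sub]
        push_cast
        rw [ZMod.pow_card]
      refine ⟨algebraMap ℤ C k, Subalgebra.algebraMap_mem _ _, ?_⟩
      have h1 : σ (algebraMap ℤ C r) = algebraMap ℤ C r := by simp
      rw [h1]
      have := congrArg (algebraMap ℤ C) hk
      simpa using this
    | add a b ha hb iha ihb =>
      obtain ⟨u, hu, hu2⟩ := iha
      obtain ⟨v, hv, hv2⟩ := ihb
      obtain ⟨r, hr⟩ := exists_add_pow_prime_eq hp (⟨a, ha⟩ : Algebra.adjoin ℤ ({ζ} : Set C))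
        (⟨b, hb⟩ : Algebra.adjoin ℤ ({ζ} : Set C))
      have hr' : (a + b) ^ p = a ^ p + b ^ p + p * a * b * (r : C) := by
        have := congrArg (Subtype.val) hr
        simpa using this
      refine ⟨u + v - a * b * r, ?_, ?_⟩
      · exact Subalgebra.sub_mem _ (Subalgebra.add_mem _ hu hv)
          (Subalgebra.mul_mem _ (Subalgebra.mul_mem _ ha hb) r.2)
      · rw [map_add, hr']
        linear_combination hu2 + hv2
    | mul a b ha hb iha ihb =>
      obtain ⟨u, hu, hu2⟩ := iha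
      obtain ⟨v, hv, hv2⟩ := ihb
      refine ⟨u * b ^ p + a ^ p * v + p * u * v, ?_, ?_⟩
      · exact Subalgebra.add_mem _ (Subalgebra.add_mem _ (Subalgebra.mul_mem _ hu
          (Subalgebra.pow_mem _ hb _)) (Subalgebra.mul_mem _ (Subalgebra.pow_mem _ ha _) hv))
          (Subalgebra.mul_mem _ (Subalgebra.mul_mem _ (natCast_mem _ p) hu) hv)
      · have h1 : σ a = a ^ p + p * u := by linear_combination hu2
        have h2 : σ b = b ^ p + p * v := by linear_combination hv2
        rw [map_mul, h1, h2, mul_pow]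
        ring
  have hIC := IsCyclotomicExtension.Rat.isIntegralClosure_adjoin_singleton (n := q) (K := C) hζ
  obtain ⟨x', hx'⟩ := (IsIntegralClosure.isIntegral_iff (A := Algebra.adjoin ℤ ({ζ} : Set C))).mp hx
  obtain ⟨y, hy, hy2⟩ := key x (by rw [← hx']; exact x'.2)
  refine ⟨y, ?_, hy2⟩
  exact (IsIntegralClosure.isIntegral_iff (A := Algebra.adjoin ℤ ({ζ} : Set C))).mpr ⟨⟨y, hy⟩, rfl⟩

/-- Frobenius congruence on the integers of `B`. -/
theorem frob_B {q : ℕ} [NeZero q] [IsCyclotomicExtension {q} ℚ C]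
    {p : ℕ} (hp : p.Prime) (hpq : p.Coprime q) (x : subB C q N) (hx : IsIntegral ℤ x) :
    ∃ y : subB C q N, IsIntegral ℤ y ∧ art C q N (ZMod.unitOfCoprime p hpq) x - x ^ p = p * y := by
  have hxC : IsIntegral ℤ (x : C) := hx.map (subB C q N).val.toRingHom.toIntAlgHom
  obtain ⟨y, hy, hy2⟩ := frob_C C hp hpq (x : C) hxC
  have hp0 : (p : C) ≠ 0 := by exact_mod_cast hp.ne_zero
  rw [← art_apply] at hy2
  have hyB : y ∈ subB C q N := by
    have : y = (p : C)⁻¹ * ((art C q N (ZMod.unitOfCoprime p hpq) x : C) - (x : C) ^ p) := by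
      rw [hy2, inv_mul_cancel_left₀ hp0]
    rw [this]
    refine mul_mem (inv_mem (_root_.natCast_mem _ p)) (sub_mem (SetLike.coe_mem _) (pow_mem x.2 _))
  refine ⟨⟨y, hyB⟩, ?_, ?_⟩
  · exact (isIntegral_algHom_iff (subB C q N).val.toRingHom.toIntAlgHom
      (subB C q N).val.injective).mp hy
  · apply Subtype.ext
    simpa using hy2

end cyc

section omega

variable {Ω : Type*} [Field Ω] [CharZero Ω]

theorem isCyclotomic {q : ℕ} (hq : q.Prime) {ζ : Ω} (hζ : IsPrimitiveRoot ζ q) :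
    IsCyclotomicExtension {q} ℚ ℚ⟮ζ⟯ := by
  have : NeZero q := ⟨hq.ne_zero⟩
  change IsCyclotomicExtension {q} ℚ (IntermediateField.adjoin ℚ {ζ}).toSubalgebra
  rw [IntermediateField.adjoin_simple_toSubalgebra_of_isAlgebraic
    ((hζ.isIntegral hq.pos).tower_top (A := ℚ)).isAlgebraic]
  exact hζ.adjoin_isCyclotomicExtension ℚ

/-- The auxiliary field `B`: the cyclic subfield of degree `N` of `ℚ(ζ_q)`, `2 N ∣ q - 1`, with its
Artin map `χ : (ZMod q)ˣ → Gal(B/ℚ)` and the Frobenius congruence. -/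
theorem exists_B {q N : ℕ} (hq : q.Prime) (hN : 2 * N ∣ q - 1) {ζ : Ω}
    (hζ : IsPrimitiveRoot ζ q) :
    ∃ (B : IntermediateField ℚ Ω) (_ : FiniteDimensional ℚ B) (_ : IsGalois ℚ B)
      (χ : (ZMod q)ˣ →* Gal(B/ℚ)),
      B ≤ ℚ⟮ζ⟯ ∧ Module.finrank ℚ B = N ∧ NumberField.IsTotallyReal B ∧
      Function.Surjective χ ∧ (∀ a, χ a = 1 ↔ ∃ b : (ZMod q)ˣ, b ^ N = a) ∧
      (∀ (p : ℕ) (_ : p.Prime) (hpq : p.Coprime q) (x : B), IsIntegral ℤ x →
        ∃ y : B, IsIntegral ℤ y ∧ χ (ZMod.unitOfCoprime p hpq) x - x ^ p = p * y) := by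
  have hq0 : NeZero q := ⟨hq.ne_zero⟩
  have hcyc := isCyclotomic hq hζ
  have hfd : FiniteDimensional ℚ ℚ⟮ζ⟯ := IsCyclotomicExtension.finiteDimensional {q} ℚ ℚ⟮ζ⟯
  have hnf : NumberField ℚ⟮ζ⟯ := { to_charZero := inferInstance, to_finiteDimensional := inferInstance }
  let B₀ := subB ℚ⟮ζ⟯ q N
  let B : IntermediateField ℚ Ω := IntermediateField.lift B₀
  let e : B₀ ≃ₐ[ℚ] B := IntermediateField.liftAlgEquiv B₀
  have hN' : N ∣ q - 1 := (Dvd.intro_left 2 rfl).trans hN
  have hfB : FiniteDimensional ℚ B := FiniteDimensional.of_injective e.symm.toLinearMap e.symm.injective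
  have hgB : IsGalois ℚ B := IsGalois.of_algEquiv e
  let χ : (ZMod q)ˣ →* Gal(B/ℚ) := (e.autCongr.toMonoidHom).comp (art ℚ⟮ζ⟯ q N)
  refine ⟨B, hfB, hgB, χ, IntermediateField.lift_le B₀, ?_, ?_, ?_, ?_, ?_⟩
  · rw [← finrank_subB ℚ⟮ζ⟯ hq hN']
    exact e.toLinearEquiv.finrank_eq.symm
  · have := isTotallyReal_subB ℚ⟮ζ⟯ hq hN
    exact NumberField.IsTotallyReal.ofRingEquiv e.toRingEquiv
  · exact e.autCongr.surjective.comp (art_surjective ℚ⟮ζ⟯ q N)
  · intro a
    rw [← art_eq_one_iff ℚ⟮ζ⟯ q N a]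
    exact map_eq_one_iff e.autCongr.toMonoidHom e.autCongr.injective
  · intro p hp hpq x hx
    have hx' : IsIntegral ℤ (e.symm x) := hx.map (e.symm : B →ₐ[ℚ] B₀).toRingHom.toIntAlgHom
    obtain ⟨y, hy, hy2⟩ := frob_B ℚ⟮ζ⟯ N hp hpq (e.symm x) hx'
    refine ⟨e y, hy.map (e : B₀ →ₐ[ℚ] B).toRingHom.toIntAlgHom, ?_⟩
    have := congrArg e hy2
    simp only [map_sub, map_pow, map_mul, map_natCast, AlgEquiv.apply_symm_apply] at this
    rw [← this]
    rfl

/-- Galois group of a compositum of two disjoint Galois fields. -/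
theorem galProd_gen {k Ω : Type*} [Field k] [Field Ω] [Algebra k Ω] (L B : IntermediateField k Ω)
    [FiniteDimensional k L] [FiniteDimensional k B] [IsGalois k L] [IsGalois k B]
    (h : (L ⊓ B : IntermediateField k Ω) = ⊥) :
    IsGalois k ↥(L ⊔ B) ∧ ∃ e : Gal(↥(L ⊔ B)/k) ≃* Gal(L/k) × Gal(B/k),
      ∀ σ : Gal(↥(L ⊔ B)/k),
        (∀ x : L, (((e σ).1 x : L) : Ω) = σ ⟨x, le_sup_left (a := L) (b := B) x.2⟩) ∧
        (∀ x : B, (((e σ).2 x : B) : Ω) = σ ⟨x, le_sup_right (a := L) (b := B) x.2⟩) := by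
  have hgal : IsGalois k ↥(L ⊔ B) := by
    have : Normal k ↥(L ⊔ B) := inferInstance
    have : Algebra.IsSeparable k ↥(L ⊔ B) := inferInstance
    exact ⟨⟩
  have hfd : FiniteDimensional k ↥(L ⊔ B) := inferInstance
  refine ⟨hgal, ?_⟩
  have h1 : L ≤ L ⊔ B := le_sup_left
  have h2 : B ≤ L ⊔ B := le_sup_right
  let a1 : Algebra L ↥(L ⊔ B) := (IntermediateField.inclusion h1).toRingHom.toAlgebra
  let a2 : Algebra B ↥(L ⊔ B) := (IntermediateField.inclusion h2).toRingHom.toAlgebra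
  have t1 : IsScalarTower k L ↥(L ⊔ B) := IsScalarTower.of_algebraMap_eq' rfl
  have t2 : IsScalarTower k B ↥(L ⊔ B) := IsScalarTower.of_algebraMap_eq' rfl
  let f : Gal(↥(L ⊔ B)/k) →* Gal(L/k) × Gal(B/k) :=
    (AlgEquiv.restrictNormalHom L).prod (AlgEquiv.restrictNormalHom B)
  have hf1 : ∀ σ (x : L), (((f σ).1 x : L) : Ω) = σ ⟨x, h1 x.2⟩ := fun σ x =>
    congrArg Subtype.val (AlgEquiv.restrictNormal_commutes σ L x)
  have hf2 : ∀ σ (x : B), (((f σ).2 x : B) : Ω) = σ ⟨x, h2 x.2⟩ := fun σ x =>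
    congrArg Subtype.val (AlgEquiv.restrictNormal_commutes σ B x)
  have hinj : Function.Injective f := by
    rw [injective_iff_map_eq_one]
    intro σ hσ
    -- the fixed field of σ, lifted
    let F : IntermediateField k ↥(L ⊔ B) := fixedField (Subgroup.zpowers σ)
    have hmem : ∀ y : ↥(L ⊔ B), σ y = y → y ∈ F := by
      intro y hy
      rw [IntermediateField.mem_fixedField_iff]
      intro τ hτ
      obtain ⟨n, rfl⟩ := Subgroup.mem_zpowers_iff.mp hτ
      have : σ ∈ MulAction.stabilizer (Gal(↥(L ⊔ B)/k)) y := hy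
      exact (MulAction.stabilizer (Gal(↥(L ⊔ B)/k)) y).zpow_mem this n
    have hL : L ≤ IntermediateField.lift F := by
      intro y hy
      refine (IntermediateField.mem_lift (F := L ⊔ B) (E := F) ⟨y, h1 hy⟩).mpr (hmem _ ?_)
      apply Subtype.ext
      rw [← hf1 σ ⟨y, hy⟩, hσ]
      rfl
    have hB : B ≤ IntermediateField.lift F := by
      intro y hy
      refine (IntermediateField.mem_lift (F := L ⊔ B) (E := F) ⟨y, h2 hy⟩).mpr (hmem _ ?_)
      apply Subtype.ext
      rw [← hf2 σ ⟨y, hy⟩, hσ]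
      rfl
    have hle : L ⊔ B ≤ IntermediateField.lift F := sup_le hL hB
    ext x
    have hx : x ∈ F := (IntermediateField.mem_lift (F := L ⊔ B) (E := F) x).mp (hle x.2)
    rw [IntermediateField.mem_fixedField_iff] at hx
    rw [hx σ (Subgroup.mem_zpowers σ)]
    rfl
  have hcard : Nat.card (Gal(L/k) × Gal(B/k)) ≤ Nat.card Gal(↥(L ⊔ B)/k) := by
    rw [Nat.card_prod, IsGalois.card_aut_eq_finrank, IsGalois.card_aut_eq_finrank,
      IsGalois.card_aut_eq_finrank]
    exact (IntermediateField.LinearDisjoint.of_inf_eq_bot h).finrank_sup.ge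
  have hbij : Function.Bijective f :=
    (Nat.bijective_iff_injective_and_card f).mpr ⟨hinj, le_antisymm (Nat.card_le_card_of_injective f hinj) hcard⟩
  exact ⟨MulEquiv.ofBijective f hbij, fun σ => ⟨hf1 σ, hf2 σ⟩⟩


set_option backward.isDefEq.respectTransparency false in
/-- Galois group of a compositum of two disjoint Galois number fields. -/
theorem exists_galProd (L B : IntermediateField ℚ Ω) [FiniteDimensional ℚ L]
    [FiniteDimensional ℚ B] [i1 : IsGalois ℚ L] [i2 : IsGalois ℚ B]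
    (h : (L ⊓ B : IntermediateField ℚ Ω) = ⊥) :
    IsGalois ℚ ↥(L ⊔ B) ∧ ∃ e : Gal(↥(L ⊔ B)/ℚ) ≃* Gal(L/ℚ) × Gal(B/ℚ),
      ∀ σ : Gal(↥(L ⊔ B)/ℚ),
        (∀ x : L, (((e σ).1 x : L) : Ω) = σ ⟨x, le_sup_left (a := L) (b := B) x.2⟩) ∧
        (∀ x : B, (((e σ).2 x : B) : Ω) = σ ⟨x, le_sup_right (a := L) (b := B) x.2⟩) :=
  @galProd_gen ℚ Ω _ _ _ L B _ _ i1 i2 h

/-- Composita of totally real fields are totally real. -/
theorem isTotallyReal_iSup {ι : Type*} (L : ι → IntermediateField ℚ Ω)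
    (h : ∀ i, NumberField.IsTotallyReal (L i)) : NumberField.IsTotallyReal ↥(⨆ i, L i) := by
  refine ⟨fun v => ?_⟩
  rw [NumberField.InfinitePlace.isReal_iff, NumberField.ComplexEmbedding.isReal_iff]
  set φ := v.embedding
  let ψ : Ω → Prop := fun x => ∃ hx : x ∈ ⨆ i, L i, (starRingEnd ℂ) (φ ⟨x, hx⟩) = φ ⟨x, hx⟩
  let F : IntermediateField ℚ Ω :=
    { carrier := {x | ψ x}
      mul_mem' := by
        rintro a b ⟨ha, ha'⟩ ⟨hb, hb'⟩
        refine ⟨mul_mem ha hb, ?_⟩
        have : (⟨a * b, mul_mem ha hb⟩ : ↥(⨆ i, L i)) = ⟨a, ha⟩ * ⟨b, hb⟩ := rfl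
        rw [this, map_mul, map_mul, ha', hb']
      one_mem' := ⟨one_mem _, by
        have : (⟨1, one_mem _⟩ : ↥(⨆ i, L i)) = 1 := rfl
        rw [this, map_one, map_one]⟩
      add_mem' := by
        rintro a b ⟨ha, ha'⟩ ⟨hb, hb'⟩
        refine ⟨add_mem ha hb, ?_⟩
        have : (⟨a + b, add_mem ha hb⟩ : ↥(⨆ i, L i)) = ⟨a, ha⟩ + ⟨b, hb⟩ := rfl
        rw [this, map_add, map_add, ha', hb']
      zero_mem' := ⟨zero_mem _, by
        have : (⟨0, zero_mem _⟩ : ↥(⨆ i, L i)) = 0 := rfl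
        rw [this, map_zero, map_zero]⟩
      algebraMap_mem' := by
        intro r
        refine ⟨IntermediateField.algebraMap_mem _ r, ?_⟩
        have : (⟨algebraMap ℚ Ω r, IntermediateField.algebraMap_mem _ r⟩ : ↥(⨆ i, L i)) = (r : ↥(⨆ i, L i)) := by
          apply Subtype.ext
          simp
        rw [this, map_ratCast, map_ratCast]
      inv_mem' := by
        rintro a ⟨ha, ha'⟩
        refine ⟨inv_mem ha, ?_⟩
        have : (⟨a⁻¹, inv_mem ha⟩ : ↥(⨆ i, L i)) = (⟨a, ha⟩)⁻¹ := rfl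
        rw [this, map_inv₀, map_inv₀, ha'] }
  have hle : (⨆ i, L i) ≤ F := by
    refine iSup_le fun i => ?_
    intro x hx
    have hx' : x ∈ ⨆ i, L i := le_iSup L i hx
    refine ⟨hx', ?_⟩
    have h1 := NumberField.IsTotallyReal.complexEmbedding_isReal
      (K := L i) (φ.comp (IntermediateField.inclusion (le_iSup L i)).toRingHom)
    rw [NumberField.ComplexEmbedding.isReal_iff] at h1
    exact RingHom.congr_fun h1 ⟨x, hx⟩
  ext x
  obtain ⟨hx, h2⟩ := hle x.2
  exact h2

theorem isTotallyReal_sup (L B : IntermediateField ℚ Ω) (h1 : NumberField.IsTotallyReal L)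
    (h2 : NumberField.IsTotallyReal B) : NumberField.IsTotallyReal ↥(L ⊔ B) := by
  have h := isTotallyReal_iSup (fun b : Bool => bif b then L else B) (by rintro (_ | _) <;> simpa)
  rw [iSup_bool_eq] at h
  exact h

end omega

end Crest.Agent.R014.N1B_693
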