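import Crest.Agent.R014.N1G_202
import Crest.Agent.R014.N1P_693
import Crest.Agent.R014.N1D_479
import Crest.Agent.R014.Ic2_550

/-!
Row 14, theorem N1: the bridge between sums over primes and sums over the Galois group
(helper652).  `phi p : Γ` is a Frobenius of the prime `p` (only used for `p ∤ B`),
`V phi B s x = ∑_{p ∤ B, phi p = x} p^{-1-s}`.
-/

set_option autoImplicit false

namespace Crest.Agent.R014.N1Br_652

open Finset

section Bridge

variable {Γ : Type*} (phi : ℕ → Γ) (B : ℕ)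

open scoped Classical in
/-- one term of `V` -/
noncomputable def vt (s : ℝ) (x : Γ) (p : Nat.Primes) : ℝ :=
  if ¬ (p : ℕ) ∣ B ∧ phi p = x then ((p : ℕ) : ℝ) ^ (-(1 + s)) else 0

/-- the mass of the primes with Frobenius `x` -/
noncomputable def V (s : ℝ) (x : Γ) : ℝ := ∑' p : Nat.Primes, vt phi B s x p

theorem vt_nonneg (s : ℝ) (x : Γ) (p : Nat.Primes) : 0 ≤ vt phi B s x p := by
  unfold vt; split_ifs <;> positivity

theorem V_nonneg (s : ℝ) (x : Γ) : 0 ≤ V phi B s x := tsum_nonneg fun _ => vt_nonneg _ _ _ _ _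

theorem vt_le (s : ℝ) (x : Γ) (p : Nat.Primes) :
    vt phi B s x p ≤ ((p : ℕ) : ℝ) ^ (-(1 + s)) := by
  unfold vt; split_ifs
  · exact le_rfl
  · positivity

theorem summable_primes {s : ℝ} (hs : 0 < s) :
    Summable fun p : Nat.Primes => ((p : ℕ) : ℝ) ^ (-(1 + s)) :=
  Nat.Primes.summable_rpow.mpr (by linarith)

theorem summable_vt {s : ℝ} (hs : 0 < s) (x : Γ) : Summable (vt phi B s x) :=
  Summable.of_nonneg_of_le (vt_nonneg _ _ _ _) (vt_le _ _ _ _) (summable_primes hs)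

theorem pow_le_inv {s : ℝ} (hs : 0 < s) (p : Nat.Primes) :
    ((p : ℕ) : ℝ) ^ (-(1 + s)) ≤ 1 / (p : ℕ) := by
  have h1 : (1 : ℝ) ≤ (p : ℕ) := by exact_mod_cast p.2.one_le
  calc ((p : ℕ) : ℝ) ^ (-(1 + s)) ≤ ((p : ℕ) : ℝ) ^ (-1 : ℝ) :=
        Real.rpow_le_rpow_of_exponent_le h1 (by linarith)
    _ = 1 / (p : ℕ) := by rw [Real.rpow_neg_one, one_div]

/-- the finite set of bad primes -/
noncomputable def badP : Finset Nat.Primes := B.primeFactors.attach.map
  ⟨fun p => ⟨p.1, Nat.prime_of_mem_primeFactors p.2⟩, fun p q h => by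
    apply Subtype.ext
    have := congrArg (fun r : Nat.Primes => (r : ℕ)) h
    exact this⟩

theorem mem_badP (hB : B ≠ 0) {p : Nat.Primes} : p ∈ badP B ↔ (p : ℕ) ∣ B := by
  unfold badP
  rw [Finset.mem_map]
  constructor
  · rintro ⟨⟨q, hq⟩, -, rfl⟩
    exact Nat.dvd_of_mem_primeFactors hq
  · intro h
    exact ⟨⟨p, Nat.mem_primeFactors.mpr ⟨p.2, h, hB⟩⟩, Finset.mem_attach _ _, rfl⟩

theorem sum_badP : ∑ p ∈ badP B, (1 / ((p : ℕ) : ℝ)) = ∑ p ∈ B.primeFactors, 1 / (p : ℝ) := by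
  unfold badP
  rw [Finset.sum_map]
  exact Finset.sum_attach B.primeFactors (fun p => 1 / (p : ℝ))

/-- the error of the bad primes -/
noncomputable def bad : ℝ := 3 + Real.log (1 + Real.log B)

theorem sum_badP_le (hB : B ≠ 0) : ∑ p ∈ badP B, (1 / ((p : ℕ) : ℝ)) ≤ bad B := by
  rw [sum_badP]
  exact N1P_693.sum_primeFactors_le hB

variable [Fintype Γ]

open scoped Classical in
/-- sums over good primes are sums over the group -/
theorem sum_good {s : ℝ} (hs : 0 < s) (G : Γ → ℝ) :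
    HasSum (fun p : Nat.Primes => if ¬ (p : ℕ) ∣ B then
      ((p : ℕ) : ℝ) ^ (-(1 + s)) * G (phi p) else 0) (∑ y, V phi B s y * G y) := by
  have h1 : (fun p : Nat.Primes => if ¬ (p : ℕ) ∣ B then
      ((p : ℕ) : ℝ) ^ (-(1 + s)) * G (phi p) else 0) =
      fun p => ∑ y, vt phi B s y p * G y := by
    funext p
    by_cases hp : (p : ℕ) ∣ B
    · rw [if_neg (by simpa using hp)]
      symm
      refine Finset.sum_eq_zero fun y _ => ?_
      unfold vt
      rw [if_neg (fun h => h.1 hp), zero_mul]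
    · rw [if_pos hp, Finset.sum_eq_single (phi p)]
      · unfold vt
        rw [if_pos ⟨hp, rfl⟩]
      · intro y _ hy
        unfold vt
        rw [if_neg (fun h => hy h.2.symm), zero_mul]
      · intro h; exact absurd (Finset.mem_univ _) h
  rw [h1]
  exact hasSum_sum fun y _ => (summable_vt phi B hs y).hasSum.mul_right (G y)

/-- **Bridge**: a sum over all primes whose terms at the good primes only depend on the Frobenius
is the corresponding sum over the group, up to the contribution of the bad primes. -/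
theorem bridge (hB : B ≠ 0) {s : ℝ} (hs : 0 < s) (G : Γ → ℝ) (a : Nat.Primes → ℝ) (d : ℝ)
    (hd : ∀ p, |a p| ≤ d) (hgood : ∀ p : Nat.Primes, ¬ (p : ℕ) ∣ B → a p = G (phi p)) :
    Summable (fun p : Nat.Primes => a p * ((p : ℕ) : ℝ) ^ (-(1 + s))) ∧
    |∑' p : Nat.Primes, a p * ((p : ℕ) : ℝ) ^ (-(1 + s)) - ∑ y, V phi B s y * G y| ≤
      d * bad B := by
  classical
  have hsum := sum_good phi B hs G
  have hbad : HasSum (fun p : Nat.Primes => if (p : ℕ) ∣ B then
      a p * ((p : ℕ) : ℝ) ^ (-(1 + s)) else 0)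
      (∑ p ∈ badP B, a p * ((p : ℕ) : ℝ) ^ (-(1 + s))) := by
    have h1 : ∑ p ∈ badP B, a p * ((p : ℕ) : ℝ) ^ (-(1 + s)) =
        ∑ p ∈ badP B, (if (p : ℕ) ∣ B then a p * ((p : ℕ) : ℝ) ^ (-(1 + s)) else 0) := by
      refine Finset.sum_congr rfl fun p hp => ?_
      rw [if_pos ((mem_badP B hB).mp hp)]
    rw [h1]
    refine hasSum_sum_of_ne_finset_zero fun p hp => ?_
    rw [if_neg fun h => hp ((mem_badP B hB).mpr h)]
  have htot := hsum.add hbad
  have he : (fun p : Nat.Primes => (if ¬ (p : ℕ) ∣ B then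
      ((p : ℕ) : ℝ) ^ (-(1 + s)) * G (phi p) else 0) + (if (p : ℕ) ∣ B then
      a p * ((p : ℕ) : ℝ) ^ (-(1 + s)) else 0)) =
      fun p => a p * ((p : ℕ) : ℝ) ^ (-(1 + s)) := by
    funext p
    by_cases hp : (p : ℕ) ∣ B
    · simp [hp]
    · simp only [hp, not_false_iff, if_true, if_false, add_zero]
      rw [hgood p hp]; ring
  rw [he] at htot
  refine ⟨htot.summable, ?_⟩
  rw [htot.tsum_eq, add_sub_cancel_left]
  have hd0 : 0 ≤ d := (abs_nonneg _).trans (hd ⟨2, Nat.prime_two⟩)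
  calc |∑ p ∈ badP B, a p * ((p : ℕ) : ℝ) ^ (-(1 + s))|
      ≤ ∑ p ∈ badP B, |a p * ((p : ℕ) : ℝ) ^ (-(1 + s))| := Finset.abs_sum_le_sum_abs _ _
    _ ≤ ∑ p ∈ badP B, d * (1 / ((p : ℕ) : ℝ)) := by
        refine Finset.sum_le_sum fun p _ => ?_
        rw [abs_mul, abs_of_nonneg (by positivity : (0 : ℝ) ≤ ((p : ℕ) : ℝ) ^ (-(1 + s)))]
        exact mul_le_mul (hd p) (pow_le_inv hs p) (by positivity) hd0
    _ = d * ∑ p ∈ badP B, (1 / ((p : ℕ) : ℝ)) := by rw [Finset.mul_sum]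
    _ ≤ d * bad B := mul_le_mul_of_nonneg_left (sum_badP_le B hB) hd0

end Bridge

section Field

open NumberField Crest.Agent.R014.N1G_202 Crest.Agent.R014.LDef_550 Crest.Agent.R014.N1C_479
  Crest.Agent.R014.N1D_479

/-- The number of ideals of prime norm is at most the degree. -/
theorem rE_prime_le (E : Type*) [Field E] [NumberField E] {p : ℕ} (hp : p.Prime) :
    rE E p ≤ Module.finrank ℚ E := by
  classical
  unfold rE
  have hfin : {I : Ideal (𝓞 E) | Ideal.absNorm I = p}.Finite := by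
    refine (Ic2_550.finite_norm_le (E := E) p).subset ?_
    intro I hI
    refine ⟨?_, ?_⟩
    · rintro rfl
      have h1 : Ideal.absNorm (⊥ : Ideal (𝓞 E)) = p := hI
      rw [Ideal.absNorm_bot] at h1
      exact hp.ne_zero h1.symm
    · have h1 : Ideal.absNorm I = p := hI
      rw [h1]
  have h1 : Nat.card {I : Ideal (𝓞 E) // Ideal.absNorm I = p} = hfin.toFinset.card := by
    have : Nat.card {I : Ideal (𝓞 E) // Ideal.absNorm I = p} =
        Set.ncard {I : Ideal (𝓞 E) | Ideal.absNorm I = p} := rfl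
    rw [this, Set.ncard_eq_toFinset_card _ hfin]
  rw [h1]
  refine Ic2_550.card_above_le (p := p) hfin.toFinset fun P hP => ?_
  have h2 : Ideal.absNorm P = p := (hfin.mem_toFinset).mp hP
  have h3 : P.IsPrime := Ideal.isPrime_of_irreducible_absNorm (by rw [h2]; exact hp)
  refine ⟨h3, ?_, ?_⟩
  · rintro rfl
    rw [Ideal.absNorm_bot] at h2
    exact hp.ne_zero h2.symm
  · rw [h2, hp.minFac_eq]

/-- The Euler product input (helper534's EUL). -/
def EulE (C : ℝ) (E : Type) [Field E] [NumberField E] : Prop :=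
  ∀ s ∈ Set.Ioc (0:ℝ) 1,
    (zE E s ≠ 0 ∧ |Real.log (zE E s) -
      ∑' p : Nat.Primes, (rE E p : ℝ) * ((p : ℕ) : ℝ) ^ (-(1 + s))| ≤ C) ∧
    ∀ (q : ℕ) (_ : NeZero q) (ψ : DirichletCharacter ℂ q), LEpsi E ψ s ≠ 0 ∧
      |Real.log ‖LEpsi E ψ s‖ -
        ∑' p : Nat.Primes, ((ψ ((p : ℕ) : ZMod q)).re * (rE E p : ℝ)) *
          ((p : ℕ) : ℝ) ^ (-(1 + s))| ≤ C

variable {M : Type} [Field M] [NumberField M] {q : ℕ} {A : Type} [CommGroup A]

/-- the bad modulus -/
noncomputable def Bm (M : Type) [Field M] [NumberField M] (q : ℕ) : ℕ := q * (discr M).natAbs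

theorem Bm_ne_zero (hq : q ≠ 0) : Bm M q ≠ 0 := by
  unfold Bm
  exact mul_ne_zero hq (Int.natAbs_ne_zero.mpr (discr_ne_zero M))

theorem good_iff {p : ℕ} (hp : p.Prime) : Good M q p ↔ ¬ p ∣ Bm M q := by
  unfold Good Bm
  rw [hp.dvd_mul, not_or, ← hp.coprime_iff_not_dvd, ← Int.natCast_dvd]
  exact ⟨fun h => h.2, fun h => ⟨hp, h⟩⟩

theorem V_eq (d : FldData M q A) (s : ℝ) (x : M ≃ₐ[ℚ] M) : d.V s x = V d.φ (Bm M q) s x := by
  classical
  unfold FldData.V V
  have h : ∀ n : ℕ, (if Good M q n ∧ d.φ n = x then (n : ℝ) ^ (-(1 + s)) else 0) =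
      Set.indicator {p : ℕ | p.Prime} (fun n : ℕ => if Good M q n ∧ d.φ n = x then
        (n : ℝ) ^ (-(1 + s)) else 0) n := by
    intro n
    by_cases hn : n.Prime
    · rw [Set.indicator_of_mem (by exact hn)]
    · rw [Set.indicator_of_notMem (by exact hn), if_neg fun h => hn h.1.1]
  have h2 : (∑' n : ℕ, (if Good M q n ∧ d.φ n = x then (n : ℝ) ^ (-(1 + s)) else 0)) =
      ∑' p : Nat.Primes, (if Good M q p ∧ d.φ p = x then ((p : ℕ) : ℝ) ^ (-(1 + s)) else 0) := by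
    rw [tsum_congr h]
    exact (tsum_subtype {p : ℕ | p.Prime} (fun n : ℕ => if Good M q n ∧ d.φ n = x then
        (n : ℝ) ^ (-(1 + s)) else 0)).symm
  refine Eq.trans ?_ (Eq.trans h2 ?_)
  · exact tsum_congr fun n => by congr
  · refine tsum_congr fun p => ?_
    unfold vt
    have h3 : (Good M q p ∧ d.φ p = x) ↔ (¬ (p : ℕ) ∣ Bm M q ∧ d.φ p = x) := by
      rw [good_iff p.2]
    by_cases h4 : Good M q p ∧ d.φ p = x
    · rw [if_pos h4, if_pos (h3.mp h4)]
    · rw [if_neg h4, if_neg (fun h => h4 (h3.mpr h))]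

theorem finrank_fixed_le (H : Subgroup (M ≃ₐ[ℚ] M)) :
    Module.finrank ℚ (IntermediateField.fixedField H) ≤ Module.finrank ℚ M := by
  have h1 := Module.finrank_mul_finrank ℚ (IntermediateField.fixedField H) M
  rw [← h1]
  exact Nat.le_mul_of_pos_right _ Module.finrank_pos

theorem bad_le (hq : q ≠ 0) : bad (Bm M q) ≤
    3 + Real.log (1 + Real.logb 2 (q * |(discr M : ℝ)|)) := by
  unfold bad
  have h0 : (Bm M q : ℝ) = q * |(discr M : ℝ)| := by
    unfold Bm
    push_cast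
    rw [Nat.cast_natAbs]
    push_cast
    rfl
  rw [h0]
  have h1 : (1 : ℝ) ≤ q * |(discr M : ℝ)| := by
    rw [← h0]
    exact_mod_cast Nat.one_le_iff_ne_zero.mpr (Bm_ne_zero (M := M) hq)
  have h2 : 0 ≤ Real.log (q * |(discr M : ℝ)|) := Real.log_nonneg h1
  have h3 : Real.log (q * |(discr M : ℝ)|) ≤ Real.logb 2 (q * |(discr M : ℝ)|) := by
    rw [Real.logb, le_div_iff₀ (Real.log_pos one_lt_two)]
    have := Real.log_two_lt_d9
    nlinarith
  have h4 : Real.log (1 + Real.log (q * |(discr M : ℝ)|)) ≤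
      Real.log (1 + Real.logb 2 (q * |(discr M : ℝ)|)) :=
    Real.log_le_log (by linarith) (by linarith)
  linarith

/-- **BRIDGE.** -/
theorem bridge_fld {C0 : ℝ} (hq : q ≠ 0) (d : FldData M q A)
    (hE : ∀ H : Subgroup (M ≃ₐ[ℚ] M), EulE C0 (IntermediateField.fixedField H)) :
    Bridge (C0 + 3 * Module.finrank ℚ M) d := by
  classical
  intro H ψ s hs
  have hqz : NeZero q := ⟨hq⟩
  obtain ⟨⟨hz0, hz⟩, hL⟩ := hE H s hs
  set E := IntermediateField.fixedField H with hEdef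
  -- the two cases have a common form
  have key : ∀ (a : Nat.Primes → ℝ) (w : ℝ),
      (∀ p, |a p| ≤ Module.finrank ℚ M) →
      (∀ p : Nat.Primes, ¬ (p : ℕ) ∣ Bm M q →
        a p = (fx H (d.φ p) : ℝ) * ((ψ (d.pr (d.φ p)) : ℂˣ) : ℂ).re) →
      |w - ∑' p : Nat.Primes, a p * ((p : ℕ) : ℝ) ^ (-(1 + s))| ≤ C0 →
      |w - R d.pr (d.V s) H ψ| ≤ C0 + 3 * Module.finrank ℚ M +
        Module.finrank ℚ M * Real.log (1 + Real.logb 2 (q * |(discr M : ℝ)|)) := by
    intro a w ha hg hw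
    have h1 := (bridge d.φ (Bm M q) (Bm_ne_zero hq) hs.1
      (fun y => (fx H y : ℝ) * ((ψ (d.pr y) : ℂˣ) : ℂ).re) a (Module.finrank ℚ M) ha hg).2
    have h2 : R d.pr (d.V s) H ψ =
        ∑ y, V d.φ (Bm M q) s y * ((fx H y : ℝ) * ((ψ (d.pr y) : ℂˣ) : ℂ).re) := by
      rw [R_eq]
      refine Finset.sum_congr rfl fun y _ => ?_
      rw [V_eq]; ring
    rw [← h2] at h1
    have h3 : (Module.finrank ℚ M : ℝ) * bad (Bm M q) ≤ Module.finrank ℚ M *
        (3 + Real.log (1 + Real.logb 2 (q * |(discr M : ℝ)|))) :=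
      mul_le_mul_of_nonneg_left (bad_le hq) (Nat.cast_nonneg _)
    have h4 := abs_sub_le w (∑' p : Nat.Primes, a p * ((p : ℕ) : ℝ) ^ (-(1 + s)))
      (R d.pr (d.V s) H ψ)
    linarith
  have hrE : ∀ p : Nat.Primes, (rE E p : ℝ) ≤ Module.finrank ℚ M := fun p => by
    exact_mod_cast (rE_prime_le E p.2).trans (finrank_fixed_le H)
  have hgood : ∀ p : Nat.Primes, ¬ (p : ℕ) ∣ Bm M q → (rE E p : ℝ) = (fx H (d.φ p) : ℝ) := by
    intro p hp
    have h1 := (good_iff (M := M) (q := q) p.2).mpr hp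
    exact_mod_cast d.hfix p p.2 h1.2.2 H
  unfold FldData.F
  by_cases hψ : ψ = 1
  · rw [if_pos hψ]
    refine ⟨by exact_mod_cast hz0, ?_⟩
    rw [Complex.norm_real, Real.norm_eq_abs, Real.log_abs]
    refine key (fun p => (rE E p : ℝ)) _ (fun p => ?_) (fun p hp => ?_) hz
    · rw [abs_of_nonneg (Nat.cast_nonneg _)]
      exact hrE p
    · rw [hgood p hp, hψ]
      simp
  · rw [if_neg hψ]
    obtain ⟨h1, h2⟩ := hL q hqz (d.dir ψ)
    refine ⟨h1, key (fun p => ((d.dir ψ) ((p : ℕ) : ZMod q)).re * (rE E p : ℝ)) _ (fun p => ?_)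
      (fun p hp => ?_) h2⟩
    · rw [abs_mul, abs_of_nonneg (Nat.cast_nonneg (rE E p) : (0 : ℝ) ≤ (rE E p : ℝ))]
      calc |((d.dir ψ) ((p : ℕ) : ZMod q)).re| * (rE E p : ℝ)
          ≤ 1 * (rE E p : ℝ) := by
            refine mul_le_mul_of_nonneg_right ?_ (Nat.cast_nonneg _)
            exact (Complex.abs_re_le_norm _).trans (DirichletCharacter.norm_le_one _ _)
        _ ≤ _ := by rw [one_mul]; exact hrE p
    · have h3 := (good_iff (M := M) (q := q) p.2).mpr hp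
      have h4 : ((p : ℕ) : ZMod q) = ((ZMod.unitOfCoprime p h3.2.1 : (ZMod q)ˣ) : ZMod q) :=
        (ZMod.coe_unitOfCoprime _ _).symm
      rw [hgood p hp, h4]
      unfold FldData.dir
      rw [MulChar.ofUnitHom_coe, d.hχ p p.2 h3.2.1 h3.2.2, mul_comm]
      rfl

end Field

end Crest.Agent.R014.N1Br_652
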