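import Mathlib

/-!
Row 14, Theorem N1: the restriction to `B` of an arithmetic Frobenius of `M ⊇ B` at an unramified
prime is the Artin map `χ p` (characterised by the congruence `χ p x ≡ x ^ p mod p`).
-/

set_option autoImplicit false

open scoped NumberField
open NumberField

namespace Crest.Agent.R014.N1C_693

theorem restrict_frob {M B : Type*} [Field M] [NumberField M] [Field B] [NumberField B]
    [Algebra B M] {p : ℕ} (hp : p.Prime) (hdisc : ¬ (p : ℤ) ∣ discr B) (P : Ideal (𝓞 M))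
    (hP : P.IsPrime) (hpP : (p : 𝓞 M) ∈ P) (σ : Gal(M/ℚ)) (hσ : ∀ x : 𝓞 M, σ • x - x ^ p ∈ P)
    (τ τ' : Gal(B/ℚ)) (hτ : ∀ x : B, algebraMap B M (τ x) = σ (algebraMap B M x))
    (hτ' : ∀ x : B, IsIntegral ℤ x → ∃ y : B, IsIntegral ℤ y ∧ τ' x - x ^ p = p * y) :
    τ = τ' := by
  classical
  have hpZ : Prime (p : ℤ) := Nat.prime_iff_prime_int.mp hp
  let Q : Ideal (𝓞 B) := P.comap (algebraMap (𝓞 B) (𝓞 M))
  have hQ : Q.IsPrime := Ideal.comap_isPrime _ P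
  have hpQ : (p : 𝓞 B) ∈ Q := by
    rw [Ideal.mem_comap, map_natCast]; exact hpP
  have hunr : Algebra.IsUnramifiedAt ℤ Q :=
    (not_dvd_discr_iff_forall_mem B (𝓞 B) hpZ).mp hdisc Q hQ (by exact_mod_cast hpQ)
  have hover : Q.LiesOver (Ideal.span {(p : ℤ)}) :=
    (Ideal.liesOver_span_iff hQ.ne_top hpZ).mpr (by exact_mod_cast hpQ)
  have hcard : Nat.card (ℤ ⧸ Q.under ℤ) = p := by
    rw [← hover.over, Nat.card_congr (Int.quotientSpanNatEquivZMod p).toEquiv, Nat.card_zmod]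
  let φ : 𝓞 B →ₐ[ℤ] 𝓞 B := MulSemiringAction.toAlgHom ℤ (𝓞 B) τ
  let ψ : 𝓞 B →ₐ[ℤ] 𝓞 B := MulSemiringAction.toAlgHom ℤ (𝓞 B) τ'
  have hφ : φ.IsArithFrobAt Q := by
    intro x
    rw [hcard, Ideal.mem_comap]
    have h1 := hσ (algebraMap (𝓞 B) (𝓞 M) x)
    convert h1 using 1
    rw [map_sub, map_pow]
    congr 1
    apply RingOfIntegers.ext
    exact hτ x
  have hψ : ψ.IsArithFrobAt Q := by
    intro x
    rw [hcard]
    obtain ⟨y, hy, hy2⟩ := hτ' x x.isIntegral_coe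
    obtain ⟨z, hz⟩ : ∃ z : 𝓞 B, algebraMap (𝓞 B) B z = y := ⟨⟨y, hy⟩, rfl⟩
    have h1 : ψ x - x ^ p = (p : 𝓞 B) * z := by
      apply RingOfIntegers.ext
      change algebraMap (𝓞 B) B _ = algebraMap (𝓞 B) B _
      rw [map_sub, map_pow, map_mul, map_natCast, hz]
      exact hy2
    rw [h1]
    exact Ideal.mul_mem_right _ _ hpQ
  have heq : φ = ψ := hφ.eq_of_isUnramifiedAt hψ (by
    intro x hx
    rw [mem_nonZeroDivisors_iff_ne_zero]
    rintro rfl
    exact hx Q.zero_mem)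
  -- conclude on B
  have hO : ∀ x : 𝓞 B, τ (x : B) = τ' (x : B) := by
    intro x
    have := congrArg (fun f : 𝓞 B →ₐ[ℤ] 𝓞 B => ((f x : 𝓞 B) : B)) heq
    exact this
  ext x
  obtain ⟨a, b, hb, rfl⟩ := IsFractionRing.div_surjective (A := 𝓞 B) x
  rw [map_div₀, map_div₀]
  congr 1
  · exact hO a
  · exact hO b

end Crest.Agent.R014.N1C_693
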