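import Mathlib

/-!
Row 14, Theorem N1: discriminant bounds. If a number field `M` of degree `g` is generated by
totally real subfields of degree `≤ n` and discriminant `≤ X`, then `|disc E| ≤ |disc M| ≤ C X ^ C`.
-/

set_option autoImplicit false

open scoped Pointwise NumberField
open NumberField

namespace Crest.Agent.R014.N1D_693

section span

variable {A : Type*} [Field A] [Algebra ℚ A] [FiniteDimensional ℚ A]

theorem exists_pow_stab (V : Submodule ℚ A) (h1 : (1 : A) ∈ V) :
    ∃ k ≤ Module.finrank ℚ A, V ^ (k + 1) = V ^ k := by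
  by_contra hcon
  push Not at hcon
  have hmono : ∀ k, V ^ k ≤ V ^ (k + 1) := by
    intro k
    rw [pow_succ]
    calc V ^ k = V ^ k * 1 := (mul_one _).symm
      _ ≤ V ^ k * V := by
        gcongr
        rw [Submodule.one_le]; exact h1
  have key : ∀ k ≤ Module.finrank ℚ A + 1, k ≤ Module.finrank ℚ ↥(V ^ k) := by
    intro k
    induction k with
    | zero => intro _; exact Nat.zero_le _
    | succ k ih =>
      intro hk
      have h2 := ih (by omega)
      have h3 : V ^ k < V ^ (k + 1) := lt_of_le_of_ne (hmono k) (fun h => hcon k (by omega) h.symm)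
      have := Submodule.finrank_lt_finrank_of_lt h3
      omega
  have h2 := key _ le_rfl
  have h3 := Submodule.finrank_le (V ^ (Module.finrank ℚ A + 1))
  omega

theorem exists_pow_eq_top (T : Set A) (h1 : (1 : A) ∈ T) (hT : Algebra.adjoin ℚ T = ⊤) :
    ∃ k ≤ Module.finrank ℚ A, Submodule.span ℚ (T ^ k) = ⊤ := by
  obtain ⟨k, hk, hstab⟩ := exists_pow_stab (Submodule.span ℚ T) (Submodule.subset_span h1)
  refine ⟨k, hk, ?_⟩
  rw [← Submodule.span_pow]
  set V := Submodule.span ℚ T
  have hone : (1 : A) ∈ V ^ k := by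
    have : (1 : Submodule ℚ A) ≤ V ^ k := one_le_pow_of_one_le' (by
      rw [Submodule.one_le]; exact Submodule.subset_span h1) k
    rwa [Submodule.one_le] at this
  have hmul : ∀ x ∈ V ^ k, ∀ t ∈ T, x * t ∈ V ^ k := by
    intro x hx t ht
    rw [← hstab, pow_succ]
    exact Submodule.mul_mem_mul hx (Submodule.subset_span ht)
  rw [eq_top_iff]
  intro x _
  have hx : x ∈ Algebra.adjoin ℚ T := by rw [hT]; trivial
  have key : ∀ y ∈ Algebra.adjoin ℚ T, ∀ z ∈ V ^ k, z * y ∈ V ^ k := by
    intro y hy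
    induction hy using Algebra.adjoin_induction with
    | mem t ht => exact fun z hz => hmul z hz t ht
    | algebraMap r =>
      intro z hz
      rw [mul_comm, ← Algebra.smul_def]
      exact Submodule.smul_mem _ r hz
    | add a b _ _ iha ihb =>
      intro z hz
      rw [mul_add]
      exact Submodule.add_mem _ (iha z hz) (ihb z hz)
    | mul a b _ _ iha ihb =>
      intro z hz
      rw [← mul_assoc]
      exact ihb _ (iha z hz)
  have := key x hx 1 hone
  rwa [one_mul] at this

end span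

/-- A basis of integers bounds the discriminant. -/
theorem discr_le_of_basis {M : Type*} [Field M] [NumberField M] {ι : Type*} [Fintype ι]
    [DecidableEq ι] (b : Module.Basis ι ℚ M) (hb : ∀ i, IsIntegral ℤ (b i)) :
    |(discr M : ℝ)| ≤ |((Algebra.discr ℚ b : ℚ) : ℝ)| := by
  classical
  let ω := integralBasis M
  have hcard : Fintype.card ι = Fintype.card (Module.Free.ChooseBasisIndex ℤ (𝓞 M)) := by
    rw [← Module.finrank_eq_card_basis b, ← Module.finrank_eq_card_basis ω]
  let e : ι ≃ Module.Free.ChooseBasisIndex ℤ (𝓞 M) := Fintype.equivOfCardEq hcard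
  let b' : Module.Basis (Module.Free.ChooseBasisIndex ℤ (𝓞 M)) ℚ M := b.reindex e
  have hdisc : Algebra.discr ℚ b' = Algebra.discr ℚ b := by
    rw [← Algebra.discr_reindex ℚ b e, Module.Basis.coe_reindex]
  have hint : ∀ i, ∃ z : 𝓞 M, (z : M) = b' i := by
    intro i
    refine ⟨⟨b' i, ?_⟩, rfl⟩
    rw [Module.Basis.reindex_apply]
    exact hb _
  choose z hz using hint
  let P : Matrix (Module.Free.ChooseBasisIndex ℤ (𝓞 M)) (Module.Free.ChooseBasisIndex ℤ (𝓞 M)) ℤ :=
    fun i j => (RingOfIntegers.basis M).repr (z j) i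
  have hP : ω.toMatrix b' = P.map (Int.cast : ℤ → ℚ) := by
    ext i j
    rw [Module.Basis.toMatrix_apply, ← hz j, Matrix.map_apply]
    exact integralBasis_repr_apply M (z j) i
  have h1 : Algebra.discr ℚ b' = (P.det : ℚ) ^ 2 * (discr M : ℚ) := by
    have h2 := Algebra.discr_of_matrix_vecMul (A := ℚ) ω (ω.toMatrix b')
    rw [Module.Basis.toMatrix_map_vecMul] at h2
    rw [h2, coe_discr, hP]
    congr 2
    exact (RingHom.map_det (Int.castRingHom ℚ) P).symm
  have hne : Algebra.discr ℚ b' ≠ 0 := Algebra.discr_not_zero_of_basis ℚ b'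
  have hdet : P.det ≠ 0 := by
    intro h0
    rw [h1, h0] at hne
    simp at hne
  have hdet1 : (1 : ℝ) ≤ (P.det : ℝ) ^ 2 := by
    have : (1 : ℤ) ≤ P.det ^ 2 := by
      have := sq_nonneg P.det
      have h3 : P.det ^ 2 ≠ 0 := pow_ne_zero 2 hdet
      omega
    exact_mod_cast this
  have h4 : (((P.det : ℚ) ^ 2 * (discr M : ℚ) : ℚ) : ℝ) = (P.det : ℝ) ^ 2 * (discr M : ℝ) := by
    generalize P.det = d
    push_cast
    ring
  rw [← hdisc, h1, h4, abs_mul, abs_of_nonneg (sq_nonneg (P.det : ℝ))]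
  nlinarith [abs_nonneg (discr M : ℝ)]

/-- discriminant of a basis with bounded conjugates. -/
theorem discr_basis_le {M : Type*} [Field M] [NumberField M] {ι : Type*} [Fintype ι]
    [DecidableEq ι] (b : Module.Basis ι ℚ M) (Y : ℝ) (hb : ∀ i, ∀ φ : M →+* ℂ, ‖φ (b i)‖ ≤ Y) :
    |((Algebra.discr ℚ b : ℚ) : ℝ)| ≤
      ((Module.finrank ℚ M).factorial * Y ^ Module.finrank ℚ M) ^ 2 := by
  classical
  have hcard : Fintype.card ι = Module.finrank ℚ M := (Module.finrank_eq_card_basis b).symm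
  have hcard2 : Fintype.card ι = Fintype.card (M →ₐ[ℚ] ℂ) := by
    rw [hcard, AlgHom.card]
  let e : ι ≃ (M →ₐ[ℚ] ℂ) := Fintype.equivOfCardEq hcard2
  have h1 := Algebra.discr_eq_det_embeddingsMatrixReindex_pow_two ℚ ℂ b e
  have h2 : |((Algebra.discr ℚ b : ℚ) : ℝ)| = ‖(algebraMap ℚ ℂ (Algebra.discr ℚ b))‖ := by
    rw [show algebraMap ℚ ℂ (Algebra.discr ℚ b) = (((Algebra.discr ℚ b : ℚ) : ℝ) : ℂ) by simp,
      Complex.norm_real, Real.norm_eq_abs]
  rw [h2, h1, norm_pow]
  refine pow_le_pow_left₀ (norm_nonneg _) ?_ 2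
  have h3 := Matrix.det_le (A := Algebra.embeddingsMatrixReindex ℚ ℂ b e)
    (abv := NormedField.toAbsoluteValue ℂ) (x := Y) (fun i j => hb i (e j).toRingHom)
  rw [hcard, nsmul_eq_mul] at h3
  exact h3

/-- A number field generated by bounded integers has bounded discriminant. -/
theorem discr_le_of_adjoin {M : Type*} [Field M] [NumberField M] (T : Set M)
    (hTint : ∀ x ∈ T, IsIntegral ℤ x) (Y : ℝ) (hY : 1 ≤ Y)
    (hTY : ∀ x ∈ T, ∀ φ : M →+* ℂ, ‖φ x‖ ≤ Y) (hT : Algebra.adjoin ℚ T = ⊤) :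
    |(discr M : ℝ)| ≤
      ((Module.finrank ℚ M).factorial * Y ^ (Module.finrank ℚ M * Module.finrank ℚ M)) ^ 2 := by
  classical
  set g := Module.finrank ℚ M with hg
  have h1T : Algebra.adjoin ℚ (insert 1 T) = ⊤ := by
    rw [eq_top_iff, ← hT]
    exact Algebra.adjoin_mono (Set.subset_insert _ _)
  obtain ⟨k, hk, hspan⟩ := exists_pow_eq_top (insert 1 T) (Set.mem_insert _ _) h1T
  have hall : ∀ k, ∀ x ∈ (insert (1 : M) T) ^ k, IsIntegral ℤ x ∧ ∀ φ : M →+* ℂ, ‖φ x‖ ≤ Y ^ k := by
    intro k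
    induction k with
    | zero =>
      intro x hx
      rw [pow_zero, Set.mem_one] at hx
      subst hx
      exact ⟨isIntegral_one, fun φ => by simp⟩
    | succ k ih =>
      intro x hx
      rw [pow_succ] at hx
      obtain ⟨a, ha, t, ht, rfl⟩ := Set.mem_mul.mp hx
      obtain ⟨h1, h2⟩ := ih a ha
      rcases Set.mem_insert_iff.mp ht with rfl | ht
      · refine ⟨by rwa [mul_one], fun φ => ?_⟩
        rw [mul_one]
        exact (h2 φ).trans (pow_le_pow_right₀ hY (Nat.le_succ k))
      · refine ⟨h1.mul (hTint t ht), fun φ => ?_⟩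
        rw [map_mul, norm_mul, pow_succ]
        exact mul_le_mul (h2 φ) (hTY t ht φ) (norm_nonneg _) (by positivity)
  obtain ⟨b, hbsub, hbspan, hbli⟩ := exists_linearIndependent ℚ ((insert (1 : M) T) ^ k)
  have hbfin : Finite b := hbli.finite
  have : Fintype b := Fintype.ofFinite b
  let B : Module.Basis b ℚ M := Module.Basis.mk hbli (by rw [Subtype.range_coe, hbspan, hspan])
  have hB : ∀ i : b, B i = (i : M) := fun i => by simp [B]
  have h1 := discr_le_of_basis B (fun i => by rw [hB]; exact (hall k _ (hbsub i.2)).1)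
  have h2 := discr_basis_le B (Y ^ k) (fun i φ => by rw [hB]; exact (hall k _ (hbsub i.2)).2 φ)
  refine h1.trans (h2.trans ?_)
  rw [← hg, ← pow_mul]
  have hle : Y ^ (k * g) ≤ Y ^ (g * g) :=
    pow_le_pow_right₀ hY (Nat.mul_le_mul_right g hk)
  gcongr

/-- Minkowski: a totally real number field has a primitive integer with small conjugates. -/
theorem exists_small_gen (F : Type*) [Field F] [NumberField F] [IsTotallyReal F] :
    ∃ a : 𝓞 F, IntermediateField.adjoin ℚ {(a : F)} = ⊤ ∧
      ∀ φ : F →+* ℂ, ‖φ (a : F)‖ ≤ 2 ^ Module.finrank ℚ F * Real.sqrt |(discr F : ℝ)| + 1 := by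
  classical
  obtain ⟨w₀⟩ : Nonempty (InfinitePlace F) := inferInstance
  let B : NNReal := 2 ^ Module.finrank ℚ F * NNReal.sqrt ‖discr F‖₊ + 1
  have hmink : mixedEmbedding.minkowskiBound F ↑1 < mixedEmbedding.convexBodyLTFactor F * B := by
    have h1 : mixedEmbedding.minkowskiBound F ↑1 ≤
        ((2 ^ Module.finrank ℚ F * NNReal.sqrt ‖discr F‖₊ : NNReal) : ENNReal) := by
      rw [mixedEmbedding.minkowskiBound,
        mixedEmbedding.volume_fundamentalDomain_fractionalIdealLatticeBasis, Units.val_one,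
        FractionalIdeal.absNorm_one, Rat.cast_one, ENNReal.ofReal_one, one_mul,
        mixedEmbedding.finrank, mixedEmbedding.volume_fundamentalDomain_latticeBasis]
      rw [ENNReal.coe_mul, ENNReal.coe_pow, ENNReal.coe_ofNat, mul_comm]
      gcongr
      calc _ ≤ (1 : ENNReal) * (NNReal.sqrt ‖discr F‖₊ : ENNReal) := by
            gcongr
            exact pow_le_one₀ (by positivity) (by simp)
        _ = _ := one_mul _
    have h2 : (1 : NNReal) ≤ mixedEmbedding.convexBodyLTFactor F :=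
      mixedEmbedding.one_le_convexBodyLTFactor F
    refine h1.trans_lt ?_
    rw [← ENNReal.coe_mul, ENNReal.coe_lt_coe]
    calc 2 ^ Module.finrank ℚ F * NNReal.sqrt ‖discr F‖₊ < B := by
          simp only [B]; exact lt_add_one _
      _ = 1 * B := (one_mul _).symm
      _ ≤ mixedEmbedding.convexBodyLTFactor F * B := by gcongr
  obtain ⟨a, ha, hlt⟩ := mixedEmbedding.exists_primitive_element_lt_of_isReal F
    (IsTotallyReal.isReal w₀) hmink
  refine ⟨a, ha, fun φ => ?_⟩
  have h := (hlt (InfinitePlace.mk φ)).le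
  have hB : (max B 1 : NNReal) = B := max_eq_left (by simp only [B]; exact le_add_self)
  rw [InfinitePlace.apply] at h
  refine h.trans (le_of_eq ?_)
  rw [hB]
  simp only [B]
  push_cast
  congr 3

/-- **N1-DISC.** `M` generated by totally real fields `F i` of degree `≤ n`, discriminant `≤ X`. -/
theorem discr_le_of_iSup {M : Type*} [Field M] [NumberField M] {ι : Type*} (F : ι → Type*)
    [∀ i, Field (F i)] [∀ i, NumberField (F i)] [∀ i, IsTotallyReal (F i)]
    (f : ∀ i, F i →ₐ[ℚ] M) (hf : (⨆ i, (f i).fieldRange : IntermediateField ℚ M) = ⊤)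
    (n : ℕ) (hn : ∀ i, Module.finrank ℚ (F i) ≤ n) (X : ℝ) (hX : ∀ i, |(discr (F i) : ℝ)| ≤ X) :
    |(discr M : ℝ)| ≤ ((Module.finrank ℚ M).factorial *
      (2 ^ n * Real.sqrt X + 1) ^ (Module.finrank ℚ M * Module.finrank ℚ M)) ^ 2 := by
  choose a ha hbd using fun i => exists_small_gen (F i)
  refine discr_le_of_adjoin (Set.range fun i => f i (a i : F i)) ?_ _ ?_ ?_ ?_
  · rintro _ ⟨i, rfl⟩
    exact (a i).isIntegral_coe.map (f i).toRingHom.toIntAlgHom
  · have : 0 ≤ 2 ^ n * Real.sqrt X := by positivity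
    linarith
  · rintro _ ⟨i, rfl⟩ φ
    refine (hbd i (φ.comp (f i).toRingHom)).trans ?_
    have h1 : (2 : ℝ) ^ Module.finrank ℚ (F i) ≤ 2 ^ n := pow_le_pow_right₀ (by norm_num) (hn i)
    have h2 : Real.sqrt |(discr (F i) : ℝ)| ≤ Real.sqrt X := Real.sqrt_le_sqrt (hX i)
    gcongr
  · have hint : ∀ x ∈ Set.range (fun i => f i (a i : F i)), IsAlgebraic ℚ x := fun x _ =>
      Algebra.IsAlgebraic.isAlgebraic x
    rw [← IntermediateField.adjoin_toSubalgebra_of_isAlgebraic hint]
    have : IntermediateField.adjoin ℚ (Set.range (fun i => f i (a i : F i))) = ⊤ := by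
      rw [eq_top_iff, ← hf]
      refine iSup_le fun i => ?_
      rintro _ ⟨x, rfl⟩
      have hx : x ∈ IntermediateField.adjoin ℚ {(a i : F i)} := by rw [ha i]; trivial
      have h2 : (IntermediateField.adjoin ℚ {(a i : F i)}).map (f i) ≤
          IntermediateField.adjoin ℚ (Set.range (fun i => f i (a i : F i))) := by
        rw [IntermediateField.adjoin_map, Set.image_singleton]
        exact IntermediateField.adjoin.mono ℚ _ _ (by
          rintro _ rfl; exact ⟨i, rfl⟩)
      exact h2 ⟨x, hx, rfl⟩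
    rw [this]
    rfl

theorem abs_discr_le_of_algebra (E M : Type*) [Field E] [NumberField E] [Field M] [NumberField M]
    [Algebra E M] : |(discr E : ℝ)| ≤ |(discr M : ℝ)| := by
  have h := discr_dvd_discr E M
  have h2 : |discr E| ≤ |discr M| := Int.le_of_dvd (abs_pos.mpr (discr_ne_zero M))
    ((abs_dvd_abs _ _).mpr h)
  exact_mod_cast h2

/-- polynomial form: `|disc E| ≤ C X ^ C` for every subfield `E` of `M`, `C` depends only on the
bounds `g`, `n` for the degrees of `M` and of the generating totally real fields `F i`. -/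
theorem discr_le_rpow (g n : ℕ) : ∃ C : ℝ, 1 ≤ C ∧ ∀ (M : Type*) [Field M] [NumberField M]
    (ι : Type*) (F : ι → Type*) [∀ i, Field (F i)] [∀ i, NumberField (F i)]
    [∀ i, IsTotallyReal (F i)] (f : ∀ i, F i →ₐ[ℚ] M)
    (E : Type*) [Field E] [NumberField E] [Algebra E M] (X : ℝ),
    (⨆ i, (f i).fieldRange : IntermediateField ℚ M) = ⊤ → Module.finrank ℚ M ≤ g →
    (∀ i, Module.finrank ℚ (F i) ≤ n) → 1 ≤ X → (∀ i, |(discr (F i) : ℝ)| ≤ X) →
    |(discr E : ℝ)| ≤ C * X ^ C := by
  refine ⟨max ((g.factorial * (2 ^ (n + 1)) ^ (g * g)) ^ 2) (2 * (g * g : ℕ)) , ?_, ?_⟩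
  · refine le_max_of_le_left ?_
    have h1 : (1 : ℝ) ≤ g.factorial := by exact_mod_cast Nat.one_le_iff_ne_zero.mpr g.factorial_ne_zero
    have h2 : (1 : ℝ) ≤ (2 ^ (n + 1)) ^ (g * g) :=
      one_le_pow₀ (one_le_pow₀ (by norm_num))
    exact one_le_pow₀ (one_le_mul_of_one_le_of_one_le h1 h2)
  · intro M _ _ ι F _ _ _ f E _ _ _ X hf hg hn hX1 hX
    set C : ℝ := max (((g.factorial : ℝ) * (2 ^ (n + 1)) ^ (g * g)) ^ 2) (2 * (g * g : ℕ)) with hC
    refine (abs_discr_le_of_algebra E M).trans ((discr_le_of_iSup F f hf n hn X hX).trans ?_)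
    have hX0 : 0 < X := by linarith
    have h1 : 2 ^ n * Real.sqrt X + 1 ≤ 2 ^ (n + 1) * X := by
      have hs : Real.sqrt X ≤ X := by
        rw [Real.sqrt_le_left hX0.le]
        nlinarith
      have h2 : (1 : ℝ) ≤ 2 ^ n := one_le_pow₀ (by norm_num)
      have h3 : 2 ^ n * Real.sqrt X ≤ 2 ^ n * X := by gcongr
      have h4 : 1 ≤ 2 ^ n * X := one_le_mul_of_one_le_of_one_le h2 hX1
      rw [pow_succ]
      linarith
    have h5 : (1 : ℝ) ≤ 2 ^ (n + 1) * X :=
      one_le_mul_of_one_le_of_one_le (one_le_pow₀ (by norm_num)) hX1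
    have hfac : ((Module.finrank ℚ M).factorial : ℝ) ≤ g.factorial := by
      exact_mod_cast Nat.factorial_le hg
    calc ((Module.finrank ℚ M).factorial *
        (2 ^ n * Real.sqrt X + 1) ^ (Module.finrank ℚ M * Module.finrank ℚ M)) ^ 2
        ≤ (g.factorial * (2 ^ (n + 1) * X) ^ (g * g)) ^ 2 := by
          have h6 : (2 ^ n * Real.sqrt X + 1) ^ (Module.finrank ℚ M * Module.finrank ℚ M) ≤
              (2 ^ (n + 1) * X) ^ (g * g) :=
            (pow_le_pow_left₀ (by positivity) h1 _).trans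
              (pow_le_pow_right₀ h5 (Nat.mul_le_mul hg hg))
          gcongr
      _ = (g.factorial * (2 ^ (n + 1)) ^ (g * g)) ^ 2 * X ^ (2 * (g * g)) := by
          rw [mul_pow, mul_pow, mul_pow, mul_pow, ← pow_mul X (g * g) 2, mul_comm (g * g) 2]
          ring
      _ ≤ C * X ^ C := by
          have h7 : X ^ (2 * (g * g)) ≤ X ^ C := by
            rw [← Real.rpow_natCast]
            refine Real.rpow_le_rpow_of_exponent_le hX1 ?_
            refine (le_of_eq ?_).trans (le_max_right _ _)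
            push_cast
            ring
          have h8 : ((g.factorial : ℝ) * (2 ^ (n + 1)) ^ (g * g)) ^ 2 ≤ C := le_max_left _ _
          have h9 : 0 ≤ ((g.factorial : ℝ) * (2 ^ (n + 1)) ^ (g * g)) ^ 2 := by positivity
          exact mul_le_mul h8 h7 (by positivity) (h9.trans h8)

end Crest.Agent.R014.N1D_693
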