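import Crest.Agent.R014.TwoTr2_853

/-!
# The action of `Gal(L/ℚ)` on the embeddings `K → L`
-/

set_option autoImplicit false

open MulAction

namespace Crest.Agent.R014.TwoTr3_853

open Crest.Agent.R014.TwoTr_853 Crest.Agent.R014.TwoTr2_853 Crest.NumberTheoryR.Packets

/-- The embeddings of `K` into `L` over `ℚ`. -/
def Emb (K L : Type*) [Field K] [NumberField K] [Field L] [NumberField L] : Type _ := K →ₐ[ℚ] L

variable {K L : Type*} [Field K] [NumberField K] [Field L] [NumberField L]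

instance : MulAction (L ≃ₐ[ℚ] L) (Emb K L) where
  smul σ φ := (σ.toAlgHom.comp φ : K →ₐ[ℚ] L)
  one_smul φ := by
    apply AlgHom.ext
    intro x
    rfl
  mul_smul σ τ φ := by
    apply AlgHom.ext
    intro x
    rfl

theorem smul_def (σ : L ≃ₐ[ℚ] L) (φ : Emb K L) :
    σ • φ = (σ.toAlgHom.comp φ : K →ₐ[ℚ] L) := rfl

theorem smul_apply (σ : L ≃ₐ[ℚ] L) (φ : Emb K L) (x : K) :
    (show K →ₐ[ℚ] L from σ • φ) x = σ ((show K →ₐ[ℚ] L from φ) x) := rfl

instance : Finite (Emb K L) := inferInstanceAs (Finite (K →ₐ[ℚ] L))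

noncomputable instance : Fintype (Emb K L) := Fintype.ofFinite _

/-- the stabilizer of an embedding -/
theorem stabilizer_eq (φ : Emb K L) :
    stabilizer (L ≃ₐ[ℚ] L) φ = (show K →ₐ[ℚ] L from φ).fieldRange.fixingSubgroup := by
  ext σ
  rw [mem_stabilizer_iff, IntermediateField.mem_fixingSubgroup_iff]
  constructor
  · rintro h _ ⟨x, rfl⟩
    exact congrArg (fun f : K →ₐ[ℚ] L => f x) h
  · intro h
    apply AlgHom.ext
    intro x
    exact h _ ⟨x, rfl⟩

variable [IsGalois ℚ L]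

instance isPretransitive : IsPretransitive (L ≃ₐ[ℚ] L) (Emb K L) := by
  constructor
  intro φ ψ
  obtain ⟨α, hα⟩ := Field.exists_primitive_element ℚ K
  have hint : IsIntegral ℚ α := Algebra.IsIntegral.isIntegral α
  have h1 : minpoly ℚ ((show K →ₐ[ℚ] L from ψ) α) = minpoly ℚ ((show K →ₐ[ℚ] L from φ) α) := by
    rw [minpoly.algHom_eq _ (RingHom.injective _), minpoly.algHom_eq _ (RingHom.injective _)]
  rw [Normal.minpoly_eq_iff_mem_orbit] at h1
  obtain ⟨σ, hσ⟩ := h1
  refine ⟨σ, ?_⟩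
  have key : ∀ x : K, x ∈ (AlgHom.equalizer (σ.toAlgHom.comp (show K →ₐ[ℚ] L from φ))
      (show K →ₐ[ℚ] L from ψ)) := by
    intro x
    have hx : x ∈ IntermediateField.adjoin ℚ {α} := by rw [hα]; trivial
    rw [← IntermediateField.mem_toSubalgebra,
      IntermediateField.adjoin_simple_toSubalgebra_of_isAlgebraic hint.isAlgebraic] at hx
    refine Algebra.adjoin_le ?_ hx
    intro y hy
    rw [Set.mem_singleton_iff] at hy
    rw [hy]
    exact hσ
  apply AlgHom.ext
  intro x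
  exact key x

theorem card_emb (φ : Emb K L) : Nat.card (Emb K L) = Module.finrank ℚ K := by
  have h := index_stabilizer_of_transitive (L ≃ₐ[ℚ] L) φ
  rw [← h, stabilizer_eq, index_fixingSubgroup]

/-- primitive field: primitive action on the embeddings -/
theorem isPreprimitive_emb (hK : IsPrimitiveField K) (h1 : Module.finrank ℚ K ≠ 1) (φ : Emb K L) :
    IsPreprimitive (L ≃ₐ[ℚ] L) (Emb K L) := by
  have hnt : Nontrivial (Emb K L) := by
    rw [← Finite.one_lt_card_iff_nontrivial, card_emb φ]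
    have : 0 < Module.finrank ℚ K := Module.finrank_pos
    omega
  rw [← isCoatom_stabilizer_iff_preprimitive (L ≃ₐ[ℚ] L) φ, stabilizer_eq]
  exact isCoatom_fixingSubgroup hK h1 _

/-- **N1-2TR, embedding form.** -/
theorem two_trans_emb (hK : IsPrimitiveField K)
    (hd : Module.finrank ℚ K = 4 ∨ Module.finrank ℚ K = 6) (φ : Emb K L) :
    IsMultiplyPretransitive (L ≃ₐ[ℚ] L) (Emb K L) 2 := by
  have := isPreprimitive_emb hK (by omega) φ
  apply isMultiplyPretransitive_two
  rw [← Nat.card_eq_fintype_card, card_emb φ]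
  exact hd

/-- equivariant bijection cosets ≃ embeddings -/
noncomputable def cosetEquiv (φ : Emb K L) :
    ((L ≃ₐ[ℚ] L) ⧸ stabilizer (L ≃ₐ[ℚ] L) φ) ≃ Emb K L :=
  (orbitEquivQuotientStabilizer (L ≃ₐ[ℚ] L) φ).symm.trans
    ((Equiv.setCongr (orbit_eq_univ (L ≃ₐ[ℚ] L) φ)).trans (Equiv.Set.univ _))

theorem cosetEquiv_mk (φ : Emb K L) (σ : L ≃ₐ[ℚ] L) :
    cosetEquiv φ (QuotientGroup.mk σ) = σ • φ := rfl

theorem cosetEquiv_smul (φ : Emb K L) (σ : L ≃ₐ[ℚ] L)
    (x : (L ≃ₐ[ℚ] L) ⧸ stabilizer (L ≃ₐ[ℚ] L) φ) :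
    cosetEquiv φ (σ • x) = σ • cosetEquiv φ x := by
  induction x using QuotientGroup.induction_on with
  | H τ => exact mul_smul σ τ φ

omit [IsGalois ℚ L] in
/-- the action on the embeddings of the normal closure is faithful as soon as the images
generate `L` -/
theorem faithful_emb (hgen : (⨆ φ : K →ₐ[ℚ] L, φ.fieldRange) = ⊤) (σ : L ≃ₐ[ℚ] L)
    (h : ∀ φ : Emb K L, σ • φ = φ) : σ = 1 := by
  have hle : (⨆ φ : K →ₐ[ℚ] L, φ.fieldRange) ≤
      IntermediateField.fixedField (Subgroup.zpowers σ) := by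
    apply iSup_le
    intro φ
    rw [IntermediateField.le_iff_le]
    rw [Subgroup.zpowers_le]
    have this : σ ∈ stabilizer (L ≃ₐ[ℚ] L) (show Emb K L from φ) := h φ
    rw [stabilizer_eq] at this
    exact this
  rw [hgen, top_le_iff] at hle
  have h2 := IntermediateField.fixingSubgroup_fixedField (Subgroup.zpowers σ)
  rw [hle, IntermediateField.fixingSubgroup_top] at h2
  have : σ ∈ Subgroup.zpowers σ := Subgroup.mem_zpowers σ
  rw [← h2] at this
  exact Subgroup.mem_bot.1 this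

end Crest.Agent.R014.TwoTr3_853
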