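import Mathlib
import Crest.Agent.R014.N1G_202
import Crest.Agent.R014.TwoTr3_853

/-!
# N1-FIX: ideals of norm `p` and fixed points of Frobenius

`M` a number field, Galois over `ℚ`, `Γ = Gal(M/ℚ)`, `p ∤ discr M`, `Fr M p` an (arithmetic)
Frobenius at `p`.  For every subgroup `H ≤ Γ` with fixed field `E` the number of ideals of `𝓞 E`
of norm `p` is the number `fx H (Fr M p)` of fixed points of `Fr M p` on `Γ ⧸ H`.
-/

set_option autoImplicit false
set_option linter.unusedSectionVars false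

namespace Crest.Agent.R014.N1F_202

open NumberField Crest.Agent.R014.N1G_202
open scoped Pointwise

/-- ring endomorphisms of a finite field are powers of Frobenius -/
theorem exists_frob_pow {k : Type*} [Field k] [Finite k] (p : ℕ) [Fact p.Prime] [CharP k p]
    (σ : k →+* k) : ∃ j : ℕ, ∀ x, σ x = x ^ (p ^ j) := by
  let _ : Algebra (ZMod p) k := ZMod.algebra k p
  have h0 : (σ.comp (algebraMap (ZMod p) k)) = algebraMap (ZMod p) k := Subsingleton.elim _ _
  let σ' : k →ₐ[ZMod p] k := { σ with commutes' := fun r => congr($h0 r) }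
  obtain ⟨j, hj⟩ := (FiniteField.bijective_frobeniusAlgHom_pow (ZMod p) k).surjective σ'
  refine ⟨j, fun x => ?_⟩
  have h := congr($hj x)
  simp only [AlgHom.coe_pow, FiniteField.coe_frobeniusAlgHom, pow_iterate, ZMod.card] at h
  rw [h]
  rfl

section abstract

variable {S : Type*} [CommRing S]

/-- residue cardinality downstairs -/
theorem card_under (Q : Ideal S) [Q.IsPrime] {p : ℕ} (hp : p.Prime) (hpQ : (p : S) ∈ Q) :
    Nat.card (ℤ ⧸ Q.under ℤ) = p := by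
  have h : Q.LiesOver (Ideal.span {(p : ℤ)}) := by
    rw [Ideal.liesOver_span_iff (Ideal.IsPrime.ne_top inferInstance) (Nat.prime_iff_prime_int.mp hp)]
    simpa using hpQ
  rw [← h.over]
  rw [Nat.card_congr (Int.quotientSpanNatEquivZMod p).toEquiv]
  simp

variable {Γ : Type*} [Group Γ] [MulSemiringAction Γ S]

theorem frob_iff {Q : Ideal S} [Q.IsPrime] {p : ℕ} (hp : p.Prime) (hpQ : (p : S) ∈ Q) {φ : Γ} :
    IsArithFrobAt ℤ φ Q ↔ ∀ x : S, φ • x - x ^ p ∈ Q := by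
  rw [IsArithFrobAt, AlgHom.IsArithFrobAt, card_under Q hp hpQ]
  rfl

/-- uniqueness of Frobenius -/
theorem frob_unique [IsDomain S] [IsNoetherianRing S] [FaithfulSMul Γ S] {Q : Ideal S} [Q.IsPrime]
    [Algebra.IsUnramifiedAt ℤ Q] {σ τ : Γ} (h1 : IsArithFrobAt ℤ σ Q) (h2 : IsArithFrobAt ℤ τ Q) :
    σ = τ := by
  have h := h1.eq_of_isUnramifiedAt h2 (by
    intro x hx
    apply mem_nonZeroDivisors_of_ne_zero
    rintro rfl
    exact hx Q.zero_mem)
  apply FaithfulSMul.eq_of_smul_eq_smul (α := S)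
  intro x
  exact congr($h x)

/-- trivial inertia -/
theorem inertia_trivial [IsDomain S] [IsNoetherianRing S] [FaithfulSMul Γ S] {Q : Ideal S}
    [Q.IsPrime] [Algebra.IsUnramifiedAt ℤ Q] {p : ℕ} (hp : p.Prime) (hpQ : (p : S) ∈ Q) {φ σ : Γ}
    (h1 : IsArithFrobAt ℤ φ Q) (h2 : ∀ x : S, σ • x - x ∈ Q) : σ = 1 := by
  have h3 : IsArithFrobAt ℤ (σ * φ) Q := by
    rw [frob_iff hp hpQ] at h1 ⊢
    intro x
    have h4 := add_mem (h2 (φ • x)) (h1 x)
    rw [mul_smul]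
    convert h4 using 1
    ring
  have h5 := frob_unique h3 h1
  exact mul_eq_right.mp h5

/-- powers of Frobenius -/
theorem frob_pow {Q : Ideal S} [Q.IsPrime] {p : ℕ} (hp : p.Prime) (hpQ : (p : S) ∈ Q) {φ : Γ}
    (h1 : IsArithFrobAt ℤ φ Q) (j : ℕ) (x : S) : φ ^ j • x - x ^ (p ^ j) ∈ Q := by
  rw [frob_iff hp hpQ] at h1
  induction j with
  | zero => simp
  | succ j ih =>
    have h2 := h1 (φ ^ j • x)
    have h3 : (φ ^ j • x) ^ p - (x ^ (p ^ j)) ^ p ∈ Q := by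
      obtain ⟨c, hc⟩ := sub_dvd_pow_sub_pow (φ ^ j • x) (x ^ (p ^ j)) p
      rw [hc]
      exact Q.mul_mem_right _ ih
    have h4 := add_mem h2 h3
    rw [pow_succ' φ j, mul_smul, pow_succ p j, pow_mul]
    convert h4 using 1
    ring

/-- the decomposition group is generated by the Frobenius -/
theorem stab_pow [IsDomain S] [IsNoetherianRing S] [FaithfulSMul Γ S] {Q : Ideal S} [hQ : Q.IsPrime]
    [Finite (S ⧸ Q)] [Algebra.IsUnramifiedAt ℤ Q] {p : ℕ} (hp : p.Prime) (hpQ : (p : S) ∈ Q)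
    {φ τ : Γ} (h1 : IsArithFrobAt ℤ φ Q) (h2 : τ • Q = Q) : ∃ j : ℕ, τ = φ ^ j := by
  have hmax : Q.IsMaximal :=
    Ideal.Quotient.maximal_of_isField _ (Finite.isField_of_domain (S ⧸ Q))
  let _ : Field (S ⧸ Q) := Ideal.Quotient.field Q
  have : Fact p.Prime := ⟨hp⟩
  have hch : CharP (S ⧸ Q) p := by
    have h3 : ((p : ℕ) : S ⧸ Q) = 0 := by
      have := Ideal.Quotient.eq_zero_iff_mem.mpr hpQ
      simpa using this
    obtain ⟨q, hq⟩ := CharP.exists (S ⧸ Q)
    rcases (Nat.dvd_prime hp).mp ((CharP.cast_eq_zero_iff (S ⧸ Q) q p).mp h3) with h4 | h4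
    · exact absurd h4 (CharP.char_ne_one (S ⧸ Q) q)
    · rwa [h4] at hq
  have h3 : Q ≤ Q.comap (MulSemiringAction.toRingHom Γ S τ) := by
    intro x hx
    rw [Ideal.mem_comap]
    have : τ • x ∈ τ • Q := Ideal.smul_mem_pointwise_smul τ x Q hx
    rw [h2] at this
    exact this
  obtain ⟨j, hj⟩ := exists_frob_pow p (Ideal.quotientMap Q (MulSemiringAction.toRingHom Γ S τ) h3)
  refine ⟨j, ?_⟩
  have h4 : ∀ x : S, τ • x - x ^ (p ^ j) ∈ Q := by
    intro x
    have h5 := hj (Ideal.Quotient.mk Q x)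
    rw [Ideal.quotientMap_mk, ← map_pow, Ideal.Quotient.eq] at h5
    exact h5
  have h6 : ∀ x : S, (τ * (φ ^ j)⁻¹) • x - x ∈ Q := by
    intro x
    have h7 := sub_mem (h4 ((φ ^ j)⁻¹ • x)) (frob_pow hp hpQ h1 j ((φ ^ j)⁻¹ • x))
    rw [smul_inv_smul] at h7
    rw [mul_smul]
    convert h7 using 1
    ring
  have h8 := inertia_trivial hp hpQ h1 h6
  exact mul_inv_eq_one.mp h8

/-- a domain of characteristic `p` in which `x ^ p = x` has `p` elements -/
theorem card_of_pow_eq {k : Type*} [CommRing k] [IsDomain k] {p : ℕ} (hp : p.Prime)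
    (h0 : ((p : ℕ) : k) = 0) (h : ∀ x : k, x ^ p = x) : Nat.card k = p := by
  classical
  have : Fact p.Prime := ⟨hp⟩
  have hch : CharP k p := by
    obtain ⟨q, hq⟩ := CharP.exists k
    rcases (Nat.dvd_prime hp).mp ((CharP.cast_eq_zero_iff k q p).mp h0) with h4 | h4
    · exact absurd h4 (CharP.char_ne_one k q)
    · rwa [h4] at hq
  have hdl : (Polynomial.X : Polynomial k).natDegree < (Polynomial.X ^ p : Polynomial k).natDegree := by
    rw [Polynomial.natDegree_X_pow, Polynomial.natDegree_X]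
    exact hp.one_lt
  have hdeg : (Polynomial.X ^ p - Polynomial.X : Polynomial k).natDegree = p := by
    rw [Polynomial.natDegree_sub_eq_left_of_natDegree_lt hdl, Polynomial.natDegree_X_pow]
  have hX : (Polynomial.X ^ p - Polynomial.X : Polynomial k) ≠ 0 := by
    intro h1
    rw [h1, Polynomial.natDegree_zero] at hdeg
    exact hp.ne_zero hdeg.symm
  have hsub : (Set.univ : Set k) ⊆ ((Polynomial.X ^ p - Polynomial.X : Polynomial k).roots.toFinset : Set k) := by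
    intro x _
    rw [Finset.mem_coe, Multiset.mem_toFinset, Polynomial.mem_roots hX]
    simp [h x]
  have hfin : Finite k := Set.finite_univ_iff.mp ((Finset.finite_toSet _).subset hsub)
  have hle : Nat.card k ≤ p := by
    have := Fintype.ofFinite k
    rw [Nat.card_eq_fintype_card, ← Finset.card_univ]
    have h1 : (Finset.univ : Finset k) ⊆
        (Polynomial.X ^ p - Polynomial.X : Polynomial k).roots.toFinset := by
      intro x _
      exact Finset.mem_coe.mp (hsub (Set.mem_univ x))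
    refine (Finset.card_le_card h1).trans ?_
    refine (Multiset.toFinset_card_le _).trans ?_
    refine (Polynomial.card_roots' _).trans ?_
    rw [hdeg]
  have hge : p ≤ Nat.card k := by
    have h1 := Nat.card_le_card_of_injective _ (ZMod.castHom (dvd_refl p) k).injective
    simpa using h1
  exact le_antisymm hle hge

/-- MAIN COUNT (abstract): ideals of norm `p` of the fixed ring of `H` = fixed points of Frobenius
on `Γ ⧸ H` -/
theorem card_absNorm_eq [IsDomain S] [IsNoetherianRing S] [Finite Γ] [FaithfulSMul Γ S]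
    [Algebra.IsInvariant ℤ S Γ]
    (H : Subgroup Γ) (R : Type*) [CommRing R] [IsDedekindDomain R] [Module.Free ℤ R]
    [Algebra R S] [FaithfulSMul R S] [SMulCommClass H R S] [Algebra.IsInvariant R S H]
    {p : ℕ} (hp : p.Prime)
    (hur : ∀ (P : Ideal S) (_ : P.IsPrime), (p : S) ∈ P → Algebra.IsUnramifiedAt ℤ P)
    (hfi : ∀ (P : Ideal S) (_ : P.IsPrime), (p : S) ∈ P → Finite (S ⧸ P))
    (Q : Ideal S) [hQ : Q.IsPrime] (hpQ : (p : S) ∈ Q) (φ : Γ) (hφ : IsArithFrobAt ℤ φ Q) :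
    Nat.card {I : Ideal R // Ideal.absNorm I = p} = fx H φ := by
  have hpg : ∀ g : Γ, (p : S) ∈ g • Q := by
    intro g
    have h1 : g • (p : S) ∈ g • Q := Ideal.smul_mem_pointwise_smul g _ Q hpQ
    have h2 : g • (p : S) = p := map_natCast (MulSemiringAction.toRingHom Γ S g) p
    rwa [h2] at h1
  have key : ∀ g : Γ, g⁻¹ * φ * g ∈ H → Ideal.absNorm ((g⁻¹ • Q).under R) = p := by
    intro g hg
    have hpr : (g⁻¹ • Q).IsPrime := hQ.smul g⁻¹
    have hψ : IsArithFrobAt ℤ (g⁻¹ * φ * g) (g⁻¹ • Q) := by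
      have := hφ.conj g⁻¹
      simpa using this
    rw [frob_iff hp (hpg g⁻¹)] at hψ
    have h1 : ∀ r : R, r ^ p - r ∈ (g⁻¹ • Q).under R := by
      intro r
      have h2 := hψ (algebraMap R S r)
      have h3 : (g⁻¹ * φ * g) • algebraMap R S r = algebraMap R S r :=
        smul_algebraMap (⟨_, hg⟩ : H) r
      rw [h3] at h2
      rw [Ideal.mem_under, map_sub, map_pow, ← neg_mem_iff, neg_sub]
      exact h2
    rw [Ideal.absNorm_apply, Submodule.cardQuot_apply]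
    refine card_of_pow_eq hp ?_ ?_
    · have h2 : (p : R) ∈ (g⁻¹ • Q).under R := by
        rw [Ideal.mem_under]
        simpa using hpg g⁻¹
      have := Ideal.Quotient.eq_zero_iff_mem.mpr h2
      simpa using this
    · intro x
      obtain ⟨r, rfl⟩ := Ideal.Quotient.mk_surjective x
      rw [← map_pow, Ideal.Quotient.eq]
      exact h1 r
  symm
  unfold fx
  refine Nat.card_congr (Equiv.ofBijective (fun c : MulAction.fixedBy (Γ ⧸ H) φ =>
    (⟨((Quotient.out c.1)⁻¹ • Q).under R, ?_⟩ : {I : Ideal R // Ideal.absNorm I = p})) ⟨?_, ?_⟩)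
  · apply key
    rw [← mem_fixedBy_mk]
    have := c.2
    convert c.2
    exact QuotientGroup.out_eq' _
  · rintro ⟨c, hc⟩ ⟨c', hc'⟩ hcc
    have h1 : ((Quotient.out c)⁻¹ • Q).under R = ((Quotient.out c')⁻¹ • Q).under R :=
      congrArg Subtype.val hcc
    have hpr : ((Quotient.out c)⁻¹ • Q).IsPrime := hQ.smul _
    have hpr' : ((Quotient.out c')⁻¹ • Q).IsPrime := hQ.smul _
    obtain ⟨h, hh⟩ := Algebra.IsInvariant.exists_smul_of_under_eq R S H _ _ h1
    have h2 : (Quotient.out c' * (h : Γ) * (Quotient.out c)⁻¹) • Q = Q := by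
      rw [mul_smul, mul_smul]
      have h3 : (h : Γ) • ((Quotient.out c)⁻¹ • Q) = (Quotient.out c')⁻¹ • Q := hh.symm
      rw [h3, smul_inv_smul]
    have := hfi Q hQ hpQ
    have := hur Q hQ hpQ
    obtain ⟨j, hj⟩ := stab_pow hp hpQ hφ h2
    apply Subtype.ext
    show c = c'
    have h4 : Quotient.out c' * (h : Γ) = φ ^ j * Quotient.out c := by
      rw [← hj]; group
    have h5 : ∀ n : ℕ, φ ^ n • c = c := by
      intro n
      induction n with
      | zero => simp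
      | succ n ih => rw [pow_succ, mul_smul, MulAction.mem_fixedBy.mp hc, ih]
    calc c = φ ^ j • c := (h5 j).symm
      _ = φ ^ j • (QuotientGroup.mk (Quotient.out c) : Γ ⧸ H) := by
          rw [QuotientGroup.out_eq']
      _ = QuotientGroup.mk (φ ^ j * Quotient.out c) := rfl
      _ = QuotientGroup.mk (Quotient.out c' * (h : Γ)) := by rw [h4]
      _ = QuotientGroup.mk (Quotient.out c') := by
          rw [QuotientGroup.mk_mul_of_mem _ h.2]
      _ = c' := QuotientGroup.out_eq' c'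
  · rintro ⟨I, hI⟩
    have hIp : I.IsPrime := Ideal.isPrime_of_irreducible_absNorm (by rw [hI]; exact hp)
    have hint : Algebra.IsIntegral R S := Algebra.IsInvariant.isIntegral R S H
    obtain ⟨⟨P, hP, hPI⟩⟩ := (inferInstance : Nonempty (I.primesOver S))
    have hPI' := hPI.over
    have hpI : (p : R) ∈ I := by
      rw [← hI]; exact Ideal.absNorm_mem I
    have hpP : (p : S) ∈ P := by
      rw [hPI', Ideal.mem_under] at hpI
      simpa using hpI
    have hu : Q.under ℤ = P.under ℤ := by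
      have h1 : ∀ P' : Ideal S, P'.IsPrime → (p : S) ∈ P' → P'.LiesOver (Ideal.span {(p : ℤ)}) := by
        intro P' hP' hpP'
        rw [Ideal.liesOver_span_iff hP'.ne_top (Nat.prime_iff_prime_int.mp hp)]
        simpa using hpP'
      rw [← (h1 Q hQ hpQ).over, ← (h1 P hP hpP).over]
    obtain ⟨g, hg⟩ := Algebra.IsInvariant.exists_smul_of_under_eq ℤ S Γ Q P hu
    have := hfi P hP hpP
    have := hur P hP hpP
    obtain ⟨h, hh⟩ := IsArithFrobAt.exists_of_isInvariant R H P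
    have hψ : IsArithFrobAt ℤ (g * φ * g⁻¹) P := by
      rw [hg]; exact hφ.conj g
    have hh' : IsArithFrobAt ℤ (h : Γ) P := by
      rw [frob_iff hp hpP]
      intro x
      have h1 := hh x
      have h2 : Nat.card (R ⧸ P.under R) = p := by
        rw [← hPI', ← Submodule.cardQuot_apply, ← Ideal.absNorm_apply, hI]
      rw [h2] at h1
      exact h1
    have h3 := frob_unique hψ hh'
    have h4 : (g⁻¹)⁻¹ * φ * g⁻¹ ∈ H := by
      rw [inv_inv, h3]; exact h.2
    refine ⟨⟨QuotientGroup.mk g⁻¹, mem_fixedBy_mk.mpr h4⟩, ?_⟩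
    apply Subtype.ext
    show ((Quotient.out (QuotientGroup.mk g⁻¹ : Γ ⧸ H))⁻¹ • Q).under R = I
    obtain ⟨h', hh'⟩ := QuotientGroup.mk_out_eq_mul H g⁻¹
    rw [hh', mul_inv_rev, mul_smul, inv_inv, ← hg]
    have h6 := Ideal.under_smul R P (h'⁻¹ : H)
    exact h6.trans hPI'.symm

end abstract

section nf

variable {M : Type*} [Field M] [NumberField M]

theorem faithful_int : FaithfulSMul (M ≃ₐ[ℚ] M) (𝓞 M) := by
  constructor
  intro σ τ h
  ext x
  obtain ⟨a, b, hb, rfl⟩ := IsFractionRing.div_surjective (𝓞 M) x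
  have h1 : ∀ (ρ : M ≃ₐ[ℚ] M) (c : 𝓞 M), ρ (algebraMap (𝓞 M) M c) = algebraMap (𝓞 M) M (ρ • c) :=
    fun ρ c => rfl
  rw [map_div₀, map_div₀, h1, h1, h1, h1, h a, h b]

theorem finite_quot {p : ℕ} (hp : p.Prime) (P : Ideal (𝓞 M)) (hpP : (p : 𝓞 M) ∈ P) :
    Finite (𝓞 M ⧸ P) := by
  have : P ≠ ⊥ := by
    rintro rfl
    rw [Ideal.mem_bot] at hpP
    exact hp.ne_zero (by exact_mod_cast hpP)
  exact Ideal.finiteQuotientOfFreeOfNeBot P this

theorem unram {p : ℕ} (hp : p.Prime) (hpM : ¬ (p : ℤ) ∣ discr M) (P : Ideal (𝓞 M)) (_ : P.IsPrime)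
    (hpP : (p : 𝓞 M) ∈ P) : Algebra.IsUnramifiedAt ℤ P :=
  (not_dvd_discr_iff_forall_mem M (𝓞 M) (Nat.prime_iff_prime_int.mp hp)).mp hpM P ‹_›
    (by simpa using hpP)

variable [IsGalois ℚ M]

/-- ideals of norm `p` in a subfield `E` of a Galois `M` -/
theorem card_absNorm (H : Subgroup (M ≃ₐ[ℚ] M)) (E : Type*) [Field E] [NumberField E] [Algebra E M]
    [IsGaloisGroup H E M] {p : ℕ} (hp : p.Prime) (hpM : ¬ (p : ℤ) ∣ discr M)
    (Q : Ideal (𝓞 M)) [hQ : Q.IsPrime] (hpQ : (p : 𝓞 M) ∈ Q) (φ : M ≃ₐ[ℚ] M)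
    (hφ : IsArithFrobAt ℤ φ Q) :
    Nat.card {I : Ideal (𝓞 E) // Ideal.absNorm I = p} = fx H φ := by
  have h1 : IsGaloisGroup H (𝓞 E) (𝓞 M) := IsGaloisGroup.of_isFractionRing H (𝓞 E) (𝓞 M) E M
  have h2 : Algebra.IsInvariant (𝓞 E) (𝓞 M) H := h1.isInvariant
  have h3 : SMulCommClass H (𝓞 E) (𝓞 M) := h1.commutes
  have := faithful_int (M := M)
  exact card_absNorm_eq H (𝓞 E) hp (unram hp hpM) (fun P _ h => finite_quot hp P h) Q hpQ φ hφ

/-- Frobenius on roots of unity of order prime to `p` -/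
theorem frob_root {p : ℕ} (hp : p.Prime) (Q : Ideal (𝓞 M)) [hQ : Q.IsPrime]
    (hpQ : (p : 𝓞 M) ∈ Q) (φ : M ≃ₐ[ℚ] M) (hφ : IsArithFrobAt ℤ φ Q) {ζ : M} {m : ℕ}
    (hζ : ζ ^ m = 1) (hpm : ¬ p ∣ m) : φ ζ = ζ ^ p := by
  have hm : 0 < m := Nat.pos_of_ne_zero (by rintro rfl; exact hpm (dvd_zero p))
  have hint : IsIntegral ℤ ζ := by
    refine IsIntegral.of_pow hm ?_
    rw [hζ]; exact isIntegral_one
  set z : 𝓞 M := ⟨ζ, hint⟩ with hz
  have hzm : z ^ m = 1 := by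
    apply RingOfIntegers.ext
    show (algebraMap (𝓞 M) M) (z ^ m) = algebraMap (𝓞 M) M 1
    rw [map_pow, map_one]
    exact hζ
  have hmQ : (m : 𝓞 M) ∉ Q := by
    intro h
    have hc : IsCoprime ((p : ℤ)) (m : ℤ) := Nat.isCoprime_iff_coprime.mpr ((Nat.Prime.coprime_iff_not_dvd hp).mpr hpm)
    obtain ⟨a, b, hab⟩ := hc
    have h1 : (a : 𝓞 M) * p + b * m = 1 := by exact_mod_cast congrArg (Int.cast : ℤ → 𝓞 M) hab
    apply hQ.ne_top
    rw [Ideal.eq_top_iff_one, ← h1]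
    exact add_mem (Q.mul_mem_left _ hpQ) (Q.mul_mem_left _ h)
  have h1 := hφ.apply_of_pow_eq_one hzm hmQ
  rw [card_under Q hp hpQ] at h1
  have h2 := congrArg (algebraMap (𝓞 M) M) h1
  rw [map_pow] at h2
  exact h2

theorem autToPow_frob {p : ℕ} (hp : p.Prime) (Q : Ideal (𝓞 M)) [hQ : Q.IsPrime]
    (hpQ : (p : 𝓞 M) ∈ Q) (φ : M ≃ₐ[ℚ] M) (hφ : IsArithFrobAt ℤ φ Q) {ζ : M} {m : ℕ} [NeZero m]
    (hζ : IsPrimitiveRoot ζ m) (hpm : ¬ p ∣ m) : ((hζ.autToPow ℚ φ : (ZMod m)ˣ) : ZMod m) = p := by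
  have h1 := hζ.autToPow_spec ℚ φ
  rw [frob_root hp Q hpQ φ hφ hζ.pow_eq_one hpm] at h1
  have h2 := (hζ.isOfFinOrder (NeZero.ne m)).pow_eq_pow_iff_modEq.mp h1
  rw [← hζ.eq_orderOf] at h2
  have h3 := (ZMod.natCast_eq_natCast_iff _ _ _).mpr h2
  rwa [ZMod.natCast_zmod_val] at h3

/-! ### the Frobenius family -/

omit [IsGalois ℚ M] in
theorem exists_prime_over {p : ℕ} (hp : p.Prime) :
    ∃ Q : Ideal (𝓞 M), Q.IsPrime ∧ (p : 𝓞 M) ∈ Q := by
  have hpr : (Ideal.span {(p : ℤ)}).IsPrime := by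
    rw [Ideal.span_singleton_prime (by exact_mod_cast hp.ne_zero)]
    exact Nat.prime_iff_prime_int.mp hp
  obtain ⟨⟨P, hP, hPI⟩⟩ := (inferInstance : Nonempty ((Ideal.span {(p : ℤ)}).primesOver (𝓞 M)))
  refine ⟨P, hP, ?_⟩
  have h1 : (p : ℤ) ∈ Ideal.span {(p : ℤ)} := Ideal.mem_span_singleton_self _
  rw [hPI.over, Ideal.mem_under] at h1
  simpa using h1

theorem exists_frob {p : ℕ} (hp : p.Prime) : ∃ (σ : M ≃ₐ[ℚ] M) (Q : Ideal (𝓞 M)),
    Q.IsPrime ∧ (p : 𝓞 M) ∈ Q ∧ IsArithFrobAt ℤ σ Q := by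
  obtain ⟨Q, hQ, hpQ⟩ := exists_prime_over (M := M) hp
  have := finite_quot hp Q hpQ
  obtain ⟨σ, hσ⟩ := IsArithFrobAt.exists_of_isInvariant ℤ (M ≃ₐ[ℚ] M) Q
  exact ⟨σ, Q, hQ, hpQ, hσ⟩

variable (M) in
open scoped Classical in
/-- a Frobenius at `p` (for some prime of `𝓞 M` over `p`); `1` if `p` is not prime -/
noncomputable def Fr (p : ℕ) : M ≃ₐ[ℚ] M :=
  if h : p.Prime then (exists_frob (M := M) h).choose else 1

theorem Fr_spec {p : ℕ} (hp : p.Prime) : ∃ Q : Ideal (𝓞 M),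
    Q.IsPrime ∧ (p : 𝓞 M) ∈ Q ∧ IsArithFrobAt ℤ (Fr M p) Q := by
  unfold Fr
  rw [dif_pos hp]
  exact (exists_frob (M := M) hp).choose_spec

/-- **N1-FIX**: ideals of norm `p` of a field `E` with Galois group `H ≤ Gal(M/ℚ)` -/
theorem card_absNorm_Fr (H : Subgroup (M ≃ₐ[ℚ] M)) (E : Type*) [Field E] [NumberField E]
    [Algebra E M] [IsGaloisGroup H E M] {p : ℕ} (hp : p.Prime) (hpM : ¬ (p : ℤ) ∣ discr M) :
    Nat.card {I : Ideal (𝓞 E) // Ideal.absNorm I = p} = fx H (Fr M p) := by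
  obtain ⟨Q, hQ, hpQ, hφ⟩ := Fr_spec (M := M) hp
  exact card_absNorm H E hp hpM Q hpQ _ hφ

theorem isGaloisGroup_fixedField (H : Subgroup (M ≃ₐ[ℚ] M)) :
    IsGaloisGroup H (IntermediateField.fixedField H) M :=
  (inferInstance : IsGaloisGroup H (FixedPoints.intermediateField H : IntermediateField ℚ M) M)

/-- **N1-FIX**, literal shape -/
theorem card_absNorm_fixedField (H : Subgroup (M ≃ₐ[ℚ] M)) {p : ℕ} (hp : p.Prime)
    (hpM : ¬ (p : ℤ) ∣ discr M) :
    Nat.card {I : Ideal (𝓞 (IntermediateField.fixedField H)) // Ideal.absNorm I = p} =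
      fx H (Fr M p) := by
  have := isGaloisGroup_fixedField H
  exact card_absNorm_Fr H _ hp hpM

/-- **N1-FIX** for a field `K` with an embedding `f` into `M` -/
theorem card_absNorm_fieldRange (K : Type*) [Field K] [NumberField K] (f : K →ₐ[ℚ] M) {p : ℕ}
    (hp : p.Prime) (hpM : ¬ (p : ℤ) ∣ discr M) :
    Nat.card {I : Ideal (𝓞 K) // Ideal.absNorm I = p} =
      fx f.fieldRange.fixingSubgroup (Fr M p) := by
  let _ : Algebra K M := f.toRingHom.toAlgebra
  have hst : IsScalarTower ℚ K M := IsScalarTower.of_algebraMap_eq' (f.comp_algebraMap).symm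
  have h1 : IsGaloisGroup (fixingSubgroup (M ≃ₐ[ℚ] M) (Set.range (algebraMap K M))) K M :=
    IsGaloisGroup.of_isScalarTower (M ≃ₐ[ℚ] M) ℚ M K
  have h2 : fixingSubgroup (M ≃ₐ[ℚ] M) (Set.range (algebraMap K M)) =
      f.fieldRange.fixingSubgroup := by
    ext σ
    rw [mem_fixingSubgroup_iff, IntermediateField.mem_fixingSubgroup_iff]
    rfl
  rw [h2] at h1
  exact card_absNorm_Fr _ K hp hpM

/-- **N1-FIX** for `K`, embedding form -/
theorem card_absNorm_emb (K : Type*) [Field K] [NumberField K]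
    (f : TwoTr3_853.Emb K M) {p : ℕ} (hp : p.Prime) (hpM : ¬ (p : ℤ) ∣ discr M) :
    Nat.card {I : Ideal (𝓞 K) // Ideal.absNorm I = p} = fo (TwoTr3_853.Emb K M) (Fr M p) := by
  rw [card_absNorm_fieldRange K (show K →ₐ[ℚ] M from f) hp hpM, ← TwoTr3_853.stabilizer_eq f]
  unfold fx fo
  refine Nat.card_congr ((TwoTr3_853.cosetEquiv f).subtypeEquiv ?_)
  intro c
  rw [MulAction.mem_fixedBy, MulAction.mem_fixedBy, ← TwoTr3_853.cosetEquiv_smul]
  exact (TwoTr3_853.cosetEquiv f).injective.eq_iff.symm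

theorem Fr_root {p : ℕ} (hp : p.Prime) {ζ : M} {m : ℕ} (hζ : ζ ^ m = 1) (hpm : ¬ p ∣ m) :
    Fr M p ζ = ζ ^ p := by
  obtain ⟨Q, hQ, hpQ, hφ⟩ := Fr_spec (M := M) hp
  exact frob_root hp Q hpQ _ hφ hζ hpm

theorem autToPow_Fr {p : ℕ} (hp : p.Prime) {ζ : M} {m : ℕ} [NeZero m] (hζ : IsPrimitiveRoot ζ m)
    (hpm : ¬ p ∣ m) : ((hζ.autToPow ℚ (Fr M p) : (ZMod m)ˣ) : ZMod m) = p := by
  obtain ⟨Q, hQ, hpQ, hφ⟩ := Fr_spec (M := M) hp
  exact autToPow_frob hp Q hpQ _ hφ hζ hpm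

end nf

end Crest.Agent.R014.N1F_202
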