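import Mathlib

/-!
Row 14, Theorem N1 (posts #3624, #3673): auxiliary primes.

* `exists_primes` : arbitrarily many primes `q ≡ 1 mod m`.
* `cyclo_inf_eq_bot` : `ℚ(ζ_q) ∩ ℚ(ζ_q') = ℚ` for primes `q ≠ q'`.
* `exists_disjoint` : among more than `2 ^ [L:ℚ]` primes there is one with `ℚ(ζ_q) ∩ L = ℚ`.
-/

set_option autoImplicit false

open IntermediateField

namespace Crest.Agent.R014.N1Q_693

theorem exists_primes (m : ℕ) (hm : m ≠ 0) (J : ℕ) :
    ∃ Qs : Finset ℕ, Qs.card = J ∧ ∀ q ∈ Qs, q.Prime ∧ q ≡ 1 [MOD m] := by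
  obtain ⟨t, ht, hc⟩ := (Nat.infinite_setOfPred_prime_modEq_one hm).exists_subset_card_eq J
  exact ⟨t, hc, fun q hq => ht hq⟩

section

variable {Ω : Type*} [Field Ω] [CharZero Ω]

theorem finrank_cyclo {q : ℕ} (hq : q.Prime) {ζ : Ω} (hζ : IsPrimitiveRoot ζ q) :
    IsCyclotomicExtension {q} ℚ ℚ⟮ζ⟯ := by
  have : NeZero q := ⟨hq.ne_zero⟩
  change IsCyclotomicExtension {q} ℚ (IntermediateField.adjoin ℚ {ζ}).toSubalgebra
  rw [IntermediateField.adjoin_simple_toSubalgebra_of_isAlgebraic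
    ((hζ.isIntegral hq.pos).tower_top (A := ℚ)).isAlgebraic]
  exact hζ.adjoin_isCyclotomicExtension ℚ

theorem finiteDimensional_cyclo {q : ℕ} (hq : q.Prime) {ζ : Ω} (hζ : IsPrimitiveRoot ζ q) :
    FiniteDimensional ℚ ℚ⟮ζ⟯ := by
  have := finrank_cyclo hq hζ
  exact IsCyclotomicExtension.finiteDimensional {q} ℚ ℚ⟮ζ⟯

theorem cyclo_inf_eq_bot {q r : ℕ} (hq : q.Prime) (hr : r.Prime) (hqr : q ≠ r) {ζ ξ : Ω}
    (hζ : IsPrimitiveRoot ζ q) (hξ : IsPrimitiveRoot ξ r) :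
    (ℚ⟮ζ⟯ ⊓ ℚ⟮ξ⟯ : IntermediateField ℚ Ω) = ⊥ := by
  have : NeZero q := ⟨hq.ne_zero⟩
  have : NeZero r := ⟨hr.ne_zero⟩
  have := finrank_cyclo hq hζ
  have := finrank_cyclo hr hξ
  have := finiteDimensional_cyclo hq hζ
  have := finiteDimensional_cyclo hr hξ
  set F : IntermediateField ℚ Ω := ℚ⟮ζ⟯ ⊓ ℚ⟮ξ⟯ with hF
  have h1 : F ≤ ℚ⟮ζ⟯ := inf_le_left
  have h2 : F ≤ ℚ⟮ξ⟯ := inf_le_right
  have : FiniteDimensional ℚ F :=
    FiniteDimensional.of_injective (IntermediateField.inclusion h1).toLinearMap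
      (IntermediateField.inclusion h1).injective
  have : NumberField ℚ⟮ζ⟯ := { to_charZero := inferInstance, to_finiteDimensional := inferInstance }
  have : NumberField ℚ⟮ξ⟯ := { to_charZero := inferInstance, to_finiteDimensional := inferInstance }
  have : NumberField F := { to_charZero := inferInstance, to_finiteDimensional := inferInstance }
  let a1 : Algebra F ℚ⟮ζ⟯ := (IntermediateField.inclusion h1).toRingHom.toAlgebra
  let a2 : Algebra F ℚ⟮ξ⟯ := (IntermediateField.inclusion h2).toRingHom.toAlgebra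
  have d1 : NumberField.discr F ∣ NumberField.discr ℚ⟮ζ⟯ := NumberField.discr_dvd_discr F ℚ⟮ζ⟯
  have d2 : NumberField.discr F ∣ NumberField.discr ℚ⟮ξ⟯ := NumberField.discr_dvd_discr F ℚ⟮ξ⟯
  have e1 := IsCyclotomicExtension.Rat.natAbs_discr q ℚ⟮ζ⟯
  have e2 := IsCyclotomicExtension.Rat.natAbs_discr r ℚ⟮ξ⟯
  have k1 : (NumberField.discr F).natAbs ∣ q ^ Nat.totient q := by
    refine (Int.natAbs_dvd_natAbs.mpr d1).trans ?_
    rw [e1]
    exact Nat.div_dvd_of_dvd (Nat.prod_primeFactors_pow_totient_ediv_dvd hq.pos)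
  have k2 : (NumberField.discr F).natAbs ∣ r ^ Nat.totient r := by
    refine (Int.natAbs_dvd_natAbs.mpr d2).trans ?_
    rw [e2]
    exact Nat.div_dvd_of_dvd (Nat.prod_primeFactors_pow_totient_ediv_dvd hr.pos)
  have hc : Nat.Coprime (q ^ Nat.totient q) (r ^ Nat.totient r) :=
    Nat.Coprime.pow _ _ ((Nat.coprime_primes hq hr).mpr hqr)
  have h1' : (NumberField.discr F).natAbs = 1 := Nat.eq_one_of_dvd_coprimes hc k1 k2
  by_contra hne
  have hlt : 1 < Module.finrank ℚ F := by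
    refine Nat.one_lt_iff_ne_zero_and_ne_one.mpr ⟨Module.finrank_pos.ne', ?_⟩
    rwa [ne_eq, IntermediateField.finrank_eq_one_iff]
  have := NumberField.abs_discr_gt_two hlt
  rw [← Int.natCast_natAbs, h1'] at this
  norm_num at this

/-- A finite Galois extension of degree `g` has at most `2 ^ g` intermediate fields. -/
theorem card_intermediateField_le (L : Type*) [Field L] [CharZero L] [FiniteDimensional ℚ L]
    [IsGalois ℚ L] (s : Finset (IntermediateField ℚ L)) : s.card ≤ 2 ^ Module.finrank ℚ L := by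
  classical
  have e : IntermediateField ℚ L ≃ (Subgroup (Gal(L/ℚ)))ᵒᵈ := IsGalois.intermediateFieldEquivSubgroup.toEquiv
  have : Fintype (Gal(L/ℚ)) := Fintype.ofFinite _
  have hinj : Function.Injective (fun F : IntermediateField ℚ L =>
      (Finset.univ.filter (fun g : Gal(L/ℚ) => g ∈ F.fixingSubgroup))) := by
    intro F F' h
    have : F.fixingSubgroup = F'.fixingSubgroup := by
      ext g
      have := congrArg (fun t => g ∈ t) h
      simpa using this
    have h2 := congrArg IntermediateField.fixedField this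
    rwa [IsGalois.fixedField_fixingSubgroup, IsGalois.fixedField_fixingSubgroup] at h2
  calc s.card ≤ (Finset.univ : Finset (Finset (Gal(L/ℚ)))).card :=
        Finset.card_le_card_of_injOn _ (fun _ _ => Finset.mem_univ _) hinj.injOn
    _ = 2 ^ Fintype.card (Gal(L/ℚ)) := by
        rw [Finset.card_univ, Fintype.card_finset]
    _ = 2 ^ Module.finrank ℚ L := by
        rw [← Nat.card_eq_fintype_card, IsGalois.card_aut_eq_finrank]

theorem exists_disjoint (L : IntermediateField ℚ Ω) [FiniteDimensional ℚ L] [IsGalois ℚ L]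
    (Qs : Finset ℕ) (hQ : ∀ q ∈ Qs, q.Prime) (hcard : 2 ^ Module.finrank ℚ L < Qs.card)
    (ζ : ℕ → Ω) (hζ : ∀ q ∈ Qs, IsPrimitiveRoot (ζ q) q) :
    ∃ q ∈ Qs, (ℚ⟮ζ q⟯ ⊓ L : IntermediateField ℚ Ω) = ⊥ := by
  classical
  by_contra hcon
  push Not at hcon
  -- the map q ↦ ℚ(ζ_q) ∩ L, as an intermediate field of L
  let f : ℕ → IntermediateField ℚ L := fun q => (ℚ⟮ζ q⟯ : IntermediateField ℚ Ω).comap L.val
  have hf : ∀ q, IntermediateField.lift (f q) = ℚ⟮ζ q⟯ ⊓ L := by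
    intro q
    ext x
    simp only [f, IntermediateField.mem_inf]
    constructor
    · intro hx
      have hxL : x ∈ L := IntermediateField.lift_le (f q) hx
      have : (⟨x, hxL⟩ : L) ∈ f q := (IntermediateField.mem_lift (F := L) (E := f q) ⟨x, hxL⟩).mp hx
      exact ⟨this, hxL⟩
    · rintro ⟨h1, h2⟩
      exact (IntermediateField.mem_lift (F := L) (E := f q) ⟨x, h2⟩).mpr h1
  have hinj : Set.InjOn f Qs := by
    intro q hq r hr h
    by_contra hne
    have h1 : (ℚ⟮ζ q⟯ ⊓ L : IntermediateField ℚ Ω) = ℚ⟮ζ r⟯ ⊓ L := by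
      rw [← hf q, ← hf r, h]
    apply hcon q hq
    have h2 : (ℚ⟮ζ q⟯ ⊓ L : IntermediateField ℚ Ω) ≤ ℚ⟮ζ q⟯ ⊓ ℚ⟮ζ r⟯ :=
      le_inf inf_le_left (h1.le.trans inf_le_left)
    rw [cyclo_inf_eq_bot (hQ q hq) (hQ r hr) hne (hζ q hq) (hζ r hr)] at h2
    exact le_bot_iff.mp h2
  have := card_intermediateField_le L (Qs.image f)
  rw [Finset.card_image_of_injOn hinj] at this
  omega

end

end Crest.Agent.R014.N1Q_693
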