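import Mathlib
import Crest.Agent.R014.N1D_479
import Crest.Agent.R014.N1B_693
import Crest.Agent.R014.N1Q_693
import Crest.Agent.R014.N1D_693
import Crest.Agent.R014.N1F_202
import Crest.Agent.R014.N1C_693
import Crest.Agent.R014.TwoTr3_853

/-!
N1-MAIN (row 14): existence of the auxiliary field `M` for every `K`.  Helper479.
-/

set_option autoImplicit false

universe u

namespace Crest.Agent.R014.N1E_479

open NumberField IntermediateField Crest.Agent.R014.LDef_550 Crest.Agent.R014.N1D_479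
  Crest.Agent.R014

/-- the cyclic quotient of `(ZMod q)ˣ` of order `N` -/
abbrev AQ (q N : ℕ) : Type := (ZMod q)ˣ ⧸ (powMonoidHom N : (ZMod q)ˣ →* (ZMod q)ˣ).range

section L

variable (Ω : Type) [Field Ω] [CharZero Ω] [IsAlgClosed Ω] (K : Type u) [Field K] [NumberField K]

/-- normal closure of `K` in `Ω` -/
noncomputable def LL : IntermediateField ℚ Ω := normalClosure ℚ K Ω

instance : FiniteDimensional ℚ (LL Ω K) := by unfold LL; infer_instance

instance : Normal ℚ (LL Ω K) := by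
  unfold LL
  exact (Algebra.IsAlgebraic.isNormalClosure_normalClosure (F := ℚ) (K := K) (L := Ω)
    fun x => IsAlgClosed.splits _).normal

instance : IsGalois ℚ (LL Ω K) := ⟨⟩

omit [IsAlgClosed Ω] in
theorem isTotallyReal_LL [IsTotallyReal K] : IsTotallyReal (LL Ω K) := by
  unfold LL
  rw [normalClosure_def]
  refine N1B_693.isTotallyReal_iSup _ fun φ => ?_
  exact IsTotallyReal.ofRingEquiv (AlgEquiv.ofInjectiveField φ).toRingEquiv

variable {Ω K} in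
omit [IsAlgClosed Ω] in
theorem mem_LL (φ : K →ₐ[ℚ] Ω) (x : K) : φ x ∈ LL Ω K := by
  have h : φ.fieldRange ≤ normalClosure ℚ K Ω := φ.fieldRange_le_normalClosure
  exact h ⟨x, rfl⟩

instance : NumberField (LL Ω K) where
  to_charZero := inferInstance
  to_finiteDimensional := inferInstance

omit [IsAlgClosed Ω] in
/-- the images of `K` generate `LL` -/
theorem iSup_LL : (⨆ φ : K →ₐ[ℚ] LL Ω K, φ.fieldRange) = ⊤ := by
  refine top_unique fun y _ => ?_
  set S : IntermediateField ℚ (LL Ω K) := ⨆ φ : K →ₐ[ℚ] LL Ω K, φ.fieldRange with hS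
  have h : LL Ω K ≤ S.map (LL Ω K).val := by
    conv_lhs => unfold LL
    rw [normalClosure_def]
    refine iSup_le fun φ => ?_
    rintro _ ⟨x, rfl⟩
    let φ' : K →ₐ[ℚ] LL Ω K := φ.codRestrict (LL Ω K).toSubalgebra (mem_LL φ)
    have h1 : φ'.fieldRange ≤ S := le_iSup (fun φ : K →ₐ[ℚ] LL Ω K => φ.fieldRange) φ'
    have h2 : φ' x ∈ S := h1 ⟨x, rfl⟩
    exact ⟨φ' x, h2, rfl⟩
  obtain ⟨z, hz, hzy⟩ := h y.2
  have : z = y := Subtype.ext hzy
  rw [← this]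
  exact hz

/-- the order of the Galois group of the normal closure divides `n!` -/
theorem card_gal_dvd : Nat.card (LL Ω K ≃ₐ[ℚ] LL Ω K) ∣ (Module.finrank ℚ K).factorial := by
  classical
  let φ0 : K →ₐ[ℚ] Ω := IsAlgClosed.lift
  let φ' : K →ₐ[ℚ] LL Ω K := φ0.codRestrict (LL Ω K).toSubalgebra (mem_LL φ0)
  have hcard : Nat.card (TwoTr3_853.Emb K (LL Ω K)) = Module.finrank ℚ K :=
    TwoTr3_853.card_emb (show TwoTr3_853.Emb K (LL Ω K) from φ')
  let ρ : (LL Ω K ≃ₐ[ℚ] LL Ω K) →* Equiv.Perm (TwoTr3_853.Emb K (LL Ω K)) :=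
    MulAction.toPermHom _ _
  have hinj : Function.Injective ρ := by
    rw [injective_iff_map_eq_one]
    intro σ hσ
    apply TwoTr3_853.faithful_emb (iSup_LL Ω K) σ
    intro φ
    have : ρ σ φ = φ := by rw [hσ]; rfl
    exact this
  have h1 := Subgroup.card_dvd_of_injective ρ hinj
  rwa [Nat.card_perm, hcard] at h1

end L

section M

variable {Ω : Type} [Field Ω] [CharZero Ω] {q N : ℕ} {B : IntermediateField ℚ Ω}

/-- `AQ q N` is the Galois group of `B` -/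
noncomputable def eB (χB : (ZMod q)ˣ →* (B ≃ₐ[ℚ] B)) (hsurj : Function.Surjective χB)
    (hker : ∀ a, χB a = 1 ↔ ∃ b : (ZMod q)ˣ, b ^ N = a) : AQ q N ≃* (B ≃ₐ[ℚ] B) :=
  (QuotientGroup.quotientMulEquivOfEq (by
    ext a
    rw [MonoidHom.mem_range, MonoidHom.mem_ker, hker]
    rfl)).trans (QuotientGroup.quotientKerEquivOfSurjective χB hsurj)

theorem eB_mk (χB : (ZMod q)ˣ →* (B ≃ₐ[ℚ] B)) (hsurj : Function.Surjective χB)
    (hker : ∀ a, χB a = 1 ↔ ∃ b : (ZMod q)ˣ, b ^ N = a) (a : (ZMod q)ˣ) :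
    eB χB hsurj hker (QuotientGroup.mk a) = χB a := rfl

variable (K : Type u) [Field K] [NumberField K] [IsTotallyReal K] [IsAlgClosed Ω]

/-- the auxiliary field -/
theorem build (hN : (Module.finrank ℚ K).factorial = N)
    [FiniteDimensional ℚ B] [hgB : IsGalois ℚ B] (hB : IsTotallyReal B)
    (hBN : Module.finrank ℚ B = N)
    (χB : (ZMod q)ˣ →* (B ≃ₐ[ℚ] B)) (hsurj : Function.Surjective χB)
    (hker : ∀ a, χB a = 1 ↔ ∃ b : (ZMod q)ˣ, b ^ N = a)
    (hfrob : ∀ (p : ℕ) (_ : p.Prime) (hpq : p.Coprime q) (x : B), IsIntegral ℤ x →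
        ∃ y : B, IsIntegral ℤ y ∧ χB (ZMod.unitOfCoprime p hpq) x - x ^ p = p * y)
    (hdisj : (LL Ω K ⊓ B : IntermediateField ℚ Ω) = ⊥) :
    ∃ (M : Type) (_ : Field M) (_ : NumberField M) (_ : IsGalois ℚ M) (_ : IsTotallyReal M)
      (d : FldData M q (AQ q N)) (_ : K →ₐ[ℚ] M) (fB : B →ₐ[ℚ] M),
      (∀ a, d.χ a = QuotientGroup.mk a) ∧
      Module.finrank ℚ M ≤ N * N ∧
      ((⨆ φ : K →ₐ[ℚ] M, φ.fieldRange) ⊔ fB.fieldRange = ⊤) ∧
      (∀ g : M ≃ₐ[ℚ] M, g ^ N = 1) ∧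
      (∀ a : AQ q N, ∃ t, d.pr t = a ∧ ∀ (φ : K →ₐ[ℚ] M) (x : K), t (φ x) = φ x) := by
  obtain ⟨hgal, e, he⟩ := N1B_693.exists_galProd (LL Ω K) B hdisj
  have hfd : FiniteDimensional ℚ ↥(LL Ω K ⊔ B) := IntermediateField.finiteDimensional_sup _ _
  have hnf : NumberField ↥(LL Ω K ⊔ B) :=
    { to_charZero := inferInstance, to_finiteDimensional := hfd }
  have htr : IsTotallyReal ↥(LL Ω K ⊔ B) :=
    N1B_693.isTotallyReal_sup _ _ (isTotallyReal_LL Ω K) hB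
  have hLcard : Nat.card (LL Ω K ≃ₐ[ℚ] LL Ω K) ∣ N := hN ▸ card_gal_dvd Ω K
  have hBcard : Nat.card (B ≃ₐ[ℚ] B) ∣ N := by
    have h1 : Nat.card (B ≃ₐ[ℚ] B) = Module.finrank ℚ B := IsGalois.card_aut_eq_finrank _ _
    rw [h1, hBN]
  have hchi : ∀ (p : ℕ) (_ : p.Prime) (hpq : p.Coprime q),
      ¬ (p : ℤ) ∣ discr ↥(LL Ω K ⊔ B) →
      (e (N1F_202.Fr ↥(LL Ω K ⊔ B) p)).2 = χB (ZMod.unitOfCoprime p hpq) := by
    intro p hp hpq hpM
    have hnB : NumberField B := { to_charZero := inferInstance, to_finiteDimensional := inferInstance }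
    let _ : Algebra B ↥(LL Ω K ⊔ B) :=
      (IntermediateField.inclusion (le_sup_right : B ≤ LL Ω K ⊔ B)).toRingHom.toAlgebra
    obtain ⟨Q, hQ, hpQ, hφ⟩ := N1F_202.Fr_spec (M := ↥(LL Ω K ⊔ B)) hp
    have hdB : ¬ (p : ℤ) ∣ discr B := fun h => hpM (h.trans (discr_dvd_discr B ↥(LL Ω K ⊔ B)))
    refine N1C_693.restrict_frob hp hdB Q hQ hpQ (N1F_202.Fr ↥(LL Ω K ⊔ B) p) ?_ _ _ ?_ ?_
    · intro x
      have hpZ : Prime (p : ℤ) := Nat.prime_iff_prime_int.mp hp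
      have hover : Q.LiesOver (Ideal.span {(p : ℤ)}) :=
        (Ideal.liesOver_span_iff hQ.ne_top hpZ).mpr (by exact_mod_cast hpQ)
      have hcard : Nat.card (ℤ ⧸ Q.under ℤ) = p := by
        rw [← hover.over, Nat.card_congr (Int.quotientSpanNatEquivZMod p).toEquiv, Nat.card_zmod]
      have h1 := hφ x
      rw [hcard] at h1
      exact h1
    · intro x
      apply Subtype.ext
      exact (he _).2 x
    · exact hfrob p hp hpq
  let d : FldData ↥(LL Ω K ⊔ B) q (AQ q N) :=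
    { pr := (eB χB hsurj hker).symm.toMonoidHom.comp ((MonoidHom.snd _ _).comp e.toMonoidHom)
      χ := QuotientGroup.mk' _
      φ := N1F_202.Fr ↥(LL Ω K ⊔ B)
      hpr := by
        intro a
        refine ⟨e.symm (1, eB χB hsurj hker a), ?_⟩
        show (eB χB hsurj hker).symm (e (e.symm (1, eB χB hsurj hker a))).2 = a
        rw [MulEquiv.apply_symm_apply, MulEquiv.symm_apply_apply]
      hχs := QuotientGroup.mk'_surjective _
      hfix := fun p hp hpM H => N1F_202.card_absNorm_fixedField H hp hpM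
      hχ := by
        intro p hp hpq hpM
        show (eB χB hsurj hker).symm (e (N1F_202.Fr ↥(LL Ω K ⊔ B) p)).2 = _
        rw [hchi p hp hpq hpM, MulEquiv.symm_apply_eq]
        exact (eB_mk χB hsurj hker _).symm }
  let φ0 : K →ₐ[ℚ] Ω := IsAlgClosed.lift
  have hle : LL Ω K ≤ LL Ω K ⊔ B := le_sup_left
  let f : K →ₐ[ℚ] ↥(LL Ω K ⊔ B) :=
    φ0.codRestrict (LL Ω K ⊔ B).toSubalgebra fun x => hle (mem_LL φ0 x)
  let fB : B →ₐ[ℚ] ↥(LL Ω K ⊔ B) := IntermediateField.inclusion le_sup_right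
  refine ⟨↥(LL Ω K ⊔ B), inferInstance, hnf, hgal, htr, d, f, fB, fun a => rfl, ?_, ?_, ?_, ?_⟩
  · -- degree
    have h1 : Nat.card (↥(LL Ω K ⊔ B) ≃ₐ[ℚ] ↥(LL Ω K ⊔ B)) = Module.finrank ℚ ↥(LL Ω K ⊔ B) :=
      IsGalois.card_aut_eq_finrank _ _
    rw [← h1, Nat.card_congr e.toEquiv, Nat.card_prod]
    refine Nat.mul_le_mul ?_ ?_
    · exact Nat.le_of_dvd (by rw [← hN]; exact Nat.factorial_pos _) hLcard
    · exact Nat.le_of_dvd (by rw [← hN]; exact Nat.factorial_pos _) hBcard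
  · -- generation
    refine top_unique fun y _ => ?_
    set S : IntermediateField ℚ ↥(LL Ω K ⊔ B) :=
      (⨆ φ : K →ₐ[ℚ] ↥(LL Ω K ⊔ B), φ.fieldRange) ⊔ fB.fieldRange with hS
    have h : LL Ω K ⊔ B ≤ S.map (LL Ω K ⊔ B).val := by
      refine sup_le ?_ ?_
      · conv_lhs => unfold LL
        rw [normalClosure_def]
        refine iSup_le fun φ => ?_
        rintro _ ⟨x, rfl⟩
        let φ' : K →ₐ[ℚ] ↥(LL Ω K ⊔ B) :=
          φ.codRestrict (LL Ω K ⊔ B).toSubalgebra fun x => hle (mem_LL φ x)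
        have h1 : φ'.fieldRange ≤ S :=
          (le_iSup (fun φ : K →ₐ[ℚ] ↥(LL Ω K ⊔ B) => φ.fieldRange) φ').trans le_sup_left
        have h2 : φ' x ∈ S := h1 ⟨x, rfl⟩
        exact ⟨φ' x, h2, rfl⟩
      · intro x hx
        have h1 : fB.fieldRange ≤ S := le_sup_right
        have h2 : fB ⟨x, hx⟩ ∈ S := h1 ⟨⟨x, hx⟩, rfl⟩
        exact ⟨fB ⟨x, hx⟩, h2, rfl⟩
    obtain ⟨z, hz, hzy⟩ := h y.2
    have : z = y := Subtype.ext hzy
    rw [← this]
    exact hz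
  · intro g
    apply e.injective
    rw [map_pow, map_one]
    refine Prod.ext ?_ ?_
    · exact orderOf_dvd_iff_pow_eq_one.1 ((orderOf_dvd_natCard _).trans hLcard)
    · exact orderOf_dvd_iff_pow_eq_one.1 ((orderOf_dvd_natCard _).trans hBcard)
  · intro a
    refine ⟨e.symm (1, eB χB hsurj hker a), ?_, ?_⟩
    · show (eB χB hsurj hker).symm (e (e.symm (1, eB χB hsurj hker a))).2 = a
      rw [MulEquiv.apply_symm_apply, MulEquiv.symm_apply_apply]
    · intro φ x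
      set t := e.symm (1, eB χB hsurj hker a) with ht
      have h1 : e t = (1, eB χB hsurj hker a) := MulEquiv.apply_symm_apply _ _
      -- `φ x` lies in the normal closure
      let φ1 : K →ₐ[ℚ] Ω := (LL Ω K ⊔ B).val.comp φ
      have h2 : ((φ x : ↥(LL Ω K ⊔ B)) : Ω) ∈ LL Ω K := mem_LL φ1 x
      have h3 := (he t).1 ⟨_, h2⟩
      rw [h1] at h3
      apply Subtype.ext
      exact h3.symm

end M

section Exists

/-- everything that the final argument needs about the auxiliary field -/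
structure Aux (n : ℕ) (C : ℝ) (K : Type u) [Field K] [NumberField K] (q : ℕ) (M : Type) [Field M]
    [NumberField M] (d : FldData M q (AQ q n.factorial)) : Prop where
  hχ : ∀ a, d.χ a = QuotientGroup.mk a
  hdeg : Module.finrank ℚ M ≤ n.factorial * n.factorial
  hdisc : |(discr M : ℝ)| ≤ C * |(discr K : ℝ)| ^ C
  hexp : ∀ g : M ≃ₐ[ℚ] M, g ^ n.factorial = 1
  htriv : ∀ a : AQ q n.factorial, ∃ t, d.pr t = a ∧ ∀ (φ : K →ₐ[ℚ] M) (x : K), t (φ x) = φ x

/-- discriminant bound -/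
theorem disc_bound (g n : ℕ) : ∃ C : ℝ, 1 ≤ C ∧ ∀ (K : Type u) [Field K] [NumberField K]
    (B : Type) [Field B] [NumberField B] [IsTotallyReal B]
    (M : Type) [Field M] [NumberField M] [IsTotallyReal M] (fB : B →ₐ[ℚ] M) (X : ℝ),
    ((⨆ φ : K →ₐ[ℚ] M, φ.fieldRange) ⊔ fB.fieldRange = ⊤) → Module.finrank ℚ M ≤ g →
    Module.finrank ℚ K ≤ n → Module.finrank ℚ B ≤ n → 1 ≤ X →
    |(discr K : ℝ)| ≤ X → |(discr B : ℝ)| ≤ X → |(discr M : ℝ)| ≤ C * X ^ C := by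
  obtain ⟨C, hC1, hC⟩ := N1D_693.discr_le_rpow.{0, u, 0, 0} g n
  refine ⟨C, hC1, ?_⟩
  intro K _ _ B _ _ _ M _ _ _ fB X hgen hg hK hB hX1 hXK hXB
  let F : Option (K →ₐ[ℚ] M) → IntermediateField ℚ M := fun o =>
    o.elim fB.fieldRange (fun φ => φ.fieldRange)
  have hnf : ∀ o, NumberField (F o) := fun o =>
    { to_charZero := inferInstance, to_finiteDimensional := inferInstance }
  refine hC M (Option (K →ₐ[ℚ] M)) (fun o => ↥(F o)) (fun o => (F o).val) M X ?_ hg ?_ hX1 ?_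
  · rw [← hgen, iSup_option, sup_comm]
    congr 1
    · congr 1
      funext φ
      exact IntermediateField.fieldRange_val _
    · exact IntermediateField.fieldRange_val _
  · intro o
    cases o with
    | none =>
      refine le_trans (le_of_eq ?_) hB
      exact (LinearEquiv.finrank_eq (AlgEquiv.ofInjectiveField fB).toLinearEquiv).symm
    | some φ =>
      refine le_trans (le_of_eq ?_) hK
      exact (LinearEquiv.finrank_eq (AlgEquiv.ofInjectiveField φ).toLinearEquiv).symm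
  · intro o
    cases o with
    | none =>
      refine le_trans (le_of_eq ?_) hXB
      have e : B ≃+* ↥(F none) := (AlgEquiv.ofInjectiveField fB).toRingEquiv
      have := discr_eq_discr_of_ringEquiv B e
      exact congrArg (fun z : ℤ => |(z : ℝ)|) this.symm
    | some φ =>
      refine le_trans (le_of_eq ?_) hXK
      have e : K ≃+* ↥(F (some φ)) := (AlgEquiv.ofInjectiveField φ).toRingEquiv
      have := discr_eq_discr_of_ringEquiv K e
      exact congrArg (fun z : ℤ => |(z : ℝ)|) this.symm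

theorem real_aux {C DB D : ℝ} (hC : 1 ≤ C) (hDB : 1 ≤ DB) (hD : 1 ≤ D) :
    C * (DB * D) ^ C ≤ (C * DB ^ C) * D ^ (C * DB ^ C) := by
  have h1 : 1 ≤ DB ^ C := Real.one_le_rpow hDB (by linarith)
  rw [Real.mul_rpow (by linarith) (by linarith), ← mul_assoc]
  refine mul_le_mul_of_nonneg_left ?_ (by positivity)
  exact Real.rpow_le_rpow_of_exponent_le hD (le_mul_of_one_le_right (by linarith) h1)

/-- existence of the auxiliary field -/
theorem exists_data (n : ℕ) : ∃ (Qs : Finset ℕ) (C : ℝ), 1 ≤ C ∧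
    (∀ q ∈ Qs, q.Prime ∧ 2 * n.factorial ∣ q - 1) ∧
    ∀ (K : Type u) [Field K] [NumberField K] [IsTotallyReal K], Module.finrank ℚ K = n →
      ∃ q ∈ Qs, ∃ (M : Type) (_ : Field M) (_ : NumberField M) (_ : IsGalois ℚ M)
        (_ : IsTotallyReal M) (d : FldData M q (AQ q n.factorial)) (_ : K →ₐ[ℚ] M),
        Aux n C K q M d := by
  classical
  set N : ℕ := n.factorial with hNdef
  have hN0 : N ≠ 0 := Nat.factorial_ne_zero _
  obtain ⟨Qs, hQcard, hQs⟩ := N1Q_693.exists_primes (2 * N) (by omega) (2 ^ N + 1)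
  have hQ : ∀ q ∈ Qs, q.Prime ∧ 2 * N ∣ q - 1 := by
    intro q hq
    obtain ⟨h1, h2⟩ := hQs q hq
    exact ⟨h1, (Nat.modEq_iff_dvd' h1.one_lt.le).1 h2.symm⟩
  let Ω := AlgebraicClosure ℚ
  have hζ : ∀ q : ℕ, ∃ ζ : Ω, q ∈ Qs → IsPrimitiveRoot ζ q := by
    intro q
    by_cases hq : q ∈ Qs
    · have hq0 : NeZero q := ⟨(hQ q hq).1.ne_zero⟩
      have hq1 : NeZero (q : Ω) := ⟨by exact_mod_cast (hQ q hq).1.ne_zero⟩
      obtain ⟨ζ, hζ⟩ := HasEnoughRootsOfUnity.exists_primitiveRoot Ω q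
      exact ⟨ζ, fun _ => hζ⟩
    · exact ⟨1, fun h => absurd h hq⟩
  choose ζ hζ using hζ
  have hBex : ∀ q : Qs, _ := fun q => N1B_693.exists_B (N := N) (hQ q q.2).1 (hQ q q.2).2 (hζ q q.2)
  choose B hBfd hBgal χB hBle hBdeg hBreal hBsurj hBker hBfrob using hBex
  have hBnf : ∀ q, NumberField (B q) := fun q =>
    { to_charZero := inferInstance, to_finiteDimensional := hBfd q }
  obtain ⟨C, hC1, hC⟩ := disc_bound.{u} (N * N) (n + N)
  set DB : ℝ := 1 + ∑ q : Qs, |(discr (B q) : ℝ)| with hDB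
  have hDB1 : 1 ≤ DB := by
    have : 0 ≤ ∑ q : Qs, |(discr (B q) : ℝ)| := Finset.sum_nonneg fun q _ => abs_nonneg _
    linarith
  have hDBC : 1 ≤ DB ^ C := Real.one_le_rpow hDB1 (by linarith)
  refine ⟨Qs, C * DB ^ C, one_le_mul_of_one_le_of_one_le hC1 hDBC, hQ, ?_⟩
  intro K _ _ _ hK
  have hLdeg : Module.finrank ℚ (LL Ω K) ≤ N := by
    have h1 : Nat.card (LL Ω K ≃ₐ[ℚ] LL Ω K) = Module.finrank ℚ (LL Ω K) :=
      IsGalois.card_aut_eq_finrank _ _
    rw [← h1]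
    refine Nat.le_of_dvd (Nat.pos_of_ne_zero hN0) ?_
    rw [hNdef, ← hK]
    exact card_gal_dvd Ω K
  obtain ⟨q, hq, hqL⟩ := N1Q_693.exists_disjoint (LL Ω K) Qs (fun q hq => (hQ q hq).1) (by
    rw [hQcard]
    exact Nat.lt_succ_of_le (Nat.pow_le_pow_right (by norm_num) hLdeg)) ζ hζ
  have hdisj : (LL Ω K ⊓ B ⟨q, hq⟩ : IntermediateField ℚ Ω) = ⊥ := by
    rw [eq_bot_iff, ← hqL, inf_comm]
    exact inf_le_inf_right _ (hBle ⟨q, hq⟩)
  have hfd := hBfd ⟨q, hq⟩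
  have hgal := hBgal ⟨q, hq⟩
  obtain ⟨M, i1, i2, i3, i4, d, f, fB, h1, h2, h3, h4, h5⟩ :=
    build (Ω := Ω) (q := q) (N := N) K (by rw [hK]) (hBreal ⟨q, hq⟩) (hBdeg ⟨q, hq⟩)
      (χB ⟨q, hq⟩) (hBsurj ⟨q, hq⟩) (hBker ⟨q, hq⟩) (hBfrob ⟨q, hq⟩) hdisj
  refine ⟨q, hq, M, i1, i2, i3, i4, d, f, ?_⟩
  refine { hχ := h1, hdeg := h2, hdisc := ?_, hexp := h4, htriv := h5 }
  have hD1 : (1 : ℝ) ≤ |(discr K : ℝ)| := by
    have : (1 : ℤ) ≤ |discr K| := Int.one_le_abs (discr_ne_zero K)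
    exact_mod_cast this
  have hBr := hBreal ⟨q, hq⟩
  have k1 : Module.finrank ℚ K ≤ n + N := by omega
  have k2 : Module.finrank ℚ (B ⟨q, hq⟩) ≤ n + N := by rw [hBdeg]; omega
  have k3 : 1 ≤ DB * |(discr K : ℝ)| := one_le_mul_of_one_le_of_one_le hDB1 hD1
  have k4 : |(discr K : ℝ)| ≤ DB * |(discr K : ℝ)| := le_mul_of_one_le_left (abs_nonneg _) hDB1
  have k5 : |(discr (B ⟨q, hq⟩) : ℝ)| ≤ DB * |(discr K : ℝ)| := by
    have h7 : |(discr (B ⟨q, hq⟩) : ℝ)| ≤ ∑ q : Qs, |(discr (B q) : ℝ)| :=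
      Finset.single_le_sum (f := fun q : Qs => |(discr (B q) : ℝ)|)
        (fun q _ => abs_nonneg _) (Finset.mem_univ _)
    have h8 : DB ≤ DB * |(discr K : ℝ)| := le_mul_of_one_le_right (by linarith) hD1
    linarith
  have h6 : |(discr M : ℝ)| ≤ C * (DB * |(discr K : ℝ)|) ^ C :=
    hC K (B ⟨q, hq⟩) M fB (DB * |(discr K : ℝ)|) h3 h2 k1 k2 k3 k4 k5
  exact h6.trans (real_aux hC1 hDB1 hD1)

end Exists

end Crest.Agent.R014.N1E_479
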