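import Crest.Agent.R014.N1Br_652

/-!
Row 14, theorem N1: nontriviality of `psi ∘ N` on `E = M^⟨g⟩` (helper652), from the simple poles of the
zeta functions of `E` and of one extension.
-/

set_option autoImplicit false

namespace Crest.Agent.R014.N1Nt_652

open NumberField Filter Topology Crest.Agent.R014.N1G_202 Crest.Agent.R014.LDef_550
  Crest.Agent.R014.N1C_479 Crest.Agent.R014.N1D_479

/-! ### The simple pole -/

theorem zE_eq (E : Type*) [Field E] [NumberField E] {s : ℝ} (hs : 0 < s) :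
    (zE E s : ℂ) = dedekindZeta E ((1 + s : ℝ) : ℂ) := by
  unfold zE dedekindZeta LSeries
  rw [Complex.ofReal_tsum]
  refine tsum_congr fun n => ?_
  by_cases hn : n = 0
  · subst hn
    have hs' : (-(1 + s)) ≠ 0 := by linarith
    rw [LSeries.term_zero, Nat.cast_zero, Real.zero_rpow hs', mul_zero, Complex.ofReal_zero]
  · rw [LSeries.term_of_ne_zero hn, Complex.ofReal_mul, Complex.ofReal_natCast, div_eq_mul_inv,
      Real.rpow_neg (Nat.cast_nonneg _), Complex.ofReal_inv,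
      Complex.ofReal_cpow (Nat.cast_nonneg _), Complex.ofReal_natCast]
    rfl

theorem zE_tendsto (E : Type*) [Field E] [NumberField E] :
    Tendsto (fun s : ℝ => s * zE E s) (𝓝[>] 0) (𝓝 (dedekindZeta_residue E)) := by
  have h1 := tendsto_sub_one_mul_dedekindZeta_nhdsGT (K := E)
  have h2 : Tendsto (fun s : ℝ => 1 + s) (𝓝[>] 0) (𝓝[>] 1) := by
    refine tendsto_nhdsWithin_of_tendsto_nhds_of_eventually_within _ ?_ ?_
    · have : Tendsto (fun s : ℝ => 1 + s) (𝓝 0) (𝓝 (1 + 0)) := tendsto_const_nhds.add tendsto_id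
      rw [add_zero] at this
      exact this.mono_left nhdsWithin_le_nhds
    · filter_upwards [self_mem_nhdsWithin] with s hs
      have : (0 : ℝ) < s := hs
      show (1 : ℝ) < 1 + s
      linarith
  have h3 := h1.comp h2
  have h4 : Tendsto (fun s : ℝ => ((s * zE E s : ℝ) : ℂ)) (𝓝[>] 0)
      (𝓝 ((dedekindZeta_residue E : ℝ) : ℂ)) := by
    refine h3.congr' ?_
    filter_upwards [self_mem_nhdsWithin] with s hs
    simp only [Function.comp]
    rw [Complex.ofReal_mul, zE_eq E hs]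
    push_cast
    ring
  have h5 := (Complex.continuous_re.tendsto _).comp h4
  rw [Complex.ofReal_re] at h5
  exact h5

/-- `log ζ_E(1+s) = log (1/s) + O(1)` near `0`. -/
theorem log_zE_bound (E : Type*) [Field E] [NumberField E] :
    ∃ C : ℝ, ∀ᶠ s : ℝ in 𝓝[>] 0, |Real.log (zE E s) - Real.log (1 / s)| ≤ C := by
  have hκ := dedekindZeta_residue_pos E
  have h1 := (zE_tendsto E).log hκ.ne'
  refine ⟨|Real.log (dedekindZeta_residue E)| + 1, ?_⟩
  have h2 : ∀ᶠ s : ℝ in 𝓝[>] 0,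
      |Real.log (s * zE E s) - Real.log (dedekindZeta_residue E)| < 1 := by
    have := (Metric.tendsto_nhds.mp h1) 1 one_pos
    simpa [Real.dist_eq] using this
  have h3 : ∀ᶠ s : ℝ in 𝓝[>] 0, 0 < s * zE E s :=
    (zE_tendsto E).eventually (lt_mem_nhds hκ)
  filter_upwards [h2, h3, self_mem_nhdsWithin] with s hs2 hs3 hs
  have hs0 : (0 : ℝ) < s := hs
  have hz : 0 < zE E s := (pos_iff_pos_of_mul_pos hs3).mp hs0
  have h4 : Real.log (zE E s) - Real.log (1 / s) = Real.log (s * zE E s) := by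
    rw [Real.log_mul hs0.ne' hz.ne', one_div, Real.log_inv]; ring
  rw [h4]
  have h5 := abs_sub_abs_le_abs_sub (Real.log (s * zE E s)) (Real.log (dedekindZeta_residue E))
  linarith

/-! ### Fixed points on cosets of the kernel -/

section Group

variable {Γ A : Type*} [Group Γ] [Fintype Γ] [CommGroup A]

/-- the kernel of a character inside `H` -/
def H1 (pr : Γ →* A) (H : Subgroup Γ) (ψ : A →* ℂˣ) : Subgroup Γ := H ⊓ (ψ.comp pr).ker

omit [Fintype Γ] in
theorem fx_eq_of_ker (pr : Γ →* A) (H : Subgroup Γ) (ψ : A →* ℂˣ) (y : Γ)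
    (hy : ψ (pr y) = 1) :
    fx (H1 pr H ψ) y * Nat.card (H1 pr H ψ) = fx H y * Nat.card H := by
  rw [fx_mul_card, fx_mul_card]
  refine Nat.card_congr (Equiv.subtypeEquivRight fun g => ?_)
  unfold H1
  rw [Subgroup.mem_inf]
  constructor
  · exact fun h => h.1
  · intro h
    refine ⟨h, ?_⟩
    rw [MonoidHom.mem_ker]
    simp only [MonoidHom.comp_apply, map_mul, map_inv, hy, mul_one, inv_mul_cancel]

theorem fx_zero_of_not_ker (pr : Γ →* A) (H : Subgroup Γ) (ψ : A →* ℂˣ) (y : Γ)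
    (hy : ψ (pr y) ≠ 1) : fx (H1 pr H ψ) y = 0 := by
  have h1 := fx_mul_card (H1 pr H ψ) y
  have h2 : Nat.card {g : Γ // g⁻¹ * y * g ∈ H1 pr H ψ} = 0 := by
    rw [Nat.card_eq_zero]
    left
    constructor
    rintro ⟨g, hg⟩
    have h3 := (Subgroup.mem_inf.mp hg).2
    rw [MonoidHom.mem_ker] at h3
    simp only [MonoidHom.comp_apply, map_mul, map_inv] at h3
    apply hy
    rwa [mul_comm (ψ (pr g))⁻¹, inv_mul_cancel_right] at h3
  rw [h2] at h1
  exact (Nat.mul_eq_zero.mp h1).resolve_right Nat.card_pos.ne'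

theorem card_H1 (pr : Γ →* A) {H : Subgroup Γ} {ψ : A →* ℂˣ} {g : Γ} (hg : g ∈ H)
    (hψ : ψ (pr g) ≠ 1) : 2 * Nat.card (H1 pr H ψ) ≤ Nat.card H := by
  have hle : H1 pr H ψ ≤ H := inf_le_left
  obtain ⟨k, hk⟩ := Subgroup.card_dvd_of_le hle
  have hpos : 0 < Nat.card H := Nat.card_pos
  have hk0 : k ≠ 0 := by rintro rfl; omega
  have hk1 : k ≠ 1 := by
    rintro rfl
    rw [mul_one] at hk
    have h1 : H1 pr H ψ = H := Subgroup.eq_of_le_of_card_ge hle hk.le
    have h2 : g ∈ H1 pr H ψ := by rw [h1]; exact hg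
    exact hψ ((MonoidHom.mem_ker).mp (Subgroup.mem_inf.mp h2).2)
  have hk2 : 2 ≤ k := by omega
  rw [hk]
  nlinarith [Nat.zero_le (Nat.card (H1 pr H ψ))]

end Group

/-! ### Nontriviality -/

variable {M : Type} [Field M] [NumberField M] {q : ℕ} {A : Type} [CommGroup A]

theorem V_pos_imp (d : FldData M q A) {s : ℝ} {y : M ≃ₐ[ℚ] M} (h : d.V s y ≠ 0) :
    ∃ p, Good M q p ∧ d.φ p = y := by
  classical
  by_contra hne
  apply h
  push Not at hne
  unfold FldData.V
  have h0 : (fun p : ℕ => if Good M q p ∧ d.φ p = y then (p : ℝ) ^ (-(1 + s)) else 0) =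
      fun _ => 0 := by
    funext p
    rw [if_neg]
    rintro ⟨h1, h2⟩
    exact hne p h1 h2
  calc (∑' p : ℕ, if Good M q p ∧ d.φ p = y then (p : ℝ) ^ (-(1 + s)) else 0) =
        ∑' _p : ℕ, (0 : ℝ) := by rw [h0]
    _ = 0 := tsum_zero

theorem nontriv (d : FldData M q A) {C : ℝ} (hB : Bridge C d) {τ : A}
    (hgen : ∀ ψ : A →* ℂˣ, ψ τ = 1 → ψ = 1) : Nontriv d τ := by
  classical
  intro g hg ψ hψ
  by_contra hno
  push Not at hno
  set H : Subgroup (M ≃ₐ[ℚ] M) := Subgroup.zpowers g with hH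
  set K1 := H1 d.pr H ψ with hK1
  have hψg : ψ (d.pr g) ≠ 1 := by
    rw [hg]; exact fun h => hψ (hgen ψ h)
  have hcard := card_H1 d.pr (H := H) (ψ := ψ) (Subgroup.mem_zpowers g) hψg
  rw [← hK1] at hcard
  have hK1pos : (0 : ℝ) < Nat.card K1 := by exact_mod_cast Nat.card_pos
  set m : ℝ := (Nat.card H : ℝ) / Nat.card K1 with hm
  have hm2 : 2 ≤ m := by
    rw [hm, le_div_iff₀ hK1pos]
    exact_mod_cast hcard
  -- the values at Frobenius elements
  have hfx : ∀ y, (∃ p, Good M q p ∧ d.φ p = y) → (fx K1 y : ℝ) = m * fx H y := by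
    rintro y ⟨p, hp, rfl⟩
    by_cases hy : ψ (d.pr (d.φ p)) = 1
    · have h1 := fx_eq_of_ker d.pr H ψ (d.φ p) hy
      rw [← hK1] at h1
      have h2 : (fx K1 (d.φ p) : ℝ) * Nat.card K1 = fx H (d.φ p) * Nat.card H := by
        exact_mod_cast h1
      rw [hm]
      field_simp
      linarith
    · rw [hK1, fx_zero_of_not_ker d.pr H ψ _ hy]
      have h3 : fx H (d.φ p) = 0 := by
        by_contra h0
        rw [← d.hfix p hp.1 hp.2.2 H] at h0
        obtain ⟨⟨a, ha⟩⟩ := (Nat.card_pos_iff.mp (Nat.pos_of_ne_zero h0)).1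
        have ha0 : a ≠ ⊥ := by
          rintro rfl
          rw [Ideal.absNorm_bot] at ha
          exact hp.1.ne_zero ha.symm
        have h4 := hno a ha0 (by rw [ha]; exact hp.2.1)
        rw [ha] at h4
        apply hy
        have h5 : ((p : ℕ) : ZMod q) = ((ZMod.unitOfCoprime p hp.2.1 : (ZMod q)ˣ) : ZMod q) :=
          (ZMod.coe_unitOfCoprime _ _).symm
        rw [h5] at h4
        unfold FldData.dir at h4
        rw [MulChar.ofUnitHom_coe, MonoidHom.comp_apply, ← d.hχ p hp.1 hp.2.1 hp.2.2] at h4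
        exact Units.ext h4
      rw [h3]; simp
  have hR : ∀ s, R d.pr (d.V s) K1 1 = m * R d.pr (d.V s) H 1 := by
    intro s
    rw [R_one, R_one, Finset.mul_sum]
    refine Finset.sum_congr rfl fun y _ => ?_
    by_cases hV : d.V s y = 0
    · rw [hV]; ring
    · rw [hfx y (V_pos_imp d hV)]; ring
  -- asymptotics
  obtain ⟨C1, h1⟩ := log_zE_bound (IntermediateField.fixedField H)
  obtain ⟨C2, h2⟩ := log_zE_bound (IntermediateField.fixedField K1)
  set C' := C + Module.finrank ℚ M * Real.log (1 + Real.logb 2 (q * |(discr M : ℝ)|)) with hC'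
  have h3 : ∀ᶠ s : ℝ in 𝓝[>] 0, (m - 1) * Real.log (1 / s) ≤ m * (C1 + C') + (C2 + C') := by
    have hmem : ∀ᶠ s : ℝ in 𝓝[>] 0, s ∈ Set.Ioc (0:ℝ) 1 := Ioc_mem_nhdsGT one_pos
    filter_upwards [h1, h2, hmem] with s hs1 hs2 hs
    have hb1 := (hB H 1 s hs).2
    have hb2 := (hB K1 1 s hs).2
    unfold FldData.F at hb1 hb2
    rw [if_pos rfl, Complex.norm_real, Real.norm_eq_abs, Real.log_abs, ← hC'] at hb1 hb2
    rw [hR] at hb2
    rw [abs_le] at hb1 hb2 hs1 hs2
    nlinarith [hb1.1, hb1.2, hb2.1, hb2.2, hs1.1, hs1.2, hs2.1, hs2.2]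
  have h4 : Tendsto (fun s : ℝ => (m - 1) * Real.log (1 / s)) (𝓝[>] 0) atTop := by
    have h5 : Tendsto (fun s : ℝ => Real.log (1 / s)) (𝓝[>] 0) atTop := by
      have h6 : Tendsto (fun s : ℝ => -Real.log s) (𝓝[>] 0) atTop :=
        tendsto_neg_atBot_atTop.comp Real.tendsto_log_nhdsGT_zero
      refine h6.congr fun s => ?_
      rw [one_div, Real.log_inv]
    exact h5.const_mul_atTop (by linarith)
  have h5 := h4.eventually_gt_atTop (m * (C1 + C') + (C2 + C'))
  obtain ⟨s, hs3, hs5⟩ := (h3.and h5).exists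
  linarith

end Crest.Agent.R014.N1Nt_652
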