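import Crest.Agent.R014.N1Br_652
import Crest.Agent.R014.N1Nt_652
import Crest.Agent.R014.EulD_534

/-!
Row 14, theorem N1: the bridge is unconditional (helper652, over helper534's Euler products).
-/

set_option autoImplicit false

namespace Crest.Agent.R014.N1Eu_652

open NumberField LDef_550 N1Br_652 N1C_479 N1D_479 N1G_202

theorem eulE (E : Type) [Field E] [NumberField E] {C : ℝ} (hC : 4 * (Module.finrank ℚ E : ℝ) ≤ C) :
    EulE C E := by
  intro s hs
  refine ⟨⟨?_, (EulD_534.eul_zeta (E := E) hs.1).trans hC⟩, ?_⟩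
  · have := EulD_534.one_le_zE (E := E) hs.1
    intro h
    rw [h] at this
    linarith
  · intro q _ ψ
    obtain ⟨h1, h2⟩ := EulD_534.eul_psi_log (E := E) ψ hs.1
    refine ⟨h1, ?_⟩
    have hs' := EulD_534.summable_psi (E := E) ψ hs.1
    have h3 : (∑' p : Nat.Primes, ψ ((p : ℕ) : ZMod q) *
        (LDef_550.rE E p : ℂ) * ((((p : ℕ) : ℝ) ^ (-(1 + s)) : ℝ) : ℂ)).re =
        ∑' p : Nat.Primes, ((ψ ((p : ℕ) : ZMod q)).re * (LDef_550.rE E p : ℝ)) *
          ((p : ℕ) : ℝ) ^ (-(1 + s)) := by
      rw [Complex.re_tsum hs']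
      refine tsum_congr fun p => ?_
      rw [mul_assoc, ← Complex.ofReal_natCast (LDef_550.rE E p), ← Complex.ofReal_mul,
        Complex.re_mul_ofReal, mul_assoc]
    rw [h3] at h2
    exact h2.trans hC

variable {M : Type} [Field M] [NumberField M] {q : ℕ} {A : Type} [CommGroup A]

/-- **the bridge, unconditional** -/
theorem bridge_all (hq : q ≠ 0) (d : FldData M q A) :
    Bridge (7 * Module.finrank ℚ M) d := by
  have h := bridge_fld (C0 := 4 * Module.finrank ℚ M) hq d (fun H => eulE _ (by
    have := finrank_fixed_le H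
    have h2 : (Module.finrank ℚ (IntermediateField.fixedField H) : ℝ) ≤ Module.finrank ℚ M := by
      exact_mod_cast this
    linarith))
  have h3 : (4 * Module.finrank ℚ M + 3 * Module.finrank ℚ M : ℝ) = 7 * Module.finrank ℚ M := by
    ring
  rw [h3] at h
  exact h

end Crest.Agent.R014.N1Eu_652
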