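import Mathlib

/-!
# Primitive groups of degree 4 and 6 are 2-transitive

Elementary proof (invariant symmetric relations of degree 1 and 2 on at most 6 points), and the
count of derangements in a 2-transitive group.
-/

set_option autoImplicit false

open MulAction

namespace Crest.Agent.R014.TwoTr_853

section prim

variable {G X : Type*} [Group G] [MulAction G X]

/-- The invariant equivalence relations of a primitive action are trivial. -/
theorem inv_equiv [IsPreprimitive G X] (E : X → X → Prop) (hr : ∀ x, E x x)
    (hs : ∀ x y, E x y → E y x) (ht : ∀ x y z, E x y → E y z → E x z)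
    (hG : ∀ (g : G) x y, E x y → E (g • x) (g • y)) :
    (∀ x y, E x y → x = y) ∨ (∀ x y, E x y) := by
  have hG' : ∀ (g : G) x y, E (g • x) (g • y) → E x y := by
    intro g x y h
    simpa using hG g⁻¹ _ _ h
  have key : ∀ x, IsBlock G {y | E x y} := by
    intro x
    rw [isBlock_iff_smul_eq_or_disjoint]
    intro g
    by_cases h : E x (g • x)
    · left
      ext y
      rw [Set.mem_smul_set_iff_inv_smul_mem]
      constructor
      · intro hy
        have := hG g _ _ hy
        simp only [smul_inv_smul] at this
        exact ht _ _ _ h this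
      · intro hy
        apply hG' g
        simp only [smul_inv_smul]
        exact ht _ _ _ (hs _ _ h) hy
    · right
      rw [Set.disjoint_left]
      intro y hy hy2
      rw [Set.mem_smul_set_iff_inv_smul_mem] at hy
      have := hG g _ _ hy
      simp only [smul_inv_smul] at this
      exact h (ht _ _ _ hy2 (hs _ _ this))
  by_cases hall : ∃ x, {y | E x y} = Set.univ
  · right
    obtain ⟨x, hx⟩ := hall
    have hx' : ∀ y, E x y := fun y => by
      have : y ∈ {y | E x y} := by rw [hx]; trivial
      exact this
    intro y z
    exact ht _ _ _ (hs _ _ (hx' y)) (hx' z)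
  · left
    intro x y hxy
    rcases (key x).subsingleton_or_eq_univ with h | h
    · exact h (hr x) hxy
    · exact absurd ⟨x, h⟩ hall

variable [Fintype X]

open Classical in
/-- degree of an invariant relation -/
noncomputable def nb (R : X → X → Prop) (x : X) : Finset X := Finset.univ.filter (fun y => R x y)

theorem mem_nb (R : X → X → Prop) (x y : X) : y ∈ nb R x ↔ R x y := by
  classical
  simp [nb]

theorem card_nb_smul (R : X → X → Prop) (hG : ∀ (g : G) x y, R x y → R (g • x) (g • y))
    (g : G) (x : X) : (nb R (g • x)).card = (nb R x).card := by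
  classical
  symm
  apply Finset.card_bij (fun y _ => g • y)
  · intro y hy
    rw [mem_nb] at hy ⊢
    exact hG g _ _ hy
  · intro y _ z _ h
    exact smul_left_cancel g h
  · intro y hy
    rw [mem_nb] at hy
    refine ⟨g⁻¹ • y, ?_, by simp⟩
    rw [mem_nb]
    simpa using hG g⁻¹ _ _ hy

theorem card_nb_eq [IsPretransitive G X] (R : X → X → Prop)
    (hG : ∀ (g : G) x y, R x y → R (g • x) (g • y)) (x y : X) :
    (nb R x).card = (nb R y).card := by
  obtain ⟨g, rfl⟩ := exists_smul_eq G x y
  exact (card_nb_smul R hG g x).symm

/-- no invariant perfect matching on at least three points -/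
theorem deg_one [IsPreprimitive G X] (R : X → X → Prop) (hG : ∀ (g : G) x y, R x y → R (g • x) (g • y))
    (hs : ∀ x y, R x y → R y x) (hi : ∀ x, ¬ R x x) (h1 : ∀ x, (nb R x).card = 1)
    (h3 : 3 ≤ Fintype.card X) : False := by
  classical
  have huniq : ∀ x y z, R x y → R x z → y = z := by
    intro x y z hy hz
    have := Finset.card_eq_one.1 (h1 x)
    obtain ⟨w, hw⟩ := this
    have a1 := (mem_nb R x y).2 hy
    have a2 := (mem_nb R x z).2 hz
    rw [hw, Finset.mem_singleton] at a1 a2
    rw [a1, a2]
  have hne : 0 < Fintype.card X := by omega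
  obtain ⟨x⟩ := Fintype.card_pos_iff.1 hne
  rcases inv_equiv (G := G) (fun x y => x = y ∨ R x y) (fun x => Or.inl rfl)
    (fun x y h => h.elim (fun h => Or.inl h.symm) (fun h => Or.inr (hs _ _ h)))
    (by
      rintro x y z (rfl | h1) (rfl | h2)
      · exact Or.inl rfl
      · exact Or.inr h2
      · exact Or.inr h1
      · exact Or.inl (huniq y x z (hs _ _ h1) h2))
    (by
      rintro g x y (rfl | h)
      · exact Or.inl rfl
      · exact Or.inr (hG g _ _ h)) with h | h
  · obtain ⟨w, hw⟩ := Finset.card_eq_one.1 (h1 x)
    have hw' : R x w := (mem_nb R x w).1 (by rw [hw]; simp)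
    have := h x w (Or.inr hw')
    subst this
    exact hi _ hw'
  · have hsub : (Finset.univ : Finset X) ⊆ insert x (nb R x) := by
      intro y _
      rcases h x y with rfl | hy
      · simp
      · exact Finset.mem_insert_of_mem ((mem_nb R x y).2 hy)
    have hc := Finset.card_le_card hsub
    have hc2 := Finset.card_insert_le x (nb R x)
    rw [h1 x] at hc2
    rw [Finset.card_univ] at hc
    omega

/-- no invariant 2-regular graph on 6 points -/
theorem deg_two [IsPreprimitive G X] (R : X → X → Prop) (hG : ∀ (g : G) x y, R x y → R (g • x) (g • y))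
    (hs : ∀ x y, R x y → R y x) (hi : ∀ x, ¬ R x x) (h2 : ∀ x, (nb R x).card = 2)
    (h6 : Fintype.card X = 6) : False := by
  classical
  have hne : 0 < Fintype.card X := by omega
  obtain ⟨x₀⟩ := Fintype.card_pos_iff.1 hne
  have hG' : ∀ (g : G) x y, R (g • x) (g • y) → R x y := fun g x y h => by
    simpa using hG g⁻¹ _ _ h
  -- at most two neighbours
  have two : ∀ x a b c, R x a → R x b → a ≠ b → R x c → c = a ∨ c = b := by
    intro x a b c ha hb hab hc
    by_contra hcon
    push Not at hcon
    have hsub : ({a, b, c} : Finset X) ⊆ nb R x := by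
      intro y hy
      simp only [Finset.mem_insert, Finset.mem_singleton] at hy
      rcases hy with rfl | rfl | rfl <;> rw [mem_nb] <;> assumption
    have hc3 : ({a, b, c} : Finset X).card = 3 := by
      rw [Finset.card_insert_of_notMem, Finset.card_insert_of_notMem, Finset.card_singleton]
      · simp only [Finset.mem_singleton]; exact fun h => hcon.2 h.symm
      · simp only [Finset.mem_insert, Finset.mem_singleton]
        rintro (h | h)
        · exact hab h
        · exact hcon.1 h.symm
    have := Finset.card_le_card hsub
    rw [hc3, h2 x] at this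
    omega
  have ex2 : ∀ x, ∃ a b, a ≠ b ∧ R x a ∧ R x b := by
    intro x
    obtain ⟨a, b, hab, h⟩ := Finset.card_eq_two.1 (h2 x)
    exact ⟨a, b, hab, (mem_nb R x a).1 (by rw [h]; simp), (mem_nb R x b).1 (by rw [h]; simp)⟩
  by_cases hA : ∃ x a b, R x a ∧ R x b ∧ a ≠ b ∧ R a b
  · obtain ⟨x, a, b, ha, hb, hab, hr⟩ := hA
    have tri : ∀ x' y z, R x' y → R x' z → y ≠ z → R y z := by
      intro x' y z hy hz hyz
      obtain ⟨g, rfl⟩ := exists_smul_eq G x x'
      rcases two _ _ _ y (hG g _ _ ha) (hG g _ _ hb) (fun h => hab (smul_left_cancel g h)) hy with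
        rfl | rfl
      · rcases two _ _ _ z (hG g _ _ ha) (hG g _ _ hb) (fun h => hab (smul_left_cancel g h)) hz with
          rfl | rfl
        · exact absurd rfl hyz
        · exact hG g _ _ hr
      · rcases two _ _ _ z (hG g _ _ ha) (hG g _ _ hb) (fun h => hab (smul_left_cancel g h)) hz with
          rfl | rfl
        · exact hG g _ _ (hs _ _ hr)
        · exact absurd rfl hyz
    rcases inv_equiv (G := G) (fun x y => x = y ∨ R x y) (fun x => Or.inl rfl)
      (fun x y h => h.elim (fun h => Or.inl h.symm) (fun h => Or.inr (hs _ _ h)))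
      (by
        rintro x y z (rfl | h1) (rfl | h2)
        · exact Or.inl rfl
        · exact Or.inr h2
        · exact Or.inr h1
        · by_cases hxz : x = z
          · exact Or.inl hxz
          · exact Or.inr (tri y x z (hs _ _ h1) h2 hxz))
      (by
        rintro g x y (rfl | h)
        · exact Or.inl rfl
        · exact Or.inr (hG g _ _ h)) with h | h
    · have := h x a (Or.inr ha)
      subst this
      exact hi _ ha
    · have hsub : (Finset.univ : Finset X) ⊆ insert x (nb R x) := by
        intro y _
        rcases h x y with rfl | hy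
        · simp
        · exact Finset.mem_insert_of_mem ((mem_nb R x y).2 hy)
      have hc := Finset.card_le_card hsub
      have hc2 := Finset.card_insert_le x (nb R x)
      rw [h2 x] at hc2
      rw [Finset.card_univ] at hc
      omega
  · push Not at hA
    -- no two vertices have the same neighbours
    have hinj : ∀ x y, (∀ z, R x z ↔ R y z) → x = y := by
      rcases inv_equiv (G := G) (fun x y => ∀ z, R x z ↔ R y z) (fun x z => Iff.rfl)
        (fun x y h z => (h z).symm) (fun x y z h1 h2 w => (h1 w).trans (h2 w))
        (by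
          intro g x y h z
          have hh := h (g⁻¹ • z)
          constructor
          · intro hz
            have := hh.1 (hG' g _ _ (by simpa using hz))
            simpa using hG g _ _ this
          · intro hz
            have := hh.2 (hG' g _ _ (by simpa using hz))
            simpa using hG g _ _ this) with h | h
      · exact h
      · exfalso
        obtain ⟨a, b, -, ha, -⟩ := ex2 x₀
        exact hi a ((h x₀ a a).1 ha)
    -- vertices at distance two
    let S : X → X → Prop := fun x y => y ≠ x ∧ ∃ z, R x z ∧ R z y
    have hS2 : ∀ x, (nb S x).card = 2 := by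
      intro x
      obtain ⟨a, b, hab, ha, hb⟩ := ex2 x
      have other : ∀ a, R x a → ∃ a', a' ≠ x ∧ R a a' := by
        intro a ha
        obtain ⟨c, d, hcd, hc, hd⟩ := ex2 a
        by_cases h : c = x
        · exact ⟨d, fun h' => hcd (h.trans h'.symm), hd⟩
        · exact ⟨c, h, hc⟩
      obtain ⟨a', ha', hra⟩ := other a ha
      obtain ⟨b', hb', hrb⟩ := other b hb
      have hab' : a' ≠ b' := by
        rintro rfl
        apply ha'
        apply hinj
        intro z
        constructor
        · intro hz
          rcases two a' a b z (hs _ _ hra) (hs _ _ hrb) hab hz with rfl | rfl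
          · exact ha
          · exact hb
        · intro hz
          rcases two x a b z ha hb hab hz with rfl | rfl
          · exact hs _ _ hra
          · exact hs _ _ hrb
      have : nb S x = {a', b'} := by
        ext y
        rw [mem_nb]
        simp only [Finset.mem_insert, Finset.mem_singleton]
        constructor
        · rintro ⟨hyx, z, hxz, hzy⟩
          rcases two x a b z ha hb hab hxz with rfl | rfl
          · rcases two z x a' y (hs _ _ ha) hra (Ne.symm ha') hzy with h | h
            · exact absurd h hyx
            · exact Or.inl h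
          · rcases two z x b' y (hs _ _ hb) hrb (Ne.symm hb') hzy with h | h
            · exact absurd h hyx
            · exact Or.inr h
        · rintro (rfl | rfl)
          · exact ⟨ha', a, ha, hra⟩
          · exact ⟨hb', b, hb, hrb⟩
      rw [this, Finset.card_pair hab']
    let T : X → X → Prop := fun x y => y ≠ x ∧ ¬ R x y ∧ ¬ S x y
    have hT1 : ∀ x, (nb T x).card = 1 := by
      intro x
      have hd1 : Disjoint (nb R x) (nb S x) := by
        rw [Finset.disjoint_left]
        intro y hy hy2
        rw [mem_nb] at hy hy2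
        obtain ⟨hyx, z, hxz, hzy⟩ := hy2
        exact hA x z y hxz hy (fun h => by subst h; exact hi _ hzy) hzy
      have hx1 : x ∉ nb R x ∪ nb S x := by
        rw [Finset.mem_union, mem_nb, mem_nb]
        rintro (h | h)
        · exact hi _ h
        · exact h.1 rfl
      have hT : nb T x = (insert x (nb R x ∪ nb S x))ᶜ := by
        ext y
        rw [mem_nb, Finset.mem_compl, Finset.mem_insert, Finset.mem_union, mem_nb, mem_nb]
        constructor
        · rintro ⟨h1, h2, h3⟩ (h | h | h)
          · exact h1 h
          · exact h2 h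
          · exact h3 h
        · intro h
          exact ⟨fun h' => h (Or.inl h'), fun h' => h (Or.inr (Or.inl h')),
            fun h' => h (Or.inr (Or.inr h'))⟩
      rw [hT, Finset.card_compl, Finset.card_insert_of_notMem hx1, Finset.card_union_of_disjoint hd1,
        h2 x, hS2 x, h6]
    refine deg_one (G := G) T ?_ ?_ ?_ hT1 (by omega)
    · rintro g x y ⟨h1, h2, h3⟩
      refine ⟨fun h => h1 (smul_left_cancel g h), fun h => h2 (hG' g _ _ h), ?_⟩
      rintro ⟨-, z, hz1, hz2⟩
      apply h3
      refine ⟨h1, g⁻¹ • z, hG' g _ _ (by simpa using hz1), hG' g _ _ (by simpa using hz2)⟩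
    · rintro x y ⟨h1, h2, h3⟩
      refine ⟨h1.symm, fun h => h2 (hs _ _ h), ?_⟩
      rintro ⟨-, z, hz1, hz2⟩
      exact h3 ⟨h1, z, hs _ _ hz2, hs _ _ hz1⟩
    · rintro x ⟨h1, -⟩
      exact h1 rfl

/-- number of ordered pairs in an invariant relation -/
theorem card_rel [IsPretransitive G X] (R : X → X → Prop)
    (hG : ∀ (g : G) x y, R x y → R (g • x) (g • y)) (x : X) :
    (Finset.univ.sigma (fun x => nb R x)).card = Fintype.card X * (nb R x).card := by
  classical
  rw [Finset.card_sigma, Finset.sum_congr rfl (fun y _ => card_nb_eq (G := G) R hG y x)]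
  simp

/-- **Primitive groups of degree 4 or 6 are 2-transitive.** -/
theorem two_trans [IsPreprimitive G X] (h : Fintype.card X = 4 ∨ Fintype.card X = 6)
    {a b c d : X} (hab : a ≠ b) (hcd : c ≠ d) : ∃ g : G, g • a = c ∧ g • b = d := by
  classical
  by_contra hcon
  let R0 : X → X → Prop := fun x y => ∃ g : G, g • a = x ∧ g • b = y
  have hcd0 : ¬ R0 c d := hcon
  have hG0 : ∀ (g : G) x y, R0 x y → R0 (g • x) (g • y) := by
    rintro g x y ⟨k, rfl, rfl⟩
    exact ⟨g * k, mul_smul _ _ _, mul_smul _ _ _⟩
  have hi0 : ∀ x, ¬ R0 x x := by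
    rintro x ⟨k, h1, h2⟩
    exact hab (smul_left_cancel k (h1.trans h2.symm))
  have hR0ab : R0 a b := ⟨1, one_smul _ _, one_smul _ _⟩
  let R : X → X → Prop := fun x y => R0 x y ∨ R0 y x
  have hG : ∀ (g : G) x y, R x y → R (g • x) (g • y) :=
    fun g x y h => h.imp (hG0 g _ _) (hG0 g _ _)
  have hs : ∀ x y, R x y → R y x := fun x y h => h.symm
  have hi : ∀ x, ¬ R x x := fun x h => h.elim (hi0 x) (hi0 x)
  -- R is proper
  have hprop : ∃ x y, x ≠ y ∧ ¬ R x y := by
    by_contra hall
    push Not at hall
    -- R0 and its opposite are disjoint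
    have hdis : ∀ x y, R0 x y → ¬ R0 y x := by
      rintro x y hxy hyx
      -- then R0 is symmetric
      have hsym : ∀ u v, R0 u v → R0 v u := by
        rintro u v huv
        obtain ⟨k, h1, h2⟩ := hxy
        obtain ⟨l, h3, h4⟩ := hyx
        obtain ⟨m, h5, h6⟩ := huv
        refine ⟨m * k⁻¹ * l, ?_, ?_⟩
        · rw [mul_smul, h3, mul_smul, ← h2, inv_smul_smul, h6]
        · rw [mul_smul, h4, mul_smul, ← h1, inv_smul_smul, h5]
      rcases hall c d hcd with h | h
      · exact hcd0 h
      · exact hcd0 (hsym _ _ h)
    let P : Finset (X × X) := Finset.univ.filter (fun p => p.1 ≠ p.2)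
    let P1 : Finset (X × X) := Finset.univ.filter (fun p => R0 p.1 p.2)
    let P2 : Finset (X × X) := Finset.univ.filter (fun p => R0 p.2 p.1)
    have hP : P = P1 ∪ P2 := by
      ext p
      simp only [P, P1, P2, Finset.mem_filter, Finset.mem_univ, true_and, Finset.mem_union]
      constructor
      · intro hp
        exact hall _ _ hp
      · rintro (h | h) h2
        · rw [h2] at h; exact hi0 _ h
        · rw [h2] at h; exact hi0 _ h
    have hd : Disjoint P1 P2 := by
      rw [Finset.disjoint_left]
      intro p hp hp2
      simp only [P1, P2, Finset.mem_filter, Finset.mem_univ, true_and] at hp hp2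
      exact hdis _ _ hp hp2
    have hP12 : P2.card = P1.card := by
      apply Finset.card_bij (fun p _ => (p.2, p.1))
      · intro p hp
        simp only [P1, P2, Finset.mem_filter, Finset.mem_univ, true_and] at hp ⊢
        exact hp
      · rintro ⟨p1, p2⟩ _ ⟨q1, q2⟩ _ h
        simp only [Prod.mk.injEq] at h ⊢
        exact ⟨h.2, h.1⟩
      · rintro ⟨p1, p2⟩ hp
        refine ⟨(p2, p1), ?_, rfl⟩
        simp only [P1, P2, Finset.mem_filter, Finset.mem_univ, true_and] at hp ⊢
        exact hp
    have hP1 : P1.card = Fintype.card X * (nb R0 a).card := by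
      rw [← card_rel (G := G) R0 hG0 a]
      symm
      apply Finset.card_bij (fun (p : Σ _ : X, X) _ => (p.1, p.2))
      · rintro ⟨x, y⟩ hp
        simp only [Finset.mem_sigma, Finset.mem_univ, true_and, mem_nb] at hp
        simp only [P1, Finset.mem_filter, Finset.mem_univ, true_and]
        exact hp
      · rintro ⟨x, y⟩ _ ⟨z, w⟩ _ h
        simp only [Prod.mk.injEq] at h
        obtain ⟨rfl, rfl⟩ := h
        rfl
      · rintro ⟨x, y⟩ hp
        simp only [P1, Finset.mem_filter, Finset.mem_univ, true_and] at hp
        refine ⟨⟨x, y⟩, ?_, rfl⟩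
        simp only [Finset.mem_sigma, Finset.mem_univ, true_and, mem_nb]
        exact hp
    have hPc : P.card = Fintype.card X * Fintype.card X - Fintype.card X := by
      have := Finset.offDiag_card (Finset.univ : Finset X)
      have hPo : P = (Finset.univ : Finset X).offDiag := by
        ext p
        simp [P, Finset.mem_offDiag]
      rw [hPo, this, Finset.card_univ]
    rw [hP, Finset.card_union_of_disjoint hd, hP12, hP1] at hPc
    rcases h with h | h <;> rw [h] at hPc <;> omega
  obtain ⟨p, q, hpq, hnR⟩ := hprop
  let R' : X → X → Prop := fun x y => x ≠ y ∧ ¬ R x y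
  have hG' : ∀ (g : G) x y, R' x y → R' (g • x) (g • y) := by
    rintro g x y ⟨h1, h2⟩
    refine ⟨fun h => h1 (smul_left_cancel g h), fun h => h2 ?_⟩
    simpa using hG g⁻¹ _ _ h
  have hs' : ∀ x y, R' x y → R' y x := fun x y h => ⟨h.1.symm, fun h' => h.2 (hs _ _ h')⟩
  have hi' : ∀ x, ¬ R' x x := fun x h => h.1 rfl
  have hsum : ∀ x, (nb R x).card + (nb R' x).card + 1 = Fintype.card X := by
    intro x
    have hd1 : Disjoint (nb R x) (nb R' x) := by
      rw [Finset.disjoint_left]
      intro y hy hy2
      rw [mem_nb] at hy hy2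
      exact hy2.2 hy
    have hx1 : x ∉ nb R x ∪ nb R' x := by
      rw [Finset.mem_union, mem_nb, mem_nb]
      rintro (h | h)
      · exact hi _ h
      · exact h.1 rfl
    have hT : (Finset.univ : Finset X) = insert x (nb R x ∪ nb R' x) := by
      ext y
      simp only [Finset.mem_univ, true_iff, Finset.mem_insert, Finset.mem_union, mem_nb]
      by_cases h1 : y = x
      · exact Or.inl h1
      · by_cases h2 : R x y
        · exact Or.inr (Or.inl h2)
        · exact Or.inr (Or.inr ⟨Ne.symm h1, h2⟩)
    rw [← Finset.card_univ, hT, Finset.card_insert_of_notMem hx1,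
      Finset.card_union_of_disjoint hd1]
  have hk : ∀ x, (nb R x).card = (nb R a).card := fun x => card_nb_eq (G := G) R hG x a
  have hk' : ∀ x, (nb R' x).card = (nb R' a).card := fun x => card_nb_eq (G := G) R' hG' x a
  have hk1 : 1 ≤ (nb R a).card := by
    apply Finset.card_pos.2
    exact ⟨b, (mem_nb R a b).2 (Or.inl hR0ab)⟩
  have hk1' : 1 ≤ (nb R' a).card := by
    rw [← hk' p]
    apply Finset.card_pos.2
    exact ⟨q, (mem_nb R' p q).2 ⟨hpq, hnR⟩⟩
  have hs0 := hsum a
  rcases h with h | h
  · have : (nb R a).card = 1 ∨ (nb R' a).card = 1 := by omega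
    rcases this with h1 | h1
    · exact deg_one (G := G) R hG hs hi (fun x => (hk x).trans h1) (by omega)
    · exact deg_one (G := G) R' hG' hs' hi' (fun x => (hk' x).trans h1) (by omega)
  · have : ((nb R a).card = 1 ∨ (nb R' a).card = 1) ∨ ((nb R a).card = 2 ∨ (nb R' a).card = 2) := by
      omega
    rcases this with (h1 | h1) | (h1 | h1)
    · exact deg_one (G := G) R hG hs hi (fun x => (hk x).trans h1) (by omega)
    · exact deg_one (G := G) R' hG' hs' hi' (fun x => (hk' x).trans h1) (by omega)
    · exact deg_two (G := G) R hG hs hi (fun x => (hk x).trans h1) h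
    · exact deg_two (G := G) R' hG' hs' hi' (fun x => (hk' x).trans h1) h

/-- Mathlib form. -/
theorem isMultiplyPretransitive_two [IsPreprimitive G X]
    (h : Fintype.card X = 4 ∨ Fintype.card X = 6) : IsMultiplyPretransitive G X 2 :=
  is_two_pretransitive_iff.2 fun hab hcd => two_trans h hab hcd

end prim

end Crest.Agent.R014.TwoTr_853
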