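import Crest.Prelude.Def_TorusPacket
import Crest.Agent.R014.TwoTr_853

/-!
# 2-transitivity for primitive number fields of degree 4 and 6; derangements
-/

set_option autoImplicit false

open MulAction

namespace Crest.Agent.R014.TwoTr2_853

open Crest.Agent.R014.TwoTr_853

section count

variable {G X : Type*} [Group G] [MulAction G X] [Fintype G] [Fintype X]

open Classical in
/-- number of fixed points -/
noncomputable def fx (G : Type*) {X : Type*} [Group G] [MulAction G X] [Fintype X] (g : G) : ℕ :=
  (Finset.univ.filter (fun x : X => g • x = x)).card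

/-- number of orbits = average number of fixed points, transitive case. -/
theorem sum_fx [IsPretransitive G X] [Nonempty X] : ∑ g : G, fx G (X := X) g = Fintype.card G := by
  classical
  have h := sum_card_fixedBy_eq_card_orbits_mul_card_group G X
  have h1 : Fintype.card (Quotient (orbitRel G X)) = 1 := by
    rw [Fintype.card_eq_one_iff]
    obtain ⟨x⟩ := ‹Nonempty X›
    refine ⟨Quotient.mk _ x, fun y => ?_⟩
    induction y using Quotient.inductionOn with
    | h y =>
      apply Quotient.sound
      obtain ⟨g, hg⟩ := exists_smul_eq G x y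
      exact ⟨g, hg⟩
  rw [h1, one_mul] at h
  rw [← h]
  apply Finset.sum_congr rfl
  intro g _
  rw [fx, ← Fintype.card_subtype]
  rfl

/-- second moment of the number of fixed points in the 2-transitive case. -/
theorem sum_fx_sq [IsMultiplyPretransitive G X 2] (h2 : 2 ≤ Fintype.card X) :
    ∑ g : G, fx G (X := X) g * fx G (X := X) g = 2 * Fintype.card G := by
  classical
  have h := sum_card_fixedBy_eq_card_orbits_mul_card_group G (X × X)
  have htr : ∀ {a b c d : X} (_ : a ≠ b) (_ : c ≠ d), ∃ g : G, g • a = c ∧ g • b = d :=
    (is_two_pretransitive_iff (G := G) (α := X)).1 inferInstance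
  have : IsPretransitive G X := isPretransitive_of_is_two_pretransitive
  obtain ⟨a, b, hab⟩ := Fintype.one_lt_card_iff.1 (show 1 < Fintype.card X by omega)
  have h1 : Fintype.card (Quotient (orbitRel G (X × X))) = 2 := by
    have e : Quotient (orbitRel G (X × X)) ≃ Bool :=
      { toFun := Quotient.lift (fun p : X × X => decide (p.1 = p.2)) (by
          rintro ⟨p1, p2⟩ ⟨q1, q2⟩ ⟨g, hg⟩
          simp only [Prod.smul_mk, Prod.mk.injEq] at hg
          obtain ⟨h1, h2⟩ := hg
          simp only [decide_eq_decide]
          rw [← h1, ← h2]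
          exact ⟨fun h => smul_left_cancel g h, fun h => by rw [h]⟩)
        invFun := fun t => if t then Quotient.mk _ (a, a) else Quotient.mk _ (a, b)
        left_inv := by
          intro p
          induction p using Quotient.inductionOn with
          | h p =>
            obtain ⟨p1, p2⟩ := p
            simp only [Quotient.lift_mk]
            by_cases hp : p1 = p2
            · subst hp
              simp only [decide_true, if_true]
              apply Quotient.sound
              obtain ⟨g, hg⟩ := exists_smul_eq G p1 a
              exact ⟨g, by simp [hg]⟩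
            · simp only [hp, decide_false, Bool.false_eq_true, if_false]
              apply Quotient.sound
              obtain ⟨g, hg1, hg2⟩ := htr hp hab
              exact ⟨g, by simp [hg1, hg2]⟩
        right_inv := by
          intro t
          cases t
          · simp [hab]
          · simp }
    rw [Fintype.card_congr e, Fintype.card_bool]
  rw [h1] at h
  rw [← h]
  apply Finset.sum_congr rfl
  intro g _
  rw [fx, ← Fintype.card_subtype, ← Fintype.card_prod]
  apply Fintype.card_congr
  exact
    { toFun := fun p => ⟨(p.1.1, p.2.1), by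
        show g • (p.1.1, p.2.1) = (p.1.1, p.2.1)
        rw [Prod.smul_mk, p.1.2, p.2.2]⟩
      invFun := fun p => (⟨p.1.1, congrArg Prod.fst p.2⟩, ⟨p.1.2, congrArg Prod.snd p.2⟩)
      left_inv := fun p => rfl
      right_inv := fun p => rfl }

/-- **Derangements in a 2-transitive group**: `2 #der + (n-1)(n-2) ≤ |G|`. -/
theorem two_mul_card_derangements [IsMultiplyPretransitive G X 2] (h2 : 2 ≤ Fintype.card X)
    [DecidablePred fun g : G => ∀ x : X, g • x ≠ x] :
    2 * (Finset.univ.filter (fun g : G => ∀ x : X, g • x ≠ x)).card
      + (Fintype.card X - 1) * (Fintype.card X - 2) ≤ Fintype.card G := by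
  classical
  have : IsPretransitive G X := isPretransitive_of_is_two_pretransitive
  have : Nonempty X := Fintype.card_pos_iff.1 (by omega)
  have s1 : ∑ g : G, (fx G (X := X) g : ℤ) = Fintype.card G := by
    exact_mod_cast sum_fx (G := G) (X := X)
  have s2 : ∑ g : G, (fx G (X := X) g : ℤ) * fx G (X := X) g = 2 * Fintype.card G := by
    exact_mod_cast sum_fx_sq (G := G) (X := X) h2
  have key : ∑ g : G, ((fx G (X := X) g : ℤ) - 1) * ((fx G (X := X) g : ℤ) - 2)
      = Fintype.card G := by
    have : ∀ g : G, ((fx G (X := X) g : ℤ) - 1) * ((fx G (X := X) g : ℤ) - 2)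
        = (fx G (X := X) g : ℤ) * fx G (X := X) g - 3 * fx G (X := X) g + 2 := fun g => by ring
    rw [Finset.sum_congr rfl (fun g _ => this g), Finset.sum_add_distrib, Finset.sum_sub_distrib,
      ← Finset.mul_sum, s1, s2]
    simp only [Finset.sum_const, Finset.card_univ, nsmul_eq_mul]
    ring
  have hone : (fx G (X := X) (1 : G) : ℤ) = Fintype.card X := by
    simp [fx]
  set S := Finset.univ.filter (fun g : G => ∀ x : X, g • x ≠ x) with hS
  have h1S : (1 : G) ∉ S := by
    rw [hS, Finset.mem_filter]
    rintro ⟨-, h⟩
    obtain ⟨x⟩ := ‹Nonempty X›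
    exact h x (one_smul _ _)
  have hnn : ∀ g : G, 0 ≤ ((fx G (X := X) g : ℤ) - 1) * ((fx G (X := X) g : ℤ) - 2) := by
    intro g
    rcases Nat.lt_or_ge (fx G (X := X) g) 1 with h | h
    · have : fx G (X := X) g = 0 := by omega
      rw [this]; norm_num
    · rcases Nat.lt_or_ge (fx G (X := X) g) 2 with h' | h'
      · have : fx G (X := X) g = 1 := by omega
        rw [this]; norm_num
      · apply mul_nonneg
        · have : (1 : ℤ) ≤ fx G (X := X) g := by exact_mod_cast h
          linarith
        · have : (2 : ℤ) ≤ fx G (X := X) g := by exact_mod_cast h'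
          linarith
  have hsub : ∑ g ∈ insert (1 : G) S, ((fx G (X := X) g : ℤ) - 1) * ((fx G (X := X) g : ℤ) - 2)
      ≤ ∑ g : G, ((fx G (X := X) g : ℤ) - 1) * ((fx G (X := X) g : ℤ) - 2) :=
    Finset.sum_le_sum_of_subset_of_nonneg (Finset.subset_univ _) (fun g _ _ => hnn g)
  rw [key, Finset.sum_insert h1S, hone] at hsub
  have hder : ∀ g ∈ S, ((fx G (X := X) g : ℤ) - 1) * ((fx G (X := X) g : ℤ) - 2) = 2 := by
    intro g hg
    rw [hS, Finset.mem_filter] at hg
    have : fx G (X := X) g = 0 := by
      rw [fx, Finset.card_eq_zero, Finset.filter_eq_empty_iff]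
      intro x _
      exact hg.2 x
    rw [this]; norm_num
  rw [Finset.sum_congr rfl hder] at hsub
  simp only [Finset.sum_const, nsmul_eq_mul] at hsub
  have hc : ((Fintype.card X - 1 : ℕ) : ℤ) = (Fintype.card X : ℤ) - 1 := by
    rw [Nat.cast_sub (by omega)]; norm_num
  have hc2 : ((Fintype.card X - 2 : ℕ) : ℤ) = (Fintype.card X : ℤ) - 2 := by
    rw [Nat.cast_sub (by omega)]; norm_num
  have : ((2 * S.card + (Fintype.card X - 1) * (Fintype.card X - 2) : ℕ) : ℤ)
      ≤ (Fintype.card G : ℤ) := by
    push_cast
    rw [hc, hc2]
    linarith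
  exact_mod_cast this

end count

section coset

variable {G : Type*} [Group G]

/-- The action of `G` on the cosets of a maximal subgroup is primitive. -/
theorem isPreprimitive_quotient {H : Subgroup G} (hH : IsCoatom H) :
    IsPreprimitive G (G ⧸ H) := by
  have : Nontrivial (G ⧸ H) := by
    by_contra hn
    rw [not_nontrivial_iff_subsingleton] at hn
    apply hH.1
    rw [eq_top_iff]
    intro g _
    have : (QuotientGroup.mk (1 : G) : G ⧸ H) = QuotientGroup.mk g := Subsingleton.elim _ _
    rw [QuotientGroup.eq] at this
    simpa using this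
  rw [← isCoatom_stabilizer_iff_preprimitive G ((1 : G) : G ⧸ H)]
  rw [MulAction.stabilizer_quotient]
  exact hH

/-- A maximal subgroup of index 4 or 6: the action on the cosets is 2-transitive. -/
theorem two_trans_quotient {H : Subgroup G} (hH : IsCoatom H) (hi : H.index = 4 ∨ H.index = 6) :
    IsMultiplyPretransitive G (G ⧸ H) 2 := by
  classical
  have := isPreprimitive_quotient hH
  have : H.FiniteIndex := ⟨by rcases hi with h | h <;> rw [h] <;> norm_num⟩
  let _ : Fintype (G ⧸ H) := Subgroup.fintypeQuotientOfFiniteIndex
  apply isMultiplyPretransitive_two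
  rw [← Nat.card_eq_fintype_card]
  exact hi

end coset

section field

variable {K L : Type*} [Field K] [NumberField K] [Field L] [NumberField L] [IsGalois ℚ L]

open Crest.NumberTheoryR.Packets IntermediateField

omit [IsGalois ℚ L] in
/-- the image of a primitive field is a minimal intermediate field -/
theorem eq_bot_or_eq_fieldRange (hK : IsPrimitiveField K) (φ : K →ₐ[ℚ] L)
    (F : IntermediateField ℚ L) (hF : F ≤ φ.fieldRange) : F = ⊥ ∨ F = φ.fieldRange := by
  rcases hK (F.comap φ) with h | h
  · left
    rw [eq_bot_iff]
    intro x hx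
    obtain ⟨y, hy⟩ := hF hx
    have hy' : y ∈ F.comap φ := by
      change φ y ∈ F
      rw [show φ y = x from hy]
      exact hx
    rw [h, IntermediateField.mem_bot] at hy'
    obtain ⟨q, hq⟩ := hy'
    rw [IntermediateField.mem_bot]
    refine ⟨q, ?_⟩
    rw [← show φ y = x from hy, ← hq]
    exact (φ.commutes q).symm
  · right
    apply le_antisymm hF
    rintro x ⟨y, hy⟩
    have hy' : y ∈ F.comap φ := by rw [h]; trivial
    change φ y ∈ F at hy'
    rw [← show φ y = x from hy]
    exact hy'

theorem isCoatom_fixingSubgroup (hK : IsPrimitiveField K) (h1 : Module.finrank ℚ K ≠ 1)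
    (φ : K →ₐ[ℚ] L) : IsCoatom φ.fieldRange.fixingSubgroup := by
  constructor
  · intro h
    apply h1
    have hb : φ.fieldRange = ⊥ := by
      have := IsGalois.fixedField_fixingSubgroup φ.fieldRange
      rw [h] at this
      rw [← this, IsGalois.fixedField_top]
    have := LinearEquiv.finrank_eq (AlgEquiv.ofInjectiveField φ).toLinearEquiv
    rw [this]
    have hb' : (φ.range : Subalgebra ℚ L) = ⊥ := by
      rw [← AlgHom.fieldRange_toSubalgebra, hb, IntermediateField.bot_toSubalgebra]
    rw [hb', Subalgebra.finrank_bot]
  · intro S hS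
    have hle : IntermediateField.fixedField S ≤ φ.fieldRange := by
      have := IntermediateField.fixedField_antitone (F := ℚ) (E := L) hS.le
      rwa [IsGalois.fixedField_fixingSubgroup] at this
    rcases eq_bot_or_eq_fieldRange hK φ _ hle with h | h
    · have := IntermediateField.fixingSubgroup_fixedField S
      rw [h, IntermediateField.fixingSubgroup_bot] at this
      exact this.symm
    · exfalso
      have := IntermediateField.fixingSubgroup_fixedField S
      rw [h] at this
      exact hS.ne this

theorem index_fixingSubgroup (φ : K →ₐ[ℚ] L) :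
    φ.fieldRange.fixingSubgroup.index = Module.finrank ℚ K := by
  have h1 := IntermediateField.finrank_eq_fixingSubgroup_index (F := ℚ) (E' := L) φ.fieldRange
  rw [← h1]
  have e : K ≃ₐ[ℚ] φ.fieldRange := AlgEquiv.ofInjectiveField φ
  exact (LinearEquiv.finrank_eq e.toLinearEquiv).symm

/-- **N1-2TR.** `K` primitive of degree 4 or 6 embedded in a Galois number field `L`: the action of
`Gal(L/ℚ)` on the cosets of `Gal(L/K)` is 2-transitive. -/
theorem two_trans_field (hK : IsPrimitiveField K)
    (hd : Module.finrank ℚ K = 4 ∨ Module.finrank ℚ K = 6) (φ : K →ₐ[ℚ] L) :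
    IsMultiplyPretransitive (L ≃ₐ[ℚ] L) ((L ≃ₐ[ℚ] L) ⧸ φ.fieldRange.fixingSubgroup) 2 := by
  apply two_trans_quotient
  · exact isCoatom_fixingSubgroup hK (by omega) φ
  · rw [index_fixingSubgroup]
    exact hd

end field

end Crest.Agent.R014.TwoTr2_853
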