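import Mathlib
import Crest.Agent.R014.N1A_479
import Crest.Agent.R014.N1C_479
import Crest.Agent.R014.N1E_479
import Crest.Agent.R014.N1Eu_652
import Crest.Agent.R014.N1Nt_652
import Crest.Agent.R014.TwoTr2_853

/-!
N1-MAIN (row 14): one auxiliary field, all constants.  Helper479.
-/

set_option autoImplicit false

universe u

namespace Crest.Agent.R014.N1M_479

open NumberField Crest.Agent.R014 Crest.Agent.R014.LDef_550 Crest.Agent.R014.N1D_479
  Crest.Agent.R014.N1C_479 Crest.Agent.R014.N1E_479 Crest.Agent.R014.N1G_202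
  Crest.NumberTheoryR.Packets

/-- (A1) zeta functions near `s = 1`, uniformly in the field -/
def A1 (d : ℕ) (C : ℝ) : Prop :=
  ∀ (E : Type) [Field E] [NumberField E], Module.finrank ℚ E = d →
    ∀ s : ℝ, 0 < s → s ≤ 1 →
      |zE E s - dedekindZeta_residue E / s| ≤ C * (1 + Real.log |(discr E : ℝ)|) ^ C

/-- (A2) `L`-functions without pole, uniformly in the field -/
def A2 (d q : ℕ) (C : ℝ) : Prop :=
  ∀ (E : Type) [Field E] [NumberField E], Module.finrank ℚ E = d →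
    ∀ ψ : DirichletCharacter ℂ q, ψ.Even →
      (∃ a : Ideal (𝓞 E), a ≠ ⊥ ∧ (Ideal.absNorm a).Coprime q ∧
        ψ (Ideal.absNorm a : ZMod q) ≠ 1) →
      (∀ s : ℝ, 0 < s → s ≤ 1 →
        ‖LEpsi E ψ s‖ ≤ C * (1 + Real.log |(discr E : ℝ)|) ^ C) ∧
      (∀ s s' : ℝ, 0 < s → s ≤ 1 → 0 < s' → s' ≤ 1 →
        ‖LEpsi E ψ s - LEpsi E ψ s'‖ ≤ C * (1 + Real.log |(discr E : ℝ)|) ^ C * |s - s'|)

theorem one_le_disc (E : Type*) [Field E] [NumberField E] : (1 : ℝ) ≤ |(discr E : ℝ)| := by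
  have : (1 : ℤ) ≤ |discr E| := Int.one_le_abs (discr_ne_zero E)
  exact_mod_cast this

theorem log_disc_nonneg (E : Type*) [Field E] [NumberField E] :
    0 ≤ Real.log |(discr E : ℝ)| := Real.log_nonneg (one_le_disc E)

/-- monotonicity in the constants -/
theorem pow_mono {L L' C C' : ℝ} (hL : 1 ≤ L) (hLL : L ≤ L') (hC : 1 ≤ C) (hCC : C ≤ C') :
    C * L ^ C ≤ C' * L' ^ C' := by
  have h1 : L ^ C ≤ L' ^ C := Real.rpow_le_rpow (by linarith) hLL (by linarith)
  have h2 : L' ^ C ≤ L' ^ C' := Real.rpow_le_rpow_of_exponent_le (hL.trans hLL) hCC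
  have h3 : 0 ≤ L ^ C := Real.rpow_nonneg (by linarith) _
  exact mul_le_mul hCC (h1.trans h2) h3 (by linarith)

/-- sum over primes of `p^-2` -/
noncomputable def K0 : ℝ := ∑' p : Nat.Primes, ((p : ℕ) : ℝ) ^ (-(1 + (1 : ℝ)))

/-- the value at `s = 2` is bounded -/
theorem zE_one_le (E : Type) [Field E] [NumberField E] :
    zE E 1 ≤ Real.exp (Module.finrank ℚ E * K0 + 4 * Module.finrank ℚ E) := by
  have h1 := EulD_534.eul_zeta (E := E) (s := 1) one_pos
  have h2 : ∑' p : Nat.Primes, (rE E p : ℝ) * (((p : ℕ) : ℝ) ^ (-(1 + (1:ℝ))))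
      ≤ Module.finrank ℚ E * K0 := by
    unfold K0
    rw [← tsum_mul_left]
    refine Summable.tsum_le_tsum (fun p => ?_) ?_ ?_
    · refine mul_le_mul_of_nonneg_right ?_ (by positivity)
      exact_mod_cast N1Br_652.rE_prime_le E p.2
    · exact EulD_534.summable_zeta one_pos
    · exact (N1Br_652.summable_primes one_pos).mul_left _
  have h3 : 1 ≤ zE E 1 := EulD_534.one_le_zE one_pos
  rw [← Real.log_le_iff_le_exp (by linarith)]
  have := (abs_le.1 h1).2
  linarith

/-- bound for `L`-values -/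
noncomputable def aa (n0 : ℕ) (C D : ℝ) : ℝ :=
  2 * (C * (1 + Real.log D) ^ C) + Real.exp (n0 * K0 + 4 * n0)

/-- error term -/
noncomputable def ee (n0 q : ℕ) (C D : ℝ) : ℝ :=
  7 * n0 + n0 * Real.log (1 + Real.logb 2 (q * D)) + (C + (3 + Real.log (1 + Real.log D)))

theorem K0_nonneg : 0 ≤ K0 := tsum_nonneg fun p => by positivity

theorem aa_ge {n0 : ℕ} {C D : ℝ} (hC : 1 ≤ C) (hD : 1 ≤ D) :
    C * (1 + Real.log D) ^ C ≤ aa n0 C D ∧ 1 ≤ aa n0 C D := by
  have hl : 0 ≤ Real.log D := Real.log_nonneg hD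
  have h1 : 1 ≤ (1 + Real.log D) ^ C := Real.one_le_rpow (by linarith) (by linarith)
  have h2 : 1 ≤ C * (1 + Real.log D) ^ C := one_le_mul_of_one_le_of_one_le hC h1
  have h3 : 0 < Real.exp (n0 * K0 + 4 * n0) := Real.exp_pos _
  unfold aa
  constructor <;> linarith

section OneField

variable {M : Type} [Field M] [NumberField M] {q : ℕ} {A : Type} [CommGroup A]

theorem zeta_bound {n0 : ℕ} {C : ℝ} (hC : 1 ≤ C) (hA1 : ∀ d' ≤ n0, A1 d' C)
    (E : Type) [Field E] [NumberField E] [Algebra E M] (hE : Module.finrank ℚ E ≤ n0) {s : ℝ}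
    (hs : s ∈ Set.Ioc (0:ℝ) 1) :
    zE E s ≤ dedekindZeta_residue E / s + aa n0 C |(discr M : ℝ)| ∧
      zE E s ≤ aa n0 C |(discr M : ℝ)| / s := by
  set D : ℝ := |(discr M : ℝ)| with hD
  have hD1 : 1 ≤ D := one_le_disc M
  have hDE : |(discr E : ℝ)| ≤ D := N1D_693.abs_discr_le_of_algebra E M
  have hDE1 := one_le_disc E
  have hlE := log_disc_nonneg E
  have hll : Real.log |(discr E : ℝ)| ≤ Real.log D := Real.log_le_log (by linarith) hDE
  have hb : C * (1 + Real.log |(discr E : ℝ)|) ^ C ≤ C * (1 + Real.log D) ^ C :=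
    pow_mono (by linarith) (by linarith) hC le_rfl
  have h1 := (abs_le.1 (hA1 _ hE E rfl s hs.1 hs.2)).2
  have h2 := (abs_le.1 (hA1 _ hE E rfl 1 one_pos le_rfl)).1
  rw [div_one] at h2
  have h3 := zE_one_le E
  have h4 : Real.exp (Module.finrank ℚ E * K0 + 4 * Module.finrank ℚ E)
      ≤ Real.exp (n0 * K0 + 4 * n0) := by
    rw [Real.exp_le_exp]
    have h5 : (Module.finrank ℚ E : ℝ) ≤ n0 := by exact_mod_cast hE
    have := K0_nonneg
    nlinarith
  have ha := aa_ge (n0 := n0) hC hD1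
  refine ⟨by linarith [ha.1], ?_⟩
  rw [le_div_iff₀ hs.1]
  have h6 : (zE E s - dedekindZeta_residue E / s) * s ≤ C * (1 + Real.log D) ^ C * 1 := by
    have h7 : 0 ≤ C * (1 + Real.log D) ^ C := by
      have h1 : 1 ≤ (1 + Real.log D) ^ C := Real.one_le_rpow (by linarith) (by linarith)
      nlinarith
    exact mul_le_mul (h1.trans hb) hs.2 hs.1.le h7
  have h8 : (zE E s - dedekindZeta_residue E / s) * s = zE E s * s - dedekindZeta_residue E := by
    rw [sub_mul, div_mul_cancel₀ _ hs.1.ne']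
  rw [h8] at h6
  unfold aa
  linarith

/-- the data of the core -/
theorem mkDat {n0 : ℕ} {C : ℝ} (hC : 1 ≤ C) (hq : q ≠ 0) (hA1 : ∀ d' ≤ n0, A1 d' C)
    (hA2 : ∀ d' ≤ n0, A2 d' q C) (hM : Module.finrank ℚ M ≤ n0) (d : FldData M q A)
    (hneg : d.χ (-1) = 1) {τ : A} (hgen : ∀ ψ : A →* ℂˣ, ψ τ = 1 → ψ = 1) :
    Dat d.pr τ d.V d.F (aa n0 C |(discr M : ℝ)|) (ee n0 q C |(discr M : ℝ)|) := by
  set D : ℝ := |(discr M : ℝ)| with hD
  have hD1 : 1 ≤ D := one_le_disc M
  have hlD : 0 ≤ Real.log D := Real.log_nonneg hD1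
  have hbr := N1Eu_652.bridge_all hq d
  have hnt := N1Nt_652.nontriv d hbr hgen
  have hfin : ∀ H : Subgroup (M ≃ₐ[ℚ] M),
      Module.finrank ℚ (IntermediateField.fixedField H) ≤ n0 := fun H =>
    (N1Br_652.finrank_fixed_le H).trans hM
  have hq1 : (1:ℝ) ≤ q := by exact_mod_cast Nat.one_le_iff_ne_zero.2 hq
  have hqD : 1 ≤ (q:ℝ) * D := one_le_mul_of_one_le_of_one_le hq1 hD1
  have hlogb : 0 ≤ Real.logb 2 (q * D) := Real.logb_nonneg (by norm_num) hqD
  have hl1 : 0 ≤ Real.log (1 + Real.logb 2 (q * D)) := Real.log_nonneg (by linarith)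
  have hl2 : 0 ≤ Real.log (1 + Real.log D) := Real.log_nonneg (by linarith)
  have hMR : (Module.finrank ℚ M : ℝ) ≤ n0 := by exact_mod_cast hM
  have heven : ∀ ψ : A →* ℂˣ, (d.dir ψ).Even := by
    intro ψ
    have h1 : d.dir ψ ((-1 : (ZMod q)ˣ) : ZMod q) = ((ψ (d.χ (-1)) : ℂˣ) : ℂ) :=
      MulChar.ofUnitHom_coe _ _
    rw [hneg, map_one, Units.val_one, Units.val_neg, Units.val_one] at h1
    exact h1
  have hbnd : ∀ H : Subgroup (M ≃ₐ[ℚ] M),
      C * (1 + Real.log |(discr (IntermediateField.fixedField H) : ℝ)|) ^ C ≤ aa n0 C D := by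
    intro H
    have hDE : |(discr (IntermediateField.fixedField H) : ℝ)| ≤ D :=
      N1D_693.abs_discr_le_of_algebra _ M
    have hDE1 := one_le_disc (IntermediateField.fixedField H)
    have hlE := log_disc_nonneg (IntermediateField.fixedField H)
    have hll : Real.log |(discr (IntermediateField.fixedField H) : ℝ)| ≤ Real.log D :=
      Real.log_le_log (by linarith) hDE
    exact (pow_mono (by linarith) (by linarith) hC le_rfl).trans (aa_ge hC hD1).1
  refine
    { hV := fun s x => N1A_479.V_nonneg d s x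
      ha := (aa_ge hC hD1).2
      he := ?_
      hne := fun H ψ s hs => (hbr H ψ s hs).1
      hE := ?_
      hZ := ?_
      hB := ?_
      hLip := ?_ }
  · unfold ee
    positivity
  · intro H ψ s hs
    refine (hbr H ψ s hs).2.trans ?_
    unfold ee
    have h1 : (Module.finrank ℚ M : ℝ) * Real.log (1 + Real.logb 2 (q * D))
        ≤ n0 * Real.log (1 + Real.logb 2 (q * D)) := mul_le_mul_of_nonneg_right hMR hl1
    linarith
  · intro H s hs
    have h1 : ‖d.F H 1 s‖ = zE (IntermediateField.fixedField H) s := by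
      unfold FldData.F
      rw [if_pos rfl, Complex.norm_real, Real.norm_of_nonneg]
      have : 1 ≤ zE (IntermediateField.fixedField H) s := EulD_534.one_le_zE hs.1
      linarith
    rw [h1]
    exact (zeta_bound hC hA1 _ (hfin H) hs).2
  · intro g hg ψ hψ s hs
    have h1 : d.F (Subgroup.zpowers g) ψ s
        = LEpsi (IntermediateField.fixedField (Subgroup.zpowers g)) (d.dir ψ) s := by
      unfold FldData.F
      rw [if_neg hψ]
    rw [h1]
    exact ((hA2 _ (hfin _) _ rfl _ (heven ψ) (hnt g hg ψ hψ)).1 s hs.1 hs.2).trans (hbnd _)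
  · intro g hg ψ hψ s hs t ht
    have h1 : ∀ s, d.F (Subgroup.zpowers g) ψ s
        = LEpsi (IntermediateField.fixedField (Subgroup.zpowers g)) (d.dir ψ) s := by
      intro s
      unfold FldData.F
      rw [if_neg hψ]
    rw [h1, h1]
    refine ((hA2 _ (hfin _) _ rfl _ (heven ψ) (hnt g hg ψ hψ)).2 s t hs.1 hs.2 ht.1 ht.2).trans ?_
    exact mul_le_mul_of_nonneg_right (hbnd _) (abs_nonneg _)

end OneField

section AQ

theorem card_AQ {q N : ℕ} (hq : q.Prime) (hN : 2 * N ∣ q - 1) : Nat.card (AQ q N) = N := by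
  have h := N1B_693.index_powRange hq ((Dvd.intro_left 2 rfl).trans hN)
  rw [Subgroup.index_eq_card] at h
  exact h

theorem exists_gen {q N : ℕ} (hq : q.Prime) (hN : 2 * N ∣ q - 1) :
    ∃ τ : AQ q N, orderOf τ = N ∧ ∀ a : AQ q N, a ∈ Subgroup.zpowers τ := by
  have : Fact q.Prime := ⟨hq⟩
  have hcyc : IsCyclic (AQ q N) :=
    isCyclic_of_surjective (QuotientGroup.mk' _) (QuotientGroup.mk'_surjective _)
  obtain ⟨τ, hτ⟩ := hcyc.exists_generator
  refine ⟨τ, ?_, hτ⟩
  rw [orderOf_eq_card_of_forall_mem_zpowers hτ, card_AQ hq hN]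

theorem gen_char {A : Type} [CommGroup A] {τ : A} (hτ : ∀ a : A, a ∈ Subgroup.zpowers τ)
    (ψ : A →* ℂˣ) (h : ψ τ = 1) : ψ = 1 := by
  ext a
  obtain ⟨k, rfl⟩ := Subgroup.mem_zpowers_iff.1 (hτ a)
  rw [map_zpow, h, one_zpow]
  rfl

end AQ

section One

variable {K : Type u} [Field K] [NumberField K]

open scoped Classical in
/-- the residue cannot be small: one field -/
theorem one_field {n q : ℕ} (hn : 3 ≤ n) (hK : Module.finrank ℚ K = n)
    (hcase : Odd n ∨ ((n = 4 ∨ n = 6) ∧ IsPrimitiveField K))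
    (hq : q.Prime) (hqN : 2 * n.factorial ∣ q - 1)
    {M : Type} [Field M] [NumberField M] [IsGalois ℚ M] {d : FldData M q (AQ q n.factorial)}
    {C0 C : ℝ} (haux : Aux n C0 K q M d) (f : K →ₐ[ℚ] M) (hC : 1 ≤ C)
    (hA1 : ∀ d' ≤ n.factorial * n.factorial, A1 d' C)
    (hA2 : ∀ d' ≤ n.factorial * n.factorial, A2 d' q C)
    (hAP : ∀ s ∈ Set.Ioc (0:ℝ) 1, ∀ b : AQ q n.factorial,
      Real.log (1 / s) / Nat.card (AQ q n.factorial)
        - (C + (3 + Real.log (1 + Real.log |(discr M : ℝ)|)))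
        ≤ ∑ y ∈ Finset.univ.filter (fun y => d.pr y = b), d.V s y)
    {s0 : ℝ} (hs0 : 0 < s0)
    (hbig : 100 * ((n.factorial * n.factorial : ℕ) : ℝ) ^ 2 * ((n.factorial + 4) *
      (ee (n.factorial * n.factorial) q C |(discr M : ℝ)|
        + Real.log (aa (n.factorial * n.factorial) C |(discr M : ℝ)|) + 1)) ≤ Real.log (1 / s0)) :
    s0 < dedekindZeta_residue (IntermediateField.fixedField f.fieldRange.fixingSubgroup) := by
  by_contra hcon
  push Not at hcon
  set n0 := n.factorial * n.factorial with hn0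
  set a := aa n0 C |(discr M : ℝ)| with ha
  set e := ee n0 q C |(discr M : ℝ)| with he
  obtain ⟨τ, hτN, hτ⟩ := exists_gen hq hqN
  have hneg : d.χ (-1) = 1 := by
    rw [haux.hχ, QuotientGroup.eq_one_iff]
    obtain ⟨b, hb⟩ := N1B_693.neg_one_pow hq hqN
    exact ⟨b, hb⟩
  have hdat : Dat d.pr τ d.V d.F a e :=
    mkDat hC hq.ne_zero hA1 hA2 haux.hdeg d hneg (gen_char hτ)
  have hord : ∀ g, d.pr g = τ → orderOf g = orderOf τ := by
    intro g hg
    rw [hτN]
    refine Nat.dvd_antisymm (orderOf_dvd_of_pow_eq_one (haux.hexp g)) ?_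
    rw [← hτN, ← hg]
    exact orderOf_map_dvd d.pr g
  have hcardA : Nat.card (AQ q n.factorial) = n.factorial := card_AQ hq hqN
  have hcardG : (Fintype.card (M ≃ₐ[ℚ] M) : ℝ) ≤ n0 := by
    have h1 : Fintype.card (M ≃ₐ[ℚ] M) = Module.finrank ℚ M := by
      rw [← Nat.card_eq_fintype_card]; exact IsGalois.card_aut_eq_finrank _ _
    rw [h1]
    exact_mod_cast haux.hdeg
  have hG1 : (1:ℝ) ≤ Fintype.card (M ≃ₐ[ℚ] M) := by exact_mod_cast Fintype.card_pos
  have hW : W (AQ q n.factorial) a e = (n.factorial + 4) * (e + Real.log a + 1) := by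
    unfold W
    rw [hcardA]
  have hW0 : 0 ≤ W (AQ q n.factorial) a e := by
    have := W_ge (A := AQ q n.factorial) hdat.ha hdat.he
    have h2 := Real.log_nonneg hdat.ha
    have h3 := hdat.he
    linarith
  have hbig' : 100 * (Fintype.card (M ≃ₐ[ℚ] M) : ℝ) ^ 2 * W (AQ q n.factorial) a e ≤ Real.log (1 / s0) := by
    refine le_trans ?_ hbig
    rw [hW] at hW0 ⊢
    refine mul_le_mul_of_nonneg_right ?_ hW0
    have : (Fintype.card (M ≃ₐ[ℚ] M) : ℝ) ^ 2 ≤ (n0 : ℝ) ^ 2 :=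
      pow_le_pow_left₀ (by linarith) hcardG 2
    linarith
  have hW4 : 4 ≤ W (AQ q n.factorial) a e := by
    have := W_ge (A := AQ q n.factorial) hdat.ha hdat.he
    have h2 := Real.log_nonneg hdat.ha
    have h3 := hdat.he
    linarith
  have hl4 : 4 ≤ Real.log (1 / s0) := by
    refine le_trans hW4 (le_trans ?_ hbig')
    have h2 : (1:ℝ) ≤ (Fintype.card (M ≃ₐ[ℚ] M) : ℝ) ^ 2 := one_le_pow₀ hG1
    have : 1 * W (AQ q n.factorial) a e ≤ 100 * (Fintype.card (M ≃ₐ[ℚ] M) : ℝ) ^ 2 * W (AQ q n.factorial) a e :=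
      mul_le_mul_of_nonneg_right (by linarith) hW0
    linarith
  have hs1 : s0 ≤ 1 := by
    by_contra h
    push Not at h
    have h1 : 1 / s0 ≤ 1 := by rw [div_le_one hs0]; exact h.le
    have := Real.log_nonpos (by positivity) h1
    linarith
  have hs0m : s0 ∈ Set.Ioc (0:ℝ) 1 := ⟨hs0, hs1⟩
  set H := f.fieldRange.fixingSubgroup with hH
  have hfin : Module.finrank ℚ (IntermediateField.fixedField H) ≤ n0 :=
    (N1Br_652.finrank_fixed_le H).trans haux.hdeg
  set κ := dedekindZeta_residue (IntermediateField.fixedField H) with hκ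
  have hκ0 : 0 < κ := dedekindZeta_residue_pos _
  have hKsum : ∑ y, d.V s0 y * (fo ((M ≃ₐ[ℚ] M) ⧸ H) y : ℝ) ≤ Real.log (κ / s0 + a) + e := by
    have h1 : ∑ y, d.V s0 y * (fo ((M ≃ₐ[ℚ] M) ⧸ H) y : ℝ) = R d.pr (d.V s0) H 1 := by
      rw [R_one]
      rfl
    rw [h1]
    have h2 := (abs_le.1 (hdat.hE H 1 s0 hs0m)).1
    have h3 : ‖d.F H 1 s0‖ = zE (IntermediateField.fixedField H) s0 := by
      unfold FldData.F
      rw [if_pos rfl, Complex.norm_real, Real.norm_of_nonneg]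
      have : 1 ≤ zE (IntermediateField.fixedField H) s0 := EulD_534.one_le_zE hs0
      linarith
    rw [h3] at h2
    have h4 : Real.log (zE (IntermediateField.fixedField H) s0) ≤ Real.log (κ / s0 + a) := by
      apply Real.log_le_log
      · have : 1 ≤ zE (IntermediateField.fixedField H) s0 := EulD_534.one_le_zE hs0
        linarith
      · exact (zeta_bound hC hA1 _ hfin hs0m).1
    linarith
  have hAP' : ∀ b : AQ q n.factorial, Real.log (1 / s0) / Nat.card (AQ q n.factorial) - e ≤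
      ∑ y ∈ Finset.univ.filter (fun y => d.pr y = b), d.V s0 y := by
    intro b
    refine le_trans ?_ (hAP s0 hs0m b)
    have hq1 : (1:ℝ) ≤ q := by exact_mod_cast hq.one_lt.le
    have hqD : 1 ≤ (q:ℝ) * |(discr M : ℝ)| := one_le_mul_of_one_le_of_one_le hq1 (one_le_disc M)
    have hlogb : 0 ≤ Real.logb 2 (q * |(discr M : ℝ)|) := Real.logb_nonneg (by norm_num) hqD
    have hl1 : 0 ≤ Real.log (1 + Real.logb 2 (q * |(discr M : ℝ)|)) :=
      Real.log_nonneg (by linarith)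
    have h5 : (0:ℝ) ≤ 7 * n0 + n0 * Real.log (1 + Real.logb 2 (q * |(discr M : ℝ)|)) := by
      positivity
    rw [he]
    unfold ee
    linarith
  have hidx : Nat.card ((M ≃ₐ[ℚ] M) ⧸ H) = n := by
    have := TwoTr2_853.index_fixingSubgroup (L := M) f
    rw [hK] at this
    exact this
  rcases hcase with hodd | ⟨h46, hprim⟩
  · exact hdat.core_odd (Ω := (M ≃ₐ[ℚ] M) ⧸ H) (by rw [hidx]; exact hodd) d.hpr hord hs0 hbig'
      hκ0 hcon hKsum (by convert hAP')
  · have h2t := TwoTr2_853.two_trans_field hprim (by rw [hK]; exact h46) f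
    rw [MulAction.is_two_pretransitive_iff] at h2t
    -- elements with trivial action and prescribed projection
    have htr : ∀ b : AQ q n.factorial, ∃ t, d.pr t = b ∧ ∀ x : (M ≃ₐ[ℚ] M) ⧸ H, t • x = x := by
      intro b
      obtain ⟨t, ht, htt⟩ := haux.htriv b
      refine ⟨t, ht, ?_⟩
      intro x
      induction x using QuotientGroup.induction_on with
      | H g =>
        have h1 : t • (QuotientGroup.mk g : (M ≃ₐ[ℚ] M) ⧸ H) = QuotientGroup.mk (t * g) := rfl
        rw [h1, eq_comm, QuotientGroup.eq]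
        rw [hH, IntermediateField.mem_fixingSubgroup_iff]
        rintro _ ⟨x, rfl⟩
        have h3 := htt ((g : M →ₐ[ℚ] M).comp f) x
        show g⁻¹ (t (g (f x))) = f x
        have h4 : t (g (f x)) = g (f x) := h3
        rw [h4]
        exact g.symm_apply_apply (f x)
    obtain ⟨t, ht, htt⟩ := htr τ
    refine hdat.core_two (Ω := (M ≃ₐ[ℚ] M) ⧸ H) (by rw [hidx]; exact hn) d.hpr ?_ t ht htt hord
      hs0 hbig' hκ0 hcon hKsum (by convert hAP')
    intro x y z w hxy hzw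
    obtain ⟨γ, h3, h4⟩ := h2t hxy hzw
    obtain ⟨t', ht', htt'⟩ := htr (d.pr γ)
    have hinv : ∀ x : (M ≃ₐ[ℚ] M) ⧸ H, t'⁻¹ • x = x := by
      intro x
      rw [inv_smul_eq_iff]
      exact (htt' x).symm
    refine ⟨γ * t'⁻¹, ?_, ?_, ?_⟩
    · rw [map_mul, map_inv, ht', mul_inv_cancel]
    · rw [mul_smul, hinv, h3]
    · rw [mul_smul, hinv, h4]

end One

end Crest.Agent.R014.N1M_479
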