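import Crest.Agent.R014.Vol5_834

/-!
Volume of the packet of an arbitrary lattice (row 14), part 6 (helper834).

The final lower bounds: `packVol m σ ≥ c f^(1-ε) κ_K √|disc K|` and, with a lower bound of the
residue, `packVol m σ ≥ c (latticeDisc m)^(1/2-ε)`.
-/

set_option autoImplicit false
set_option linter.unusedSectionVars false
set_option linter.unusedVariables false

open MeasureTheory Matrix Module NumberField
open scoped ENNReal Pointwise
open Crest.NumberTheoryR.Packets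

namespace Crest.Agent.R014.Vol6_834

open Crest.Agent.R014.Pk1_349 Crest.Agent.R014.Pk2_349 Crest.Agent.R014.Pk3_349
open Crest.Agent.R014.Pk4_349 Crest.Agent.R014.Pk5_349
open Crest.Agent.R014.Vol2_834 Crest.Agent.R014.Vol3_834 Crest.Agent.R014.Vol4_834
open Crest.Agent.R014.Vol5_834 Crest.Agent.R014.DivB_684

universe u

/-- Volume of the packet of the maximal order. -/
theorem packVol_max {d : ℕ} {K : Type u} [Field K] [NumberField K]
    {mO : LatticeBasis (d + 1) K} (hO : mO.IsMaximalOrder) (σ : Fin (d + 1) ≃ (K →+* ℝ)) :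
    ENNReal.ofReal (dedekindZeta_residue K * Real.sqrt |(discr K : ℝ)| / 2 ^ (d + 1)) ≤
      packVol mO σ := by
  obtain ⟨k, x, D, hinj, hall, hD, -⟩ := isPacketMeasure_packMeas mO σ
  rw [← sum_volume_eq hinj hall (fun i => (hD i).1)]
  exact Cnf_652.residue_mul_sqrt_le hO σ x D hall (fun i => (hD i).1)

/-- The constant of `packVol_ge`. -/
noncomputable def vc (d : ℕ) (ε : ℝ) : ℝ := (CDiv (d + 1) (ε / (d + 1)))⁻¹ / 2 ^ (d + 1)

theorem CDiv_pos (n : ℕ) {ε : ℝ} (hε : 0 < ε) : 0 < CDiv n ε :=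
  lt_of_lt_of_le one_pos (one_le_CDiv n hε)

theorem vc_pos (d : ℕ) {ε : ℝ} (hε : 0 < ε) : 0 < vc d ε := by
  unfold vc
  have := CDiv_pos (d + 1) (ε := ε / (d + 1)) (by positivity)
  positivity

/-- **Volume of the packet of an arbitrary lattice** and the residue of the zeta function. -/
theorem packVol_ge {d : ℕ} {K : Type u} [Field K] [NumberField K] (m : LatticeBasis (d + 1) K)
    (σ : Fin (d + 1) ≃ (K →+* ℝ)) {ε : ℝ} (hε : 0 < ε) :
    ENNReal.ofReal (vc d ε * (fIdx m : ℝ) ^ (1 - ε) *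
      (dedekindZeta_residue K * Real.sqrt |(discr K : ℝ)|)) ≤ packVol m σ := by
  have hn : finrank ℚ K = d + 1 := Sl_652.finrank_eq m
  have hO := maxBasis_isMaximalOrder hn
  have h1 := packVol_le (m := m) hO σ
  have h2 := packVol_max hO σ
  have hδ : 0 < ε / ((d : ℝ) + 1) := by positivity
  have h3 := card_units_ge hn hδ (fIdx m) (fIdx_ne_zero m σ)
  have hf0 : (0 : ℝ) < fIdx m := by exact_mod_cast Nat.pos_of_ne_zero (fIdx_ne_zero m σ)
  set f : ℝ := (fIdx m : ℝ) with hf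
  set U : ℕ := Nat.card (RR K (fIdx m))ˣ with hU
  have hC := CDiv_pos (d + 1) hδ
  set C := CDiv (d + 1) (ε / ((d : ℝ) + 1)) with hCd
  set v : ℝ := dedekindZeta_residue K * Real.sqrt |(discr K : ℝ)| with hv
  have hv0 : 0 ≤ v := mul_nonneg (dedekindZeta_residue_pos K).le (Real.sqrt_nonneg _)
  -- real versions
  have hVt := packVol_ne_top m σ
  have hVOt := packVol_ne_top (maxBasis hn) σ
  have h1' : (U : ℝ) * f * (packVol (maxBasis hn) σ).toReal ≤
      f ^ (d + 1) * (packVol m σ).toReal := by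
    have := ENNReal.toReal_mono (ENNReal.mul_ne_top (ENNReal.pow_ne_top (ENNReal.natCast_ne_top _))
      hVt) h1
    rw [ENNReal.toReal_mul, ENNReal.toReal_mul, ENNReal.toReal_pow, ENNReal.toReal_natCast,
      ENNReal.toReal_natCast] at this
    push_cast at this
    exact this
  have h2' : v / 2 ^ (d + 1) ≤ (packVol (maxBasis hn) σ).toReal :=
    (ENNReal.ofReal_le_iff_le_toReal hVOt).mp h2
  rw [ENNReal.ofReal_le_iff_le_toReal hVt]
  have hpow : (f ^ (d + 1)) ^ (ε / ((d : ℝ) + 1)) = f ^ ε := by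
    rw [← Real.rpow_natCast f (d + 1), ← Real.rpow_mul hf0.le]
    congr 1
    push_cast
    field_simp
  rw [hpow] at h3
  have hfe : 0 < f ^ ε := Real.rpow_pos_of_pos hf0 _
  have hsplit : f ^ (1 - ε) = f / f ^ ε := by
    rw [Real.rpow_sub hf0, Real.rpow_one]
  have hfn : 0 < f ^ (d + 1) := by positivity
  have hkey : f ^ (d + 1) * (C⁻¹ / 2 ^ (d + 1) * f ^ (1 - ε) * v) ≤
      f ^ (d + 1) * (packVol m σ).toReal := by
    calc f ^ (d + 1) * (C⁻¹ / 2 ^ (d + 1) * f ^ (1 - ε) * v)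
        = f ^ (d + 1) * (C⁻¹ * (f / f ^ ε) * (v / 2 ^ (d + 1))) := by rw [hsplit]; ring
      _ ≤ (C * f ^ ε * U) * (C⁻¹ * (f / f ^ ε) * (v / 2 ^ (d + 1))) := by
          gcongr
      _ = (U : ℝ) * f * (v / 2 ^ (d + 1)) := by field_simp
      _ ≤ (U : ℝ) * f * (packVol (maxBasis hn) σ).toReal := by gcongr
      _ ≤ _ := h1'
  have := le_of_mul_le_mul_left hkey hfn
  exact this

/-- With a lower bound of the residue. -/
theorem packVol_ge_disc {d : ℕ} {K : Type u} [Field K] [NumberField K]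
    (m : LatticeBasis (d + 1) K) (σ : Fin (d + 1) ≃ (K →+* ℝ)) {ε c0 : ℝ} (hε : 0 < ε)
    (hc0 : 0 ≤ c0) (hκ : c0 * |(discr K : ℝ)| ^ (-ε) ≤ dedekindZeta_residue K) :
    ENNReal.ofReal (c0 * vc d ε * latticeDisc m ^ (1 / 2 - ε)) ≤ packVol m σ := by
  refine le_trans (ENNReal.ofReal_le_ofReal ?_) (packVol_ge m σ hε)
  have hvc := vc_pos d hε
  have hf1 : (1 : ℝ) ≤ fIdx m := by
    exact_mod_cast Nat.one_le_iff_ne_zero.mpr (fIdx_ne_zero m σ)
  have hD0 : 0 < |(discr K : ℝ)| := abs_pos.mpr (Int.cast_ne_zero.mpr (discr_ne_zero K))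
  rw [latticeDisc_eq]
  set f : ℝ := (fIdx m : ℝ)
  set D : ℝ := |(discr K : ℝ)|
  have hf0 : 0 < f := lt_of_lt_of_le one_pos hf1
  rw [Real.mul_rpow hD0.le (by positivity)]
  have h1 : (f ^ 2) ^ (1 / 2 - ε) = f ^ (1 - 2 * ε) := by
    rw [← Real.rpow_natCast f 2, ← Real.rpow_mul hf0.le]
    congr 1
    push_cast
    ring
  have h2 : f ^ (1 - 2 * ε) ≤ f ^ (1 - ε) := Real.rpow_le_rpow_of_exponent_le hf1 (by linarith)
  have h3 : D ^ (1 / 2 - ε) = D ^ (-ε) * Real.sqrt D := by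
    rw [Real.sqrt_eq_rpow, ← Real.rpow_add hD0]
    congr 1
    ring
  rw [h1, h3]
  calc c0 * vc d ε * (D ^ (-ε) * Real.sqrt D * f ^ (1 - 2 * ε))
      = vc d ε * f ^ (1 - 2 * ε) * ((c0 * D ^ (-ε)) * Real.sqrt D) := by ring
    _ ≤ vc d ε * f ^ (1 - ε) * (dedekindZeta_residue K * Real.sqrt D) := by
        gcongr

/-- The conclusion of part N1: no Siegel zero for primitive totally real fields of degree `n`. -/
def ResLower (n : ℕ) : Prop :=
  ∀ ε : ℝ, 0 < ε → ∃ c : ℝ, 0 < c ∧ ∀ (K : Type u) [Field K] [NumberField K]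
    [NumberField.IsTotallyReal K], finrank ℚ K = n → IsPrimitiveField K →
      c * |(discr K : ℝ)| ^ (-ε) ≤ dedekindZeta_residue K

/-- **N2-VOL**. -/
theorem packVol_ge_latticeDisc {d : ℕ} (hN1 : ResLower.{u} (d + 1)) {ε : ℝ} (hε : 0 < ε) :
    ∃ c : ℝ, 0 < c ∧ ∀ (K : Type u) [Field K] [NumberField K] [NumberField.IsTotallyReal K],
      IsPrimitiveField K → ∀ (m : LatticeBasis (d + 1) K) (σ : Fin (d + 1) ≃ (K →+* ℝ)),
        ENNReal.ofReal (c * latticeDisc m ^ (1 / 2 - ε)) ≤ packVol m σ := by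
  obtain ⟨c, hc, h⟩ := hN1 ε hε
  refine ⟨c * vc d ε, mul_pos hc (vc_pos d hε), fun K _ _ _ hK m σ => ?_⟩
  exact packVol_ge_disc m σ hε hc.le (h K (Sl_652.finrank_eq m) hK)

end Crest.Agent.R014.Vol6_834
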