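import Mathlib
import Crest.Agent.R014.N1M_479
import Crest.Agent.R014.Ic8_550
import Crest.Agent.R014.Vol6_834

/-!
N1-MAIN (row 14): the final theorem `ResLower`.  Helper479.
-/

set_option autoImplicit false

universe u

namespace Crest.Agent.R014.N1R_479

open NumberField Crest.Agent.R014 Crest.Agent.R014.LDef_550 Crest.Agent.R014.N1D_479
  Crest.Agent.R014.N1C_479 Crest.Agent.R014.N1E_479 Crest.Agent.R014.N1G_202
  Crest.Agent.R014.N1M_479 Crest.NumberTheoryR.Packets Filter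

/-- (A1) with a uniform constant -/
theorem exists_A1 (d : ℕ) : ∃ C : ℝ, 1 ≤ C ∧ A1 d C := by
  set C : ℝ := max (max 1 (Ic8_550.Cfin d 1)) ((2 * d + 2 : ℕ) : ℝ) with hC
  have hC1 : 1 ≤ C := (le_max_left _ _).trans (le_max_left _ _)
  refine ⟨C, hC1, ?_⟩
  intro E _ _ hE s hs hs1
  have h := Ic8_550.A1 (E := E) hs hs1
  rw [hE] at h
  refine h.trans ?_
  have hl := log_disc_nonneg E
  have h1 : (1 : ℝ) ≤ 1 + Real.log |(discr E : ℝ)| := by linarith
  have h2 : Ic8_550.Cfin d 1 ≤ C := (le_max_right _ _).trans (le_max_left _ _)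
  have h3 : (1 + Real.log |(discr E : ℝ)|) ^ (2 * d + 2)
      ≤ (1 + Real.log |(discr E : ℝ)|) ^ C := by
    rw [← Real.rpow_natCast]
    exact Real.rpow_le_rpow_of_exponent_le h1 (le_max_right _ _)
  have h4 : (0:ℝ) ≤ (1 + Real.log |(discr E : ℝ)|) ^ (2 * d + 2) := by positivity
  exact mul_le_mul h2 h3 h4 (by linarith)

/-- (A2) with a uniform constant -/
theorem exists_A2 (d q : ℕ) (hq : q ≠ 0) : ∃ C : ℝ, 1 ≤ C ∧ A2 d q C := by
  have : NeZero q := ⟨hq⟩
  set C : ℝ := max (max 1 (Ic8_550.Cfin d q)) ((2 * d + 2 : ℕ) : ℝ) with hC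
  have hC1 : 1 ≤ C := (le_max_left _ _).trans (le_max_left _ _)
  refine ⟨C, hC1, ?_⟩
  intro E _ _ hE ψ hψ ⟨a, ha, haq, haψ⟩
  have hl := log_disc_nonneg E
  have h1 : (1 : ℝ) ≤ 1 + Real.log |(discr E : ℝ)| := by linarith
  have h2 : Ic8_550.Cfin d q ≤ C := (le_max_right _ _).trans (le_max_left _ _)
  have h3 : (1 + Real.log |(discr E : ℝ)|) ^ (2 * d + 2)
      ≤ (1 + Real.log |(discr E : ℝ)|) ^ C := by
    rw [← Real.rpow_natCast]
    exact Real.rpow_le_rpow_of_exponent_le h1 (le_max_right _ _)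
  have h4 : (0:ℝ) ≤ (1 + Real.log |(discr E : ℝ)|) ^ (2 * d + 2) := by positivity
  have h5 := mul_le_mul h2 h3 h4 (by linarith)
  refine ⟨fun s hs hs1 => ?_, fun s s' hs hs1 hs' hs1' => ?_⟩
  · have h := Ic8_550.A2 (E := E) ψ hψ ha haq haψ hs hs1
    rw [hE] at h
    exact h.trans h5
  · have h := Ic8_550.A2_lip (E := E) ψ hψ ha haq haψ hs hs1 hs' hs1'
    rw [hE] at h
    exact h.trans (mul_le_mul_of_nonneg_right h5 (abs_nonneg _))

theorem A1_mono {d : ℕ} {C C' : ℝ} (hC : 1 ≤ C) (h : A1 d C) (hCC : C ≤ C') : A1 d C' := by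
  intro E _ _ hE s hs hs1
  have hl := log_disc_nonneg E
  exact (h E hE s hs hs1).trans (pow_mono (by linarith) le_rfl hC hCC)

theorem A2_mono {d q : ℕ} {C C' : ℝ} (hC : 1 ≤ C) (h : A2 d q C) (hCC : C ≤ C') : A2 d q C' := by
  intro E _ _ hE ψ hψ ha
  have hl := log_disc_nonneg E
  obtain ⟨h1, h2⟩ := h E hE ψ hψ ha
  have h3 : C * (1 + Real.log |(discr E : ℝ)|) ^ C ≤ C' * (1 + Real.log |(discr E : ℝ)|) ^ C' :=
    pow_mono (by linarith) le_rfl hC hCC
  exact ⟨fun s hs hs1 => (h1 s hs hs1).trans h3, fun s s' hs hs1 hs' hs1' =>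
    (h2 s s' hs hs1 hs' hs1').trans (mul_le_mul_of_nonneg_right h3 (abs_nonneg _))⟩

/-- the total loss is `O(log log D)` -/
theorem loss_bound (n0 q : ℕ) (hq : 1 ≤ q) (C : ℝ) (hC : 1 ≤ C) : ∃ α β : ℝ, 0 ≤ α ∧ 0 ≤ β ∧
    ∀ D : ℝ, 1 ≤ D → ee n0 q C D + Real.log (aa n0 C D) + 1
      ≤ α + β * Real.log (1 + Real.log D) := by
  set B : ℝ := Real.exp (n0 * K0 + 4 * n0) with hB
  have hB1 : 1 ≤ B := by
    rw [hB]
    apply Real.one_le_exp
    have := K0_nonneg
    positivity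
  have hq1 : (1:ℝ) ≤ q := by exact_mod_cast hq
  have hlq : 0 ≤ Real.log q := Real.log_nonneg hq1
  have hl2 : 0 < Real.log 2 := Real.log_pos (by norm_num)
  set C2 : ℝ := 1 + (Real.log q + 1) / Real.log 2 with hC2
  have hC21 : 1 ≤ C2 := by
    have : 0 ≤ (Real.log q + 1) / Real.log 2 := by positivity
    linarith
  have hlC2 : 0 ≤ Real.log C2 := Real.log_nonneg hC21
  have hlB : 0 ≤ Real.log (2 * C + B) := Real.log_nonneg (by linarith)
  refine ⟨7 * n0 + n0 * Real.log C2 + (C + 3) + Real.log (2 * C + B) + 1, n0 + 1 + C,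
    by positivity, by positivity, ?_⟩
  intro D hD
  have hlD : 0 ≤ Real.log D := Real.log_nonneg hD
  set Y : ℝ := 1 + Real.log D with hY
  have hY1 : 1 ≤ Y := by linarith
  have hlY : 0 ≤ Real.log Y := Real.log_nonneg hY1
  have hYC : 1 ≤ Y ^ C := Real.one_le_rpow hY1 (by linarith)
  have h1 : Real.log (aa n0 C D) ≤ Real.log (2 * C + B) + C * Real.log Y := by
    have h2 : aa n0 C D ≤ (2 * C + B) * Y ^ C := by
      unfold aa
      rw [← hB, ← hY]
      nlinarith
    have h3 : 0 < aa n0 C D := lt_of_lt_of_le one_pos (aa_ge hC hD).2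
    have h4 := Real.log_le_log h3 h2
    rw [Real.log_mul (by positivity) (by positivity), Real.log_rpow (by linarith)] at h4
    exact h4
  have h5 : Real.log (1 + Real.logb 2 (q * D)) ≤ Real.log C2 + Real.log Y := by
    rw [← Real.log_mul (by positivity) (by positivity)]
    apply Real.log_le_log
    · have : 0 ≤ Real.logb 2 (q * D) :=
        Real.logb_nonneg (by norm_num) (one_le_mul_of_one_le_of_one_le hq1 hD)
      linarith
    · rw [Real.logb, Real.log_mul (by positivity) (by positivity), hC2]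
      have h6 : (Real.log q + Real.log D) / Real.log 2
          ≤ (Real.log q + 1) / Real.log 2 * Y := by
        rw [div_mul_eq_mul_div]
        apply div_le_div_of_nonneg_right _ hl2.le
        nlinarith
      nlinarith
  have h7 : (n0 : ℝ) * Real.log (1 + Real.logb 2 (q * D))
      ≤ n0 * (Real.log C2 + Real.log Y) := mul_le_mul_of_nonneg_left h5 (Nat.cast_nonneg _)
  unfold ee
  rw [← hY]
  nlinarith

/-- `log` is small -/
theorem eventually_small (α β C1 ε : ℝ) (hβ : 0 ≤ β) (hC1 : 1 ≤ C1) (hε : 0 < ε) :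
    ∀ᶠ X : ℝ in atTop, α + β * Real.log (C1 * (1 + X)) ≤ ε * X := by
  have h1 := Real.isLittleO_log_id_atTop.def (c := ε / (4 * (β + 1) * C1)) (by positivity)
  have h2 : Tendsto (fun X : ℝ => C1 * (1 + X)) atTop atTop :=
    Tendsto.const_mul_atTop (by linarith) (tendsto_atTop_add_const_left _ _ tendsto_id)
  have h3 := h2.eventually h1
  filter_upwards [h3, eventually_ge_atTop (1:ℝ), eventually_ge_atTop (2 * |α| / ε)]
    with X hX hX1 hXα
  rw [id, Real.norm_eq_abs, Real.norm_eq_abs] at hX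
  have h4 : |C1 * (1 + X)| = C1 * (1 + X) := abs_of_nonneg (by positivity)
  rw [h4] at hX
  have h5 : Real.log (C1 * (1 + X)) ≤ ε / (4 * (β + 1) * C1) * (C1 * (1 + X)) :=
    (le_abs_self _).trans hX
  have h6 : ε / (4 * (β + 1) * C1) * (C1 * (1 + X)) = ε * (1 + X) / (4 * (β + 1)) := by
    field_simp
  rw [h6] at h5
  have h7 : β * Real.log (C1 * (1 + X)) ≤ β * (ε * (1 + X) / (4 * (β + 1))) :=
    mul_le_mul_of_nonneg_left h5 hβ
  have h8 : β * (ε * (1 + X) / (4 * (β + 1))) ≤ ε * (1 + X) / 4 := by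
    rw [← mul_div_assoc, div_le_div_iff₀ (by positivity) (by norm_num)]
    have : 0 ≤ ε * (1 + X) := by positivity
    nlinarith
  have h9 : |α| ≤ ε * X / 2 := by
    rw [div_le_iff₀ hε] at hXα
    linarith
  have h10 : α ≤ |α| := le_abs_self _
  nlinarith

/-- the residue is invariant under isomorphisms -/
def ResCongr : Prop :=
  ∀ (K : Type u) [Field K] [NumberField K] (K' : Type) [Field K'] [NumberField K'],
    (K ≃+* K') → dedekindZeta_residue K = dedekindZeta_residue K'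

/-- the residue is bounded below for bounded discriminant -/
def Small (n : ℕ) : Prop :=
  ∀ X0 : ℝ, ∃ c : ℝ, 0 < c ∧ ∀ (K : Type u) [Field K] [NumberField K] [IsTotallyReal K],
    Module.finrank ℚ K = n → |(discr K : ℝ)| ≤ X0 → c ≤ dedekindZeta_residue K

/-- **Theorem N1 for large discriminant** -/
theorem large (n : ℕ) (hn : 3 ≤ n) (hcase : Odd n ∨ (n = 4 ∨ n = 6)) (hres : ResCongr.{u})
    (ε : ℝ) (hε : 0 < ε) : ∃ X0 : ℝ, ∀ (K : Type u) [Field K] [NumberField K] [IsTotallyReal K],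
      Module.finrank ℚ K = n → IsPrimitiveField K → X0 ≤ Real.log |(discr K : ℝ)| →
        |(discr K : ℝ)| ^ (-ε) < dedekindZeta_residue K := by
  classical
  obtain ⟨Qs, C0, hC0, hQs, hdata⟩ := exists_data.{u} n
  set n0 := n.factorial * n.factorial with hn0
  choose CA1 hCA1 hA1 using exists_A1
  have hA2' : ∀ d' (q : Qs), ∃ C : ℝ, 1 ≤ C ∧ A2 d' q C := fun d' q =>
    exists_A2 d' q (hQs q q.2).1.ne_zero
  choose CA2 hCA2 hA2 using hA2'
  have hAP' : ∀ q : Qs, ∃ C : ℝ, 0 ≤ C ∧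
      ∀ (M : Type) [Field M] [NumberField M] (d : FldData M q (AQ q n.factorial)) (s : ℝ),
        s ∈ Set.Ioc (0:ℝ) 1 → ∀ b : AQ q n.factorial,
        Real.log (1 / s) / Nat.card (AQ q n.factorial)
          - (C + (3 + Real.log (1 + Real.log |(discr M : ℝ)|)))
          ≤ ∑ y ∈ Finset.univ.filter (fun y => d.pr y = b), d.V s y := by
    intro q
    have : NeZero (q : ℕ) := ⟨(hQs q q.2).1.ne_zero⟩
    obtain ⟨C, h0, h1⟩ := N1A_479.apBound q (AQ q n.factorial)
    exact ⟨C, h0, fun M _ _ d s hs b => by convert h1 M d s hs b⟩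
  choose CAP hCAP hAP using hAP'
  set S1 : ℝ := ∑ d' ∈ Finset.range (n0 + 1), CA1 d' with hS1
  set S2 : ℝ := ∑ d' ∈ Finset.range (n0 + 1), ∑ q : Qs, CA2 d' q with hS2
  set S3 : ℝ := ∑ q : Qs, CAP q with hS3
  have hS10 : 0 ≤ S1 := Finset.sum_nonneg fun d' _ => by linarith [hCA1 d']
  have hS20 : 0 ≤ S2 := Finset.sum_nonneg fun d' _ => Finset.sum_nonneg fun q _ => by
    linarith [hCA2 d' q]
  have hS30 : 0 ≤ S3 := Finset.sum_nonneg fun q _ => hCAP q
  set C : ℝ := 1 + S1 + S2 + S3 with hC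
  have hC1 : 1 ≤ C := by linarith
  have hle1 : ∀ d' ≤ n0, CA1 d' ≤ C := by
    intro d' hd'
    have h1 : CA1 d' ≤ S1 := Finset.single_le_sum (f := fun d' => CA1 d')
      (fun d' _ => by linarith [hCA1 d']) (Finset.mem_range.2 (by omega))
    linarith
  have hle2 : ∀ d' ≤ n0, ∀ q : Qs, CA2 d' q ≤ C := by
    intro d' hd' q
    have h1 : CA2 d' q ≤ ∑ q : Qs, CA2 d' q := Finset.single_le_sum (f := fun q => CA2 d' q)
      (fun q _ => by linarith [hCA2 d' q]) (Finset.mem_univ _)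
    have h2 : ∑ q : Qs, CA2 d' q ≤ S2 :=
      Finset.single_le_sum (f := fun d' => ∑ q : Qs, CA2 d' q)
        (fun d' _ => Finset.sum_nonneg fun q _ => by linarith [hCA2 d' q])
        (Finset.mem_range.2 (by omega))
    linarith
  have hle3 : ∀ q : Qs, CAP q ≤ C := by
    intro q
    have h1 : CAP q ≤ S3 := Finset.single_le_sum (f := fun q => CAP q)
      (fun q _ => hCAP q) (Finset.mem_univ _)
    linarith
  -- growth
  have hgrow : ∀ q : Qs, ∀ᶠ X : ℝ in atTop, ∀ D : ℝ, 1 ≤ D → D ≤ C0 * (Real.exp X) ^ C0 →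
      100 * ((n0 : ℕ) : ℝ) ^ 2 * ((n.factorial + 4) * (ee n0 q C D + Real.log (aa n0 C D) + 1))
        ≤ ε * X := by
    intro q
    obtain ⟨α, β, hα, hβ, hloss⟩ := loss_bound n0 q (hQs q q.2).1.one_lt.le C hC1
    set P : ℝ := 100 * ((n0 : ℕ) : ℝ) ^ 2 * (n.factorial + 4) with hP
    have hP0 : 0 ≤ P := by positivity
    have hlC0 : 0 ≤ Real.log C0 := Real.log_nonneg hC0
    have hev := eventually_small (P * α) (P * β) (1 + Real.log C0 + C0) ε
      (mul_nonneg hP0 hβ) (by linarith) hε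
    filter_upwards [hev, eventually_ge_atTop (0:ℝ)] with X hX hX0 D hD hDX
    have hlD : 0 ≤ Real.log D := Real.log_nonneg hD
    have h1 : Real.log D ≤ Real.log C0 + C0 * X := by
      have h2 := Real.log_le_log (by linarith) hDX
      rw [Real.log_mul (by linarith) (by positivity), Real.log_rpow (Real.exp_pos _),
        Real.log_exp] at h2
      exact h2
    have h3 : Real.log (1 + Real.log D) ≤ Real.log ((1 + Real.log C0 + C0) * (1 + X)) := by
      apply Real.log_le_log (by linarith)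
      nlinarith
    have h4 := hloss D hD
    have h5 : β * Real.log (1 + Real.log D)
        ≤ β * Real.log ((1 + Real.log C0 + C0) * (1 + X)) := mul_le_mul_of_nonneg_left h3 hβ
    have h6 : P * (ee n0 q C D + Real.log (aa n0 C D) + 1)
        ≤ P * (α + β * Real.log ((1 + Real.log C0 + C0) * (1 + X))) :=
      mul_le_mul_of_nonneg_left (by linarith) hP0
    calc 100 * ((n0 : ℕ) : ℝ) ^ 2 * ((n.factorial + 4) * (ee n0 q C D + Real.log (aa n0 C D) + 1))
        = P * (ee n0 q C D + Real.log (aa n0 C D) + 1) := by rw [hP]; ring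
      _ ≤ P * (α + β * Real.log ((1 + Real.log C0 + C0) * (1 + X))) := h6
      _ = P * α + P * β * Real.log ((1 + Real.log C0 + C0) * (1 + X)) := by ring
      _ ≤ ε * X := hX
  have hgrow' := eventually_all.2 hgrow
  obtain ⟨X0, hX0⟩ := eventually_atTop.1 hgrow'
  refine ⟨X0, ?_⟩
  intro K _ _ _ hK hprim hX
  obtain ⟨q, hq, M, i1, i2, i3, i4, d, f, haux⟩ := hdata K hK
  have hD1 := one_le_disc K
  set X := Real.log |(discr K : ℝ)| with hXdef
  have hexpX : Real.exp X = |(discr K : ℝ)| := Real.exp_log (by linarith)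
  have hbig := hX0 X hX ⟨q, hq⟩ |(discr M : ℝ)| (one_le_disc M) (by
    rw [hexpX]; exact haux.hdisc)
  set s0 : ℝ := |(discr K : ℝ)| ^ (-ε) with hs0
  have hs0pos : 0 < s0 := Real.rpow_pos_of_pos (by linarith) _
  have hlogs0 : Real.log (1 / s0) = ε * X := by
    rw [one_div, Real.log_inv, hs0, Real.log_rpow (by linarith)]
    ring
  have hcase' : Odd n ∨ ((n = 4 ∨ n = 6) ∧ IsPrimitiveField K) := by
    rcases hcase with h | h
    · exact Or.inl h
    · exact Or.inr ⟨h, hprim⟩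
  have key := one_field (K := K) hn hK hcase' (hQs q hq).1 (hQs q hq).2 haux f hC1
    (fun d' hd' => A1_mono (hCA1 d') (hA1 d') (hle1 d' hd'))
    (fun d' hd' => A2_mono (hCA2 d' ⟨q, hq⟩) (hA2 d' ⟨q, hq⟩) (hle2 d' hd' ⟨q, hq⟩))
    (fun s hs b => by
      have h1 := hAP ⟨q, hq⟩ M d s hs b
      have h2 := hle3 ⟨q, hq⟩
      have h3 : Real.log (1 / s) / Nat.card (AQ q n.factorial)
          - (C + (3 + Real.log (1 + Real.log |(discr M : ℝ)|)))
          ≤ Real.log (1 / s) / Nat.card (AQ q n.factorial)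
          - (CAP ⟨q, hq⟩ + (3 + Real.log (1 + Real.log |(discr M : ℝ)|))) := by linarith
      refine h3.trans ?_
      convert h1)
    hs0pos (by rw [hlogs0]; exact hbig)
  have e : K ≃+* ↥(IntermediateField.fixedField f.fieldRange.fixingSubgroup) := by
    have h1 : IntermediateField.fixedField f.fieldRange.fixingSubgroup = f.fieldRange :=
      IsGalois.fixedField_fixingSubgroup _
    rw [h1]
    exact (AlgEquiv.ofInjectiveField f).toRingEquiv
  rw [hres K _ e]
  exact key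

/-- **Theorem N1** -/
theorem resLower_of (n : ℕ) (hn : 3 ≤ n) (hcase : Odd n ∨ (n = 4 ∨ n = 6)) (hres : ResCongr.{u})
    (hsmall : Small.{u} n) : Vol6_834.ResLower.{u} n := by
  intro ε hε
  obtain ⟨X0, hX0⟩ := large n hn hcase hres ε hε
  obtain ⟨c, hc, hcs⟩ := hsmall (Real.exp X0)
  refine ⟨min 1 c, lt_min one_pos hc, ?_⟩
  intro K _ _ _ hK hprim
  have hD1 := one_le_disc K
  have hpos : 0 < |(discr K : ℝ)| ^ (-ε) := Real.rpow_pos_of_pos (by linarith) _
  by_cases hX : X0 ≤ Real.log |(discr K : ℝ)|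
  · have h1 := hX0 K hK hprim hX
    have h2 : min 1 c * |(discr K : ℝ)| ^ (-ε) ≤ 1 * |(discr K : ℝ)| ^ (-ε) :=
      mul_le_mul_of_nonneg_right (min_le_left _ _) hpos.le
    linarith
  · push Not at hX
    have h1 : |(discr K : ℝ)| ≤ Real.exp X0 := by
      rw [← Real.log_le_iff_le_exp (by linarith)]
      exact hX.le
    have h2 := hcs K hK h1
    have h3 : |(discr K : ℝ)| ^ (-ε) ≤ 1 := Real.rpow_le_one_of_one_le_of_nonpos hD1 (by linarith)
    have h4 : min 1 c * |(discr K : ℝ)| ^ (-ε) ≤ c * 1 :=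
      mul_le_mul (min_le_right _ _) h3 hpos.le hc.le
    linarith

end Crest.Agent.R014.N1R_479
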