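import Mathlib
import Crest.Agent.R014.Ic3_550
import Crest.Agent.R014.N1R_479

/-!
N1-MAIN (row 14): the residue is invariant under isomorphisms; small discriminants.  Helper479.
-/

set_option autoImplicit false

universe u v

namespace Crest.Agent.R014.N1Z_479

open NumberField Crest.Agent.R014 Crest.Agent.R014.LDef_550 Filter Topology

theorem absNorm_map {R S : Type*} [CommRing R] [CommRing S] [IsDedekindDomain R]
    [IsDedekindDomain S] [Module.Free ℤ R] [Module.Free ℤ S] [Module.Finite ℤ R]
    [Module.Finite ℤ S] (e : R ≃+* S) (I : Ideal R) :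
    Ideal.absNorm (I.map (e : R →+* S)) = Ideal.absNorm I := by
  rw [Ideal.absNorm_apply, Ideal.absNorm_apply, Submodule.cardQuot_apply,
    Submodule.cardQuot_apply]
  exact Nat.card_congr (Ideal.quotientEquiv I _ e rfl).symm.toEquiv

theorem rE_congr {K : Type u} {K' : Type v} [Field K] [NumberField K] [Field K'] [NumberField K']
    (e : K ≃+* K') (n : ℕ) : rE K n = rE K' n := by
  unfold rE
  let e' : 𝓞 K ≃+* 𝓞 K' := RingOfIntegers.mapRingEquiv e
  refine Nat.card_congr ((e'.idealComapOrderIso.symm.toEquiv).subtypeEquiv ?_)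
  intro I
  have h1 : (e'.idealComapOrderIso.symm.toEquiv) I = I.map (e' : 𝓞 K →+* 𝓞 K') := by
    exact RingEquiv.idealComapOrderIso_symm_apply e' I
  rw [h1, absNorm_map]

theorem zE_congr {K : Type u} {K' : Type v} [Field K] [NumberField K] [Field K'] [NumberField K']
    (e : K ≃+* K') (s : ℝ) : zE K s = zE K' s := by
  unfold zE
  refine tsum_congr fun n => ?_
  rw [rE_congr e]

theorem residue_congr {K : Type u} {K' : Type v} [Field K] [NumberField K] [Field K']
    [NumberField K'] (e : K ≃+* K') : dedekindZeta_residue K = dedekindZeta_residue K' := by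
  have h1 := Ic3_550.tendsto_zE (E := K)
  have h2 := Ic3_550.tendsto_zE (E := K')
  have h3 : (fun s : ℝ => s * zE K s) = fun s => s * zE K' s := by
    funext s
    rw [zE_congr e]
  rw [h3] at h1
  exact tendsto_nhds_unique h1 h2

theorem resCongr : N1R_479.ResCongr.{u} := fun _ _ _ _ _ _ e => residue_congr e

/-- residue of a finite extension of `ℚ` inside `A` -/
noncomputable def resF (A : Type) [Field A] [CharZero A]
    (F : { F : IntermediateField ℚ A // FiniteDimensional ℚ F}) : ℝ :=
  haveI : NumberField F := @NumberField.mk _ _ inferInstance F.prop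
  dedekindZeta_residue F

theorem resF_pos (A : Type) [Field A] [CharZero A]
    (F : { F : IntermediateField ℚ A // FiniteDimensional ℚ F}) : 0 < resF A F :=
  haveI : NumberField F := @NumberField.mk _ _ inferInstance F.prop
  dedekindZeta_residue_pos F

theorem small_all (X0 : ℝ) : ∃ c : ℝ, 0 < c ∧ ∀ (K : Type u) [Field K] [NumberField K],
    |(discr K : ℝ)| ≤ X0 → c ≤ dedekindZeta_residue K := by
  classical
  let A := AlgebraicClosure ℚ
  have hfin := finite_of_discr_bdd A (Nat.floor X0)
  have hbdd := (hfin.image (fun F => (resF A F)⁻¹)).bddAbove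
  obtain ⟨B, hB⟩ := hbdd
  refine ⟨(max B 1)⁻¹, by positivity, ?_⟩
  intro K _ _ hK
  let φ : K →ₐ[ℚ] A := IsAlgClosed.lift
  have e : K ≃+* φ.fieldRange := (AlgEquiv.ofInjectiveField φ).toRingEquiv
  have hfd : FiniteDimensional ℚ φ.fieldRange :=
    (AlgEquiv.ofInjectiveField φ).toLinearEquiv.finiteDimensional
  have hnf : NumberField φ.fieldRange := @NumberField.mk _ _ inferInstance hfd
  have hd : discr K = discr φ.fieldRange := discr_eq_discr_of_ringEquiv K e
  have hmem : (⟨φ.fieldRange, hfd⟩ : { F : IntermediateField ℚ A // FiniteDimensional ℚ F}) ∈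
      {K : { F : IntermediateField ℚ A // FiniteDimensional ℚ F} |
      haveI :  NumberField K := @NumberField.mk _ _ inferInstance K.prop
      |discr K| ≤ Nat.floor X0 } := by
    show |discr φ.fieldRange| ≤ (Nat.floor X0 : ℤ)
    rw [← hd]
    have h0 : (0:ℝ) ≤ X0 := (abs_nonneg _).trans hK
    have h1 : ((discr K).natAbs : ℝ) ≤ X0 := by
      rw [Nat.cast_natAbs, Int.cast_abs]; exact hK
    have h2 : (discr K).natAbs ≤ Nat.floor X0 := Nat.le_floor h1
    rw [Int.abs_eq_natAbs]
    exact_mod_cast h2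
  have h3 : (resF A ⟨φ.fieldRange, hfd⟩)⁻¹ ≤ B := hB ⟨_, hmem, rfl⟩
  have h4 : dedekindZeta_residue K = resF A ⟨φ.fieldRange, hfd⟩ := residue_congr e
  rw [h4]
  have h5 := resF_pos A ⟨φ.fieldRange, hfd⟩
  rw [inv_le_comm₀ (by positivity) h5]
  exact h3.trans (le_max_left _ _)

theorem small (n : ℕ) : N1R_479.Small.{u} n := by
  intro X0
  obtain ⟨c, hc, h⟩ := small_all.{u} X0
  exact ⟨c, hc, fun K _ _ _ _ hK => h K hK⟩

/-- **Theorem N1** -/
theorem resLower (n : ℕ) (hn : 3 ≤ n) (hcase : Odd n ∨ (n = 4 ∨ n = 6)) :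
    Vol6_834.ResLower.{u} n :=
  N1R_479.resLower_of n hn hcase resCongr (small n)

end Crest.Agent.R014.N1Z_479
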