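import Crest.Agent.R014.Pk2_349

/-!
Row 14, packets, part 3 (helper349): the period groups of packet orbits are full lattices in `ℝ^d`
(Dirichlet's unit theorem for multiplier orders).
-/

set_option autoImplicit false
set_option linter.unusedSectionVars false

open MeasureTheory Matrix Module NumberField
open Crest.NumberTheoryR.Packets

namespace Crest.Agent.R014.Pk3_349

open Crest.Agent.R014.Pk1_349 Crest.Agent.R014.Pk2_349

noncomputable section

variable {n d : ℕ} {K : Type*} [Field K] [NumberField K]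

/-- A lattice basis is a ℚ-basis. -/
def qBasis (m : LatticeBasis n K) : Basis (Fin n) ℚ K :=
  Basis.mk ((LinearIndependent.iff_fractionRing ℤ ℚ).1 m.linIndep) m.spans.ge

theorem qBasis_apply (m : LatticeBasis n K) (i : Fin n) : qBasis m i = m.vec i := by
  unfold qBasis
  rw [Basis.mk_apply]

theorem finrank_eq (m : LatticeBasis n K) : finrank ℚ K = n := by
  rw [finrank_eq_card_basis (qBasis m), Fintype.card_fin]

/-! ### Multiples of field elements in a lattice -/

theorem exists_nat_mul_mem (m : LatticeBasis n K) (x : K) :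
    ∃ N : ℕ, 0 < N ∧ (N : K) * x ∈ m.lattice := by
  have hx : x ∈ Submodule.span ℚ (Set.range m.vec) := by rw [m.spans]; trivial
  induction hx using Submodule.span_induction with
  | mem x hx =>
    exact ⟨1, one_pos, by rw [Nat.cast_one, one_mul]; exact Submodule.subset_span hx⟩
  | zero => exact ⟨1, one_pos, by rw [mul_zero]; exact zero_mem _⟩
  | add x y _ _ hx hy =>
    obtain ⟨N, hN, h1⟩ := hx
    obtain ⟨N', hN', h2⟩ := hy
    refine ⟨N * N', Nat.mul_pos hN hN', ?_⟩
    have e : ((N * N' : ℕ) : K) * (x + y) = (N' : ℤ) • ((N : K) * x) + (N : ℤ) • ((N' : K) * y) := by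
      rw [zsmul_eq_mul, zsmul_eq_mul]; push_cast; ring
    rw [e]
    exact add_mem (Submodule.smul_mem _ _ h1) (Submodule.smul_mem _ _ h2)
  | smul q x _ hx =>
    obtain ⟨N, hN, h1⟩ := hx
    refine ⟨N * q.den, Nat.mul_pos hN q.den_pos, ?_⟩
    have e : ((N * q.den : ℕ) : K) * (q • x) = q.num • ((N : K) * x) := by
      rw [zsmul_eq_mul, Algebra.smul_def, eq_ratCast]
      have h2 : (q : K) * (q.den : K) = (q.num : K) := by
        have := Rat.mul_den_eq_num q
        exact_mod_cast congrArg (fun r : ℚ => (r : K)) this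
      push_cast
      calc (N : K) * q.den * (q * x) = N * ((q * q.den) * x) := by ring
        _ = q.num * (N * x) := by rw [h2]; ring
    rw [e]
    exact Submodule.smul_mem _ _ h1

theorem exists_nat_mul_fg (m : LatticeBasis n K) {L : Submodule ℤ K} (hL : L.FG) :
    ∃ N : ℕ, 0 < N ∧ ∀ x ∈ L, (N : K) * x ∈ m.lattice := by
  classical
  obtain ⟨S, rfl⟩ := hL
  choose N hN hNx using exists_nat_mul_mem m
  refine ⟨∏ s ∈ S, N s, Finset.prod_pos fun s _ => hN s, fun x hx => ?_⟩
  induction hx using Submodule.span_induction with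
  | mem x hx =>
    obtain ⟨k, hk⟩ := Finset.dvd_prod_of_mem N (Finset.mem_coe.1 hx)
    have e : ((∏ s ∈ S, N s : ℕ) : K) * x = (k : ℤ) • ((N x : K) * x) := by
      rw [hk, zsmul_eq_mul]; push_cast; ring
    rw [e]
    exact Submodule.smul_mem _ _ (hNx x)
  | zero => rw [mul_zero]; exact zero_mem _
  | add x y _ _ hx hy => rw [mul_add]; exact add_mem hx hy
  | smul a x _ hx =>
    rw [zsmul_eq_mul, mul_left_comm, ← zsmul_eq_mul]
    exact Submodule.smul_mem _ _ hx

/-- The ring of integers as a ℤ-submodule of `K`. -/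
def intLat (K : Type*) [Field K] [NumberField K] : Submodule ℤ K :=
  Subalgebra.toSubmodule (integralClosure ℤ K)

theorem mem_intLat {x : K} : x ∈ intLat K ↔ IsIntegral ℤ x := Iff.rfl

theorem intLat_fg : (intLat K).FG := by
  have h : intLat K = (⊤ : Submodule ℤ (𝓞 K)).map (Algebra.linearMap (𝓞 K) K |>.restrictScalars ℤ) := by
    ext x
    rw [Submodule.mem_map]
    constructor
    · intro hx
      exact ⟨⟨x, hx⟩, trivial, rfl⟩
    · rintro ⟨y, _, rfl⟩
      exact y.2
  rw [h]
  exact Submodule.FG.map _ (Module.Finite.fg_top)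

theorem lattice_fg (m : LatticeBasis n K) : m.lattice.FG :=
  Submodule.fg_span (Set.finite_range _)

/-- A conductor: some positive integer multiple of the ring of integers lies in the multiplier
order. -/
theorem exists_conductor (m : LatticeBasis n K) :
    ∃ f : ℕ, 0 < f ∧ ∀ a : K, IsIntegral ℤ a → (f : K) * a ∈ multiplierOrder m := by
  obtain ⟨f, hf, h⟩ := exists_nat_mul_fg m (Submodule.FG.mul intLat_fg (lattice_fg m))
  refine ⟨f, hf, fun a ha x hx => ?_⟩
  rw [mul_assoc]
  exact h _ (Submodule.mul_mem_mul (mem_intLat.2 ha) hx)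

theorem isIntegral_of_mem_mult (m : LatticeBasis (d + 1) K) {a : K} (ha : a ∈ multiplierOrder m) :
    IsIntegral ℤ a :=
  isIntegral_of_smul_mem_submodule m.lattice (lat_ne_bot_of m) (lattice_fg m) a
    (fun x hx => ha x hx)

theorem one_mem_mult (m : LatticeBasis n K) : (1 : K) ∈ multiplierOrder m := by
  intro x hx
  rwa [one_mul]

theorem mul_mem_mult {m : LatticeBasis n K} {a b : K} (ha : a ∈ multiplierOrder m)
    (hb : b ∈ multiplierOrder m) : a * b ∈ multiplierOrder m := by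
  intro x hx
  rw [mul_assoc]
  exact ha _ (hb x hx)

/-- Some power (uniform in the unit) of every unit of `𝓞 K` is in the multiplier order. -/
theorem exists_pow_mem_mult (m : LatticeBasis (d + 1) K) :
    ∃ k : ℕ, 0 < k ∧ ∀ ε : (𝓞 K)ˣ, (((ε : 𝓞 K) : K)) ^ k ∈ multiplierOrder m := by
  obtain ⟨f, hf, hO⟩ := exists_conductor m
  let I : Ideal (𝓞 K) := Ideal.span {(f : 𝓞 K)}
  have hI : I ≠ ⊥ := by
    intro h
    have := Ideal.span_singleton_eq_bot.1 h
    exact hf.ne' (by exact_mod_cast this)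
  have : _root_.Finite (𝓞 K ⧸ I) := Ideal.finiteQuotientOfFreeOfNeBot I hI
  have : _root_.Finite (𝓞 K ⧸ I)ˣ := inferInstance
  refine ⟨Nat.card (𝓞 K ⧸ I)ˣ, Nat.card_pos, fun ε => ?_⟩
  set k := Nat.card (𝓞 K ⧸ I)ˣ with hk
  have h1 : (Units.map (Ideal.Quotient.mk I).toMonoidHom ε) ^ k = 1 := pow_card_eq_one'
  have h2 : Ideal.Quotient.mk I ((ε : 𝓞 K) ^ k - 1) = 0 := by
    have := congrArg Units.val h1
    rw [Units.val_pow_eq_pow_val] at this
    rw [map_sub, map_pow, map_one, sub_eq_zero]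
    exact this
  rw [Ideal.Quotient.eq_zero_iff_mem, Ideal.mem_span_singleton] at h2
  obtain ⟨b, hb⟩ := h2
  have h3 : ((ε : 𝓞 K) : K) ^ k = 1 + (f : K) * (b : K) := by
    have h4 : (ε : 𝓞 K) ^ k = 1 + (f : 𝓞 K) * b := by rw [← hb]; ring
    have h5 := congrArg (fun z : 𝓞 K => (z : K)) h4
    simpa using h5
  rw [h3]
  exact add_mem (one_mem_mult m) (hO _ b.2)

/-! ### Places -/

/-- The infinite place attached to a real embedding. -/
def placeOf (σ : Fin (d + 1) ≃ (K →+* ℝ)) (j : Fin (d + 1)) : InfinitePlace K :=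
  InfinitePlace.mk (Complex.ofRealHom.comp (σ j))

theorem placeOf_apply (σ : Fin (d + 1) ≃ (K →+* ℝ)) (j : Fin (d + 1)) (x : K) :
    placeOf σ j x = |σ j x| := by
  unfold placeOf
  rw [InfinitePlace.apply]
  simp

theorem comp_injective (σ : Fin (d + 1) ≃ (K →+* ℝ)) :
    Function.Injective (fun j => Complex.ofRealHom.comp (σ j) : Fin (d + 1) → (K →+* ℂ)) := by
  intro i j h
  apply σ.injective
  ext x
  have := DFunLike.congr_fun h x
  simpa using this

theorem comp_bijective (hn : finrank ℚ K = d + 1) (σ : Fin (d + 1) ≃ (K →+* ℝ)) :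
    Function.Bijective (fun j => Complex.ofRealHom.comp (σ j) : Fin (d + 1) → (K →+* ℂ)) := by
  rw [Fintype.bijective_iff_injective_and_card]
  refine ⟨comp_injective σ, ?_⟩
  rw [Fintype.card_fin, Embeddings.card, hn]

theorem conj_comp (σ : Fin (d + 1) ≃ (K →+* ℝ)) (j : Fin (d + 1)) :
    ComplexEmbedding.conjugate (Complex.ofRealHom.comp (σ j)) = Complex.ofRealHom.comp (σ j) := by
  ext x
  simp [ComplexEmbedding.conjugate]

theorem placeOf_injective (σ : Fin (d + 1) ≃ (K →+* ℝ)) : Function.Injective (placeOf σ) := by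
  intro i j h
  unfold placeOf at h
  rw [InfinitePlace.mk_eq_iff, conj_comp, or_self] at h
  exact comp_injective σ h

theorem placeOf_surjective (hn : finrank ℚ K = d + 1) (σ : Fin (d + 1) ≃ (K →+* ℝ)) :
    Function.Surjective (placeOf σ) := by
  intro w
  obtain ⟨j, hj⟩ := (comp_bijective hn σ).2 w.embedding
  refine ⟨j, ?_⟩
  unfold placeOf
  have : Complex.ofRealHom.comp (σ j) = w.embedding := hj
  rw [this, InfinitePlace.mk_embedding]

/-- The infinite places are indexed by the ordering of the real embeddings. -/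
def placeEquiv (hn : finrank ℚ K = d + 1) (σ : Fin (d + 1) ≃ (K →+* ℝ)) :
    Fin (d + 1) ≃ InfinitePlace K :=
  Equiv.ofBijective (placeOf σ) ⟨placeOf_injective σ, placeOf_surjective hn σ⟩

theorem mult_placeOf (σ : Fin (d + 1) ≃ (K →+* ℝ)) (j : Fin (d + 1)) :
    (placeOf σ j).mult = 1 := by
  have h : (placeOf σ j).IsReal := by
    refine ⟨Complex.ofRealHom.comp (σ j), ?_, rfl⟩
    rw [ComplexEmbedding.isReal_iff]
    exact conj_comp σ j
  unfold InfinitePlace.mult
  rw [if_pos h]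

theorem sum_log_units (hn : finrank ℚ K = d + 1) (σ : Fin (d + 1) ≃ (K →+* ℝ)) (ε : (𝓞 K)ˣ) :
    ∑ j, Real.log |σ j ((ε : 𝓞 K) : K)| = 0 := by
  classical
  have h := NumberField.Units.sum_mult_mul_log ε
  rw [← (placeEquiv hn σ).sum_comp] at h
  rw [← h]
  refine Finset.sum_congr rfl fun j _ => ?_
  show _ = ((placeOf σ j).mult : ℝ) * Real.log (placeOf σ j _)
  rw [mult_placeOf, placeOf_apply, Nat.cast_one, one_mul]

/-- The logarithmic vector of a unit. -/
def logVec (σ : Fin (d + 1) ≃ (K →+* ℝ)) (x : K) : Fin d → ℝ :=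
  fun i => Real.log |σ i.castSucc x|

theorem exists_units (hn : finrank ℚ K = d + 1) (σ : Fin (d + 1) ≃ (K →+* ℝ)) :
    ∃ ε : Fin (d + 1) → (𝓞 K)ˣ, ∀ i j, j ≠ i → Real.log |σ j ((ε i : 𝓞 K) : K)| < 0 := by
  have h : ∀ i : Fin (d + 1), ∃ u : (𝓞 K)ˣ, ∀ j, j ≠ i → Real.log |σ j ((u : 𝓞 K) : K)| < 0 := by
    intro i
    obtain ⟨u, hu⟩ := NumberField.Units.dirichletUnitTheorem.exists_unit K (placeOf σ i)
    refine ⟨u, fun j hj => ?_⟩
    have := hu (placeOf σ j) (fun h => hj (placeOf_injective σ h))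
    rwa [placeOf_apply] at this
  exact ⟨fun i => (h i).choose, fun i => (h i).choose_spec⟩

theorem span_logVec_eq_top (hn : finrank ℚ K = d + 1) (σ : Fin (d + 1) ≃ (K →+* ℝ)) :
    Submodule.span ℝ (Set.range fun ε : (𝓞 K)ˣ => logVec σ ((ε : 𝓞 K) : K)) = ⊤ := by
  obtain ⟨ε, hε⟩ := exists_units hn σ
  let A : Matrix (Fin d) (Fin d) ℝ := fun i => logVec σ ((ε i.castSucc : 𝓞 K) : K)
  have hdet : A.det ≠ 0 := by
    apply det_ne_zero_of_sum_row_lt_diag
    intro k
    have hsum := sum_log_units hn σ (ε k.castSucc)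
    rw [Fin.sum_univ_castSucc] at hsum
    have hlast := hε k.castSucc (Fin.last d) (Fin.castSucc_lt_last k).ne'
    have h1 : ∑ j, A k j = -Real.log |σ (Fin.last d) ((ε k.castSucc : 𝓞 K) : K)| :=
      eq_neg_of_add_eq_zero_left hsum
    have h2 : ∑ j ∈ Finset.univ.erase k, ‖A k j‖ = -∑ j ∈ Finset.univ.erase k, A k j := by
      rw [← Finset.sum_neg_distrib]
      refine Finset.sum_congr rfl fun j hj => ?_
      rw [Real.norm_eq_abs]
      refine abs_of_neg (hε k.castSucc j.castSucc ?_)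
      exact fun h => (Finset.ne_of_mem_erase hj) (Fin.castSucc_injective d h)
    have h3 := Finset.add_sum_erase Finset.univ (fun j => A k j) (Finset.mem_univ k)
    have h4 : ∑ j ∈ Finset.univ.erase k, A k j = ∑ j, A k j - A k k := by
      rw [← h3]; ring
    rw [h2, h4, h1, Real.norm_eq_abs]
    have h5 := le_abs_self (A k k)
    linarith
  have hli : LinearIndependent ℝ (fun i => A i) := by
    have := Matrix.linearIndependent_rows_iff_isUnit (A := A)
    rw [Matrix.isUnit_iff_isUnit_det] at this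
    exact this.2 (isUnit_iff_ne_zero.2 hdet)
  have htop : Submodule.span ℝ (Set.range fun i => A i) = ⊤ := by
    apply hli.span_eq_top_of_card_eq_finrank'
    simp
  rw [eq_top_iff, ← htop]
  apply Submodule.span_mono
  rintro _ ⟨i, rfl⟩
  exact ⟨ε i.castSucc, rfl⟩

/-! ### The period lattice -/

section periodLattice

variable {σ : Fin (d + 1) ≃ (K →+* ℝ)} {m : LatticeBasis (d + 1) K}
  {x : ModSpace (d + 1)} {t : Fin (d + 1) → ℝ}

theorem logVec_pow (σ : Fin (d + 1) ≃ (K →+* ℝ)) (e : K) (k : ℕ) :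
    logVec σ (e ^ k) = (k : ℝ) • logVec σ e := by
  funext i
  simp [logVec, map_pow, abs_pow, Real.log_pow]

theorem exists_pow_mem_periods (ht : ∀ j, t j ≠ 0)
    (hx : lat x = scaleLat (embLat σ m.lattice) t) :
    ∃ k : ℕ, 0 < k ∧ ∀ ε : (𝓞 K)ˣ, (k : ℝ) • logVec σ ((ε : 𝓞 K) : K) ∈ periods x := by
  obtain ⟨k, hk, h⟩ := exists_pow_mem_mult m
  refine ⟨2 * k, by positivity, fun ε => ?_⟩
  have hne : ((ε : 𝓞 K) : K) ≠ 0 := by
    exact_mod_cast ε.ne_zero
  rw [mem_periods_iff ht hx]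
  have hinv : (((ε⁻¹ : (𝓞 K)ˣ) : 𝓞 K) : K) = ((ε : 𝓞 K) : K)⁻¹ := by
    have : (((ε⁻¹ : (𝓞 K)ˣ) : 𝓞 K) : K) * ((ε : 𝓞 K) : K) = 1 := by
      have h1 : (ε⁻¹ : (𝓞 K)ˣ) * (ε : (𝓞 K)ˣ) = 1 := inv_mul_cancel ε
      have h2 := congrArg (fun z : (𝓞 K)ˣ => ((z : 𝓞 K) : K)) h1
      simpa using h2
    exact eq_inv_of_mul_eq_one_left this
  refine ⟨((ε : 𝓞 K) : K) ^ (2 * k), ?_, ?_, fun j => ?_, fun i => ?_⟩
  · rw [mul_comm, pow_mul, pow_two]
    exact mul_mem_mult (h ε) (h ε)
  · rw [← inv_pow, ← hinv, mul_comm, pow_mul, pow_two]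
    exact mul_mem_mult (h ε⁻¹) (h ε⁻¹)
  · rw [map_pow, pow_mul]
    exact pow_pos (by
      have := (map_ne_zero (σ j)).2 hne
      positivity) _
  · rw [← logVec_pow]
    show Real.log |σ i.castSucc (((ε : 𝓞 K) : K) ^ (2 * k))| = _
    rw [Real.log_abs]

theorem span_periods_eq_top (ht : ∀ j, t j ≠ 0)
    (hx : lat x = scaleLat (embLat σ m.lattice) t) :
    Submodule.span ℝ ((periods x : Set (Fin d → ℝ))) = ⊤ := by
  obtain ⟨k, hk, h⟩ := exists_pow_mem_periods ht hx
  rw [eq_top_iff, ← span_logVec_eq_top (finrank_eq m) σ, Submodule.span_le]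
  rintro _ ⟨ε, rfl⟩
  have h1 := Submodule.subset_span (R := ℝ) (h ε)
  have h2 := Submodule.smul_mem _ ((k : ℝ)⁻¹) h1
  rwa [smul_smul, inv_mul_cancel₀ (by exact_mod_cast hk.ne'), one_smul] at h2

theorem aVec_le_of_norm_le {u : Fin d → ℝ} {r : ℝ} (hr : 0 ≤ r) (hu : ‖u‖ ≤ r)
    (j : Fin (d + 1)) : aVec u j ≤ Real.exp ((d + 1) * r) := by
  have h1 : ∀ i, |u i| ≤ r := fun i => by
    have := norm_le_pi_norm u i
    rw [Real.norm_eq_abs] at this
    exact this.trans hu
  refine Fin.lastCases ?_ (fun i => ?_) j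
  · rw [aVec_last, Real.exp_le_exp]
    have h2 : |∑ i, u i| ≤ ∑ i : Fin d, r := (Finset.abs_sum_le_sum_abs _ _).trans
      (Finset.sum_le_sum fun i _ => h1 i)
    rw [Finset.sum_const, Finset.card_univ, Fintype.card_fin, nsmul_eq_mul] at h2
    have h3 := neg_le_of_abs_le h2
    nlinarith
  · rw [aVec_castSucc, Real.exp_le_exp]
    have h2 := le_of_abs_le (h1 i)
    have : (0 : ℝ) ≤ d := Nat.cast_nonneg d
    nlinarith

theorem finite_periods_inter_ball (ht : ∀ j, t j ≠ 0)
    (hx : lat x = scaleLat (embLat σ m.lattice) t) (r : ℝ) :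
    ((periods x : Set (Fin d → ℝ)) ∩ Metric.closedBall 0 r).Finite := by
  obtain hr | hr := lt_or_ge r 0
  · rw [Metric.closedBall_eq_empty.mpr hr, Set.inter_empty]
    exact Set.finite_empty
  have hfin := Embeddings.finite_of_norm_le K ℂ (Real.exp ((d + 1) * r))
  refine (hfin.image (logVec σ)).subset ?_
  rintro u ⟨hu, hur⟩
  rw [mem_closedBall_zero_iff] at hur
  obtain ⟨e, hM, he⟩ := (mem_periods ht hx).1 hu
  have he0 : e ≠ 0 := by
    intro h
    have := he 0
    rw [h, map_zero] at this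
    exact (aVec_pos u 0).ne this
  refine ⟨e, ⟨isIntegral_of_mem_mult m ((cM_eq_iff he0).1 hM).1, fun φ => ?_⟩, ?_⟩
  · obtain ⟨j, hj⟩ := (comp_bijective (finrank_eq m) σ).2 φ
    rw [← hj]
    show ‖((σ j e : ℝ) : ℂ)‖ ≤ _
    rw [Complex.norm_real, Real.norm_eq_abs, he j, abs_of_pos (aVec_pos u j)]
    exact aVec_le_of_norm_le hr hur j
  · funext i
    show Real.log |σ i.castSucc e| = u i
    rw [he, aVec_castSucc, abs_of_pos (Real.exp_pos _), Real.log_exp]

theorem discrete_periods (ht : ∀ j, t j ≠ 0)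
    (hx : lat x = scaleLat (embLat σ m.lattice) t) :
    DiscreteTopology (AddSubgroup.toIntSubmodule (periods x)) := by
  refine discreteTopology_of_isOpen_singleton_zero ?_
  refine isOpen_singleton_of_finite_mem_nhds 0 (s := Metric.closedBall 0 1) ?_ ?_
  · exact Metric.closedBall_mem_nhds _ (by simp)
  · refine Set.Finite.of_finite_image ?_ (Set.injOn_of_injective Subtype.val_injective)
    refine (finite_periods_inter_ball ht hx 1).subset ?_
    rintro _ ⟨y, hy, rfl⟩
    exact ⟨y.2, hy⟩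

/-- (P2) The period group of a packet orbit is a full lattice of `ℝ^d`. -/
theorem exists_basis_periods (ht : ∀ j, t j ≠ 0)
    (hx : lat x = scaleLat (embLat σ m.lattice) t) :
    ∃ b : Basis (Fin d) ℝ (Fin d → ℝ),
      periods x = (Submodule.span ℤ (Set.range b)).toAddSubgroup := by
  haveI := discrete_periods ht hx
  haveI : IsZLattice ℝ (AddSubgroup.toIntSubmodule (periods x)) := ⟨span_periods_eq_top ht hx⟩
  haveI : Module.Free ℤ (AddSubgroup.toIntSubmodule (periods x)) :=
    ZLattice.module_free ℝ _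
  haveI : Module.Finite ℤ (AddSubgroup.toIntSubmodule (periods x)) :=
    ZLattice.module_finite ℝ _
  let b0 := Module.Free.chooseBasis ℤ (AddSubgroup.toIntSubmodule (periods x))
  let b1 := b0.ofZLatticeBasis ℝ (AddSubgroup.toIntSubmodule (periods x))
  have hcard : Fintype.card (Module.Free.ChooseBasisIndex ℤ
      (AddSubgroup.toIntSubmodule (periods x))) = d := by
    rw [← finrank_eq_card_basis b1]
    simp
  let e := Fintype.equivFinOfCardEq hcard
  refine ⟨b1.reindex e, ?_⟩
  rw [Basis.range_reindex]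
  have h1 := b0.ofZLatticeBasis_span ℝ
  show periods x = (Submodule.span ℤ (Set.range b1)).toAddSubgroup
  rw [show Submodule.span ℤ (Set.range b1) = AddSubgroup.toIntSubmodule (periods x) from h1]
  rfl

end periodLattice

end

end Crest.Agent.R014.Pk3_349
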