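import Crest.Agent.R014.Sl2_652
import Crest.Agent.R014.Pk3_349
import Crest.Agent.R014.DivB_684

/-!
Row 14, part N2 (helper675): algebra of the lattices locally homothetic to `m` containing `1`.

`fIdx m` = index of the multiplier order in the ring of integers, `fPart m m1` = the part of the
lattice at the primes dividing `fIdx m`, `idl m m1` = the ideal prime to `fIdx m` describing the
lattice away from `fIdx m`.
-/

set_option autoImplicit false

open Crest.NumberTheoryR.Packets Module NumberField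
open scoped nonZeroDivisors

namespace Crest.Agent.R014.N2_675

open Crest.Agent.R014.Sl_652
open Crest.Agent.R014.Pk2_349 (lh_refl lh_symm lh_trans mem_of_forall_prime mult_eq_of_lh)
open Crest.Agent.R014.Pk3_349 (exists_nat_mul_fg)

noncomputable section

variable {K : Type*} [Field K] [NumberField K] {n : ℕ}

/-- The index of the multiplier order in the ring of integers. -/
def fIdx (m : LatticeBasis n K) : ℕ :=
  (multiplierOrder m).relIndex (integralClosure ℤ K).toSubring.toAddSubgroup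

theorem latticeDisc_eq (m : LatticeBasis n K) :
    latticeDisc m = |(NumberField.discr K : ℝ)| * (fIdx m : ℝ) ^ 2 := rfl

theorem fIdx_pos (m : LatticeBasis n K) : 0 < fIdx m := by
  obtain ⟨M, hM, hd⟩ := maxBasis_exists (finrank_eq m)
  obtain ⟨o, ho⟩ := order_basis m
  have hle : o.lattice ≤ M.lattice := by
    intro x hx
    rw [hM]
    rw [ho] at hx
    exact order_isIntegral hx
  have h := relIndex_eq M o hle
  have e1 : M.lattice.toAddSubgroup = (integralClosure ℤ K).toSubring.toAddSubgroup := by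
    ext x
    change x ∈ M.lattice ↔ x ∈ integralClosure ℤ K
    rw [hM]
    rfl
  have e2 : o.lattice.toAddSubgroup = multiplierOrder m := by
    ext x
    change x ∈ o.lattice ↔ _
    rw [ho]
    rfl
  rw [e1, e2] at h
  have h2 : (qBasis M).det o.vec ≠ 0 := by
    have := (qBasis M).isUnit_det (qBasis o)
    rw [coe_qBasis] at this
    exact this.ne_zero
  have h3 : ((fIdx m : ℕ) : ℚ) ≠ 0 := by
    rw [fIdx, h]
    exact abs_ne_zero.mpr h2
  exact Nat.pos_of_ne_zero (by exact_mod_cast h3)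

theorem fIdx_mul_mem (m : LatticeBasis n K) {x : K} (hx : IsIntegral ℤ x) :
    (fIdx m : K) * x ∈ multiplierOrder m := by
  have h := AddSubgroup.nsmul_index_mem
    ((multiplierOrder m).addSubgroupOf (integralClosure ℤ K).toSubring.toAddSubgroup) ⟨x, hx⟩
  rw [AddSubgroup.mem_addSubgroupOf] at h
  have e : (((((multiplierOrder m).addSubgroupOf
      (integralClosure ℤ K).toSubring.toAddSubgroup).index •
      (⟨x, hx⟩ : (integralClosure ℤ K).toSubring.toAddSubgroup) :
      (integralClosure ℤ K).toSubring.toAddSubgroup)) : K) = (fIdx m : K) * x := by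
    rw [AddSubgroup.coe_nsmul, nsmul_eq_mul]
    rfl
  rw [e] at h
  exact h

theorem fIdx_pow_mul_mem (m : LatticeBasis n K) {x : K} (hx : IsIntegral ℤ x) (k : ℕ) (hk : 1 ≤ k) :
    (fIdx m : K) ^ k * x ∈ multiplierOrder m := by
  obtain ⟨j, rfl⟩ : ∃ j, k = j + 1 := ⟨k - 1, by omega⟩
  have h := fIdx_mul_mem m (x := (fIdx m : K) ^ j * x)
    (((isIntegral_algebraMap (R := ℤ) (x := (fIdx m : ℤ))).pow j |> fun h => by
      simpa using h.mul hx))
  have e : (fIdx m : K) ^ (j + 1) * x = (fIdx m : K) * ((fIdx m : K) ^ j * x) := by ring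
  rw [e]; exact h

/-- The part of the lattice `m1` at the primes dividing `fIdx m`. -/
def fPart (m m1 : LatticeBasis n K) : AddSubgroup K where
  carrier := {x | x ∈ m1.lattice ∧ ∃ k : ℕ, (fIdx m : K) ^ k * x ∈ multiplierOrder m}
  zero_mem' := ⟨m1.lattice.zero_mem, 0, by simp⟩
  add_mem' := by
    rintro x y ⟨hx, k, hk⟩ ⟨hy, l, hl⟩
    refine ⟨m1.lattice.add_mem hx hy, k + l, ?_⟩
    have e : (fIdx m : K) ^ (k + l) * (x + y) =
        ((fIdx m ^ l : ℕ) : ℤ) * ((fIdx m : K) ^ k * x) +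
          ((fIdx m ^ k : ℕ) : ℤ) * ((fIdx m : K) ^ l * y) := by push_cast; ring
    rw [e]
    exact (multiplierOrder m).add_mem (mul_mem_order (int_mem_order m _) hk)
      (mul_mem_order (int_mem_order m _) hl)
  neg_mem' := by
    rintro x ⟨hx, k, hk⟩
    refine ⟨m1.lattice.neg_mem hx, k, ?_⟩
    rw [mul_neg]
    exact (multiplierOrder m).neg_mem hk

theorem mem_fPart {m m1 : LatticeBasis n K} {x : K} :
    x ∈ fPart m m1 ↔ x ∈ m1.lattice ∧ ∃ k : ℕ, (fIdx m : K) ^ k * x ∈ multiplierOrder m := Iff.rfl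

/-- The ideal describing the lattice away from `fIdx m`. -/
def idl (m m1 : LatticeBasis n K) : Ideal (𝓞 K) where
  carrier := {b | ∀ x ∈ m1.lattice, ∃ k : ℕ, (fIdx m : K) ^ k * ((b : K) * x) ∈ multiplierOrder m}
  zero_mem' := fun x _ => ⟨0, by simp⟩
  add_mem' := by
    intro a b ha hb x hx
    obtain ⟨k, hk⟩ := ha x hx
    obtain ⟨l, hl⟩ := hb x hx
    refine ⟨k + l, ?_⟩
    have e : (fIdx m : K) ^ (k + l) * (((a + b : 𝓞 K) : K) * x) =
        ((fIdx m ^ l : ℕ) : ℤ) * ((fIdx m : K) ^ k * ((a : K) * x)) +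
          ((fIdx m ^ k : ℕ) : ℤ) * ((fIdx m : K) ^ l * ((b : K) * x)) := by push_cast; ring
    rw [e]
    exact (multiplierOrder m).add_mem (mul_mem_order (int_mem_order m _) hk)
      (mul_mem_order (int_mem_order m _) hl)
  smul_mem' := by
    intro c b hb x hx
    obtain ⟨k, hk⟩ := hb x hx
    refine ⟨k + 1, ?_⟩
    have e : (fIdx m : K) ^ (k + 1) * (((c • b : 𝓞 K) : K) * x) =
        ((fIdx m : K) * (c : K)) * ((fIdx m : K) ^ k * ((b : K) * x)) := by
      rw [smul_eq_mul]; push_cast; ring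
    rw [e]
    exact mul_mem_order (fIdx_mul_mem m c.2) hk

theorem mem_idl {m m1 : LatticeBasis n K} {b : 𝓞 K} :
    b ∈ idl m m1 ↔
      ∀ x ∈ m1.lattice, ∃ k : ℕ, (fIdx m : K) ^ k * ((b : K) * x) ∈ multiplierOrder m := Iff.rfl

/-! ### The class of `m` -/

theorem order_mul_mem {m m1 : LatticeBasis n K} (h : LocallyHomothetic m m1) {a x : K}
    (ha : a ∈ multiplierOrder m) (hx : x ∈ m1.lattice) : a * x ∈ m1.lattice := by
  rw [mult_eq_of_lh h] at ha
  exact ha x hx

theorem order_le {m m1 : LatticeBasis n K} (h : LocallyHomothetic m m1)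
    (h1 : (1 : K) ∈ m1.lattice) {a : K} (ha : a ∈ multiplierOrder m) : a ∈ m1.lattice := by
  simpa using order_mul_mem h ha h1

theorem order_le_fPart {m m1 : LatticeBasis n K} (h : LocallyHomothetic m m1)
    (h1 : (1 : K) ∈ m1.lattice) : multiplierOrder m ≤ fPart m m1 :=
  fun a ha => ⟨order_le h h1 ha, 0, by simpa using ha⟩

theorem fPart_le {m m1 : LatticeBasis n K} : fPart m m1 ≤ m1.lattice.toAddSubgroup :=
  fun _ hx => hx.1

theorem order_toInt (m : LatticeBasis n K) {o : LatticeBasis n K} (ho : o.lattice = ordSub m) :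
    o.lattice.toAddSubgroup = multiplierOrder m := by
  ext x
  change x ∈ o.lattice ↔ _
  rw [ho]
  rfl

theorem exists_coprime_split (f : ℕ) (N : ℕ) (hN : N ≠ 0) :
    ∃ k a b : ℕ, N = a * b ∧ a ∣ f ^ k ∧ b.Coprime f := by
  induction N using Nat.strong_induction_on with
  | _ N ih =>
    by_cases hg : N.Coprime f
    · exact ⟨0, 1, N, by simp, one_dvd _, hg⟩
    · have hg1 : 1 < Nat.gcd N f := by
        have h0 : Nat.gcd N f ≠ 0 := Nat.gcd_ne_zero_left hN
        have : Nat.gcd N f ≠ 1 := hg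
        omega
      have hlt : N / Nat.gcd N f < N := Nat.div_lt_self (Nat.pos_of_ne_zero hN) hg1
      have hne : N / Nat.gcd N f ≠ 0 := by
        rw [Nat.div_ne_zero_iff]
        exact ⟨by omega, Nat.le_of_dvd (Nat.pos_of_ne_zero hN) (Nat.gcd_dvd_left N f)⟩
      obtain ⟨k, a, b, h1, h2, h3⟩ := ih _ hlt hne
      refine ⟨k + 1, Nat.gcd N f * a, b, ?_, ?_, h3⟩
      · rw [mul_assoc, ← h1, Nat.mul_div_cancel' (Nat.gcd_dvd_left N f)]
      · rw [pow_succ, mul_comm]
        exact mul_dvd_mul h2 (Nat.gcd_dvd_right N f)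

/-- Some integer prime to `fIdx m` maps the lattice to its `fIdx m`-part. -/
theorem exists_coprime (m m1 : LatticeBasis n K) :
    ∃ N : ℕ, N ≠ 0 ∧ N.Coprime (fIdx m) ∧ ∃ k : ℕ, ∀ x ∈ m1.lattice,
      (fIdx m : K) ^ k * ((N : K) * x) ∈ multiplierOrder m := by
  obtain ⟨o, ho⟩ := order_basis m
  obtain ⟨N, hN, h⟩ := exists_nat_mul_fg o (lattice_fg m1)
  obtain ⟨k, a, b, h1, ⟨c, h2⟩, h3⟩ := exists_coprime_split (fIdx m) N hN.ne'
  refine ⟨b, ?_, h3, k, fun x hx => ?_⟩
  · rintro rfl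
    simp at h1
    exact hN.ne' h1
  have h4 := h x hx
  rw [ho, mem_ordSub] at h4
  have e : (fIdx m : K) ^ k * ((b : K) * x) = ((c : ℤ) : K) * ((N : K) * x) := by
    have : (fIdx m : K) ^ k = (a : K) * c := by exact_mod_cast congrArg (Nat.cast (R := K)) h2
    rw [this, h1]; push_cast; ring
  rw [e]
  exact mul_mem_order (int_mem_order m _) h4

theorem exists_coprime_idl (m m1 : LatticeBasis n K) :
    ∃ N : ℕ, N ≠ 0 ∧ N.Coprime (fIdx m) ∧ (N : 𝓞 K) ∈ idl m m1 := by
  obtain ⟨N, h0, hN, k, h⟩ := exists_coprime m m1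
  exact ⟨N, h0, hN, fun x hx => ⟨k, by simpa using h x hx⟩⟩

theorem idl_ne_bot (m m1 : LatticeBasis n K) : idl m m1 ≠ ⊥ := by
  obtain ⟨N, h0, -, h⟩ := exists_coprime_idl m m1
  intro hb
  rw [hb, Ideal.mem_bot] at h
  exact h0 (by exact_mod_cast h)

/-- The fractional ideal generated by the lattice. -/
def frac (m1 : LatticeBasis n K) : FractionalIdeal (𝓞 K)⁰ K :=
  FractionalIdeal.spanFinset (𝓞 K) Finset.univ m1.vec

theorem mem_frac {m1 : LatticeBasis n K} {x : K} :
    x ∈ frac m1 ↔ x ∈ Submodule.span (𝓞 K) (Set.range m1.vec) := by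
  rw [← FractionalIdeal.mem_coe, frac, FractionalIdeal.spanFinset_coe]
  simp

theorem frac_ne_zero (m1 : LatticeBasis n K) : frac m1 ≠ 0 :=
  FractionalIdeal.spanFinset_ne_zero.mpr
    ⟨⟨0, n_pos m1⟩, Finset.mem_univ _, vec_ne_zero m1 _⟩

theorem lattice_le_frac {m1 : LatticeBasis n K} {x : K} (hx : x ∈ m1.lattice) : x ∈ frac m1 := by
  rw [mem_frac]
  exact Submodule.span_le_restrictScalars ℤ (𝓞 K) _ hx

theorem fIdx_mul_frac_aux {m m1 : LatticeBasis n K} (h : LocallyHomothetic m m1) {x : K}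
    (hx : x ∈ frac m1) : ∀ c : 𝓞 K, (fIdx m : K) * c * x ∈ m1.lattice := by
  rw [mem_frac] at hx
  induction hx using Submodule.span_induction with
  | mem x hx =>
    obtain ⟨i, rfl⟩ := hx
    intro c
    exact order_mul_mem h (fIdx_mul_mem m c.2) (vec_mem m1 i)
  | zero => intro c; simp
  | add x y _ _ hx hy => intro c; rw [mul_add]; exact m1.lattice.add_mem (hx c) (hy c)
  | smul a x _ hx =>
    intro c
    have e : (fIdx m : K) * c * (a • x) = (fIdx m : K) * ((c * a : 𝓞 K) : K) * x := by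
      rw [Algebra.smul_def]; push_cast; ring
    rw [e]
    exact hx (c * a)

theorem fIdx_mul_frac {m m1 : LatticeBasis n K} (h : LocallyHomothetic m m1) {x : K}
    (hx : x ∈ frac m1) : (fIdx m : K) * x ∈ m1.lattice := by
  simpa using fIdx_mul_frac_aux h hx 1

theorem smul_frac {m1 : LatticeBasis n K} {x : K} (hx : x ∈ frac m1) (c : 𝓞 K) :
    (c : K) * x ∈ frac m1 := by
  rw [mem_frac] at hx ⊢
  have := Submodule.smul_mem _ c hx
  rwa [Algebra.smul_def] at this

theorem add_frac {m1 : LatticeBasis n K} {x y : K} (hx : x ∈ frac m1) (hy : y ∈ frac m1) :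
    x + y ∈ frac m1 := by
  rw [mem_frac] at hx hy ⊢
  exact Submodule.add_mem _ hx hy

omit [NumberField K] in
theorem exists_int {x : K} (hx : IsIntegral ℤ x) : ∃ b : 𝓞 K, (b : K) = x := ⟨⟨x, hx⟩, rfl⟩

omit [NumberField K] in
theorem isIntegral_of_mem_one {x : K} (hx : x ∈ (1 : FractionalIdeal (𝓞 K)⁰ K)) :
    ∃ b : 𝓞 K, (b : K) = x := by
  obtain ⟨b, hb⟩ := (FractionalIdeal.mem_one_iff _).mp hx
  exact ⟨b, hb⟩

/-- Elements of the inverse of the fractional ideal of the lattice lie in `idl`. -/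
theorem inv_frac_le_idl {m m1 : LatticeBasis n K} (h1 : (1 : K) ∈ m1.lattice) {j : K}
    (hj : j ∈ (frac m1)⁻¹) : ∃ b ∈ idl m m1, (b : K) = j := by
  rw [FractionalIdeal.mem_inv_iff (frac_ne_zero m1)] at hj
  obtain ⟨b, hb⟩ := isIntegral_of_mem_one (hj 1 (lattice_le_frac h1))
  rw [mul_one] at hb
  refine ⟨b, fun x hx => ⟨1, ?_⟩, hb⟩
  obtain ⟨c, hc⟩ := isIntegral_of_mem_one (hj x (lattice_le_frac hx))
  rw [hb, ← hc, pow_one]
  exact fIdx_mul_mem m c.2

theorem one_mem_frac_mul_inv (m1 : LatticeBasis n K) : (1 : K) ∈ frac m1 * (frac m1)⁻¹ := by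
  rw [mul_inv_cancel₀ (frac_ne_zero m1)]
  exact FractionalIdeal.one_mem_one _

theorem mem_frac_of_idl {m m1 : LatticeBasis n K} (h1 : (1 : K) ∈ m1.lattice) {y : K}
    (hy : ∀ b ∈ idl m m1, IsIntegral ℤ ((b : K) * y)) : y ∈ frac m1 := by
  have h2 : (1 : K) * y ∈ frac m1 := by
    refine FractionalIdeal.mul_induction_on (C := fun r => r * y ∈ frac m1)
      (one_mem_frac_mul_inv m1) ?_ ?_
    · intro i hi j hj
      obtain ⟨b, hb, rfl⟩ := inv_frac_le_idl (m := m) h1 hj
      obtain ⟨w, hw⟩ := exists_int (hy b hb)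
      have := smul_frac hi w
      have e : i * (b : K) * y = (w : K) * i := by rw [hw]; ring
      rw [e]; exact this
    · intro x z hx hz
      rw [add_mul]
      exact add_frac hx hz
  simpa using h2

theorem pow_mem_frac_of_idl {m m1 : LatticeBasis n K} (h1 : (1 : K) ∈ m1.lattice) {y : K}
    (hy : ∀ b ∈ idl m m1, ∃ k : ℕ, IsIntegral ℤ ((fIdx m : K) ^ k * ((b : K) * y))) :
    ∃ k : ℕ, (fIdx m : K) ^ k * y ∈ frac m1 := by
  have h2 : ∃ k : ℕ, (fIdx m : K) ^ k * (1 * y) ∈ frac m1 := by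
    refine FractionalIdeal.mul_induction_on
      (C := fun r => ∃ k : ℕ, (fIdx m : K) ^ k * (r * y) ∈ frac m1)
      (one_mem_frac_mul_inv m1) ?_ ?_
    · intro i hi j hj
      obtain ⟨b, hb, rfl⟩ := inv_frac_le_idl (m := m) h1 hj
      obtain ⟨k, hk⟩ := hy b hb
      obtain ⟨w, hw⟩ := exists_int hk
      have := smul_frac hi w
      refine ⟨k, ?_⟩
      have e : (fIdx m : K) ^ k * (i * (b : K) * y) = (w : K) * i := by rw [hw]; ring
      rw [e]; exact this
    · rintro x z ⟨k, hx⟩ ⟨l, hz⟩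
      refine ⟨k + l, ?_⟩
      have e : (fIdx m : K) ^ (k + l) * ((x + z) * y) =
          ((fIdx m ^ l : 𝓞 K) : K) * ((fIdx m : K) ^ k * (x * y)) +
          ((fIdx m ^ k : 𝓞 K) : K) * ((fIdx m : K) ^ l * (z * y)) := by push_cast; ring
      rw [e]
      exact add_frac (smul_frac hx _) (smul_frac hz _)
  simpa using h2

/-- Half of the injectivity of the splitting. -/
theorem lattice_le_of {m m1 m2 : LatticeBasis n K} (h2 : LocallyHomothetic m m2)
    (h21 : (1 : K) ∈ m2.lattice) (hP : fPart m m1 ≤ fPart m m2) (hI : idl m m2 ≤ idl m m1) :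
    m1.lattice ≤ m2.lattice := by
  intro x hx
  apply mem_of_forall_prime
  intro ℓ hℓ
  by_cases hf : ℓ ∣ fIdx m
  · obtain ⟨N, -, hN, k, h⟩ := exists_coprime m m1
    refine ⟨N, fun hd => ?_, ?_⟩
    · exact hℓ.one_lt.ne' (Nat.dvd_one.mp (hN ▸ Nat.dvd_gcd hd hf))
    · refine (hP (x := (N : K) * x) ⟨?_, k, h x hx⟩).1
      have := m1.lattice.smul_mem (N : ℤ) hx
      simpa using this
  · obtain ⟨k, hk⟩ := pow_mem_frac_of_idl (m := m) h21 (y := x) (fun b hb => by
      obtain ⟨k, hk⟩ := hI hb x hx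
      exact ⟨k, order_isIntegral hk⟩)
    refine ⟨fIdx m ^ (k + 1), fun hd => hf (hℓ.dvd_of_dvd_pow hd), ?_⟩
    have := fIdx_mul_frac h2 hk
    have e : ((fIdx m ^ (k + 1) : ℕ) : K) * x = (fIdx m : K) * ((fIdx m : K) ^ k * x) := by
      push_cast; ring
    rw [e]; exact this

/-- (S1): the pair (`fPart`, `idl`) determines the lattice. -/
theorem lattice_eq_of {m m1 m2 : LatticeBasis n K} (h1 : LocallyHomothetic m m1)
    (h2 : LocallyHomothetic m m2) (h11 : (1 : K) ∈ m1.lattice) (h21 : (1 : K) ∈ m2.lattice)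
    (hP : fPart m m1 = fPart m m2) (hI : idl m m1 = idl m m2) : m1.lattice = m2.lattice :=
  le_antisymm (lattice_le_of h2 h21 hP.le hI.ge) (lattice_le_of h1 h11 hP.ge hI.le)

/-! ### The index inequality -/

theorem relIndex_ne_zero (m m' : LatticeBasis n K) (h : m'.lattice ≤ m.lattice) :
    m'.lattice.toAddSubgroup.relIndex m.lattice.toAddSubgroup ≠ 0 := by
  have h1 := relIndex_eq m m' h
  intro h0
  rw [h0] at h1
  have h2 : (qBasis m).det m'.vec ≠ 0 := by
    have := (qBasis m).isUnit_det (qBasis m')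
    rw [coe_qBasis] at this
    exact this.ne_zero
  have := abs_ne_zero.mpr h2
  rw [← h1] at this
  simp at this

theorem order_relIndex_ne_zero {m m1 : LatticeBasis n K} (h : LocallyHomothetic m m1)
    (h1 : (1 : K) ∈ m1.lattice) :
    (multiplierOrder m).relIndex m1.lattice.toAddSubgroup ≠ 0 := by
  obtain ⟨o, ho⟩ := order_basis m
  have := relIndex_ne_zero m1 o (by rw [ho]; exact fun x hx => order_le h h1 hx)
  rwa [order_toInt m ho] at this

/-- `N(idl) ≤ [m1 : fPart]`. -/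
theorem absNorm_idl_le {m m1 : LatticeBasis n K} (h : LocallyHomothetic m m1)
    (h1 : (1 : K) ∈ m1.lattice) :
    Ideal.absNorm (idl m m1) ≤ (fPart m m1).relIndex m1.lattice.toAddSubgroup := by
  obtain ⟨N, hN0, hNf, hN⟩ := exists_coprime_idl m m1
  obtain ⟨c, hc⟩ := Ideal.dvd_span_singleton.mpr hN
  have ha0 : idl m m1 ≠ 0 := idl_ne_bot m m1
  have hN0' : (N : 𝓞 K) ≠ 0 := by exact_mod_cast hN0
  have hNK : (N : K) ≠ 0 := by exact_mod_cast hN0
  have hc0 : c ≠ 0 := by
    rintro rfl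
    rw [mul_zero] at hc
    exact hN0' (Ideal.span_singleton_eq_bot.mp hc)
  let φ : 𝓞 K →+ K := (AddMonoidHom.mulLeft ((fIdx m : K) / N)).comp
    (algebraMap (𝓞 K) K).toAddMonoidHom
  have hφ : ∀ z : 𝓞 K, φ z = (fIdx m : K) * ((z : K) / N) := by
    intro z
    change (fIdx m : K) / N * (z : K) = _
    ring
  have hmem : ∀ z ∈ c, (z : K) / N ∈ frac m1 := by
    intro z hz
    refine mem_frac_of_idl (m := m) h1 fun b hb => ?_
    have h3 : b * z ∈ Ideal.span {(N : 𝓞 K)} := by
      rw [hc]; exact Ideal.mul_mem_mul hb hz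
    obtain ⟨w, hw⟩ := Ideal.mem_span_singleton.mp h3
    have h4 : (b : K) * ((z : K) / N) = (w : K) := by
      have h5 := congrArg (fun t : 𝓞 K => (t : K)) hw
      simp only [map_mul, map_natCast] at h5
      field_simp
      linear_combination h5
    rw [h4]; exact w.2
  have hmap : c.toAddSubgroup.map φ ≤ m1.lattice.toAddSubgroup := by
    rintro _ ⟨z, hz, rfl⟩
    rw [hφ]
    exact fIdx_mul_frac h (hmem z hz)
  have hinf : ((fPart m m1).comap φ) ⊓ c.toAddSubgroup =
      (Ideal.span {(N : 𝓞 K)}).toAddSubgroup := by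
    ext z
    constructor
    · rintro ⟨hz1, hz2⟩
      obtain ⟨-, k, hk⟩ := hz1
      rw [hφ] at hk
      obtain ⟨w, hw⟩ := exists_int (order_isIntegral hk)
      obtain ⟨u, v, huv⟩ : IsCoprime ((fIdx m ^ (k + 1) : ℕ) : ℤ) (N : ℤ) :=
        Nat.isCoprime_iff_coprime.mpr (Nat.Coprime.pow_left _ hNf.symm)
      change z ∈ Ideal.span {(N : 𝓞 K)}
      rw [Ideal.mem_span_singleton]
      refine ⟨(u : 𝓞 K) * w + (v : 𝓞 K) * z, ?_⟩
      apply RingOfIntegers.coe_injective
      have huv' : (u : K) * (fIdx m : K) ^ (k + 1) + (v : K) * N = 1 := by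
        exact_mod_cast congrArg (Int.cast (R := K)) huv
      simp only [map_mul, map_add, map_natCast, map_intCast]
      have hw' : (algebraMap (𝓞 K) K) w = (fIdx m : K) ^ k * ((fIdx m : K) * ((z : K) / N)) := hw
      rw [hw']
      have e2 : (N : K) * ((u : K) * ((fIdx m : K) ^ k * ((fIdx m : K) * ((z : K) / N))) +
          (v : K) * (z : K)) = (z : K) * ((u : K) * (fIdx m : K) ^ (k + 1) + (v : K) * N) := by
        field_simp
        ring
      rw [e2, huv', mul_one]
    · intro hz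
      have hz' : z ∈ Ideal.span {(N : 𝓞 K)} := hz
      obtain ⟨w, hw⟩ := Ideal.mem_span_singleton.mp hz'
      constructor
      · change φ z ∈ fPart m m1
        have e : φ z = (fIdx m : K) * w := by
          rw [hφ, hw]
          simp only [map_mul, map_natCast]
          field_simp
        rw [e]
        exact order_le_fPart h h1 (fIdx_mul_mem m w.2)
      · rw [hc] at hz'
        have h7 : z ∈ c := (Ideal.mul_le_right : idl m m1 * c ≤ c) hz'
        exact h7
  have h2 : ((fPart m m1).comap φ).relIndex c.toAddSubgroup =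
      (fPart m m1).relIndex (c.toAddSubgroup.map φ) := AddSubgroup.relIndex_comap _ _ _
  have hne : (fPart m m1).relIndex m1.lattice.toAddSubgroup ≠ 0 := by
    intro h0
    have := AddSubgroup.relIndex_mul_relIndex _ _ _ (order_le_fPart h h1) (fPart_le (m := m) (m1 := m1))
    rw [h0, mul_zero] at this
    exact order_relIndex_ne_zero h h1 this.symm
  have h3 : (fPart m m1).relIndex (c.toAddSubgroup.map φ) ≤
      (fPart m m1).relIndex m1.lattice.toAddSubgroup :=
    AddSubgroup.relIndex_le_of_le_right hmap hne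
  have h4 : (Ideal.span {(N : 𝓞 K)}).toAddSubgroup.relIndex c.toAddSubgroup =
      Ideal.absNorm (idl m m1) := by
    have h5 : (Ideal.span {(N : 𝓞 K)}).toAddSubgroup ≤ c.toAddSubgroup := by
      rw [← hinf]; exact inf_le_right
    have h6 := AddSubgroup.relIndex_mul_index h5
    rw [← Ideal.absNorm_eq_index, ← Ideal.absNorm_eq_index, hc, map_mul] at h6
    rw [← hc] at h6
    refine Nat.eq_of_mul_eq_mul_right (Nat.pos_of_ne_zero ?_) h6
    exact fun h0 => hc0 (Ideal.absNorm_eq_zero_iff.mp h0)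
  rw [← h4, ← hinf, AddSubgroup.inf_relIndex_right, h2]
  exact h3

/-- (S2) -/
theorem index_le {m m1 : LatticeBasis n K} (h : LocallyHomothetic m m1)
    (h1 : (1 : K) ∈ m1.lattice) (σ : Fin n ≃ (K →+* ℝ)) :
    (Ideal.absNorm (idl m m1) : ℝ) * ((multiplierOrder m).relIndex (fPart m m1) : ℝ) *
      |(embMatrix m1 σ).det| ≤ Real.sqrt (latticeDisc m) := by
  obtain ⟨o, ho⟩ := order_basis m
  have h2 := abs_det_embMatrix m1 o σ (by rw [ho]; exact fun x hx => order_le h h1 hx)
  rw [order_toInt m ho] at h2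
  rw [← disc_of_order m o ho σ, Real.sqrt_sq_eq_abs, h2,
    ← AddSubgroup.relIndex_mul_relIndex _ _ _ (order_le_fPart h h1) (fPart_le (m := m) (m1 := m1))]
  push_cast
  have h3 : (Ideal.absNorm (idl m m1) : ℝ) ≤
      ((fPart m m1).relIndex m1.lattice.toAddSubgroup : ℝ) := by
    exact_mod_cast absNorm_idl_le h h1
  refine mul_le_mul_of_nonneg_right ?_ (abs_nonneg _)
  rw [mul_comm]
  exact mul_le_mul_of_nonneg_left h3 (Nat.cast_nonneg _)

end

end Crest.Agent.R014.N2_675
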