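import Crest.Agent.R014.N2Br_675
import Crest.Agent.R014.Loc8_524

/-!
Row 14, part N2 (helper675): Theorem A from the residue bound (N1) only.
-/

set_option autoImplicit false

open Crest.NumberTheoryR.Packets

namespace Crest.Agent.R014.N2_675

universe u

theorem badSum {n : ℕ} (hn : 2 ≤ n) : BadSum.{u} n := by
  refine ⟨Loc8_524.dl n, Loc8_524.et n, Loc8_524.Cbad n, Loc8_524.dl_pos hn, Loc8_524.et_pos hn,
    lt_of_lt_of_le (by norm_num) (Loc8_524.Cbad_ge hn), ?_⟩
  intro K _ _ _ hprim m σ B hB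
  exact Loc8_524.bad_sum_le hprim hn m σ B hB

/-- **Theorem A** from the lower bound of the residue. -/
theorem thmA' {d : ℕ} (hd : 1 ≤ d) (hN1 : Vol6_834.ResLower.{u} (d + 1)) :
    Iface_792.ThmA.{u} d := thmA hN1 (badSum (by omega))

end Crest.Agent.R014.N2_675
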