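import Crest.Agent.R014.N2ThmA_675
import Crest.Agent.R014.Loc5_524

/-!
Row 14, part N2 (helper675): Theorem A from the residue bound (N1) and the bad sum.
-/

set_option autoImplicit false

open Crest.NumberTheoryR.Packets

namespace Crest.Agent.R014.N2_675

universe u

theorem bridge (n : ℕ) : Bridge.{u} n := fun _ _ _ _ _ h h1 => Loc5_524.isTy_fPart h h1

theorem thmA {d : ℕ} (hN1 : Vol6_834.ResLower.{u} (d + 1)) (hbad : BadSum.{u} (d + 1)) :
    Iface_792.ThmA.{u} d := thmA_of hN1 hbad (bridge _)

end Crest.Agent.R014.N2_675
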