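import Crest.Agent.R014.N2Dual_675

/-!
Row 14, part N2 (helper675): the counts of lattices and of pairs (lattice, dual vector).
-/

set_option autoImplicit false

open Crest.NumberTheoryR.Packets Module NumberField
open scoped nonZeroDivisors

namespace Crest.Agent.R014.N2_675

open Crest.Agent.R014.Sl_652 Crest.Agent.R014.DivB_684
open Crest.Agent.R014.Pk2_349 (lh_refl lh_symm lh_trans mem_of_forall_prime mult_eq_of_lh)

noncomputable section

universe u

variable {K : Type u} [Field K] [NumberField K] {n : ℕ}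

/-- The part at the primes dividing `fIdx m` of a submodule. -/
def fP (m : LatticeBasis n K) (M : Submodule ℤ K) : AddSubgroup K where
  carrier := {x | x ∈ M ∧ ∃ k : ℕ, (fIdx m : K) ^ k * x ∈ multiplierOrder m}
  zero_mem' := ⟨M.zero_mem, 0, by simp⟩
  add_mem' := by
    rintro x y ⟨hx, k, hk⟩ ⟨hy, l, hl⟩
    refine ⟨M.add_mem hx hy, k + l, ?_⟩
    have e : (fIdx m : K) ^ (k + l) * (x + y) =
        ((fIdx m ^ l : ℕ) : ℤ) * ((fIdx m : K) ^ k * x) +
          ((fIdx m ^ k : ℕ) : ℤ) * ((fIdx m : K) ^ l * y) := by push_cast; ring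
    rw [e]
    exact (multiplierOrder m).add_mem (mul_mem_order (int_mem_order m _) hk)
      (mul_mem_order (int_mem_order m _) hl)
  neg_mem' := by
    rintro x ⟨hx, k, hk⟩
    refine ⟨M.neg_mem hx, k, ?_⟩
    rw [mul_neg]
    exact (multiplierOrder m).neg_mem hk

theorem fPart_eq (m m1 : LatticeBasis n K) : fPart m m1 = fP m m1.lattice := by
  ext x; rfl

theorem idl_congr {m m1 m2 : LatticeBasis n K} (h : m1.lattice = m2.lattice) :
    idl m m1 = idl m m2 := by
  ext b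
  rw [mem_idl, mem_idl, h]

/-- Submodules which are lattices of the class of `m` containing `1`. -/
def InCls (m : LatticeBasis n K) (M : Submodule ℤ K) : Prop :=
  ∃ m1 : LatticeBasis n K, LocallyHomothetic m m1 ∧ m1.lattice = M ∧ (1 : K) ∈ M

/-- A lattice basis of a submodule of the class. -/
def rep (m : LatticeBasis n K) (M : Submodule ℤ K) : LatticeBasis n K :=
  open Classical in if h : InCls m M then h.choose else m

theorem rep_spec {m : LatticeBasis n K} {M : Submodule ℤ K} (h : InCls m M) :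
    LocallyHomothetic m (rep m M) ∧ (rep m M).lattice = M ∧ (1 : K) ∈ (rep m M).lattice := by
  have h1 : rep m M = h.choose := by rw [rep, dif_pos h]
  have h2 := h.choose_spec
  rw [h1]
  exact ⟨h2.1, h2.2.1, by rw [h2.2.1]; exact h2.2.2⟩

/-- The ideal of a submodule of the class. -/
def idS (m : LatticeBasis n K) (M : Submodule ℤ K) : Ideal (𝓞 K) := idl m (rep m M)

theorem idS_eq {m m1 : LatticeBasis n K} (h : LocallyHomothetic m m1)
    (h1 : (1 : K) ∈ m1.lattice) : idS m m1.lattice = idl m m1 :=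
  idl_congr (rep_spec ⟨m1, h, rfl, h1⟩).2.1

theorem submodule_eq {m : LatticeBasis n K} {M M' : Submodule ℤ K} (h : InCls m M)
    (h' : InCls m M') (hP : fP m M = fP m M') (hI : idS m M = idS m M') : M = M' := by
  obtain ⟨m1, a1, rfl, b1⟩ := h
  obtain ⟨m2, a2, rfl, b2⟩ := h'
  rw [idS_eq a1 b1, idS_eq a2 b2] at hI
  exact lattice_eq_of a1 a2 b1 b2 hP hI

/-- The index `[P : O]` as a real number. -/
def ix (m : LatticeBasis n K) (P : AddSubgroup K) : ℝ := ((multiplierOrder m).relIndex P : ℝ)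

theorem ix_pos {m : LatticeBasis n K} {M : Submodule ℤ K} (h : InCls m M) :
    1 ≤ ix m (fP m M) := by
  obtain ⟨m1, a1, rfl, b1⟩ := h
  have := fPart_relIndex_ne_zero a1 b1
  rw [fPart_eq] at this
  rw [ix]
  exact_mod_cast Nat.one_le_iff_ne_zero.mpr this

/-- COUNT OF LATTICES: for a finite set of lattices of the class containing `1`, of covolume at
least `√D / X`, the number is at most `C X^(1+ε) ∑ 1/[P:O]`, the sum over the occurring parts. -/
theorem card_lattices_le {ε : ℝ} (hε : 0 < ε) (m : LatticeBasis n K) (σ : Fin n ≃ (K →+* ℝ))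
    {X : ℝ} (hX : 0 ≤ X) (MM : Finset (Submodule ℤ K))
    (hMM : ∀ M ∈ MM, ∃ m1 : LatticeBasis n K, LocallyHomothetic m m1 ∧ m1.lattice = M ∧
      (1 : K) ∈ M ∧ Real.sqrt (latticeDisc m) ≤ X * |(embMatrix m1 σ).det|)
    (B : Finset (AddSubgroup K)) (hB : ∀ M ∈ MM, fP m M ∈ B)
    (hB1 : ∀ P ∈ B, 1 ≤ ix m P) :
    (MM.card : ℝ) ≤ CDiv n (ε / n) * X ^ (1 + ε) * ∑ P ∈ B, (ix m P)⁻¹ := by
  classical
  have hn : finrank ℚ K = n := finrank_eq m
  have hcls : ∀ M ∈ MM, InCls m M := fun M hM => by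
    obtain ⟨m1, a, b, c, -⟩ := hMM M hM
    exact ⟨m1, a, b, c⟩
  rw [Finset.card_eq_sum_card_fiberwise (f := fP m) (t := B) hB]
  push_cast
  rw [Finset.mul_sum]
  refine Finset.sum_le_sum fun P hP => ?_
  have hP1 := hB1 P hP
  have hP0 : 0 < ix m P := by linarith
  -- the fibre injects into the ideals of norm at most `X / [P:O]`
  have h1 : ((MM.filter fun M => fP m M = P).card : ℝ) ≤
      ({a : Ideal (𝓞 K) | a ≠ ⊥ ∧ (Ideal.absNorm a : ℝ) ≤ X / ix m P}.ncard : ℝ) := by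
    rw [← Set.ncard_coe_finset]
    have := Set.ncard_le_ncard_of_injOn (s := (↑(MM.filter fun M => fP m M = P) :
      Set (Submodule ℤ K))) (t := {a : Ideal (𝓞 K) | a ≠ ⊥ ∧
        (Ideal.absNorm a : ℝ) ≤ X / ix m P}) (idS m) ?_ ?_ (finite_norm_le _)
    · exact_mod_cast this
    · intro M hM
      rw [Finset.mem_coe, Finset.mem_filter] at hM
      obtain ⟨hM, hMP⟩ := hM
      obtain ⟨m1, a, rfl, c, d⟩ := hMM M hM
      rw [Set.mem_ofPred_eq, idS_eq a c]
      refine ⟨idl_ne_bot m m1, ?_⟩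
      have h2 := index_le a c σ
      have h3 : ((multiplierOrder m).relIndex (fPart m m1) : ℝ) = ix m P := by
        rw [← hMP]; rfl
      rw [h3] at h2
      have h4 : 0 < |(embMatrix m1 σ).det| := abs_pos.mpr (det_embMatrix_ne_zero m1 σ)
      rw [le_div_iff₀ hP0]
      exact le_of_mul_le_mul_right (h2.trans d) h4
    · intro M hM M' hM' hMM'
      rw [Finset.mem_coe, Finset.mem_filter] at hM hM'
      exact submodule_eq (hcls M hM.1) (hcls M' hM'.1) (hM.2.trans hM'.2.symm) hMM'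
  refine h1.trans ((card_norm_le_X hε (by positivity)).trans ?_)
  rw [hn, mul_assoc]
  refine mul_le_mul_of_nonneg_left ?_ (le_trans zero_le_one (one_le_CDiv n (by
    have : 0 < n := n_pos m
    positivity)))
  rw [Real.div_rpow hX hP0.le, div_eq_mul_inv]
  refine mul_le_mul_of_nonneg_left ?_ (by positivity)
  refine inv_anti₀ hP0 ?_
  calc ix m P = (ix m P) ^ (1 : ℝ) := (Real.rpow_one _).symm
    _ ≤ _ := Real.rpow_le_rpow_of_exponent_le hP1 (by linarith)

/-- The slab conditions on a dual vector. -/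
def InSlab (M : Submodule ℤ K) (σ : Fin n ≃ (K →+* ℝ)) (S : Finset (Fin n)) (t s c r : ℝ)
    (β : K) : Prop :=
  β ∈ TrDual M σ ∧ β ≠ 0 ∧ ∑ i, σ i β = t ∧ (∀ i, |σ i β| ≤ c) ∧ |∑ i ∈ S, σ i β - s| ≤ r

/-- Primitivity of `1`. -/
def Prim1 (M : Submodule ℤ K) : Prop :=
  ∀ (k : ℤ) (y : K), y ∈ M → (k : K) * y = 1 → IsUnit k

/-- COUNT OF PAIRS: for a finite set of pairs (lattice, dual vector in a slab), all lattices
containing `1` primitively with a part which is not bad. -/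
theorem card_pairs_le {C : ℝ} (hC0 : 0 ≤ C) (hC : SlabCount n C) {ε : ℝ} (hε : 0 < ε)
    (m : LatticeBasis n K) (σ : Fin n ≃ (K →+* ℝ)) (S : Finset (Fin n)) (hS : S.Nonempty)
    (hS' : S ≠ Finset.univ) (t s c r T : ℝ) (hc : 1 ≤ c) (hT : 2 ≤ T) (hr : 2 / T ≤ r)
    (Q : Finset (Submodule ℤ K × K))
    (hQ : ∀ q ∈ Q, InCls m q.1 ∧ Prim1 q.1 ∧ ¬ Bad (fP m q.1) σ T ∧
      InSlab q.1 σ S t s c r q.2)
    (B : Finset (AddSubgroup K)) (hB : ∀ q ∈ Q, fP m q.1 ∈ B)
    (hB1 : ∀ P ∈ B, 1 ≤ ix m P) :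
    (Q.card : ℝ) ≤ (CDiv n ε * ((latticeDisc m * c) ^ n) ^ ε) *
      (C * c ^ (n - 1) * r * Real.sqrt (latticeDisc m)) * ∑ P ∈ B, (ix m P)⁻¹ := by
  classical
  have hn : finrank ℚ K = n := finrank_eq m
  have hn0 : 0 < n := n_pos m
  have hD := one_le_latticeDisc m σ
  have hCD := one_le_CDiv n hε
  have hr0 : 0 ≤ r := le_trans (by positivity) hr
  set A1 : ℝ := CDiv n ε * ((latticeDisc m * c) ^ n) ^ ε with hA1
  have hA10 : 0 ≤ A1 := by positivity
  have hmaps : Set.MapsTo (fun q : Submodule ℤ K × K => fP m q.1) (↑Q) (↑B) := fun q hq => hB q hq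
  rw [Finset.card_eq_sum_card_fiberwise hmaps]
  push_cast
  rw [Finset.mul_sum]
  refine Finset.sum_le_sum fun P hP => ?_
  have hP1 := hB1 P hP
  have hP0 : 0 < ix m P := by linarith
  set F := Q.filter fun q => fP m q.1 = P with hF
  -- fibres over the dual vectors
  have hfib : ∀ β ∈ F.image Prod.snd, ((F.filter fun q => q.2 = β).card : ℝ) ≤ A1 := by
    intro β hβ
    obtain ⟨q0, hq0, rfl⟩ := Finset.mem_image.mp hβ
    rw [hF, Finset.mem_filter] at hq0
    obtain ⟨hc0, -, -, hsl⟩ := hQ q0 hq0.1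
    -- the element γ
    obtain ⟨m0, a0, e0, o0⟩ := hc0
    have hβ0 : q0.2 ≠ 0 := hsl.2.1
    have hβm : q0.2 ∈ TrDual m0.lattice σ := by rw [e0]; exact hsl.1
    obtain ⟨γ, -, hγ⟩ := dual_mem_idl a0 (by rw [e0]; exact o0) σ hβm
    have hγ0 : γ ≠ 0 := by
      rintro rfl
      have h1 : (NumberField.discr K : K) * ((fIdx m : K) * q0.2) = 0 := by
        rw [← hγ]; simp
      have h2 : (NumberField.discr K : K) ≠ 0 := by
        exact_mod_cast NumberField.discr_ne_zero K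
      have h3 : (fIdx m : K) ≠ 0 := by exact_mod_cast (fIdx_pos m).ne'
      exact (mul_ne_zero h2 (mul_ne_zero h3 hβ0)) h1
    have hne : Ideal.span {γ} ≠ ⊥ := by rwa [Ne, Ideal.span_singleton_eq_bot]
    have h1 : ((F.filter fun q => q.2 = q0.2).card : ℝ) ≤
        ({a : Ideal (𝓞 K) | a ∣ Ideal.span {γ}}.ncard : ℝ) := by
      rw [← Set.ncard_coe_finset]
      have := Set.ncard_le_ncard_of_injOn (s := (↑(F.filter fun q => q.2 = q0.2) :
        Set (Submodule ℤ K × K))) (t := {a : Ideal (𝓞 K) | a ∣ Ideal.span {γ}})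
        (fun q => idS m q.1) ?_ ?_ (ncard_dvd_le hne).1
      · exact_mod_cast this
      · intro q hq
        rw [Finset.mem_coe, Finset.mem_filter, hF, Finset.mem_filter] at hq
        obtain ⟨⟨hq, -⟩, hq2⟩ := hq
        obtain ⟨⟨m1, a1, e1, o1⟩, -, -, hsl1⟩ := hQ q hq
        have o1' : (1 : K) ∈ m1.lattice := by rw [e1]; exact o1
        have hβ1 : q0.2 ∈ TrDual m1.lattice σ := by rw [e1, ← hq2]; exact hsl1.1
        obtain ⟨γ', hγ'1, hγ'⟩ := dual_mem_idl a1 o1' σ hβ1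
        have hγγ : γ' = γ := RingOfIntegers.coe_injective (hγ'.trans hγ.symm)
        rw [Set.mem_ofPred_eq, ← e1, idS_eq a1 o1', Ideal.dvd_span_singleton]
        rw [← hγγ]; exact hγ'1
      · intro q hq q' hq' hqq
        rw [Finset.mem_coe, Finset.mem_filter, hF, Finset.mem_filter] at hq hq'
        have := submodule_eq (hQ q hq.1.1).1 (hQ q' hq'.1.1).1 (hq.1.2.trans hq'.1.2.symm) hqq
        exact Prod.ext this (hq.2.trans hq'.2.symm)
    refine h1.trans ((card_dvd_le hε hne).trans ?_)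
    rw [hn, hA1]
    refine mul_le_mul_of_nonneg_left ?_ (by linarith)
    exact Real.rpow_le_rpow (Nat.cast_nonneg _) (absNorm_span_le σ hsl.2.2.2.1 hγ) hε.le
  have h2 : (F.card : ℝ) ≤ A1 * ((F.image Prod.snd).card : ℝ) := by
    rw [Finset.card_eq_sum_card_image Prod.snd F]
    push_cast
    calc ∑ β ∈ F.image Prod.snd, ((F.filter fun q => q.2 = β).card : ℝ)
        ≤ ∑ _β ∈ F.image Prod.snd, A1 := Finset.sum_le_sum hfib
      _ = _ := by rw [Finset.sum_const, nsmul_eq_mul, mul_comm]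
  -- the dual vectors
  have h3 : ((F.image Prod.snd).card : ℝ) ≤
      C * c ^ (n - 1) * r * Real.sqrt (latticeDisc m) * (ix m P)⁻¹ := by
    rcases F.eq_empty_or_nonempty with hFe | ⟨q0, hq0⟩
    · rw [hFe]; simp only [Finset.image_empty, Finset.card_empty, Nat.cast_zero]; positivity
    rw [hF, Finset.mem_filter] at hq0
    obtain ⟨⟨m0, a0, e0, o0⟩, hpr, hbad, -⟩ := hQ q0 hq0.1
    have o0' : (1 : K) ∈ m0.lattice := by rw [e0]; exact o0
    have hP' : fPart m m0 = P := by rw [fPart_eq, e0]; exact hq0.2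
    obtain ⟨p, hp⟩ := fPart_basis a0 o0'
    have hdet := fPart_det a0 o0' hp σ
    have hsep : ∀ y ∈ p.lattice, (∀ k : ℤ, y ≠ k) → ∃ i j, T / 2 ≤ |σ i y - σ j y| := by
      intro y hy hyZ
      rw [hp] at hy
      refine separation a0 o0' σ (by rw [e0]; exact hpr) (by linarith) ?_ hy hyZ
      rw [fPart_eq, e0]; exact hbad
    have h1p : (1 : K) ∈ p.lattice := by
      rw [hp]; exact order_le_fPart a0 o0' (one_mem_order m)
    obtain ⟨hfin, hcard⟩ := nf_slab_count hC p σ h1p (R := T / 2) (by linarith) hsep S hS hS'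
      t s c r hc (by rw [one_div_div]; exact hr)
    have hsub : (↑(F.image Prod.snd) : Set K) ⊆
        {x : K | x ∈ TrDual p.lattice σ ∧ ∑ i, σ i x = t ∧ (∀ i, |σ i x| ≤ c) ∧
          |∑ i ∈ S, σ i x - s| ≤ r} := by
      intro β hβ
      rw [Finset.mem_coe, Finset.mem_image] at hβ
      obtain ⟨q, hq, rfl⟩ := hβ
      rw [hF, Finset.mem_filter] at hq
      obtain ⟨-, -, -, hsl⟩ := hQ q hq.1
      refine ⟨fun y hy => hsl.1 y ?_, hsl.2.2⟩
      rw [hp, hP', ← hq.2] at hy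
      exact hy.1
    have h4 : ((F.image Prod.snd).card : ℝ) ≤ ({x : K | x ∈ TrDual p.lattice σ ∧
        ∑ i, σ i x = t ∧ (∀ i, |σ i x| ≤ c) ∧ |∑ i ∈ S, σ i x - s| ≤ r}.ncard : ℝ) := by
      rw [← Set.ncard_coe_finset]
      exact_mod_cast Set.ncard_le_ncard hsub hfin
    refine h4.trans (hcard.trans (le_of_eq ?_))
    have h5 : |(embMatrix p σ).det| = Real.sqrt (latticeDisc m) * (ix m P)⁻¹ := by
      rw [← hdet, hP', ix]
      have : ((multiplierOrder m).relIndex P : ℝ) ≠ 0 := hP0.ne'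
      field_simp
    rw [h5]; ring
  calc (F.card : ℝ) ≤ A1 * ((F.image Prod.snd).card : ℝ) := h2
    _ ≤ A1 * (C * c ^ (n - 1) * r * Real.sqrt (latticeDisc m) * (ix m P)⁻¹) :=
        mul_le_mul_of_nonneg_left h3 hA10
    _ = _ := by ring

end

end Crest.Agent.R014.N2_675
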