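import Crest.Agent.R014.N2Alg_675

/-!
Row 14, part N2 (helper675): the trace dual of a lattice and the ideal `idl`; the lattice basis of
`fPart`; separation of conjugates.
-/

set_option autoImplicit false

open Crest.NumberTheoryR.Packets Module NumberField
open scoped nonZeroDivisors

namespace Crest.Agent.R014.N2_675

open Crest.Agent.R014.Sl_652
open Crest.Agent.R014.Pk2_349 (lh_refl lh_symm lh_trans mem_of_forall_prime mult_eq_of_lh)

noncomputable section

variable {K : Type*} [Field K] [NumberField K] {n : ℕ}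

/-- The discriminant kills the codifferent. -/
theorem discr_mul_isIntegral {z : K}
    (hz : ∀ a : 𝓞 K, ∃ k : ℤ, Algebra.trace ℚ K (z * a) = k) :
    ∃ b : 𝓞 K, (b : K) = (NumberField.discr K : K) * z := by
  have h1 : ((NumberField.discr K : ℤ) : 𝓞 K) ∈ differentIdeal ℤ (𝓞 K) :=
    NumberField.discr_mem_differentIdeal K (𝓞 K)
  have h2 : ((NumberField.discr K : ℤ) : K) ∈
      ((differentIdeal ℤ (𝓞 K) : Ideal (𝓞 K)) : FractionalIdeal (𝓞 K)⁰ K) := by
    rw [FractionalIdeal.mem_coeIdeal]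
    exact ⟨_, h1, by simp⟩
  rw [coeIdeal_differentIdeal ℤ ℚ] at h2
  have h10 : (1 : FractionalIdeal (𝓞 K)⁰ K) ≠ 0 := one_ne_zero
  have h3 : z ∈ FractionalIdeal.dual ℤ ℚ (1 : FractionalIdeal (𝓞 K)⁰ K) := by
    rw [FractionalIdeal.mem_dual h10]
    intro a ha
    obtain ⟨b, rfl⟩ := isIntegral_of_mem_one ha
    obtain ⟨k, hk⟩ := hz b
    exact ⟨k, by rw [Algebra.traceForm_apply, hk]; simp⟩
  have h4 := (FractionalIdeal.mem_inv_iff
    (FractionalIdeal.dual_ne_zero ℤ ℚ h10)).mp h2 z h3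
  exact isIntegral_of_mem_one h4

/-- (S3): the trace dual of the lattice and the ideal `idl`. -/
theorem dual_mem_idl {m m1 : LatticeBasis n K} (h : LocallyHomothetic m m1)
    (h1 : (1 : K) ∈ m1.lattice) (σ : Fin n ≃ (K →+* ℝ)) {β : K}
    (hβ : β ∈ TrDual m1.lattice σ) :
    ∃ γ ∈ idl m m1, (γ : K) = (NumberField.discr K : K) * ((fIdx m : K) * β) := by
  have key : ∀ x ∈ m1.lattice, ∃ b : 𝓞 K, (b : K) =
      (NumberField.discr K : K) * ((fIdx m : K) * β * x) := by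
    intro x hx
    apply discr_mul_isIntegral
    intro a
    rw [mem_trDual_iff_trace (finrank_eq m)] at hβ
    obtain ⟨k, hk⟩ := hβ (((fIdx m : K) * a) * x) (order_mul_mem h (fIdx_mul_mem m a.2) hx)
    refine ⟨k, ?_⟩
    rw [← hk]
    congr 1
    ring
  obtain ⟨γ, hγ⟩ := key 1 h1
  rw [mul_one] at hγ
  refine ⟨γ, fun x hx => ?_, hγ⟩
  obtain ⟨b, hb⟩ := key x hx
  refine ⟨1, ?_⟩
  have e : (fIdx m : K) ^ 1 * ((γ : K) * x) = (fIdx m : K) * b := by
    rw [hγ, hb]; ring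
  rw [e]
  exact fIdx_mul_mem m b.2

/-- The norm of `γ = disc · f · β`. -/
theorem absNorm_span_le {m : LatticeBasis n K} (σ : Fin n ≃ (K →+* ℝ)) {β : K} {c : ℝ}
    (hc : ∀ i, |σ i β| ≤ c) {γ : 𝓞 K}
    (hγ : (γ : K) = (NumberField.discr K : K) * ((fIdx m : K) * β)) :
    (Ideal.absNorm (Ideal.span {γ}) : ℝ) ≤ (latticeDisc m * c) ^ n := by
  have hn := finrank_eq m
  have hn0 := n_pos m
  have hc0 : 0 ≤ c := (abs_nonneg _).trans (hc ⟨0, hn0⟩)
  have h1 : (Ideal.absNorm (Ideal.span {γ}) : ℝ) = ∏ i, |σ i (γ : K)| := by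
    rw [Ideal.absNorm_span_singleton, ← Finset.abs_prod, ← norm_eq_prod hn σ (γ : K)]
    have h2 : Algebra.norm ℚ (γ : K) = ((Algebra.norm ℤ γ : ℤ) : ℚ) :=
      (Algebra.coe_norm_int γ).symm
    rw [h2, Nat.cast_natAbs]
    push_cast
    rfl
  rw [h1]
  have hf1 : (1 : ℝ) ≤ fIdx m := by exact_mod_cast fIdx_pos m
  have h3 : ∀ i, |σ i (γ : K)| ≤ latticeDisc m * c := by
    intro i
    rw [hγ, map_mul, map_mul, map_intCast, map_natCast, abs_mul, abs_mul, Nat.abs_cast,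
      latticeDisc_eq, mul_assoc]
    have h4 : (fIdx m : ℝ) ≤ (fIdx m : ℝ) ^ 2 := by nlinarith
    have h5 : (fIdx m : ℝ) * |σ i β| ≤ (fIdx m : ℝ) ^ 2 * c :=
      mul_le_mul h4 (hc i) (abs_nonneg _) (by positivity)
    exact mul_le_mul_of_nonneg_left h5 (abs_nonneg _)
  calc ∏ i, |σ i (γ : K)| ≤ ∏ _i : Fin n, (latticeDisc m * c) :=
        Finset.prod_le_prod (fun _ _ => abs_nonneg _) fun i _ => h3 i
    _ = _ := by rw [Finset.prod_const, Finset.card_univ, Fintype.card_fin]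

/-! ### The lattice basis of `fPart` -/

theorem fPart_basis {m m1 : LatticeBasis n K} (h : LocallyHomothetic m m1)
    (h1 : (1 : K) ∈ m1.lattice) :
    ∃ p : LatticeBasis n K, p.lattice = (fPart m m1).toIntSubmodule := by
  refine exists_latticeBasis (finrank_eq m) _ ?_ ?_
  · have : IsNoetherian ℤ m1.lattice := by
      have : Module.Finite ℤ m1.lattice := Module.Finite.iff_fg.mpr (lattice_fg m1)
      infer_instance
    have h2 : (fPart m m1).toIntSubmodule ≤ m1.lattice := fun x hx => hx.1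
    have h3 : IsNoetherian ℤ (fPart m m1).toIntSubmodule := isNoetherian_of_le h2
    exact (Submodule.fg_top _).mp (h3.noetherian ⊤)
  · intro x
    obtain ⟨N, hN, h2⟩ := exists_mul_mem_order m x
    exact ⟨N, hN, order_le_fPart h h1 h2⟩

theorem fPart_det {m m1 p : LatticeBasis n K} (h : LocallyHomothetic m m1)
    (h1 : (1 : K) ∈ m1.lattice) (hp : p.lattice = (fPart m m1).toIntSubmodule)
    (σ : Fin n ≃ (K →+* ℝ)) :
    ((multiplierOrder m).relIndex (fPart m m1) : ℝ) * |(embMatrix p σ).det| =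
      Real.sqrt (latticeDisc m) := by
  obtain ⟨o, ho⟩ := order_basis m
  have h2 := abs_det_embMatrix p o σ (by
    rw [ho, hp]; exact fun x hx => order_le_fPart h h1 hx)
  have e : p.lattice.toAddSubgroup = fPart m m1 := by
    ext x
    change x ∈ p.lattice ↔ _
    rw [hp]
    rfl
  rw [order_toInt m ho, e] at h2
  rw [← disc_of_order m o ho σ, Real.sqrt_sq_eq_abs, h2]

theorem fPart_relIndex_ne_zero {m m1 : LatticeBasis n K} (h : LocallyHomothetic m m1)
    (h1 : (1 : K) ∈ m1.lattice) :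
    (multiplierOrder m).relIndex (fPart m m1) ≠ 0 := by
  have := AddSubgroup.relIndex_mul_relIndex _ _ _ (order_le_fPart h h1)
    (fPart_le (m := m) (m1 := m1))
  intro h0
  rw [h0, zero_mul] at this
  exact order_relIndex_ne_zero h h1 this.symm

/-! ### Separation of conjugates -/

/-- `fPart m m1` is bad at level `T`: it has an irrational element with all conjugates `≤ T`. -/
def Bad (P : AddSubgroup K) (σ : Fin n ≃ (K →+* ℝ)) (T : ℝ) : Prop :=
  ∃ y ∈ P, (∀ r : ℚ, y ≠ r) ∧ ∀ i, |σ i y| ≤ T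

theorem rat_mem {M : Submodule ℤ K} (h1 : (1 : K) ∈ M)
    (prim : ∀ (k : ℤ) (y : K), y ∈ M → (k : K) * y = 1 → IsUnit k) {r : ℚ}
    (hr : (r : K) ∈ M) : ∃ k : ℤ, (r : K) = k := by
  have hco : IsCoprime r.num (r.den : ℤ) := by
    rw [Int.isCoprime_iff_gcd_eq_one]
    exact r.reduced
  obtain ⟨u, v, huv⟩ := hco
  have hden : (r.den : K) ≠ 0 := by exact_mod_cast r.den_nz
  have hr' : (r : K) = (r.num : K) / (r.den : K) := by
    exact_mod_cast congrArg (Rat.cast (K := K)) (Rat.num_div_den r).symm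
  have h2 : (1 : K) / r.den ∈ M := by
    have e : (1 : K) / r.den = u • (r : K) + v • (1 : K) := by
      have huv' : (u : K) * r.num + (v : K) * r.den = 1 := by
        exact_mod_cast congrArg (Int.cast (R := K)) huv
      rw [hr', zsmul_eq_mul, zsmul_eq_mul]
      field_simp
      linear_combination -huv'
    rw [e]
    exact M.add_mem (M.smul_mem _ hr) (M.smul_mem _ h1)
  have h3 := prim r.den _ h2 (by push_cast; field_simp)
  have h4 : r.den = 1 := by
    rcases Int.isUnit_iff.mp h3 with h | h <;> omega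
  exact ⟨r.num, by rw [hr', h4]; simp⟩

/-- (S4) -/
theorem separation {m m1 : LatticeBasis n K} (h : LocallyHomothetic m m1)
    (h1 : (1 : K) ∈ m1.lattice) (σ : Fin n ≃ (K →+* ℝ))
    (prim : ∀ (k : ℤ) (y : K), y ∈ m1.lattice → (k : K) * y = 1 → IsUnit k) {T : ℝ}
    (hT : 1 ≤ T) (hb : ¬ Bad (fPart m m1) σ T) {y : K} (hy : y ∈ fPart m m1)
    (hZ : ∀ k : ℤ, y ≠ k) : ∃ i j, T / 2 ≤ |σ i y - σ j y| := by
  have hn0 := n_pos m
  set k : ℤ := round (σ ⟨0, hn0⟩ y) with hk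
  have h2 : y - k ∈ fPart m m1 := (fPart m m1).sub_mem hy
    (order_le_fPart h h1 (int_mem_order m k))
  have h3 : ∀ r : ℚ, y - k ≠ r := by
    intro r hr
    have h4 : ((r + k : ℚ) : K) ∈ m1.lattice := by
      have : ((r + k : ℚ) : K) = y := by push_cast; rw [← hr]; ring
      rw [this]; exact hy.1
    obtain ⟨l, hl⟩ := rat_mem h1 prim h4
    apply hZ l
    rw [← hl]; push_cast; rw [← hr]; ring
  have h4 : ∃ i, T < |σ i (y - k)| := by
    by_contra hcon
    push Not at hcon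
    exact hb ⟨_, h2, h3, hcon⟩
  obtain ⟨i, hi⟩ := h4
  refine ⟨i, ⟨0, hn0⟩, ?_⟩
  have h5 : |σ ⟨0, hn0⟩ y - k| ≤ 1 / 2 := abs_sub_round _
  have h6 : σ i (y - k) = (σ i y - σ ⟨0, hn0⟩ y) + (σ ⟨0, hn0⟩ y - k) := by
    rw [map_sub, map_intCast]; ring
  rw [h6] at hi
  have h7 := abs_add_le (σ i y - σ ⟨0, hn0⟩ y) (σ ⟨0, hn0⟩ y - k)
  linarith

end

end Crest.Agent.R014.N2_675
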