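import Crest.Agent.R014.N2Main_675

/-!
Row 14, part N2 (helper675): Theorem A (`Iface_792.ThmA`) from the lower bound of the residue, the
bound of the bad types and the bridge.
-/

set_option autoImplicit false

open Crest.NumberTheoryR.Packets Module NumberField MeasureTheory Filter Asymptotics
open scoped nonZeroDivisors ENNReal

namespace Crest.Agent.R014.N2_675

open Crest.Agent.R014.Sl_652 Crest.Agent.R014.DivB_684
open Crest.Agent.R014.Unf_71 (InCl IsPk Good)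
open Crest.Agent.R014.LocDefs_524 (IsTy)

noncomputable section

universe u

/-! ### Absorbing constants and logarithms -/

theorem absorb {a b : ℝ} (hab : a < b) (A : ℝ) (k : ℕ) :
    ∀ᶠ D : ℝ in atTop, A * D ^ a * (Real.log D) ^ k ≤ D ^ b := by
  have h1 := isLittleO_log_rpow_rpow_atTop (k : ℝ) (sub_pos.mpr hab)
  have hA : 0 < 1 / (|A| + 1) := by positivity
  filter_upwards [h1.def hA, eventually_ge_atTop (1 : ℝ)] with D h2 hD
  have hD0 : 0 < D := by linarith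
  have hlog : 0 ≤ Real.log D := Real.log_nonneg hD
  rw [Real.rpow_natCast, Real.norm_of_nonneg (pow_nonneg hlog k),
    Real.norm_of_nonneg (Real.rpow_nonneg hD0.le _)] at h2
  have h3 : (|A| + 1) * (Real.log D) ^ k ≤ D ^ (b - a) := by
    have : (|A| + 1) * (Real.log D) ^ k ≤ (|A| + 1) * (1 / (|A| + 1) * D ^ (b - a)) :=
      mul_le_mul_of_nonneg_left h2 (by positivity)
    refine this.trans (le_of_eq ?_)
    field_simp
  have h4 : A * (Real.log D) ^ k ≤ D ^ (b - a) := by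
    refine le_trans ?_ h3
    refine mul_le_mul_of_nonneg_right ?_ (pow_nonneg hlog k)
    have := le_abs_self A
    linarith
  calc A * D ^ a * (Real.log D) ^ k = D ^ a * (A * (Real.log D) ^ k) := by ring
    _ ≤ D ^ a * D ^ (b - a) := mul_le_mul_of_nonneg_left h4 (Real.rpow_nonneg hD0.le _)
    _ = D ^ b := by rw [← Real.rpow_add hD0]; congr 1; ring

theorem meas_le {x V : ℝ≥0∞} {v Y Z : ℝ} (hv : 0 < v) (hV : ENNReal.ofReal v ≤ V)
    (hZ : 0 ≤ Z) (h : x ≤ V⁻¹ * ENNReal.ofReal Y) (hY : Y ≤ Z * v) : x ≤ ENNReal.ofReal Z := by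
  have hv0 : ENNReal.ofReal v ≠ 0 := (ENNReal.ofReal_pos.mpr hv).ne'
  calc x ≤ V⁻¹ * ENNReal.ofReal Y := h
    _ ≤ (ENNReal.ofReal v)⁻¹ * ENNReal.ofReal (Z * v) :=
        mul_le_mul' (ENNReal.inv_le_inv.mpr hV) (ENNReal.ofReal_le_ofReal hY)
    _ = ENNReal.ofReal Z := by
        rw [ENNReal.ofReal_mul hZ, mul_comm (ENNReal.ofReal Z), ← mul_assoc,
          ENNReal.inv_mul_cancel hv0 ENNReal.ofReal_ne_top, one_mul]

/-- cusp: the real inequality. -/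
theorem cusp_real (d : ℕ) {e ε cV C1 CD : ℝ} (hε : 0 < ε) (hcV : 0 < cV) (hC1 : 0 ≤ C1)
    (hCD : 0 ≤ CD) (he : 4 * ε ≤ e) :
    ∀ᶠ D : ℝ in atTop, ∀ r : ℝ, 0 < r → r ≤ 1 →
      2 ^ (d + 1) * (CD * (Real.sqrt D * r ^ (d + 1)) ^ (1 + ε) * (C1 * D ^ ε)) *
        (Real.log D) ^ d ≤ (D ^ e * r ^ (d + 1)) * (cV * D ^ (1 / 2 - ε)) := by
  have h1 := absorb (a := (1 + ε) / 2 + ε) (b := e + (1 / 2 - ε)) (by linarith)
    (2 ^ (d + 1) * CD * C1 / cV) d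
  filter_upwards [h1, eventually_ge_atTop (1 : ℝ)] with D h2 hD r hr hr1
  have hD0 : 0 < D := by linarith
  have hlog : 0 ≤ Real.log D := Real.log_nonneg hD
  have hrn : 0 < r ^ (d + 1) := pow_pos hr _
  have hrn1 : r ^ (d + 1) ≤ 1 := pow_le_one₀ hr.le hr1
  have h3 : (Real.sqrt D * r ^ (d + 1)) ^ (1 + ε) ≤ D ^ ((1 + ε) / 2) * r ^ (d + 1) := by
    rw [Real.mul_rpow (Real.sqrt_nonneg _) hrn.le, Real.sqrt_eq_rpow, ← Real.rpow_mul hD0.le]
    have e1 : (1 : ℝ) / 2 * (1 + ε) = (1 + ε) / 2 := by ring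
    rw [e1]
    refine mul_le_mul_of_nonneg_left ?_ (Real.rpow_nonneg hD0.le _)
    calc (r ^ (d + 1)) ^ (1 + ε) ≤ (r ^ (d + 1)) ^ (1 : ℝ) :=
          Real.rpow_le_rpow_of_exponent_ge hrn hrn1 (by linarith)
      _ = _ := Real.rpow_one _
  have h4 : 2 ^ (d + 1) * CD * C1 * D ^ ((1 + ε) / 2 + ε) * (Real.log D) ^ d ≤
      cV * D ^ (e + (1 / 2 - ε)) := by
    have := mul_le_mul_of_nonneg_left h2 hcV.le
    refine le_trans (le_of_eq ?_) this
    field_simp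
  calc 2 ^ (d + 1) * (CD * (Real.sqrt D * r ^ (d + 1)) ^ (1 + ε) * (C1 * D ^ ε)) *
        (Real.log D) ^ d
      ≤ 2 ^ (d + 1) * (CD * (D ^ ((1 + ε) / 2) * r ^ (d + 1)) * (C1 * D ^ ε)) *
        (Real.log D) ^ d := by gcongr
    _ = (2 ^ (d + 1) * CD * C1 * D ^ ((1 + ε) / 2 + ε) * (Real.log D) ^ d) * r ^ (d + 1) := by
        rw [Real.rpow_add hD0]; ring
    _ ≤ (cV * D ^ (e + (1 / 2 - ε))) * r ^ (d + 1) :=
        mul_le_mul_of_nonneg_right h4 hrn.le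
    _ = _ := by rw [Real.rpow_add hD0]; ring

/-- complement of the good set: the real inequality. -/
theorem good_real (d : ℕ) {e ε η η0 cV Cb CD : ℝ} (he0 : 0 ≤ e) (hε : 0 < ε) (hcV : 0 < cV)
    (hCb : 0 ≤ Cb) (hCD : 0 ≤ CD)
    (hexp : (d + 1) * e + ε * (3 / 2 + (d + 1) * e) + η < η0) :
    ∀ᶠ D : ℝ in atTop,
      2 ^ (d + 1) * (CD * (Real.sqrt D * (2 * (d + 1) * D ^ e) ^ (d + 1)) ^ (1 + ε) *
        (Cb * D ^ (-η0))) * (((1 + (d + 1) + (d + 1) * e) * Real.log D)) ^ d ≤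
        D ^ (-η) * (cV * D ^ (1 / 2 - ε)) := by
  set n : ℝ := (d : ℝ) + 1 with hn
  have hn0 : 0 < n := by positivity
  have h1 := absorb (a := (1 / 2 + n * e) * (1 + ε) + -η0) (b := -η + (1 / 2 - ε)) (by
      nlinarith)
    (2 ^ (d + 1) * CD * Cb * ((2 * n) ^ (d + 1)) ^ (1 + ε) * (1 + n + n * e) ^ d / cV) d
  filter_upwards [h1, eventually_ge_atTop (1 : ℝ)] with D h2 hD
  have hD0 : 0 < D := by linarith
  have hlog : 0 ≤ Real.log D := Real.log_nonneg hD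
  have h3 : (Real.sqrt D * (2 * n * D ^ e) ^ (d + 1)) ^ (1 + ε) =
      ((2 * n) ^ (d + 1)) ^ (1 + ε) * D ^ ((1 / 2 + n * e) * (1 + ε)) := by
    have e1 : Real.sqrt D * (2 * n * D ^ e) ^ (d + 1) = (2 * n) ^ (d + 1) * D ^ (1 / 2 + n * e) := by
      rw [mul_pow, Real.sqrt_eq_rpow, Real.rpow_add hD0, ← Real.rpow_natCast (D ^ e) (d + 1),
        ← Real.rpow_mul hD0.le]
      have : e * ((d + 1 : ℕ) : ℝ) = n * e := by push_cast; rw [hn]; ring
      rw [this]; ring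
    rw [e1, Real.mul_rpow (by positivity) (Real.rpow_nonneg hD0.le _), ← Real.rpow_mul hD0.le]
  have h4 := mul_le_mul_of_nonneg_left h2 hcV.le
  refine le_trans (le_of_eq ?_) (h4.trans (le_of_eq ?_))
  · rw [h3, mul_pow (1 + n + n * e) (Real.log D) d, Real.rpow_add hD0]
    field_simp
  · rw [Real.rpow_add hD0]; ring

/-- slab: the real inequality. -/
theorem slab_real (d : ℕ) {e ε cV Cs C1 CD C : ℝ} (he0 : 0 ≤ e) (hε : 0 < ε) (hcV : 0 < cV)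
    (hCs : 0 ≤ Cs) (hC1 : 0 ≤ C1) (hCD : 0 ≤ CD)
    (hexp : (d + 1) * ε * (1 + 2 * e) + 2 * d * e + e + 2 * ε < C * e) :
    ∀ᶠ D : ℝ in atTop, ∀ δ : ℝ, 0 ≤ δ →
      2 ^ (d + 1) * ((CD * ((D * (2 * (d + 1) * D ^ e) ^ 2) ^ (d + 1)) ^ ε) *
        (Cs * ((2 * (d + 1) * D ^ e) ^ 2) ^ d * (4 * (d + 1) ^ 3 * D ^ e * δ) * Real.sqrt D) *
        (C1 * D ^ ε)) * ((3 * (d + 1) + 2 * (d + 1) * e) * Real.log D) ^ d ≤
        (D ^ (C * e) * δ) * (cV * D ^ (1 / 2 - ε)) := by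
  set n : ℝ := (d : ℝ) + 1 with hn
  have hn0 : 0 < n := by positivity
  have h1 := absorb (a := (1 + 2 * e) * (n * ε) + (2 * d * e + (e + (1 / 2 + ε))))
    (b := C * e + (1 / 2 - ε)) (by nlinarith)
    (2 ^ (d + 1) * CD * (((2 * n) ^ 2) ^ (d + 1)) ^ ε * Cs * ((2 * n) ^ 2) ^ d * (4 * n ^ 3) * C1 *
      (3 * n + 2 * n * e) ^ d / cV) d
  filter_upwards [h1, eventually_ge_atTop (1 : ℝ)] with D h2 hD δ hδ
  have hD0 : 0 < D := by linarith
  have hlog : 0 ≤ Real.log D := Real.log_nonneg hD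
  have h3 : ((D * (2 * n * D ^ e) ^ 2) ^ (d + 1)) ^ ε =
      (((2 * n) ^ 2) ^ (d + 1)) ^ ε * D ^ ((1 + 2 * e) * (n * ε)) := by
    have e1 : (D * (2 * n * D ^ e) ^ 2) ^ (d + 1) =
        ((2 * n) ^ 2) ^ (d + 1) * D ^ ((1 + 2 * e) * n) := by
      have e2 : D * (2 * n * D ^ e) ^ 2 = (2 * n) ^ 2 * D ^ (1 + 2 * e) := by
        rw [Real.rpow_add hD0, Real.rpow_one, mul_comm (2 : ℝ) e, Real.rpow_mul hD0.le]
        have : (D ^ e) ^ (2 : ℝ) = (D ^ e) ^ 2 := by exact_mod_cast Real.rpow_natCast (D ^ e) 2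
        rw [this]; ring
      rw [e2, mul_pow, ← Real.rpow_natCast (D ^ (1 + 2 * e)) (d + 1), ← Real.rpow_mul hD0.le]
      have : (1 + 2 * e) * ((d + 1 : ℕ) : ℝ) = (1 + 2 * e) * n := by push_cast; rw [hn]
      rw [this]
    rw [e1, Real.mul_rpow (by positivity) (Real.rpow_nonneg hD0.le _), ← Real.rpow_mul hD0.le]
    congr 2
    ring
  have h5 : ((2 * n * D ^ e) ^ 2) ^ d = ((2 * n) ^ 2) ^ d * D ^ (2 * d * e) := by
    rw [mul_pow, mul_pow, ← pow_mul (D ^ e), ← Real.rpow_natCast (D ^ e), ← Real.rpow_mul hD0.le]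
    congr 2
    push_cast
    ring
  have h4 := mul_le_mul_of_nonneg_left h2 (mul_nonneg hcV.le hδ)
  refine le_trans (le_of_eq ?_) (h4.trans (le_of_eq ?_))
  · rw [h3, h5, mul_pow (3 * n + 2 * n * e) (Real.log D) d, Real.rpow_add hD0,
      Real.rpow_add hD0, Real.rpow_add hD0, Real.rpow_add hD0, Real.sqrt_eq_rpow]
    field_simp
  · rw [Real.rpow_add hD0]; ring

end

end Crest.Agent.R014.N2_675
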