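import Crest.Agent.R014.TS2_837

set_option autoImplicit false

/-!
The dual basis, and the count of points of the dual lattice in slabs.
-/

open Module Submodule MeasureTheory

namespace Crest.Agent.R014.TS3_837

open TS2_837

variable {n : ℕ}

section DualBasis

variable (b : Basis (Fin n) ℝ (Fin n → ℝ))

theorem det_ne_zero : (Matrix.of b).det ≠ 0 := by
  have h := Basis.isUnit_det (Pi.basisFun ℝ (Fin n)) b
  rw [Pi.basisFun_det_apply] at h
  exact h.ne_zero

/-- The dual family: `c i · b j = δ i j`. -/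
noncomputable def cvec (i : Fin n) : Fin n → ℝ := fun k => (Matrix.of b)⁻¹ k i

theorem cvec_dot (i j : Fin n) : ∑ k, cvec b i k * b j k = if i = j then 1 else 0 := by
  have h : (Matrix.of b) * (Matrix.of b)⁻¹ = 1 :=
    Matrix.mul_nonsing_inv _ (isUnit_iff_ne_zero.mpr (det_ne_zero b))
  have h2 := congrFun (congrFun h j) i
  rw [Matrix.mul_apply, Matrix.one_apply] at h2
  have h3 : (if i = j then (1 : ℝ) else 0) = if j = i then 1 else 0 := by
    by_cases hij : i = j
    · simp [hij]
    · simp [hij, Ne.symm hij]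
  rw [h3, ← h2]
  exact Finset.sum_congr rfl fun k _ => by simp only [cvec, Matrix.of_apply]; ring

theorem cvec_indep : LinearIndependent ℝ (cvec b) := by
  rw [Fintype.linearIndependent_iff]
  intro g hg j
  have h : ∑ k, (∑ i, g i • cvec b i) k * b j k = 0 := by
    rw [hg]; simp
  have h2 : ∑ k, (∑ i, g i • cvec b i) k * b j k = g j := by
    calc ∑ k, (∑ i, g i • cvec b i) k * b j k = ∑ k, ∑ i, g i * (cvec b i k * b j k) := by
          refine Finset.sum_congr rfl fun k _ => ?_
          rw [Finset.sum_apply, Finset.sum_mul]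
          exact Finset.sum_congr rfl fun i _ => by rw [Pi.smul_apply, smul_eq_mul]; ring
      _ = ∑ i, g i * ∑ k, cvec b i k * b j k := by
          rw [Finset.sum_comm]
          exact Finset.sum_congr rfl fun i _ => by rw [Finset.mul_sum]
      _ = g j := by simp [cvec_dot]
  rw [← h2, h]

/-- The dual basis. -/
noncomputable def cb : Basis (Fin n) ℝ (Fin n → ℝ) :=
  basisOfLinearIndependentOfCardEqFinrank' (cvec b) (cvec_indep b) (by simp)

theorem cb_apply (i : Fin n) : cb b i = cvec b i := by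
  simp [cb]

theorem det_cb : |(Matrix.of (cb b)).det| = |(Matrix.of b).det|⁻¹ := by
  have h : Matrix.of (cb b) = ((Matrix.of b)⁻¹).transpose := by
    ext i j
    simp [cb_apply, cvec]
  rw [h, Matrix.det_transpose, Matrix.det_nonsing_inv, Ring.inverse_eq_inv', abs_inv]

theorem cb_repr (x : Fin n → ℝ) (j : Fin n) : (cb b).repr x j = ∑ k, x k * b j k := by
  have h : x = ∑ i, (cb b).repr x i • cvec b i := by
    conv_lhs => rw [← (cb b).sum_repr x]
    exact Finset.sum_congr rfl fun i _ => by rw [cb_apply]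
  have h2 : ∑ k, x k * b j k = ∑ k, (∑ i, (cb b).repr x i • cvec b i) k * b j k := by
    rw [← h]
  rw [h2]
  symm
  calc ∑ k, (∑ i, (cb b).repr x i • cvec b i) k * b j k
      = ∑ k, ∑ i, (cb b).repr x i * (cvec b i k * b j k) := by
        refine Finset.sum_congr rfl fun k _ => ?_
        rw [Finset.sum_apply, Finset.sum_mul]
        exact Finset.sum_congr rfl fun i _ => by rw [Pi.smul_apply, smul_eq_mul]; ring
    _ = ∑ i, (cb b).repr x i * ∑ k, cvec b i k * b j k := by
        rw [Finset.sum_comm]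
        exact Finset.sum_congr rfl fun i _ => by rw [Finset.mul_sum]
    _ = (cb b).repr x j := by simp [cvec_dot]

theorem dual_eq : dual (span ℤ (Set.range b)) = span ℤ (Set.range (cb b)) := by
  apply le_antisymm
  · intro x hx
    rw [Basis.mem_span_iff_repr_mem ℤ (cb b) x]
    intro j
    obtain ⟨k, hk⟩ := hx (b j) (subset_span ⟨j, rfl⟩)
    exact ⟨k, by rw [cb_repr, hk]; simp⟩
  · rw [span_le]
    rintro _ ⟨i, rfl⟩
    rw [cb_apply]
    intro y hy
    induction hy using Submodule.span_induction with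
    | mem y hy =>
      obtain ⟨j, rfl⟩ := hy
      exact ⟨if i = j then 1 else 0, by rw [cvec_dot]; push_cast; rfl⟩
    | zero => exact ⟨0, by simp⟩
    | add y z _ _ hy hz =>
      obtain ⟨k, hk⟩ := hy
      obtain ⟨l, hl⟩ := hz
      refine ⟨k + l, ?_⟩
      push_cast
      rw [← hk, ← hl, ← Finset.sum_add_distrib]
      exact Finset.sum_congr rfl fun i _ => by rw [Pi.add_apply]; ring
    | smul a y _ hy =>
      obtain ⟨k, hk⟩ := hy
      refine ⟨a * k, ?_⟩
      push_cast
      rw [← hk, Finset.mul_sum]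
      exact Finset.sum_congr rfl fun i _ => by rw [Pi.smul_apply, zsmul_eq_mul]; ring

end DualBasis

section Packing

/-- **Packing.** If for every `x` there is a lattice vector `q` such that `β + (x - q) ∈ W` for all
`β ∈ A`, then `#A · vol(F) ≤ vol W`. -/
theorem packing (e : Basis (Fin n) ℝ (Fin n → ℝ)) (A : Finset (Fin n → ℝ)) (W : Set (Fin n → ℝ))
    (hW : MeasurableSet W) (hA : ∀ x ∈ A, x ∈ span ℤ (Set.range e))
    (h : ∀ x : Fin n → ℝ, ∃ q ∈ span ℤ (Set.range e), ∀ β ∈ A, β + (x - q) ∈ W) :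
    (A.card : ENNReal) * ENNReal.ofReal |(Matrix.of e).det| ≤ volume W := by
  classical
  have hF := ZSpan.isAddFundamentalDomain' e (volume : Measure (Fin n → ℝ))
  set F := ZSpan.fundamentalDomain e with hFdef
  set G : AddSubgroup (Fin n → ℝ) := (span ℤ (Set.range e)).toAddSubgroup with hG
  have hcount : Countable G := (inferInstance : Countable (span ℤ (Set.range e)))
  have h1 : volume W = ∑' g : G, ∫⁻ x in F, W.indicator 1 (-g +ᵥ x) := by
    rw [← lintegral_indicator_one hW]
    exact hF.lintegral_eq_tsum' _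
  have hmeas : ∀ g : G, Measurable fun x : Fin n → ℝ =>
      (W.indicator (1 : (Fin n → ℝ) → ENNReal) (-g +ᵥ x)) := by
    intro g
    refine (measurable_one.indicator hW).comp ?_
    change Measurable fun x : Fin n → ℝ => ((-g : G) : Fin n → ℝ) + x
    exact measurable_const_add _
  rw [h1, ← lintegral_tsum fun g => (hmeas g).aemeasurable, ← ZSpan.volume_fundamentalDomain e]
  rw [← setLIntegral_const]
  refine lintegral_mono fun x => ?_
  obtain ⟨q, hq, hqA⟩ := h x
  let f : (Fin n → ℝ) → G := fun β =>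
    if hβ : β ∈ A then ⟨q - β, (span ℤ (Set.range e)).sub_mem hq (hA β hβ)⟩ else 0
  have hinj : Set.InjOn f A := by
    intro β hβ β' hβ' hff
    simp only [Finset.mem_coe] at hβ hβ'
    simp only [f, dif_pos hβ, dif_pos hβ'] at hff
    have := congrArg Subtype.val hff
    simpa using this
  calc (A.card : ENNReal) = ∑ β ∈ A, 1 := by simp
    _ = ∑ β ∈ A, W.indicator (1 : (Fin n → ℝ) → ENNReal) (-(f β) +ᵥ x) := by
        refine Finset.sum_congr rfl fun β hβ => ?_
        have : (-(f β) +ᵥ x : Fin n → ℝ) = β + (x - q) := by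
          change ((-(f β) : G) : Fin n → ℝ) + x = _
          simp only [f, dif_pos hβ]
          simp only [NegMemClass.coe_neg]
          abel
        rw [this, Set.indicator_of_mem (hqA β hβ)]
        rfl
    _ = ∑ g ∈ A.image f, W.indicator (1 : (Fin n → ℝ) → ENNReal) (-g +ᵥ x) :=
        (Finset.sum_image (f := fun g : G =>
          W.indicator (1 : (Fin n → ℝ) → ENNReal) (-g +ᵥ x)) hinj).symm
    _ ≤ ∑' g : G, W.indicator (1 : (Fin n → ℝ) → ENNReal) (-g +ᵥ x) := ENNReal.sum_le_tsum _

end Packing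

section Slab

/-- The linear functional `z ↦ ∑_{i ∈ S} z i - (|S| / n) ∑ z i`, as a vector. -/
noncomputable def lvec (S : Finset (Fin n)) : Fin n → ℝ :=
  fun i => (if i ∈ S then 1 else 0) - (S.card : ℝ) / n

theorem lvec_dot (S : Finset (Fin n)) (z : Fin n → ℝ) :
    ∑ i, lvec S i * z i = ∑ i ∈ S, z i - (S.card : ℝ) / n * ∑ i, z i := by
  simp only [lvec, sub_mul, Finset.sum_sub_distrib, ite_mul, one_mul, zero_mul, Finset.mul_sum]
  rw [Finset.sum_ite_mem, Finset.univ_inter]

/-- The slab region. -/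
def region (S : Finset (Fin n)) (c' s' r' : ℝ) : Set (Fin n → ℝ) :=
  {z | (∀ i, |z i| ≤ c') ∧ |∑ i, lvec S i * z i - s'| ≤ r'}

theorem measurableSet_region (S : Finset (Fin n)) (c' s' r' : ℝ) :
    MeasurableSet (region S c' s' r') := by
  have h1 : IsClosed {z : Fin n → ℝ | ∀ i, |z i| ≤ c'} := by
    have : {z : Fin n → ℝ | ∀ i, |z i| ≤ c'} = ⋂ i, {z : Fin n → ℝ | |z i| ≤ c'} := by
      ext z; simp
    rw [this]
    refine isClosed_iInter fun i => ?_
    have h2 : Continuous fun z : Fin n → ℝ => |z i| := by fun_prop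
    exact isClosed_le h2 continuous_const
  have h2 : IsClosed {z : Fin n → ℝ | |∑ i, lvec S i * z i - s'| ≤ r'} := by
    have h3 : Continuous fun z : Fin n → ℝ => |∑ i, lvec S i * z i - s'| := by fun_prop
    exact isClosed_le h3 continuous_const
  exact (h1.inter h2).measurableSet

theorem volume_region_le (S : Finset (Fin n)) (i₀ : Fin n) (hi₀ : i₀ ∈ S) (hS : S ≠ Finset.univ)
    {c' s' r' : ℝ} (hc' : 0 ≤ c') (hr' : 0 ≤ r') :
    volume (region S c' s' r') ≤ ENNReal.ofReal (n * 2 ^ n * c' ^ (n - 1) * r') := by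
  classical
  have hn : 0 < n := i₀.pos
  have hn' : (0 : ℝ) < n := by exact_mod_cast hn
  have hcard : (S.card : ℝ) + 1 ≤ n := by
    have h1 : S.card < n := by
      have := Finset.card_lt_univ_of_notMem (s := S)
        (x := (Finset.not_subset.mp (fun h => hS (Finset.univ_subset_iff.mp h))).choose)
        (Finset.not_subset.mp (fun h => hS (Finset.univ_subset_iff.mp h))).choose_spec.2
      simpa using this
    exact_mod_cast h1
  have hv : 1 / (n : ℝ) ≤ lvec S i₀ := by
    simp only [lvec, if_pos hi₀]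
    rw [div_le_iff₀ hn', sub_mul, one_mul, div_mul_cancel₀ _ hn'.ne']
    linarith
  have hvpos : 0 < lvec S i₀ := lt_of_lt_of_le (by positivity) hv
  let M : Matrix (Fin n) (Fin n) ℝ := (1 : Matrix (Fin n) (Fin n) ℝ).updateRow i₀ (lvec S)
  have hdet : M.det = lvec S i₀ := by
    change ((1 : Matrix (Fin n) (Fin n) ℝ).updateRow i₀ (lvec S)).det = _
    rw [← Matrix.cramer_transpose_apply, Matrix.transpose_one, Matrix.cramer_one]
    rfl
  have hTdet : LinearMap.det (Matrix.toLin' M) = lvec S i₀ := by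
    rw [LinearMap.det_toLin', hdet]
  let box : Set (Fin n → ℝ) := Set.Icc (fun i => if i = i₀ then s' - r' else -c')
    (fun i => if i = i₀ then s' + r' else c')
  have hsub : region S c' s' r' ⊆ (Matrix.toLin' M) ⁻¹' box := by
    rintro z ⟨hz1, hz2⟩
    have hval : ∀ i, (Matrix.toLin' M z) i = if i = i₀ then ∑ j, lvec S j * z j else z i := by
      intro i
      rw [Matrix.toLin'_apply, Matrix.mulVec, dotProduct]
      by_cases h : i = i₀
      · subst h
        rw [if_pos rfl]
        exact Finset.sum_congr rfl fun j _ => by simp [M]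
      · rw [if_neg h]
        simp [M, Matrix.updateRow_ne h, Matrix.one_apply]
    refine ⟨fun i => ?_, fun i => ?_⟩
    · rw [hval i]
      by_cases h : i = i₀
      · simp only [h, if_true]
        have := (abs_le.mp hz2).1
        linarith
      · simp only [h, if_false]
        exact (abs_le.mp (hz1 i)).1
    · rw [hval i]
      by_cases h : i = i₀
      · simp only [h, if_true]
        have := (abs_le.mp hz2).2
        linarith
      · simp only [h, if_false]
        exact (abs_le.mp (hz1 i)).2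
  have hbox : volume box = ENNReal.ofReal (2 * r' * (2 * c') ^ (n - 1)) := by
    rw [Real.volume_Icc_pi, ← Finset.mul_prod_erase Finset.univ _ (Finset.mem_univ i₀)]
    have h1 : ∀ i ∈ Finset.univ.erase i₀, ENNReal.ofReal ((if i = i₀ then s' + r' else c')
        - (if i = i₀ then s' - r' else -c')) = ENNReal.ofReal (2 * c') := by
      intro i hi
      rw [if_neg (Finset.ne_of_mem_erase hi), if_neg (Finset.ne_of_mem_erase hi)]
      congr 1
      ring
    rw [Finset.prod_congr rfl h1, Finset.prod_const, Finset.card_erase_of_mem (Finset.mem_univ _),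
      Finset.card_univ, Fintype.card_fin, if_pos rfl, if_pos rfl, ← ENNReal.ofReal_pow (by positivity),
      ← ENNReal.ofReal_mul (by linarith)]
    congr 1
    ring
  calc volume (region S c' s' r') ≤ volume ((Matrix.toLin' M) ⁻¹' box) := measure_mono hsub
    _ = ENNReal.ofReal |(LinearMap.det (Matrix.toLin' M))⁻¹| * volume box :=
        Measure.addHaar_preimage_linearMap _ (by rw [hTdet]; exact hvpos.ne') _
    _ = ENNReal.ofReal ((lvec S i₀)⁻¹ * (2 * r' * (2 * c') ^ (n - 1))) := by
        rw [hTdet, hbox, abs_of_pos (inv_pos.mpr hvpos), ← ENNReal.ofReal_mul (by positivity)]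
    _ ≤ _ := by
        apply ENNReal.ofReal_le_ofReal
        have h1 : (lvec S i₀)⁻¹ ≤ n := by
          rw [inv_le_comm₀ hvpos hn']
          simpa using hv
        have h2 : (2 : ℝ) ^ n = 2 * 2 ^ (n - 1) := by
          rw [← pow_succ', Nat.sub_add_cancel hn]
        calc (lvec S i₀)⁻¹ * (2 * r' * (2 * c') ^ (n - 1))
            ≤ n * (2 * r' * (2 * c') ^ (n - 1)) := by gcongr
          _ = n * 2 ^ n * c' ^ (n - 1) * r' := by rw [mul_pow, h2]; ring

/-- **Slab count, finset form.** -/
theorem slab_card (b : Basis (Fin n) ℝ (Fin n → ℝ)) {R : ℝ} (hR : 0 < R)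
    (h1 : one ∈ span ℤ (Set.range b)) (hsep : Sep (span ℤ (Set.range b)) R)
    (S : Finset (Fin n)) (hS : S.Nonempty) (hS' : S ≠ Finset.univ)
    {t s c r : ℝ} (hc : 0 ≤ c) (hr : 0 ≤ r) (A : Finset (Fin n → ℝ))
    (hA : ∀ x ∈ A, x ∈ dual (span ℤ (Set.range b)) ∧ ∑ i, x i = t ∧ (∀ i, |x i| ≤ c) ∧
      |∑ i ∈ S, x i - s| ≤ r) :
    (A.card : ℝ) ≤ |(Matrix.of b).det| *
      (n * 2 ^ n * (c + 1 + 2 ^ n / R) ^ (n - 1) * (r + n * (2 ^ n / R))) := by
  classical
  obtain ⟨i₀, hi₀⟩ := hS
  have hn : 0 < n := i₀.pos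
  have hn' : (0 : ℝ) < n := by exact_mod_cast hn
  have hρ : 0 < 2 ^ n / R := by positivity
  have hcs := hsep
  have key := packing (cb b) A
    (region S (c + 1 + 2 ^ n / R) (s - (S.card : ℝ) / n * t) (r + n * (2 ^ n / R)))
    (measurableSet_region _ _ _ _) (fun x hx => by rw [← dual_eq]; exact (hA x hx).1) (by
      intro x
      obtain ⟨q, hq, hqs, hqd⟩ := cover_slab (P := span ℤ (Set.range b)) hn (ZSpan.span_top b) hR h1
        hsep x
      refine ⟨q, by rw [← dual_eq]; exact hq, ?_⟩
      intro β hβ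
      obtain ⟨-, hβt, hβc, hβs⟩ := hA β hβ
      set θ : ℝ := Int.fract (∑ i, x i) with hθ
      have hθ0 : 0 ≤ θ := Int.fract_nonneg _
      have hθ1 : θ < 1 := Int.fract_lt_one _
      let ε : Fin n → ℝ := fun i => x i - q i - θ / n
      have hεi : ∀ i, |ε i| ≤ 2 ^ n / R := hqd
      have hεs : ∑ i, ε i = 0 := by
        simp only [ε, Finset.sum_sub_distrib, hqs, Finset.sum_const, Finset.card_univ,
          Fintype.card_fin, nsmul_eq_mul]
        rw [mul_div_cancel₀ _ hn'.ne', hθ, Int.fract]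
        ring
      have hz : β + (x - q) = fun i => β i + θ / n + ε i := by
        funext i
        simp only [Pi.add_apply, Pi.sub_apply, ε]
        ring
      rw [hz]
      refine ⟨fun i => ?_, ?_⟩
      · have h2 : |θ / n| ≤ 1 := by
          rw [abs_div, abs_of_nonneg hθ0, abs_of_pos hn', div_le_one hn']
          have : (1 : ℝ) ≤ n := by exact_mod_cast hn
          linarith
        calc |β i + θ / n + ε i| ≤ |β i| + |θ / n| + |ε i| := abs_add_three _ _ _
          _ ≤ c + 1 + 2 ^ n / R := by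
            have := hβc i
            have := hεi i
            linarith
      · rw [lvec_dot]
        have h3 : ∑ i ∈ S, (β i + θ / n + ε i) - (S.card : ℝ) / n * ∑ i, (β i + θ / n + ε i)
            - (s - (S.card : ℝ) / n * t) = (∑ i ∈ S, β i - s) + ∑ i ∈ S, ε i := by
          simp only [Finset.sum_add_distrib, hβt, hεs, Finset.sum_const, Finset.card_univ,
            Fintype.card_fin, nsmul_eq_mul]
          field_simp
          ring
        rw [h3]
        have h4 : |∑ i ∈ S, ε i| ≤ n * (2 ^ n / R) := by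
          calc |∑ i ∈ S, ε i| ≤ ∑ i ∈ S, |ε i| := Finset.abs_sum_le_sum_abs _ _
            _ ≤ ∑ i ∈ S, 2 ^ n / R := Finset.sum_le_sum fun i _ => hεi i
            _ = S.card * (2 ^ n / R) := by rw [Finset.sum_const, nsmul_eq_mul]
            _ ≤ n * (2 ^ n / R) := by
              gcongr
              have := Finset.card_le_univ S
              simpa using this
        exact (abs_add_le _ _).trans (add_le_add hβs h4))
  have hvol := key.trans (volume_region_le S i₀ hi₀ hS' (c' := c + 1 + 2 ^ n / R)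
    (s' := s - (S.card : ℝ) / n * t) (r' := r + n * (2 ^ n / R)) (by positivity) (by positivity))
  have hdet : 0 < |(Matrix.of b).det| := abs_pos.mpr (det_ne_zero b)
  rw [det_cb, ← ENNReal.ofReal_natCast, ← ENNReal.ofReal_mul (by positivity)] at hvol
  have h5 := (ENNReal.ofReal_le_ofReal_iff (by positivity)).mp hvol
  rw [← div_eq_mul_inv, div_le_iff₀ hdet] at h5
  linarith

/-- The set of dual vectors in a slab. -/
def slabSet (P : Submodule ℤ (Fin n → ℝ)) (S : Finset (Fin n)) (t s c r : ℝ) :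
    Set (Fin n → ℝ) :=
  {x | x ∈ dual P ∧ ∑ i, x i = t ∧ (∀ i, |x i| ≤ c) ∧ |∑ i ∈ S, x i - s| ≤ r}

theorem slab_finite (b : Basis (Fin n) ℝ (Fin n → ℝ)) (S : Finset (Fin n)) (t s c r : ℝ) :
    (slabSet (span ℤ (Set.range b)) S t s c r).Finite := by
  have h := ZSpan.setFinite_inter (cb b) (s := {x : Fin n → ℝ | ∀ i, |x i| ≤ c}) (by
    refine (Metric.isBounded_closedBall (x := (0 : Fin n → ℝ)) (r := |c|)).subset ?_
    intro x hx
    rw [mem_closedBall_zero_iff]
    exact (pi_norm_le_iff_of_nonneg (abs_nonneg c)).mpr fun i =>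
      (hx i).trans (le_abs_self c))
  refine h.subset ?_
  rintro x ⟨hx, -, hxc, -⟩
  refine ⟨hxc, ?_⟩
  rw [dual_eq] at hx
  exact hx

/-- **Slab count.** -/
theorem slab_count (n : ℕ) : ∃ C : ℝ, 0 < C ∧ ∀ (b : Basis (Fin n) ℝ (Fin n → ℝ)) (R : ℝ), 1 ≤ R →
    one ∈ span ℤ (Set.range b) → Sep (span ℤ (Set.range b)) R →
    ∀ S : Finset (Fin n), S.Nonempty → S ≠ Finset.univ → ∀ t s c r : ℝ, 1 ≤ c → 1 / R ≤ r →
    (slabSet (span ℤ (Set.range b)) S t s c r).Finite ∧
    ((slabSet (span ℤ (Set.range b)) S t s c r).ncard : ℝ)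
      ≤ C * c ^ (n - 1) * r * |(Matrix.of b).det| := by
  refine ⟨(n + 1) * 2 ^ n * (2 + 2 ^ n) ^ (n - 1) * (1 + n * 2 ^ n), by positivity, ?_⟩
  intro b R hR h1 hsep S hS hS' t s c r hc hr
  have hR0 : 0 < R := by linarith
  have hr0 : 0 < r := lt_of_lt_of_le (by positivity) hr
  have hfin := slab_finite b S t s c r
  refine ⟨hfin, ?_⟩
  rw [Set.ncard_eq_toFinset_card _ hfin]
  have h2 := slab_card b hR0 h1 hsep S hS hS' (t := t) (s := s) (c := c) (r := r) (by linarith)
    hr0.le hfin.toFinset (by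
      intro x hx
      rw [Set.Finite.mem_toFinset] at hx
      exact hx)
  refine h2.trans ?_
  have h3 : 2 ^ n / R ≤ 2 ^ n * r := by
    rw [div_eq_mul_one_div]
    gcongr
  have h3' : 2 ^ n / R ≤ (2 : ℝ) ^ n := div_le_self (by positivity) hR
  have h4 : c + 1 + 2 ^ n / R ≤ (2 + 2 ^ n) * c := by nlinarith [pow_pos (two_pos : (0:ℝ) < 2) n]
  have h5 : r + n * (2 ^ n / R) ≤ (1 + n * 2 ^ n) * r := by
    have : (n : ℝ) * (2 ^ n / R) ≤ n * (2 ^ n * r) := by gcongr
    nlinarith
  calc |(Matrix.of b).det| *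
      (n * 2 ^ n * (c + 1 + 2 ^ n / R) ^ (n - 1) * (r + n * (2 ^ n / R)))
      ≤ |(Matrix.of b).det| *
      ((n + 1) * 2 ^ n * ((2 + 2 ^ n) * c) ^ (n - 1) * ((1 + n * 2 ^ n) * r)) := by
        gcongr
        linarith
    _ = _ := by rw [mul_pow]; ring

end Slab

end Crest.Agent.R014.TS3_837
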