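import Crest.Agent.R014.Unf4_71

/-!
# Row 14: the three final bounds of the measure side of Theorem A, arbitrary lattices (helper71)

`InCl m m''` : `m''` is locally homothetic to `m` and contains `1` as a primitive vector.
`Good m σ G R` : all representations `(m'', v)` of `z` with `|v_j| ≤ R` have `G m''.lattice`.
`thin_le`, `good_compl_le`, `slab_le` bound the packet measure of the cusp, of the complement of
`Good`, and of `Good ∩ x Box` by `V⁻¹ 2^n N L^(n-1)`, `N` a count of lattices / of pairs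
`(M'', β)`.
-/

set_option autoImplicit false
open MeasureTheory Set Matrix
open Crest Crest.NumberTheoryR Crest.NumberTheoryR.Packets
open scoped ENNReal

namespace Crest.Agent.R014.Unf_71

open BoxV_71 Pt_71 Emb_71 Struct_71

variable {d : ℕ} {K : Type*} [Field K] [NumberField K]

/-- `m''` is locally homothetic to `m` and contains `1` as a primitive vector. -/
structure InCl (m m'' : LatticeBasis (d + 1) K) : Prop where
  locHom : LocallyHomothetic m m''
  one_mem : (1 : K) ∈ m''.lattice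
  prim : ∀ k : ℤ, ∀ y ∈ m''.lattice, (k : K) * y = 1 → IsUnit k

theorem Rep.inCl {m : LatticeBasis (d + 1) K} {σ : Fin (d + 1) ≃ (K →+* ℝ)}
    {z : ModSpace (d + 1)} {m'' : LatticeBasis (d + 1) K} {v : Fin (d + 1) → ℝ}
    (h : Rep m σ z m'' v) : InCl m m'' := ⟨h.locHom, h.one_mem, h.prim⟩

theorem Rep.one_le {m : LatticeBasis (d + 1) K} {σ : Fin (d + 1) ≃ (K →+* ℝ)}
    {z : ModSpace (d + 1)} {m'' : LatticeBasis (d + 1) K} {v : Fin (d + 1) → ℝ}
    (h : Rep m σ z m'' v) {R : ℝ} (hv : ∀ j, |v j| ≤ R) :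
    1 ≤ R ^ (d + 1) * |(embMatrix m'' σ).det| := by
  rw [← h.vol, mul_comm]
  refine mul_le_mul_of_nonneg_right ?_ (abs_nonneg _)
  calc ∏ j, |v j| ≤ ∏ _j : Fin (d + 1), R :=
        Finset.prod_le_prod (fun j _ => abs_nonneg _) fun j _ => hv j
    _ = R ^ (d + 1) := by rw [Finset.prod_const, Finset.card_univ, Fintype.card_fin]

/-- good points: every representation by a short primitive vector has a good lattice. -/
def Good (m : LatticeBasis (d + 1) K) (σ : Fin (d + 1) ≃ (K →+* ℝ)) (G : Submodule ℤ K → Prop)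
    (R : ℝ) : Set (ModSpace (d + 1)) :=
  {z | ∀ m'' v, Rep m σ z m'' v → (∀ j, |v j| ≤ R) → G m''.lattice}

/-- a set all of whose finite subsets have at most `N` elements is finite. -/
theorem finite_of_card_le {α : Type*} {A : Set α} {N : ℝ}
    (h : ∀ F : Finset α, (∀ a ∈ F, a ∈ A) → (F.card : ℝ) ≤ N) : A.Finite := by
  by_contra hA
  obtain ⟨k, hk⟩ := exists_nat_gt N
  obtain ⟨F, hF, hc⟩ := Set.Infinite.exists_subset_card_eq hA k
  have := h F (fun a ha => hF ha)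
  rw [hc] at this
  linarith

/-- general form of the bounds with lattices only. -/
theorem lattice_le {m : LatticeBasis (d + 1) K} {σ : Fin (d + 1) ≃ (K →+* ℝ)}
    {μ : Measure (ModSpace (d + 1))} {V : ℝ≥0∞} (h : IsPk m σ μ V)
    (G : Submodule ℤ K → Prop) {R N L : ℝ} (hR : 0 < R) (hL0 : 0 ≤ L)
    (hL : Real.log (Real.sqrt (latticeDisc m)) + (d + 1) * Real.log R ≤ L)
    (hN : ∀ F : Finset (Submodule ℤ K), (∀ M ∈ F, ∃ m'' : LatticeBasis (d + 1) K,
      m''.lattice = M ∧ InCl m m'' ∧ ¬ G M ∧ 1 ≤ R ^ (d + 1) * |(embMatrix m'' σ).det|) →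
      (F.card : ℝ) ≤ N)
    (E : Set (ModSpace (d + 1)))
    (hE : ∀ z ∈ E, inPk m σ z → ∃ m'' v, Rep m σ z m'' v ∧ (∀ j, |v j| ≤ R) ∧ ¬ G m''.lattice) :
    μ E ≤ V⁻¹ * ENNReal.ofReal (2 ^ (d + 1) * N * L ^ d) := by
  classical
  have hfin := finite_of_card_le (A := {M : Submodule ℤ K | ∃ m'' : LatticeBasis (d + 1) K,
      m''.lattice = M ∧ InCl m m'' ∧ ¬ G M ∧ 1 ≤ R ^ (d + 1) * |(embMatrix m'' σ).det|}) hN
  have h1 := unfold_le_one h hfin.toFinset R (Real.sqrt (latticeDisc m)) E (by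
    intro z hz hpk
    obtain ⟨m'', v, hrep, hv, hG⟩ := hE z hz hpk
    refine ⟨m'', v, hrep, ?_, det_le σ hrep.locHom hrep.one_mem, hv⟩
    rw [Set.Finite.mem_toFinset]
    exact ⟨m'', rfl, hrep.inCl, hG, hrep.one_le hv⟩)
  refine h1.trans ?_
  refine mul_le_mul' le_rfl (ENNReal.ofReal_le_ofReal ?_)
  have h2 : (hfin.toFinset.card : ℝ) ≤ N := hN _ fun M hM => hfin.mem_toFinset.1 hM
  rcases Finset.eq_empty_or_nonempty hfin.toFinset with he | ⟨M, hM⟩
  · rw [he] at h2 ⊢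
    simp only [Finset.card_empty, Nat.cast_zero] at h2 ⊢
    simp only [mul_zero, zero_mul]
    have : 0 ≤ L ^ d := pow_nonneg hL0 d
    positivity
  · obtain ⟨m'', -, hcl, -, h3⟩ := hfin.mem_toFinset.1 hM
    have h4 := det_le σ hcl.locHom hcl.one_mem
    have h5 : 1 ≤ R ^ (d + 1) * Real.sqrt (latticeDisc m) := h3.trans (by gcongr)
    have h6 : 0 < Real.sqrt (latticeDisc m) := Real.sqrt_pos.2 (Sl_652.latticeDisc_pos m σ)
    have h7 := Real.log_le_log one_pos h5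
    rw [Real.log_one, Real.log_mul (pow_pos hR _).ne' h6.ne', Real.log_pow] at h7
    push_cast at h7
    have h8 : 0 ≤ Real.log (Real.sqrt (latticeDisc m)) + (d + 1) * Real.log R := by linarith
    have h9 : (0 : ℝ) ≤ N := le_trans (Nat.cast_nonneg _) h2
    gcongr

/-- **cusp bound.** -/
theorem thin_le {m : LatticeBasis (d + 1) K} {σ : Fin (d + 1) ≃ (K →+* ℝ)}
    {μ : Measure (ModSpace (d + 1))} {V : ℝ≥0∞} (h : IsPk m σ μ V)
    {r N L : ℝ} (hr : 0 < r) (hL0 : 0 ≤ L)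
    (hL : Real.log (Real.sqrt (latticeDisc m)) + (d + 1) * Real.log r ≤ L)
    (hN : ∀ F : Finset (Submodule ℤ K), (∀ M ∈ F, ∃ m'' : LatticeBasis (d + 1) K,
      m''.lattice = M ∧ InCl m m'' ∧ 1 ≤ r ^ (d + 1) * |(embMatrix m'' σ).det|) →
      (F.card : ℝ) ≤ N) :
    μ {x | ¬ Iface_792.Thick x r} ≤ V⁻¹ * ENNReal.ofReal (2 ^ (d + 1) * N * L ^ d) := by
  refine lattice_le h (fun _ => False) hr hL0 hL ?_ _ ?_
  · intro F hF
    refine hN F fun M hM => ?_
    obtain ⟨m'', h1, h2, -, h3⟩ := hF M hM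
    exact ⟨m'', h1, h2, h3⟩
  · intro x hx hpk
    simp only [mem_ofPred_eq, Iface_792.Thick, not_forall, not_le] at hx
    obtain ⟨v, ⟨g, rfl, z, rfl⟩, hv0, hvr⟩ := hx
    have hz : z ≠ 0 := by
      rintro rfl
      apply hv0
      have : (fun i => (((0 : Fin (d + 1) → ℤ) i : ℤ) : ℝ)) = 0 := by
        funext i; simp
      rw [this, Matrix.zero_vecMul]
    obtain ⟨p, k, hk, hzp, hp⟩ := exists_prim_of_ne z hz
    obtain ⟨m'', hrep, -⟩ := exists_rep g hpk p 0 hp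
    refine ⟨m'', _, hrep, fun j => ?_, not_false⟩
    have h1 : ((fun i => (z i : ℝ)) ᵥ* g.1) j = k * ((fun i => (p i : ℝ)) ᵥ* g.1) j := by
      have h2 : (fun i => (z i : ℝ)) = (k : ℝ) • (fun i => (p i : ℝ)) := by
        funext i
        simp only [hzp i, Pi.smul_apply, smul_eq_mul]
        push_cast
        rfl
      rw [h2, Matrix.smul_vecMul]
      rfl
    have h3 : |((fun i => (z i : ℝ)) ᵥ* g.1) j| ≤ r :=
      ((norm_le_pi_norm ((fun i => (z i : ℝ)) ᵥ* g.1) j).trans hvr.le)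
    rw [h1, abs_mul] at h3
    have h4 : (1 : ℝ) ≤ |(k : ℝ)| := by exact_mod_cast Int.one_le_abs hk
    nlinarith [abs_nonneg (((fun i => (p i : ℝ)) ᵥ* g.1) j)]

/-- **complement of the good set.** -/
theorem good_compl_le {m : LatticeBasis (d + 1) K} {σ : Fin (d + 1) ≃ (K →+* ℝ)}
    {μ : Measure (ModSpace (d + 1))} {V : ℝ≥0∞} (h : IsPk m σ μ V)
    (G : Submodule ℤ K → Prop) {R N L : ℝ} (hR : 0 < R) (hL0 : 0 ≤ L)
    (hL : Real.log (Real.sqrt (latticeDisc m)) + (d + 1) * Real.log R ≤ L)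
    (hN : ∀ F : Finset (Submodule ℤ K), (∀ M ∈ F, ∃ m'' : LatticeBasis (d + 1) K,
      m''.lattice = M ∧ InCl m m'' ∧ ¬ G M ∧ 1 ≤ R ^ (d + 1) * |(embMatrix m'' σ).det|) →
      (F.card : ℝ) ≤ N) :
    μ (Good m σ G R)ᶜ ≤ V⁻¹ * ENNReal.ofReal (2 ^ (d + 1) * N * L ^ d) := by
  refine lattice_le h G hR hL0 hL hN _ ?_
  intro z hz _
  simp only [Good, mem_compl_iff, mem_ofPred_eq, not_forall] at hz
  obtain ⟨m'', v, hrep, hv, hG⟩ := hz
  exact ⟨m'', v, hrep, hv, hG⟩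

/-- **slab bound.** -/
theorem slab_le {m : LatticeBasis (d + 1) K} {σ : Fin (d + 1) ≃ (K →+* ℝ)}
    {μ : Measure (ModSpace (d + 1))} {V : ℝ≥0∞} (h : IsPk m σ μ V)
    (G : Submodule ℤ K → Prop) (x : ModSpace (d + 1)) (S : Finset (Fin (d + 1)))
    {R η N L : ℝ} (hR : 1 ≤ R) (hη : 0 ≤ η)
    (hL : (d + 1) * Real.log (latticeDisc m) + 2 * (d + 1) * Real.log (2 * (d + 1) * R) ≤ L)
    (hN : ∀ (t : ℤ) (s : ℝ) (F : Finset (Submodule ℤ K × K)),
      (∀ Mβ ∈ F, ∃ m'' : LatticeBasis (d + 1) K, m''.lattice = Mβ.1 ∧ InCl m m'' ∧ G Mβ.1 ∧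
        Mβ.2 ∈ Sl_652.TrDual Mβ.1 σ ∧ Mβ.2 ≠ 0 ∧ ∑ j, σ j Mβ.2 = t ∧
        (∀ j, |σ j Mβ.2| ≤ (2 * (d + 1) * R) ^ 2) ∧
        |∑ j ∈ S, σ j Mβ.2 - s| ≤ 4 * (d + 1) ^ 3 * R * η) → (F.card : ℝ) ≤ N) :
    μ (Good m σ G (2 * (d + 1) * R) ∩ (act x) '' Iface_792.Box S R η) ≤
      V⁻¹ * ENNReal.ofReal (2 ^ (d + 1) * N * L ^ d) := by
  classical
  obtain ⟨g, rfl⟩ := Quotient.exists_rep x
  obtain ⟨p, hp, hpg⟩ := exists_prim g
  obtain ⟨q, hq, hqg⟩ := exists_dual_vec g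
  set t : ℤ := ∑ i, p i * q i with ht
  set s : ℝ := ∑ j ∈ S, ((fun i => (p i : ℝ)) ᵥ* g.1) j * (g⁻¹.1 *ᵥ fun i => (q i : ℝ)) j with hs
  set c : ℝ := 2 * (d + 1) * R with hc
  have hc1 : 1 ≤ c := by
    rw [hc]
    have : (0 : ℝ) ≤ d := Nat.cast_nonneg d
    nlinarith
  set A : Set (Submodule ℤ K × K) := {Mβ | ∃ m'' : LatticeBasis (d + 1) K, m''.lattice = Mβ.1 ∧
      InCl m m'' ∧ G Mβ.1 ∧
        Mβ.2 ∈ Sl_652.TrDual Mβ.1 σ ∧ Mβ.2 ≠ 0 ∧ ∑ j, σ j Mβ.2 = t ∧
        (∀ j, |σ j Mβ.2| ≤ c ^ 2) ∧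
        |∑ j ∈ S, σ j Mβ.2 - s| ≤ 4 * (d + 1) ^ 3 * R * η} with hA
  have hfin : A.Finite := finite_of_card_le (hN t s)
  have hD1 := Sl_652.one_le_latticeDisc m σ
  have hcard : (hfin.toFinset.card : ℝ) ≤ N := hN t s _ fun M hM => hfin.mem_toFinset.1 hM
  refine (unfold_le h hfin.toFinset c (latticeDisc m ^ (d + 1)) hc1 (one_le_pow₀ hD1) ?_ _
    ?_).trans ?_
  · intro Mβ hM
    obtain ⟨m'', h1, h2, -, h3, h4, -⟩ := hfin.mem_toFinset.1 hM
    exact norm_ge σ h2.locHom h2.one_mem (by rw [h1]; exact h3) h4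
  · rintro z ⟨hzG, h0, ⟨hbox, hcross⟩, rfl⟩ hpk
    have hz : act (Quotient.mk _ g : ModSpace (d + 1)) h0 = Quotient.mk _ (g * h0) := rfl
    rw [hz] at hpk hzG ⊢
    obtain ⟨m'', hrep, β, hβ, hβT⟩ := exists_rep (g * h0) hpk p q hp
    set v := (fun i => (p i : ℝ)) ᵥ* (g * h0).1 with hv
    set w := (g * h0)⁻¹.1 *ᵥ (fun i => (q i : ℝ)) with hw
    set v0 := (fun i => (p i : ℝ)) ᵥ* g.1 with hv0
    set w0 := g⁻¹.1 *ᵥ (fun i => (q i : ℝ)) with hw0
    have hvv : v = v0 ᵥ* h0.1 := by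
      rw [hv, hv0, Matrix.vecMul_vecMul]
      rfl
    have hww : w = h0⁻¹.1 *ᵥ w0 := by
      rw [hw, hw0, Matrix.mulVec_mulVec, _root_.mul_inv_rev]
      rfl
    have hvb : ∀ j, |v j| ≤ c := by
      intro j
      rw [hvv]
      simp only [Matrix.vecMul, dotProduct]
      refine (Finset.abs_sum_le_sum_abs _ _).trans ?_
      refine (Finset.sum_le_card_nsmul _ _ (2 * R) fun i _ => ?_).trans ?_
      · rw [abs_mul]
        exact mul_le_mul (hpg i) (hbox i j).1 (abs_nonneg _) (by norm_num)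
      · rw [Finset.card_univ, Fintype.card_fin, nsmul_eq_mul, hc]
        push_cast
        linarith
    have hwb : ∀ j, |w j| ≤ c := by
      intro j
      rw [hww]
      simp only [Matrix.mulVec, dotProduct]
      refine (Finset.abs_sum_le_sum_abs _ _).trans ?_
      refine (Finset.sum_le_card_nsmul _ _ (R * 2) fun i _ => ?_).trans ?_
      · rw [abs_mul]
        exact mul_le_mul (hbox j i).2 (hqg i) (abs_nonneg _) (by linarith)
      · rw [Finset.card_univ, Fintype.card_fin, nsmul_eq_mul, hc]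
        push_cast
        linarith
    have hσβ : ∀ j, |σ j β| ≤ c * |v j| := by
      intro j
      rw [hβ j, abs_mul, mul_comm]
      exact mul_le_mul_of_nonneg_right (hwb j) (abs_nonneg _)
    refine ⟨m'', v, β, hrep, ?_, hvb, hσβ⟩
    rw [hfin.mem_toFinset]
    refine ⟨m'', rfl, hrep.inCl, hzG m'' v hrep hvb, hβT, ?_, ?_, ?_, ?_⟩
    · -- β ≠ 0
      rintro rfl
      have h1 : w = 0 := by
        funext j
        have h2 := hβ j
        rw [map_zero] at h2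
        rcases mul_eq_zero.1 h2.symm with h3 | h3
        · exact absurd h3 (hrep.ne j)
        · exact h3
      apply hq
      have h2 : (g * h0).1 *ᵥ w = fun i => (q i : ℝ) := by
        rw [hw, Matrix.mulVec_mulVec, ← Matrix.SpecialLinearGroup.coe_mul, mul_inv_cancel,
          Matrix.SpecialLinearGroup.coe_one, Matrix.one_mulVec]
      rw [h1, Matrix.mulVec_zero] at h2
      funext i
      have h3 := congrFun h2 i
      simp only [Pi.zero_apply] at h3
      exact_mod_cast h3.symm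
    · have h1 := sum_mul_eq (g * h0) p q
      rw [← h1]
      exact Finset.sum_congr rfl fun j _ => hβ j
    · intro j
      refine (hσβ j).trans ?_
      rw [sq]
      exact mul_le_mul_of_nonneg_left (hvb j) (by linarith)
    · have h1 := slab_disp h0.1 h0⁻¹.1 (by
        rw [← Matrix.SpecialLinearGroup.coe_mul, mul_inv_cancel,
          Matrix.SpecialLinearGroup.coe_one]) S hη (fun i j => (hbox i j).2)
        (fun i j hij => (hcross i j hij).1) hpg hqg
      rw [← hvv, ← hww] at h1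
      have h2 : ∑ j ∈ S, σ j β = ∑ j ∈ S, v j * w j := Finset.sum_congr rfl fun j _ => hβ j
      rw [h2]
      refine h1.trans (le_of_eq ?_)
      push_cast
      ring
  · have hlog : Real.log (latticeDisc m ^ (d + 1)) + 2 * (d + 1) * Real.log c ≤ L := by
      rw [Real.log_pow]
      push_cast
      exact hL
    have hlog0 : 0 ≤ Real.log (latticeDisc m ^ (d + 1)) + 2 * (d + 1) * Real.log c := by
      have h1 := Real.log_nonneg (one_le_pow₀ (n := d + 1) hD1)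
      have h2 := Real.log_nonneg hc1
      positivity
    have hN0 : (0 : ℝ) ≤ N := le_trans (Nat.cast_nonneg _) hcard
    gcongr

end Crest.Agent.R014.Unf_71
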