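import Crest.Agent.R014.N2Cnt_675
import Crest.Agent.R014.Unf5_71
import Crest.Agent.R014.Vol6_834
import Crest.Agent.R014.TS3_837
import Crest.Agent.R014.Loc4_524
import Crest.Agent.R014.Iface_792

/-!
Row 14, part N2 (helper675): the final counts in the form consumed by `Unf5_71`, and their
transformation into bounds of measures.
-/

set_option autoImplicit false

open Crest.NumberTheoryR.Packets Module NumberField MeasureTheory
open scoped nonZeroDivisors ENNReal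

namespace Crest.Agent.R014.N2_675

open Crest.Agent.R014.Sl_652 Crest.Agent.R014.DivB_684
open Crest.Agent.R014.Unf_71 (InCl IsPk Good)
open Crest.Agent.R014.LocDefs_524 (IsTy)

noncomputable section

universe u

/-- The slab count of TRSLAB in the form of `Sl2_652`. -/
theorem exists_slabCount (n : ℕ) : ∃ C : ℝ, 0 < C ∧ SlabCount n C := by
  obtain ⟨C, hC, h⟩ := TS3_837.slab_count n
  exact ⟨C, hC, fun b R hR h1 hsep S hS hS' t s c r hc hr => h b R hR h1 hsep S hS hS' t s c r hc hr⟩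

/-- The bound of the bad types (shape of `bad_sum_le` of helper524). -/
def BadSum (n : ℕ) : Prop :=
  ∃ δ η C : ℝ, 0 < δ ∧ 0 < η ∧ 0 < C ∧ ∀ (K : Type u) [Field K] [NumberField K]
    [NumberField.IsTotallyReal K], IsPrimitiveField K →
    ∀ (m : LatticeBasis n K) (σ : Fin n ≃ (K →+* ℝ)) (B : Finset (AddSubgroup K)),
    (∀ P ∈ B, IsTy m P ∧ Bad P σ (latticeDisc m ^ δ)) →
    ∑ P ∈ B, (((multiplierOrder m).relIndex P : ℕ) : ℝ)⁻¹ ≤ C * latticeDisc m ^ (-η)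

/-- The parts of the lattices of the class are types. -/
def Bridge (n : ℕ) : Prop :=
  ∀ (K : Type u) [Field K] [NumberField K] (m m1 : LatticeBasis n K), LocallyHomothetic m m1 →
    (1 : K) ∈ m1.lattice → IsTy m (LocDefs_524.fPart m m1)

variable {K : Type u} [Field K] [NumberField K] {d : ℕ}

theorem isTy_fP {n : ℕ} (hbr : Bridge.{u} n) {m : LatticeBasis n K} {M : Submodule ℤ K}
    (h : InCls m M) : IsTy m (fP m M) := by
  obtain ⟨m1, a1, rfl, b1⟩ := h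
  have := hbr K m m1 a1 b1
  have e : LocDefs_524.fPart m m1 = fP m m1.lattice := by ext x; rfl
  rwa [e] at this

theorem inCls_of {m m'' : LatticeBasis (d + 1) K} {M : Submodule ℤ K} (h : m''.lattice = M)
    (hc : InCl m m'') : InCls m M :=
  ⟨m'', hc.locHom, h, by rw [← h]; exact hc.one_mem⟩

theorem fIdx_le_disc {n : ℕ} (m : LatticeBasis n K) (σ : Fin n ≃ (K →+* ℝ)) :
    (fIdx m : ℝ) ≤ latticeDisc m := by
  have hf1 : (1 : ℝ) ≤ fIdx m := by exact_mod_cast fIdx_pos m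
  have h1 : (1 : ℝ) ≤ |(NumberField.discr K : ℝ)| := by
    have : (1 : ℤ) ≤ |NumberField.discr K| := Int.one_le_abs (NumberField.discr_ne_zero K)
    exact_mod_cast this
  rw [latticeDisc_eq]
  nlinarith

/-- Sum over all types. -/
theorem sum_ty_le {n : ℕ} {m : LatticeBasis n K} (σ : Fin n ≃ (K →+* ℝ)) {ε : ℝ}
    (hε : 0 < ε) (B : Finset (AddSubgroup K)) (hB : ∀ P ∈ B, IsTy m P) :
    ∑ P ∈ B, (ix m P)⁻¹ ≤ (CDiv 1 (ε / (n + 1))) ^ n * latticeDisc m ^ ε := by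
  have h1 := Loc4_524.ty_sum_le m B hB
  have h2 := pow_omega_le hε n (fIdx m) (fIdx_pos m).ne'
  have h3 : (2 : ℝ) ^ (n * (LocDefs_524.fIdx m).primeFactors.card) =
      ((2 : ℝ) ^ n) ^ (fIdx m).primeFactors.card := by
    rw [pow_mul]; rfl
  rw [h3] at h1
  refine (show ∑ P ∈ B, (ix m P)⁻¹ ≤ _ from h1).trans (h2.trans ?_)
  have h4 : 0 ≤ (CDiv 1 (ε / ((n : ℝ) + 1))) ^ n := by
    have := one_le_CDiv 1 (ε := ε / ((n : ℝ) + 1)) (by positivity)
    positivity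
  refine mul_le_mul_of_nonneg_left ?_ h4
  exact Real.rpow_le_rpow (Nat.cast_nonneg _) (fIdx_le_disc m σ) hε.le

/-- count of lattices with a bound `A` of the sum over the types. -/
theorem count_lattices {ε : ℝ} (hε : 0 < ε) (hbr : Bridge.{u} (d + 1))
    (m : LatticeBasis (d + 1) K) (σ : Fin (d + 1) ≃ (K →+* ℝ)) {r A : ℝ} (hr : 0 < r)
    (Q : Submodule ℤ K → Prop)
    (hA : ∀ B : Finset (AddSubgroup K), (∀ P ∈ B, IsTy m P ∧ ∃ M, Q M ∧ fP m M = P) →
      ∑ P ∈ B, (ix m P)⁻¹ ≤ A)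
    (F : Finset (Submodule ℤ K)) (hF : ∀ M ∈ F, ∃ m'' : LatticeBasis (d + 1) K,
      m''.lattice = M ∧ InCl m m'' ∧ Q M ∧ 1 ≤ r ^ (d + 1) * |(embMatrix m'' σ).det|) :
    (F.card : ℝ) ≤ CDiv (d + 1) (ε / (d + 1)) *
      (Real.sqrt (latticeDisc m) * r ^ (d + 1)) ^ (1 + ε) * A := by
  classical
  have hX : 0 ≤ Real.sqrt (latticeDisc m) * r ^ (d + 1) := by positivity
  have hcls : ∀ M ∈ F, InCls m M := fun M hM => by
    obtain ⟨m'', a, b, -⟩ := hF M hM
    exact inCls_of a b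
  have h1 := card_lattices_le hε m σ hX F (by
    intro M hM
    obtain ⟨m'', a, b, -, c⟩ := hF M hM
    refine ⟨m'', b.locHom, a, by rw [← a]; exact b.one_mem, ?_⟩
    rw [mul_assoc]
    exact le_mul_of_one_le_right (Real.sqrt_nonneg _) c) (F.image (fP m))
    (fun M hM => Finset.mem_image_of_mem _ hM) (by
      intro P hP
      obtain ⟨M, hM, rfl⟩ := Finset.mem_image.mp hP
      exact ix_pos (hcls M hM))
  have h2 : ∑ P ∈ F.image (fP m), (ix m P)⁻¹ ≤ A := by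
    apply hA
    intro P hP
    obtain ⟨M, hM, rfl⟩ := Finset.mem_image.mp hP
    obtain ⟨m'', a, b, q, -⟩ := hF M hM
    exact ⟨isTy_fP hbr (hcls M hM), M, q, rfl⟩
  refine h1.trans ?_
  push_cast
  refine mul_le_mul_of_nonneg_left h2 ?_
  have := one_le_CDiv (d + 1) (ε := ε / ((d : ℝ) + 1)) (by positivity)
  positivity

/-- count of pairs. -/
theorem count_pairs {C : ℝ} (hC0 : 0 ≤ C) (hC : SlabCount (d + 1) C) {ε : ℝ} (hε : 0 < ε)
    (hbr : Bridge.{u} (d + 1))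
    (m : LatticeBasis (d + 1) K) (σ : Fin (d + 1) ≃ (K →+* ℝ)) (S : Finset (Fin (d + 1)))
    (hS : S.Nonempty) (hS' : S ≠ Finset.univ) (t s c r T : ℝ) (hc : 1 ≤ c) (hT : 2 ≤ T)
    (hr : 2 / T ≤ r)
    (F : Finset (Submodule ℤ K × K))
    (hF : ∀ Mβ ∈ F, ∃ m'' : LatticeBasis (d + 1) K, m''.lattice = Mβ.1 ∧ InCl m m'' ∧
        ¬ Bad (fP m Mβ.1) σ T ∧
        Mβ.2 ∈ Sl_652.TrDual Mβ.1 σ ∧ Mβ.2 ≠ 0 ∧ ∑ j, σ j Mβ.2 = t ∧
        (∀ j, |σ j Mβ.2| ≤ c) ∧ |∑ j ∈ S, σ j Mβ.2 - s| ≤ r) :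
    (F.card : ℝ) ≤ (CDiv (d + 1) ε * ((latticeDisc m * c) ^ (d + 1)) ^ ε) *
      (C * c ^ d * r * Real.sqrt (latticeDisc m)) *
      ((CDiv 1 (ε / (d + 1 + 1))) ^ (d + 1) * latticeDisc m ^ ε) := by
  classical
  have hcls : ∀ q ∈ F, InCls m q.1 := fun q hq => by
    obtain ⟨m'', a, b, -⟩ := hF q hq
    exact inCls_of a b
  have h1 := card_pairs_le hC0 hC hε m σ S hS hS' t s c r T hc hT hr F (by
    intro q hq
    obtain ⟨m'', a, b, g, h2, h3, h4, h5, h6⟩ := hF q hq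
    refine ⟨inCls_of a b, ?_, g, h2, h3, h4, h5, h6⟩
    intro k y hy hk
    rw [← a] at hy
    exact b.prim k y hy hk) (F.image fun q => fP m q.1)
    (fun q hq => Finset.mem_image_of_mem _ hq) (by
      intro P hP
      obtain ⟨M, hM, rfl⟩ := Finset.mem_image.mp hP
      exact ix_pos (hcls M hM))
  have h2 := sum_ty_le σ hε (F.image fun q => fP m q.1) (by
    intro P hP
    obtain ⟨M, hM, rfl⟩ := Finset.mem_image.mp hP
    exact isTy_fP hbr (hcls M hM))
  refine h1.trans ?_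
  simp only [Nat.add_sub_cancel]
  push_cast at h2 ⊢
  refine mul_le_mul_of_nonneg_left h2 ?_
  have := one_le_CDiv (d + 1) hε
  have hr0 : 0 ≤ r := le_trans (by positivity) hr
  have hD := Sl_652.one_le_latticeDisc m σ
  positivity

end

end Crest.Agent.R014.N2_675
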