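import Crest.Agent.R014.Pk5_349
import Crest.Agent.R014.Iface_792

/-!
Row 14, packets, part 6 (helper349): the interface statement `Iface_792.Pack`.
-/

set_option autoImplicit false

open MeasureTheory
open Crest.NumberTheoryR.Packets

universe u

namespace Crest.Agent.R014.Pk6_349

open Crest.Agent.R014.Pk5_349

/-- The packet side of the assembly: existence, mass one and invariance of packet measures. -/
theorem pack (d : ℕ) : Crest.Agent.R014.Iface_792.Pack.{u} d := by
  intro K _ _ _ _ m σ
  refine ⟨exists_packet m σ, fun μ hμ => ⟨isProbabilityMeasure_of_packet hμ, fun u => ?_⟩⟩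
  exact map_flow_of_packet hμ u

end Crest.Agent.R014.Pk6_349
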