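import Crest.Agent.R014.N2Fin_675
import Crest.Agent.R014.Pk6_349

/-!
Row 14, part N2 (helper675): **Theorem A** (`Iface_792.ThmA`) from the lower bound of the residue
(N1), the bound of the bad types and the bridge.
-/

set_option autoImplicit false

open Crest.NumberTheoryR.Packets Module NumberField MeasureTheory Filter Asymptotics
open scoped nonZeroDivisors ENNReal

namespace Crest.Agent.R014.N2_675

open Crest.Agent.R014.Sl_652 Crest.Agent.R014.DivB_684
open Crest.Agent.R014.Unf_71 (InCl IsPk Good)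
open Crest.Agent.R014.LocDefs_524 (IsTy)

noncomputable section

universe u

section bounds

variable {K : Type u} [Field K] [NumberField K] {d : ℕ}

theorem isPk_vol {m : LatticeBasis (d + 1) K} {σ : Fin (d + 1) ≃ (K →+* ℝ)}
    {μ : Measure (ModSpace (d + 1))} {V : ℝ≥0∞} (h : IsPk m σ μ V) :
    V = Pk5_349.packVol m σ := by
  obtain ⟨k, x, D, h1, h2, h3, h4, h5⟩ := h
  rw [h5]
  exact Pk5_349.sum_volume_eq h1 h2 (fun i => (h3 i).1)

/-- cusp bound with explicit constants. -/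
theorem cusp_le {ε : ℝ} (hε : 0 < ε) (hbr : Bridge.{u} (d + 1))
    {m : LatticeBasis (d + 1) K} {σ : Fin (d + 1) ≃ (K →+* ℝ)}
    {μ : Measure (ModSpace (d + 1))} {V : ℝ≥0∞} (h : IsPk m σ μ V) {r : ℝ} (hr : 0 < r)
    (hr1 : r ≤ 1) :
    μ {x | ¬ Iface_792.Thick x r} ≤ V⁻¹ * ENNReal.ofReal
      (2 ^ (d + 1) * (CDiv (d + 1) (ε / (d + 1)) *
        (Real.sqrt (latticeDisc m) * r ^ (d + 1)) ^ (1 + ε) *
        ((CDiv 1 (ε / (d + 1 + 1))) ^ (d + 1) * latticeDisc m ^ ε)) *
        (Real.log (latticeDisc m)) ^ d) := by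
  have hD := one_le_latticeDisc m σ
  have hlog : 0 ≤ Real.log (latticeDisc m) := Real.log_nonneg hD
  refine Unf_71.thin_le h hr hlog ?_ ?_
  · rw [Real.log_sqrt (by linarith)]
    have : Real.log r ≤ 0 := Real.log_nonpos hr.le hr1
    have hd : (0 : ℝ) ≤ d := Nat.cast_nonneg d
    nlinarith
  · intro F hF
    refine count_lattices hε hbr m σ hr (fun _ => True) ?_ F ?_
    · intro B hB
      have := sum_ty_le σ hε B (fun P hP => (hB P hP).1)
      push_cast at this
      exact this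
    · intro M hM
      obtain ⟨m'', a, b, c⟩ := hF M hM
      exact ⟨m'', a, b, trivial, c⟩

/-- bound of the complement of the good set. -/
theorem good_compl_le {ε e T A : ℝ} (hε : 0 < ε) (he : 0 ≤ e) (hbr : Bridge.{u} (d + 1))
    {m : LatticeBasis (d + 1) K} {σ : Fin (d + 1) ≃ (K →+* ℝ)}
    {μ : Measure (ModSpace (d + 1))} {V : ℝ≥0∞} (h : IsPk m σ μ V)
    (hDn : 2 * ((d : ℝ) + 1) ≤ latticeDisc m)
    (hbad : ∀ B : Finset (AddSubgroup K), (∀ P ∈ B, IsTy m P ∧ Bad P σ T) →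
      ∑ P ∈ B, (ix m P)⁻¹ ≤ A) :
    μ (Good m σ (fun M => ¬ Bad (fP m M) σ T) (2 * (d + 1) * latticeDisc m ^ e))ᶜ ≤
      V⁻¹ * ENNReal.ofReal
      (2 ^ (d + 1) * (CDiv (d + 1) (ε / (d + 1)) *
        (Real.sqrt (latticeDisc m) * (2 * (d + 1) * latticeDisc m ^ e) ^ (d + 1)) ^ (1 + ε) * A) *
        ((1 + (d + 1) + (d + 1) * e) * Real.log (latticeDisc m)) ^ d) := by
  have hD := one_le_latticeDisc m σ
  have hD0 : 0 < latticeDisc m := by linarith
  have hlog : 0 ≤ Real.log (latticeDisc m) := Real.log_nonneg hD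
  have hd : (0 : ℝ) ≤ d := Nat.cast_nonneg d
  refine Unf_71.good_compl_le h _ (by positivity) (by positivity) ?_ ?_
  · rw [Real.log_sqrt hD0.le, Real.log_mul (by positivity) (Real.rpow_pos_of_pos hD0 _).ne',
      Real.log_rpow hD0]
    have h1 : Real.log (2 * ((d : ℝ) + 1)) ≤ Real.log (latticeDisc m) :=
      Real.log_le_log (by positivity) hDn
    nlinarith
  · intro F hF
    refine count_lattices hε hbr m σ (by positivity)
      (fun M => ¬ ¬ Bad (fP m M) σ T) ?_ F hF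
    intro B hB
    refine hbad B fun P hP => ?_
    obtain ⟨h1, M, h2, rfl⟩ := hB P hP
    exact ⟨h1, not_not.mp h2⟩

/-- slab bound with explicit constants. -/
theorem slab_le {ε e T δ Cs : ℝ} (hε : 0 < ε) (he : 0 ≤ e) (hCs : 0 ≤ Cs)
    (hslab : SlabCount (d + 1) Cs) (hbr : Bridge.{u} (d + 1))
    {m : LatticeBasis (d + 1) K} {σ : Fin (d + 1) ≃ (K →+* ℝ)}
    {μ : Measure (ModSpace (d + 1))} {V : ℝ≥0∞} (h : IsPk m σ μ V)
    (hDn : 2 * ((d : ℝ) + 1) ≤ latticeDisc m) (hT : 2 ≤ T) (hδ : T⁻¹ ≤ δ)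
    (x : ModSpace (d + 1)) (S : Finset (Fin (d + 1))) (hS : S.Nonempty) (hS' : S ≠ Finset.univ) :
    μ (Good m σ (fun M => ¬ Bad (fP m M) σ T) (2 * (d + 1) * latticeDisc m ^ e) ∩
      (act x) '' Iface_792.Box S (latticeDisc m ^ e) δ) ≤
      V⁻¹ * ENNReal.ofReal
      (2 ^ (d + 1) * ((CDiv (d + 1) ε *
        ((latticeDisc m * (2 * (d + 1) * latticeDisc m ^ e) ^ 2) ^ (d + 1)) ^ ε) *
        (Cs * ((2 * (d + 1) * latticeDisc m ^ e) ^ 2) ^ d *
          (4 * (d + 1) ^ 3 * latticeDisc m ^ e * δ) * Real.sqrt (latticeDisc m)) *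
        ((CDiv 1 (ε / (d + 1 + 1))) ^ (d + 1) * latticeDisc m ^ ε)) *
        ((3 * (d + 1) + 2 * (d + 1) * e) * Real.log (latticeDisc m)) ^ d) := by
  have hD := one_le_latticeDisc m σ
  have hD0 : 0 < latticeDisc m := by linarith
  have hlog : 0 ≤ Real.log (latticeDisc m) := Real.log_nonneg hD
  have hd : (0 : ℝ) ≤ d := Nat.cast_nonneg d
  have hR : 1 ≤ latticeDisc m ^ e := Real.one_le_rpow hD he
  have hT0 : 0 < T := by linarith
  have hδ0 : 0 < δ := lt_of_lt_of_le (inv_pos.mpr hT0) hδ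
  refine Unf_71.slab_le h _ x S hR hδ0.le ?_ ?_
  · rw [Real.log_mul (by positivity) (Real.rpow_pos_of_pos hD0 _).ne', Real.log_rpow hD0]
    have h1 : Real.log (2 * ((d : ℝ) + 1)) ≤ Real.log (latticeDisc m) :=
      Real.log_le_log (by positivity) hDn
    nlinarith
  · intro t s F hF
    refine count_pairs hCs hslab hε hbr m σ S hS hS' t s _ _ T ?_ hT ?_ F hF
    · refine one_le_pow₀ ?_
      nlinarith
    · have h1 : 2 / T ≤ 2 * δ := by
        rw [div_eq_mul_inv]; linarith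
      refine h1.trans ?_
      have h2 : (1 : ℝ) ≤ ((d : ℝ) + 1) ^ 3 := one_le_pow₀ (by linarith)
      have h3 : (2 : ℝ) ≤ 4 * ((d : ℝ) + 1) ^ 3 * latticeDisc m ^ e := by nlinarith
      exact mul_le_mul_of_nonneg_right h3 hδ0.le

end bounds

/-- **Theorem A**. -/
theorem thmA_of {d : ℕ} (hN1 : Vol6_834.ResLower.{u} (d + 1)) (hbad : BadSum.{u} (d + 1))
    (hbr : Bridge.{u} (d + 1)) : Iface_792.ThmA.{u} d := by
  obtain ⟨δ0, η0, Cb, hδ0, hη0, hCb, hbad⟩ := hbad
  obtain ⟨Cs, hCs, hslab⟩ := exists_slabCount (d + 1)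
  have hd : (0 : ℝ) ≤ d := Nat.cast_nonneg d
  set e0 : ℝ := min 1 (η0 / (4 * (d + 1))) with he0
  have he00 : 0 < e0 := by
    rw [he0]; positivity
  have he01 : e0 ≤ 1 := min_le_left _ _
  have he02 : (d + 1) * e0 ≤ η0 / 4 := by
    have : e0 ≤ η0 / (4 * (d + 1)) := min_le_right _ _
    calc ((d : ℝ) + 1) * e0 ≤ (d + 1) * (η0 / (4 * (d + 1))) := by gcongr
      _ = η0 / 4 := by field_simp
  set C : ℝ := max (4 * (d + 1) + 4) (δ0 / e0) with hC
  have hC1 : 4 * ((d : ℝ) + 1) + 4 ≤ C := le_max_left _ _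
  have hC2 : δ0 / e0 ≤ C := le_max_right _ _
  have hC0 : 0 < C := by linarith
  refine ⟨δ0, C, hδ0, hC0, fun e he => ?_⟩
  set ε : ℝ := min (e / 4) (min (1 / 8) (η0 / 16)) with hεd
  have hε : 0 < ε := by rw [hεd]; positivity
  have hε1 : ε ≤ e / 4 := min_le_left _ _
  have hε2 : ε ≤ 1 / 8 := (min_le_right _ _).trans (min_le_left _ _)
  have hε3 : ε ≤ η0 / 16 := (min_le_right _ _).trans (min_le_right _ _)
  obtain ⟨cV, hcV, hvol⟩ := Vol6_834.packVol_ge_latticeDisc hN1 hε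
  have hCD1 : 0 ≤ CDiv (d + 1) (ε / (d + 1)) :=
    le_trans zero_le_one (one_le_CDiv _ (by positivity))
  have hCD2 : 0 ≤ CDiv (d + 1) ε := le_trans zero_le_one (one_le_CDiv _ (by positivity))
  have hCD3 : 0 ≤ (CDiv 1 (ε / (d + 1 + 1))) ^ (d + 1) :=
    pow_nonneg (le_trans zero_le_one (one_le_CDiv _ (by positivity))) _
  have E1 := cusp_real d (e := e) hε hcV hCD3 hCD1 (by linarith)
  by_cases hee : e ≤ e0
  · -- the main case
    have hne : ((d : ℝ) + 1) * e ≤ η0 / 4 := le_trans (by gcongr) he02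
    have he1 : e ≤ 1 := hee.trans he01
    have E2 := good_real d (e := e) (ε := ε) (η := η0 / 4) (η0 := η0) he.le hε hcV hCb.le hCD1
      (by nlinarith)
    have E3 := slab_real d (e := e) (ε := ε) (C := C) he.le hε hcV hCs.le hCD3 hCD2 (by
      have h1 : ((d : ℝ) + 1) * ε * (1 + 2 * e) ≤ (d + 1) * (e / 4) * 3 := by
        gcongr
        linarith
      have h2 : (4 * ((d : ℝ) + 1) + 4) * e ≤ C * e := by gcongr
      nlinarith)
    have E4 : ∀ᶠ D : ℝ in atTop, 2 ≤ D ^ δ0 := (tendsto_rpow_atTop hδ0).eventually_ge_atTop 2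
    obtain ⟨D₀, hD₀⟩ := eventually_atTop.mp
      (E1.and (E2.and (E3.and (E4.and (eventually_ge_atTop (2 * ((d : ℝ) + 1)))))))
    refine ⟨max D₀ 2, η0 / 4, lt_of_lt_of_le (by norm_num) (le_max_right _ _), by positivity, ?_⟩
    intro K _ _ _ hfin hprim m σ hDm μ hμ
    obtain ⟨V, hV⟩ := Unf_71.isPacketMeasure_iff.mp hμ
    obtain ⟨F1, F2, F3, F4, F5⟩ := hD₀ (latticeDisc m) ((le_max_left _ _).trans hDm)
    have hD1 := one_le_latticeDisc m σ
    have hD0 : 0 < latticeDisc m := by linarith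
    have hvolV : ENNReal.ofReal (cV * latticeDisc m ^ (1 / 2 - ε)) ≤ V := by
      rw [isPk_vol hV]; exact hvol K hprim m σ
    have hv0 : 0 < cV * latticeDisc m ^ (1 / 2 - ε) := mul_pos hcV (Real.rpow_pos_of_pos hD0 _)
    have hprob : IsProbabilityMeasure μ := (Pk6_349.pack d K hfin m σ).2 μ hμ |>.1
    have hbadm := hbad K hprim m σ
    refine ⟨?_, ?_⟩
    · set G := Good m σ (fun M => ¬ Bad (fP m M) σ (latticeDisc m ^ δ0))
        (2 * (d + 1) * latticeDisc m ^ e) with hG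
      refine ⟨(toMeasurable μ Gᶜ)ᶜ, (measurableSet_toMeasurable _ _).compl, ?_, ?_⟩
      · rw [compl_compl, measure_toMeasurable]
        refine meas_le hv0 hvolV (Real.rpow_nonneg hD0.le _)
          (good_compl_le hε he.le hbr hV F5 (A := Cb * latticeDisc m ^ (-η0)) hbadm) ?_
        exact F2
      · intro x _ S hS hS' δ hδ hδ1
        have hδ0' : 0 < δ := lt_of_lt_of_le (Real.rpow_pos_of_pos hD0 _) hδ
        have hsub : (toMeasurable μ Gᶜ)ᶜ ∩ act x '' Iface_792.Box S (latticeDisc m ^ e) δ ⊆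
            G ∩ act x '' Iface_792.Box S (latticeDisc m ^ e) δ := by
          refine Set.inter_subset_inter_left _ ?_
          rw [Set.compl_subset_comm]
          exact subset_toMeasurable _ _
        refine (measure_mono hsub).trans ?_
        refine meas_le hv0 hvolV (by positivity)
          (slab_le hε he.le hCs.le hslab hbr hV F5 F4 ?_ x S hS hS') (F3 δ hδ0'.le)
        rw [← Real.rpow_neg hD0.le]; exact hδ
    · intro r hr
      rcases le_or_gt r 1 with hr1 | hr1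
      · exact meas_le hv0 hvolV (by positivity) (cusp_le hε hbr hV hr hr1) (F1 r hr hr1)
      · refine prob_le_one.trans ?_
        rw [ENNReal.one_le_ofReal]
        have h1 : 1 ≤ latticeDisc m ^ e := Real.one_le_rpow hD1 he.le
        have h2 : 1 ≤ r ^ (d + 1) := one_le_pow₀ hr1.le
        nlinarith
  · -- large `e`: the slab bound is trivial
    push Not at hee
    obtain ⟨D₀, hD₀⟩ := eventually_atTop.mp E1
    refine ⟨max D₀ 2, 1, lt_of_lt_of_le (by norm_num) (le_max_right _ _), one_pos, ?_⟩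
    intro K _ _ _ hfin hprim m σ hDm μ hμ
    obtain ⟨V, hV⟩ := Unf_71.isPacketMeasure_iff.mp hμ
    have F1 := hD₀ (latticeDisc m) ((le_max_left _ _).trans hDm)
    have hD1 := one_le_latticeDisc m σ
    have hD0 : 0 < latticeDisc m := by linarith
    have hvolV : ENNReal.ofReal (cV * latticeDisc m ^ (1 / 2 - ε)) ≤ V := by
      rw [isPk_vol hV]; exact hvol K hprim m σ
    have hv0 : 0 < cV * latticeDisc m ^ (1 / 2 - ε) := mul_pos hcV (Real.rpow_pos_of_pos hD0 _)
    have hprob : IsProbabilityMeasure μ := (Pk6_349.pack d K hfin m σ).2 μ hμ |>.1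
    refine ⟨⟨Set.univ, MeasurableSet.univ, ?_, ?_⟩, ?_⟩
    · rw [Set.compl_univ, measure_empty]; exact bot_le
    · intro x _ S hS hS' δ hδ hδ1
      refine prob_le_one.trans ?_
      rw [ENNReal.one_le_ofReal]
      have h1 : δ0 ≤ C * e := by
        calc δ0 = δ0 / e0 * e0 := by field_simp
          _ ≤ C * e := by gcongr
      calc (1 : ℝ) = latticeDisc m ^ δ0 * latticeDisc m ^ (-δ0) := by
            rw [← Real.rpow_add hD0]; simp
        _ ≤ latticeDisc m ^ (C * e) * δ := by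
            gcongr
    · intro r hr
      rcases le_or_gt r 1 with hr1 | hr1
      · exact meas_le hv0 hvolV (by positivity) (cusp_le hε hbr hV hr hr1) (F1 r hr hr1)
      · refine prob_le_one.trans ?_
        rw [ENNReal.one_le_ofReal]
        have h1 : 1 ≤ latticeDisc m ^ e := Real.one_le_rpow hD1 he.le
        have h2 : 1 ≤ r ^ (d + 1) := one_le_pow₀ hr1.le
        nlinarith

end

end Crest.Agent.R014.N2_675
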