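import Crest.Agent.R014.Nd1_837
import Crest.Agent.R014.Ne1_567

/-!
# Row 14, block D, noise formalism, section 3 of post 3844 (helper395), part B (abstract)

* total variation bounds and integrals, `L¹` comparison of posterior laws;
* the abstract form of (3.1) and (3.2): the digit spread `Ψ` is nearly invariant under the
  kernel of the root.
-/

set_option autoImplicit false

open MeasureTheory Finset Crest.NumberTheoryR.Packets
open Crest.Agent.R014.Nd_837

noncomputable section

namespace Crest.Agent.R014.NScB_395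

/-! ### total variation -/

section TV
variable {Y : Type*} [MeasurableSpace Y]

/-- integrals of functions with values in `[0,1]` -/
theorem integral01 {μ ν : Measure Y} [IsFiniteMeasure μ] [IsFiniteMeasure ν] {e : ℝ}
    (h : TVle μ ν e) {f : Y → ℝ} (hf : Measurable f) (h0 : ∀ y, 0 ≤ f y) (h1 : ∀ y, f y ≤ 1) :
    |∫ y, f y ∂μ - ∫ y, f y ∂ν| ≤ e := by
  have hint : ∀ ρ : Measure Y, IsFiniteMeasure ρ → Integrable f ρ := fun ρ _ =>
    Integrable.of_bound hf.aestronglyMeasurable 1
      (Filter.Eventually.of_forall fun y => by rw [Real.norm_eq_abs, abs_of_nonneg (h0 y)]; exact h1 y)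
  have key : ∀ ρ : Measure Y, IsFiniteMeasure ρ →
      ∫ y, f y ∂ρ = ∫ t in Set.Ioc (0:ℝ) 1, ρ.real {a | t ≤ f a} := fun ρ hρ =>
    (hint ρ hρ).integral_eq_integral_Ioc_meas_le (Filter.Eventually.of_forall h0)
      (Filter.Eventually.of_forall h1)
  have hmeas : ∀ ρ : Measure Y, IsFiniteMeasure ρ →
      IntegrableOn (fun t : ℝ => ρ.real {a | t ≤ f a}) (Set.Ioc (0:ℝ) 1) := by
    intro ρ hρ
    refine Integrable.of_bound (C := ρ.real Set.univ) ?_ ?_
    · refine (Antitone.measurable ?_).aestronglyMeasurable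
      intro s t hst
      exact measureReal_mono (fun a (ha : t ≤ f a) => le_trans hst ha)
    · refine Filter.Eventually.of_forall fun t => ?_
      rw [Real.norm_eq_abs, abs_of_nonneg measureReal_nonneg]
      exact measureReal_mono (Set.subset_univ _)
  rw [key μ inferInstance, key ν inferInstance,
    ← integral_sub (hmeas μ inferInstance) (hmeas ν inferInstance)]
  have hb : ‖∫ t in Set.Ioc (0:ℝ) 1, (μ.real {a | t ≤ f a} - ν.real {a | t ≤ f a})‖ ≤
      e * volume.real (Set.Ioc (0:ℝ) 1) := by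
    refine norm_setIntegral_le_of_norm_le_const (by simp) fun t _ => ?_
    rw [Real.norm_eq_abs]
    exact h _ (measurableSet_le measurable_const hf)
  rw [Real.norm_eq_abs] at hb
  simpa using hb

theorem integral_le {μ ν : Measure Y} [IsProbabilityMeasure μ] [IsProbabilityMeasure ν] {e : ℝ}
    (h : TVle μ ν e) {f : Y → ℝ} (hf : Measurable f) {M : ℝ} (hM : ∀ y, |f y| ≤ M) :
    |∫ y, f y ∂μ - ∫ y, f y ∂ν| ≤ 2 * M * e := by
  have hM0 : 0 ≤ M := by
    obtain ⟨y⟩ : Nonempty Y := by
      by_contra hne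
      rw [not_nonempty_iff] at hne
      have := measure_univ (μ := μ)
      rw [Set.eq_empty_of_isEmpty (Set.univ : Set Y), measure_empty] at this
      exact zero_ne_one this
    exact le_trans (abs_nonneg _) (hM y)
  rcases hM0.eq_or_lt with hM00 | hMpos
  · have : f = fun _ => 0 := by
      funext y
      have := hM y
      rw [← hM00] at this
      exact abs_eq_zero.1 (le_antisymm this (abs_nonneg _))
    subst this
    simp [← hM00]
  · have hg := integral01 h (f := fun y => (f y + M) / (2 * M)) ((hf.add_const M).div_const _)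
      (fun y => div_nonneg (by linarith [neg_abs_le (f y), hM y]) (by linarith))
      (fun y => by rw [div_le_one (by linarith)]; linarith [le_abs_self (f y), hM y])
    have hint : ∀ ρ : Measure Y, IsProbabilityMeasure ρ → Integrable f ρ := fun ρ _ =>
      Integrable.of_bound hf.aestronglyMeasurable M (Filter.Eventually.of_forall hM)
    have hcalc : ∀ ρ : Measure Y, IsProbabilityMeasure ρ →
        ∫ y, (f y + M) / (2 * M) ∂ρ = (∫ y, f y ∂ρ + M) / (2 * M) := by
      intro ρ hρ
      rw [integral_div, integral_add (hint ρ hρ) (integrable_const M)]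
      simp
    rw [hcalc μ inferInstance, hcalc ν inferInstance] at hg
    have hrw : (∫ y, f y ∂μ + M) / (2 * M) - (∫ y, f y ∂ν + M) / (2 * M) =
        (∫ y, f y ∂μ - ∫ y, f y ∂ν) / (2 * M) := by ring
    rw [hrw, abs_div, abs_of_pos (by linarith : (0:ℝ) < 2 * M), div_le_iff₀ (by linarith)] at hg
    linarith

/-- `L¹` bound from set bounds -/
theorem integral_abs_le_of_sets {ν : Measure Y} {g : Y → ℝ} (hg : Measurable g)
    (hgi : Integrable g ν) {e : ℝ} (h : ∀ A, MeasurableSet A → |∫ y in A, g y ∂ν| ≤ e) :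
    ∫ y, |g y| ∂ν ≤ 2 * e := by
  have hA : MeasurableSet {y | 0 ≤ g y} := measurableSet_le measurable_const hg
  rw [← integral_add_compl hA hgi.abs]
  have h1 : ∫ y in {y | 0 ≤ g y}, |g y| ∂ν = ∫ y in {y | 0 ≤ g y}, g y ∂ν :=
    setIntegral_congr_fun hA fun y hy => abs_of_nonneg hy
  have h2 : ∫ y in {y | 0 ≤ g y}ᶜ, |g y| ∂ν = ∫ y in {y | 0 ≤ g y}ᶜ, - g y ∂ν :=
    setIntegral_congr_fun hA.compl fun y hy => by
      simp only [Set.mem_compl_iff, Set.mem_ofPred_eq, not_le] at hy
      exact abs_of_neg hy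
  rw [h1, h2, integral_neg]
  have := h _ hA
  have := h _ hA.compl
  linarith [le_abs_self (∫ y in {y | 0 ≤ g y}, g y ∂ν), neg_abs_le (∫ y in {y | 0 ≤ g y}ᶜ, g y ∂ν)]

/-- comparison of two densities: `p` is a density of `ρ` w.r.t. `τ`, `p'` of `ρ'` w.r.t. `τ'`,
`0 ≤ p ≤ 1` everywhere, `ρ ≈ ρ'`, `τ ≈ τ'` in total variation. -/
theorem density_compare {ρ ρ' τ τ' : Measure Y} [IsFiniteMeasure ρ] [IsFiniteMeasure ρ']
    [IsFiniteMeasure τ] [IsFiniteMeasure τ'] {e e' : ℝ} (h : TVle ρ ρ' e) (ht : TVle τ τ' e')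
    {p p' : Y → ℝ} (hp : Measurable p) (hp' : Measurable p') (hp0 : ∀ y, 0 ≤ p y)
    (hp1 : ∀ y, p y ≤ 1) (hpi' : Integrable p' τ')
    (hd : ∀ A, MeasurableSet A → ∫ y in A, p y ∂τ = ρ.real A)
    (hd' : ∀ A, MeasurableSet A → ∫ y in A, p' y ∂τ' = ρ'.real A) :
    ∫ y, |p' y - p y| ∂τ' ≤ 2 * (e + e') := by
  have hpi : Integrable p τ' :=
    Integrable.of_bound hp.aestronglyMeasurable 1 (Filter.Eventually.of_forall fun y => by
      rw [Real.norm_eq_abs, abs_of_nonneg (hp0 y)]; exact hp1 y)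
  refine integral_abs_le_of_sets (hp'.sub hp) (hpi'.sub hpi) fun A hA => ?_
  have h1 : ∫ y in A, (p' y - p y) ∂τ' = ρ'.real A - ∫ y in A, p y ∂τ' := by
    rw [integral_sub hpi'.integrableOn hpi.integrableOn, hd' A hA]
  have h2 : |∫ y in A, p y ∂τ - ∫ y in A, p y ∂τ'| ≤ e' := by
    have := integral01 ht (f := A.indicator p) (hp.indicator hA)
      (fun y => Set.indicator_nonneg (fun y _ => hp0 y) y)
      (fun y => (Set.indicator_le_self' (fun _ _ => hp0 _) y).trans (hp1 y))
    rwa [integral_indicator hA, integral_indicator hA] at this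
  rw [hd A hA] at h2
  show |∫ y in A, (p' y - p y) ∂τ'| ≤ e + e'
  rw [h1]
  have h3 := h A hA
  have : ρ'.real A - ∫ y in A, p y ∂τ' = -(ρ.real A - ρ'.real A) + (ρ.real A - ∫ y in A, p y ∂τ') := by
    ring
  rw [this]
  refine (abs_add_le _ _).trans ?_
  rw [abs_neg]
  linarith

end TV

end Crest.Agent.R014.NScB_395
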