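import Crest.Agent.R014.NScD_395

/-!
# Row 14, block D, noise formalism, section 3 of post 3844 (helper395), part E

Exact equivariance of the averaged posterior spread, comparison with `Psi` at another depth
(`kern_shift`), near invariance of `Psi` (3.2), in terms of total variation hypotheses on general
noise laws and of the entropy defect.
-/

set_option autoImplicit false

open MeasureTheory Finset Crest.NumberTheoryR.Packets
open Crest.Agent.R014.Nd_837 Crest.Agent.R014.Ne1_567 Crest.Agent.R014.NScB_395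
open Crest.Agent.R014.NScC_395 Crest.Agent.R014.NScD_395 Crest.Agent.R014.Ms_667
open Crest.Agent.R014.Ne3_567 (pv measurable_pv pv_nonneg sum_pv pv_le_one)
open scoped ENNReal

noncomputable section

namespace Crest.Agent.R014.NScE_395

variable {n : ℕ}

section Sh
variable {μ : Measure (ModSpace n)} [IsProbabilityMeasure μ] (hμ : AInv μ)
  (κ : Measure (SLR n)) [IsProbabilityMeasure κ] {i j : Fin n} (hij : i ≠ j) (t : Fin n → ℝ)
  (r : ℝ) (b : ℕ)
include hμ

theorem pv_lab_sh : ∀ᵐ y ∂(tot (lab μ κ hij r b)), ∀ d,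
    pv (lab μ (cj (aT t) κ) hij (r + (t i - t j)) b) d (act y (aT t)) =
      pv (lab μ κ hij r b) d y := by
  filter_upwards [ae_all_iff.2 fun d => pr_lab_sh hμ κ hij t r b d] with y hy d
  unfold pv
  simp only [hy]

theorem ps_lab_sh : ∀ᵐ y ∂(tot (lab μ κ hij r b)),
    ps (lab μ (cj (aT t) κ) hij (r + (t i - t j)) b) (act y (aT t)) =
      ps (lab μ κ hij r b) y := by
  filter_upwards [pv_lab_sh hμ κ hij t r b] with y hy
  unfold ps
  simp only [hy]

/-- exact equivariance -/
theorem acv_sh [NeZero b] : ∀ᵐ x ∂μ,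
    Acv μ (cj (aT t) κ) hij (r + (t i - t j)) b (act x (aT t)) = Acv μ κ hij r b x := by
  have hb : 0 < b := Nat.pos_of_ne_zero (NeZero.ne b)
  have h := ps_lab_sh hμ κ hij t r b
  rw [tot_lab_eq μ κ hij r hb] at h
  have h2 := Measure.ae_ae_of_ae_prod (ae_of_ae_map measurable_act₂.aemeasurable h)
  filter_upwards [h2] with x hx
  unfold Acv Av
  rw [← cj_dl hij t r, ← cj_cv]
  unfold cj
  rw [integral_map (measurable_cj _).aemeasurable]
  · refine integral_congr_ae ?_
    filter_upwards [hx] with g hg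
    rw [← hg]
    simp only [act_act]
    congr 2
    group
  · exact ((measurable_ps _).comp
      (measurable_act₂.comp measurable_prodMk_left)).aestronglyMeasurable

end Sh

/-- invariance of integrals -/
theorem integral_act {μ : Measure (ModSpace n)} (hμ : AInv μ) (t : Fin n → ℝ)
    {F : ModSpace n → ℝ} (hF : Measurable F) : ∫ x, F (act x (aT t)) ∂μ = ∫ x, F x ∂μ := by
  conv_rhs => rw [← hμ t]
  rw [integral_map (measurable_act _).aemeasurable hF.aestronglyMeasurable]

section Kern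
variable {μ : Measure (ModSpace n)} [IsProbabilityMeasure μ] (hμ : AInv μ)
  {κ κ1 : Measure (SLR n)} [IsProbabilityMeasure κ] [IsProbabilityMeasure κ1]
  {i j : Fin n} (hij : i ≠ j) {r0 : ℝ} {b : ℕ} [NeZero b]

omit [IsProbabilityMeasure μ] in
theorem measurable_Acv (κ : Measure (SLR n)) [IsProbabilityMeasure κ] (r : ℝ) :
    Measurable (Acv μ κ hij r b) := measurable_Av _ _

omit [IsProbabilityMeasure μ] in
theorem measurable_Psi : Measurable (Psi μ κ1 hij r0 b) := measurable_Av _ _

omit [IsProbabilityMeasure μ] in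
theorem Psi_nonneg (x : ModSpace n) : 0 ≤ Psi μ κ1 hij r0 b x := Av_nonneg _ _ x

omit [IsProbabilityMeasure μ] in
theorem Psi_le (x : ModSpace n) : Psi μ κ1 hij r0 b x ≤ 2 := Av_le _ _ x

include hμ in
/-- comparison at another depth -/
theorem kern_shift (t : Fin n → ℝ) {r E : ℝ} (hr : r + (t i - t j) = r0)
    (h : ∫ x, |Acv μ (cj (aT t) κ) hij r0 b x - Psi μ κ1 hij r0 b x| ∂μ ≤ E) :
    ∫ x, |Acv μ κ hij r b x - Psi μ κ1 hij r0 b (act x (aT t))| ∂μ ≤ E := by
  subst hr
  have h1 : ∫ x, |Acv μ κ hij r b x - Psi μ κ1 hij (r + (t i - t j)) b (act x (aT t))| ∂μ =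
      ∫ x, |Acv μ (cj (aT t) κ) hij (r + (t i - t j)) b (act x (aT t)) -
        Psi μ κ1 hij (r + (t i - t j)) b (act x (aT t))| ∂μ := by
    refine integral_congr_ae ?_
    filter_upwards [acv_sh hμ κ hij t r b] with x hx
    rw [hx]
  rw [h1, integral_act hμ t (F := fun x => |Acv μ (cj (aT t) κ) hij (r + (t i - t j)) b x -
        Psi μ κ1 hij (r + (t i - t j)) b x|)
      (((measurable_Acv hij _ _).sub (measurable_Psi hij)).abs)]
  exact h

include hμ in
/-- (3.2): two shifts to the same depth -/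
theorem psi_inv (t t' : Fin n → ℝ) (htt : t i - t j = t' i - t' j) {r E E' : ℝ}
    (hr : r + (t i - t j) = r0)
    (h : ∫ x, |Acv μ (cj (aT t) κ) hij r0 b x - Psi μ κ1 hij r0 b x| ∂μ ≤ E)
    (h' : ∫ x, |Acv μ (cj (aT t') κ) hij r0 b x - Psi μ κ1 hij r0 b x| ∂μ ≤ E') :
    ∫ x, |Psi μ κ1 hij r0 b (act x (aT t)) - Psi μ κ1 hij r0 b (act x (aT t'))| ∂μ ≤ E + E' := by
  have h1 := kern_shift hμ hij t hr h
  have h2 := kern_shift hμ hij t' (htt ▸ hr) h'
  have m0 : Measurable (Acv μ κ hij r b) := measurable_Acv hij κ r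
  have mP : Measurable (Psi μ κ1 hij r0 b) := measurable_Psi hij
  have m1 : Measurable fun x => Psi μ κ1 hij r0 b (act x (aT t)) := mP.comp (measurable_act _)
  have m2 : Measurable fun x => Psi μ κ1 hij r0 b (act x (aT t')) := mP.comp (measurable_act _)
  have bd : ∀ {F G : ModSpace n → ℝ}, Measurable F → Measurable G → (∀ x, 0 ≤ F x) →
      (∀ x, F x ≤ 2) → (∀ x, 0 ≤ G x) → (∀ x, G x ≤ 2) → Integrable (fun x => |F x - G x|) μ := by
    intro F G hF hG f0 f2 g0 g2
    refine bdd_integrable (hF.sub hG).abs (M := 2) fun x => ?_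
    rw [abs_abs, abs_le]
    constructor <;> linarith [f0 x, f2 x, g0 x, g2 x]
  have i1 := bd m0 m1 (fun x => Av_nonneg _ _ x) (fun x => Av_le _ _ x)
    (fun x => Psi_nonneg hij _) (fun x => Psi_le hij _)
  have i2 := bd m0 m2 (fun x => Av_nonneg _ _ x) (fun x => Av_le _ _ x)
    (fun x => Psi_nonneg hij _) (fun x => Psi_le hij _)
  have i3 := bd m1 m2 (fun x => Psi_nonneg hij _) (fun x => Psi_le hij _)
    (fun x => Psi_nonneg hij _) (fun x => Psi_le hij _)
  have hle : ∫ x, |Psi μ κ1 hij r0 b (act x (aT t)) - Psi μ κ1 hij r0 b (act x (aT t'))| ∂μ ≤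
      ∫ x, (|Acv μ κ hij r b x - Psi μ κ1 hij r0 b (act x (aT t))| +
        |Acv μ κ hij r b x - Psi μ κ1 hij r0 b (act x (aT t'))|) ∂μ := by
    refine integral_mono i3 (i1.add i2) fun x => ?_
    have := abs_sub_le (Psi μ κ1 hij r0 b (act x (aT t))) (Acv μ κ hij r b x)
      (Psi μ κ1 hij r0 b (act x (aT t')))
    rwa [abs_sub_comm (Psi μ κ1 hij r0 b (act x (aT t))) (Acv μ κ hij r b x)] at this
  rw [integral_add i1 i2] at hle
  linarith

end Kern

end Crest.Agent.R014.NScE_395
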