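import Crest.Agent.R014.NScE_395

/-!
# Row 14, block D, noise formalism, section 3 of post 3844 (helper395), part F

(3.1) from a commutation-absorption hypothesis on general noise laws and the entropy defect.
-/

set_option autoImplicit false

open MeasureTheory Finset Crest.NumberTheoryR.Packets
open Crest.Agent.R014.Nd_837 Crest.Agent.R014.Ne1_567 Crest.Agent.R014.NScB_395
open Crest.Agent.R014.NScC_395 Crest.Agent.R014.NScD_395 Crest.Agent.R014.NScE_395
open Crest.Agent.R014.Ms_667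
open Crest.Agent.R014.Ne3_567 (pv measurable_pv pv_nonneg sum_pv pv_le_one Hc_le_of_tv)
open scoped ENNReal

noncomputable section

namespace Crest.Agent.R014.NScF_395

variable {n : ℕ}

/-- modulus of continuity of the entropy -/
def md (b : ℕ) (e : ℝ) : ℝ := e * Real.log b + (e + Real.negMulLog e)

theorem negMulLog_le_sqrt {e : ℝ} (h0 : 0 ≤ e) : Real.negMulLog e ≤ 2 * √e := by
  rcases h0.eq_or_lt with h | h
  · rw [← h]; simp
  · set s := √e with hs
    have hs0 : 0 < s := Real.sqrt_pos.2 h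
    have hse : e = s ^ 2 := (Real.sq_sqrt h0).symm
    have h1 : Real.log s⁻¹ ≤ s⁻¹ - 1 := Real.log_le_sub_one_of_pos (inv_pos.2 hs0)
    rw [Real.log_inv] at h1
    have h2 : Real.log e = 2 * Real.log s := by rw [hse, Real.log_pow]; push_cast; ring
    unfold Real.negMulLog
    rw [h2, hse]
    have h3 : s ^ 2 * (- Real.log s) ≤ s ^ 2 * (s⁻¹ - 1) :=
      mul_le_mul_of_nonneg_left h1 (by positivity)
    have h4 : s ^ 2 * (s⁻¹ - 1) = s - s ^ 2 := by field_simp
    nlinarith [sq_nonneg s]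

theorem md_nonneg {b : ℕ} {e : ℝ} (h0 : 0 ≤ e) (h1 : e ≤ 1) : 0 ≤ md b e := by
  unfold md
  have h2 : 0 ≤ Real.log b := Real.log_natCast_nonneg b
  have h3 := Real.negMulLog_nonneg h0 h1
  positivity

theorem md_le {b : ℕ} {e : ℝ} (h0 : 0 ≤ e) (h1 : e ≤ 1) : md b e ≤ (Real.log b + 3) * √e := by
  unfold md
  have h2 : 0 ≤ Real.log b := Real.log_natCast_nonneg b
  have h3 := negMulLog_le_sqrt h0
  have h4 : e ≤ √e := by
    have : √e ≤ 1 := Real.sqrt_le_one.2 h1
    nlinarith [Real.mul_self_sqrt h0, Real.sqrt_nonneg e]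
  nlinarith

theorem cv_apply (κ κ' : Measure (SLR n)) [SFinite κ] [SFinite κ'] {A : Set (SLR n)}
    (hA : MeasurableSet A) : cv κ κ' A = ∫⁻ g, κ' {h | g * h ∈ A} ∂κ := by
  unfold cv
  rw [Measure.map_apply measurable_mul₂ hA, Measure.prod_apply (measurable_mul₂ hA)]
  rfl

theorem cv_sum {b : ℕ} (κ : Measure (SLR n)) [IsFiniteMeasure κ] (ν : Fin b → Measure (SLR n))
    [∀ d, IsFiniteMeasure (ν d)] : cv κ (∑ d, ν d) = ∑ d, cv κ (ν d) := by
  refine Measure.ext fun A hA => ?_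
  rw [cv_apply _ _ hA, Measure.finsetSum_apply]
  simp only [Measure.finsetSum_apply]
  have hm : ∀ d, Measurable fun g : SLR n => ν d {h | g * h ∈ A} := fun d =>
    measurable_measure_prodMk_left (measurable_mul₂ hA)
  rw [lintegral_finsetSum _ fun d _ => hm d]
  exact sum_congr rfl fun d _ => by rw [cv_apply _ _ hA]

theorem sum_cv {b : ℕ} (κ : Measure (SLR n)) [IsFiniteMeasure κ] (ν : Fin b → Measure (SLR n))
    [∀ d, IsFiniteMeasure (ν d)] : cv (∑ d, ν d) κ = ∑ d, cv (ν d) κ := by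
  refine Measure.ext fun A hA => ?_
  rw [cv_apply _ _ hA, Measure.finsetSum_apply, lintegral_finsetSum_measure]
  exact sum_congr rfl fun d _ => by rw [cv_apply _ _ hA]

theorem ennreal_inv_ne_top {b : ℕ} (hb : 0 < b) : (b : ℝ≥0∞)⁻¹ ≠ ∞ := by
  simp [hb.ne']

/-- averages -/
theorem TVle.avg {Y : Type*} [MeasurableSpace Y] {b : ℕ} (hb : 0 < b) {μ ν : Fin b → Measure Y}
    [∀ d, IsFiniteMeasure (μ d)] [∀ d, IsFiniteMeasure (ν d)] {e : ℝ}
    (h : ∀ d, TVle (μ d) (ν d) e) :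
    TVle ((b : ℝ≥0∞)⁻¹ • ∑ d, μ d) ((b : ℝ≥0∞)⁻¹ • ∑ d, ν d) e := by
  intro A hA
  have hb' : (0:ℝ) < b := by exact_mod_cast hb
  have key : ∀ σ : Fin b → Measure Y, (∀ d, IsFiniteMeasure (σ d)) →
      ((b : ℝ≥0∞)⁻¹ • ∑ d, σ d).real A = (b:ℝ)⁻¹ * ∑ d, (σ d).real A := by
    intro σ hσ
    rw [measureReal_def, Measure.smul_apply, Measure.finsetSum_apply, smul_eq_mul,
      ENNReal.toReal_mul, ENNReal.toReal_sum (fun d _ => measure_ne_top _ _)]
    simp [measureReal_def]
  rw [key μ inferInstance, key ν inferInstance, ← mul_sub, ← sum_sub_distrib, abs_mul,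
    abs_of_pos (inv_pos.2 hb'), inv_mul_le_iff₀ hb']
  refine (abs_sum_le_sum_abs _ _).trans ?_
  refine (sum_le_sum fun d _ => h d A hA).trans ?_
  rw [sum_const, card_univ, Fintype.card_fin, nsmul_eq_mul]

theorem isFinite_smul {Y : Type*} [MeasurableSpace Y] {b : ℕ} (hb : 0 < b) (μ : Measure Y)
    [IsFiniteMeasure μ] : IsFiniteMeasure ((b : ℝ≥0∞)⁻¹ • μ) :=
  Measure.smul_finite _ (ennreal_inv_ne_top hb)

section Main
variable {μ : Measure (ModSpace n)} [IsProbabilityMeasure μ] {κR κ1 : Measure (SLR n)}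
  [IsProbabilityMeasure κR] [IsProbabilityMeasure κ1] {i j : Fin n} {hij : i ≠ j} {r : ℝ} {b : ℕ}
  [NeZero b] {e η : ℝ}

/-- from digits to the whole window -/
theorem tv_window
    (h : ∀ d, TVle (cv (cv κR (dlaw hij r b d)) κ1) (cv κ1 (dlaw hij r b d)) e) :
    TVle (cv (cv κR (dl hij r)) κ1) (cv κ1 (dl hij r)) e := by
  have hb : 0 < b := Nat.pos_of_ne_zero (NeZero.ne b)
  rw [dl_eq hij r hb, cv_smul, cv_smul, cv_sum, cv_sum, smul_cv, sum_cv]
  exact TVle.avg hb h

/-- the noisy joint law is close to the reference joint law -/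
theorem tv_lab (h : ∀ d, TVle (cv (cv κR (dlaw hij r b d)) κ1) (cv κ1 (dlaw hij r b d)) e)
    (d : Fin b) : TVle (stp (lab μ κR hij r b d) κ1) (lab μ κ1 hij r b d) (e / b) := by
  have hb : 0 < b := Nat.pos_of_ne_zero (NeZero.ne b)
  unfold lab
  rw [smul_stp, stp_stp, stp_stp, stp_stp]
  have h1 := ((h d).stp_right (μ := μ)).smul (b : ℝ≥0∞)⁻¹
  rw [cv_assoc] at h1
  refine TVle.mono ?_ (le_of_eq (?_ : ((b : ℝ≥0∞)⁻¹).toReal * e = e / b))
  · exact h1
  · rw [ENNReal.toReal_inv, ENNReal.toReal_natCast]; ring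

theorem tot_lab_real (κ : Measure (SLR n)) [IsProbabilityMeasure κ] :
    (tot (lab μ κ hij r b)).real Set.univ = 1 := by
  have hb : 0 < b := Nat.pos_of_ne_zero (NeZero.ne b)
  rw [tot_lab_eq μ κ hij r hb]
  simp

/-- total mass of the noisy joint law -/
theorem tot_stp_lab_real : (tot (fun d => stp (lab μ κR hij r b d) κ1)).real Set.univ = 1 := by
  have h : tot (fun d => stp (lab μ κR hij r b d) κ1) =
      ((tot (lab μ κR hij r b)).prod κ1).map Kact := by
    have := tot_mp (K := Kact) (measurable_Kact (n := n)) (pd (lab μ κR hij r b) κ1)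
    rw [tot_pd] at this
    exact this
  rw [h, map_measureReal_apply measurable_Kact MeasurableSet.univ, Set.preimage_univ,
    measureReal_def, Measure.prod_apply MeasurableSet.univ]
  have h2 := tot_lab_real (μ := μ) (hij := hij) (r := r) (b := b) κR
  simp only [Set.preimage_univ, measure_univ, lintegral_const, one_mul]
  exact h2

/-- (2.2), general form -/
theorem Hc_mono (he1 : e ≤ 1)
    (h : ∀ d, TVle (cv (cv κR (dlaw hij r b d)) κ1) (cv κ1 (dlaw hij r b d)) e) :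
    Hc (fun d => stp (lab μ κR hij r b d) κ1) ≤ Hc (lab μ κ1 hij r b) + md b e := by
  have hb' : (b:ℝ) ≠ 0 := by exact_mod_cast NeZero.ne b
  have hs : ∑ _d : Fin b, e / b = e := by
    rw [sum_const, card_univ, Fintype.card_fin, nsmul_eq_mul]; field_simp
  have h1 := Hc_le_of_tv (fun d => stp (lab μ κR hij r b d) κ1) (lab μ κ1 hij r b)
    (e := fun _ => e / b) (fun c A hA => by
      have := tv_lab (μ := μ) h c A hA
      linarith [le_abs_self ((stp (lab μ κR hij r b c) κ1).real A - (lab μ κ1 hij r b c).real A)])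
    (by rw [tot_stp_lab_real]) (by rw [hs]; exact he1)
  rw [hs, Fintype.card_fin] at h1
  exact h1

/-- **(3.1)** -/
theorem acv_close_tv (he1 : e ≤ 1)
    (h : ∀ d, TVle (cv (cv κR (dlaw hij r b d)) κ1) (cv κ1 (dlaw hij r b d)) e)
    (hη : Hc (lab μ κ1 hij r b) - Hc (lab μ κR hij r b) ≤ η) :
    ∫ x, |Acv μ κR hij r b x - Psi μ κ1 hij r b x| ∂μ ≤
      8 * √(η + md b e) + (8 * b + 12) * e := by
  have hb : 0 < b := Nat.pos_of_ne_zero (NeZero.ne b)
  have hb' : (b:ℝ) ≠ 0 := by exact_mod_cast NeZero.ne b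
  have h1 := pinsker_stp (lab μ κR hij r b) κ1
  have h2 := Hc_mono (μ := μ) he1 h
  have h3 : ∫ p, (∑ c, |pr (lab μ κR hij r b) c p.1 -
      pr (fun c => stp (lab μ κR hij r b c) κ1) c (act p.1 p.2)|) ^ 2
        ∂((tot (lab μ κR hij r b)).prod κ1) ≤ 4 * (η + md b e) := by linarith
  have h4 := acv_close (μ := μ) (κP := cv κ1 (dl hij r)) hij r (E0 := 4 * (η + md b e))
    (e := e / b) (e' := e) h3 (fun d => (tv_lab h d).symm) (tv_window h)
  refine h4.trans (le_of_eq ?_)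
  have h5 : √(4 * (η + md b e)) = 2 * √(η + md b e) := by
    rw [Real.sqrt_mul (by norm_num)]
    congr 1
    rw [show (4:ℝ) = 2 ^ 2 by norm_num, Real.sqrt_sq (by norm_num)]
  rw [h5]
  field_simp
  ring

end Main

end Crest.Agent.R014.NScF_395
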