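import Crest.Agent.R014.Ne2_567

/-!
Row 14, block D, noise formalism (#3844), section SLAB (helper373, task 1063), part 1 (abstract).

`W = Fin T → D` = words; `p : W → ℝ` a probability vector.
* `tree_bound`: if `p w ≤ τ` on `E` and `∑_i Φ (conditional law of the letter i given the letters < i) ≤ κ`
  on `E` then `p(E) ≤ √τ · exp (K √(T κ))`, for every functional `Φ ≥ 0` of probability vectors with
  `∑_j √(c_j) ≤ exp (K √(Φ c))`;
* `coll`: `ρ w ≤ M • λ` for all words ⇒ `∑_w ρ_w {P(w | y) ≥ τ} ≤ τ⁻¹ M λ(univ)`;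
* `joint`: the two together for a family `ρ : W → Measure Y`.
-/

set_option autoImplicit false

open MeasureTheory Finset
open scoped ENNReal

noncomputable section

namespace Crest.Agent.R014.NSlab_373

open Ne1_567

section Tree

variable {D : Type*} [Fintype D] {T : ℕ}

open Classical in
/-- the words with the same letters as `w` at the levels `< m`. -/
def cl (m : ℕ) (w : Fin T → D) : Finset (Fin T → D) :=
  univ.filter fun w' => ∀ i : Fin T, (i : ℕ) < m → w' i = w i

lemma mem_cl {m : ℕ} {w w' : Fin T → D} :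
    w' ∈ cl m w ↔ ∀ i : Fin T, (i : ℕ) < m → w' i = w i := by
  simp [cl]

lemma self_mem_cl (m : ℕ) (w : Fin T → D) : w ∈ cl m w := mem_cl.2 fun _ _ => rfl

lemma cl_eq {m : ℕ} {w w' : Fin T → D} (h : w' ∈ cl m w) : cl m w' = cl m w := by
  ext v
  rw [mem_cl] at h
  rw [mem_cl, mem_cl]
  exact ⟨fun H i hi => (H i hi).trans (h i hi), fun H i hi => (H i hi).trans (h i hi).symm⟩

lemma cl_zero (w : Fin T → D) : cl 0 w = univ := by
  ext; simp [mem_cl]

lemma cl_top (w : Fin T → D) : cl T w = {w} := by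
  ext v
  rw [mem_cl, mem_singleton]
  exact ⟨fun h => funext fun i => h i i.2, fun h i _ => by rw [h]⟩

lemma cl_subset {m m' : ℕ} (h : m ≤ m') (w : Fin T → D) : cl m' w ⊆ cl m w := fun _ hv =>
  mem_cl.2 fun i hi => mem_cl.1 hv i (hi.trans_le h)

lemma mem_cl_update {i : Fin T} {w w' : Fin T → D} {j : D} :
    w' ∈ cl ((i : ℕ) + 1) (Function.update w i j) ↔ w' ∈ cl (i : ℕ) w ∧ w' i = j := by
  rw [mem_cl, mem_cl]
  constructor
  · intro h
    refine ⟨fun k hk => ?_, ?_⟩
    · have := h k (by omega)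
      rwa [Function.update_of_ne (by rintro rfl; exact lt_irrefl _ hk)] at this
    · have := h i (by omega)
      rwa [Function.update_self] at this
  · rintro ⟨h, h'⟩ k hk
    by_cases hki : k = i
    · subst hki; rw [Function.update_self, h']
    · rw [Function.update_of_ne hki]
      refine h k ?_
      have : (k : ℕ) ≠ i := fun h => hki (Fin.ext h)
      omega

/-- split a class according to the next letter. -/
lemma sum_cl_split {M : Type*} [AddCommMonoid M] (i : Fin T) (w : Fin T → D) (f : (Fin T → D) → M) :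
    ∑ w' ∈ cl (i : ℕ) w, f w' = ∑ j, ∑ w' ∈ cl ((i : ℕ) + 1) (Function.update w i j), f w' := by
  classical
  rw [← Finset.sum_fiberwise (cl (i : ℕ) w) (fun w' => w' i) f]
  refine Finset.sum_congr rfl fun j _ => Finset.sum_congr ?_ fun _ _ => rfl
  ext v
  rw [mem_filter, mem_cl_update]

/-- comparison of sums class by class. -/
lemma sum_le_of_cl {f g : (Fin T → D) → ℝ} (m : ℕ)
    (h : ∀ w, ∑ w' ∈ cl m w, f w' ≤ ∑ w' ∈ cl m w, g w') : ∑ w, f w ≤ ∑ w, g w := by
  classical
  let pf : (Fin T → D) → (Fin T → Option D) := fun w i => if (i : ℕ) < m then some (w i) else none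
  have hpf : ∀ w w', pf w' = pf w ↔ w' ∈ cl m w := by
    intro w w'
    rw [mem_cl]
    constructor
    · intro hh i hi
      have := congrFun hh i
      simp only [pf, if_pos hi, Option.some.injEq] at this
      exact this
    · intro hh
      funext i
      by_cases hi : (i : ℕ) < m
      · simp only [pf, if_pos hi, hh i hi]
      · simp only [pf, if_neg hi]
  rw [← Finset.sum_fiberwise_of_maps_to (s := univ) (t := univ.image pf) (g := pf)
      (fun w _ => mem_image_of_mem _ (mem_univ w)) f,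
    ← Finset.sum_fiberwise_of_maps_to (s := univ) (t := univ.image pf) (g := pf)
      (fun w _ => mem_image_of_mem _ (mem_univ w)) g]
  refine Finset.sum_le_sum fun v hv => ?_
  obtain ⟨w, _, rfl⟩ := mem_image.1 hv
  have : (univ.filter fun w' => pf w' = pf w) = cl m w := by
    ext w'
    rw [mem_filter, hpf]
    simp
  rw [this]
  exact h w

/-- mass of the words which agree with `w` at the levels `< m`. -/
def P (p : (Fin T → D) → ℝ) (m : ℕ) (w : Fin T → D) : ℝ := ∑ w' ∈ cl m w, p w'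

/-- mass of the words which agree with `w` before `i` and have the letter `j` at `i`. -/
def mj (p : (Fin T → D) → ℝ) (i : Fin T) (w : Fin T → D) (j : D) : ℝ :=
  P p ((i : ℕ) + 1) (Function.update w i j)

/-- conditional law of the letter `i` given the letters `< i` of `w`. -/
def post (p : (Fin T → D) → ℝ) (i : Fin T) (w : Fin T → D) (j : D) : ℝ := mj p i w j / P p i w

variable {p : (Fin T → D) → ℝ}

lemma P_eq_of_mem {m : ℕ} {w w' : Fin T → D} (h : w' ∈ cl m w) : P p m w' = P p m w := by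
  rw [P, cl_eq h]; rfl

lemma P_top (w : Fin T → D) : P p T w = p w := by rw [P, cl_top, sum_singleton]

lemma P_zero (w : Fin T → D) : P p 0 w = ∑ w, p w := by rw [P, cl_zero]

lemma sum_mj (i : Fin T) (w : Fin T → D) : ∑ j, mj p i w j = P p i w := by
  rw [P, sum_cl_split]; rfl

lemma mj_eq_of_mem {i : Fin T} {w w' : Fin T → D} (h : w' ∈ cl (i : ℕ) w) (j : D) :
    mj p i w' j = mj p i w j := by
  unfold mj
  refine (P_eq_of_mem ?_)
  rw [mem_cl_update]
  refine ⟨?_, Function.update_self _ _ _⟩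
  rw [mem_cl] at h ⊢
  intro k hk
  rw [Function.update_of_ne (by rintro rfl; exact lt_irrefl _ hk)]
  exact h k hk

lemma mj_self (i : Fin T) (w : Fin T → D) : mj p i w (w i) = P p ((i : ℕ) + 1) w := by
  rw [mj, Function.update_eq_self]

lemma post_eq_of_mem {i : Fin T} {w w' : Fin T → D} (h : w' ∈ cl (i : ℕ) w) :
    post p i w' = post p i w := by
  funext j
  rw [post, post, mj_eq_of_mem h, P_eq_of_mem h]

lemma P_nonneg (hp : ∀ w, 0 ≤ p w) (m : ℕ) (w : Fin T → D) : 0 ≤ P p m w :=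
  Finset.sum_nonneg fun _ _ => hp _

lemma mj_nonneg (hp : ∀ w, 0 ≤ p w) (i : Fin T) (w : Fin T → D) (j : D) : 0 ≤ mj p i w j :=
  P_nonneg hp _ _

lemma post_nonneg (hp : ∀ w, 0 ≤ p w) (i : Fin T) (w : Fin T → D) (j : D) : 0 ≤ post p i w j :=
  div_nonneg (mj_nonneg hp _ _ _) (P_nonneg hp _ _)

lemma le_P (hp : ∀ w, 0 ≤ p w) (m : ℕ) (w : Fin T → D) : p w ≤ P p m w :=
  Finset.single_le_sum (f := p) (fun _ _ => hp _) (self_mem_cl m w)

lemma sum_post {i : Fin T} {w : Fin T → D} (h : P p i w ≠ 0) : ∑ j, post p i w j = 1 := by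
  unfold post
  rw [← Finset.sum_div, sum_mj, div_self h]

/-- the normalising factor of the tree martingale. -/
def Z (p : (Fin T → D) → ℝ) (i : Fin T) (w : Fin T → D) : ℝ := (∑ j, √(mj p i w j)) / √(P p i w)

lemma Z_nonneg (i : Fin T) (w : Fin T → D) : 0 ≤ Z p i w :=
  div_nonneg (Finset.sum_nonneg fun _ _ => Real.sqrt_nonneg _) (Real.sqrt_nonneg _)

lemma Z_eq_of_mem {i : Fin T} {w w' : Fin T → D} (h : w' ∈ cl (i : ℕ) w) : Z p i w' = Z p i w := by
  unfold Z
  rw [P_eq_of_mem h]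
  simp_rw [mj_eq_of_mem h]

lemma Z_eq (hp : ∀ w, 0 ≤ p w) (i : Fin T) (w : Fin T → D) : Z p i w = ∑ j, √(post p i w j) := by
  unfold Z post
  rw [Finset.sum_div]
  exact Finset.sum_congr rfl fun j _ => (Real.sqrt_div (mj_nonneg hp _ _ _) _).symm

/-- product of the factors of the levels `< m`. -/
def ZZ (p : (Fin T → D) → ℝ) (m : ℕ) (w : Fin T → D) : ℝ :=
  ∏ i ∈ univ.filter (fun i : Fin T => (i : ℕ) < m), Z p i w

lemma ZZ_nonneg (m : ℕ) (w : Fin T → D) : 0 ≤ ZZ p m w := Finset.prod_nonneg fun _ _ => Z_nonneg _ _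

lemma ZZ_eq_of_mem {m : ℕ} {w w' : Fin T → D} (h : w' ∈ cl m w) : ZZ p m w' = ZZ p m w := by
  unfold ZZ
  refine Finset.prod_congr rfl fun i hi => ?_
  rw [mem_filter] at hi
  exact Z_eq_of_mem (cl_subset hi.2.le w h)

lemma ZZ_succ (i : Fin T) (w : Fin T → D) : ZZ p ((i : ℕ) + 1) w = Z p i w * ZZ p i w := by
  unfold ZZ
  have : (univ.filter fun k : Fin T => (k : ℕ) < (i : ℕ) + 1)
      = insert i (univ.filter fun k : Fin T => (k : ℕ) < (i : ℕ)) := by
    ext k
    simp only [mem_filter, mem_univ, true_and, mem_insert, Fin.ext_iff]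
    omega
  rw [this, Finset.prod_insert (by simp)]

lemma tree_aux (h1 : ∑ w, p w = 1) (m : ℕ) (hm : m ≤ T) :
    ∑ w, p w / √(P p m w) * (ZZ p m w)⁻¹ ≤ 1 := by
  induction m with
  | zero =>
    have : ∀ w : Fin T → D, p w / √(P p 0 w) * (ZZ p 0 w)⁻¹ = p w := by
      intro w
      rw [P_zero, h1]
      simp [ZZ]
    simp_rw [this]
    exact h1.le
  | succ m ih =>
    refine le_trans (sum_le_of_cl m fun w => ?_) (ih (by omega))
    set i : Fin T := ⟨m, by omega⟩ with hi
    have him : (i : ℕ) = m := rfl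
    have hR : ∑ w' ∈ cl m w, p w' / √(P p m w') * (ZZ p m w')⁻¹
        = √(P p m w) * (ZZ p m w)⁻¹ := by
      have : ∀ w' ∈ cl m w, p w' / √(P p m w') * (ZZ p m w')⁻¹
          = p w' * ((√(P p m w))⁻¹ * (ZZ p m w)⁻¹) := by
        intro w' hw'
        rw [P_eq_of_mem hw', ZZ_eq_of_mem hw']; ring
      rw [Finset.sum_congr rfl this, ← Finset.sum_mul]
      change P p m w * _ = _
      rw [← mul_assoc, ← div_eq_mul_inv (P p m w), Real.div_sqrt]
    have hL : ∑ w' ∈ cl m w, p w' / √(P p (m + 1) w') * (ZZ p (m + 1) w')⁻¹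
        = (∑ j, √(mj p i w j)) * ((Z p i w)⁻¹ * (ZZ p m w)⁻¹) := by
      have : ∀ w' ∈ cl m w, p w' / √(P p (m + 1) w') * (ZZ p (m + 1) w')⁻¹
          = p w' / √(P p (m + 1) w') * ((Z p i w)⁻¹ * (ZZ p m w)⁻¹) := by
        intro w' hw'
        have h2 : ZZ p (m + 1) w' = Z p i w' * ZZ p m w' := ZZ_succ i w'
        rw [h2, Z_eq_of_mem (i := i) hw', ZZ_eq_of_mem hw', mul_inv]
      rw [Finset.sum_congr rfl this, ← Finset.sum_mul]
      congr 1
      have h3 := sum_cl_split i w (fun w' => p w' / √(P p (m + 1) w'))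
      rw [him] at h3
      rw [h3]
      refine Finset.sum_congr rfl fun j _ => ?_
      have : ∀ w' ∈ cl (m + 1) (Function.update w i j), p w' / √(P p (m + 1) w')
          = p w' / √(mj p i w j) := by
        intro w' hw'
        rw [P_eq_of_mem hw']
        rfl
      rw [Finset.sum_congr rfl this, ← Finset.sum_div]
      change mj p i w j / _ = _
      exact Real.div_sqrt
    rw [hR, hL, ← mul_assoc]
    refine mul_le_mul_of_nonneg_right ?_ (inv_nonneg.2 (ZZ_nonneg _ _))
    unfold Z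
    rw [inv_div, ← mul_div_assoc, mul_comm, mul_div_assoc]
    refine mul_le_of_le_one_right (Real.sqrt_nonneg _) (div_self_le_one _)

/-- **Tree inequality.** -/
theorem tree (h1 : ∑ w, p w = 1) :
    ∑ w, √(p w) * (∏ i, Z p i w)⁻¹ ≤ 1 := by
  have h := tree_aux h1 T le_rfl
  refine le_trans (le_of_eq ?_) h
  refine Finset.sum_congr rfl fun w _ => ?_
  rw [P_top, Real.div_sqrt]
  congr 2
  unfold ZZ
  rw [Finset.filter_true_of_mem (fun i _ => i.2)]

lemma Z_pos (hp : ∀ w, 0 ≤ p w) {w : Fin T → D} (hw : 0 < p w) (i : Fin T) : 0 < Z p i w := by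
  refine div_pos ?_ (Real.sqrt_pos.2 (hw.trans_le (le_P hp _ _)))
  refine lt_of_lt_of_le ?_ (Finset.single_le_sum (f := fun j => √(mj p i w j))
    (fun _ _ => Real.sqrt_nonneg _) (mem_univ (w i)))
  rw [mj_self]
  exact Real.sqrt_pos.2 (hw.trans_le (le_P hp _ _))

/-- the mass of a set of words on which `p` and the product of the factors are bounded. -/
theorem tree_mass (hp : ∀ w, 0 ≤ p w) (h1 : ∑ w, p w = 1) (E : Finset (Fin T → D)) {τ Λ : ℝ}
    (hΛ0 : 0 ≤ Λ) (hτ : ∀ w ∈ E, p w ≤ τ) (hΛ : ∀ w ∈ E, 0 < p w → ∏ i, Z p i w ≤ Λ) :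
    ∑ w ∈ E, p w ≤ √τ * Λ := by
  have key : ∀ w ∈ E, p w ≤ √τ * Λ * (√(p w) * (∏ i, Z p i w)⁻¹) := by
    intro w hw
    rcases (hp w).eq_or_lt with h0 | h0
    · rw [← h0]; simp
    · have hZ : 0 < ∏ i, Z p i w := Finset.prod_pos fun i _ => Z_pos hp h0 i
      have h2 : 1 ≤ Λ * (∏ i, Z p i w)⁻¹ := by
        rw [← div_eq_mul_inv, one_le_div hZ]; exact hΛ w hw h0
      have h3 : √(p w) ≤ √τ := Real.sqrt_le_sqrt (hτ w hw)
      have h4 : p w = √(p w) * √(p w) := (Real.mul_self_sqrt (hp w)).symm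
      have h5 : 0 ≤ √(p w) := Real.sqrt_nonneg _
      calc p w = √(p w) * √(p w) := h4
        _ ≤ √τ * √(p w) := mul_le_mul_of_nonneg_right h3 h5
        _ = √τ * √(p w) * 1 := (mul_one _).symm
        _ ≤ √τ * √(p w) * (Λ * (∏ i, Z p i w)⁻¹) := by
            refine mul_le_mul_of_nonneg_left h2 (by positivity)
        _ = _ := by ring
  calc ∑ w ∈ E, p w ≤ ∑ w ∈ E, √τ * Λ * (√(p w) * (∏ i, Z p i w)⁻¹) := Finset.sum_le_sum key
    _ = √τ * Λ * ∑ w ∈ E, √(p w) * (∏ i, Z p i w)⁻¹ := by rw [Finset.mul_sum]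
    _ ≤ √τ * Λ * ∑ w, √(p w) * (∏ i, Z p i w)⁻¹ := by
        refine mul_le_mul_of_nonneg_left ?_ (by positivity)
        refine Finset.sum_le_sum_of_subset_of_nonneg (Finset.subset_univ _) fun w _ _ => ?_
        exact mul_nonneg (Real.sqrt_nonneg _) (inv_nonneg.2 (Finset.prod_nonneg fun _ _ => Z_nonneg _ _))
    _ ≤ √τ * Λ * 1 := mul_le_mul_of_nonneg_left (tree h1) (by positivity)
    _ = _ := mul_one _

/-- **Tree bound.** -/
theorem tree_bound (hp : ∀ w, 0 ≤ p w) (h1 : ∑ w, p w = 1) {Φ : (D → ℝ) → ℝ} {K κ τ : ℝ}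
    (hK : 0 ≤ K) (hΦ0 : ∀ c, 0 ≤ Φ c)
    (hΦ : ∀ c : D → ℝ, (∀ j, 0 ≤ c j) → ∑ j, c j = 1 → ∑ j, √(c j) ≤ Real.exp (K * √(Φ c)))
    (E : Finset (Fin T → D)) (hτ : ∀ w ∈ E, p w ≤ τ)
    (hκ : ∀ w ∈ E, ∑ i, Φ (post p i w) ≤ κ) :
    ∑ w ∈ E, p w ≤ √τ * Real.exp (K * √(T * κ)) := by
  refine tree_mass hp h1 E (Real.exp_pos _).le hτ fun w hw hw0 => ?_
  have h2 : ∀ i, Z p i w ≤ Real.exp (K * √(Φ (post p i w))) := by
    intro i
    rw [Z_eq hp]
    exact hΦ _ (fun j => post_nonneg hp i w j) (sum_post (hw0.trans_le (le_P hp _ _)).ne')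
  calc ∏ i, Z p i w ≤ ∏ i, Real.exp (K * √(Φ (post p i w))) :=
        Finset.prod_le_prod (fun i _ => Z_nonneg _ _) fun i _ => h2 i
    _ = Real.exp (K * ∑ i, √(Φ (post p i w))) := by rw [← Real.exp_sum, Finset.mul_sum]
    _ ≤ Real.exp (K * √(T * κ)) := by
        refine Real.exp_le_exp.2 (mul_le_mul_of_nonneg_left ?_ hK)
        refine Real.le_sqrt_of_sq_le ?_
        have h3 := sq_sum_le_card_mul_sum_sq (s := (univ : Finset (Fin T)))
          (f := fun i => √(Φ (post p i w)))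
        rw [Finset.card_univ, Fintype.card_fin] at h3
        refine h3.trans (mul_le_mul_of_nonneg_left ?_ (Nat.cast_nonneg _))
        refine le_trans (le_of_eq ?_) (hκ w hw)
        exact Finset.sum_congr rfl fun i _ => Real.sq_sqrt (hΦ0 _)

end Tree

section Coll

variable {D : Type*} [Fintype D] {T : ℕ} {Y : Type*} [MeasurableSpace Y]

/-- **Collision bound.** -/
theorem coll {W : Type*} [Fintype W] (ρ : W → Measure Y) [∀ w, IsFiniteMeasure (ρ w)]
    (lam : Measure Y) (M : ℝ≥0∞) (h : ∀ w, ρ w ≤ M • lam) {τ : ℝ} (hτ : 0 < τ) :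
    ∑ w, ρ w {y | τ ≤ pr ρ w y} ≤ ENNReal.ofReal τ⁻¹ * (M * lam Set.univ) := by
  classical
  set N : Set Y := {y | ∑ w, pr ρ w y = 1} with hN
  have hNm : MeasurableSet N :=
    measurableSet_eq_fun (Finset.measurable_sum _ fun w _ => measurable_pr ρ w) measurable_const
  have hEm : ∀ w, MeasurableSet {y | τ ≤ pr ρ w y} := fun w =>
    measurableSet_le measurable_const (measurable_pr ρ w)
  have hN0 : ∀ w, ρ w Nᶜ = 0 := by
    intro w
    have h0 : tot ρ Nᶜ = 0 := by
      have := sum_pr ρ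
      rw [ae_iff] at this
      exact this
    exact (ac ρ w) h0
  have h1 : ∀ w, ρ w {y | τ ≤ pr ρ w y} ≤ M * ∫⁻ y, ({y | τ ≤ pr ρ w y} ∩ N).indicator 1 y ∂lam := by
    intro w
    have h2 : ρ w {y | τ ≤ pr ρ w y} = ρ w ({y | τ ≤ pr ρ w y} ∩ N) := by
      refine le_antisymm ?_ (measure_mono Set.inter_subset_left)
      calc ρ w {y | τ ≤ pr ρ w y} ≤ ρ w (({y | τ ≤ pr ρ w y} ∩ N) ∪ Nᶜ) := by
            refine measure_mono fun y hy => ?_
            by_cases hyN : y ∈ N
            · exact Or.inl ⟨hy, hyN⟩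
            · exact Or.inr hyN
        _ ≤ _ := (measure_union_le _ _).trans (by rw [hN0, add_zero])
    rw [h2, lintegral_indicator_one ((hEm w).inter hNm)]
    exact h w _
  calc ∑ w, ρ w {y | τ ≤ pr ρ w y}
      ≤ ∑ w, M * ∫⁻ y, ({y | τ ≤ pr ρ w y} ∩ N).indicator 1 y ∂lam :=
        Finset.sum_le_sum fun w _ => h1 w
    _ = M * ∫⁻ y, ∑ w, ({y | τ ≤ pr ρ w y} ∩ N).indicator 1 y ∂lam := by
        rw [← Finset.mul_sum, lintegral_finsetSum _ fun w _ =>
          (measurable_one.indicator ((hEm w).inter hNm))]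
    _ ≤ M * ∫⁻ _, ENNReal.ofReal τ⁻¹ ∂lam := by
        gcongr with y
        by_cases hy : y ∈ N
        · have h3 : (∑ w, ({y | τ ≤ pr ρ w y} ∩ N).indicator (1 : Y → ℝ≥0∞) y)
              = ((univ.filter fun w => τ ≤ pr ρ w y).card : ℝ≥0∞) := by
            rw [Finset.card_filter, Nat.cast_sum]
            refine Finset.sum_congr rfl fun w _ => ?_
            by_cases hw : τ ≤ pr ρ w y
            · rw [Set.indicator_of_mem (show y ∈ {y | τ ≤ pr ρ w y} ∩ N from ⟨hw, hy⟩), if_pos hw]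
              simp
            · rw [Set.indicator_of_notMem (fun h => hw h.1), if_neg hw]
              simp
          rw [h3]
          have h4 : ((univ.filter fun w => τ ≤ pr ρ w y).card : ℝ) * τ ≤ 1 := by
            have h5 : ∑ w, pr ρ w y = 1 := hy
            rw [← h5]
            calc ((univ.filter fun w => τ ≤ pr ρ w y).card : ℝ) * τ
                = ∑ w ∈ univ.filter (fun w => τ ≤ pr ρ w y), τ := by
                  rw [Finset.sum_const, nsmul_eq_mul]
              _ ≤ ∑ w ∈ univ.filter (fun w => τ ≤ pr ρ w y), pr ρ w y :=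
                  Finset.sum_le_sum fun w hw => (mem_filter.1 hw).2
              _ ≤ ∑ w, pr ρ w y :=
                  Finset.sum_le_sum_of_subset_of_nonneg (Finset.filter_subset _ _)
                    fun w _ _ => pr_nonneg ρ w y
          have h6 : ((univ.filter fun w => τ ≤ pr ρ w y).card : ℝ) ≤ τ⁻¹ := by
            rw [← one_div, le_div_iff₀ hτ]; exact h4
          rw [← ENNReal.ofReal_natCast]
          exact ENNReal.ofReal_le_ofReal h6
        · have : (∑ w, ({y | τ ≤ pr ρ w y} ∩ N).indicator (1 : Y → ℝ≥0∞) y) = 0 := by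
            refine Finset.sum_eq_zero fun w _ => ?_
            exact Set.indicator_of_notMem (fun h => hy h.2) _
          rw [this]
          exact zero_le
    _ = _ := by
        rw [lintegral_const]
        ring

theorem ofReal_pr {W : Type*} [Fintype W] (ρ : W → Measure Y) [∀ w, IsFiniteMeasure (ρ w)] (w : W) :
    (fun y => ENNReal.ofReal (pr ρ w y)) =ᵐ[tot ρ] (ρ w).rnDeriv (tot ρ) := by
  filter_upwards [Measure.rnDeriv_ne_top (ρ w) (tot ρ)] with y hy
  exact ENNReal.ofReal_toReal hy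

theorem apply_eq {W : Type*} [Fintype W] (ρ : W → Measure Y) [∀ w, IsFiniteMeasure (ρ w)] (w : W)
    (A : Set Y) : ρ w A = ∫⁻ y in A, ENNReal.ofReal (pr ρ w y) ∂(tot ρ) := by
  rw [← Measure.setLIntegral_rnDeriv (ac ρ w) A]
  exact lintegral_congr_ae (ae_restrict_of_ae (ofReal_pr ρ w).symm)

theorem measurable_post (ρ : (Fin T → D) → Measure Y) (i : Fin T) (w : Fin T → D) :
    Measurable fun y => post (fun w => pr ρ w y) i w := by
  refine measurable_pi_lambda _ fun j => ?_
  unfold post mj P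
  exact (Finset.measurable_sum _ fun w _ => measurable_pr ρ w).div
    (Finset.measurable_sum _ fun w _ => measurable_pr ρ w)

/-- **Collision + tree.** -/
theorem joint (ρ : (Fin T → D) → Measure Y) [∀ w, IsFiniteMeasure (ρ w)]
    (lam : Measure Y) (M : ℝ≥0∞) (h : ∀ w, ρ w ≤ M • lam) {Φ : (D → ℝ) → ℝ} (hΦm : Measurable Φ)
    {K κ τ : ℝ} (hτ : 0 < τ) (hK : 0 ≤ K) (hΦ0 : ∀ c, 0 ≤ Φ c)
    (hΦ : ∀ c : D → ℝ, (∀ j, 0 ≤ c j) → ∑ j, c j = 1 → ∑ j, √(c j) ≤ Real.exp (K * √(Φ c))) :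
    ∑ w, ρ w {y | ∑ i, Φ (post (fun w => pr ρ w y) i w) < κ} ≤
      ENNReal.ofReal τ⁻¹ * (M * lam Set.univ) +
        ENNReal.ofReal (√τ * Real.exp (K * √(T * κ))) * tot ρ Set.univ := by
  classical
  set F : (Fin T → D) → Set Y := fun w =>
    {y | pr ρ w y ≤ τ ∧ ∑ i, Φ (post (fun w => pr ρ w y) i w) ≤ κ} with hF
  have hFm : ∀ w, MeasurableSet (F w) := fun w =>
    (measurableSet_le (measurable_pr ρ w) measurable_const).inter
      (measurableSet_le (Finset.measurable_sum _ fun i _ => hΦm.comp (measurable_post ρ i w))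
        measurable_const)
  have h1 : ∀ w, ρ w {y | ∑ i, Φ (post (fun w => pr ρ w y) i w) < κ} ≤
      ρ w {y | τ ≤ pr ρ w y} + ρ w (F w) := by
    intro w
    refine le_trans (measure_mono fun y hy => ?_) (measure_union_le _ _)
    rcases le_total τ (pr ρ w y) with h2 | h2
    · exact Or.inl h2
    · exact Or.inr ⟨h2, le_of_lt hy⟩
  have h3 : ∑ w, ρ w (F w) ≤ ENNReal.ofReal (√τ * Real.exp (K * √(T * κ))) * tot ρ Set.univ := by
    calc ∑ w, ρ w (F w) = ∑ w, ∫⁻ y, (F w).indicator (fun y => ENNReal.ofReal (pr ρ w y)) y ∂(tot ρ) := by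
          refine Finset.sum_congr rfl fun w _ => ?_
          rw [apply_eq ρ w (F w), lintegral_indicator (hFm w)]
      _ = ∫⁻ y, ∑ w, (F w).indicator (fun y => ENNReal.ofReal (pr ρ w y)) y ∂(tot ρ) := by
          rw [lintegral_finsetSum _ fun w _ => ((measurable_pr ρ w).ennreal_ofReal.indicator (hFm w))]
      _ ≤ ∫⁻ _, ENNReal.ofReal (√τ * Real.exp (K * √(T * κ))) ∂(tot ρ) := by
          refine lintegral_mono_ae ?_
          filter_upwards [sum_pr ρ] with y hy
          have h4 : ∑ w, (F w).indicator (fun y => ENNReal.ofReal (pr ρ w y)) y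
              = ENNReal.ofReal (∑ w ∈ univ.filter (fun w => y ∈ F w), pr ρ w y) := by
            rw [ENNReal.ofReal_sum_of_nonneg fun w _ => pr_nonneg ρ w y, Finset.sum_filter]
            refine Finset.sum_congr rfl fun w _ => ?_
            by_cases hw : y ∈ F w
            · rw [Set.indicator_of_mem hw, if_pos hw]
            · rw [Set.indicator_of_notMem hw, if_neg hw]
          rw [h4]
          refine ENNReal.ofReal_le_ofReal ?_
          refine tree_bound (p := fun w => pr ρ w y) (fun w => pr_nonneg ρ w y) hy hK hΦ0 hΦ _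
            (fun w hw => (mem_filter.1 hw).2.1) (fun w hw => (mem_filter.1 hw).2.2)
      _ = _ := by rw [lintegral_const]
  calc ∑ w, ρ w {y | ∑ i, Φ (post (fun w => pr ρ w y) i w) < κ}
      ≤ ∑ w, (ρ w {y | τ ≤ pr ρ w y} + ρ w (F w)) := Finset.sum_le_sum fun w _ => h1 w
    _ = ∑ w, ρ w {y | τ ≤ pr ρ w y} + ∑ w, ρ w (F w) := Finset.sum_add_distrib
    _ ≤ _ := add_le_add (coll ρ lam M h hτ) h3

/-- the joint law of the letter `i` and the observation on the class of `w`. -/
def sg (ρ : (Fin T → D) → Measure Y) (i : Fin T) (w : Fin T → D) (j : D) : Measure Y :=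
  ∑ w' ∈ cl ((i : ℕ) + 1) (Function.update w i j), ρ w'

instance (ρ : (Fin T → D) → Measure Y) [∀ w, IsFiniteMeasure (ρ w)] (i : Fin T) (w : Fin T → D)
    (j : D) : IsFiniteMeasure (sg ρ i w j) := by unfold sg; infer_instance

theorem tot_sg (ρ : (Fin T → D) → Measure Y) (i : Fin T) (w : Fin T → D) :
    tot (sg ρ i w) = ∑ w' ∈ cl (i : ℕ) w, ρ w' := by
  rw [sum_cl_split]; rfl

theorem sum_cl_eq (ρ : (Fin T → D) → Measure Y) [∀ w, IsFiniteMeasure (ρ w)] (m : ℕ)
    (w : Fin T → D) : ∑ w' ∈ cl m w, ρ w' =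
      (tot ρ).withDensity fun y => ENNReal.ofReal (P (fun w => pr ρ w y) m w) := by
  ext A hA
  rw [Measure.finsetSum_apply, withDensity_apply _ hA]
  unfold P
  have : ∀ y, ENNReal.ofReal (∑ w' ∈ cl m w, pr ρ w' y) = ∑ w' ∈ cl m w, ENNReal.ofReal (pr ρ w' y) :=
    fun y => ENNReal.ofReal_sum_of_nonneg fun w' _ => pr_nonneg ρ w' y
  simp_rw [this]
  rw [lintegral_finsetSum _ fun w' _ => (measurable_pr ρ w').ennreal_ofReal]
  exact Finset.sum_congr rfl fun w' _ => apply_eq ρ w' A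

/-- the posterior of the letter `i` is the conditional law of the family `sg`. -/
theorem pr_sg (ρ : (Fin T → D) → Measure Y) [∀ w, IsFiniteMeasure (ρ w)] (i : Fin T)
    (w : Fin T → D) (j : D) :
    ∀ᵐ y ∂(tot (sg ρ i w)), pr (sg ρ i w) j y = post (fun w => pr ρ w y) i w j := by
  have hPm : ∀ (m : ℕ) (w : Fin T → D), Measurable fun y => P (fun w => pr ρ w y) m w := fun m w =>
    Finset.measurable_sum _ fun w _ => measurable_pr ρ w
  have hm : Measurable fun y => ENNReal.ofReal (post (fun w => pr ρ w y) i w j) :=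
    ((measurable_pi_iff.1 (measurable_post ρ i w)) j).ennreal_ofReal
  have h1 : sg ρ i w j = (tot (sg ρ i w)).withDensity
      fun y => ENNReal.ofReal (post (fun w => pr ρ w y) i w j) := by
    rw [tot_sg, sum_cl_eq, ← withDensity_mul _ (hPm _ _).ennreal_ofReal hm]
    unfold sg
    rw [sum_cl_eq]
    congr 1
    funext y
    rw [Pi.mul_apply, ← ENNReal.ofReal_mul (P_nonneg (fun w => pr_nonneg ρ w y) _ _)]
    congr 1
    unfold post
    change mj (fun w => pr ρ w y) i w j = _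
    by_cases h0 : P (fun w => pr ρ w y) i w = 0
    · have h2 : mj (fun w => pr ρ w y) i w j ≤ P (fun w => pr ρ w y) i w := by
        rw [← sum_mj]
        exact Finset.single_le_sum (f := fun j => mj (fun w => pr ρ w y) i w j)
          (fun j _ => mj_nonneg (fun w => pr_nonneg ρ w y) i w j) (mem_univ j)
      have h3 := mj_nonneg (fun w => pr_nonneg ρ w y) i w j
      rw [h0, zero_mul]
      exact le_antisymm (h2.trans h0.le) h3
    · rw [mul_div_cancel₀ _ h0]
  have h2 := Ne2_567.rn_of_eq hm h1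
  filter_upwards [h2] with y hy
  change ((sg ρ i w j).rnDeriv (tot (sg ρ i w)) y).toReal = _
  rw [hy, ENNReal.toReal_ofReal]
  exact post_nonneg (fun w => pr_nonneg ρ w y) i w j

end Coll

end Crest.Agent.R014.NSlab_373
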