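import Crest.Agent.R014.NSlab1_373
import Crest.Agent.R014.Nd2_837

/-!
Row 14, block D, noise formalism (#3844), section SLAB (helper373, task 1063), part 2 (abstract).

Lower bound for the sum over the levels of `∫ Φ (conditional law of the letter)`, restricted to a
sub-family `ρA ≤ ρ`, when the class families `sg ρ i w` are translates of one family `τ i`.
-/

set_option autoImplicit false

open MeasureTheory Finset
open scoped ENNReal

noncomputable section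

namespace Crest.Agent.R014.NSlab_373

open Ne1_567

variable {D : Type*} [Fintype D] {T : ℕ} {Y : Type*} [MeasurableSpace Y]

section Count

lemma card_cl (m : ℕ) (hm : m ≤ T) (w : Fin T → D) :
    ((cl m w).card : ℝ≥0∞) = (Fintype.card D : ℝ≥0∞) ^ (T - m) := by
  have key : ∀ k : ℕ, ∀ m : ℕ, m + k = T → ∀ w : Fin T → D,
      (cl m w).card = (Fintype.card D) ^ k := by
    intro k
    induction k with
    | zero =>
      intro m hm w
      obtain rfl : m = T := by omega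
      rw [cl_top]; simp
    | succ k ih =>
      intro m hm w
      set i : Fin T := ⟨m, by omega⟩
      have h := sum_cl_split i w (fun _ => (1 : ℕ))
      simp only [Finset.sum_const, smul_eq_mul, mul_one] at h
      change (cl m w).card = _ at h
      rw [h, Finset.sum_congr rfl fun j _ => ih (m + 1) (by omega) (Function.update w i j)]
      rw [Finset.sum_const, Finset.card_univ, smul_eq_mul, pow_succ, mul_comm]
  rw [key (T - m) m (by omega) w]
  push_cast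
  rfl

/-- double counting. -/
lemma sum_eq_avg (m : ℕ) (h : (Fin T → D) → ℝ≥0∞) :
    ∑ w, h w = ∑ w : Fin T → D, ((cl m w).card : ℝ≥0∞)⁻¹ * ∑ w' ∈ cl m w, h w' := by
  classical
  have h1 : ∑ w : Fin T → D, ((cl m w).card : ℝ≥0∞)⁻¹ * ∑ w' ∈ cl m w, h w'
      = ∑ w : Fin T → D, ∑ w' : Fin T → D,
        if w' ∈ cl m w then ((cl m w).card : ℝ≥0∞)⁻¹ * h w' else 0 := by
    refine Finset.sum_congr rfl fun w _ => ?_
    rw [Finset.mul_sum, ← Finset.sum_filter]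
    refine Finset.sum_congr ?_ fun _ _ => rfl
    ext w'; simp
  rw [h1, Finset.sum_comm]
  refine Finset.sum_congr rfl fun w' _ => ?_
  have h2 : ∀ w : Fin T → D, (if w' ∈ cl m w then ((cl m w).card : ℝ≥0∞)⁻¹ * h w' else 0)
      = if w ∈ cl m w' then ((cl m w').card : ℝ≥0∞)⁻¹ * h w' else 0 := by
    intro w
    by_cases hw : w' ∈ cl m w
    · have hw' : w ∈ cl m w' := by rw [cl_eq hw]; exact self_mem_cl m w
      rw [if_pos hw, if_pos hw', cl_eq hw]
    · have hw' : w ∉ cl m w' := fun h => hw (by rw [cl_eq h]; exact self_mem_cl m w')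
      rw [if_neg hw, if_neg hw']
  rw [Finset.sum_congr rfl fun w _ => h2 w, ← Finset.sum_filter, Finset.sum_const, nsmul_eq_mul]
  have h3 : (univ.filter fun w => w ∈ cl m w') = cl m w' := by ext; simp
  rw [h3, ← mul_assoc, ENNReal.mul_inv_cancel, one_mul]
  · simpa using (Finset.card_pos.2 ⟨w', self_mem_cl m w'⟩).ne'
  · exact ENNReal.natCast_ne_top _

end Count

section Lower

variable (ρ ρA : (Fin T → D) → Measure Y) [∀ w, IsFiniteMeasure (ρ w)] [∀ w, IsFiniteMeasure (ρA w)]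

omit [∀ w, IsFiniteMeasure (ρ w)] [∀ w, IsFiniteMeasure (ρA w)] in
/-- pointwise lower bound. -/
theorem lower (hA : ∀ w, ρA w ≤ ρ w) {Φ : (D → ℝ) → ℝ} (hΦm : Measurable Φ)
    (hΦ0 : ∀ c, 0 ≤ Φ c) {κ : ℝ} {B : ℝ≥0∞}
    (hB : ∑ w, ρ w {y | ∑ i, Φ (post (fun w => pr ρ w y) i w) < κ} ≤ B) :
    ENNReal.ofReal κ * tot ρA Set.univ ≤
      ∑ i, ∑ w, ∫⁻ y, ENNReal.ofReal (Φ (post (fun w => pr ρ w y) i w)) ∂(ρA w) +
        ENNReal.ofReal κ * B := by
  have hm : ∀ i w, Measurable fun y => Φ (post (fun w => pr ρ w y) i w) := fun i w =>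
    hΦm.comp (measurable_post ρ i w)
  have h1 : ∀ w, ENNReal.ofReal κ * ρA w Set.univ ≤
      ∫⁻ y, ∑ i, ENNReal.ofReal (Φ (post (fun w => pr ρ w y) i w)) ∂(ρA w) +
        ENNReal.ofReal κ * ρ w {y | ∑ i, Φ (post (fun w => pr ρ w y) i w) < κ} := by
    intro w
    have hS : MeasurableSet {y | ∑ i, Φ (post (fun w => pr ρ w y) i w) < κ} :=
      measurableSet_lt (Finset.measurable_sum _ fun i _ => hm i w) measurable_const
    calc ENNReal.ofReal κ * ρA w Set.univ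
        = ENNReal.ofReal κ * ρA w {y | ∑ i, Φ (post (fun w => pr ρ w y) i w) < κ}ᶜ +
          ENNReal.ofReal κ * ρA w {y | ∑ i, Φ (post (fun w => pr ρ w y) i w) < κ} := by
          rw [← mul_add, add_comm, measure_add_measure_compl hS]
      _ ≤ _ := by
          refine add_le_add ?_ (mul_le_mul_right (hA w _) _)
          calc ENNReal.ofReal κ * ρA w {y | ∑ i, Φ (post (fun w => pr ρ w y) i w) < κ}ᶜ
              = ∫⁻ _ in {y | ∑ i, Φ (post (fun w => pr ρ w y) i w) < κ}ᶜ, ENNReal.ofReal κ ∂(ρA w) := by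
                rw [setLIntegral_const]
            _ ≤ ∫⁻ y in {y | ∑ i, Φ (post (fun w => pr ρ w y) i w) < κ}ᶜ,
                ∑ i, ENNReal.ofReal (Φ (post (fun w => pr ρ w y) i w)) ∂(ρA w) := by
                refine setLIntegral_mono' hS.compl fun y hy => ?_
                rw [← ENNReal.ofReal_sum_of_nonneg fun i _ => hΦ0 _]
                exact ENNReal.ofReal_le_ofReal (not_lt.1 hy)
            _ ≤ _ := setLIntegral_le_lintegral _ _
  calc ENNReal.ofReal κ * tot ρA Set.univ = ∑ w, ENNReal.ofReal κ * ρA w Set.univ := by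
        rw [tot_apply, Finset.mul_sum]
    _ ≤ ∑ w, (∫⁻ y, ∑ i, ENNReal.ofReal (Φ (post (fun w => pr ρ w y) i w)) ∂(ρA w) +
        ENNReal.ofReal κ * ρ w {y | ∑ i, Φ (post (fun w => pr ρ w y) i w) < κ}) :=
        Finset.sum_le_sum fun w _ => h1 w
    _ = ∑ w, ∑ i, ∫⁻ y, ENNReal.ofReal (Φ (post (fun w => pr ρ w y) i w)) ∂(ρA w) +
        ENNReal.ofReal κ * ∑ w, ρ w {y | ∑ i, Φ (post (fun w => pr ρ w y) i w) < κ} := by
        rw [Finset.sum_add_distrib, Finset.mul_sum]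
        congr 1
        refine Finset.sum_congr rfl fun w _ => ?_
        exact lintegral_finsetSum _ fun i _ => (hm i w).ennreal_ofReal
    _ ≤ _ := by
        rw [Finset.sum_comm]
        exact add_le_add le_rfl (mul_le_mul_right hB _)

theorem tot_mono {ι : Type*} [Fintype ι] {α β : ι → Measure Y} (h : ∀ c, α c ≤ β c) :
    tot α ≤ tot β := by
  refine Measure.le_iff.2 fun s _ => ?_
  rw [tot_apply, tot_apply]
  exact Finset.sum_le_sum fun c _ => h c s

omit [∀ w, IsFiniteMeasure (ρA w)] in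
/-- one level, regrouped by classes. -/
theorem level_eq (hA : ∀ w, ρA w ≤ ρ w) (Φ : (D → ℝ) → ℝ) (i : Fin T) :
    ∑ w, ∫⁻ y, ENNReal.ofReal (Φ (post (fun w => pr ρ w y) i w)) ∂(ρA w) =
      ∑ w : Fin T → D, ((Fintype.card D : ℝ≥0∞) ^ (T - (i : ℕ)))⁻¹ *
        ∫⁻ y, ENNReal.ofReal (Φ fun j => pr (sg ρ i w) j y) ∂(tot (sg ρA i w)) := by
  rw [sum_eq_avg (i : ℕ)]
  refine Finset.sum_congr rfl fun w _ => ?_
  rw [card_cl (i : ℕ) i.2.le w]
  congr 1
  have h1 : ∀ w' ∈ cl (i : ℕ) w,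
      ∫⁻ y, ENNReal.ofReal (Φ (post (fun w => pr ρ w y) i w')) ∂(ρA w') =
      ∫⁻ y, ENNReal.ofReal (Φ (post (fun w => pr ρ w y) i w)) ∂(ρA w') := by
    intro w' hw'
    simp_rw [post_eq_of_mem hw']
  rw [Finset.sum_congr rfl h1, ← lintegral_finsetSum_measure, ← tot_sg]
  refine lintegral_congr_ae ?_
  have h2 : ∀ᵐ y ∂(tot (sg ρ i w)), ∀ j, pr (sg ρ i w) j y = post (fun w => pr ρ w y) i w j :=
    ae_all_iff.2 fun j => pr_sg ρ i w j
  have h3 : tot (sg ρA i w) ≤ tot (sg ρ i w) := by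
    refine tot_mono fun j => ?_
    unfold sg
    exact Finset.sum_le_sum fun w _ => hA w
  filter_upwards [h3.absolutelyContinuous.ae_le h2] with y hy
  congr 2
  funext j
  exact (hy j).symm

/-- translation structure of the classes. -/
structure Trans (ρ ρA : (Fin T → D) → Measure Y) (τ τA : Fin T → D → Measure Y) : Prop where
  ex : ∀ i w, ∃ e : Y ≃ᵐ Y,
    (∀ j, sg ρ i w j = ((Fintype.card D : ℝ≥0∞)⁻¹) ^ (i : ℕ) • (τ i j).map e) ∧
    (∀ j, sg ρA i w j = ((Fintype.card D : ℝ≥0∞)⁻¹) ^ (i : ℕ) • (τA i j).map e)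

theorem pr_map_smul {ι Z : Type*} [Fintype ι] [MeasurableSpace Z] (τ : ι → Measure Y)
    [∀ j, IsFiniteMeasure (τ j)]
    (e : Y ≃ᵐ Z) {a : ℝ≥0∞} (h0 : a ≠ 0) (ha : a ≠ ∞) (j : ι) :
    ∀ᵐ y ∂(tot τ), pr (fun j => a • (τ j).map e) j (e y) = pr τ j y := by
  have h1 := Nd_837.pr_equiv τ e j
  have h2 : ∀ᵐ z ∂(tot (mp e τ)), pr (fun j => a • (mp e τ) j) j z = pr (mp e τ) j z :=
    Nd_837.pr_smul (mp e τ) h0 ha j
  rw [tot_mp e.measurable] at h2
  have h3 := ae_of_ae_map e.measurable.aemeasurable h2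
  filter_upwards [h1, h3] with y hy hy'
  exact hy'.trans hy

omit [∀ w, IsFiniteMeasure (ρA w)] in
/-- **Lower bound, regrouped.** -/
theorem lower_trans [Nonempty D] (hA : ∀ w, ρA w ≤ ρ w) {Φ : (D → ℝ) → ℝ} (hΦm : Measurable Φ)
    (hΦ0 : ∀ c, 0 ≤ Φ c) {κ : ℝ} {B : ℝ≥0∞}
    (hB : ∑ w, ρ w {y | ∑ i, Φ (post (fun w => pr ρ w y) i w) < κ} ≤ B)
    (τ τA : Fin T → D → Measure Y) [∀ i j, IsFiniteMeasure (τ i j)] [∀ i j, IsFiniteMeasure (τA i j)]
    (hτ : ∀ i j, τA i j ≤ τ i j) (hT : Trans ρ ρA τ τA) :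
    ENNReal.ofReal κ * tot ρA Set.univ ≤
      ∑ i, ∫⁻ y, ENNReal.ofReal (Φ fun j => pr (τ i) j y) ∂(tot (τA i)) + ENNReal.ofReal κ * B := by
  refine (lower ρ ρA hA hΦm hΦ0 hB).trans (add_le_add ?_ le_rfl)
  refine Finset.sum_le_sum fun i _ => le_of_eq ?_
  rw [level_eq ρ ρA hA Φ i]
  have hc0 : (Fintype.card D : ℝ≥0∞) ≠ 0 := by simp
  have hct : (Fintype.card D : ℝ≥0∞) ≠ ∞ := ENNReal.natCast_ne_top _
  have hi0 : ((Fintype.card D : ℝ≥0∞)⁻¹) ^ (i : ℕ) ≠ 0 := by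
    simp [hct]
  have hit : ((Fintype.card D : ℝ≥0∞)⁻¹) ^ (i : ℕ) ≠ ∞ := by
    refine ENNReal.pow_ne_top ?_
    simp
  have key : ∀ w : Fin T → D,
      ∫⁻ y, ENNReal.ofReal (Φ fun j => pr (sg ρ i w) j y) ∂(tot (sg ρA i w)) =
      ((Fintype.card D : ℝ≥0∞)⁻¹) ^ (i : ℕ) *
        ∫⁻ y, ENNReal.ofReal (Φ fun j => pr (τ i) j y) ∂(tot (τA i)) := by
    intro w
    obtain ⟨e, he, heA⟩ := hT.ex i w
    have h1 : tot (sg ρA i w) = ((Fintype.card D : ℝ≥0∞)⁻¹) ^ (i : ℕ) • (tot (τA i)).map e := by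
      have : sg ρA i w = fun j => ((Fintype.card D : ℝ≥0∞)⁻¹) ^ (i : ℕ) • (mp e (τA i)) j :=
        funext heA
      rw [this, Nd_837.tot_smul, tot_mp e.measurable]
    have h2 : sg ρ i w = fun j => ((Fintype.card D : ℝ≥0∞)⁻¹) ^ (i : ℕ) • (τ i j).map e := funext he
    rw [h1, lintegral_smul_measure, smul_eq_mul, h2, lintegral_map_equiv]
    congr 1
    refine lintegral_congr_ae ?_
    have h3 : ∀ᵐ y ∂(tot (τ i)), ∀ j,
        pr (fun j => ((Fintype.card D : ℝ≥0∞)⁻¹) ^ (i : ℕ) • (τ i j).map e) j (e y) = pr (τ i) j y :=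
      ae_all_iff.2 fun j => pr_map_smul (τ i) e hi0 hit j
    filter_upwards [(tot_mono (hτ i)).absolutelyContinuous.ae_le h3] with y hy
    congr 2
    funext j
    exact hy j
  rw [Finset.sum_congr rfl fun w _ => by rw [key w], Finset.sum_const, nsmul_eq_mul, Finset.card_univ,
    Fintype.card_fun, Fintype.card_fin, ← mul_assoc, ← mul_assoc]
  have h4 : (((Fintype.card D) ^ T : ℕ) : ℝ≥0∞) * ((Fintype.card D : ℝ≥0∞) ^ (T - (i : ℕ)))⁻¹ *
      ((Fintype.card D : ℝ≥0∞)⁻¹) ^ (i : ℕ) = 1 := by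
    push_cast
    have h5 : (Fintype.card D : ℝ≥0∞) ^ T
        = (Fintype.card D : ℝ≥0∞) ^ (T - (i : ℕ)) * (Fintype.card D : ℝ≥0∞) ^ (i : ℕ) := by
      rw [← pow_add]; congr 1; omega
    rw [h5, mul_right_comm ((Fintype.card D : ℝ≥0∞) ^ (T - (i : ℕ))),
      ENNReal.mul_inv_cancel (pow_ne_zero _ hc0) (ENNReal.pow_ne_top hct),
      one_mul, ← ENNReal.inv_pow, ENNReal.mul_inv_cancel (pow_ne_zero _ hc0) (ENNReal.pow_ne_top hct)]
  rw [h4, one_mul]

end Lower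

end Crest.Agent.R014.NSlab_373
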