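import Crest.Agent.R014.NSlab2_373
import Crest.Agent.R014.NS0_373

/-!
Row 14, block D, noise formalism (#3844), section SLAB (helper373, task 1063), part 3 (concrete):
the digits of `v(s)`, `s` uniform in `[-1,1]^(S × Sᶜ)`: decomposition into cells, translation,
and the structure `Trans` for the family `rho` of `NS0_373`.
-/

set_option autoImplicit false

open MeasureTheory Crest.NumberTheoryR.Packets Finset
open scoped ENNReal

noncomputable section

namespace Crest.Agent.R014.NS_373

open Ms_667 Nd_837 Ne1_567 NSlab_373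

variable {n : ℕ} {S : Finset (Fin n)} {b : ℕ}

/-- the centre of a letter. -/
def cenv (j : CC S → Fin b) : CC S → ℝ := fun c => cen b (j c)

lemma card_letters : (Fintype.card (CC S → Fin b) : ℝ≥0∞) = (b : ℝ≥0∞) ^ Fintype.card (CC S) := by
  rw [Fintype.card_fun, Fintype.card_fin]; push_cast; rfl

/-- the uniform law on the cube is the mixture of the uniform laws on the cells. -/
theorem uniC_split (hb : 0 < b) : uniC S = (Fintype.card (CC S → Fin b) : ℝ≥0∞)⁻¹ •
    ∑ j : CC S → Fin b, (uniC S).map fun θ => cenv j + (b : ℝ)⁻¹ • θ := by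
  have hm : ∀ j : CC S → Fin b, Measurable fun θ : CC S → ℝ => cenv j + (b : ℝ)⁻¹ • θ := by
    intro j; fun_prop
  have hm1 : ∀ k : Fin b, Measurable fun θ : ℝ => cen b k + θ / b := by
    intro k; fun_prop
  refine Measure.pi_eq fun s hs => ?_
  rw [Measure.smul_apply, Measure.finsetSum_apply, smul_eq_mul]
  have h1 : ∀ j : CC S → Fin b, ((uniC S).map fun θ => cenv j + (b : ℝ)⁻¹ • θ) (Set.univ.pi s)
      = ∏ c, (uni.map fun θ => cen b (j c) + θ / b) (s c) := by
    intro j
    rw [Measure.map_apply (hm j) (MeasurableSet.univ_pi hs)]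
    have h2 : (fun θ : CC S → ℝ => cenv j + (b : ℝ)⁻¹ • θ) ⁻¹' (Set.univ.pi s)
        = Set.univ.pi fun c => (fun θ : ℝ => cen b (j c) + θ / b) ⁻¹' (s c) := by
      ext θ
      simp only [Set.mem_preimage, Set.mem_pi, Set.mem_univ, true_implies, Pi.add_apply,
        Pi.smul_apply, smul_eq_mul, cenv, div_eq_inv_mul]
    rw [h2, uniC, Measure.pi_pi]
    exact Finset.prod_congr rfl fun c _ => (Measure.map_apply (hm1 _) (hs c)).symm
  rw [Finset.sum_congr rfl fun j _ => h1 j]
  have h3 : ∏ c, uni (s c) = ∏ c, ((b : ℝ≥0∞)⁻¹ * ∑ k : Fin b, (uni.map fun θ => cen b k + θ / b) (s c)) := by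
    refine Finset.prod_congr rfl fun c _ => ?_
    conv_lhs => rw [uni_split hb]
    rw [Measure.smul_apply, Measure.finsetSum_apply, smul_eq_mul]
  have h4 : ∏ c : CC S, ∑ k : Fin b, (uni.map fun θ => cen b k + θ / b) (s c)
      = ∑ j : CC S → Fin b, ∏ c, (uni.map fun θ => cen b (j c) + θ / b) (s c) := by
    rw [Finset.prod_univ_sum, Fintype.piFinset_univ]
  rw [h3, Finset.prod_mul_distrib, h4, Finset.prod_const, Finset.card_univ, card_letters,
    ENNReal.inv_pow]

theorem vlaw_split (hb : 0 < b) (m : ℕ) (x : CC S → ℝ) : vlaw S b m x =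
    (Fintype.card (CC S → Fin b) : ℝ≥0∞)⁻¹ •
      ∑ j : CC S → Fin b, vlaw S b (m + 1) (x + ((b : ℝ)⁻¹) ^ m • cenv j) := by
  have hm : ∀ j : CC S → Fin b, Measurable fun θ : CC S → ℝ => cenv j + (b : ℝ)⁻¹ • θ := by
    intro j; fun_prop
  unfold vlaw
  conv_lhs => rw [uniC_split (S := S) hb]
  rw [Measure.map_smul, Measure.map_finset_sum (measurable_vlaw S b m x).aemeasurable]
  congr 1
  refine Finset.sum_congr rfl fun j _ => ?_
  rw [Measure.map_map (measurable_vlaw S b m x) (hm j)]
  congr 1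
  funext θ
  simp only [Function.comp_apply]
  congr 1
  rw [smul_add, smul_smul, ← pow_succ, add_assoc]

theorem vlaw_add (m : ℕ) (x y : CC S → ℝ) :
    vlaw S b m (x + y) = (vlaw S b m y).map fun g => g * vv S x := by
  unfold vlaw
  rw [Measure.map_map (measurable_mul_const _) (measurable_vlaw S b m y)]
  congr 1
  funext θ
  simp only [Function.comp_apply]
  rw [← vv_add]
  congr 1
  abel

instance instSFiniteStp (ν : Measure (ModSpace n)) (κ : Measure (SLR n)) [SFinite ν] [SFinite κ] :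
    SFinite (stp ν κ) := by unfold stp; infer_instance

theorem stp_vlaw_add (ν : Measure (ModSpace n)) [SFinite ν] (m : ℕ) (x y : CC S → ℝ) :
    stp ν (vlaw S b m (x + y)) = (stp ν (vlaw S b m y)).map fun z => act z (vv S x) := by
  rw [vlaw_add, ← cv_dirac, ← stp_dirac, stp_stp]

/-- the centre of the cell of the letters `< m` of the word `w`. -/
def repm {T : ℕ} (m : ℕ) (w : Fin T → CC S → Fin b) : CC S → ℝ :=
  fun c => ∑ i ∈ univ.filter (fun i : Fin T => (i : ℕ) < m), ((b : ℝ)⁻¹) ^ (i : ℕ) * cen b (w i c)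

lemma repm_top {T : ℕ} (w : Fin T → CC S → Fin b) : repm T w = rep w := by
  funext c
  unfold repm rep
  rw [Finset.filter_true_of_mem fun i _ => i.2]

lemma repm_zero {T : ℕ} (w : Fin T → CC S → Fin b) : repm 0 w = 0 := by
  funext c
  simp [repm]

lemma repm_succ {T : ℕ} (i : Fin T) (w : Fin T → CC S → Fin b) (j : CC S → Fin b) :
    repm ((i : ℕ) + 1) (Function.update w i j) = repm (i : ℕ) w + ((b : ℝ)⁻¹) ^ (i : ℕ) • cenv j := by
  funext c
  simp only [repm, Pi.add_apply, Pi.smul_apply, smul_eq_mul, cenv]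
  have : (univ.filter fun k : Fin T => (k : ℕ) < (i : ℕ) + 1)
      = insert i (univ.filter fun k : Fin T => (k : ℕ) < (i : ℕ)) := by
    ext k
    simp only [mem_filter, mem_univ, true_and, mem_insert, Fin.ext_iff]
    omega
  rw [this, Finset.sum_insert (by simp), Function.update_self, add_comm]
  congr 1
  refine Finset.sum_congr rfl fun k hk => ?_
  rw [mem_filter] at hk
  rw [Function.update_of_ne]
  rintro rfl
  exact lt_irrefl _ hk.2

/-- the law of the observation on a class of words. -/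
theorem sum_cl_rho (hb : 0 < b) (ν : Measure (ModSpace n)) [IsFiniteMeasure ν]
    (κ : Measure (SLR n)) [IsFiniteMeasure κ] (T m : ℕ) (hm : m ≤ T) (w : Fin T → CC S → Fin b) :
    ∑ w' ∈ cl m w, rho ν κ S b T w' =
      ((Fintype.card (CC S → Fin b) : ℝ≥0∞)⁻¹) ^ m • stp (stp ν κ) (vlaw S b m (repm m w)) := by
  have key : ∀ k : ℕ, ∀ m : ℕ, m + k = T → ∀ w : Fin T → CC S → Fin b,
      ∑ w' ∈ cl m w, rho ν κ S b T w' =
      ((Fintype.card (CC S → Fin b) : ℝ≥0∞)⁻¹) ^ m • stp (stp ν κ) (vlaw S b m (repm m w)) := by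
    intro k
    induction k with
    | zero =>
      intro m hm w
      obtain rfl : m = T := by omega
      rw [cl_top, Finset.sum_singleton, repm_top]
      rfl
    | succ k ih =>
      intro m hm w
      set i : Fin T := ⟨m, by omega⟩ with hi
      have h := sum_cl_split i w (fun w' => rho ν κ S b T w')
      change ∑ w' ∈ cl m w, rho ν κ S b T w' = _ at h
      rw [h, Finset.sum_congr rfl fun j _ => ih (m + 1) (by omega) (Function.update w i j),
        ← Finset.smul_sum, vlaw_split hb, stp_smul, smul_smul, ← pow_succ, stp_sum]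
      congr 1
      refine Finset.sum_congr rfl fun j _ => ?_
      rw [← repm_succ i w j]
  exact key (T - m) m (by omega) w

/-- the family of one level: joint law of the letter and the noisy point. -/
def tau (ν : Measure (ModSpace n)) (κ : Measure (SLR n)) (S : Finset (Fin n)) (b m : ℕ)
    (j : CC S → Fin b) : Measure (ModSpace n) :=
  (Fintype.card (CC S → Fin b) : ℝ≥0∞)⁻¹ • stp (stp ν κ) (vlaw S b (m + 1) (((b : ℝ)⁻¹) ^ m • cenv j))

instance (ν : Measure (ModSpace n)) (κ : Measure (SLR n)) [IsFiniteMeasure ν] [IsFiniteMeasure κ]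
    (S : Finset (Fin n)) (b m : ℕ) (j : CC S → Fin b) : IsFiniteMeasure (tau ν κ S b m j) := by
  unfold tau
  have : (Fintype.card (CC S → Fin b) : ℝ≥0∞)⁻¹ ≠ ∞ := by
    have : Nonempty (CC S → Fin b) := ⟨j⟩
    exact ENNReal.inv_ne_top.2 (by exact_mod_cast Fintype.card_ne_zero)
  exact Measure.smul_finite _ this

instance (ν : Measure (ModSpace n)) (κ : Measure (SLR n)) [IsFiniteMeasure ν] [IsFiniteMeasure κ]
    (S : Finset (Fin n)) (b T : ℕ) (w : Fin T → CC S → Fin b) :
    IsFiniteMeasure (rho ν κ S b T w) := by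
  unfold rho
  by_cases hT : T = 0
  · subst hT
    rw [pow_zero, one_smul]
    infer_instance
  · have : ((Fintype.card (CC S → Fin b) : ℝ≥0∞)⁻¹) ^ T ≠ ∞ := by
      have : Nonempty (CC S → Fin b) := ⟨w ⟨0, Nat.pos_of_ne_zero hT⟩⟩
      refine ENNReal.pow_ne_top ?_
      exact ENNReal.inv_ne_top.2 (by exact_mod_cast Fintype.card_ne_zero)
    exact Measure.smul_finite _ this

theorem sg_rho (hb : 0 < b) (ν : Measure (ModSpace n)) [IsFiniteMeasure ν]
    (κ : Measure (SLR n)) [IsFiniteMeasure κ] (T : ℕ) (i : Fin T) (w : Fin T → CC S → Fin b)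
    (j : CC S → Fin b) : sg (rho ν κ S b T) i w j =
      ((Fintype.card (CC S → Fin b) : ℝ≥0∞)⁻¹) ^ (i : ℕ) •
        (tau ν κ S b i j).map (actE (vv S (repm (i : ℕ) w))) := by
  unfold sg tau
  rw [sum_cl_rho hb ν κ T _ i.2, repm_succ, Measure.map_smul, smul_smul, ← pow_succ,
    stp_vlaw_add]
  rfl

theorem trans_rho (hb : 0 < b) (ν νA : Measure (ModSpace n)) [IsFiniteMeasure ν]
    [IsFiniteMeasure νA] (κ : Measure (SLR n)) [IsFiniteMeasure κ] (T : ℕ) :
    Trans (rho ν κ S b T) (rho νA κ S b T) (fun i => tau ν κ S b i) (fun i => tau νA κ S b i) where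
  ex i w := ⟨actE (vv S (repm (i : ℕ) w)), fun j => sg_rho hb ν κ T i w j,
    fun j => sg_rho hb νA κ T i w j⟩

theorem stp_mono {ν νA : Measure (ModSpace n)} (h : νA ≤ ν) (κ : Measure (SLR n)) [SFinite κ]
    [SFinite ν] [SFinite νA] : stp νA κ ≤ stp ν κ := by
  unfold stp
  exact Measure.map_mono (Measure.prod_mono h le_rfl) measurable_act₂

end Crest.Agent.R014.NS_373
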