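import Crest.Agent.R014.NSlab3_373
import Crest.Agent.R014.NScD_395

/-!
Row 14, block D, noise formalism (#3844), section SLAB (helper373, task 1063), part 4:
the functional `PhiS` (sum over the crossing roots of the spread of the marginal digit law),
marginals of the level family `tau`: 837's `lab` with the noise `κ * ovl`.
-/

set_option autoImplicit false

open MeasureTheory Crest.NumberTheoryR.Packets Finset
open scoped ENNReal

noncomputable section

namespace Crest.Agent.R014.NS_373

open Ms_667 Nd_837 Ne1_567 NSlab_373 NScC_395 NScD_395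
open Ne2_567 (lb tot_lb)

variable {n : ℕ} {S : Finset (Fin n)} {b : ℕ}

section Phi

open Classical in
/-- marginal of a law of letters at the root `c`. -/
def mg (c : CC S) (p : (CC S → Fin b) → ℝ) (k : Fin b) : ℝ := ∑ j with j c = k, p j

/-- sum over the crossing roots of the spread of the marginal digit law. -/
def PhiS (p : (CC S → Fin b) → ℝ) : ℝ := ∑ c : CC S, |spr (cen b) (mg c p)|

lemma PhiS_nonneg (p : (CC S → Fin b) → ℝ) : 0 ≤ PhiS p := Finset.sum_nonneg fun _ _ => abs_nonneg _

lemma measurable_PhiS : Measurable (PhiS : ((CC S → Fin b) → ℝ) → ℝ) := by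
  unfold PhiS spr mg
  fun_prop

lemma mg_nonneg {p : (CC S → Fin b) → ℝ} (hp : ∀ j, 0 ≤ p j) (c : CC S) (k : Fin b) :
    0 ≤ mg c p k := Finset.sum_nonneg fun _ _ => hp _

lemma sum_mg (p : (CC S → Fin b) → ℝ) (c : CC S) : ∑ k, mg c p k = ∑ j, p j := by
  classical
  exact Finset.sum_fiberwise univ (fun j : CC S → Fin b => j c) p

lemma cen_sub {b : ℕ} {c c' : Fin b} (h : c ≠ c') : 2 / (b : ℝ) ≤ |cen b c - cen b c'| := by
  have hb : (0:ℝ) < b := by exact_mod_cast c.pos
  have h1 : cen b c - cen b c' = 2 * (((c : ℕ) : ℝ) - (c' : ℕ)) / b := by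
    unfold cen; field_simp; ring
  rw [h1, abs_div, abs_mul, abs_of_pos hb, abs_of_pos (by norm_num : (0:ℝ) < 2)]
  have h2 : (1 : ℝ) ≤ |((c : ℕ) : ℝ) - (c' : ℕ)| := by
    have h3 : ((c : ℕ) : ℤ) - ((c' : ℕ) : ℤ) ≠ 0 := by
      intro h0
      apply h
      apply Fin.ext
      omega
    have h4 := Int.one_le_abs h3
    exact_mod_cast h4
  gcongr
  linarith

lemma spr_ge {q : Fin b → ℝ} (h0 : ∀ k, 0 ≤ q k) (h1 : ∑ k, q k = 1) (k₀ : Fin b)
    (hk : ∀ k, q k ≤ q k₀) : 2 / (b : ℝ) * (1 - q k₀) ≤ spr (cen b) q := by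
  classical
  have h2 : ∀ c c' : Fin b, q c * q c' * (2 / (b : ℝ)) - (if c = c' then q c * q c * (2 / (b:ℝ)) else 0)
      ≤ q c * q c' * |cen b c - cen b c'| := by
    intro c c'
    by_cases hcc : c = c'
    · subst hcc; simp
    · rw [if_neg hcc, sub_zero]
      exact mul_le_mul_of_nonneg_left (cen_sub hcc) (mul_nonneg (h0 _) (h0 _))
  have h3 : ∑ c, ∑ c', (q c * q c' * (2 / (b : ℝ)) - (if c = c' then q c * q c * (2 / (b:ℝ)) else 0))
      = 2 / (b : ℝ) * (1 - ∑ c, q c * q c) := by
    have h4 : ∀ c, ∑ c', (q c * q c' * (2 / (b : ℝ)) - (if c = c' then q c * q c * (2 / (b:ℝ)) else 0))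
        = q c * (2 / b) - q c * q c * (2 / b) := by
      intro c
      rw [Finset.sum_sub_distrib, Finset.sum_ite_eq, if_pos (mem_univ c), ← Finset.sum_mul,
        ← Finset.mul_sum, h1, mul_one]
    rw [Finset.sum_congr rfl fun c _ => h4 c, Finset.sum_sub_distrib, ← Finset.sum_mul,
      ← Finset.sum_mul, h1]
    ring
  have h5 : ∑ c, q c * q c ≤ q k₀ := by
    calc ∑ c, q c * q c ≤ ∑ c, q c * q k₀ :=
          Finset.sum_le_sum fun c _ => mul_le_mul_of_nonneg_left (hk c) (h0 c)
      _ = q k₀ := by rw [← Finset.sum_mul, h1, one_mul]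
  have h6 : (0:ℝ) ≤ 2 / b := by positivity
  calc 2 / (b : ℝ) * (1 - q k₀) ≤ 2 / (b : ℝ) * (1 - ∑ c, q c * q c) :=
        mul_le_mul_of_nonneg_left (by linarith) h6
    _ = _ := h3.symm
    _ ≤ spr (cen b) q := by
        unfold spr
        exact Finset.sum_le_sum fun c _ => Finset.sum_le_sum fun c' _ => h2 c c'

/-- the constant of the tree bound. -/
def KS (S : Finset (Fin n)) (b : ℕ) : ℝ := Fintype.card (CC S → Fin b) * √((b : ℝ) / 2)

lemma KS_nonneg : 0 ≤ KS S b := by unfold KS; positivity

theorem sqrt_bound (hb : 0 < b) (p : (CC S → Fin b) → ℝ) (hp : ∀ j, 0 ≤ p j) (h1 : ∑ j, p j = 1) :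
    ∑ j, √(p j) ≤ Real.exp (KS S b * √(PhiS p)) := by
  classical
  have hbR : (0:ℝ) < b := by exact_mod_cast hb
  have : Nonempty (Fin b) := ⟨⟨0, hb⟩⟩
  have hmax : ∀ c : CC S, ∃ k₀, ∀ k, mg c p k ≤ mg c p k₀ := fun c => Finite.exists_max (mg c p)
  choose k₀ hk₀ using hmax
  set m : ℝ := 1 - p k₀ with hm
  have hm0 : 0 ≤ m := by
    have : p k₀ ≤ ∑ j, p j := Finset.single_le_sum (fun j _ => hp j) (mem_univ k₀)
    rw [h1] at this; linarith
  have h2 : m = ∑ j ∈ univ.erase k₀, p j := by
    rw [hm, ← h1, ← Finset.add_sum_erase univ p (mem_univ k₀)]; ring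
  have h3 : m ≤ ∑ c : CC S, (1 - mg c p (k₀ c)) := by
    have h4 : ∀ c : CC S, 1 - mg c p (k₀ c) = ∑ j, if j c ≠ k₀ c then p j else 0 := by
      intro c
      have h5 : ∑ j, p j = mg c p (k₀ c) + ∑ j, if j c ≠ k₀ c then p j else 0 := by
        rw [mg, ← Finset.sum_filter, Finset.sum_filter_add_sum_filter_not]
      rw [← h1, h5]; ring
    rw [Finset.sum_congr rfl fun c _ => h4 c, Finset.sum_comm, h2]
    refine le_trans ?_ (Finset.sum_le_sum_of_subset_of_nonneg (Finset.erase_subset k₀ univ)
      fun j _ _ => Finset.sum_nonneg fun c _ => by split_ifs; exacts [hp j, le_rfl])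
    refine Finset.sum_le_sum fun j hj => ?_
    obtain ⟨c, hc⟩ : ∃ c, j c ≠ k₀ c := by
      by_contra hcon
      push Not at hcon
      exact (Finset.mem_erase.1 hj).1 (funext hcon)
    refine le_trans (le_of_eq (if_pos hc).symm) (Finset.single_le_sum
      (f := fun c => if j c ≠ k₀ c then p j else 0) (fun c _ => ?_) (mem_univ c))
    split_ifs
    exacts [hp j, le_rfl]
  have h6 : ∀ c : CC S, 1 - mg c p (k₀ c) ≤ b / 2 * |spr (cen b) (mg c p)| := by
    intro c
    have h7 := spr_ge (q := mg c p) (fun k => mg_nonneg hp c k) (by rw [sum_mg, h1]) (k₀ c) (hk₀ c)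
    have h8 := h7.trans (le_abs_self _)
    calc 1 - mg c p (k₀ c) = b / 2 * (2 / b * (1 - mg c p (k₀ c))) := by field_simp
      _ ≤ _ := mul_le_mul_of_nonneg_left h8 (by positivity)
  have h9 : m ≤ b / 2 * PhiS p := by
    refine h3.trans ((Finset.sum_le_sum fun c _ => h6 c).trans (le_of_eq ?_))
    rw [PhiS, Finset.mul_sum]
  have h10 : ∑ j, √(p j) ≤ 1 + Fintype.card (CC S → Fin b) * √m := by
    rw [← Finset.add_sum_erase univ _ (mem_univ k₀)]
    refine add_le_add ?_ ?_
    · exact Real.sqrt_le_one.2 (by linarith)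
    · have h11 : ∀ j ∈ univ.erase k₀, √(p j) ≤ √m := by
        intro j hj
        refine Real.sqrt_le_sqrt ?_
        rw [h2]
        exact Finset.single_le_sum (fun j _ => hp j) hj
      refine (Finset.sum_le_card_nsmul _ _ _ h11).trans ?_
      rw [nsmul_eq_mul]
      refine mul_le_mul_of_nonneg_right ?_ (Real.sqrt_nonneg _)
      exact_mod_cast (Finset.card_le_univ _)
  calc ∑ j, √(p j) ≤ Fintype.card (CC S → Fin b) * √m + 1 := by linarith
    _ ≤ Real.exp (Fintype.card (CC S → Fin b) * √m) := Real.add_one_le_exp _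
    _ ≤ _ := by
        refine Real.exp_le_exp.2 ?_
        rw [KS, mul_assoc, ← Real.sqrt_mul (by positivity)]
        exact mul_le_mul_of_nonneg_left (Real.sqrt_le_sqrt h9) (by positivity)

end Phi

section Marg

/-- `θ` uniform, the root `c` frozen: the other crossing roots at depth `m`. -/
def ovl (S : Finset (Fin n)) (b m : ℕ) (c : CC S) : Measure (SLR n) :=
  (uniC S).map fun θ => vv S (((b : ℝ)⁻¹) ^ m • Function.update θ c 0)

lemma measurable_ovl (S : Finset (Fin n)) (b m : ℕ) (c : CC S) :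
    Measurable fun θ : CC S → ℝ => vv S (((b : ℝ)⁻¹) ^ m • Function.update θ c 0) := by
  refine (measurable_vv S).comp ?_
  fun_prop

instance (S : Finset (Fin n)) (b m : ℕ) (c : CC S) : IsProbabilityMeasure (ovl S b m c) :=
  Measure.isProbabilityMeasure_map (measurable_ovl S b m c).aemeasurable

/-- the cube with the root `c` restricted to the cell `k`. -/
def mk (S : Finset (Fin n)) (b : ℕ) (c : CC S) (k : Fin b) : Measure (CC S → ℝ) :=
  ((uniC S).prod uni).map fun p => Function.update p.1 c (cen b k + p.2 / b)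

lemma measurable_mk (b : ℕ) (c : CC S) (k : Fin b) :
    Measurable fun p : (CC S → ℝ) × ℝ => Function.update p.1 c (cen b k + p.2 / b) := by
  fun_prop

lemma mk_pi (b : ℕ) (c : CC S) (k : Fin b) (s : CC S → Set ℝ) (hs : ∀ i, MeasurableSet (s i)) :
    mk S b c k (Set.univ.pi s) =
      ∏ i, if i = c then (uni.map fun θ => cen b k + θ / b) (s i) else uni (s i) := by
  have hm1 : Measurable fun θ : ℝ => cen b k + θ / b := by fun_prop
  rw [mk, Measure.map_apply (measurable_mk b c k) (MeasurableSet.univ_pi hs)]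
  have h1 : (fun p : (CC S → ℝ) × ℝ => Function.update p.1 c (cen b k + p.2 / b)) ⁻¹'
      (Set.univ.pi s) = (Set.univ.pi (Function.update s c Set.univ)) ×ˢ
        ((fun θ : ℝ => cen b k + θ / b) ⁻¹' (s c)) := by
    ext p
    simp only [Set.mem_preimage, Set.mem_pi, Set.mem_univ, true_implies, Set.mem_prod]
    constructor
    · intro h
      refine ⟨fun i => ?_, ?_⟩
      · by_cases hi : i = c
        · subst hi; rw [Function.update_self]; exact Set.mem_univ _
        · have := h i
          rw [Function.update_of_ne hi] at this ⊢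
          exact this
      · have := h c
        rwa [Function.update_self] at this
    · rintro ⟨h, h'⟩ i
      by_cases hi : i = c
      · subst hi; rw [Function.update_self]; exact h'
      · have := h i
        rw [Function.update_of_ne hi] at this ⊢
        exact this
  rw [h1, Measure.prod_prod, uniC, Measure.pi_pi, ← Measure.map_apply hm1 (hs c),
    Fintype.prod_eq_mul_prod_subtype_ne _ c, Fintype.prod_eq_mul_prod_subtype_ne (fun i =>
      if i = c then (uni.map fun θ => cen b k + θ / b) (s i) else uni (s i)) c, if_pos rfl,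
    Function.update_self, measure_univ, one_mul, mul_comm]
  congr 1
  refine Finset.prod_congr rfl fun i _ => ?_
  rw [if_neg i.2, Function.update_of_ne i.2]

/-- sum of the cells with the letter `k` at the root `c`. -/
theorem sum_cells (hb : 0 < b) (c : CC S) (k : Fin b) :
    (Fintype.card (CC S → Fin b) : ℝ≥0∞)⁻¹ • ∑ j : CC S → Fin b with j c = k,
      (uniC S).map (fun θ => cenv j + (b : ℝ)⁻¹ • θ) = (b : ℝ≥0∞)⁻¹ • mk S b c k := by
  classical
  have hb0 : (b : ℝ≥0∞) ≠ 0 := by exact_mod_cast hb.ne'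
  have hbt : (b : ℝ≥0∞) ≠ ∞ := ENNReal.natCast_ne_top b
  have hm : ∀ j : CC S → Fin b, Measurable fun θ : CC S → ℝ => cenv j + (b : ℝ)⁻¹ • θ := by
    intro j; fun_prop
  have hm1 : ∀ k : Fin b, Measurable fun θ : ℝ => cen b k + θ / b := by
    intro k; fun_prop
  have : ∀ i : CC S, SigmaFinite (if i = c then uni.map (fun θ => cen b k + θ / b) else uni) := by
    intro i
    have : IsProbabilityMeasure (uni.map (fun θ => cen b k + θ / b)) :=
      Measure.isProbabilityMeasure_map (hm1 k).aemeasurable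
    split_ifs <;> infer_instance
  have hR : Measure.pi (fun i : CC S => if i = c then uni.map (fun θ => cen b k + θ / b) else uni)
      = mk S b c k := by
    refine Measure.pi_eq fun s hs => ?_
    rw [mk_pi b c k s hs]
    refine Finset.prod_congr rfl fun i _ => ?_
    split_ifs <;> rfl
  have hL : Measure.pi (fun i : CC S => if i = c then uni.map (fun θ => cen b k + θ / b) else uni)
      = (b : ℝ≥0∞) • ((Fintype.card (CC S → Fin b) : ℝ≥0∞)⁻¹ • ∑ j : CC S → Fin b with j c = k,
      (uniC S).map (fun θ => cenv j + (b : ℝ)⁻¹ • θ)) := by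
    refine Measure.pi_eq fun s hs => ?_
    rw [Measure.smul_apply, Measure.smul_apply, Measure.finsetSum_apply, smul_eq_mul, smul_eq_mul]
    have h1 : ∀ j : CC S → Fin b, ((uniC S).map fun θ => cenv j + (b : ℝ)⁻¹ • θ) (Set.univ.pi s)
        = ∏ c, (uni.map fun θ => cen b (j c) + θ / b) (s c) := by
      intro j
      rw [Measure.map_apply (hm j) (MeasurableSet.univ_pi hs)]
      have h2 : (fun θ : CC S → ℝ => cenv j + (b : ℝ)⁻¹ • θ) ⁻¹' (Set.univ.pi s)
          = Set.univ.pi fun c => (fun θ : ℝ => cen b (j c) + θ / b) ⁻¹' (s c) := by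
        ext θ
        simp only [Set.mem_preimage, Set.mem_pi, Set.mem_univ, true_implies, Pi.add_apply,
          Pi.smul_apply, smul_eq_mul, cenv, div_eq_inv_mul]
      rw [h2, uniC, Measure.pi_pi]
      exact Finset.prod_congr rfl fun c _ => (Measure.map_apply (hm1 _) (hs c)).symm
    rw [Finset.sum_congr rfl fun j _ => h1 j]
    have h3 : ∑ j : CC S → Fin b with j c = k, ∏ i, (uni.map fun θ => cen b (j i) + θ / b) (s i)
        = ∏ i, ∑ k' : Fin b, if i = c then (if k' = k then (uni.map fun θ => cen b k' + θ / b) (s i) else 0)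
          else (uni.map fun θ => cen b k' + θ / b) (s i) := by
      rw [Finset.prod_univ_sum, Fintype.piFinset_univ, Finset.sum_filter]
      refine Finset.sum_congr rfl fun j _ => ?_
      by_cases hj : j c = k
      · rw [if_pos hj]
        refine Finset.prod_congr rfl fun i _ => ?_
        by_cases hi : i = c
        · subst hi; rw [if_pos rfl, if_pos hj]
        · rw [if_neg hi]
      · rw [if_neg hj]
        refine (Finset.prod_eq_zero (mem_univ c) ?_).symm
        rw [if_pos rfl, if_neg hj]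
    have h4 : ∀ i : CC S, (b : ℝ≥0∞)⁻¹ * (∑ k' : Fin b, if i = c then
          (if k' = k then (uni.map fun θ => cen b k' + θ / b) (s i) else 0)
          else (uni.map fun θ => cen b k' + θ / b) (s i)) =
        (if i = c then (b : ℝ≥0∞)⁻¹ else 1) *
          (if i = c then uni.map (fun θ => cen b k + θ / b) else uni : Measure ℝ) (s i) := by
      intro i
      by_cases hi : i = c
      · simp only [if_pos hi]
        rw [Finset.sum_ite_eq' univ k, if_pos (mem_univ k)]
      · simp only [if_neg hi]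
        rw [one_mul]
        conv_rhs => rw [uni_split hb]
        rw [Measure.smul_apply, Measure.finsetSum_apply, smul_eq_mul]
    rw [h3, card_letters, ENNReal.inv_pow, ← Finset.card_univ, ← Finset.prod_const,
      ← Finset.prod_mul_distrib, Finset.prod_congr rfl fun i _ => h4 i, Finset.prod_mul_distrib,
      Finset.prod_ite_eq' univ c, if_pos (mem_univ c), ← mul_assoc,
      ENNReal.mul_inv_cancel hb0 hbt, one_mul]
  rw [← hR, hL, smul_smul, ENNReal.inv_mul_cancel hb0 hbt, one_smul]

theorem rpow_depth (hb : 0 < b) (m : ℕ) : (2 : ℝ) ^ (-((m : ℝ) * Real.logb 2 b)) = ((b : ℝ)⁻¹) ^ m := by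
  have hb' : (0 : ℝ) < b := by exact_mod_cast hb
  rw [Real.rpow_neg two_pos.le, mul_comm, Real.rpow_mul two_pos.le,
    Real.rpow_logb two_pos (by norm_num) hb', Real.rpow_natCast, inv_pow]

lemma update_eq (θ : CC S → ℝ) (c : CC S) (y : ℝ) :
    Function.update θ c y = Function.update θ c 0 + Pi.single c y := by
  funext i
  by_cases hi : i = c
  · subst hi; simp
  · simp [hi]

/-- the cell of the root `c` in the group. -/
theorem mk_map (hb : 0 < b) (m : ℕ) (c : CC S) (k : Fin b) :
    (mk S b c k).map (fun θ => vv S (((b : ℝ)⁻¹) ^ m • θ)) =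
      cv (ovl S b m c) (dlaw c.ne (m * Real.logb 2 b) b k) := by
  have hF : Measurable fun θ : CC S → ℝ => vv S (((b : ℝ)⁻¹) ^ m • θ) := by
    refine (measurable_vv S).comp ?_
    fun_prop
  unfold mk cv ovl dlaw
  rw [Measure.map_map hF (measurable_mk b c k), Measure.map_prod_map _ _ (measurable_ovl S b m c)
      (measurable_dlaw c.ne _ b k), Measure.map_map measurable_mul₂
      ((measurable_ovl S b m c).prodMap (measurable_dlaw c.ne _ b k))]
  congr 1
  funext p
  simp only [Function.comp_apply, Prod.map_fst, Prod.map_snd]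
  rw [update_eq, smul_add, vv_add, rpow_depth hb]
  congr 1
  rw [← vv_single]
  congr 1
  funext i
  by_cases hi : i = c
  · subst hi; simp
  · simp [hi]

/-- **The marginal of a level family is a one-root family.** -/
theorem marg_tau (hb : 0 < b) (ν : Measure (ModSpace n)) [IsFiniteMeasure ν]
    (κ : Measure (SLR n)) [IsFiniteMeasure κ] (m : ℕ) (c : CC S) :
    lb (fun j : CC S → Fin b => j c) (tau ν κ S b m) =
      lab ν (cv κ (ovl S b m c)) c.ne (m * Real.logb 2 b) b := by
  classical
  funext k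
  have hF : Measurable fun θ : CC S → ℝ => vv S (((b : ℝ)⁻¹) ^ m • θ) := by
    refine (measurable_vv S).comp ?_
    fun_prop
  have hm : ∀ j : CC S → Fin b, Measurable fun θ : CC S → ℝ => cenv j + (b : ℝ)⁻¹ • θ := by
    intro j; fun_prop
  have h1 : ∀ j : CC S → Fin b, vlaw S b (m + 1) (((b : ℝ)⁻¹) ^ m • cenv j) =
      ((uniC S).map (fun θ => cenv j + (b : ℝ)⁻¹ • θ)).map fun θ => vv S (((b : ℝ)⁻¹) ^ m • θ) := by
    intro j
    rw [Measure.map_map hF (hm j), vlaw]
    congr 1
    funext θ
    simp only [Function.comp_apply]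
    congr 1
    rw [smul_add, smul_smul, ← pow_succ]
  unfold lb tau
  rw [← Finset.smul_sum, ← stp_sum, Finset.sum_congr rfl fun j _ => h1 j,
    ← Measure.map_finset_sum hF.aemeasurable, ← stp_smul, ← Measure.map_smul, sum_cells hb c k,
    Measure.map_smul, mk_map hb, stp_smul, lab, ← stp_stp, stp_stp ν κ]

end Marg

section PrLb

variable {ι ι' Y : Type*} [Fintype ι] [Fintype ι'] [DecidableEq ι'] [MeasurableSpace Y]

/-- posterior of a function of the label. -/
theorem pr_lb (g : ι → ι') (ρ : ι → Measure Y) [∀ c, IsFiniteMeasure (ρ c)] (k : ι') :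
    ∀ᵐ y ∂(tot ρ), pr (lb g ρ) k y = ∑ c with g c = k, pr ρ c y := by
  have hm : Measurable fun y => ENNReal.ofReal (∑ c with g c = k, pr ρ c y) :=
    (Finset.measurable_sum _ fun c _ => measurable_pr ρ c).ennreal_ofReal
  have h1 : lb g ρ k = (tot ρ).withDensity fun y => ENNReal.ofReal (∑ c with g c = k, pr ρ c y) := by
    ext A hA
    rw [lb, Measure.finsetSum_apply, withDensity_apply _ hA]
    have : ∀ y, ENNReal.ofReal (∑ c with g c = k, pr ρ c y) =
        ∑ c with g c = k, ENNReal.ofReal (pr ρ c y) :=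
      fun y => ENNReal.ofReal_sum_of_nonneg fun c _ => pr_nonneg ρ c y
    simp_rw [this]
    rw [lintegral_finsetSum _ fun c _ => (measurable_pr ρ c).ennreal_ofReal]
    exact Finset.sum_congr rfl fun c _ => apply_eq ρ c A
  have h2 := Ne2_567.rn_of_eq hm h1
  filter_upwards [h2] with y hy
  change ((lb g ρ k).rnDeriv (tot (lb g ρ)) y).toReal = _
  rw [tot_lb, hy, ENNReal.toReal_ofReal]
  exact Finset.sum_nonneg fun c _ => pr_nonneg ρ c y

end PrLb

end Crest.Agent.R014.NS_373
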