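import Mathlib

/-!
R014 (S0017-S0019), block D, leaf NAMECOUNT (helper884).

Abstract name counting: if a refining sequence of names has bounded alphabets, every full name has
small mass, then off an exponentially small set a positive proportion of the steps is not
predictable.  No entropy, no martingale.
-/

set_option autoImplicit false
set_option linter.unusedSectionVars false

open MeasureTheory
open scoped ENNReal

namespace Crest.Agent.R014.Nc_884

variable {Ω J : Type*}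

/-- The reversed path of the names `Y 0, ..., Y r`, head first and the tail as a list. -/
def path (Y : ℕ → Ω → J) : ℕ → Ω → J × List J
  | 0, ω => (Y 0 ω, [])
  | r + 1, ω => (Y (r + 1) ω, (path Y r ω).1 :: (path Y r ω).2)

lemma path_fst (Y : ℕ → Ω → J) (r : ℕ) (ω : Ω) : (path Y r ω).1 = Y r ω := by
  cases r <;> rfl

lemma path_succ (Y : ℕ → Ω → J) (r : ℕ) (ω : Ω) :
    path Y (r + 1) ω = (Y (r + 1) ω, (path Y r ω).1 :: (path Y r ω).2) := rfl

/-- one extension step of a path -/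
def ext (l : J × List J) (z : J) : J × List J := (z, l.1 :: l.2)

lemma ext_inj (l l' : J × List J) (z z' : J) (h : ext l z = ext l' z') : l = l' ∧ z = z' := by
  unfold ext at h
  simp only [Prod.mk.injEq, List.cons.injEq] at h
  exact ⟨Prod.ext h.2.1 h.2.2, h.1⟩

lemma path_succ' (Y : ℕ → Ω → J) (r : ℕ) (ω : Ω) :
    path Y (r + 1) ω = ext (path Y r ω) (Y (r + 1) ω) := rfl

section counting

open Classical in
/-- The set of all admissible paths with alphabets `A`. -/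
noncomputable def paths (A0 : Finset J) (A : ℕ → J → Finset J) : ℕ → Finset (J × List J)
  | 0 => A0.image (fun z => (z, []))
  | r + 1 => (paths A0 A r).biUnion (fun l => (A r l.1).image (ext l))

open Classical in
/-- deviation count of a step -/
noncomputable def dv (G : ℕ → Set J) (p : ℕ → J → J) (r : ℕ) (y z : J) : ℕ :=
  if y ∈ G r ∧ z = p r y then 0 else 1

/-- number of deviations along a path -/
noncomputable def devn (G : ℕ → Set J) (p : ℕ → J → J) : ℕ → J × List J → ℕ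
  | 0, _ => 0
  | _ + 1, (_, []) => 0
  | r + 1, (z, y :: l) => devn G p r (y, l) + dv G p r y z

lemma devn_ext (G : ℕ → Set J) (p : ℕ → J → J) (r : ℕ) (l : J × List J) (z : J) :
    devn G p (r + 1) (ext l z) = devn G p r l + dv G p r l.1 z := rfl

lemma sum_dv_le (G : ℕ → Set J) (p : ℕ → J → J) (r : ℕ) (y : J) (A : Finset J) (C : ℕ)
    (hA : A.card ≤ C) (θ : ℝ≥0∞) (_hθ : θ ≤ 1) :
    ∑ z ∈ A, θ ^ (dv G p r y z) ≤ 1 + θ * C := by
  classical
  have h1 : ∀ z ∈ A, θ ^ (dv G p r y z) ≤ (if z = p r y then 1 else 0) + θ := by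
    intro z _
    unfold dv
    by_cases h : y ∈ G r ∧ z = p r y
    · rw [if_pos h, if_pos h.2]; simp
    · rw [if_neg h]; simp
  calc ∑ z ∈ A, θ ^ (dv G p r y z) ≤ ∑ z ∈ A, ((if z = p r y then (1 : ℝ≥0∞) else 0) + θ) :=
        Finset.sum_le_sum h1
    _ = (∑ z ∈ A, (if z = p r y then (1 : ℝ≥0∞) else 0)) + θ * A.card := by
        rw [Finset.sum_add_distrib]; simp [mul_comm]
    _ ≤ 1 + θ * C := by
        apply add_le_add
        · rw [Finset.sum_ite_eq']
          split_ifs <;> simp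
        · gcongr

theorem sum_paths_le (A0 : Finset J) (A : ℕ → J → Finset J) (G : ℕ → Set J) (p : ℕ → J → J)
    (C : ℕ) (hA : ∀ r y, (A r y).card ≤ C) (θ : ℝ≥0∞) (hθ : θ ≤ 1) (N : ℕ) :
    ∑ l ∈ paths A0 A N, θ ^ (devn G p N l) ≤ A0.card * (1 + θ * C) ^ N := by
  classical
  induction N with
  | zero =>
    simp only [paths, devn, pow_zero, Finset.sum_const, nsmul_eq_mul, mul_one]
    exact_mod_cast Finset.card_image_le
  | succ r ih =>
    have h1 : ∑ l ∈ paths A0 A (r + 1), θ ^ (devn G p (r + 1) l)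
        ≤ ∑ l ∈ paths A0 A r, ∑ l' ∈ (A r l.1).image (ext l), θ ^ (devn G p (r + 1) l') := by
      have : paths A0 A (r + 1)
          = (paths A0 A r).biUnion (fun l => (A r l.1).image (ext l)) := by
        simp only [paths]
      rw [this]
      refine (Finset.sum_biUnion ?_).le
      intro l _ l' _ hne
      rw [Function.onFun, Finset.disjoint_left]
      intro a ha ha'
      rw [Finset.mem_image] at ha ha'
      obtain ⟨z, _, hz⟩ := ha
      obtain ⟨z', _, hz'⟩ := ha'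
      exact hne (ext_inj l l' z z' (hz.trans hz'.symm)).1
    refine h1.trans ?_
    have h2 : ∀ l ∈ paths A0 A r, ∑ l' ∈ (A r l.1).image (ext l), θ ^ (devn G p (r + 1) l')
        ≤ θ ^ (devn G p r l) * (1 + θ * C) := by
      intro l _
      rw [Finset.sum_image (fun z _ z' _ h => (ext_inj l l z z' h).2)]
      simp only [devn_ext, pow_add]
      rw [← Finset.mul_sum]
      gcongr
      exact sum_dv_le G p r l.1 _ C (hA r l.1) θ hθ
    refine (Finset.sum_le_sum h2).trans ?_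
    rw [← Finset.sum_mul, pow_succ, ← mul_assoc]
    gcongr

end counting

section measure

variable [MeasurableSpace Ω] {μ : Measure Ω}

open Classical in
/-- number of unpredictable steps before `N` -/
noncomputable def unp (Y : ℕ → Ω → J) (G : ℕ → Set J) (N : ℕ) (ω : Ω) : ℕ :=
  ((Finset.range N).filter (fun r => Y r ω ∉ G r)).card

open Classical in
/-- number of misses before `N` -/
noncomputable def miss (Y : ℕ → Ω → J) (G : ℕ → Set J) (p : ℕ → J → J) (N : ℕ) (ω : Ω) : ℕ :=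
  ((Finset.range N).filter (fun r => Y r ω ∈ G r ∧ Y (r + 1) ω ≠ p r (Y r ω))).card

lemma unp_succ (Y : ℕ → Ω → J) (G : ℕ → Set J) (N : ℕ) (ω : Ω) [Decidable (Y N ω ∉ G N)] :
    unp Y G (N + 1) ω = unp Y G N ω + (if Y N ω ∉ G N then 1 else 0) := by
  classical
  unfold unp
  rw [Finset.range_add_one, Finset.filter_insert]
  split_ifs with h <;> simp_all

lemma miss_succ (Y : ℕ → Ω → J) (G : ℕ → Set J) (p : ℕ → J → J) (N : ℕ) (ω : Ω)
    [Decidable (Y N ω ∈ G N ∧ Y (N + 1) ω ≠ p N (Y N ω))] :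
    miss Y G p (N + 1) ω = miss Y G p N ω
      + (if Y N ω ∈ G N ∧ Y (N + 1) ω ≠ p N (Y N ω) then 1 else 0) := by
  classical
  unfold miss
  rw [Finset.range_add_one, Finset.filter_insert]
  split_ifs with h <;> simp_all

lemma devn_path (Y : ℕ → Ω → J) (G : ℕ → Set J) (p : ℕ → J → J) (N : ℕ) (ω : Ω) :
    devn G p N (path Y N ω) = unp Y G N ω + miss Y G p N ω := by
  classical
  induction N with
  | zero => simp [devn, unp, miss]
  | succ r ih =>
    rw [path_succ', devn_ext, ih, unp_succ, miss_succ, path_fst]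
    unfold dv
    by_cases h1 : Y r ω ∈ G r <;> by_cases h2 : Y (r + 1) ω = p r (Y r ω) <;> simp [h1, h2] <;> ring

lemma path_mem (Y : ℕ → Ω → J) (A0 : Finset J) (A : ℕ → J → Finset J) (ω : Ω)
    (h0 : Y 0 ω ∈ A0) (h : ∀ r, Y (r + 1) ω ∈ A r (Y r ω)) (N : ℕ) :
    path Y N ω ∈ paths A0 A N := by
  classical
  induction N with
  | zero =>
    simp only [paths, Finset.mem_image]
    exact ⟨Y 0 ω, h0, rfl⟩
  | succ r ih =>
    simp only [paths, Finset.mem_biUnion, Finset.mem_image]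
    refine ⟨path Y r ω, ih, Y (r + 1) ω, ?_, rfl⟩
    rw [path_fst]
    exact h r

lemma path_mem' (Y : ℕ → Ω → J) (A0 : Finset J) (A : ℕ → J → Finset J) (ω : Ω) (N : ℕ)
    (h0 : Y 0 ω ∈ A0) (h : ∀ r < N, Y (r + 1) ω ∈ A r (Y r ω)) :
    path Y N ω ∈ paths A0 A N := by
  classical
  induction N with
  | zero =>
    simp only [paths, Finset.mem_image]
    exact ⟨Y 0 ω, h0, rfl⟩
  | succ r ih =>
    simp only [paths, Finset.mem_biUnion, Finset.mem_image]
    refine ⟨path Y r ω, ih (fun s hs => h s (by omega)), Y (r + 1) ω, ?_, rfl⟩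
    rw [path_fst]
    exact h r (by omega)

/-- **Counting half**: few deviations and small masses. -/
theorem measure_dev_le (Y : ℕ → Ω → J) (A0 : Finset J) (A : ℕ → J → Finset J)
    (G : ℕ → Set J) (p : ℕ → J → J) (C : ℕ) (hA : ∀ r y, (A r y).card ≤ C)
    (B : Set Ω) (N : ℕ) (h0 : ∀ ω, ω ∉ B → Y 0 ω ∈ A0)
    (h1 : ∀ ω, ω ∉ B → ∀ r < N, Y (r + 1) ω ∈ A r (Y r ω))
    (m : ℝ≥0∞) (hm : ∀ y, μ {ω | ω ∉ B ∧ Y N ω = y} ≤ m)
    (θ : ℝ≥0∞) (hθ0 : θ ≠ 0) (hθ : θ ≤ 1) (K : ℕ) :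
    μ {ω | ω ∉ B ∧ unp Y G N ω + miss Y G p N ω ≤ K}
      ≤ A0.card * m * (θ⁻¹) ^ K * (1 + θ * C) ^ N := by
  classical
  have hθt : θ ≠ ⊤ := ne_top_of_le_ne_top ENNReal.one_ne_top hθ
  have hsub : {ω | ω ∉ B ∧ unp Y G N ω + miss Y G p N ω ≤ K}
      ⊆ ⋃ l ∈ (paths A0 A N).filter (fun l => devn G p N l ≤ K),
          {ω | ω ∉ B ∧ Y N ω = l.1} := by
    intro ω hω
    rw [Set.mem_iUnion₂]
    refine ⟨path Y N ω, ?_, hω.1, (path_fst Y N ω).symm⟩
    rw [Finset.mem_filter]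
    refine ⟨path_mem' Y A0 A ω N (h0 ω hω.1) (h1 ω hω.1), ?_⟩
    rw [devn_path]
    exact hω.2
  calc μ {ω | ω ∉ B ∧ unp Y G N ω + miss Y G p N ω ≤ K}
      ≤ ∑ l ∈ (paths A0 A N).filter (fun l => devn G p N l ≤ K),
          μ {ω | ω ∉ B ∧ Y N ω = l.1} := (measure_mono hsub).trans (measure_biUnion_finset_le _ _)
    _ ≤ ∑ l ∈ (paths A0 A N).filter (fun l => devn G p N l ≤ K),
          m * ((θ⁻¹) ^ K * θ ^ (devn G p N l)) := by
        apply Finset.sum_le_sum
        intro l hl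
        refine (hm l.1).trans ?_
        rw [Finset.mem_filter] at hl
        have h2 : (1 : ℝ≥0∞) ≤ (θ⁻¹) ^ K * θ ^ (devn G p N l) := by
          have h3 : (1 : ℝ≥0∞) = (θ⁻¹) ^ K * θ ^ K := by
            rw [← mul_pow, ENNReal.inv_mul_cancel hθ0 hθt, one_pow]
          rw [h3]
          gcongr 1
          exact pow_le_pow_right_of_le_one' hθ hl.2
        calc m = m * 1 := (mul_one m).symm
          _ ≤ _ := by gcongr
    _ ≤ ∑ l ∈ paths A0 A N, m * ((θ⁻¹) ^ K * θ ^ (devn G p N l)) :=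
        Finset.sum_le_sum_of_subset (Finset.filter_subset _ _)
    _ = m * (θ⁻¹) ^ K * ∑ l ∈ paths A0 A N, θ ^ (devn G p N l) := by
        rw [Finset.mul_sum]
        apply Finset.sum_congr rfl
        intro l _
        ring
    _ ≤ m * (θ⁻¹) ^ K * (A0.card * (1 + θ * C) ^ N) := by
        gcongr
        exact sum_paths_le A0 A G p C hA θ hθ N
    _ = A0.card * m * (θ⁻¹) ^ K * (1 + θ * C) ^ N := by ring

/-- **Misses half**: exponential moment of the number of misses. -/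
theorem lintegral_miss_le [Countable J] [IsProbabilityMeasure μ] (Y : ℕ → Ω → J)
    (hY : ∀ r y, MeasurableSet {ω | Y r ω = y})
    (href : ∀ r ω ω', Y (r + 1) ω = Y (r + 1) ω' → Y r ω = Y r ω')
    (G : ℕ → Set J) (p : ℕ → J → J) (η : ℝ≥0∞) (N : ℕ)
    (hp : ∀ r < N, ∀ y ∈ G r, μ {ω | Y r ω = y ∧ Y (r + 1) ω ≠ p r y} ≤ η * μ {ω | Y r ω = y})
    (lam : ℝ≥0∞) (hlam : lam ≠ ⊤) :
    ∫⁻ ω, lam ^ (miss Y G p N ω) ∂μ ≤ (1 + lam * η) ^ N := by
  classical
  induction N with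
  | zero => simp [miss]
  | succ r ih =>
    have ih' := ih (fun s hs => hp s (by omega))
    -- misses before `r` are a function of `Y r`
    have href' : ∀ s, ∀ k, ∀ ω ω', Y (s + k) ω = Y (s + k) ω' → Y s ω = Y s ω' := by
      intro s k
      induction k with
      | zero => intro ω ω' h; exact h
      | succ k ihk => intro ω ω' h; exact ihk ω ω' (href (s + k) ω ω' h)
    have href'' : ∀ s ≤ r, ∀ ω ω', Y r ω = Y r ω' → Y s ω = Y s ω' := by
      intro s hs ω ω' h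
      obtain ⟨k, rfl⟩ := Nat.exists_eq_add_of_le hs
      exact href' s k ω ω' h
    have hmc : ∀ ω ω', Y r ω = Y r ω' → miss Y G p r ω = miss Y G p r ω' := by
      intro ω ω' h
      unfold miss
      congr 1
      apply Finset.filter_congr
      intro s hs
      rw [Finset.mem_range] at hs
      rw [href'' s hs.le ω ω' h, href'' (s + 1) hs ω ω' h]
    -- decompose
    have hdec : ∀ f : Ω → ℝ≥0∞, ∫⁻ ω, f ω ∂μ = ∑' y : J, ∫⁻ ω in {ω | Y r ω = y}, f ω ∂μ := by
      intro f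
      rw [← lintegral_iUnion (fun y => hY r y)]
      · have : (⋃ y : J, {ω | Y r ω = y}) = Set.univ := by
          ext ω; simp
        rw [this, Measure.restrict_univ]
      · intro y y' hne
        rw [Function.onFun, Set.disjoint_left]
        intro ω h h'
        exact hne ((show Y r ω = y from h).symm.trans h')
    rw [hdec]
    have hterm : ∀ y : J, ∫⁻ ω in {ω | Y r ω = y}, lam ^ (miss Y G p (r + 1) ω) ∂μ
        ≤ (1 + lam * η) * ∫⁻ ω in {ω | Y r ω = y}, lam ^ (miss Y G p r ω) ∂μ := by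
      intro y
      by_cases hne : ∃ ω₀, Y r ω₀ = y
      · obtain ⟨ω₀, hω₀⟩ := hne
        have hc : ∀ ω ∈ {ω | Y r ω = y}, miss Y G p r ω = miss Y G p r ω₀ := by
          intro ω hω
          exact hmc ω ω₀ ((show Y r ω = y from hω).trans hω₀.symm)
        have hR : ∫⁻ ω in {ω | Y r ω = y}, lam ^ (miss Y G p r ω) ∂μ
            = lam ^ (miss Y G p r ω₀) * μ {ω | Y r ω = y} := by
          rw [setLIntegral_congr_fun (g := fun _ => lam ^ (miss Y G p r ω₀)) (hY r y)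
            (fun ω hω => by simp only [hc ω hω])]
          rw [setLIntegral_const]
        rw [hR]
        by_cases hyG : y ∈ G r
        · have hmeas : MeasurableSet {ω | Y r ω = y ∧ Y (r + 1) ω ≠ p r y} := by
            have : {ω | Y r ω = y ∧ Y (r + 1) ω ≠ p r y}
                = {ω | Y r ω = y} \ {ω | Y (r + 1) ω = p r y} := by
              ext ω; simp
            rw [this]
            exact (hY r y).diff (hY (r + 1) (p r y))
          have hle : ∫⁻ ω in {ω | Y r ω = y}, lam ^ (miss Y G p (r + 1) ω) ∂μ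
              ≤ ∫⁻ ω in {ω | Y r ω = y}, (lam ^ (miss Y G p r ω₀)
                + lam ^ (miss Y G p r ω₀) * lam *
                  Set.indicator {ω | Y r ω = y ∧ Y (r + 1) ω ≠ p r y} 1 ω) ∂μ := by
            apply setLIntegral_mono' (hY r y)
            intro ω hω
            have hω' : Y r ω = y := hω
            rw [miss_succ, hc ω hω]
            by_cases hmiss : Y (r + 1) ω ≠ p r y
            · rw [if_pos (by rw [hω']; exact ⟨hyG, hmiss⟩),
                Set.indicator_of_mem (show ω ∈ {ω | Y r ω = y ∧ Y (r + 1) ω ≠ p r y} from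
                  ⟨hω', hmiss⟩), pow_succ]
              simp
            · rw [if_neg (by rw [hω']; exact fun h => hmiss h.2),
                Set.indicator_of_notMem (fun h => hmiss h.2)]
              simp
          refine hle.trans ?_
          rw [lintegral_add_left measurable_const, setLIntegral_const,
            lintegral_const_mul' _ _ ?_]
          · rw [lintegral_indicator_one hmeas, Measure.restrict_apply hmeas]
            have hin : {ω | Y r ω = y ∧ Y (r + 1) ω ≠ p r y} ∩ {ω | Y r ω = y}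
                = {ω | Y r ω = y ∧ Y (r + 1) ω ≠ p r y} := by
              ext ω; simp; tauto
            rw [hin]
            calc lam ^ miss Y G p r ω₀ * μ {ω | Y r ω = y}
                  + lam ^ miss Y G p r ω₀ * lam * μ {ω | Y r ω = y ∧ Y (r + 1) ω ≠ p r y}
                ≤ lam ^ miss Y G p r ω₀ * μ {ω | Y r ω = y}
                  + lam ^ miss Y G p r ω₀ * lam * (η * μ {ω | Y r ω = y}) := by
                  gcongr
                  exact hp r (by omega) y hyG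
              _ = _ := by ring
          · exact ENNReal.mul_ne_top (ENNReal.pow_ne_top hlam) hlam
        · have hle : ∫⁻ ω in {ω | Y r ω = y}, lam ^ (miss Y G p (r + 1) ω) ∂μ
              = ∫⁻ ω in {ω | Y r ω = y}, lam ^ (miss Y G p r ω₀) ∂μ := by
            apply setLIntegral_congr_fun (hY r y)
            intro ω hω
            have hω' : Y r ω = y := hω
            simp only
            rw [miss_succ, hc ω hω, if_neg (by rw [hω']; exact fun h => hyG h.1)]
            simp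
          rw [hle, setLIntegral_const]
          calc lam ^ miss Y G p r ω₀ * μ {ω | Y r ω = y}
              = 1 * (lam ^ miss Y G p r ω₀ * μ {ω | Y r ω = y}) := (one_mul _).symm
            _ ≤ _ := by
                gcongr
                exact le_self_add
      · have : {ω | Y r ω = y} = ∅ := by
          ext ω
          simp only [Set.mem_ofPred_eq, Set.mem_empty_iff_false, iff_false]
          exact fun h => hne ⟨ω, h⟩
        rw [this]
        simp
    calc ∑' y : J, ∫⁻ ω in {ω | Y r ω = y}, lam ^ (miss Y G p (r + 1) ω) ∂μ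
        ≤ ∑' y : J, (1 + lam * η) * ∫⁻ ω in {ω | Y r ω = y}, lam ^ (miss Y G p r ω) ∂μ :=
          ENNReal.tsum_le_tsum hterm
      _ = (1 + lam * η) * ∫⁻ ω, lam ^ (miss Y G p r ω) ∂μ := by
          rw [ENNReal.tsum_mul_left, ← hdec]
      _ ≤ (1 + lam * η) * (1 + lam * η) ^ r := by gcongr
      _ = (1 + lam * η) ^ (r + 1) := by ring

/-- measurability of the set of few misses (a countable union of names) is not needed: we use the
Markov inequality for the upper integral. -/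
theorem measure_miss_le [Countable J] [IsProbabilityMeasure μ] (Y : ℕ → Ω → J)
    (hY : ∀ r y, MeasurableSet {ω | Y r ω = y})
    (href : ∀ r ω ω', Y (r + 1) ω = Y (r + 1) ω' → Y r ω = Y r ω')
    (G : ℕ → Set J) (p : ℕ → J → J) (η : ℝ≥0∞) (N : ℕ)
    (hp : ∀ r < N, ∀ y ∈ G r, μ {ω | Y r ω = y ∧ Y (r + 1) ω ≠ p r y} ≤ η * μ {ω | Y r ω = y})
    (lam : ℝ≥0∞) (hlam : lam ≠ ⊤) (h1 : 1 ≤ lam) (K : ℕ) :
    μ {ω | K ≤ miss Y G p N ω} ≤ (lam⁻¹) ^ K * (1 + lam * η) ^ N := by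
  classical
  have h0 : lam ≠ 0 := (lt_of_lt_of_le zero_lt_one h1).ne'
  have hm := mul_meas_ge_le_lintegral₀ (μ := μ) (f := fun ω => lam ^ (miss Y G p N ω)) ?_ (lam ^ K)
  · have hsub : {ω | K ≤ miss Y G p N ω} ⊆ {ω | lam ^ K ≤ lam ^ (miss Y G p N ω)} := by
      intro ω hω
      exact pow_le_pow_right₀ h1 hω
    have hb := hm.trans (lintegral_miss_le Y hY href G p η N hp lam hlam)
    calc μ {ω | K ≤ miss Y G p N ω}
        ≤ μ {ω | lam ^ K ≤ lam ^ (miss Y G p N ω)} := measure_mono hsub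
      _ = (lam⁻¹) ^ K * (lam ^ K * μ {ω | lam ^ K ≤ lam ^ (miss Y G p N ω)}) := by
          rw [← mul_assoc, ← mul_pow, ENNReal.inv_mul_cancel h0 hlam, one_pow, one_mul]
      _ ≤ (lam⁻¹) ^ K * (1 + lam * η) ^ N := by gcongr
  · -- measurability
    apply Measurable.aemeasurable
    have href' : ∀ s, ∀ k, ∀ ω ω', Y (s + k) ω = Y (s + k) ω' → Y s ω = Y s ω' := by
      intro s k
      induction k with
      | zero => intro ω ω' h; exact h
      | succ k ihk => intro ω ω' h; exact ihk ω ω' (href (s + k) ω ω' h)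
    have hmc : ∀ ω ω', Y N ω = Y N ω' → miss Y G p N ω = miss Y G p N ω' := by
      intro ω ω' h
      unfold miss
      congr 1
      apply Finset.filter_congr
      intro s hs
      rw [Finset.mem_range] at hs
      have e1 : Y s ω = Y s ω' := by
        obtain ⟨k, hk⟩ := Nat.exists_eq_add_of_le hs.le
        exact href' s k ω ω' (by rw [← hk]; exact h)
      have e2 : Y (s + 1) ω = Y (s + 1) ω' := by
        obtain ⟨k, hk⟩ := Nat.exists_eq_add_of_le (show s + 1 ≤ N from hs)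
        exact href' (s + 1) k ω ω' (by rw [← hk]; exact h)
      rw [e1, e2]
    intro T _
    have : (fun ω => lam ^ (miss Y G p N ω)) ⁻¹' T
        = ⋃ y ∈ {y : J | ∃ ω, Y N ω = y ∧ lam ^ (miss Y G p N ω) ∈ T}, {ω | Y N ω = y} := by
      ext ω
      simp only [Set.mem_preimage, Set.mem_iUnion, exists_prop]
      constructor
      · intro h
        exact ⟨Y N ω, ⟨ω, rfl, h⟩, rfl⟩
      · rintro ⟨y, ⟨ω', h1, h2⟩, h3⟩
        rw [hmc ω ω' ((show Y N ω = y from h3).trans h1.symm)]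
        exact h2
    rw [this]
    exact MeasurableSet.biUnion (Set.to_countable _) (fun y _ => hY N y)

/-- **NAME COUNTING.** -/
theorem measure_unp_le [Countable J] [IsProbabilityMeasure μ] (Y : ℕ → Ω → J)
    (hY : ∀ r y, MeasurableSet {ω | Y r ω = y})
    (href : ∀ r ω ω', Y (r + 1) ω = Y (r + 1) ω' → Y r ω = Y r ω')
    (A0 : Finset J) (A : ℕ → J → Finset J)
    (G : ℕ → Set J) (p : ℕ → J → J) (C : ℕ) (hA : ∀ r y, (A r y).card ≤ C)
    (B : Set Ω) (N : ℕ) (h0 : ∀ ω, ω ∉ B → Y 0 ω ∈ A0)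
    (h1 : ∀ ω, ω ∉ B → ∀ r < N, Y (r + 1) ω ∈ A r (Y r ω))
    (m : ℝ≥0∞) (hm : ∀ y, μ {ω | ω ∉ B ∧ Y N ω = y} ≤ m)
    (η : ℝ≥0∞)
    (hp : ∀ r < N, ∀ y ∈ G r, μ {ω | Y r ω = y ∧ Y (r + 1) ω ≠ p r y} ≤ η * μ {ω | Y r ω = y})
    (θ : ℝ≥0∞) (hθ0 : θ ≠ 0) (hθ : θ ≤ 1) (lam : ℝ≥0∞) (hlam : lam ≠ ⊤) (hlam1 : 1 ≤ lam)
    (K K' : ℕ) :
    μ {ω | ω ∉ B ∧ unp Y G N ω ≤ K}
      ≤ A0.card * m * (θ⁻¹) ^ (K + K') * (1 + θ * C) ^ N + (lam⁻¹) ^ K' * (1 + lam * η) ^ N := by
  have hsub : {ω | ω ∉ B ∧ unp Y G N ω ≤ K}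
      ⊆ {ω | ω ∉ B ∧ unp Y G N ω + miss Y G p N ω ≤ K + K'} ∪ {ω | K' ≤ miss Y G p N ω} := by
    intro ω hω
    by_cases h : K' ≤ miss Y G p N ω
    · exact Or.inr h
    · exact Or.inl ⟨hω.1, by have := hω.2; omega⟩
  refine (measure_mono hsub).trans ((measure_union_le _ _).trans ?_)
  exact add_le_add (measure_dev_le Y A0 A G p C hA B N h0 h1 m hm θ hθ0 hθ (K + K'))
    (measure_miss_le Y hY href G p η N hp lam hlam hlam1 K')

/-- **NAME COUNTING, real constants.** -/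
theorem name_density [Countable J] [IsProbabilityMeasure μ] (Y : ℕ → Ω → J)
    (hY : ∀ r y, MeasurableSet {ω | Y r ω = y})
    (href : ∀ r ω ω', Y (r + 1) ω = Y (r + 1) ω' → Y r ω = Y r ω')
    (A0 : Finset J) (A : ℕ → J → Finset J)
    (G : ℕ → Set J) (p : ℕ → J → J) (C : ℕ) (hA : ∀ r y, (A r y).card ≤ C)
    (B : Set Ω) (N : ℕ) (h0 : ∀ ω, ω ∉ B → Y 0 ω ∈ A0)
    (h1 : ∀ ω, ω ∉ B → ∀ r < N, Y (r + 1) ω ∈ A r (Y r ω))
    {c θ κ η lam M : ℝ}
    (hM : 0 ≤ M) (hm : ∀ y, μ {ω | ω ∉ B ∧ Y N ω = y} ≤ ENNReal.ofReal (M * Real.exp (-c * N)))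
    (hp : ∀ r < N, ∀ y ∈ G r,
      μ {ω | Y r ω = y ∧ Y (r + 1) ω ≠ p r y} ≤ ENNReal.ofReal η * μ {ω | Y r ω = y})
    (hη : 0 ≤ η) (hθ0 : 0 < θ) (hθ1 : θ ≤ 1) (hθ : θ * C ≤ c / 4)
    (hκ0 : 0 ≤ κ) (hκ : 2 * κ * Real.log θ⁻¹ ≤ c / 4)
    (hlam : 1 ≤ lam) (hlamκ : 1 + Real.log 2 ≤ κ * Real.log lam) (hlamη : lam * η ≤ 1) :
    μ {ω | ω ∉ B ∧ (unp Y G N ω : ℝ) ≤ κ * N}
      ≤ ENNReal.ofReal (A0.card * M * θ⁻¹ * Real.exp (-(c / 2) * N) + Real.exp (-(N : ℝ))) := by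
  have hlam0 : 0 < lam := by linarith
  have hN : (0 : ℝ) ≤ N := Nat.cast_nonneg N
  have hκN : 0 ≤ κ * N := mul_nonneg hκ0 hN
  have hmain := measure_unp_le Y hY href A0 A G p C hA B N h0 h1
    (ENNReal.ofReal (M * Real.exp (-c * N))) hm (ENNReal.ofReal η) hp (ENNReal.ofReal θ)
    (by simpa using hθ0) (by simpa using hθ1) (ENNReal.ofReal lam) ENNReal.ofReal_ne_top
    (by simpa using hlam) ⌊κ * N⌋₊ ⌈κ * N⌉₊
  have hset : {ω | ω ∉ B ∧ (unp Y G N ω : ℝ) ≤ κ * N}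
      ⊆ {ω | ω ∉ B ∧ unp Y G N ω ≤ ⌊κ * N⌋₊} := by
    intro ω hω
    exact ⟨hω.1, Nat.le_floor hω.2⟩
  refine (measure_mono hset).trans (hmain.trans ?_)
  have e1 : (A0.card : ℝ≥0∞) * ENNReal.ofReal (M * Real.exp (-c * N))
        * (ENNReal.ofReal θ)⁻¹ ^ (⌊κ * N⌋₊ + ⌈κ * N⌉₊) * (1 + ENNReal.ofReal θ * C) ^ N
      = ENNReal.ofReal (A0.card * (M * Real.exp (-c * N)) * θ⁻¹ ^ (⌊κ * N⌋₊ + ⌈κ * N⌉₊)
        * (1 + θ * C) ^ N) := by
    have hMe : 0 ≤ M * Real.exp (-c * N) := by positivity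
    generalize M * Real.exp (-c * N) = Me at hMe ⊢
    rw [ENNReal.ofReal_mul (by positivity), ENNReal.ofReal_mul (by positivity),
      ENNReal.ofReal_mul (by positivity), ENNReal.ofReal_pow (by positivity),
      ENNReal.ofReal_pow (by positivity), ENNReal.ofReal_inv_of_pos hθ0,
      ENNReal.ofReal_add (by norm_num) (by positivity), ENNReal.ofReal_mul hθ0.le,
      ENNReal.ofReal_natCast, ENNReal.ofReal_natCast, ENNReal.ofReal_one]
  have e2 : (ENNReal.ofReal lam)⁻¹ ^ ⌈κ * N⌉₊ * (1 + ENNReal.ofReal lam * ENNReal.ofReal η) ^ N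
      = ENNReal.ofReal (lam⁻¹ ^ ⌈κ * N⌉₊ * (1 + lam * η) ^ N) := by
    rw [ENNReal.ofReal_mul (by positivity), ENNReal.ofReal_pow (by positivity),
      ENNReal.ofReal_pow (by positivity), ENNReal.ofReal_inv_of_pos hlam0,
      ENNReal.ofReal_add (by norm_num) (by positivity), ENNReal.ofReal_mul hlam0.le,
      ENNReal.ofReal_one]
  rw [e1, e2, ← ENNReal.ofReal_add (by positivity) (by positivity)]
  apply ENNReal.ofReal_le_ofReal
  have hlogθ : 0 ≤ Real.log θ⁻¹ := Real.log_nonneg ((one_le_inv₀ hθ0).2 hθ1)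
  have hloglam : 0 ≤ Real.log lam := Real.log_nonneg hlam
  have b1 : θ⁻¹ ^ (⌊κ * N⌋₊ + ⌈κ * N⌉₊) ≤ θ⁻¹ * Real.exp (c / 4 * N) := by
    have h2 : θ⁻¹ ^ (⌊κ * N⌋₊ + ⌈κ * N⌉₊)
        = Real.exp (((⌊κ * N⌋₊ + ⌈κ * N⌉₊ : ℕ) : ℝ) * Real.log θ⁻¹) := by
      rw [Real.exp_nat_mul, Real.exp_log (inv_pos.2 hθ0)]
    have h3 : θ⁻¹ = Real.exp (Real.log θ⁻¹) := (Real.exp_log (inv_pos.2 hθ0)).symm
    rw [h2]
    conv_rhs => rw [h3]
    rw [← Real.exp_add]
    apply Real.exp_le_exp.2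
    have h4 : ((⌊κ * N⌋₊ + ⌈κ * N⌉₊ : ℕ) : ℝ) ≤ 2 * κ * N + 1 := by
      push_cast
      have := Nat.floor_le hκN
      have := (Nat.ceil_lt_add_one hκN).le
      linarith
    calc ((⌊κ * N⌋₊ + ⌈κ * N⌉₊ : ℕ) : ℝ) * Real.log θ⁻¹
        ≤ (2 * κ * N + 1) * Real.log θ⁻¹ := by gcongr
      _ = Real.log θ⁻¹ + (2 * κ * Real.log θ⁻¹) * N := by ring
      _ ≤ Real.log θ⁻¹ + c / 4 * N := by gcongr
  have b2 : (1 + θ * C) ^ N ≤ Real.exp (c / 4 * N) := by
    have h2 : 1 + θ * C ≤ Real.exp (c / 4) := by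
      have := Real.add_one_le_exp (c / 4)
      linarith
    calc (1 + θ * C) ^ N ≤ Real.exp (c / 4) ^ N := pow_le_pow_left₀ (by positivity) h2 N
      _ = Real.exp (c / 4 * N) := by rw [← Real.exp_nat_mul]; ring_nf
  have b3 : lam⁻¹ ^ ⌈κ * N⌉₊ * (1 + lam * η) ^ N ≤ Real.exp (-(N : ℝ)) := by
    have h2 : lam⁻¹ ^ ⌈κ * N⌉₊ ≤ Real.exp (-(κ * N) * Real.log lam) := by
      have h3 : lam⁻¹ ^ ⌈κ * N⌉₊ = Real.exp (-(⌈κ * N⌉₊ : ℝ) * Real.log lam) := by
        rw [neg_mul, Real.exp_neg, Real.exp_nat_mul, Real.exp_log hlam0, inv_pow]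
      rw [h3]
      apply Real.exp_le_exp.2
      have := Nat.le_ceil (κ * N)
      nlinarith
    have h4 : (1 + lam * η) ^ N ≤ Real.exp (N * Real.log 2) := by
      rw [Real.exp_nat_mul, Real.exp_log (by norm_num)]
      exact pow_le_pow_left₀ (by positivity) (by linarith) N
    calc lam⁻¹ ^ ⌈κ * N⌉₊ * (1 + lam * η) ^ N
        ≤ Real.exp (-(κ * N) * Real.log lam) * Real.exp (N * Real.log 2) := by gcongr
      _ = Real.exp (-(κ * N) * Real.log lam + N * Real.log 2) := (Real.exp_add _ _).symm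
      _ ≤ Real.exp (-(N : ℝ)) := by
          apply Real.exp_le_exp.2
          nlinarith
  have b4 : (A0.card : ℝ) * (M * Real.exp (-c * N)) * θ⁻¹ ^ (⌊κ * N⌋₊ + ⌈κ * N⌉₊)
        * (1 + θ * C) ^ N ≤ A0.card * M * θ⁻¹ * Real.exp (-(c / 2) * N) := by
    calc (A0.card : ℝ) * (M * Real.exp (-c * N)) * θ⁻¹ ^ (⌊κ * N⌋₊ + ⌈κ * N⌉₊)
        * (1 + θ * C) ^ N
        ≤ (A0.card : ℝ) * (M * Real.exp (-c * N)) * (θ⁻¹ * Real.exp (c / 4 * N))
        * Real.exp (c / 4 * N) := by gcongr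
      _ = A0.card * M * θ⁻¹ * (Real.exp (-c * N) * Real.exp (c / 4 * N) * Real.exp (c / 4 * N)) := by
          ring
      _ = A0.card * M * θ⁻¹ * Real.exp (-(c / 2) * N) := by
          rw [← Real.exp_add, ← Real.exp_add]
          congr 2
          ring
  exact add_le_add b4 b3

end measure

/-- The constants of `name_density` exist. -/
theorem exists_consts (c : ℝ) (hc : 0 < c) (C : ℕ) :
    ∃ θ κ η lam : ℝ, 0 < θ ∧ θ ≤ 1 ∧ θ * C ≤ c / 4 ∧ 0 < κ ∧ 2 * κ * Real.log θ⁻¹ ≤ c / 4 ∧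
      1 ≤ lam ∧ 1 + Real.log 2 ≤ κ * Real.log lam ∧ lam * η ≤ 1 ∧ 0 < η ∧ η ≤ 1 := by
  obtain ⟨θ, hθ0, hθ1, hθ⟩ : ∃ θ : ℝ, 0 < θ ∧ θ ≤ 1 ∧ θ * C ≤ c / 4 := by
    refine ⟨min 1 (c / 4 / (C + 1)), by positivity, min_le_left _ _, ?_⟩
    calc min 1 (c / 4 / (C + 1)) * (C : ℝ) ≤ (c / 4 / (C + 1)) * (C + 1) := by
          gcongr
          · exact min_le_right _ _
          · linarith
      _ = c / 4 := by field_simp
  have hlogθ : 0 ≤ Real.log θ⁻¹ := Real.log_nonneg ((one_le_inv₀ hθ0).2 hθ1)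
  obtain ⟨κ, hκ0, hκ⟩ : ∃ κ : ℝ, 0 < κ ∧ 2 * κ * Real.log θ⁻¹ ≤ c / 4 := by
    refine ⟨c / 8 / (Real.log θ⁻¹ + 1), by positivity, ?_⟩
    have h1 : c / 8 / (Real.log θ⁻¹ + 1) * Real.log θ⁻¹ ≤ c / 8 := by
      rw [div_mul_eq_mul_div, div_le_iff₀ (by positivity)]
      nlinarith
    linarith
  refine ⟨θ, κ, (Real.exp ((1 + Real.log 2) / κ))⁻¹, Real.exp ((1 + Real.log 2) / κ),
    hθ0, hθ1, hθ, hκ0, hκ, ?_, ?_, ?_, by positivity, ?_⟩
  · exact Real.one_le_exp (by have := Real.log_nonneg (show (1:ℝ) ≤ 2 by norm_num); positivity)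
  · rw [Real.log_exp]; field_simp; exact le_rfl
  · rw [mul_inv_cancel₀ (Real.exp_pos _).ne']
  · exact inv_le_one_of_one_le₀
      (Real.one_le_exp (by have := Real.log_nonneg (show (1:ℝ) ≤ 2 by norm_num); positivity))

end Crest.Agent.R014.Nc_884
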