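import Mathlib
import Crest.Agent.R014.Nc1_884

/-!
R014 (S0017-S0019), block D, leaf NAMECOUNT (helper884), part 2: the version for words.
-/

set_option autoImplicit false

open MeasureTheory
open scoped ENNReal

namespace Crest.Agent.R014.Nc_884

variable {J : Type*}

section words

variable {N : ℕ}

/-- words agreeing with `w` before position `r` -/
def pre (w : Fin N → J) (r : ℕ) : Set (Fin N → J) := {w' | ∀ s : Fin N, s.1 < r → w' s = w s}

lemma mem_pre_self (w : Fin N → J) (r : ℕ) : w ∈ pre w r := fun _ _ => rfl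

lemma pre_eq_of_mem {w w' : Fin N → J} {r : ℕ} (h : w' ∈ pre w r) : pre w' r = pre w r := by
  ext v
  constructor
  · intro hv s hs; rw [hv s hs, h s hs]
  · intro hv s hs; rw [hv s hs, h s hs]

/-- The letter at position `r` is predicted (up to error `η`) by the prefix of `w`. -/
def Pred [MeasurableSpace J] (P : Measure (Fin N → J)) (η : ℝ≥0∞) (w : Fin N → J) (r : Fin N) :
    Prop :=
  ∃ j : J, P {w' | w' ∈ pre w r.1 ∧ w' r ≠ j} ≤ η * P (pre w r.1)

/-- reading a word at a natural number -/
def rd [Inhabited J] (w : Fin N → J) (s : ℕ) : J := if h : s < N then w ⟨s, h⟩ else default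

/-- the prefix as a list -/
def pfx [Inhabited J] (r : ℕ) (w : Fin N → J) : List J := (List.range r).map (rd w)

lemma pfx_succ [Inhabited J] (r : ℕ) (w : Fin N → J) : pfx (r + 1) w = pfx r w ++ [rd w r] := by
  unfold pfx
  rw [List.range_succ, List.map_append]
  rfl

lemma pfx_eq_iff [Inhabited J] (r : ℕ) (w w' : Fin N → J) :
    pfx r w' = pfx r w ↔ w' ∈ pre w r := by
  constructor
  · intro h s hs
    have h2 := congrArg (fun l => l[s.1]?) h
    simp only [pfx, List.getElem?_map, List.getElem?_range hs, Option.map_some] at h2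
    simpa [rd] using h2
  · intro h
    unfold pfx
    apply List.map_congr_left
    intro s hs
    rw [List.mem_range] at hs
    unfold rd
    split_ifs with h1
    · exact h ⟨s, h1⟩ hs
    · rfl

open Classical in
/-- **NAME COUNTING FOR WORDS.**  If every word has probability at most `M e^{-cN}` then with
overwhelming probability a positive proportion of the letters is not predicted by the prefix. -/
theorem words_density [Finite J] [MeasurableSpace J] [MeasurableSingletonClass J]
    (P : Measure (Fin N → J)) [IsProbabilityMeasure P] (C : ℕ) (hC : Nat.card J ≤ C)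
    {c θ κ η lam M : ℝ}
    (hM : 0 ≤ M) (hm : ∀ w, P {w} ≤ ENNReal.ofReal (M * Real.exp (-c * N)))
    (hη : 0 ≤ η) (hθ0 : 0 < θ) (hθ1 : θ ≤ 1) (hθ : θ * C ≤ c / 4)
    (hκ0 : 0 ≤ κ) (hκ : 2 * κ * Real.log θ⁻¹ ≤ c / 4)
    (hlam : 1 ≤ lam) (hlamκ : 1 + Real.log 2 ≤ κ * Real.log lam) (hlamη : lam * η ≤ 1) :
    P {w | (((Finset.univ : Finset (Fin N)).filter
        (fun r => ¬ Pred P (ENNReal.ofReal η) w r)).card : ℝ) ≤ κ * N}
      ≤ ENNReal.ofReal (M * θ⁻¹ * Real.exp (-(c / 2) * N) + Real.exp (-(N : ℝ))) := by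
  classical
  -- trivial case
  rcases isEmpty_or_nonempty J with hJ | hJ
  · rcases Nat.eq_zero_or_pos N with hN | hN
    · subst hN
      refine (prob_le_one).trans ?_
      rw [← ENNReal.ofReal_one]
      apply ENNReal.ofReal_le_ofReal
      have : 0 ≤ M * θ⁻¹ * Real.exp (-(c / 2) * ((0 : ℕ) : ℝ)) := by positivity
      simp at this ⊢
      linarith
    · have : IsEmpty (Fin N → J) := ⟨fun w => hJ.false (w ⟨0, hN⟩)⟩
      have h1 : P Set.univ = 1 := measure_univ
      rw [Set.univ_eq_empty_iff.2 inferInstance, measure_empty] at h1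
      exact absurd h1 (by simp)
  have : Inhabited J := ⟨hJ.some⟩
  have : Fintype J := Fintype.ofFinite J
  have hms : ∀ S : Set (Fin N → J), MeasurableSet S := fun S => S.toFinite.measurableSet
  -- predictions
  let Gd : ℕ → List J → J → Prop := fun r y j =>
    P {w | pfx r w = y ∧ pfx (r + 1) w ≠ y ++ [j]} ≤ ENNReal.ofReal η * P {w | pfx r w = y}
  let G : ℕ → Set (List J) := fun r => {y | ∃ j, Gd r y j}
  let p : ℕ → List J → List J := fun r y =>
    if h : ∃ j, Gd r y j then y ++ [h.choose] else y
  have hmain := name_density (μ := P) (fun r w => pfx r w) (fun r y => hms _)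
    (by
      intro r w w' h
      simp only [pfx_succ] at h
      exact (List.append_inj' h rfl).1)
    {([] : List J)} (fun _ y => (Finset.univ : Finset J).image (fun j => y ++ [j])) G p C
    (by
      intro r y
      refine Finset.card_image_le.trans ?_
      rw [Finset.card_univ, ← Nat.card_eq_fintype_card]
      exact hC)
    (∅ : Set (Fin N → J)) N (by intro w _; simp [pfx])
    (by
      intro w _ r _
      simp only [pfx_succ, Finset.mem_image, Finset.mem_univ, true_and]
      exact ⟨_, rfl⟩)
    (c := c) (θ := θ) (κ := κ) (η := η) (lam := lam) (M := M) hM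
    (by
      intro y
      by_cases hy : ∃ w : Fin N → J, pfx N w = y
      · obtain ⟨w, hw⟩ := hy
        refine (measure_mono ?_).trans (hm w)
        intro w' hw'
        have h1 : pfx N w' = pfx N w := hw'.2.trans hw.symm
        rw [pfx_eq_iff] at h1
        rw [Set.mem_singleton_iff]
        funext s
        exact h1 s s.2
      · have : {ω : Fin N → J | ω ∉ (∅ : Set (Fin N → J)) ∧ pfx N ω = y} = ∅ := by
          ext w
          simp only [Set.mem_ofPred_eq, Set.mem_empty_iff_false, iff_false, not_and]
          exact fun _ h => hy ⟨w, h⟩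
        rw [this]
        simp)
    (by
      intro r _ y hy
      have hy' : ∃ j, Gd r y j := hy
      have : p r y = y ++ [hy'.choose] := by simp only [p, dif_pos hy']
      rw [this]
      exact hy'.choose_spec)
    hη hθ0 hθ1 hθ hκ0 hκ hlam hlamκ hlamη
  refine (measure_mono ?_).trans (hmain.trans ?_)
  · intro w hw
    refine ⟨by simp, ?_⟩
    have hw' : (((Finset.univ : Finset (Fin N)).filter
        (fun r => ¬ Pred P (ENNReal.ofReal η) w r)).card : ℝ) ≤ κ * N := hw
    refine le_trans ?_ hw'
    rw [Nat.cast_le]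
    unfold unp
    -- the map r ↦ ⟨r, _⟩
    rw [← Finset.card_image_of_injective _ Fin.val_injective]
    apply Finset.card_le_card
    intro r hr
    simp only [Finset.mem_filter, Finset.mem_range] at hr
    rw [Finset.mem_image]
    refine ⟨⟨r, hr.1⟩, ?_, rfl⟩
    rw [Finset.mem_filter]
    refine ⟨Finset.mem_univ _, ?_⟩
    rintro ⟨j, hj⟩
    apply hr.2
    refine ⟨j, ?_⟩
    show P {w' | pfx r w' = pfx r w ∧ pfx (r + 1) w' ≠ pfx r w ++ [j]}
      ≤ ENNReal.ofReal η * P {w' | pfx r w' = pfx r w}
    have e1 : {w' : Fin N → J | pfx r w' = pfx r w} = pre w r := by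
      ext w'; exact pfx_eq_iff r w w'
    have e2 : {w' : Fin N → J | pfx r w' = pfx r w ∧ pfx (r + 1) w' ≠ pfx r w ++ [j]}
        = {w' | w' ∈ pre w r ∧ w' ⟨r, hr.1⟩ ≠ j} := by
      ext w'
      simp only [Set.mem_ofPred_eq]
      constructor
      · rintro ⟨h1, h2⟩
        refine ⟨(pfx_eq_iff r w w').1 h1, fun h3 => h2 ?_⟩
        rw [pfx_succ, h1]
        congr 2
        simp only [rd, dif_pos hr.1, h3]
      · rintro ⟨h1, h2⟩
        have h1' := (pfx_eq_iff r w w').2 h1
        refine ⟨h1', fun h3 => h2 ?_⟩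
        rw [pfx_succ, h1'] at h3
        have h4 := (List.append_inj' h3 rfl).2
        simpa [rd, dif_pos hr.1] using h4
    rw [e1, e2]
    exact hj
  · apply ENNReal.ofReal_le_ofReal
    simp

end words

end Crest.Agent.R014.Nc_884
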