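import Crest.Agent.R014.Nd4_837
import Crest.Agent.R014.NScA_395

set_option autoImplicit false

/-!
Row 14, block D, noise formalism (text #3844 of helper548, section 2): the digit entropy
`fD μ hij b r R` of a metric `R`, with (2.1), (2.2), (2.3), and the structure `Dig` of helper395.
-/

open MeasureTheory Crest.NumberTheoryR.Packets
open scoped ENNReal

namespace Crest.Agent.R014.Nd_837

open Ms_667 Ne1_567 Ne3_567
open Nz_323 (bx Adm un Neg Clean CN dg isProb_un un_compl)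

variable {n : ℕ}

theorem CN_pos (n : ℕ) : 0 < CN n := by
  unfold CN
  positivity

/-- The error of (2.2): `md b (min 1 (2 C_n 2 ^ (-w)))`. -/
noncomputable def ew (b n : ℕ) (w : ℝ) : ℝ := md b (min 1 (2 * CN n * 2 ^ (-w)))

theorem ew_arg_nonneg (n : ℕ) (w : ℝ) : 0 ≤ min 1 (2 * CN n * 2 ^ (-w)) := by
  have := CN_pos n
  positivity

theorem ew_nonneg (b n : ℕ) (w : ℝ) : 0 ≤ ew b n w :=
  md_nonneg b (ew_arg_nonneg n w) (min_le_left _ _)

theorem ew_anti (b n : ℕ) {w w' : ℝ} (h : w ≤ w') : ew b n w' ≤ ew b n w := by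
  refine md_mono b (ew_arg_nonneg n w') (min_le_min_left _ ?_) (min_le_left _ _)
  have := CN_pos n
  gcongr
  norm_num

/-- Explicit bound for the error. -/
theorem ew_le (b n : ℕ) (w : ℝ) :
    ew b n w ≤ (Real.log b + 3) * Real.sqrt (2 * CN n) * 2 ^ (-w / 2) := by
  have h0 := ew_arg_nonneg n w
  have hC := CN_pos n
  have hl := Real.log_natCast_nonneg b
  have h1 : Real.sqrt (min 1 (2 * CN n * 2 ^ (-w))) ≤ Real.sqrt (2 * CN n) * 2 ^ (-w / 2) := by
    have h2 : Real.sqrt ((2 : ℝ) ^ (-w)) = 2 ^ (-w / 2) := by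
      rw [Real.sqrt_eq_rpow, ← Real.rpow_mul two_pos.le]
      congr 1
      ring
    calc Real.sqrt (min 1 (2 * CN n * 2 ^ (-w))) ≤ Real.sqrt (2 * CN n * 2 ^ (-w)) :=
          Real.sqrt_le_sqrt (min_le_right _ _)
      _ = _ := by rw [Real.sqrt_mul (by positivity), h2]
  calc ew b n w ≤ (Real.log b + 3) * Real.sqrt (min 1 (2 * CN n * 2 ^ (-w))) :=
        md_le_sqrt b h0 (min_le_left _ _)
    _ ≤ (Real.log b + 3) * (Real.sqrt (2 * CN n) * 2 ^ (-w / 2)) :=
        mul_le_mul_of_nonneg_left h1 (by linarith)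
    _ = _ := by ring

/-- `ew b n w → 0` as `w → ∞`. -/
theorem ew_tendsto (b n : ℕ) : Filter.Tendsto (ew b n) Filter.atTop (nhds 0) := by
  have h1 : Filter.Tendsto (fun w : ℝ => (2 : ℝ) ^ (-w / 2)) Filter.atTop (nhds 0) := by
    have h2 : (fun w : ℝ => (2 : ℝ) ^ (-w / 2)) = fun w => ((2 : ℝ) ^ (-(1 / 2 : ℝ))) ^ w := by
      funext w
      rw [← Real.rpow_mul two_pos.le]
      congr 1
      ring
    rw [h2]
    refine tendsto_rpow_atTop_of_base_lt_one _ ?_ ?_
    · linarith [Real.rpow_pos_of_pos two_pos (-(1 / 2 : ℝ))]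
    · exact Real.rpow_lt_one_of_one_lt_of_neg (by norm_num) (by norm_num)
  have h3 := h1.const_mul ((Real.log b + 3) * Real.sqrt (2 * CN n))
  rw [mul_zero] at h3
  exact squeeze_zero (fun w => ew_nonneg b n w) (fun w => ew_le b n w) h3

/-- The digit entropy `H(d | x ζ_R u_ij(2^{-r} θ))`, `x ~ μ`, `d` the first base `b` digit of `θ`. -/
noncomputable def fD (μ : Measure (ModSpace n)) {i j : Fin n} (hij : i ≠ j) (b : ℕ) (r : ℝ)
    (R : Fin n → Fin n → ℝ) : ℝ := Hc (lab μ (zt R) hij r b)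

section

variable {μ : Measure (ModSpace n)} [IsProbabilityMeasure μ] {i j : Fin n} (hij : i ≠ j) {b : ℕ}
  {r w : ℝ} {R R' : Fin n → Fin n → ℝ}

/-- **(2.1)**. -/
theorem fD_sh (hμ : AInv μ) (hR : Adm R) (t : Fin n → ℝ) (b : ℕ) (r : ℝ) :
    fD μ hij b (r + (t i - t j)) (R + sh t) = fD μ hij b r R := by
  have := isProb_zt hR
  unfold fD
  rw [← zt_sh hR t]
  exact Hc_lab_sh hμ (zt R) hij t r b

theorem fD_nonneg (hR : Adm R) (b : ℕ) (r : ℝ) : 0 ≤ fD μ hij b r R := by
  have := isProb_zt hR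
  exact Hc_nonneg _

theorem fD_le (hR : Adm R) (hb : 0 < b) (r : ℝ) : fD μ hij b r R ≤ Real.log b := by
  have := isProb_zt hR
  exact Hc_lab_le μ (zt R) hij r hb

/-- **(2.3)**. -/
theorem fD_digits (hR : Adm R) {b b' : ℕ} (hb : 0 < b) (hb' : 0 < b') (r : ℝ) :
    fD μ hij (b * b') r R = fD μ hij b r R + fD μ hij b' (r + Real.logb 2 b) R := by
  have := isProb_zt hR
  exact Hc_digits μ (zt R) hij r hb hb'

/-- (2.2) when `κ'` is absorbed by the noise of a clean metric, without smallness. -/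
theorem Hc_lab_le_of_absorb (κ' : Measure (SLR n)) [IsProbabilityMeasure κ'] (hb : 0 < b)
    (hR : Adm R) (hC : Clean i j r w R)
    (he : TVle (cv κ' (zt R)) (zt R) (CN n * 2 ^ (-w))) :
    Hc (lab μ κ' hij r b) ≤ fD μ hij b r R + ew b n w := by
  have := isProb_zt hR
  unfold ew
  rcases le_total (2 * CN n * (2 : ℝ) ^ (-w)) 1 with h | h
  · rw [min_eq_right h]
    refine Hc_lab_mono μ κ' (zt R) hij r hb (fun d => ?_) h
    refine (hyp_zt hij hR hC he b d).mono (le_of_eq ?_)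
    ring
  · rw [min_eq_left h, md_one]
    have h1 := Hc_lab_le μ κ' hij r hb
    have h2 := Hc_lab_nonneg μ (zt R) hij r (b := b)
    unfold fD
    linarith

/-- **(2.2)**. -/
theorem fD_mono (hb : 0 < b) (hw : 0 ≤ w) (hR : Adm R) (hR' : Adm R') (hC : Clean i j r w R)
    (hN : Neg w R' R) : fD μ hij b r R' ≤ fD μ hij b r R + ew b n w := by
  have := isProb_zt hR'
  exact Hc_lab_le_of_absorb hij (zt R') hb hR hC (cv_zt_left hw hR hN (zt_ae hR'))

end

/-! ### The structure `Dig` of helper395 -/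

/-- The digit entropy with the root given by two arbitrary indices. -/
noncomputable def fI (μ : Measure (ModSpace n)) (b : ℕ) (i j : Fin n) (r : ℝ)
    (R : Fin n → Fin n → ℝ) : ℝ := if h : i ≠ j then fD μ h b r R else 0

theorem fI_eq (μ : Measure (ModSpace n)) (b : ℕ) {i j : Fin n} (hij : i ≠ j) (r : ℝ)
    (R : Fin n → Fin n → ℝ) : fI μ b i j r R = fD μ hij b r R := dif_pos hij

theorem dig (μ : Measure (ModSpace n)) [IsProbabilityMeasure μ] (hμ : AInv μ) {b : ℕ}
    (hb : 0 < b) {c1 : ℝ} (hc : ((n.factorial : ℝ) + 1) * 2 ^ (n + 1) ≤ 2 ^ c1) :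
    NScA_395.Dig (n := n) (fI μ b) Adm (ew b n) (Real.log b) c1 where
  eqv i j r R t hR := by
    by_cases h : i = j
    · simp [fI, h]
    · rw [fI_eq μ b h, fI_eq μ b h]
      exact fD_sh h hμ hR t b r
  mono i j r R R' w hij hw hR hR' hC hC' hN := by
    rw [fI_eq μ b hij, fI_eq μ b hij]
    exact fD_mono hij hb (by linarith) hR hR' hC
      ⟨hN.1, fun i k j => ⟨hN.2.1 i k j, hN.2.2 i k j⟩⟩
  lo i j r R hR := by
    unfold fI
    split_ifs with h
    · exact fD_nonneg h hR b r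
    · exact le_rfl
  hi i j r R hR := by
    unfold fI
    split_ifs with h
    · exact fD_le h hR hb r
    · exact Real.log_natCast_nonneg b
  adm_sh R t hR := Nz_323.adm_sh.2 hR
  adm_of R h := Nz_323.adm_of_entries hc h
  anti w w' _ h := ew_anti b n h
  e0 w _ := ew_nonneg b n w

end Crest.Agent.R014.Nd_837
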