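import Mathlib

/-!
Row 14, block D (noise formalism #3844, section 4): the finite Heisenberg lemma (HA).

`p i j a b` = joint (posterior) weights of the digits `i` of `s`, `j` of `t`, `a` of `r'`, `b` of `r''`,
`r' - r'' = s t` up to `k0`.  If `j` is nearly independent of `(i, a)` and `i` of `(j, b)`, then the law of
`r'` given `i` is nearly invariant under `(s - s')(t - t')`, hence is spread in most blocks.
-/

set_option linter.unusedVariables false
set_option linter.unusedSectionVars false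

open Finset
open scoped BigOperators

namespace Crest.Agent.R014.Nh1_849

noncomputable section

open Classical in
/-- mass of a real set for weights `w` at positions `r`. -/
def ms {A : Type*} [Fintype A] (w : A → ℝ) (r : A → ℝ) (U : Set ℝ) : ℝ :=
  ∑ a, if r a ∈ U then w a else 0

/-- shifted and fuzzed set. -/
def fz (U : Set ℝ) (c k : ℝ) : Set ℝ := {v | ∃ u ∈ U, |v - (u + c)| ≤ k}

theorem fz_fz (U : Set ℝ) (c k c' k' : ℝ) : fz (fz U c k) c' k' ⊆ fz U (c + c') (k + k') := by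
  rintro w ⟨v, ⟨u, hu, hv⟩, hw⟩
  refine ⟨u, hu, ?_⟩
  have : w - (u + (c + c')) = (w - (v + c')) + (v - (u + c)) := by ring
  rw [this]
  calc |(w - (v + c')) + (v - (u + c))| ≤ |w - (v + c')| + |v - (u + c)| := abs_add_le _ _
    _ ≤ k + k' := by linarith

theorem ms_nonneg {A : Type*} [Fintype A] {w : A → ℝ} (hw : ∀ a, 0 ≤ w a) (r : A → ℝ) (U : Set ℝ) :
    0 ≤ ms w r U := by
  classical
  unfold ms
  refine Finset.sum_nonneg fun a _ => ?_
  split_ifs
  · exact hw a
  · exact le_refl _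

theorem ms_mono {A : Type*} [Fintype A] {w : A → ℝ} (hw : ∀ a, 0 ≤ w a) (r : A → ℝ) {U V : Set ℝ}
    (h : U ⊆ V) : ms w r U ≤ ms w r V := by
  classical
  unfold ms
  refine Finset.sum_le_sum fun a _ => ?_
  by_cases h1 : r a ∈ U
  · rw [if_pos h1, if_pos (h h1)]
  · rw [if_neg h1]
    split_ifs
    · exact hw a
    · exact le_refl _

theorem ms_le_sub {A : Type*} [Fintype A] (w w' : A → ℝ) (r : A → ℝ) (U : Set ℝ) (c : ℝ) (hc : 0 ≤ c)
    (hh : True) : c * ms w r U ≤ ms w' r U + ∑ a, |w' a - c * w a| := by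
  classical
  unfold ms
  rw [Finset.mul_sum, ← Finset.sum_add_distrib]
  refine Finset.sum_le_sum fun a _ => ?_
  by_cases h1 : r a ∈ U
  · rw [if_pos h1, if_pos h1]
    have := neg_abs_le (w' a - c * w a)
    linarith
  · rw [if_neg h1, if_neg h1]
    simp

theorem ms_ge_sub {A : Type*} [Fintype A] (w w' : A → ℝ) (r : A → ℝ) (U : Set ℝ) (c : ℝ) :
    ms w' r U ≤ c * ms w r U + ∑ a, |w' a - c * w a| := by
  classical
  unfold ms
  rw [Finset.mul_sum, ← Finset.sum_add_distrib]
  refine Finset.sum_le_sum fun a _ => ?_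
  by_cases h1 : r a ∈ U
  · rw [if_pos h1, if_pos h1]
    have := le_abs_self (w' a - c * w a)
    linarith
  · rw [if_neg h1, if_neg h1]
    simp

/-- transfer of mass along a relation -/
theorem ms_transfer {A B : Type*} [Fintype A] [Fintype B] (w : A → B → ℝ) (hw : ∀ a b, 0 ≤ w a b)
    (rA : A → ℝ) (rB : B → ℝ) (c k : ℝ) (hrel : ∀ a b, w a b ≠ 0 → |rB b - (rA a + c)| ≤ k) (U : Set ℝ) :
    ms (fun a => ∑ b, w a b) rA U ≤ ms (fun b => ∑ a, w a b) rB (fz U c k) := by
  classical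
  unfold ms
  have h1 : ∀ a, (if rA a ∈ U then ∑ b, w a b else 0) = ∑ b, (if rA a ∈ U then w a b else 0) := by
    intro a
    split_ifs
    · rfl
    · simp
  have h2 : ∀ b, (if rB b ∈ fz U c k then ∑ a, w a b else 0)
      = ∑ a, (if rB b ∈ fz U c k then w a b else 0) := by
    intro b
    split_ifs
    · rfl
    · simp
  simp_rw [h1, h2]
  rw [Finset.sum_comm]
  refine Finset.sum_le_sum fun b _ => Finset.sum_le_sum fun a _ => ?_
  by_cases h3 : rA a ∈ U
  · rw [if_pos h3]
    by_cases h4 : w a b = 0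
    · rw [h4]; simp
    · rw [if_pos ⟨rA a, h3, hrel a b h4⟩]
  · rw [if_neg h3]
    split_ifs
    · exact hw a b
    · exact le_refl _

section main

variable {I J A B : Type*} [Fintype I] [Fintype J] [Fintype A] [Fintype B]

/-- marginals -/
def pI (p : I → J → A → B → ℝ) (i : I) : ℝ := ∑ j, ∑ a, ∑ b, p i j a b
def pJ (p : I → J → A → B → ℝ) (j : J) : ℝ := ∑ i, ∑ a, ∑ b, p i j a b
def pIA (p : I → J → A → B → ℝ) (i : I) (a : A) : ℝ := ∑ j, ∑ b, p i j a b
def pJB (p : I → J → A → B → ℝ) (j : J) (b : B) : ℝ := ∑ i, ∑ a, p i j a b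
/-- the two near independence errors, localised at `(i,j)` -/
def e1 (p : I → J → A → B → ℝ) (i : I) (j : J) : ℝ := ∑ a, |(∑ b, p i j a b) - pJ p j * pIA p i a|
def e2 (p : I → J → A → B → ℝ) (i : I) (j : J) : ℝ := ∑ b, |(∑ a, p i j a b) - pI p i * pJB p j b|

variable {p : I → J → A → B → ℝ}

theorem pI_nonneg (hp : ∀ i j a b, 0 ≤ p i j a b) (i : I) : 0 ≤ pI p i :=
  Finset.sum_nonneg fun j _ => Finset.sum_nonneg fun a _ => Finset.sum_nonneg fun b _ => hp i j a b
theorem pJ_nonneg (hp : ∀ i j a b, 0 ≤ p i j a b) (j : J) : 0 ≤ pJ p j :=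
  Finset.sum_nonneg fun i _ => Finset.sum_nonneg fun a _ => Finset.sum_nonneg fun b _ => hp i j a b
theorem pIA_nonneg (hp : ∀ i j a b, 0 ≤ p i j a b) (i : I) (a : A) : 0 ≤ pIA p i a :=
  Finset.sum_nonneg fun j _ => Finset.sum_nonneg fun b _ => hp i j a b
theorem pJB_nonneg (hp : ∀ i j a b, 0 ≤ p i j a b) (j : J) (b : B) : 0 ≤ pJB p j b :=
  Finset.sum_nonneg fun i _ => Finset.sum_nonneg fun a _ => hp i j a b
theorem e1_nonneg (i : I) (j : J) : 0 ≤ e1 p i j := Finset.sum_nonneg fun _ _ => abs_nonneg _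
theorem e2_nonneg (i : I) (j : J) : 0 ≤ e2 p i j := Finset.sum_nonneg fun _ _ => abs_nonneg _

theorem sum_pIA (i : I) : ∑ a, pIA p i a = pI p i := by
  unfold pIA pI
  rw [Finset.sum_comm]

variable (hp : ∀ i j a b, 0 ≤ p i j a b) (sI : I → ℝ) (tJ : J → ℝ) (rA : A → ℝ) (rB : B → ℝ) (k0 : ℝ)
  (hrel : ∀ i j a b, p i j a b ≠ 0 → |rA a - rB b - sI i * tJ j| ≤ k0)

include hp hrel

theorem step1 (i : I) (j : J) (U : Set ℝ) :
    pJ p j * ms (pIA p i) rA U ≤ pI p i * ms (pJB p j) rB (fz U (-(sI i * tJ j)) k0) + (e1 p i j + e2 p i j) := by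
  have h1 := ms_le_sub (pIA p i) (fun a => ∑ b, p i j a b) rA U (pJ p j) (pJ_nonneg hp j) trivial
  have h2 := ms_transfer (fun a b => p i j a b) (fun a b => hp i j a b) rA rB (-(sI i * tJ j)) k0
    (fun a b h => by
      have := hrel i j a b h
      rw [abs_sub_comm] at this
      have e : rB b - (rA a + -(sI i * tJ j)) = -(rA a - rB b - sI i * tJ j) := by ring
      rw [e, abs_neg]
      rwa [abs_sub_comm] at this) U
  have h3 := ms_ge_sub (pJB p j) (fun b => ∑ a, p i j a b) rB (fz U (-(sI i * tJ j)) k0) (pI p i)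
  have e1' : e1 p i j = ∑ a, |(fun a => ∑ b, p i j a b) a - pJ p j * pIA p i a| := rfl
  have e2' : e2 p i j = ∑ b, |(fun b => ∑ a, p i j a b) b - pI p i * pJB p j b| := rfl
  rw [← e1'] at h1
  rw [← e2'] at h3
  linarith

theorem step2 (i : I) (j : J) (V : Set ℝ) :
    pI p i * ms (pJB p j) rB V ≤ pJ p j * ms (pIA p i) rA (fz V (sI i * tJ j) k0) + (e1 p i j + e2 p i j) := by
  have h1 := ms_le_sub (pJB p j) (fun b => ∑ a, p i j a b) rB V (pI p i) (pI_nonneg hp i) trivial
  have h2 := ms_transfer (fun b a => p i j a b) (fun b a => hp i j a b) rB rA (sI i * tJ j) k0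
    (fun b a h => by
      have := hrel i j a b h
      have e : rA a - (rB b + sI i * tJ j) = rA a - rB b - sI i * tJ j := by ring
      rw [e]
      exact this) V
  have h3 := ms_ge_sub (pIA p i) (fun a => ∑ b, p i j a b) rA (fz V (sI i * tJ j) k0) (pJ p j)
  have e1' : e1 p i j = ∑ a, |(fun a => ∑ b, p i j a b) a - pJ p j * pIA p i a| := rfl
  have e2' : e2 p i j = ∑ b, |(fun b => ∑ a, p i j a b) b - pI p i * pJB p j b| := rfl
  rw [← e1'] at h3
  rw [← e2'] at h1
  linarith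

/-- the four-cycle -/
theorem four (i i' : I) (j j' : J) (U : Set ℝ) :
    pI p i' * pJ p j * pJ p j' *
        (ms (pIA p i) rA U - ms (pIA p i) rA (fz U (-((sI i - sI i') * (tJ j - tJ j'))) (4 * k0)))
      ≤ pI p i' * pJ p j' * (e1 p i j + e2 p i j) + pI p i * pJ p j' * (e1 p i' j + e2 p i' j)
        + pI p i * pJ p j * (e1 p i' j' + e2 p i' j') + pJ p j * pI p i' * (e1 p i j' + e2 p i j') := by
  set V1 := fz U (-(sI i * tJ j)) k0 with hV1
  set U2 := fz V1 (sI i' * tJ j) k0 with hU2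
  set V3 := fz U2 (-(sI i' * tJ j')) k0 with hV3
  set U4 := fz V3 (sI i * tJ j') k0 with hU4
  have s1 := step1 hp sI tJ rA rB k0 hrel i j U
  have s2 := step2 hp sI tJ rA rB k0 hrel i' j V1
  have s3 := step1 hp sI tJ rA rB k0 hrel i' j' U2
  have s4 := step2 hp sI tJ rA rB k0 hrel i j' V3
  rw [← hV1] at s1
  rw [← hU2] at s2
  rw [← hV3] at s3
  rw [← hU4] at s4
  have hsub : U4 ⊆ fz U (-((sI i - sI i') * (tJ j - tJ j'))) (4 * k0) := by
    have h1 : U4 ⊆ fz U2 (-(sI i' * tJ j') + sI i * tJ j') (k0 + k0) := fz_fz _ _ _ _ _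
    have h2 : U2 ⊆ fz U (-(sI i * tJ j) + sI i' * tJ j) (k0 + k0) := fz_fz _ _ _ _ _
    have h3 : fz U2 (-(sI i' * tJ j') + sI i * tJ j') (k0 + k0)
        ⊆ fz (fz U (-(sI i * tJ j) + sI i' * tJ j) (k0 + k0)) (-(sI i' * tJ j') + sI i * tJ j') (k0 + k0) := by
      rintro v ⟨u, hu, hv⟩
      exact ⟨u, h2 hu, hv⟩
    have h4 := fz_fz U (-(sI i * tJ j) + sI i' * tJ j) (k0 + k0) (-(sI i' * tJ j') + sI i * tJ j') (k0 + k0)
    have e1 : (-(sI i * tJ j) + sI i' * tJ j) + (-(sI i' * tJ j') + sI i * tJ j')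
        = -((sI i - sI i') * (tJ j - tJ j')) := by ring
    have e2 : (k0 + k0) + (k0 + k0) = 4 * k0 := by ring
    rw [e1, e2] at h4
    exact h1.trans (h3.trans h4)
  have hmono := ms_mono (pIA_nonneg hp i) rA hsub
  have n1 := pI_nonneg hp i
  have n2 := pI_nonneg hp i'
  have n3 := pJ_nonneg hp j
  have n4 := pJ_nonneg hp j'
  have m1 := mul_le_mul_of_nonneg_left s1 (mul_nonneg n2 n4)
  have m2 := mul_le_mul_of_nonneg_left s2 (mul_nonneg n1 n4)
  have m3 := mul_le_mul_of_nonneg_left s3 (mul_nonneg n1 n3)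
  have m4 := mul_le_mul_of_nonneg_left s4 (mul_nonneg n3 n2)
  have m5 := mul_le_mul_of_nonneg_left hmono (mul_nonneg (mul_nonneg n2 n3) n4)
  nlinarith [m1, m2, m3, m4, m5]

end main

/-! ### blocks -/

section blocks

variable {A ι : Type*} [Fintype A] [Fintype ι] (r : A → ℝ) (bl : A → ι) (cB : ι → ℝ) (δ : ℝ)

open Classical in
/-- block mass -/
def bm (bl : A → ι) (w : A → ℝ) (β : ι) : ℝ := ∑ a, if bl a = β then w a else 0

open Classical in
/-- unnormalised spread of a block -/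
def bs (r : A → ℝ) (bl : A → ι) (w : A → ℝ) (β : ι) : ℝ :=
  ∑ a, ∑ a', if bl a = β ∧ bl a' = β then w a * w a' * |r a - r a'| else 0

/-- spread of the block law -/
def spread (r : A → ℝ) (bl : A → ι) (w : A → ℝ) (β : ι) : ℝ := bs r bl w β / (bm bl w β)^2

variable {r bl cB δ} {w : A → ℝ}

theorem bm_nonneg (hw : ∀ a, 0 ≤ w a) (β : ι) : 0 ≤ bm bl w β := by
  classical
  unfold bm
  refine Finset.sum_nonneg fun a _ => ?_
  split_ifs
  · exact hw a
  · exact le_refl _

theorem bs_nonneg (hw : ∀ a, 0 ≤ w a) (β : ι) : 0 ≤ bs r bl w β := by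
  classical
  unfold bs
  refine Finset.sum_nonneg fun a _ => Finset.sum_nonneg fun a' _ => ?_
  split_ifs
  · exact mul_nonneg (mul_nonneg (hw a) (hw a')) (abs_nonneg _)
  · exact le_refl _

theorem spread_nonneg (hw : ∀ a, 0 ≤ w a) (β : ι) : 0 ≤ spread r bl w β :=
  div_nonneg (bs_nonneg hw β) (sq_nonneg _)

theorem sum_bm : ∑ β, bm bl w β = ∑ a, w a := by
  classical
  unfold bm
  rw [Finset.sum_comm]
  refine Finset.sum_congr rfl fun a _ => ?_
  simp

open Classical in
theorem exists_center (hw : ∀ a, 0 ≤ w a) {β : ι} {τ : ℝ} (hpos : 0 < bm bl w β)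
    (h : bs r bl w β < τ * (bm bl w β)^2) :
    ∃ a0, bl a0 = β ∧ (∑ a, if bl a = β then w a * |r a - r a0| else 0) < τ * bm bl w β := by
  by_contra hcon
  push Not at hcon
  have h1 : τ * (bm bl w β)^2 ≤ bs r bl w β := by
    have e1 : τ * (bm bl w β)^2 = ∑ a0, (if bl a0 = β then w a0 else 0) * (τ * bm bl w β) := by
      rw [← Finset.sum_mul]
      have : (∑ i, if bl i = β then w i else 0) = bm bl w β := by
        unfold bm
        rfl
      rw [this]
      ring
    rw [e1]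
    have e2 : bs r bl w β = ∑ a0, (if bl a0 = β then w a0 else 0) *
        (∑ a, if bl a = β then w a * |r a - r a0| else 0) := by
      unfold bs
      rw [Finset.sum_comm]
      refine Finset.sum_congr rfl fun a0 _ => ?_
      rw [Finset.mul_sum]
      refine Finset.sum_congr rfl fun a _ => ?_
      by_cases ha : bl a0 = β
      · by_cases ha' : bl a = β
        · simp only [ha, ha', and_self, if_true]
          ring
        · simp only [ha, ha', false_and, if_false, if_true, mul_zero]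
      · simp only [ha, and_false, if_false, zero_mul]
    rw [e2]
    refine Finset.sum_le_sum fun a0 _ => ?_
    by_cases ha : bl a0 = β
    · rw [if_pos ha]
      exact mul_le_mul_of_nonneg_left (hcon a0 ha) (hw a0)
    · rw [if_neg ha]
      simp
  linarith

open Classical in
theorem out_mass (r : A → ℝ) (hw : ∀ a, 0 ≤ w a) {β : ι} {ℓ : ℝ} (hl : 0 < ℓ) {a0 : A}
    (h : (∑ a, if bl a = β then w a * |r a - r a0| else 0) < ℓ / 8 * bm bl w β) :
    (∑ a, if bl a = β ∧ ℓ / 2 < |r a - r a0| then w a else 0) ≤ bm bl w β / 4 := by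
  have h1 : ℓ / 2 * (∑ a, if bl a = β ∧ ℓ / 2 < |r a - r a0| then w a else 0)
      ≤ ∑ a, if bl a = β then w a * |r a - r a0| else 0 := by
    rw [Finset.mul_sum]
    refine Finset.sum_le_sum fun a _ => ?_
    by_cases h1 : bl a = β
    · by_cases h2 : ℓ / 2 < |r a - r a0|
      · rw [if_pos ⟨h1, h2⟩, if_pos h1, mul_comm]
        exact mul_le_mul_of_nonneg_left h2.le (hw a)
      · rw [if_neg (fun h => h2 h.2), if_pos h1, mul_zero]
        exact mul_nonneg (hw a) (abs_nonneg _)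
    · rw [if_neg (fun h => h1 h.1), if_neg h1, mul_zero]
  have h2 : ℓ / 2 * (∑ a, if bl a = β ∧ ℓ / 2 < |r a - r a0| then w a else 0) ≤ ℓ / 2 * (bm bl w β / 4) := by
    have : ℓ / 2 * (bm bl w β / 4) = ℓ / 8 * bm bl w β := by ring
    rw [this]
    linarith
  exact le_of_mul_le_mul_left h2 (by positivity)

open Classical in
/-- bad blocks -/
def Bad (r : A → ℝ) (bl : A → ι) (w : A → ℝ) (ℓ : ℝ) : Finset ι :=
  Finset.univ.filter fun β => 0 < bm bl w β ∧ bs r bl w β < ℓ / 8 * (bm bl w β)^2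

/-- centres of the bad blocks -/
def ctr (r : A → ℝ) (bl : A → ι) (w : A → ℝ) (hw : ∀ a, 0 ≤ w a) (ℓ : ℝ) (β : ι)
    (h : β ∈ Bad r bl w ℓ) : A :=
  (exists_center (r := r) hw (by
    have := (Finset.mem_filter.mp h).2.1
    exact this) (by
    have := (Finset.mem_filter.mp h).2.2
    exact this)).choose

theorem ctr_spec (hw : ∀ a, 0 ≤ w a) {ℓ : ℝ} {β : ι} (h : β ∈ Bad r bl w ℓ) :
    bl (ctr r bl w hw ℓ β h) = β := by
  classical
  exact (exists_center (r := r) hw (Finset.mem_filter.mp h).2.1 (Finset.mem_filter.mp h).2.2).choose_spec.1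

open Classical in
theorem ctr_out (hw : ∀ a, 0 ≤ w a) {ℓ : ℝ} (hl : 0 < ℓ) {β : ι} (h : β ∈ Bad r bl w ℓ) :
    (∑ a, if bl a = β ∧ ℓ / 2 < |r a - r (ctr r bl w hw ℓ β h)| then w a else 0) ≤ bm bl w β / 4 := by
  exact out_mass r hw hl
    (exists_center (r := r) hw (Finset.mem_filter.mp h).2.1 (Finset.mem_filter.mp h).2.2).choose_spec.2

open Classical in
/-- bad blocks whose centre lies on the side `ε` of the middle -/
def BadE (r : A → ℝ) (bl : A → ι) (cB : ι → ℝ) (w : A → ℝ) (hw : ∀ a, 0 ≤ w a) (ℓ ε : ℝ) : Finset ι :=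
  Finset.univ.filter fun β => ∃ h : β ∈ Bad r bl w ℓ, 0 ≤ ε * (r (ctr r bl w hw ℓ β h) - cB β)

/-- the concentration set -/
def UE (r : A → ℝ) (bl : A → ι) (cB : ι → ℝ) (δ : ℝ) (w : A → ℝ) (hw : ∀ a, 0 ≤ w a) (ℓ ε : ℝ) : Set ℝ :=
  {u | ∃ β, ∃ h : β ∈ Bad r bl w ℓ, 0 ≤ ε * (r (ctr r bl w hw ℓ β h) - cB β) ∧
    |u - r (ctr r bl w hw ℓ β h)| ≤ ℓ / 2 ∧ |u - cB β| < δ}

theorem block_gain (hw : ∀ a, 0 ≤ w a) {ℓ ε h k : ℝ} (hl : 0 < ℓ) (hε : ε = 1 ∨ ε = -1)
    (hk : k < ℓ) (hk0 : 0 ≤ k) (hh : 2 * ℓ ≤ ε * h) (hh' : ℓ / 2 + ε * h + k < δ)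
    (hb1 : ∀ a, |r a - cB (bl a)| < δ) (hb2 : ∀ a β, |r a - cB β| < δ → bl a = β) :
    (∑ β ∈ BadE r bl cB w hw ℓ ε, bm bl w β) / 2 ≤
      ms w r (UE r bl cB δ w hw ℓ ε) - ms w r (fz (UE r bl cB δ w hw ℓ ε) (-h) k) := by
  classical
  have hmem : ∀ β, β ∈ BadE r bl cB w hw ℓ ε ↔
      ∃ h : β ∈ Bad r bl w ℓ, 0 ≤ ε * (r (ctr r bl w hw ℓ β h) - cB β) := by
    intro β
    unfold BadE
    simp
  -- indicator of "outside the concentration interval"
  set out : A → Prop := fun a => ∃ h : bl a ∈ Bad r bl w ℓ,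
      0 ≤ ε * (r (ctr r bl w hw ℓ (bl a) h) - cB (bl a)) ∧ ℓ / 2 < |r a - r (ctr r bl w hw ℓ (bl a) h)| with hout
  have hA : (∑ a, if out a then w a else 0) ≤ (∑ β ∈ BadE r bl cB w hw ℓ ε, bm bl w β) / 4 := by
    have e1 : (∑ a, if out a then w a else 0)
        ≤ ∑ β ∈ BadE r bl cB w hw ℓ ε, bm bl w β / 4 := by
      have e2 : (∑ a, if out a then w a else 0)
          = ∑ β ∈ BadE r bl cB w hw ℓ ε, ∑ a, if bl a = β ∧ out a then w a else 0 := by
        rw [Finset.sum_comm]
        refine Finset.sum_congr rfl fun a _ => ?_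
        by_cases ho : out a
        · rw [if_pos ho]
          have hin : bl a ∈ BadE r bl cB w hw ℓ ε := by
            obtain ⟨h1, h2, h3⟩ := ho
            exact (hmem _).2 ⟨h1, h2⟩
          rw [Finset.sum_eq_single_of_mem (bl a) hin]
          · rw [if_pos ⟨rfl, ho⟩]
          · intro β _ hne
            rw [if_neg (fun hh => hne hh.1.symm)]
        · rw [if_neg ho]
          symm
          refine Finset.sum_eq_zero fun β _ => ?_
          rw [if_neg (fun hh => ho hh.2)]
      rw [e2]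
      refine Finset.sum_le_sum fun β hβ => ?_
      obtain ⟨h1, h2⟩ := (hmem β).1 hβ
      refine le_trans ?_ (ctr_out hw hl h1)
      refine Finset.sum_le_sum fun a _ => ?_
      by_cases hc : bl a = β ∧ out a
      · rw [if_pos hc]
        obtain ⟨hc1, hc2, hc3, hc4⟩ := hc
        subst hc1
        rw [if_pos ⟨rfl, hc4⟩]
      · rw [if_neg hc]
        split_ifs
        · exact hw a
        · exact le_refl _
    rw [← Finset.sum_div] at e1
    exact e1
  -- total mass
  have hT : (∑ β ∈ BadE r bl cB w hw ℓ ε, bm bl w β)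
      = ∑ a, if bl a ∈ BadE r bl cB w hw ℓ ε then w a else 0 := by
    unfold bm
    rw [Finset.sum_comm]
    refine Finset.sum_congr rfl fun a _ => ?_
    by_cases h1 : bl a ∈ BadE r bl cB w hw ℓ ε
    · rw [if_pos h1, Finset.sum_eq_single_of_mem (bl a) h1]
      · rw [if_pos rfl]
      · intro β _ hne
        rw [if_neg (fun hh => hne hh.symm)]
    · rw [if_neg h1]
      refine Finset.sum_eq_zero fun β hβ => ?_
      rw [if_neg]
      intro hh
      rw [hh] at h1
      exact h1 hβ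
  have hU : (∑ β ∈ BadE r bl cB w hw ℓ ε, bm bl w β) - (∑ a, if out a then w a else 0)
      ≤ ms w r (UE r bl cB δ w hw ℓ ε) := by
    rw [hT]
    unfold ms
    rw [← Finset.sum_sub_distrib]
    refine Finset.sum_le_sum fun a _ => ?_
    by_cases h1 : bl a ∈ BadE r bl cB w hw ℓ ε
    · rw [if_pos h1]
      by_cases h2 : out a
      · rw [if_pos h2, sub_self]
        split_ifs
        · exact hw a
        · exact le_refl _
      · rw [if_neg h2, sub_zero]
        obtain ⟨h3, h4⟩ := (hmem _).1 h1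
        have h5 : |r a - r (ctr r bl w hw ℓ (bl a) h3)| ≤ ℓ / 2 := by
          by_contra hc
          exact h2 ⟨h3, h4, not_le.mp hc⟩
        rw [if_pos]
        exact ⟨bl a, h3, h4, h5, hb1 a⟩
    · rw [if_neg h1]
      by_cases h2 : out a
      · obtain ⟨h3, h4, h5⟩ := h2
        exact absurd ((hmem _).2 ⟨h3, h4⟩) h1
      · rw [if_neg h2, sub_zero]
        split_ifs
        · exact hw a
        · exact le_refl _
  have hF : ms w r (fz (UE r bl cB δ w hw ℓ ε) (-h) k) ≤ ∑ a, if out a then w a else 0 := by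
    unfold ms
    refine Finset.sum_le_sum fun a _ => ?_
    by_cases h1 : r a ∈ fz (UE r bl cB δ w hw ℓ ε) (-h) k
    · rw [if_pos h1]
      obtain ⟨u, ⟨β, hβ, h2, h3, h4⟩, h5⟩ := h1
      set c := r (ctr r bl w hw ℓ β hβ) with hc
      have hcβ : |c - cB β| < δ := by
        have := hb1 (ctr r bl w hw ℓ β hβ)
        rw [ctr_spec hw hβ] at this
        exact this
      rw [abs_le] at h3 h5
      rw [abs_lt] at h4 hcβ
      have h6 : |r a - cB β| < δ := by
        rw [abs_lt]
        rcases hε with he | he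
        · subst he
          constructor <;> nlinarith
        · subst he
          constructor <;> nlinarith
      have h7 : ℓ / 2 < |r a - c| := by
        rcases hε with he | he
        · subst he
          rw [lt_abs]
          right
          nlinarith
        · subst he
          rw [lt_abs]
          left
          nlinarith
      have h8 := hb2 a β h6
      subst h8
      rw [if_pos]
      exact ⟨hβ, h2, h7⟩
    · rw [if_neg h1]
      split_ifs
      · exact hw a
      · exact le_refl _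
  linarith

theorem badE_cover (hw : ∀ a, 0 ≤ w a) (ℓ : ℝ) :
    (∑ β ∈ Bad r bl w ℓ, bm bl w β) ≤
      (∑ β ∈ BadE r bl cB w hw ℓ 1, bm bl w β) + ∑ β ∈ BadE r bl cB w hw ℓ (-1), bm bl w β := by
  classical
  have hsub : Bad r bl w ℓ ⊆ BadE r bl cB w hw ℓ 1 ∪ BadE r bl cB w hw ℓ (-1) := by
    intro β hβ
    rw [Finset.mem_union]
    unfold BadE
    simp only [Finset.mem_filter, Finset.mem_univ, true_and]
    rcases le_total 0 (r (ctr r bl w hw ℓ β hβ) - cB β) with h | h
    · left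
      exact ⟨hβ, by linarith⟩
    · right
      exact ⟨hβ, by linarith⟩
  refine (Finset.sum_le_sum_of_subset_of_nonneg hsub (fun β _ _ => bm_nonneg hw β)).trans ?_
  have := Finset.sum_union_inter (s₁ := BadE r bl cB w hw ℓ 1) (s₂ := BadE r bl cB w hw ℓ (-1))
    (f := fun β => bm bl w β)
  have h2 : 0 ≤ ∑ β ∈ BadE r bl cB w hw ℓ 1 ∩ BadE r bl cB w hw ℓ (-1), bm bl w β :=
    Finset.sum_nonneg fun β _ => bm_nonneg hw β
  linarith

end blocks

/-! ### averaging -/

section avg

variable {I J A B ι : Type*} [Fintype I] [Fintype J] [Fintype A] [Fintype B] [Fintype ι]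

/-- mean distance of two independent samples -/
def mdist {I : Type*} [Fintype I] (q : I → ℝ) (x : I → ℝ) : ℝ := ∑ i, ∑ i', q i * q i' * |x i - x i'|

theorem mdist_nonneg {q : I → ℝ} (hq : ∀ i, 0 ≤ q i) (x : I → ℝ) : 0 ≤ mdist q x :=
  Finset.sum_nonneg fun i _ => Finset.sum_nonneg fun i' _ =>
    mul_nonneg (mul_nonneg (hq i) (hq i')) (abs_nonneg _)

theorem mdist_le_two {q : I → ℝ} (hq : ∀ i, 0 ≤ q i) (h1 : ∑ i, q i = 1) (x : I → ℝ) (c : ℝ) :
    mdist q x ≤ 2 * ∑ i, q i * |c - x i| := by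
  unfold mdist
  have h2 : ∀ i i', q i * q i' * |x i - x i'| ≤ q i * q i' * |c - x i| + q i * q i' * |c - x i'| := by
    intro i i'
    rw [← mul_add]
    refine mul_le_mul_of_nonneg_left ?_ (mul_nonneg (hq i) (hq i'))
    have : x i - x i' = (c - x i') - (c - x i) := by ring
    rw [this]
    have h3 := abs_sub (c - x i') (c - x i)
    linarith
  calc ∑ i, ∑ i', q i * q i' * |x i - x i'|
      ≤ ∑ i, ∑ i', (q i * q i' * |c - x i| + q i * q i' * |c - x i'|) :=
        Finset.sum_le_sum fun i _ => Finset.sum_le_sum fun i' _ => h2 i i'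
    _ = 2 * ∑ i, q i * |c - x i| := by
        simp_rw [Finset.sum_add_distrib]
        have e1 : ∑ i, ∑ i', q i * q i' * |c - x i| = ∑ i, q i * |c - x i| := by
          refine Finset.sum_congr rfl fun i _ => ?_
          calc ∑ i', q i * q i' * |c - x i| = ∑ i', (q i * |c - x i|) * q i' := by
                refine Finset.sum_congr rfl fun i' _ => ?_
                ring
            _ = q i * |c - x i| := by rw [← Finset.mul_sum, h1, mul_one]
        have e2 : ∑ i, ∑ i', q i * q i' * |c - x i'| = ∑ i, q i * |c - x i| := by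
          rw [Finset.sum_comm]
          refine Finset.sum_congr rfl fun i _ => ?_
          calc ∑ i', q i' * q i * |c - x i| = ∑ i', (q i * |c - x i|) * q i' := by
                refine Finset.sum_congr rfl fun i' _ => ?_
                ring
            _ = q i * |c - x i| := by rw [← Finset.mul_sum, h1, mul_one]
        rw [e1, e2]
        ring

theorem mdist_le_width {q : I → ℝ} (hq : ∀ i, 0 ≤ q i) (h1 : ∑ i, q i = 1) (x : I → ℝ) {δ : ℝ}
    (hx : ∀ i, |x i| ≤ δ) : mdist q x ≤ 2 * δ := by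
  have := mdist_le_two hq h1 x 0
  have h2 : ∑ i, q i * |0 - x i| ≤ ∑ i, q i * δ := by
    refine Finset.sum_le_sum fun i _ => mul_le_mul_of_nonneg_left ?_ (hq i)
    simpa using hx i
  rw [← Finset.sum_mul, h1, one_mul] at h2
  linarith

variable {p : I → J → A → B → ℝ} (hp : ∀ i j a b, 0 ≤ p i j a b) (h1 : ∑ i, ∑ j, ∑ a, ∑ b, p i j a b = 1)
  (sI : I → ℝ) (tJ : J → ℝ) (rA : A → ℝ) (rB : B → ℝ) (k0 : ℝ)
  (hrel : ∀ i j a b, p i j a b ≠ 0 → |rA a - rB b - sI i * tJ j| ≤ k0)
  (bl : A → ι) (cB : ι → ℝ) {δ : ℝ}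

theorem sum_pI (h1 : ∑ i, ∑ j, ∑ a, ∑ b, p i j a b = 1) : ∑ i, pI p i = 1 := h1

theorem sum_pJ (h1 : ∑ i, ∑ j, ∑ a, ∑ b, p i j a b = 1) : ∑ j, pJ p j = 1 := by
  unfold pJ
  rw [Finset.sum_comm]
  exact h1

include hp h1 in
theorem prob_large (i : I) (hδ : 0 < δ) (hs : ∀ i, |sI i| ≤ δ) (ht : ∀ j, |tJ j| ≤ δ) :
    (∑ i', ∑ j, ∑ j', pI p i' * pJ p j * pJ p j' *
        (if 2 * (mdist (pI p) sI * mdist (pJ p) tJ / 8) ≤ (sI i - sI i') * (tJ j - tJ j') then (1:ℝ) else 0))
      * (32 * δ^2) ≥ mdist (pI p) sI * mdist (pJ p) tJ := by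
  classical
  set S := mdist (pI p) sI with hS
  set T := mdist (pJ p) tJ with hT
  set ℓ := S * T / 8 with hℓ
  have hI1 := sum_pI h1
  have hJ1 := sum_pJ h1
  have nI := pI_nonneg hp
  have nJ := pJ_nonneg hp
  have hS2 : S ≤ 2 * ∑ i', pI p i' * |sI i - sI i'| := mdist_le_two nI hI1 sI (sI i)
  have hT0 : 0 ≤ T := mdist_nonneg nJ tJ
  have hS0 : 0 ≤ S := mdist_nonneg nI sI
  -- expectation of |h|
  have hE : ∑ i', ∑ j, ∑ j', pI p i' * pJ p j * pJ p j' * |(sI i - sI i') * (tJ j - tJ j')|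
      = (∑ i', pI p i' * |sI i - sI i'|) * T := by
    rw [hT]
    unfold mdist
    rw [Finset.sum_mul]
    refine Finset.sum_congr rfl fun i' _ => ?_
    rw [Finset.mul_sum]
    refine Finset.sum_congr rfl fun j _ => ?_
    rw [Finset.mul_sum]
    refine Finset.sum_congr rfl fun j' _ => ?_
    rw [abs_mul]
    ring
  have hmass : ∑ i' : I, ∑ j : J, ∑ j' : J, pI p i' * pJ p j * pJ p j' = 1 := by
    have : ∀ i' : I, ∑ j : J, ∑ j' : J, pI p i' * pJ p j * pJ p j' = pI p i' := by
      intro i'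
      have e1 : ∀ j : J, ∑ j' : J, pI p i' * pJ p j * pJ p j' = pI p i' * pJ p j := by
        intro j
        rw [← Finset.mul_sum, hJ1, mul_one]
      simp_rw [e1]
      rw [← Finset.mul_sum, hJ1, mul_one]
    simp_rw [this]
    exact hI1
  have hpt : ∀ i' j j', pI p i' * pJ p j * pJ p j' * |(sI i - sI i') * (tJ j - tJ j')|
      ≤ pI p i' * pJ p j * pJ p j' * (2 * ℓ)
        + 4 * δ^2 * (pI p i' * pJ p j * pJ p j' *
            (if 2 * ℓ ≤ (sI i - sI i') * (tJ j - tJ j') then (1:ℝ) else 0))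
        + 4 * δ^2 * (pI p i' * pJ p j * pJ p j' *
            (if 2 * ℓ ≤ (sI i - sI i') * (tJ j' - tJ j) then (1:ℝ) else 0)) := by
    intro i' j j'
    have hq : 0 ≤ pI p i' * pJ p j * pJ p j' := mul_nonneg (mul_nonneg (nI i') (nJ j)) (nJ j')
    have hle : |(sI i - sI i') * (tJ j - tJ j')| ≤ 4 * δ^2 := by
      rw [abs_mul]
      have a1 : |sI i - sI i'| ≤ 2 * δ := by
        have := abs_sub (sI i) (sI i')
        have := hs i
        have := hs i'
        linarith
      have a2 : |tJ j - tJ j'| ≤ 2 * δ := by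
        have := abs_sub (tJ j) (tJ j')
        have := ht j
        have := ht j'
        linarith
      calc |sI i - sI i'| * |tJ j - tJ j'| ≤ (2 * δ) * (2 * δ) :=
            mul_le_mul a1 a2 (abs_nonneg _) (by linarith)
        _ = 4 * δ^2 := by ring
    have key : |(sI i - sI i') * (tJ j - tJ j')| ≤ 2 * ℓ
        + 4 * δ^2 * (if 2 * ℓ ≤ (sI i - sI i') * (tJ j - tJ j') then (1:ℝ) else 0)
        + 4 * δ^2 * (if 2 * ℓ ≤ (sI i - sI i') * (tJ j' - tJ j) then (1:ℝ) else 0) := by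
      have hℓ0 : 0 ≤ ℓ := by
        rw [hℓ]
        positivity
      have hd : 0 ≤ 4 * δ^2 := by positivity
      by_cases c1 : 2 * ℓ ≤ (sI i - sI i') * (tJ j - tJ j')
      · rw [if_pos c1]
        have : 0 ≤ 4 * δ^2 * (if 2 * ℓ ≤ (sI i - sI i') * (tJ j' - tJ j) then (1:ℝ) else 0) := by
          split_ifs <;> simp <;> positivity
        linarith
      · rw [if_neg c1]
        by_cases c2 : 2 * ℓ ≤ (sI i - sI i') * (tJ j' - tJ j)
        · rw [if_pos c2]
          linarith
        · rw [if_neg c2]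
          push Not at c1 c2
          have : |(sI i - sI i') * (tJ j - tJ j')| ≤ 2 * ℓ := by
            rw [abs_le]
            constructor <;> nlinarith
          linarith
    calc pI p i' * pJ p j * pJ p j' * |(sI i - sI i') * (tJ j - tJ j')|
        ≤ pI p i' * pJ p j * pJ p j' * (2 * ℓ
        + 4 * δ^2 * (if 2 * ℓ ≤ (sI i - sI i') * (tJ j - tJ j') then (1:ℝ) else 0)
        + 4 * δ^2 * (if 2 * ℓ ≤ (sI i - sI i') * (tJ j' - tJ j) then (1:ℝ) else 0)) :=
          mul_le_mul_of_nonneg_left key hq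
      _ = _ := by ring
  have hsum := Finset.sum_le_sum fun i' (_ : i' ∈ (Finset.univ : Finset I)) =>
    Finset.sum_le_sum fun j (_ : j ∈ (Finset.univ : Finset J)) =>
      Finset.sum_le_sum fun j' (_ : j' ∈ (Finset.univ : Finset J)) => hpt i' j j'
  simp_rw [Finset.sum_add_distrib, ← Finset.mul_sum, ← Finset.sum_mul] at hsum
  have hsw : ∑ i', ∑ j, ∑ j', pI p i' * pJ p j * pJ p j' *
        (if 2 * ℓ ≤ (sI i - sI i') * (tJ j' - tJ j) then (1:ℝ) else 0)
      = ∑ i', ∑ j, ∑ j', pI p i' * pJ p j * pJ p j' *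
        (if 2 * ℓ ≤ (sI i - sI i') * (tJ j - tJ j') then (1:ℝ) else 0) := by
    refine Finset.sum_congr rfl fun i' _ => ?_
    rw [Finset.sum_comm]
    refine Finset.sum_congr rfl fun j _ => Finset.sum_congr rfl fun j' _ => ?_
    ring
  rw [hE, hmass, hsw] at hsum
  set Q := ∑ i', ∑ j, ∑ j', pI p i' * pJ p j * pJ p j' *
        (if 2 * ℓ ≤ (sI i - sI i') * (tJ j - tJ j') then (1:ℝ) else 0) with hQ
  have h5 : S * T ≤ 2 * ((∑ i', pI p i' * |sI i - sI i'|) * T) := by
    have := mul_le_mul_of_nonneg_right hS2 hT0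
    linarith
  have h6 : 2 * ℓ = S * T / 4 := by
    rw [hℓ]
    ring
  rw [h6] at hsum
  nlinarith [hsum, h5]

include hp h1 hrel in
open Classical in
/-- the finite Heisenberg lemma -/
theorem heis (hδ : 0 < δ) (hδ8 : δ ≤ 1 / 8) (hk0 : 0 ≤ k0) (hs : ∀ i, |sI i| ≤ δ) (ht : ∀ j, |tJ j| ≤ δ)
    (hb1 : ∀ a, |rA a - cB (bl a)| < δ) (hb2 : ∀ a β, |rA a - cB β| < δ → bl a = β) :
    ∑ i, ∑ β, bm bl (pIA p i) β *
        max (mdist (pI p) sI * mdist (pJ p) tJ / 64 - spread rA bl (pIA p i) β) 0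
      ≤ 4 * δ^2 * (∑ i, ∑ j, (e1 p i j + e2 p i j)) + k0 / 2 := by
  set S := mdist (pI p) sI with hS
  set T := mdist (pJ p) tJ with hT
  have hI1 := sum_pI h1
  have hJ1 := sum_pJ h1
  have nI := pI_nonneg hp
  have nJ := pJ_nonneg hp
  have nIA := pIA_nonneg hp
  have hT0 : 0 ≤ T := mdist_nonneg nJ tJ
  have hS0 : 0 ≤ S := mdist_nonneg nI sI
  have hS2 : S ≤ 2 * δ := mdist_le_width nI hI1 sI hs
  have hT2 : T ≤ 2 * δ := mdist_le_width nJ hJ1 tJ ht
  have hST0 : 0 ≤ S * T := mul_nonneg hS0 hT0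
  have hST : S * T ≤ 4 * δ^2 := by
    calc S * T ≤ (2 * δ) * (2 * δ) := mul_le_mul hS2 hT2 hT0 (by linarith)
      _ = 4 * δ^2 := by ring
  have he : 0 ≤ ∑ i, ∑ j, (e1 p i j + e2 p i j) :=
    Finset.sum_nonneg fun i _ => Finset.sum_nonneg fun j _ => add_nonneg (e1_nonneg i j) (e2_nonneg i j)
  have hbm : ∀ i β, 0 ≤ bm bl (pIA p i) β := fun i β => bm_nonneg (nIA i) β
  have hbmsum : ∑ i, ∑ β, bm bl (pIA p i) β = 1 := by
    have : ∀ i, ∑ β, bm bl (pIA p i) β = pI p i := by
      intro i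
      rw [sum_bm, sum_pIA]
    simp_rw [this]
    exact hI1
  by_cases hcase : S * T ≤ 32 * k0
  · have h2 : ∑ i, ∑ β, bm bl (pIA p i) β * max (S * T / 64 - spread rA bl (pIA p i) β) 0
        ≤ ∑ i, ∑ β, bm bl (pIA p i) β * (k0 / 2) := by
      refine Finset.sum_le_sum fun i _ => Finset.sum_le_sum fun β _ => ?_
      refine mul_le_mul_of_nonneg_left ?_ (hbm i β)
      have := spread_nonneg (r := rA) (nIA i) (bl := bl) β
      refine max_le ?_ (by linarith)
      linarith
    simp_rw [← Finset.sum_mul] at h2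
    rw [hbmsum, one_mul] at h2
    have : 0 ≤ 4 * δ^2 * ∑ i, ∑ j, (e1 p i j + e2 p i j) := mul_nonneg (by positivity) he
    linarith
  · push Not at hcase
    set ℓ := S * T / 8 with hℓ
    have hSTpos : 0 < S * T := by linarith
    have hℓ0 : 0 < ℓ := by
      rw [hℓ]
      positivity
    have hkℓ : 4 * k0 < ℓ := by
      rw [hℓ]
      linarith
    have hℓδ : ℓ ≤ δ^2 / 2 := by
      rw [hℓ]
      linarith
    -- the quadruple inequality
    set R4 : I → I → J → J → ℝ := fun i i' j j' =>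
      pI p i' * pJ p j' * (e1 p i j + e2 p i j) + pI p i * pJ p j' * (e1 p i' j + e2 p i' j)
        + pI p i * pJ p j * (e1 p i' j' + e2 p i' j') + pJ p j * pI p i' * (e1 p i j' + e2 p i j') with hR4
    set Mp : I → ℝ := fun i => ∑ β ∈ BadE rA bl cB (pIA p i) (nIA i) ℓ 1, bm bl (pIA p i) β with hMp
    set Mm : I → ℝ := fun i => ∑ β ∈ BadE rA bl cB (pIA p i) (nIA i) ℓ (-1), bm bl (pIA p i) β with hMm
    have hMp0 : ∀ i, 0 ≤ Mp i := fun i => Finset.sum_nonneg fun β _ => hbm i β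
    have hMm0 : ∀ i, 0 ≤ Mm i := fun i => Finset.sum_nonneg fun β _ => hbm i β
    have hR40 : ∀ i i' j j', 0 ≤ R4 i i' j j' := by
      intro i i' j j'
      have a1 := add_nonneg (e1_nonneg (p := p) i j) (e2_nonneg (p := p) i j)
      have a2 := add_nonneg (e1_nonneg (p := p) i' j) (e2_nonneg (p := p) i' j)
      have a3 := add_nonneg (e1_nonneg (p := p) i' j') (e2_nonneg (p := p) i' j')
      have a4 := add_nonneg (e1_nonneg (p := p) i j') (e2_nonneg (p := p) i j')
      have b1 := mul_nonneg (mul_nonneg (nI i') (nJ j')) a1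
      have b2 := mul_nonneg (mul_nonneg (nI i) (nJ j')) a2
      have b3 := mul_nonneg (mul_nonneg (nI i) (nJ j)) a3
      have b4 := mul_nonneg (mul_nonneg (nJ j) (nI i')) a4
      simp only [hR4]
      linarith
    have hhb : ∀ i i' j j', |(sI i - sI i') * (tJ j - tJ j')| ≤ 4 * δ^2 := by
      intro i i' j j'
      rw [abs_mul]
      have a1 : |sI i - sI i'| ≤ 2 * δ := by
        have := abs_sub (sI i) (sI i')
        have := hs i
        have := hs i'
        linarith
      have a2 : |tJ j - tJ j'| ≤ 2 * δ := by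
        have := abs_sub (tJ j) (tJ j')
        have := ht j
        have := ht j'
        linarith
      calc |sI i - sI i'| * |tJ j - tJ j'| ≤ (2 * δ) * (2 * δ) :=
            mul_le_mul a1 a2 (abs_nonneg _) (by linarith)
        _ = 4 * δ^2 := by ring
    have hquad : ∀ i i' j j', pI p i' * pJ p j * pJ p j' *
        (Mp i / 2 * (if 2 * ℓ ≤ (sI i - sI i') * (tJ j - tJ j') then (1:ℝ) else 0)
          + Mm i / 2 * (if 2 * ℓ ≤ (sI i - sI i') * (tJ j' - tJ j) then (1:ℝ) else 0)) ≤ R4 i i' j j' := by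
      intro i i' j j'
      have hq : 0 ≤ pI p i' * pJ p j * pJ p j' := mul_nonneg (mul_nonneg (nI i') (nJ j)) (nJ j')
      have hb := hhb i i' j j'
      rw [abs_le] at hb
      set h := (sI i - sI i') * (tJ j - tJ j') with hh
      have hh' : (sI i - sI i') * (tJ j' - tJ j) = -h := by
        rw [hh]
        ring
      rw [hh']
      by_cases c1 : 2 * ℓ ≤ h
      · have c2 : ¬ 2 * ℓ ≤ -h := by
          intro hc
          linarith
        rw [if_pos c1, if_neg c2, mul_one, mul_zero, add_zero]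
        have g := block_gain (r := rA) (bl := bl) (cB := cB) (δ := δ) (nIA i) (ε := 1) (h := h) (k := 4 * k0)
          hℓ0 (Or.inl rfl) hkℓ (by linarith) (by linarith) (by nlinarith [hb.2]) hb1 hb2
        have f4 := four hp sI tJ rA rB k0 hrel i i' j j' (UE rA bl cB δ (pIA p i) (nIA i) ℓ 1)
        rw [← hh] at f4
        refine le_trans ?_ f4
        exact mul_le_mul_of_nonneg_left g hq
      · rw [if_neg c1, mul_zero, zero_add]
        by_cases c2 : 2 * ℓ ≤ -h
        · rw [if_pos c2, mul_one]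
          have g := block_gain (r := rA) (bl := bl) (cB := cB) (δ := δ) (nIA i) (ε := -1) (h := h)
            (k := 4 * k0) hℓ0 (Or.inr rfl) hkℓ (by linarith) (by linarith) (by nlinarith [hb.1]) hb1 hb2
          have f4 := four hp sI tJ rA rB k0 hrel i i' j j' (UE rA bl cB δ (pIA p i) (nIA i) ℓ (-1))
          rw [← hh] at f4
          refine le_trans ?_ f4
          exact mul_le_mul_of_nonneg_left g hq
        · rw [if_neg c2, mul_zero, mul_zero]
          exact hR40 i i' j j'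
    -- sum of the right hand sides
    have hsumR : ∑ i, ∑ i', ∑ j, ∑ j', R4 i i' j j' = 4 * ∑ i, ∑ j, (e1 p i j + e2 p i j) := by
      set E : I → J → ℝ := fun i j => e1 p i j + e2 p i j with hE
      have t1 : ∑ i, ∑ i', ∑ j, ∑ j', pI p i' * pJ p j' * E i j = ∑ i, ∑ j, E i j := by
        refine Finset.sum_congr rfl fun i _ => ?_
        rw [Finset.sum_comm]
        refine Finset.sum_congr rfl fun j _ => ?_
        have : ∀ i' : I, ∑ j', pI p i' * pJ p j' * E i j = pI p i' * E i j := by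
          intro i'
          rw [← Finset.sum_mul, ← Finset.mul_sum, hJ1, mul_one]
        simp_rw [this]
        rw [← Finset.sum_mul, hI1, one_mul]
      have t2 : ∑ i, ∑ i', ∑ j, ∑ j', pI p i * pJ p j' * E i' j = ∑ i, ∑ j, E i j := by
        rw [Finset.sum_comm]
        refine Finset.sum_congr rfl fun i _ => ?_
        rw [Finset.sum_comm]
        refine Finset.sum_congr rfl fun j _ => ?_
        have : ∀ i' : I, ∑ j', pI p i' * pJ p j' * E i j = pI p i' * E i j := by
          intro i'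
          rw [← Finset.sum_mul, ← Finset.mul_sum, hJ1, mul_one]
        simp_rw [this]
        rw [← Finset.sum_mul, hI1, one_mul]
      have t3 : ∑ i, ∑ i', ∑ j, ∑ j', pI p i * pJ p j * E i' j' = ∑ i, ∑ j, E i j := by
        rw [Finset.sum_comm]
        refine Finset.sum_congr rfl fun i' _ => ?_
        have e1 : ∀ i : I, ∑ j, ∑ j', pI p i * pJ p j * E i' j' = pI p i * ∑ j', E i' j' := by
          intro i
          simp_rw [← Finset.mul_sum]
          rw [← Finset.sum_mul, ← Finset.mul_sum, hJ1, mul_one]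
        simp_rw [e1]
        rw [← Finset.sum_mul, hI1, one_mul]
      have t4 : ∑ i, ∑ i', ∑ j, ∑ j', pJ p j * pI p i' * E i j' = ∑ i, ∑ j, E i j := by
        refine Finset.sum_congr rfl fun i _ => ?_
        have e1 : ∀ i' : I, ∑ j, ∑ j', pJ p j * pI p i' * E i j' = pI p i' * ∑ j', E i j' := by
          intro i'
          simp_rw [← Finset.mul_sum]
          rw [← Finset.sum_mul, ← Finset.sum_mul, hJ1, one_mul]
        simp_rw [e1]
        rw [← Finset.sum_mul, hI1, one_mul]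
      simp only [hR4]
      simp_rw [Finset.sum_add_distrib]
      simp only [hE] at t1 t2 t3 t4
      simp_rw [mul_add, Finset.sum_add_distrib] at t1 t2 t3 t4 ⊢
      linarith
    have hsumL : ∑ i, ∑ i', ∑ j, ∑ j', (pI p i' * pJ p j * pJ p j' *
        (Mp i / 2 * (if 2 * ℓ ≤ (sI i - sI i') * (tJ j - tJ j') then (1:ℝ) else 0)
          + Mm i / 2 * (if 2 * ℓ ≤ (sI i - sI i') * (tJ j' - tJ j) then (1:ℝ) else 0)))
        ≤ 4 * ∑ i, ∑ j, (e1 p i j + e2 p i j) := by
      rw [← hsumR]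
      exact Finset.sum_le_sum fun i _ => Finset.sum_le_sum fun i' _ => Finset.sum_le_sum fun j _ =>
        Finset.sum_le_sum fun j' _ => hquad i i' j j'
    set Q : I → ℝ := fun i => ∑ i', ∑ j, ∑ j', pI p i' * pJ p j * pJ p j' *
        (if 2 * ℓ ≤ (sI i - sI i') * (tJ j - tJ j') then (1:ℝ) else 0) with hQ
    have hQ1 : ∀ i, S * T ≤ Q i * (32 * δ^2) := fun i =>
      prob_large hp h1 sI tJ i hδ hs ht
    have hL : ∀ i, ∑ i', ∑ j, ∑ j', (pI p i' * pJ p j * pJ p j' *
        (Mp i / 2 * (if 2 * ℓ ≤ (sI i - sI i') * (tJ j - tJ j') then (1:ℝ) else 0)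
          + Mm i / 2 * (if 2 * ℓ ≤ (sI i - sI i') * (tJ j' - tJ j) then (1:ℝ) else 0)))
        = (Mp i + Mm i) / 2 * Q i := by
      intro i
      have hsw : ∑ i', ∑ j, ∑ j', pI p i' * pJ p j * pJ p j' *
            (if 2 * ℓ ≤ (sI i - sI i') * (tJ j' - tJ j) then (1:ℝ) else 0) = Q i := by
        refine Finset.sum_congr rfl fun i' _ => ?_
        rw [Finset.sum_comm]
        refine Finset.sum_congr rfl fun j _ => Finset.sum_congr rfl fun j' _ => ?_
        ring
      have e1 : ∀ i' j j', pI p i' * pJ p j * pJ p j' *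
        (Mp i / 2 * (if 2 * ℓ ≤ (sI i - sI i') * (tJ j - tJ j') then (1:ℝ) else 0)
          + Mm i / 2 * (if 2 * ℓ ≤ (sI i - sI i') * (tJ j' - tJ j) then (1:ℝ) else 0))
          = Mp i / 2 * (pI p i' * pJ p j * pJ p j' *
            (if 2 * ℓ ≤ (sI i - sI i') * (tJ j - tJ j') then (1:ℝ) else 0))
            + Mm i / 2 * (pI p i' * pJ p j * pJ p j' *
            (if 2 * ℓ ≤ (sI i - sI i') * (tJ j' - tJ j) then (1:ℝ) else 0)) := by
        intro i' j j'
        ring
      simp_rw [e1, Finset.sum_add_distrib, ← Finset.mul_sum]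
      rw [hsw]
      ring
    simp_rw [hL] at hsumL
    -- lower bound
    have hM : (∑ i, ∑ β ∈ Bad rA bl (pIA p i) ℓ, bm bl (pIA p i) β) * (S * T)
        ≤ 256 * δ^2 * ∑ i, ∑ j, (e1 p i j + e2 p i j) := by
      have h3 : ∀ i, (∑ β ∈ Bad rA bl (pIA p i) ℓ, bm bl (pIA p i) β) * (S * T)
          ≤ 64 * δ^2 * ((Mp i + Mm i) / 2 * Q i) := by
        intro i
        have h4 := badE_cover (r := rA) (bl := bl) (cB := cB) (nIA i) ℓ
        have h5 : (∑ β ∈ Bad rA bl (pIA p i) ℓ, bm bl (pIA p i) β) ≤ Mp i + Mm i := h4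
        have h6 : (∑ β ∈ Bad rA bl (pIA p i) ℓ, bm bl (pIA p i) β) * (S * T)
            ≤ (Mp i + Mm i) * (Q i * (32 * δ^2)) :=
          mul_le_mul h5 (hQ1 i) hST0 (add_nonneg (hMp0 i) (hMm0 i))
        calc _ ≤ _ := h6
          _ = _ := by ring
      rw [Finset.sum_mul]
      refine (Finset.sum_le_sum fun i _ => h3 i).trans ?_
      rw [← Finset.mul_sum]
      have : 64 * δ^2 * ∑ i, (Mp i + Mm i) / 2 * Q i ≤ 64 * δ^2 * (4 * ∑ i, ∑ j, (e1 p i j + e2 p i j)) :=
        mul_le_mul_of_nonneg_left hsumL (by positivity)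
      linarith
    -- final
    have hfin : ∀ i, ∑ β, bm bl (pIA p i) β * max (S * T / 64 - spread rA bl (pIA p i) β) 0
        ≤ (S * T / 64) * ∑ β ∈ Bad rA bl (pIA p i) ℓ, bm bl (pIA p i) β := by
      intro i
      rw [Finset.mul_sum, ← Finset.sum_subset (Finset.subset_univ (Bad rA bl (pIA p i) ℓ))]
      · refine Finset.sum_le_sum fun β _ => ?_
        rw [mul_comm (S * T / 64)]
        refine mul_le_mul_of_nonneg_left ?_ (hbm i β)
        have := spread_nonneg (r := rA) (nIA i) (bl := bl) β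
        refine max_le (by linarith) (by linarith)
      · intro β _ hβ
        rcases (hbm i β).eq_or_lt with h0 | h0
        · rw [← h0, zero_mul]
        · have h7 : ¬ (bs rA bl (pIA p i) β < ℓ / 8 * (bm bl (pIA p i) β)^2) := by
            intro hc
            exact hβ (by
              unfold Bad
              rw [Finset.mem_filter]
              exact ⟨Finset.mem_univ _, h0, hc⟩)
          push Not at h7
          have h8 : ℓ / 8 ≤ spread rA bl (pIA p i) β := by
            unfold spread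
            rw [le_div_iff₀ (by positivity)]
            exact h7
          have h9 : S * T / 64 - spread rA bl (pIA p i) β ≤ 0 := by
            have : ℓ / 8 = S * T / 64 := by
              rw [hℓ]
              ring
            linarith
          rw [max_eq_right h9, mul_zero]
    refine (Finset.sum_le_sum fun i _ => hfin i).trans ?_
    rw [← Finset.mul_sum]
    have : S * T / 64 * ∑ i, ∑ β ∈ Bad rA bl (pIA p i) ℓ, bm bl (pIA p i) β
        ≤ 4 * δ^2 * ∑ i, ∑ j, (e1 p i j + e2 p i j) := by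
      nlinarith [hM]
    linarith

end avg

end

end Crest.Agent.R014.Nh1_849
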