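import Crest.Agent.R014.Nh3_849
import Crest.Agent.R014.NScD_395

/-!
Row 14, block D (noise formalism), section 4, step (R2) in the form of post #5086: for a probability
space with real variables `s, t, r, r''`, `r = r'' + s t / (16 N)`, and their digits.
-/

set_option autoImplicit false
set_option linter.unusedSectionVars false

namespace Crest.Agent.R014.Nh4_849

open MeasureTheory Finset
open scoped ENNReal
open Crest.Agent.R014.Ne1_567 Crest.Agent.R014.Ne2_567 Crest.Agent.R014.Ne3_567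
open Crest.Agent.R014.Ne4_567 Crest.Agent.R014.Nh1_849 Crest.Agent.R014.Nh2_849
open Crest.Agent.R014.Nh3_849
open Crest.Agent.R014.Nd_837 (cen)
open Crest.Agent.R014.NScC_395 (spr spr_nonneg)

noncomputable section

/-! ### centres -/

theorem abs_cen_lt {b : ℕ} (d : Fin b) : |cen b d| < 1 := by
  have hb : (0:ℝ) < b := by
    have := d.pos
    exact_mod_cast this
  have hd : ((d : ℕ) : ℝ) + 1 ≤ b := by
    have := d.isLt
    exact_mod_cast this
  have hd0 : (0:ℝ) ≤ ((d : ℕ) : ℝ) := Nat.cast_nonneg _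
  unfold cen
  have e1 : (0:ℝ) < (2 * ((d : ℕ) : ℝ) + 1) / b := by positivity
  have e2 : (2 * ((d : ℕ) : ℝ) + 1) / b < 2 := by
    rw [div_lt_iff₀ hb]
    linarith
  rw [abs_lt]
  constructor <;> linarith

theorem cen_sub {b : ℕ} (d d' : Fin b) : cen b d - cen b d' = 2 * (((d : ℕ) : ℝ) - ((d' : ℕ) : ℝ)) / b := by
  unfold cen
  ring

theorem cen_gap {b : ℕ} {d d' : Fin b} (h : d ≠ d') : 2 / (b:ℝ) ≤ |cen b d - cen b d'| := by
  have hb : (0:ℝ) < b := by
    have := d.pos
    exact_mod_cast this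
  rw [cen_sub, abs_div, abs_mul, abs_of_pos (by norm_num : (0:ℝ) < 2), abs_of_pos hb]
  have h1 : (1:ℝ) ≤ |((d : ℕ) : ℝ) - ((d' : ℕ) : ℝ)| := by
    have h2 : ((d : ℕ) : ℤ) - ((d' : ℕ) : ℤ) ≠ 0 := by
      intro h3
      apply h
      apply Fin.ext
      omega
    have h3 : (1:ℤ) ≤ |((d : ℕ) : ℤ) - ((d' : ℕ) : ℤ)| := Int.one_le_abs h2
    exact_mod_cast h3
  rw [div_le_div_iff_of_pos_right hb]
  linarith

/-! ### the spread of a chain -/

section fin

variable {N b : ℕ} {W δ : ℝ}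

/-- position of the cell `(β, d)` -/
def rA (W : ℝ) (N b : ℕ) (a : Fin N × Fin b) : ℝ := W * (cen N a.1 + cen b a.2 / N)

theorem rA_near (hW : 0 < W) (h : W / N = δ) (a : Fin N × Fin b) :
    |rA W N b a - W * cen N a.1| < δ := by
  have hN : (0:ℝ) < N := by
    have := a.1.pos
    exact_mod_cast this
  have e1 : rA W N b a - W * cen N a.1 = W / N * cen b a.2 := by
    unfold rA
    ring
  have hδ : 0 < δ := by
    rw [← h]
    positivity
  rw [e1, h, abs_mul, abs_of_pos hδ]
  have := abs_cen_lt a.2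
  nlinarith

theorem rA_block (hW : 0 < W) (h : W / N = δ) (a : Fin N × Fin b) (β : Fin N)
    (hβ : |rA W N b a - W * cen N β| < δ) : a.1 = β := by
  have hN : (0:ℝ) < N := by
    have := a.1.pos
    exact_mod_cast this
  have hδ : 0 < δ := by
    rw [← h]
    positivity
  by_contra hne
  have h1 := cen_gap hne
  have h2 := rA_near hW h a
  have h3 : |W * cen N a.1 - W * cen N β| < 2 * δ := by
    have e := abs_sub_le (W * cen N a.1) (rA W N b a) (W * cen N β)
    rw [abs_sub_comm (W * cen N a.1) (rA W N b a)] at e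
    linarith
  rw [← mul_sub, abs_mul, abs_of_pos hW] at h3
  have h4 : W * (2 / N) ≤ W * |cen N a.1 - cen N β| := mul_le_mul_of_nonneg_left h1 hW.le
  have h5 : W * (2 / N) = 2 * δ := by
    rw [← h]
    ring
  linarith

/-- the spread of the block `β` of `u β * v d` -/
theorem spread_chain (hW : 0 < W) (h : W / N = δ) (u : Fin N → ℝ) (v : Fin N → Fin b → ℝ)
    (β : Fin N) (hu : u β ≠ 0) (hv : ∑ d, v β d = 1) :
    spread (rA W N b) Prod.fst (fun a : Fin N × Fin b => u a.1 * v a.1 a.2) β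
      = δ * spr (cen b) (v β) := by
  have hN : (0:ℝ) < N := by
    have := β.pos
    exact_mod_cast this
  have hδ : 0 < δ := by
    rw [← h]
    positivity
  have hbm : bm Prod.fst (fun a : Fin N × Fin b => u a.1 * v a.1 a.2) β = u β := by
    unfold bm
    rw [Fintype.sum_prod_type, Finset.sum_eq_single β]
    · simp only [if_true]
      rw [← Finset.mul_sum, hv, mul_one]
    · intro c _ hc
      simp [hc]
    · intro h
      exact absurd (Finset.mem_univ _) h
  have hbs : bs (rA W N b) Prod.fst (fun a : Fin N × Fin b => u a.1 * v a.1 a.2) β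
      = (u β)^2 * (δ * spr (cen b) (v β)) := by
    unfold bs spr
    rw [Fintype.sum_prod_type, Finset.sum_eq_single β]
    · rw [Finset.mul_sum, Finset.mul_sum]
      refine Finset.sum_congr rfl fun c _ => ?_
      rw [Fintype.sum_prod_type, Finset.sum_eq_single β]
      · rw [Finset.mul_sum, Finset.mul_sum]
        refine Finset.sum_congr rfl fun c' _ => ?_
        simp only [and_self, if_true]
        have e1 : rA W N b (β, c) - rA W N b (β, c') = δ * (cen b c - cen b c') := by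
          unfold rA
          simp only
          rw [← h]
          ring
        rw [e1, abs_mul, abs_of_pos hδ]
        ring
      · intro e _ he
        simp [he]
      · intro h
        exact absurd (Finset.mem_univ _) h
    · intro e _ he
      simp [he]
    · intro h
      exact absurd (Finset.mem_univ _) h
  unfold spread
  rw [hbm, hbs]
  field_simp

theorem mdist_eq_spr {ι : Type*} [Fintype ι] (p x : ι → ℝ) : mdist p x = spr x p := rfl

theorem mdist_scale {ι : Type*} [Fintype ι] (p x : ι → ℝ) {c : ℝ} (hc : 0 ≤ c) :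
    mdist p (fun i => c * x i) = c * mdist p x := by
  unfold mdist
  rw [Finset.mul_sum]
  refine Finset.sum_congr rfl fun i _ => ?_
  rw [Finset.mul_sum]
  refine Finset.sum_congr rfl fun j _ => ?_
  rw [← mul_sub, abs_mul, abs_of_nonneg hc]
  ring

end fin

/-! ### the step (R2) -/

section R2

variable {Ω Z : Type*} [MeasurableSpace Ω] [MeasurableSpace Z] (P : Measure Ω)
  [IsProbabilityMeasure P] {bs bt b N m : ℕ} [NeZero bs] [NeZero bt] [NeZero b] [NeZero N] [NeZero m]
  {z : Ω → Z} {dS : Ω → Fin bs} {dT : Ω → Fin bt} {d : Ω → Fin b} {β : Ω → Fin N} {e : Ω → Fin m}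
  {s t r rp : Ω → ℝ}

instance instNonemptyFin (b : ℕ) [NeZero b] : Nonempty (Fin b) := ⟨⟨0, Nat.pos_of_ne_zero (NeZero.ne b)⟩⟩

/-- the block spread at the true block is the spread of the posterior of the fine digit -/
theorem spread_true (hz : Measurable z) (hS : Measurable dS) (hd : Measurable d)
    (hβ : Measurable β) {W δ : ℝ} (hW : 0 < W) (h : W / N = δ) :
    ∀ᵐ ω ∂P, spread (rA W N b) Prod.fst (fun a' => pv (rv P (fun ω => ((β ω, d ω), dS ω)) z)
        (a', dS ω) (z ω)) (β ω)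
      = δ * spr (cen b) fun c => pv (rv P d (fun ω => ((z ω, dS ω), β ω))) c ((z ω, dS ω), β ω) := by
  have ha : Measurable fun ω => (β ω, d ω) := hβ.prodMk hd
  have hY : Measurable fun ω => (z ω, dS ω) := hz.prodMk hS
  have hD := stepD P (b := fun _ => (0 : Fin b)) hS hS ha measurable_const hz (rA := rA W N b)
    (bl := (Prod.fst : Fin N × Fin b → Fin N))
  filter_upwards [hD, po_chain P hd hβ hY, pv_true_ne_zero P hβ hY,
    po_marg P (hd.prodMk hβ) hY (Prod.swap : Fin b × Fin N → Fin N × Fin b)] with ω h1 h2 h3 h4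
  rw [h1 (β ω)]
  have e1 : (fun a' => pv (rv P (fun ω => (β ω, d ω)) (fun ω => (z ω, dS ω))) a' (z ω, dS ω))
      = fun a' : Fin N × Fin b => pv (rv P β (fun ω => (z ω, dS ω))) a'.1 (z ω, dS ω)
        * pv (rv P d (fun ω => ((z ω, dS ω), β ω))) a'.2 ((z ω, dS ω), a'.1) := by
    funext a'
    have h5 := h4 a'
    rw [show (fun ω => Prod.swap (d ω, β ω)) = fun ω => (β ω, d ω) from rfl] at h5
    rw [h5, Finset.sum_eq_single (a'.2, a'.1)]
    · simp only [Prod.swap_prod_mk, Prod.mk.eta, if_true]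
      exact h2 a'.2 a'.1
    · intro c _ hc
      rw [if_neg]
      intro h6
      apply hc
      rw [← h6]
      simp
    · intro h
      exact absurd (Finset.mem_univ _) h
  rw [e1]
  exact spread_chain hW h (fun k => pv (rv P β (fun ω => (z ω, dS ω))) k (z ω, dS ω))
    (fun k c => pv (rv P d (fun ω => ((z ω, dS ω), β ω))) c ((z ω, dS ω), k)) (β ω) h3 (sum_pv _ _)

/-- (R2), real values -/
theorem R2r (hz : Measurable z) (hS : Measurable dS) (hT : Measurable dT) (hd : Measurable d)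
    (hβ : Measurable β) (he : Measurable e) (hbs : b ≤ bs) (hbt : b ≤ bt)
    (cs : ∀ᵐ ω ∂P, |s ω| ≤ 1 ∧ |s ω - cen bs (dS ω)| ≤ 1 / bs)
    (ct : ∀ᵐ ω ∂P, |t ω| ≤ 1 ∧ |t ω - cen bt (dT ω)| ≤ 1 / bt)
    (cr : ∀ᵐ ω ∂P, |r ω - (cen N (β ω) + cen b (d ω) / N)| ≤ 1 / (N * b))
    (ce : ∀ᵐ ω ∂P, |rp ω / 2 - cen m (e ω)| ≤ 1 / m) (hm : 2 * N * b ≤ m)
    (hr : ∀ᵐ ω ∂P, r ω = rp ω + (16 * N : ℝ)⁻¹ * (s ω * t ω)) {η1 η2 : ℝ}
    (hη1 : HH P dT z - HH P dT (fun ω => (z ω, ((β ω, d ω), dS ω))) ≤ η1)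
    (hη2 : HH P dS z - HH P dS (fun ω => (z ω, (dT ω, e ω))) ≤ η2) :
    ∫ ω, max ((spr (fun c => 1 / 16 * cen bs c) (fun c => pv (rv P dS z) c (z ω)) *
        spr (fun c => 1 / 16 * cen bt c) (fun c => pv (rv P dT z) c (z ω))) / 64
        - 1 / 16 * spr (cen b) (fun c => pv (rv P d (fun ω => ((z ω, dS ω), β ω))) c
          ((z ω, dS ω), β ω))) 0 ∂P
      ≤ 1 / 32 * (√η1 + √η2) + 1 / (8 * b) := by
  have hN0 : 0 < N := Nat.pos_of_ne_zero (NeZero.ne N)
  have hb0 : 0 < b := Nat.pos_of_ne_zero (NeZero.ne b)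
  have hm0 : 0 < m := Nat.pos_of_ne_zero (NeZero.ne m)
  have hN : (0:ℝ) < N := by exact_mod_cast hN0
  have hb : (0:ℝ) < b := by exact_mod_cast hb0
  have hm' : (0:ℝ) < m := by exact_mod_cast hm0
  have hmr : 2 * (N:ℝ) * b ≤ m := by exact_mod_cast hm
  have hbsr : (b:ℝ) ≤ bs := by exact_mod_cast hbs
  have hbtr : (b:ℝ) ≤ bt := by exact_mod_cast hbt
  have ibs : 1 / (bs:ℝ) ≤ 1 / b := one_div_le_one_div_of_le hb hbsr
  have ibt : 1 / (bt:ℝ) ≤ 1 / b := one_div_le_one_div_of_le hb hbtr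
  set W : ℝ := N / 16 with hWd
  have hW : 0 < W := by positivity
  have hWN : W / N = 1 / 16 := by
    rw [hWd]
    field_simp
  have ha : Measurable fun ω => (β ω, d ω) := hβ.prodMk hd
  have key := stepB P (i := dS) (j := dT) (a := fun ω => (β ω, d ω)) (b := e) (z := z)
    hS hT ha he hz (sI := fun c => 1 / 16 * cen bs c) (tJ := fun c => 1 / 16 * cen bt c)
    (rA := rA W N b) (rB := fun c => W * (2 * cen m c)) (k0 := 1 / (4 * b)) (δ := 1 / 16)
    (bl := (Prod.fst : Fin N × Fin b → Fin N)) (cB := fun k => W * cen N k)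
    (by norm_num) (by norm_num) (by positivity)
    (fun c => by
      rw [abs_mul, abs_of_pos (by norm_num : (0:ℝ) < 1 / 16)]
      have := (abs_cen_lt c).le
      linarith)
    (fun c => by
      rw [abs_mul, abs_of_pos (by norm_num : (0:ℝ) < 1 / 16)]
      have := (abs_cen_lt c).le
      linarith)
    (fun a => rA_near hW hWN a) (fun a k hk => rA_block hW hWN a k hk)
    (by
      filter_upwards [cs, ct, cr, ce, hr] with ω ⟨s1, s2⟩ ⟨t1, t2⟩ r2 e2 hr
      -- three errors
      have k1 : |W * (cen N (β ω) + cen b (d ω) / N) - W * r ω| ≤ 1 / (16 * b) := by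
        rw [← mul_sub, abs_mul, abs_of_pos hW, abs_sub_comm]
        refine (mul_le_mul_of_nonneg_left r2 hW.le).trans (le_of_eq ?_)
        rw [hWd]
        field_simp
      have k2 : |W * rp ω - W * (2 * cen m (e ω))| ≤ 1 / (16 * b) := by
        have e3 : W * rp ω - W * (2 * cen m (e ω)) = (2 * W) * (rp ω / 2 - cen m (e ω)) := by ring
        rw [e3, abs_mul, abs_of_pos (by positivity)]
        refine (mul_le_mul_of_nonneg_left e2 (by positivity)).trans ?_
        have e4 : 1 / (m:ℝ) ≤ 1 / (2 * N * b) := one_div_le_one_div_of_le (by positivity) hmr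
        refine (mul_le_mul_of_nonneg_left e4 (by positivity)).trans (le_of_eq ?_)
        rw [hWd]
        field_simp
      have k3 : |1 / 16 * cen bs (dS ω) * (1 / 16 * cen bt (dT ω)) - 1 / 256 * (s ω * t ω)| ≤ 1 / 128 * (1 / b) := by
        have e3 : 1 / 16 * cen bs (dS ω) * (1 / 16 * cen bt (dT ω)) - 1 / 256 * (s ω * t ω)
            = 1 / 256 * (cen bt (dT ω) * (cen bs (dS ω) - s ω) + s ω * (cen bt (dT ω) - t ω)) := by ring
        rw [e3, abs_mul, abs_of_pos (by norm_num : (0:ℝ) < 1 / 256)]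
        have e4 : |cen bt (dT ω) * (cen bs (dS ω) - s ω) + s ω * (cen bt (dT ω) - t ω)| ≤ 2 * (1 / b) := by
          refine (abs_add_le _ _).trans ?_
          rw [abs_mul, abs_mul, abs_sub_comm (cen bs (dS ω)), abs_sub_comm (cen bt (dT ω))]
          have e5 : |cen bt (dT ω)| * |s ω - cen bs (dS ω)| ≤ 1 * (1 / b) :=
            mul_le_mul (abs_cen_lt _).le (s2.trans ibs) (abs_nonneg _) zero_le_one
          have e6 : |s ω| * |t ω - cen bt (dT ω)| ≤ 1 * (1 / b) :=
            mul_le_mul s1 (t2.trans ibt) (abs_nonneg _) zero_le_one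
          linarith
        linarith
      have hrel : W * r ω = W * rp ω + 1 / 256 * (s ω * t ω) := by
        rw [hr, hWd]
        field_simp
        ring
      have e9 : rA W N b (β ω, d ω) - W * (2 * cen m (e ω)) - 1 / 16 * cen bs (dS ω) * (1 / 16 * cen bt (dT ω))
          = (W * (cen N (β ω) + cen b (d ω) / N) - W * r ω) + (W * rp ω - W * (2 * cen m (e ω)))
            - (1 / 16 * cen bs (dS ω) * (1 / 16 * cen bt (dT ω)) - 1 / 256 * (s ω * t ω)) := by
        unfold rA
        rw [hrel]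
        ring
      rw [e9]
      refine (abs_sub _ _).trans ?_
      refine (add_le_add (abs_add_le _ _) le_rfl).trans ?_
      have e10 : 1 / (16 * (b:ℝ)) = 1 / 16 * (1 / b) := by field_simp
      have e11 : 1 / (4 * (b:ℝ)) = 1 / 4 * (1 / b) := by field_simp
      rw [e10] at k1 k2
      rw [e11]
      have hb1 : 0 < 1 / (b:ℝ) := by positivity
      linarith)
    hη1 hη2
  have hbd := spread_true P (β := β) hz hS hd hβ hW hWN
  have e1 : ∫ ω, max ((spr (fun c => 1 / 16 * cen bs c) (fun c => pv (rv P dS z) c (z ω)) *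
        spr (fun c => 1 / 16 * cen bt c) (fun c => pv (rv P dT z) c (z ω))) / 64
        - 1 / 16 * spr (cen b) (fun c => pv (rv P d (fun ω => ((z ω, dS ω), β ω))) c
          ((z ω, dS ω), β ω))) 0 ∂P
      = ∫ ω, max (mdist (fun c => pv (rv P dS z) c (z ω)) (fun c => 1 / 16 * cen bs c) *
          mdist (fun c => pv (rv P dT z) c (z ω)) (fun c => 1 / 16 * cen bt c) / 64
        - spread (rA W N b) Prod.fst (fun a' => pv (rv P (fun ω => ((β ω, d ω), dS ω)) z)
          (a', dS ω) (z ω)) (β ω)) 0 ∂P := by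
    refine integral_congr_ae ?_
    filter_upwards [hbd] with ω hω
    rw [hω, mdist_eq_spr, mdist_eq_spr]
  rw [e1]
  refine key.trans (le_of_eq ?_)
  field_simp
  ring

theorem spr_scale {ι : Type*} [Fintype ι] (p x : ι → ℝ) {c : ℝ} (hc : 0 ≤ c) :
    spr (fun i => c * x i) p = c * spr x p := mdist_scale p x hc

/-- (R2) in the form of post #5086, with `bs`, `bt` digits of `s`, `t`. -/
theorem R2 (hz : Measurable z) (hS : Measurable dS) (hT : Measurable dT) (hd : Measurable d)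
    (hβ : Measurable β) (he : Measurable e) (hbs : b ≤ bs) (hbt : b ≤ bt)
    (cs : ∀ᵐ ω ∂P, |s ω| ≤ 1 ∧ |s ω - cen bs (dS ω)| ≤ 1 / bs)
    (ct : ∀ᵐ ω ∂P, |t ω| ≤ 1 ∧ |t ω - cen bt (dT ω)| ≤ 1 / bt)
    (cr : ∀ᵐ ω ∂P, |r ω - (cen N (β ω) + cen b (d ω) / N)| ≤ 1 / (N * b))
    (ce : ∀ᵐ ω ∂P, |rp ω / 2 - cen m (e ω)| ≤ 1 / m) (hm : 2 * N * b ≤ m)
    (hr : ∀ᵐ ω ∂P, r ω = rp ω + (16 * N : ℝ)⁻¹ * (s ω * t ω)) {η1 η2 : ℝ}
    (hη1 : HH P dT z - HH P dT (fun ω => (z ω, ((β ω, d ω), dS ω))) ≤ η1)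
    (hη2 : HH P dS z - HH P dS (fun ω => (z ω, (dT ω, e ω))) ≤ η2) :
    ∫ ω, max 0 ((1 / 2^10 : ℝ) * (spr (cen bs) (fun c => pv (rv P dS z) c (z ω)) *
        spr (cen bt) (fun c => pv (rv P dT z) c (z ω)))
        - spr (cen b) (fun c => pv (rv P d (fun ω => ((z ω, dS ω), β ω))) c ((z ω, dS ω), β ω))) ∂P
      ≤ 1 / 2 * (√η1 + √η2) + 2 / b := by
  have hb0 : 0 < b := Nat.pos_of_ne_zero (NeZero.ne b)
  have hb : (0:ℝ) < b := by exact_mod_cast hb0
  have key := R2r P hz hS hT hd hβ he hbs hbt cs ct cr ce hm hr hη1 hη2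
  have e1 : ∫ ω, max 0 ((1 / 2^10 : ℝ) * (spr (cen bs) (fun c => pv (rv P dS z) c (z ω)) *
        spr (cen bt) (fun c => pv (rv P dT z) c (z ω)))
        - spr (cen b) (fun c => pv (rv P d (fun ω => ((z ω, dS ω), β ω))) c ((z ω, dS ω), β ω))) ∂P
      = ∫ ω, 16 * max ((spr (fun c => 1 / 16 * cen bs c) (fun c => pv (rv P dS z) c (z ω)) *
        spr (fun c => 1 / 16 * cen bt c) (fun c => pv (rv P dT z) c (z ω))) / 64
        - 1 / 16 * spr (cen b) (fun c => pv (rv P d (fun ω => ((z ω, dS ω), β ω))) c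
          ((z ω, dS ω), β ω))) 0 ∂P := by
    refine integral_congr_ae (Filter.Eventually.of_forall fun ω => ?_)
    simp only
    rw [spr_scale _ _ (by norm_num), spr_scale _ _ (by norm_num), max_comm,
      mul_max_of_nonneg _ _ (by norm_num : (0:ℝ) ≤ 16), mul_zero]
    congr 1
    ring
  rw [e1, integral_const_mul]
  refine (mul_le_mul_of_nonneg_left key (by norm_num)).trans (le_of_eq ?_)
  field_simp
  ring

end R2

end

end Crest.Agent.R014.Nh4_849
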