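import Crest.Agent.R014.Nz1_323

set_option autoImplicit false

open MeasureTheory Set Matrix
open scoped ENNReal

namespace Crest.Agent.R014.Nz_323

variable {n : ℕ}

/-- `g ↦ p g q` as a measurable equivalence. -/
def eqv (p p' q q' : Mt n) (hp : p * p' = 1) (hq : q * q' = 1) : Mt n ≃ᵐ Mt n where
  toFun g := p * g * q
  invFun g := p' * g * q'
  left_inv g := by
    have hp' : p' * p = 1 := mul_eq_one_comm.1 hp
    calc p' * (p * g * q) * q' = (p' * p) * g * (q * q') := by simp only [mul_assoc]
      _ = g := by rw [hp', hq, one_mul, mul_one]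
  right_inv g := by
    have hq' : q' * q = 1 := mul_eq_one_comm.1 hq
    calc p * (p' * g * q') * q = (p * p') * g * (q' * q) := by simp only [mul_assoc]
      _ = g := by rw [hp, hq', one_mul, mul_one]
  measurable_toFun := (by fun_prop : Continuous fun g : Mt n => p * g * q).measurable
  measurable_invFun := (by fun_prop : Continuous fun g : Mt n => p' * g * q').measurable

theorem eqv_apply (p p' q q' : Mt n) (hp : p * p' = 1) (hq : q * q' = 1) (g : Mt n) :
    eqv p p' q q' hp hq g = p * g * q := rfl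

theorem haar_lr {p q : Mt n} (hp : 0 < p.det) (hq : 0 < q.det) :
    (haar n).map (fun g => p * g * q) = haar n := by
  have h1 : (fun g : Mt n => p * g * q) = (fun g => g * q) ∘ (fun g => p * g) := rfl
  rw [h1, ← Measure.map_map (measurable_mul_right q) (measurable_mul_left p), haar_mul_left hp,
    haar_mul_right hq]

theorem adm_of_le {R R' : Fin n → Fin n → ℝ} (hR : Adm R) (h : ∀ i j, R i j ≤ R' i j) :
    Adm R' := by
  intro g hg
  refine hR g fun i j => (hg i j).trans ?_
  exact Real.rpow_le_rpow_of_exponent_le (by norm_num) (by linarith [h i j])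

theorem bx_subset_of_le {R R' : Fin n → Fin n → ℝ} (h : ∀ i j, R i j ≤ R' i j) :
    bx R' ⊆ bx R := by
  intro g hg i j
  refine (hg i j).trans ?_
  exact Real.rpow_le_rpow_of_exponent_le (by norm_num) (by linarith [h i j])

theorem one_le_CN_mul {w e : ℝ} (hn : e ≤ (n + 4) * 2 ^ (-w)) (he : 1 ≤ e) :
    1 ≤ CN n * 2 ^ (-w) := by
  unfold CN
  have h1 : (1:ℝ) ≤ 8 ^ n * 2 ^ (n ^ 2) :=
    one_le_mul_of_one_le_of_one_le (one_le_pow₀ (by norm_num)) (one_le_pow₀ (by norm_num))
  have h2 : (0:ℝ) < (n + 4) * 2 ^ (-w) := by positivity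
  nlinarith

theorem tv_of_box' {R : Fin n → Fin n → ℝ} (hR : Adm R) (T : Mt n ≃ᵐ Mt n)
    (hT : (haar n).map T = haar n) {e w : ℝ} (he0 : 0 ≤ e) (hew : e ≤ (n + 4) * 2 ^ (-w))
    (hbox : ∀ g ∈ bx R, T g ∈ bxc (1 + e) R) (hdet : ∀ g ∈ bx R, 1 / 4 ≤ (T g).det)
    {A : Set (Mt n)} (hA : MeasurableSet A) :
    |((un R).map T).real A - (un R).real A| ≤ CN n * 2 ^ (-w) := by
  rcases le_or_gt e 1 with he1 | he1
  · refine (tv_of_box hR T hT he0 he1 hbox hdet hA).trans ?_
    unfold CN
    have h1 : (0:ℝ) < 8 ^ n * 2 ^ (n ^ 2) := by positivity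
    nlinarith
  · have := isProb_un hR
    have h2 : IsProbabilityMeasure ((un R).map T) :=
      Measure.isProbabilityMeasure_map T.measurable.aemeasurable
    refine le_trans ?_ (one_le_CN_mul hew he1.le)
    have h3 : ((un R).map T).real A ≤ 1 := measureReal_le_one
    have h4 : (un R).real A ≤ 1 := measureReal_le_one
    have h5 : 0 ≤ ((un R).map T).real A := measureReal_nonneg
    have h6 : 0 ≤ (un R).real A := measureReal_nonneg
    rw [abs_le]
    constructor <;> linarith

theorem entry_mul (p m : Mt n) (i j : Fin n) : (p * m) i j = ∑ k, p i k * m k j :=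
  Matrix.mul_apply

/-- **(L1), left**: a negligible factor is absorbed. -/
theorem L1_left {w : ℝ} (hw : 0 ≤ w) {R R' : Fin n → Fin n → ℝ} (hR : Adm R) (hN : Neg w R' R)
    {q : Mt n} (hq : q ∈ bx R') {A : Set (Mt n)} (hA : MeasurableSet A) :
    |((un R).map (fun g => q * g)).real A - (un R).real A| ≤ CN n * 2 ^ (-w) := by
  have hle : ∀ i j, R i j ≤ R' i j := fun i j => by linarith [hN.1 i j]
  have hqd : 1 / 2 ≤ q.det := (hR q (bx_subset_of_le hle hq)).1
  have hq0 : 0 < q.det := by linarith
  have hqu : IsUnit q.det := hq0.ne'.isUnit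
  have hqi : q * q⁻¹ = 1 := Matrix.mul_nonsing_inv q hqu
  set T := eqv q q⁻¹ 1 1 hqi (one_mul 1) with hTdef
  have hTf : (T : Mt n → Mt n) = fun g => q * g := by
    funext g
    rw [hTdef, eqv_apply, mul_one]
  have hT : (haar n).map T = haar n := by rw [hTf]; exact haar_mul_left hq0
  rw [← hTf]
  refine tv_of_box' hR T hT (e := (n + 1) * 2 ^ (-w)) (by positivity) ?_ ?_ ?_ hA
  · have : (0:ℝ) < 2 ^ (-w) := by positivity
    nlinarith
  · intro g hg i j
    rw [hTf]
    have h1 : q * g - 1 = (g - 1) + (q - 1) + (q - 1) * (g - 1) := by noncomm_ring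
    show |(q * g - 1) i j| ≤ _
    rw [h1, Matrix.add_apply, Matrix.add_apply, entry_mul]
    have h2 : |∑ k, (q - 1) i k * (g - 1) k j| ≤ n * (2 ^ (-w) * 2 ^ (-(R i j))) := by
      refine (Finset.abs_sum_le_sum_abs _ _).trans ?_
      calc ∑ k, |(q - 1) i k * (g - 1) k j| ≤ ∑ _k : Fin n, 2 ^ (-w) * (2:ℝ) ^ (-(R i j)) := by
            refine Finset.sum_le_sum fun k _ => ?_
            rw [abs_mul]
            calc |(q - 1) i k| * |(g - 1) k j| ≤ (2:ℝ) ^ (-(R' i k)) * (2:ℝ) ^ (-(R k j)) := by
                  gcongr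
                  · exact hq i k
                  · exact hg k j
              _ = (2:ℝ) ^ (-(R' i k) + -(R k j)) := by rw [Real.rpow_add (by norm_num)]
              _ ≤ (2:ℝ) ^ (-w + -(R i j)) := by
                  refine Real.rpow_le_rpow_of_exponent_le (by norm_num) ?_
                  linarith [(hN.2 i k j).1]
              _ = 2 ^ (-w) * (2:ℝ) ^ (-(R i j)) := by rw [Real.rpow_add (by norm_num)]
        _ = n * (2 ^ (-w) * 2 ^ (-(R i j))) := by simp
    have h3 : |(q - 1) i j| ≤ 2 ^ (-w) * 2 ^ (-(R i j)) := by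
      refine (hq i j).trans ?_
      rw [← Real.rpow_add (by norm_num)]
      refine Real.rpow_le_rpow_of_exponent_le (by norm_num) ?_
      linarith [hN.1 i j]
    have h4 : |(g - 1) i j| ≤ 2 ^ (-(R i j)) := hg i j
    calc |(g - 1) i j + (q - 1) i j + ∑ k, (q - 1) i k * (g - 1) k j|
        ≤ |(g - 1) i j| + |(q - 1) i j| + |∑ k, (q - 1) i k * (g - 1) k j| := abs_add_three _ _ _
      _ ≤ 2 ^ (-(R i j)) + 2 ^ (-w) * 2 ^ (-(R i j)) + n * (2 ^ (-w) * 2 ^ (-(R i j))) := by
          linarith
      _ = (1 + (n + 1) * 2 ^ (-w)) * 2 ^ (-(R i j)) := by ring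
  · intro g hg
    rw [hTf]
    show 1 / 4 ≤ (q * g).det
    rw [Matrix.det_mul]
    have := (hR g hg).1
    nlinarith

/-- **(L1), right**: a negligible factor is absorbed. -/
theorem L1_right {w : ℝ} (hw : 0 ≤ w) {R R' : Fin n → Fin n → ℝ} (hR : Adm R) (hN : Neg w R' R)
    {q : Mt n} (hq : q ∈ bx R') {A : Set (Mt n)} (hA : MeasurableSet A) :
    |((un R).map (fun g => g * q)).real A - (un R).real A| ≤ CN n * 2 ^ (-w) := by
  have hle : ∀ i j, R i j ≤ R' i j := fun i j => by linarith [hN.1 i j]
  have hqd : 1 / 2 ≤ q.det := (hR q (bx_subset_of_le hle hq)).1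
  have hq0 : 0 < q.det := by linarith
  have hqu : IsUnit q.det := hq0.ne'.isUnit
  have hqi : q * q⁻¹ = 1 := Matrix.mul_nonsing_inv q hqu
  set T := eqv 1 1 q q⁻¹ (one_mul 1) hqi with hTdef
  have hTf : (T : Mt n → Mt n) = fun g => g * q := by
    funext g
    rw [hTdef, eqv_apply, one_mul]
  have hT : (haar n).map T = haar n := by rw [hTf]; exact haar_mul_right hq0
  rw [← hTf]
  refine tv_of_box' hR T hT (e := (n + 1) * 2 ^ (-w)) (by positivity) ?_ ?_ ?_ hA
  · have : (0:ℝ) < 2 ^ (-w) := by positivity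
    nlinarith
  · intro g hg i j
    rw [hTf]
    have h1 : g * q - 1 = (g - 1) + (q - 1) + (g - 1) * (q - 1) := by noncomm_ring
    show |(g * q - 1) i j| ≤ _
    rw [h1, Matrix.add_apply, Matrix.add_apply, entry_mul]
    have h2 : |∑ k, (g - 1) i k * (q - 1) k j| ≤ n * (2 ^ (-w) * 2 ^ (-(R i j))) := by
      refine (Finset.abs_sum_le_sum_abs _ _).trans ?_
      calc ∑ k, |(g - 1) i k * (q - 1) k j| ≤ ∑ _k : Fin n, 2 ^ (-w) * (2:ℝ) ^ (-(R i j)) := by
            refine Finset.sum_le_sum fun k _ => ?_
            rw [abs_mul]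
            calc |(g - 1) i k| * |(q - 1) k j| ≤ (2:ℝ) ^ (-(R i k)) * (2:ℝ) ^ (-(R' k j)) := by
                  gcongr
                  · exact hg i k
                  · exact hq k j
              _ = (2:ℝ) ^ (-(R i k) + -(R' k j)) := by rw [Real.rpow_add (by norm_num)]
              _ ≤ (2:ℝ) ^ (-w + -(R i j)) := by
                  refine Real.rpow_le_rpow_of_exponent_le (by norm_num) ?_
                  linarith [(hN.2 i k j).2]
              _ = 2 ^ (-w) * (2:ℝ) ^ (-(R i j)) := by rw [Real.rpow_add (by norm_num)]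
        _ = n * (2 ^ (-w) * 2 ^ (-(R i j))) := by simp
    have h3 : |(q - 1) i j| ≤ 2 ^ (-w) * 2 ^ (-(R i j)) := by
      refine (hq i j).trans ?_
      rw [← Real.rpow_add (by norm_num)]
      refine Real.rpow_le_rpow_of_exponent_le (by norm_num) ?_
      linarith [hN.1 i j]
    have h4 : |(g - 1) i j| ≤ 2 ^ (-(R i j)) := hg i j
    calc |(g - 1) i j + (q - 1) i j + ∑ k, (g - 1) i k * (q - 1) k j|
        ≤ |(g - 1) i j| + |(q - 1) i j| + |∑ k, (g - 1) i k * (q - 1) k j| := abs_add_three _ _ _
      _ ≤ 2 ^ (-(R i j)) + 2 ^ (-w) * 2 ^ (-(R i j)) + n * (2 ^ (-w) * 2 ^ (-(R i j))) := by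
          linarith
      _ = (1 + (n + 1) * 2 ^ (-w)) * 2 ^ (-(R i j)) := by ring
  · intro g hg
    rw [hTf]
    show 1 / 4 ≤ (g * q).det
    rw [Matrix.det_mul]
    have := (hR g hg).1
    nlinarith

theorem trans_mul_neg {i j : Fin n} (hij : i ≠ j) (t : ℝ) :
    Matrix.transvection i j t * Matrix.transvection i j (-t) = 1 := by
  rw [Matrix.transvection_mul_transvection_same i j hij, add_neg_cancel, Matrix.transvection_zero]

theorem trans_neg_mul {i j : Fin n} (hij : i ≠ j) (t : ℝ) :
    Matrix.transvection i j (-t) * Matrix.transvection i j t = 1 := by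
  rw [Matrix.transvection_mul_transvection_same i j hij, neg_add_cancel, Matrix.transvection_zero]

theorem conj_entry {i j : Fin n} (hij : i ≠ j) (t : ℝ) (m : Mt n) (k l : Fin n) :
    (Matrix.transvection i j (-t) * m * Matrix.transvection i j t) k l
      = m k l + (if l = j then t * m k i else 0) - (if k = i then t * m j l else 0)
        - (if k = i then (if l = j then t ^ 2 * m j i else 0) else 0) := by
  by_cases hl : l = j
  · subst hl
    rw [Matrix.mul_transvection_apply_same]
    by_cases hk : k = i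
    · subst hk
      rw [Matrix.transvection_mul_apply_same, Matrix.transvection_mul_apply_same]
      simp
      ring
    · rw [Matrix.transvection_mul_apply_of_ne _ _ _ _ hk,
        Matrix.transvection_mul_apply_of_ne _ _ _ _ hk]
      simp [hk]
  · rw [Matrix.mul_transvection_apply_of_ne _ _ _ _ hl]
    by_cases hk : k = i
    · subst hk
      rw [Matrix.transvection_mul_apply_same]
      simp [hl]
      ring
    · rw [Matrix.transvection_mul_apply_of_ne _ _ _ _ hk]
      simp [hk, hl]

/-- **(L2)**: conjugation by an element of a clean root group is absorbed. -/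
theorem L2 {i j : Fin n} (hij : i ≠ j) {r w t : ℝ} {R : Fin n → Fin n → ℝ} (hR : Adm R)
    (hC : Clean i j r w R) (ht : |t| ≤ 2 ^ (-r)) {A : Set (Mt n)} (hA : MeasurableSet A) :
    |((un R).map (fun g => Matrix.transvection i j (-t) * g * Matrix.transvection i j t)).real A
      - (un R).real A| ≤ CN n * 2 ^ (-w) := by
  set T := eqv (Matrix.transvection i j (-t)) (Matrix.transvection i j t)
    (Matrix.transvection i j t) (Matrix.transvection i j (-t))
    (trans_neg_mul hij t) (trans_mul_neg hij t) with hTdef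
  have hTf : (T : Mt n → Mt n)
      = fun g => Matrix.transvection i j (-t) * g * Matrix.transvection i j t := rfl
  have hd1 : ∀ s : ℝ, (Matrix.transvection i j s).det = 1 := fun s =>
    Matrix.det_transvection_of_ne i j hij s
  have hT : (haar n).map T = haar n := by
    rw [hTf]
    exact haar_lr (by rw [hd1]; norm_num) (by rw [hd1]; norm_num)
  rw [← hTf]
  refine tv_of_box' hR T hT (e := 3 * 2 ^ (-w)) (by positivity) ?_ ?_ ?_ hA
  · have : (0:ℝ) < 2 ^ (-w) := by positivity
    have h2 : (0:ℝ) ≤ n := Nat.cast_nonneg n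
    nlinarith
  · intro g hg k l
    rw [hTf]
    have h1 : Matrix.transvection i j (-t) * g * Matrix.transvection i j t - 1
        = Matrix.transvection i j (-t) * (g - 1) * Matrix.transvection i j t := by
      rw [mul_sub, sub_mul, mul_one, trans_neg_mul hij]
    show |(Matrix.transvection i j (-t) * g * Matrix.transvection i j t - 1) k l| ≤ _
    rw [h1, conj_entry hij]
    set m := g - 1 with hm
    have hmk : ∀ a b, |m a b| ≤ 2 ^ (-(R a b)) := hg
    have key : ∀ (a b x : ℝ), |x| ≤ 2 ^ (-b) → a ≤ b → |x| ≤ 2 ^ (-a) := by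
      intro a b x h1 h2
      refine h1.trans (Real.rpow_le_rpow_of_exponent_le (by norm_num) (by linarith))
    have e1 : |(if l = j then t * m k i else 0)| ≤ 2 ^ (-w) * 2 ^ (-(R k l)) := by
      split_ifs with hl
      · subst hl
        rw [abs_mul, ← Real.rpow_add (by norm_num)]
        calc |t| * |m k i| ≤ 2 ^ (-r) * 2 ^ (-(R k i)) := by
              gcongr
              exact hmk k i
          _ = (2:ℝ) ^ (-r + -(R k i)) := by rw [Real.rpow_add (by norm_num)]
          _ ≤ (2:ℝ) ^ (-w + -(R k l)) := by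
              refine Real.rpow_le_rpow_of_exponent_le (by norm_num) ?_
              linarith [hC.1 k]
      · rw [abs_zero]; positivity
    have e2 : |(if k = i then t * m j l else 0)| ≤ 2 ^ (-w) * 2 ^ (-(R k l)) := by
      split_ifs with hk
      · subst hk
        rw [abs_mul, ← Real.rpow_add (by norm_num)]
        calc |t| * |m j l| ≤ 2 ^ (-r) * 2 ^ (-(R j l)) := by
              gcongr
              exact hmk j l
          _ = (2:ℝ) ^ (-r + -(R j l)) := by rw [Real.rpow_add (by norm_num)]
          _ ≤ (2:ℝ) ^ (-w + -(R k l)) := by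
              refine Real.rpow_le_rpow_of_exponent_le (by norm_num) ?_
              linarith [hC.2.1 l]
      · rw [abs_zero]; positivity
    have e3 : |(if k = i then (if l = j then t ^ 2 * m j i else 0) else 0)|
        ≤ 2 ^ (-w) * 2 ^ (-(R k l)) := by
      split_ifs with hk hl
      · subst hk hl
        rw [abs_mul, abs_pow, ← Real.rpow_add (by norm_num)]
        calc |t| ^ 2 * |m l k| ≤ (2 ^ (-r)) ^ 2 * 2 ^ (-(R l k)) := by
              gcongr
              exact hmk l k
          _ = (2:ℝ) ^ (-r + -r + -(R l k)) := by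
              rw [Real.rpow_add (by norm_num), Real.rpow_add (by norm_num), sq]
          _ ≤ (2:ℝ) ^ (-w + -(R k l)) := by
              refine Real.rpow_le_rpow_of_exponent_le (by norm_num) ?_
              linarith [hC.2.2]
      · rw [abs_zero]; positivity
      · rw [abs_zero]; positivity
    have e0 := hmk k l
    calc |m k l + (if l = j then t * m k i else 0) - (if k = i then t * m j l else 0)
          - (if k = i then (if l = j then t ^ 2 * m j i else 0) else 0)|
        ≤ |m k l| + |(if l = j then t * m k i else 0)| + |(if k = i then t * m j l else 0)|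
          + |(if k = i then (if l = j then t ^ 2 * m j i else 0) else 0)| := by
          refine (abs_sub _ _).trans ?_
          gcongr
          refine (abs_sub _ _).trans ?_
          gcongr
          exact abs_add_le _ _
      _ ≤ (1 + 3 * 2 ^ (-w)) * 2 ^ (-(R k l)) := by linarith
  · intro g hg
    rw [hTf]
    show 1 / 4 ≤ (Matrix.transvection i j (-t) * g * Matrix.transvection i j t).det
    rw [Matrix.det_mul, Matrix.det_mul, hd1, hd1, one_mul, mul_one]
    linarith [(hR g hg).1]

end Crest.Agent.R014.Nz_323
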