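/-
helper602.  Abstract half of (4.2), CLAIM F, of helper548's part D text (post #3844, row 14):
path independence of the digit entropies around the Heisenberg triple, by the potential of the
order `s, t, r`, from local squares whose error decays in `m = a + b - c`.
Indices: `a, b` depths of the `s`- and `t`-digits, `g = c + w0` shifted depth of the `r`-digits,
so `m - w0 = a + b - g ≥ 0`.
-/
import Mathlib.Algebra.Order.BigOperators.Group.Finset
import Mathlib.Algebra.BigOperators.Intervals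
import Mathlib.Data.Real.Basic
import Mathlib.Tactic

namespace Crest.Agent.R014.Path_602

open Finset

variable {fs ft fr : ℕ → ℕ → ℕ → ℝ} {e : ℕ → ℝ} {E : ℝ}

/-- The potential of the order `s`, `t`, `r`. -/
noncomputable def pot (fs ft fr : ℕ → ℕ → ℕ → ℝ) (a b g : ℕ) : ℝ :=
  (∑ i ∈ range a, fs i 0 0) + (∑ i ∈ range b, ft a i 0) + ∑ i ∈ range g, fr a b i

/-- squares `(st)`, `(sr)`, `(tr)` in the box `a, b < I` (all closed corners `≤ I`). -/
structure Squares (fs ft fr : ℕ → ℕ → ℕ → ℝ) (e : ℕ → ℝ) (I : ℕ) : Prop where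
  st : ∀ a b g, a < I → b < I → g ≤ a + b →
    |fs a b g + ft (a + 1) b g - ft a b g - fs a (b + 1) g| ≤ e (a + b - g)
  sr : ∀ a b g, a < I → b ≤ I → g < a + b →
    |fs a b g + fr (a + 1) b g - fr a b g - fs a b (g + 1)| ≤ e (a + b - g - 1)
  tr : ∀ a b g, a ≤ I → b < I → g < a + b →
    |ft a b g + fr a (b + 1) g - fr a b g - ft a b (g + 1)| ≤ e (a + b - g - 1)

theorem pot_r (a b g : ℕ) : pot fs ft fr a b (g + 1) - pot fs ft fr a b g = fr a b g := by
  simp only [pot, sum_range_succ]; ring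

/-- tail sums over `g' < g` of `e (N - g' - 1)` are bounded by the full sum. -/
theorem tail_le (he : ∀ n, 0 ≤ e n) (hE : ∀ n, ∑ i ∈ range n, e i ≤ E) {N g : ℕ} (hg : g ≤ N) :
    ∑ i ∈ range g, e (N - i - 1) ≤ E := by
  have h1 : ∑ i ∈ range g, e (N - i - 1) ≤ ∑ i ∈ range N, e (N - i - 1) :=
    sum_le_sum_of_subset_of_nonneg (range_mono hg) (fun _ _ _ => he _)
  have h2 : ∑ i ∈ range N, e (N - i - 1) = ∑ i ∈ range N, e i := by
    rw [← sum_range_reflect]
    refine sum_congr rfl fun i hi => ?_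
    rw [mem_range] at hi
    congr 1; omega
  exact h1.trans (h2 ▸ hE N)

/-- head sums over `b' < b` of `e (a + b')` are bounded by the full sum. -/
theorem head_le (he : ∀ n, 0 ≤ e n) (hE : ∀ n, ∑ i ∈ range n, e i ≤ E) (a b : ℕ) :
    ∑ i ∈ range b, e (a + i) ≤ E := by
  have h1 : ∑ i ∈ range (a + b), e i = ∑ i ∈ range a, e i + ∑ i ∈ range b, e (a + i) :=
    sum_range_add e a b
  have h2 : 0 ≤ ∑ i ∈ range a, e i := sum_nonneg fun _ _ => he _
  linarith [hE (a + b)]

theorem telescope_abs (u v : ℕ → ℝ) (d : ℕ → ℝ) (n : ℕ)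
    (h : ∀ i < n, |u i - (v (i + 1) - v i)| ≤ d i) :
    |∑ i ∈ range n, u i - (v n - v 0)| ≤ ∑ i ∈ range n, d i := by
  have : ∑ i ∈ range n, u i - (v n - v 0) = ∑ i ∈ range n, (u i - (v (i + 1) - v i)) := by
    rw [sum_sub_distrib, sum_range_sub]
  rw [this]
  exact (abs_sum_le_sum_abs _ _).trans (sum_le_sum fun i hi => h i (mem_range.1 hi))

theorem pot_t {I : ℕ} (hS : Squares fs ft fr e I) (he : ∀ n, 0 ≤ e n)
    (hE : ∀ n, ∑ i ∈ range n, e i ≤ E) {a b g : ℕ} (ha : a ≤ I) (hb : b < I) (hg : g ≤ a + b) :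
    |pot fs ft fr a (b + 1) g - pot fs ft fr a b g - ft a b g| ≤ E := by
  have key := telescope_abs (fun i => fr a (b + 1) i - fr a b i) (fun i => ft a b i)
    (fun i => e (a + b - i - 1)) g (fun i hi => by
      have := hS.tr a b i ha hb (by omega)
      have h2 : fr a (b + 1) i - fr a b i - (ft a b (i + 1) - ft a b i)
          = ft a b i + fr a (b + 1) i - fr a b i - ft a b (i + 1) := by ring
      rw [h2]; exact this)
  have hp : pot fs ft fr a (b + 1) g - pot fs ft fr a b g - ft a b g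
      = ∑ i ∈ range g, (fr a (b + 1) i - fr a b i) - (ft a b g - ft a b 0) := by
    simp only [pot, sum_range_succ, sum_sub_distrib]; ring
  rw [hp]
  exact key.trans (tail_le he hE hg)

theorem pot_s {I : ℕ} (hS : Squares fs ft fr e I) (he : ∀ n, 0 ≤ e n)
    (hE : ∀ n, ∑ i ∈ range n, e i ≤ E) {a b g : ℕ} (ha : a < I) (hb : b ≤ I) (hg : g ≤ a + b) :
    |pot fs ft fr (a + 1) b g - pot fs ft fr a b g - fs a b g| ≤ 2 * E := by
  have key1 := telescope_abs (fun i => ft (a + 1) i 0 - ft a i 0) (fun i => fs a i 0)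
    (fun i => e (a + i)) b (fun i hi => by
      have := hS.st a i 0 ha (by omega) (by omega)
      have h2 : ft (a + 1) i 0 - ft a i 0 - (fs a (i + 1) 0 - fs a i 0)
          = fs a i 0 + ft (a + 1) i 0 - ft a i 0 - fs a (i + 1) 0 := by ring
      rw [h2]; simpa using this)
  have key2 := telescope_abs (fun i => fr (a + 1) b i - fr a b i) (fun i => fs a b i)
    (fun i => e (a + b - i - 1)) g (fun i hi => by
      have := hS.sr a b i ha hb (by omega)
      have h2 : fr (a + 1) b i - fr a b i - (fs a b (i + 1) - fs a b i)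
          = fs a b i + fr (a + 1) b i - fr a b i - fs a b (i + 1) := by ring
      rw [h2]; exact this)
  have hp : pot fs ft fr (a + 1) b g - pot fs ft fr a b g - fs a b g
      = (∑ i ∈ range b, (ft (a + 1) i 0 - ft a i 0) - (fs a b 0 - fs a 0 0))
        + (∑ i ∈ range g, (fr (a + 1) b i - fr a b i) - (fs a b g - fs a b 0)) := by
    simp only [pot, sum_range_succ, sum_sub_distrib]; ring
  rw [hp]
  refine (abs_add_le _ _).trans ?_
  have := key1.trans (head_le he hE a b)
  have := key2.trans (tail_le he hE hg)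
  linarith

/-- total along the diagonal path `(i,i,2i) → (i+1,i,2i) → (i+1,i+1,2i) → → (i+1,i+1,2i+2)`. -/
theorem diag {I : ℕ} (hS : Squares fs ft fr e I) (he : ∀ n, 0 ≤ e n)
    (hE : ∀ n, ∑ i ∈ range n, e i ≤ E) (n : ℕ) (hn : n ≤ I) :
    |∑ i ∈ range n, (fs i i (2 * i) + ft (i + 1) i (2 * i) + fr (i + 1) (i + 1) (2 * i)
        + fr (i + 1) (i + 1) (2 * i + 1)) - pot fs ft fr n n (2 * n)| ≤ n * (3 * E) := by
  induction n with
  | zero => simp [pot]
  | succ n ih =>
    have ih := ih (by omega)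
    have h1 := pot_s hS he hE (a := n) (b := n) (g := 2 * n) (by omega) (by omega) (by omega)
    have h2 := pot_t hS he hE (a := n + 1) (b := n) (g := 2 * n) (by omega) (by omega) (by omega)
    have h3 := pot_r (fs := fs) (ft := ft) (fr := fr) (n + 1) (n + 1) (2 * n)
    have h4 := pot_r (fs := fs) (ft := ft) (fr := fr) (n + 1) (n + 1) (2 * n + 1)
    have h5 : 2 * (n + 1) = 2 * n + 1 + 1 := by ring
    rw [sum_range_succ, h5]
    rw [abs_le] at ih h1 h2 ⊢
    push_cast
    constructor <;> nlinarith [ih.1, ih.2, h1.1, h1.2, h2.1, h2.2]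

/-- **CLAIM F, abstract half.**  The jl-digits read at the diagonal (`m - w0 ≤ 2`) cost on average at
most the macroscopic (fine) entropy. -/
theorem diag_r_le {I G : ℕ} {cs ct cr η l : ℝ} (hS : Squares fs ft fr e I) (he : ∀ n, 0 ≤ e n)
    (hE : ∀ n, ∑ i ∈ range n, e i ≤ E)
    (hs : ∀ a b g, a < I → b ≤ I → g ≤ a + b → |fs a b g - cs| ≤ η)
    (ht : ∀ a b g, a ≤ I → b < I → g ≤ a + b → |ft a b g - ct| ≤ η)
    (hr : ∀ g, g + G ≤ 2 * I → fr I I g ≤ cr + η)
    (hl : ∀ g, g < 2 * I → fr I I g ≤ l) (hcr : 0 ≤ cr + η) (hl0 : 0 ≤ l) :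
    ∑ i ∈ range I, (fr (i + 1) (i + 1) (2 * i) + fr (i + 1) (i + 1) (2 * i + 1))
      ≤ 2 * I * (cr + 3 * η + 3 / 2 * E) + G * l := by
  have hd := (abs_le.1 (diag hS he hE I le_rfl)).2
  -- path 2
  have p1 : ∑ i ∈ range I, fs i 0 0 ≤ I * (cs + η) := by
    have := sum_le_sum (s := range I) (f := fun i => fs i 0 0) (g := fun _ => cs + η)
      (fun i hi => by
        have := (abs_le.1 (hs i 0 0 (mem_range.1 hi) (by omega) (by omega))).2
        linarith)
    rwa [sum_const, card_range, nsmul_eq_mul] at this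
  have p2 : ∑ i ∈ range I, ft I i 0 ≤ I * (ct + η) := by
    have := sum_le_sum (s := range I) (f := fun i => ft I i 0) (g := fun _ => ct + η)
      (fun i hi => by
        have := (abs_le.1 (ht I i 0 le_rfl (mem_range.1 hi) (by omega))).2
        linarith)
    rwa [sum_const, card_range, nsmul_eq_mul] at this
  have p3 : ∑ i ∈ range (2 * I), fr I I i ≤ 2 * I * (cr + η) + G * l := by
    have h1 : ∀ i ∈ range (2 * I), fr I I i ≤ (cr + η) + if 2 * I < i + G then l else 0 := by
      intro i hi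
      rw [mem_range] at hi
      split_ifs with h
      · linarith [hl i hi]
      · linarith [hr i (by omega)]
    refine (sum_le_sum h1).trans ?_
    rw [sum_add_distrib, sum_const, card_range, nsmul_eq_mul, ← sum_filter, sum_const, nsmul_eq_mul]
    have hc : ((range (2 * I)).filter (fun i => 2 * I < i + G)).card ≤ G := by
      have hsub : (range (2 * I)).filter (fun i => 2 * I < i + G)
          ⊆ Finset.Ico (2 * I - G) (2 * I) := by
        intro i hi
        rw [mem_filter, mem_range] at hi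
        rw [mem_Ico]; omega
      refine (card_le_card hsub).trans ?_
      rw [Nat.card_Ico]; omega
    have hc' : (((range (2 * I)).filter (fun i => 2 * I < i + G)).card : ℝ) ≤ G := by
      exact_mod_cast hc
    push_cast
    nlinarith
  have q1 : (I : ℝ) * (cs - η) ≤ ∑ i ∈ range I, fs i i (2 * i) := by
    have := sum_le_sum (s := range I) (g := fun i => fs i i (2 * i)) (f := fun _ => cs - η)
      (fun i hi => by
        have := (abs_le.1 (hs i i (2 * i) (mem_range.1 hi) (mem_range.1 hi).le (by omega))).1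
        linarith)
    rwa [sum_const, card_range, nsmul_eq_mul] at this
  have q2 : (I : ℝ) * (ct - η) ≤ ∑ i ∈ range I, ft (i + 1) i (2 * i) := by
    have := sum_le_sum (s := range I) (g := fun i => ft (i + 1) i (2 * i)) (f := fun _ => ct - η)
      (fun i hi => by
        have := (abs_le.1 (ht (i + 1) i (2 * i) (mem_range.1 hi) (mem_range.1 hi) (by omega))).1
        linarith)
    rwa [sum_const, card_range, nsmul_eq_mul] at this
  have hsplit : ∑ i ∈ range I, (fs i i (2 * i) + ft (i + 1) i (2 * i) + fr (i + 1) (i + 1) (2 * i)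
        + fr (i + 1) (i + 1) (2 * i + 1))
      = ∑ i ∈ range I, fs i i (2 * i) + ∑ i ∈ range I, ft (i + 1) i (2 * i)
        + ∑ i ∈ range I, (fr (i + 1) (i + 1) (2 * i) + fr (i + 1) (i + 1) (2 * i + 1)) := by
    simp only [sum_add_distrib]; ring
  rw [hsplit] at hd
  have hpot : pot fs ft fr I I (2 * I) = (∑ i ∈ range I, fs i 0 0) + (∑ i ∈ range I, ft I i 0)
      + ∑ i ∈ range (2 * I), fr I I i := rfl
  rw [hpot] at hd
  nlinarith [hd, p1, p2, p3, q1, q2]

/-- consequence: a lower bound `x` for all the diagonal digits is `≤ c_r + small`. -/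
theorem le_of_diag {I G : ℕ} {cs ct cr η l x : ℝ} (hI : 0 < I) (hS : Squares fs ft fr e I)
    (he : ∀ n, 0 ≤ e n) (hE : ∀ n, ∑ i ∈ range n, e i ≤ E)
    (hs : ∀ a b g, a < I → b ≤ I → g ≤ a + b → |fs a b g - cs| ≤ η)
    (ht : ∀ a b g, a ≤ I → b < I → g ≤ a + b → |ft a b g - ct| ≤ η)
    (hr : ∀ g, g + G ≤ 2 * I → fr I I g ≤ cr + η)
    (hl : ∀ g, g < 2 * I → fr I I g ≤ l) (hcr : 0 ≤ cr + η) (hl0 : 0 ≤ l)
    (hx : ∀ i < I, x ≤ fr (i + 1) (i + 1) (2 * i) ∧ x ≤ fr (i + 1) (i + 1) (2 * i + 1)) :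
    x ≤ cr + 3 * η + 3 / 2 * E + G * l / (2 * I) := by
  have h := diag_r_le hS he hE hs ht hr hl hcr hl0
  have h2 : (I : ℝ) * (2 * x)
      ≤ ∑ i ∈ range I, (fr (i + 1) (i + 1) (2 * i) + fr (i + 1) (i + 1) (2 * i + 1)) := by
    have := sum_le_sum (s := range I) (f := fun _ => 2 * x)
      (g := fun i => fr (i + 1) (i + 1) (2 * i) + fr (i + 1) (i + 1) (2 * i + 1))
      (fun i hi => by linarith [(hx i (mem_range.1 hi)).1, (hx i (mem_range.1 hi)).2])
    rwa [sum_const, card_range, nsmul_eq_mul] at this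
  have hI' : (0 : ℝ) < I := by exact_mod_cast hI
  have h3 : G * l / (2 * I) * (2 * I) = G * l := by field_simp
  have h4 : x * (2 * I) ≤ (cr + 3 * η + 3 / 2 * E + G * l / (2 * I)) * (2 * I) := by
    rw [add_mul _ (G * l / (2 * I)), h3]
    nlinarith
  exact le_of_mul_le_mul_right h4 (by positivity)

end Crest.Agent.R014.Path_602
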