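import Crest.Prelude.Def_TorusPacket

/-!
Row 14, packets, part 1 (helper349): points of `ModSpace n` as unimodular lattices.

`lat x` is the ℤ-span of the rows of any representative of `x`; `x ↦ lat x` is injective, the right
action multiplies the lattice by the matrix, and `latticePoint m σ` is the normalised lattice `σ(M)`.
-/

set_option autoImplicit false
set_option linter.unusedSectionVars false

open MeasureTheory Matrix
open Crest.NumberTheoryR.Packets

namespace Crest.Agent.R014.Pk1_349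

noncomputable section

variable {n : ℕ}

/-- The ℤ-span of the rows of a square matrix. -/
def rowLat (B : Matrix (Fin n) (Fin n) ℝ) : Submodule ℤ (Fin n → ℝ) :=
  Submodule.span ℤ (Set.range (fun i => B i))

/-- Multiply a lattice coordinatewise by a real vector. -/
def scaleLat (L : Submodule ℤ (Fin n → ℝ)) (t : Fin n → ℝ) : Submodule ℤ (Fin n → ℝ) :=
  L.map (LinearMap.mulRight ℤ t)

theorem mem_scaleLat {L : Submodule ℤ (Fin n → ℝ)} {t v : Fin n → ℝ} :
    v ∈ scaleLat L t ↔ ∃ u ∈ L, u * t = v := by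
  unfold scaleLat
  rw [Submodule.mem_map]
  rfl

theorem scaleLat_scaleLat (L : Submodule ℤ (Fin n → ℝ)) (s t : Fin n → ℝ) :
    scaleLat (scaleLat L s) t = scaleLat L (s * t) := by
  ext v
  simp only [mem_scaleLat]
  constructor
  · rintro ⟨_, ⟨u, hu, rfl⟩, rfl⟩
    exact ⟨u, hu, by rw [mul_assoc]⟩
  · rintro ⟨u, hu, rfl⟩
    exact ⟨u * s, ⟨u, hu, rfl⟩, by rw [mul_assoc]⟩

theorem scaleLat_one (L : Submodule ℤ (Fin n → ℝ)) : scaleLat L 1 = L := by
  ext v
  simp only [mem_scaleLat, mul_one]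
  exact ⟨fun ⟨u, hu, h⟩ => h ▸ hu, fun h => ⟨v, h, rfl⟩⟩

theorem scaleLat_injective {L L' : Submodule ℤ (Fin n → ℝ)} {t : Fin n → ℝ} (ht : ∀ j, t j ≠ 0)
    (h : scaleLat L t = scaleLat L' t) : L = L' := by
  have hi : t * t⁻¹ = 1 := by
    funext j
    exact mul_inv_cancel₀ (ht j)
  have := congrArg (fun N => scaleLat N t⁻¹) h
  simpa only [scaleLat_scaleLat, hi, scaleLat_one] using this

theorem mem_rowLat {B : Matrix (Fin n) (Fin n) ℝ} {v : Fin n → ℝ} :
    v ∈ rowLat B ↔ ∃ c : Fin n → ℤ, (fun i => (c i : ℝ)) ᵥ* B = v := by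
  unfold rowLat
  rw [Submodule.mem_span_range_iff_exists_fun]
  refine exists_congr fun c => ?_
  have : (∑ i, c i • B i) = (fun i => (c i : ℝ)) ᵥ* B := by
    funext j
    simp only [Finset.sum_apply, Matrix.vecMul, dotProduct]
    refine Finset.sum_congr rfl fun i _ => ?_
    show c i • B i j = _
    rw [zsmul_eq_mul]
  rw [this]

theorem row_mem_rowLat (B : Matrix (Fin n) (Fin n) ℝ) (i : Fin n) : B i ∈ rowLat B :=
  Submodule.subset_span ⟨i, rfl⟩

/-- If the rows of `B` lie in the row lattice of `C` then `B = P * C` with `P` integral. -/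
theorem exists_intMatrix {B C : Matrix (Fin n) (Fin n) ℝ} (h : ∀ i, B i ∈ rowLat C) :
    ∃ P : Matrix (Fin n) (Fin n) ℤ, B = P.map (Int.castRingHom ℝ) * C := by
  choose c hc using fun i => mem_rowLat.1 (h i)
  refine ⟨Matrix.of c, ?_⟩
  funext i j
  have := congrFun (hc i) j
  rw [← this]
  simp [Matrix.mul_apply, Matrix.vecMul, dotProduct]

theorem rowLat_mul_le (P : Matrix (Fin n) (Fin n) ℤ) (C : Matrix (Fin n) (Fin n) ℝ) :
    rowLat (P.map (Int.castRingHom ℝ) * C) ≤ rowLat C := by
  unfold rowLat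
  rw [Submodule.span_le]
  rintro _ ⟨i, rfl⟩
  refine mem_rowLat.2 ⟨P i, ?_⟩
  funext j
  simp [Matrix.mul_apply, Matrix.vecMul, dotProduct]

theorem det_map_cast (P : Matrix (Fin n) (Fin n) ℤ) :
    (P.map (Int.castRingHom ℝ)).det = (P.det : ℝ) := by
  have := (RingHom.map_det (Int.castRingHom ℝ) P)
  simpa using this.symm

/-- Two matrices with the same row lattice have the same `|det|`. -/
theorem abs_det_eq_of_rowLat_eq {B C : Matrix (Fin n) (Fin n) ℝ} (h : rowLat B = rowLat C) :
    |B.det| = |C.det| := by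
  obtain ⟨P, hP⟩ := exists_intMatrix (B := B) (C := C) (fun i => h ▸ row_mem_rowLat B i)
  obtain ⟨Q, hQ⟩ := exists_intMatrix (B := C) (C := B) (fun i => h ▸ row_mem_rowLat C i)
  have h1 : B.det = (P.det : ℝ) * C.det := by
    conv_lhs => rw [hP]
    rw [Matrix.det_mul, det_map_cast]
  have h2 : C.det = (Q.det : ℝ) * B.det := by
    conv_lhs => rw [hQ]
    rw [Matrix.det_mul, det_map_cast]
  by_cases hB : B.det = 0
  · rw [h2, hB]; simp
  · have h3 : ((P.det * Q.det : ℤ) : ℝ) = 1 := by
      have h4 : (1 : ℝ) * B.det = ((P.det * Q.det : ℤ) : ℝ) * B.det := by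
        rw [one_mul, Int.cast_mul, mul_assoc, ← h2]
        exact h1
      exact (mul_right_cancel₀ hB h4).symm
    have h4 : P.det * Q.det = 1 := by exact_mod_cast h3
    have h5 : |P.det| = 1 := Int.isUnit_iff_abs_eq.1 (IsUnit.of_mul_eq_one _ h4)
    rw [h1, abs_mul]
    have : |(P.det : ℝ)| = 1 := by exact_mod_cast h5
    rw [this, one_mul]

/-- A matrix of determinant one as an element of `SL_n(ℝ)`. -/
def toSL (B : Matrix (Fin n) (Fin n) ℝ) (h : B.det = 1) : SLR n := ⟨B, h⟩

/-- The quotient map `SL_n(ℝ) → SL_n(ℤ)\SL_n(ℝ)`. -/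
def mk (h : SLR n) : ModSpace n := Quotient.mk _ h

theorem mk_surjective (x : ModSpace n) : ∃ h : SLR n, mk h = x := by
  induction x using Quotient.inductionOn with
  | h a => exact ⟨a, rfl⟩

theorem mk_eq_mk {a b : SLR n} : mk a = mk b ↔ b * a⁻¹ ∈ intPoints n := by
  unfold mk
  rw [Quotient.eq, QuotientGroup.rightRel_apply]

theorem mk_eq_mk_iff_rowLat {a b : SLR n} : mk a = mk b ↔ rowLat a.1 = rowLat b.1 := by
  rw [mk_eq_mk]
  constructor
  · rintro ⟨γ, hγ⟩
    have hb : b = Matrix.SpecialLinearGroup.map (Int.castRingHom ℝ) γ * a := by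
      rw [hγ]; simp
    have ha : a = Matrix.SpecialLinearGroup.map (Int.castRingHom ℝ) γ⁻¹ * b := by
      rw [map_inv, hγ]; simp
    apply le_antisymm
    · have : a.1 = (γ⁻¹).1.map (Int.castRingHom ℝ) * b.1 := by
        conv_lhs => rw [ha]
        rfl
      rw [this]
      exact rowLat_mul_le _ _
    · have : b.1 = γ.1.map (Int.castRingHom ℝ) * a.1 := by
        conv_lhs => rw [hb]
        rfl
      rw [this]
      exact rowLat_mul_le _ _
  · intro h
    obtain ⟨P, hP⟩ := exists_intMatrix (B := b.1) (C := a.1) (fun i => h ▸ row_mem_rowLat b.1 i)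
    have hd : P.det = 1 := by
      have h1 : b.1.det = (P.det : ℝ) * a.1.det := by
        conv_lhs => rw [hP]
        rw [Matrix.det_mul, det_map_cast]
      rw [b.2, a.2, mul_one] at h1
      exact_mod_cast h1.symm
    refine ⟨⟨P, hd⟩, ?_⟩
    rw [eq_mul_inv_iff_mul_eq]
    apply Subtype.ext
    exact hP.symm

/-- The unimodular lattice of a point of `ModSpace n`. -/
def lat (x : ModSpace n) : Submodule ℤ (Fin n → ℝ) :=
  Quotient.liftOn x (fun h : SLR n => rowLat h.1) (fun a b hab => by
    have : mk a = mk b := Quotient.sound hab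
    exact mk_eq_mk_iff_rowLat.1 this)

theorem lat_mk (h : SLR n) : lat (mk h) = rowLat h.1 := rfl

theorem lat_injective : Function.Injective (lat : ModSpace n → Submodule ℤ (Fin n → ℝ)) := by
  intro x y h
  obtain ⟨a, rfl⟩ := mk_surjective x
  obtain ⟨b, rfl⟩ := mk_surjective y
  exact mk_eq_mk_iff_rowLat.2 h

theorem act_mk (h g : SLR n) : act (mk h) g = mk (h * g) := rfl

theorem act_act (x : ModSpace n) (g h : SLR n) : act (act x g) h = act x (g * h) := by
  obtain ⟨a, rfl⟩ := mk_surjective x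
  rw [act_mk, act_mk, act_mk, mul_assoc]

theorem act_one (x : ModSpace n) : act x 1 = x := by
  obtain ⟨a, rfl⟩ := mk_surjective x
  rw [act_mk, mul_one]

theorem mem_lat_act {x : ModSpace n} {g : SLR n} {v : Fin n → ℝ} :
    v ∈ lat (act x g) ↔ ∃ u ∈ lat x, u ᵥ* g.1 = v := by
  obtain ⟨a, rfl⟩ := mk_surjective x
  rw [act_mk, lat_mk, lat_mk]
  simp only [mem_rowLat]
  constructor
  · rintro ⟨c, rfl⟩
    exact ⟨_, ⟨c, rfl⟩, by rw [Matrix.vecMul_vecMul]; rfl⟩
  · rintro ⟨_, ⟨c, rfl⟩, rfl⟩
    exact ⟨c, by rw [Matrix.vecMul_vecMul]; rfl⟩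

/-- Acting by a diagonal matrix scales the lattice. -/
theorem lat_act_diagonal {x : ModSpace n} {g : SLR n} {t : Fin n → ℝ}
    (hg : g.1 = Matrix.diagonal t) : lat (act x g) = scaleLat (lat x) t := by
  ext v
  rw [mem_lat_act, mem_scaleLat, hg]
  refine exists_congr fun u => and_congr_right fun _ => ?_
  have : u ᵥ* Matrix.diagonal t = u * t := by
    funext j
    rw [Matrix.vecMul_diagonal]
    rfl
  rw [this]

theorem rowLat_scale (B : Matrix (Fin n) (Fin n) ℝ) (t : Fin n → ℝ) :
    scaleLat (rowLat B) t = rowLat (B * Matrix.diagonal t) := by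
  ext v
  rw [mem_scaleLat]
  simp only [mem_rowLat]
  constructor
  · rintro ⟨_, ⟨c, rfl⟩, rfl⟩
    refine ⟨c, ?_⟩
    rw [← Matrix.vecMul_vecMul]
    funext j
    rw [Matrix.vecMul_diagonal]
    rfl
  · rintro ⟨c, rfl⟩
    refine ⟨_, ⟨c, rfl⟩, ?_⟩
    rw [← Matrix.vecMul_vecMul]
    funext j
    rw [Matrix.vecMul_diagonal]
    rfl

/-- Volume constraint: if `lat y` is `lat x` scaled by `t` then `|∏ t_j| = 1`. -/
theorem abs_prod_eq_one {x y : ModSpace n} {t : Fin n → ℝ} (h : lat y = scaleLat (lat x) t) :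
    |∏ j, t j| = 1 := by
  obtain ⟨a, rfl⟩ := mk_surjective x
  obtain ⟨b, rfl⟩ := mk_surjective y
  rw [lat_mk, lat_mk, rowLat_scale] at h
  have := abs_det_eq_of_rowLat_eq h
  rw [b.2, Matrix.det_mul, a.2, Matrix.det_diagonal, one_mul, abs_one] at this
  exact this.symm

/-- Negating the first row when the determinant is negative does not change the row lattice. -/
theorem rowLat_normalizeDet (B : Matrix (Fin n) (Fin n) ℝ) :
    rowLat (normalizeDet B) = rowLat ((|B.det| ^ (-(1 : ℝ) / n)) • B) := by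
  set c : ℝ := |B.det| ^ (-(1 : ℝ) / n) with hc
  apply le_antisymm
  · unfold rowLat
    rw [Submodule.span_le]
    rintro _ ⟨i, rfl⟩
    have hrow : (fun i => (normalizeDet B) i) i =
        if B.det < 0 ∧ i.val = 0 then -((c • B) i) else (c • B) i := by
      funext j
      simp only [normalizeDet]
      split_ifs <;> rfl
    rw [hrow]
    split_ifs
    · exact Submodule.neg_mem _ (Submodule.subset_span ⟨i, rfl⟩)
    · exact Submodule.subset_span ⟨i, rfl⟩
  · unfold rowLat
    rw [Submodule.span_le]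
    rintro _ ⟨i, rfl⟩
    have hrow : (fun i => (c • B) i) i =
        if B.det < 0 ∧ i.val = 0 then -((normalizeDet B) i) else (normalizeDet B) i := by
      funext j
      simp only [normalizeDet]
      split_ifs with h
      · show (c • B) i j = -(-(c • B) i j)
        rw [neg_neg]
      · rfl
    rw [hrow]
    split_ifs
    · exact Submodule.neg_mem _ (Submodule.subset_span ⟨i, rfl⟩)
    · exact Submodule.subset_span ⟨i, rfl⟩

theorem det_normalizeDet {B : Matrix (Fin (n + 1)) (Fin (n + 1)) ℝ} (hB : B.det ≠ 0) :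
    (normalizeDet B).det = 1 := by
  have hpos : 0 < |B.det| := abs_pos.2 hB
  have hc : (|B.det| ^ (-(1 : ℝ) / ((n + 1 : ℕ) : ℝ))) ^ (n + 1) * |B.det| = 1 := by
    rw [← Real.rpow_natCast, ← Real.rpow_mul hpos.le]
    have : (-(1 : ℝ) / ((n + 1 : ℕ) : ℝ)) * ((n + 1 : ℕ) : ℝ) = -1 := by
      field_simp
    rw [this, Real.rpow_neg hpos.le, Real.rpow_one, inv_mul_cancel₀ hpos.ne']
  by_cases hneg : B.det < 0
  · have h1 : normalizeDet B = Matrix.updateRow
        ((|B.det| ^ (-(1 : ℝ) / ((n + 1 : ℕ) : ℝ))) • B) 0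
        ((-1 : ℝ) • (((|B.det| ^ (-(1 : ℝ) / ((n + 1 : ℕ) : ℝ))) • B) 0)) := by
      funext i j
      by_cases hi : i = 0
      · subst hi
        simp [normalizeDet, hneg]
      · have hi' : i.val ≠ 0 := fun h => hi (Fin.ext h)
        rw [Matrix.updateRow_ne hi]
        simp [normalizeDet, hi]
    rw [h1, Matrix.det_updateRow_smul, Matrix.updateRow_eq_self, Matrix.det_smul,
      Fintype.card_fin]
    have : B.det = -|B.det| := by rw [abs_of_neg hneg]; ring
    rw [this, abs_neg, abs_abs]
    linear_combination hc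
  · have h1 : normalizeDet B = (|B.det| ^ (-(1 : ℝ) / ((n + 1 : ℕ) : ℝ))) • B := by
      funext i j
      simp [normalizeDet, hneg]
    rw [h1, Matrix.det_smul, Fintype.card_fin]
    have : B.det = |B.det| := (abs_of_nonneg (not_lt.1 hneg)).symm
    conv_lhs => rw [this]
    rw [abs_abs]
    exact hc

/-- Every row lattice of covolume one is the lattice of a point. -/
theorem exists_lat_eq {B : Matrix (Fin (n + 1)) (Fin (n + 1)) ℝ} (hB : |B.det| = 1) :
    ∃ x : ModSpace (n + 1), lat x = rowLat B := by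
  have hne : B.det ≠ 0 := by
    intro h
    rw [h, abs_zero] at hB
    exact zero_ne_one hB
  refine ⟨mk (toSL (normalizeDet B) (det_normalizeDet hne)), ?_⟩
  rw [lat_mk]
  show rowLat (normalizeDet B) = _
  rw [rowLat_normalizeDet, hB, Real.one_rpow, one_smul]

/-! ### Lattices of a number field -/

variable {K : Type*} [Field K] [NumberField K]

/-- The embedding of `K` in `ℝ^n` given by an ordering of its real embeddings. -/
def emb (σ : Fin n ≃ (K →+* ℝ)) : K →+* (Fin n → ℝ) := RingHom.pi (fun j => σ j)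

@[simp] theorem emb_apply (σ : Fin n ≃ (K →+* ℝ)) (x : K) (j : Fin n) : emb σ x j = σ j x := rfl

/-- The image lattice `σ(M)`. -/
def embLat (σ : Fin n ≃ (K →+* ℝ)) (M : Submodule ℤ K) : Submodule ℤ (Fin n → ℝ) :=
  M.map (emb σ).toAddMonoidHom.toIntLinearMap

theorem mem_embLat {σ : Fin n ≃ (K →+* ℝ)} {M : Submodule ℤ K} {v : Fin n → ℝ} :
    v ∈ embLat σ M ↔ ∃ x ∈ M, emb σ x = v := by
  unfold embLat
  rw [Submodule.mem_map]
  rfl

theorem emb_injective (σ : Fin (n + 1) ≃ (K →+* ℝ)) : Function.Injective (emb σ) := by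
  intro x y h
  exact (σ 0).injective (congrFun h 0)

theorem embLat_injective (σ : Fin (n + 1) ≃ (K →+* ℝ)) :
    Function.Injective (embLat σ : Submodule ℤ K → _) := by
  intro M N h
  ext x
  constructor
  · intro hx
    have : emb σ x ∈ embLat σ N := h ▸ mem_embLat.2 ⟨x, hx, rfl⟩
    obtain ⟨y, hy, hyx⟩ := mem_embLat.1 this
    rwa [← emb_injective σ hyx]
  · intro hx
    have : emb σ x ∈ embLat σ M := h ▸ mem_embLat.2 ⟨x, hx, rfl⟩
    obtain ⟨y, hy, hyx⟩ := mem_embLat.1 this
    rwa [← emb_injective σ hyx]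

theorem embLat_lattice (m : LatticeBasis n K) (σ : Fin n ≃ (K →+* ℝ)) :
    embLat σ m.lattice = rowLat (embMatrix m σ) := by
  unfold embLat LatticeBasis.lattice rowLat
  rw [Submodule.map_span, ← Set.range_comp]
  rfl

/-- The determinant of a lattice basis is nonzero (independence of characters). -/
theorem det_embMatrix_ne_zero (m : LatticeBasis n K) (σ : Fin n ≃ (K →+* ℝ)) :
    (embMatrix m σ).det ≠ 0 := by
  intro h0
  obtain ⟨v, hv, hmul⟩ := Matrix.exists_mulVec_eq_zero_iff.2 h0
  apply hv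
  have hq : ∀ x : K, ∑ j, v j * σ j x = 0 := by
    intro x
    have hx : x ∈ Submodule.span ℚ (Set.range m.vec) := by rw [m.spans]; trivial
    induction hx using Submodule.span_induction with
    | mem x hx =>
      obtain ⟨i, rfl⟩ := hx
      have := congrFun hmul i
      simp only [Matrix.mulVec, dotProduct, embMatrix, Pi.zero_apply] at this
      rw [← this]
      exact Finset.sum_congr rfl fun j _ => mul_comm _ _
    | zero => simp
    | add x y _ _ hx hy =>
      simp only [map_add, mul_add, Finset.sum_add_distrib, hx, hy, add_zero]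
    | smul a x _ hx =>
      have : ∀ j, v j * σ j (a • x) = (a : ℝ) * (v j * σ j x) := by
        intro j
        rw [Algebra.smul_def, map_mul, eq_ratCast, map_ratCast]
        ring
      simp only [this, ← Finset.mul_sum, hx, mul_zero]
  have hinj : Function.Injective (fun j : Fin n => ((σ j : K →+* ℝ) : K →* ℝ)) := by
    intro i j hij
    apply σ.injective
    ext x
    exact DFunLike.congr_fun hij x
  have hli := (linearIndependent_monoidHom K ℝ).comp _ hinj
  rw [Fintype.linearIndependent_iff] at hli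
  funext j
  refine hli v ?_ j
  funext x
  simpa using hq x

/-- The covolume of `σ(M)`. -/
def covol (m : LatticeBasis n K) (σ : Fin n ≃ (K →+* ℝ)) : ℝ := |(embMatrix m σ).det|

theorem covol_pos (m : LatticeBasis n K) (σ : Fin n ≃ (K →+* ℝ)) : 0 < covol m σ :=
  abs_pos.2 (det_embMatrix_ne_zero m σ)

/-- The covolume depends only on the lattice. -/
theorem covol_eq_of_lattice_eq {m m' : LatticeBasis n K} (h : m.lattice = m'.lattice)
    (σ : Fin n ≃ (K →+* ℝ)) : covol m σ = covol m' σ := by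
  unfold covol
  apply abs_det_eq_of_rowLat_eq
  rw [← embLat_lattice, ← embLat_lattice, h]

/-- The normalising factor of `σ(M)`. -/
def nrm (m : LatticeBasis n K) (σ : Fin n ≃ (K →+* ℝ)) : ℝ := covol m σ ^ (-(1 : ℝ) / n)

theorem nrm_pos (m : LatticeBasis n K) (σ : Fin n ≃ (K →+* ℝ)) : 0 < nrm m σ :=
  Real.rpow_pos_of_pos (covol_pos m σ) _

/-- The point of a lattice is its normalised image under the embeddings. -/
theorem lat_latticePoint (m : LatticeBasis (n + 1) K) (σ : Fin (n + 1) ≃ (K →+* ℝ)) :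
    lat (latticePoint m σ) = scaleLat (embLat σ m.lattice) (fun _ => nrm m σ) := by
  have hdet := det_normalizeDet (det_embMatrix_ne_zero m σ)
  have h1 : latticePoint m σ = mk (toSL (normalizeDet (embMatrix m σ)) hdet) := by
    unfold latticePoint
    rw [dif_pos hdet]
    rfl
  rw [h1, lat_mk]
  show rowLat (normalizeDet (embMatrix m σ)) = _
  rw [rowLat_normalizeDet, embLat_lattice, rowLat_scale]
  have h2 : (|(embMatrix m σ).det| ^ (-(1 : ℝ) / ((n + 1 : ℕ) : ℝ))) • embMatrix m σ =
      embMatrix m σ * Matrix.diagonal (fun _ => nrm m σ) := by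
    ext i j
    rw [Matrix.mul_diagonal, Matrix.smul_apply, smul_eq_mul, mul_comm]
    rfl
  rw [h2]

/-- The covolume as a constraint on scalings of `σ(M)` which are unimodular. -/
theorem abs_prod_mul_covol {m : LatticeBasis (n + 1) K} {σ : Fin (n + 1) ≃ (K →+* ℝ)}
    {x : ModSpace (n + 1)} {t : Fin (n + 1) → ℝ} (h : lat x = scaleLat (embLat σ m.lattice) t) :
    |∏ j, t j| * covol m σ = 1 := by
  obtain ⟨a, rfl⟩ := mk_surjective x
  rw [lat_mk, embLat_lattice, rowLat_scale] at h
  have := abs_det_eq_of_rowLat_eq h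
  rw [a.2, Matrix.det_mul, Matrix.det_diagonal, abs_one, abs_mul] at this
  rw [this, mul_comm]
  rfl

theorem exists_point {m : LatticeBasis (n + 1) K} {σ : Fin (n + 1) ≃ (K →+* ℝ)}
    {t : Fin (n + 1) → ℝ} (h : |∏ j, t j| * covol m σ = 1) :
    ∃ x : ModSpace (n + 1), lat x = scaleLat (embLat σ m.lattice) t := by
  rw [embLat_lattice, rowLat_scale]
  apply exists_lat_eq
  rw [Matrix.det_mul, Matrix.det_diagonal, abs_mul, mul_comm]
  exact h

/-! ### The diagonal flow -/

variable {d : ℕ}

/-- The diagonal entries of `diagFlow u`. -/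
def aVec (u : Fin d → ℝ) : Fin (d + 1) → ℝ :=
  Fin.snoc (fun i => Real.exp (u i)) (Real.exp (-∑ i, u i))

theorem aVec_castSucc (u : Fin d → ℝ) (i : Fin d) : aVec u i.castSucc = Real.exp (u i) := by
  simp [aVec]

theorem aVec_last (u : Fin d → ℝ) : aVec u (Fin.last d) = Real.exp (-∑ i, u i) := by
  simp [aVec]

theorem aVec_pos (u : Fin d → ℝ) (j : Fin (d + 1)) : 0 < aVec u j := by
  refine Fin.lastCases ?_ (fun i => ?_) j
  · rw [aVec_last]; exact Real.exp_pos _
  · rw [aVec_castSucc]; exact Real.exp_pos _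

theorem aVec_add (u v : Fin d → ℝ) : aVec (u + v) = aVec u * aVec v := by
  funext j
  refine Fin.lastCases ?_ (fun i => ?_) j
  · rw [Pi.mul_apply, aVec_last, aVec_last, aVec_last, ← Real.exp_add]
    congr 1
    simp only [Pi.add_apply, Finset.sum_add_distrib]
    ring
  · rw [Pi.mul_apply, aVec_castSucc, aVec_castSucc, aVec_castSucc, ← Real.exp_add]
    rfl

theorem aVec_zero : aVec (0 : Fin d → ℝ) = 1 := by
  funext j
  refine Fin.lastCases ?_ (fun i => ?_) j
  · rw [aVec_last]; simp
  · rw [aVec_castSucc]; simp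

theorem prod_aVec (u : Fin d → ℝ) : ∏ j, aVec u j = 1 := by
  rw [Fin.prod_univ_castSucc]
  simp only [aVec_castSucc, aVec_last]
  rw [← Real.exp_sum, ← Real.exp_add, add_neg_cancel, Real.exp_zero]

/-- A positive vector with product one is `aVec` of its logarithms. -/
theorem eq_aVec {t : Fin (d + 1) → ℝ} (ht : ∀ j, 0 < t j) (hp : ∏ j, t j = 1) :
    t = aVec (fun i => Real.log (t i.castSucc)) := by
  funext j
  refine Fin.lastCases ?_ (fun i => ?_) j
  · rw [aVec_last]
    have h1 : t (Fin.last d) = (∏ i : Fin d, t i.castSucc)⁻¹ := by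
      rw [Fin.prod_univ_castSucc] at hp
      exact eq_inv_of_mul_eq_one_right hp
    rw [Real.exp_neg, Real.exp_sum, h1]
    congr 1
    exact Finset.prod_congr rfl fun i _ => (Real.exp_log (ht _)).symm
  · rw [aVec_castSucc, Real.exp_log (ht _)]

theorem aVec_injective : Function.Injective (aVec : (Fin d → ℝ) → _) := by
  intro u v h
  funext i
  have := congrFun h i.castSucc
  rw [aVec_castSucc, aVec_castSucc] at this
  exact Real.exp_injective this

theorem diagFlow_val (u : Fin d → ℝ) : (diagFlow u).1 = Matrix.diagonal (aVec u) := rfl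

theorem diagFlow_add (u v : Fin d → ℝ) : diagFlow (u + v) = diagFlow u * diagFlow v := by
  apply Subtype.ext
  show Matrix.diagonal (aVec (u + v)) = Matrix.diagonal (aVec u) * Matrix.diagonal (aVec v)
  rw [Matrix.diagonal_mul_diagonal, aVec_add]
  rfl

theorem diagFlow_zero : diagFlow (0 : Fin d → ℝ) = 1 := by
  apply Subtype.ext
  show Matrix.diagonal (aVec 0) = 1
  rw [aVec_zero]
  exact Matrix.diagonal_one

theorem orbitMap_zero (x : ModSpace (d + 1)) : orbitMap x 0 = x := by
  unfold orbitMap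
  rw [diagFlow_zero, act_one]

theorem orbitMap_orbitMap (x : ModSpace (d + 1)) (u v : Fin d → ℝ) :
    orbitMap (orbitMap x u) v = orbitMap x (u + v) := by
  unfold orbitMap
  rw [act_act, diagFlow_add]

theorem lat_orbitMap (x : ModSpace (d + 1)) (u : Fin d → ℝ) :
    lat (orbitMap x u) = scaleLat (lat x) (aVec u) :=
  lat_act_diagonal (diagFlow_val u)

/-- The diagonal of a sign matrix. -/
def signVec (w : SLR (d + 1)) : Fin (d + 1) → ℝ := fun j => w.1 j j

theorem sign_eq_diagonal {w : SLR (d + 1)} (hw : IsSignMatrix w) :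
    w.1 = Matrix.diagonal (signVec w) := by
  ext i j
  by_cases h : i = j
  · subst h
    rw [Matrix.diagonal_apply_eq]
    rfl
  · rw [Matrix.diagonal_apply_ne _ h, hw.1 i j h]

theorem lat_act_sign (x : ModSpace (d + 1)) {w : SLR (d + 1)} (hw : IsSignMatrix w) :
    lat (act x w) = scaleLat (lat x) (signVec w) :=
  lat_act_diagonal (sign_eq_diagonal hw)

theorem prod_signVec {w : SLR (d + 1)} (hw : IsSignMatrix w) : ∏ j, signVec w j = 1 := by
  have := w.2
  rwa [sign_eq_diagonal hw, Matrix.det_diagonal] at this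

theorem signVec_ne_zero {w : SLR (d + 1)} (hw : IsSignMatrix w) (j : Fin (d + 1)) :
    signVec w j ≠ 0 := by
  rcases hw.2 j with h | h
  · show w.1 j j ≠ 0
    rw [h]; exact one_ne_zero
  · show w.1 j j ≠ 0
    rw [h]; exact neg_ne_zero.2 one_ne_zero

theorem isSignMatrix_one : IsSignMatrix (1 : SLR (d + 1)) := by
  refine ⟨fun i j hij => ?_, fun i => Or.inl ?_⟩
  · rw [Matrix.SpecialLinearGroup.coe_one, Matrix.one_apply_ne hij]
  · rw [Matrix.SpecialLinearGroup.coe_one, Matrix.one_apply_eq]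

end

end Crest.Agent.R014.Pk1_349
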