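import Crest.Agent.R014.Pk3_349

/-!
Row 14, packets, part 4 (helper349): the packet has finitely many orbits (class group), every orbit
is the orbit of an untwisted lattice point (weak approximation of signs), the period group is common
to all orbits of the packet.
-/

set_option autoImplicit false
set_option linter.unusedSectionVars false

open MeasureTheory Matrix Module NumberField
open Crest.NumberTheoryR.Packets

namespace Crest.Agent.R014.Pk4_349

open Crest.Agent.R014.Pk1_349 Crest.Agent.R014.Pk2_349 Crest.Agent.R014.Pk3_349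

noncomputable section

variable {n d : ℕ} {K : Type*} [Field K] [NumberField K]

/-! ### Signs -/

/-- Weak approximation of signs. -/
theorem exists_sign (m : LatticeBasis n K) (σ : Fin n ≃ (K →+* ℝ)) {s : Fin n → ℝ}
    (hs : ∀ j, s j ≠ 0) : ∃ c : K, ∀ j, 0 < s j * σ j c := by
  have hdet := det_embMatrix_ne_zero m σ
  have hU : IsUnit (embMatrix m σ).det := isUnit_iff_ne_zero.2 hdet
  let F : (Fin n → ℝ) → (Fin n → ℝ) := fun r => r ᵥ* embMatrix m σ
  have hF : Continuous F := by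
    apply continuous_pi
    intro j
    show Continuous fun r : Fin n → ℝ => ∑ i, r i * embMatrix m σ i j
    fun_prop
  let U : Set (Fin n → ℝ) := {v | ∀ j, 0 < s j * v j}
  have hUo : IsOpen U := by
    have : U = ⋂ j, {v : Fin n → ℝ | 0 < s j * v j} := by
      ext v; simp [U]
    rw [this]
    apply isOpen_iInter_of_finite
    intro j
    exact isOpen_lt continuous_const (continuous_const.mul (continuous_apply j))
  have hne : (F ⁻¹' U).Nonempty := by
    refine ⟨s ᵥ* (embMatrix m σ)⁻¹, fun j => ?_⟩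
    show 0 < s j * ((s ᵥ* (embMatrix m σ)⁻¹) ᵥ* embMatrix m σ) j
    rw [Matrix.vecMul_vecMul, Matrix.nonsing_inv_mul _ hU, Matrix.vecMul_one]
    exact mul_self_pos.2 (hs j)
  have hdense : DenseRange (Pi.map (fun (_ : Fin n) (q : ℚ) => (q : ℝ))) :=
    DenseRange.piMap (fun _ => Rat.denseRange_cast)
  obtain ⟨q, hq⟩ := hdense.exists_mem_open (hUo.preimage hF) hne
  refine ⟨∑ i, (q i : K) * m.vec i, fun j => ?_⟩
  have h1 := hq j
  have h2 : σ j (∑ i, (q i : K) * m.vec i) = F (Pi.map (fun (_ : Fin n) (q : ℚ) => (q : ℝ)) q) j := by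
    rw [map_sum]
    show _ = ∑ i, (q i : ℝ) * embMatrix m σ i j
    refine Finset.sum_congr rfl fun i _ => ?_
    rw [map_mul, map_ratCast]
    rfl
  rw [h2]
  exact h1

/-! ### Orbits of the packet -/

theorem range_orbitMap_point (m : LatticeBasis (d + 1) K) (σ : Fin (d + 1) ≃ (K →+* ℝ)) :
    Set.range (orbitMap (latticePoint m σ)) = orbSet σ m.lattice 1 := by
  rw [range_orbitMap (fun _ => (nrm_pos m σ).ne') (lat_latticePoint m σ)]
  apply orbSet_congr
  intro j
  rw [Pi.one_apply, mul_one]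
  exact nrm_pos m σ

/-- Every sign pattern over every lattice of the genus is an orbit `orbSet σ M' 1`. -/
theorem orbSet_eq_one (m : LatticeBasis (d + 1) K) (σ : Fin (d + 1) ≃ (K →+* ℝ))
    {s : Fin (d + 1) → ℝ} (hs : ∀ j, s j ≠ 0) :
    ∃ m' : LatticeBasis (d + 1) K, LocallyHomothetic m m' ∧
      orbSet σ m.lattice s = orbSet σ m'.lattice 1 := by
  obtain ⟨c, hc⟩ := exists_sign m σ hs
  have hc0 : c ≠ 0 := by
    intro h
    have := hc 0
    rw [h, map_zero, mul_zero] at this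
    exact lt_irrefl _ this
  refine ⟨smulBasis c hc0 m, lh_of_cM hc0 (smulBasis_lattice c hc0 m).symm, ?_⟩
  rw [smulBasis_lattice, orbSet_cM hc0, one_mul]
  exact orbSet_congr hc

/-- (P3) the packet orbits are the orbits of the untwisted lattice points of the genus. -/
theorem packetOrbits_eq (m : LatticeBasis (d + 1) K) (σ : Fin (d + 1) ≃ (K →+* ℝ)) :
    packetOrbits m σ = {O | ∃ m' : LatticeBasis (d + 1) K, LocallyHomothetic m m' ∧
      O = Set.range (orbitMap (latticePoint m' σ))} := by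
  ext O
  constructor
  · rintro ⟨m', hm', w, hw, rfl⟩
    obtain ⟨m'', hm'', h⟩ := orbSet_eq_one m' σ (signVec_ne_zero hw)
    refine ⟨m'', lh_trans hm' hm'', ?_⟩
    rw [range_orbitMap_twist m' σ hw, range_orbitMap_point, h]
  · rintro ⟨m', hm', rfl⟩
    refine ⟨m', hm', 1, isSignMatrix_one, ?_⟩
    rw [act_one]

theorem orbSet_mem_packetOrbits {m m' : LatticeBasis (d + 1) K} {σ : Fin (d + 1) ≃ (K →+* ℝ)}
    (h : LocallyHomothetic m m') {s : Fin (d + 1) → ℝ} (hs : ∀ j, s j ≠ 0) :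
    orbSet σ m'.lattice s ∈ packetOrbits m σ := by
  obtain ⟨m'', hm'', h'⟩ := orbSet_eq_one m' σ hs
  rw [packetOrbits_eq]
  exact ⟨m'', lh_trans h hm'', by rw [range_orbitMap_point, h']⟩

/-- Orbits of the diagonal flow are equal as soon as one contains the other's base point. -/
theorem range_eq_of_mem {x x' : ModSpace (d + 1)} (h : x' ∈ Set.range (orbitMap x)) :
    Set.range (orbitMap x) = Set.range (orbitMap x') := by
  obtain ⟨u, rfl⟩ := h
  ext y
  constructor
  · rintro ⟨v, rfl⟩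
    exact ⟨v - u, by rw [orbitMap_orbitMap, add_sub_cancel]⟩
  · rintro ⟨v, rfl⟩
    exact ⟨u + v, by rw [orbitMap_orbitMap]⟩

theorem mem_range_self (x : ModSpace (d + 1)) : x ∈ Set.range (orbitMap x) :=
  ⟨0, orbitMap_zero x⟩

theorem range_eq_iff_mem {x x' : ModSpace (d + 1)} :
    Set.range (orbitMap x) = Set.range (orbitMap x') ↔ x' ∈ Set.range (orbitMap x) :=
  ⟨fun h => h ▸ mem_range_self x', range_eq_of_mem⟩

/-- (P3) two lattice points are on the same orbit iff the lattices differ by a totally positive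
scalar. -/
theorem range_eq_iff (m m' : LatticeBasis (d + 1) K) (σ : Fin (d + 1) ≃ (K →+* ℝ)) :
    Set.range (orbitMap (latticePoint m σ)) = Set.range (orbitMap (latticePoint m' σ)) ↔
      ∃ c : K, (∀ j, 0 < σ j c) ∧ ∀ x, x ∈ m'.lattice ↔ ∃ y ∈ m.lattice, x = c * y := by
  rw [range_eq_iff_mem, mem_orbit_iff (fun _ => (nrm_pos m σ).ne') (fun _ => (nrm_pos m' σ).ne')
    (lat_latticePoint m σ) (lat_latticePoint m' σ)]
  refine exists_congr fun c => ?_
  have h1 : (∀ j : Fin (d + 1), 0 < nrm m σ * (σ j c * nrm m' σ)) ↔ ∀ j, 0 < σ j c := by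
    refine forall_congr' fun j => ?_
    rw [mul_pos_iff_of_pos_left (nrm_pos m σ), mul_pos_iff_of_pos_right (nrm_pos m' σ)]
  have h2 : cM c m.lattice = m'.lattice ↔ ∀ x, x ∈ m'.lattice ↔ ∃ y ∈ m.lattice, x = c * y := by
    constructor
    · intro h x
      rw [← h, mem_cM]
      exact ⟨fun ⟨y, hy, e⟩ => ⟨y, hy, e.symm⟩, fun ⟨y, hy, e⟩ => ⟨y, hy, e.symm⟩⟩
    · intro h
      ext x
      rw [h x, mem_cM]
      exact ⟨fun ⟨y, hy, e⟩ => ⟨y, hy, e.symm⟩, fun ⟨y, hy, e⟩ => ⟨y, hy, e.symm⟩⟩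
  rw [and_comm]
  exact and_congr h1 h2

/-! ### The common period group -/

/-- The period group of the packet: logarithms of the totally positive units of the multiplier
order. -/
def perLat (m : LatticeBasis (d + 1) K) (σ : Fin (d + 1) ≃ (K →+* ℝ)) : AddSubgroup (Fin d → ℝ) :=
  periods (latticePoint m σ)

theorem mem_perLat {m : LatticeBasis (d + 1) K} {σ : Fin (d + 1) ≃ (K →+* ℝ)} {u : Fin d → ℝ} :
    u ∈ perLat m σ ↔ ∃ e : K, e ∈ multiplierOrder m ∧ e⁻¹ ∈ multiplierOrder m ∧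
      (∀ j, 0 < σ j e) ∧ ∀ i : Fin d, u i = Real.log (σ i.castSucc e) :=
  mem_periods_iff (fun _ => (nrm_pos m σ).ne') (lat_latticePoint m σ)

theorem mem_perLat' {m : LatticeBasis (d + 1) K} {σ : Fin (d + 1) ≃ (K →+* ℝ)} {u : Fin d → ℝ} :
    u ∈ perLat m σ ↔ ∃ e : K, cM e m.lattice = m.lattice ∧ ∀ j, σ j e = aVec u j :=
  mem_periods (fun _ => (nrm_pos m σ).ne') (lat_latticePoint m σ)

theorem periods_eq_perLat {m m' : LatticeBasis (d + 1) K} {σ : Fin (d + 1) ≃ (K →+* ℝ)}
    (h : LocallyHomothetic m m') {x : ModSpace (d + 1)} {t : Fin (d + 1) → ℝ}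
    (ht : ∀ j, t j ≠ 0) (hx : lat x = scaleLat (embLat σ m'.lattice) t) :
    periods x = perLat m σ := by
  ext u
  rw [mem_periods_iff ht hx, mem_perLat, mult_eq_of_lh h]

theorem perLat_eq_of_lh {m m' : LatticeBasis (d + 1) K} (σ : Fin (d + 1) ≃ (K →+* ℝ))
    (h : LocallyHomothetic m m') : perLat m' σ = perLat m σ :=
  periods_eq_perLat h (fun _ => (nrm_pos m' σ).ne') (lat_latticePoint m' σ)

theorem exists_basis_perLat (m : LatticeBasis (d + 1) K) (σ : Fin (d + 1) ≃ (K →+* ℝ)) :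
    ∃ b : Basis (Fin d) ℝ (Fin d → ℝ),
      perLat m σ = (Submodule.span ℤ (Set.range b)).toAddSubgroup :=
  exists_basis_periods (fun _ => (nrm_pos m σ).ne') (lat_latticePoint m σ)

/-- A point whose orbit belongs to the packet is a scaled lattice point of the genus, with positive
scaling. -/
theorem exists_of_range_mem {m : LatticeBasis (d + 1) K} {σ : Fin (d + 1) ≃ (K →+* ℝ)}
    {x : ModSpace (d + 1)} (hx : Set.range (orbitMap x) ∈ packetOrbits m σ) :
    ∃ m' : LatticeBasis (d + 1) K, LocallyHomothetic m m' ∧ ∃ t : Fin (d + 1) → ℝ,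
      (∀ j, 0 < t j) ∧ lat x = scaleLat (embLat σ m'.lattice) t := by
  rw [packetOrbits_eq] at hx
  obtain ⟨m', hm', h⟩ := hx
  rw [range_orbitMap_point] at h
  have h1 : x ∈ orbSet σ m'.lattice 1 := h ▸ mem_range_self x
  obtain ⟨t, ht, hx'⟩ := h1
  exact ⟨m', hm', t, fun j => by simpa using ht j, hx'⟩

theorem periods_of_range_mem {m : LatticeBasis (d + 1) K} {σ : Fin (d + 1) ≃ (K →+* ℝ)}
    {x : ModSpace (d + 1)} (hx : Set.range (orbitMap x) ∈ packetOrbits m σ) :
    periods x = perLat m σ := by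
  obtain ⟨m', hm', t, ht, h⟩ := exists_of_range_mem hx
  exact periods_eq_perLat hm' (fun j => (ht j).ne') h

/-! ### Finiteness -/

/-- Finitely many lattices between `f·B` and `B`. -/
theorem finite_between {B : Submodule ℤ K} (hB : B.FG) {f : ℕ} (hf : 0 < f) :
    {L : Submodule ℤ K | cM (f : K) B ≤ L ∧ L ≤ B}.Finite := by
  have : Module.Finite ℤ B := Module.Finite.of_fg hB
  let N : Submodule ℤ B := LinearMap.range (LinearMap.lsmul ℤ B (f : ℤ))
  have hfin : _root_.Finite (B ⧸ N) := by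
    apply Module.finite_of_fg_torsion
    intro q
    obtain ⟨b, rfl⟩ := Submodule.Quotient.mk_surjective N q
    refine ⟨⟨(f : ℤ), mem_nonZeroDivisors_of_ne_zero (by exact_mod_cast hf.ne')⟩, ?_⟩
    show (f : ℤ) • (Submodule.Quotient.mk (p := N) b) = 0
    have h1 : (Submodule.Quotient.mk (p := N) ((f : ℤ) • b) : B ⧸ N) = 0 :=
      (Submodule.Quotient.mk_eq_zero N).2 (LinearMap.mem_range.2 ⟨b, rfl⟩)
    exact h1
  let φ : Submodule ℤ K → Set (B ⧸ N) := fun L =>
    {q | ∃ x : B, (x : K) ∈ L ∧ Submodule.Quotient.mk x = q}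
  have hle : ∀ L L' : Submodule ℤ K, L ≤ B → cM (f : K) B ≤ L' → φ L = φ L' → L ≤ L' := by
    intro L L' hLB hL' h x hx
    have h1 : (Submodule.Quotient.mk (⟨x, hLB hx⟩ : B) : B ⧸ N) ∈ φ L := ⟨⟨x, hLB hx⟩, hx, rfl⟩
    rw [h] at h1
    obtain ⟨y, hy, hyx⟩ := h1
    rw [Submodule.Quotient.eq] at hyx
    obtain ⟨z, hz⟩ := hyx
    have h2 : (f : K) * (z : K) = (y : K) - x := by
      have := congrArg (fun w : B => (w : K)) hz
      simpa using this
    have h3 : (y : K) - x ∈ L' := hL' (mem_cM.2 ⟨z, z.2, h2⟩)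
    have h4 : x = (y : K) - ((y : K) - x) := by ring
    rw [h4]
    exact sub_mem hy h3
  refine Set.Finite.of_finite_image (f := φ) (Set.toFinite _) ?_
  intro L hL L' hL' h
  exact le_antisymm (hle L L' hL.2 hL'.1 h) (hle L' L hL'.2 hL.1 h.symm)

/-- The lattice of an integral ideal. -/
def idealLat (I : Ideal (𝓞 K)) : Submodule ℤ K :=
  (I.restrictScalars ℤ).map (Algebra.linearMap (𝓞 K) K |>.restrictScalars ℤ)

theorem mem_idealLat {I : Ideal (𝓞 K)} {x : K} : x ∈ idealLat I ↔ ∃ y ∈ I, (y : K) = x := by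
  unfold idealLat
  rw [Submodule.mem_map]
  rfl

theorem idealLat_fg (I : Ideal (𝓞 K)) : (idealLat I).FG := by
  apply Submodule.FG.map
  have : IsNoetherian ℤ (𝓞 K) := isNoetherian_of_isNoetherianRing_of_finite ℤ (𝓞 K)
  exact IsNoetherian.noetherian _

/-- The `𝓞 K`-span of a lattice. -/
def osp (M : Submodule ℤ K) : Submodule ℤ K := intLat K * M

theorem le_osp (M : Submodule ℤ K) : M ≤ osp M := by
  intro x hx
  have := Submodule.mul_mem_mul (mem_intLat.2 (isIntegral_one : IsIntegral ℤ (1 : K))) hx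
  rwa [one_mul] at this

theorem mul_mem_osp {M : Submodule ℤ K} {a x : K} (ha : IsIntegral ℤ a) (hx : x ∈ osp M) :
    a * x ∈ osp M := by
  unfold osp at hx ⊢
  induction hx using Submodule.mul_induction_on' with
  | mem_mul_mem b hb y hy =>
    rw [← mul_assoc]
    exact Submodule.mul_mem_mul (mem_intLat.2 (ha.mul (mem_intLat.1 hb))) hy
  | add x _ y _ hx hy => rw [mul_add]; exact add_mem hx hy

theorem cM_osp_le {M : Submodule ℤ K} {f : K} (hf : ∀ a : K, IsIntegral ℤ a → ∀ x ∈ M,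
    (f * a) * x ∈ M) : cM f (osp M) ≤ M := by
  intro z hz
  obtain ⟨y, hy, rfl⟩ := mem_cM.1 hz
  unfold osp at hy
  induction hy using Submodule.mul_induction_on' with
  | mem_mul_mem b hb y hy =>
    rw [← mul_assoc]
    exact hf b (mem_intLat.1 hb) y hy
  | add x _ y _ hx hy =>
    rw [mul_add]
    exact add_mem (hx (mem_cM.2 ⟨_, ‹_›, rfl⟩)) (hy (mem_cM.2 ⟨_, ‹_›, rfl⟩))

/-- A lattice basis of the ring of integers. -/
def maxBasis (hn : finrank ℚ K = n) : LatticeBasis n K :=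
  let b := (integralBasis K).reindex (Fintype.equivFinOfCardEq (by
    rw [← finrank_eq_card_basis (integralBasis K), hn]))
  { vec := fun i => b i
    linIndep := b.linearIndependent.restrict_scalars (by
      intro a b h
      simpa using h)
    spans := b.span_eq }

theorem maxBasis_lattice (hn : finrank ℚ K = n) : (maxBasis hn).lattice = intLat K := by
  have h : Set.range (maxBasis hn).vec = Set.range (integralBasis K) := by
    show Set.range (fun i => ((integralBasis K).reindex _) i) = _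
    rw [Basis.range_reindex]
  ext x
  unfold LatticeBasis.lattice
  rw [h, mem_span_integralBasis, mem_intLat]
  constructor
  · rintro ⟨y, rfl⟩
    exact y.2
  · intro hx
    exact ⟨⟨x, hx⟩, rfl⟩

theorem maxBasis_isMaximalOrder (hn : finrank ℚ K = n) : (maxBasis hn).IsMaximalOrder := by
  intro x
  rw [maxBasis_lattice, mem_intLat]

/-- (P4) finitely many homothety classes in the genus. -/
theorem finite_classes (m : LatticeBasis (d + 1) K) :
    ∃ F : Set (Submodule ℤ K), F.Finite ∧ ∀ m' : LatticeBasis (d + 1) K, LocallyHomothetic m m' →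
      ∃ c : K, c ≠ 0 ∧ cM c m'.lattice ∈ F := by
  obtain ⟨f, hf, hfO⟩ := exists_conductor m
  have hsurj := ClassGroup.mk0_surjective (R := 𝓞 K)
  choose J hJ using hsurj
  refine ⟨⋃ C : ClassGroup (𝓞 K), {L | cM (f : K) (idealLat (J C : Ideal (𝓞 K))) ≤ L ∧
    L ≤ idealLat (J C : Ideal (𝓞 K))}, ?_, ?_⟩
  · apply Set.finite_iUnion
    intro C
    exact finite_between (idealLat_fg _) hf
  intro m' hm'
  have hO : ∀ a : K, IsIntegral ℤ a → ∀ x ∈ m'.lattice, ((f : K) * a) * x ∈ m'.lattice := by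
    intro a ha x hx
    have := hfO a ha
    rw [mult_eq_of_lh hm'] at this
    exact this x hx
  have hle1 := le_osp m'.lattice
  have hle2 := cM_osp_le hO
  -- integral denominator
  obtain ⟨N, hN, hNint⟩ := exists_nat_mul_fg (maxBasis (finrank_eq m))
    (Submodule.FG.mul intLat_fg (lattice_fg m'))
  rw [maxBasis_lattice] at hNint
  have hN0 : (N : K) ≠ 0 := by exact_mod_cast hN.ne'
  let I : Ideal (𝓞 K) :=
    { carrier := {y | (y : K) ∈ cM (N : K) (osp m'.lattice)}
      add_mem' := fun {a b} ha hb => by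
        show (a : K) + (b : K) ∈ cM (N : K) (osp m'.lattice)
        exact add_mem ha hb
      zero_mem' := by
        show (0 : K) ∈ cM (N : K) (osp m'.lattice)
        exact zero_mem _
      smul_mem' := fun a y hy => by
        show (a : K) * (y : K) ∈ cM (N : K) (osp m'.lattice)
        obtain ⟨z, hz, hzy⟩ := mem_cM.1 hy
        refine mem_cM.2 ⟨(a : K) * z, mul_mem_osp a.2 hz, ?_⟩
        rw [← hzy]
        ring }
  have hI : idealLat I = cM (N : K) (osp m'.lattice) := by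
    ext x
    rw [mem_idealLat]
    constructor
    · rintro ⟨y, hy, rfl⟩
      exact hy
    · intro hx
      obtain ⟨z, hz, rfl⟩ := mem_cM.1 hx
      exact ⟨⟨(N : K) * z, hNint z hz⟩, hx, rfl⟩
  have hI0 : I ≠ ⊥ := by
    intro h
    have h1 : (N : K) * m'.vec 0 ∈ idealLat I := by
      rw [hI]
      exact mem_cM.2 ⟨_, hle1 (vec_mem m' 0), rfl⟩
    obtain ⟨y, hy, hy2⟩ := mem_idealLat.1 h1
    rw [h] at hy
    have hy0 : y = 0 := hy
    have hy3 : (0 : K) = (N : K) * m'.vec 0 := by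
      rw [← hy2, hy0]
      rfl
    exact mul_ne_zero hN0 (vec_ne_zero m' 0) hy3.symm
  let I0 : nonZeroDivisors (Ideal (𝓞 K)) := ⟨I, mem_nonZeroDivisors_of_ne_zero hI0⟩
  have hcl : ClassGroup.mk0 I0 = ClassGroup.mk0 (J (ClassGroup.mk0 I0)) := (hJ _).symm
  set C := ClassGroup.mk0 I0 with hC
  obtain ⟨a, b, ha, hb, hab⟩ := ClassGroup.mk0_eq_mk0_iff.1 hcl
  have ha' : (a : K) ≠ 0 := by exact_mod_cast ha
  have hb' : (b : K) ≠ 0 := by exact_mod_cast hb
  have hkey : cM (a : K) (idealLat I) = cM (b : K) (idealLat (J C : Ideal (𝓞 K))) := by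
    ext x
    constructor
    · intro hx
      obtain ⟨_, hy, rfl⟩ := mem_cM.1 hx
      obtain ⟨z, hz, rfl⟩ := mem_idealLat.1 hy
      have h1 : a * z ∈ Ideal.span {a} * (I0 : Ideal (𝓞 K)) :=
        Ideal.mem_span_singleton_mul.2 ⟨z, hz, rfl⟩
      rw [hab] at h1
      obtain ⟨w, hw, hw2⟩ := Ideal.mem_span_singleton_mul.1 h1
      refine mem_cM.2 ⟨w, mem_idealLat.2 ⟨w, hw, rfl⟩, ?_⟩
      have := congrArg (fun t : 𝓞 K => (t : K)) hw2
      simpa using this
    · intro hx
      obtain ⟨_, hy, rfl⟩ := mem_cM.1 hx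
      obtain ⟨z, hz, rfl⟩ := mem_idealLat.1 hy
      have h1 : b * z ∈ Ideal.span {b} * (J C : Ideal (𝓞 K)) :=
        Ideal.mem_span_singleton_mul.2 ⟨z, hz, rfl⟩
      rw [← hab] at h1
      obtain ⟨w, hw, hw2⟩ := Ideal.mem_span_singleton_mul.1 h1
      refine mem_cM.2 ⟨w, mem_idealLat.2 ⟨w, hw, rfl⟩, ?_⟩
      have := congrArg (fun t : 𝓞 K => (t : K)) hw2
      simpa using this
  have hkey2 : cM ((b : K)⁻¹ * ((a : K) * N)) (osp m'.lattice) =
      idealLat (J C : Ideal (𝓞 K)) := by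
    rw [← cM_cM, ← cM_cM (a : K), ← hI, hkey, cM_cM, inv_mul_cancel₀ hb', cM_one]
  set c : K := (b : K)⁻¹ * ((a : K) * N) with hc
  have hc0 : c ≠ 0 := mul_ne_zero (inv_ne_zero hb') (mul_ne_zero ha' hN0)
  refine ⟨c, hc0, Set.mem_iUnion.2 ⟨C, ?_, ?_⟩⟩
  · rw [← hkey2, cM_cM, mul_comm, ← cM_cM]
    exact Submodule.map_mono hle2
  · rw [← hkey2]
    exact Submodule.map_mono hle1

/-- (P4) the packet has finitely many orbits. -/
theorem finite_packetOrbits (m : LatticeBasis (d + 1) K) (σ : Fin (d + 1) ≃ (K →+* ℝ)) :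
    (packetOrbits m σ).Finite := by
  obtain ⟨F, hF, h⟩ := finite_classes m
  let S : Set (Fin (d + 1) → ℝ) := Set.pi Set.univ fun _ => ({1, -1} : Set ℝ)
  have hS : S.Finite := Set.Finite.pi fun _ => Set.toFinite _
  have hfin : ((fun p : Submodule ℤ K × (Fin (d + 1) → ℝ) => orbSet σ p.1 p.2) '' (F ×ˢ S)).Finite :=
    (hF.prod hS).image _
  refine hfin.subset ?_
  rw [packetOrbits_eq]
  rintro _ ⟨m', hm', rfl⟩
  obtain ⟨c, hc, hcF⟩ := h m' hm'
  rw [range_orbitMap_point]
  let s : Fin (d + 1) → ℝ := fun j => if 0 < σ j c⁻¹ then 1 else -1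
  have hs : ∀ j, 0 < s j * σ j c⁻¹ := by
    intro j
    have hne : σ j c⁻¹ ≠ 0 := (map_ne_zero (σ j)).2 (inv_ne_zero hc)
    show 0 < (if 0 < σ j c⁻¹ then (1 : ℝ) else -1) * σ j c⁻¹
    split_ifs with h0
    · rwa [one_mul]
    · have : σ j c⁻¹ < 0 := lt_of_le_of_ne (not_lt.1 h0) hne
      linarith
  refine ⟨(cM c m'.lattice, s), ⟨hcF, ?_⟩, ?_⟩
  · intro j _
    show (if 0 < σ j c⁻¹ then (1 : ℝ) else -1) ∈ _
    split_ifs
    · exact Set.mem_insert _ _
    · exact Set.mem_insert_of_mem _ rfl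
  · show orbSet σ (cM c m'.lattice) s = _
    have h1 : cM c⁻¹ (cM c m'.lattice) = m'.lattice := cM_inv hc rfl
    conv_rhs => rw [← h1]
    rw [orbSet_cM (inv_ne_zero hc), one_mul]
    exact orbSet_congr hs

end

end Crest.Agent.R014.Pk4_349
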