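import Mathlib

/-!
Row 14, block D, section 4 (PROD), helper108: near independence of two bounded observables which
have a common noise variable `z`, when each of them hardly depends on `z`.
-/

set_option autoImplicit false

namespace Crest.Agent.R014.Prod_108

open MeasureTheory

variable {X Z S T : Type*} [MeasurableSpace X] [MeasurableSpace Z] [MeasurableSpace S]
  [MeasurableSpace T]

theorem integrable_bdd {Y : Type*} [MeasurableSpace Y] {μ : Measure Y} [IsFiniteMeasure μ]
    {f : Y → ℝ} (hf : Measurable f) {M : ℝ} (hM : ∀ y, |f y| ≤ M) : Integrable f μ :=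
  Integrable.of_bound hf.aestronglyMeasurable M (Filter.Eventually.of_forall hM)

/-- The inner inequality, with the outer variable frozen. -/
theorem prod_inner {ν : Measure Z} {σ : Measure S} {τ : Measure T} [IsProbabilityMeasure ν]
    [IsProbabilityMeasure σ] [IsProbabilityMeasure τ] {A : Z × S → ℝ} {B : Z × T → ℝ}
    {A1 : S → ℝ} {B1 : T → ℝ} (hA : Measurable A) (hB : Measurable B) (hA1 : Measurable A1)
    (hB1 : Measurable B1) {M : ℝ} (mA : ∀ p, |A p| ≤ M) (mB : ∀ p, |B p| ≤ M)
    (mA1 : ∀ p, |A1 p| ≤ M) (mB1 : ∀ p, |B1 p| ≤ M) :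
    |(∫ z, (∫ s, A (z, s) ∂σ) * (∫ t, B (z, t) ∂τ) ∂ν)
        - (∫ z, ∫ s, A (z, s) ∂σ ∂ν) * (∫ z, ∫ t, B (z, t) ∂τ ∂ν)|
      ≤ 2 * M * ((∫ p, |A p - A1 p.2| ∂(ν.prod σ)) + ∫ p, |B p - B1 p.2| ∂(ν.prod τ)) := by
  have hM : 0 ≤ M := by
    obtain ⟨z⟩ := nonempty_of_isProbabilityMeasure ν
    obtain ⟨s⟩ := nonempty_of_isProbabilityMeasure σ
    exact (abs_nonneg _).trans (mA (z, s))
  set α : Z → ℝ := fun z => ∫ s, A (z, s) ∂σ with hα
  set β : Z → ℝ := fun z => ∫ t, B (z, t) ∂τ with hβ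
  set α1 : ℝ := ∫ s, A1 s ∂σ with hα1
  set β1 : ℝ := ∫ t, B1 t ∂τ with hβ1
  have iA : ∀ z, Integrable (fun s => A (z, s)) σ := fun z =>
    integrable_bdd (hA.comp measurable_prodMk_left) fun s => mA (z, s)
  have iB : ∀ z, Integrable (fun t => B (z, t)) τ := fun z =>
    integrable_bdd (hB.comp measurable_prodMk_left) fun t => mB (z, t)
  have iA1 : Integrable A1 σ := integrable_bdd hA1 mA1
  have iB1 : Integrable B1 τ := integrable_bdd hB1 mB1
  have bα : ∀ z, |α z| ≤ M := fun z => by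
    have := norm_integral_le_of_norm_le_const (μ := σ) (f := fun s => A (z, s)) (C := M)
      (Filter.Eventually.of_forall fun s => mA (z, s))
    simpa using this
  have bβ : ∀ z, |β z| ≤ M := fun z => by
    have := norm_integral_le_of_norm_le_const (μ := τ) (f := fun t => B (z, t)) (C := M)
      (Filter.Eventually.of_forall fun t => mB (z, t))
    simpa using this
  have bα1 : |α1| ≤ M := by
    have := norm_integral_le_of_norm_le_const (μ := σ) (f := A1) (C := M)
      (Filter.Eventually.of_forall fun s => mA1 s)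
    simpa using this
  have bβ1 : |β1| ≤ M := by
    have := norm_integral_le_of_norm_le_const (μ := τ) (f := B1) (C := M)
      (Filter.Eventually.of_forall fun t => mB1 t)
    simpa using this
  have mα : Measurable α := (StronglyMeasurable.integral_prod_right
    (f := fun z s => A (z, s)) hA.stronglyMeasurable).measurable
  have mβ : Measurable β := (StronglyMeasurable.integral_prod_right
    (f := fun z t => B (z, t)) hB.stronglyMeasurable).measurable
  have iα : Integrable α ν := integrable_bdd mα bα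
  have iβ : Integrable β ν := integrable_bdd mβ bβ
  have iαβ : Integrable (fun z => α z * β z) ν := integrable_bdd (M := M * M) (mα.mul mβ) fun z => by
    rw [abs_mul]
    exact mul_le_mul (bα z) (bβ z) (abs_nonneg _) hM
  have bαb : |∫ z, α z ∂ν| ≤ M := by
    have := norm_integral_le_of_norm_le_const (μ := ν) (f := α) (C := M)
      (Filter.Eventually.of_forall fun z => bα z)
    simpa using this
  -- the two basic distances
  have dα : ∫ z, |α z - α1| ∂ν ≤ ∫ p, |A p - A1 p.2| ∂(ν.prod σ) := by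
    have iAA : Integrable (fun p : Z × S => |A p - A1 p.2|) (ν.prod σ) :=
      integrable_bdd (M := M + M) ((hA.sub (hA1.comp measurable_snd)).abs) fun p => by
        rw [abs_abs]
        exact (abs_sub _ _).trans (add_le_add (mA p) (mA1 p.2))
    rw [integral_prod _ iAA]
    refine integral_mono_of_nonneg (Filter.Eventually.of_forall fun z => abs_nonneg _)
      iAA.integral_prod_left (Filter.Eventually.of_forall fun z => ?_)
    simp only [hα, hα1]
    rw [← integral_sub (iA z) iA1]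
    exact abs_integral_le_integral_abs
  have dβ : ∫ z, |β z - β1| ∂ν ≤ ∫ p, |B p - B1 p.2| ∂(ν.prod τ) := by
    have iBB : Integrable (fun p : Z × T => |B p - B1 p.2|) (ν.prod τ) :=
      integrable_bdd (M := M + M) ((hB.sub (hB1.comp measurable_snd)).abs) fun p => by
        rw [abs_abs]
        exact (abs_sub _ _).trans (add_le_add (mB p) (mB1 p.2))
    rw [integral_prod _ iBB]
    refine integral_mono_of_nonneg (Filter.Eventually.of_forall fun z => abs_nonneg _)
      iBB.integral_prod_left (Filter.Eventually.of_forall fun z => ?_)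
    simp only [hβ, hβ1]
    rw [← integral_sub (iB z) iB1]
    exact abs_integral_le_integral_abs
  have idα : Integrable (fun z => |α z - α1|) ν := (iα.sub (integrable_const _)).abs
  have idβ : Integrable (fun z => |β z - β1|) ν := (iβ.sub (integrable_const _)).abs
  have eα : |(∫ z, α z ∂ν) - α1| ≤ ∫ z, |α z - α1| ∂ν := by
    have h : (∫ z, α z ∂ν) - α1 = ∫ z, (α z - α1) ∂ν := by
      rw [integral_sub iα (integrable_const _)]
      simp
    rw [h]
    exact abs_integral_le_integral_abs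
  have eβ : |(∫ z, β z ∂ν) - β1| ≤ ∫ z, |β z - β1| ∂ν := by
    have h : (∫ z, β z ∂ν) - β1 = ∫ z, (β z - β1) ∂ν := by
      rw [integral_sub iβ (integrable_const _)]
      simp
    rw [h]
    exact abs_integral_le_integral_abs
  have h1 : |(∫ z, α z * β z ∂ν) - α1 * β1| ≤
      M * ((∫ z, |α z - α1| ∂ν) + ∫ z, |β z - β1| ∂ν) := by
    have h : (∫ z, α z * β z ∂ν) - α1 * β1 = ∫ z, (α z * β z - α1 * β1) ∂ν := by
      rw [integral_sub iαβ (integrable_const _)]
      simp
    have e2 : M * ((∫ z, |α z - α1| ∂ν) + ∫ z, |β z - β1| ∂ν)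
        = ∫ z, (M * |α z - α1| + M * |β z - β1|) ∂ν := by
      rw [integral_add (idα.const_mul _) (idβ.const_mul _), integral_const_mul,
        integral_const_mul, mul_add]
    rw [h, e2]
    refine abs_integral_le_integral_abs.trans (integral_mono_of_nonneg
      (Filter.Eventually.of_forall fun z => abs_nonneg _)
      ((idα.const_mul _).add (idβ.const_mul _)) (Filter.Eventually.of_forall fun z => ?_))
    show |α z * β z - α1 * β1| ≤ M * |α z - α1| + M * |β z - β1|
    have e : α z * β z - α1 * β1 = (α z - α1) * β z + α1 * (β z - β1) := by ring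
    rw [e]
    refine (abs_add_le _ _).trans (add_le_add ?_ ?_)
    · rw [abs_mul, mul_comm]
      exact mul_le_mul_of_nonneg_right (bβ z) (abs_nonneg _)
    · rw [abs_mul]
      exact mul_le_mul_of_nonneg_right bα1 (abs_nonneg _)
  have h2 : |(∫ z, α z ∂ν) * (∫ z, β z ∂ν) - α1 * β1| ≤
      M * ((∫ z, |α z - α1| ∂ν) + ∫ z, |β z - β1| ∂ν) := by
    have e : (∫ z, α z ∂ν) * (∫ z, β z ∂ν) - α1 * β1
        = ((∫ z, α z ∂ν) - α1) * β1 + (∫ z, α z ∂ν) * ((∫ z, β z ∂ν) - β1) := by ring
    rw [e, mul_add]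
    refine (abs_add_le _ _).trans (add_le_add ?_ ?_)
    · rw [abs_mul, mul_comm]
      exact mul_le_mul bβ1 eα (abs_nonneg _) hM
    · rw [abs_mul]
      exact mul_le_mul bαb eβ (abs_nonneg _) hM
  have h3 : |(∫ z, α z * β z ∂ν) - (∫ z, α z ∂ν) * (∫ z, β z ∂ν)| ≤
      2 * M * ((∫ z, |α z - α1| ∂ν) + ∫ z, |β z - β1| ∂ν) := by
    have := abs_sub_le (∫ z, α z * β z ∂ν) (α1 * β1) ((∫ z, α z ∂ν) * (∫ z, β z ∂ν))
    rw [abs_sub_comm (α1 * β1)] at this
    linarith
  refine h3.trans ?_
  exact mul_le_mul_of_nonneg_left (add_le_add dα dβ) (by linarith)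

/-- **Near independence.** `A (x, z, s)` and `B (x, z, t)` hardly depend on `z`, so their product
averaged over `(z, s, t)` is the product of the averages, for most `x`. -/
theorem prod_abs {μ : Measure X} {ν : Measure Z} {σ : Measure S} {τ : Measure T}
    [IsProbabilityMeasure μ] [IsProbabilityMeasure ν] [IsProbabilityMeasure σ]
    [IsProbabilityMeasure τ] {A : X × Z × S → ℝ} {B : X × Z × T → ℝ} {A1 : X × S → ℝ}
    {B1 : X × T → ℝ} (hA : Measurable A) (hB : Measurable B) (hA1 : Measurable A1)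
    (hB1 : Measurable B1) {M a b : ℝ} (mA : ∀ p, |A p| ≤ M) (mB : ∀ p, |B p| ≤ M)
    (mA1 : ∀ p, |A1 p| ≤ M) (mB1 : ∀ p, |B1 p| ≤ M)
    (ha : ∫ p, |A p - A1 (p.1, p.2.2)| ∂(μ.prod (ν.prod σ)) ≤ a)
    (hb : ∫ p, |B p - B1 (p.1, p.2.2)| ∂(μ.prod (ν.prod τ)) ≤ b) :
    ∫ x, |(∫ z, (∫ s, A (x, z, s) ∂σ) * (∫ t, B (x, z, t) ∂τ) ∂ν)
        - (∫ z, ∫ s, A (x, z, s) ∂σ ∂ν) * (∫ z, ∫ t, B (x, z, t) ∂τ ∂ν)| ∂μ
      ≤ 2 * M * (a + b) := by
  have hM : 0 ≤ M := by
    obtain ⟨x⟩ := nonempty_of_isProbabilityMeasure μ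
    obtain ⟨z⟩ := nonempty_of_isProbabilityMeasure ν
    obtain ⟨s⟩ := nonempty_of_isProbabilityMeasure σ
    exact (abs_nonneg _).trans (mA (x, z, s))
  have iAA : Integrable (fun p : X × Z × S => |A p - A1 (p.1, p.2.2)|) (μ.prod (ν.prod σ)) :=
    integrable_bdd (M := M + M) ((hA.sub (hA1.comp
      (measurable_fst.prodMk (measurable_snd.comp measurable_snd)))).abs) fun p => by
      rw [abs_abs]
      exact (abs_sub _ _).trans (add_le_add (mA p) (mA1 _))
  have iBB : Integrable (fun p : X × Z × T => |B p - B1 (p.1, p.2.2)|) (μ.prod (ν.prod τ)) :=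
    integrable_bdd (M := M + M) ((hB.sub (hB1.comp
      (measurable_fst.prodMk (measurable_snd.comp measurable_snd)))).abs) fun p => by
      rw [abs_abs]
      exact (abs_sub _ _).trans (add_le_add (mB p) (mB1 _))
  rw [integral_prod _ iAA] at ha
  rw [integral_prod _ iBB] at hb
  have key : ∀ x, |(∫ z, (∫ s, A (x, z, s) ∂σ) * (∫ t, B (x, z, t) ∂τ) ∂ν)
        - (∫ z, ∫ s, A (x, z, s) ∂σ ∂ν) * (∫ z, ∫ t, B (x, z, t) ∂τ ∂ν)|
      ≤ 2 * M * ((∫ p, |A (x, p) - A1 (x, p.2)| ∂(ν.prod σ))
          + ∫ p, |B (x, p) - B1 (x, p.2)| ∂(ν.prod τ)) := fun x =>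
    prod_inner (hA.comp measurable_prodMk_left) (hB.comp measurable_prodMk_left)
      (hA1.comp measurable_prodMk_left) (hB1.comp measurable_prodMk_left)
      (fun p => mA (x, p)) (fun p => mB (x, p)) (fun p => mA1 (x, p)) (fun p => mB1 (x, p))
  calc _ ≤ ∫ x, 2 * M * ((∫ p, |A (x, p) - A1 (x, p.2)| ∂(ν.prod σ))
          + ∫ p, |B (x, p) - B1 (x, p.2)| ∂(ν.prod τ)) ∂μ :=
        integral_mono_of_nonneg (Filter.Eventually.of_forall fun x => abs_nonneg _)
          ((iAA.integral_prod_left.add iBB.integral_prod_left).const_mul _)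
          (Filter.Eventually.of_forall key)
    _ = 2 * M * ((∫ x, ∫ p, |A (x, p) - A1 (x, p.2)| ∂(ν.prod σ) ∂μ)
          + ∫ x, ∫ p, |B (x, p) - B1 (x, p.2)| ∂(ν.prod τ) ∂μ) := by
        rw [integral_const_mul, integral_add iAA.integral_prod_left iBB.integral_prod_left]
    _ ≤ 2 * M * (a + b) := mul_le_mul_of_nonneg_left (add_le_add ha hb) (by linarith)

end Crest.Agent.R014.Prod_108
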