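import Crest.Agent.R014.Prod1_108
import Crest.Agent.R014.Nd3_837
import Crest.Agent.R014.NScE_395

/-!
Row 14, block D, section 4 (PROD), helper108: the posterior spread of one digit hardly depends on
the noise, and the near independence of the spreads of two roots with a common noise.
-/

set_option autoImplicit false

open MeasureTheory Finset Crest.NumberTheoryR.Packets
open Crest.Agent.R014.Nd_837 Crest.Agent.R014.Ne1_567 Crest.Agent.R014.NScB_395
open Crest.Agent.R014.NScC_395 Crest.Agent.R014.NScD_395 Crest.Agent.R014.NScE_395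
open Crest.Agent.R014.Ms_667
open Crest.Agent.R014.Ne3_567 (pv measurable_pv pv_nonneg sum_pv pv_le_one sum_abs_pv_le_two)
open scoped ENNReal

noncomputable section

namespace Crest.Agent.R014.Prod_108

variable {n : ℕ}

/-! ### the observation as a function of (x, ζ, s) -/

/-- the observation `x ζ u(2^-r s)` -/
def ob {i j : Fin n} (hij : i ≠ j) (r : ℝ) (p : ModSpace n × SLR n × ℝ) : ModSpace n :=
  act p.1 (p.2.1 * uu hij ((2 : ℝ) ^ (-r) * p.2.2))

theorem measurable_ob {i j : Fin n} (hij : i ≠ j) (r : ℝ) : Measurable (ob (n := n) hij r) :=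
  measurable_act₂.comp (measurable_fst.prodMk (measurable_mul₂.comp
    ((measurable_fst.comp measurable_snd).prodMk
      ((measurable_uuw hij r).comp (measurable_snd.comp measurable_snd)))))

theorem map_ob (μ : Measure (ModSpace n)) (κ : Measure (SLR n)) [IsProbabilityMeasure μ]
    [IsProbabilityMeasure κ] {i j : Fin n} (hij : i ≠ j) (r : ℝ) :
    (μ.prod (κ.prod uni)).map (ob hij r) = stp μ (cv κ (dl hij r)) := by
  have h1 : κ.prod (dl hij r) = (κ.prod uni).map
      (Prod.map id fun θ : ℝ => (uu hij ((2 : ℝ) ^ (-r) * θ) : SLR n)) := by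
    conv_lhs => rw [← Measure.map_id (μ := κ)]
    exact Measure.map_prod_map κ uni measurable_id (measurable_uuw hij r)
  have h2 : cv κ (dl hij r) = (κ.prod uni).map
      fun q : SLR n × ℝ => q.1 * uu hij ((2 : ℝ) ^ (-r) * q.2) := by
    unfold cv
    rw [h1, Measure.map_map measurable_mul₂ (measurable_id.prodMap (measurable_uuw hij r))]
    rfl
  have hm : Measurable fun q : SLR n × ℝ => q.1 * uu hij ((2 : ℝ) ^ (-r) * q.2) :=
    measurable_mul₂.comp (measurable_fst.prodMk ((measurable_uuw hij r).comp measurable_snd))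
  have h3 : μ.prod (cv κ (dl hij r)) = (μ.prod (κ.prod uni)).map
      (Prod.map id fun q : SLR n × ℝ => q.1 * uu hij ((2 : ℝ) ^ (-r) * q.2)) := by
    rw [h2]
    conv_lhs => rw [← Measure.map_id (μ := μ)]
    exact Measure.map_prod_map μ (κ.prod uni) measurable_id hm
  unfold stp
  rw [h3, Measure.map_map measurable_act₂ (measurable_id.prodMap hm)]
  rfl

/-- double average of the spread over noise and window -/
theorem integral_ob (κ : Measure (SLR n)) [IsProbabilityMeasure κ]
    {i j : Fin n} (hij : i ≠ j) (r : ℝ) {b : ℕ} [NeZero b] (ρ : Fin b → Measure (ModSpace n))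
    (x : ModSpace n) :
    ∫ z, ∫ s, ps ρ (ob hij r (x, z, s)) ∂uni ∂κ = Av ρ (cv κ (dl hij r)) x := by
  unfold Av
  rw [integral_cv κ (dl hij r) (F := fun g => ps ρ (act x g)) ((measurable_ps ρ).comp
      (measurable_act₂.comp measurable_prodMk_left)) (M := 2) (fun g => abs_ps_le ρ _)]
  refine integral_congr_ae (Filter.Eventually.of_forall fun z => ?_)
  have hm : Measurable fun h : SLR n => ps ρ (act x (z * h)) :=
    (measurable_ps ρ).comp (measurable_act₂.comp (measurable_prodMk_left.comp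
      (measurable_mul₂.comp measurable_prodMk_left)))
  simp only
  unfold dl
  rw [integral_map (measurable_uuw hij r).aemeasurable hm.aestronglyMeasurable]
  rfl

/-! ### the spread hardly depends on the noise -/

/-- the reference average -/
def rf (μ : Measure (ModSpace n)) (κ1 : Measure (SLR n)) {i j : Fin n} (hij : i ≠ j) (r : ℝ)
    (b : ℕ) (q : ModSpace n × ℝ) : ℝ :=
  Av (lab μ κ1 hij r b) κ1 (act q.1 (uu hij ((2 : ℝ) ^ (-r) * q.2)))

theorem measurable_rf (μ : Measure (ModSpace n)) (κ1 : Measure (SLR n)) [IsProbabilityMeasure κ1]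
    {i j : Fin n} (hij : i ≠ j) (r : ℝ) {b : ℕ} [NeZero b] :
    Measurable (rf μ κ1 hij r b) :=
  (measurable_Av _ κ1).comp (measurable_act₂.comp (measurable_fst.prodMk
    ((measurable_uuw hij r).comp measurable_snd)))

theorem rf_nonneg (μ : Measure (ModSpace n)) (κ1 : Measure (SLR n)) [IsProbabilityMeasure κ1]
    {i j : Fin n} (hij : i ≠ j) (r : ℝ) {b : ℕ} [NeZero b] (q : ModSpace n × ℝ) :
    0 ≤ rf μ κ1 hij r b q := Av_nonneg _ _ _

theorem rf_le (μ : Measure (ModSpace n)) (κ1 : Measure (SLR n)) [IsProbabilityMeasure κ1]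
    {i j : Fin n} (hij : i ≠ j) (r : ℝ) {b : ℕ} [NeZero b] (q : ModSpace n × ℝ) :
    rf μ κ1 hij r b q ≤ 2 := Av_le _ _ _

/-- **(IND)** at the depth of the reference law. -/
theorem ind_ref {μ : Measure (ModSpace n)} [IsProbabilityMeasure μ] {κR κ1 : Measure (SLR n)}
    [IsProbabilityMeasure κR] [IsProbabilityMeasure κ1] {i j : Fin n} (hij : i ≠ j) (r : ℝ)
    {b : ℕ} [NeZero b] {E e' : ℝ}
    (h1 : ∫ p, ∑ d, |pv (lab μ κR hij r b) d p.1 - pv (lab μ κ1 hij r b) d (act p.1 p.2)|
      ∂((tot (lab μ κR hij r b)).prod κ1) ≤ E)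
    (h3 : ∀ᵐ q ∂(κR.prod uni), TVle (κ1.map fun g =>
      (uu hij ((2 : ℝ) ^ (-r) * q.2))⁻¹ * q.1 * uu hij ((2 : ℝ) ^ (-r) * q.2) * g) κ1 e') :
    ∫ p, |ps (lab μ κR hij r b) (ob hij r p) - rf μ κ1 hij r b (p.1, p.2.2)|
      ∂(μ.prod (κR.prod uni)) ≤ 4 * E + 4 * e' := by
  have hb : 0 < b := Nat.pos_of_ne_zero (NeZero.ne b)
  set ρR := lab μ κR hij r b with hρR
  set ρ1 := lab μ κ1 hij r b with hρ1
  have hlaw : tot ρR = (μ.prod (κR.prod uni)).map (ob hij r) := by
    rw [map_ob, NScD_395.tot_lab_eq μ κR hij r hb]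
  have hP1 : IsProbabilityMeasure (tot ρR) := by
    rw [hlaw]; exact Measure.isProbabilityMeasure_map (measurable_ob hij r).aemeasurable
  set P := (tot ρR).prod κ1 with hP
  set T : ModSpace n × SLR n → ℝ := fun p => |ps ρR p.1 - ps ρ1 (act p.1 p.2)| with hTdef
  have hTm : Measurable T :=
    (((measurable_ps ρR).comp measurable_fst).sub ((measurable_ps ρ1).comp measurable_act₂)).abs
  have hTb : ∀ p, |T p| ≤ 2 := by
    intro p
    rw [hTdef]
    simp only [abs_abs]
    rw [abs_le]
    constructor <;> linarith [ps_nonneg ρR p.1, ps_nonneg ρ1 (act p.1 p.2), ps_le ρR p.1,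
      ps_le ρ1 (act p.1 p.2)]
  have hTi : Integrable T P := bdd_integrable hTm hTb
  have hSm : Measurable fun p : ModSpace n × SLR n =>
      ∑ d, |pv ρR d p.1 - pv ρ1 d (act p.1 p.2)| :=
    Finset.measurable_sum _ fun d _ => (((measurable_pv ρR d).comp measurable_fst).sub
      ((measurable_pv ρ1 d).comp measurable_act₂)).abs
  have hSi : Integrable (fun p : ModSpace n × SLR n =>
      ∑ d, |pv ρR d p.1 - pv ρ1 d (act p.1 p.2)|) P := by
    refine bdd_integrable hSm (M := 2) fun p => ?_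
    rw [abs_of_nonneg (sum_nonneg fun c _ => abs_nonneg _)]
    exact sum_abs_pv_le_two ρR ρ1 _ _
  have hT : ∫ p, T p ∂P ≤ 4 * E := by
    refine (integral_mono hTi (hSi.const_mul 4) fun p => ps_lip ρR ρ1 p.1 (act p.1 p.2)).trans ?_
    rw [integral_const_mul]
    exact mul_le_mul_of_nonneg_left h1 (by norm_num)
  -- average over the reference noise
  set G : ModSpace n → ℝ := fun y => ∫ h, T (y, h) ∂κ1 with hG
  have hGm : Measurable G := (hTm.stronglyMeasurable.integral_prod_right').measurable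
  have hGb : ∀ y, |G y| ≤ 2 := by
    intro y
    have h := norm_integral_le_of_norm_le_const (μ := κ1) (C := 2) (f := fun h => T (y, h))
      (Filter.Eventually.of_forall fun h => by rw [Real.norm_eq_abs]; exact hTb _)
    simpa using h
  have hGI : ∫ p, G (ob hij r p) ∂(μ.prod (κR.prod uni)) ≤ 4 * E := by
    have h4 : ∫ y, G y ∂(tot ρR) = ∫ p, T p ∂P := by
      rw [hP, integral_prod _ hTi]
    rw [← h4, hlaw, integral_map (measurable_ob hij r).aemeasurable
      hGm.aestronglyMeasurable] at hT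
    exact hT
  have hW : Measurable fun y : ModSpace n => ∫ h, ps ρ1 (act y h) ∂κ1 := measurable_Av ρ1 κ1
  -- pointwise estimate
  have hpt : ∀ᵐ p ∂(μ.prod (κR.prod uni)),
      |ps ρR (ob hij r p) - rf μ κ1 hij r b (p.1, p.2.2)| ≤ G (ob hij r p) + 4 * e' := by
    have h5 : ∀ᵐ p ∂(μ.prod (κR.prod uni)), TVle (κ1.map fun g =>
        (uu hij ((2 : ℝ) ^ (-r) * p.2.2))⁻¹ * p.2.1 * uu hij ((2 : ℝ) ^ (-r) * p.2.2) * g)
          κ1 e' := Measure.quasiMeasurePreserving_snd.ae h3
    filter_upwards [h5] with p hp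
    have e2 : ps ρR (ob hij r p) - ∫ h, ps ρ1 (act (ob hij r p) h) ∂κ1 =
        ∫ h, (ps ρR (ob hij r p) - ps ρ1 (act (ob hij r p) h)) ∂κ1 := by
      rw [integral_sub (integrable_const _)]
      · simp
      · exact bdd_integrable ((measurable_ps ρ1).comp
          (measurable_act₂.comp measurable_prodMk_left)) (M := 2) fun g => abs_ps_le ρ1 _
    have e3 : |ps ρR (ob hij r p) - ∫ h, ps ρ1 (act (ob hij r p) h) ∂κ1| ≤ G (ob hij r p) := by
      rw [e2]
      exact abs_integral_le_integral_abs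
    set u : SLR n := uu hij ((2 : ℝ) ^ (-r) * p.2.2) with hu
    have hmg : Measurable fun g : SLR n => u⁻¹ * p.2.1 * u * g :=
      measurable_mul₂.comp measurable_prodMk_left
    have hpr : IsProbabilityMeasure (κ1.map fun g => u⁻¹ * p.2.1 * u * g) :=
      Measure.isProbabilityMeasure_map hmg.aemeasurable
    have hFm : Measurable fun g => ps ρ1 (act (act p.1 u) g) :=
      (measurable_ps ρ1).comp (measurable_act₂.comp measurable_prodMk_left)
    have e4 := integral_le hp (f := fun g => ps ρ1 (act (act p.1 u) g)) hFm (M := 2)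
      (fun g => abs_ps_le ρ1 _)
    rw [integral_map hmg.aemeasurable hFm.aestronglyMeasurable] at e4
    have e5 : ∀ g, act (act p.1 u) (u⁻¹ * p.2.1 * u * g) = act (ob hij r p) g := by
      intro g
      unfold ob
      rw [act_act, act_act, ← hu]
      congr 1
      group
    simp only [e5] at e4
    have e6 : rf μ κ1 hij r b (p.1, p.2.2) = ∫ g, ps ρ1 (act (act p.1 u) g) ∂κ1 := rfl
    rw [e6]
    refine (abs_sub_le _ (∫ h, ps ρ1 (act (ob hij r p) h) ∂κ1) _).trans (add_le_add e3 ?_)
    refine e4.trans (le_of_eq (by ring))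
  have hGi : Integrable (fun p => G (ob hij r p)) (μ.prod (κR.prod uni)) :=
    bdd_integrable (hGm.comp (measurable_ob hij r)) (M := 2) fun p => hGb _
  have hDm : Measurable fun p : ModSpace n × SLR n × ℝ =>
      |ps ρR (ob hij r p) - rf μ κ1 hij r b (p.1, p.2.2)| :=
    (((measurable_ps ρR).comp (measurable_ob hij r)).sub ((measurable_rf μ κ1 hij r).comp
      (measurable_fst.prodMk (measurable_snd.comp measurable_snd)))).abs
  have hDi : Integrable (fun p : ModSpace n × SLR n × ℝ =>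
      |ps ρR (ob hij r p) - rf μ κ1 hij r b (p.1, p.2.2)|) (μ.prod (κR.prod uni)) := by
    refine bdd_integrable hDm (M := 2) fun p => ?_
    rw [abs_abs, abs_le]
    constructor <;> linarith [ps_nonneg ρR (ob hij r p), ps_le ρR (ob hij r p),
      rf_nonneg μ κ1 hij r (b := b) (p.1, p.2.2), rf_le μ κ1 hij r (b := b) (p.1, p.2.2)]
  refine (integral_mono_ae hDi (hGi.add (integrable_const _)) hpt).trans ?_
  have h7 : ∫ p, (fun p => G (ob hij r p)) p + (4 * e') ∂(μ.prod (κR.prod uni))
      = (∫ p, G (ob hij r p) ∂(μ.prod (κR.prod uni))) + 4 * e' := by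
    rw [integral_add hGi (integrable_const _)]
    simp
  simp only [Pi.add_apply]
  rw [h7]
  linarith

section Shift

variable {μ : Measure (ModSpace n)} [IsProbabilityMeasure μ] (hμ : AInv μ)
  {κR κ1 : Measure (SLR n)} [IsProbabilityMeasure κR] [IsProbabilityMeasure κ1]
  {i j : Fin n} (hij : i ≠ j) (t : Fin n → ℝ) (r : ℝ) {b : ℕ} [NeZero b]
include hμ

/-- **(IND)** after a shift by the diagonal group. -/
theorem ind_shift {r0 E e' : ℝ} (hr : r + (t i - t j) = r0)
    (h1 : ∫ p, ∑ d, |pv (lab μ (cj (aT t) κR) hij r0 b) d p.1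
        - pv (lab μ κ1 hij r0 b) d (act p.1 p.2)|
      ∂((tot (lab μ (cj (aT t) κR) hij r0 b)).prod κ1) ≤ E)
    (h3 : ∀ᵐ q ∂((cj (aT t) κR).prod uni), TVle (κ1.map fun g =>
      (uu hij ((2 : ℝ) ^ (-r0) * q.2))⁻¹ * q.1 * uu hij ((2 : ℝ) ^ (-r0) * q.2) * g) κ1 e') :
    ∫ p, |ps (lab μ κR hij r b) (ob hij r p) - rf μ κ1 hij r0 b (act p.1 (aT t), p.2.2)|
      ∂(μ.prod (κR.prod uni)) ≤ 4 * E + 4 * e' := by
  subst hr
  have hb : 0 < b := Nat.pos_of_ne_zero (NeZero.ne b)
  have h := ind_ref (μ := μ) (κR := cj (aT t) κR) (κ1 := κ1) hij (r + (t i - t j)) h1 h3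
  -- the change of variables
  set a := aT t with ha
  set Φ : ModSpace n × SLR n × ℝ → ModSpace n × SLR n × ℝ :=
    Prod.map (fun x => act x a) (Prod.map (fun g => a⁻¹ * g * a) id) with hΦ
  have hΦm : Measurable Φ :=
    (measurable_act a).prodMap ((measurable_cj a).prodMap measurable_id)
  have hmap : μ.prod ((cj a κR).prod uni) = (μ.prod (κR.prod uni)).map Φ := by
    have h2 : (cj a κR).prod uni = (κR.prod uni).map (Prod.map (fun g => a⁻¹ * g * a) id) := by
      unfold cj
      conv_lhs => rw [← Measure.map_id (μ := uni)]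
      exact Measure.map_prod_map κR uni (measurable_cj a) measurable_id
    rw [h2]
    conv_lhs => rw [← hμ t]
    exact Measure.map_prod_map μ (κR.prod uni) (measurable_act a)
      ((measurable_cj a).prodMap measurable_id)
  have hDm : Measurable fun p : ModSpace n × SLR n × ℝ =>
      |ps (lab μ (cj a κR) hij (r + (t i - t j)) b) (ob hij (r + (t i - t j)) p)
        - rf μ κ1 hij (r + (t i - t j)) b (p.1, p.2.2)| :=
    (((measurable_ps _).comp (measurable_ob hij _)).sub ((measurable_rf μ κ1 hij _).comp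
      (measurable_fst.prodMk (measurable_snd.comp measurable_snd)))).abs
  rw [hmap, integral_map hΦm.aemeasurable hDm.aestronglyMeasurable] at h
  refine le_trans (le_of_eq (integral_congr_ae ?_)) h
  have h4 := ps_lab_sh hμ κR hij t r b
  rw [NScD_395.tot_lab_eq μ κR hij r hb, ← map_ob] at h4
  have h5 := ae_of_ae_map (measurable_ob hij r).aemeasurable h4
  filter_upwards [h5] with p hp
  rw [← hp]
  have e1 : act (ob hij r p) a = ob hij (r + (t i - t j)) (Φ p) := by
    have e2 := aT_conj_uu hij t ((2 : ℝ) ^ (-r) * p.2.2)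
    have e3 : (2 : ℝ) ^ (-(t i - t j)) * ((2 : ℝ) ^ (-r) * p.2.2)
        = (2 : ℝ) ^ (-(r + (t i - t j))) * p.2.2 := by
      rw [← mul_assoc, ← Real.rpow_add two_pos]
      congr 2
      ring
    rw [e3] at e2
    simp only [hΦ, ob, Prod.map_fst, Prod.map_snd, id_eq, act_act]
    rw [← e2, ← ha]
    congr 1
    group
  rw [e1]
  rfl

end Shift

/-! ### absorption of every conjugate -/

/-- If the law of `g` is nearly invariant under left multiplication by `z` and under conjugation
by `u`, it is nearly invariant under left multiplication by `u⁻¹ z u`. -/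
theorem conj_absorb {κ1 : Measure (SLR n)} {z u : SLR n} {ea ec : ℝ}
    (hz : TVle (κ1.map fun g => z * g) κ1 ea) (hu : TVle (cj u κ1) κ1 ec) :
    TVle (κ1.map fun g => u⁻¹ * z * u * g) κ1 (ea + 2 * ec) := by
  have hm : Measurable fun g : SLR n => u⁻¹ * z * u * g := measurable_const_mul _
  have hz' : Measurable fun g : SLR n => z * g := measurable_const_mul _
  have s1 : TVle (κ1.map fun g => u⁻¹ * z * u * g) ((cj u κ1).map fun g => u⁻¹ * z * u * g) ec :=
    (hu.symm).map hm
  have e1 : (cj u κ1).map (fun g => u⁻¹ * z * u * g) = cj u (κ1.map fun g => z * g) := by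
    unfold cj
    rw [Measure.map_map hm (measurable_cj u), Measure.map_map (measurable_cj u) hz']
    congr 1
    funext g
    simp only [Function.comp_apply]
    group
  rw [e1] at s1
  have s2 := TVle.cj u hz
  exact ((s1.trans s2).trans hu).mono (by linarith)

/-! ### near independence of two spreads with a common noise -/

/-- **(PROD)**, abstract form: two spreads that hardly depend on the common noise. -/
theorem prod_gen {μ : Measure (ModSpace n)} [IsProbabilityMeasure μ] {κ : Measure (SLR n)}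
    [IsProbabilityMeasure κ] {i j k l : Fin n} (hij : i ≠ j) (hkl : k ≠ l) (r r' : ℝ) {b b' : ℕ}
    [NeZero b] [NeZero b'] (ρ : Fin b → Measure (ModSpace n)) (ρ' : Fin b' → Measure (ModSpace n))
    {A1 B1 : ModSpace n × ℝ → ℝ} (hA1 : Measurable A1) (hB1 : Measurable B1)
    (mA1 : ∀ q, |A1 q| ≤ 2) (mB1 : ∀ q, |B1 q| ≤ 2) {a a' : ℝ}
    (ha : ∫ p, |ps ρ (ob hij r p) - A1 (p.1, p.2.2)| ∂(μ.prod (κ.prod uni)) ≤ a)
    (hb : ∫ p, |ps ρ' (ob hkl r' p) - B1 (p.1, p.2.2)| ∂(μ.prod (κ.prod uni)) ≤ a') :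
    ∫ x, |(∫ z, (∫ s, ps ρ (ob hij r (x, z, s)) ∂uni) * (∫ s, ps ρ' (ob hkl r' (x, z, s)) ∂uni) ∂κ)
        - Av ρ (cv κ (dl hij r)) x * Av ρ' (cv κ (dl hkl r')) x| ∂μ ≤ 4 * (a + a') := by
  have h := prod_abs (μ := μ) (ν := κ) (σ := uni) (τ := uni)
    (A := fun p : ModSpace n × SLR n × ℝ => ps ρ (ob hij r p))
    (B := fun p : ModSpace n × SLR n × ℝ => ps ρ' (ob hkl r' p))
    ((measurable_ps ρ).comp (measurable_ob hij r)) ((measurable_ps ρ').comp (measurable_ob hkl r'))
    hA1 hB1 (M := 2) (fun p => abs_ps_le ρ _) (fun p => abs_ps_le ρ' _) mA1 mB1 ha hb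
  have e : ∀ x, (∫ z, ∫ s, ps ρ (ob hij r (x, z, s)) ∂uni ∂κ) = Av ρ (cv κ (dl hij r)) x :=
    fun x => integral_ob κ hij r ρ x
  have e' : ∀ x, (∫ z, ∫ s, ps ρ' (ob hkl r' (x, z, s)) ∂uni ∂κ) = Av ρ' (cv κ (dl hkl r')) x :=
    fun x => integral_ob κ hkl r' ρ' x
  simp only [e, e'] at h
  refine h.trans (le_of_eq (by ring))

/-- replacing the averages by nearby functions -/
theorem prod_replace {μ : Measure (ModSpace n)} [IsProbabilityMeasure μ]
    {J F G F' G' : ModSpace n → ℝ} (hJ : Measurable J) (mJ : ∀ x, |J x| ≤ 4)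
    (hF : Measurable F) (hG : Measurable G) (hF' : Measurable F') (hG' : Measurable G')
    (mF : ∀ x, |F x| ≤ 2) (mG : ∀ x, |G x| ≤ 2) (mF' : ∀ x, |F' x| ≤ 2) (mG' : ∀ x, |G' x| ≤ 2)
    {c e e' : ℝ} (h : ∫ x, |J x - F x * G x| ∂μ ≤ c) (h1 : ∫ x, |F x - F' x| ∂μ ≤ e)
    (h2 : ∫ x, |G x - G' x| ∂μ ≤ e') :
    ∫ x, |J x - F' x * G' x| ∂μ ≤ c + 2 * e + 2 * e' := by
  have b1 : ∀ x, |F x * G x| ≤ 4 := fun x => by
    rw [abs_mul]
    have := mul_le_mul (mF x) (mG x) (abs_nonneg _) (by norm_num)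
    linarith
  have b2 : ∀ x, |F' x * G' x| ≤ 4 := fun x => by
    rw [abs_mul]
    have := mul_le_mul (mF' x) (mG' x) (abs_nonneg _) (by norm_num)
    linarith
  have i1 : Integrable (fun x => |J x - F x * G x|) μ :=
    bdd_integrable (hJ.sub (hF.mul hG)).abs (M := 8) fun x => by
      rw [abs_abs]
      exact (abs_sub _ _).trans (by linarith [mJ x, b1 x])
  have i2 : Integrable (fun x => |F x - F' x|) μ :=
    bdd_integrable (hF.sub hF').abs (M := 4) fun x => by
      rw [abs_abs]
      exact (abs_sub _ _).trans (by linarith [mF x, mF' x])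
  have i3 : Integrable (fun x => |G x - G' x|) μ :=
    bdd_integrable (hG.sub hG').abs (M := 4) fun x => by
      rw [abs_abs]
      exact (abs_sub _ _).trans (by linarith [mG x, mG' x])
  have i4 : Integrable (fun x => |J x - F' x * G' x|) μ :=
    bdd_integrable (hJ.sub (hF'.mul hG')).abs (M := 8) fun x => by
      rw [abs_abs]
      exact (abs_sub _ _).trans (by linarith [mJ x, b2 x])
  have hle : ∫ x, |J x - F' x * G' x| ∂μ ≤
      ∫ x, (|J x - F x * G x| + 2 * |F x - F' x| + 2 * |G x - G' x|) ∂μ := by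
    refine integral_mono i4 ((i1.add (i2.const_mul 2)).add (i3.const_mul 2)) fun x => ?_
    have e1 : J x - F' x * G' x =
        (J x - F x * G x) + ((F x - F' x) * G x + F' x * (G x - G' x)) := by ring
    simp only
    rw [e1]
    have e2 : |(F x - F' x) * G x| ≤ 2 * |F x - F' x| := by
      rw [abs_mul, mul_comm]
      exact mul_le_mul_of_nonneg_right (mG x) (abs_nonneg _)
    have e3 : |F' x * (G x - G' x)| ≤ 2 * |G x - G' x| := by
      rw [abs_mul]
      exact mul_le_mul_of_nonneg_right (mF' x) (abs_nonneg _)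
    have e4 := abs_add_le (J x - F x * G x) ((F x - F' x) * G x + F' x * (G x - G' x))
    have e5 := abs_add_le ((F x - F' x) * G x) (F' x * (G x - G' x))
    linarith
  have i5 : Integrable (fun x => |J x - F x * G x| + 2 * |F x - F' x|) μ :=
    i1.add (i2.const_mul 2)
  rw [integral_add i5 (i3.const_mul 2), integral_add i1 (i2.const_mul 2), integral_const_mul,
    integral_const_mul] at hle
  linarith

/-- the joint average of two spreads with a common noise -/
def J2 (κ : Measure (SLR n)) {i j k l : Fin n} (hij : i ≠ j) (hkl : k ≠ l) (r r' : ℝ) {b b' : ℕ}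
    (ρ : Fin b → Measure (ModSpace n)) (ρ' : Fin b' → Measure (ModSpace n)) (x : ModSpace n) : ℝ :=
  ∫ z, (∫ s, ps ρ (ob hij r (x, z, s)) ∂uni) * (∫ s, ps ρ' (ob hkl r' (x, z, s)) ∂uni) ∂κ

theorem measurable_inner {i j : Fin n} (hij : i ≠ j) (r : ℝ) {b : ℕ} [NeZero b]
    (ρ : Fin b → Measure (ModSpace n)) :
    Measurable fun q : ModSpace n × SLR n => ∫ s, ps ρ (ob hij r (q.1, q.2, s)) ∂uni := by
  have hm : Measurable fun w : (ModSpace n × SLR n) × ℝ =>
      ps ρ (ob hij r (w.1.1, w.1.2, w.2)) :=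
    (measurable_ps ρ).comp ((measurable_ob hij r).comp
      ((measurable_fst.comp measurable_fst).prodMk
        ((measurable_snd.comp measurable_fst).prodMk measurable_snd)))
  exact (hm.stronglyMeasurable.integral_prod_right').measurable

theorem inner_nonneg {i j : Fin n} (hij : i ≠ j) (r : ℝ) {b : ℕ} [NeZero b]
    (ρ : Fin b → Measure (ModSpace n)) (x : ModSpace n) (z : SLR n) :
    0 ≤ ∫ s, ps ρ (ob hij r (x, z, s)) ∂uni := integral_nonneg fun s => ps_nonneg ρ _

theorem inner_le {i j : Fin n} (hij : i ≠ j) (r : ℝ) {b : ℕ} [NeZero b]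
    (ρ : Fin b → Measure (ModSpace n)) (x : ModSpace n) (z : SLR n) :
    ∫ s, ps ρ (ob hij r (x, z, s)) ∂uni ≤ 2 := by
  have h : ∫ s, ps ρ (ob hij r (x, z, s)) ∂uni ≤ ∫ _, (2 : ℝ) ∂uni :=
    integral_mono_of_nonneg (Filter.Eventually.of_forall fun g => ps_nonneg ρ _)
      (integrable_const _) (Filter.Eventually.of_forall fun g => ps_le ρ _)
  simpa using h

section J2
variable (κ : Measure (SLR n)) [IsProbabilityMeasure κ] {i j k l : Fin n} (hij : i ≠ j)
  (hkl : k ≠ l) (r r' : ℝ) {b b' : ℕ} [NeZero b] [NeZero b'] (ρ : Fin b → Measure (ModSpace n))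
  (ρ' : Fin b' → Measure (ModSpace n))

theorem measurable_J2 : Measurable (J2 κ hij hkl r r' ρ ρ') :=
  (((measurable_inner hij r ρ).mul
    (measurable_inner hkl r' ρ')).stronglyMeasurable.integral_prod_right').measurable

omit [IsProbabilityMeasure κ] in
theorem J2_nonneg (x : ModSpace n) : 0 ≤ J2 κ hij hkl r r' ρ ρ' x :=
  integral_nonneg fun z => mul_nonneg (inner_nonneg hij r ρ x z) (inner_nonneg hkl r' ρ' x z)

theorem J2_le (x : ModSpace n) : J2 κ hij hkl r r' ρ ρ' x ≤ 4 := by
  have h : J2 κ hij hkl r r' ρ ρ' x ≤ ∫ _, (4 : ℝ) ∂κ := by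
    refine integral_mono_of_nonneg (Filter.Eventually.of_forall fun z =>
      mul_nonneg (inner_nonneg hij r ρ x z) (inner_nonneg hkl r' ρ' x z)) (integrable_const _)
      (Filter.Eventually.of_forall fun z => ?_)
    have := mul_le_mul (inner_le hij r ρ x z) (inner_le hkl r' ρ' x z)
      (inner_nonneg hkl r' ρ' x z) (by norm_num)
    simp only
    linarith
  simpa using h

end J2

end Crest.Agent.R014.Prod_108
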