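import Crest.Agent.R014.BoxV_71

/-!
# Row 14: the point of `SL_n(ℤ)\SL_n(ℝ)` given by a matrix (helper71)

`pt B` = coset of `normalizeDet B` (`latticePoint m σ = pt (embMatrix m σ)` definitionally).
`pt_mul_sl`, `pt_gl`, `pt_smul`, `pt_of_mk`, `orbitMap_pt`.
-/

set_option autoImplicit false
open MeasureTheory Set Matrix
open Crest Crest.NumberTheoryR Crest.NumberTheoryR.Packets

namespace Crest.Agent.R014.Pt_71

open BoxV_71

variable {n : ℕ}

/-- the point given by a real matrix. -/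
noncomputable def pt (B : Matrix (Fin n) (Fin n) ℝ) : ModSpace n :=
  if h : (normalizeDet B).det = 1 then Quotient.mk _ (⟨normalizeDet B, h⟩ : SLR n)
  else Quotient.mk _ 1

theorem latticePoint_eq {K : Type*} [Field K] [NumberField K] (m : LatticeBasis n K)
    (σ : Fin n ≃ (K →+* ℝ)) : latticePoint m σ = pt (embMatrix m σ) := rfl

/-- sign matrix `diag(-1,1,…,1)` over a commutative ring. -/
def flip (n : ℕ) (R : Type*) [CommRing R] : Matrix (Fin n) (Fin n) R :=
  Matrix.diagonal fun i => if i.val = 0 then -1 else 1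

theorem flip_mul_flip (n : ℕ) (R : Type*) [CommRing R] : flip n R * flip n R = 1 := by
  unfold flip
  rw [Matrix.diagonal_mul_diagonal, ← Matrix.diagonal_one]
  congr 1
  funext i
  split_ifs <;> simp

theorem det_flip (n : ℕ) (hn : 0 < n) (R : Type*) [CommRing R] : (flip n R).det = -1 := by
  obtain ⟨d, rfl⟩ : ∃ d, n = d + 1 := ⟨n - 1, by omega⟩
  unfold flip
  rw [Matrix.det_diagonal, Fin.prod_univ_succ]
  simp

theorem map_flip (n : ℕ) : (flip n ℤ).map (Int.castRingHom ℝ) = flip n ℝ := by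
  ext i j
  simp only [flip, Matrix.map_apply, Matrix.diagonal_apply]
  split_ifs <;> simp

theorem normalizeDet_eq (B : Matrix (Fin n) (Fin n) ℝ) :
    normalizeDet B =
      if B.det < 0 then flip n ℝ * ((|B.det| ^ (-(1 : ℝ) / n)) • B)
      else (|B.det| ^ (-(1 : ℝ) / n)) • B := by
  ext i j
  by_cases h : B.det < 0
  · simp only [normalizeDet, h, true_and, if_true, flip, Matrix.diagonal_mul]
    split_ifs <;> simp
  · simp only [normalizeDet, h, false_and, if_false]

theorem det_normalizeDet (hn : 0 < n) {B : Matrix (Fin n) (Fin n) ℝ} (hB : B.det ≠ 0) :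
    (normalizeDet B).det = 1 := by
  have h1 : (|B.det| ^ (-(1 : ℝ) / n)) ^ n = |B.det|⁻¹ := by
    rw [← Real.rpow_natCast, ← Real.rpow_mul (abs_nonneg _)]
    have hn' : (n : ℝ) ≠ 0 := by positivity
    rw [show -(1 : ℝ) / n * n = -1 by field_simp, Real.rpow_neg_one]
  rw [normalizeDet_eq]
  split_ifs with h
  · rw [Matrix.det_mul, det_flip n hn, Matrix.det_smul, Fintype.card_fin, h1, abs_of_neg h]
    field_simp
  · have h0 : 0 < B.det := lt_of_le_of_ne (not_lt.1 h) (Ne.symm hB)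
    rw [Matrix.det_smul, Fintype.card_fin, h1, abs_of_pos h0]
    field_simp

theorem pt_eq_mk (hn : 0 < n) {B : Matrix (Fin n) (Fin n) ℝ} (hB : B.det ≠ 0) :
    pt B = Quotient.mk _ (⟨normalizeDet B, det_normalizeDet hn hB⟩ : SLR n) := by
  unfold pt
  rw [dif_pos (det_normalizeDet hn hB)]
  rfl

/-- two elements of `SL_n(ℝ)` that differ by an integral matrix give the same point. -/
theorem mk_eq_of_gl {g h : SLR n} (γ : Matrix (Fin n) (Fin n) ℤ)
    (hγ : g.1 = (γ.map (Int.castRingHom ℝ)) * h.1) :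
    (Quotient.mk _ g : ModSpace n) = Quotient.mk _ h := by
  have hdet : γ.det = 1 := by
    have h1 := congrArg Matrix.det hγ
    rw [Matrix.det_mul, g.2, h.2, mul_one] at h1
    have h2 : (Int.castRingHom ℝ) γ.det = 1 := by
      rw [RingHom.map_det]
      exact h1.symm
    have h3 : ((γ.det : ℤ) : ℝ) = 1 := h2
    exact_mod_cast h3
  refine Quotient.sound ?_
  show QuotientGroup.rightRel (intPoints n) g h
  rw [QuotientGroup.rightRel_apply]
  have h4 : h * g⁻¹ = (Matrix.SpecialLinearGroup.map (n := Fin n) (Int.castRingHom ℝ)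
      (⟨γ, hdet⟩ : Matrix.SpecialLinearGroup (Fin n) ℤ))⁻¹ := by
    rw [eq_inv_iff_mul_eq_one, mul_assoc, mul_eq_one_iff_eq_inv, _root_.mul_inv_rev, inv_inv,
      eq_comm, inv_mul_eq_iff_eq_mul]
    apply Subtype.ext
    show g.1 = _ * h.1
    exact hγ
  rw [h4]
  exact (intPoints n).inv_mem ⟨_, rfl⟩

/-- conversely. -/
theorem exists_gl_of_mk_eq {g h : SLR n} (hgh : (Quotient.mk _ g : ModSpace n) = Quotient.mk _ h) :
    ∃ γ : Matrix (Fin n) (Fin n) ℤ, γ.det = 1 ∧ g.1 = (γ.map (Int.castRingHom ℝ)) * h.1 := by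
  have h1 : QuotientGroup.rightRel (intPoints n) g h := Quotient.exact hgh
  rw [QuotientGroup.rightRel_apply] at h1
  obtain ⟨γ, hγ⟩ := h1
  refine ⟨γ⁻¹.1, γ⁻¹.2, ?_⟩
  have h2 : g = (Matrix.SpecialLinearGroup.map (n := Fin n) (Int.castRingHom ℝ) γ⁻¹) * h := by
    rw [map_inv]
    have h3 : (Matrix.SpecialLinearGroup.map (n := Fin n) (Int.castRingHom ℝ) γ) = h * g⁻¹ := hγ
    rw [h3]
    group
  exact congrArg Subtype.val h2

/-- `pt` does not change under left multiplication by an integral matrix of determinant `±1`. -/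
theorem pt_gl (hn : 0 < n) {B : Matrix (Fin n) (Fin n) ℝ} (hB : B.det ≠ 0)
    (γ : Matrix (Fin n) (Fin n) ℤ) (hγ : γ.det = 1 ∨ γ.det = -1) :
    pt ((γ.map (Int.castRingHom ℝ)) * B) = pt B := by
  set G := γ.map (Int.castRingHom ℝ) with hG
  have hGdet : G.det = ((γ.det : ℤ) : ℝ) := by
    rw [hG]
    exact (RingHom.map_det (Int.castRingHom ℝ) γ).symm
  have hGB : (G * B).det ≠ 0 := by
    rw [Matrix.det_mul, hGdet]
    refine mul_ne_zero ?_ hB
    rcases hγ with h | h <;> simp [h]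
  rw [pt_eq_mk hn hB, pt_eq_mk hn hGB]
  have habs : |(G * B).det| = |B.det| := by
    rw [Matrix.det_mul, hGdet, abs_mul]
    rcases hγ with h | h <;> simp [h]
  set c : ℝ := |B.det| ^ (-(1 : ℝ) / n) with hc
  have hF : (flip n ℤ).map (Int.castRingHom ℝ) = flip n ℝ := map_flip n
  -- the four cases
  by_cases hB0 : B.det < 0 <;> by_cases hGB0 : (G * B).det < 0
  · refine mk_eq_of_gl (flip n ℤ * γ * flip n ℤ) ?_
    show normalizeDet (G * B) = _ * normalizeDet B
    rw [normalizeDet_eq, normalizeDet_eq, if_pos hB0, if_pos hGB0, habs, Matrix.map_mul,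
      Matrix.map_mul, hF, ← hc, ← hG]
    rw [Matrix.mul_assoc (flip n ℝ * G), ← Matrix.mul_assoc (flip n ℝ) (flip n ℝ),
      flip_mul_flip, Matrix.one_mul, Matrix.mul_assoc, Matrix.mul_smul, Matrix.mul_smul,
      Matrix.mul_smul]
  · refine mk_eq_of_gl (γ * flip n ℤ) ?_
    show normalizeDet (G * B) = _ * normalizeDet B
    rw [normalizeDet_eq, normalizeDet_eq, if_pos hB0, if_neg hGB0, habs, Matrix.map_mul,
      hF, ← hc, ← hG]
    rw [Matrix.mul_assoc G, ← Matrix.mul_assoc (flip n ℝ) (flip n ℝ),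
      flip_mul_flip, Matrix.one_mul, Matrix.mul_smul]
  · refine mk_eq_of_gl (flip n ℤ * γ) ?_
    show normalizeDet (G * B) = _ * normalizeDet B
    rw [normalizeDet_eq, normalizeDet_eq, if_neg hB0, if_pos hGB0, habs, Matrix.map_mul,
      hF, ← hc, ← hG]
    rw [Matrix.mul_assoc, Matrix.mul_smul, Matrix.mul_smul, Matrix.mul_smul]
  · refine mk_eq_of_gl γ ?_
    show normalizeDet (G * B) = _ * normalizeDet B
    rw [normalizeDet_eq, normalizeDet_eq, if_neg hB0, if_neg hGB0, habs, ← hc, ← hG,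
      Matrix.mul_smul]

/-- `pt` does not change under positive scaling. -/
theorem pt_smul (hn : 0 < n) {B : Matrix (Fin n) (Fin n) ℝ} (hB : B.det ≠ 0) {c : ℝ}
    (hc : 0 < c) : pt (c • B) = pt B := by
  have hn' : (n : ℝ) ≠ 0 := by positivity
  have hcB : (c • B).det ≠ 0 := by
    rw [Matrix.det_smul]
    positivity
  have hdet : (c • B).det = c ^ n * B.det := by rw [Matrix.det_smul, Fintype.card_fin]
  have hN : normalizeDet (c • B) = normalizeDet B := by
    have h1 : |(c • B).det| ^ (-(1 : ℝ) / n) • (c • B) = |B.det| ^ (-(1 : ℝ) / n) • B := by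
      rw [hdet, abs_mul, abs_of_pos (pow_pos hc n), Real.mul_rpow (pow_pos hc n).le (abs_nonneg _),
        smul_smul, ← Real.rpow_natCast c n, ← Real.rpow_mul hc.le,
        show (n : ℝ) * (-(1 : ℝ) / n) = -1 by field_simp, Real.rpow_neg_one]
      congr 1
      field_simp
    have h2 : (c • B).det < 0 ↔ B.det < 0 := by
      rw [hdet]
      exact ⟨fun h => by
        by_contra hh
        push Not at hh
        have := mul_nonneg (pow_pos hc n).le hh
        linarith, fun h => mul_neg_of_pos_of_neg (pow_pos hc n) h⟩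
    rw [normalizeDet_eq, normalizeDet_eq, h1]
    by_cases h : B.det < 0
    · rw [if_pos h, if_pos (h2.2 h)]
    · rw [if_neg h, if_neg (fun hh => h (h2.1 hh))]
  unfold pt
  simp only [hN]

/-- right action on `pt`. -/
theorem act_pt (hn : 0 < n) {B : Matrix (Fin n) (Fin n) ℝ} (hB : B.det ≠ 0) (g : SLR n) :
    act (pt B) g = pt (B * g.1) := by
  have hdet : (B * g.1).det = B.det := by rw [Matrix.det_mul, g.2, mul_one]
  rw [pt_eq_mk hn hB, pt_eq_mk hn (by rw [hdet]; exact hB)]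
  refine (act_mk _ _).trans ?_
  congr 1
  apply Subtype.ext
  show normalizeDet B * g.1 = normalizeDet (B * g.1)
  rw [normalizeDet_eq, normalizeDet_eq, hdet]
  split_ifs
  · rw [Matrix.mul_assoc, Matrix.smul_mul]
  · rw [Matrix.smul_mul]

theorem mk_eq_pt (hn : 0 < n) (g : SLR n) : (Quotient.mk _ g : ModSpace n) = pt g.1 := by
  have hg : (g.1).det ≠ 0 := by rw [g.2]; exact one_ne_zero
  rw [pt_eq_mk hn hg]
  congr 1
  apply Subtype.ext
  show g.1 = normalizeDet g.1
  rw [normalizeDet_eq, g.2]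
  simp

/-- if `mk H = pt B` then `H = c γ B` with `γ` integral, `det γ = ±1`, `c = |det B|^(-1/n)`. -/
theorem exists_gl_of_mk_eq_pt (hn : 0 < n) (H : SLR n) {B : Matrix (Fin n) (Fin n) ℝ}
    (hB : B.det ≠ 0) (h : (Quotient.mk _ H : ModSpace n) = pt B) :
    ∃ γ : Matrix (Fin n) (Fin n) ℤ, (γ.det = 1 ∨ γ.det = -1) ∧
      H.1 = (|B.det| ^ (-(1 : ℝ) / n)) • ((γ.map (Int.castRingHom ℝ)) * B) := by
  rw [pt_eq_mk hn hB] at h
  obtain ⟨γ, hγ, hH⟩ := exists_gl_of_mk_eq h
  have hH' : H.1 = (γ.map (Int.castRingHom ℝ)) * normalizeDet B := hH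
  rw [normalizeDet_eq] at hH'
  by_cases h0 : B.det < 0
  · rw [if_pos h0] at hH'
    refine ⟨γ * flip n ℤ, ?_, ?_⟩
    · right
      rw [Matrix.det_mul, hγ, det_flip n hn, one_mul]
    · rw [hH', Matrix.map_mul, map_flip, Matrix.mul_smul, Matrix.mul_smul, Matrix.mul_assoc]
  · rw [if_neg h0] at hH'
    exact ⟨γ, Or.inl hγ, by rw [hH', Matrix.mul_smul]⟩

end Crest.Agent.R014.Pt_71
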