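import Crest.Agent.R014.Res_460

/-!
# Row 14, block D: the last step of (Q2) (helper460)

`shift_ev`: the spread functions at two points `x a^t`, `x a^t'` of the same depth are close in `L¹`.
`HR c₂ A B C`: the analytic form of (R): the three functions at depths `A`, `B`, `C` and with their
own numbers of digits.  `q2_of_hr : HR c₂ A B C → Q2 PZ Fr c₂ q₀`, `q₀ = A + B - C`.
-/

set_option autoImplicit false

open MeasureTheory Filter Topology
open Crest.NumberTheoryR.Packets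
open Crest.Agent.R014.Iface_792
open Crest.Agent.R014.Nd_837
open Crest.Agent.R014.DSkel_792
open Crest.Agent.R014.AsmB_460
open Crest.Agent.R014.AsmB2_460
open Crest.Agent.R014.NScH_395 (PZ NC c1N)

namespace Crest.Agent.R014.Q2c_460

variable {n : ℕ}

/-- change of variables by the diagonal group. -/
theorem integral_aT {μ : Measure (ModSpace n)} (hA : AInv μ) (t : Fin n → ℝ)
    {F : ModSpace n → ℝ} (hF : Measurable F) :
    ∫ x, F (act x (aT t)) ∂μ = ∫ x, F x ∂μ := by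
  have h1 : Measurable fun x : ModSpace n => act x (aT t) := Top1_458.measurable_act _
  conv_rhs => rw [← hA t]
  rw [integral_map h1.aemeasurable hF.aestronglyMeasurable]

theorem act_aT_add (x : ModSpace n) (s t : Fin n → ℝ) :
    act x (aT (s + t)) = act (act x (aT s)) (aT t) := by
  rw [aT_add, Top1_458.act_mul]

theorem tz_eq (z : Fin n → ℤ) (x : ModSpace n) : tz z x = act x (aT fun i => -(z i : ℝ)) := rfl

/-- **same depth, different base points**. -/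
theorem shift_ev {b : ℕ} (hb : 0 < b) {e₁ : ℝ} (he₁ : 0 < e₁) :
    Ev (n := n) Fr fun μ u₁ u₂ => ∀ i j : Fin n, i ≠ j → ∀ t t' : Fin n → ℝ,
      t i - t j = t' i - t' j → (∀ l, |t l| ≤ u₂ / 6000) → (∀ l, |t' l| ≤ u₂ / 6000) →
      ∫ x, |PZ μ u₁ b i j (act x (aT t)) - PZ μ u₁ b i j (act x (aT t'))| ∂μ ≤ e₁ := by
  obtain ⟨η, U, hη, hU, h⟩ := NScH_395.q1Z (n := n) hb he₁
  refine ev_of ⟨{b}, η, 1 / 100000, max U (U0 n), hη, by norm_num, ?_⟩
  intro μ hp hA u₁ u₂ hU1 h2 hN i j hij t t' htt ht ht'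
  have hU' : U ≤ u₁ := (le_max_left _ _).trans hU1
  have hU0 : U0 n ≤ u₁ := (le_max_right _ _).trans hU1
  have hne : NeZero b := ⟨hb.ne'⟩
  have hm : Measurable (PZ μ u₁ b i j) :=
    NScH_395.measurable_PZ ((le_max_left _ _).trans hU0) ((le_max_right _ _).trans hU0) b i j
  set s : Fin n → ℝ := t - t' with hs
  have hs1 : s i = s j := by
    simp only [hs, Pi.sub_apply]; linarith
  have hs2 : ∀ l, |s l| ≤ u₂ / 3000 := by
    intro l
    simp only [hs, Pi.sub_apply]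
    have := abs_sub (t l) (t' l)
    linarith [ht l, ht' l]
  have h5 := h μ hp hA u₁ u₂ hU' h2 hN i j hij s hs1 hs2
  have h6 : ∀ x : ModSpace n, |PZ μ u₁ b i j (act x (aT t)) - PZ μ u₁ b i j (act x (aT t'))| =
      (fun y => |PZ μ u₁ b i j (act y (aT s)) - PZ μ u₁ b i j y|) (act x (aT t')) := by
    intro x
    simp only
    rw [← act_aT_add]
    have : t' + s = t := by rw [hs]; abel
    rw [this]
  simp_rw [h6]
  rw [integral_aT hA t' (F := fun y => |PZ μ u₁ b i j (act y (aT s)) - PZ μ u₁ b i j y|)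
    ((hm.comp (Top1_458.measurable_act _)).sub hm).abs]
  exact h5

/-- the analytic form of (R), depths `A`, `B`, `C`, each function with its own number of digits. -/
def HR (n : ℕ) (c₂ A B C : ℝ) : Prop :=
  ∀ e₁ : ℝ, 0 < e₁ → ∀ K₀ : ℕ, ∃ K₁ K₂ K₃ : ℕ, K₀ ≤ K₁ ∧ K₀ ≤ K₂ ∧ K₀ ≤ K₃ ∧
    Ev (n := n) Fr fun μ u₁ u₂ => ∀ i j k : Fin n, i ≠ j → j ≠ k → i ≠ k →
      ∃ t₁ t₂ t₃ : Fin n → ℝ, t₁ i - t₁ j = -A ∧ t₂ j - t₂ k = -B ∧ t₃ i - t₃ k = -C ∧
        (∀ l, |t₁ l| ≤ u₂ / 10000) ∧ (∀ l, |t₂ l| ≤ u₂ / 10000) ∧ (∀ l, |t₃ l| ≤ u₂ / 10000) ∧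
        ∫ x, max 0 (c₂ * PZ μ u₁ (2 ^ K₁) i j (act x (aT t₁)) *
          PZ μ u₁ (2 ^ K₂) j k (act x (aT t₂)) - PZ μ u₁ (2 ^ K₃) i k (act x (aT t₃))) ∂μ ≤ e₁

/-- Lipschitz bound for the integrand. -/
theorem lip {c a a' b b' d d' : ℝ} (hc : 0 ≤ c) (ha' : 0 ≤ a') (ha2' : a' ≤ 2)
    (hb : 0 ≤ b) (hb2 : b ≤ 2) :
    max 0 (c * a * b - d) ≤ max 0 (c * a' * b' - d') + (2 * c * (|a - a'| + |b - b'|) + |d - d'|) := by
  refine max_le (by positivity) ?_
  have h1 : c * a * b - c * a' * b' ≤ 2 * c * (|a - a'| + |b - b'|) := by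
    have e : c * a * b - c * a' * b' = c * ((a - a') * b + a' * (b - b')) := by ring
    rw [e]
    have h2 : (a - a') * b ≤ 2 * |a - a'| := by
      have := mul_le_mul_of_nonneg_right (le_abs_self (a - a')) hb
      nlinarith [abs_nonneg (a - a')]
    have h3 : a' * (b - b') ≤ 2 * |b - b'| := by
      have := mul_le_mul_of_nonneg_left (le_abs_self (b - b')) ha'
      nlinarith [abs_nonneg (b - b')]
    nlinarith [mul_le_mul_of_nonneg_left (add_le_add h2 h3) hc]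
  have h4 := neg_abs_le (d - d')
  have h5 := le_max_right 0 (c * a' * b' - d')
  linarith

theorem int_split {μ : Measure (ModSpace n)} {f g₁ g₂ g₃ : ModSpace n → ℝ} (c : ℝ)
    (hf : Integrable f μ) (h₁ : Integrable g₁ μ) (h₂ : Integrable g₂ μ) (h₃ : Integrable g₃ μ) :
    ∫ x, (f x + (c * (g₁ x + g₂ x) + g₃ x)) ∂μ =
      ∫ x, f x ∂μ + (c * (∫ x, g₁ x ∂μ + ∫ x, g₂ x ∂μ) + ∫ x, g₃ x ∂μ) := by
  have h12 : Integrable (fun x => g₁ x + g₂ x) μ := h₁.add h₂
  have hc : Integrable (fun x => c * (g₁ x + g₂ x)) μ := h12.const_mul c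
  have h4 : Integrable (fun x => c * (g₁ x + g₂ x) + g₃ x) μ := hc.add h₃
  rw [integral_add hf h4, integral_add hc h₃, integral_const_mul, integral_add h₁ h₂]

/-- **(Q2)** from (R). -/
theorem q2_of_hr {c₂ A B C : ℝ} (hc₂ : 0 < c₂) {q₀ : ℕ} (hq : A + B - C = q₀)
    (h : HR n c₂ A B C) : Q2 (n := n) PZ Fr c₂ q₀ := by
  intro e₁ he₁
  -- error for one comparison
  set e : ℝ := e₁ / (16 * (c₂ + 1)) with he
  have hepos : 0 < e := by positivity
  obtain ⟨K₀, hK₀⟩ := exists_nat_gt (2 / e)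
  have hres : (2 : ℝ) / 2 ^ K₀ ≤ e := by
    have h1 : (K₀ : ℝ) ≤ 2 ^ K₀ := by
      exact_mod_cast (Nat.lt_two_pow_self (n := K₀)).le
    rw [div_le_iff₀ (by positivity)]
    rw [div_lt_iff₀ hepos] at hK₀
    nlinarith
  obtain ⟨K₁, K₂, K₃, hK₁, hK₂, hK₃, hR⟩ := h (e₁ / 4) (by positivity) K₀
  refine ⟨K₀, fun K hK => ?_⟩
  set T' : ℝ := |A| + |B| + |C| + q₀ + 1 with hT'
  have hs₁ := shift_ev (n := n) (b := 2 ^ K) (by positivity) hepos
  have hs₂ : Ev (n := n) Fr fun _ u₁ u₂ => u₁ ≤ 1 / 100000 * u₂ :=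
    ev_of ⟨∅, 1, 1 / 100000, 0, one_pos, by norm_num, fun _ _ _ _ _ _ h2 _ => h2⟩
  refine Ev.mono (Ev.and hR (Ev.and hs₁ hs₂)) (max (U0 n) T') ?_
  rintro μ hp hA u₁ u₂ hUU ⟨hR, hS, hu12⟩ i j k hij hjk hik
  have hU : U0 n ≤ u₁ := (le_max_left _ _).trans hUU
  have hT'u : T' ≤ u₁ := (le_max_right _ _).trans hUU
  have hT'pos : 0 < T' := by positivity
  have hT'2 : u₂ / 10000 + T' ≤ u₂ / 6000 := by linarith
  obtain ⟨t₁, t₂, t₃, h₁, h₂, h₃, hb₁, hb₂, hb₃, hI⟩ := hR i j k hij hjk hik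
  have hc1 : 20 * c1N n ≤ u₁ := (le_max_left _ _).trans hU
  have hu0 : 0 ≤ u₁ := (le_max_right _ _).trans hU
  have hm : ∀ (K : ℕ) (i j : Fin n), Measurable (PZ μ u₁ (2 ^ K) i j) := fun K i j => by
    have : NeZero (2 ^ K) := ⟨by positivity⟩
    exact NScH_395.measurable_PZ hc1 hu0 _ i j
  have h0 : ∀ (K : ℕ) (i j : Fin n) x, 0 ≤ PZ μ u₁ (2 ^ K) i j x := fun K i j x => by
    have : NeZero (2 ^ K) := ⟨by positivity⟩
    exact NScH_395.PZ_nonneg hc1 hu0 _ i j x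
  have h2 : ∀ (K : ℕ) (i j : Fin n) x, PZ μ u₁ (2 ^ K) i j x ≤ 2 := fun K i j x => by
    have : NeZero (2 ^ K) := ⟨by positivity⟩
    exact NScH_395.PZ_le hc1 hu0 _ i j x
  have hact : ∀ t : Fin n → ℝ, Measurable fun x : ModSpace n => act x (aT t) := fun t =>
    Top1_458.measurable_act _
  have hact' : ∀ t : Fin n → ℝ, MeasurePreserving (fun x : ModSpace n => act x (aT t)) μ μ :=
    fun t => ⟨hact t, hA t⟩
  -- the base shift
  set s : Fin n → ℝ := fun l => if l = i then A - q₀ else if l = k then -(B - q₀) else 0 with hsdef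
  have hsi : s i = A - q₀ := by simp [hsdef]
  have hsk : s k = -(B - q₀) := by simp [hsdef, hik.symm]
  have hsj : s j = 0 := by simp [hsdef, hij.symm, hjk]
  have hsb : ∀ l, |s l| ≤ |A| + |B| + q₀ := by
    intro l
    have hq0 : (0 : ℝ) ≤ q₀ := Nat.cast_nonneg _
    simp only [hsdef]
    split_ifs
    · have := abs_sub A (q₀ : ℝ)
      rw [abs_of_nonneg hq0] at this
      linarith [abs_nonneg B]
    · rw [abs_neg]
      have := abs_sub B (q₀ : ℝ)
      rw [abs_of_nonneg hq0] at this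
      linarith [abs_nonneg A]
    · rw [abs_zero]; positivity
  -- single shift
  have hcast : ∀ (a : Fin n), (fun l => -(((Pi.single a (q₀ : ℤ) : Fin n → ℤ) l : ℤ) : ℝ)) =
      fun l => if l = a then -(q₀ : ℝ) else 0 := by
    intro a
    funext l
    by_cases hl : l = a
    · subst hl; simp
    · simp [hl]
  have hu2pos : 0 ≤ u₂ := by linarith
  have hqb : ∀ (a l : Fin n), |(fun l => if l = a then -(q₀ : ℝ) else 0) l| ≤ u₂ / 6000 := by
    intro a l
    have hq0 : (0 : ℝ) ≤ q₀ := Nat.cast_nonneg _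
    simp only
    split_ifs
    · rw [abs_neg, abs_of_nonneg hq0]
      linarith [abs_nonneg A, abs_nonneg B, abs_nonneg C]
    · rw [abs_zero]; positivity
  have hstb : ∀ t : Fin n → ℝ, (∀ l, |t l| ≤ u₂ / 10000) → ∀ l, |(s + t) l| ≤ u₂ / 6000 := by
    intro t ht l
    rw [Pi.add_apply]
    have h3 := abs_add_le (s l) (t l)
    have hq0 : (0 : ℝ) ≤ q₀ := Nat.cast_nonneg _
    linarith [hsb l, ht l, abs_nonneg A, abs_nonneg B, abs_nonneg C]
  -- comparison of one function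
  have hcmp : ∀ (K' : ℕ), K₀ ≤ K' → ∀ (a b : Fin n), a ≠ b → ∀ t : Fin n → ℝ,
      (∀ l, |t l| ≤ u₂ / 10000) → (s + t) a - (s + t) b = -(q₀ : ℝ) →
      ∫ x, |atq q₀ (PZ μ u₁ (2 ^ K)) a b x - PZ μ u₁ (2 ^ K') a b (act x (aT (s + t)))| ∂μ
        ≤ 2 * e := by
    intro K' hK' a b hab t ht htab
    have h3 := hS a b hab (fun l => if l = a then -(q₀ : ℝ) else 0) (s + t)
      (by rw [htab]; simp [hab.symm]) (hqb a) (hstb t ht)
    have h4 : ∀ x : ModSpace n, atq q₀ (PZ μ u₁ (2 ^ K)) a b x =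
        PZ μ u₁ (2 ^ K) a b (act x (aT fun l => if l = a then -(q₀ : ℝ) else 0)) := by
      intro x
      unfold atq
      rw [tz_eq, hcast a]
    have h5 : ∀ᵐ x ∂μ, |PZ μ u₁ (2 ^ K) a b (act x (aT (s + t))) -
        PZ μ u₁ (2 ^ K') a b (act x (aT (s + t)))| ≤ e := by
      have h6 := Res_460.pz_res' (μ := μ) hU hK hK' a b
      have h7 := (hact' (s + t)).quasiMeasurePreserving.ae h6
      filter_upwards [h7] with x hx
      exact hx.trans hres
    have hi : Integrable (fun x => |PZ μ u₁ (2 ^ K) a b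
        (act x (aT fun l => if l = a then -(q₀ : ℝ) else 0)) -
        PZ μ u₁ (2 ^ K) a b (act x (aT (s + t)))|) μ := by
      refine Integrable.of_bound ((((hm K a b).comp (hact _)).sub
        ((hm K a b).comp (hact _))).abs).aestronglyMeasurable 2 (Eventually.of_forall fun x => ?_)
      rw [Real.norm_eq_abs, abs_abs, abs_le]
      constructor <;> linarith [h0 K a b (act x (aT fun l => if l = a then -(q₀ : ℝ) else 0)),
        h2 K a b (act x (aT fun l => if l = a then -(q₀ : ℝ) else 0)),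
        h0 K a b (act x (aT (s + t))), h2 K a b (act x (aT (s + t)))]
    have h8 : ∫ x, |atq q₀ (PZ μ u₁ (2 ^ K)) a b x - PZ μ u₁ (2 ^ K') a b (act x (aT (s + t)))| ∂μ
        ≤ ∫ x, (|PZ μ u₁ (2 ^ K) a b (act x (aT fun l => if l = a then -(q₀ : ℝ) else 0)) -
          PZ μ u₁ (2 ^ K) a b (act x (aT (s + t)))| + e) ∂μ := by
      refine integral_mono_of_nonneg (Eventually.of_forall fun x => abs_nonneg _)
        (hi.add (integrable_const _)) ?_
      filter_upwards [h5] with x hx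
      rw [h4]
      exact (abs_sub_le _ _ _).trans (add_le_add le_rfl hx)
    refine h8.trans ?_
    rw [integral_add hi (integrable_const _)]
    have h9 : ∫ _ : ModSpace n, e ∂μ = e := by simp
    rw [h9]
    linarith
  have e1 := hcmp K₁ hK₁ i j hij t₁ hb₁ (by
    simp only [Pi.add_apply, hsi, hsj]; linarith)
  have e2 := hcmp K₂ hK₂ j k hjk t₂ hb₂ (by
    simp only [Pi.add_apply, hsk, hsj]; linarith)
  have e3 := hcmp K₃ hK₃ i k hik t₃ hb₃ (by
    simp only [Pi.add_apply, hsi, hsk]; linarith)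
  -- the integral of (R) at the shifted point
  have hmI : Measurable fun x => max 0 (c₂ * PZ μ u₁ (2 ^ K₁) i j (act x (aT t₁)) *
      PZ μ u₁ (2 ^ K₂) j k (act x (aT t₂)) - PZ μ u₁ (2 ^ K₃) i k (act x (aT t₃))) :=
    measurable_const.max (((measurable_const.mul ((hm _ _ _).comp (hact _))).mul
      ((hm _ _ _).comp (hact _))).sub ((hm _ _ _).comp (hact _)))
  have hI' : ∫ x, max 0 (c₂ * PZ μ u₁ (2 ^ K₁) i j (act x (aT (s + t₁))) *
      PZ μ u₁ (2 ^ K₂) j k (act x (aT (s + t₂))) - PZ μ u₁ (2 ^ K₃) i k (act x (aT (s + t₃)))) ∂μ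
        ≤ e₁ / 4 := by
    have h3 : ∫ x, max 0 (c₂ * PZ μ u₁ (2 ^ K₁) i j (act (act x (aT s)) (aT t₁)) *
        PZ μ u₁ (2 ^ K₂) j k (act (act x (aT s)) (aT t₂)) -
        PZ μ u₁ (2 ^ K₃) i k (act (act x (aT s)) (aT t₃))) ∂μ =
        ∫ x, max 0 (c₂ * PZ μ u₁ (2 ^ K₁) i j (act x (aT t₁)) *
          PZ μ u₁ (2 ^ K₂) j k (act x (aT t₂)) - PZ μ u₁ (2 ^ K₃) i k (act x (aT t₃))) ∂μ :=
      integral_aT hA s hmI
    simp only [act_aT_add]
    rw [h3]
    exact hI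
  -- integrability
  have hia : ∀ (K' : ℕ) (a b : Fin n) (t : Fin n → ℝ), Integrable (fun x =>
      |atq q₀ (PZ μ u₁ (2 ^ K)) a b x - PZ μ u₁ (2 ^ K') a b (act x (aT (s + t)))|) μ := by
    intro K' a b t
    have hma : Measurable (atq q₀ (PZ μ u₁ (2 ^ K)) a b) := (hm K a b).comp (measurable_tz _)
    refine Integrable.of_bound ((hma.sub ((hm K' a b).comp (hact _))).abs).aestronglyMeasurable 2
      (Eventually.of_forall fun x => ?_)
    rw [Real.norm_eq_abs, abs_abs, abs_le]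
    unfold atq
    constructor <;> linarith [h0 K a b (tz (Pi.single a (q₀ : ℤ)) x),
      h2 K a b (tz (Pi.single a (q₀ : ℤ)) x), h0 K' a b (act x (aT (s + t))),
      h2 K' a b (act x (aT (s + t)))]
  have hib : Integrable (fun x => max 0 (c₂ * PZ μ u₁ (2 ^ K₁) i j (act x (aT (s + t₁))) *
      PZ μ u₁ (2 ^ K₂) j k (act x (aT (s + t₂))) -
      PZ μ u₁ (2 ^ K₃) i k (act x (aT (s + t₃))))) μ := by
    have hmm : Measurable fun x => max 0 (c₂ * PZ μ u₁ (2 ^ K₁) i j (act x (aT (s + t₁))) *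
        PZ μ u₁ (2 ^ K₂) j k (act x (aT (s + t₂))) -
        PZ μ u₁ (2 ^ K₃) i k (act x (aT (s + t₃)))) :=
      measurable_const.max (((measurable_const.mul ((hm _ _ _).comp (hact _))).mul
        ((hm _ _ _).comp (hact _))).sub ((hm _ _ _).comp (hact _)))
    refine Integrable.of_bound hmm.aestronglyMeasurable (c₂ * 4 + 2)
      (Eventually.of_forall fun x => ?_)
    rw [Real.norm_eq_abs, abs_of_nonneg (le_max_left _ _)]
    have g1 := h0 K₁ i j (act x (aT (s + t₁)))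
    have g2 := h2 K₁ i j (act x (aT (s + t₁)))
    have g3 := h0 K₂ j k (act x (aT (s + t₂)))
    have g4 := h2 K₂ j k (act x (aT (s + t₂)))
    have g5 := h0 K₃ i k (act x (aT (s + t₃)))
    refine max_le (by positivity) ?_
    have h6 : c₂ * PZ μ u₁ (2 ^ K₁) i j (act x (aT (s + t₁))) *
        PZ μ u₁ (2 ^ K₂) j k (act x (aT (s + t₂))) ≤ c₂ * 4 := by
      rw [mul_assoc]
      refine mul_le_mul_of_nonneg_left ?_ hc₂.le
      nlinarith
    linarith
  -- conclusion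
  have hfin : ∫ x, max 0 (c₂ * atq q₀ (PZ μ u₁ (2 ^ K)) i j x * atq q₀ (PZ μ u₁ (2 ^ K)) j k x -
      atq q₀ (PZ μ u₁ (2 ^ K)) i k x) ∂μ ≤
      ∫ x, (max 0 (c₂ * PZ μ u₁ (2 ^ K₁) i j (act x (aT (s + t₁))) *
        PZ μ u₁ (2 ^ K₂) j k (act x (aT (s + t₂))) - PZ μ u₁ (2 ^ K₃) i k (act x (aT (s + t₃)))) +
        (2 * c₂ * (|atq q₀ (PZ μ u₁ (2 ^ K)) i j x - PZ μ u₁ (2 ^ K₁) i j (act x (aT (s + t₁)))| +
          |atq q₀ (PZ μ u₁ (2 ^ K)) j k x - PZ μ u₁ (2 ^ K₂) j k (act x (aT (s + t₂)))|) +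
          |atq q₀ (PZ μ u₁ (2 ^ K)) i k x - PZ μ u₁ (2 ^ K₃) i k (act x (aT (s + t₃)))|)) ∂μ := by
    refine integral_mono_of_nonneg (Eventually.of_forall fun x => le_max_left _ _)
      (hib.add ((((hia K₁ i j t₁).add (hia K₂ j k t₂)).const_mul _).add (hia K₃ i k t₃)))
      (Eventually.of_forall fun x => ?_)
    exact lip hc₂.le (h0 _ _ _ _) (h2 _ _ _ _) (h0 _ _ _ _) (h2 _ _ _ _)
  refine hfin.trans ?_
  rw [int_split (2 * c₂) hib (hia K₁ i j t₁) (hia K₂ j k t₂) (hia K₃ i k t₃)]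
  have h10 : 16 * (c₂ + 1) * e = e₁ := by rw [he]; field_simp
  have h11 := mul_le_mul_of_nonneg_left (add_le_add e1 e2) (mul_nonneg zero_le_two hc₂.le)
  nlinarith [hc₂.le, hepos.le, h11, hI', e3]

end Crest.Agent.R014.Q2c_460
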