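import Crest.Agent.R014.Base_373
import Crest.Agent.R014.Q3f_433
import Crest.Agent.R014.Conv3_792

/-!
# Row 14, block D: input (Q3) of level 2, unconditional (helper373)
-/

set_option autoImplicit false

open MeasureTheory Filter Topology
open Crest.NumberTheoryR.Packets
open Crest.Agent.R014.Iface_792
open Crest.Agent.R014.Nd_837
open Crest.Agent.R014.DSkel_792
open Crest.Agent.R014.AsmB_460
open Crest.Agent.R014.AsmB2_460

namespace Crest.Agent.R014.Q3_373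

variable {n : ℕ}

theorem base : Q3f_433.Base (n := n) PSr Fr 12000 := by
  intro κ C hκ hC
  obtain ⟨c₃, hc₃, h⟩ := Base_373.base (n := n) κ C hκ hC
  refine ⟨c₃, hc₃, fun ε₀ δ' hε₀ hδ' => ?_⟩
  obtain ⟨B, η, d₀, U, C', c', D₀, hη, hd₀, hC', hc', h⟩ := h ε₀ δ' hε₀ hδ'
  refine ⟨B, η, d₀, U, C', c', D₀, hη, hd₀, hC', hc', ?_⟩
  intro μ hμp hμ u₁ u₂ hR e η' D he hη' hD hSl h1 h2 w hw1 hw2 S hS hS'
  have h3 := h μ hμp hμ u₁ u₂ hR e η' D he hη' hD hSl h1 h2 w hw1 hw2 S hS hS'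
  have h4 : ∀ x, Q3c_433.blk tz (PSr μ u₁ 2) S 0 w x = ∑ r ∈ Finset.range w, ∑ i ∈ S, ∑ j ∈ Sᶜ,
      PSr μ u₁ 2 i j (tz (Pi.single i (r : ℤ)) x) := by
    intro x
    unfold Q3c_433.blk Q3c_433.crS
    simp only [zero_add]
  simpa only [h4] using h3

/-- **(Q3)** for the real objects. -/
theorem q3R (n : ℕ) : AsmB_460.Q3 (n := n) PSr Fr 12000 :=
  Q3f_433.q3_of_base (fun μ _ u b i j => measurable_psr μ u b i j)
    (fun μ u b i j x => psr_nonneg μ u b i j x) (fun μ u b i j x => psr_le μ u b i j x)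
    (k₀ := 3000) (k₁ := 12000) (k₂ := 12000) (by norm_num) (by norm_num) (by norm_num) le_rfl
    (q1R n) base (fun q => Conv3_792.conv_psr q)

end Crest.Agent.R014.Q3_373
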