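import Crest.Agent.R014.Base_433
import Crest.Agent.R014.L3b_884

/-!
# Row 14, block D: input (Q3), no hypothesis (helper433)
-/

set_option autoImplicit false

namespace Crest.Agent.R014.Q3_433

/-- **(BASE)**, no hypothesis. -/
theorem base (n : ℕ) : Q3f_433.Base (n := n) AsmB2_460.PSr AsmB2_460.Fr 12000 :=
  Base_433.base_final (L3_884.C3_nonneg n) (L3_884.l3st n)

/-- **(Q3)**, no hypothesis. -/
theorem q3 (n : ℕ) : AsmB_460.Q3 (n := n) AsmB2_460.PSr AsmB2_460.Fr 12000 :=
  Base_433.q3_final (L3_884.C3_nonneg n) (L3_884.l3st n)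

end Crest.Agent.R014.Q3_433
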