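import Crest.Agent.R014.RAs_460
import Crest.Agent.R014.Q2c_460

/-!
# Row 14, block D, (R): from the three inequalities of #5017 to (Q2) (helper460)

`RInp n`: for every error and number of digits, along the nearly constant scales, a noise space
`(Q, ν)` with the functions `ST`, `R` on `ModSpace n × Q` such that (A) the Heisenberg inequality in
the mean, (B) `E [ST | x]` close to `2⁻⁸ Ψ_ij Ψ_jk`, (C) `E [R | x]` close to `2⁻⁴ Ψ_ik`, all three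
windows at depth `4`.  `q2_of_inp : RInp n → Q2 PZ Fr (2⁻¹⁰) 4`.
-/

set_option autoImplicit false

open MeasureTheory Filter Topology
open Crest.NumberTheoryR.Packets
open Crest.Agent.R014.Iface_792
open Crest.Agent.R014.Nd_837
open Crest.Agent.R014.DSkel_792
open Crest.Agent.R014.AsmB_460
open Crest.Agent.R014.AsmB2_460
open Crest.Agent.R014.Q2c_460
open Crest.Agent.R014.NScH_395 (PZ NC c1N)

namespace Crest.Agent.R014.RAs2_460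

/-- the three inequalities for one measure, one triple of indices, one pair of scales. -/
def Inp {n : ℕ} (μ : Measure (ModSpace n)) (u₁ u₂ e : ℝ) (K₁ K₂ K₃ : ℕ) (i j k : Fin n) : Prop :=
  ∃ t₁ t₂ t₃ : Fin n → ℝ, t₁ i - t₁ j = -4 ∧ t₂ j - t₂ k = -4 ∧ t₃ i - t₃ k = -4 ∧
    (∀ l, |t₁ l| ≤ u₂ / 10000) ∧ (∀ l, |t₂ l| ≤ u₂ / 10000) ∧ (∀ l, |t₃ l| ≤ u₂ / 10000) ∧
    ∃ (Q : Type) (_ : MeasurableSpace Q) (ν : Measure Q) (ST R : ModSpace n × Q → ℝ),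
      IsProbabilityMeasure ν ∧ Measurable ST ∧ Measurable R ∧ (∀ p, |ST p| ≤ 4) ∧ (∀ p, |R p| ≤ 4) ∧
      ∫ p, max 0 (1 / 64 * ST p - R p) ∂(μ.prod ν) ≤ e ∧
      ∫ x, |∫ q, ST (x, q) ∂ν - (1 / 2 ^ 8) * (PZ μ u₁ (2 ^ K₁) i j (act x (aT t₁)) *
        PZ μ u₁ (2 ^ K₂) j k (act x (aT t₂)))| ∂μ ≤ e ∧
      ∫ x, |∫ q, R (x, q) ∂ν - (1 / 2 ^ 4) * PZ μ u₁ (2 ^ K₃) i k (act x (aT t₃))| ∂μ ≤ e

/-- the input. -/
def RInp (n : ℕ) : Prop :=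
  ∀ e : ℝ, 0 < e → ∀ K₀ : ℕ, ∃ K₁ K₂ K₃ : ℕ, K₀ ≤ K₁ ∧ K₀ ≤ K₂ ∧ K₀ ≤ K₃ ∧
    Ev (n := n) Fr fun μ u₁ u₂ => ∀ i j k : Fin n, i ≠ j → j ≠ k → i ≠ k →
      Inp μ u₁ u₂ e K₁ K₂ K₃ i j k

theorem hr_of_inp {n : ℕ} (h : RInp n) : HR n (1 / 2 ^ 10) 4 4 4 := by
  intro e₁ he₁ K₀
  obtain ⟨K₁, K₂, K₃, h₁, h₂, h₃, hE⟩ := h (e₁ / 64) (by positivity) K₀
  refine ⟨K₁, K₂, K₃, h₁, h₂, h₃, Ev.mono hE (U0 n) ?_⟩
  intro μ hp hA u₁ u₂ hU hI i j k hij hjk hik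
  obtain ⟨t₁, t₂, t₃, a₁, a₂, a₃, b₁, b₂, b₃, Q, mQ, ν, ST, R, hν, mST, mR, bST, bR, iA, iB, iC⟩ :=
    hI i j k hij hjk hik
  refine ⟨t₁, t₂, t₃, a₁, a₂, a₃, b₁, b₂, b₃, ?_⟩
  have hc1 : 20 * c1N n ≤ u₁ := (le_max_left _ _).trans hU
  have hu0 : 0 ≤ u₁ := (le_max_right _ _).trans hU
  have hm : ∀ (K : ℕ) (i j : Fin n), Measurable (PZ μ u₁ (2 ^ K) i j) := fun K i j => by
    have : NeZero (2 ^ K) := ⟨by positivity⟩
    exact NScH_395.measurable_PZ hc1 hu0 _ i j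
  have h0 : ∀ (K : ℕ) (i j : Fin n) x, 0 ≤ PZ μ u₁ (2 ^ K) i j x := fun K i j x => by
    have : NeZero (2 ^ K) := ⟨by positivity⟩
    exact NScH_395.PZ_nonneg hc1 hu0 _ i j x
  have h2 : ∀ (K : ℕ) (i j : Fin n) x, PZ μ u₁ (2 ^ K) i j x ≤ 2 := fun K i j x => by
    have : NeZero (2 ^ K) := ⟨by positivity⟩
    exact NScH_395.PZ_le hc1 hu0 _ i j x
  have hact : ∀ t : Fin n → ℝ, Measurable fun x : ModSpace n => act x (aT t) := fun t =>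
    Top1_458.measurable_act _
  have key := RAs_460.final_ineq (μ := μ) (ν := ν) (ST := ST) (R := R) mST mR (M := 4) bST bR
    (g := fun x => PZ μ u₁ (2 ^ K₁) i j (act x (aT t₁)) * PZ μ u₁ (2 ^ K₂) j k (act x (aT t₂)))
    (c := fun x => PZ μ u₁ (2 ^ K₃) i k (act x (aT t₃)))
    (((hm _ _ _).comp (hact _)).mul ((hm _ _ _).comp (hact _))) ((hm _ _ _).comp (hact _))
    (fun x => by
      rw [abs_mul, abs_of_nonneg (h0 _ _ _ _), abs_of_nonneg (h0 _ _ _ _)]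
      have g1 := h0 K₁ i j (act x (aT t₁))
      have g2 := h2 K₁ i j (act x (aT t₁))
      have g3 := h0 K₂ j k (act x (aT t₂))
      have g4 := h2 K₂ j k (act x (aT t₂))
      nlinarith)
    (fun x => by
      rw [abs_of_nonneg (h0 _ _ _ _)]
      linarith [h2 K₃ i k (act x (aT t₃))])
    (θ := 1 / 64) (σ := 1 / 2 ^ 8) (ρ := 1 / 2 ^ 4) (by norm_num) (by norm_num) (by norm_num)
    iA iB iC
  have e1 : ∀ x : ModSpace n, 1 / 2 ^ 10 * PZ μ u₁ (2 ^ K₁) i j (act x (aT t₁)) *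
      PZ μ u₁ (2 ^ K₂) j k (act x (aT t₂)) = 1 / 64 * (1 / 2 ^ 8) / (1 / 2 ^ 4) *
      (PZ μ u₁ (2 ^ K₁) i j (act x (aT t₁)) * PZ μ u₁ (2 ^ K₂) j k (act x (aT t₂))) := by
    intro x
    ring
  simp_rw [e1]
  refine key.trans ?_
  rw [div_le_iff₀ (by norm_num)]
  linarith

/-- **(Q2) from the three inequalities**. -/
theorem q2_of_inp {n : ℕ} (h : RInp n) : Q2 (n := n) PZ Fr (1 / 2 ^ 10) 4 :=
  q2_of_hr (by norm_num) (by norm_num) (hr_of_inp h)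

end Crest.Agent.R014.RAs2_460
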