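import Mathlib

/-!
# Row 14, block D, (R): the product space step (helper460)

`prod_step`: a one-sided inequality in the mean on `X × Q` gives the one-sided inequality for the
averages over `Q`.  `final_ineq`: the inequality between the reference functions from the
integrated Heisenberg lemma and the two comparisons of #5017.
-/

set_option autoImplicit false

open MeasureTheory Filter

namespace Crest.Agent.R014.RAs_460

variable {X Q : Type*} [MeasurableSpace X] [MeasurableSpace Q]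

theorem bdd_int {Y : Type*} [MeasurableSpace Y] {ν : Measure Y} [IsFiniteMeasure ν] {f : Y → ℝ}
    (hf : Measurable f) {M : ℝ} (hM : ∀ y, |f y| ≤ M) : Integrable f ν :=
  Integrable.of_bound hf.aestronglyMeasurable M (Eventually.of_forall hM)

theorem measurable_avg {ν : Measure Q} [SFinite ν] {A : X × Q → ℝ} (hA : Measurable A) :
    Measurable fun x => ∫ q, A (x, q) ∂ν :=
  (hA.stronglyMeasurable.integral_prod_right').measurable

omit [MeasurableSpace X] in
theorem abs_avg_le {ν : Measure Q} [IsProbabilityMeasure ν] {A : X × Q → ℝ} {M : ℝ}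
    (hM : ∀ p, |A p| ≤ M) (x : X) : |∫ q, A (x, q) ∂ν| ≤ M := by
  have h := norm_integral_le_of_norm_le_const (μ := ν) (C := M) (f := fun q => A (x, q))
    (Eventually.of_forall fun q => by rw [Real.norm_eq_abs]; exact hM _)
  simpa using h

/-- Jensen for the positive part, fibrewise. -/
theorem prod_step {μ : Measure X} {ν : Measure Q} [IsProbabilityMeasure μ]
    [IsProbabilityMeasure ν] {A B : X × Q → ℝ} (hA : Measurable A) (hB : Measurable B) {M : ℝ}
    (hAM : ∀ p, |A p| ≤ M) (hBM : ∀ p, |B p| ≤ M) :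
    ∫ x, max 0 (∫ q, A (x, q) ∂ν - ∫ q, B (x, q) ∂ν) ∂μ ≤
      ∫ p, max 0 (A p - B p) ∂(μ.prod ν) := by
  have hM0 : ∀ p : X × Q, 0 ≤ M := fun p => (abs_nonneg _).trans (hAM p)
  set G : X × Q → ℝ := fun p => max 0 (A p - B p) with hG
  have hGm : Measurable G := measurable_const.max (hA.sub hB)
  have hGb : ∀ p, |G p| ≤ 2 * M := by
    intro p
    rw [hG]
    simp only
    rw [abs_of_nonneg (le_max_left _ _)]
    have h1 := (abs_le.1 (hAM p)).2
    have h2 := (abs_le.1 (hBM p)).1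
    exact max_le (by linarith [hM0 p]) (by linarith)
  have hGi : Integrable G (μ.prod ν) := bdd_int hGm hGb
  rw [integral_prod _ hGi]
  refine integral_mono_of_nonneg (Eventually.of_forall fun x => le_max_left _ _) ?_
    (Eventually.of_forall fun x => ?_)
  · exact bdd_int (measurable_avg hGm) fun x => abs_avg_le hGb x
  · simp only
    have hAi : Integrable (fun q => A (x, q)) ν :=
      bdd_int (hA.comp measurable_prodMk_left) fun q => hAM _
    have hBi : Integrable (fun q => B (x, q)) ν :=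
      bdd_int (hB.comp measurable_prodMk_left) fun q => hBM _
    have hGi' : Integrable (fun q => G (x, q)) ν :=
      bdd_int (hGm.comp measurable_prodMk_left) fun q => hGb _
    refine max_le (integral_nonneg fun q => le_max_left _ _) ?_
    rw [← integral_sub hAi hBi]
    exact integral_mono (hAi.sub hBi) hGi' fun q => le_max_right _ _

/-- replacing the two functions by close ones. -/
theorem close_step {μ : Measure X} [IsProbabilityMeasure μ] {f₁ f₂ F₁ F₂ : X → ℝ}
    (h₁ : Measurable f₁) (h₂ : Measurable f₂) (H₁ : Measurable F₁) (H₂ : Measurable F₂) {M : ℝ}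
    (b₁ : ∀ x, |f₁ x| ≤ M) (b₂ : ∀ x, |f₂ x| ≤ M) (B₁ : ∀ x, |F₁ x| ≤ M) (B₂ : ∀ x, |F₂ x| ≤ M) :
    ∫ x, max 0 (f₁ x - f₂ x) ∂μ ≤
      ∫ x, max 0 (F₁ x - F₂ x) ∂μ + (∫ x, |F₁ x - f₁ x| ∂μ + ∫ x, |F₂ x - f₂ x| ∂μ) := by
  have i1 : Integrable (fun x => max 0 (F₁ x - F₂ x)) μ := by
    refine bdd_int (measurable_const.max (H₁.sub H₂)) (M := 2 * M) fun x => ?_
    have hM0 : 0 ≤ M := (abs_nonneg _).trans (b₁ x)
    rw [abs_of_nonneg (le_max_left _ _)]
    exact max_le (by linarith) (by linarith [(abs_le.1 (B₁ x)).2, (abs_le.1 (B₂ x)).1])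
  have i2 : Integrable (fun x => |F₁ x - f₁ x|) μ := by
    refine bdd_int (H₁.sub h₁).abs (M := 2 * M) fun x => ?_
    rw [abs_abs]
    have := abs_sub (F₁ x) (f₁ x)
    linarith [B₁ x, b₁ x]
  have i3 : Integrable (fun x => |F₂ x - f₂ x|) μ := by
    refine bdd_int (H₂.sub h₂).abs (M := 2 * M) fun x => ?_
    rw [abs_abs]
    have := abs_sub (F₂ x) (f₂ x)
    linarith [B₂ x, b₂ x]
  have i23 : Integrable (fun x => |F₁ x - f₁ x| + |F₂ x - f₂ x|) μ := i2.add i3
  rw [← integral_add i2 i3, ← integral_add i1 i23]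
  refine integral_mono_of_nonneg (Eventually.of_forall fun x => le_max_left _ _) (i1.add i23)
    (Eventually.of_forall fun x => ?_)
  simp only
  have h3 := le_max_left 0 (F₁ x - F₂ x)
  have h4 := le_max_right 0 (F₁ x - F₂ x)
  refine max_le (by positivity) ?_
  have h5 := neg_abs_le (F₁ x - f₁ x)
  have h6 := le_abs_self (F₂ x - f₂ x)
  linarith

/-- **the last inequality of (R)**: `S T` the product of the two posterior mean distances, `R` the
posterior mean distance of the third coordinate, `a, b, c` the reference functions;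
`F₁ = E [S T | x]` close to `σ * (a b)`, `F₂ = E [R | x]` close to `ρ * c`. -/
theorem final_ineq {μ : Measure X} {ν : Measure Q} [IsProbabilityMeasure μ]
    [IsProbabilityMeasure ν] {ST R : X × Q → ℝ} (hST : Measurable ST) (hR : Measurable R) {M : ℝ}
    (bST : ∀ p, |ST p| ≤ M) (bR : ∀ p, |R p| ≤ M) {g c : X → ℝ} (hg : Measurable g)
    (hc : Measurable c) (bg : ∀ x, |g x| ≤ M) (bc : ∀ x, |c x| ≤ M) {θ σ ρ E e₁ e₂ : ℝ}
    (hθ : 0 ≤ θ) (hσ : 0 ≤ σ) (hρ : 0 < ρ)
    (hG : ∫ p, max 0 (θ * ST p - R p) ∂(μ.prod ν) ≤ E)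
    (h₁ : ∫ x, |∫ q, ST (x, q) ∂ν - σ * g x| ∂μ ≤ e₁)
    (h₂ : ∫ x, |∫ q, R (x, q) ∂ν - ρ * c x| ∂μ ≤ e₂) :
    ∫ x, max 0 (θ * σ / ρ * g x - c x) ∂μ ≤ (E + θ * e₁ + e₂) / ρ := by
  have h3 : ∫ x, max 0 (∫ q, (θ * ST (x, q)) ∂ν - ∫ q, R (x, q) ∂ν) ∂μ ≤ E := by
    refine le_trans ?_ hG
    refine prod_step (A := fun p => θ * ST p) (hST.const_mul θ) hR (M := max (θ * M) M) ?_ ?_
    · intro p
      rw [abs_mul, abs_of_nonneg hθ]
      exact (mul_le_mul_of_nonneg_left (bST p) hθ).trans (le_max_left _ _)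
    · intro p
      exact (bR p).trans (le_max_right _ _)
  have hF1m : Measurable fun x => ∫ q, (θ * ST (x, q)) ∂ν :=
    measurable_avg (A := fun p => θ * ST p) (hST.const_mul θ)
  have hF2m : Measurable fun x => ∫ q, R (x, q) ∂ν := measurable_avg hR
  set M' : ℝ := (θ + θ * σ + ρ + 1) * |M| with hM'
  have hMM : ∀ t : ℝ, |t| ≤ M → |t| ≤ |M| := fun t ht => ht.trans (le_abs_self M)
  have hM0 : 0 ≤ |M| := abs_nonneg M
  have h4 := close_step (μ := μ) (f₁ := fun x => θ * σ * g x) (f₂ := fun x => ρ * c x)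
    (F₁ := fun x => ∫ q, (θ * ST (x, q)) ∂ν) (F₂ := fun x => ∫ q, R (x, q) ∂ν) (M := M')
    (hg.const_mul _) (hc.const_mul _) hF1m hF2m
    (fun x => by
      rw [abs_mul, abs_of_nonneg (mul_nonneg hθ hσ), hM']
      have := mul_le_mul_of_nonneg_left (hMM _ (bg x)) (mul_nonneg hθ hσ)
      nlinarith [mul_nonneg hθ hM0, mul_nonneg hρ.le hM0])
    (fun x => by
      rw [abs_mul, abs_of_pos hρ, hM']
      have := mul_le_mul_of_nonneg_left (hMM _ (bc x)) hρ.le
      nlinarith [mul_nonneg hθ hM0, mul_nonneg (mul_nonneg hθ hσ) hM0])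
    (fun x => by
      refine (abs_avg_le (A := fun p => θ * ST p) (M := θ * |M|) (fun p => ?_) x).trans ?_
      · rw [abs_mul, abs_of_nonneg hθ]
        exact mul_le_mul_of_nonneg_left (hMM _ (bST p)) hθ
      · rw [hM']
        nlinarith [mul_nonneg hρ.le hM0, mul_nonneg (mul_nonneg hθ hσ) hM0])
    (fun x => by
      refine (abs_avg_le (M := |M|) (fun p => hMM _ (bR p)) x).trans ?_
      rw [hM']
      nlinarith [mul_nonneg hρ.le hM0, mul_nonneg (mul_nonneg hθ hσ) hM0, mul_nonneg hθ hM0])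
  have h5 : ∫ x, |∫ q, (θ * ST (x, q)) ∂ν - θ * σ * g x| ∂μ ≤ θ * e₁ := by
    have e : ∀ x, |∫ q, (θ * ST (x, q)) ∂ν - θ * σ * g x| =
        θ * |∫ q, ST (x, q) ∂ν - σ * g x| := by
      intro x
      rw [integral_const_mul, mul_assoc, ← mul_sub, abs_mul, abs_of_nonneg hθ]
    simp_rw [e]
    rw [integral_const_mul]
    exact mul_le_mul_of_nonneg_left h₁ hθ
  have h6 : ∀ x, max 0 (θ * σ / ρ * g x - c x) = ρ⁻¹ * max 0 (θ * σ * g x - ρ * c x) := by
    intro x
    rw [mul_max_of_nonneg _ _ (inv_nonneg.2 hρ.le), mul_zero]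
    congr 1
    field_simp
  simp_rw [h6]
  rw [integral_const_mul, div_eq_inv_mul]
  refine mul_le_mul_of_nonneg_left ?_ (inv_nonneg.2 hρ.le)
  linarith

end Crest.Agent.R014.RAs_460
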