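import Crest.Agent.R014.RAs2_460
import Crest.Agent.R014.HR3s3_108
import Crest.Agent.R014.HSp3_599

/-!
# Row 14, block D, (R): choice of the constants (helper460)

`Gaps n`: the four entropy gaps of section 4, jointly for `2 ^ K` digits of `s`, `t` and the window
`2 ^ K` of `r`; `InC n`: the input (C).  `rinp_of : Gaps n → InC n → RInp n`.
Order of the constants: `e`, `K₀`, then `K₃`, then `K = K₁ = K₂ = w₀`, then `η`, `U`;
`M = 1000 (u₁ + W)`, `W = K + K₃ + 100`.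
-/

set_option autoImplicit false

open MeasureTheory Filter Topology
open Crest.NumberTheoryR.Packets
open scoped ENNReal

namespace Crest.Agent.R014.RFin_460

open Ms_667 Ne1_567 Ne3_567 Ne4_567
open Nd_837 hiding uni_ae
open HSp_599 AsmB_460 AsmB2_460 RAs2_460
open NScH_395 (PZ NC c1N)
open NScG_458 (RN)
open Prod_108 (tI)

/-- the entropy gaps. -/
def Gaps (n : ℕ) : Prop :=
  ∀ (K3 : ℕ) (ε : ℝ), 0 < ε → ∃ K1 : ℕ, ∀ K : ℕ, K1 ≤ K → ∃ η U : ℝ, 0 < η ∧ 0 < U ∧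
    ∀ μ : Measure (ModSpace n), IsProbabilityMeasure μ → AInv μ →
    ∀ (u1 u2 M W : ℝ) (B : Finset ℕ), U ≤ u1 → 1000 * (u1 + W) ≤ M → 2 * M ≤ u2 / 20 →
    2 ^ K ∈ B → 2 ^ (K + 4) * 2 ^ K3 ∈ B → NC μ u1 u2 B η → (K : ℝ) + K3 + 8 ≤ W →
    ∀ (j k l : Fin n) (hjk : j ≠ k) (hkl : k ≠ l) (hjl : j ≠ l),
    HH (PM μ (zt (RN j k l M))) (fun ω => dg (2 ^ K) (ss ω)) (y1 hjk 4) - ε
        ≤ HH (PM μ (zt (RN j k l M))) (fun ω => dg (2 ^ K) (ss ω))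
          (fun ω => (zz hjk hkl hjl 4 4 (-(K : ℝ)) ω, (tt ω, rp 4 4 (-(K : ℝ)) ω))) ∧
    HH (PM μ (zt (RN j k l M))) (fun ω => dg (2 ^ K) (ss ω)) (zz hjk hkl hjl 4 4 (-(K : ℝ)))
        - HH (PM μ (zt (RN j k l M))) (fun ω => dg (2 ^ K) (ss ω)) (y1 hjk 4) ≤ ε ∧
    HH (PM μ (zt (RN j k l M))) (fun ω => dg (2 ^ K) (tt ω)) (zz hjk hkl hjl 4 4 (-(K : ℝ)))
        - HH (PM μ (zt (RN j k l M))) (fun ω => dg (2 ^ K) (tt ω)) (y2 hkl 4) ≤ ε ∧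
    HH (PM μ (zt (RN j k l M))) (fun ω => dg (2 ^ (K + 4) * 2 ^ K3) (rr ω))
        (fun ω => (zz hjk hkl hjl 4 4 (-(K : ℝ)) ω, dg (2 ^ K) (ss ω)))
      - HH (PM μ (zt (RN j k l M))) (fun ω => dg (2 ^ (K + 4) * 2 ^ K3) (rr ω))
        (fun ω => (zz hjk hkl hjl 4 4 (-(K : ℝ)) ω, (tt ω, ss ω))) ≤ ε

/-- the input (C). -/
def InC (n : ℕ) : Prop :=
  ∀ (b : ℕ) [NeZero b] (e : ℝ), 0 < e → ∃ η U : ℝ, 0 < η ∧ 0 < U ∧
    ∀ μ : Measure (ModSpace n), IsProbabilityMeasure μ → AInv μ →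
    ∀ u1 u2 M W : ℝ, U ≤ u1 → 100 * (u1 + W) ≤ M → 2 * M ≤ u2 / 20 → NC μ u1 u2 {b} η → 4 ≤ W →
    ∀ (j k l : Fin n) (hjk : j ≠ k) (hkl : k ≠ l) (hjl : j ≠ l) (w0 bs : ℕ) [NeZero bs] (gR : ℝ),
    HH (PM μ (zt (RN j k l M))) (fun ω => dg (2 ^ (w0 + 4) * b) (rr ω))
        (fun ω => (zz hjk hkl hjl 4 4 (-(w0 : ℝ)) ω, dg bs (ss ω)))
      - HH (PM μ (zt (RN j k l M))) (fun ω => dg (2 ^ (w0 + 4) * b) (rr ω))
        (fun ω => (zz hjk hkl hjl 4 4 (-(w0 : ℝ)) ω, (tt ω, ss ω))) ≤ gR →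
    ∫ x, |(∫ q, Nh5_849.RR μ (zt (RN j k l M)) hjk hkl hjl (-(w0 : ℝ)) bs b (2 ^ (w0 + 4)) (x, q)
          ∂((zt (RN j k l M)).prod (uni.prod (uni.prod uni))))
        - 1 / 2 ^ 4 * PZ μ u1 b j l (act x (aT (tI j 4)))| ∂μ
      ≤ 1 / 2 ^ 4 * (8 * √gR + e)

theorem tI_sub {n : ℕ} {i j : Fin n} (h : i ≠ j) (r : ℝ) : tI i r i - tI i r j = -r := by
  unfold Prod_108.tI
  rw [Pi.single_eq_same, Pi.single_eq_of_ne h.symm, sub_zero]

theorem abs_tI_le {n : ℕ} (i : Fin n) (l : Fin n) : |tI i 4 l| ≤ 4 := by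
  unfold Prod_108.tI
  by_cases h : l = i
  · rw [h, Pi.single_eq_same, abs_neg, abs_of_pos (by norm_num)]
  · rw [Pi.single_eq_of_ne h, abs_zero]
    norm_num

/-- `RN j k l M` is admissible. -/
theorem adm_RN {n : ℕ} (j k l : Fin n) {u1 M : ℝ} (hu1 : 20 * c1N n ≤ u1) (hu0 : 0 ≤ u1)
    (hM : 100 * u1 ≤ M) : Nz_323.Adm (RN j k l M) := by
  refine (NScH_395.noiseFam n).adm_of _ fun p q => ?_
  have h5 := NScG_458.RN_ge (j := j) (k := k) (l := l) (M := M) (by linarith) p q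
  linarith

theorem rinp_of {n : ℕ} (hG : Gaps n) (hC : InC n) : RInp n := by
  intro e he K₀
  -- the number of digits inside the blocks
  obtain ⟨K3', hK3'⟩ := exists_pow_lt_of_lt_one he (by norm_num : (1 / 2 : ℝ) < 1)
  set K₃ : ℕ := max K3' K₀ with hK₃
  have hK3e : 1 / (8 * (2 : ℝ) ^ K₃) ≤ e / 8 := by
    have h1 : (1 / 2 : ℝ) ^ K₃ ≤ (1 / 2 : ℝ) ^ K3' :=
      pow_le_pow_of_le_one (by norm_num) (by norm_num) (le_max_left _ _)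
    have h2 : (1 / 2 : ℝ) ^ K₃ = 1 / (2 : ℝ) ^ K₃ := by rw [div_pow, one_pow]
    have h3 : 1 / (8 * (2 : ℝ) ^ K₃) = 1 / 8 * (1 / (2 : ℝ) ^ K₃) := by
      rw [one_div, mul_inv, one_div, one_div]
    rw [h3, ← h2]
    linarith
  -- the bound of the gaps
  set s : ℝ := e / 16 with hs
  have hs0 : 0 < s := by positivity
  have hsq : √(s ^ 2) = s := Real.sqrt_sq hs0.le
  have hsq2 : √(s ^ 2 + s ^ 2) ≤ 2 * s := by
    rw [Real.sqrt_le_left (by positivity)]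
    nlinarith
  obtain ⟨K1, hG1⟩ := hG K₃ (s ^ 2) (by positivity)
  set K : ℕ := max K1 (max K₀ K₃) with hK
  have hKK3 : K₃ ≤ K := (le_max_right _ _).trans (le_max_right _ _)
  obtain ⟨ηG, UG, hηG, hUG, hG2⟩ := hG1 K (le_max_left _ _)
  obtain ⟨ηB, UB, hηB, hUB, hB⟩ := HR3s_108.inB (n := n) (2 ^ K) (2 ^ K) he
  obtain ⟨ηC, UC, hηC, hUC, hC1⟩ := hC (2 ^ K₃) e he
  refine ⟨K, K, K₃, (le_max_left _ _).trans (le_max_right _ _),
    (le_max_left _ _).trans (le_max_right _ _), le_max_right _ _, ?_⟩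
  set W : ℝ := (K : ℝ) + K₃ + 100 with hW
  have hW0 : 100 ≤ W := by
    have h1 : (0 : ℝ) ≤ K := Nat.cast_nonneg _
    have h2 : (0 : ℝ) ≤ K₃ := Nat.cast_nonneg _
    linarith
  refine ev_of ⟨{2 ^ K, 2 ^ (K + 4) * 2 ^ K₃, 2 ^ K₃}, min ηG (min ηB ηC), 1 / 100000,
    max (max UG (max UB UC)) (max W (20 * c1N n)), by positivity, by norm_num, ?_⟩
  intro μ hp hA u₁ u₂ hU hu hN i j k hij hjk hik
  have hUG1 : UG ≤ u₁ := ((le_max_left _ _).trans (le_max_left _ _)).trans hU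
  have hUB1 : UB ≤ u₁ :=
    (((le_max_left _ _).trans (le_max_right _ _)).trans (le_max_left _ _)).trans hU
  have hUC1 : UC ≤ u₁ :=
    (((le_max_right _ _).trans (le_max_right _ _)).trans (le_max_left _ _)).trans hU
  have hUW : W ≤ u₁ := ((le_max_left _ _).trans (le_max_right _ _)).trans hU
  have hUc : 20 * c1N n ≤ u₁ := ((le_max_right _ _).trans (le_max_right _ _)).trans hU
  have hu0 : 0 ≤ u₁ := by linarith
  set M : ℝ := 1000 * (u₁ + W) with hM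
  have hM2 : 2 * M ≤ u₂ / 20 := by linarith
  have hM100 : 100 * (u₁ + W) ≤ M := by linarith
  have hNG : NC μ u₁ u₂ {2 ^ K, 2 ^ (K + 4) * 2 ^ K₃, 2 ^ K₃} ηG := fun i' j' h' c hc hc0 =>
    (hN i' j' h' c hc hc0).trans (min_le_left _ _)
  have hNB : NC μ u₁ u₂ {2 ^ K, 2 ^ K} ηB := fun i' j' h' c hc hc0 =>
    (hN i' j' h' c (by
      simp only [Finset.mem_insert, Finset.mem_singleton, or_self] at hc ⊢
      exact Or.inl hc) hc0).trans ((min_le_right _ _).trans (min_le_left _ _))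
  have hNC : NC μ u₁ u₂ {2 ^ K₃} ηC := fun i' j' h' c hc hc0 =>
    (hN i' j' h' c (by
      simp only [Finset.mem_insert, Finset.mem_singleton] at hc ⊢
      exact Or.inr (Or.inr hc)) hc0).trans ((min_le_right _ _).trans (min_le_right _ _))
  obtain ⟨g1, g3, g4, g5⟩ := hG2 μ hp hA u₁ u₂ M W {2 ^ K, 2 ^ (K + 4) * 2 ^ K₃, 2 ^ K₃} hUG1
    le_rfl hM2 (by simp) (by simp) hNG (by linarith) i j k hij hjk hik
  have hadm := adm_RN (n := n) i j k hUc hu0 (M := M) (by linarith)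
  have hpk := isProb_zt hadm
  have g2 := (HSp_599.HH_t_sr μ (zt (RN i j k M)) hij hjk hik 4 4 (-(K : ℝ)) (2 ^ K)).symm
  -- the three inputs
  have iA := Nh5_849.inA μ (zt (RN i j k M)) hij hjk hik K (2 ^ K) (2 ^ K) (2 ^ K₃)
    (Nat.pow_le_pow_right (by norm_num) hKK3) (Nat.pow_le_pow_right (by norm_num) hKK3)
    (η1 := s ^ 2) (η2 := s ^ 2 + s ^ 2) (by rw [← g2]; exact g4) (by linarith)
  have iB := hB μ hp hA u₁ u₂ M W hUB1 hM100 hM2 hNB (by linarith) i j k hij hjk hik (-(K : ℝ))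
    (s ^ 2) (s ^ 2) (s ^ 2) g1 g2.le g3 g4
  have iC := hC1 μ hp hA u₁ u₂ M W hUC1 hM100 hM2 hNC (by linarith) i j k hij hjk hik K (2 ^ K)
    (s ^ 2) g5
  have ht : ∀ p l : Fin n, |tI p 4 l| ≤ u₂ / 10000 := fun p l =>
    (abs_tI_le p l).trans (by linarith)
  refine ⟨tI i 4, tI j 4, tI i 4, tI_sub hij 4, tI_sub hjk 4, tI_sub hik 4, ht i, ht j, ht i,
    SLR n × (ℝ × (ℝ × ℝ)), inferInstance, (zt (RN i j k M)).prod (uni.prod (uni.prod uni)),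
    Nh5_849.ST μ (zt (RN i j k M)) hij hjk hik (-(K : ℝ)) (2 ^ K) (2 ^ K),
    Nh5_849.RR μ (zt (RN i j k M)) hij hjk hik (-(K : ℝ)) (2 ^ K) (2 ^ K₃) (2 ^ (K + 4)),
    inferInstance, Nh5_849.measurable_ST _ _ _ _ _ _ _ _, Nh5_849.measurable_RR _ _ _ _ _ _ _ _ _,
    Nh5_849.abs_ST_le _ _ _ _ _ _ _ _, Nh5_849.abs_RR_le _ _ _ _ _ _ _ _ _, ?_, ?_, ?_⟩
  · refine iA.trans ?_
    rw [hsq]
    push_cast
    linarith
  · refine iB.trans ?_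
    rw [hsq]
    linarith
  · refine iC.trans ?_
    rw [hsq]
    linarith

end Crest.Agent.R014.RFin_460
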