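import Crest.Agent.R014.RAs2_460
import Crest.Agent.R014.HR3s3_108
import Crest.Agent.R014.HSp4_599
import Crest.Agent.R014.CFK_373
import Crest.Agent.R014.Cst_832
import Crest.Agent.R014.HR3e_792

/-!
# Row 14, block D, (R): the constants (helper548)
-/

set_option autoImplicit false

open MeasureTheory Filter Topology Crest.NumberTheoryR.Packets
open Crest.Agent.R014.Nd_837 Crest.Agent.R014.Ne1_567 Crest.Agent.R014.Ne3_567
open Crest.Agent.R014.Ne4_567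
open Crest.Agent.R014.NScD_395 Crest.Agent.R014.NScE_395 Crest.Agent.R014.NScG_395
open Crest.Agent.R014.NScH_395 Crest.Agent.R014.Ms_667
open Crest.Agent.R014.NScG_458 (RN RN_ge)
open Crest.Agent.R014.Prod_108 Crest.Agent.R014.HSp_599 Crest.Agent.R014.Nh5_849
open Crest.Agent.R014.AsmB_460 Crest.Agent.R014.AsmB2_460 Crest.Agent.R014.RAs2_460

namespace Crest.Agent.R014.RFin_548

/-- **the input of (Q2)**: (A), (B), (C) and the three gaps with one choice of constants. -/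
theorem rinp (n : ℕ) : RInp n := by
  intro e he K₀
  -- `g` : the bound for the gaps
  set g : ℝ := e ^ 2 / 4 with hg
  have hg0 : 0 < g := by positivity
  have hsg : √g = e / 2 := by
    rw [hg, show e ^ 2 / 4 = (e / 2) ^ 2 by ring, Real.sqrt_sq (by positivity)]
  -- digits inside the blocks
  obtain ⟨K₃, hK₃, hK₃e⟩ : ∃ K₃ : ℕ, K₀ ≤ K₃ ∧ 1 / (8 * (2 : ℝ) ^ K₃) ≤ e / 2 := by
    obtain ⟨m, hm⟩ := exists_pow_lt_of_lt_one (show 0 < e by exact he)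
      (show (1 / 2 : ℝ) < 1 by norm_num)
    refine ⟨max K₀ m, le_max_left _ _, ?_⟩
    have h1 : (1 / 2 : ℝ) ^ (max K₀ m) ≤ (1 / 2) ^ m :=
      pow_le_pow_of_le_one (by norm_num) (by norm_num) (le_max_right _ _)
    have h2 : 1 / (8 * (2 : ℝ) ^ (max K₀ m)) = 1 / 8 * (1 / 2) ^ (max K₀ m) := by
      rw [one_div_pow]; field_simp
    rw [h2]
    linarith
  obtain ⟨Ka, hKa⟩ := Cst_832.nearK (n := n) (ε := g / 2) (by positivity)
  obtain ⟨Kb, hKb⟩ := CFK_373.claimFK (n := n) K₃ hg0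
  obtain ⟨Kc, hKc⟩ := Cst_832.md_pow_small (C := 1) zero_le_one 0 (ε := g / 2) (by positivity)
  set K : ℕ := max (max K₀ K₃) (max Ka (max Kb Kc)) with hK
  have hK0 : K₀ ≤ K := (le_max_left _ _).trans (le_max_left _ _)
  have hK3 : K₃ ≤ K := (le_max_right _ _).trans (le_max_left _ _)
  have hKKa : Ka ≤ K := (le_max_left _ _).trans (le_max_right _ _)
  have hKKb : Kb ≤ K := (le_max_left _ _).trans ((le_max_right _ _).trans (le_max_right _ _))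
  have hKKc : Kc ≤ K := (le_max_right _ _).trans ((le_max_right _ _).trans (le_max_right _ _))
  obtain ⟨ηa, Ua, hηa, hUa, Ha⟩ := hKa K hKKa
  obtain ⟨ηb, Ub, hηb, hUb, Hb⟩ := hKb K hKKb
  obtain ⟨hc1, hc2⟩ := hKc K hKKc
  obtain ⟨ηB, UB, hηB, hUB, HB⟩ := HR3s_108.inB (n := n) (2 ^ K) (2 ^ K) he
  obtain ⟨ηC, UC, hηC, hUC, hUC2, HC⟩ := HR3_792.inC (n := n) (b := 2 ^ K₃) he
  -- the error `md`
  set x0 : ℝ := (2 : ℝ) ^ (-(K : ℝ) - 4 - 4) / 2 with hx0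
  have hx0p : 0 ≤ x0 := by positivity
  have hx1 : x0 ≤ 1 * (2 : ℝ) ^ (-(K : ℝ)) := by
    rw [hx0, one_mul]
    have h1 : (2 : ℝ) ^ (-(K : ℝ) - 4 - 4) ≤ (2 : ℝ) ^ (-(K : ℝ)) :=
      Real.rpow_le_rpow_of_exponent_le one_le_two (by linarith)
    have h2 : 0 < (2 : ℝ) ^ (-(K : ℝ) - 4 - 4) := Real.rpow_pos_of_pos two_pos _
    linarith
  have hx2 : x0 ≤ 1 := hx1.trans hc1
  have hmd : md (2 ^ K) x0 ≤ g / 2 := by
    rw [add_zero] at hc2
    exact (md_mono _ hx0p hx1 hc1).trans hc2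
  have hmd0 : 0 ≤ md (2 ^ K) x0 := md_nonneg _ hx0p hx2
  refine ⟨K, K, K₃, hK0, hK0, hK₃, ev_of ?_⟩
  set W : ℝ := (K : ℝ) + K₃ + 100 with hW
  set U : ℝ := max (max Ua Ub) (max UB (max UC (max W (20 * c1N n)))) with hU
  have hWp : 0 < W := by positivity
  refine ⟨{2 ^ K, 2 ^ K₃, 2 ^ (K + 4) * 2 ^ K₃}, min (min ηa ηb) (min ηB ηC), 1 / 80000, U,
    lt_min (lt_min hηa hηb) (lt_min hηB hηC), by norm_num, ?_⟩
  intro μ hμp hμ u₁ u₂ hUu hu hN i j k hij hjk hik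
  have hUa' : Ua ≤ u₁ := (le_max_left _ _).trans ((le_max_left _ _).trans hUu)
  have hUb' : Ub ≤ u₁ := (le_max_right _ _).trans ((le_max_left _ _).trans hUu)
  have hUB' : UB ≤ u₁ := (le_max_left _ _).trans ((le_max_right _ _).trans hUu)
  have hUC' : UC ≤ u₁ :=
    (le_max_left _ _).trans ((le_max_right _ _).trans ((le_max_right _ _).trans hUu))
  have hUW : W ≤ u₁ :=
    (le_max_left _ _).trans ((le_max_right _ _).trans ((le_max_right _ _).trans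
      ((le_max_right _ _).trans hUu)))
  have hUc : 20 * c1N n ≤ u₁ :=
    (le_max_right _ _).trans ((le_max_right _ _).trans ((le_max_right _ _).trans
      ((le_max_right _ _).trans hUu)))
  have hu1 : 0 < u₁ := by linarith
  have hWK : (K : ℝ) + K₃ + 100 = W := rfl
  have hKr : (0 : ℝ) ≤ K := Nat.cast_nonneg K
  have hK3r : (0 : ℝ) ≤ K₃ := Nat.cast_nonneg K₃
  set M : ℝ := 1000 * (u₁ + W) with hM
  have hM1 : 1000 * (u₁ + W) ≤ M := le_refl _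
  have hM2 : 100 * (u₁ + W) ≤ M := by linarith
  have hM3 : 2 * M ≤ u₂ / 20 := by linarith
  have hN1 : NC μ u₁ u₂ {2 ^ K, 2 ^ K₃, 2 ^ (K + 4) * 2 ^ K₃} ηa :=
    hN.mono (Finset.Subset.refl _) ((min_le_left _ _).trans (min_le_left _ _))
  have hN2 : NC μ u₁ u₂ {2 ^ K, 2 ^ K₃, 2 ^ (K + 4) * 2 ^ K₃} ηb :=
    hN.mono (Finset.Subset.refl _) ((min_le_left _ _).trans (min_le_right _ _))
  have hN3 : NC μ u₁ u₂ {2 ^ K, 2 ^ K} ηB :=
    hN.mono (by intro x hx; simp at hx ⊢; tauto) ((min_le_right _ _).trans (min_le_left _ _))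
  have hN4 : NC μ u₁ u₂ {2 ^ K₃} ηC :=
    hN.mono (by intro x hx; simp at hx ⊢; tauto) ((min_le_right _ _).trans (min_le_right _ _))
  set κ : Measure (SLR n) := zt (RN i j k M) with hκ
  have hadm : Nz_323.Adm (RN i j k M) := (noiseFam n).adm_of _ fun p q => by
    have h5 := RN_ge (j := i) (k := j) (l := k) (M := M) (by linarith) p q
    linarith
  have hκp : IsProbabilityMeasure κ := (noiseFam n).prob _ hadm
  have hb1 : (2 : ℕ) ^ K₃ ≤ 2 ^ K := Nat.pow_le_pow_right (by norm_num) hK3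
  obtain ⟨ha1, ha2⟩ := Ha μ hμp hμ u₁ u₂ M W _ hUa' hM2 hM3 (by linarith) (by linarith)
    (by simp) hN1 i j k hij hjk hik
  have hlb : Real.logb 2 ((2 ^ K : ℕ) : ℝ) = K := by
    push_cast
    rw [← Real.rpow_natCast, Real.logb_rpow (by norm_num) (by norm_num)]
  -- the three gaps
  have G1 : HH (PM μ κ) (fun ω => dg (2 ^ K) (tt ω)) (zz hij hjk hik 4 4 (-(K : ℝ)))
      - HH (PM μ κ) (fun ω => dg (2 ^ K) (tt ω))
        (fun ω => (zz hij hjk hik 4 4 (-(K : ℝ)) ω, (ss ω, rr ω))) ≤ g := by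
    have h := gap_i μ κ hij hjk hik 4 4 (-(K : ℝ)) (2 ^ K) hx2
    have h2 := (abs_le.1 ha2).2
    linarith
  have G2 : HH (PM μ κ) (fun ω => dg (2 ^ K) (ss ω)) (zz hij hjk hik 4 4 (-(K : ℝ)))
      - HH (PM μ κ) (fun ω => dg (2 ^ K) (ss ω))
        (fun ω => (zz hij hjk hik 4 4 (-(K : ℝ)) ω, (tt ω, rp 4 4 (-(K : ℝ)) ω))) ≤ g := by
    have h := gap_ii μ κ hij hjk hik 4 4 (-(K : ℝ)) (2 ^ K) hx2
    have h2 := (abs_le.1 ha1).2
    linarith
  have G3 : HH (PM μ κ) (fun ω => dg (2 ^ (K + 4) * 2 ^ K₃) (rr ω))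
        (fun ω => (zz hij hjk hik 4 4 (-(K : ℝ)) ω, dg (2 ^ K) (ss ω)))
      - HH (PM μ κ) (fun ω => dg (2 ^ (K + 4) * 2 ^ K₃) (rr ω))
        (fun ω => (zz hij hjk hik 4 4 (-(K : ℝ)) ω, (tt ω, ss ω))) ≤ g := by
    have h := gap_iii μ κ hij hjk hik 4 4 (-(K : ℝ)) (2 ^ K) (2 ^ (K + 4) * 2 ^ K₃)
    rw [hlb] at h
    have h2 := Hb μ hμp hμ u₁ u₂ M W _ hUb' hM1 hM3 (by simp) hN2 (by linarith) i j k hij hjk hik
      (-(K : ℝ)) (by rw [abs_neg, abs_of_nonneg hKr]; linarith)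
    rw [h]
    have h3 : ClF2_599.HR μ M hij hjk hik (4 + K) 4 (-(K : ℝ)) (2 ^ (K + 4) * 2 ^ K₃)
      = Hc (lab μ (cv (cv κ (dl hjk 4)) (dl hij (4 + (K : ℝ)))) hik (-(K : ℝ))
          (2 ^ (K + 4) * 2 ^ K₃)) := rfl
    rw [h3] at h2
    linarith
  have G4 : HH (PM μ κ) (fun ω => dg (2 ^ K) (ss ω)) (zz hij hjk hik 4 4 (-(K : ℝ)))
      - HH (PM μ κ) (fun ω => dg (2 ^ K) (ss ω)) (y1 hij 4) ≤ g / 2 := by
    rw [HH_s, HH_y1]
    exact (abs_le.1 ha1).2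
  have G5 : HH (PM μ κ) (fun ω => dg (2 ^ K) (tt ω)) (zz hij hjk hik 4 4 (-(K : ℝ)))
      - HH (PM μ κ) (fun ω => dg (2 ^ K) (tt ω)) (y2 hjk 4) ≤ g := by
    rw [← HH_t_sr μ κ hij hjk hik 4 4 (-(K : ℝ)) (2 ^ K)]
    exact G1
  -- the three inequalities
  have A := inA μ κ hij hjk hik K (2 ^ K) (2 ^ K) (2 ^ K₃) hb1 hb1 G1 G2
  have B := HB μ hμp hμ u₁ u₂ M W hUB' hM2 hM3 hN3 (by linarith) i j k hij hjk hik (-(K : ℝ))
    (md (2 ^ K) x0) (g / 2) g (HH_s_trp μ κ hij hjk hik 4 4 (-(K : ℝ)) (2 ^ K) hx2)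
    (le_of_eq (HH_t_sr μ κ hij hjk hik 4 4 (-(K : ℝ)) (2 ^ K)).symm) G4 G5
  have C := HC μ hμp hμ u₁ u₂ M W hUC' hM2 hM3 hN4 (by linarith) i j k hij hjk hik K (2 ^ K) g G3
  have htI : ∀ (p l : Fin n), |tI p 4 l| ≤ u₂ / 10000 := by
    intro p l
    rw [tI_apply]
    split_ifs
    · rw [abs_neg, abs_of_pos (by norm_num : (0 : ℝ) < 4)]
      linarith
    · rw [abs_zero]
      linarith
  have htd : ∀ (p q : Fin n), p ≠ q → tI p 4 p - tI p 4 q = -4 := by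
    intro p q hpq
    rw [tI_apply, tI_apply, if_pos rfl, if_neg hpq.symm]
    ring
  refine ⟨tI i 4, tI j 4, tI i 4, htd i j hij, htd j k hjk, htd i k hik, htI i, htI j, htI i,
    SLR n × (ℝ × (ℝ × ℝ)), inferInstance, κ.prod (uni.prod (uni.prod uni)),
    ST μ κ hij hjk hik (-(K : ℝ)) (2 ^ K) (2 ^ K),
    RR μ κ hij hjk hik (-(K : ℝ)) (2 ^ K) (2 ^ K₃) (2 ^ (K + 4)), inferInstance,
    measurable_ST .., measurable_RR .., fun p => abs_ST_le .., fun p => abs_RR_le .., ?_, ?_, ?_⟩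
  · refine A.trans ?_
    rw [hsg]
    push_cast
    linarith
  · refine B.trans ?_
    have h1 : √(g / 2 + md (2 ^ K) x0) ≤ e / 2 := by
      rw [← hsg]
      exact Real.sqrt_le_sqrt (by linarith)
    have h2 : √(md (2 ^ K) x0) ≤ e / 2 := by
      rw [← hsg]
      exact Real.sqrt_le_sqrt (by linarith)
    rw [hsg]
    linarith
  · refine C.trans ?_
    rw [hsg]
    linarith

end Crest.Agent.R014.RFin_548
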