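import Crest.Agent.R014.Conv_792
import Crest.Agent.R014.AsmB2_460

/-!
# Row 14, block D: change of the resolution of the digits (helper460)

For the same window and the same noise the spread functions with `c` and with `c * m` digits differ
by at most `2 / c`, almost everywhere (`psi_res`); `psr_res`: two powers of two.
-/

set_option autoImplicit false
set_option linter.unusedSectionVars false
set_option linter.style.haveILetI false

open MeasureTheory Finset Crest.NumberTheoryR.Packets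
open Crest.Agent.R014.Nd_837 Crest.Agent.R014.Ne1_567 Crest.Agent.R014.NScC_395
open Crest.Agent.R014.NScD_395 Crest.Agent.R014.Ms_667
open Crest.Agent.R014.Ne3_567 (pv measurable_pv pv_nonneg sum_pv pv_le_one pv_eq integral_pv_mul)
open scoped ENNReal

noncomputable section

namespace Crest.Agent.R014.Res_460

variable {n : ℕ}

section
variable (μ : Measure (ModSpace n)) (κ : Measure (SLR n)) [IsProbabilityMeasure μ]
  [IsProbabilityMeasure κ] {i j : Fin n} (hij : i ≠ j) (r : ℝ)

theorem tot_eq {c m : ℕ} (hc : 0 < c) (hm : 0 < m) :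
    tot (lab μ κ hij r (c * m)) = tot (lab μ κ hij r c) := by
  rw [NScD_395.tot_lab_eq μ κ hij r (Nat.mul_pos hc hm), NScD_395.tot_lab_eq μ κ hij r hc]

theorem pr_coarse {c m : ℕ} (hm : 0 < m) (a : Fin c) :
    ∀ᵐ y ∂(tot (lab μ κ hij r (c * m))), pr (lab μ κ hij r c) a y
      = ∑ k : Fin m, pr (lab μ κ hij r (c * m)) (finProdFinEquiv (a, k)) y := by
  have h1 := Conv_792.rnDeriv_finset_sum Finset.univ
    (fun k : Fin m => lab μ κ hij r (c * m) (finProdFinEquiv (a, k))) (tot (lab μ κ hij r (c * m)))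
  rw [sum_lab_mul μ κ hij r hm a] at h1
  have h2 : ∀ k : Fin m, ∀ᵐ y ∂(tot (lab μ κ hij r (c * m))),
      (lab μ κ hij r (c * m) (finProdFinEquiv (a, k))).rnDeriv (tot (lab μ κ hij r (c * m))) y ≠ ∞ :=
    fun k => (Measure.rnDeriv_lt_top _ _).mono fun y hy => hy.ne
  have h3 := Filter.eventually_all.2 h2
  filter_upwards [h1, h3] with y hy1 hy2
  unfold pr
  rw [← tot_eq μ κ hij r a.pos hm, hy1, ENNReal.toReal_sum fun k _ => hy2 k]

/-- the posterior of the coarse digit is the sum of the posteriors of the fine digits -/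
theorem pv_coarse {c m : ℕ} (hm : 0 < m) :
    ∀ᵐ y ∂(tot (lab μ κ hij r (c * m))), ∀ a : Fin c, pv (lab μ κ hij r c) a y
      = ∑ k : Fin m, pv (lab μ κ hij r (c * m)) (finProdFinEquiv (a, k)) y := by
  rcases Nat.eq_zero_or_pos c with hc | hc
  · subst hc
    exact Filter.Eventually.of_forall fun y a => a.elim0
  have h1 := Filter.eventually_all.2 fun a : Fin c => pr_coarse μ κ hij r hm a
  have h2 := pv_eq (lab μ κ hij r (c * m))
  have h3 := pv_eq (lab μ κ hij r c)
  rw [← tot_eq μ κ hij r hc hm] at h3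
  filter_upwards [h1, h2, h3] with y hy1 hy2 hy3 a
  rw [hy3 a, hy1 a]
  exact Finset.sum_congr rfl fun k _ => (hy2 _).symm

end

/-! ### the pointwise inequality -/

theorem abs_cen_le_one {m : ℕ} (k : Fin m) : |cen m k| ≤ 1 := by
  have hm : (0 : ℝ) < m := by exact_mod_cast k.pos
  have hk : ((k : ℕ) : ℝ) + 1 ≤ m := by exact_mod_cast k.2
  have hk0 : (0 : ℝ) ≤ ((k : ℕ) : ℝ) := by positivity
  unfold cen
  rw [abs_le]
  constructor
  · have : 0 ≤ (2 * ((k : ℕ) : ℝ) + 1) / m := by positivity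
    linarith
  · have : (2 * ((k : ℕ) : ℝ) + 1) / m ≤ 2 := by
      rw [div_le_iff₀ hm]; linarith
    linarith

theorem pointwise {c m : ℕ} (p : Fin (c * m) → ℝ) (h0 : ∀ d, 0 ≤ p d) (h1 : ∑ d, p d = 1) :
    |spr (cen c) (fun a => ∑ k : Fin m, p (finProdFinEquiv (a, k))) - spr (cen (c * m)) p|
      ≤ 2 / c := by
  have hdist : ∀ d d' : Fin c × Fin m,
      |(|cen c d.1 - cen c d'.1| - |cen (c * m) (finProdFinEquiv d)
        - cen (c * m) (finProdFinEquiv d')|)| ≤ 2 / c := by
    rintro ⟨a, k⟩ ⟨a', k'⟩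
    have hc : (0 : ℝ) < c := by exact_mod_cast a.pos
    refine (abs_abs_sub_abs_le_abs_sub _ _).trans ?_
    rw [cen_mul, cen_mul]
    have e1 : cen c a - cen c a' - (cen c a + cen m k / c - (cen c a' + cen m k' / c)) =
        (cen m k' - cen m k) / c := by ring
    rw [e1, abs_div, abs_of_pos hc]
    refine div_le_div_of_nonneg_right ?_ hc.le
    have h2 := abs_cen_le_one k
    have h3 := abs_cen_le_one k'
    rw [abs_le] at h2 h3 ⊢
    constructor <;> linarith
  have e1 : spr (cen c) (fun a => ∑ k : Fin m, p (finProdFinEquiv (a, k))) =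
      ∑ d : Fin c × Fin m, ∑ d' : Fin c × Fin m, p (finProdFinEquiv d) * p (finProdFinEquiv d') *
        |cen c d.1 - cen c d'.1| := by
    unfold spr
    simp_rw [Fintype.sum_prod_type]
    refine Finset.sum_congr rfl fun a _ => ?_
    rw [Finset.sum_comm]
    refine Finset.sum_congr rfl fun a' _ => ?_
    rw [Finset.sum_mul_sum, Finset.sum_mul]
    refine Finset.sum_congr rfl fun k _ => ?_
    rw [Finset.sum_mul]
  have e2 : spr (cen (c * m)) p =
      ∑ d : Fin c × Fin m, ∑ d' : Fin c × Fin m, p (finProdFinEquiv d) * p (finProdFinEquiv d') *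
        |cen (c * m) (finProdFinEquiv d) - cen (c * m) (finProdFinEquiv d')| := by
    unfold spr
    rw [← (finProdFinEquiv (m := c) (n := m)).sum_comp]
    refine Finset.sum_congr rfl fun d _ => ?_
    rw [← (finProdFinEquiv (m := c) (n := m)).sum_comp]
  have hsum : ∑ d : Fin c × Fin m, ∑ d' : Fin c × Fin m,
      p (finProdFinEquiv d) * p (finProdFinEquiv d') * (2 / (c : ℝ)) = 2 / c := by
    simp_rw [← Finset.sum_mul, ← Finset.mul_sum]
    have h2 : ∑ d : Fin c × Fin m, p (finProdFinEquiv d) = 1 := by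
      rw [(finProdFinEquiv (m := c) (n := m)).sum_comp]; exact h1
    rw [← Finset.sum_mul, h2]
    ring
  rw [e1, e2, ← Finset.sum_sub_distrib, ← hsum]
  refine (Finset.abs_sum_le_sum_abs _ _).trans (Finset.sum_le_sum fun d _ => ?_)
  rw [← Finset.sum_sub_distrib]
  refine (Finset.abs_sum_le_sum_abs _ _).trans (Finset.sum_le_sum fun d' _ => ?_)
  rw [← mul_sub, abs_mul, abs_of_nonneg (mul_nonneg (h0 _) (h0 _))]
  exact mul_le_mul_of_nonneg_left (hdist d d') (mul_nonneg (h0 _) (h0 _))

section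
variable (μ : Measure (ModSpace n)) (κ : Measure (SLR n)) [IsProbabilityMeasure μ]
  [IsProbabilityMeasure κ] {i j : Fin n} (hij : i ≠ j) (r : ℝ)

/-- the posterior spreads at one observation -/
theorem ps_res {c m : ℕ} (hc : 0 < c) (hm : 0 < m) :
    ∀ᵐ y ∂(tot (lab μ κ hij r (c * m))),
      |ps (lab μ κ hij r c) y - ps (lab μ κ hij r (c * m)) y| ≤ 2 / c := by
  haveI : NeZero (c * m) := ⟨(Nat.mul_pos hc hm).ne'⟩
  filter_upwards [pv_coarse μ κ hij r hm] with y hy
  have h := pointwise (fun d => pv (lab μ κ hij r (c * m)) d y) (fun d => pv_nonneg _ d y)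
    (sum_pv _ y)
  unfold ps
  have e : (fun a => ∑ k : Fin m, pv (lab μ κ hij r (c * m)) (finProdFinEquiv (a, k)) y) =
      fun a => pv (lab μ κ hij r c) a y := by
    funext a; exact (hy a).symm
  rw [e] at h
  exact h

/-- **change of the resolution** -/
theorem psi_res {c m : ℕ} (hc : 0 < c) (hm : 0 < m) :
    ∀ᵐ x ∂μ, |Psi μ κ hij r c x - Psi μ κ hij r (c * m) x| ≤ 2 / c := by
  haveI : NeZero (c * m) := ⟨(Nat.mul_pos hc hm).ne'⟩
  haveI : NeZero c := ⟨hc.ne'⟩
  have h1 := ps_res μ κ hij r hc hm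
  rw [NScD_395.tot_lab_eq μ κ hij r (Nat.mul_pos hc hm), stp] at h1
  have h2 := ae_of_ae_map measurable_act₂.aemeasurable h1
  have h3 := Measure.ae_ae_of_ae_prod h2
  filter_upwards [h3] with x hx
  have hi1 : Integrable (fun g => ps (lab μ κ hij r c) (act x g)) (cv κ (dl hij r)) :=
    bdd_integrable ((measurable_ps _).comp (measurable_act₂.comp measurable_prodMk_left))
      (M := 2) fun g => abs_ps_le _ _
  have hi2 : Integrable (fun g => ps (lab μ κ hij r (c * m)) (act x g)) (cv κ (dl hij r)) :=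
    bdd_integrable ((measurable_ps _).comp (measurable_act₂.comp measurable_prodMk_left))
      (M := 2) fun g => abs_ps_le _ _
  show |∫ g, ps (lab μ κ hij r c) (act x g) ∂(cv κ (dl hij r)) -
    ∫ g, ps (lab μ κ hij r (c * m)) (act x g) ∂(cv κ (dl hij r))| ≤ 2 / c
  rw [← integral_sub hi1 hi2]
  have h4 := norm_integral_le_of_norm_le_const (μ := cv κ (dl hij r)) (C := 2 / c)
    (f := fun g => ps (lab μ κ hij r c) (act x g) - ps (lab μ κ hij r (c * m)) (act x g)) (by
      filter_upwards [hx] with g hg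
      rw [Real.norm_eq_abs]
      exact hg)
  simpa using h4

/-- the same for the averaged posterior spread -/
theorem acv_res {c m : ℕ} (hc : 0 < c) (hm : 0 < m) :
    ∀ᵐ x ∂μ, |Acv μ κ hij r c x - Acv μ κ hij r (c * m) x| ≤ 2 / c := psi_res μ κ hij r hc hm

end

/-! ### powers of two -/

open Crest.Agent.R014.NScH_395 (PZ c1N)
open Crest.Agent.R014.AsmB2_460 (PSr U0 psr_eq)

/-- **change of the resolution** for the reference functions: `K ≤ K'`. -/
theorem pz_res {μ : Measure (ModSpace n)} [IsProbabilityMeasure μ] {u : ℝ} (hu : U0 n ≤ u)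
    {K K' : ℕ} (h : K ≤ K') (i j : Fin n) :
    ∀ᵐ x ∂μ, |PZ μ u (2 ^ K) i j x - PZ μ u (2 ^ K') i j x| ≤ 2 / 2 ^ K := by
  by_cases hij : i = j
  · subst hij
    refine Filter.Eventually.of_forall fun x => ?_
    have : ∀ b, PZ μ u b i i x = 0 := fun b => by simp [PZ, NScG_395.PS]
    rw [this, this, sub_self, abs_zero]
    positivity
  · obtain ⟨l, rfl⟩ := Nat.exists_eq_add_of_le h
    have := isProb_zt (NScH_395.adm_rho (i := i) (j := j) ((le_max_left _ _).trans hu)
      ((le_max_right _ _).trans hu))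
    have h1 := psi_res μ (zt (u • NScA_395.rho i j)) hij 0 (c := 2 ^ K) (m := 2 ^ l)
      (by positivity) (by positivity)
    rw [← pow_add] at h1
    filter_upwards [h1] with x hx
    rw [NScH_395.PZ_eq hij, NScH_395.PZ_eq hij]
    refine hx.trans (le_of_eq ?_)
    push_cast
    rfl

theorem pz_res' {μ : Measure (ModSpace n)} [IsProbabilityMeasure μ] {u : ℝ} (hu : U0 n ≤ u)
    {K₀ K K' : ℕ} (h : K₀ ≤ K) (h' : K₀ ≤ K') (i j : Fin n) :
    ∀ᵐ x ∂μ, |PZ μ u (2 ^ K) i j x - PZ μ u (2 ^ K') i j x| ≤ 2 / 2 ^ K₀ := by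
  have key : ∀ {K K' : ℕ}, K₀ ≤ K → K ≤ K' →
      ∀ᵐ x ∂μ, |PZ μ u (2 ^ K) i j x - PZ μ u (2 ^ K') i j x| ≤ 2 / 2 ^ K₀ := by
    intro K K' hK hKK'
    filter_upwards [pz_res hu hKK' i j] with x hx
    refine hx.trans ?_
    exact div_le_div_of_nonneg_left (by norm_num) (by positivity)
      (pow_le_pow_right₀ (by norm_num) hK)
  rcases le_total K K' with hKK | hKK
  · exact key h hKK
  · filter_upwards [key h' hKK] with x hx
    rw [abs_sub_comm]
    exact hx

end Crest.Agent.R014.Res_460
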