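import Mathlib
import Crest.Prelude.Def_TorusPacket

/-!
Number field part of the slab bound (row 14), helper652.

Lattice bases, multiplier orders, discriminants, traces.
-/

namespace Crest.Agent.R014.Sl_652

open Crest.NumberTheoryR.Packets Module

variable {K : Type*} [Field K] [NumberField K] {n : ℕ}

/-- The ℚ-basis given by a lattice basis. -/
noncomputable def qBasis (m : LatticeBasis n K) : Basis (Fin n) ℚ K :=
  Basis.mk ((LinearIndependent.iff_fractionRing ℤ ℚ).mp m.linIndep) (by rw [m.spans])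

@[simp] theorem qBasis_apply (m : LatticeBasis n K) (i : Fin n) : qBasis m i = m.vec i := by
  simp [qBasis]

theorem coe_qBasis (m : LatticeBasis n K) : ⇑(qBasis m) = m.vec := by
  funext i; simp

theorem finrank_eq (m : LatticeBasis n K) : finrank ℚ K = n := by
  rw [finrank_eq_card_basis (qBasis m), Fintype.card_fin]

/-- Any ℚ-basis is a lattice basis. -/
noncomputable def ofBasis (b : Basis (Fin n) ℚ K) : LatticeBasis n K where
  vec := b
  linIndep := (LinearIndependent.iff_fractionRing ℤ ℚ).mpr b.linearIndependent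
  spans := b.span_eq

@[simp] theorem ofBasis_vec (b : Basis (Fin n) ℚ K) : (ofBasis b).vec = b := rfl

theorem n_pos (m : LatticeBasis n K) : 0 < n := by
  rw [← finrank_eq m]; exact finrank_pos

theorem vec_ne_zero (m : LatticeBasis n K) (i : Fin n) : m.vec i ≠ 0 := m.linIndep.ne_zero i

theorem vec_mem (m : LatticeBasis n K) (i : Fin n) : m.vec i ∈ m.lattice :=
  Submodule.subset_span ⟨i, rfl⟩

theorem lattice_fg (m : LatticeBasis n K) : m.lattice.FG :=
  Submodule.fg_span (Set.finite_range _)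

theorem lattice_toAddSubgroup (m : LatticeBasis n K) :
    m.lattice.toAddSubgroup = AddSubgroup.closure (Set.range (qBasis m)) := by
  rw [coe_qBasis, LatticeBasis.lattice, Submodule.span_int_eq_addSubgroupClosure]

/-- Every element of `K` has a nonzero integer multiple in a lattice. -/
theorem exists_mul_mem (m : LatticeBasis n K) (x : K) :
    ∃ N : ℕ, N ≠ 0 ∧ (N : K) * x ∈ m.lattice := by
  have hx : x ∈ Submodule.span ℚ (Set.range m.vec) := by rw [m.spans]; trivial
  induction hx using Submodule.span_induction with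
  | mem x hx =>
    refine ⟨1, one_ne_zero, ?_⟩
    rw [Nat.cast_one, one_mul]
    exact Submodule.subset_span hx
  | zero => exact ⟨1, one_ne_zero, by simp⟩
  | add x y _ _ hx hy =>
    obtain ⟨N, hN, h1⟩ := hx
    obtain ⟨M, hM, h2⟩ := hy
    refine ⟨N * M, mul_ne_zero hN hM, ?_⟩
    have e : ((N * M : ℕ) : K) * (x + y) = (M : ℤ) • ((N : K) * x) + (N : ℤ) • ((M : K) * y) := by
      push_cast; simp only [zsmul_eq_mul]; push_cast; ring
    rw [e]
    exact m.lattice.add_mem (m.lattice.smul_mem _ h1) (m.lattice.smul_mem _ h2)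
  | smul a x _ hx =>
    obtain ⟨N, hN, h1⟩ := hx
    refine ⟨a.den * N, mul_ne_zero a.den_nz hN, ?_⟩
    have e : ((a.den * N : ℕ) : K) * (a • x) = a.num • ((N : K) * x) := by
      rw [Algebra.smul_def, zsmul_eq_mul]
      have h3 : (a : K) * (a.den : K) = (a.num : K) := by
        have := Rat.mul_den_eq_num a
        exact_mod_cast congrArg (fun q : ℚ => (q : K)) this
      have h4 : algebraMap ℚ K a = (a : K) := by simp
      rw [h4]
      push_cast
      linear_combination ((N : K) * x) * h3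
    rw [e]
    exact m.lattice.smul_mem _ h1

/-- A finitely generated subgroup of `K` of full rank is a lattice. -/
theorem exists_latticeBasis (hn : finrank ℚ K = n) (H : Submodule ℤ K) (hfg : H.FG)
    (hsp : ∀ x : K, ∃ N : ℕ, N ≠ 0 ∧ (N : K) * x ∈ H) :
    ∃ o : LatticeBasis n K, o.lattice = H := by
  have : Module.Finite ℤ H := Module.Finite.iff_fg.mpr hfg
  have : Module.Free ℤ H := inferInstance
  let b := Module.finBasis ℤ H
  have hli : LinearIndependent ℤ (fun i => (b i : K)) :=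
    b.linearIndependent.map' H.subtype (Submodule.ker_subtype H)
  have hspan : Submodule.span ℤ (Set.range (fun i => (b i : K))) = H := by
    have h1 : Set.range (fun i => (b i : K)) = H.subtype '' Set.range b := by
      rw [← Set.range_comp]; rfl
    rw [h1, Submodule.span_image, b.span_eq, Submodule.map_top, Submodule.range_subtype]
  have hspQ : Submodule.span ℚ (Set.range (fun i => (b i : K))) = ⊤ := by
    rw [eq_top_iff]
    intro x _
    obtain ⟨N, hN, h1⟩ := hsp x
    rw [← hspan] at h1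
    have h2 : (N : K) * x ∈ Submodule.span ℚ (Set.range (fun i => (b i : K))) :=
      Submodule.span_le_restrictScalars ℤ ℚ _ h1
    have h3 := Submodule.smul_mem _ ((N : ℚ)⁻¹) h2
    have h4 : ((N : ℚ)⁻¹) • ((N : K) * x) = x := by
      rw [Algebra.smul_def]
      have : (algebraMap ℚ K) ((N : ℚ)⁻¹) = (N : K)⁻¹ := by simp
      rw [this, ← mul_assoc, inv_mul_cancel₀ (by exact_mod_cast hN), one_mul]
    rwa [h4] at h3
  have hliQ : LinearIndependent ℚ (fun i => (b i : K)) :=
    (LinearIndependent.iff_fractionRing ℤ ℚ).mp hli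
  let B : Basis (Fin (finrank ℤ H)) ℚ K := Basis.mk hliQ (by rw [hspQ])
  have hc : finrank ℤ H = n := by
    rw [← hn, finrank_eq_card_basis B, Fintype.card_fin]
  subst hc
  exact ⟨⟨_, hli, hspQ⟩, hspan⟩

/-- The multiplier order as a ℤ-submodule. -/
def ordSub (m : LatticeBasis n K) : Submodule ℤ K := (multiplierOrder m).toIntSubmodule

theorem mem_ordSub {m : LatticeBasis n K} {x : K} : x ∈ ordSub m ↔ x ∈ multiplierOrder m :=
  Iff.rfl

theorem mem_order_iff {m : LatticeBasis n K} {x : K} :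
    x ∈ multiplierOrder m ↔ ∀ y ∈ m.lattice, x * y ∈ m.lattice := Iff.rfl

theorem mem_order_of_vec {m : LatticeBasis n K} {x : K} (h : ∀ i, x * m.vec i ∈ m.lattice) :
    x ∈ multiplierOrder m := by
  intro y hy
  induction hy using Submodule.span_induction with
  | mem y hy => obtain ⟨i, rfl⟩ := hy; exact h i
  | zero => simp
  | add a b _ _ ha hb => rw [mul_add]; exact m.lattice.add_mem ha hb
  | smul c a _ ha => rw [mul_smul_comm]; exact m.lattice.smul_mem c ha

theorem one_mem_order (m : LatticeBasis n K) : (1 : K) ∈ multiplierOrder m := by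
  intro y hy; simpa using hy

theorem mul_mem_order {m : LatticeBasis n K} {x y : K} (hx : x ∈ multiplierOrder m)
    (hy : y ∈ multiplierOrder m) : x * y ∈ multiplierOrder m := by
  intro z hz
  rw [mul_assoc]
  exact hx _ (hy _ hz)

theorem pow_mem_order {m : LatticeBasis n K} {x : K} (hx : x ∈ multiplierOrder m) (k : ℕ) :
    x ^ k ∈ multiplierOrder m := by
  induction k with
  | zero => simpa using one_mem_order m
  | succ k ih => rw [pow_succ]; exact mul_mem_order ih hx

theorem int_mem_order (m : LatticeBasis n K) (k : ℤ) : (k : K) ∈ multiplierOrder m := by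
  have := (multiplierOrder m).zsmul_mem (one_mem_order m) k
  simpa using this

theorem order_isIntegral {m : LatticeBasis n K} {x : K} (hx : x ∈ multiplierOrder m) :
    IsIntegral ℤ x := by
  refine isIntegral_of_smul_mem_submodule (M := K) m.lattice ?_ (lattice_fg m) x ?_
  · intro h
    have h0 := vec_mem m ⟨0, n_pos m⟩
    rw [h, Submodule.mem_bot] at h0
    exact vec_ne_zero m _ h0
  · intro y hy
    exact hx y hy

theorem ordSub_fg (m : LatticeBasis n K) : (ordSub m).FG := by
  have h0 := vec_ne_zero m ⟨0, n_pos m⟩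
  set v := m.vec ⟨0, n_pos m⟩ with hv
  let f : K →ₗ[ℤ] K := LinearMap.mulRight ℤ v
  have hf : Function.Injective f := by
    intro a b hab
    exact mul_right_cancel₀ h0 hab
  have h1 : (ordSub m).map f ≤ m.lattice := by
    rintro _ ⟨x, hx, rfl⟩
    exact hx v (vec_mem m _)
  have : IsNoetherian ℤ m.lattice := by
    have : Module.Finite ℤ m.lattice := Module.Finite.iff_fg.mpr (lattice_fg m)
    infer_instance
  have h2 : ((ordSub m).map f).FG := by
    have h3 : IsNoetherian ℤ ((ordSub m).map f) := isNoetherian_of_le h1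
    exact (Submodule.fg_top _).mp (h3.noetherian ⊤)
  exact Submodule.fg_of_fg_map_injective f hf h2

theorem exists_mul_mem_order (m : LatticeBasis n K) (x : K) :
    ∃ N : ℕ, N ≠ 0 ∧ (N : K) * x ∈ ordSub m := by
  choose N hN h using fun i => exists_mul_mem m (x * m.vec i)
  refine ⟨∏ i, N i, Finset.prod_ne_zero_iff.mpr fun i _ => hN i, ?_⟩
  refine mem_order_of_vec fun i => ?_
  rw [← Finset.mul_prod_erase Finset.univ N (Finset.mem_univ i)]
  have e : ((N i * ∏ j ∈ Finset.univ.erase i, N j : ℕ) : K) * x * m.vec i =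
      ((∏ j ∈ Finset.univ.erase i, N j : ℕ) : ℤ) • ((N i : K) * (x * m.vec i)) := by
    rw [zsmul_eq_mul]; push_cast; ring
  rw [e]
  exact m.lattice.smul_mem _ (h i)

theorem order_basis (m : LatticeBasis n K) :
    ∃ o : LatticeBasis n K, o.lattice = ordSub m :=
  exists_latticeBasis (finrank_eq m) _ (ordSub_fg m) (exists_mul_mem_order m)


/-! ### Index and determinants -/

theorem relIndex_eq (m m' : LatticeBasis n K) (h : m'.lattice ≤ m.lattice) :
    (m'.lattice.toAddSubgroup.relIndex m.lattice.toAddSubgroup : ℚ) =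
      |(qBasis m).det m'.vec| := by
  have := AddSubgroup.relIndex_eq_abs_det m'.lattice.toAddSubgroup m.lattice.toAddSubgroup h
    (qBasis m') (qBasis m) (lattice_toAddSubgroup m') (lattice_toAddSubgroup m)
  rw [this, coe_qBasis m']

theorem embMatrix_eq_mul (m m' : LatticeBasis n K) (σ : Fin n ≃ (K →+* ℝ)) :
    embMatrix m' σ =
      (((qBasis m).toMatrix m'.vec).map (algebraMap ℚ ℝ)).transpose * embMatrix m σ := by
  ext i j
  rw [Matrix.mul_apply]
  simp only [Matrix.transpose_apply, Matrix.map_apply, embMatrix]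
  have h := (qBasis m).sum_repr (m'.vec i)
  conv_lhs => rw [← h]
  rw [map_sum]
  refine Finset.sum_congr rfl fun k _ => ?_
  rw [Algebra.smul_def, map_mul, Basis.toMatrix_apply, qBasis_apply]
  congr 1
  simp

theorem det_embMatrix (m m' : LatticeBasis n K) (σ : Fin n ≃ (K →+* ℝ)) :
    (embMatrix m' σ).det = ((qBasis m).det m'.vec : ℝ) * (embMatrix m σ).det := by
  rw [embMatrix_eq_mul m m' σ, Matrix.det_mul, Matrix.det_transpose, Basis.det_apply]
  congr 1
  rw [← RingHom.mapMatrix_apply, ← RingHom.map_det]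
  simp

theorem abs_det_embMatrix (m m' : LatticeBasis n K) (σ : Fin n ≃ (K →+* ℝ))
    (h : m'.lattice ≤ m.lattice) :
    |(embMatrix m' σ).det| =
      (m'.lattice.toAddSubgroup.relIndex m.lattice.toAddSubgroup : ℝ) *
        |(embMatrix m σ).det| := by
  rw [det_embMatrix m m' σ, abs_mul]
  congr 1
  have := relIndex_eq m m' h
  have h2 := congrArg (fun q : ℚ => (q : ℝ)) this
  simp only [Rat.cast_natCast, Rat.cast_abs] at h2
  exact h2.symm

/-! ### Traces -/

/-- The embeddings of `K` in `ℂ` are the real embeddings, if there are `n` of these. -/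
noncomputable def toAlgHom (φ : K →+* ℝ) : K →ₐ[ℚ] ℂ := (Complex.ofRealHom.comp φ).toRatAlgHom

theorem toAlgHom_apply (φ : K →+* ℝ) (x : K) : toAlgHom φ x = ((φ x : ℝ) : ℂ) := rfl

theorem toAlgHom_injective : Function.Injective (toAlgHom (K := K)) := by
  intro φ ψ h
  ext x
  have := DFunLike.congr_fun h x
  rw [toAlgHom_apply, toAlgHom_apply] at this
  exact_mod_cast this

theorem toAlgHom_bijective (hn : finrank ℚ K = n) (σ : Fin n ≃ (K →+* ℝ)) :
    Function.Bijective (fun i => toAlgHom (σ i)) := by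
  rw [Fintype.bijective_iff_injective_and_card]
  refine ⟨toAlgHom_injective.comp σ.injective, ?_⟩
  rw [Fintype.card_fin, AlgHom.card, hn]

theorem trace_eq_sum (hn : finrank ℚ K = n) (σ : Fin n ≃ (K →+* ℝ)) (x : K) :
    ((Algebra.trace ℚ K x : ℚ) : ℝ) = ∑ i, σ i x := by
  have h := trace_eq_sum_embeddings (K := ℚ) (L := K) ℂ (x := x)
  have h2 : ∑ f : K →ₐ[ℚ] ℂ, f x = ∑ i, toAlgHom (σ i) x :=
    (Function.Bijective.sum_comp (toAlgHom_bijective hn σ) (fun f => f x)).symm
  rw [h2] at h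
  simp only [toAlgHom_apply] at h
  rw [← Complex.ofReal_sum] at h
  have h3 : (algebraMap ℚ ℂ) ((Algebra.trace ℚ K) x) =
      (((Algebra.trace ℚ K x : ℚ) : ℝ) : ℂ) := by simp
  rw [h3] at h
  exact_mod_cast h

theorem norm_eq_prod (hn : finrank ℚ K = n) (σ : Fin n ≃ (K →+* ℝ)) (x : K) :
    ((Algebra.norm ℚ x : ℚ) : ℝ) = ∏ i, σ i x := by
  have h := Algebra.norm_eq_prod_embeddings ℚ ℂ x
  have h2 : ∏ f : K →ₐ[ℚ] ℂ, f x = ∏ i, toAlgHom (σ i) x :=
    (Function.Bijective.prod_comp (toAlgHom_bijective hn σ) (fun f => f x)).symm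
  rw [h2] at h
  simp only [toAlgHom_apply] at h
  rw [← Complex.ofReal_prod] at h
  have h3 : (algebraMap ℚ ℂ) ((Algebra.norm ℚ) x) =
      (((Algebra.norm ℚ x : ℚ) : ℝ) : ℂ) := by simp
  rw [h3] at h
  exact_mod_cast h

/-- `det (σ_j m_i)² = disc (m)`. -/
theorem det_embMatrix_sq (m : LatticeBasis n K) (σ : Fin n ≃ (K →+* ℝ)) :
    (embMatrix m σ).det ^ 2 = ((Algebra.discr ℚ m.vec : ℚ) : ℝ) := by
  have h1 : (embMatrix m σ) * (embMatrix m σ).transpose =
      (Algebra.traceMatrix ℚ m.vec).map (algebraMap ℚ ℝ) := by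
    ext i j
    rw [Matrix.mul_apply, Matrix.map_apply, Algebra.traceMatrix_apply, Algebra.traceForm_apply]
    have h2 := trace_eq_sum (finrank_eq m) σ (m.vec i * m.vec j)
    have h3 : (algebraMap ℚ ℝ) ((Algebra.trace ℚ K) (m.vec i * m.vec j)) =
      (((Algebra.trace ℚ K (m.vec i * m.vec j) : ℚ)) : ℝ) := by simp
    rw [h3, h2]
    simp [embMatrix, Matrix.transpose_apply]
  have h4 := congrArg Matrix.det h1
  rw [Matrix.det_mul, Matrix.det_transpose, ← RingHom.mapMatrix_apply, ← RingHom.map_det] at h4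
  rw [sq, h4, Algebra.discr_def]
  simp

theorem det_embMatrix_ne_zero (m : LatticeBasis n K) (σ : Fin n ≃ (K →+* ℝ)) :
    (embMatrix m σ).det ≠ 0 := by
  intro h
  have h1 := det_embMatrix_sq m σ
  rw [h] at h1
  have h2 := Algebra.discr_not_zero_of_basis ℚ (qBasis m)
  rw [coe_qBasis] at h2
  apply h2
  have : ((Algebra.discr ℚ m.vec : ℚ) : ℝ) = 0 := by rw [← h1]; simp
  exact_mod_cast this

/-! ### The maximal order -/

theorem maxBasis_exists (hn : finrank ℚ K = n) :
    ∃ o : LatticeBasis n K, (∀ x, x ∈ o.lattice ↔ IsIntegral ℤ x) ∧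
      Algebra.discr ℚ o.vec = NumberField.discr K := by
  classical
  let b := NumberField.integralBasis K
  have hc : Fintype.card (Free.ChooseBasisIndex ℤ (NumberField.RingOfIntegers K)) = n := by
    rw [← hn, finrank_eq_card_basis b]
  let e : Free.ChooseBasisIndex ℤ (NumberField.RingOfIntegers K) ≃ Fin n :=
    Fintype.equivFinOfCardEq hc
  refine ⟨ofBasis (b.reindex e), ?_, ?_⟩
  · intro x
    rw [LatticeBasis.lattice, ofBasis_vec, Basis.range_reindex]
    rw [NumberField.mem_span_integralBasis]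
    constructor
    · rintro ⟨y, rfl⟩
      exact y.2
    · intro h
      exact ⟨⟨x, h⟩, rfl⟩
  · rw [NumberField.coe_discr, ofBasis_vec, Basis.coe_reindex]
    exact Algebra.discr_reindex ℚ b e


/-- `disc = det² = |disc K| · index²`. -/
theorem disc_of_order (m o : LatticeBasis n K) (ho : o.lattice = ordSub m)
    (σ : Fin n ≃ (K →+* ℝ)) : (embMatrix o σ).det ^ 2 = latticeDisc m := by
  obtain ⟨M, hM, hd⟩ := maxBasis_exists (finrank_eq m)
  have hle : o.lattice ≤ M.lattice := by
    intro x hx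
    rw [hM]
    rw [ho] at hx
    exact order_isIntegral hx
  have h1 := abs_det_embMatrix M o σ hle
  have h2 := det_embMatrix_sq M σ
  rw [hd] at h2
  have e1 : M.lattice.toAddSubgroup = (integralClosure ℤ K).toSubring.toAddSubgroup := by
    ext x
    change x ∈ M.lattice ↔ x ∈ integralClosure ℤ K
    rw [hM]
    rfl
  have e2 : o.lattice.toAddSubgroup = multiplierOrder m := by
    ext x
    change x ∈ o.lattice ↔ _
    rw [ho]
    rfl
  rw [e1, e2] at h1
  have h3 : ((NumberField.discr K : ℚ) : ℝ) = (NumberField.discr K : ℝ) := by push_cast; rfl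
  rw [h3] at h2
  have h4 : |(NumberField.discr K : ℝ)| = (NumberField.discr K : ℝ) := by
    rw [← h2]; exact abs_of_nonneg (sq_nonneg _)
  rw [latticeDisc, h4, ← h2, ← sq_abs, h1, ← sq_abs ((embMatrix M σ).det)]
  ring

theorem latticeDisc_pos (m : LatticeBasis n K) (σ : Fin n ≃ (K →+* ℝ)) : 0 < latticeDisc m := by
  obtain ⟨o, ho⟩ := order_basis m
  rw [← disc_of_order m o ho σ]
  exact lt_of_le_of_ne (sq_nonneg _) (pow_ne_zero 2 (det_embMatrix_ne_zero o σ)).symm

theorem latticeDisc_eq_nat (m : LatticeBasis n K) : ∃ N : ℕ, latticeDisc m = N := by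
  refine ⟨(NumberField.discr K).natAbs *
    ((multiplierOrder m).relIndex (integralClosure ℤ K).toSubring.toAddSubgroup) ^ 2, ?_⟩
  rw [latticeDisc]
  push_cast
  rw [Nat.cast_natAbs]
  push_cast
  rfl

theorem one_le_latticeDisc (m : LatticeBasis n K) (σ : Fin n ≃ (K →+* ℝ)) :
    1 ≤ latticeDisc m := by
  have h := latticeDisc_pos m σ
  obtain ⟨N, hN⟩ := latticeDisc_eq_nat m
  rw [hN] at h ⊢
  have : 0 < N := by exact_mod_cast h
  exact_mod_cast this

/-! ### Elements of the order outside `ℤ` -/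

/-- If all powers `1, y, .., y^{n-1}` lie in the order and form a basis of `K`, their discriminant
is at least the discriminant of the order. -/
theorem disc_le_of_le (m b : LatticeBasis n K) (hb : b.lattice ≤ ordSub m)
    (σ : Fin n ≃ (K →+* ℝ)) : latticeDisc m ≤ (embMatrix b σ).det ^ 2 := by
  obtain ⟨o, ho⟩ := order_basis m
  have h1 := abs_det_embMatrix o b σ (by rw [ho]; exact hb)
  have h2 := det_embMatrix_ne_zero b σ
  set r := b.lattice.toAddSubgroup.relIndex o.lattice.toAddSubgroup with hr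
  have hr0 : r ≠ 0 := by
    intro h0
    rw [h0] at h1
    simp only [Nat.cast_zero, zero_mul, abs_eq_zero] at h1
    exact h2 h1
  have hr1 : (1 : ℝ) ≤ r := by exact_mod_cast Nat.one_le_iff_ne_zero.mpr hr0
  rw [← disc_of_order m o ho σ, ← sq_abs ((embMatrix b σ).det), h1, ← sq_abs ((embMatrix o σ).det)]
  have h3 : 0 ≤ |(embMatrix o σ).det| := abs_nonneg _
  gcongr
  nlinarith

theorem adjoin_eq_top_of_primitive (hprim : IsPrimitiveField K) {m : LatticeBasis n K} {y : K}
    (hy : y ∈ multiplierOrder m) (hZ : ∀ k : ℤ, y ≠ k) :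
    IntermediateField.adjoin ℚ {y} = ⊤ := by
  rcases hprim (IntermediateField.adjoin ℚ {y}) with h | h
  · exfalso
    have h1 : y ∈ IntermediateField.adjoin ℚ {y} := IntermediateField.mem_adjoin_simple_self ℚ y
    rw [h, IntermediateField.mem_bot] at h1
    obtain ⟨q, hq⟩ := h1
    have hint : IsIntegral ℤ y := order_isIntegral hy
    rw [← hq] at hint
    have hq' : IsIntegral ℤ q :=
      (isIntegral_algebraMap_iff (algebraMap ℚ K).injective).mp hint
    obtain ⟨k, hk⟩ := IsIntegrallyClosed.isIntegral_iff.mp hq'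
    apply hZ k
    rw [← hq, ← hk]
    simp
  · exact h

/-- The powers of a primitive element as a lattice basis. -/
theorem powers_basis (hn : finrank ℚ K = n) {y : K} (hy : IntermediateField.adjoin ℚ {y} = ⊤) :
    ∃ b : LatticeBasis n K, ∀ i, b.vec i = y ^ (i : ℕ) := by
  have hint : IsIntegral ℚ y := Algebra.IsIntegral.isIntegral y
  let e : IntermediateField.adjoin ℚ {y} ≃ₐ[ℚ] K :=
    (IntermediateField.equivOfEq hy).trans IntermediateField.topEquiv
  let pb : PowerBasis ℚ K := (IntermediateField.adjoin.powerBasis hint).map e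
  have hgen : pb.gen = y := by
    change e (IntermediateField.adjoin.powerBasis hint).gen = y
    rw [IntermediateField.adjoin.powerBasis_gen]
    rfl
  have hdim : pb.dim = n := by rw [← pb.finrank, hn]
  refine ⟨ofBasis (pb.basis.reindex (finCongr hdim)), fun i => ?_⟩
  rw [ofBasis_vec, Basis.reindex_apply, pb.basis_eq_pow, hgen]
  rfl

theorem det_powers (b : LatticeBasis n K) {y : K} (hb : ∀ i, b.vec i = y ^ (i : ℕ))
    (σ : Fin n ≃ (K →+* ℝ)) :
    (embMatrix b σ).det = ∏ i : Fin n, ∏ j ∈ Finset.Ioi i, (σ j y - σ i y) := by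
  have : embMatrix b σ = (Matrix.vandermonde fun i => σ i y).transpose := by
    ext i j
    simp [embMatrix, hb, Matrix.vandermonde_apply]
  rw [this, Matrix.det_transpose, Matrix.det_vandermonde]

theorem order_diff (hprim : IsPrimitiveField K) (hn : 2 ≤ n) (m : LatticeBasis n K)
    (σ : Fin n ≃ (K →+* ℝ)) {y : K} (hy : y ∈ multiplierOrder m) (hZ : ∀ k : ℤ, y ≠ k) :
    ∃ i j, latticeDisc m ^ (1 / ((n : ℝ) * ((n : ℝ) - 1))) ≤ |σ i y - σ j y| := by
  classical
  obtain ⟨b, hb⟩ := powers_basis (finrank_eq m) (adjoin_eq_top_of_primitive hprim hy hZ)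
  have hble : b.lattice ≤ ordSub m := by
    rw [LatticeBasis.lattice, Submodule.span_le]
    rintro _ ⟨i, rfl⟩
    rw [hb]
    exact pow_mem_order hy _
  have h1 := disc_le_of_le m b hble σ
  rw [det_powers b hb σ] at h1
  have : Nonempty (Fin n) := ⟨⟨0, by omega⟩⟩
  obtain ⟨⟨i, j⟩, -, hij⟩ := Finset.exists_max_image (Finset.univ : Finset (Fin n × Fin n))
    (fun p => |σ p.1 y - σ p.2 y|) ⟨(Classical.arbitrary _, Classical.arbitrary _), Finset.mem_univ _⟩
  refine ⟨i, j, ?_⟩
  set Δ := |σ i y - σ j y| with hΔ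
  have hΔ0 : 0 ≤ Δ := abs_nonneg _
  have h2 : |∏ i : Fin n, ∏ j ∈ Finset.Ioi i, (σ j y - σ i y)| ≤
      Δ ^ (∑ i : Fin n, (Finset.Ioi i).card) := by
    rw [Finset.abs_prod, ← Finset.prod_pow_eq_pow_sum]
    refine Finset.prod_le_prod (fun _ _ => abs_nonneg _) fun k _ => ?_
    rw [Finset.abs_prod]
    calc ∏ l ∈ Finset.Ioi k, |σ l y - σ k y| ≤ ∏ _l ∈ Finset.Ioi k, Δ :=
          Finset.prod_le_prod (fun _ _ => abs_nonneg _) fun l _ =>
            hij (l, k) (Finset.mem_univ _)
      _ = Δ ^ (Finset.Ioi k).card := by rw [Finset.prod_const]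
  have h3 : (∑ i : Fin n, (Finset.Ioi i).card) * 2 = n * (n - 1) := by
    rw [← Finset.sum_range_id_mul_two]
    congr 1
    have h4 : ∀ i : Fin n, (Finset.Ioi i).card = n - 1 - (i : ℕ) := fun i => Fin.card_Ioi i
    simp_rw [h4]
    rw [Fin.sum_univ_eq_sum_range (fun k => n - 1 - k) n]
    exact Finset.sum_range_reflect (fun k => k) n
  have h4 : latticeDisc m ≤ Δ ^ (n * (n - 1)) := by
    calc latticeDisc m ≤ (∏ i : Fin n, ∏ j ∈ Finset.Ioi i, (σ j y - σ i y)) ^ 2 := h1
      _ = |∏ i : Fin n, ∏ j ∈ Finset.Ioi i, (σ j y - σ i y)| ^ 2 := (sq_abs _).symm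
      _ ≤ (Δ ^ (∑ i : Fin n, (Finset.Ioi i).card)) ^ 2 := by
          gcongr
      _ = Δ ^ (n * (n - 1)) := by rw [← pow_mul, h3]
  have h5 : n * (n - 1) ≠ 0 := by
    have : 1 ≤ n - 1 := by omega
    positivity
  have h6 : ((n * (n - 1) : ℕ) : ℝ) = (n : ℝ) * ((n : ℝ) - 1) := by
    push_cast [Nat.cast_sub (show 1 ≤ n by omega)]; ring
  calc latticeDisc m ^ (1 / ((n : ℝ) * ((n : ℝ) - 1)))
      ≤ (Δ ^ (n * (n - 1))) ^ (1 / ((n : ℝ) * ((n : ℝ) - 1))) := by
        refine Real.rpow_le_rpow (latticeDisc_pos m σ).le h4 ?_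
        rw [← h6]; positivity
    _ = Δ := by
        rw [← h6, one_div]
        exact Real.pow_rpow_inv_natCast hΔ0 h5


/-! ### Trace duals -/

/-- The trace dual of a lattice, written with the real embeddings. -/
def TrDual (M : Submodule ℤ K) (σ : Fin n ≃ (K →+* ℝ)) : Set K :=
  {x | ∀ y ∈ M, ∃ k : ℤ, ∑ i, σ i (x * y) = k}

/-- Values and covalues multiply into the dual of the multiplier order. -/
theorem mul_mem_trDual {m : LatticeBasis n K} {σ : Fin n ≃ (K →+* ℝ)} {v w : K}
    (hv : v ∈ m.lattice) (hw : w ∈ TrDual m.lattice σ) : v * w ∈ TrDual (ordSub m) σ := by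
  intro y hy
  obtain ⟨k, hk⟩ := hw (y * v) (hy v hv)
  refine ⟨k, ?_⟩
  rw [← hk]
  refine Finset.sum_congr rfl fun i _ => ?_
  congr 1
  ring

theorem mem_trDual_iff_trace (hn : finrank ℚ K = n) {M : Submodule ℤ K}
    {σ : Fin n ≃ (K →+* ℝ)} {x : K} :
    x ∈ TrDual M σ ↔ ∀ y ∈ M, ∃ k : ℤ, Algebra.trace ℚ K (x * y) = k := by
  refine forall₂_congr fun y _ => exists_congr fun k => ?_
  rw [← trace_eq_sum hn σ (x * y)]
  constructor
  · intro h; exact_mod_cast h
  · intro h; rw [h]; simp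

/-! ### Coordinates -/

/-- The vector of conjugates. -/
def sigVec (σ : Fin n ≃ (K →+* ℝ)) (x : K) : Fin n → ℝ := fun i => σ i x

omit [NumberField K] in
@[simp] theorem sigVec_apply (σ : Fin n ≃ (K →+* ℝ)) (x : K) (i : Fin n) :
    sigVec σ x i = σ i x := rfl

/-- The vector of conjugates, as a ℤ-linear map. -/
def sigLin (σ : Fin n ≃ (K →+* ℝ)) : K →ₗ[ℤ] (Fin n → ℝ) where
  toFun := sigVec σ
  map_add' x y := by ext i; simp [map_add]
  map_smul' k x := by ext i; simp

@[simp] theorem sigLin_apply (σ : Fin n ≃ (K →+* ℝ)) (x : K) : sigLin σ x = sigVec σ x := rfl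

omit [NumberField K] in
theorem sigVec_injective (hn : 0 < n) (σ : Fin n ≃ (K →+* ℝ)) :
    Function.Injective (sigVec σ) := by
  intro x y h
  exact (σ ⟨0, hn⟩).injective (congrFun h ⟨0, hn⟩)

theorem sig_linearIndependent (m : LatticeBasis n K) (σ : Fin n ≃ (K →+* ℝ)) :
    LinearIndependent ℝ (fun i => sigVec σ (m.vec i)) := by
  have h : IsUnit (embMatrix m σ) := by
    rw [Matrix.isUnit_iff_isUnit_det, isUnit_iff_ne_zero]
    exact det_embMatrix_ne_zero m σ
  exact Matrix.linearIndependent_rows_iff_isUnit.mpr h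

/-- The real basis `σ(m_i)` of `ℝⁿ`. -/
noncomputable def sigBasis (m : LatticeBasis n K) (σ : Fin n ≃ (K →+* ℝ)) :
    Basis (Fin n) ℝ (Fin n → ℝ) :=
  Basis.mk (v := fun i => sigVec σ (m.vec i)) (sig_linearIndependent m σ)
    ((sig_linearIndependent m σ).span_eq_top_of_card_eq_finrank' (by simp)).ge

@[simp] theorem sigBasis_apply (m : LatticeBasis n K) (σ : Fin n ≃ (K →+* ℝ)) (i : Fin n) :
    sigBasis m σ i = sigVec σ (m.vec i) := by
  simp [sigBasis]

theorem coe_sigBasis (m : LatticeBasis n K) (σ : Fin n ≃ (K →+* ℝ)) :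
    (⇑(sigBasis m σ) : Fin n → Fin n → ℝ) = embMatrix m σ := by
  funext i j; simp [embMatrix]

theorem span_sigBasis (m : LatticeBasis n K) (σ : Fin n ≃ (K →+* ℝ)) :
    Submodule.span ℤ (Set.range (sigBasis m σ)) = m.lattice.map (sigLin σ) := by
  rw [LatticeBasis.lattice, ← Submodule.span_image, ← Set.range_comp]
  congr 2
  funext i
  simp

theorem mem_span_sigBasis {m : LatticeBasis n K} {σ : Fin n ≃ (K →+* ℝ)} {v : Fin n → ℝ} :
    v ∈ Submodule.span ℤ (Set.range (sigBasis m σ)) ↔ ∃ x ∈ m.lattice, sigVec σ x = v := by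
  rw [span_sigBasis]
  rfl

/-- The lattice of an order satisfies the hypotheses of the slab count. -/
theorem slab_hyp (hprim : IsPrimitiveField K) (hn : 2 ≤ n) (m o : LatticeBasis n K)
    (ho : o.lattice = ordSub m) (σ : Fin n ≃ (K →+* ℝ)) :
    (1 : Fin n → ℝ) ∈ Submodule.span ℤ (Set.range (sigBasis o σ)) ∧
    (∀ y ∈ Submodule.span ℤ (Set.range (sigBasis o σ)), (∀ k : ℤ, y ≠ fun _ => (k : ℝ)) →
      ∃ i j, latticeDisc m ^ (1 / ((n : ℝ) * ((n : ℝ) - 1))) ≤ |y i - y j|) ∧
    |(Matrix.of (⇑(sigBasis o σ) : Fin n → Fin n → ℝ)).det| = Real.sqrt (latticeDisc m) ∧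
    1 ≤ latticeDisc m ^ (1 / ((n : ℝ) * ((n : ℝ) - 1))) := by
  refine ⟨?_, ?_, ?_, ?_⟩
  · rw [mem_span_sigBasis]
    refine ⟨1, by rw [ho]; exact one_mem_order m, ?_⟩
    ext i; simp
  · intro y hy hk
    obtain ⟨x, hx, rfl⟩ := mem_span_sigBasis.mp hy
    rw [ho] at hx
    refine order_diff hprim hn m σ hx fun k hxk => hk k ?_
    ext i; simp [hxk]
  · rw [coe_sigBasis, ← disc_of_order m o ho σ, Real.sqrt_sq_eq_abs]
    rfl
  · refine Real.one_le_rpow (one_le_latticeDisc m σ) ?_
    have : (2 : ℝ) ≤ n := by exact_mod_cast hn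
    have h1 : 0 < (n : ℝ) * ((n : ℝ) - 1) := by nlinarith
    positivity

/-- Elements of the trace dual, in coordinates. -/
theorem mem_trDual_iff_span {o : LatticeBasis n K} {σ : Fin n ≃ (K →+* ℝ)} {x : K} :
    x ∈ TrDual o.lattice σ ↔
      ∀ y ∈ Submodule.span ℤ (Set.range (sigBasis o σ)), ∃ k : ℤ,
        ∑ i, sigVec σ x i * y i = k := by
  constructor
  · intro h y hy
    obtain ⟨z, hz, rfl⟩ := mem_span_sigBasis.mp hy
    obtain ⟨k, hk⟩ := h z hz
    exact ⟨k, by rw [← hk]; simp [map_mul]⟩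
  · intro h z hz
    obtain ⟨k, hk⟩ := h (sigVec σ z) (mem_span_sigBasis.mpr ⟨z, hz, rfl⟩)
    exact ⟨k, by rw [← hk]; simp [map_mul]⟩

end Crest.Agent.R014.Sl_652
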