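import Crest.Agent.R014.Sl1_652

/-!
Number field form of the slab count (row 14), helper652.

`SlabCount n C` is the conclusion of the abstract slab count; `nf_slab_count` transports it to the
trace dual of an arbitrary lattice `P ∋ 1` of a totally real number field.
-/

namespace Crest.Agent.R014.Sl_652

open Crest.NumberTheoryR.Packets Module

/-- The abstract slab count with constant `C` (abstract lattices in `Fin n → ℝ`). -/
def SlabCount (n : ℕ) (C : ℝ) : Prop :=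
  ∀ (b : Basis (Fin n) ℝ (Fin n → ℝ)) (R : ℝ), 1 ≤ R →
    (fun _ => (1 : ℝ)) ∈ Submodule.span ℤ (Set.range b) →
    (∀ y ∈ Submodule.span ℤ (Set.range b), (∀ k : ℤ, y ≠ fun _ => (k : ℝ)) →
      ∃ i j, R ≤ |y i - y j|) →
    ∀ S : Finset (Fin n), S.Nonempty → S ≠ Finset.univ →
    ∀ t s c r : ℝ, 1 ≤ c → 1 / R ≤ r →
      {x : Fin n → ℝ | (∀ y ∈ Submodule.span ℤ (Set.range b), ∃ k : ℤ, ∑ i, x i * y i = k) ∧
        ∑ i, x i = t ∧ (∀ i, |x i| ≤ c) ∧ |∑ i ∈ S, x i - s| ≤ r}.Finite ∧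
      ({x : Fin n → ℝ | (∀ y ∈ Submodule.span ℤ (Set.range b), ∃ k : ℤ, ∑ i, x i * y i = k) ∧
        ∑ i, x i = t ∧ (∀ i, |x i| ≤ c) ∧ |∑ i ∈ S, x i - s| ≤ r}.ncard : ℝ) ≤
        C * c ^ (n - 1) * r * |(Matrix.of (⇑b : Fin n → Fin n → ℝ)).det|

variable {K : Type*} [Field K] [NumberField K] {n : ℕ}

/-- The slab count for the trace dual of a lattice `P ∋ 1` without short elements outside `ℤ`. -/
theorem nf_slab_count {C : ℝ} (hC : SlabCount n C) (p : LatticeBasis n K)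
    (σ : Fin n ≃ (K →+* ℝ)) (h1 : (1 : K) ∈ p.lattice) {R : ℝ} (hR : 1 ≤ R)
    (hdiff : ∀ y ∈ p.lattice, (∀ k : ℤ, y ≠ k) → ∃ i j, R ≤ |σ i y - σ j y|)
    (S : Finset (Fin n)) (hS : S.Nonempty) (hS' : S ≠ Finset.univ) (t s c r : ℝ) (hc : 1 ≤ c)
    (hr : 1 / R ≤ r) :
    {x : K | x ∈ TrDual p.lattice σ ∧ ∑ i, σ i x = t ∧ (∀ i, |σ i x| ≤ c) ∧
        |∑ i ∈ S, σ i x - s| ≤ r}.Finite ∧
      ({x : K | x ∈ TrDual p.lattice σ ∧ ∑ i, σ i x = t ∧ (∀ i, |σ i x| ≤ c) ∧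
        |∑ i ∈ S, σ i x - s| ≤ r}.ncard : ℝ) ≤
        C * c ^ (n - 1) * r * |(embMatrix p σ).det| := by
  obtain ⟨hf, hcard⟩ := hC (sigBasis p σ) R hR
    (mem_span_sigBasis.mpr ⟨1, h1, by ext i; simp⟩)
    (by
      intro y hy hk
      obtain ⟨x, hx, rfl⟩ := mem_span_sigBasis.mp hy
      exact hdiff x hx fun k hxk => hk k (by ext i; simp [hxk]))
    S hS hS' t s c r hc hr
  set A := {x : Fin n → ℝ | (∀ y ∈ Submodule.span ℤ (Set.range (sigBasis p σ)),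
    ∃ k : ℤ, ∑ i, x i * y i = k) ∧
        ∑ i, x i = t ∧ (∀ i, |x i| ≤ c) ∧ |∑ i ∈ S, x i - s| ≤ r} with hA
  set B := {x : K | x ∈ TrDual p.lattice σ ∧ ∑ i, σ i x = t ∧ (∀ i, |σ i x| ≤ c) ∧
        |∑ i ∈ S, σ i x - s| ≤ r} with hB
  have hinj : Function.Injective (sigVec σ) := sigVec_injective (n_pos p) σ
  have hsub : sigVec σ '' B ⊆ A := by
    rintro _ ⟨x, ⟨hx1, hx2, hx3, hx4⟩, rfl⟩
    exact ⟨mem_trDual_iff_span.mp hx1, hx2, hx3, hx4⟩
  have hfB : (sigVec σ '' B).Finite := hf.subset hsub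
  refine ⟨(Set.finite_image_iff hinj.injOn).mp hfB, ?_⟩
  have h2 : B.ncard ≤ A.ncard := by
    rw [← Set.ncard_image_of_injective B hinj]
    exact Set.ncard_le_ncard hsub hf
  calc (B.ncard : ℝ) ≤ A.ncard := by exact_mod_cast h2
    _ ≤ _ := hcard
    _ = _ := by rw [coe_sigBasis]; rfl

/-- The slab count for the trace dual of the multiplier order of a primitive field. -/
theorem nf_slab_count_order {C : ℝ} (hC : SlabCount n C) (hprim : IsPrimitiveField K)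
    (hn : 2 ≤ n) (m : LatticeBasis n K) (σ : Fin n ≃ (K →+* ℝ))
    (S : Finset (Fin n)) (hS : S.Nonempty) (hS' : S ≠ Finset.univ) (t s c r : ℝ) (hc : 1 ≤ c)
    (hr : latticeDisc m ^ (-(1 / ((n : ℝ) * ((n : ℝ) - 1)))) ≤ r) :
    {x : K | x ∈ TrDual (ordSub m) σ ∧ ∑ i, σ i x = t ∧ (∀ i, |σ i x| ≤ c) ∧
        |∑ i ∈ S, σ i x - s| ≤ r}.Finite ∧
      ({x : K | x ∈ TrDual (ordSub m) σ ∧ ∑ i, σ i x = t ∧ (∀ i, |σ i x| ≤ c) ∧
        |∑ i ∈ S, σ i x - s| ≤ r}.ncard : ℝ) ≤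
        C * c ^ (n - 1) * r * Real.sqrt (latticeDisc m) := by
  obtain ⟨o, ho⟩ := order_basis m
  have h := slab_hyp hprim hn m o ho σ
  have h1 : |(embMatrix o σ).det| = Real.sqrt (latticeDisc m) := by
    rw [← disc_of_order m o ho σ, Real.sqrt_sq_eq_abs]
  have h2 := nf_slab_count hC o σ (by rw [ho]; exact one_mem_order m) h.2.2.2
    (by
      intro y hy hk
      rw [ho] at hy
      exact order_diff hprim hn m σ hy hk) S hS hS' t s c r hc
    (by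
      rw [one_div, ← Real.rpow_neg (latticeDisc_pos m σ).le]
      exact hr)
  rw [ho, h1] at h2
  exact h2

end Crest.Agent.R014.Sl_652
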