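import Crest.Agent.R014.StepQ_870
import Crest.Agent.R014.NScG_395

/-!
# Row 14, block D, noise formalism (#3844), STEP q, part 2 (helper870)

The metric of the slab noise, the metric seen by one digit, its good shift, and STEP q for a family
of box noises (`NoiseFam`) satisfying the absorption (L3).
-/

set_option autoImplicit false

open MeasureTheory Finset Filter Topology Crest.NumberTheoryR.Packets
open Crest.Agent.R014.Nd_837 Crest.Agent.R014.Ne1_567 Crest.Agent.R014.NScB_395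
open Crest.Agent.R014.NScC_395 Crest.Agent.R014.NScD_395 Crest.Agent.R014.NScE_395
open Crest.Agent.R014.Ms_667
open Crest.Agent.R014.NScA_395 (Met Clean rho)
open Crest.Agent.R014.NScG_395 (NoiseFam ew fdig)
open Crest.Agent.R014.NS_373 (CC CC.ne vv uniC)
open scoped ENNReal

noncomputable section

namespace Crest.Agent.R014.StepQ_870

variable {n : ℕ}

/-- the metric of the slab noise -/
def Rs (S : Finset (Fin n)) (u T : ℝ) : Met n := fun p q =>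
  if p ∈ S then (if q ∈ S then 10 * u else T + 5 * u) else (if q ∈ S then 30 * u else 10 * u)

theorem Rs_ge {S : Finset (Fin n)} {u T : ℝ} (hu : 0 ≤ u) (hT : 0 ≤ T) (p q : Fin n) :
    5 * u ≤ Rs S u T p q := by
  unfold Rs; split_ifs <;> linarith

theorem Rs_cross {S : Finset (Fin n)} {u T : ℝ} (c : CC S) :
    Rs S u T c.1.1 c.1.2 = T + 5 * u := by
  unfold Rs; rw [if_pos c.2.1, if_neg c.2.2]

theorem Rs_le {S : Finset (Fin n)} {u T : ℝ} (hu : 0 ≤ u) (p q : Fin n)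
    (h : ¬ (p ∈ S ∧ q ∉ S)) : Rs S u T p q ≤ 30 * u := by
  unfold Rs
  split_ifs with h1 h2 h3
  · linarith
  · exact absurd ⟨h1, h2⟩ h
  · linarith
  · linarith

/-- crossing entries replaced -/
def ovr (S : Finset (Fin n)) (R : Met n) (r : CC S → ℝ) : Met n := fun i j =>
  if h : i ∈ S ∧ j ∉ S then r ⟨(i, j), h⟩ else R i j

/-- the depths seen by the digit `(ℓ, c)` -/
def rq (S : Finset (Fin n)) (c : CC S) (ℓ τ : ℝ) : CC S → ℝ :=
  Function.update (fun _ => ℓ) c (ℓ + τ)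

theorem rq_self (S : Finset (Fin n)) (c : CC S) (ℓ τ : ℝ) : rq S c ℓ τ c = ℓ + τ := by
  simp [rq]

theorem rq_of_ne {S : Finset (Fin n)} {c c' : CC S} (h : c' ≠ c) (ℓ τ : ℝ) :
    rq S c ℓ τ c' = ℓ := by simp [rq, h]

theorem rq_ge {S : Finset (Fin n)} (c c' : CC S) (ℓ : ℝ) {τ : ℝ} (hτ : 0 ≤ τ) :
    ℓ ≤ rq S c ℓ τ c' := by
  by_cases h : c' = c
  · subst h; rw [rq_self]; linarith
  · rw [rq_of_ne h]

theorem rq_le {S : Finset (Fin n)} (c c' : CC S) (ℓ : ℝ) {τ : ℝ} (hτ : 0 ≤ τ) :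
    rq S c ℓ τ c' ≤ ℓ + τ := by
  by_cases h : c' = c
  · subst h; rw [rq_self]
  · rw [rq_of_ne h]; linarith

/-- the metric seen by the digit `(ℓ, c)` -/
def Rc (S : Finset (Fin n)) (c : CC S) (u T ℓ : ℝ) : Met n := ovr S (Rs S u T) (rq S c ℓ (4 * u))

section Vals
variable {S : Finset (Fin n)} {c : CC S} {u T ℓ : ℝ} {p q : Fin n}

theorem Rc_SS (hp : p ∈ S) (hq : q ∈ S) : Rc S c u T ℓ p q = 10 * u := by
  unfold Rc ovr Rs
  rw [dif_neg (fun h => h.2 hq), if_pos hp, if_pos hq]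

theorem Rc_nS (hp : p ∉ S) (hq : q ∈ S) : Rc S c u T ℓ p q = 30 * u := by
  unfold Rc ovr Rs
  rw [dif_neg (fun h => h.2 hq), if_neg hp, if_pos hq]

theorem Rc_nn (hp : p ∉ S) (hq : q ∉ S) : Rc S c u T ℓ p q = 10 * u := by
  unfold Rc ovr Rs
  rw [dif_neg (fun h => hp h.1), if_neg hp, if_neg hq]

theorem Rc_self : Rc S c u T ℓ c.1.1 c.1.2 = ℓ + 4 * u := by
  unfold Rc ovr
  rw [dif_pos c.2]
  exact rq_self S c ℓ (4 * u)

theorem Rc_Sn (hp : p ∈ S) (hq : q ∉ S) (h : ¬ (p = c.1.1 ∧ q = c.1.2)) :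
    Rc S c u T ℓ p q = ℓ := by
  unfold Rc ovr
  rw [dif_pos ⟨hp, hq⟩]
  refine rq_of_ne (fun h' => h ?_) _ _
  rw [← h']
  exact ⟨rfl, rfl⟩

end Vals

/-- the good shift -/
def tg (S : Finset (Fin n)) (c : CC S) (u ℓ : ℝ) : Fin n → ℝ := fun p =>
  if p ∈ S then (if p = c.1.1 then -ℓ else -ℓ + 4 * u) else (if p = c.1.2 then 0 else -(4 * u))

section Tg
variable {S : Finset (Fin n)} {c : CC S} {u T ℓ w : ℝ} {p q : Fin n}

theorem tg_i : tg S c u ℓ c.1.1 = -ℓ := by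
  unfold tg; rw [if_pos c.2.1, if_pos rfl]

theorem tg_j : tg S c u ℓ c.1.2 = 0 := by
  unfold tg; rw [if_neg c.2.2, if_pos rfl]

theorem tg_S (hp : p ∈ S) (h : p ≠ c.1.1) : tg S c u ℓ p = -ℓ + 4 * u := by
  unfold tg; rw [if_pos hp, if_neg h]

theorem tg_n (hp : p ∉ S) (h : p ≠ c.1.2) : tg S c u ℓ p = -(4 * u) := by
  unfold tg; rw [if_neg hp, if_neg h]

theorem tg_drop : tg S c u ℓ c.1.1 - tg S c u ℓ c.1.2 = -ℓ := by
  rw [tg_i, tg_j, sub_zero]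

theorem tg_abs (hu : 0 ≤ u) (hℓ : 0 ≤ ℓ) (p : Fin n) : |tg S c u ℓ p| ≤ ℓ + 4 * u := by
  unfold tg
  rw [abs_le]
  split_ifs <;> constructor <;> linarith

/-- the shifted metric is clean -/
theorem clean_tg (hu : 0 ≤ u) (hℓ : 0 ≤ ℓ) (hw : w ≤ u) :
    Clean c.1.1 c.1.2 0 w (Rc S c u T ℓ + NScA_395.sh (tg S c u ℓ)) := by
  have hi := c.2.1
  have hj := c.2.2
  refine ⟨fun k => ?_, fun l => ?_, ?_⟩ <;> simp only [Pi.add_apply, NScA_395.sh]
  · by_cases hk : k ∈ S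
    · by_cases hki : k = c.1.1
      · subst hki
        rw [Rc_self, Rc_SS hi hi, tg_i, tg_j]; linarith
      · rw [Rc_Sn hk hj (fun h => hki h.1), Rc_SS hk hi, tg_S hk hki, tg_i, tg_j]; linarith
    · by_cases hkj : k = c.1.2
      · subst hkj
        rw [Rc_nn hj hj, Rc_nS hj hi, tg_i, tg_j]; linarith
      · rw [Rc_nn hk hj, Rc_nS hk hi, tg_n hk hkj, tg_i, tg_j]; linarith
  · by_cases hl : l ∈ S
    · by_cases hli : l = c.1.1
      · subst hli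
        rw [Rc_SS hi hi, Rc_nS hj hi, tg_i, tg_j]; linarith
      · rw [Rc_SS hi hl, Rc_nS hj hl, tg_S hl hli, tg_i, tg_j]; linarith
    · by_cases hlj : l = c.1.2
      · subst hlj
        rw [Rc_self, Rc_nn hj hj, tg_i, tg_j]; linarith
      · rw [Rc_Sn hi hl (fun h => hlj h.2), Rc_nn hj hl, tg_n hl hlj, tg_i, tg_j]; linarith
  · rw [Rc_self, Rc_nS hj hi, tg_i, tg_j]; linarith

theorem tg_lo (hu : 0 ≤ u) (hℓ : 0 ≤ ℓ) (p q : Fin n) :
    4 * u ≤ (Rc S c u T ℓ + NScA_395.sh (tg S c u ℓ)) p q := by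
  simp only [Pi.add_apply, NScA_395.sh]
  by_cases hp : p ∈ S
  · by_cases hq : q ∈ S
    · rw [Rc_SS hp hq]
      unfold tg
      rw [if_pos hp, if_pos hq]
      split_ifs <;> linarith
    · by_cases h : p = c.1.1 ∧ q = c.1.2
      · obtain ⟨h1, h2⟩ := h
        subst h1; subst h2
        rw [Rc_self, tg_i, tg_j]; linarith
      · rw [Rc_Sn hp hq h]
        unfold tg
        rw [if_pos hp, if_neg hq]
        split_ifs with h1 h2 h3
        · exact absurd ⟨h1, h2⟩ h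
        · linarith
        · linarith
        · linarith
  · by_cases hq : q ∈ S
    · rw [Rc_nS hp hq]
      unfold tg
      rw [if_neg hp, if_pos hq]
      split_ifs <;> linarith
    · rw [Rc_nn hp hq]
      unfold tg
      rw [if_neg hp, if_neg hq]
      split_ifs <;> linarith

theorem tg_hi (hu : 0 ≤ u) (hℓ : 0 ≤ ℓ) (p q : Fin n) :
    (Rc S c u T ℓ + NScA_395.sh (tg S c u ℓ)) p q ≤ 30 * u + ℓ := by
  simp only [Pi.add_apply, NScA_395.sh]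
  by_cases hp : p ∈ S
  · by_cases hq : q ∈ S
    · rw [Rc_SS hp hq]
      unfold tg
      rw [if_pos hp, if_pos hq]
      split_ifs <;> linarith
    · by_cases h : p = c.1.1 ∧ q = c.1.2
      · obtain ⟨h1, h2⟩ := h
        subst h1; subst h2
        rw [Rc_self, tg_i, tg_j]; linarith
      · rw [Rc_Sn hp hq h]
        unfold tg
        rw [if_pos hp, if_neg hq]
        split_ifs with h1 h2 h3
        · exact absurd ⟨h1, h2⟩ h
        · linarith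
        · linarith
        · linarith
  · by_cases hq : q ∈ S
    · rw [Rc_nS hp hq]
      unfold tg
      rw [if_neg hp, if_pos hq]
      split_ifs <;> linarith
    · rw [Rc_nn hp hq]
      unfold tg
      rw [if_neg hp, if_neg hq]
      split_ifs <;> linarith

end Tg

/-! ### the hypotheses of (L3) -/

section L3h
variable {S : Finset (Fin n)} {c : CC S} {u T ℓ w : ℝ}

theorem l3_h1 (hu : 0 ≤ u) (hw : w ≤ u) (hT : ℓ ≤ T) (c' : CC S) :
    rq S c ℓ (4 * u) c' + w ≤ Rs S u T c'.1.1 c'.1.2 := by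
  rw [Rs_cross]
  have := rq_le c c' ℓ (τ := 4 * u) (by linarith)
  linarith

theorem l3_h2 (hu : 0 ≤ u) (hw : w ≤ u) {k i j : Fin n} (hk : k ∈ S) (hi : i ∈ S) (hj : j ∉ S) :
    rq S c ℓ (4 * u) ⟨(k, j), hk, hj⟩ + w ≤ Rs S u T k i + rq S c ℓ (4 * u) ⟨(i, j), hi, hj⟩ := by
  have h1 := rq_le c ⟨(k, j), hk, hj⟩ ℓ (τ := 4 * u) (by linarith)
  have h2 := rq_ge c ⟨(i, j), hi, hj⟩ ℓ (τ := 4 * u) (by linarith)
  have h3 : Rs S u T k i = 10 * u := by unfold Rs; rw [if_pos hk, if_pos hi]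
  linarith

theorem l3_h3 (hu : 0 ≤ u) (hw : w ≤ u) (hℓ : 0 ≤ ℓ) {k i j : Fin n} (hk : k ∉ S) (hi : i ∈ S)
    (hj : j ∉ S) : Rs S u T k j + w ≤ Rs S u T k i + rq S c ℓ (4 * u) ⟨(i, j), hi, hj⟩ := by
  have h2 := rq_ge c ⟨(i, j), hi, hj⟩ ℓ (τ := 4 * u) (by linarith)
  have h3 : Rs S u T k j = 10 * u := by unfold Rs; rw [if_neg hk, if_neg hj]
  have h4 : Rs S u T k i = 30 * u := by unfold Rs; rw [if_neg hk, if_pos hi]
  linarith

end L3h

/-! ### STEP q -/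

/-- the error of STEP q -/
def errq (b : ℕ) (C C3 η u : ℝ) : ℝ :=
  (8 * b + 12) * ((b : ℝ) * (2 : ℝ) ^ (-(4 * u)) / 2 + C3 * (2 : ℝ) ^ (-(u / 20))) +
    3 * (8 * √(η + ew b C (u / 20) + ew b C (u / 20)) +
      (8 * b + 12) * (2 * C * (2:ℝ) ^ (-(u / 20))))

section StepQ
variable {zt : Met n → Measure (SLR n)} {adm : Met n → Prop} {C c1 : ℝ}

theorem adm_Rs (hZ : NoiseFam zt adm C c1) (S : Finset (Fin n)) {u T : ℝ} (hu : 0 ≤ u)
    (hT : 0 ≤ T) (hc : c1 ≤ 5 * u) : adm (Rs S u T) :=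
  hZ.adm_of _ fun p q => hc.trans (Rs_ge hu hT p q)

theorem adm_Rc_sh (hZ : NoiseFam zt adm C c1) {S : Finset (Fin n)} (c : CC S) {u T ℓ : ℝ}
    (hu : 0 ≤ u) (hℓ : 0 ≤ ℓ) (hc : c1 ≤ 4 * u) :
    adm (Rc S c u T ℓ + NScA_395.sh (tg S c u ℓ)) :=
  hZ.adm_of _ fun p q => hc.trans (tg_lo hu hℓ p q)

theorem adm_Rc (hZ : NoiseFam zt adm C c1) {S : Finset (Fin n)} (c : CC S) {u T ℓ : ℝ}
    (hu : 0 ≤ u) (hℓ : 0 ≤ ℓ) (hc : c1 ≤ 4 * u) : adm (Rc S c u T ℓ) := by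
  have h := hZ.adm_sh _ (-(tg S c u ℓ)) (adm_Rc_sh (T := T) hZ c hu hℓ hc)
  have h1 : Rc S c u T ℓ + NScA_395.sh (tg S c u ℓ) + NScA_395.sh (-(tg S c u ℓ)) =
      Rc S c u T ℓ := by
    funext p q
    simp only [Pi.add_apply, NScA_395.sh, Pi.neg_apply]
    ring
  rwa [h1] at h

/-- **STEP q** -/
theorem stepq (hZ : NoiseFam zt adm C c1) {μ : Measure (ModSpace n)} [IsProbabilityMeasure μ]
    (hμ : AInv μ) {b : ℕ} [NeZero b] {S : Finset (Fin n)} (c : CC S) {u1 u2 η T ℓ C3 : ℝ}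
    (hu : 20 ≤ u1) (hc : 20 * c1 ≤ u1) (hu12 : u1 ≤ u2 / 100000)
    (hη : fdig zt μ b c.1.1 c.1.2 0 (u1 • rho c.1.1 c.1.2) -
      fdig zt μ b c.1.1 c.1.2 0 (u2 • rho c.1.1 c.1.2) ≤ η)
    (he : 2 * C * (2:ℝ) ^ (-(u1 / 20)) ≤ 1) (hℓ : 0 ≤ ℓ) (_hℓT : ℓ ≤ T)
    (hT : 2 * T + 4 * u1 ≤ u2 / 3000)
    (hL3 : TVle (cv (zt (Rs S u1 T)) (vl S (rq S c ℓ (4 * u1))))
      (zt (ovr S (Rs S u1 T) (rq S c ℓ (4 * u1)))) (C3 * (2:ℝ) ^ (-(u1 / 20))))
    {t : Fin n → ℝ} (ht : t c.1.1 - t c.1.2 = -ℓ) (htb : ∀ l, |t l| ≤ T) :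
    ∫ x, |Acv μ (cv (zt (Rs S u1 T)) (vl0 S c ℓ)) c.ne ℓ b x -
        Psi μ (zt (u1 • rho c.1.1 c.1.2)) c.ne 0 b (act x (aT t))| ∂μ ≤ errq b C C3 η u1 := by
  have hb : 0 < b := Nat.pos_of_ne_zero (NeZero.ne b)
  set i := c.1.1 with hi
  set j := c.1.2 with hj
  have hij : i ≠ j := c.ne
  set w : ℝ := u1 / 20 with hw
  have hw1 : 1 ≤ w := by rw [hw]; linarith
  have hu0 : 0 ≤ u1 := by linarith
  have hT0 : 0 ≤ T := hℓ.trans _hℓT
  have hc5 : c1 ≤ 5 * u1 := by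
    rcases le_total 0 c1 with h | h <;> linarith
  have hc4 : c1 ≤ 4 * u1 := by
    rcases le_total 0 c1 with h | h <;> linarith
  have hadmS := adm_Rs hZ S hu0 hT0 hc5
  have hadmC := adm_Rc (T := T) hZ c hu0 hℓ hc4
  have hadm1 : adm (u1 • rho i j) := (hZ.dig hμ hb).adm_rho hu0 hc
  have := hZ.prob _ hadmS
  have := hZ.prob _ hadmC
  have := hZ.prob _ hadm1
  set κ := cv (zt (Rs S u1 T)) (vl0 S c ℓ) with hκ
  set κ' := zt (Rc S c u1 T ℓ) with hκ'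
  set κ1 := zt (u1 • rho i j) with hκ1
  -- 1. the noise is close to a box noise
  have h1 : ∀ d : Fin b, TVle (cv κ (dlaw c.ne ℓ b d)) (cv κ' (dlaw c.ne ℓ b d))
      ((b : ℝ) * (2 : ℝ) ^ (-(4 * u1)) / 2 + C3 * (2:ℝ) ^ (-w)) := fun d => level_tv (κ' := zt (Rc S c u1 T ℓ)) hL3 d
  have h2 := acv_tv (μ := μ) h1
  -- 2. the good shift
  have h3 := hZ.acv hμ (b := b) hij hw1 le_rfl hc hη he
    (R := Rc S c u1 T ℓ + NScA_395.sh (tg S c u1 ℓ)) (clean_tg hu0 hℓ (by rw [hw]; linarith))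
    (fun p q => by linarith [tg_lo (S := S) (c := c) (T := T) hu0 hℓ p q])
    (fun p q => by linarith [tg_hi (S := S) (c := c) (T := T) hu0 hℓ p q])
  rw [← hZ.cj_zt _ _ hadmC] at h3
  have h4 := kern_shift hμ (κ := κ') (κ1 := κ1) (r0 := 0) (r := ℓ) (b := b) hij (tg S c u1 ℓ)
    (by rw [hi, hj, tg_drop]; ring) h3
  -- 3. the kernel shift
  have h5 := hZ.psi_ker hμ (b := b) hij hu hc hu12 hη he (t := t - tg S c u1 ℓ)
    (by
      simp only [Pi.sub_apply]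
      have := tg_drop (S := S) (c := c) (u := u1) (ℓ := ℓ)
      rw [← hi, ← hj] at this
      linarith)
    (fun l => by
      simp only [Pi.sub_apply]
      have := abs_sub (t l) (tg S c u1 ℓ l)
      linarith [htb l, tg_abs (S := S) (c := c) hu0 hℓ l])
  have m2 : Measurable fun x : ModSpace n => Psi μ κ1 hij 0 b x := measurable_Psi hij
  have h6 : ∫ x, |Psi μ κ1 hij 0 b (act x (aT (tg S c u1 ℓ))) -
      Psi μ κ1 hij 0 b (act x (aT t))| ∂μ =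
      ∫ x, |Psi μ κ1 hij 0 b x - Psi μ κ1 hij 0 b (act x (aT (t - tg S c u1 ℓ)))| ∂μ := by
    rw [← integral_act hμ (tg S c u1 ℓ) (F := fun x => |Psi μ κ1 hij 0 b x -
      Psi μ κ1 hij 0 b (act x (aT (t - tg S c u1 ℓ)))|)
      ((m2.sub (m2.comp (measurable_act _))).abs)]
    refine integral_congr_ae (Eventually.of_forall fun x => ?_)
    simp only
    rw [act_act, ← aT_add]
    congr 4
    rw [add_sub_cancel]
  rw [← h6] at h5
  -- 4. assembly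
  have m0 : Measurable (Acv μ κ hij ℓ b) := measurable_Acv hij κ ℓ
  have m1 : Measurable (Acv μ κ' hij ℓ b) := measurable_Acv hij κ' ℓ
  have bA : ∀ x, 0 ≤ Acv μ κ hij ℓ b x ∧ Acv μ κ hij ℓ b x ≤ 2 := fun x =>
    ⟨Av_nonneg _ _ x, Av_le _ _ x⟩
  have bB : ∀ x, 0 ≤ Acv μ κ' hij ℓ b x ∧ Acv μ κ' hij ℓ b x ≤ 2 := fun x =>
    ⟨Av_nonneg _ _ x, Av_le _ _ x⟩
  have bC : ∀ x, 0 ≤ Psi μ κ1 hij 0 b x ∧ Psi μ κ1 hij 0 b x ≤ 2 :=
    fun x => ⟨Psi_nonneg hij _, Psi_le hij _⟩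
  have i0 : Integrable (Acv μ κ hij ℓ b) μ := bdd_integrable m0 (M := 2) fun x => by
    rw [abs_of_nonneg (bA x).1]; exact (bA x).2
  have i1 : Integrable (Acv μ κ' hij ℓ b) μ := bdd_integrable m1 (M := 2) fun x => by
    rw [abs_of_nonneg (bB x).1]; exact (bB x).2
  have i2 : ∀ s : Fin n → ℝ, Integrable (fun x => Psi μ κ1 hij 0 b (act x (aT s))) μ := fun s =>
    bdd_integrable (m2.comp (measurable_act _)) (M := 2) fun x => by
      rw [abs_of_nonneg (bC _).1]; exact (bC _).2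
  have ia : Integrable (fun x => |Acv μ κ hij ℓ b x - Acv μ κ' hij ℓ b x|) μ := (i0.sub i1).abs
  have ib : Integrable (fun x => |Acv μ κ' hij ℓ b x -
      Psi μ κ1 hij 0 b (act x (aT (tg S c u1 ℓ)))|) μ := (i1.sub (i2 _)).abs
  have ic : Integrable (fun x => |Psi μ κ1 hij 0 b (act x (aT (tg S c u1 ℓ))) -
      Psi μ κ1 hij 0 b (act x (aT t))|) μ := ((i2 _).sub (i2 _)).abs
  have h7 : ∫ x, |Acv μ κ hij ℓ b x - Psi μ κ1 hij 0 b (act x (aT t))| ∂μ ≤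
      ∫ x, ((|Acv μ κ hij ℓ b x - Acv μ κ' hij ℓ b x| +
        |Acv μ κ' hij ℓ b x - Psi μ κ1 hij 0 b (act x (aT (tg S c u1 ℓ)))|) +
        |Psi μ κ1 hij 0 b (act x (aT (tg S c u1 ℓ))) - Psi μ κ1 hij 0 b (act x (aT t))|) ∂μ :=
    integral_mono (i0.sub (i2 _)).abs ((ia.add ib).add ic)
      fun x => (abs_sub_le _ (Psi μ κ1 hij 0 b (act x (aT (tg S c u1 ℓ)))) _).trans
        (add_le_add (abs_sub_le _ _ _) le_rfl)
  have iab : Integrable (fun x => |Acv μ κ hij ℓ b x - Acv μ κ' hij ℓ b x| +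
      |Acv μ κ' hij ℓ b x - Psi μ κ1 hij 0 b (act x (aT (tg S c u1 ℓ)))|) μ := ia.add ib
  rw [integral_add iab ic, integral_add ia ib] at h7
  unfold errq
  linarith

end StepQ

end Crest.Agent.R014.StepQ_870
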