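import Crest.Agent.R014.StepQ4_870
import Crest.Agent.R014.L3_884

/-!
# Row 14, block D, noise formalism (#3844), STEP q, part 5 (helper870)

(L3) is helper884's theorem; STEP q without hypotheses.
-/

set_option autoImplicit false

open MeasureTheory Finset Filter Topology Crest.NumberTheoryR.Packets
open Crest.Agent.R014.Nd_837 Crest.Agent.R014.NScD_395 Crest.Agent.R014.NScE_395
open Crest.Agent.R014.Ms_667
open Crest.Agent.R014.NScH_395 (c1N noiseFam NC PZ PZ_eq)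
open Crest.Agent.R014.NS_373 (CC CC.ne vv uniC kapc ovl)
open scoped ENNReal

noncomputable section

namespace Crest.Agent.R014.StepQ_870

variable {n : ℕ}

theorem ovr_eq (S : Finset (Fin n)) (R : NScA_395.Met n) (r : CC S → ℝ) :
    L3_884.ovr S R r = ovr S R r := by
  funext i j
  unfold L3_884.ovr ovr
  rfl

theorem C3_nonneg : 0 ≤ L3_884.C3 n := by
  unfold L3_884.C3
  positivity

/-- (L3) holds -/
theorem l3St : L3St n (L3_884.C3 n) := by
  intro S R r w hw hR hR' h1 h2 h3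
  have h := L3_884.L3 (S := S) (R := R) (r := r) hw hR (by rw [ovr_eq]; exact hR') h1 h2
    (fun i k j hi hk hj => h3 k i j hk hi hj)
  rw [ovr_eq] at h
  exact h

/-- **STEP q** in the names of helper373, no hypothesis. -/
theorem stepq_kapc' {e : ℝ} (he : 0 < e) :
    ∃ η U : ℝ, 0 < η ∧ 0 < U ∧ 20 * c1N n ≤ U ∧ ∀ μ : Measure (ModSpace n),
      IsProbabilityMeasure μ → AInv μ →
      ∀ u1 u2 : ℝ, U ≤ u1 → u1 ≤ 1 / 100000 * u2 → NC μ u1 u2 {2} η →
      ∀ (S : Finset (Fin n)) (c : CC S) (T i : ℕ), i ≤ T → 2 * (T : ℝ) + 4 * u1 ≤ u2 / 3000 →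
      ∫ x, |Acv μ (kapc (zt (Rs S u1 T)) S 2 i c) c.ne ((i : ℝ) * Real.logb 2 ((2:ℕ) : ℝ)) 2 x -
        PZ μ u1 2 c.1.1 c.1.2 (DSkel_792.tz (Pi.single c.1.1 (i : ℤ)) x)| ∂μ ≤ e :=
  stepq_kapc C3_nonneg l3St he

end Crest.Agent.R014.StepQ_870
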