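import Crest.Agent.R014.Emb_71

/-!
# Row 14: structure of packet points (helper71)

`exists_struct`: a point `mk H` of the packet of `(K, m, σ)`, a nonzero lattice vector `v = p H`
and a dual vector `v* = H⁻¹ q` give `m''` locally homothetic to `m` with `1 ∈ m''`, and `β ∈ K`
with `σ_j β = v_j v*_j`, `Tr (β m'') ⊆ ℤ`, `mk H = pt (emb m'' · diag v)`, `|det emb m''| ∏|v_j| = 1`.
-/

set_option autoImplicit false
open MeasureTheory Set Matrix
open Crest Crest.NumberTheoryR Crest.NumberTheoryR.Packets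

namespace Crest.Agent.R014.Struct_71

open BoxV_71 Pt_71 Emb_71

/-- diagonal entries of `diagFlow u`. -/
noncomputable def dg {d : ℕ} (u : Fin d → ℝ) (j : Fin (d + 1)) : ℝ :=
  (Fin.snoc (fun i => Real.exp (u i)) (Real.exp (-∑ i, u i)) : Fin (d + 1) → ℝ) j

theorem diagFlow_val {d : ℕ} (u : Fin d → ℝ) : (diagFlow u).1 = Matrix.diagonal (dg u) := rfl

theorem dg_pos {d : ℕ} (u : Fin d → ℝ) (j : Fin (d + 1)) : 0 < dg u j := by
  unfold dg
  refine Fin.lastCases ?_ (fun k => ?_) j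
  · rw [Fin.snoc_last]; exact Real.exp_pos _
  · rw [Fin.snoc_castSucc]; exact Real.exp_pos _

theorem sign_diag {n : ℕ} {w : SLR n} (hw : IsSignMatrix w) :
    w.1 = Matrix.diagonal fun i => w.1 i i := by
  ext i j
  by_cases h : i = j
  · subst h; simp
  · rw [Matrix.diagonal_apply_ne _ h, hw.1 i j h]

variable {d : ℕ} {K : Type*} [Field K] [NumberField K]

/-- matrix of a packet point. -/
theorem packet_pt (m' : LatticeBasis (d + 1) K) (σ : Fin (d + 1) ≃ (K →+* ℝ))
    {w : SLR (d + 1)} (hw : IsSignMatrix w) (u : Fin d → ℝ) :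
    orbitMap (act (latticePoint m' σ) w) u =
      pt (embMatrix m' σ * Matrix.diagonal fun j => w.1 j j * dg u j) := by
  have hdet := det_embMatrix_ne_zero m' σ
  rw [latticePoint_eq, act_pt (Nat.succ_pos d) hdet, orbitMap,
    act_pt (Nat.succ_pos d) (by rw [Matrix.det_mul, w.2, mul_one]; exact hdet), diagFlow_val,
    Matrix.mul_assoc]
  congr 2
  rw [sign_diag hw, Matrix.diagonal_mul_diagonal]
  simp

theorem exists_struct (m : LatticeBasis (d + 1) K) (σ : Fin (d + 1) ≃ (K →+* ℝ))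
    (m' : LatticeBasis (d + 1) K) (hm' : LocallyHomothetic m m') {w : SLR (d + 1)}
    (hw : IsSignMatrix w) (u : Fin d → ℝ) (H : SLR (d + 1))
    (hH : (Quotient.mk _ H : ModSpace (d + 1)) = orbitMap (act (latticePoint m' σ) w) u)
    (p q : Fin (d + 1) → ℤ) (hp : p ≠ 0) :
    ∃ m'' : LatticeBasis (d + 1) K, LocallyHomothetic m m'' ∧ (1 : K) ∈ m''.lattice ∧
      (∀ j, ((fun i => (p i : ℝ)) ᵥ* H.1) j ≠ 0) ∧
      (Quotient.mk _ H : ModSpace (d + 1)) =
        pt (embMatrix m'' σ * Matrix.diagonal ((fun i => (p i : ℝ)) ᵥ* H.1)) ∧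
      |(embMatrix m'' σ).det| * ∏ j, |((fun i => (p i : ℝ)) ᵥ* H.1) j| = 1 ∧
      (∃ β : K, (∀ j, σ j β = ((fun i => (p i : ℝ)) ᵥ* H.1) j * (H⁻¹.1 *ᵥ fun i => (q i : ℝ)) j) ∧
        ∀ x ∈ m''.lattice, ∃ k : ℤ, Algebra.trace ℚ K (β * x) = k) ∧
      ∀ k : ℤ, ∀ y ∈ m''.lattice, (k : K) * y = 1 → ∀ i, k ∣ p i := by
  have hn : 0 < d + 1 := Nat.succ_pos d
  set t : Fin (d + 1) → ℝ := fun j => w.1 j j * dg u j with ht
  have ht0 : ∀ j, t j ≠ 0 := by
    intro j
    refine mul_ne_zero ?_ (dg_pos u j).ne'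
    rcases hw.2 j with h | h <;> simp [h]
  set B : Matrix (Fin (d + 1)) (Fin (d + 1)) ℝ := embMatrix m' σ * Matrix.diagonal t with hB
  have hE := det_embMatrix_ne_zero m' σ
  have hBdet : B.det ≠ 0 := by
    rw [hB, Matrix.det_mul, Matrix.det_diagonal]
    exact mul_ne_zero hE (Finset.prod_ne_zero_iff.2 fun j _ => ht0 j)
  rw [packet_pt m' σ hw u] at hH
  obtain ⟨γ, hγ, hHB⟩ := exists_gl_of_mk_eq_pt hn H hBdet hH
  set c : ℝ := |B.det| ^ (-(1 : ℝ) / (d + 1 : ℕ)) with hc
  have hc0 : 0 < c := Real.rpow_pos_of_pos (abs_pos.2 hBdet) _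
  -- the new integer vectors
  set p' : Fin (d + 1) → ℤ := p ᵥ* γ with hp'
  have hγu : IsUnit γ.det := by rcases hγ with h | h <;> rw [h] <;> simp
  have hp'0 : p' ≠ 0 := by
    intro h
    apply hp
    have h1 : p' ᵥ* γ⁻¹ = p := by
      rw [hp', Matrix.vecMul_vecMul, Matrix.mul_nonsing_inv _ hγu, Matrix.vecMul_one]
    rw [← h1, h, Matrix.zero_vecMul]
  set q' : Fin (d + 1) → ℤ := γ⁻¹ *ᵥ q with hq'
  have hq : γ *ᵥ q' = q := by
    rw [hq', Matrix.mulVec_mulVec, Matrix.mul_nonsing_inv _ hγu, Matrix.one_mulVec]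
  set a : K := ∑ i, (p' i : K) * m'.vec i with ha
  have ha0 : a ≠ 0 := sum_ne_zero hp'0
  -- the vector v
  have hv : ∀ j, ((fun i => (p i : ℝ)) ᵥ* H.1) j = c * t j * σ j a := by
    intro j
    have h1 : (fun i => (p i : ℝ)) ᵥ* (γ.map (Int.castRingHom ℝ)) = fun i => (p' i : ℝ) := by
      ext i
      simp only [hp', Matrix.vecMul, dotProduct, Matrix.map_apply, Int.coe_castRingHom]
      push_cast
      rfl
    rw [hHB, Matrix.vecMul_smul, ← Matrix.vecMul_vecMul, h1, hB, ← Matrix.vecMul_vecMul]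
    rw [Pi.smul_apply, smul_eq_mul, Matrix.vecMul_diagonal]
    have h2 : ((fun i => (p' i : ℝ)) ᵥ* embMatrix m' σ) j = σ j a := by
      simp only [Matrix.vecMul, dotProduct, embMatrix, ha, map_sum, map_mul, map_intCast]
    rw [h2]
    ring
  have hv0 : ∀ j, ((fun i => (p i : ℝ)) ᵥ* H.1) j ≠ 0 := by
    intro j
    rw [hv j]
    exact mul_ne_zero (mul_ne_zero hc0.ne' (ht0 j)) (by simpa using ha0)
  set v : Fin (d + 1) → ℝ := (fun i => (p i : ℝ)) ᵥ* H.1 with hvdef
  -- the lattice m''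
  have ha' : a⁻¹ ≠ 0 := inv_ne_zero ha0
  refine ⟨scale m' a⁻¹ ha', locHom_scale hm' _ _, ?_, hv0, ?_, ?_, ?_, ?_⟩
  · refine mem_scale.2 ⟨a, mem_lattice_iff.2 ⟨p', rfl⟩, ?_⟩
    rw [inv_mul_cancel₀ ha0]
  · -- the point
    have h1 : embMatrix (scale m' a⁻¹ ha') σ * Matrix.diagonal v = c • B := by
      ext i j
      rw [Matrix.mul_diagonal, Matrix.smul_apply, hB, Matrix.mul_diagonal, hv j]
      simp only [embMatrix, scale_vec, map_mul, map_inv₀, smul_eq_mul]
      have : σ j a ≠ 0 := by simpa using ha0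
      field_simp
    rw [hH, h1, pt_smul hn hBdet hc0]
  · have h1 : embMatrix (scale m' a⁻¹ ha') σ * Matrix.diagonal v = c • B := by
      ext i j
      rw [Matrix.mul_diagonal, Matrix.smul_apply, hB, Matrix.mul_diagonal, hv j]
      simp only [embMatrix, scale_vec, map_mul, map_inv₀, smul_eq_mul]
      have : σ j a ≠ 0 := by simpa using ha0
      field_simp
    have h2 := congrArg (fun M => |Matrix.det M|) h1
    simp only [Matrix.det_mul, Matrix.det_diagonal, Matrix.det_smul, Fintype.card_fin,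
      abs_mul, Finset.abs_prod] at h2
    rw [h2]
    have h3 : |c ^ (d + 1)| = |B.det|⁻¹ := by
      rw [abs_of_pos (pow_pos hc0 _), hc, ← Real.rpow_natCast, ← Real.rpow_mul (abs_nonneg _)]
      have hn' : ((d + 1 : ℕ) : ℝ) ≠ 0 := by positivity
      rw [show -(1 : ℝ) / ((d + 1 : ℕ) : ℝ) * ((d + 1 : ℕ) : ℝ) = -1 by field_simp,
        Real.rpow_neg_one]
    rw [h3]
    exact inv_mul_cancel₀ (abs_ne_zero.2 hBdet)
  · -- beta
    obtain ⟨b, hb⟩ := exists_dual m' (fun i => (q' i : ℚ))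
    refine ⟨a * b, ?_, ?_⟩
    · -- v*_j
      have hHinv : H.1 *ᵥ (H⁻¹.1 *ᵥ fun i => (q i : ℝ)) = fun i => (q i : ℝ) := by
        rw [Matrix.mulVec_mulVec, ← Matrix.SpecialLinearGroup.coe_mul, mul_inv_cancel,
          Matrix.SpecialLinearGroup.coe_one, Matrix.one_mulVec]
      set vs : Fin (d + 1) → ℝ := H⁻¹.1 *ᵥ fun i => (q i : ℝ) with hvs
      have hγR : IsUnit (γ.map (Int.castRingHom ℝ)).det := by
        have h1 : (γ.map (Int.castRingHom ℝ)).det = ((γ.det : ℤ) : ℝ) :=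
          (RingHom.map_det (Int.castRingHom ℝ) γ).symm
        rw [h1]
        rcases hγ with h | h <;> rw [h] <;> simp
      have h2 : (γ.map (Int.castRingHom ℝ)) *ᵥ (fun i => (q' i : ℝ)) = fun i => (q i : ℝ) := by
        ext i
        have h3 := congrFun hq i
        simp only [Matrix.mulVec, dotProduct, Matrix.map_apply, Int.coe_castRingHom] at h3 ⊢
        rw [← h3]
        push_cast
        rfl
      have h4 : B *ᵥ (c • vs) = fun i => (q' i : ℝ) := by
        have h5 : (γ.map (Int.castRingHom ℝ)) *ᵥ (B *ᵥ (c • vs)) =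
            (γ.map (Int.castRingHom ℝ)) *ᵥ (fun i => (q' i : ℝ)) := by
          rw [h2, ← hHinv, hHB, Matrix.mulVec_mulVec, Matrix.smul_mulVec, Matrix.mulVec_smul]
        have := congrArg (fun z => (γ.map (Int.castRingHom ℝ))⁻¹ *ᵥ z) h5
        simpa only [Matrix.mulVec_mulVec, ← Matrix.mul_assoc, Matrix.nonsing_inv_mul _ hγR,
          Matrix.one_mulVec, Matrix.one_mul] using this
      have h6 : (fun j => t j * (c * vs j)) = fun j => σ j b := by
        apply eq_of_mulVec m' σ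
        have h7 : embMatrix m' σ *ᵥ (fun j => t j * (c * vs j)) = B *ᵥ (c • vs) := by
          rw [hB, ← Matrix.mulVec_mulVec]
          congr 1
          ext j
          rw [Matrix.mulVec_diagonal]
          rfl
        rw [h7, h4]
        ext i
        rw [embMatrix_mulVec, hb i]
        simp
      intro j
      have h8 : t j * (c * vs j) = σ j b := congrFun h6 j
      rw [hv j, map_mul, ← h8]
      ring
    · intro x hx
      obtain ⟨y, hy, rfl⟩ := mem_scale.1 hx
      obtain ⟨r, rfl⟩ := mem_lattice_iff.1 hy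
      refine ⟨∑ i, r i * q' i, ?_⟩
      have h1 : a * b * (a⁻¹ * ∑ i, (r i : K) * m'.vec i) = ∑ i, (r i : K) * (m'.vec i * b) := by
        rw [show a * b * (a⁻¹ * ∑ i, (r i : K) * m'.vec i) =
          (a * a⁻¹) * (b * ∑ i, (r i : K) * m'.vec i) by ring, mul_inv_cancel₀ ha0, one_mul,
          Finset.mul_sum]
        refine Finset.sum_congr rfl fun i _ => by ring
      rw [h1, map_sum]
      push_cast
      refine Finset.sum_congr rfl fun i _ => ?_
      rw [← zsmul_eq_mul, map_zsmul, hb i, zsmul_eq_mul]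
  · -- primitivity
    intro k y hy hky
    obtain ⟨z, hz, rfl⟩ := mem_scale.1 hy
    obtain ⟨r, rfl⟩ := mem_lattice_iff.1 hz
    have h1 : (k : K) * ∑ i, (r i : K) * m'.vec i = a := by
      have h2 : (k : K) * (a⁻¹ * ∑ i, (r i : K) * m'.vec i) = 1 := hky
      calc (k : K) * ∑ i, (r i : K) * m'.vec i
          = a * ((k : K) * (a⁻¹ * ∑ i, (r i : K) * m'.vec i)) := by
            field_simp
        _ = a := by rw [h2, mul_one]
    have h3 : ∀ i, p' i = k * r i := by
      have h4 : ∑ i, ((p' i - k * r i : ℤ) : K) * m'.vec i = 0 := by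
        rw [ha, Finset.mul_sum] at h1
        rw [← sub_eq_zero, ← Finset.sum_sub_distrib] at h1
        rw [← neg_eq_zero, ← Finset.sum_neg_distrib]
        rw [← h1]
        refine Finset.sum_congr rfl fun i _ => ?_
        push_cast
        ring
      have h5 : (fun i => p' i - k * r i) = 0 := by
        by_contra hne
        exact sum_ne_zero hne h4
      intro i
      have := congrFun h5 i
      simp only [Pi.zero_apply] at this
      linarith
    have h6 : p' ᵥ* γ⁻¹ = p := by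
      rw [hp', Matrix.vecMul_vecMul, Matrix.mul_nonsing_inv _ hγu, Matrix.vecMul_one]
    intro i
    rw [← h6]
    refine ⟨(r ᵥ* γ⁻¹) i, ?_⟩
    simp only [Matrix.vecMul, dotProduct, Finset.mul_sum]
    refine Finset.sum_congr rfl fun j _ => ?_
    rw [h3 j]
    ring

end Crest.Agent.R014.Struct_71
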