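import Crest.Agent.R014.Sw1_640
import Crest.Agent.R014.Nd3_837

set_option autoImplicit false

/-!
Row 14, block D, noise formalism: the sandwich for general noise laws.

* `dp`, `dp_pv` : general data processing for the digits `lab μ κ hij r b` (arbitrary smearing law `τ`);
* `dp_exch`, `dp_exch_pv` : the case `τ = κ`, `κ` absorbs `κ'` and commutes with the digits;
* `sw_upper`, `sw_lower`, `sw_pv` : sandwich after a shift by `aT t`;
* `Good` : the hypotheses of the sandwich, `Good.abs_sub_le`, `Good.pv_le`.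
-/

open MeasureTheory Crest.NumberTheoryR.Packets
open scoped ENNReal

namespace Crest.Agent.R014.Sw2_640

open Ms_667 Nd_837 Ne1_567 Ne2_567 Ne3_567 Sw1_640

variable {n : ℕ} {i j : Fin n} (hij : i ≠ j) {b : ℕ}

theorem TVle_ld {κ κ' τ : Measure (SLR n)} [IsProbabilityMeasure κ] [IsProbabilityMeasure κ']
    [IsProbabilityMeasure τ] {r e : ℝ} {d : Fin b}
    (h : TVle (cv (cv κ' (dlaw hij r b d)) τ) (cv κ (dlaw hij r b d)) e) :
    TVle (cv (ld κ' hij r b d) τ) (ld κ hij r b d) (e / b) := by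
  unfold ld
  rw [smul_cv]
  refine (h.smul _).mono (le_of_eq ?_)
  rw [ENNReal.toReal_inv, ENNReal.toReal_natCast]
  ring

theorem sum_div (hb : 0 < b) (e : ℝ) : ∑ _d : Fin b, e / b = e := by
  rw [Finset.sum_const, Finset.card_univ, Fintype.card_fin, nsmul_eq_mul]
  have : (b : ℝ) ≠ 0 := by exact_mod_cast hb.ne'
  field_simp

theorem sum_ld_real (κ : Measure (SLR n)) [IsProbabilityMeasure κ] (r : ℝ) (hb : 0 < b) :
    ∑ d, (ld κ hij r b d).real Set.univ = 1 := by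
  have h1 : ∀ d, (ld κ hij r b d).real Set.univ = 1 / b := fun d => by
    unfold ld
    rw [measureReal_def, Measure.smul_apply, measure_univ, smul_eq_mul, mul_one, ENNReal.toReal_inv,
      ENNReal.toReal_natCast, one_div]
  rw [Finset.sum_congr rfl fun d _ => h1 d]
  exact sum_div hb 1

/-- **Data processing for digits.** -/
theorem dp (μ : Measure (ModSpace n)) [IsProbabilityMeasure μ] {κ κ' τ : Measure (SLR n)}
    [IsProbabilityMeasure κ] [IsProbabilityMeasure κ'] [IsProbabilityMeasure τ] {r e : ℝ}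
    (hb : 0 < b) (h : ∀ d, TVle (cv (cv κ' (dlaw hij r b d)) τ) (cv κ (dlaw hij r b d)) e)
    (he : e ≤ 1) : Hc (lab μ κ' hij r b) ≤ Hc (lab μ κ hij r b) + md b e := by
  have : Nonempty (Fin b) := ⟨⟨0, hb⟩⟩
  rw [lab_eq_gl, lab_eq_gl]
  have h1 := Hc_gl_mono μ τ (ld κ' hij r b) (ld κ hij r b) (e := fun _ => e / b)
    (fun d => TVle_ld hij (h d)) (sum_ld_real hij κ' r hb).le (by rw [sum_div hb e]; exact he)
  rwa [Fintype.card_fin, sum_div hb e] at h1

/-- **Data processing for digits, posterior form.** -/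
theorem dp_pv (μ : Measure (ModSpace n)) [IsProbabilityMeasure μ] {κ κ' τ : Measure (SLR n)}
    [IsProbabilityMeasure κ] [IsProbabilityMeasure κ'] [IsProbabilityMeasure τ] {r e : ℝ}
    (hb : 0 < b) (h : ∀ d, TVle (cv (cv κ' (dlaw hij r b d)) τ) (cv κ (dlaw hij r b d)) e)
    (he : e ≤ 1) :
    ∫ p, ∑ d, |pv (lab μ κ' hij r b) d p.1 - pv (lab μ κ hij r b) d (act p.1 p.2)|
        ∂((tot (lab μ κ' hij r b)).prod τ)
      ≤ √(4 * (Hc (lab μ κ hij r b) + md b e - Hc (lab μ κ' hij r b))) + 4 * e := by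
  have : Nonempty (Fin b) := ⟨⟨0, hb⟩⟩
  rw [lab_eq_gl, lab_eq_gl]
  have h1 := pinsker_gl μ τ (ld κ' hij r b) (ld κ hij r b) (e := fun _ => e / b)
    (fun d => TVle_ld hij (h d)) (sum_ld_real hij κ' r hb).le (by rw [sum_div hb e]; exact he)
  rwa [Fintype.card_fin, sum_div hb e] at h1

/-- Data processing by exchange: `κ` absorbs `κ'` and commutes with the digits. -/
theorem dp_exch (μ : Measure (ModSpace n)) [IsProbabilityMeasure μ] {κ κ' : Measure (SLR n)}
    [IsProbabilityMeasure κ] [IsProbabilityMeasure κ'] {r e₁ e₂ : ℝ}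
    (hb : 0 < b) (h₁ : ∀ d, Cm e₁ (dlaw hij r b d) κ) (h₂ : Ab e₂ κ' κ) (he : e₁ + e₂ ≤ 1) :
    Hc (lab μ κ' hij r b) ≤ Hc (lab μ κ hij r b) + md b (e₁ + e₂) :=
  dp hij μ hb (τ := κ) (fun d => exch (h₁ d) h₂) he

theorem dp_exch_pv (μ : Measure (ModSpace n)) [IsProbabilityMeasure μ] {κ κ' : Measure (SLR n)}
    [IsProbabilityMeasure κ] [IsProbabilityMeasure κ'] {r e₁ e₂ : ℝ}
    (hb : 0 < b) (h₁ : ∀ d, Cm e₁ (dlaw hij r b d) κ) (h₂ : Ab e₂ κ' κ) (he : e₁ + e₂ ≤ 1) :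
    ∫ p, ∑ d, |pv (lab μ κ' hij r b) d p.1 - pv (lab μ κ hij r b) d (act p.1 p.2)|
        ∂((tot (lab μ κ' hij r b)).prod κ)
      ≤ √(4 * (Hc (lab μ κ hij r b) + md b (e₁ + e₂) - Hc (lab μ κ' hij r b)))
        + 4 * (e₁ + e₂) :=
  dp_pv hij μ hb (τ := κ) (fun d => exch (h₁ d) h₂) he

/-! ### The sandwich -/

variable {μ : Measure (ModSpace n)} [IsProbabilityMeasure μ] (hμ : AInv μ)

include hμ in
/-- Equivariance of the digit entropy, depth moved to `0`. -/
theorem Hc_shift (κ : Measure (SLR n)) [IsProbabilityMeasure κ] {r : ℝ} {t : Fin n → ℝ}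
    (ht : r + (t i - t j) = 0) :
    Hc (lab μ (cj (aT t) κ) hij 0 b) = Hc (lab μ κ hij r b) := by
  rw [← ht]
  exact Hc_lab_sh hμ κ hij t r b

include hμ in
/-- Equivariance of the posteriors, depth moved to `0`. -/
theorem pv_shift (κ : Measure (SLR n)) [IsProbabilityMeasure κ] {r : ℝ} {t : Fin n → ℝ}
    (ht : r + (t i - t j) = 0) :
    ∀ᵐ y ∂(tot (lab μ κ hij r b)), ∀ d,
      pv (lab μ (cj (aT t) κ) hij 0 b) d (act y (aT t)) = pv (lab μ κ hij r b) d y := by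
  have h1 : ∀ᵐ y ∂(tot (lab μ κ hij r b)), ∀ d,
      pr (lab μ (cj (aT t) κ) hij 0 b) d (act y (aT t)) = pr (lab μ κ hij r b) d y := by
    rw [ae_all_iff]
    intro d
    have := pr_lab_sh hμ κ hij t r b d
    rwa [ht] at this
  filter_upwards [h1] with y hy d
  unfold pv
  simp only [hy]

include hμ in
/-- The total law of the observation is equivariant. -/
theorem tot_shift (κ : Measure (SLR n)) [IsProbabilityMeasure κ] {r : ℝ} {t : Fin n → ℝ}
    (ht : r + (t i - t j) = 0) :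
    tot (lab μ (cj (aT t) κ) hij 0 b) = (tot (lab μ κ hij r b)).map fun y => act y (aT t) := by
  have h2 : mp (actE (aT t)) (lab μ κ hij r b) = lab μ (cj (aT t) κ) hij 0 b := by
    funext d
    have := lab_act hμ κ hij t r b d
    rw [ht] at this
    exact this
  rw [← h2, tot_mp (actE (aT t)).measurable]
  rfl

include hμ in
/-- **Upper half of the sandwich.** -/
theorem sw_upper {κ κ₁ : Measure (SLR n)} [IsProbabilityMeasure κ] [IsProbabilityMeasure κ₁]
    {r e₁ e₂ : ℝ} {t : Fin n → ℝ} (hb : 0 < b) (ht : r + (t i - t j) = 0)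
    (h₁ : ∀ d, Cm e₁ (dlaw hij 0 b d) κ₁) (h₂ : Ab e₂ (cj (aT t) κ) κ₁) (he : e₁ + e₂ ≤ 1) :
    Hc (lab μ κ hij r b) ≤ Hc (lab μ κ₁ hij 0 b) + md b (e₁ + e₂) := by
  rw [← Hc_shift hij hμ κ ht]
  exact dp_exch hij μ hb h₁ h₂ he

include hμ in
/-- **Lower half of the sandwich.** -/
theorem sw_lower {κ κ₂ : Measure (SLR n)} [IsProbabilityMeasure κ] [IsProbabilityMeasure κ₂]
    {r e₁ e₂ : ℝ} {t : Fin n → ℝ} (hb : 0 < b) (ht : r + (t i - t j) = 0)
    (h₁ : ∀ d, Cm e₁ (dlaw hij 0 b d) (cj (aT t) κ)) (h₂ : Ab e₂ κ₂ (cj (aT t) κ))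
    (he : e₁ + e₂ ≤ 1) :
    Hc (lab μ κ₂ hij 0 b) ≤ Hc (lab μ κ hij r b) + md b (e₁ + e₂) := by
  rw [← Hc_shift hij hμ κ ht]
  exact dp_exch hij μ hb h₁ h₂ he

include hμ in
/-- **Posterior form of the sandwich**: the posterior of the digit given the observation `y` is the
kernel `pv (lab μ κ₁ hij 0 b)` at the shifted and smeared point. -/
theorem sw_pv {κ κ₁ : Measure (SLR n)} [IsProbabilityMeasure κ] [IsProbabilityMeasure κ₁]
    {r e₁ e₂ : ℝ} {t : Fin n → ℝ} (hb : 0 < b) (ht : r + (t i - t j) = 0)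
    (h₁ : ∀ d, Cm e₁ (dlaw hij 0 b d) κ₁) (h₂ : Ab e₂ (cj (aT t) κ) κ₁) (he : e₁ + e₂ ≤ 1) :
    ∫ p, ∑ d, |pv (lab μ κ hij r b) d p.1 - pv (lab μ κ₁ hij 0 b) d (act (act p.1 (aT t)) p.2)|
        ∂((tot (lab μ κ hij r b)).prod κ₁)
      ≤ √(4 * (Hc (lab μ κ₁ hij 0 b) + md b (e₁ + e₂) - Hc (lab μ κ hij r b)))
        + 4 * (e₁ + e₂) := by
  have : Nonempty (Fin b) := ⟨⟨0, hb⟩⟩
  have h1 := dp_exch_pv hij μ hb h₁ h₂ he
  rw [Hc_shift hij hμ κ ht, tot_shift hij hμ κ ht] at h1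
  refine le_trans (le_of_eq ?_) h1
  have hA : Measurable fun y : ModSpace n => act y (aT t) := measurable_act _
  have h2 : ((tot (lab μ κ hij r b)).map fun y => act y (aT t)).prod κ₁
      = ((tot (lab μ κ hij r b)).prod κ₁).map (Prod.map (fun y => act y (aT t)) id) := by
    conv_lhs => rw [← Measure.map_id (μ := κ₁)]
    exact Measure.map_prod_map _ _ hA measurable_id
  rw [h2, integral_map (hA.prodMap measurable_id).aemeasurable]
  · refine integral_congr_ae ?_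
    have h3 := pv_shift (b := b) hij hμ κ ht
    have h4 : ∀ᵐ p ∂((tot (lab μ κ hij r b)).prod κ₁), ∀ d,
        pv (lab μ (cj (aT t) κ) hij 0 b) d (act p.1 (aT t)) = pv (lab μ κ hij r b) d p.1 :=
      Measure.quasiMeasurePreserving_fst.ae h3
    filter_upwards [h4] with p hp
    simp only [Prod.map_fst, Prod.map_snd, id]
    exact Finset.sum_congr rfl fun d _ => by rw [hp d]
  · refine Measurable.aestronglyMeasurable ?_
    exact Finset.measurable_sum _ fun d _ =>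
      (((measurable_pv _ d).comp measurable_fst).sub ((measurable_pv _ d).comp measurable_act₂)).abs

/-- A noise law `κ` is good for the digits of the root `(i, j)` at depth `r`, with respect to the coarse
noise `κ₁` and the fine noise `κ₂`, with shift `t` and error `e`. -/
structure Good {n : ℕ} {i j : Fin n} (hij : i ≠ j) (b : ℕ) (e : ℝ) (κ₁ κ₂ κ : Measure (SLR n)) (r : ℝ)
    (t : Fin n → ℝ) : Prop where
  /-- the depth becomes `0` -/
  shift : r + (t i - t j) = 0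
  /-- the coarse noise absorbs -/
  up : Ab e (cj (aT t) κ) κ₁
  /-- the fine noise is absorbed -/
  lo : Ab e κ₂ (cj (aT t) κ)
  /-- commutation with the digits -/
  cm : ∀ d, Cm e (dlaw hij 0 b d) (cj (aT t) κ)

include hμ in
theorem Good.le {κ κ₁ κ₂ : Measure (SLR n)} [IsProbabilityMeasure κ] [IsProbabilityMeasure κ₁]
    {r e : ℝ} {t : Fin n → ℝ} (hb : 0 < b) (h : Good hij b e κ₁ κ₂ κ r t)
    (h₁ : ∀ d, Cm e (dlaw hij 0 b d) κ₁) (he : 2 * e ≤ 1) :
    Hc (lab μ κ hij r b) ≤ Hc (lab μ κ₁ hij 0 b) + md b (2 * e) := by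
  have := sw_upper hij hμ hb h.shift h₁ h.up (by linarith)
  rwa [← two_mul] at this

include hμ in
theorem Good.ge {κ κ₁ κ₂ : Measure (SLR n)} [IsProbabilityMeasure κ] [IsProbabilityMeasure κ₂]
    {r e : ℝ} {t : Fin n → ℝ} (hb : 0 < b) (h : Good hij b e κ₁ κ₂ κ r t) (he : 2 * e ≤ 1) :
    Hc (lab μ κ₂ hij 0 b) ≤ Hc (lab μ κ hij r b) + md b (2 * e) := by
  have := sw_lower hij hμ hb h.shift h.cm h.lo (by linarith)
  rwa [← two_mul] at this

include hμ in
/-- **Near constancy.** If the entropies at the two ends differ by at most `η`, the digit entropy of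
every good noise law is within `η + md b (2 e)` of the coarse one. -/
theorem Good.abs_sub_le {κ κ₁ κ₂ : Measure (SLR n)} [IsProbabilityMeasure κ]
    [IsProbabilityMeasure κ₁] [IsProbabilityMeasure κ₂] {r e η : ℝ} {t : Fin n → ℝ} (hb : 0 < b)
    (h : Good hij b e κ₁ κ₂ κ r t) (h₁ : ∀ d, Cm e (dlaw hij 0 b d) κ₁) (he : 2 * e ≤ 1)
    (hη0 : 0 ≤ η) (hη : Hc (lab μ κ₁ hij 0 b) - Hc (lab μ κ₂ hij 0 b) ≤ η) :
    |Hc (lab μ κ hij r b) - Hc (lab μ κ₁ hij 0 b)| ≤ η + md b (2 * e) := by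
  have h2 := h.le hij hμ hb h₁ he
  have h3 := h.ge hij hμ hb he
  rw [abs_le]
  constructor <;> linarith

include hμ in
/-- **Posteriors of good noise laws.** The posterior of the digit given the observation `y` is
the kernel `pv (lab μ κ₁ hij 0 b)` at the shifted and smeared point, up to
`√(4 (η + 2 md b (2e))) + 8 e` on average. -/
theorem Good.pv_le {κ κ₁ κ₂ : Measure (SLR n)} [IsProbabilityMeasure κ]
    [IsProbabilityMeasure κ₁] [IsProbabilityMeasure κ₂] {r e η : ℝ} {t : Fin n → ℝ} (hb : 0 < b)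
    (h : Good hij b e κ₁ κ₂ κ r t) (h₁ : ∀ d, Cm e (dlaw hij 0 b d) κ₁) (he : 2 * e ≤ 1)
    (hη : Hc (lab μ κ₁ hij 0 b) - Hc (lab μ κ₂ hij 0 b) ≤ η) :
    ∫ p, ∑ d, |pv (lab μ κ hij r b) d p.1 - pv (lab μ κ₁ hij 0 b) d (act (act p.1 (aT t)) p.2)|
        ∂((tot (lab μ κ hij r b)).prod κ₁)
      ≤ √(4 * (η + 2 * md b (2 * e))) + 8 * e := by
  have h2 := h.ge hij hμ hb he
  have h3 := sw_pv hij hμ hb h.shift h₁ h.up (by linarith)
  rw [← two_mul] at h3
  refine h3.trans (add_le_add (Real.sqrt_le_sqrt ?_) (by linarith))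
  linarith

/-- Monotonicity in the error. -/
theorem Good.mono {κ κ₁ κ₂ : Measure (SLR n)} {r e e' : ℝ} {t : Fin n → ℝ}
    (h : Good hij b e κ₁ κ₂ κ r t) (he : e ≤ e') : Good hij b e' κ₁ κ₂ κ r t :=
  ⟨h.shift, h.up.mono he, h.lo.mono he, fun d => (h.cm d).mono he⟩

end Crest.Agent.R014.Sw2_640
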