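import Crest.Agent.R014.Sw2_640
import Crest.Agent.R014.NScD_395

set_option autoImplicit false

/-!
Row 14, block D, noise formalism: the noises of the Heisenberg observation
`x ζ u_kl(2^(-β) t) u_jk(2^(-α) s) u_jl(2^(-γ) r)` are good for the digits of the three roots.

* `good_S` : `jk`-digits, noise `Z · kl · jl`;
* `good_R` : `jl`-digits, noise `Z · kl · jk` (and `good_R'` : `Z · jk · kl`);
* `good_T` : `kl`-digits, noise `Z · jk · jl`.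
-/

open MeasureTheory Crest.NumberTheoryR.Packets
open scoped ENNReal

namespace Crest.Agent.R014.Sw3_640

open Ms_667 Nd_837 Ne1_567 Ne2_567 Ne3_567 Sw1_640 Sw2_640 NScD_395

variable {n : ℕ} {i j k l : Fin n} {b : ℕ}

theorem dl_eq_wn (hij : i ≠ j) (r : ℝ) : dl hij r = wn hij r := rfl

/-- The displacement of a digit is at most `2^(-r)`. -/
theorem abs_digit_le {r : ℝ} {d : Fin b} {θ : ℝ} (hθ : |θ| ≤ 1) :
    |(2 : ℝ) ^ (-r) * (cen b d + θ / b)| ≤ (2 : ℝ) ^ (-r) := by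
  have hb : (0 : ℝ) < b := by exact_mod_cast d.pos
  rw [abs_mul, abs_of_pos (Real.rpow_pos_of_pos two_pos _)]
  refine mul_le_of_le_one_right (Real.rpow_pos_of_pos two_pos _).le ?_
  have h1 := abs_le.1 hθ
  have h2 : (d : ℝ) + 1 ≤ b := by exact_mod_cast d.2
  have h3 : (0 : ℝ) ≤ (d : ℝ) := Nat.cast_nonneg _
  unfold cen
  have h4 : -1 + (2 * (d : ℝ) + 1) / b + θ / b = (-b + (2 * (d : ℝ) + 1) + θ) / b := by
    field_simp
  rw [h4, abs_div, abs_of_pos hb, div_le_one hb, abs_le]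
  constructor <;> linarith

theorem measurable_digit (r : ℝ) (d : Fin b) :
    Measurable fun θ : ℝ => (2 : ℝ) ^ (-r) * (cen b d + θ / b) := by fun_prop

theorem ae_digit (r : ℝ) (d : Fin b) :
    ∀ᵐ θ ∂uni, |(2 : ℝ) ^ (-r) * (cen b d + θ / b)| ≤ (2 : ℝ) ^ (-r) := by
  filter_upwards [uni_ae] with θ hθ
  exact abs_digit_le hθ

theorem ae_wn (r : ℝ) : ∀ᵐ θ ∂uni, |(2 : ℝ) ^ (-r) * θ| ≤ (2 : ℝ) ^ (-r) := by
  filter_upwards [uni_ae] with θ hθ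
  rw [abs_mul, abs_of_pos (Real.rpow_pos_of_pos two_pos _)]
  exact mul_le_of_le_one_right (Real.rpow_pos_of_pos two_pos _).le hθ

/-! ### Commutation of the digits with the unipotent noises -/

theorem dig_jk (hjk : j ≠ k) (hkl : k ≠ l) (hjl : j ≠ l) (a β γ : ℝ) (d : Fin b) :
    Cm ((2 : ℝ) ^ (γ - a - β) / 2) (dlaw hjk a b d) (cv (wn hkl β) (wn hjl γ)) :=
  Cm_jk hjk hkl hjl (measurable_digit a d) (ae_digit a d) β γ

theorem dig_kl (hjk : j ≠ k) (hkl : k ≠ l) (hjl : j ≠ l) (β α γ : ℝ) (d : Fin b) :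
    Cm ((2 : ℝ) ^ (γ - α - β) / 2) (dlaw hkl β b d) (cv (wn hjk α) (wn hjl γ)) :=
  Cm_kl hjk hkl hjl (measurable_digit β d) (ae_digit β d) α γ

theorem dig_jl_kl (hkl : k ≠ l) (hjl : j ≠ l) (γ β : ℝ) (d : Fin b) :
    Cm 0 (dlaw hjl γ b d) (wn hkl β) := Cm_jl_kl hkl hjl (measurable_digit γ d) β

theorem dig_jl_jk (hjk : j ≠ k) (hjl : j ≠ l) (γ α : ℝ) (d : Fin b) :
    Cm 0 (dlaw hjl γ b d) (wn hjk α) := Cm_jl_jk hjk hjl (measurable_digit γ d) α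

theorem dig_jk_jl (hjk : j ≠ k) (hjl : j ≠ l) (a γ : ℝ) (d : Fin b) :
    Cm 0 (dlaw hjk a b d) (wn hjl γ) := Cm_jk_jl hjk hjl (measurable_digit a d) γ

theorem dig_kl_jl (hkl : k ≠ l) (hjl : j ≠ l) (β γ : ℝ) (d : Fin b) :
    Cm 0 (dlaw hkl β b d) (wn hjl γ) := Cm_kl_jl hkl hjl (measurable_digit β d) γ

/-! ### Goodness -/

variable {e : ℝ} {Z Z' κ₁ κ₂ : Measure (SLR n)} [IsProbabilityMeasure Z] [IsProbabilityMeasure Z']
  [IsProbabilityMeasure κ₁] [IsProbabilityMeasure κ₂] {t : Fin n → ℝ} {α β γ : ℝ}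

omit [IsProbabilityMeasure Z] [IsProbabilityMeasure Z'] [IsProbabilityMeasure κ₁]
  [IsProbabilityMeasure κ₂] in
/-- The noise `Z` itself is good. -/
theorem good_Z (hij : i ≠ j) {r : ℝ} (ht : r + (t i - t j) = 0) (hZ : cj (aT t) Z = Z')
    (hup : Ab e Z' κ₁) (hlo : Ab e κ₂ Z') (hcm : ∀ d, Cm e (dlaw hij 0 b d) Z') :
    Good hij b e κ₁ κ₂ Z r t :=
  ⟨ht, by rw [hZ]; exact hup, by rw [hZ]; exact hlo, fun d => by rw [hZ]; exact hcm d⟩

omit [IsProbabilityMeasure Z'] in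
/-- Conjugation of a product of three noises. -/
theorem cj_three {p q p' q' : Fin n} (hpq : p ≠ q) (hpq' : p' ≠ q') (hZ : cj (aT t) Z = Z')
    (β γ : ℝ) :
    cj (aT t) (cv (cv Z (wn hpq β)) (wn hpq' γ))
      = cv (cv Z' (wn hpq (β + (t p - t q)))) (wn hpq' (γ + (t p' - t q'))) := by
  rw [cj_cv, cj_cv, hZ, cj_wn, cj_wn]

/-- **`jk`-digits**, noise `Z · u_kl · u_jl`. -/
theorem good_S (hjk : j ≠ k) (hkl : k ≠ l) (hjl : j ≠ l) (ht : α + (t j - t k) = 0)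
    (hZ : cj (aT t) Z = Z') (hup : Ab e Z' κ₁) (hlo : Ab e κ₂ Z')
    (hcm : ∀ d, Cm e (dlaw hjk 0 b d) Z')
    (hkl' : Ab e (wn hkl (β + (t k - t l))) κ₁) (hjl' : Ab e (wn hjl (γ + (t j - t l))) κ₁) :
    Good hjk b (3 * e + (2 : ℝ) ^ (γ - α - β) / 2) κ₁ κ₂
      (cv (cv Z (dl hkl β)) (dl hjl γ)) α t := by
  have h0 : 0 ≤ e := hup.nonneg
  have h1 : (0 : ℝ) < (2 : ℝ) ^ (γ - α - β) := Real.rpow_pos_of_pos two_pos _
  rw [dl_eq_wn, dl_eq_wn]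
  refine ⟨ht, ?_, ?_, fun d => ?_⟩
  · rw [cj_three hkl hjl hZ]
    exact ((hup.cv_left hkl').cv_left hjl').mono (by linarith)
  · rw [cj_three hkl hjl hZ]
    exact (hlo.cv_right.cv_right).mono (by linarith)
  · rw [cj_three hkl hjl hZ, cv_assoc]
    have h2 := dig_jk (b := b) hjk hkl hjl 0 (β + (t k - t l)) (γ + (t j - t l)) d
    have h3 : γ + (t j - t l) - 0 - (β + (t k - t l)) = γ - α - β := by linarith
    rw [h3] at h2
    exact ((hcm d).cv_right h2).mono (by linarith)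

/-- **`jl`-digits**, noise `Z · u_kl · u_jk`. -/
theorem good_R (hjk : j ≠ k) (hkl : k ≠ l) (hjl : j ≠ l) (ht : γ + (t j - t l) = 0)
    (hZ : cj (aT t) Z = Z') (hup : Ab e Z' κ₁) (hlo : Ab e κ₂ Z')
    (hcm : ∀ d, Cm e (dlaw hjl 0 b d) Z')
    (hkl' : Ab e (wn hkl (β + (t k - t l))) κ₁) (hjk' : Ab e (wn hjk (α + (t j - t k))) κ₁) :
    Good hjl b (3 * e) κ₁ κ₂ (cv (cv Z (dl hkl β)) (dl hjk α)) γ t := by
  have h0 : 0 ≤ e := hup.nonneg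
  rw [dl_eq_wn, dl_eq_wn]
  refine ⟨ht, ?_, ?_, fun d => ?_⟩
  · rw [cj_three hkl hjk hZ]
    exact ((hup.cv_left hkl').cv_left hjk').mono (by linarith)
  · rw [cj_three hkl hjk hZ]
    exact (hlo.cv_right.cv_right).mono (by linarith)
  · rw [cj_three hkl hjk hZ]
    exact (((hcm d).cv_right (dig_jl_kl hkl hjl 0 _ d)).cv_right
      (dig_jl_jk hjk hjl 0 _ d)).mono (by linarith)

/-- **`jl`-digits**, noise `Z · u_jk · u_kl`. -/
theorem good_R' (hjk : j ≠ k) (hkl : k ≠ l) (hjl : j ≠ l) (ht : γ + (t j - t l) = 0)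
    (hZ : cj (aT t) Z = Z') (hup : Ab e Z' κ₁) (hlo : Ab e κ₂ Z')
    (hcm : ∀ d, Cm e (dlaw hjl 0 b d) Z')
    (hkl' : Ab e (wn hkl (β + (t k - t l))) κ₁) (hjk' : Ab e (wn hjk (α + (t j - t k))) κ₁) :
    Good hjl b (3 * e) κ₁ κ₂ (cv (cv Z (dl hjk α)) (dl hkl β)) γ t := by
  have h0 : 0 ≤ e := hup.nonneg
  rw [dl_eq_wn, dl_eq_wn]
  refine ⟨ht, ?_, ?_, fun d => ?_⟩
  · rw [cj_three hjk hkl hZ]
    exact ((hup.cv_left hjk').cv_left hkl').mono (by linarith)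
  · rw [cj_three hjk hkl hZ]
    exact (hlo.cv_right.cv_right).mono (by linarith)
  · rw [cj_three hjk hkl hZ]
    exact (((hcm d).cv_right (dig_jl_jk hjk hjl 0 _ d)).cv_right
      (dig_jl_kl hkl hjl 0 _ d)).mono (by linarith)

/-- **`kl`-digits**, noise `Z · u_jk · u_jl`. -/
theorem good_T (hjk : j ≠ k) (hkl : k ≠ l) (hjl : j ≠ l) (ht : β + (t k - t l) = 0)
    (hZ : cj (aT t) Z = Z') (hup : Ab e Z' κ₁) (hlo : Ab e κ₂ Z')
    (hcm : ∀ d, Cm e (dlaw hkl 0 b d) Z')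
    (hjk' : Ab e (wn hjk (α + (t j - t k))) κ₁) (hjl' : Ab e (wn hjl (γ + (t j - t l))) κ₁) :
    Good hkl b (3 * e + (2 : ℝ) ^ (γ - α - β) / 2) κ₁ κ₂
      (cv (cv Z (dl hjk α)) (dl hjl γ)) β t := by
  have h0 : 0 ≤ e := hup.nonneg
  have h1 : (0 : ℝ) < (2 : ℝ) ^ (γ - α - β) := Real.rpow_pos_of_pos two_pos _
  rw [dl_eq_wn, dl_eq_wn]
  refine ⟨ht, ?_, ?_, fun d => ?_⟩
  · rw [cj_three hjk hjl hZ]
    exact ((hup.cv_left hjk').cv_left hjl').mono (by linarith)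
  · rw [cj_three hjk hjl hZ]
    exact (hlo.cv_right.cv_right).mono (by linarith)
  · rw [cj_three hjk hjl hZ, cv_assoc]
    have h2 := dig_kl (b := b) hjk hkl hjl 0 (α + (t j - t k)) (γ + (t j - t l)) d
    have h3 : γ + (t j - t l) - (α + (t j - t k)) - 0 = γ - α - β := by linarith
    rw [h3] at h2
    exact ((hcm d).cv_right h2).mono (by linarith)

end Crest.Agent.R014.Sw3_640
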