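import Crest.Agent.R014.Sw5_640

set_option autoImplicit false

/-!
Row 14, block D, noise formalism: the exact square for two commuting roots.

* `square` : `H(e | V) + H(d | V, e) = H(d | V) + H(e | V, d)` for the digits `d`, `e` of two commuting
  unipotents at the right end of the observation, in terms of `lab`;
* `square_jk_jl` : the Heisenberg case.
-/

open MeasureTheory Crest.NumberTheoryR.Packets
open scoped ENNReal

namespace Crest.Agent.R014.Sw6_640

open Ms_667 Ne1_567 Ne2_567 Sw1_640 Sw3_640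
open Nd_837 hiding uni_ae
open NScD_395 (dl)

variable {n : ℕ} {i j i' j' k l : Fin n} {b b' : ℕ}

/-- Two commuting random elements. -/
theorem cv_comm_map {F G : ℝ → SLR n} (hF : Measurable F) (hG : Measurable G)
    (h : ∀ s t, F s * G t = G t * F s) :
    cv (uni.map F) (uni.map G) = cv (uni.map G) (uni.map F) := by
  unfold cv
  rw [Measure.map_prod_map uni uni hF hG, Measure.map_prod_map uni uni hG hF,
    Measure.map_map measurable_mul₂ (hF.prodMap hG), Measure.map_map measurable_mul₂ (hG.prodMap hF)]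
  conv_rhs => rw [← Measure.prod_swap]
  rw [Measure.map_map (measurable_mul₂.comp (hG.prodMap hF)) measurable_swap]
  congr 1
  funext p
  exact h p.1 p.2

theorem measurable_dg (hij : i ≠ j) (r : ℝ) (d : Fin b) :
    Measurable fun θ : ℝ => (uu hij ((2 : ℝ) ^ (-r) * (cen b d + θ / b)) : SLR n) :=
  (measurable_uu hij).comp (measurable_digit r d)

/-- A digit is a translated noise. -/
theorem dlaw_eq (hij : i ≠ j) (r : ℝ) (d : Fin b) :
    dlaw hij r b d = cv (dl hij (r + Real.logb 2 b))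
      (Measure.dirac (uu hij ((2 : ℝ) ^ (-r) * cen b d))) := by
  have hb : (b : ℝ) ≠ 0 := by exact_mod_cast d.pos.ne'
  rw [cv_dirac]
  unfold dlaw dl
  rw [Measure.map_map (measurable_mul_const _) (NScD_395.measurable_uuw hij _)]
  congr 1
  funext θ
  simp only [Function.comp_apply]
  rw [← uu_add, rpow_sub_logb d.pos]
  congr 1
  field_simp
  ring

section Square

variable (hij : i ≠ j) (hij' : i' ≠ j')
  (hc : ∀ s t : ℝ, (uu hij s : SLR n) * uu hij' t = uu hij' t * uu hij s)

include hc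

theorem dlaw_comm (a c : ℝ) (d : Fin b) (e : Fin b') :
    cv (dlaw hij a b d) (dlaw hij' c b' e) = cv (dlaw hij' c b' e) (dlaw hij a b d) :=
  cv_comm_map (measurable_dg hij a d) (measurable_dg hij' c e) fun _ _ => hc _ _

theorem dlaw_dl_comm (a c : ℝ) (d : Fin b) :
    cv (dlaw hij a b d) (dl hij' c) = cv (dl hij' c) (dlaw hij a b d) :=
  cv_comm_map (measurable_dg hij a d) (NScD_395.measurable_uuw hij' c) fun _ _ => hc _ _

theorem dl_dlaw_comm (a c : ℝ) (e : Fin b') :
    cv (dl hij a) (dlaw hij' c b' e) = cv (dlaw hij' c b' e) (dl hij a) :=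
  cv_comm_map (NScD_395.measurable_uuw hij a) (measurable_dg hij' c e) fun _ _ => hc _ _

theorem dlaw_dirac_comm (a : ℝ) (d : Fin b) (t : ℝ) :
    cv (dlaw hij a b d) (Measure.dirac (uu hij' t))
      = cv (Measure.dirac (uu hij' t)) (dlaw hij a b d) := by
  rw [cv_dirac, dirac_cv]
  unfold dlaw
  rw [Measure.map_map (measurable_mul_const _) (measurable_dg hij a d),
    Measure.map_map (measurable_const_mul _) (measurable_dg hij a d)]
  congr 1
  funext θ
  exact hc _ _

theorem dirac_dlaw_comm (c : ℝ) (e : Fin b') (s : ℝ) :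
    cv (Measure.dirac (uu hij s)) (dlaw hij' c b' e)
      = cv (dlaw hij' c b' e) (Measure.dirac (uu hij s)) := by
  rw [cv_dirac, dirac_cv]
  unfold dlaw
  rw [Measure.map_map (measurable_mul_const _) (measurable_dg hij' c e),
    Measure.map_map (measurable_const_mul _) (measurable_dg hij' c e)]
  congr 1
  funext θ
  exact hc _ _

omit hc in
theorem cv_finset_sum {ι : Type*} (s : Finset ι) (κ : Measure (SLR n)) [IsFiniteMeasure κ]
    (κ' : ι → Measure (SLR n)) [∀ c, IsFiniteMeasure (κ' c)] :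
    cv κ (∑ c ∈ s, κ' c) = ∑ c ∈ s, cv κ (κ' c) := by
  classical
  unfold cv
  have h : ∀ s : Finset ι, κ.prod (∑ c ∈ s, κ' c) = ∑ c ∈ s, κ.prod (κ' c) := by
    intro s
    induction s using Finset.induction_on with
    | empty => simp
    | insert a s ha ih =>
      rw [Finset.sum_insert ha, Finset.sum_insert ha, Measure.prod_add, ih]
  rw [h s, Measure.map_finset_sum measurable_mul₂.aemeasurable]

/-- The joint law of the two digits and the observation. -/
noncomputable def jw (μ : Measure (ModSpace n)) (κ : Measure (SLR n)) (a c : ℝ) (b b' : ℕ)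
    (p : Fin b × Fin b') : Measure (ModSpace n) :=
  (b : ℝ≥0∞)⁻¹ • (b' : ℝ≥0∞)⁻¹ •
    stp μ (cv (cv κ (dlaw hij a b p.1)) (dlaw hij' c b' p.2))

variable (μ : Measure (ModSpace n)) [IsProbabilityMeasure μ] (κ : Measure (SLR n))
  [IsProbabilityMeasure κ] (a c : ℝ)

omit hc in
theorem inv_ne_top' (hb : 0 < b) : (b : ℝ≥0∞)⁻¹ ≠ ∞ := by simp [hb.ne']

omit hc in
theorem fin_jw (p : Fin b × Fin b') : IsFiniteMeasure (jw hij hij' μ κ a c b b' p) := by
  unfold jw
  have h1 := Measure.smul_finite (stp μ (cv (cv κ (dlaw hij a b p.1)) (dlaw hij' c b' p.2)))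
    (inv_ne_top' p.2.pos)
  exact Measure.smul_finite _ (inv_ne_top' p.1.pos)

theorem mf_jw (hb' : 0 < b') (d : Fin b) :
    mf (jw hij hij' μ κ a c b b') d = lab μ (cv κ (dl hij' c)) hij a b d := by
  unfold mf jw
  simp only
  rw [← Finset.smul_sum, ← Finset.smul_sum, ← stp_sum]
  rw [← cv_finset_sum, lab, stp_stp, cv_assoc κ (dl hij' c), ← dlaw_dl_comm hij hij' hc a c d,
    NScD_395.dl_eq hij' c hb', cv_smul, cv_smul, stp_smul, cv_assoc]

theorem swap_jw (d : Fin b) (e : Fin b') :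
    cv (cv κ (dlaw hij a b d)) (dlaw hij' c b' e) = cv (cv κ (dlaw hij' c b' e)) (dlaw hij a b d) := by
  rw [cv_assoc, dlaw_comm hij hij' hc, ← cv_assoc]

theorem ms_jw (hb : 0 < b) (e : Fin b') :
    ms (jw hij hij' μ κ a c b b') e = lab μ (cv κ (dl hij a)) hij' c b' e := by
  unfold ms jw
  simp only
  simp_rw [swap_jw hij hij' hc κ a c]
  rw [← Finset.smul_sum, ← Finset.smul_sum, ← stp_sum]
  rw [← cv_finset_sum, lab, stp_stp, cv_assoc κ (dl hij a), dl_dlaw_comm hij hij' hc a c e,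
    NScD_395.dl_eq hij a hb, cv_smul, cv_smul, stp_smul, cv_assoc, smul_comm]

theorem slice_fst (e : Fin b') :
    (fun d => jw hij hij' μ κ a c b b' (d, e)) = fun d => (b' : ℝ≥0∞)⁻¹ •
      (lab μ (cv κ (dl hij' (c + Real.logb 2 b'))) hij a b d).map
        fun x => act x (uu hij' ((2 : ℝ) ^ (-c) * cen b' e)) := by
  funext d
  unfold jw lab
  simp only
  rw [Measure.map_smul, ← stp_dirac, stp_stp, stp_stp, smul_comm]
  congr 3
  rw [dlaw_eq hij' c e, ← cv_assoc, cv_assoc κ, dlaw_dl_comm hij hij' hc, ← cv_assoc, cv_assoc]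

theorem slice_snd (d : Fin b) :
    (fun e => jw hij hij' μ κ a c b b' (d, e)) = fun e => (b : ℝ≥0∞)⁻¹ •
      (lab μ (cv κ (dl hij (a + Real.logb 2 b))) hij' c b' e).map
        fun x => act x (uu hij ((2 : ℝ) ^ (-a) * cen b d)) := by
  funext e
  unfold jw lab
  simp only
  rw [swap_jw hij hij' hc, Measure.map_smul, ← stp_dirac, stp_stp, stp_stp]
  congr 3
  rw [dlaw_eq hij a d, ← cv_assoc, cv_assoc κ, ← dl_dlaw_comm hij hij' hc, ← cv_assoc, cv_assoc]

/-- **The exact square** for two commuting roots. -/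
theorem square (hb : 0 < b) (hb' : 0 < b') :
    Hc (lab μ (cv κ (dl hij a)) hij' c b')
        + Hc (lab μ (cv κ (dl hij' (c + Real.logb 2 b'))) hij a b)
      = Hc (lab μ (cv κ (dl hij' c)) hij a b)
        + Hc (lab μ (cv κ (dl hij (a + Real.logb 2 b))) hij' c b') := by
  have hfin : ∀ p, IsFiniteMeasure (jw hij hij' μ κ a c b b' p) := fin_jw hij hij' μ κ a c
  have h0 := Hc_exchange (jw hij hij' μ κ a c b b')
  have h1 : ms (jw hij hij' μ κ a c b b') = lab μ (cv κ (dl hij a)) hij' c b' :=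
    funext fun e => ms_jw hij hij' hc μ κ a c hb e
  have h2 : mf (jw hij hij' μ κ a c b b') = lab μ (cv κ (dl hij' c)) hij a b :=
    funext fun d => mf_jw hij hij' hc μ κ a c hb' d
  have h3 : ∀ e : Fin b', Hc (fun d => jw hij hij' μ κ a c b b' (d, e))
      = (b' : ℝ)⁻¹ * Hc (lab μ (cv κ (dl hij' (c + Real.logb 2 b'))) hij a b) := fun e => by
    rw [slice_fst hij hij' hc μ κ a c e, Hc_smul _ (by simp) (inv_ne_top' hb'), Hc_act]
    simp
  have h4 : ∀ d : Fin b, Hc (fun e => jw hij hij' μ κ a c b b' (d, e))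
      = (b : ℝ)⁻¹ * Hc (lab μ (cv κ (dl hij (a + Real.logb 2 b))) hij' c b') := fun d => by
    rw [slice_snd hij hij' hc μ κ a c d, Hc_smul _ (by simp) (inv_ne_top' hb), Hc_act]
    simp
  have hbr : (b : ℝ) ≠ 0 := by exact_mod_cast hb.ne'
  have hbr' : (b' : ℝ) ≠ 0 := by exact_mod_cast hb'.ne'
  rw [h1, h2, Finset.sum_congr rfl fun e _ => h3 e, Finset.sum_congr rfl fun d _ => h4 d,
    Finset.sum_const, Finset.sum_const, Finset.card_univ, Finset.card_univ, Fintype.card_fin,
    Fintype.card_fin, nsmul_eq_mul, nsmul_eq_mul, ← mul_assoc, ← mul_assoc,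
    mul_inv_cancel₀ hbr, mul_inv_cancel₀ hbr', one_mul, one_mul] at h0
  exact h0

end Square

/-- The square for `jk` and `jl`. -/
theorem square_jk_jl (hjk : j ≠ k) (hjl : j ≠ l) (μ : Measure (ModSpace n))
    [IsProbabilityMeasure μ] (κ : Measure (SLR n)) [IsProbabilityMeasure κ] (a c : ℝ) (hb : 0 < b)
    (hb' : 0 < b') :
    Hc (lab μ (cv κ (dl hjk a)) hjl c b')
        + Hc (lab μ (cv κ (dl hjl (c + Real.logb 2 b'))) hjk a b)
      = Hc (lab μ (cv κ (dl hjl c)) hjk a b)
        + Hc (lab μ (cv κ (dl hjk (a + Real.logb 2 b))) hjl c b') :=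
  square hjk hjl (comm_jk_jl hjk hjl) μ κ a c hb hb'

/-- The square for `kl` and `jl`. -/
theorem square_kl_jl (hkl : k ≠ l) (hjl : j ≠ l) (μ : Measure (ModSpace n))
    [IsProbabilityMeasure μ] (κ : Measure (SLR n)) [IsProbabilityMeasure κ] (a c : ℝ) (hb : 0 < b)
    (hb' : 0 < b') :
    Hc (lab μ (cv κ (dl hkl a)) hjl c b')
        + Hc (lab μ (cv κ (dl hjl (c + Real.logb 2 b'))) hkl a b)
      = Hc (lab μ (cv κ (dl hjl c)) hkl a b)
        + Hc (lab μ (cv κ (dl hkl (a + Real.logb 2 b))) hjl c b') :=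
  square hkl hjl (comm_kl_jl hkl hjl) μ κ a c hb hb'

end Crest.Agent.R014.Sw6_640
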