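import Mathlib

set_option autoImplicit false

/-!
Transference by induction: if every nonzero vector of the lattice `P` has norm `≥ R`, the dual
lattice `{l | ∀ y ∈ P, ⟪y, l⟫ ∈ ℤ}` has covering radius `≤ 2 ^ m / R`.
-/

open Module Submodule

universe u

namespace Crest.Agent.R014.TS1_837

set_option linter.unusedSectionVars false

section Basics

variable {E : Type u} [NormedAddCommGroup E] [InnerProductSpace ℝ E] [FiniteDimensional ℝ E]

/-- A subgroup all of whose non-zero vectors are long is discrete. -/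
theorem discrete_of_norm {E : Type u} [NormedAddCommGroup E] (P : Submodule ℤ E) {r : ℝ} (hr : 0 < r)
    (h : ∀ y ∈ P, y ≠ 0 → r ≤ ‖y‖) : DiscreteTopology P := by
  refine discreteTopology_of_isOpen_singleton_zero ?_
  have : ({0} : Set P) = Subtype.val ⁻¹' Metric.ball (0 : E) r := by
    ext y
    simp only [Set.mem_singleton_iff, Set.mem_preimage, Metric.mem_ball, dist_zero_right]
    constructor
    · rintro rfl
      simpa using hr
    · intro hy
      by_contra hne
      exact absurd (h y y.2 (fun h0 => hne (Subtype.ext h0))) (not_le.mpr hy)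
  rw [this]
  exact Metric.isOpen_ball.preimage continuous_subtype_val

/-- An element of a lattice which is only divisible by `±1` takes the value `1` on some element
of the dual lattice. -/
theorem exists_dual (P : Submodule ℤ E) [DiscreteTopology P] [IsZLattice ℝ P] {u : E}
    (hu : u ∈ P) (hprim : ∀ (g : ℤ) (v : E), v ∈ P → g • v = u → g = 1 ∨ g = -1) :
    ∃ w : E, (∀ y ∈ P, ∃ k : ℤ, inner ℝ y w = k) ∧ inner ℝ u w = 1 := by
  classical
  let b := Module.Free.chooseBasis ℤ P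
  let bE := b.ofZLatticeBasis ℝ P
  let a : Module.Free.ChooseBasisIndex ℤ P → ℤ := fun i => b.repr ⟨u, hu⟩ i
  obtain ⟨g, hg⟩ := (IsPrincipalIdealRing.principal (Ideal.span (Set.range a))).principal
  rw [Ideal.submodule_span_eq] at hg
  have hdiv : ∀ i, ∃ a' : ℤ, a i = g * a' := by
    intro i
    have : a i ∈ Ideal.span {g} := by
      rw [← hg]
      exact Ideal.subset_span ⟨i, rfl⟩
    exact Ideal.mem_span_singleton.mp this
  choose a' ha' using hdiv
  have hgmem : g ∈ Ideal.span (Set.range a) := by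
    rw [hg]
    exact Ideal.mem_span_singleton_self g
  obtain ⟨c, hc⟩ := Ideal.mem_span_range_iff_exists_fun.mp hgmem
  have hgu : g • ((∑ i, a' i • b i : P) : E) = u := by
    have h1 : (⟨u, hu⟩ : P) = ∑ i, a i • b i := (b.sum_repr ⟨u, hu⟩).symm
    have h2 : (∑ i, a i • b i : P) = g • ∑ i, a' i • b i := by
      rw [Finset.smul_sum]
      refine Finset.sum_congr rfl fun i _ => ?_
      rw [ha' i, mul_smul]
    have h3 := congrArg (Subtype.val) (h1.trans h2)
    simpa using h3.symm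
  have hgpm := hprim g _ (Subtype.mem _) hgu
  have hgg : (g : ℝ) * g = 1 := by
    rcases hgpm with h | h <;> simp [h]
  let ψ : E →ₗ[ℝ] ℝ := ∑ i, (c i : ℝ) • bE.coord i
  have hψ : ∀ y (hy : y ∈ P), ψ y = ((∑ i, c i * b.repr ⟨y, hy⟩ i : ℤ) : ℝ) := by
    intro y hy
    simp only [ψ, LinearMap.sum_apply, LinearMap.smul_apply, Basis.coord_apply, smul_eq_mul]
    push_cast
    refine Finset.sum_congr rfl fun i _ => ?_
    congr 1
    exact b.ofZLatticeBasis_repr_apply ℝ P ⟨y, hy⟩ i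
  refine ⟨(InnerProductSpace.toDual ℝ E).symm ((g : ℝ) • LinearMap.toContinuousLinearMap ψ), ?_, ?_⟩
  · intro y hy
    refine ⟨g * ∑ i, c i * b.repr ⟨y, hy⟩ i, ?_⟩
    rw [real_inner_comm, InnerProductSpace.toDual_symm_apply]
    simp only [smul_apply, LinearMap.coe_toContinuousLinearMap', smul_eq_mul]
    rw [hψ y hy]
    push_cast
    ring
  · rw [real_inner_comm, InnerProductSpace.toDual_symm_apply]
    simp only [smul_apply, LinearMap.coe_toContinuousLinearMap', smul_eq_mul]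
    rw [hψ u hu]
    have : (∑ i, c i * b.repr ⟨u, hu⟩ i : ℤ) = g := hc
    rw [this, hgg]

/-- Shortest vectors exist. -/
theorem exists_shortest (P : Submodule ℤ E) [DiscreteTopology P] (h : ∃ y ∈ P, y ≠ 0) :
    ∃ u ∈ P, u ≠ 0 ∧ ∀ y ∈ P, y ≠ 0 → ‖u‖ ≤ ‖y‖ := by
  obtain ⟨y₀, hy₀, hne⟩ := h
  have hfin : (Metric.closedBall (0 : E) ‖y₀‖ ∩ (P : Set E)).Finite := by
    change (Metric.closedBall (0 : E) ‖y₀‖ ∩ (P.toAddSubgroup : Set E)).Finite
    have : DiscreteTopology P.toAddSubgroup := (inferInstance : DiscreteTopology P)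
    exact Metric.finite_isBounded_inter_isClosed DiscreteTopology.isDiscrete
      Metric.isBounded_closedBall inferInstance
  have hfin' : ((Metric.closedBall (0 : E) ‖y₀‖ ∩ (P : Set E)) \ {0}).Finite :=
    hfin.subset Set.sdiff_subset
  have hnonempty : ((Metric.closedBall (0 : E) ‖y₀‖ ∩ (P : Set E)) \ {0}).Nonempty :=
    ⟨y₀, ⟨by simp, hy₀⟩, by simpa using hne⟩
  obtain ⟨u, ⟨⟨hu1, hu2⟩, hu3⟩, humin⟩ := Set.exists_min_image _ (fun y : E => ‖y‖) hfin' hnonempty
  refine ⟨u, hu2, by simpa using hu3, ?_⟩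
  intro y hy hy0
  by_cases hle : ‖y‖ ≤ ‖y₀‖
  · exact humin y ⟨⟨by simpa using hle, hy⟩, by simpa using hy0⟩
  · have := humin y₀ ⟨⟨by simp, hy₀⟩, by simpa using hne⟩
    exact this.trans (not_le.mp hle).le

/-- Projection along `u` onto the orthogonal complement of `u`. -/
noncomputable def proj (u : E) (hu : u ≠ 0) : E →ₗ[ℝ] (ℝ ∙ u)ᗮ where
  toFun y := ⟨y - (inner ℝ u y / ‖u‖ ^ 2) • u, by
    rw [Submodule.mem_orthogonal_singleton_iff_inner_right, inner_sub_right, inner_smul_right,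
      real_inner_self_eq_norm_sq]
    have : ‖u‖ ^ 2 ≠ 0 := by positivity
    field_simp
    ring⟩
  map_add' y z := by
    apply Subtype.ext
    simp only [inner_add_right, Submodule.coe_add]
    rw [add_div, add_smul]
    abel
  map_smul' c y := by
    apply Subtype.ext
    simp only [inner_smul_right, RingHom.id_apply, Submodule.coe_smul]
    rw [smul_sub, smul_smul, mul_div_assoc]

theorem proj_add (u : E) (hu : u ≠ 0) (y : E) :
    y = (proj u hu y : E) + (inner ℝ u y / ‖u‖ ^ 2) • u := by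
  simp [proj]

theorem proj_of_mem (u : E) (hu : u ≠ 0) (y : (ℝ ∙ u)ᗮ) : proj u hu (y : E) = y := by
  apply Subtype.ext
  have h : inner ℝ u (y : E) = 0 := Submodule.mem_orthogonal_singleton_iff_inner_right.mp y.2
  simp [proj, h]

theorem inner_orth (u : E) (y : (ℝ ∙ u)ᗮ) : inner ℝ u (y : E) = 0 :=
  Submodule.mem_orthogonal_singleton_iff_inner_right.mp y.2

theorem inner_proj (u : E) (hu : u ≠ 0) (y : E) (h : (ℝ ∙ u)ᗮ) :
    inner ℝ y (h : E) = inner ℝ (proj u hu y) h := by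
  conv_lhs => rw [proj_add u hu y]
  rw [inner_add_left, inner_smul_left, inner_orth, mul_zero, add_zero]
  rfl

theorem norm_sq_add (u : E) (h : (ℝ ∙ u)ᗮ) (t : ℝ) :
    ‖(h : E) + t • u‖ ^ 2 = ‖h‖ ^ 2 + t ^ 2 * ‖u‖ ^ 2 := by
  have h0 : inner ℝ (h : E) u = 0 := by rw [real_inner_comm]; exact inner_orth u h
  rw [norm_add_sq_real, inner_smul_right, h0, norm_smul, mul_pow]
  simp

end Basics

/-- **Transference.** -/
theorem cover (m : ℕ) : ∀ (E : Type u) [NormedAddCommGroup E] [InnerProductSpace ℝ E]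
    [FiniteDimensional ℝ E], finrank ℝ E = m → ∀ (P : Submodule ℤ E),
    span ℝ (P : Set E) = ⊤ → ∀ R : ℝ, 0 < R → (∀ y ∈ P, y ≠ 0 → R ≤ ‖y‖) →
    ∀ x : E, ∃ l : E, (∀ y ∈ P, ∃ k : ℤ, inner ℝ y l = k) ∧ ‖x - l‖ ≤ 2 ^ m / R := by
  induction m with
  | zero =>
    intro E _ _ _ hE P _ R hR _ x
    have : Subsingleton E := finrank_zero_iff.mp hE
    refine ⟨0, fun y _ => ⟨0, by simp⟩, ?_⟩
    rw [Subsingleton.elim x 0]
    simp only [sub_zero, norm_zero]
    positivity
  | succ m ih =>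
    intro E _ _ _ hE P hspan R hR hP x
    have hdisc : DiscreteTopology P := discrete_of_norm P hR hP
    have hZ : IsZLattice ℝ P := ⟨hspan⟩
    have hnt : ∃ y ∈ P, y ≠ 0 := by
      by_contra hcon
      push Not at hcon
      have hbot : (P : Set E) ⊆ {0} := fun y hy => hcon y hy
      have : span ℝ (P : Set E) = ⊥ := by
        rw [Submodule.span_eq_bot]
        exact fun y hy => hbot hy
      rw [hspan] at this
      have hz : finrank ℝ E = 0 := by
        rw [← finrank_top, this, finrank_bot]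
      omega
    obtain ⟨u, huP, hu0, humin⟩ := exists_shortest P hnt
    have hupos : 0 < ‖u‖ := norm_pos_iff.mpr hu0
    have hRu : R ≤ ‖u‖ := hP u huP hu0
    -- the dual vector `w`
    obtain ⟨w, hw, huw⟩ := exists_dual P huP (by
      intro g v hv hgv
      have hg0 : g ≠ 0 := by
        rintro rfl
        rw [zero_smul] at hgv
        exact hu0 hgv.symm
      have hv0 : v ≠ 0 := by
        rintro rfl
        rw [smul_zero] at hgv
        exact hu0 hgv.symm
      have hvmin := humin v hv hv0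
      have hn : ‖u‖ = |(g : ℝ)| * ‖v‖ := by
        rw [← hgv, ← Int.cast_smul_eq_zsmul ℝ, norm_smul, Real.norm_eq_abs]
      have hvpos : 0 < ‖v‖ := norm_pos_iff.mpr hv0
      have hg1 : |(g : ℝ)| ≤ 1 := by
        by_contra hlt
        push Not at hlt
        have : ‖v‖ < |(g : ℝ)| * ‖v‖ := by nlinarith
        linarith
      have hg2 : |g| ≤ 1 := by exact_mod_cast hg1
      rcases abs_le.mp hg2 with ⟨h1, h2⟩
      omega)
    -- the projected lattice
    set p := proj u hu0 with hp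
    let P' : Submodule ℤ (ℝ ∙ u)ᗮ := P.map (p.restrictScalars ℤ)
    have hP'span : span ℝ (P' : Set (ℝ ∙ u)ᗮ) = ⊤ := by
      have h1 : (P' : Set (ℝ ∙ u)ᗮ) = p '' (P : Set E) := by
        simp [P']
      rw [h1, ← Submodule.map_span, hspan, Submodule.map_top, LinearMap.range_eq_top]
      intro y
      exact ⟨(y : E), proj_of_mem u hu0 y⟩
    set R' : ℝ := Real.sqrt (3 / 4) * ‖u‖ with hR'
    have hs : 0 < Real.sqrt (3 / 4) := Real.sqrt_pos.mpr (by norm_num)
    have hR'pos : 0 < R' := mul_pos hs hupos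
    have hP' : ∀ y ∈ P', y ≠ 0 → R' ≤ ‖y‖ := by
      rintro y ⟨z, hz, hzy⟩ hy0
      have hzy' : p z = y := hzy
      set t : ℝ := inner ℝ u z / ‖u‖ ^ 2 with ht
      set k : ℤ := round t with hk
      have hz' : z - k • u ∈ P := P.sub_mem hz (P.smul_mem _ huP)
      have hdec : z - k • u = (y : E) + (t - k) • u := by
        have := proj_add u hu0 z
        rw [← hp, hzy', ← ht] at this
        rw [this, sub_smul, ← Int.cast_smul_eq_zsmul ℝ]
        abel
      have hne : z - k • u ≠ 0 := by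
        intro h0
        have hn := norm_sq_add u y (t - k)
        rw [← hdec, h0] at hn
        have hy1 : 0 < ‖y‖ := norm_pos_iff.mpr hy0
        have : (0 : ℝ) < ‖y‖ ^ 2 + (t - k) ^ 2 * ‖u‖ ^ 2 := by positivity
        rw [← hn] at this
        simp at this
      have h1 := humin _ hz' hne
      have h2 := norm_sq_add u y (t - k)
      rw [← hdec] at h2
      have h3 : |t - k| ≤ 1 / 2 := abs_sub_round t
      have h4 : (t - k) ^ 2 ≤ 1 / 4 := by
        have := sq_abs (t - k)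
        nlinarith [abs_nonneg (t - k)]
      have h5 : ‖u‖ ^ 2 ≤ ‖z - k • u‖ ^ 2 := by gcongr
      have h6 : 3 / 4 * ‖u‖ ^ 2 ≤ ‖y‖ ^ 2 := by nlinarith [sq_nonneg ‖u‖]
      have h7 : R' ^ 2 ≤ ‖y‖ ^ 2 := by
        rw [hR', mul_pow, Real.sq_sqrt (by norm_num)]
        exact h6
      exact le_of_sq_le_sq h7 (norm_nonneg _) |> fun h => h
    have hfin' : finrank ℝ (ℝ ∙ u)ᗮ = m := by
      have : Fact (finrank ℝ E = m + 1) := ⟨hE⟩
      exact Submodule.finrank_orthogonal_span_singleton hu0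
    -- choose the integral vector
    set k : ℤ := round (inner ℝ u x) with hk
    set x₁ : E := x - k • w with hx₁
    have hθ : inner ℝ u x₁ = inner ℝ u x - k := by
      rw [hx₁, inner_sub_right, ← Int.cast_smul_eq_zsmul ℝ, inner_smul_right, huw, mul_one]
    have hθ' : |inner ℝ u x₁| ≤ 1 / 2 := by
      rw [hθ]
      exact abs_sub_round _
    obtain ⟨l', hl', hl'n⟩ := ih (ℝ ∙ u)ᗮ hfin' P' hP'span R' hR'pos hP' (p x₁)
    refine ⟨k • w + (l' : E), ?_, ?_⟩
    · intro y hy
      obtain ⟨a, ha⟩ := hw y hy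
      obtain ⟨c, hc⟩ := hl' (p y) ⟨y, hy, rfl⟩
      refine ⟨k * a + c, ?_⟩
      rw [inner_add_right, ← Int.cast_smul_eq_zsmul ℝ, inner_smul_right, ha,
        inner_proj u hu0 y l', ← hp, hc]
      push_cast
      ring
    · have hdec : x - (k • w + (l' : E)) = ((p x₁ - l' : (ℝ ∙ u)ᗮ) : E)
          + (inner ℝ u x₁ / ‖u‖ ^ 2) • u := by
        have := proj_add u hu0 x₁
        rw [← hp] at this
        calc x - (k • w + (l' : E)) = x₁ - (l' : E) := by rw [hx₁]; abel
          _ = _ := by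
            conv_lhs => rw [this]
            rw [Submodule.coe_sub]
            abel
      have h2 := norm_sq_add u (p x₁ - l') (inner ℝ u x₁ / ‖u‖ ^ 2)
      rw [← hdec] at h2
      have h3 : (inner ℝ u x₁ / ‖u‖ ^ 2) ^ 2 * ‖u‖ ^ 2 ≤ 1 / 4 / ‖u‖ ^ 2 := by
        have h4 : (inner ℝ u x₁) ^ 2 ≤ 1 / 4 := by
          have := sq_abs (inner ℝ u x₁)
          nlinarith [abs_nonneg (inner ℝ u x₁)]
        have h5 : (inner ℝ u x₁ / ‖u‖ ^ 2) ^ 2 * ‖u‖ ^ 2 = (inner ℝ u x₁) ^ 2 / ‖u‖ ^ 2 := by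
          field_simp
        rw [h5]
        gcongr
      have h6 : ‖p x₁ - l'‖ ^ 2 ≤ 4 / 3 * 4 ^ m / ‖u‖ ^ 2 := by
        have h7 : ‖p x₁ - l'‖ ^ 2 ≤ (2 ^ m / R') ^ 2 := by gcongr
        refine h7.trans (le_of_eq ?_)
        rw [hR', div_pow, mul_pow, Real.sq_sqrt (by norm_num), ← pow_mul, mul_comm m 2, pow_mul]
        norm_num
        field_simp
      have h8 : ‖x - (k • w + (l' : E))‖ ^ 2 ≤ (2 ^ (m + 1) / ‖u‖) ^ 2 := by
        have h11 : (2 ^ (m + 1) / ‖u‖ : ℝ) ^ 2 = (4 ^ m * 4) / ‖u‖ ^ 2 := by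
          rw [div_pow, ← pow_mul, mul_comm (m + 1) 2, pow_mul, pow_succ]
          norm_num
        rw [h2, h11]
        have h9 : (1 : ℝ) ≤ 4 ^ m := one_le_pow₀ (by norm_num)
        calc ‖p x₁ - l'‖ ^ 2 + (inner ℝ u x₁ / ‖u‖ ^ 2) ^ 2 * ‖u‖ ^ 2
            ≤ 4 / 3 * 4 ^ m / ‖u‖ ^ 2 + 1 / 4 / ‖u‖ ^ 2 := add_le_add h6 h3
          _ = (4 / 3 * 4 ^ m + 1 / 4) / ‖u‖ ^ 2 := by ring
          _ ≤ (4 ^ m * 4) / ‖u‖ ^ 2 := by
            gcongr
            linarith
      have h10 : ‖x - (k • w + (l' : E))‖ ≤ 2 ^ (m + 1) / ‖u‖ :=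
        le_of_sq_le_sq h8 (by positivity)
      refine h10.trans ?_
      gcongr

end Crest.Agent.R014.TS1_837
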