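import Crest.Agent.R014.TS1_837

set_option autoImplicit false

/-!
Counting points of the dual `P* = {x | ∀ y ∈ P, x · y ∈ ℤ}` of a lattice `P ∋ 1` of `ℝⁿ` in slabs of
the hyperplanes `∑ x i = t`, when every vector of `P` outside `ℤ • 1` is far from the line `ℝ • 1`.
-/

open Module Submodule MeasureTheory

namespace Crest.Agent.R014.TS2_837

open TS1_837

variable {n : ℕ}

theorem inner_toLp' (x y : Fin n → ℝ) :
    inner ℝ (WithLp.toLp 2 x) (WithLp.toLp 2 y) = ∑ i, x i * y i := by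
  rw [EuclideanSpace.inner_toLp_toLp]
  simp only [dotProduct, star_trivial]
  exact Finset.sum_congr rfl fun i _ => mul_comm _ _

/-- The dual of `P` with respect to the standard dot product. -/
def dual (P : Submodule ℤ (Fin n → ℝ)) : Submodule ℤ (Fin n → ℝ) where
  carrier := {x | ∀ y ∈ P, ∃ k : ℤ, ∑ i, x i * y i = k}
  zero_mem' := fun y _ => ⟨0, by simp⟩
  add_mem' := by
    intro x x' hx hx' y hy
    obtain ⟨k, hk⟩ := hx y hy
    obtain ⟨k', hk'⟩ := hx' y hy
    refine ⟨k + k', ?_⟩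
    push_cast
    rw [← hk, ← hk', ← Finset.sum_add_distrib]
    exact Finset.sum_congr rfl fun i _ => by simp only [Pi.add_apply]; ring
  smul_mem' := by
    intro c x hx y hy
    obtain ⟨k, hk⟩ := hx y hy
    refine ⟨c * k, ?_⟩
    push_cast
    rw [← hk, Finset.mul_sum]
    exact Finset.sum_congr rfl fun i _ => by simp only [Pi.smul_apply, zsmul_eq_mul]; ring

theorem mem_dual {P : Submodule ℤ (Fin n → ℝ)} {x : Fin n → ℝ} :
    x ∈ dual P ↔ ∀ y ∈ P, ∃ k : ℤ, ∑ i, x i * y i = k := Iff.rfl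

/-- `P` moved to the Euclidean space. -/
noncomputable def toE (P : Submodule ℤ (Fin n → ℝ)) : Submodule ℤ (EuclideanSpace ℝ (Fin n)) :=
  P.map ((WithLp.linearEquiv 2 ℝ (Fin n → ℝ)).symm.toLinearMap.restrictScalars ℤ)

theorem mem_toE {P : Submodule ℤ (Fin n → ℝ)} {z : EuclideanSpace ℝ (Fin n)} :
    z ∈ toE P ↔ ∃ y ∈ P, WithLp.toLp 2 y = z := Iff.rfl

theorem span_toE {P : Submodule ℤ (Fin n → ℝ)} (h : span ℝ (P : Set (Fin n → ℝ)) = ⊤) :
    span ℝ (toE P : Set (EuclideanSpace ℝ (Fin n))) = ⊤ := by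
  have h1 : (toE P : Set (EuclideanSpace ℝ (Fin n)))
      = (WithLp.linearEquiv 2 ℝ (Fin n → ℝ)).symm.toLinearMap '' (P : Set (Fin n → ℝ)) := by
    simp [toE]
  rw [h1, ← Submodule.map_span, h, Submodule.map_top, LinearMap.range_eq_top]
  exact (WithLp.linearEquiv 2 ℝ (Fin n → ℝ)).symm.surjective

/-- The vector `(1, …, 1)`. -/
def one : Fin n → ℝ := fun _ => 1

/-- The separation hypothesis: vectors of `P` which are not integral multiples of `1` have two
coordinates at distance at least `R`. -/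
def Sep (P : Submodule ℤ (Fin n → ℝ)) (R : ℝ) : Prop :=
  ∀ y ∈ P, (∀ k : ℤ, y ≠ fun _ => (k : ℝ)) → ∃ i j, R ≤ |y i - y j|

section Cover

variable {P : Submodule ℤ (Fin n → ℝ)} {R : ℝ}

theorem one_ne (hn : 0 < n) : (WithLp.toLp 2 (one : Fin n → ℝ) : EuclideanSpace ℝ (Fin n)) ≠ 0 := by
  intro h
  have := congrFun (congrArg (WithLp.ofLp) h) ⟨0, hn⟩
  simp [one] at this

theorem exists_trace_one (hn : 0 < n) [DiscreteTopology P] (hspan : span ℝ (P : Set (Fin n → ℝ)) = ⊤)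
    (hR : 0 < R) (h1 : one ∈ P) (hsep : Sep P R) :
    ∃ q ∈ dual P, ∑ i, q i = 1 := by
  have hdisc : DiscreteTopology (toE P) := by
    let e : (toE P) ≃ₜ P :=
      { toFun := fun z => ⟨WithLp.ofLp z.1, by
          obtain ⟨y, hy, hz⟩ := mem_toE.mp z.2
          rw [← hz]
          exact hy⟩
        invFun := fun y => ⟨WithLp.toLp 2 y.1, mem_toE.mpr ⟨y.1, y.2, rfl⟩⟩
        left_inv := fun z => rfl
        right_inv := fun y => rfl
        continuous_toFun := by
          refine Continuous.subtype_mk ?_ _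
          exact (PiLp.continuous_ofLp 2 _).comp continuous_subtype_val
        continuous_invFun := by
          refine Continuous.subtype_mk ?_ _
          exact (PiLp.continuous_toLp 2 _).comp continuous_subtype_val }
    exact e.isEmbedding.discreteTopology
  have hZ : IsZLattice ℝ (toE P) := ⟨span_toE hspan⟩
  obtain ⟨w, hw, hw1⟩ := exists_dual (toE P) (u := WithLp.toLp 2 one) (mem_toE.mpr ⟨one, h1, rfl⟩) (by
    intro g v hv hgv
    obtain ⟨y, hy, rfl⟩ := mem_toE.mp hv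
    have hgy : ∀ i, (g : ℝ) * y i = 1 := by
      intro i
      have := congrFun (congrArg (WithLp.ofLp) hgv) i
      simpa [one] using this
    have hg0 : (g : ℝ) ≠ 0 := by
      intro h0
      have := hgy ⟨0, hn⟩
      rw [h0, zero_mul] at this
      exact zero_ne_one this
    by_cases hk : ∃ k : ℤ, y = fun _ => (k : ℝ)
    · obtain ⟨k, rfl⟩ := hk
      have h3 : (g : ℝ) * (k : ℝ) = 1 := hgy ⟨0, hn⟩
      have h2 : g * k = 1 := by exact_mod_cast h3
      exact Int.eq_one_or_neg_one_of_mul_eq_one h2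
    · exfalso
      push Not at hk
      obtain ⟨i, j, hij⟩ := hsep y hy hk
      have : y i = y j := by
        have := (hgy i).trans (hgy j).symm
        exact mul_left_cancel₀ hg0 this
      rw [this, sub_self, abs_zero] at hij
      linarith)
  refine ⟨WithLp.ofLp w, ?_, ?_⟩
  · intro y hy
    obtain ⟨k, hk⟩ := hw (WithLp.toLp 2 y) (mem_toE.mpr ⟨y, hy, rfl⟩)
    refine ⟨k, ?_⟩
    rw [← hk]
    have := inner_toLp' y (WithLp.ofLp w)
    rw [WithLp.toLp_ofLp] at this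
    rw [this]
    exact Finset.sum_congr rfl fun i _ => mul_comm _ _
  · have := inner_toLp' one (WithLp.ofLp w)
    rw [WithLp.toLp_ofLp, hw1] at this
    rw [this]
    exact Finset.sum_congr rfl fun i _ => by simp [one]

/-- **Covering by the dual lattice, trace direction separated.** -/
theorem cover_slab (hn : 0 < n) [DiscreteTopology P] (hspan : span ℝ (P : Set (Fin n → ℝ)) = ⊤)
    (hR : 0 < R) (h1 : one ∈ P) (hsep : Sep P R) (x : Fin n → ℝ) :
    ∃ q ∈ dual P, ∑ i, q i = ⌊∑ i, x i⌋ ∧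
      ∀ i, |x i - q i - Int.fract (∑ i, x i) / n| ≤ 2 ^ n / R := by
  obtain ⟨q₁, hq₁, hq₁s⟩ := exists_trace_one hn hspan hR h1 hsep
  have hn' : (n : ℝ) ≠ 0 := by exact_mod_cast hn.ne'
  set u : EuclideanSpace ℝ (Fin n) := WithLp.toLp 2 one with hu
  have hu0 : u ≠ 0 := one_ne hn
  set τ : ℝ := ∑ i, x i with hτ
  -- the vector of the hyperplane to be approximated
  let v : Fin n → ℝ := fun i => x i - ⌊τ⌋ * q₁ i - Int.fract τ / n
  have hvsum : ∑ i, v i = 0 := by
    simp only [v, Finset.sum_sub_distrib, ← Finset.mul_sum, hq₁s, Finset.sum_const,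
      Finset.card_univ, Fintype.card_fin, nsmul_eq_mul]
    rw [← hτ, mul_div_cancel₀ _ hn', Int.fract]
    ring
  have hvH : (WithLp.toLp 2 v : EuclideanSpace ℝ (Fin n)) ∈ (ℝ ∙ u)ᗮ := by
    rw [Submodule.mem_orthogonal_singleton_iff_inner_right, hu, inner_toLp']
    simpa [one] using hvsum
  set p := proj u hu0 with hp
  let P' : Submodule ℤ (ℝ ∙ u)ᗮ := (toE P).map (p.restrictScalars ℤ)
  have hP'span : span ℝ (P' : Set (ℝ ∙ u)ᗮ) = ⊤ := by
    have h1 : (P' : Set (ℝ ∙ u)ᗮ) = p '' (toE P : Set (EuclideanSpace ℝ (Fin n))) := by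
      simp [P']
    rw [h1, ← Submodule.map_span, span_toE hspan, Submodule.map_top, LinearMap.range_eq_top]
    intro y
    exact ⟨(y : EuclideanSpace ℝ (Fin n)), proj_of_mem u hu0 y⟩
  have hP' : ∀ y ∈ P', y ≠ 0 → R / 2 ≤ ‖y‖ := by
    rintro y ⟨z, hz, hzy⟩ hy0
    have hzy' : p z = y := hzy
    obtain ⟨y₀, hy₀, rfl⟩ := mem_toE.mp hz
    have hnotint : ∀ k : ℤ, y₀ ≠ fun _ => (k : ℝ) := by
      rintro k rfl
      apply hy0
      rw [← hzy']
      have : (WithLp.toLp 2 (fun _ : Fin n => (k : ℝ)) : EuclideanSpace ℝ (Fin n)) = (k : ℝ) • u := by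
        rw [hu]
        ext i
        simp [one]
      rw [this, map_smul]
      have hpu : p u = 0 := by
        apply Subtype.ext
        have hh : ‖u‖ ^ 2 ≠ 0 := by positivity
        simp only [hp, proj, LinearMap.coe_mk, AddHom.coe_mk, real_inner_self_eq_norm_sq,
          div_self hh, one_smul, sub_self, ZeroMemClass.coe_zero]
      rw [hpu, smul_zero]
    obtain ⟨i, j, hij⟩ := hsep y₀ hy₀ hnotint
    have hdec := proj_add u hu0 (WithLp.toLp 2 y₀)
    rw [← hp, hzy'] at hdec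
    have hco : ∀ i, y₀ i = (y : EuclideanSpace ℝ (Fin n)) i
        + inner ℝ u (WithLp.toLp 2 y₀) / ‖u‖ ^ 2 := by
      intro i
      have := congrFun (congrArg (WithLp.ofLp) hdec) i
      simpa [hu, one] using this
    have hle : ∀ i, |(y : EuclideanSpace ℝ (Fin n)) i| ≤ ‖y‖ := by
      intro i
      have := PiLp.norm_apply_le (y : EuclideanSpace ℝ (Fin n)) i
      simpa using this
    have h3 : |y₀ i - y₀ j| ≤ ‖y‖ + ‖y‖ := by
      rw [hco i, hco j]
      have : ∀ a b c : ℝ, (a + c) - (b + c) = a - b := by intros; ring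
      rw [this]
      exact (abs_sub _ _).trans (add_le_add (hle i) (hle j))
    linarith
  have hfin : finrank ℝ (ℝ ∙ u)ᗮ = n - 1 := by
    have : Fact (finrank ℝ (EuclideanSpace ℝ (Fin n)) = (n - 1) + 1) := ⟨by
      rw [finrank_euclideanSpace_fin]; omega⟩
    exact Submodule.finrank_orthogonal_span_singleton hu0
  obtain ⟨l, hl, hln⟩ := cover (n - 1) (ℝ ∙ u)ᗮ hfin P' hP'span (R / 2) (by positivity) hP'
    ⟨WithLp.toLp 2 v, hvH⟩
  have hlsum : ∑ i, (l : EuclideanSpace ℝ (Fin n)) i = 0 := by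
    have h2 := inner_toLp' one (WithLp.ofLp (l : EuclideanSpace ℝ (Fin n)))
    rw [WithLp.toLp_ofLp] at h2
    have h3 := h2.symm.trans (inner_orth u l)
    rw [← h3]
    exact Finset.sum_congr rfl fun i _ => by simp [one]
  have hco : ∀ i, (⌊τ⌋ • q₁ + WithLp.ofLp (l : EuclideanSpace ℝ (Fin n))) i
      = ⌊τ⌋ * q₁ i + (l : EuclideanSpace ℝ (Fin n)) i := by
    intro i
    rw [Pi.add_apply, Pi.smul_apply, zsmul_eq_mul]
  refine ⟨⌊τ⌋ • q₁ + WithLp.ofLp (l : EuclideanSpace ℝ (Fin n)), ?_, ?_, ?_⟩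
  · refine (dual P).add_mem ((dual P).smul_mem _ hq₁) ?_
    intro y hy
    obtain ⟨k, hk⟩ := hl (p (WithLp.toLp 2 y)) ⟨WithLp.toLp 2 y, mem_toE.mpr ⟨y, hy, rfl⟩, rfl⟩
    refine ⟨k, ?_⟩
    rw [← hk, ← inner_proj u hu0 (WithLp.toLp 2 y) l]
    have h2 := inner_toLp' y (WithLp.ofLp (l : EuclideanSpace ℝ (Fin n)))
    rw [WithLp.toLp_ofLp] at h2
    rw [h2]
    exact Finset.sum_congr rfl fun i _ => mul_comm _ _
  · simp only [hco, Finset.sum_add_distrib, ← Finset.mul_sum, hq₁s, hlsum, mul_one, add_zero]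
  · intro i
    have h2 : x i - (⌊τ⌋ • q₁ + WithLp.ofLp (l : EuclideanSpace ℝ (Fin n))) i - Int.fract τ / n
        = ((⟨WithLp.toLp 2 v, hvH⟩ - l : (ℝ ∙ u)ᗮ) : EuclideanSpace ℝ (Fin n)) i := by
      rw [hco i]
      simp [v]
      ring
    rw [h2]
    have h3 := PiLp.norm_apply_le
      (((⟨WithLp.toLp 2 v, hvH⟩ - l : (ℝ ∙ u)ᗮ) : EuclideanSpace ℝ (Fin n))) i
    refine (by simpa using h3 : _ ≤ ‖(⟨WithLp.toLp 2 v, hvH⟩ - l : (ℝ ∙ u)ᗮ)‖).trans (hln.trans ?_)
    have h4 : (2 : ℝ) ^ n = 2 ^ (n - 1) * 2 := by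
      rw [← pow_succ, Nat.sub_add_cancel hn]
    rw [h4]
    apply le_of_eq
    field_simp

end Cover

end Crest.Agent.R014.TS2_837
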