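import Mathlib

/-!
# Cells with thin boundaries by a random radius (row 14, block D)

`exists_thin`: for a probability measure `μ` and a countable family of measurable "distance"
functions `d i`, such that every point has at most `C` indices with `d i x ≤ 3`, there is a radius
`θ ∈ [1, 2]` such that the `exp (-u)`-collar of all the spheres `d i x = θ` has measure at most
`6 (C + 1) exp (-u / 2)` for ALL natural numbers `u` simultaneously.
`cell`: the least-index cell function; it is measurable and constant under perturbations off the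
collar.
-/

namespace Crest.Agent.R014.Thin_704

open MeasureTheory Set Real

noncomputable section

variable {X : Type*} {ι : Type*}

/-- The `e`-collar of the spheres of radius `θ`. -/
def collar (d : ι → X → ℝ) (θ e : ℝ) : Set X := {x | ∃ i, |d i x - θ| ≤ e}

lemma mem_collar {d : ι → X → ℝ} {θ e : ℝ} {x : X} :
    x ∈ collar d θ e ↔ ∃ i, |d i x - θ| ≤ e := Iff.rfl

lemma collar_mono (d : ι → X → ℝ) (θ : ℝ) {e e' : ℝ} (h : e ≤ e') :
    collar d θ e ⊆ collar d θ e' := fun _ ⟨i, hi⟩ => ⟨i, hi.trans h⟩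

lemma measurableSet_collar_prod [MeasurableSpace X] [Countable ι] {d : ι → X → ℝ}
    (hd : ∀ i, Measurable (d i)) (e : ℝ) :
    MeasurableSet {p : ℝ × X | p.2 ∈ collar d p.1 e} := by
  have : {p : ℝ × X | p.2 ∈ collar d p.1 e} = ⋃ i, {p : ℝ × X | |d i p.2 - p.1| ≤ e} := by
    ext p; simp [collar]
  rw [this]
  refine MeasurableSet.iUnion fun i => ?_
  exact measurableSet_le ((((hd i).comp measurable_snd).sub measurable_fst).abs) measurable_const

lemma measurableSet_collar [MeasurableSpace X] [Countable ι] {d : ι → X → ℝ}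
    (hd : ∀ i, Measurable (d i)) (θ e : ℝ) : MeasurableSet (collar d θ e) := by
  have : collar d θ e = ⋃ i, {x : X | |d i x - θ| ≤ e} := by
    ext p; simp [collar]
  rw [this]
  exact MeasurableSet.iUnion fun i =>
    measurableSet_le (((hd i).sub measurable_const).abs) measurable_const

/-- Every point sees few radii. -/
lemma volume_radii_le {d : ι → X → ℝ} {C : ℕ} {x : X} (hC : {i | d i x ≤ 3}.encard ≤ C) {e : ℝ}
    (he0 : 0 ≤ e) (he : e ≤ 1) :
    volume ({θ : ℝ | x ∈ collar d θ e} ∩ Icc (1 : ℝ) 2) ≤ ENNReal.ofReal (2 * C * e) := by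
  have hfin : {i | d i x ≤ 3}.Finite := finite_of_encard_le_coe hC
  have hcard : hfin.toFinset.card ≤ C := by
    rw [hfin.encard_eq_coe_toFinset_card] at hC
    exact_mod_cast hC
  have hsub : ({θ : ℝ | x ∈ collar d θ e} ∩ Icc (1 : ℝ) 2) ⊆
      ⋃ i ∈ hfin.toFinset, Icc (d i x - e) (d i x + e) := by
    rintro θ ⟨⟨i, hi⟩, hθ⟩
    rw [abs_le] at hi
    have h3 : d i x ≤ 3 := by linarith [hi.2, hθ.2]
    simp only [mem_iUnion, Finite.mem_toFinset, Set.mem_ofPred_eq]
    exact ⟨i, h3, by constructor <;> linarith [hi.1, hi.2]⟩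
  calc volume ({θ : ℝ | x ∈ collar d θ e} ∩ Icc (1 : ℝ) 2)
      ≤ volume (⋃ i ∈ hfin.toFinset, Icc (d i x - e) (d i x + e)) := measure_mono hsub
    _ ≤ ∑ i ∈ hfin.toFinset, volume (Icc (d i x - e) (d i x + e)) :=
        measure_biUnion_finset_le _ _
    _ = ∑ _i ∈ hfin.toFinset, ENNReal.ofReal (2 * e) := by
        refine Finset.sum_congr rfl fun i _ => ?_
        rw [Real.volume_Icc]; congr 1; ring
    _ = (hfin.toFinset.card : ENNReal) * ENNReal.ofReal (2 * e) := by
        rw [Finset.sum_const, nsmul_eq_mul]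
    _ ≤ (C : ENNReal) * ENNReal.ofReal (2 * e) := by
        gcongr
    _ = ENNReal.ofReal (2 * C * e) := by
        rw [← ENNReal.ofReal_natCast, ← ENNReal.ofReal_mul (by positivity)]
        congr 1; ring

/-- The mean over the radius of the measure of the collar. -/
lemma lintegral_collar_le [MeasurableSpace X] [Countable ι] (μ : Measure X)
    [IsProbabilityMeasure μ] {d : ι → X → ℝ} (hd : ∀ i, Measurable (d i)) {C : ℕ}
    (hC : ∀ x, {i | d i x ≤ 3}.encard ≤ C) {e : ℝ} (he0 : 0 ≤ e) (he : e ≤ 1) :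
    ∫⁻ θ in Icc (1 : ℝ) 2, μ (collar d θ e) ≤ ENNReal.ofReal (2 * C * e) := by
  have hm := measurableSet_collar_prod hd e
  have h1 : ∫⁻ θ in Icc (1 : ℝ) 2, μ (collar d θ e) =
      ((volume.restrict (Icc (1 : ℝ) 2)).prod μ) {p : ℝ × X | p.2 ∈ collar d p.1 e} := by
    rw [Measure.prod_apply hm]
    rfl
  rw [h1, Measure.prod_apply_symm hm]
  calc ∫⁻ x, (volume.restrict (Icc (1 : ℝ) 2))
          ((fun θ => (θ, x)) ⁻¹' {p : ℝ × X | p.2 ∈ collar d p.1 e}) ∂μ
      ≤ ∫⁻ _x, ENNReal.ofReal (2 * C * e) ∂μ := by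
        refine lintegral_mono fun x => ?_
        have hms : MeasurableSet ((fun θ : ℝ => (θ, x)) ⁻¹'
            {p : ℝ × X | p.2 ∈ collar d p.1 e}) := by
          exact measurable_prodMk_right hm
        rw [Measure.restrict_apply hms]
        exact volume_radii_le (hC x) he0 he
    _ = ENNReal.ofReal (2 * C * e) := by simp

lemma exp_neg_half_lt : exp (-(1 / 2 : ℝ)) < 2 / 3 := by
  rw [Real.exp_neg, inv_lt_comm₀ (exp_pos _) (by norm_num)]
  have h : (3 / 2 : ℝ) ≤ exp (1 / 2) := by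
    have := Real.add_one_le_exp (1 / 2 : ℝ)
    linarith
  have h2 : (3 / 2 : ℝ) < exp (1 / 2) := by
    have := Real.add_one_lt_exp (x := (1 / 2 : ℝ)) (by norm_num)
    linarith
  norm_num
  linarith

/-- **Random radius**: one radius whose collars are thin at all scales. -/
theorem exists_thin [MeasurableSpace X] [Countable ι] (μ : Measure X)
    [IsProbabilityMeasure μ] {d : ι → X → ℝ} (hd : ∀ i, Measurable (d i)) {C : ℕ}
    (hC : ∀ x, {i | d i x ≤ 3}.encard ≤ C) :
    ∃ θ ∈ Icc (1 : ℝ) 2, ∀ u : ℕ,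
      μ (collar d θ (exp (-(u : ℝ)))) ≤ ENNReal.ofReal (6 * (C + 1) * exp (-(u : ℝ) / 2)) := by
  by_contra hcon
  push Not at hcon
  set F : ℕ → ℝ → ENNReal := fun u θ => μ (collar d θ (exp (-(u : ℝ)))) with hF
  have hFm : ∀ u, Measurable (F u) := by
    intro u
    exact measurable_measure_prodMk_left (measurableSet_collar_prod hd _)
  set A : ℕ → Set ℝ := fun u =>
    {θ | ENNReal.ofReal (6 * (C + 1) * exp (-(u : ℝ) / 2)) ≤ F u θ} with hA
  have hcov : Icc (1 : ℝ) 2 ⊆ ⋃ u, (A u ∩ Icc (1 : ℝ) 2) := by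
    intro θ hθ
    obtain ⟨u, hu⟩ := hcon θ hθ
    exact mem_iUnion.2 ⟨u, hu.le, hθ⟩
  have hAu : ∀ u : ℕ, volume (A u ∩ Icc (1 : ℝ) 2) ≤
      ENNReal.ofReal (1 / 3 * exp (-(1 / 2 : ℝ)) ^ u) := by
    intro u
    have hpos : 0 < 6 * ((C : ℝ) + 1) * exp (-(u : ℝ) / 2) := by positivity
    have hmk := mul_meas_ge_le_lintegral₀ (μ := volume.restrict (Icc (1 : ℝ) 2))
      (hFm u).aemeasurable (ENNReal.ofReal (6 * (C + 1) * exp (-(u : ℝ) / 2)))
    have hle : ∫⁻ θ in Icc (1 : ℝ) 2, F u θ ≤ ENNReal.ofReal (2 * C * exp (-(u : ℝ))) :=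
      lintegral_collar_le μ hd hC (exp_pos _).le (by
        rw [Real.exp_le_one_iff]; simp)
    have hms : MeasurableSet (A u) := measurableSet_le measurable_const (hFm u)
    rw [Measure.restrict_apply hms] at hmk
    have h2 := hmk.trans hle
    have hne : ENNReal.ofReal (6 * ((C : ℝ) + 1) * exp (-(u : ℝ) / 2)) ≠ 0 := by
      simpa using hpos
    rw [mul_comm, ← ENNReal.le_div_iff_mul_le (Or.inl hne) (Or.inl ENNReal.ofReal_ne_top)] at h2
    refine h2.trans ?_
    rw [← ENNReal.ofReal_div_of_pos hpos]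
    refine ENNReal.ofReal_le_ofReal ?_
    rw [div_le_iff₀ hpos]
    have hexp : exp (-(u : ℝ)) = exp (-(1 / 2 : ℝ)) ^ u * exp (-(u : ℝ) / 2) := by
      rw [← Real.exp_nat_mul, ← Real.exp_add]
      congr 1; ring
    rw [hexp]
    have hq : 0 < exp (-(1 / 2 : ℝ)) ^ u * exp (-(u : ℝ) / 2) := by positivity
    have hC0 : (0 : ℝ) ≤ C := Nat.cast_nonneg C
    nlinarith [hq]
  have htot : volume (Icc (1 : ℝ) 2) ≤ ENNReal.ofReal (1 / 3 * (1 - exp (-(1 / 2 : ℝ)))⁻¹) := by
    calc volume (Icc (1 : ℝ) 2) ≤ volume (⋃ u, (A u ∩ Icc (1 : ℝ) 2)) := measure_mono hcov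
      _ ≤ ∑' u, volume (A u ∩ Icc (1 : ℝ) 2) := measure_iUnion_le _
      _ ≤ ∑' u : ℕ, ENNReal.ofReal (1 / 3 * exp (-(1 / 2 : ℝ)) ^ u) :=
          ENNReal.tsum_le_tsum hAu
      _ = ENNReal.ofReal (1 / 3 * (1 - exp (-(1 / 2 : ℝ)))⁻¹) := by
          have h1 : exp (-(1 / 2 : ℝ)) < 1 := by
            have := exp_neg_half_lt; linarith
          have hs := (hasSum_geometric_of_lt_one (exp_pos _).le h1).mul_left (1 / 3 : ℝ)
          rw [← hs.tsum_eq, ENNReal.ofReal_tsum_of_nonneg _ hs.summable]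
          intro n; positivity
  rw [Real.volume_Icc] at htot
  have h23 := exp_neg_half_lt
  have hlt : 1 / 3 * (1 - exp (-(1 / 2 : ℝ)))⁻¹ < 1 := by
    have hpos : 0 < 1 - exp (-(1 / 2 : ℝ)) := by linarith
    rw [← div_eq_mul_inv, div_lt_one hpos]
    linarith
  have h3 : ENNReal.ofReal (1 / 3 * (1 - exp (-(1 / 2 : ℝ)))⁻¹) < ENNReal.ofReal (2 - 1) := by
    rw [ENNReal.ofReal_lt_ofReal_iff (by norm_num)]
    linarith
  exact absurd htot (not_le.2 h3)

/-- Off the collar the balls of radius `θ` do not change under a perturbation of size `e`. -/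
lemma le_iff_of_not_mem_collar {d : ι → X → ℝ} {θ e : ℝ} {y y' : X} (hθ : θ ≤ 2) (he : e ≤ 1)
    (h : ∀ i, d i y ≤ 3 ∨ d i y' ≤ 3 → |d i y - d i y'| ≤ e) (hy : y ∉ collar d θ e) (i : ι) :
    d i y ≤ θ ↔ d i y' ≤ θ := by
  have hc : e < |d i y - θ| := by
    by_contra hcon
    exact hy ⟨i, not_lt.1 hcon⟩
  constructor
  · intro h1
    have h2 := abs_le.1 (h i (Or.inl (by linarith)))
    rw [abs_of_nonpos (by linarith)] at hc
    linarith [h2.1]
  · intro h1
    have h2 := abs_le.1 (h i (Or.inr (by linarith)))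
    by_contra h3
    rw [abs_of_pos (by linarith)] at hc
    linarith [h2.2]

open Classical in
/-- The least-index cell: `some i` for the least `i` with `d i y ≤ θ`, `none` if there is none. -/
def cell (d : ℕ → X → ℝ) (θ : ℝ) (y : X) : Option ℕ :=
  if h : ∃ i, d i y ≤ θ then some (Nat.find h) else none

lemma cell_eq_some_iff {d : ℕ → X → ℝ} {θ : ℝ} {y : X} {i : ℕ} :
    cell d θ y = some i ↔ d i y ≤ θ ∧ ∀ j < i, θ < d j y := by
  classical
  unfold cell
  split_ifs with h
  · rw [Option.some.injEq, Nat.find_eq_iff]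
    simp only [not_le]
  · simp only [reduceCtorEq, false_iff, not_and]
    exact fun h1 => absurd ⟨i, h1⟩ h

lemma cell_eq_none_iff {d : ℕ → X → ℝ} {θ : ℝ} {y : X} :
    cell d θ y = none ↔ ∀ i, θ < d i y := by
  classical
  unfold cell
  split_ifs with h
  · simp only [reduceCtorEq, false_iff, not_forall, not_lt]
    exact h
  · simp only [not_exists, not_le] at h
    simpa using h

lemma cell_eq {d : ℕ → X → ℝ} {θ e : ℝ} {y y' : X} (hθ : θ ≤ 2) (he : e ≤ 1)
    (h : ∀ i, d i y ≤ 3 ∨ d i y' ≤ 3 → |d i y - d i y'| ≤ e) (hy : y ∉ collar d θ e) :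
    cell d θ y = cell d θ y' := by
  have hiff := le_iff_of_not_mem_collar hθ he h hy
  cases hc : cell d θ y' with
  | none =>
    rw [cell_eq_none_iff] at hc ⊢
    intro i
    have := (hiff i).not
    rw [not_le, not_le] at this
    exact this.2 (hc i)
  | some i =>
    rw [cell_eq_some_iff] at hc ⊢
    refine ⟨(hiff i).2 hc.1, fun j hj => ?_⟩
    have := (hiff j).not
    rw [not_le, not_le] at this
    exact this.2 (hc.2 j hj)

lemma measurable_cell [MeasurableSpace X] {d : ℕ → X → ℝ} (hd : ∀ i, Measurable (d i)) (θ : ℝ) :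
    ∀ c : Option ℕ, MeasurableSet {y | cell d θ y = c} := by
  intro c
  cases c with
  | none =>
    simp only [cell_eq_none_iff, setOf_forall]
    exact MeasurableSet.iInter fun i => measurableSet_lt measurable_const (hd i)
  | some i =>
    simp only [cell_eq_some_iff, setOf_and, setOf_forall]
    refine (measurableSet_le (hd i) measurable_const).inter ?_
    exact MeasurableSet.iInter fun j => MeasurableSet.iInter fun _ =>
      measurableSet_lt measurable_const (hd j)

/-- Union bound over finitely many measure preserving maps: off a small set a point is off the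
collar at all the given times. -/
lemma measure_bad_times_le [MeasurableSpace X] (μ : Measure X) {d : ι → X → ℝ}
    {T : Type*} (F : Finset T) (g : T → X → X) (hg : ∀ t ∈ F, MeasurePreserving (g t) μ μ)
    {θ e : ℝ} (hm : MeasurableSet (collar d θ e)) {m : ENNReal} (hμ : μ (collar d θ e) ≤ m) :
    μ {x | ∃ t ∈ F, g t x ∈ collar d θ e} ≤ F.card * m := by
  have : {x | ∃ t ∈ F, g t x ∈ collar d θ e} = ⋃ t ∈ F, (g t) ⁻¹' (collar d θ e) := by
    ext x; simp
  rw [this]
  calc μ (⋃ t ∈ F, (g t) ⁻¹' (collar d θ e)) ≤ ∑ t ∈ F, μ ((g t) ⁻¹' (collar d θ e)) :=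
        measure_biUnion_finset_le _ _
    _ ≤ ∑ _t ∈ F, m := by
        refine Finset.sum_le_sum fun t ht => ?_
        rw [(hg t ht).measure_preimage hm.nullMeasurableSet]
        exact hμ
    _ = F.card * m := by rw [Finset.sum_const, nsmul_eq_mul]

end

end Crest.Agent.R014.Thin_704
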