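import Crest.Agent.R014.ThmA_71
import Crest.Agent.R014.Vol6_834

/-!
# Row 14: Theorem A from the counts and N1 (helper71)
-/

set_option autoImplicit false
open Crest Crest.NumberTheoryR Crest.NumberTheoryR.Packets

universe u

namespace Crest.Agent.R014.ThmA_71

theorem volLow_of_resLower {d : ℕ} (h : Vol6_834.ResLower.{u} (d + 1)) : VolLow.{u} d := by
  intro ε hε
  obtain ⟨c, hc, hV⟩ := Vol6_834.packVol_ge_latticeDisc h hε
  exact ⟨c, hc, fun K _ _ _ _ hprim m σ => hV K hprim m σ⟩

/-- **Theorem A** from the counts (675) and N1 (479). -/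
theorem thmA (d : ℕ) (h1 : Counts.{u} d) (h2 : Vol6_834.ResLower.{u} (d + 1)) :
    Iface_792.ThmA.{u} d :=
  thmA_of_counts d h1 (volLow_of_resLower h2)

end Crest.Agent.R014.ThmA_71
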