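import Crest.Agent.R014.Unf5_71
import Crest.Agent.R014.Pk5_349

/-!
# Row 14: Theorem A from the counting inputs and the volume bound (helper71)

`Counts d`: 675's counts (C1), (C2); `VolLow d`: `V ≥ c D^(1/2-ε)`;
`thmA_of_counts : Counts d → VolLow d → Iface_792.ThmA d`.
-/

set_option autoImplicit false
open MeasureTheory Set Matrix
open Crest Crest.NumberTheoryR Crest.NumberTheoryR.Packets
open scoped ENNReal

universe u

namespace Crest.Agent.R014.ThmA_71

open Unf_71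

/-- the counting inputs of Theorem A (`G` = good lattices; everything may depend on `ε`). -/
def Counts (d : ℕ) : Prop :=
  ∃ δ₀ η₀ : ℝ, 0 < δ₀ ∧ 0 < η₀ ∧ ∀ ε : ℝ, 0 < ε → ∃ C : ℝ, 0 < C ∧
    ∀ (K : Type u) [Field K] [NumberField K] [NumberField.IsTotallyReal K],
      Module.finrank ℚ K = d + 1 → IsPrimitiveField K →
      ∀ (m : LatticeBasis (d + 1) K) (σ : Fin (d + 1) ≃ (K →+* ℝ)),
      (∀ (X : ℝ) (F : Finset (Submodule ℤ K)), 1 ≤ X →
        (∀ M ∈ F, ∃ m'' : LatticeBasis (d + 1) K, m''.lattice = M ∧ InCl m m'' ∧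
          Real.sqrt (latticeDisc m) ≤ X * |(embMatrix m'' σ).det|) →
        (F.card : ℝ) ≤ C * latticeDisc m ^ ε * X ^ (1 + ε)) ∧
      ∃ G : Submodule ℤ K → Prop,
        (∀ (X : ℝ) (F : Finset (Submodule ℤ K)), 1 ≤ X →
          (∀ M ∈ F, ∃ m'' : LatticeBasis (d + 1) K, m''.lattice = M ∧ InCl m m'' ∧ ¬ G M ∧
            Real.sqrt (latticeDisc m) ≤ X * |(embMatrix m'' σ).det|) →
          (F.card : ℝ) ≤ C * latticeDisc m ^ (ε - η₀) * X ^ (1 + ε)) ∧
        (∀ S : Finset (Fin (d + 1)), S.Nonempty → S ≠ Finset.univ →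
          ∀ (t : ℤ) (s c r : ℝ), 1 ≤ c → 2 * latticeDisc m ^ (-δ₀) ≤ r →
          ∀ F : Finset (Submodule ℤ K × K),
          (∀ Mβ ∈ F, ∃ m'' : LatticeBasis (d + 1) K, m''.lattice = Mβ.1 ∧ InCl m m'' ∧ G Mβ.1 ∧
            Mβ.2 ∈ Sl_652.TrDual Mβ.1 σ ∧ Mβ.2 ≠ 0 ∧ ∑ j, σ j Mβ.2 = t ∧
            (∀ j, |σ j Mβ.2| ≤ c) ∧ |∑ j ∈ S, σ j Mβ.2 - s| ≤ r) →
          (F.card : ℝ) ≤ C * latticeDisc m ^ ε * c ^ ((d : ℝ) + ε) * r *
            Real.sqrt (latticeDisc m))

/-- the volume input of Theorem A. -/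
def VolLow (d : ℕ) : Prop :=
  ∀ ε : ℝ, 0 < ε → ∃ c : ℝ, 0 < c ∧
    ∀ (K : Type u) [Field K] [NumberField K] [NumberField.IsTotallyReal K],
      Module.finrank ℚ K = d + 1 → IsPrimitiveField K →
      ∀ (m : LatticeBasis (d + 1) K) (σ : Fin (d + 1) ≃ (K →+* ℝ)),
      ENNReal.ofReal (c * latticeDisc m ^ (1 / 2 - ε)) ≤ Pk5_349.packVol m σ

theorem absorb (A a b : ℝ) (hab : a < b) : ∃ D₀ : ℝ, 1 < D₀ ∧ ∀ D, D₀ ≤ D → A * D ^ a ≤ D ^ b := by
  have h := tendsto_rpow_atTop (sub_pos.2 hab)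
  obtain ⟨D₁, hD₁⟩ := Filter.eventually_atTop.1 (h.eventually_ge_atTop A)
  refine ⟨max D₁ 2, by simp, fun D hD => ?_⟩
  have hD2 : (2 : ℝ) ≤ D := (le_max_right _ _).trans hD
  have h1 := hD₁ D ((le_max_left _ _).trans hD)
  have h2 : D ^ b = D ^ (b - a) * D ^ a := by
    rw [← Real.rpow_add (by linarith)]
    congr 1
    ring
  rw [h2]
  exact mul_le_mul_of_nonneg_right h1 (Real.rpow_nonneg (by linarith) _)

theorem inv_mul_le {V : ℝ≥0∞} {v A : ℝ} (hv : 0 < v) (hV : ENNReal.ofReal v ≤ V) :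
    V⁻¹ * ENNReal.ofReal A ≤ ENNReal.ofReal (A / v) := by
  have h1 : V⁻¹ ≤ ENNReal.ofReal v⁻¹ := by
    rw [ENNReal.ofReal_inv_of_pos hv]
    exact ENNReal.inv_le_inv.2 hV
  refine (mul_le_mul' h1 le_rfl).trans ?_
  rw [← ENNReal.ofReal_mul (by positivity)]
  refine ENNReal.ofReal_le_ofReal (le_of_eq ?_)
  field_simp

theorem combine {d : ℕ} {V : ℝ≥0∞} {D c ε N P p Q : ℝ} (hD : 1 ≤ D) (hc : 0 < c)
    (hV : ENNReal.ofReal (c * D ^ (1 / 2 - ε)) ≤ V) (hN : N ≤ P * D ^ p)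
    (hQ : 0 ≤ Q) :
    V⁻¹ * ENNReal.ofReal (2 ^ (d + 1) * N * (Q * D ^ ε) ^ d) ≤
      ENNReal.ofReal ((2 ^ (d + 1) * P * Q ^ d / c) * D ^ (p + d * ε - 1 / 2 + ε)) := by
  have hD0 : 0 < D := by linarith
  refine (inv_mul_le (by positivity) hV).trans (ENNReal.ofReal_le_ofReal ?_)
  rw [div_le_iff₀ (by positivity)]
  have h1 : (Q * D ^ ε) ^ d = Q ^ d * D ^ (d * ε) := by
    rw [mul_pow, ← Real.rpow_natCast (D ^ ε), ← Real.rpow_mul hD0.le, mul_comm ε]
  have h2 : D ^ (p + d * ε - 1 / 2 + ε) * D ^ (1 / 2 - ε) = D ^ p * D ^ (d * ε) := by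
    rw [← Real.rpow_add hD0, ← Real.rpow_add hD0]
    congr 1
    ring
  calc 2 ^ (d + 1) * N * (Q * D ^ ε) ^ d ≤ 2 ^ (d + 1) * (P * D ^ p) * (Q * D ^ ε) ^ d := by
        gcongr
    _ = (2 ^ (d + 1) * P * Q ^ d / c) * (D ^ (p + d * ε - 1 / 2 + ε)) * (c * D ^ (1 / 2 - ε)) := by
        rw [h1]
        rw [show (2 ^ (d + 1) * P * Q ^ d / c) * (D ^ (p + d * ε - 1 / 2 + ε)) *
          (c * D ^ (1 / 2 - ε)) = (2 ^ (d + 1) * P * Q ^ d / c * c) *
            (D ^ (p + d * ε - 1 / 2 + ε) * D ^ (1 / 2 - ε)) by ring, h2]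
        field_simp

set_option maxHeartbeats 4000000 in
/-- Theorem A for small `e`. -/
theorem small (d : ℕ) (h1 : Counts.{u} d) (h2 : VolLow.{u} d) :
    ∃ κ e₁ : ℝ, 0 < κ ∧ 0 < e₁ ∧ ∀ e : ℝ, 0 < e → e ≤ e₁ → ∃ D₀ η : ℝ, 1 < D₀ ∧ 0 < η ∧
    ∀ (K : Type u) [Field K] [NumberField K] [NumberField.IsTotallyReal K],
      Module.finrank ℚ K = d + 1 → IsPrimitiveField K →
      ∀ (m : LatticeBasis (d + 1) K) (σ : Fin (d + 1) ≃ (K →+* ℝ)), D₀ ≤ latticeDisc m →
      ∀ μ : Measure (ModSpace (d + 1)), IsPacketMeasure m σ μ →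
        Iface_792.SlabBd μ (latticeDisc m) κ (2 * (d + 1) + 1) e η := by
  obtain ⟨δ₀, η₀, hδ₀, hη₀, hcnt⟩ := h1
  have hn : (1 : ℝ) ≤ d + 1 := by
    have : (0 : ℝ) ≤ d := Nat.cast_nonneg d
    linarith
  set n : ℝ := d + 1 with hndef
  refine ⟨δ₀, min 1 (η₀ / (8 * n)), hδ₀, by positivity, fun e he hee => ?_⟩
  have he1 : e ≤ 1 := hee.trans (min_le_left _ _)
  have heη : n * e ≤ η₀ / 8 := by
    have := hee.trans (min_le_right _ _)
    rw [le_div_iff₀ (by positivity)] at this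
    linarith
  set ε : ℝ := e / (8 * n) with hε
  have hε0 : 0 < ε := by positivity
  have hnε : n * ε = e / 8 := by rw [hε]; field_simp
  have hdε : (d : ℝ) * ε ≤ e / 8 := by
    rw [← hnε]
    have : (d : ℝ) ≤ n := by rw [hndef]; linarith
    gcongr
  have hε8 : ε ≤ e / 8 := by nlinarith
  obtain ⟨C, hC, hcnt⟩ := hcnt ε hε0
  obtain ⟨c, hc, hvol⟩ := h2 ε hε0
  -- common constant for the logarithms
  set Q : ℝ := (n + 2 * n * e) / ε + 2 * n * Real.log (2 * n) with hQ
  have hlog2n : 0 ≤ Real.log (2 * n) := Real.log_nonneg (by linarith)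
  have hQ0 : 0 ≤ Q := by positivity
  -- constants and thresholds
  set PA : ℝ := C * ((2 * n) ^ (d + 1)) ^ (1 + ε) with hPA
  set PB : ℝ := C * (4 * n ^ 2) ^ ((d : ℝ) + ε) * (4 * n ^ 3) with hPB
  set pA : ℝ := (ε - η₀) + (1 / 2 + n * e) * (1 + ε) with hpA
  set pB : ℝ := ε + 2 * e * (d + ε) + e + 1 / 2 with hpB
  set pC : ℝ := ε + ε / 2 + 1 / 2 with hpC
  obtain ⟨DA, hDA1, hDA⟩ := absorb (2 ^ (d + 1) * PA * Q ^ d / c)
    (pA + d * ε - 1 / 2 + ε) (-(η₀ / 2)) (by
      rw [hpA]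
      have : n * e * ε ≤ e / 8 := by
        have h3 : n * e * ε = e * (e / 8) := by rw [← hnε]; ring
        rw [h3]
        nlinarith
      nlinarith)
  obtain ⟨DB, hDB1, hDB⟩ := absorb (2 ^ (d + 1) * PB * Q ^ d / c)
    (pB + d * ε - 1 / 2 + ε) ((2 * n + 1) * e) (by
      rw [hpB]
      have h3 : 2 * e * (d + ε) ≤ 2 * e * (n - 1) + e / 4 := by
        have h4 : e * ε ≤ e / 8 := by nlinarith
        have : (d : ℝ) = n - 1 := by rw [hndef]; ring
        rw [this]
        linarith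
      nlinarith)
  obtain ⟨DC, hDC1, hDC⟩ := absorb (2 ^ (d + 1) * C * Q ^ d / c)
    (pC + d * ε - 1 / 2 + ε) e (by
      rw [hpC]
      nlinarith)
  refine ⟨max DA (max DB DC), η₀ / 2, lt_of_lt_of_le hDA1 (le_max_left _ _), by positivity, ?_⟩
  intro K _ _ _ hfin hprim m σ hD μ hμ
  obtain ⟨hall, G, hbad, hpair⟩ := hcnt K hfin hprim m σ
  have hV := hvol K hfin hprim m σ
  set D := latticeDisc m with hDdef
  have hD_A : DA ≤ D := (le_max_left _ _).trans hD
  have hD_B : DB ≤ D := (le_max_left _ _).trans ((le_max_right _ _).trans hD)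
  have hD_C : DC ≤ D := (le_max_right _ _).trans ((le_max_right _ _).trans hD)
  have hD1 : 1 ≤ D := hDA1.le.trans hD_A
  have hD0 : 0 < D := by linarith
  have hlogD : Real.log D ≤ D ^ ε / ε := Real.log_le_rpow_div hD0.le hε0
  have hlogD0 : 0 ≤ Real.log D := Real.log_nonneg hD1
  have hDε : 1 ≤ D ^ ε := Real.one_le_rpow hD1 hε0.le
  have hDe : 1 ≤ D ^ e := Real.one_le_rpow hD1 he.le
  have hDe0 : 0 < D ^ e := Real.rpow_pos_of_pos hD0 _
  -- the common bound for the logarithms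
  have hL : ∀ a b : ℝ, a ≤ n + 2 * n * e → b ≤ 2 * n * Real.log (2 * n) → 0 ≤ b →
      a * Real.log D + b ≤ Q * D ^ ε := by
    intro a b ha hb hb0
    have h3 : a * Real.log D ≤ (n + 2 * n * e) * (D ^ ε / ε) :=
      (mul_le_mul_of_nonneg_right ha hlogD0).trans
        (mul_le_mul_of_nonneg_left hlogD (by positivity))
    have h4 : b ≤ 2 * n * Real.log (2 * n) * D ^ ε := by nlinarith
    have h5 : Q * D ^ ε = (n + 2 * n * e) * (D ^ ε / ε) + 2 * n * Real.log (2 * n) * D ^ ε := by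
      rw [hQ]; ring
    linarith
  have hsqrt : Real.sqrt D = D ^ (1 / 2 : ℝ) := Real.sqrt_eq_rpow D
  have hsqrt0 : 0 < Real.sqrt D := Real.sqrt_pos.2 hD0
  have hlogsqrt : Real.log (Real.sqrt D) = 1 / 2 * Real.log D := by
    rw [hsqrt, Real.log_rpow hD0]
  have hprob := Pk5_349.isProbabilityMeasure_of_packet hμ
  obtain ⟨V, hpk⟩ := isPacketMeasure_iff.1 hμ
  have hVV : V = Pk5_349.packVol m σ := by
    obtain ⟨k, x, Dm, g1, g2, g3, -, rfl⟩ := hpk
    exact Pk5_349.sum_volume_eq g1 g2 (fun i => (g3 i).1)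
  rw [← hVV] at hV
  refine ⟨⟨(toMeasurable μ (Good m σ G (2 * (d + 1) * D ^ e))ᶜ)ᶜ,
    (measurableSet_toMeasurable _ _).compl, ?_, ?_⟩, ?_⟩
  · -- the bad set
    rw [compl_compl, measure_toMeasurable]
    have hR0 : (0 : ℝ) < 2 * (d + 1) * D ^ e := by positivity
    set X : ℝ := Real.sqrt D * (2 * (d + 1) * D ^ e) ^ (d + 1) with hX
    have hXeq : X = (2 * n) ^ (d + 1) * D ^ (1 / 2 + n * e) := by
      rw [hX, hsqrt, mul_pow, ← Real.rpow_natCast (D ^ e), ← Real.rpow_mul hD0.le,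
        Real.rpow_add hD0]
      push_cast
      rw [← hndef, mul_comm e n]
      ring
    have hX1 : 1 ≤ X := by
      rw [hXeq]
      have g1 : (1 : ℝ) ≤ (2 * n) ^ (d + 1) := one_le_pow₀ (by linarith)
      have g2 : 1 ≤ D ^ (1 / 2 + n * e) := Real.one_le_rpow hD1 (by positivity)
      nlinarith
    have hb := good_compl_le hpk G (R := 2 * (d + 1) * D ^ e)
      (N := C * D ^ (ε - η₀) * X ^ (1 + ε)) (L := Q * D ^ ε) hR0 (by positivity) (by
        rw [← hDdef, hlogsqrt, ← hndef, Real.log_mul (by positivity) hDe0.ne', Real.log_rpow hD0]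
        have := hL (1 / 2 + n * e) (n * Real.log (2 * n)) (by nlinarith) (by nlinarith)
          (by positivity)
        linarith) (by
        intro F hF
        refine hbad X F hX1 fun M hM => ?_
        obtain ⟨m'', g1, g2, g3, g4⟩ := hF M hM
        refine ⟨m'', g1, g2, g3, ?_⟩
        rw [hX, mul_assoc]
        have := mul_le_mul_of_nonneg_left g4 hsqrt0.le
        rwa [mul_one] at this)
    refine hb.trans ((combine (P := PA) (p := pA) hD1 hc hV ?_ hQ0).trans
      (ENNReal.ofReal_le_ofReal (hDA D hD_A)))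
    rw [hXeq, Real.mul_rpow (by positivity) (by positivity), ← Real.rpow_mul hD0.le, hPA, hpA,
      Real.rpow_add hD0 (ε - η₀)]
    apply le_of_eq
    ring
  · -- the slab bound
    intro x _ S hS hS' δ hδ hδ1
    have hδ0 : 0 < δ := lt_of_lt_of_le (Real.rpow_pos_of_pos hD0 _) hδ
    have hsub : (toMeasurable μ (Good m σ G (2 * (d + 1) * D ^ e))ᶜ)ᶜ ⊆
        Good m σ G (2 * (d + 1) * D ^ e) := by
      rw [compl_subset_comm]
      exact subset_toMeasurable _ _
    have hb := slab_le hpk G x S (R := D ^ e) (η := δ)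
      (N := C * D ^ ε * ((2 * (d + 1) * D ^ e) ^ 2) ^ ((d : ℝ) + ε) *
        (4 * (d + 1) ^ 3 * D ^ e * δ) * Real.sqrt D) (L := Q * D ^ ε) hDe hδ0.le (by
        rw [← hDdef, ← hndef, Real.log_mul (by positivity) hDe0.ne', Real.log_rpow hD0]
        have := hL (n + 2 * n * e) (2 * n * Real.log (2 * n)) le_rfl le_rfl
          (by positivity)
        linarith) (by
        intro t s F hF
        refine hpair S hS hS' t s _ _ ?_ ?_ F hF
        · refine one_le_pow₀ ?_
          rw [← hndef]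
          nlinarith
        · rw [← hndef]
          have g1 : (1 : ℝ) ≤ n ^ 3 := one_le_pow₀ hn
          have g2 : δ ≤ n ^ 3 * D ^ e * δ := by
            have : 1 ≤ n ^ 3 * D ^ e := by nlinarith
            nlinarith
          nlinarith)
    refine (measure_mono (inter_subset_inter_left _ hsub)).trans (hb.trans
      ((combine (P := PB * δ) (p := pB) hD1 hc hV ?_ hQ0).trans
      (ENNReal.ofReal_le_ofReal ?_)))
    · rw [← hndef]
      have g1 : ((2 * n * D ^ e) ^ 2) ^ ((d : ℝ) + ε) =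
          (4 * n ^ 2) ^ ((d : ℝ) + ε) * D ^ (2 * e * (d + ε)) := by
        rw [show (2 * n * D ^ e) ^ 2 = (4 * n ^ 2) * (D ^ e) ^ 2 by ring,
          Real.mul_rpow (by positivity) (by positivity), ← Real.rpow_natCast (D ^ e),
          ← Real.rpow_mul hD0.le, ← Real.rpow_mul hD0.le]
        push_cast
        rw [mul_comm e 2]
      rw [g1, hsqrt, hPB, hpB, Real.rpow_add hD0, Real.rpow_add hD0, Real.rpow_add hD0]
      apply le_of_eq
      ring
    · have g1 := hDB D hD_B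
      have g2 := mul_le_mul_of_nonneg_right g1 hδ0.le
      calc 2 ^ (d + 1) * (PB * δ) * Q ^ d / c * D ^ (pB + d * ε - 1 / 2 + ε) =
          2 ^ (d + 1) * PB * Q ^ d / c * D ^ (pB + d * ε - 1 / 2 + ε) * δ := by ring
        _ ≤ D ^ ((2 * n + 1) * e) * δ := g2
  · -- the cusp
    intro r hr
    rcases le_or_gt 1 r with hr1 | hr1
    · calc μ {x | ¬ Iface_792.Thick x r} ≤ 1 := prob_le_one
        _ = ENNReal.ofReal 1 := ENNReal.ofReal_one.symm
        _ ≤ ENNReal.ofReal (D ^ e * r ^ (d + 1)) := by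
          refine ENNReal.ofReal_le_ofReal ?_
          have g1 : 1 ≤ r ^ (d + 1) := one_le_pow₀ hr1
          nlinarith
    · set X : ℝ := Real.sqrt D * r ^ (d + 1) with hX
      have hX0 : 0 < X := by positivity
      have hXle : X ≤ Real.sqrt D := by
        rw [hX]
        have : r ^ (d + 1) ≤ 1 := pow_le_one₀ hr.le hr1.le
        nlinarith
      have hb := thin_le hpk (r := r) (N := C * D ^ ε * (X * D ^ (ε / 2))) (L := Q * D ^ ε) hr
        (by positivity) (by
          rw [← hDdef, hlogsqrt, ← hndef]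
          have g1 : Real.log r ≤ 0 := Real.log_nonpos hr.le hr1.le
          have := hL (1 / 2) 0 (by nlinarith) (by positivity) le_rfl
          nlinarith) (by
          intro F hF
          rcases Finset.eq_empty_or_nonempty F with rfl | ⟨M₀, hM₀⟩
          · simp only [Finset.card_empty, Nat.cast_zero]
            positivity
          have hX1 : 1 ≤ X := by
            obtain ⟨m'', -, g2, g3⟩ := hF M₀ hM₀
            have g4 := det_le σ g2.locHom g2.one_mem
            rw [← hDdef] at g4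
            calc (1 : ℝ) ≤ r ^ (d + 1) * |(embMatrix m'' σ).det| := g3
              _ ≤ r ^ (d + 1) * Real.sqrt D := by gcongr
              _ = X := by rw [hX, mul_comm]
          refine (hall X F hX1 fun M hM => ?_).trans ?_
          · obtain ⟨m'', g1, g2, g4⟩ := hF M hM
            refine ⟨m'', g1, g2, ?_⟩
            rw [hX, mul_assoc]
            have := mul_le_mul_of_nonneg_left g4 hsqrt0.le
            rwa [mul_one] at this
          · have g1 : X ^ (1 + ε) ≤ X * D ^ (ε / 2) := by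
              rw [Real.rpow_add hX0, Real.rpow_one]
              refine mul_le_mul_of_nonneg_left ?_ hX0.le
              refine (Real.rpow_le_rpow hX0.le hXle hε0.le).trans (le_of_eq ?_)
              rw [hsqrt, ← Real.rpow_mul hD0.le]
              congr 1
              ring
            exact mul_le_mul_of_nonneg_left g1 (by positivity))
      refine hb.trans ((combine (P := C * r ^ (d + 1)) (p := pC) hD1 hc hV ?_ hQ0).trans
        (ENNReal.ofReal_le_ofReal ?_))
      · rw [hX, hsqrt, hpC, Real.rpow_add hD0, Real.rpow_add hD0]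
        apply le_of_eq
        ring
      · have g1 := hDC D hD_C
        have g2 := mul_le_mul_of_nonneg_right g1 (pow_nonneg hr.le (d + 1))
        calc 2 ^ (d + 1) * (C * r ^ (d + 1)) * Q ^ d / c * D ^ (pC + d * ε - 1 / 2 + ε) =
            2 ^ (d + 1) * C * Q ^ d / c * D ^ (pC + d * ε - 1 / 2 + ε) * r ^ (d + 1) := by ring
          _ ≤ D ^ e * r ^ (d + 1) := g2

/-- **Theorem A** from the counts and the volume bound. -/
theorem thmA_of_counts (d : ℕ) (h1 : Counts.{u} d) (h2 : VolLow.{u} d) :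
    Iface_792.ThmA.{u} d := by
  obtain ⟨κ, e₁, hκ, he₁, hsmall⟩ := small d h1 h2
  refine ⟨κ, (2 * (d + 1) + 1) + κ / e₁, hκ, by positivity, fun e he => ?_⟩
  obtain ⟨D₀, η, hD₀, hη, hmain⟩ := hsmall (min e e₁) (lt_min he he₁) (min_le_right _ _)
  refine ⟨D₀, η, hD₀, hη, ?_⟩
  intro K _ _ _ hfin hprim m σ hD μ hμ
  obtain ⟨⟨X', hX', hX'c, hslab⟩, hcusp⟩ := hmain K hfin hprim m σ hD μ hμ
  set D := latticeDisc m with hDdef
  have hD1 : 1 ≤ D := hD₀.le.trans hD
  have hD0 : 0 < D := by linarith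
  have hprob := Pk5_349.isProbabilityMeasure_of_packet hμ
  refine ⟨?_, ?_⟩
  · rcases le_or_gt e e₁ with hee | hee
    · rw [min_eq_left hee] at hslab
      refine ⟨X', hX', hX'c, fun x hx S hS hS' δ hδ hδ1 => ?_⟩
      have hδ0 : 0 < δ := lt_of_lt_of_le (Real.rpow_pos_of_pos hD0 _) hδ
      refine (hslab x hx S hS hS' δ hδ hδ1).trans (ENNReal.ofReal_le_ofReal ?_)
      refine mul_le_mul_of_nonneg_right ?_ hδ0.le
      refine Real.rpow_le_rpow_of_exponent_le hD1 ?_
      have : 0 ≤ κ / e₁ := by positivity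
      nlinarith
    · refine ⟨univ, MeasurableSet.univ, by simp, fun x hx S hS hS' δ hδ hδ1 => ?_⟩
      calc μ (univ ∩ (act x) '' Iface_792.Box S (D ^ e) δ) ≤ 1 := prob_le_one
        _ = ENNReal.ofReal 1 := ENNReal.ofReal_one.symm
        _ ≤ ENNReal.ofReal (D ^ ((2 * (d + 1) + 1 + κ / e₁) * e) * δ) := by
          refine ENNReal.ofReal_le_ofReal ?_
          have g1 : κ ≤ (2 * (d + 1) + 1 + κ / e₁) * e := by
            have g2 : κ = κ / e₁ * e₁ := by field_simp
            have g3 : 0 ≤ κ / e₁ := by positivity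
            have g4 : 0 ≤ (2 * ((d : ℝ) + 1) + 1) * e := by positivity
            nlinarith
          calc (1 : ℝ) = D ^ κ * D ^ (-κ) := by
                rw [← Real.rpow_add hD0, add_neg_cancel, Real.rpow_zero]
            _ ≤ D ^ ((2 * (d + 1) + 1 + κ / e₁) * e) * δ := by
                refine mul_le_mul (Real.rpow_le_rpow_of_exponent_le hD1 g1) hδ ?_ ?_
                · positivity
                · positivity
  · intro r hr
    refine (hcusp r hr).trans (ENNReal.ofReal_le_ofReal ?_)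
    refine mul_le_mul_of_nonneg_right ?_ (by positivity)
    exact Real.rpow_le_rpow_of_exponent_le hD1 (min_le_left _ _)

end Crest.Agent.R014.ThmA_71
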