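import Crest.Agent.R014.Fin_792
import Crest.Agent.R014.AsmB2_460
import Crest.Agent.R014.RAs2_460
import Crest.Agent.R014.Q3_373
import Crest.Agent.R014.DEnd6c_71

/-!
# Row 14: the three statements from the single remaining input `RInp` (helper548)
-/

set_option autoImplicit false
open Crest.NumberTheoryR.Packets MeasureTheory Filter Topology
open Crest.Agent.R014.Iface_792
universe u

namespace Crest.Agent.R014.Top_548

theorem thmB {d : ℕ} (hd : 2 ≤ d) (h : RAs2_460.RInp (d + 1)) : ThmB d :=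
  AsmB2_460.thmB_of hd (c₂ := 1 / 2 ^ 10) (by norm_num) (q₀ := 4)
    (AsmB2_460.q2_of (RAs2_460.q2_of_inp h)) (k₁ := 12000) (by norm_num)
    (Q3_373.q3R (d + 1)) (DEnd6_71.endR (by omega))

theorem s17 (hR : ∀ n, 3 ≤ n → RAs2_460.RInp n)
    (d : ℕ) (hprime : (d + 1).Prime) (h5 : 5 ≤ d + 1)
    (K : ℕ → Type u) [∀ i, Field (K i)] [∀ i, NumberField (K i)] [∀ i, NumberField.IsTotallyReal (K i)]
    (hdeg : ∀ i, Module.finrank ℚ (K i) = d + 1)
    (m : ∀ i, LatticeBasis (d + 1) (K i)) (σ : ∀ i, Fin (d + 1) ≃ (K i →+* ℝ))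
    (hdisc : Tendsto (fun i => latticeDisc (m i)) atTop atTop) :
    ∃ ν : Measure (ModSpace (d + 1)), IsHaarProbability ν ∧
      (∀ i, ∃ μ : Measure (ModSpace (d + 1)), IsPacketMeasure (m i) (σ i) μ) ∧
      ∀ μ : ℕ → Measure (ModSpace (d + 1)), (∀ i, IsPacketMeasure (m i) (σ i) (μ i)) →
        (∀ f : ModSpace (d + 1) → ℝ, Continuous f → HasCompactSupport f →
          Tendsto (fun i => ∫ x, f x ∂(μ i)) atTop (𝓝 (∫ x, f x ∂ν))) ∧
        (∀ ε : ℝ, 0 < ε → ∃ C : Set (ModSpace (d + 1)), IsCompact C ∧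
          ∀ᶠ i in atTop, 1 - ε ≤ ((μ i) C).toReal) :=
  Fin_792.s17 d hprime h5 (thmB (by omega) (hR _ (by omega))) K hdeg m σ hdisc

theorem s18 (hR : ∀ n, 3 ≤ n → RAs2_460.RInp n)
    (K : ℕ → Type u) [∀ i, Field (K i)] [∀ i, NumberField (K i)] [∀ i, NumberField.IsTotallyReal (K i)]
    (hdeg : ∀ i, Module.finrank ℚ (K i) = 4) (hprim : ∀ i, IsPrimitiveField (K i))
    (m : ∀ i, LatticeBasis (3 + 1) (K i))
    (σ : ∀ i, Fin (3 + 1) ≃ (K i →+* ℝ))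
    (hdisc : Tendsto (fun i => latticeDisc (m i)) atTop atTop) :
    ∃ ν : Measure (ModSpace (3 + 1)), IsHaarProbability ν ∧
      (∀ i, ∃ μ : Measure (ModSpace (3 + 1)), IsPacketMeasure (m i) (σ i) μ) ∧
      ∀ μ : ℕ → Measure (ModSpace (3 + 1)), (∀ i, IsPacketMeasure (m i) (σ i) (μ i)) →
        (∀ f : ModSpace (3 + 1) → ℝ, Continuous f → HasCompactSupport f →
          Tendsto (fun i => ∫ x, f x ∂(μ i)) atTop (𝓝 (∫ x, f x ∂ν))) ∧
        (∀ ε : ℝ, 0 < ε → ∃ C : Set (ModSpace (3 + 1)), IsCompact C ∧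
          ∀ᶠ i in atTop, 1 - ε ≤ ((μ i) C).toReal) :=
  Fin_792.s18 (thmB (by omega) (hR _ (by omega))) K hdeg hprim m σ hdisc

theorem s19 (hR : ∀ n, 3 ≤ n → RAs2_460.RInp n)
    (K : ℕ → Type u) [∀ i, Field (K i)] [∀ i, NumberField (K i)] [∀ i, NumberField.IsTotallyReal (K i)]
    (hdeg : ∀ i, Module.finrank ℚ (K i) = 6) (hprim : ∀ i, IsPrimitiveField (K i))
    (m : ∀ i, LatticeBasis (5 + 1) (K i)) (hmax : ∀ i, (m i).IsMaximalOrder)
    (σ : ∀ i, Fin (5 + 1) ≃ (K i →+* ℝ))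
    (hdisc : Tendsto (fun i => |(NumberField.discr (K i) : ℝ)|) atTop atTop) :
    ∃ ν : Measure (ModSpace (5 + 1)), IsHaarProbability ν ∧
      (∀ i, ∃ μ : Measure (ModSpace (5 + 1)), IsPacketMeasure (m i) (σ i) μ) ∧
      ∀ μ : ℕ → Measure (ModSpace (5 + 1)), (∀ i, IsPacketMeasure (m i) (σ i) (μ i)) →
        (∀ f : ModSpace (5 + 1) → ℝ, Continuous f → HasCompactSupport f →
          Tendsto (fun i => ∫ x, f x ∂(μ i)) atTop (𝓝 (∫ x, f x ∂ν))) ∧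
        (∀ ε : ℝ, 0 < ε → ∃ C : Set (ModSpace (5 + 1)), IsCompact C ∧
          ∀ᶠ i in atTop, 1 - ε ≤ ((μ i) C).toReal) :=
  Fin_792.s19 (thmB (by omega) (hR _ (by omega))) K hdeg hprim m hmax σ hdisc

end Crest.Agent.R014.Top_548
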