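import Crest.Agent.R014.Struct_71
import Crest.Agent.R014.Sl1_652
import Crest.Agent.R014.Ms4_667

/-!
# Row 14: unfolding bounds for packet measures, arbitrary lattices (helper71), part 1

`inPk`, `Rep`, `exists_rep`, `exists_gl_of_lattice_eq`, `pt_eq_orbit`, `measure_le'` (arbitrary sets),
`box_le` (the general box bound).
-/

set_option autoImplicit false
open MeasureTheory Set Matrix
open Crest Crest.NumberTheoryR Crest.NumberTheoryR.Packets
open scoped ENNReal

namespace Crest.Agent.R014.Unf_71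

open BoxV_71 Pt_71 Emb_71 Struct_71

variable {d : ℕ} {K : Type*} [Field K] [NumberField K]

/-- `z` lies on one of the orbits of the packet. -/
def inPk (m : LatticeBasis (d + 1) K) (σ : Fin (d + 1) ≃ (K →+* ℝ)) (z : ModSpace (d + 1)) : Prop :=
  ∃ O ∈ packetOrbits m σ, z ∈ O

/-- `z` is the point of the lattice `m''` (containing `1` as a primitive vector) in which the
vector `1` has become `v`. -/
structure Rep (m : LatticeBasis (d + 1) K) (σ : Fin (d + 1) ≃ (K →+* ℝ)) (z : ModSpace (d + 1))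
    (m'' : LatticeBasis (d + 1) K) (v : Fin (d + 1) → ℝ) : Prop where
  locHom : LocallyHomothetic m m''
  one_mem : (1 : K) ∈ m''.lattice
  prim : ∀ k : ℤ, ∀ y ∈ m''.lattice, (k : K) * y = 1 → IsUnit k
  ne : ∀ j, v j ≠ 0
  vol : |(embMatrix m'' σ).det| * ∏ j, |v j| = 1
  eq : z = pt (embMatrix m'' σ * Matrix.diagonal v)

theorem inPk_iff {m : LatticeBasis (d + 1) K} {σ : Fin (d + 1) ≃ (K →+* ℝ)}
    {z : ModSpace (d + 1)} : inPk m σ z ↔ ∃ m' : LatticeBasis (d + 1) K, LocallyHomothetic m m' ∧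
      ∃ w : SLR (d + 1), IsSignMatrix w ∧ ∃ u : Fin d → ℝ,
        z = orbitMap (act (latticePoint m' σ) w) u := by
  constructor
  · rintro ⟨O, ⟨m', hm', w, hw, rfl⟩, u, hu⟩
    exact ⟨m', hm', w, hw, u, hu.symm⟩
  · rintro ⟨m', hm', w, hw, u, rfl⟩
    exact ⟨_, ⟨m', hm', w, hw, rfl⟩, u, rfl⟩

/-- representation of a packet point with respect to a primitive integer vector `p`
and an integer vector `q`. -/
theorem exists_rep {m : LatticeBasis (d + 1) K} {σ : Fin (d + 1) ≃ (K →+* ℝ)} (H : SLR (d + 1))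
    (hz : inPk m σ (Quotient.mk _ H)) (p q : Fin (d + 1) → ℤ)
    (hp : ∀ k : ℤ, (∀ i, k ∣ p i) → IsUnit k) :
    ∃ m'' : LatticeBasis (d + 1) K,
      Rep m σ (Quotient.mk _ H) m'' ((fun i => (p i : ℝ)) ᵥ* H.1) ∧
      ∃ β : K, (∀ j, σ j β = ((fun i => (p i : ℝ)) ᵥ* H.1) j * (H⁻¹.1 *ᵥ fun i => (q i : ℝ)) j) ∧
        β ∈ Sl_652.TrDual m''.lattice σ := by
  obtain ⟨m', hm', w, hw, u, hu⟩ := inPk_iff.1 hz
  have hp0 : p ≠ 0 := by
    rintro rfl
    have := hp 0 (fun i => by simp)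
    simp at this
  obtain ⟨m'', h1, h2, h3, h4, h5, ⟨β, h6, h7⟩, h8⟩ :=
    exists_struct m σ m' hm' hw u H hu p q hp0
  refine ⟨m'', ⟨h1, h2, fun k y hy hk => hp k (h8 k y hy hk), h3, h5, h4⟩, β, h6, ?_⟩
  rw [Sl_652.mem_trDual_iff_trace (Sl_652.finrank_eq m)]
  exact h7

/-- `p ᵥ* H` and `H⁻¹ *ᵥ q` pair to `p ⬝ q`. -/
theorem sum_mul_eq (H : SLR (d + 1)) (p q : Fin (d + 1) → ℤ) :
    ∑ j, ((fun i => (p i : ℝ)) ᵥ* H.1) j * (H⁻¹.1 *ᵥ fun i => (q i : ℝ)) j
      = ((∑ i, p i * q i : ℤ) : ℝ) := by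
  have h1 : ((fun i => (p i : ℝ)) ᵥ* H.1) ⬝ᵥ (H⁻¹.1 *ᵥ fun i => (q i : ℝ)) =
      (fun i => (p i : ℝ)) ⬝ᵥ (fun i => (q i : ℝ)) := by
    rw [Matrix.dotProduct_mulVec, Matrix.vecMul_vecMul, ← Matrix.SpecialLinearGroup.coe_mul,
      mul_inv_cancel, Matrix.SpecialLinearGroup.coe_one, Matrix.vecMul_one]
  have h2 := h1
  simp only [dotProduct] at h2
  rw [h2]
  push_cast
  rfl

/-- two bases of the same lattice differ by an integral matrix of determinant `±1`. -/
theorem exists_gl_of_lattice_eq {n : ℕ} {m1 m2 : LatticeBasis n K}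
    (h : m1.lattice = m2.lattice) :
    ∃ γ : Matrix (Fin n) (Fin n) ℤ, (γ.det = 1 ∨ γ.det = -1) ∧
      ∀ σ : Fin n ≃ (K →+* ℝ), embMatrix m1 σ = γ.map (Int.castRingHom ℝ) * embMatrix m2 σ := by
  have h1 : ∀ i, ∃ p : Fin n → ℤ, m1.vec i = ∑ j, (p j : K) * m2.vec j := fun i =>
    mem_lattice_iff.1 (h ▸ Sl_652.vec_mem m1 i)
  have h2 : ∀ i, ∃ p : Fin n → ℤ, m2.vec i = ∑ j, (p j : K) * m1.vec j := fun i =>
    mem_lattice_iff.1 (h ▸ Sl_652.vec_mem m2 i)
  choose A hA using h1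
  choose B hB using h2
  have hAB : (Matrix.of A) * (Matrix.of B) = 1 := by
    ext i k
    have h3 : ∑ k, ((∑ j, A i j * B j k : ℤ) : K) * m1.vec k = m1.vec i := by
      conv_rhs => rw [hA i]
      push_cast
      simp only [Finset.sum_mul]
      rw [Finset.sum_comm]
      refine Finset.sum_congr rfl fun j _ => ?_
      rw [hB j, Finset.mul_sum]
      refine Finset.sum_congr rfl fun k _ => ?_
      ring
    have h4 : (fun k => (∑ j, A i j * B j k) - if i = k then 1 else 0) = 0 := by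
      by_contra hne
      apply sum_ne_zero (m := m1) hne
      push_cast
      simp only [sub_mul, Finset.sum_sub_distrib, ite_mul, one_mul, zero_mul,
        Finset.sum_ite_eq, Finset.mem_univ, if_true]
      push_cast at h3
      rw [h3, sub_self]
    have h5 := congrFun h4 k
    simp only [Pi.zero_apply] at h5
    rw [Matrix.mul_apply, Matrix.one_apply]
    simp only [Matrix.of_apply]
    linarith
  refine ⟨Matrix.of A, ?_, ?_⟩
  · have h3 := congrArg Matrix.det hAB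
    rw [Matrix.det_mul, Matrix.det_one] at h3
    exact Int.isUnit_iff.1 (IsUnit.of_mul_eq_one _ h3)
  · intro σ
    ext i j
    rw [Matrix.mul_apply]
    simp only [embMatrix, Matrix.map_apply, Matrix.of_apply, Int.coe_castRingHom]
    rw [hA i, map_sum]
    refine Finset.sum_congr rfl fun k _ => ?_
    rw [map_mul, map_intCast]

theorem abs_det_eq_of_lattice_eq {n : ℕ} {m1 m2 : LatticeBasis n K}
    (h : m1.lattice = m2.lattice) (σ : Fin n ≃ (K →+* ℝ)) :
    |(embMatrix m1 σ).det| = |(embMatrix m2 σ).det| := by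
  obtain ⟨γ, hγ, hE⟩ := exists_gl_of_lattice_eq h
  rw [hE σ, Matrix.det_mul, abs_mul]
  have h1 : (γ.map (Int.castRingHom ℝ)).det = ((γ.det : ℤ) : ℝ) :=
    (RingHom.map_det (Int.castRingHom ℝ) γ).symm
  rw [h1]
  rcases hγ with h | h <;> rw [h] <;> simp

theorem pt_eq_of_lattice_eq {m1 m2 : LatticeBasis (d + 1) K}
    (h : m1.lattice = m2.lattice) (σ : Fin (d + 1) ≃ (K →+* ℝ)) {v : Fin (d + 1) → ℝ}
    (hv : ∀ j, v j ≠ 0) :
    pt (embMatrix m1 σ * Matrix.diagonal v) = pt (embMatrix m2 σ * Matrix.diagonal v) := by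
  obtain ⟨γ, hγ, hE⟩ := exists_gl_of_lattice_eq h
  rw [hE σ, Matrix.mul_assoc]
  refine pt_gl (Nat.succ_pos d) ?_ γ hγ
  rw [Matrix.det_mul, Matrix.det_diagonal]
  exact mul_ne_zero (Emb_71.det_embMatrix_ne_zero m2 σ) (Finset.prod_ne_zero_iff.2 fun j _ => hv j)

theorem Rep.of_lattice_eq {m : LatticeBasis (d + 1) K} {σ : Fin (d + 1) ≃ (K →+* ℝ)}
    {z : ModSpace (d + 1)} {m1 m2 : LatticeBasis (d + 1) K} {v : Fin (d + 1) → ℝ}
    (h : Rep m σ z m1 v) (h12 : m1.lattice = m2.lattice) : Rep m σ z m2 v := by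
  refine ⟨?_, h12 ▸ h.one_mem, fun k y hy hk => h.prim k y (h12 ▸ hy) hk, h.ne, ?_, ?_⟩
  · intro l hl
    obtain ⟨c, hc, N, hN, h1, h2⟩ := h.locHom l hl
    exact ⟨c, hc, N, hN, fun x hx => h1 x (h12 ▸ hx), fun x hx => h12 ▸ h2 x hx⟩
  · rw [← abs_det_eq_of_lattice_eq h12 σ]; exact h.vol
  · rw [← pt_eq_of_lattice_eq h12 σ h.ne]; exact h.eq

/-- sign vector of a set of coordinates. -/
noncomputable def sg (N : Finset (Fin (d + 1))) (j : Fin (d + 1)) : ℝ := if j ∈ N then -1 else 1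

theorem sg_ne (N : Finset (Fin (d + 1))) (j : Fin (d + 1)) : sg N j ≠ 0 := by
  unfold sg; split_ifs <;> norm_num

theorem sg_mul_abs (v : Fin (d + 1) → ℝ) (j : Fin (d + 1)) :
    sg (Finset.univ.filter fun j => v j < 0) j * |v j| = v j := by
  unfold sg
  simp only [Finset.mem_filter, Finset.mem_univ, true_and]
  split_ifs with h
  · rw [abs_of_neg h]; ring
  · rw [abs_of_nonneg (not_lt.1 h)]; ring

/-- diagonal of the flow with the parameters `log|v_j| - mean`. -/
theorem dg_log (v : Fin (d + 1) → ℝ) (hv : ∀ j, v j ≠ 0) (c : ℝ)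
    (hc : (d + 1 : ℝ) * c = ∑ j, Real.log |v j|) (j : Fin (d + 1)) :
    dg (fun i : Fin d => Real.log |v i.castSucc| - c) j = Real.exp (-c) * |v j| := by
  have key : ∀ j, Real.exp (Real.log |v j| - c) = Real.exp (-c) * |v j| := by
    intro j
    rw [sub_eq_add_neg, Real.exp_add, Real.exp_log (abs_pos.2 (hv j)), mul_comm]
  unfold dg
  refine Fin.lastCases ?_ (fun k => ?_) j
  · rw [Fin.snoc_last, ← key]
    congr 1
    rw [Fin.sum_univ_castSucc] at hc
    rw [Finset.sum_sub_distrib, Finset.sum_const, Finset.card_univ, Fintype.card_fin, nsmul_eq_mul]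
    linarith
  · rw [Fin.snoc_castSucc, key]

theorem pt_eq_orbit {E : Matrix (Fin (d + 1)) (Fin (d + 1)) ℝ} (hE : E.det ≠ 0)
    (v : Fin (d + 1) → ℝ) (hv : ∀ j, v j ≠ 0) (c : ℝ)
    (hc : (d + 1 : ℝ) * c = ∑ j, Real.log |v j|) :
    pt (E * Matrix.diagonal v) =
      orbitMap (pt (E * Matrix.diagonal (sg (Finset.univ.filter fun j => v j < 0))))
        (fun i : Fin d => Real.log |v i.castSucc| - c) := by
  have hn : 0 < d + 1 := Nat.succ_pos d
  have h1 : (E * Matrix.diagonal (sg (Finset.univ.filter fun j => v j < 0))).det ≠ 0 := by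
    rw [Matrix.det_mul, Matrix.det_diagonal]
    exact mul_ne_zero hE (Finset.prod_ne_zero_iff.2 fun j _ => sg_ne _ j)
  have h2 : (E * Matrix.diagonal v).det ≠ 0 := by
    rw [Matrix.det_mul, Matrix.det_diagonal]
    exact mul_ne_zero hE (Finset.prod_ne_zero_iff.2 fun j _ => hv j)
  rw [orbitMap, act_pt hn h1, diagFlow_val, Matrix.mul_assoc, Matrix.diagonal_mul_diagonal,
    ← pt_smul hn h2 (Real.exp_pos (-c))]
  congr 1
  rw [← Matrix.mul_smul]
  congr 1
  rw [← Matrix.diagonal_smul]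
  congr 1
  funext j
  rw [dg_log v hv c hc j, Pi.smul_apply, smul_eq_mul]
  conv_lhs => rw [← sg_mul_abs v j]
  ring

open Ms_667 in
/-- `BoxV_71.measure_le` for arbitrary sets `E`, when the boxes are compact. -/
theorem measure_le' {k : ℕ} (x : Fin k → ModSpace (d + 1)) (D : Fin k → Set (Fin d → ℝ))
    (hinj : Function.Injective (fun i => Set.range (orbitMap (x i))))
    (hD : ∀ i, IsAddFundamentalDomain (periods (x i)) (D i) volume)
    {ι : Type*} (s : Finset ι) (y : ι → ModSpace (d + 1)) (B : ι → Set (Fin d → ℝ))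
    (hB : ∀ j, IsCompact (B j)) (E : Set (ModSpace (d + 1)))
    (hcov : ∀ z ∈ E, (∃ i, z ∈ Set.range (orbitMap (x i))) → ∃ j ∈ s, z ∈ orbitMap (y j) '' B j) :
    ((∑ i, volume (D i))⁻¹ •
      Measure.sum (fun i => Measure.map (orbitMap (x i)) (volume.restrict (D i)))) E
      ≤ (∑ i, volume (D i))⁻¹ * ∑ j ∈ s, volume (B j) := by
  have hr : ∀ i, MeasurableSet (Set.range (orbitMap (x i))) := by
    intro i
    have : Set.range (orbitMap (x i)) = ⋃ r : ℕ, orbitMap (x i) '' Metric.closedBall 0 r := by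
      ext z
      simp only [mem_range, mem_iUnion, mem_image]
      constructor
      · rintro ⟨u, rfl⟩
        obtain ⟨r, hr⟩ := exists_nat_ge ‖u‖
        exact ⟨r, u, by simpa using hr, rfl⟩
      · rintro ⟨r, u, -, rfl⟩
        exact ⟨u, rfl⟩
    rw [this]
    exact MeasurableSet.iUnion fun r =>
      ((isCompact_closedBall _ _).image (continuous_orbitMap _)).measurableSet
  have hm : MeasurableSet ((⋃ j ∈ s, orbitMap (y j) '' B j) ∪
      (⋃ i, Set.range (orbitMap (x i)))ᶜ) :=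
    (Finset.measurableSet_biUnion s fun j _ =>
      ((hB j).image (continuous_orbitMap _)).measurableSet).union
      (MeasurableSet.iUnion hr).compl
  refine le_trans (measure_mono ?_) (measure_le x D hinj hD s y B _ hm ?_)
  · intro z hz
    by_cases h : ∃ i, z ∈ Set.range (orbitMap (x i))
    · obtain ⟨j, hj, hzj⟩ := hcov z hz h
      left
      rw [mem_iUnion₂]
      exact ⟨j, hj, hzj⟩
    · right
      simpa using h
  · rintro z (hz | hz) hz'
    · rw [mem_iUnion₂] at hz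
      obtain ⟨j, hj, hzj⟩ := hz
      exact ⟨j, hj, hzj⟩
    · exact absurd (by simpa using hz') hz

end Crest.Agent.R014.Unf_71
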