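import Crest.Agent.R014.Unf1_71

/-!
# Row 14: unfolding bounds for packet measures, arbitrary lattices (helper71), part 2

`IsPk`, `box_le`, `unfold_le` (pairs `(M'', β)`), `unfold_le_one` (lattices only).
-/

set_option autoImplicit false
open MeasureTheory Set Matrix
open Crest Crest.NumberTheoryR Crest.NumberTheoryR.Packets
open scoped ENNReal

namespace Crest.Agent.R014.Unf_71

open BoxV_71 Pt_71 Emb_71 Struct_71

variable {d : ℕ} {K : Type*} [Field K] [NumberField K]

/-- `μ` is the packet measure, presented by data of total mass `V`. -/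
def IsPk (m : LatticeBasis (d + 1) K) (σ : Fin (d + 1) ≃ (K →+* ℝ))
    (μ : Measure (ModSpace (d + 1))) (V : ℝ≥0∞) : Prop :=
  ∃ (k : ℕ) (x : Fin k → ModSpace (d + 1)) (D : Fin k → Set (Fin d → ℝ)),
    Function.Injective (fun i => Set.range (orbitMap (x i))) ∧
    (∀ O, O ∈ packetOrbits m σ ↔ ∃ i, O = Set.range (orbitMap (x i))) ∧
    (∀ i, IsAddFundamentalDomain (periods (x i)) (D i) volume ∧ volume (D i) ≠ 0 ∧
      volume (D i) ≠ ⊤) ∧
    μ = (∑ i, volume (D i))⁻¹ •
      Measure.sum (fun i => Measure.map (orbitMap (x i)) (volume.restrict (D i))) ∧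
    V = ∑ i, volume (D i)

theorem isPacketMeasure_iff {m : LatticeBasis (d + 1) K} {σ : Fin (d + 1) ≃ (K →+* ℝ)}
    {μ : Measure (ModSpace (d + 1))} : IsPacketMeasure m σ μ ↔ ∃ V, IsPk m σ μ V := by
  constructor
  · rintro ⟨k, x, D, h1, h2, h3, h4⟩
    exact ⟨_, k, x, D, h1, h2, h3, h4, rfl⟩
  · rintro ⟨V, k, x, D, h1, h2, h3, h4, -⟩
    exact ⟨k, x, D, h1, h2, h3, h4⟩

/-- **box bound.** -/
theorem box_le {m : LatticeBasis (d + 1) K} {σ : Fin (d + 1) ≃ (K →+* ℝ)}
    {μ : Measure (ModSpace (d + 1))} {V : ℝ≥0∞} (h : IsPk m σ μ V)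
    {κ : Type*} (s : Finset κ) (b : κ → LatticeBasis (d + 1) K) (lo hi : κ → Fin (d + 1) → ℝ)
    (L : ℝ) (hlen : ∀ i ∈ s, (∀ j, lo i j ≤ hi i j) → ∀ j, hi i j - lo i j ≤ L)
    (E : Set (ModSpace (d + 1)))
    (hcov : ∀ z ∈ E, inPk m σ z → ∃ i ∈ s, ∃ v, Rep m σ z (b i) v ∧
      ∀ j, lo i j ≤ Real.log |v j| ∧ Real.log |v j| ≤ hi i j) :
    μ E ≤ V⁻¹ * ENNReal.ofReal (2 ^ (d + 1) * s.card * L ^ d) := by
  classical
  obtain ⟨k, x, D, h1, h2, h3, rfl, rfl⟩ := h
  set c : κ → ℝ := fun i => -Real.log |(embMatrix (b i) σ).det| / (d + 1) with hc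
  set s' : Finset κ := s.filter fun i => ∀ j, lo i j ≤ hi i j with hs'
  set y : κ × Finset (Fin (d + 1)) → ModSpace (d + 1) := fun iN =>
    pt (embMatrix (b iN.1) σ * Matrix.diagonal (sg iN.2)) with hy
  set B : κ × Finset (Fin (d + 1)) → Set (Fin d → ℝ) := fun iN =>
    Set.Icc (fun j : Fin d => lo iN.1 j.castSucc - c iN.1)
      (fun j : Fin d => hi iN.1 j.castSucc - c iN.1) with hB
  refine (measure_le' x D h1 (fun i => (h3 i).1) (s' ×ˢ (Finset.univ : Finset (Finset (Fin (d + 1)))))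
    y B (fun _ => isCompact_Icc) E ?_).trans ?_
  · rintro z hz ⟨i0, hi0⟩
    obtain ⟨i, hi, v, hrep, hv⟩ := hcov z hz ⟨_, (h2 _).2 ⟨i0, rfl⟩, hi0⟩
    refine ⟨(i, Finset.univ.filter fun j => v j < 0), ?_, ?_⟩
    · rw [Finset.mem_product]
      refine ⟨?_, Finset.mem_univ _⟩
      rw [hs', Finset.mem_filter]
      exact ⟨hi, fun j => (hv j).1.trans (hv j).2⟩
    · have hsum : (d + 1 : ℝ) * c i = ∑ j, Real.log |v j| := by
        have hd : (d + 1 : ℝ) ≠ 0 := by positivity
        have h4 := congrArg Real.log hrep.vol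
        rw [Real.log_mul (abs_ne_zero.2 (Emb_71.det_embMatrix_ne_zero _ σ))
          (Finset.prod_ne_zero_iff.2 fun j _ => abs_ne_zero.2 (hrep.ne j)), Real.log_one,
          Real.log_prod (fun j _ => abs_ne_zero.2 (hrep.ne j))] at h4
        rw [hc]
        field_simp
        linarith
      refine ⟨fun j : Fin d => Real.log |v j.castSucc| - c i, ?_, ?_⟩
      · refine ⟨fun j => ?_, fun j => ?_⟩
        · exact sub_le_sub_right (hv j.castSucc).1 _
        · exact sub_le_sub_right (hv j.castSucc).2 _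
      · rw [hrep.eq]
        exact (pt_eq_orbit (Emb_71.det_embMatrix_ne_zero (b i) σ) v hrep.ne (c i) hsum).symm
  · gcongr
    have hvol : ∀ iN ∈ s' ×ˢ (Finset.univ : Finset (Finset (Fin (d + 1)))),
        volume (B iN) ≤ ENNReal.ofReal (L ^ d) := by
      rintro ⟨i, N⟩ hiN
      rw [Finset.mem_product, hs', Finset.mem_filter] at hiN
      obtain ⟨⟨his, hle⟩, -⟩ := hiN
      rw [hB, Real.volume_Icc_pi]
      have hL0 : 0 ≤ L := le_trans (sub_nonneg.2 (hle 0)) (hlen i his hle 0)
      calc ∏ j : Fin d, ENNReal.ofReal (hi i j.castSucc - c i - (lo i j.castSucc - c i))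
          ≤ ∏ _j : Fin d, ENNReal.ofReal L := by
            refine Finset.prod_le_prod' fun j _ => ENNReal.ofReal_le_ofReal ?_
            have := hlen i his hle j.castSucc
            linarith
        _ = ENNReal.ofReal (L ^ d) := by
            rw [Finset.prod_const, Finset.card_univ, Fintype.card_fin, ENNReal.ofReal_pow hL0]
    refine (Finset.sum_le_sum hvol).trans ?_
    rw [Finset.sum_const, Finset.card_product, Finset.card_univ, Fintype.card_finset,
      Fintype.card_fin, nsmul_eq_mul]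
    by_cases hem : s' = ∅
    · rw [hem]; simp
    · obtain ⟨i, hi⟩ := Finset.nonempty_iff_ne_empty.2 hem
      rw [hs', Finset.mem_filter] at hi
      have hL0 : 0 ≤ L := le_trans (sub_nonneg.2 (hi.2 0)) (hlen i hi.1 hi.2 0)
      have hcard : (s'.card : ℝ) ≤ s.card := by
        exact_mod_cast Finset.card_filter_le _ _
      rw [show (((s'.card * 2 ^ (d + 1) : ℕ)) : ℝ≥0∞) =
        ENNReal.ofReal ((s'.card : ℝ) * 2 ^ (d + 1)) by
          rw [← ENNReal.ofReal_natCast]; congr 1; push_cast; ring]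
      rw [← ENNReal.ofReal_mul (by positivity)]
      refine ENNReal.ofReal_le_ofReal ?_
      have : 0 ≤ L ^ d := pow_nonneg hL0 d
      calc (s'.card : ℝ) * 2 ^ (d + 1) * L ^ d = 2 ^ (d + 1) * s'.card * L ^ d := by ring
        _ ≤ 2 ^ (d + 1) * s.card * L ^ d := by gcongr

/-- a basis of the lattice `M` (junk `m` if there is none). -/
noncomputable def basisOf (m : LatticeBasis (d + 1) K) (M : Submodule ℤ K) :
    LatticeBasis (d + 1) K := by
  classical
  exact if h : ∃ m'' : LatticeBasis (d + 1) K, m''.lattice = M then h.choose else m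

theorem basisOf_lattice (m m'' : LatticeBasis (d + 1) K) :
    (basisOf m m''.lattice).lattice = m''.lattice := by
  classical
  have h : ∃ m1 : LatticeBasis (d + 1) K, m1.lattice = m''.lattice := ⟨m'', rfl⟩
  unfold basisOf
  rw [dif_pos h]
  exact h.choose_spec

/-- **unfolding bound with pairs `(M'', β)`.** -/
theorem unfold_le {m : LatticeBasis (d + 1) K} {σ : Fin (d + 1) ≃ (K →+* ℝ)}
    {μ : Measure (ModSpace (d + 1))} {V : ℝ≥0∞} (h : IsPk m σ μ V)
    (P : Finset (Submodule ℤ K × K)) (R W : ℝ) (hR : 1 ≤ R) (hW : 1 ≤ W)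
    (hP : ∀ Mβ ∈ P, 1 ≤ W * ∏ j, |σ j Mβ.2|)
    (E : Set (ModSpace (d + 1)))
    (hcov : ∀ z ∈ E, inPk m σ z → ∃ m'' v β, Rep m σ z m'' v ∧ (m''.lattice, β) ∈ P ∧
      (∀ j, |v j| ≤ R) ∧ ∀ j, |σ j β| ≤ R * |v j|) :
    μ E ≤ V⁻¹ * ENNReal.ofReal (2 ^ (d + 1) * P.card *
      (Real.log W + 2 * (d + 1) * Real.log R) ^ d) := by
  have hR0 : 0 < R := by linarith
  refine box_le h P (fun Mβ => basisOf m Mβ.1) (fun Mβ j => Real.log |σ j Mβ.2| - Real.log R)
    (fun _ _ => Real.log R) _ ?_ E ?_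
  · rintro ⟨M, β⟩ hM hle j
    have h1 := hP _ hM
    have hβ : ∀ j, |σ j β| ≠ 0 := by
      intro j hj
      have : ∏ j, |σ j β| = 0 := Finset.prod_eq_zero (Finset.mem_univ j) hj
      simp only [this, mul_zero] at h1
      linarith
    have h2 := Real.log_le_log one_pos h1
    rw [Real.log_one, Real.log_mul (by linarith) (Finset.prod_ne_zero_iff.2 fun j _ => hβ j),
      Real.log_prod (fun j _ => hβ j)] at h2
    have h3 : ∑ j, (2 * Real.log R - Real.log |σ j β|) =
        2 * (d + 1) * Real.log R - ∑ j, Real.log |σ j β| := by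
      rw [Finset.sum_sub_distrib, Finset.sum_const, Finset.card_univ, Fintype.card_fin,
        nsmul_eq_mul]
      push_cast
      ring
    have h4 : 2 * Real.log R - Real.log |σ j β| ≤ ∑ j, (2 * Real.log R - Real.log |σ j β|) := by
      refine Finset.single_le_sum (f := fun j => 2 * Real.log R - Real.log |σ j β|)
        (fun i _ => ?_) (Finset.mem_univ j)
      have := hle i
      simp only at this ⊢
      linarith
    show Real.log R - (Real.log |σ j β| - Real.log R) ≤ _
    linarith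
  · intro z hz hpk
    obtain ⟨m'', v, β, hrep, hmem, hv, hβ⟩ := hcov z hz hpk
    refine ⟨_, hmem, v, hrep.of_lattice_eq (basisOf_lattice m m'').symm, fun j => ⟨?_, ?_⟩⟩
    · have h1 := hP _ hmem
      have hβ0 : |σ j β| ≠ 0 := by
        intro hj
        have : ∏ j, |σ j β| = 0 := Finset.prod_eq_zero (Finset.mem_univ j) hj
        simp only [this, mul_zero] at h1
        linarith
      have h2 := Real.log_le_log (lt_of_le_of_ne (abs_nonneg _) (Ne.symm hβ0)) (hβ j)
      rw [Real.log_mul hR0.ne' (abs_ne_zero.2 (hrep.ne j))] at h2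
      dsimp only
      linarith
    · exact Real.log_le_log (abs_pos.2 (hrep.ne j)) (hv j)

/-- **unfolding bound with lattices only.** -/
theorem unfold_le_one {m : LatticeBasis (d + 1) K} {σ : Fin (d + 1) ≃ (K →+* ℝ)}
    {μ : Measure (ModSpace (d + 1))} {V : ℝ≥0∞} (h : IsPk m σ μ V)
    (P : Finset (Submodule ℤ K)) (R W : ℝ)
    (E : Set (ModSpace (d + 1)))
    (hcov : ∀ z ∈ E, inPk m σ z → ∃ m'' v, Rep m σ z m'' v ∧ m''.lattice ∈ P ∧
      |(embMatrix m'' σ).det| ≤ W ∧ (∀ j, |v j| ≤ R)) :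
    μ E ≤ V⁻¹ * ENNReal.ofReal (2 ^ (d + 1) * P.card *
      (Real.log W + (d + 1) * Real.log R) ^ d) := by
  classical
  refine box_le h P (fun M => basisOf m M)
    (fun M _ => max (-Real.log |(embMatrix (basisOf m M) σ).det|) (-Real.log W) - d * Real.log R)
    (fun _ _ => Real.log R) _ ?_ E ?_
  · intro M hM hle j
    have h1 := le_max_right (-Real.log |(embMatrix (basisOf m M) σ).det|) (-Real.log W)
    have h2 : Real.log R - (-Real.log W - d * Real.log R) =
      Real.log W + (d + 1) * Real.log R := by ring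
    linarith
  · intro z hz hpk
    obtain ⟨m'', v, hrep, hmem, hW, hv⟩ := hcov z hz hpk
    refine ⟨_, hmem, v, hrep.of_lattice_eq (basisOf_lattice m m'').symm, fun j => ⟨?_, ?_⟩⟩
    · have hdet := abs_det_eq_of_lattice_eq (basisOf_lattice m m'') σ
      have hdet0 : 0 < |(embMatrix m'' σ).det| := abs_pos.2 (Emb_71.det_embMatrix_ne_zero _ σ)
      have h4 := congrArg Real.log hrep.vol
      rw [Real.log_mul hdet0.ne'
          (Finset.prod_ne_zero_iff.2 fun j _ => abs_ne_zero.2 (hrep.ne j)), Real.log_one,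
          Real.log_prod (fun j _ => abs_ne_zero.2 (hrep.ne j))] at h4
      have h5 : ∑ i ∈ Finset.univ.erase j, Real.log |v i| ≤ d * Real.log R := by
        refine (Finset.sum_le_card_nsmul _ _ (Real.log R) fun i _ =>
          Real.log_le_log (abs_pos.2 (hrep.ne i)) (hv i)).trans ?_
        rw [Finset.card_erase_of_mem (Finset.mem_univ j), Finset.card_univ, Fintype.card_fin,
          nsmul_eq_mul]
        simp
      have h6 := Finset.add_sum_erase Finset.univ (fun i => Real.log |v i|) (Finset.mem_univ j)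
      have h7 : Real.log |(embMatrix m'' σ).det| ≤ Real.log W := Real.log_le_log hdet0 hW
      rw [hdet, max_eq_left (neg_le_neg h7)]
      linarith
    · exact Real.log_le_log (abs_pos.2 (hrep.ne j)) (hv j)

end Crest.Agent.R014.Unf_71
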