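import Crest.Agent.R014.Unf2_71
import Crest.Agent.R014.Pk2_349

/-!
# Row 14: arithmetic of the pairs `(M'', β)` (helper71)

`ordSub_le`, `det_le`, `disc_mul_mem` (`D · O^dual ⊆ O`), `norm_ge`.
-/

set_option autoImplicit false
open MeasureTheory Set Matrix
open Crest Crest.NumberTheoryR Crest.NumberTheoryR.Packets
open scoped ENNReal

namespace Crest.Agent.R014.Unf_71

open BoxV_71 Pt_71 Emb_71 Struct_71

variable {d : ℕ} {K : Type*} [Field K] [NumberField K]

theorem mult_eq {n : ℕ} {m m'' : LatticeBasis n K} (h : LocallyHomothetic m m'') :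
    Sl_652.ordSub m'' = Sl_652.ordSub m := by
  unfold Sl_652.ordSub
  rw [Pk2_349.mult_eq_of_lh h]

theorem ordSub_le {n : ℕ} {m m'' : LatticeBasis n K} (h : LocallyHomothetic m m'')
    (h1 : (1 : K) ∈ m''.lattice) : Sl_652.ordSub m ≤ m''.lattice := by
  rw [← mult_eq h]
  intro x hx
  have h2 := Sl_652.mem_ordSub.1 hx
  have h3 := h2 1 h1
  rwa [mul_one] at h3

theorem det_le {n : ℕ} {m m'' : LatticeBasis n K} (σ : Fin n ≃ (K →+* ℝ))
    (h : LocallyHomothetic m m'') (h1 : (1 : K) ∈ m''.lattice) :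
    |(embMatrix m'' σ).det| ≤ Real.sqrt (latticeDisc m) := by
  obtain ⟨o, ho⟩ := Sl_652.order_basis m
  have h2 := Sl_652.abs_det_embMatrix m'' o σ (by rw [ho]; exact ordSub_le h h1)
  have h3 := Sl_652.disc_of_order m o ho σ
  rw [← h3, Real.sqrt_sq_eq_abs, h2]
  have h4 : (0 : ℝ) < |(embMatrix o σ).det| := abs_pos.2 (Emb_71.det_embMatrix_ne_zero o σ)
  rw [h2] at h4
  have h5 : (o.lattice.toAddSubgroup.relIndex m''.lattice.toAddSubgroup) ≠ 0 := by
    intro h0
    rw [h0] at h4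
    simp at h4
  have h6 : (1 : ℝ) ≤ (o.lattice.toAddSubgroup.relIndex m''.lattice.toAddSubgroup : ℝ) := by
    exact_mod_cast Nat.one_le_iff_ne_zero.2 h5
  nlinarith [abs_nonneg (embMatrix m'' σ).det]

/-- `D · O^dual ⊆ O` for a lattice with integral trace form of discriminant `D`. -/
theorem disc_mul_mem {n : ℕ} (o : LatticeBasis n K) (σ : Fin n ≃ (K →+* ℝ))
    (hint : ∀ i k, ∃ z : ℤ, ∑ j, σ j (o.vec i * o.vec k) = z)
    {D : ℕ} (hD : (embMatrix o σ).det ^ 2 = D) {β : K}
    (hβ : ∀ i, ∃ z : ℤ, ∑ j, σ j (β * o.vec i) = z) : (D : K) * β ∈ o.lattice := by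
  choose G hG using hint
  choose t ht using hβ
  set GM : Matrix (Fin n) (Fin n) ℤ := Matrix.of G with hGM
  have hGE : embMatrix o σ * (embMatrix o σ)ᵀ = GM.map (Int.castRingHom ℝ) := by
    ext i k
    rw [Matrix.mul_apply, Matrix.map_apply, hGM, Matrix.of_apply, Int.coe_castRingHom]
    refine Eq.trans ?_ (hG i k)
    refine Finset.sum_congr rfl fun j _ => ?_
    simp only [embMatrix, Matrix.transpose_apply, map_mul]
  have hGdet : (GM.det : ℝ) = D := by
    have h1 : (GM.map (Int.castRingHom ℝ)).det = ((GM.det : ℤ) : ℝ) :=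
      (RingHom.map_det (Int.castRingHom ℝ) GM).symm
    rw [← h1, ← hGE, Matrix.det_mul, Matrix.det_transpose, ← sq, hD]
  have hGdet' : GM.det = (D : ℤ) := by exact_mod_cast hGdet
  set c : Fin n → ℤ := GM.adjugate *ᵥ t with hc
  have hGc : GM *ᵥ c = fun i => (D : ℤ) * t i := by
    rw [hc, Matrix.mulVec_mulVec, Matrix.mul_adjugate, hGdet', Matrix.smul_mulVec,
      Matrix.one_mulVec]
    rfl
  have hEβ : embMatrix o σ *ᵥ (fun j => σ j β) = fun i => (t i : ℝ) := by
    ext i
    rw [← ht i]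
    simp only [Matrix.mulVec, dotProduct, embMatrix, map_mul]
    refine Finset.sum_congr rfl fun j _ => ?_
    ring
  have hkey : (fun j => ((D : ℝ)) * σ j β) = fun j => σ j (∑ i, (c i : K) * o.vec i) := by
    apply eq_of_mulVec o σ
    have h1 : (fun j => σ j (∑ i, (c i : K) * o.vec i)) =
        (embMatrix o σ)ᵀ *ᵥ (fun i => (c i : ℝ)) := by
      ext j
      simp only [Matrix.mulVec, dotProduct, Matrix.transpose_apply, embMatrix, map_sum, map_mul,
        map_intCast]
      refine Finset.sum_congr rfl fun i _ => ?_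
      ring
    rw [h1, Matrix.mulVec_mulVec, hGE]
    have h2 : (GM.map (Int.castRingHom ℝ)) *ᵥ (fun i => (c i : ℝ)) =
        fun i => (D : ℝ) * (t i : ℝ) := by
      ext i
      have h3 := congrFun hGc i
      have h4 := congrArg (fun z : ℤ => (z : ℝ)) h3
      simp only [Matrix.mulVec, dotProduct, Matrix.map_apply, Int.coe_castRingHom] at h4 ⊢
      push_cast at h4
      exact h4
    rw [h2]
    have h5 : (fun j => (D : ℝ) * σ j β) = (D : ℝ) • (fun j => σ j β) := rfl
    rw [h5, Matrix.mulVec_smul, hEβ]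
    rfl
  by_cases hn : n = 0
  · subst hn
    have : Module.finrank ℚ K = 0 := Emb_71.finrank_eq o
    have h0 : 0 < Module.finrank ℚ K := Module.finrank_pos
    omega
  · have j : Fin n := ⟨0, Nat.pos_of_ne_zero hn⟩
    have h6 := congrFun hkey j
    have h7 : (D : K) * β = ∑ i, (c i : K) * o.vec i := by
      apply (σ j).injective
      rw [map_mul, map_natCast]
      exact h6
    rw [h7]
    exact mem_lattice_iff.2 ⟨c, rfl⟩

/-- norms of dual elements are bounded below. -/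
theorem norm_ge {n : ℕ} {m m'' : LatticeBasis n K} (σ : Fin n ≃ (K →+* ℝ))
    (h : LocallyHomothetic m m'') (h1 : (1 : K) ∈ m''.lattice) {β : K}
    (hβ : β ∈ Sl_652.TrDual m''.lattice σ) (hβ0 : β ≠ 0) :
    1 ≤ latticeDisc m ^ n * ∏ j, |σ j β| := by
  obtain ⟨o, ho⟩ := Sl_652.order_basis m
  obtain ⟨D, hD⟩ := Sl_652.latticeDisc_eq_nat m
  have hE := Sl_652.disc_of_order m o ho σ
  have hfin := Emb_71.finrank_eq m
  have hD0 : D ≠ 0 := by
    rintro rfl
    have := Sl_652.latticeDisc_pos m σ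
    rw [hD] at this
    simp at this
  have hoO : ∀ x ∈ o.lattice, x ∈ multiplierOrder m := fun x hx =>
    Sl_652.mem_ordSub.1 (ho ▸ hx)
  have hmem : (D : K) * β ∈ o.lattice := by
    refine disc_mul_mem o σ ?_ (hE.trans hD) ?_
    · intro i k
      have h2 : IsIntegral ℤ (o.vec i * o.vec k) :=
        (Sl_652.order_isIntegral (hoO _ (Sl_652.vec_mem o i))).mul
          (Sl_652.order_isIntegral (hoO _ (Sl_652.vec_mem o k)))
      have h3 : IsIntegral ℤ (Algebra.trace ℚ K (o.vec i * o.vec k)) := Algebra.isIntegral_trace h2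
      obtain ⟨z, hz⟩ := IsIntegrallyClosed.isIntegral_iff.1 h3
      refine ⟨z, ?_⟩
      rw [← Emb_71.trace_eq σ hfin, ← hz]
      simp
    · intro i
      exact hβ _ (ordSub_le h h1 (ho ▸ Sl_652.vec_mem o i))
  have hint : IsIntegral ℤ ((D : K) * β) := Sl_652.order_isIntegral (hoO _ hmem)
  have hnorm : IsIntegral ℤ (Algebra.norm ℚ ((D : K) * β)) := Algebra.isIntegral_norm ℚ hint
  obtain ⟨z, hz⟩ := IsIntegrallyClosed.isIntegral_iff.1 hnorm
  have hne : Algebra.norm ℚ ((D : K) * β) ≠ 0 := by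
    rw [Algebra.norm_ne_zero_iff]
    exact mul_ne_zero (by exact_mod_cast hD0) hβ0
  have hz0 : z ≠ 0 := by
    rintro rfl
    simp only [map_zero] at hz
    exact hne hz.symm
  have h4 : ((Algebra.norm ℚ ((D : K) * β) : ℚ) : ℝ) = ∏ j, σ j ((D : K) * β) :=
    Emb_71.norm_eq σ hfin _
  have h5 : |((z : ℤ) : ℝ)| = latticeDisc m ^ n * ∏ j, |σ j β| := by
    have h6 : ((Algebra.norm ℚ ((D : K) * β) : ℚ) : ℝ) = ((z : ℤ) : ℝ) := by
      rw [← hz]; simp
    rw [← h6, h4, Finset.abs_prod, hD]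
    simp only [map_mul, map_natCast, abs_mul, Nat.abs_cast]
    rw [Finset.prod_mul_distrib, Finset.prod_const, Finset.card_univ, Fintype.card_fin]
  rw [← h5]
  have h7 : (1 : ℤ) ≤ |z| := Int.one_le_abs hz0
  exact_mod_cast h7

end Crest.Agent.R014.Unf_71
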