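import Crest.Agent.R014.Unf3_71
import Crest.Agent.R014.Iface_792

/-!
# Row 14: geometry of section 7 of #3693, and the three final bounds (helper71)

`exists_prim`, `exists_dual_vec` (Minkowski), `slab_disp`;
`InCl`, `Good`, `thin_le`, `good_compl_le`, `slab_le`.
-/

set_option autoImplicit false
open MeasureTheory Set Matrix
open Crest Crest.NumberTheoryR Crest.NumberTheoryR.Packets
open scoped ENNReal

namespace Crest.Agent.R014.Unf_71

open BoxV_71 Pt_71 Emb_71 Struct_71

variable {d : ℕ} {K : Type*} [Field K] [NumberField K]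

/-- dividing an integer vector by its content. -/
theorem exists_prim_of_ne (v : Fin (d + 1) → ℤ) (hv : v ≠ 0) :
    ∃ (p : Fin (d + 1) → ℤ) (k : ℤ), k ≠ 0 ∧ (∀ i, v i = k * p i) ∧
      ∀ k : ℤ, (∀ i, k ∣ p i) → IsUnit k := by
  obtain ⟨p, hp, hg⟩ := Finset.extract_gcd (s := (Finset.univ : Finset (Fin (d + 1)))) v
    ⟨0, Finset.mem_univ _⟩
  refine ⟨p, Finset.univ.gcd v, ?_, fun i => hp i (Finset.mem_univ i), ?_⟩
  · intro h0
    apply hv
    funext i
    rw [hp i (Finset.mem_univ i), h0, zero_mul]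
    rfl
  · intro k hk
    have h1 : k ∣ Finset.univ.gcd p := Finset.dvd_gcd fun i _ => hk i
    rw [hg] at h1
    exact isUnit_of_dvd_one h1

/-- a primitive vector of small sup norm. -/
theorem exists_prim (g : SLR (d + 1)) :
    ∃ p : Fin (d + 1) → ℤ, (∀ k : ℤ, (∀ i, k ∣ p i) → IsUnit k) ∧
      ∀ j, |((fun i => (p i : ℝ)) ᵥ* g.1) j| ≤ 2 := by
  obtain ⟨v, hv, hle⟩ := Ms_667.minkowski_forms g.1 (by rw [g.2, abs_one]) (fun _ => 2)
    (fun _ => by norm_num) (by
      rw [Finset.prod_const, Finset.card_univ, Fintype.card_fin]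
      exact one_lt_pow₀ (by norm_num) (Nat.succ_ne_zero d))
  obtain ⟨p, k, hk, hvp, hp⟩ := exists_prim_of_ne v hv
  refine ⟨p, hp, fun j => ?_⟩
  have h1 : (Ms_667.rv v ᵥ* g.1) j = k * ((fun i => (p i : ℝ)) ᵥ* g.1) j := by
    have h2 : Ms_667.rv v = (k : ℝ) • (fun i => (p i : ℝ)) := by
      funext i
      simp only [Ms_667.rv, hvp i, Pi.smul_apply, smul_eq_mul]
      push_cast
      rfl
    rw [h2, Matrix.smul_vecMul]
    rfl
  have h3 := hle j
  rw [h1, abs_mul] at h3
  have h4 : (1 : ℝ) ≤ |(k : ℝ)| := by exact_mod_cast Int.one_le_abs hk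
  nlinarith [abs_nonneg (((fun i => (p i : ℝ)) ᵥ* g.1) j)]

/-- a nonzero dual vector of small sup norm. -/
theorem exists_dual_vec (g : SLR (d + 1)) :
    ∃ q : Fin (d + 1) → ℤ, q ≠ 0 ∧ ∀ j, |(g⁻¹.1 *ᵥ fun i => (q i : ℝ)) j| ≤ 2 := by
  obtain ⟨v, hv, hle⟩ := Ms_667.minkowski_forms (g⁻¹.1)ᵀ
    (by rw [Matrix.det_transpose, g⁻¹.2, abs_one]) (fun _ => 2)
    (fun _ => by norm_num) (by
      rw [Finset.prod_const, Finset.card_univ, Fintype.card_fin]
      exact one_lt_pow₀ (by norm_num) (Nat.succ_ne_zero d))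
  refine ⟨v, hv, fun j => ?_⟩
  have h1 := hle j
  rw [Matrix.vecMul_transpose] at h1
  exact h1

/-- displacement of the `S`-partial sum. -/
theorem slab_disp {n : ℕ} (h h' : Matrix (Fin n) (Fin n) ℝ) (hh : h * h' = 1)
    (S : Finset (Fin n)) {R η : ℝ} (hη : 0 ≤ η) (hR' : ∀ i j, |h' i j| ≤ R)
    (hcross : ∀ i j, (i ∈ S ↔ j ∉ S) → |h i j| ≤ η) {v w : Fin n → ℝ} {c : ℝ}
    (hv : ∀ j, |v j| ≤ c) (hw : ∀ j, |w j| ≤ c) :
    |∑ j ∈ S, (v ᵥ* h) j * (h' *ᵥ w) j - ∑ j ∈ S, v j * w j| ≤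
      n ^ 3 * c ^ 2 * R * η := by
  classical
  rcases Nat.eq_zero_or_pos n with hn | hn
  · subst hn
    have : S = ∅ := Finset.eq_empty_of_isEmpty S
    subst this
    simp
  have i0 : Fin n := ⟨0, hn⟩
  have hc : 0 ≤ c := (abs_nonneg _).trans (hv i0)
  have hR0 : 0 ≤ R := (abs_nonneg _).trans (hR' i0 i0)
  set a : Fin n → Fin n → ℝ := fun i k => ∑ j ∈ S, h i j * h' j k with ha
  have hδ : ∀ i k, ∑ j, h i j * h' j k = if i = k then 1 else 0 := by
    intro i k
    have := congrFun (congrFun hh i) k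
    rw [Matrix.mul_apply, Matrix.one_apply] at this
    exact this
  have hsum : ∀ (T : Finset (Fin n)) i k, (∀ j ∈ T, |h i j| ≤ η) →
      |∑ j ∈ T, h i j * h' j k| ≤ n * (η * R) := by
    intro T i k hT
    refine (Finset.abs_sum_le_sum_abs _ _).trans ?_
    refine (Finset.sum_le_card_nsmul T _ (η * R) fun j hj => ?_).trans ?_
    · rw [abs_mul]
      exact mul_le_mul (hT j hj) (hR' j k) (abs_nonneg _) hη
    · rw [nsmul_eq_mul]
      have : (T.card : ℝ) ≤ n := by
        have := Finset.card_le_univ T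
        rw [Fintype.card_fin] at this
        exact_mod_cast this
      have h0 : 0 ≤ η * R := mul_nonneg hη hR0
      gcongr
  have hA : ∀ i k, |a i k - (if i ∈ S then (if i = k then 1 else 0) else 0)| ≤ n * (η * R) := by
    intro i k
    by_cases hi : i ∈ S
    · rw [if_pos hi, ← hδ i k]
      have h1 : a i k - ∑ j, h i j * h' j k = -∑ j ∈ Sᶜ, h i j * h' j k := by
        rw [ha, ← Finset.sum_add_sum_compl S (fun j => h i j * h' j k)]
        ring
      rw [h1, abs_neg]
      refine hsum _ i k fun j hj => hcross i j ?_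
      rw [Finset.mem_compl] at hj
      exact ⟨fun _ => hj, fun _ => hi⟩
    · rw [if_neg hi, sub_zero]
      refine hsum _ i k fun j hj => hcross i j ?_
      exact ⟨fun h => absurd h hi, fun h => absurd hj h⟩
  have h1 : ∑ j ∈ S, (v ᵥ* h) j * (h' *ᵥ w) j = ∑ i, ∑ k, v i * a i k * w k := by
    have h2 : ∀ j, (v ᵥ* h) j * (h' *ᵥ w) j = ∑ i, ∑ k, v i * (h i j * h' j k) * w k := by
      intro j
      simp only [Matrix.vecMul, Matrix.mulVec, dotProduct]
      rw [Finset.sum_mul_sum]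
      refine Finset.sum_congr rfl fun i _ => Finset.sum_congr rfl fun k _ => ?_
      ring
    simp only [h2]
    rw [Finset.sum_comm]
    refine Finset.sum_congr rfl fun i _ => ?_
    rw [Finset.sum_comm]
    refine Finset.sum_congr rfl fun k _ => ?_
    rw [ha, ← Finset.sum_mul, ← Finset.mul_sum]
  have h3 : ∑ j ∈ S, v j * w j =
      ∑ i, ∑ k, v i * (if i ∈ S then (if i = k then 1 else 0) else 0) * w k := by
    rw [← Finset.sum_filter_add_sum_filter_not Finset.univ (fun i => i ∈ S)]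
    have h4 : ∑ x with x ∉ S, ∑ k, v x * (if x ∈ S then (if x = k then (1 : ℝ) else 0) else 0)
        * w k = 0 := by
      refine Finset.sum_eq_zero fun i hi => ?_
      rw [Finset.mem_filter] at hi
      simp [hi.2]
    rw [h4, add_zero]
    have h5 : (Finset.univ.filter fun i => i ∈ S) = S := by ext; simp
    rw [h5]
    refine Finset.sum_congr rfl fun i hi => ?_
    simp [hi]
  rw [h1, h3, ← Finset.sum_sub_distrib]
  have h6 : ∀ i, |∑ k, v i * a i k * w k -
      ∑ k, v i * (if i ∈ S then (if i = k then 1 else 0) else 0) * w k| ≤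
      n * (c * (n * (η * R)) * c) := by
    intro i
    rw [← Finset.sum_sub_distrib]
    refine (Finset.abs_sum_le_sum_abs _ _).trans ?_
    refine (Finset.sum_le_card_nsmul _ _ (c * (n * (η * R)) * c) fun k _ => ?_).trans ?_
    · rw [← sub_mul, ← mul_sub, abs_mul, abs_mul]
      have h0 : 0 ≤ (n : ℝ) * (η * R) := by positivity
      exact mul_le_mul (mul_le_mul (hv i) (hA i k) (abs_nonneg _) hc) (hw k) (abs_nonneg _)
        (by positivity)
    · rw [Finset.card_univ, Fintype.card_fin, nsmul_eq_mul]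
  refine (Finset.abs_sum_le_sum_abs _ _).trans ?_
  refine (Finset.sum_le_card_nsmul _ _ _ fun i _ => h6 i).trans ?_
  rw [Finset.card_univ, Fintype.card_fin, nsmul_eq_mul]
  apply le_of_eq
  ring

end Crest.Agent.R014.Unf_71
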