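import Crest.Agent.R014.Sl1_652

/-!
Volume of the packet of an arbitrary lattice (row 14), part 1 (helper834).

Approximation: two nonzero fractional ideals differ, locally at a given integer, by a scalar.
-/

namespace Crest.Agent.R014.Vol1_834

open Crest.NumberTheoryR.Packets Module NumberField
open scoped nonZeroDivisors

variable {K : Type*} [Field K] [NumberField K]

/-- If an ideal is coprime to `f`, so is its norm. -/
theorem coprime_absNorm (A : Ideal (𝓞 K)) (h0 : A ≠ ⊥) (f : ℕ) {a b : 𝓞 K} (ha : a ∈ A)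
    (hab : a + (f : 𝓞 K) * b = 1) : Nat.Coprime (Ideal.absNorm A) f := by
  by_contra hcon
  obtain ⟨p, hp, hpk, hpf⟩ := Nat.Prime.not_coprime_iff_dvd.mp hcon
  have hfin : Finite (𝓞 K ⧸ A) := Ideal.finiteQuotientOfFreeOfNeBot A h0
  have hcard : Ideal.absNorm A = Nat.card (𝓞 K ⧸ A) := by
    rw [Ideal.absNorm_apply, Submodule.cardQuot_apply]
  rw [hcard] at hpk
  have : Fact p.Prime := ⟨hp⟩
  obtain ⟨x, hx⟩ := exists_prime_addOrderOf_dvd_card' (G := 𝓞 K ⧸ A) p hpk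
  obtain ⟨g, rfl⟩ := hpf
  have h1 : (1 : 𝓞 K ⧸ A) = ((p * g : ℕ) : 𝓞 K ⧸ A) * Ideal.Quotient.mk A b := by
    have h2 := congrArg (Ideal.Quotient.mk A) hab
    rw [map_add, map_mul, map_one, Ideal.Quotient.eq_zero_iff_mem.mpr ha, zero_add,
      map_natCast] at h2
    exact h2.symm
  have hpx : (p : 𝓞 K ⧸ A) * x = 0 := by
    have h3 : p • x = 0 := by rw [← hx]; exact addOrderOf_nsmul_eq_zero x
    rwa [nsmul_eq_mul] at h3
  have hx0 : x = 0 := by
    calc x = 1 * x := (one_mul x).symm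
      _ = ((p * g : ℕ) : 𝓞 K ⧸ A) * Ideal.Quotient.mk A b * x := by rw [h1]
      _ = (g : 𝓞 K ⧸ A) * Ideal.Quotient.mk A b * ((p : 𝓞 K ⧸ A) * x) := by push_cast; ring
      _ = 0 := by rw [hpx, mul_zero]
  rw [hx0, addOrderOf_zero] at hx
  exact hp.one_lt.ne hx

/-- For a nonzero ideal `B` and `f ≠ 0` there are `a ∈ B` nonzero and `k` coprime to `f` with
`k B ⊆ a 𝓞`. -/
theorem exists_generator (B : Ideal (𝓞 K)) (hB : B ≠ ⊥) (f : ℕ) (hf : f ≠ 0) :
    ∃ a : 𝓞 K, a ≠ 0 ∧ a ∈ B ∧ ∃ k : ℕ, k ≠ 0 ∧ Nat.Coprime k f ∧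
      ∀ x ∈ B, ∃ y : 𝓞 K, (k : 𝓞 K) * x = a * y := by
  classical
  have hf' : (f : 𝓞 K) ≠ 0 := by exact_mod_cast hf
  set F : Ideal (𝓞 K) := Ideal.span {(f : 𝓞 K)} with hF
  have hF0 : F ≠ ⊥ := by
    rw [hF, Ne, Ideal.span_singleton_eq_bot]; exact hf'
  have hle : F * B ≤ B := Ideal.mul_le_right
  have hFB : F * B ≠ 0 := mul_ne_zero hF0 hB
  obtain ⟨a, ha⟩ : ∃ a : 𝓞 K, a ≠ 0 ∧ F * B ⊔ Ideal.span {a} = B := by
    obtain ⟨a, ha⟩ := IsDedekindDomain.exists_sup_span_eq hle hFB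
    by_cases h0 : a = 0
    · obtain ⟨b, hb, hb0⟩ := Submodule.exists_mem_ne_zero_of_ne_bot hB
      refine ⟨b, hb0, ?_⟩
      rw [h0] at ha
      have hFBB : F * B = B := by simpa using ha
      rw [hFBB]
      exact sup_eq_left.mpr ((Ideal.span_singleton_le_iff_mem B).mpr hb)
    · exact ⟨a, h0, ha⟩
  obtain ⟨ha0, ha⟩ := ha
  have haB : a ∈ B := by
    rw [← ha]; exact Ideal.mem_sup_right (Ideal.mem_span_singleton_self a)
  obtain ⟨A, hA⟩ : B ∣ Ideal.span {a} := Ideal.dvd_span_singleton.mpr haB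
  have hA0 : A ≠ ⊥ := by
    rintro rfl
    rw [Ideal.mul_bot] at hA
    exact ha0 (Ideal.span_singleton_eq_bot.mp hA)
  have hsup : F ⊔ A = ⊤ := by
    have h1 : B * (F ⊔ A) = B * ⊤ := by
      rw [Ideal.mul_sup, ← hA, mul_comm B F, ha, Ideal.mul_top]
    exact mul_left_cancel₀ (hB : B ≠ 0) h1
  have h1 : (1 : 𝓞 K) ∈ F ⊔ A := by rw [hsup]; trivial
  obtain ⟨u, hu, v, hv, huv⟩ := Submodule.mem_sup.mp h1
  obtain ⟨b, hb⟩ := Ideal.mem_span_singleton.mp hu
  have hco : Nat.Coprime (Ideal.absNorm A) f :=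
    coprime_absNorm A hA0 f hv (b := b) (by rw [← hb, add_comm]; exact huv)
  refine ⟨a, ha0, haB, Ideal.absNorm A, ?_, hco, ?_⟩
  · intro h; exact hA0 (Ideal.absNorm_eq_zero_iff.mp h)
  · intro x hx
    have h2 : (Ideal.absNorm A : 𝓞 K) * x ∈ Ideal.span {a} := by
      rw [hA, mul_comm B A]
      exact Ideal.mul_mem_mul (Ideal.absNorm_mem A) hx
    obtain ⟨y, hy⟩ := Ideal.mem_span_singleton.mp h2
    exact ⟨y, hy⟩

/-- Two nonzero fractional ideals (given as `𝓞`-submodules of `K`) agree up to a scalar, locally at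
`f`. -/
theorem exists_scalar (I J : Submodule (𝓞 K) K) (hI : I.FG) (hJ : J.FG) (hI0 : I ≠ ⊥) (hJ0 : J ≠ ⊥)
    (f : ℕ) (hf : f ≠ 0) :
    ∃ c : K, c ≠ 0 ∧ ∃ k : ℕ, k ≠ 0 ∧ Nat.Coprime k f ∧ (∀ x ∈ I, ∃ y ∈ J, x = c * y) ∧
      ∀ y ∈ J, (k : K) * (c * y) ∈ I := by
  classical
  let I' : FractionalIdeal (𝓞 K)⁰ K := ⟨I, FractionalIdeal.isFractional_of_fg hI⟩
  let J' : FractionalIdeal (𝓞 K)⁰ K := ⟨J, FractionalIdeal.isFractional_of_fg hJ⟩
  have hI' : I' ≠ 0 := by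
    intro h
    apply hI0
    have := congrArg (fun A : FractionalIdeal (𝓞 K)⁰ K => (A : Submodule (𝓞 K) K)) h
    simpa [I'] using this
  have hJ' : J' ≠ 0 := by
    intro h
    apply hJ0
    have := congrArg (fun A : FractionalIdeal (𝓞 K)⁰ K => (A : Submodule (𝓞 K) K)) h
    simpa [J'] using this
  obtain ⟨s, B, hs, hB⟩ := FractionalIdeal.exists_eq_spanSingleton_mul (J' * I'⁻¹)
  have hB0 : B ≠ ⊥ := by
    rintro rfl
    rw [FractionalIdeal.coeIdeal_bot, mul_zero] at hB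
    exact mul_ne_zero hJ' (inv_ne_zero hI') hB
  obtain ⟨a, ha0, haB, k, hk0, hkf, hk⟩ := exists_generator B hB0 f hf
  -- J I⁻¹ = s⁻¹ B, a ∈ B, k B ⊆ a 𝓞; c = s / a.
  set s' : K := algebraMap (𝓞 K) K s with hs'
  set a' : K := algebraMap (𝓞 K) K a with ha'
  have hs0 : s' ≠ 0 := by
    rw [hs', Ne, FaithfulSMul.algebraMap_eq_zero_iff]; exact hs
  have ha0' : a' ≠ 0 := by
    rw [ha', Ne, FaithfulSMul.algebraMap_eq_zero_iff]; exact ha0
  have hJ2 : J' = FractionalIdeal.spanSingleton (𝓞 K)⁰ s'⁻¹ * (B : FractionalIdeal (𝓞 K)⁰ K) * I' := by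
    rw [← hB, mul_assoc, inv_mul_cancel₀ hI', mul_one]
  refine ⟨s' / a', div_ne_zero hs0 ha0', k, hk0, hkf, ?_, ?_⟩
  · intro x hx
    refine ⟨a' / s' * x, ?_, ?_⟩
    · have h1 : a' / s' * x ∈ J' := by
        rw [hJ2, mul_assoc, FractionalIdeal.mem_singleton_mul]
        refine ⟨a' * x, FractionalIdeal.mul_mem_mul (FractionalIdeal.mem_coeIdeal_of_mem _ haB) hx, ?_⟩
        rw [div_eq_inv_mul]; ring
      exact h1
    · field_simp
  · intro y hy
    have h1 : y ∈ J' := hy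
    rw [hJ2, mul_assoc, FractionalIdeal.mem_singleton_mul] at h1
    obtain ⟨z, hz, rfl⟩ := h1
    have h2 : (k : K) * a'⁻¹ * z ∈ I' := by
      refine FractionalIdeal.mul_induction_on hz ?_ ?_
      · rintro b' hb' w hw
        obtain ⟨b, hb, rfl⟩ := (FractionalIdeal.mem_coeIdeal _).mp hb'
        obtain ⟨t, ht⟩ := hk b hb
        have h3 : (k : K) * a'⁻¹ * (algebraMap (𝓞 K) K b * w) = algebraMap (𝓞 K) K t * w := by
          have h4 : (k : K) * algebraMap (𝓞 K) K b = a' * algebraMap (𝓞 K) K t := by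
            have := congrArg (algebraMap (𝓞 K) K) ht
            simpa using this
          calc (k : K) * a'⁻¹ * (algebraMap (𝓞 K) K b * w)
              = a'⁻¹ * ((k : K) * algebraMap (𝓞 K) K b) * w := by ring
            _ = a'⁻¹ * (a' * algebraMap (𝓞 K) K t) * w := by rw [h4]
            _ = algebraMap (𝓞 K) K t * w := by rw [inv_mul_cancel_left₀ ha0']
        rw [h3, ← Algebra.smul_def]
        exact I.smul_mem t hw
      · intro x y hx hy
        rw [mul_add]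
        exact I.add_mem hx hy
    have h5 : (k : K) * (s' / a' * (s'⁻¹ * z)) = (k : K) * a'⁻¹ * z := by
      field_simp
    rw [h5]
    exact h2

end Crest.Agent.R014.Vol1_834
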