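import Crest.Agent.R014.Vol1_834

/-!
Volume of the packet of an arbitrary lattice (row 14), part 2 (helper834).

Lattices locally homothetic to `M` lying over a given fractional ideal.
-/

namespace Crest.Agent.R014.Vol2_834

open Crest.NumberTheoryR.Packets Module NumberField Vol1_834
open scoped nonZeroDivisors

set_option linter.unusedSectionVars false
set_option linter.unusedVariables false

variable {K : Type*} [Field K] [NumberField K]

/-- Local homothety of subgroups of `K`. -/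
def LocHom (A B : Submodule ℤ K) : Prop :=
  ∀ ℓ : ℕ, ℓ.Prime → ∃ c : K, c ≠ 0 ∧ ∃ N : ℕ, ¬ ℓ ∣ N ∧
    (∀ x ∈ B, ∃ y ∈ A, (N : K) * x = c * y) ∧ (∀ x ∈ A, (N : K) * (c * x) ∈ B)

theorem locHom_iff {n : ℕ} (m m' : LatticeBasis n K) :
    LocallyHomothetic m m' ↔ LocHom m.lattice m'.lattice := Iff.rfl

theorem nat_mul_mem {A : Submodule ℤ K} {x : K} (k : ℕ) (hx : x ∈ A) : (k : K) * x ∈ A := by
  have := A.smul_mem (k : ℤ) hx
  rwa [zsmul_eq_mul, Int.cast_natCast] at this

theorem LocHom.trans {A B C : Submodule ℤ K} (h1 : LocHom A B) (h2 : LocHom B C) : LocHom A C := by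
  intro ℓ hℓ
  obtain ⟨c, hc, N, hN, h3, h4⟩ := h1 ℓ hℓ
  obtain ⟨c', hc', N', hN', h5, h6⟩ := h2 ℓ hℓ
  refine ⟨c' * c, mul_ne_zero hc' hc, N * N', ?_, ?_, ?_⟩
  · intro h
    rcases hℓ.dvd_mul.mp h with h | h
    · exact hN h
    · exact hN' h
  · intro x hx
    obtain ⟨y, hy, e1⟩ := h5 x hx
    obtain ⟨z, hz, e2⟩ := h3 y hy
    refine ⟨z, hz, ?_⟩
    push_cast
    calc (N : K) * N' * x = N * (N' * x) := by ring
      _ = N * (c' * y) := by rw [e1]
      _ = c' * (N * y) := by ring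
      _ = c' * c * z := by rw [e2]; ring
  · intro x hx
    have := h6 _ (h4 x hx)
    convert this using 1
    push_cast; ring

theorem LocHom.symm {A B : Submodule ℤ K} (h : LocHom A B) : LocHom B A := by
  intro ℓ hℓ
  obtain ⟨c, hc, N, hN, h3, h4⟩ := h ℓ hℓ
  have hN0 : (N : K) ≠ 0 := by
    intro h0
    apply hN
    rw [Nat.cast_eq_zero.mp h0]
    exact dvd_zero ℓ
  refine ⟨c⁻¹, inv_ne_zero hc, N, hN, ?_, ?_⟩
  · intro x hx
    refine ⟨(N : K) * (c * x), h4 x hx, ?_⟩
    field_simp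
  · intro x hx
    obtain ⟨y, hy, e⟩ := h3 x hx
    have : (N : K) * (c⁻¹ * x) = y := by
      calc (N : K) * (c⁻¹ * x) = c⁻¹ * (N * x) := by ring
        _ = c⁻¹ * (c * y) := by rw [e]
        _ = y := inv_mul_cancel_left₀ hc y
    rw [this]; exact hy

/-- If for each prime some multiple prime to it lies in `A`, the element lies in `A`. -/
theorem mem_of_local {A : Submodule ℤ K} {z : K}
    (h : ∀ ℓ : ℕ, ℓ.Prime → ∃ N : ℕ, ¬ ℓ ∣ N ∧ (N : K) * z ∈ A) : z ∈ A := by
  classical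
  -- the least positive multiple
  have hex : ∃ N : ℕ, N ≠ 0 ∧ (N : K) * z ∈ A := by
    obtain ⟨N, hN, h1⟩ := h 2 Nat.prime_two
    exact ⟨N, fun h0 => hN (h0 ▸ dvd_zero 2), h1⟩
  set g := Nat.find hex with hg
  obtain ⟨hg0, hg1⟩ := Nat.find_spec hex
  rw [← hg] at hg0 hg1
  have hdiv : ∀ N : ℕ, (N : K) * z ∈ A → g ∣ N := by
    intro N hN
    by_contra hnd
    have hlt : N % g < g := Nat.mod_lt _ (Nat.pos_of_ne_zero hg0)
    have hne : N % g ≠ 0 := fun h0 => hnd (Nat.dvd_of_mod_eq_zero h0)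
    refine Nat.find_min hex (m := N % g) (by rw [← hg]; exact hlt) ⟨hne, ?_⟩
    have e : ((N % g : ℕ) : K) * z = (N : K) * z - ((N / g : ℕ) : K) * ((g : K) * z) := by
      have h2 : (N : K) = ((N % g : ℕ) : K) + (g : K) * ((N / g : ℕ) : K) := by
        exact_mod_cast (Nat.mod_add_div N g).symm
      rw [h2]; ring
    rw [e]
    exact A.sub_mem hN (nat_mul_mem _ hg1)
  have hg' : g = 1 := by
    by_contra hne
    obtain ⟨ℓ, hℓ, hℓg⟩ := Nat.exists_prime_and_dvd hne
    obtain ⟨N, hN, h1⟩ := h ℓ hℓ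
    exact hN (hℓg.trans (hdiv N h1))
  rw [hg', Nat.cast_one, one_mul] at hg1
  exact hg1

/-- The multiplier ring is an invariant of local homothety. -/
theorem mult_of_locHom {A B : Submodule ℤ K} (h : LocHom A B) {a : K}
    (ha : ∀ y ∈ B, a * y ∈ B) : ∀ x ∈ A, a * x ∈ A := by
  intro x hx
  refine mem_of_local fun ℓ hℓ => ?_
  obtain ⟨c, hc, N, hN, h3, h4⟩ := h ℓ hℓ
  refine ⟨N * N, fun hd => ?_, ?_⟩
  · rcases hℓ.dvd_mul.mp hd with h | h
    · exact hN h
    · exact hN h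
  · obtain ⟨y, hy, e⟩ := h3 _ (ha _ (h4 x hx))
    have : ((N * N : ℕ) : K) * (a * x) = y := by
      have h5 : c * (((N * N : ℕ) : K) * (a * x)) = c * y := by
        rw [← e]; push_cast; ring
      exact mul_left_cancel₀ hc h5
    rw [this]; exact hy

/-- The data of a lattice between `f I` and `I`. -/
structure Over (f : ℕ) (I : Submodule (𝓞 K) K) (N : Submodule ℤ K) : Prop where
  le : ∀ x ∈ N, x ∈ I
  ge : ∀ x ∈ I, (f : K) * x ∈ N
  span : Submodule.span (𝓞 K) (N : Set K) = I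

/-- Base point of the fibre over `I`. -/
theorem base_point (M : Submodule ℤ K) (f : ℕ) (hf : f ≠ 0) (J : Submodule (𝓞 K) K)
    (hMJ : Over f J M) (hJ : J.FG) (hJ0 : J ≠ ⊥) (I : Submodule (𝓞 K) K) (hI : I.FG)
    (hI0 : I ≠ ⊥) : ∃ N : Submodule ℤ K, LocHom M N ∧ Over f I N := by
  obtain ⟨c, hc, k, hk0, hkf, h1, h2⟩ := exists_scalar I J hI hJ hI0 hJ0 f hf
  -- N = c M ∩ I
  let N : Submodule ℤ K :=
    M.map (LinearMap.mulLeft ℤ c) ⊓ I.restrictScalars ℤ
  have hN : ∀ x, x ∈ N ↔ (∃ y ∈ M, c * y = x) ∧ x ∈ I := by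
    intro x
    simp only [N, Submodule.mem_inf, Submodule.mem_map, LinearMap.mulLeft_apply,
      Submodule.restrictScalars_mem]
  have hge : ∀ x ∈ I, (f : K) * x ∈ N := by
    intro x hx
    rw [hN]
    obtain ⟨y, hy, rfl⟩ := h1 x hx
    refine ⟨⟨(f : K) * y, hMJ.ge y hy, by ring⟩, ?_⟩
    have := I.smul_mem (f : 𝓞 K) hx
    rwa [Algebra.smul_def, map_natCast] at this
  have hkM : ∀ y ∈ M, (k : K) * (c * y) ∈ N := by
    intro y hy
    rw [hN]
    exact ⟨⟨(k : K) * y, nat_mul_mem k hy, by ring⟩, h2 y (hMJ.le y hy)⟩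
  refine ⟨N, ?_, ⟨fun x hx => ((hN x).mp hx).2, hge, ?_⟩⟩
  · intro ℓ hℓ
    by_cases hd : ℓ ∣ f
    · refine ⟨c, hc, k, fun hk => ?_, ?_, hkM⟩
      · have := Nat.dvd_gcd hk hd
        rw [Nat.Coprime.gcd_eq_one hkf] at this
        exact hℓ.one_lt.ne' (Nat.dvd_one.mp this)
      · intro x hx
        obtain ⟨⟨y, hy, rfl⟩, _⟩ := (hN x).mp hx
        exact ⟨(k : K) * y, nat_mul_mem k hy, by ring⟩
    · obtain ⟨c', hc', k', hk'0, hkf', h1', h2'⟩ := exists_scalar I J hI hJ hI0 hJ0 ℓ hℓ.ne_zero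
      refine ⟨c', hc', f * k', fun h => ?_, ?_, ?_⟩
      · rcases hℓ.dvd_mul.mp h with h | h
        · exact hd h
        · have := Nat.dvd_gcd h (dvd_refl ℓ)
          rw [Nat.Coprime.gcd_eq_one hkf'] at this
          exact hℓ.one_lt.ne' (Nat.dvd_one.mp this)
      · intro x hx
        obtain ⟨y, hy, rfl⟩ := h1' x ((hN x).mp hx).2
        refine ⟨(k' : K) * ((f : K) * y), nat_mul_mem k' (hMJ.ge y hy), ?_⟩
        push_cast; ring
      · intro x hx
        have := hge _ (h2' x (hMJ.le x hx))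
        convert this using 1
        push_cast; ring
  · refine le_antisymm (Submodule.span_le.mpr fun x hx => ((hN x).mp hx).2) fun x hx => ?_
    -- 1 = α f + β k
    have hbez : ∃ α β : ℤ, α * f + β * k = 1 := by
      have h3 : IsCoprime (f : ℤ) (k : ℤ) := Nat.isCoprime_iff_coprime.mpr hkf.symm
      exact h3
    obtain ⟨α, β, hab⟩ := hbez
    have e : x = (α : 𝓞 K) • ((f : K) * x) + (β : 𝓞 K) • ((k : K) * x) := by
      rw [Algebra.smul_def, Algebra.smul_def, map_intCast, map_intCast]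
      have h4 : (α : K) * f + β * k = 1 := by exact_mod_cast hab
      linear_combination (-x) * h4
    rw [e]
    refine Submodule.add_mem _ (Submodule.smul_mem _ _ (Submodule.subset_span (hge x hx)))
      (Submodule.smul_mem _ _ ?_)
    -- k x ∈ span N
    obtain ⟨y, hy, rfl⟩ := h1 x hx
    have key : ∀ y ∈ Submodule.span (𝓞 K) (M : Set K),
        (k : K) * (c * y) ∈ Submodule.span (𝓞 K) (N : Set K) := by
      intro y hy
      induction hy using Submodule.span_induction with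
      | mem y hy => exact Submodule.subset_span (hkM y hy)
      | zero => simp
      | add a b _ _ ha hb =>
        have e1 : (k : K) * (c * (a + b)) = (k : K) * (c * a) + (k : K) * (c * b) := by ring
        rw [e1]
        exact Submodule.add_mem _ ha hb
      | smul r a _ ha =>
        have e1 : (k : K) * (c * (r • a)) = r • ((k : K) * (c * a)) := by
          rw [Algebra.smul_def, Algebra.smul_def]; ring
        rw [e1]
        exact Submodule.smul_mem _ _ ha
    exact key y (by rw [hMJ.span]; exact hy)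

/-- The twist of `N` by `u`. -/
def twist (f : ℕ) (I : Submodule (𝓞 K) K) (N : Submodule ℤ K) (u : 𝓞 K) : Submodule ℤ K :=
  N.map (LinearMap.mulLeft ℤ (u : K)) ⊔
    (I.restrictScalars ℤ).map (LinearMap.mulLeft ℤ (f : K))

theorem mem_twist {f : ℕ} {I : Submodule (𝓞 K) K} {N : Submodule ℤ K} {u : 𝓞 K} {x : K} :
    x ∈ twist f I N u ↔ ∃ y ∈ N, ∃ z ∈ I, (u : K) * y + (f : K) * z = x := by
  simp only [twist, Submodule.mem_sup, Submodule.mem_map, LinearMap.mulLeft_apply,
    Submodule.restrictScalars_mem]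
  constructor
  · rintro ⟨_, ⟨y, hy, rfl⟩, _, ⟨z, hz, rfl⟩, rfl⟩
    exact ⟨y, hy, z, hz, rfl⟩
  · rintro ⟨y, hy, z, hz, rfl⟩
    exact ⟨_, ⟨y, hy, rfl⟩, _, ⟨z, hz, rfl⟩, rfl⟩

theorem coe_mul_mem {I : Submodule (𝓞 K) K} (r : 𝓞 K) {x : K} (hx : x ∈ I) : (r : K) * x ∈ I := by
  have := I.smul_mem r hx
  rwa [Algebra.smul_def] at this

theorem twist_over {f : ℕ} {I : Submodule (𝓞 K) K} {N : Submodule ℤ K} (h : Over f I N)
    {u v w : 𝓞 K} (huv : u * v + (f : 𝓞 K) * w = 1) : Over f I (twist f I N u) := by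
  have hge : ∀ x ∈ I, (f : K) * x ∈ twist f I N u := fun x hx =>
    mem_twist.mpr ⟨0, N.zero_mem, x, hx, by ring⟩
  have hle : ∀ x ∈ twist f I N u, x ∈ I := by
    intro x hx
    obtain ⟨y, hy, z, hz, rfl⟩ := mem_twist.mp hx
    refine I.add_mem (coe_mul_mem u (h.le y hy)) ?_
    have := coe_mul_mem (f : 𝓞 K) hz
    simpa using this
  refine ⟨hle, hge, le_antisymm (Submodule.span_le.mpr hle) fun x hx => ?_⟩
  have key : ∀ y ∈ Submodule.span (𝓞 K) (N : Set K),
      (u : K) * y ∈ Submodule.span (𝓞 K) (twist f I N u : Set K) := by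
    intro y hy
    induction hy using Submodule.span_induction with
    | mem y hy =>
      exact Submodule.subset_span (mem_twist.mpr ⟨y, hy, 0, I.zero_mem, by ring⟩)
    | zero => simp
    | add a b _ _ ha hb => rw [mul_add]; exact Submodule.add_mem _ ha hb
    | smul r a _ ha =>
      rw [mul_smul_comm]; exact Submodule.smul_mem _ _ ha
  have e : x = v • ((u : K) * x) + w • ((f : K) * x) := by
    rw [Algebra.smul_def, Algebra.smul_def]
    have h4 : (u : K) * v + f * w = 1 := by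
      have := congrArg (algebraMap (𝓞 K) K) huv
      simpa using this
    linear_combination (-x) * h4
  rw [e]
  refine Submodule.add_mem _ (Submodule.smul_mem _ _ (key x ?_))
    (Submodule.smul_mem _ _ (Submodule.subset_span (hge x hx)))
  rw [h.span]; exact hx

/-- The norm of an element of `𝓞 K` is a multiple of it, and is prime to `f` with it. -/
theorem exists_norm {f : ℕ} {u v w : 𝓞 K} (huv : u * v + (f : 𝓞 K) * w = 1) (hu : u ≠ 0) :
    ∃ k : ℕ, Nat.Coprime k f ∧ ∃ t : 𝓞 K, (k : 𝓞 K) = u * t := by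
  refine ⟨Ideal.absNorm (Ideal.span {u}), ?_, ?_⟩
  · refine coprime_absNorm _ (by rw [Ne, Ideal.span_singleton_eq_bot]; exact hu) f
      (a := u * v) (b := w) (Ideal.mul_mem_right _ _ (Ideal.mem_span_singleton_self u)) huv
  · exact Ideal.mem_span_singleton.mp (Ideal.absNorm_mem _)

theorem twist_locHom {f : ℕ} (hf : f ≠ 0) {I : Submodule (𝓞 K) K} {N : Submodule ℤ K}
    (h : Over f I N) {u v w : 𝓞 K} (huv : u * v + (f : 𝓞 K) * w = 1) (hu : u ≠ 0) :
    LocHom N (twist f I N u) := by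
  obtain ⟨k, hkf, t, ht⟩ := exists_norm huv hu
  have hov := twist_over h huv
  intro ℓ hℓ
  by_cases hd : ℓ ∣ f
  · refine ⟨(u : K), by simpa using hu, k, fun hk => ?_, ?_, ?_⟩
    · have := Nat.dvd_gcd hk hd
      rw [Nat.Coprime.gcd_eq_one hkf] at this
      exact hℓ.one_lt.ne' (Nat.dvd_one.mp this)
    · intro x hx
      obtain ⟨y, hy, z, hz, rfl⟩ := mem_twist.mp hx
      refine ⟨(k : K) * y + (f : K) * ((t : K) * z), N.add_mem (nat_mul_mem k hy)
        (h.ge _ (coe_mul_mem t hz)), ?_⟩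
      have h5 : (k : K) = u * t := by
        have := congrArg (algebraMap (𝓞 K) K) ht
        simpa using this
      rw [mul_add, mul_add]
      have : (k : K) * ((f : K) * z) = (u : K) * ((f : K) * ((t : K) * z)) := by
        rw [h5]; ring
      rw [this]; ring
    · intro y hy
      exact nat_mul_mem k (mem_twist.mpr ⟨y, hy, 0, I.zero_mem, by ring⟩)
  · refine ⟨1, one_ne_zero, f, hd, fun x hx => ⟨(f : K) * x, h.ge x (hov.le x hx), by ring⟩,
      fun x hx => ?_⟩
    rw [one_mul]; exact hov.ge x (h.le x hx)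

/-- Twists with the same value differ by a multiplier. -/
theorem twist_inj {f : ℕ} {I : Submodule (𝓞 K) K} {N : Submodule ℤ K}
    (h : Over f I N) {u u' v w : 𝓞 K} (huv : u * v + (f : 𝓞 K) * w = 1)
    (heq : twist f I N u = twist f I N u') : ∀ y ∈ N, ((v * u' : 𝓞 K) : K) * y ∈ N := by
  intro y hy
  have h1 : (u' : K) * y ∈ twist f I N u := by
    rw [heq]; exact mem_twist.mpr ⟨y, hy, 0, I.zero_mem, by ring⟩
  obtain ⟨y1, hy1, z, hz, e⟩ := mem_twist.mp h1
  have h4 : (u : K) * v + f * w = 1 := by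
    have := congrArg (algebraMap (𝓞 K) K) huv
    simpa using this
  have e2 : ((v * u' : 𝓞 K) : K) * y = y1 - (f : K) * ((w : K) * y1) + (f : K) * ((v : K) * z) := by
    push_cast
    calc (v : K) * u' * y = v * (u' * y) := by ring
      _ = v * (u * y1 + f * z) := by rw [e]
      _ = _ := by linear_combination y1 * h4
  rw [e2]
  exact N.add_mem (N.sub_mem hy1 (h.ge _ (coe_mul_mem w (h.le y1 hy1))))
    (h.ge _ (coe_mul_mem v hz))

/-- Twists depend only on the class modulo `f`. -/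
theorem twist_congr {f : ℕ} {I : Submodule (𝓞 K) K} {N : Submodule ℤ K}
    (h : Over f I N) {u u' : 𝓞 K} {w : 𝓞 K} (huu : u' = u + (f : 𝓞 K) * w) :
    twist f I N u = twist f I N u' := by
  have hK : (u' : K) = u + f * w := by
    have := congrArg (algebraMap (𝓞 K) K) huu
    simpa using this
  ext x
  rw [mem_twist, mem_twist]
  constructor
  · rintro ⟨y, hy, z, hz, rfl⟩
    refine ⟨y, hy, z - (w : K) * y, I.sub_mem hz (coe_mul_mem w (h.le y hy)), ?_⟩
    rw [hK]; ring
  · rintro ⟨y, hy, z, hz, rfl⟩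
    refine ⟨y, hy, z + (w : K) * y, I.add_mem hz (coe_mul_mem w (h.le y hy)), ?_⟩
    rw [hK]; ring

end Crest.Agent.R014.Vol2_834
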