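import Crest.Agent.R014.Vol2_834

/-!
Volume of the packet of an arbitrary lattice (row 14), part 3 (helper834).

Number of lattices locally homothetic to `M` over a given fractional ideal.
-/

namespace Crest.Agent.R014.Vol3_834

open Crest.NumberTheoryR.Packets Module NumberField Vol1_834 Vol2_834
open scoped nonZeroDivisors

set_option linter.unusedSectionVars false
set_option linter.unusedVariables false

variable {K : Type*} [Field K] [NumberField K] {n : ℕ}

/-- The index of the multiplier order in the ring of integers. -/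
noncomputable def fIdx (m : LatticeBasis n K) : ℕ :=
  (multiplierOrder m).relIndex (integralClosure ℤ K).toSubring.toAddSubgroup

theorem latticeDisc_eq (m : LatticeBasis n K) :
    latticeDisc m = |(NumberField.discr K : ℝ)| * (fIdx m : ℝ) ^ 2 := rfl

theorem fIdx_ne_zero (m : LatticeBasis n K) (σ : Fin n ≃ (K →+* ℝ)) : fIdx m ≠ 0 := by
  intro h
  have := Sl_652.latticeDisc_pos m σ
  rw [latticeDisc_eq, h] at this
  simp at this

theorem fIdx_mul_mem (m : LatticeBasis n K) {x : K} (hx : IsIntegral ℤ x) :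
    (fIdx m : K) * x ∈ multiplierOrder m := by
  have h : (multiplierOrder m).addSubgroupOf (integralClosure ℤ K).toSubring.toAddSubgroup
      = (multiplierOrder m).addSubgroupOf (integralClosure ℤ K).toSubring.toAddSubgroup := rfl
  have h1 := AddSubgroup.nsmul_index_mem
    ((multiplierOrder m).addSubgroupOf (integralClosure ℤ K).toSubring.toAddSubgroup)
    (⟨x, hx⟩ : (integralClosure ℤ K).toSubring.toAddSubgroup)
  rw [AddSubgroup.mem_addSubgroupOf] at h1
  have h2 : (((multiplierOrder m).addSubgroupOf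
      (integralClosure ℤ K).toSubring.toAddSubgroup).index •
      (⟨x, hx⟩ : (integralClosure ℤ K).toSubring.toAddSubgroup) : K) = (fIdx m : K) * x := by
    rw [nsmul_eq_mul]; rfl
  rw [← h2]
  exact h1

theorem fIdx_mul_mem' (m : LatticeBasis n K) (x : 𝓞 K) :
    (fIdx m : K) * (x : K) ∈ multiplierOrder m :=
  fIdx_mul_mem m (RingOfIntegers.isIntegral_coe x)

/-- The 𝓞-span of a lattice. -/
noncomputable def spanO (M : Submodule ℤ K) : Submodule (𝓞 K) K := Submodule.span (𝓞 K) (M : Set K)

theorem spanO_fg {M : Submodule ℤ K} (h : M.FG) : (spanO M).FG := by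
  obtain ⟨s, hs⟩ := h
  refine ⟨s, ?_⟩
  apply le_antisymm
  · exact Submodule.span_mono (by rw [← hs]; exact Submodule.subset_span)
  · refine Submodule.span_le.mpr ?_
    intro x hx
    rw [← hs] at hx
    have : x ∈ Submodule.span ℤ (s : Set K) := hx
    exact Submodule.span_le_restrictScalars ℤ (𝓞 K) _ this

theorem spanO_over (m : LatticeBasis n K) : Over (fIdx m) (spanO m.lattice) m.lattice := by
  refine ⟨fun x hx => Submodule.subset_span hx, fun x hx => ?_, rfl⟩
  unfold spanO at hx
  induction hx using Submodule.span_induction with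
  | mem y hy => exact nat_mul_mem _ hy
  | zero => simp
  | add a b _ _ ha hb => rw [mul_add]; exact m.lattice.add_mem ha hb
  | smul r a ha hi =>
    -- f (r a) ∈ M for a in the span: induct again
    have key : ∀ a ∈ Submodule.span (𝓞 K) (m.lattice : Set K), ∀ r : 𝓞 K,
        (fIdx m : K) * ((r : K) * a) ∈ m.lattice := by
      intro a ha
      induction ha using Submodule.span_induction with
      | mem y hy =>
        intro r
        rw [← mul_assoc]
        exact fIdx_mul_mem' m r y hy
      | zero => intro r; simp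
      | add a b _ _ ha hb => intro r; rw [mul_add, mul_add]; exact m.lattice.add_mem (ha r) (hb r)
      | smul s a _ ha =>
        intro r
        have := ha (r * s)
        rw [Algebra.smul_def]
        convert this using 1
        push_cast; ring
    rw [Algebra.smul_def]
    exact key a ha r

theorem spanO_ne_bot (m : LatticeBasis n K) : spanO m.lattice ≠ ⊥ := by
  intro h
  have h0 : m.vec ⟨0, Sl_652.n_pos m⟩ ∈ spanO m.lattice :=
    Submodule.subset_span (Sl_652.vec_mem m _)
  rw [h, Submodule.mem_bot] at h0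
  exact Sl_652.vec_ne_zero m _ h0

/-- The multiplier order inside `𝓞 K`. -/
def ordO (m : LatticeBasis n K) : AddSubgroup (𝓞 K) :=
  (multiplierOrder m).comap (algebraMap (𝓞 K) K).toAddMonoidHom

theorem mem_ordO {m : LatticeBasis n K} {x : 𝓞 K} : x ∈ ordO m ↔ (x : K) ∈ multiplierOrder m :=
  Iff.rfl

theorem index_ordO (m : LatticeBasis n K) : (ordO m).index = fIdx m := by
  unfold ordO
  rw [AddSubgroup.index_comap]
  unfold fIdx
  congr 1
  ext x
  constructor
  · rintro ⟨y, rfl⟩
    exact RingOfIntegers.isIntegral_coe y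
  · intro hx
    exact ⟨⟨x, hx⟩, rfl⟩

/-- The residue ring modulo `f`. -/
abbrev RR (K : Type*) [Field K] [NumberField K] (f : ℕ) : Type _ :=
  𝓞 K ⧸ (Ideal.span {(f : 𝓞 K)} : Ideal (𝓞 K))

theorem card_RR (hn : finrank ℚ K = n) (f : ℕ) : Nat.card (RR K f) = f ^ n := by
  have h := AddSubgroup.index_range_nsmul (𝓞 K) f
  rw [RingOfIntegers.rank, hn] at h
  rw [← h, AddSubgroup.index]
  have : (nsmulAddMonoidHom (α := 𝓞 K) f).range =
      (Ideal.span {(f : 𝓞 K)} : Ideal (𝓞 K)).toAddSubgroup := by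
    ext x
    constructor
    · rintro ⟨y, rfl⟩
      show _ ∈ Ideal.span {(f : 𝓞 K)}
      rw [Ideal.mem_span_singleton]
      exact ⟨y, by simp [nsmul_eq_mul]⟩
    · intro hx
      have hx' : x ∈ Ideal.span {(f : 𝓞 K)} := hx
      rw [Ideal.mem_span_singleton] at hx'
      obtain ⟨y, rfl⟩ := hx'
      exact ⟨y, by simp [nsmul_eq_mul]⟩
  rw [this]
  rfl

/-- The image of the order in the residue ring. -/
def ordR (m : LatticeBasis n K) : AddSubgroup (RR K (fIdx m)) :=
  (ordO m).map (Ideal.Quotient.mk (Ideal.span {(fIdx m : 𝓞 K)})).toAddMonoidHom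

theorem card_ordR (m : LatticeBasis n K) :
    Nat.card (ordR m) * fIdx m = (fIdx m) ^ n := by
  have h1 : (ordR m).index = fIdx m := by
    refine Eq.trans ?_ (index_ordO m)
    unfold ordR
    apply AddSubgroup.index_map_eq
    · exact Ideal.Quotient.mk_surjective
    · intro x hx
      have hx' : Ideal.Quotient.mk (Ideal.span {(fIdx m : 𝓞 K)}) x = 0 := hx
      rw [Ideal.Quotient.eq_zero_iff_mem, Ideal.mem_span_singleton] at hx'
      obtain ⟨y, rfl⟩ := hx'
      rw [mem_ordO]
      push_cast
      exact fIdx_mul_mem' m y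
  have h2 := (ordR m).card_mul_index
  rw [h1, card_RR (Sl_652.finrank_eq m)] at h2
  exact h2

/-- A unit of the residue ring lifts to `u ≠ 0` with `u v + f w = 1`. -/
theorem exists_lift {f : ℕ} (hf : f ≠ 0) (a : (RR K f)ˣ) :
    ∃ u v w : 𝓞 K, u ≠ 0 ∧ Ideal.Quotient.mk _ u = (a : RR K f) ∧
      Ideal.Quotient.mk _ v = ((a⁻¹ : (RR K f)ˣ) : RR K f) ∧ u * v + (f : 𝓞 K) * w = 1 := by
  obtain ⟨u0, hu0⟩ := Ideal.Quotient.mk_surjective (a : RR K f)
  obtain ⟨v, hv⟩ := Ideal.Quotient.mk_surjective ((a⁻¹ : (RR K f)ˣ) : RR K f)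
  have hf' : (f : 𝓞 K) ≠ 0 := by exact_mod_cast hf
  have hff : Ideal.Quotient.mk (Ideal.span {(f : 𝓞 K)}) (f : 𝓞 K) = 0 :=
    Ideal.Quotient.eq_zero_iff_mem.mpr (Ideal.mem_span_singleton_self _)
  obtain ⟨u, hu, hu1⟩ : ∃ u : 𝓞 K, u ≠ 0 ∧ Ideal.Quotient.mk _ u = (a : RR K f) := by
    by_cases h : u0 = 0
    · refine ⟨u0 + f, ?_, ?_⟩
      · rw [h, zero_add]; exact hf'
      · rw [map_add, hff, add_zero, hu0]
    · exact ⟨u0, h, hu0⟩
  have h1 : Ideal.Quotient.mk (Ideal.span {(f : 𝓞 K)}) (1 - u * v) = 0 := by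
    rw [map_sub, map_mul, hu1, hv, map_one, Units.mul_inv, sub_self]
  rw [Ideal.Quotient.eq_zero_iff_mem, Ideal.mem_span_singleton] at h1
  obtain ⟨w, hw⟩ := h1
  exact ⟨u, v, w, hu, hu1, hv, by rw [← hw]; ring⟩

/-- There are at least `|(𝓞/f)ˣ| f / f ^ n` lattices locally homothetic to `M` over every
fractional ideal. -/
theorem exists_fibre (m : LatticeBasis n K) (hf : fIdx m ≠ 0) (I : Submodule (𝓞 K) K) (hI : I.FG)
    (hI0 : I ≠ ⊥) :
    ∃ S : Finset (Submodule ℤ K), (∀ N ∈ S, LocHom m.lattice N ∧ Over (fIdx m) I N) ∧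
      Nat.card (RR K (fIdx m))ˣ * fIdx m ≤ S.card * (fIdx m) ^ n := by
  classical
  obtain ⟨N, hN, hov⟩ := base_point m.lattice (fIdx m) hf (spanO m.lattice) (spanO_over m)
    (spanO_fg (Sl_652.lattice_fg m)) (spanO_ne_bot m) I hI hI0
  have hfinR : Finite (RR K (fIdx m)) :=
    Ideal.finiteQuotientOfFreeOfNeBot _ (by
      rw [Ne, Ideal.span_singleton_eq_bot]; exact_mod_cast hf)
  have : Fintype (RR K (fIdx m))ˣ := Fintype.ofFinite _
  choose u v w hu0 hu hv huvw using fun a : (RR K (fIdx m))ˣ => exists_lift hf a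
  let g : (RR K (fIdx m))ˣ → Submodule ℤ K := fun a => twist (fIdx m) I N (u a)
  refine ⟨Finset.univ.image g, ?_, ?_⟩
  · intro N' hN'
    obtain ⟨a, _, rfl⟩ := Finset.mem_image.mp hN'
    exact ⟨hN.trans (twist_locHom hf hov (huvw a) (hu0 a)), twist_over hov (huvw a)⟩
  · -- each fibre of `g` injects into `ordR m`
    have hfib : ∀ N' ∈ Finset.univ.image g,
        (Finset.univ.filter fun a => g a = N').card ≤ Nat.card (ordR m) := by
      intro N' hN'
      obtain ⟨a, _, rfl⟩ := Finset.mem_image.mp hN'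
      have hmem : ∀ b ∈ Finset.univ.filter (fun b => g b = g a),
          ((a⁻¹ * b : (RR K (fIdx m))ˣ) : RR K (fIdx m)) ∈ ordR m := by
        intro b hb
        have hb' : g b = g a := (Finset.mem_filter.mp hb).2
        refine ⟨v a * u b, ?_, ?_⟩
        · show v a * u b ∈ ordO m
          rw [mem_ordO]
          exact mult_of_locHom hN (twist_inj hov (huvw a) hb'.symm)
        · show Ideal.Quotient.mk _ (v a * u b) = _
          rw [map_mul, hv, hu, Units.val_mul]
      have hinj : Function.Injective (fun b : {b // b ∈ Finset.univ.filter (fun b => g b = g a)} =>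
          (⟨((a⁻¹ * b.1 : (RR K (fIdx m))ˣ) : RR K (fIdx m)), hmem b.1 b.2⟩ : ordR m)) := by
        intro b c hbc
        have h1 := congrArg Subtype.val hbc
        have h2 : a⁻¹ * b.1 = a⁻¹ * c.1 := Units.ext h1
        exact Subtype.ext (mul_left_cancel h2)
      have h3 := Nat.card_le_card_of_injective _ hinj
      rwa [Nat.card_eq_fintype_card, Fintype.card_coe] at h3
    have h4 : Fintype.card (RR K (fIdx m))ˣ ≤ (Finset.univ.image g).card * Nat.card (ordR m) := by
      rw [← Finset.card_univ]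
      rw [mul_comm]
      exact Finset.card_le_mul_card_image Finset.univ _ hfib
    rw [Nat.card_eq_fintype_card]
    calc Fintype.card (RR K (fIdx m))ˣ * fIdx m
        ≤ (Finset.univ.image g).card * Nat.card (ordR m) * fIdx m := Nat.mul_le_mul_right _ h4
      _ = (Finset.univ.image g).card * (fIdx m) ^ n := by rw [mul_assoc, card_ordR]

end Crest.Agent.R014.Vol3_834
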