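import Crest.Agent.R014.Vol3_834
import Crest.Agent.R014.DivB_684

/-!
Volume of the packet of an arbitrary lattice (row 14), part 4 (helper834).

Lower bound for the number of units modulo `f`.
-/

namespace Crest.Agent.R014.Vol4_834

open Module NumberField Vol3_834 UniqueFactorizationMonoid DivB_684
open scoped nonZeroDivisors

set_option linter.unusedSectionVars false
set_option linter.unusedVariables false

universe u

variable {K : Type u} [Field K] [NumberField K]

/-- In a finite ring in which the complement of a proper additive subgroup consists of units, at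
least half of the elements are units. -/
theorem card_le_two_mul_units {A : Type*} [CommRing A] [Finite A] (S : AddSubgroup A)
    (hS : (1 : A) ∉ S) (hu : ∀ a : A, a ∉ S → IsUnit a) : Nat.card A ≤ 2 * Nat.card Aˣ := by
  classical
  have hidx : 2 ≤ S.index := by
    by_contra h
    push Not at h
    have h1 : S.index ≠ 0 := AddSubgroup.index_ne_zero_of_finite
    have h2 : S.index = 1 := by omega
    rw [AddSubgroup.index_eq_one] at h2
    rw [h2] at hS
    exact hS trivial
  have h1 : Nat.card S * 2 ≤ Nat.card A := by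
    calc Nat.card S * 2 ≤ Nat.card S * S.index := Nat.mul_le_mul_left _ hidx
      _ = Nat.card A := S.card_mul_index
  have h2 : Nat.card A ≤ Nat.card S + Nat.card Aˣ := by
    have hinj : Function.Injective (fun a : A => if h : a ∈ S then (Sum.inl ⟨a, h⟩ : S ⊕ Aˣ)
        else Sum.inr (hu a h).unit) := by
      intro a b hab
      by_cases ha : a ∈ S <;> by_cases hb : b ∈ S
      · simp only [ha, hb, dif_pos] at hab
        exact congrArg Subtype.val (Sum.inl.inj hab)
      · simp [ha, hb] at hab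
      · simp [ha, hb] at hab
      · simp only [ha, hb, dif_neg, not_false_iff] at hab
        have := congrArg Units.val (Sum.inr.inj hab)
        simpa using this
    have h3 := Nat.card_le_card_of_injective _ hinj
    rwa [Nat.card_sum] at h3
  omega

theorem card_le_two_mul_units_prime (P : Ideal (𝓞 K)) (hP : P.IsPrime) (hP0 : P ≠ ⊥) (e : ℕ)
    (he : e ≠ 0) : Nat.card (𝓞 K ⧸ P ^ e) ≤ 2 * Nat.card (𝓞 K ⧸ P ^ e)ˣ := by
  have hfin : Finite (𝓞 K ⧸ P ^ e) :=
    Ideal.finiteQuotientOfFreeOfNeBot _ (pow_ne_zero e hP0)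
  have hmax : P.IsMaximal := hP.isMaximal hP0
  refine card_le_two_mul_units ((P.map (Ideal.Quotient.mk (P ^ e))).toAddSubgroup) ?_ ?_
  · intro h
    have h1 : (1 : 𝓞 K ⧸ P ^ e) ∈ P.map (Ideal.Quotient.mk (P ^ e)) := h
    rw [← map_one (Ideal.Quotient.mk (P ^ e)), Ideal.mem_quotient_iff_mem
      (Ideal.pow_le_self he)] at h1
    exact hP.ne_top ((Ideal.eq_top_iff_one P).mpr h1)
  · intro a ha
    obtain ⟨x, rfl⟩ := Ideal.Quotient.mk_surjective a
    have hx : x ∉ P := by
      intro hx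
      exact ha (Ideal.mem_map_of_mem _ hx)
    have hco : IsCoprime (Ideal.span {x}) (P ^ e) := by
      apply IsCoprime.pow_right
      rw [Ideal.isCoprime_iff_sup_eq]
      by_contra hne
      have h2 : P ≤ Ideal.span {x} ⊔ P := le_sup_right
      have h3 := hmax.eq_of_le hne h2
      apply hx
      rw [h3]
      exact Ideal.mem_sup_left (Ideal.mem_span_singleton_self x)
    rw [Ideal.isCoprime_iff_exists] at hco
    obtain ⟨y, hy, z, hz, hyz⟩ := hco
    obtain ⟨t, rfl⟩ := Ideal.mem_span_singleton.mp hy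
    refine IsUnit.of_mul_eq_one (Ideal.Quotient.mk _ t) ?_
    rw [← map_mul, ← map_one (Ideal.Quotient.mk (P ^ e)), Ideal.Quotient.eq]
    have : x * t - 1 = -z := by rw [← hyz]; ring
    rw [this]
    exact neg_mem hz

/-- Half the elements at each prime. -/
theorem card_quot_le (I : Ideal (𝓞 K)) (hI : I ≠ ⊥) :
    Nat.card (𝓞 K ⧸ I) ≤ 2 ^ (normalizedFactors I).toFinset.card * Nat.card (𝓞 K ⧸ I)ˣ := by
  classical
  let e := IsDedekindDomain.quotientEquivPiFactors hI
  have hfac : (factors I).toFinset.card = (normalizedFactors I).toFinset.card := by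
    rw [factors_eq_normalizedFactors]
  have h1 : Nat.card (𝓞 K ⧸ I) = ∏ P : (factors I).toFinset,
      Nat.card (𝓞 K ⧸ (P : Ideal (𝓞 K)) ^ (factors I).count (P : Ideal (𝓞 K))) := by
    rw [Nat.card_congr e.toEquiv, Nat.card_pi]
  have h2 : Nat.card (𝓞 K ⧸ I)ˣ = ∏ P : (factors I).toFinset,
      Nat.card (𝓞 K ⧸ (P : Ideal (𝓞 K)) ^ (factors I).count (P : Ideal (𝓞 K)))ˣ := by
    rw [Nat.card_congr (Units.mapEquiv e.toMulEquiv).toEquiv,
      Nat.card_congr MulEquiv.piUnits.toEquiv, Nat.card_pi]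
  rw [h1, h2, ← hfac]
  have h3 : (2 : ℕ) ^ (factors I).toFinset.card = ∏ P : (factors I).toFinset, 2 := by
    rw [Finset.prod_const, Finset.card_univ, Fintype.card_coe]
  rw [h3, ← Finset.prod_mul_distrib]
  apply Finset.prod_le_prod'
  rintro ⟨P, hP⟩ _
  have hP' : P ∈ factors I := Multiset.mem_toFinset.mp hP
  have hpr : Prime P := prime_of_factor P hP'
  exact card_le_two_mul_units_prime P (Ideal.isPrime_of_prime hpr) hpr.ne_zero _
    (Multiset.count_ne_zero.mpr hP')

/-- The divisor product bound (684). -/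
theorem prod_count_le {ε : ℝ} (hε : 0 < ε) {a : Ideal (𝓞 K)} (ha : a ≠ ⊥) :
    ∏ P ∈ (normalizedFactors a).toFinset, (((normalizedFactors a).count P : ℝ) + 1) ≤
      CDiv (Module.finrank ℚ K) ε * (Ideal.absNorm a : ℝ) ^ ε := by
  classical
  set F := normalizedFactors a with hF
  set A : ℝ := 1 + 1 / (ε * Real.log 2) with hA
  have hl2 : 0 < Real.log 2 := Real.log_pos (by norm_num)
  have hA1 : 1 ≤ A := by
    have : 0 < 1 / (ε * Real.log 2) := by positivity
    rw [hA]; linarith
  have hprime : ∀ P ∈ F.toFinset, P.IsPrime ∧ P ≠ ⊥ ∧ 2 ≤ Ideal.absNorm P := by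
    intro P hP
    rw [Multiset.mem_toFinset] at hP
    have h1 : Prime P := prime_of_normalized_factor P hP
    have h2 : P.IsPrime := Ideal.isPrime_of_prime h1
    exact ⟨h2, h1.ne_zero, two_le_absNorm h2 h1.ne_zero⟩
  set Y : ℝ := (2 : ℝ) ^ (1 / ε) with hY
  have hYpos : 0 < Y := by positivity
  have h2 : ∏ P ∈ F.toFinset, ((F.count P : ℝ) + 1) ≤
      ∏ P ∈ F.toFinset, ((if (Ideal.absNorm P : ℝ) < Y then A else 1) *
        (((Ideal.absNorm P : ℝ) ^ F.count P) ^ ε)) := by
    apply Finset.prod_le_prod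
    · intro P _; positivity
    · intro P hP
      obtain ⟨_, _, hP2⟩ := hprime P hP
      by_cases hlt : (Ideal.absNorm P : ℝ) < Y
      · rw [if_pos hlt]; exact add_one_le_mul hε hP2 _
      · rw [if_neg hlt, one_mul]
        apply add_one_le_of_large
        push Not at hlt
        have h3 : Y ^ ε ≤ (Ideal.absNorm P : ℝ) ^ ε := Real.rpow_le_rpow hYpos.le hlt hε.le
        have h4 : Y ^ ε = 2 := by
          rw [hY, ← Real.rpow_mul (by norm_num)]
          rw [one_div_mul_cancel hε.ne', Real.rpow_one]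
        linarith
  have h3 : ∏ P ∈ F.toFinset, (((Ideal.absNorm P : ℝ) ^ F.count P) ^ ε) =
      (Ideal.absNorm a : ℝ) ^ ε := by
    rw [Real.finsetProd_rpow _ _ (fun P _ => by positivity)]
    congr 1
    rw [absNorm_eq_prod ha]
    push_cast
    rfl
  have h4 : ∏ P ∈ F.toFinset, (if (Ideal.absNorm P : ℝ) < Y then A else 1) ≤
      CDiv (Module.finrank ℚ K) ε := by
    rw [Finset.prod_ite, Finset.prod_const, Finset.prod_const_one, mul_one]
    rw [CDiv]
    apply pow_le_pow_right₀ hA1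
    apply card_primes_norm_le
    intro P hP
    rw [Finset.mem_filter] at hP
    obtain ⟨h5, h6, _⟩ := hprime P hP.1
    refine ⟨h5, h6, ?_⟩
    have h7 : (Ideal.absNorm P : ℝ) ≤ ⌈Y⌉₊ := hP.2.le.trans (Nat.le_ceil Y)
    exact_mod_cast h7
  calc ∏ P ∈ F.toFinset, ((F.count P : ℝ) + 1) ≤ _ := h2
    _ = (∏ P ∈ F.toFinset, (if (Ideal.absNorm P : ℝ) < Y then A else 1)) *
          ∏ P ∈ F.toFinset, (((Ideal.absNorm P : ℝ) ^ F.count P) ^ ε) := Finset.prod_mul_distrib
    _ ≤ CDiv (Module.finrank ℚ K) ε * (Ideal.absNorm a : ℝ) ^ ε := by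
        rw [h3]
        exact mul_le_mul_of_nonneg_right h4 (by positivity)

theorem two_pow_le {ε : ℝ} (hε : 0 < ε) {a : Ideal (𝓞 K)} (ha : a ≠ ⊥) :
    (2 : ℝ) ^ (normalizedFactors a).toFinset.card ≤
      CDiv (Module.finrank ℚ K) ε * (Ideal.absNorm a : ℝ) ^ ε := by
  classical
  refine le_trans ?_ (prod_count_le hε ha)
  rw [← Finset.prod_const]
  apply Finset.prod_le_prod
  · intro P _; norm_num
  · intro P hP
    have h1 : 0 < (normalizedFactors a).count P :=
      Multiset.count_pos.mpr (Multiset.mem_toFinset.mp hP)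
    have h2 : (1 : ℝ) ≤ (normalizedFactors a).count P := by exact_mod_cast h1
    linarith

/-- `|(𝓞/f)ˣ| ≥ C(n,ε)⁻¹ f ^ (n - nε)`. -/
theorem card_units_ge {n : ℕ} (hn : finrank ℚ K = n) {ε : ℝ} (hε : 0 < ε) (f : ℕ) (hf : f ≠ 0) :
    (f : ℝ) ^ n ≤ CDiv n ε * ((f : ℝ) ^ n) ^ ε * Nat.card (RR K f)ˣ := by
  have hI : (Ideal.span {(f : 𝓞 K)} : Ideal (𝓞 K)) ≠ ⊥ := by
    rw [Ne, Ideal.span_singleton_eq_bot]; exact_mod_cast hf
  have h1 := card_quot_le (Ideal.span {(f : 𝓞 K)}) hI
  have h2 := two_pow_le hε hI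
  have h3 : Nat.card (RR K f) = f ^ n := card_RR hn f
  have h4 : Ideal.absNorm (Ideal.span {(f : 𝓞 K)}) = f ^ n := by
    rw [absNorm_span_nat, hn]
  rw [h4, hn] at h2
  push_cast at h2
  have h5 : ((f ^ n : ℕ) : ℝ) ≤ (2 : ℝ) ^ (normalizedFactors (Ideal.span {(f : 𝓞 K)})).toFinset.card *
      Nat.card (RR K f)ˣ := by
    rw [← h3]; exact_mod_cast h1
  push_cast at h5
  calc (f : ℝ) ^ n ≤ _ := h5
    _ ≤ _ := mul_le_mul_of_nonneg_right h2 (by positivity)

end Crest.Agent.R014.Vol4_834
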