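import Crest.Agent.R014.Vol4_834
import Crest.Agent.R014.Pk5_349
import Crest.Agent.R014.Cnf2_652

/-!
Volume of the packet of an arbitrary lattice (row 14), part 5 (helper834).

Comparison of the packet of `M` with the packet of the maximal order.
-/

set_option autoImplicit false
set_option linter.unusedSectionVars false
set_option linter.unusedVariables false

open MeasureTheory Matrix Module NumberField
open scoped ENNReal Pointwise
open Crest.NumberTheoryR.Packets

namespace Crest.Agent.R014.Vol5_834

open Crest.Agent.R014.Pk1_349 Crest.Agent.R014.Pk2_349 Crest.Agent.R014.Pk3_349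
open Crest.Agent.R014.Pk4_349 Crest.Agent.R014.Pk5_349
open Crest.Agent.R014.Vol2_834 Crest.Agent.R014.Vol3_834 Crest.Agent.R014.Vol4_834

universe u

variable {d : ℕ} {K : Type u} [Field K] [NumberField K]

/-- Index of the period lattices and volumes of the fundamental domains. -/
theorem volume_fd_index {m mO : LatticeBasis (d + 1) K} {σ : Fin (d + 1) ≃ (K →+* ℝ)}
    (hle : perLat m σ ≤ perLat mO σ) :
    (perLat m σ).relIndex (perLat mO σ) ≠ 0 ∧
      volume (fd m σ) = ((perLat m σ).relIndex (perLat mO σ) : ℝ≥0∞) * volume (fd mO σ) := by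
  classical
  set b1 := (exists_basis_perLat m σ).choose with hb1
  have h1 : perLat m σ = (Submodule.span ℤ (Set.range b1)).toAddSubgroup :=
    (exists_basis_perLat m σ).choose_spec
  set b2 := (exists_basis_perLat mO σ).choose with hb2
  have h2 : perLat mO σ = (Submodule.span ℤ (Set.range b2)).toAddSubgroup :=
    (exists_basis_perLat mO σ).choose_spec
  have hf1 : fd m σ = ZSpan.fundamentalDomain b1 := rfl
  have hf2 : fd mO σ = ZSpan.fundamentalDomain b2 := rfl
  have hle' : Submodule.span ℤ (Set.range b1) ≤ Submodule.span ℤ (Set.range b2) := by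
    intro x hx
    have : x ∈ perLat m σ := by rw [h1]; exact hx
    have := hle this
    rw [h2] at this
    exact this
  have hr := ZLattice.covolume_div_covolume_eq_relIndex
    (Submodule.span ℤ (Set.range b1)) (Submodule.span ℤ (Set.range b2)) hle'
  rw [← h1, ← h2] at hr
  have hc1 : ZLattice.covolume (Submodule.span ℤ (Set.range b1)) = volume.real (fd m σ) := by
    rw [hf1]
    exact ZLattice.covolume_eq_measure_fundamentalDomain _ _ (ZSpan.isAddFundamentalDomain b1 volume)
  have hc2 : ZLattice.covolume (Submodule.span ℤ (Set.range b2)) = volume.real (fd mO σ) := by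
    rw [hf2]
    exact ZLattice.covolume_eq_measure_fundamentalDomain _ _ (ZSpan.isAddFundamentalDomain b2 volume)
  rw [hc1, hc2] at hr
  have hp1 : 0 < volume.real (fd m σ) :=
    ENNReal.toReal_pos (volume_fd_ne_zero m σ) (volume_fd_ne_top m σ)
  have hp2 : 0 < volume.real (fd mO σ) :=
    ENNReal.toReal_pos (volume_fd_ne_zero mO σ) (volume_fd_ne_top mO σ)
  have hr' : volume.real (fd m σ) =
      ((perLat m σ).relIndex (perLat mO σ) : ℝ) * volume.real (fd mO σ) := by
    rw [← hr]; field_simp
  refine ⟨?_, ?_⟩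
  · intro h0
    rw [h0, Nat.cast_zero, zero_mul] at hr'
    exact hp1.ne' hr'
  · rw [← ENNReal.toReal_eq_toReal_iff' (volume_fd_ne_top m σ)
      (ENNReal.mul_ne_top (ENNReal.natCast_ne_top _) (volume_fd_ne_top mO σ)),
      ENNReal.toReal_mul, ENNReal.toReal_natCast]
    exact hr'

theorem ne_zero_of_pos {σ : Fin (d + 1) ≃ (K →+* ℝ)} {c : K} (hc : ∀ j, 0 < σ j c) : c ≠ 0 := by
  intro h
  have := hc 0
  rw [h, map_zero] at this
  exact lt_irrefl _ this

theorem cM_of_iff {c : K} {M M' : Submodule ℤ K} (h : ∀ x, x ∈ M' ↔ ∃ y ∈ M, x = c * y) :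
    cM c M = M' := by
  ext x
  rw [h x, mem_cM]
  exact ⟨fun ⟨y, hy, e⟩ => ⟨y, hy, e.symm⟩, fun ⟨y, hy, e⟩ => ⟨y, hy, e.symm⟩⟩

/-- A totally positive unit of the multiplier order is `aVec` of its logarithms, which form a
period. -/
theorem log_mem_perLat {m : LatticeBasis (d + 1) K} {σ : Fin (d + 1) ≃ (K →+* ℝ)} {c : K}
    (hc : ∀ j, 0 < σ j c) (h : cM c m.lattice = m.lattice) :
    (fun i : Fin d => Real.log (σ i.castSucc c)) ∈ perLat m σ ∧
      ∀ j, σ j c = aVec (fun i : Fin d => Real.log (σ i.castSucc c)) j := by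
  have h1 : ∏ j, σ j c = 1 := by
    have := abs_prod_unit (σ := σ) h
    rwa [abs_of_pos (Finset.prod_pos fun j _ => hc j)] at this
  have h2 := eq_aVec (t := fun j => σ j c) hc h1
  have h3 : ∀ j, σ j c = aVec (fun i : Fin d => Real.log (σ i.castSucc c)) j := fun j =>
    congrFun h2 j
  exact ⟨mem_perLat'.mpr ⟨c, h, h3⟩, h3⟩

theorem aVec_sub (u v : Fin d → ℝ) (j : Fin (d + 1)) : aVec (u - v) j = aVec u j / aVec v j := by
  have h := congrFun (aVec_add (u - v) v) j
  rw [sub_add_cancel, Pi.mul_apply] at h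
  rw [h, mul_div_assoc, div_self (aVec_pos v j).ne', mul_one]

/-- The key counting step. -/
theorem card_mul_le {m mO : LatticeBasis (d + 1) K} (hO : mO.IsMaximalOrder)
    (σ : Fin (d + 1) ≃ (K →+* ℝ)) (hle : perLat m σ ≤ perLat mO σ) :
    (packetOrbits mO σ).ncard * (Nat.card (RR K (fIdx m))ˣ * fIdx m) ≤
      (perLat m σ).relIndex (perLat mO σ) * (packetOrbits m σ).ncard * (fIdx m) ^ (d + 1) := by
  classical
  have hf := fIdx_ne_zero m σ
  set r := (perLat m σ).relIndex (perLat mO σ) with hr
  obtain ⟨hr0, -⟩ := volume_fd_index hle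
  rw [← hr] at hr0
  have hfinO := finite_packetOrbits mO σ
  have hfinm := finite_packetOrbits m σ
  -- representatives of the orbits over the maximal order
  have hrep : ∀ O : {O // O ∈ hfinO.toFinset}, ∃ m' : LatticeBasis (d + 1) K,
      LocallyHomothetic mO m' ∧ O.1 = Set.range (orbitMap (latticePoint m' σ)) := by
    rintro ⟨O, hOm⟩
    rw [Set.Finite.mem_toFinset, packetOrbits_eq] at hOm
    exact hOm
  choose mm hmm hOr using hrep
  -- the lattice of `mm O` is stable under `𝓞 K`
  have hstab : ∀ O, ∀ a : 𝓞 K, ∀ x ∈ (mm O).lattice, (a : K) * x ∈ (mm O).lattice := by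
    intro O a x hx
    have h1 : (a : K) ∈ multiplierOrder (mm O) := by
      rw [← mult_eq_of_lh (hmm O), Cnf_652.mem_multiplierOrder_max hO]
      exact RingOfIntegers.isIntegral_coe a
    exact h1 x hx
  let I : {O // O ∈ hfinO.toFinset} → Submodule (𝓞 K) K := fun O => spanO (mm O).lattice
  have hImem : ∀ O x, x ∈ I O ↔ x ∈ (mm O).lattice := by
    intro O x
    constructor
    · intro hx
      have hx' : x ∈ Submodule.span (𝓞 K) ((mm O).lattice : Set K) := hx
      clear hx
      induction hx' using Submodule.span_induction with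
      | mem y hy => exact hy
      | zero => exact zero_mem _
      | add a b _ _ ha hb => exact add_mem ha hb
      | smul a x _ hx => rw [Algebra.smul_def]; exact hstab O a x hx
    · intro hx; exact Submodule.subset_span hx
  have hex := fun O => exists_fibre m hf (I O) (spanO_fg (Sl_652.lattice_fg (mm O)))
    (spanO_ne_bot (mm O))
  choose S hS hScard using hex
  -- lattice bases of the members
  have hlb : ∀ O, ∀ N ∈ S O, ∃ m' : LatticeBasis (d + 1) K, m'.lattice = N := by
    intro O N hN
    obtain ⟨h1, h2⟩ := hS O N hN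
    have hle1 : N ≤ (mm O).lattice := fun x hx => (hImem O x).mp (h2.le x hx)
    refine Sl_652.exists_latticeBasis (Sl_652.finrank_eq m) N ?_ ?_
    · have hnoeth : IsNoetherian ℤ (mm O).lattice := by
        have : Module.Finite ℤ (mm O).lattice := Module.Finite.iff_fg.mpr (Sl_652.lattice_fg _)
        infer_instance
      have h3 : IsNoetherian ℤ N := isNoetherian_of_le hle1
      exact (Submodule.fg_top _).mp (h3.noetherian ⊤)
    · intro x
      obtain ⟨k, hk, hkx⟩ := Sl_652.exists_mul_mem (mm O) x
      refine ⟨fIdx m * k, mul_ne_zero hf hk, ?_⟩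
      have := h2.ge _ ((hImem O _).mpr hkx)
      push_cast
      rwa [mul_assoc]
  -- the total set
  let T : Finset (Σ _ : {O // O ∈ hfinO.toFinset}, Submodule ℤ K) :=
    (Finset.univ : Finset {O // O ∈ hfinO.toFinset}).sigma S
  have hTmem : ∀ p ∈ T, p.2 ∈ S p.1 := fun p hp => (Finset.mem_sigma.mp hp).2
  have hne : Nonempty (LatticeBasis (d + 1) K) := ⟨m⟩
  choose! lb hlb' using hlb
  let g : (Σ _ : {O // O ∈ hfinO.toFinset}, Submodule ℤ K) → Set (ModSpace (d + 1)) := fun p =>
    Set.range (orbitMap (latticePoint (lb p.1 p.2) σ))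
  have hlbLH : ∀ p ∈ T, LocallyHomothetic m (lb p.1 p.2) := by
    intro p hp
    rw [locHom_iff, hlb' p.1 p.2 (hTmem p hp)]
    exact (hS p.1 p.2 (hTmem p hp)).1
  have hg : ∀ p ∈ T, g p ∈ hfinm.toFinset := by
    intro p hp
    rw [Set.Finite.mem_toFinset, packetOrbits_eq]
    exact ⟨_, hlbLH p hp, rfl⟩
  -- fibres of g
  have hfib : ∀ O' ∈ hfinm.toFinset, (T.filter fun p => g p = O').card ≤ r := by
    intro O' _
    by_cases hne : (T.filter fun p => g p = O').Nonempty
    · obtain ⟨p0, hp0⟩ := hne
      obtain ⟨hp0T, hp0g⟩ := Finset.mem_filter.mp hp0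
      -- every element of the fibre is `(O, c N₀)`
      have hkey : ∀ p ∈ T.filter (fun p => g p = O'), ∃ c : K, (∀ j, 0 < σ j c) ∧
          p.1 = p0.1 ∧ p.2 = cM c p0.2 ∧ cM c (mm p0.1).lattice = (mm p0.1).lattice := by
        intro p hp
        obtain ⟨hpT, hpg⟩ := Finset.mem_filter.mp hp
        have h1 : g p0 = g p := by rw [hp0g, hpg]
        obtain ⟨c, hc, hcx⟩ := (range_eq_iff (lb p0.1 p0.2) (lb p.1 p.2) σ).mp h1
        have h2 : cM c p0.2 = p.2 := by
          have := cM_of_iff hcx
          rwa [hlb' p0.1 p0.2 (hTmem p0 hp0T), hlb' p.1 p.2 (hTmem p hpT)] at this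
        have hc0 := ne_zero_of_pos hc
        -- c I₀ = I
        have h3 : cM c (mm p0.1).lattice = (mm p.1).lattice := by
          have hov0 := (hS p0.1 p0.2 (hTmem p0 hp0T)).2
          have hov := (hS p.1 p.2 (hTmem p hpT)).2
          apply le_antisymm
          · intro z hz
            obtain ⟨y, hy0, rfl⟩ := mem_cM.mp hz
            have hy := (hImem p0.1 y).mpr hy0
            refine (hImem p.1 _).mp ?_
            rw [← hov0.span] at hy
            clear hz hy0
            induction hy using Submodule.span_induction with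
            | mem y hy =>
              apply hov.le
              rw [← h2]
              exact mem_cM.mpr ⟨y, hy, rfl⟩
            | zero => rw [mul_zero]; exact zero_mem _
            | add a b _ _ ha hb => rw [mul_add]; exact add_mem ha hb
            | smul a x _ hx => rw [mul_smul_comm]; exact Submodule.smul_mem _ _ hx
          · intro y hy0
            rw [mem_cM' hc0]
            have hy := (hImem p.1 y).mpr hy0
            refine (hImem p0.1 _).mp ?_
            rw [← hov.span] at hy
            clear hy0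
            induction hy using Submodule.span_induction with
            | mem y hy =>
              apply hov0.le
              have hy' : y ∈ p.2 := hy
              rw [← h2, mem_cM' hc0] at hy'
              exact hy'
            | zero => rw [mul_zero]; exact zero_mem _
            | add a b _ _ ha hb => rw [mul_add]; exact add_mem ha hb
            | smul a x _ hx => rw [mul_smul_comm]; exact Submodule.smul_mem _ _ hx
        have h4 : p0.1 = p.1 := by
          apply Subtype.ext
          rw [hOr p0.1, hOr p.1, range_eq_iff]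
          refine ⟨c, hc, fun x => ?_⟩
          rw [← h3, mem_cM]
          exact ⟨fun ⟨y, hy, e⟩ => ⟨y, hy, e.symm⟩, fun ⟨y, hy, e⟩ => ⟨y, hy, e.symm⟩⟩
        exact ⟨c, hc, h4.symm, h2.symm, by rw [h3, h4]⟩
      choose! c hc hc1 hc2 hc3 using hkey
      -- the map to the quotient
      have hper : perLat (mm p0.1) σ = perLat mO σ := perLat_eq_of_lh σ (hmm p0.1)
      let u : (Σ _ : {O // O ∈ hfinO.toFinset}, Submodule ℤ K) → (Fin d → ℝ) := fun p i =>
        Real.log (σ i.castSucc (c p))
      have hu : ∀ p ∈ T.filter (fun p => g p = O'), u p ∈ perLat mO σ ∧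
          ∀ j, σ j (c p) = aVec (u p) j := by
        intro p hp
        have := log_mem_perLat (hc p hp) (hc3 p hp)
        rw [hper] at this
        exact this
      let φ : {p // p ∈ T.filter (fun p => g p = O')} →
          (perLat mO σ ⧸ (perLat m σ).addSubgroupOf (perLat mO σ)) := fun p =>
        QuotientAddGroup.mk ⟨u p.1, (hu p.1 p.2).1⟩
      have hφ : Function.Injective φ := by
        rintro ⟨p, hp⟩ ⟨p', hp'⟩ h
        have h1 : (⟨u p, (hu p hp).1⟩ : perLat mO σ) - ⟨u p', (hu p' hp').1⟩ ∈
            (perLat m σ).addSubgroupOf (perLat mO σ) := by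
          have h' := QuotientAddGroup.eq.mp h.symm
          have e : (⟨u p, (hu p hp).1⟩ : perLat mO σ) - ⟨u p', (hu p' hp').1⟩ =
              -⟨u p', (hu p' hp').1⟩ + ⟨u p, (hu p hp).1⟩ := by abel
          rw [e]; exact h'
        rw [AddSubgroup.mem_addSubgroupOf] at h1
        have h2 : u p - u p' ∈ perLat m σ := h1
        obtain ⟨e, he, he'⟩ := mem_perLat'.mp h2
        have h3 : σ 0 e = σ 0 (c p / c p') := by
          rw [he' 0, aVec_sub, map_div₀, (hu p hp).2 0, (hu p' hp').2 0]
        have h4 : e = c p / c p' := (σ 0).injective h3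
        have hcp' : c p' ≠ 0 := ne_zero_of_pos (hc p' hp')
        have he0 : e ≠ 0 := by
          rw [h4]; exact div_ne_zero (ne_zero_of_pos (hc p hp)) hcp'
        have h5 : c p = c p' * e := by rw [h4]; field_simp
        -- e N₀ = N₀
        have h6 : cM e p0.2 = p0.2 := by
          have h7 := (cM_eq_iff (m := m) he0).mp he
          rw [mult_eq_of_lh (hlbLH p0 hp0T)] at h7
          have h8 := (cM_eq_iff (m := lb p0.1 p0.2) he0).mpr h7
          rwa [hlb' p0.1 p0.2 (hTmem p0 hp0T)] at h8
        have h9 : p.2 = p'.2 := by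
          rw [hc2 p hp, hc2 p' hp', h5, ← cM_cM, h6]
        have h10 : p.1 = p'.1 := by rw [hc1 p hp, hc1 p' hp']
        apply Subtype.ext
        exact Sigma.ext h10 (heq_of_eq h9)
      have hfinq : Finite (perLat mO σ ⧸ (perLat m σ).addSubgroupOf (perLat mO σ)) := by
        have : Nat.card (perLat mO σ ⧸ (perLat m σ).addSubgroupOf (perLat mO σ)) ≠ 0 := hr0
        exact Nat.finite_of_card_ne_zero this
      have h11 := Nat.card_le_card_of_injective φ hφ
      rw [Nat.card_eq_fintype_card, Fintype.card_coe] at h11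
      exact h11
    · rw [Finset.not_nonempty_iff_eq_empty] at hne
      rw [hne, Finset.card_empty]
      exact Nat.zero_le _
  have hT : T.card ≤ r * hfinm.toFinset.card := Finset.card_le_mul_card_image_of_maps_to hg r hfib
  have hTc : T.card = ∑ O, (S O).card := Finset.card_sigma _ _
  have hsum : (packetOrbits mO σ).ncard * (Nat.card (RR K (fIdx m))ˣ * fIdx m) ≤
      T.card * (fIdx m) ^ (d + 1) := by
    rw [hTc, Finset.sum_mul, Set.ncard_eq_toFinset_card _ hfinO]
    calc hfinO.toFinset.card * (Nat.card (RR K (fIdx m))ˣ * fIdx m)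
        = ∑ _O : {O // O ∈ hfinO.toFinset}, (Nat.card (RR K (fIdx m))ˣ * fIdx m) := by
          rw [Finset.sum_const, Finset.card_univ, Fintype.card_coe, smul_eq_mul]
      _ ≤ _ := Finset.sum_le_sum fun O _ => hScard O
  rw [Set.ncard_eq_toFinset_card _ hfinm]
  exact hsum.trans (Nat.mul_le_mul_right _ hT)

/-- The comparison of volumes. -/
theorem packVol_le {m mO : LatticeBasis (d + 1) K} (hO : mO.IsMaximalOrder)
    (σ : Fin (d + 1) ≃ (K →+* ℝ)) :
    ((Nat.card (RR K (fIdx m))ˣ * fIdx m : ℕ) : ℝ≥0∞) * packVol mO σ ≤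
      ((fIdx m : ℝ≥0∞) ^ (d + 1)) * packVol m σ := by
  have hle : perLat m σ ≤ perLat mO σ := by
    intro u hu
    obtain ⟨e, he1, he2, he3, he4⟩ := mem_perLat.mp hu
    refine mem_perLat.mpr ⟨e, ?_, ?_, he3, he4⟩
    · rw [Cnf_652.mem_multiplierOrder_max hO]; exact Sl_652.order_isIntegral he1
    · rw [Cnf_652.mem_multiplierOrder_max hO]; exact Sl_652.order_isIntegral he2
  obtain ⟨hr0, hv⟩ := volume_fd_index hle
  have h := card_mul_le hO σ hle
  unfold packVol
  rw [hv]
  have h' : (((packetOrbits mO σ).ncard * (Nat.card (RR K (fIdx m))ˣ * fIdx m) : ℕ) : ℝ≥0∞) ≤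
      (((perLat m σ).relIndex (perLat mO σ) * (packetOrbits m σ).ncard *
        (fIdx m) ^ (d + 1) : ℕ) : ℝ≥0∞) := by exact_mod_cast h
  calc ((Nat.card (RR K (fIdx m))ˣ * fIdx m : ℕ) : ℝ≥0∞) *
        (((packetOrbits mO σ).ncard : ℝ≥0∞) * volume (fd mO σ))
      = (((packetOrbits mO σ).ncard * (Nat.card (RR K (fIdx m))ˣ * fIdx m) : ℕ) : ℝ≥0∞) *
        volume (fd mO σ) := by push_cast; ring
    _ ≤ (((perLat m σ).relIndex (perLat mO σ) * (packetOrbits m σ).ncard *
        (fIdx m) ^ (d + 1) : ℕ) : ℝ≥0∞) * volume (fd mO σ) := by gcongr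
    _ = _ := by push_cast; ring

end Crest.Agent.R014.Vol5_834
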